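import Mathlib
import Crest.Prelude.Def_FinProb

/-!
Part X of S0077: the Russo–Margulis formula and the logistic differential inequality.
-/

set_option autoImplicit false

open Crest.FinProb

namespace Crest.Agent.BK

section X

variable {E : Type} [Fintype E] [DecidableEq E]

/-- `∑_{x ∈ A} weight` as an indicator sum -/
lemma X_prob_eq (p : ℝ) (f : (E → Bool) → Bool) :
    bernoulliProb p {x | f x = true} = ∑ x, bernoulliWeight p x * (if f x = true then 1 else 0) := by
  classical
  unfold bernoulliProb
  rw [Finset.sum_filter]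
  refine Finset.sum_congr rfl fun x _ => ?_
  by_cases h : f x = true
  · have : x ∈ {x | f x = true} := h
    rw [if_pos this, if_pos h, mul_one]
  · have : x ∉ {x | f x = true} := h
    rw [if_neg this, if_neg h, mul_zero]

lemma X_prob_ne (p : ℝ) (f g : (E → Bool) → Bool) :
    bernoulliProb p {x | f x ≠ g x} = ∑ x, bernoulliWeight p x * (if f x ≠ g x then 1 else 0) := by
  classical
  unfold bernoulliProb
  rw [Finset.sum_filter]
  refine Finset.sum_congr rfl fun x _ => ?_
  by_cases h : f x ≠ g x
  · have : x ∈ {x | f x ≠ g x} := h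
    rw [if_pos this, if_pos h, mul_one]
  · have : x ∉ {x | f x ≠ g x} := h
    rw [if_neg this, if_neg h, mul_zero]

lemma X_sum_pair (e : E) (F : (E → Bool) → ℝ) :
    2 * ∑ x, F x = ∑ x, (F (Function.update x e true) + F (Function.update x e false)) := by
  have hinv : Function.Involutive (fun x : E → Bool => Function.update x e (!x e)) := by
    intro x
    funext i
    by_cases h : i = e
    · subst h; simp
    · simp [h]
  have h1 : ∑ x, F x = ∑ x, F (Function.update x e (!x e)) :=
    (Equiv.sum_comp (hinv.toPerm _) F).symm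
  have h2 : 2 * ∑ x, F x = ∑ x, (F x + F (Function.update x e (!x e))) := by
    rw [Finset.sum_add_distrib, ← h1]; ring
  rw [h2]
  refine Finset.sum_congr rfl fun x _ => ?_
  have h3 : x = Function.update x e (x e) := by simp
  cases hx : x e
  · rw [hx] at h3
    rw [Bool.not_false, ← h3]
    ring
  · rw [hx] at h3
    rw [Bool.not_true, ← h3]

/-- the product of the weights of the coordinates other than `e` -/
noncomputable def X_W (p : ℝ) (e : E) (x : E → Bool) : ℝ :=
  ∏ i ∈ Finset.univ.erase e, if x i then p else 1 - p

lemma X_W_update (p : ℝ) (e : E) (x : E → Bool) (b : Bool) :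
    X_W p e (Function.update x e b) = X_W p e x := by
  unfold X_W
  refine Finset.prod_congr rfl fun i hi => ?_
  rw [Function.update_of_ne (Finset.ne_of_mem_erase hi)]

lemma X_weight (p : ℝ) (e : E) (x : E → Bool) :
    bernoulliWeight p x = (if x e then p else 1 - p) * X_W p e x := by
  unfold bernoulliWeight X_W
  rw [← Finset.mul_prod_erase Finset.univ _ (Finset.mem_univ e)]

lemma X_russo (p : ℝ) (g : (E → Bool) → ℝ) :
    HasDerivAt (fun p => ∑ x, bernoulliWeight p x * g x)
      (∑ e, ∑ x, bernoulliWeight p x *
        (g (Function.update x e true) - g (Function.update x e false))) p := by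
  have h1 : ∀ x : E → Bool, HasDerivAt (fun p => bernoulliWeight p x)
      (∑ e, X_W p e x * (if x e then 1 else -1)) p := by
    intro x
    unfold bernoulliWeight
    have := HasDerivAt.fun_finsetProd (u := Finset.univ) (x := p)
      (f := fun (i : E) (p : ℝ) => if x i then p else 1 - p)
      (f' := fun i : E => if x i then (1 : ℝ) else -1) (fun i _ => by
        cases x i
        · simp only [Bool.false_eq_true, if_false]
          simpa using (hasDerivAt_id p).const_sub 1
        · simp only [if_true]
          exact hasDerivAt_id p)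
    simpa only [smul_eq_mul, X_W] using this
  have h2 : HasDerivAt (fun p => ∑ x, bernoulliWeight p x * g x)
      (∑ x, (∑ e, X_W p e x * (if x e then 1 else -1)) * g x) p :=
    HasDerivAt.fun_sum fun x _ => (h1 x).mul_const (g x)
  convert h2 using 1
  simp only [Finset.sum_mul]
  rw [Finset.sum_comm (s := (Finset.univ : Finset (E → Bool)))]
  refine Finset.sum_congr rfl fun e _ => ?_
  have h3 : ∀ a b : ℝ, 2 * a = 2 * b → a = b := fun a b h => by linarith
  apply h3
  rw [X_sum_pair e, X_sum_pair e]
  refine Finset.sum_congr rfl fun x _ => ?_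
  simp only [X_weight p e, X_W_update, Function.update_idem, Function.update_self, if_true,
    Bool.false_eq_true, if_false]
  ring

omit [DecidableEq E] in
lemma X_weight_pos {p : ℝ} (hp0 : 0 < p) (hp1 : p < 1) (x : E → Bool) : 0 < bernoulliWeight p x := by
  unfold bernoulliWeight
  refine Finset.prod_pos fun i _ => ?_
  split_ifs
  · exact hp0
  · linarith

omit [DecidableEq E] in
lemma X_weight_nonneg {p : ℝ} (hp0 : 0 ≤ p) (hp1 : p ≤ 1) (x : E → Bool) :
    0 ≤ bernoulliWeight p x := by
  unfold bernoulliWeight
  refine Finset.prod_nonneg fun i _ => ?_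
  split_ifs
  · exact hp0
  · linarith

lemma X_weight_sum (p : ℝ) : ∑ x : E → Bool, bernoulliWeight p x = 1 := by
  have h := Finset.prod_univ_sum (t := fun _ : E => (Finset.univ : Finset Bool))
    (f := fun _ b => if b = true then p else 1 - p)
  rw [Fintype.piFinset_univ] at h
  unfold bernoulliWeight
  rw [← h]
  simp

theorem threshold (f : (E → Bool) → Bool)
    (hmono : ∀ x y : E → Bool, (∀ e, x e = true → y e = true) → f x = true → f y = true)
    (hne : ∃ x, f x = true) (hnu : ∃ x, f x = false) (κ : ℝ) (hκ0 : 0 < κ)
    (hκ : ∀ p : ℝ, 0 < p → p < 1 →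
      κ * (Crest.FinProb.bernoulliProb p {x | f x = true} *
        (1 - Crest.FinProb.bernoulliProb p {x | f x = true})) ≤
      ∑ e, Crest.FinProb.bernoulliProb p
        {x | f (Function.update x e true) ≠ f (Function.update x e false)})
    (ε : ℝ) (hε0 : 0 < ε) (hε : ε < 1/2) (p q : ℝ) (hp0 : 0 ≤ p) (hp1 : p ≤ 1) (hq0 : 0 ≤ q)
    (hq1 : q ≤ 1) (hp : ε ≤ Crest.FinProb.bernoulliProb p {x | f x = true})
    (hq : p + 4 / κ * Real.log (1 / (2 * ε)) ≤ q) :
    1 - ε ≤ Crest.FinProb.bernoulliProb q {x | f x = true} := by
  set g : (E → Bool) → ℝ := fun x => if f x = true then 1 else 0 with hg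
  set P : ℝ → ℝ := fun p => ∑ x, bernoulliWeight p x * g x with hP
  have hPeq : ∀ p, bernoulliProb p {x | f x = true} = P p := fun p => X_prob_eq p f
  rw [hPeq] at hp ⊢
  -- the value at `q = 1`
  rcases hq1.eq_or_lt with rfl | hq1
  · have h1 : P 1 = 1 := by
      rw [hP]
      simp only
      rw [Finset.sum_eq_single (fun _ => true)]
      · have : f (fun _ => true) = true := by
          obtain ⟨x, hx⟩ := hne
          exact hmono x _ (fun _ _ => rfl) hx
        simp [hg, this, bernoulliWeight]
      · intro x _ hx
        obtain ⟨e, he⟩ : ∃ e, x e = false := by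
          by_contra hcon
          push Not at hcon
          apply hx
          funext e
          have := hcon e
          simpa using this
        have : bernoulliWeight 1 x = 0 := by
          unfold bernoulliWeight
          refine Finset.prod_eq_zero (Finset.mem_univ e) ?_
          simp [he]
        rw [this, zero_mul]
      · intro h
        exact absurd (Finset.mem_univ _) h
    rw [h1]
    linarith
  -- `p > 0`
  have hp0 : 0 < p := by
    rcases hp0.eq_or_lt with rfl | h
    · exfalso
      have h0 : P 0 = 0 := by
        rw [hP]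
        simp only
        refine Finset.sum_eq_zero fun x _ => ?_
        by_cases hx : f x = true
        · obtain ⟨e, he⟩ : ∃ e, x e = true := by
            by_contra hcon
            push Not at hcon
            obtain ⟨y, hy⟩ := hnu
            have := hmono x y (fun e he => absurd he (hcon e)) hx
            rw [hy] at this
            exact Bool.false_ne_true this
          have : bernoulliWeight 0 x = 0 := by
            unfold bernoulliWeight
            refine Finset.prod_eq_zero (Finset.mem_univ e) ?_
            simp [he]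
          rw [this, zero_mul]
        · simp [hg, hx]
      rw [h0] at hp
      linarith
    · exact h
  have hlog : 0 < Real.log (1 / (2 * ε)) := by
    apply Real.log_pos
    rw [lt_div_iff₀ (by linarith)]
    linarith
  have hpq : p < q := by
    have : 0 < 4 / κ * Real.log (1 / (2 * ε)) := by positivity
    linarith
  have hpos : ∀ r, 0 < r → r < 1 → 0 < P r ∧ P r < 1 := by
    intro r hr0 hr1
    constructor
    · obtain ⟨x, hx⟩ := hne
      refine Finset.sum_pos' (fun y _ => ?_) ⟨x, Finset.mem_univ _, ?_⟩
      · refine mul_nonneg (X_weight_pos hr0 hr1 y).le ?_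
        simp only [hg]; split_ifs <;> norm_num
      · simp only [hg, hx, if_true, mul_one]
        exact X_weight_pos hr0 hr1 x
    · obtain ⟨x, hx⟩ := hnu
      rw [← X_weight_sum (E := E) r]
      refine Finset.sum_lt_sum (fun y _ => ?_) ⟨x, Finset.mem_univ _, ?_⟩
      · have := (X_weight_pos hr0 hr1 y).le
        simp only [hg]; split_ifs <;> simp [this]
      · simp only [hg, hx, Bool.false_eq_true, if_false, mul_zero]
        exact X_weight_pos hr0 hr1 x
  have hderiv : ∀ r, 0 < r → r < 1 → ∃ D, HasDerivAt P D r ∧ κ * (P r * (1 - P r)) ≤ D := by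
    intro r hr0 hr1
    refine ⟨_, X_russo r g, ?_⟩
    have h1 := hκ r hr0 hr1
    rw [hPeq] at h1
    refine h1.trans (le_of_eq ?_)
    refine Finset.sum_congr rfl fun e _ => ?_
    rw [X_prob_ne r (fun x => f (Function.update x e true))
      (fun x => f (Function.update x e false))]
    refine Finset.sum_congr rfl fun x _ => ?_
    congr 1
    have hm := hmono (Function.update x e false) (Function.update x e true) (by
      intro i hi
      by_cases h : i = e
      · subst h; simp
      · simpa [h] using hi)
    simp only [hg]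
    cases h0 : f (Function.update x e false) <;> cases h1 : f (Function.update x e true)
    · simp
    · simp
    · exact absurd (hm h0) (by rw [h1]; simp)
    · simp
  set G : ℝ → ℝ := fun r => Real.log (P r) - Real.log (1 - P r) - κ * r with hG
  have hGd : ∀ r, 0 < r → r < 1 → ∃ D, HasDerivAt G D r ∧ 0 ≤ D := by
    intro r hr0 hr1
    obtain ⟨D, hD, hD'⟩ := hderiv r hr0 hr1
    obtain ⟨hp1, hp2⟩ := hpos r hr0 hr1
    refine ⟨D / P r - (-D) / (1 - P r) - κ, ?_, ?_⟩
    · refine HasDerivAt.sub (HasDerivAt.sub ?_ ?_) ?_
      · exact hD.log hp1.ne'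
      · exact HasDerivAt.log (hD.const_sub 1) (by linarith)
      · simpa using (hasDerivAt_id r).const_mul κ
    · have h1 : D / P r - (-D) / (1 - P r) = D / (P r * (1 - P r)) := by
        have : 1 - P r ≠ 0 := by linarith
        field_simp
        ring
      rw [h1, sub_nonneg, le_div_iff₀ (mul_pos hp1 (by linarith))]
      exact hD'
  have hmonoG : MonotoneOn G (Set.Icc p q) := by
    apply monotoneOn_of_deriv_nonneg (convex_Icc p q)
    · intro r hr
      obtain ⟨D, hD, _⟩ := hGd r (lt_of_lt_of_le hp0 hr.1) (lt_of_le_of_lt hr.2 hq1)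
      exact hD.continuousAt.continuousWithinAt
    · intro r hr
      rw [interior_Icc] at hr
      obtain ⟨D, hD, _⟩ := hGd r (lt_trans hp0 hr.1) (lt_trans hr.2 hq1)
      exact hD.differentiableAt.differentiableWithinAt
    · intro r hr
      rw [interior_Icc] at hr
      obtain ⟨D, hD, hD0⟩ := hGd r (lt_trans hp0 hr.1) (lt_trans hr.2 hq1)
      rw [hD.deriv]
      exact hD0
  have hGpq := hmonoG (Set.left_mem_Icc.2 hpq.le) (Set.right_mem_Icc.2 hpq.le) hpq.le
  obtain ⟨hPp0, hPp1⟩ := hpos p hp0 (hpq.trans hq1)
  obtain ⟨hPq0, hPq1⟩ := hpos q (hp0.trans hpq) hq1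
  simp only [hG] at hGpq
  by_contra hcon
  push Not at hcon
  -- `log(P/(1-P))` at `q` is less than `log((1-ε)/ε)`
  have h1 : Real.log (P q) < Real.log (1 - ε) := Real.log_lt_log hPq0 hcon
  have h2 : Real.log ε < Real.log (1 - P q) := Real.log_lt_log hε0 (by linarith)
  have h3 : Real.log ε ≤ Real.log (P p) := Real.log_le_log hε0 hp
  have h4 : Real.log (1 - P p) ≤ Real.log (1 - ε) :=
    Real.log_le_log (by linarith) (by linarith)
  have h5 : 4 * Real.log (1 / (2 * ε)) ≤ κ * (q - p) := by
    have : 4 / κ * Real.log (1 / (2 * ε)) ≤ q - p := by linarith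
    calc 4 * Real.log (1 / (2 * ε)) = κ * (4 / κ * Real.log (1 / (2 * ε))) := by
          field_simp
      _ ≤ κ * (q - p) := mul_le_mul_of_nonneg_left this hκ0.le
  have h6 : Real.log (1 / (2 * ε)) = - Real.log 2 - Real.log ε := by
    rw [one_div, Real.log_inv, Real.log_mul (by norm_num) hε0.ne']
    ring
  have h7 : 2 * Real.log 2 + Real.log ε + Real.log (1 - ε) ≤ 0 := by
    have h8 : Real.log (4 * ε * (1 - ε)) ≤ 0 := by
      apply Real.log_nonpos
      · have : 0 < 1 - ε := by linarith
        positivity
      · nlinarith [sq_nonneg (1 - 2 * ε)]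
    rw [Real.log_mul (by positivity) (by linarith), Real.log_mul (by norm_num) hε0.ne',
      show (4 : ℝ) = 2 ^ 2 by norm_num, Real.log_pow] at h8
    push_cast at h8
    linarith
  nlinarith

end X

end Crest.Agent.BK
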