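import Crest.Agent.BKRestrict

/-!
Symmetric functions of hypergraphs: the main inequality for S0077/S0078.
-/

set_option autoImplicit false
set_option linter.unusedSectionVars false

open Finset Crest.FinProb

namespace Crest.Agent.BK

/-- slots with an action of the vertex permutations -/
structure Slots (V E : Type) [Fintype V] [DecidableEq V] [Fintype E] [DecidableEq E] (r : ℕ) where
  vs : E → Finset V
  inj : Function.Injective vs
  card_vs : ∀ e, (vs e).card = r
  act : Equiv.Perm V → E → E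
  vs_act : ∀ σ e, vs (act σ e) = (vs e).map σ.toEmbedding

variable {V E : Type} [Fintype V] [DecidableEq V] [Fintype E] [DecidableEq E] {r : ℕ}
  (Sl : Slots V E r)

namespace Slots

/-- slots touching `A` -/
def touch (A : Finset V) : Finset E := univ.filter fun e => ¬ Disjoint (Sl.vs e) A

/-- relevant slots -/
def QE (A : Finset V) (e : E) : Prop := ∃ v, Sl.vs e ∩ A = {v}

/-- relevant sets of slots -/
def QT (A : Finset V) (t : ℕ) (T : Finset E) : Prop :=
  1 ≤ T.card ∧ T.card ≤ t ∧ ∃ v, ∀ e ∈ T, Sl.vs e ∩ A = {v}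

lemma act_inj (σ : Equiv.Perm V) : Function.Injective (Sl.act σ) := by
  intro e e' h
  apply Sl.inj
  have := congrArg Sl.vs h
  rw [Sl.vs_act, Sl.vs_act] at this
  exact Finset.map_injective _ this

lemma act_fix {A : Finset V} {σ : Equiv.Perm V} (hσ : ∀ v, v ∉ A → σ v = v) {e : E}
    (he : e ∉ Sl.touch A) : Sl.act σ e = e := by
  apply Sl.inj
  rw [Sl.vs_act]
  simp only [touch, mem_filter, mem_univ, true_and, not_not] at he
  ext v
  rw [mem_map_equiv]
  constructor
  · intro h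
    have h2 : σ.symm v ∉ A := fun h3 => (Finset.disjoint_left.1 he) h h3
    have h3 := hσ _ h2
    rw [Equiv.apply_symm_apply] at h3
    rw [h3]; exact h
  · intro h
    have h2 : v ∉ A := fun h3 => (Finset.disjoint_left.1 he) h h3
    have h3 := hσ _ h2
    have h4 : σ.symm v = v := by rw [Equiv.symm_apply_eq, h3]
    rw [h4]; exact h

lemma act_touch {A : Finset V} {σ : Equiv.Perm V} (hσ : ∀ v, v ∉ A → σ v = v) {e : E}
    (he : e ∈ Sl.touch A) : Sl.act σ e ∈ Sl.touch A := by
  simp only [touch, mem_filter, mem_univ, true_and] at he ⊢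
  rw [Finset.not_disjoint_iff] at he ⊢
  obtain ⟨v, hv, hvA⟩ := he
  refine ⟨σ v, ?_, ?_⟩
  · rw [Sl.vs_act, mem_map_equiv, Equiv.symm_apply_apply]; exact hv
  · by_contra h
    have h2 := hσ _ h
    have h3 := σ.injective h2
    rw [h3] at h
    exact h hvA

lemma mix_act {A : Finset V} {σ : Equiv.Perm V} (hσ : ∀ v, v ∉ A → σ v = v) (y x : E → Bool) :
    mix (Sl.touch A) (y ∘ Sl.act σ) x = mix (Sl.touch A) y x ∘ Sl.act σ := by
  funext e
  unfold mix
  simp only [Function.comp_apply]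
  by_cases he : e ∈ Sl.touch A
  · rw [if_pos he, if_pos (Sl.act_touch hσ he)]
  · rw [if_neg he, Sl.act_fix hσ he, if_neg he]

end Slots

/-- reindexing invariance of the expectation -/
lemma Ex_reindex (p : ℝ) (π : E → E) (hπ : Function.Injective π) (G : (E → Bool) → ℝ) :
    Ex p (fun y => G (y ∘ π)) = Ex p G := by
  have hb : Function.Bijective π := Finite.injective_iff_bijective.1 hπ
  set e := Equiv.ofBijective π hb with he
  unfold Ex
  have h1 : ∀ y : E → Bool, bernoulliWeight p (y ∘ π) = bernoulliWeight p y := by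
    intro y
    unfold bernoulliWeight
    exact Equiv.prod_comp e (fun i => if y i then p else 1 - p)
  have h2 : ∀ y : E → Bool, bernoulliWeight p y * G (y ∘ π) =
      (fun z => bernoulliWeight p z * G z) ((Equiv.arrowCongr e.symm (Equiv.refl Bool)) y) := by
    intro y
    have : (Equiv.arrowCongr e.symm (Equiv.refl Bool)) y = y ∘ π := by
      funext i; simp [Equiv.arrowCongr, he]
    simp only [this, h1]
  simp only [h2]
  exact Equiv.sum_comp (Equiv.arrowCongr e.symm (Equiv.refl Bool))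
    (fun z => bernoulliWeight p z * G z)

lemma influence_invariant (p : ℝ) (π : E → E) (hπ : Function.Injective π) (h : (E → Bool) → ℝ)
    (hh : ∀ y, h (y ∘ π) = h y) (e : E) :
    Ex p (fun y => Dv (π e) h y ^ 2) = Ex p (fun y => Dv e h y ^ 2) := by
  have : ∀ y, Dv (π e) h y = Dv e h (y ∘ π) := by
    intro y
    unfold Dv
    rw [← hh, ← hh (Function.update y (π e) false)]
    rw [Function.update_comp_eq_of_injective _ hπ, Function.update_comp_eq_of_injective _ hπ]
  simp only [this]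
  exact Ex_reindex p π hπ (fun y => Dv e h y ^ 2)

section

variable {p : ℝ} (h0 : 0 < p) (h1 : p < 1)

include h0 h1

lemma influence_le {A : Finset V} (f : (E → Bool) → ℝ)
    (hf : ∀ σ : Equiv.Perm V, ∀ x, f (x ∘ Sl.act σ) = f x) (x : E → Bool) (e : E)
    (he : Sl.QE A e) :
    (A.card : ℝ) * Ex p (fun y => Dv e (fun y => f (mix (Sl.touch A) y x)) y ^ 2) ≤
      ∑ e, Ex p (fun y => Dv e (fun y => f (mix (Sl.touch A) y x)) y ^ 2) := by
  obtain ⟨v, hv⟩ := he
  have hvA : v ∈ A := by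
    have : v ∈ Sl.vs e ∩ A := by rw [hv]; exact mem_singleton_self v
    exact (mem_inter.1 this).2
  set h : (E → Bool) → ℝ := fun y => f (mix (Sl.touch A) y x) with hh
  have hswap : ∀ v' ∈ A, ∀ w, w ∉ A → Equiv.swap v v' w = w := by
    intro v' hv' w hw
    exact Equiv.swap_apply_of_ne_of_ne (fun h => hw (h ▸ hvA)) (fun h => hw (h ▸ hv'))
  have hinv : ∀ v' ∈ A, Ex p (fun y => Dv (Sl.act (Equiv.swap v v') e) h y ^ 2) =
      Ex p (fun y => Dv e h y ^ 2) := by
    intro v' hv'
    refine influence_invariant p _ (Sl.act_inj _) h (fun y => ?_) e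
    rw [hh]
    simp only
    rw [Sl.mix_act (hswap v' hv'), hf]
  have hinter : ∀ v' ∈ A, Sl.vs (Sl.act (Equiv.swap v v') e) ∩ A = {v'} := by
    intro v' hv'
    rw [Sl.vs_act]
    ext w
    rw [mem_inter, mem_map_equiv, mem_singleton, Equiv.symm_swap]
    constructor
    · rintro ⟨hw, hwA⟩
      have h2 : Equiv.swap v v' w ∈ A := by
        by_contra h3
        have h4 := hswap v' hv' _ h3
        rw [Equiv.swap_apply_self] at h4
        rw [← h4] at h3
        exact h3 hwA
      have h5 : Equiv.swap v v' w ∈ Sl.vs e ∩ A := mem_inter.2 ⟨hw, h2⟩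
      rw [hv, mem_singleton] at h5
      rw [Equiv.swap_apply_eq_iff, Equiv.swap_apply_left] at h5
      exact h5
    · rintro rfl
      refine ⟨?_, hv'⟩
      rw [Equiv.swap_apply_right]
      have : v ∈ Sl.vs e ∩ A := by rw [hv]; exact mem_singleton_self v
      exact (mem_inter.1 this).1
  have hsum : (A.card : ℝ) * Ex p (fun y => Dv e h y ^ 2) =
      ∑ v' ∈ A, Ex p (fun y => Dv (Sl.act (Equiv.swap v v') e) h y ^ 2) := by
    rw [Finset.sum_congr rfl hinv, Finset.sum_const, nsmul_eq_mul]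
  rw [hsum]
  have hinj : Set.InjOn (fun v' => Sl.act (Equiv.swap v v') e) A := by
    intro a ha b hb hab
    have h2 := hinter a ha
    have h3 := hinter b hb
    simp only at hab
    rw [hab, h3] at h2
    exact (singleton_injective h2).symm
  rw [← Finset.sum_image (f := fun e' => Ex p (fun y => Dv e' h y ^ 2)) hinj]
  exact sum_le_sum_of_subset_of_nonneg (subset_univ _) fun _ _ _ =>
    Ex_nonneg h0.le h1.le fun _ => sq_nonneg _

end

/-! ### combinatorics -/

lemma card_superset (s : Finset V) (m : ℕ) (h : s.card ≤ m) :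
    (univ.powersetCard m |>.filter fun A : Finset V => s ⊆ A).card =
      (Fintype.card V - s.card).choose (m - s.card) := by
  have h2 : (univ \ s : Finset V).card = Fintype.card V - s.card := by
    rw [card_sdiff_of_subset (subset_univ s), card_univ]
  rw [← h2, ← card_powersetCard]
  refine card_bij' (fun A _ => A \ s) (fun A _ => A ∪ s) ?_ ?_ ?_ ?_
  · intro A hA
    rw [mem_filter, mem_powersetCard] at hA
    rw [mem_powersetCard]
    exact ⟨sdiff_subset_sdiff (subset_univ _) (subset_refl _),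
      by rw [card_sdiff_of_subset hA.2, hA.1.2]⟩
  · intro A hA
    rw [mem_powersetCard] at hA
    rw [mem_filter, mem_powersetCard]
    refine ⟨⟨subset_univ _, ?_⟩, subset_union_right⟩
    have hd : Disjoint A s := by
      rw [Finset.disjoint_left]
      intro a ha has
      exact (mem_sdiff.1 (hA.1 ha)).2 has
    rw [card_union_of_disjoint hd, hA.2]
    omega
  · intro A hA
    rw [mem_filter] at hA
    exact sdiff_union_of_subset hA.2
  · intro A hA
    rw [mem_powersetCard] at hA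
    have hd : Disjoint A s := by
      rw [Finset.disjoint_left]
      intro a ha has
      exact (mem_sdiff.1 (hA.1 ha)).2 has
    rw [union_sdiff_right]
    exact sdiff_eq_self_of_disjoint hd

lemma count_good (Vs : Finset V) (v : V) (hv : v ∈ Vs) (m : ℕ) (hm : 2 ≤ m)
    (h : 2 * Vs.card * m ≤ Fintype.card V) :
    m * (Fintype.card V).choose m ≤ 2 * Fintype.card V *
      (univ.powersetCard m |>.filter fun A : Finset V => A ∩ Vs = {v}).card := by
  set n := Fintype.card V with hn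
  have hVs : 1 ≤ Vs.card := card_pos.2 ⟨v, hv⟩
  have hn1 : 1 ≤ n := by nlinarith
  have c1 := card_superset {v} m (by rw [card_singleton]; omega)
  rw [card_singleton, ← hn] at c1
  -- union bound
  have hsub : (univ.powersetCard m |>.filter fun A : Finset V => {v} ⊆ A) ⊆
      (univ.powersetCard m |>.filter fun A : Finset V => A ∩ Vs = {v}) ∪
      (Vs.erase v).biUnion fun w => (univ.powersetCard m |>.filter
        fun A : Finset V => {v, w} ⊆ A) := by
    intro A hA
    rw [mem_filter, singleton_subset_iff] at hA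
    rw [mem_union, mem_biUnion]
    by_cases h2 : A ∩ Vs = {v}
    · left; rw [mem_filter]; exact ⟨hA.1, h2⟩
    · right
      have h3 : ∃ w ∈ A ∩ Vs, w ≠ v := by
        by_contra hcon
        push Not at hcon
        apply h2
        ext w
        rw [mem_singleton]
        constructor
        · exact hcon w
        · rintro rfl; exact mem_inter.2 ⟨hA.2, hv⟩
      obtain ⟨w, hw, hwv⟩ := h3
      rw [mem_inter] at hw
      refine ⟨w, mem_erase.2 ⟨hwv, hw.2⟩, ?_⟩
      rw [mem_filter]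
      refine ⟨hA.1, ?_⟩
      intro u hu
      rw [mem_insert, mem_singleton] at hu
      rcases hu with rfl | rfl
      · exact hA.2
      · exact hw.1
  have hcard := (card_le_card hsub).trans (card_union_le _ _)
  rw [c1] at hcard
  set G := (univ.powersetCard m |>.filter fun A : Finset V => A ∩ Vs = {v}).card with hG
  have hb : ((Vs.erase v).biUnion fun w => (univ.powersetCard m |>.filter
        fun A : Finset V => {v, w} ⊆ A)).card ≤ (Vs.card - 1) * (n - 2).choose (m - 2) := by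
    refine card_biUnion_le.trans ?_
    rw [← card_erase_of_mem hv, ← smul_eq_mul, ← Finset.sum_const]
    refine sum_le_sum fun w hw => ?_
    have hwv : v ≠ w := (ne_of_mem_erase hw).symm
    have hc : ({v, w} : Finset V).card = 2 := card_pair hwv
    have := card_superset {v, w} m (by rw [hc]; exact hm)
    rw [hc] at this
    rw [this]
  -- arithmetic
  have a1 : n * (n - 1).choose (m - 1) = m * n.choose m := by
    obtain ⟨n', hn'⟩ : ∃ n', n = n' + 1 := ⟨n - 1, by omega⟩
    obtain ⟨m', hm'⟩ : ∃ m', m = m' + 1 := ⟨m - 1, by omega⟩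
    rw [hn', hm']
    simp only [Nat.add_sub_cancel]
    have := Nat.add_one_mul_choose_eq n' m'
    rw [this]; ring
  have a2 : 2 * ((Vs.card - 1) * (n - 2).choose (m - 2)) ≤ (n - 1).choose (m - 1) := by
    rcases Nat.lt_or_ge n 2 with hn2 | hn2
    · nlinarith
    obtain ⟨n', hn'⟩ : ∃ n', n = n' + 2 := ⟨n - 2, by omega⟩
    obtain ⟨m', hm'⟩ : ∃ m', m = m' + 2 := ⟨m - 2, by omega⟩
    have h5 := Nat.add_one_mul_choose_eq n' m'
    rw [hn', hm']
    simp only [Nat.add_sub_cancel]
    have e1 : n' + 2 - 1 = n' + 1 := by omega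
    have e2 : m' + 2 - 1 = m' + 1 := by omega
    rw [e1, e2]
    have h6 : 0 < n' + 1 := by omega
    apply Nat.le_of_mul_le_mul_left _ h6
    have e3 : (n' + 1) * (2 * ((Vs.card - 1) * n'.choose m')) =
        2 * (Vs.card - 1) * ((n' + 1) * n'.choose m') := by ring
    rw [e3, h5]
    have h7 : 2 * (Vs.card - 1) * (m' + 1) ≤ n' + 1 := by
      rw [hn', hm'] at h
      obtain ⟨c, hc⟩ : ∃ c, Vs.card = c + 1 := ⟨Vs.card - 1, by omega⟩
      rw [hc] at h ⊢
      simp only [Nat.add_sub_cancel]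
      nlinarith
    calc 2 * (Vs.card - 1) * ((n' + 1).choose (m' + 1) * (m' + 1)) =
        (2 * (Vs.card - 1) * (m' + 1)) * (n' + 1).choose (m' + 1) := by ring
      _ ≤ (n' + 1) * (n' + 1).choose (m' + 1) := Nat.mul_le_mul_right _ h7
  have a3 : (n - 1).choose (m - 1) ≤ 2 * G := by omega
  calc m * n.choose m = n * (n - 1).choose (m - 1) := a1.symm
    _ ≤ n * (2 * G) := Nat.mul_le_mul_left _ a3
    _ = 2 * n * G := by ring

lemma min_degree (hr : 1 ≤ r) (S : Finset E) (hS : 1 ≤ S.card) (d t : ℕ) (hd : S.card ≤ d)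
    (ht : r ^ r * d ^ (r - 1) < (t + 1) ^ r) :
    ∃ v, 1 ≤ (S.filter fun e => v ∈ Sl.vs e).card ∧ (S.filter fun e => v ∈ Sl.vs e).card ≤ t := by
  by_contra hcon
  push Not at hcon
  set Vs := S.biUnion Sl.vs with hVs
  have h1 : ∀ v ∈ Vs, t + 1 ≤ (S.filter fun e => v ∈ Sl.vs e).card := by
    intro v hv
    rw [hVs, mem_biUnion] at hv
    obtain ⟨e, he, hve⟩ := hv
    exact hcon v (card_pos.2 ⟨e, mem_filter.2 ⟨he, hve⟩⟩)
  have h2 : ∑ v ∈ Vs, (S.filter fun e => v ∈ Sl.vs e).card = r * S.card := by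
    have := Finset.sum_card_bipartiteAbove_eq_sum_card_bipartiteBelow (s := Vs) (t := S)
      (fun v e => v ∈ Sl.vs e)
    unfold Finset.bipartiteAbove Finset.bipartiteBelow at this
    rw [this]
    have h3 : ∀ e ∈ S, (Vs.filter fun v => v ∈ Sl.vs e).card = r := by
      intro e he
      refine Eq.trans ?_ (Sl.card_vs e)
      congr 1
      ext v
      rw [mem_filter]
      exact ⟨fun h => h.2, fun h => ⟨mem_biUnion.2 ⟨e, he, h⟩, h⟩⟩
    rw [Finset.sum_congr rfl h3, Finset.sum_const, smul_eq_mul, mul_comm]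
  have h3 : Vs.card * (t + 1) ≤ r * S.card := by
    rw [← h2, ← smul_eq_mul, ← Finset.sum_const]
    exact sum_le_sum h1
  have h4 : S.card ≤ Vs.card ^ r := by
    calc S.card = (S.image Sl.vs).card := (card_image_of_injective _ Sl.inj).symm
      _ ≤ (powersetCard r Vs).card := by
        refine card_le_card fun A hA => ?_
        rw [mem_image] at hA
        obtain ⟨e, he, rfl⟩ := hA
        rw [mem_powersetCard]
        exact ⟨subset_biUnion_of_mem Sl.vs he, Sl.card_vs e⟩
      _ = Vs.card.choose r := card_powersetCard _ _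
      _ ≤ Vs.card ^ r := Nat.choose_le_pow _ _
  obtain ⟨r', rfl⟩ : ∃ r', r = r' + 1 := ⟨r - 1, by omega⟩
  have h5 : (t + 1) ^ (r' + 1) * S.card ≤ (r' + 1) ^ (r' + 1) * S.card ^ r' * S.card := by
    calc (t + 1) ^ (r' + 1) * S.card ≤ (t + 1) ^ (r' + 1) * Vs.card ^ (r' + 1) :=
          Nat.mul_le_mul_left _ h4
      _ = (Vs.card * (t + 1)) ^ (r' + 1) := by rw [mul_pow]; ring
      _ ≤ ((r' + 1) * S.card) ^ (r' + 1) := Nat.pow_le_pow_left h3 _
      _ = _ := by rw [mul_pow]; ring
  have h6 := Nat.le_of_mul_le_mul_right h5 (by omega)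
  have h7 : S.card ^ r' ≤ d ^ r' := Nat.pow_le_pow_left hd _
  have h8 : (r' + 1) ^ (r' + 1) * S.card ^ r' ≤ (r' + 1) ^ (r' + 1) * d ^ r' :=
    Nat.mul_le_mul_left _ h7
  simp only [Nat.add_sub_cancel] at ht
  omega

section

variable {p : ℝ} (h0 : 0 < p) (h1 : p < 1)

include h0 h1

/-- low degree part -/
theorem low_part (hr : 1 ≤ r) (f : (E → Bool) → ℝ) (hf01 : ∀ x, f x = 0 ∨ f x = 1)
    (hf : ∀ σ : Equiv.Perm V, ∀ x, f (x ∘ Sl.act σ) = f x) (d t m : ℕ) (hm : 2 ≤ m)
    (ht : r ^ r * d ^ (r - 1) < (t + 1) ^ r) (hn : 2 * (r * d) * m ≤ Fintype.card V)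
    (δ : ℝ) (hδ0 : 0 ≤ δ) (hδ : (p * (1 - p)) ^ 2 * (4 / (p * (1 - p))) ^ t ≤ δ ^ 3 * m) :
    (m : ℝ) * ∑ S with (1 ≤ S.card ∧ S.card ≤ d), fh p f S ^ 2 ≤
      2 * Fintype.card V * δ * ∑ e, Ex p (fun x => Dv e f x ^ 2) := by
  classical
  set n := Fintype.card V with hn'
  set I := ∑ e, Ex p (fun x => Dv e f x ^ 2) with hI
  set 𝒜 : Finset (Finset V) := univ.powersetCard m with h𝒜
  have hc𝒜 : 𝒜.card = n.choose m := by rw [h𝒜, card_powersetCard, card_univ]
  have hmn : m ≤ n ∨ d = 0 := by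
    rcases Nat.eq_zero_or_pos d with h | h
    · right; exact h
    · left
      have : 1 ≤ r * d := Nat.mul_pos hr h
      nlinarith
  rcases hmn with hmn | hd0
  swap
  · subst hd0
    have : ∑ S : Finset E with (1 ≤ S.card ∧ S.card ≤ 0), fh p f S ^ 2 = 0 := by
      rw [Finset.filter_false_of_mem]
      · simp
      · intro S _ h; omega
    rw [this, mul_zero]
    have hI0 : 0 ≤ I := sum_nonneg fun e _ => Ex_nonneg h0.le h1.le fun _ => sq_nonneg _
    positivity
  -- upper bound for each `A`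
  have up : ∀ A ∈ 𝒜, ∑ S with Sl.QT A t (S ∩ Sl.touch A), fh p f S ^ 2 ≤ δ * I := by
    intro A hA
    rw [h𝒜, mem_powersetCard] at hA
    rw [← sum_fh_mix_sq h0 h1 (Sl.touch A) f (Sl.QT A t)]
    have step : ∀ x, ∑ T with Sl.QT A t T, fh p (fun y => f (mix (Sl.touch A) y x)) T ^ 2 ≤
        δ * ∑ e, Ex p (fun y => Dv e (fun y => f (mix (Sl.touch A) y x)) y ^ 2) := by
      intro x
      refine W_bound h0 h1 (fun y => f (mix (Sl.touch A) y x)) (fun y => hf01 _) t m
        (by exact_mod_cast (by omega : 0 < m)) (Sl.QE A) (Sl.QT A t) ?_ ?_ δ hδ0 hδ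
      · rintro T ⟨h2, h3, v, hv⟩
        exact ⟨h2, h3, fun e he => ⟨v, hv e he⟩⟩
      · intro e he
        have := influence_le Sl h0 h1 f hf x e he
        rwa [hA.2] at this
    refine (Ex_mono h0.le h1.le step).trans ?_
    rw [Ex_const_mul]
    exact mul_le_mul_of_nonneg_left (Ex_total_mix_le h0 h1 _ f) hδ0
  have tot : ∑ A ∈ 𝒜, ∑ S with Sl.QT A t (S ∩ Sl.touch A), fh p f S ^ 2 ≤
      (n.choose m : ℝ) * (δ * I) := by
    calc _ ≤ ∑ A ∈ 𝒜, δ * I := sum_le_sum up
      _ = _ := by rw [Finset.sum_const, nsmul_eq_mul, hc𝒜]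
  -- lower bound
  have low : ∀ S : Finset E, (1 ≤ S.card ∧ S.card ≤ d) →
      (m : ℝ) * (n.choose m : ℝ) ≤ 2 * n * ((𝒜.filter fun A => Sl.QT A t (S ∩ Sl.touch A)).card : ℝ) := by
    rintro S ⟨hS1, hSd⟩
    obtain ⟨v, hv1, hvt⟩ := min_degree Sl hr S hS1 d t hSd ht
    have hvV : v ∈ S.biUnion Sl.vs := by
      obtain ⟨e, he⟩ := card_pos.1 hv1
      rw [mem_filter] at he
      exact mem_biUnion.2 ⟨e, he.1, he.2⟩
    have hVc : (S.biUnion Sl.vs).card ≤ r * d := by
      refine card_biUnion_le.trans ?_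
      rw [Finset.sum_congr rfl (fun e _ => Sl.card_vs e), Finset.sum_const, smul_eq_mul, mul_comm]
      exact Nat.mul_le_mul_left _ hSd
    have hcg := count_good (S.biUnion Sl.vs) v hvV m hm (by
      refine le_trans ?_ hn
      exact Nat.mul_le_mul_right _ (Nat.mul_le_mul_left _ hVc))
    have hsub : (𝒜.filter fun A : Finset V => A ∩ S.biUnion Sl.vs = {v}) ⊆
        (𝒜.filter fun A => Sl.QT A t (S ∩ Sl.touch A)) := by
      intro A hA
      rw [mem_filter] at hA ⊢
      refine ⟨hA.1, ?_⟩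
      have hvA : v ∈ A := by
        have : v ∈ A ∩ S.biUnion Sl.vs := by rw [hA.2]; exact mem_singleton_self v
        exact (mem_inter.1 this).1
      have hST : S ∩ Sl.touch A = S.filter fun e => v ∈ Sl.vs e := by
        ext e
        rw [mem_inter, mem_filter]
        refine and_congr_right fun he => ?_
        simp only [Slots.touch, mem_filter, mem_univ, true_and]
        rw [Finset.not_disjoint_iff]
        constructor
        · rintro ⟨w, hw, hwA⟩
          have : w ∈ A ∩ S.biUnion Sl.vs := mem_inter.2 ⟨hwA, mem_biUnion.2 ⟨e, he, hw⟩⟩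
          rw [hA.2, mem_singleton] at this
          rw [← this]; exact hw
        · intro hw; exact ⟨v, hw, hvA⟩
      rw [hST]
      refine ⟨hv1, hvt, v, fun e he => ?_⟩
      rw [mem_filter] at he
      ext w
      rw [mem_inter, mem_singleton]
      constructor
      · rintro ⟨hw, hwA⟩
        have : w ∈ A ∩ S.biUnion Sl.vs := mem_inter.2 ⟨hwA, mem_biUnion.2 ⟨e, he.1, hw⟩⟩
        rwa [hA.2, mem_singleton] at this
      · rintro rfl; exact ⟨he.2, hvA⟩
    have := hcg.trans (Nat.mul_le_mul_left _ (card_le_card hsub))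
    exact_mod_cast this
  -- combine
  have comb : (m : ℝ) * (n.choose m : ℝ) * ∑ S with (1 ≤ S.card ∧ S.card ≤ d), fh p f S ^ 2 ≤
      2 * n * ∑ A ∈ 𝒜, ∑ S with Sl.QT A t (S ∩ Sl.touch A), fh p f S ^ 2 := by
    have e1 : ∑ A ∈ 𝒜, ∑ S with Sl.QT A t (S ∩ Sl.touch A), fh p f S ^ 2 =
        ∑ S, ((𝒜.filter fun A => Sl.QT A t (S ∩ Sl.touch A)).card : ℝ) * fh p f S ^ 2 := by
      simp only [Finset.sum_filter]
      rw [sum_comm]
      refine sum_congr rfl fun S _ => ?_
      rw [← Finset.sum_filter, Finset.sum_const, nsmul_eq_mul]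
    rw [e1, Finset.mul_sum, Finset.mul_sum]
    calc ∑ S with (1 ≤ S.card ∧ S.card ≤ d), (m : ℝ) * (n.choose m : ℝ) * fh p f S ^ 2 ≤
        ∑ S with (1 ≤ S.card ∧ S.card ≤ d),
          2 * n * (((𝒜.filter fun A => Sl.QT A t (S ∩ Sl.touch A)).card : ℝ) * fh p f S ^ 2) := by
          refine sum_le_sum fun S hS => ?_
          rw [mem_filter] at hS
          have := mul_le_mul_of_nonneg_right (low S hS.2) (sq_nonneg (fh p f S))
          linarith
      _ ≤ _ := by
          refine sum_le_sum_of_subset_of_nonneg (filter_subset _ _) fun _ _ _ => ?_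
          positivity
  have hch : (0 : ℝ) < n.choose m := by exact_mod_cast Nat.choose_pos hmn
  have fin : (n.choose m : ℝ) * ((m : ℝ) * ∑ S with (1 ≤ S.card ∧ S.card ≤ d), fh p f S ^ 2) ≤
      (n.choose m : ℝ) * (2 * n * δ * I) := by
    calc _ = (m : ℝ) * (n.choose m : ℝ) * ∑ S with (1 ≤ S.card ∧ S.card ≤ d), fh p f S ^ 2 := by ring
      _ ≤ 2 * n * ∑ A ∈ 𝒜, ∑ S with Sl.QT A t (S ∩ Sl.touch A), fh p f S ^ 2 := comb
      _ ≤ 2 * n * ((n.choose m : ℝ) * (δ * I)) := by
        refine mul_le_mul_of_nonneg_left tot (by positivity)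
      _ = _ := by ring
  exact le_of_mul_le_mul_left fin hch

/-- MAIN inequality -/
theorem main_ineq (hr : 1 ≤ r) (f : (E → Bool) → ℝ) (hf01 : ∀ x, f x = 0 ∨ f x = 1)
    (hf : ∀ σ : Equiv.Perm V, ∀ x, f (x ∘ Sl.act σ) = f x) (d t m : ℕ) (hm : 2 ≤ m)
    (ht : r ^ r * d ^ (r - 1) < (t + 1) ^ r) (hn : 2 * (r * d) * m ≤ Fintype.card V)
    (δ : ℝ) (hδ0 : 0 ≤ δ) (hδ : (p * (1 - p)) ^ 2 * (4 / (p * (1 - p))) ^ t ≤ δ ^ 3 * m) :
    Ex p (fun x => f x ^ 2) - Ex p f ^ 2 ≤
      (p * (1 - p) / (d + 1) + 2 * Fintype.card V / m * δ) * ∑ e, Ex p (fun x => Dv e f x ^ 2) := by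
  have hl := low_part Sl h0 h1 hr f hf01 hf d t m hm ht hn δ hδ0 hδ
  have hm' : (0 : ℝ) < m := by exact_mod_cast (by omega : 0 < m)
  have hlow : ∑ S with (1 ≤ S.card ∧ S.card ≤ d), fh p f S ^ 2 ≤
      2 * Fintype.card V / m * δ * ∑ e, Ex p (fun x => Dv e f x ^ 2) := by
    have e1 : 2 * (Fintype.card V : ℝ) / m * δ * ∑ e, Ex p (fun x => Dv e f x ^ 2) =
        (2 * Fintype.card V * δ * ∑ e, Ex p (fun x => Dv e f x ^ 2)) / m := by ring
    rw [e1, le_div_iff₀ hm']
    linarith
  have hd1 : (0 : ℝ) < (d : ℝ) + 1 := by positivity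
  have hhigh : ∑ S with (d + 1 ≤ S.card), fh p f S ^ 2 ≤
      p * (1 - p) / (d + 1) * ∑ e, Ex p (fun x => Dv e f x ^ 2) := by
    have e1 : p * (1 - p) / (d + 1) * ∑ e, Ex p (fun x => Dv e f x ^ 2) =
        (∑ S, (S.card : ℝ) * fh p f S ^ 2) / (d + 1) := by
      rw [total_eq h0 h1]; ring
    rw [e1, le_div_iff₀ hd1, Finset.sum_mul]
    calc ∑ S with (d + 1 ≤ S.card), fh p f S ^ 2 * ((d : ℝ) + 1) ≤
        ∑ S with (d + 1 ≤ S.card), (S.card : ℝ) * fh p f S ^ 2 := by
          refine sum_le_sum fun S hS => ?_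
          rw [mem_filter] at hS
          have : ((d : ℝ) + 1) ≤ S.card := by exact_mod_cast hS.2
          nlinarith [sq_nonneg (fh p f S)]
      _ ≤ _ := sum_le_sum_of_subset_of_nonneg (filter_subset _ _) fun _ _ _ => by positivity
  have hsplit : Ex p (fun x => f x ^ 2) - Ex p f ^ 2 =
      ∑ S with (1 ≤ S.card ∧ S.card ≤ d), fh p f S ^ 2 + ∑ S with (d + 1 ≤ S.card), fh p f S ^ 2 := by
    rw [← variance_eq h0 h1, ← Finset.sum_union]
    · refine sum_congr ?_ fun _ _ => rfl
      ext S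
      simp only [mem_filter, mem_univ, true_and, mem_union]
      rw [← Finset.nonempty_iff_ne_empty, ← Finset.card_pos]
      omega
    · rw [Finset.disjoint_filter]
      intro S _ h; omega
  rw [hsplit, add_mul, add_comm]
  exact add_le_add hhigh hlow

end

end Crest.Agent.BK
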