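import Mathlib
import Crest.Prelude.Def_FinProb

/-!
`p`-biased Fourier analysis on a finite cube, for S0077/S0078.
-/

set_option autoImplicit false
set_option linter.unusedSectionVars false

open Finset Crest.FinProb

namespace Crest.Agent.BK

variable {E : Type} [Fintype E] [DecidableEq E]

/-- expectation -/
noncomputable def Ex (p : ℝ) (g : (E → Bool) → ℝ) : ℝ := ∑ x, bernoulliWeight p x * g x

lemma bernoulliProb_eq (p : ℝ) (Q : (E → Bool) → Prop) [DecidablePred Q] :
    bernoulliProb p {x | Q x} = Ex p (fun x => if Q x then 1 else 0) := by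
  unfold bernoulliProb Ex
  simp only [mul_ite, mul_one, mul_zero]
  rw [Finset.sum_filter]
  refine Finset.sum_congr rfl fun x _ => ?_
  by_cases h : Q x
  · rw [if_pos h, if_pos (by exact h)]
  · rw [if_neg h, if_neg (by exact h)]

lemma Ex_add (p : ℝ) (g h : (E → Bool) → ℝ) : Ex p (fun x => g x + h x) = Ex p g + Ex p h := by
  simp [Ex, mul_add, sum_add_distrib]

lemma Ex_sub (p : ℝ) (g h : (E → Bool) → ℝ) : Ex p (fun x => g x - h x) = Ex p g - Ex p h := by
  simp [Ex, mul_sub, sum_sub_distrib]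

lemma Ex_const_mul (p c : ℝ) (g : (E → Bool) → ℝ) : Ex p (fun x => c * g x) = c * Ex p g := by
  simp only [Ex, Finset.mul_sum]
  exact sum_congr rfl fun x _ => by ring

lemma Ex_mul_const (p c : ℝ) (g : (E → Bool) → ℝ) : Ex p (fun x => g x * c) = Ex p g * c := by
  simp only [Ex, Finset.sum_mul]
  exact sum_congr rfl fun x _ => by ring

lemma Ex_sum {ι : Type*} (p : ℝ) (s : Finset ι) (g : ι → (E → Bool) → ℝ) :
    Ex p (fun x => ∑ i ∈ s, g i x) = ∑ i ∈ s, Ex p (g i) := by
  simp only [Ex, Finset.mul_sum]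
  exact sum_comm

lemma weight_nonneg {p : ℝ} (h0 : 0 ≤ p) (h1 : p ≤ 1) (x : E → Bool) :
    0 ≤ bernoulliWeight p x := by
  unfold bernoulliWeight
  refine prod_nonneg fun i _ => ?_
  split_ifs <;> linarith

lemma Ex_nonneg {p : ℝ} (h0 : 0 ≤ p) (h1 : p ≤ 1) {g : (E → Bool) → ℝ} (hg : ∀ x, 0 ≤ g x) :
    0 ≤ Ex p g :=
  sum_nonneg fun x _ => mul_nonneg (weight_nonneg h0 h1 x) (hg x)

lemma Ex_mono {p : ℝ} (h0 : 0 ≤ p) (h1 : p ≤ 1) {g h : (E → Bool) → ℝ} (hg : ∀ x, g x ≤ h x) :
    Ex p g ≤ Ex p h :=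
  sum_le_sum fun x _ => mul_le_mul_of_nonneg_left (hg x) (weight_nonneg h0 h1 x)

/-- expectation of a product function -/
lemma Ex_prod (p : ℝ) (ψ : E → Bool → ℝ) :
    Ex p (fun x => ∏ e, ψ e (x e)) = ∏ e, (p * ψ e true + (1 - p) * ψ e false) := by
  unfold Ex bernoulliWeight
  have h := Finset.prod_univ_sum (fun _ : E => (univ : Finset Bool))
    (fun e b => (if b then p else 1 - p) * ψ e b)
  rw [Fintype.piFinset_univ] at h
  simp only [Fintype.sum_bool, if_true, Bool.false_eq_true, if_false] at h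
  rw [h]
  exact sum_congr rfl fun x _ => by rw [← prod_mul_distrib]

lemma Ex_one (p : ℝ) : Ex p (fun _ : E → Bool => (1 : ℝ)) = 1 := by
  have := Ex_prod (E := E) p (fun _ _ => 1)
  simpa using this

lemma Ex_const (p c : ℝ) : Ex p (fun _ : E → Bool => c) = c := by
  have := Ex_const_mul (E := E) p c (fun _ => 1)
  rw [Ex_one] at this
  simpa using this

/-- weight of the coordinates other than `e` -/
noncomputable def restW (p : ℝ) (e : E) (x : E → Bool) : ℝ :=
  ∏ i ∈ univ.erase e, if x i then p else 1 - p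

lemma weight_split (p : ℝ) (e : E) (x : E → Bool) :
    bernoulliWeight p x = (if x e then p else 1 - p) * restW p e x := by
  unfold bernoulliWeight restW
  exact (Finset.mul_prod_erase univ (fun i => if x i = true then p else 1 - p) (mem_univ e)).symm

lemma restW_update (p : ℝ) (e : E) (x : E → Bool) (b : Bool) :
    restW p e (Function.update x e b) = restW p e x := by
  unfold restW
  refine prod_congr rfl fun i hi => ?_
  rw [Function.update_of_ne (ne_of_mem_erase hi)]

/-- flipping coordinate `e` -/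
def flip (e : E) : (E → Bool) ≃ (E → Bool) where
  toFun x := Function.update x e (!(x e))
  invFun x := Function.update x e (!(x e))
  left_inv x := by simp
  right_inv x := by simp

lemma Ex_resample (p : ℝ) (e : E) (g : (E → Bool) → ℝ) :
    Ex p g = Ex p (fun x => p * g (Function.update x e true) +
      (1 - p) * g (Function.update x e false)) := by
  have key : ∀ F : (E → Bool) → ℝ, 2 * ∑ x, F x = ∑ x, (F x + F (flip e x)) := by
    intro F
    rw [sum_add_distrib, Equiv.sum_comp (flip e) F]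
    ring
  unfold Ex
  have h2 : (2 : ℝ) ≠ 0 := by norm_num
  apply mul_left_cancel₀ h2
  rw [key, key]
  refine sum_congr rfl fun x _ => ?_
  rw [weight_split p e x, weight_split p e (flip e x)]
  simp only [flip, Equiv.coe_fn_mk, restW_update, Function.update_self, Function.update_idem]
  cases hx : x e
  · have : Function.update x e false = x := by rw [← hx, Function.update_eq_self]
    simp only [this, Bool.not_false, Bool.false_eq_true, if_false, if_true]
    ring
  · have : Function.update x e true = x := by rw [← hx, Function.update_eq_self]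
    simp only [this, Bool.not_true, Bool.false_eq_true, if_false, if_true]
    ring

/-- factorisation -/
lemma Ex_factor (p : ℝ) (e : E) (ψ : Bool → ℝ) (H : (E → Bool) → ℝ)
    (hH : ∀ x b, H (Function.update x e b) = H x) :
    Ex p (fun x => ψ (x e) * H x) = (p * ψ true + (1 - p) * ψ false) * Ex p H := by
  rw [Ex_resample p e]
  simp only [Function.update_self, hH]
  rw [← Ex_const_mul]
  congr 1
  funext x
  ring

/-! ### the Fourier basis -/

/-- normalised biased coordinate -/
noncomputable def phi (p : ℝ) (b : Bool) : ℝ :=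
  if b then (1 - p) / Real.sqrt (p * (1 - p)) else - p / Real.sqrt (p * (1 - p))

/-- Fourier-Walsh functions -/
noncomputable def ph (p : ℝ) (S : Finset E) (x : E → Bool) : ℝ := ∏ e ∈ S, phi p (x e)

/-- Fourier coefficient -/
noncomputable def fh (p : ℝ) (g : (E → Bool) → ℝ) (S : Finset E) : ℝ :=
  Ex p (fun x => g x * ph p S x)

section

variable {p : ℝ} (h0 : 0 < p) (h1 : p < 1)

include h0 h1

lemma lam_pos : 0 < p * (1 - p) := mul_pos h0 (by linarith)

lemma phi_mean : p * phi p true + (1 - p) * phi p false = 0 := by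
  have := lam_pos h0 h1
  have hs : Real.sqrt (p * (1 - p)) ≠ 0 := (Real.sqrt_pos.2 this).ne'
  simp only [phi, if_true, Bool.false_eq_true, if_false]
  field_simp
  ring

lemma phi_sq_mean : p * phi p true ^ 2 + (1 - p) * phi p false ^ 2 = 1 := by
  have := lam_pos h0 h1
  have hs2 : Real.sqrt (p * (1 - p)) ^ 2 = p * (1 - p) := Real.sq_sqrt this.le
  simp only [phi, if_true, Bool.false_eq_true, if_false, div_pow, hs2]
  have h1' : 1 - p ≠ 0 := by linarith
  field_simp
  ring

lemma phi_kernel (a b : Bool) :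
    (if a then p else 1 - p) * (1 + phi p a * phi p b) = if a = b then 1 else 0 := by
  have := lam_pos h0 h1
  have hs2 : Real.sqrt (p * (1 - p)) * Real.sqrt (p * (1 - p)) = p * (1 - p) :=
    Real.mul_self_sqrt this.le
  have h1' : 1 - p ≠ 0 := by linarith
  cases a <;> cases b <;>
    simp only [phi, if_true, Bool.false_eq_true, if_false, div_mul_div_comm, hs2,
      Bool.true_eq_false] <;> field_simp <;> ring

lemma ph_orth (S T : Finset E) : Ex p (fun x => ph p S x * ph p T x) = if S = T then 1 else 0 := by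
  have h : ∀ x : E → Bool, ph p S x * ph p T x =
      ∏ e, ((if e ∈ S then phi p (x e) else 1) * (if e ∈ T then phi p (x e) else 1)) := by
    intro x
    rw [prod_mul_distrib, ph, ph]
    simp only [Finset.prod_ite_mem, Finset.univ_inter]
  simp only [h]
  rw [Ex_prod p (fun e b => (if e ∈ S then phi p b else 1) * (if e ∈ T then phi p b else 1))]
  have hm := phi_mean h0 h1
  have hm2 := phi_sq_mean h0 h1
  by_cases hST : S = T
  · subst hST
    rw [if_pos rfl]
    refine prod_eq_one fun e _ => ?_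
    by_cases he : e ∈ S
    · simp only [he, if_true]
      rw [← sq, ← sq]; exact hm2
    · simp only [he, if_false]; ring
  · rw [if_neg hST]
    obtain ⟨e, he⟩ : ∃ e, ¬ (e ∈ S ↔ e ∈ T) := by
      by_contra hcon
      push Not at hcon
      exact hST (Finset.ext hcon)
    refine prod_eq_zero (mem_univ e) ?_
    by_cases h1 : e ∈ S <;> by_cases h2 : e ∈ T <;> simp [h1, h2] at he ⊢ <;> linarith

lemma expand (g : (E → Bool) → ℝ) (x : E → Bool) : g x = ∑ S, fh p g S * ph p S x := by
  unfold fh Ex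
  simp only [Finset.sum_mul]
  rw [sum_comm]
  have hw : ∀ y : E → Bool, bernoulliWeight p y * ∑ S : Finset E, ph p S y * ph p S x =
      if y = x then 1 else 0 := by
    intro y
    have h3 : ∑ S : Finset E, ph p S y * ph p S x = ∏ e, (1 + phi p (y e) * phi p (x e)) := by
      rw [Finset.prod_one_add, Finset.powerset_univ]
      exact sum_congr rfl fun S _ => by rw [ph, ph, prod_mul_distrib]
    rw [h3, bernoulliWeight, ← prod_mul_distrib]
    simp only [phi_kernel h0 h1]
    by_cases hyx : y = x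
    · subst hyx; simp
    · rw [if_neg hyx]
      obtain ⟨e, he⟩ := Function.ne_iff.1 hyx
      exact prod_eq_zero (mem_univ e) (by rw [if_neg he])
  have h4 : ∀ y : E → Bool, ∑ S : Finset E, bernoulliWeight p y * (g y * ph p S y) * ph p S x =
      g y * if y = x then 1 else 0 := by
    intro y
    rw [← hw y, Finset.mul_sum, Finset.mul_sum]
    exact sum_congr rfl fun S _ => by ring
  simp only [h4, mul_ite, mul_one, mul_zero, Finset.sum_ite_eq', mem_univ, if_true]

lemma fh_sum (c : Finset E → ℝ) (T : Finset E) :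
    fh p (fun x => ∑ S, c S * ph p S x) T = c T := by
  unfold fh
  simp only [Finset.sum_mul]
  rw [Ex_sum]
  have : ∀ S : Finset E, Ex p (fun x => c S * ph p S x * ph p T x) =
      c S * if S = T then 1 else 0 := by
    intro S
    rw [← ph_orth h0 h1, ← Ex_const_mul]
    congr 1; funext x; ring
  simp only [this, mul_ite, mul_one, mul_zero, Finset.sum_ite_eq', mem_univ, if_true]

lemma plancherel (g h : (E → Bool) → ℝ) :
    Ex p (fun x => g x * h x) = ∑ S, fh p g S * fh p h S := by
  have : ∀ x, g x * h x = ∑ S, fh p g S * (h x * ph p S x) := by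
    intro x
    conv_lhs => rw [expand h0 h1 g x]
    rw [Finset.sum_mul]
    exact sum_congr rfl fun S _ => by ring
  simp only [this]
  rw [Ex_sum]
  refine sum_congr rfl fun S _ => ?_
  rw [Ex_const_mul]
  rfl

lemma parseval (g : (E → Bool) → ℝ) : Ex p (fun x => g x ^ 2) = ∑ S, fh p g S ^ 2 := by
  simp only [sq]
  exact plancherel h0 h1 g g

/-! ### derivatives -/

omit h0 h1 in
lemma ph_update_of_notMem {S : Finset E} {e : E} (he : e ∉ S) (x : E → Bool) (b : Bool) :
    ph p S (Function.update x e b) = ph p S x := by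
  unfold ph
  refine prod_congr rfl fun i hi => ?_
  rw [Function.update_of_ne (ne_of_mem_of_not_mem hi he)]

omit h0 h1 in
lemma ph_insert {S : Finset E} {e : E} (he : e ∉ S) (x : E → Bool) :
    ph p (insert e S) x = phi p (x e) * ph p S x := by
  unfold ph
  rw [prod_insert he]

omit h0 h1 in
lemma ph_empty (x : E → Bool) : ph p ∅ x = 1 := by simp [ph]

/-- discrete derivative -/
def Dv (e : E) (g : (E → Bool) → ℝ) (x : E → Bool) : ℝ :=
  g (Function.update x e true) - g (Function.update x e false)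

omit h0 h1 in
lemma Dv_update (e : E) (g : (E → Bool) → ℝ) (x : E → Bool) (b : Bool) :
    Dv e g (Function.update x e b) = Dv e g x := by
  simp [Dv]

lemma fh_Dv_of_mem (e : E) (g : (E → Bool) → ℝ) {T : Finset E} (he : e ∈ T) :
    fh p (Dv e g) T = 0 := by
  unfold fh
  have h2 : ∀ x, Dv e g x * ph p T x = phi p (x e) * (Dv e g x * ph p (T.erase e) x) := by
    intro x
    conv_lhs => rw [← insert_erase he, ph_insert (notMem_erase e T)]
    ring
  simp only [h2]
  rw [Ex_factor p e (phi p)]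
  · rw [phi_mean h0 h1, zero_mul]
  · intro x b
    rw [Dv_update, ph_update_of_notMem (notMem_erase e T)]

lemma fh_insert (e : E) (g : (E → Bool) → ℝ) {T : Finset E} (he : e ∉ T) :
    fh p g (insert e T) = Real.sqrt (p * (1 - p)) * fh p (Dv e g) T := by
  have hl := lam_pos h0 h1
  have hs : Real.sqrt (p * (1 - p)) ≠ 0 := (Real.sqrt_pos.2 hl).ne'
  have hs2 : Real.sqrt (p * (1 - p)) * Real.sqrt (p * (1 - p)) = p * (1 - p) :=
    Real.mul_self_sqrt hl.le
  unfold fh
  rw [Ex_resample p e, ← Ex_const_mul]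
  congr 1
  funext x
  rw [ph_insert he, ph_insert he, ph_update_of_notMem he, ph_update_of_notMem he]
  simp only [Function.update_self, phi, if_true, Bool.false_eq_true, if_false, Dv]
  field_simp
  linear_combination (ph p T x * g (Function.update x e true) -
    ph p T x * g (Function.update x e false)) * (- hs2)

lemma sum_mem_fh (e : E) (g : (E → Bool) → ℝ) (Q : Finset E → Prop) [DecidablePred Q] :
    ∑ S with e ∈ S ∧ Q (S.erase e), fh p g S ^ 2 =
      (p * (1 - p)) * ∑ T with Q T, fh p (Dv e g) T ^ 2 := by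
  have hl := lam_pos h0 h1
  have hs2 : Real.sqrt (p * (1 - p)) ^ 2 = p * (1 - p) := Real.sq_sqrt hl.le
  have h2 : ∑ T with Q T, fh p (Dv e g) T ^ 2 = ∑ T with (e ∉ T ∧ Q T), fh p (Dv e g) T ^ 2 := by
    refine (sum_subset ?_ ?_).symm
    · intro T hT
      rw [mem_filter] at hT ⊢
      exact ⟨hT.1, hT.2.2⟩
    · intro T hT hT'
      rw [mem_filter] at hT hT'
      have : e ∈ T := by
        by_contra he
        exact hT' ⟨mem_univ _, he, hT.2⟩
      rw [fh_Dv_of_mem h0 h1 e g this]; ring
  rw [h2, Finset.mul_sum]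
  refine (sum_bij (fun T _ => insert e T) ?_ ?_ ?_ ?_).symm
  · intro T hT
    rw [mem_filter] at hT ⊢
    exact ⟨mem_univ _, mem_insert_self _ _, by rw [erase_insert hT.2.1]; exact hT.2.2⟩
  · intro T hT T' hT' h
    rw [mem_filter] at hT hT'
    have := congrArg (fun S => S.erase e) h
    simpa [erase_insert hT.2.1, erase_insert hT'.2.1] using this
  · intro S hS
    rw [mem_filter] at hS
    exact ⟨S.erase e, by rw [mem_filter]; exact ⟨mem_univ _, notMem_erase _ _, hS.2.2⟩,
      insert_erase hS.2.1⟩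
  · intro T hT
    rw [mem_filter] at hT
    rw [fh_insert h0 h1 e g hT.2.1, mul_pow, hs2]

lemma influence_eq (e : E) (g : (E → Bool) → ℝ) :
    ∑ S with e ∈ S, fh p g S ^ 2 = (p * (1 - p)) * Ex p (fun x => Dv e g x ^ 2) := by
  have := sum_mem_fh h0 h1 e g (fun _ => True)
  simp only [and_true, filter_true] at this
  rw [this, parseval h0 h1]

lemma total_eq (g : (E → Bool) → ℝ) :
    ∑ S, (S.card : ℝ) * fh p g S ^ 2 = (p * (1 - p)) * ∑ e, Ex p (fun x => Dv e g x ^ 2) := by
  rw [Finset.mul_sum]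
  simp only [← influence_eq h0 h1, Finset.sum_filter]
  rw [sum_comm]
  refine sum_congr rfl fun S _ => ?_
  rw [← Finset.sum_filter, Finset.sum_const, nsmul_eq_mul]
  congr 2
  simp

lemma variance_eq (g : (E → Bool) → ℝ) :
    ∑ S with S ≠ ∅, fh p g S ^ 2 = Ex p (fun x => g x ^ 2) - Ex p g ^ 2 := by
  rw [parseval h0 h1]
  have h2 : fh p g ∅ = Ex p g := by
    unfold fh
    simp [ph_empty]
  rw [← h2]
  rw [← Finset.sum_erase_add univ _ (mem_univ (∅ : Finset E))]
  rw [add_sub_cancel_right]
  refine sum_congr ?_ fun _ _ => rfl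
  ext S
  simp

lemma cauchy (u v : (E → Bool) → ℝ) :
    Ex p (fun x => u x * v x) ^ 2 ≤ Ex p (fun x => u x ^ 2) * Ex p (fun x => v x ^ 2) := by
  unfold Ex
  refine Finset.sum_sq_le_sum_mul_sum_of_sq_le_mul univ ?_ ?_ ?_
  · intro x _; exact mul_nonneg (weight_nonneg h0.le h1.le x) (sq_nonneg _)
  · intro x _; exact mul_nonneg (weight_nonneg h0.le h1.le x) (sq_nonneg _)
  · intro x _; exact le_of_eq (by ring)

omit h0 h1 in
/-- algebra behind the induction step -/
lemma bonami_alg {K A B X a b M L : ℝ} {t' : ℕ} (hK : 16 ≤ K) (ha : 0 ≤ a) (hb : 0 ≤ b)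
    (hB0 : 0 ≤ B) (hA : A ≤ K ^ (t' + 1) * a ^ 2) (hB : B ≤ K ^ t' * b ^ 2)
    (hX : X ^ 2 ≤ A * B) (hL : L ≤ K) (hM : M ≤ A + 8 * X + L * B) :
    M ≤ K ^ (t' + 1) * (a + b) ^ 2 := by
  have KP : 0 < K ^ t' := pow_pos (by linarith) _
  have hX2 : X ≤ K ^ (t' + 1) * (a * b) / 4 := by
    apply le_of_sq_le_sq _ (by positivity)
    calc X ^ 2 ≤ _ := hX
      _ ≤ (K ^ (t' + 1) * a ^ 2) * (K ^ t' * b ^ 2) :=
        mul_le_mul hA hB hB0 (by positivity)
      _ = K ^ (2 * t' + 1) * (a * b) ^ 2 := by ring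
      _ ≤ (K ^ (2 * t' + 1) * (K / 16)) * (a * b) ^ 2 := by
        apply mul_le_mul_of_nonneg_right _ (sq_nonneg _)
        have : 0 < K ^ (2 * t' + 1) := pow_pos (by linarith) _
        have h16 : 1 ≤ K / 16 := by linarith
        nlinarith
      _ = (K ^ (t' + 1) * (a * b) / 4) ^ 2 := by ring
  have h3 : L * B ≤ K * (K ^ t' * b ^ 2) := mul_le_mul hL hB hB0 (by linarith)
  calc M ≤ _ := hM
    _ ≤ K ^ (t' + 1) * a ^ 2 + 8 * (K ^ (t' + 1) * (a * b) / 4) + K * (K ^ t' * b ^ 2) := by
      linarith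
    _ = K ^ (t' + 1) * (a + b) ^ 2 := by ring

/-! ### Bonami lemma -/

set_option maxHeartbeats 1000000 in
lemma bonami (U : Finset E) : ∀ (t : ℕ) (c : Finset E → ℝ),
    (∀ S, c S ≠ 0 → S ⊆ U ∧ S.card ≤ t) →
    Ex p (fun x => (∑ S, c S * ph p S x) ^ 4) ≤ (4 / (p * (1 - p))) ^ t * (∑ S, c S ^ 2) ^ 2 := by
  have hl := lam_pos h0 h1
  have hl4 : p * (1 - p) ≤ 1 / 4 := by nlinarith [sq_nonneg (2 * p - 1)]
  set K : ℝ := 4 / (p * (1 - p)) with hK
  have hK16 : 16 ≤ K := by
    rw [hK, le_div_iff₀ hl]; linarith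
  induction U using Finset.induction_on with
  | empty =>
    intro t c hc
    have h2 : ∀ S, S ≠ ∅ → c S = 0 := by
      intro S hS
      by_contra h
      exact hS (subset_empty.1 (hc S h).1)
    have h3 : ∀ x : E → Bool, ∑ S, c S * ph p S x = c ∅ := by
      intro x
      rw [Finset.sum_eq_single ∅]
      · rw [ph_empty, mul_one]
      · intro S _ hS; rw [h2 S hS, zero_mul]
      · intro h; exact absurd (mem_univ _) h
    have h4 : ∑ S, c S ^ 2 = c ∅ ^ 2 := by
      rw [Finset.sum_eq_single ∅]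
      · intro S _ hS; rw [h2 S hS]; ring
      · intro h; exact absurd (mem_univ _) h
    simp only [h3, h4]
    rw [Ex_const]
    have h5 : 1 ≤ K ^ t := one_le_pow₀ (by linarith)
    have h6 : 0 ≤ (c ∅ ^ 2) ^ 2 := sq_nonneg _
    calc c ∅ ^ 4 = 1 * (c ∅ ^ 2) ^ 2 := by ring
      _ ≤ _ := mul_le_mul_of_nonneg_right h5 h6
  | insert e U he ih =>
    intro t c hc
    set c0 : Finset E → ℝ := fun S => if e ∈ S then 0 else c S with hc0
    set c1 : Finset E → ℝ := fun S => if e ∈ S then 0 else c (insert e S) with hc1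
    set G0 : (E → Bool) → ℝ := fun x => ∑ S, c0 S * ph p S x with hG0
    set G1 : (E → Bool) → ℝ := fun x => ∑ S, c1 S * ph p S x with hG1
    have indep : ∀ d : Finset E → ℝ, (∀ S, e ∈ S → d S = 0) → ∀ x b,
        ∑ S, d S * ph p S (Function.update x e b) = ∑ S, d S * ph p S x := by
      intro d hd x b
      refine sum_congr rfl fun S _ => ?_
      by_cases h : e ∈ S
      · rw [hd S h, zero_mul, zero_mul]
      · rw [ph_update_of_notMem h]
    have i0 : ∀ x b, G0 (Function.update x e b) = G0 x :=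
      indep c0 fun S h => by simp [hc0, h]
    have i1 : ∀ x b, G1 (Function.update x e b) = G1 x :=
      indep c1 fun S h => by simp [hc1, h]
    -- splitting sums
    have split : ∀ F : Finset E → ℝ, ∑ S, F S =
        ∑ S with e ∉ S, F S + ∑ S with e ∉ S, F (insert e S) := by
      intro F
      rw [← Finset.sum_filter_add_sum_filter_not univ (fun S => e ∉ S)]
      congr 1
      refine (sum_bij (fun T _ => insert e T) ?_ ?_ ?_ ?_).symm
      · intro T hT
        rw [mem_filter] at hT ⊢
        exact ⟨mem_univ _, by simp⟩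
      · intro T hT T' hT' h
        rw [mem_filter] at hT hT'
        have := congrArg (fun S => S.erase e) h
        simpa [erase_insert hT.2, erase_insert hT'.2] using this
      · intro S hS
        rw [mem_filter, not_not] at hS
        exact ⟨S.erase e, by rw [mem_filter]; exact ⟨mem_univ _, notMem_erase _ _⟩,
          insert_erase hS.2⟩
      · intro T _; rfl
    have hF : ∀ x, ∑ S, c S * ph p S x = G0 x + phi p (x e) * G1 x := by
      intro x
      rw [split]
      congr 1
      · rw [hG0]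
        simp only [hc0, ite_mul, zero_mul]
        rw [Finset.sum_ite]
        simp
      · rw [hG1, Finset.mul_sum, Finset.sum_filter]
        refine sum_congr rfl fun S _ => ?_
        by_cases h : e ∈ S
        · simp [hc1, h]
        · simp only [hc1, h, not_false_iff, if_true, if_false]
          rw [ph_insert h]; ring
    have hsum : ∑ S, c S ^ 2 = ∑ S, c0 S ^ 2 + ∑ S, c1 S ^ 2 := by
      rw [split]
      congr 1
      · rw [Finset.sum_filter]
        refine sum_congr rfl fun S _ => ?_
        by_cases h : e ∈ S <;> simp [hc0, h]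
      · rw [Finset.sum_filter]
        refine sum_congr rfl fun S _ => ?_
        by_cases h : e ∈ S <;> simp [hc1, h]
    set a : ℝ := ∑ S, c0 S ^ 2 with ha
    set b : ℝ := ∑ S, c1 S ^ 2 with hb
    have ha0 : 0 ≤ a := sum_nonneg fun _ _ => sq_nonneg _
    have hb0 : 0 ≤ b := sum_nonneg fun _ _ => sq_nonneg _
    have supp0 : ∀ S, c0 S ≠ 0 → S ⊆ U ∧ S.card ≤ t := by
      intro S hS
      have h : e ∉ S := by intro h; exact hS (by simp [hc0, h])
      have h2 : c S ≠ 0 := by simpa [hc0, h] using hS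
      refine ⟨fun i hi => ?_, (hc S h2).2⟩
      have := (hc S h2).1 hi
      rw [mem_insert] at this
      rcases this with rfl | h3
      · exact absurd hi h
      · exact h3
    have B0 := ih t c0 supp0
    -- fourth moment expansion
    have hm1 := phi_mean h0 h1
    have hm2 := phi_sq_mean h0 h1
    set m3 : ℝ := p * phi p true ^ 3 + (1 - p) * phi p false ^ 3 with hm3
    set m4 : ℝ := p * phi p true ^ 4 + (1 - p) * phi p false ^ 4 with hm4
    have hs : Real.sqrt (p * (1 - p)) ≠ 0 := (Real.sqrt_pos.2 hl).ne'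
    have hs2 : Real.sqrt (p * (1 - p)) ^ 2 = p * (1 - p) := Real.sq_sqrt hl.le
    have hm3' : m3 ^ 2 ≤ 1 / (p * (1 - p)) := by
      have : m3 = (1 - 2 * p) / Real.sqrt (p * (1 - p)) := by
        rw [hm3, phi, phi, if_pos rfl, if_neg (by simp), div_pow, div_pow]
        have : Real.sqrt (p * (1 - p)) ^ 3 = (p * (1 - p)) * Real.sqrt (p * (1 - p)) := by
          rw [pow_succ, hs2]
        rw [this]
        have h1' : 1 - p ≠ 0 := by linarith
        have hp' : p ≠ 0 := h0.ne'
        field_simp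
        ring
      rw [this, div_pow, hs2]
      apply div_le_div_of_nonneg_right _ hl.le
      nlinarith
    have hm4' : m4 ≤ 1 / (p * (1 - p)) := by
      have : m4 = (1 - 3 * (p * (1 - p))) / (p * (1 - p)) := by
        rw [hm4, phi, phi, if_pos rfl, if_neg (by simp), div_pow, div_pow]
        have : Real.sqrt (p * (1 - p)) ^ 4 = (p * (1 - p)) ^ 2 := by
          rw [show (4 : ℕ) = 2 * 2 by norm_num, pow_mul, hs2]
        rw [this]
        have h1' : 1 - p ≠ 0 := by linarith
        have hp' : p ≠ 0 := h0.ne'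
        field_simp
        ring
      rw [this]
      apply div_le_div_of_nonneg_right _ hl.le
      linarith
    have E4 : Ex p (fun x => (∑ S, c S * ph p S x) ^ 4) =
        Ex p (fun x => G0 x ^ 4) + 6 * Ex p (fun x => G0 x ^ 2 * G1 x ^ 2) +
          4 * m3 * Ex p (fun x => G0 x * G1 x ^ 3) + m4 * Ex p (fun x => G1 x ^ 4) := by
      have e1 : ∀ x, (∑ S, c S * ph p S x) ^ 4 = G0 x ^ 4 +
          (phi p (x e) * (4 * (G0 x ^ 3 * G1 x)) + (phi p (x e) ^ 2 * (6 * (G0 x ^ 2 * G1 x ^ 2)) +
          (phi p (x e) ^ 3 * (4 * (G0 x * G1 x ^ 3)) + phi p (x e) ^ 4 * (G1 x ^ 4)))) := by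
        intro x
        rw [hF]; ring
      simp only [e1]
      rw [Ex_add, Ex_add, Ex_add, Ex_add]
      rw [Ex_factor p e (phi p) (fun x => 4 * (G0 x ^ 3 * G1 x)) (fun x b => by simp only [i0, i1]),
        Ex_factor p e (fun b => phi p b ^ 2) (fun x => 6 * (G0 x ^ 2 * G1 x ^ 2))
          (fun x b => by simp only [i0, i1]),
        Ex_factor p e (fun b => phi p b ^ 3) (fun x => 4 * (G0 x * G1 x ^ 3))
          (fun x b => by simp only [i0, i1]),
        Ex_factor p e (fun b => phi p b ^ 4) (fun x => G1 x ^ 4)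
          (fun x b => by simp only [i1])]
      rw [hm1, hm2, ← hm3, ← hm4, Ex_const_mul p 6, Ex_const_mul p 4 (fun x => G0 x * G1 x ^ 3)]
      ring
    have N4 : 0 ≤ Ex p (fun x => G1 x ^ 4) :=
      Ex_nonneg h0.le h1.le fun x => by positivity
    have N22 : 0 ≤ Ex p (fun x => G0 x ^ 2 * G1 x ^ 2) :=
      Ex_nonneg h0.le h1.le fun x => by positivity
    have E31 : 4 * m3 * Ex p (fun x => G0 x * G1 x ^ 3) ≤
        2 * Ex p (fun x => G0 x ^ 2 * G1 x ^ 2) + 2 * m3 ^ 2 * Ex p (fun x => G1 x ^ 4) := by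
      rw [← Ex_const_mul, ← Ex_const_mul, ← Ex_const_mul, ← Ex_add]
      refine Ex_mono h0.le h1.le fun x => ?_
      nlinarith [sq_nonneg (G0 x * G1 x - m3 * G1 x ^ 2)]
    have E5 : Ex p (fun x => (∑ S, c S * ph p S x) ^ 4) ≤ Ex p (fun x => G0 x ^ 4) +
        8 * Ex p (fun x => G0 x ^ 2 * G1 x ^ 2) + 3 / (p * (1 - p)) * Ex p (fun x => G1 x ^ 4) := by
      rw [E4]
      have q1 : 2 * m3 ^ 2 * Ex p (fun x => G1 x ^ 4) ≤
          2 * (1 / (p * (1 - p))) * Ex p (fun x => G1 x ^ 4) :=
        mul_le_mul_of_nonneg_right (by linarith) N4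
      have q2 : m4 * Ex p (fun x => G1 x ^ 4) ≤ (1 / (p * (1 - p))) * Ex p (fun x => G1 x ^ 4) :=
        mul_le_mul_of_nonneg_right hm4' N4
      have q3 : 3 / (p * (1 - p)) = 3 * (1 / (p * (1 - p))) := by ring
      rw [q3]
      linarith
    rw [hsum]
    rcases Nat.eq_zero_or_pos t with ht | ht
    · -- `c1 = 0`
      have hc1z : ∀ S, c1 S = 0 := by
        intro S
        by_cases h : e ∈ S
        · simp [hc1, h]
        · simp only [hc1, h, if_false]
          by_contra h2
          have := (hc _ h2).2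
          rw [card_insert_of_notMem h] at this
          omega
      have hG1z : ∀ x, G1 x = 0 := by
        intro x; rw [hG1]; exact sum_eq_zero fun S _ => by rw [hc1z, zero_mul]
      have hbz : b = 0 := by rw [hb]; exact sum_eq_zero fun S _ => by rw [hc1z]; ring
      have e1 : Ex p (fun x => G0 x ^ 2 * G1 x ^ 2) = 0 := by
        simp only [hG1z]; simpa using Ex_const (E := E) p 0
      have e2 : Ex p (fun x => G1 x ^ 4) = 0 := by
        simp only [hG1z]; simpa using Ex_const (E := E) p 0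
      rw [e1, e2] at E5
      rw [hbz, add_zero]
      linarith
    · obtain ⟨t', rfl⟩ : ∃ t', t = t' + 1 := ⟨t - 1, by omega⟩
      have supp1 : ∀ S, c1 S ≠ 0 → S ⊆ U ∧ S.card ≤ t' := by
        intro S hS
        have h : e ∉ S := by intro h; exact hS (by simp [hc1, h])
        have h2 : c (insert e S) ≠ 0 := by simpa [hc1, h] using hS
        obtain ⟨h3, h4⟩ := hc _ h2
        rw [card_insert_of_notMem h] at h4
        refine ⟨fun i hi => ?_, by omega⟩
        have := h3 (mem_insert_of_mem hi)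
        rw [mem_insert] at this
        rcases this with rfl | h3
        · exact absurd hi h
        · exact h3
      have B1 := ih t' c1 supp1
      have hX := cauchy h0 h1 (fun x => G0 x ^ 2) (fun x => G1 x ^ 2)
      have e4 : ∀ y : ℝ, (y ^ 2) ^ 2 = y ^ 4 := fun y => by ring
      simp only [e4] at hX
      have h3K : 3 / (p * (1 - p)) ≤ K := by
        rw [hK]; apply div_le_div_of_nonneg_right _ hl.le; norm_num
      exact bonami_alg hK16 ha0 hb0 N4 B0 B1 hX h3K E5

/-- level inequality for functions with values in `{-1,0,1}` -/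
lemma level (t : ℕ) (D : (E → Bool) → ℝ) (hD : ∀ x, D x ^ 3 = D x) :
    (∑ T with T.card ≤ t, fh p D T ^ 2) ^ 2 ≤
      (4 / (p * (1 - p))) ^ t * Ex p (fun x => D x ^ 2) ^ 3 := by
  have hl := lam_pos h0 h1
  set c : Finset E → ℝ := fun T => if T.card ≤ t then fh p D T else 0 with hc
  set g : (E → Bool) → ℝ := fun x => ∑ S, c S * ph p S x with hg
  set a : ℝ := ∑ T with T.card ≤ t, fh p D T ^ 2 with ha
  set q : ℝ := Ex p (fun x => D x ^ 2) with hq
  have ha0 : 0 ≤ a := sum_nonneg fun _ _ => sq_nonneg _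
  have hq0 : 0 ≤ q := Ex_nonneg h0.le h1.le fun _ => sq_nonneg _
  have hc2 : ∑ S, c S ^ 2 = a := by
    rw [ha, Finset.sum_filter]
    refine sum_congr rfl fun S _ => ?_
    by_cases h : S.card ≤ t <;> simp [hc, h]
  have hDg : Ex p (fun x => D x * g x) = a := by
    rw [plancherel h0 h1, ha, Finset.sum_filter]
    refine sum_congr rfl fun S _ => ?_
    rw [hg, fh_sum h0 h1]
    by_cases h : S.card ≤ t <;> simp [hc, h, sq]
  have B := bonami h0 h1 univ t c (by
    intro S hS
    refine ⟨subset_univ _, ?_⟩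
    by_contra h
    exact hS (by simp [hc, h]))
  rw [hc2] at B
  have C1 := cauchy h0 h1 D (fun x => D x ^ 2 * g x)
  have e1 : ∀ x, D x * (D x ^ 2 * g x) = D x * g x := by
    intro x
    calc D x * (D x ^ 2 * g x) = D x ^ 3 * g x := by ring
      _ = _ := by rw [hD]
  have e2 : ∀ x, (D x ^ 2 * g x) ^ 2 = D x ^ 2 * g x ^ 2 := by
    intro x
    calc (D x ^ 2 * g x) ^ 2 = D x ^ 3 * D x * g x ^ 2 := by ring
      _ = _ := by rw [hD]; ring
  simp only [e1, e2] at C1
  rw [hDg] at C1
  have C2 := cauchy h0 h1 (fun x => D x ^ 2) (fun x => g x ^ 2)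
  have e3 : ∀ x, (D x ^ 2) ^ 2 = D x ^ 2 := by
    intro x
    calc (D x ^ 2) ^ 2 = D x ^ 3 * D x := by ring
      _ = _ := by rw [hD]; ring
  have e4 : ∀ x, (g x ^ 2) ^ 2 = g x ^ 4 := fun x => by ring
  simp only [e3, e4] at C2
  set Y : ℝ := Ex p (fun x => D x ^ 2 * g x ^ 2) with hY
  have hY0 : 0 ≤ Y := Ex_nonneg h0.le h1.le fun x => by positivity
  have K0 : 0 < (4 / (p * (1 - p))) ^ t := pow_pos (by positivity) _
  have h4 : a ^ 4 ≤ q ^ 3 * ((4 / (p * (1 - p))) ^ t * a ^ 2) := by
    calc a ^ 4 = (a ^ 2) ^ 2 := by ring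
      _ ≤ (q * Y) ^ 2 := by gcongr
      _ = q ^ 2 * Y ^ 2 := by ring
      _ ≤ q ^ 2 * (q * Ex p (fun x => g x ^ 4)) := by gcongr
      _ ≤ q ^ 2 * (q * ((4 / (p * (1 - p))) ^ t * a ^ 2)) := by gcongr
      _ = _ := by ring
  rcases ha0.eq_or_lt with h | h
  · rw [← h]
    have : 0 ≤ (4 / (p * (1 - p))) ^ t * q ^ 3 := by positivity
    simpa using this
  · have h5 : 0 < a ^ 2 := by positivity
    have h6 : a ^ 2 * a ^ 2 ≤ ((4 / (p * (1 - p))) ^ t * q ^ 3) * a ^ 2 := by
      calc a ^ 2 * a ^ 2 = a ^ 4 := by ring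
        _ ≤ _ := h4
        _ = _ := by ring
    exact le_of_mul_le_mul_right h6 h5

end

end Crest.Agent.BK
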