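import Crest.Agent.BKComb

/-!
Numerical instantiation of the main inequality for S0077/S0078.
-/

set_option autoImplicit false
set_option linter.unusedSectionVars false

open Finset Crest.FinProb

namespace Crest.Agent.BK

variable {V E : Type} [Fintype V] [DecidableEq V] [Fintype E] [DecidableEq E] {r : ℕ}
  (Sl : Slots V E r)

lemma log_le_sqrt {y : ℝ} (hy : 0 < y) : Real.log y ≤ 2 * Real.sqrt y := by
  have h1 : 0 < Real.sqrt y := Real.sqrt_pos.2 hy
  have h2 : Real.log y = 2 * Real.log (Real.sqrt y) := by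
    rw [Real.log_sqrt hy.le]; ring
  rw [h2]
  have := Real.log_le_sub_one_of_pos h1
  linarith

lemma exp_quad {x : ℝ} (hx : 0 ≤ x) : 1 + x + x ^ 2 / 2 ≤ Real.exp x :=
  Real.quadratic_le_exp_of_nonneg hx

section

variable {p : ℝ} (h0 : 0 < p) (h1 : p < 1)

include h0 h1

set_option maxHeartbeats 2000000 in
theorem main_asym (hr : 2 ≤ r) (hn : 2 ≤ Fintype.card V) (f : (E → Bool) → ℝ)
    (hf01 : ∀ x, f x = 0 ∨ f x = 1)
    (hf : ∀ σ : Equiv.Perm V, ∀ x, f (x ∘ Sl.act σ) = f x) :
    Ex p (fun x => f x ^ 2) - Ex p f ^ 2 ≤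
      (2 ^ 14 * (r : ℝ) ^ 2 + 2 ^ 8) / Real.log (Fintype.card V) ^ ((r : ℝ) / ((r : ℝ) - 1)) *
        ∑ e, Ex p (fun x => Dv e f x ^ 2) := by
  have hl := lam_pos h0 h1
  have hl4 : p * (1 - p) ≤ 1 / 4 := by nlinarith [sq_nonneg (2 * p - 1)]
  set lam : ℝ := p * (1 - p) with hlam
  set n : ℕ := Fintype.card V with hn'
  set L : ℝ := Real.log n with hL
  have hn0 : (0 : ℝ) < n := by exact_mod_cast (by omega : 0 < n)
  have hLpos : 0 < L := Real.log_pos (by exact_mod_cast (by omega : 1 < n))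
  have hnL : (n : ℝ) = Real.exp L := (Real.exp_log hn0).symm
  have hrR : (2 : ℝ) ≤ r := by exact_mod_cast hr
  set α : ℝ := (r : ℝ) / ((r : ℝ) - 1) with hα
  set a : ℝ := ((r : ℝ) - 1) / r with ha
  have ha2 : 1 / 2 ≤ a := by
    rw [ha, div_le_div_iff₀ (by norm_num) (by linarith)]; linarith
  have hα1 : 1 ≤ α := by
    rw [hα, le_div_iff₀ (by linarith)]; linarith
  have hα2 : α ≤ 2 := by
    rw [hα, div_le_iff₀ (by linarith)]; linarith
  have haα : α * a = 1 := by
    rw [hα, ha]
    have : (r : ℝ) - 1 ≠ 0 := by linarith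
    have : (r : ℝ) ≠ 0 := by linarith
    field_simp
  set D : ℝ := L ^ α with hD
  have hD0 : 0 < D := Real.rpow_pos_of_pos hLpos _
  have hDa : D ^ a = L := by
    rw [hD, ← Real.rpow_mul hLpos.le, haα, Real.rpow_one]
  have hDle : D ≤ 1 + L ^ 2 := by
    rcases le_or_gt L 1 with h | h
    · have : D ≤ 1 := Real.rpow_le_one hLpos.le h (by linarith)
      nlinarith [sq_nonneg L]
    · have : D ≤ L ^ (2 : ℝ) := Real.rpow_le_rpow_of_exponent_le h.le hα2
      rw [Real.rpow_two] at this
      linarith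
  set C₁ : ℝ := 2 ^ 14 * (r : ℝ) ^ 2 with hC₁
  have hC₁pos : 0 < C₁ := by positivity
  have hC₁1 : 1 ≤ C₁ := by
    rw [hC₁]; nlinarith
  set d : ℕ := ⌊lam * D / C₁⌋₊ with hd
  have hdle : (d : ℝ) ≤ lam * D / C₁ := Nat.floor_le (by positivity)
  have hdge : lam * D / C₁ < (d : ℝ) + 1 := Nat.lt_floor_add_one _
  set t : ℕ := ⌊(r : ℝ) * (d : ℝ) ^ a⌋₊ with ht
  have hda0 : 0 ≤ (d : ℝ) ^ a := Real.rpow_nonneg (Nat.cast_nonneg _) _
  have htle : (t : ℝ) ≤ r * (d : ℝ) ^ a := Nat.floor_le (by positivity)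
  have htge : (r : ℝ) * (d : ℝ) ^ a < (t : ℝ) + 1 := Nat.lt_floor_add_one _
  set m : ℕ := ⌈Real.exp (7 / 8 * L)⌉₊ with hm
  have hmge : Real.exp (7 / 8 * L) ≤ m := Nat.le_ceil _
  have hexp1 : 1 < Real.exp (7 / 8 * L) := Real.one_lt_exp_iff.2 (by positivity)
  have hmle : (m : ℝ) ≤ 2 * Real.exp (7 / 8 * L) := by
    have := Nat.ceil_lt_add_one (Real.exp_pos (7 / 8 * L)).le
    linarith
  have hm2 : 2 ≤ m := by
    have h3 : (1 : ℝ) < m := lt_of_lt_of_le hexp1 hmge
    exact_mod_cast h3
  have hm0 : (0 : ℝ) < m := by exact_mod_cast (by omega : 0 < m)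
  -- condition on `t`
  have cond_t : r ^ r * d ^ (r - 1) < (t + 1) ^ r := by
    have h3 : ((r : ℝ) * (d : ℝ) ^ a) ^ r < ((t : ℝ) + 1) ^ r :=
      pow_lt_pow_left₀ htge (by positivity) (by omega)
    have h4 : ((d : ℝ) ^ a) ^ r = (d : ℝ) ^ (r - 1) := by
      rw [← Real.rpow_natCast, ← Real.rpow_mul (Nat.cast_nonneg _)]
      have : a * (r : ℝ) = ((r - 1 : ℕ) : ℝ) := by
        rw [ha, Nat.cast_sub (by omega)]
        have : (r : ℝ) ≠ 0 := by linarith
        push_cast
        field_simp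
      rw [this, Real.rpow_natCast]
    rw [mul_pow, h4] at h3
    exact_mod_cast h3
  -- condition on `m`
  have cond_m : 2 * (r * d) * m ≤ n := by
    have h3 : 2 * ((r : ℝ) * d) * m ≤ n := by
      have h4 : (r : ℝ) * d ≤ (1 + L ^ 2) / 2 ^ 17 := by
        have h5 : (r : ℝ) * (lam * D / C₁) ≤ (1 + L ^ 2) / 2 ^ 17 := by
          rw [hC₁]
          have e1 : (r : ℝ) * (lam * D / (2 ^ 14 * (r : ℝ) ^ 2)) = lam * D / (2 ^ 14 * r) := by
            have : (r : ℝ) ≠ 0 := by linarith
            field_simp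
          rw [e1, div_le_div_iff₀ (by positivity) (by positivity)]
          have h6 : lam * D ≤ 1 / 4 * (1 + L ^ 2) :=
            mul_le_mul hl4 hDle hD0.le (by norm_num)
          nlinarith [sq_nonneg L]
        refine le_trans ?_ h5
        exact mul_le_mul_of_nonneg_left hdle (by linarith)
      have h7 : Real.exp L = Real.exp (7 / 8 * L) * Real.exp (L / 8) := by
        rw [← Real.exp_add]; ring_nf
      rw [hnL, h7]
      have h8 := exp_quad (x := L / 8) (by positivity)
      have h9 : (1 + L ^ 2) / 2 ^ 15 ≤ Real.exp (L / 8) := by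
        refine le_trans ?_ h8
        nlinarith [sq_nonneg L]
      calc 2 * ((r : ℝ) * d) * m ≤ 2 * ((1 + L ^ 2) / 2 ^ 17) * (2 * Real.exp (7 / 8 * L)) := by
            gcongr
        _ = Real.exp (7 / 8 * L) * ((1 + L ^ 2) / 2 ^ 15) := by ring
        _ ≤ _ := by gcongr
    exact_mod_cast h3
  -- condition on `δ`
  set δ : ℝ := Real.exp (-(9 / 32) * L) with hδ
  have cond_δ : lam ^ 2 * (4 / lam) ^ t ≤ δ ^ 3 * m := by
    have k1 : (4 / lam) ^ t ≤ Real.exp (L / 32) := by
      have e1 : (4 / lam) ^ t = Real.exp (t * Real.log (4 / lam)) := by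
        rw [Real.exp_nat_mul, Real.exp_log (by positivity)]
      rw [e1, Real.exp_le_exp]
      have hsl : 0 < Real.sqrt lam := Real.sqrt_pos.2 hl
      have k2 : Real.log (4 / lam) ≤ 4 / Real.sqrt lam := by
        refine (log_le_sqrt (by positivity)).trans (le_of_eq ?_)
        rw [Real.sqrt_div (by norm_num), show (4 : ℝ) = 2 ^ 2 by norm_num,
          Real.sqrt_sq (by norm_num)]
        ring
      have k3 : (d : ℝ) ^ a ≤ Real.sqrt lam / (128 * r) * L := by
        calc (d : ℝ) ^ a ≤ (lam * D / C₁) ^ a :=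
              Real.rpow_le_rpow (Nat.cast_nonneg _) hdle (by linarith)
          _ = (lam / C₁) ^ a * D ^ a := by
              rw [← Real.mul_rpow (by positivity) hD0.le]; congr 1; ring
          _ ≤ (lam / C₁) ^ (1 / 2 : ℝ) * D ^ a := by
              refine mul_le_mul_of_nonneg_right ?_ (Real.rpow_nonneg hD0.le _)
              refine Real.rpow_le_rpow_of_exponent_ge (by positivity) ?_ ha2
              rw [div_le_one hC₁pos]; linarith
          _ = _ := by
              rw [hDa, ← Real.sqrt_eq_rpow, Real.sqrt_div hl.le, hC₁]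
              congr 2
              rw [show (2 : ℝ) ^ 14 * (r : ℝ) ^ 2 = (128 * r) ^ 2 by ring,
                Real.sqrt_sq (by positivity)]
      have k4 : (t : ℝ) ≤ Real.sqrt lam * L / 128 := by
        refine htle.trans ?_
        calc (r : ℝ) * (d : ℝ) ^ a ≤ r * (Real.sqrt lam / (128 * r) * L) := by gcongr
          _ = _ := by
            have : (r : ℝ) ≠ 0 := by linarith
            field_simp
      have k5 : 0 ≤ Real.log (4 / lam) := Real.log_nonneg (by
        rw [le_div_iff₀ hl]; linarith)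
      calc (t : ℝ) * Real.log (4 / lam) ≤ (Real.sqrt lam * L / 128) * (4 / Real.sqrt lam) :=
            mul_le_mul k4 k2 k5 (by positivity)
        _ = L / 32 := by
            have : Real.sqrt lam ≠ 0 := hsl.ne'
            field_simp
            norm_num
    have k6 : δ ^ 3 = Real.exp (-(27 / 32) * L) := by
      rw [hδ, ← Real.exp_nat_mul]; congr 1; push_cast; ring
    have k7 : lam ^ 2 ≤ 1 := pow_le_one₀ hl.le (by linarith)
    calc lam ^ 2 * (4 / lam) ^ t ≤ 1 * Real.exp (L / 32) := by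
          refine mul_le_mul k7 k1 (by positivity) (by norm_num)
      _ = Real.exp (-(27 / 32) * L) * Real.exp (7 / 8 * L) := by
          rw [one_mul, ← Real.exp_add]; congr 1; ring
      _ ≤ δ ^ 3 * m := by
          rw [k6]; gcongr
  have main := main_ineq Sl h0 h1 (by omega) f hf01 hf d t m hm2 cond_t cond_m δ
    (Real.exp_pos _).le cond_δ
  refine main.trans ?_
  have hI0 : 0 ≤ ∑ e, Ex p (fun x => Dv e f x ^ 2) :=
    sum_nonneg fun e _ => Ex_nonneg h0.le h1.le fun _ => sq_nonneg _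
  refine mul_le_mul_of_nonneg_right ?_ hI0
  rw [add_div]
  refine add_le_add ?_ ?_
  · rw [div_le_div_iff₀ (by positivity) hD0]
    rw [div_lt_iff₀ hC₁pos] at hdge
    linarith
  · have q1 : 2 * (n : ℝ) / m * δ ≤ 2 * Real.exp (-(5 / 32) * L) := by
      rw [div_mul_eq_mul_div, div_le_iff₀ hm0, hnL]
      calc 2 * Real.exp L * δ = 2 * Real.exp (-(5 / 32) * L) * Real.exp (7 / 8 * L) := by
            rw [hδ, mul_assoc, mul_assoc, ← Real.exp_add, ← Real.exp_add]; congr 2; ring
        _ ≤ _ := by gcongr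
    refine q1.trans ?_
    rw [le_div_iff₀ hD0]
    have q2 := exp_quad (x := 5 / 32 * L) (by positivity)
    have q3 : Real.exp (-(5 / 32) * L) * Real.exp (5 / 32 * L) = 1 := by
      rw [← Real.exp_add]; simp
    have q4 : D ≤ 2 ^ 7 * Real.exp (5 / 32 * L) := by
      nlinarith [sq_nonneg L]
    calc 2 * Real.exp (-(5 / 32) * L) * D ≤
        2 * Real.exp (-(5 / 32) * L) * (2 ^ 7 * Real.exp (5 / 32 * L)) := by gcongr
      _ = 2 ^ 8 * (Real.exp (-(5 / 32) * L) * Real.exp (5 / 32 * L)) := by ring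
      _ = 2 ^ 8 := by rw [q3, mul_one]

end

end Crest.Agent.BK

namespace Crest.Agent.BK

section final

variable {V E : Type} [Fintype V] [DecidableEq V] [Fintype E] [DecidableEq E] {r : ℕ}
  (Sl : Slots V E r)

lemma Ex_indicator (p : ℝ) (f : (E → Bool) → Bool) :
    bernoulliProb p {x | f x = true} = Ex p (fun x => if f x = true then 1 else 0) :=
  bernoulliProb_eq p (fun x => f x = true)

lemma Ex_pivotal (p : ℝ) (f : (E → Bool) → Bool) (e : E) :
    bernoulliProb p {x | f (Function.update x e true) ≠ f (Function.update x e false)} =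
      Ex p (fun x => Dv e (fun x => if f x = true then (1 : ℝ) else 0) x ^ 2) := by
  rw [bernoulliProb_eq p (fun x => f (Function.update x e true) ≠ f (Function.update x e false))]
  congr 1
  funext x
  simp only [Dv]
  cases h3 : f (Function.update x e true) <;> cases h4 : f (Function.update x e false) <;> simp

/-- final form for Boolean functions -/
theorem bool_form {p : ℝ} (h0 : 0 < p) (h1 : p < 1) (hr : 2 ≤ r) (hn : 2 ≤ Fintype.card V)
    (f : (E → Bool) → Bool) (hf : ∀ σ : Equiv.Perm V, ∀ x, f (x ∘ Sl.act σ) = f x) :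
    bernoulliProb p {x | f x = true} * (1 - bernoulliProb p {x | f x = true}) ≤
      (2 ^ 14 * (r : ℝ) ^ 2 + 2 ^ 8) / Real.log (Fintype.card V) ^ ((r : ℝ) / ((r : ℝ) - 1)) *
        ∑ e, bernoulliProb p
          {x | f (Function.update x e true) ≠ f (Function.update x e false)} := by
  have := main_asym Sl h0 h1 hr hn (fun x => if f x = true then (1 : ℝ) else 0)
    (fun x => by by_cases h : f x = true <;> simp [h])
    (fun σ x => by simp only [hf])
  have e1 : Ex p (fun x => (if f x = true then (1 : ℝ) else 0) ^ 2) =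
      Ex p (fun x => if f x = true then (1 : ℝ) else 0) := by
    congr 1; funext x; by_cases h : f x = true <;> simp [h]
  rw [e1] at this
  simp only [Ex_pivotal, Ex_indicator]
  linarith

end final

end Crest.Agent.BK
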