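import Crest.Agent.BKFourier

/-!
Random restrictions of `p`-biased functions, for S0077/S0078.
-/

set_option autoImplicit false
set_option linter.unusedSectionVars false

open Finset Crest.FinProb

namespace Crest.Agent.BK

variable {E : Type} [Fintype E] [DecidableEq E]

/-- glue `y` on `B` and `x` off `B` -/
def mix (B : Finset E) (y x : E → Bool) : E → Bool := fun e => if e ∈ B then y e else x e

lemma ph_mix (p : ℝ) (B S : Finset E) (y x : E → Bool) :
    ph p S (mix B y x) = ph p (S ∩ B) y * ph p (S \ B) x := by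
  unfold ph
  rw [← Finset.prod_inter_mul_prod_sdiff S B]
  congr 1
  · refine prod_congr rfl fun e he => ?_
    rw [mix, if_pos (mem_inter.1 he).2]
  · refine prod_congr rfl fun e he => ?_
    rw [mix, if_neg (mem_sdiff.1 he).2]

lemma mix_update {B : Finset E} {e : E} (he : e ∈ B) (y x : E → Bool) (b : Bool) :
    mix B (Function.update y e b) x = Function.update (mix B y x) e b := by
  funext i
  unfold mix
  by_cases hi : i = e
  · subst hi; simp [he]
  · simp [Function.update_of_ne hi]

lemma mix_update_notMem {B : Finset E} {e : E} (he : e ∉ B) (y x : E → Bool) (b : Bool) :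
    mix B (Function.update y e b) x = mix B y x := by
  funext i
  unfold mix
  by_cases hi : i = e
  · subst hi; simp [he]
  · simp [Function.update_of_ne hi]

lemma Dv_mix {B : Finset E} {e : E} (he : e ∈ B) (f : (E → Bool) → ℝ) (y x : E → Bool) :
    Dv e (fun y => f (mix B y x)) y = Dv e f (mix B y x) := by
  simp only [Dv, mix_update he]

lemma Dv_mix_notMem {B : Finset E} {e : E} (he : e ∉ B) (f : (E → Bool) → ℝ) (y x : E → Bool) :
    Dv e (fun y => f (mix B y x)) y = 0 := by
  simp only [Dv, mix_update_notMem he, sub_self]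

section

variable {p : ℝ} (h0 : 0 < p) (h1 : p < 1)

include h0 h1

lemma Ex_ph (S : Finset E) : Ex p (fun x => ph p S x) = if S = ∅ then 1 else 0 := by
  have := ph_orth h0 h1 S ∅
  simp only [ph_empty, mul_one] at this
  exact this

lemma Ex_mix (B : Finset E) (G : (E → Bool) → ℝ) :
    Ex p (fun x => Ex p (fun y => G (mix B y x))) = Ex p G := by
  have e1 : ∀ x, Ex p (fun y => G (mix B y x)) =
      ∑ S, (fh p G S * if S ∩ B = ∅ then 1 else 0) * ph p (S \ B) x := by
    intro x
    have : ∀ y, G (mix B y x) = ∑ S, fh p G S * (ph p (S ∩ B) y * ph p (S \ B) x) := by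
      intro y
      rw [expand h0 h1 G (mix B y x)]
      exact sum_congr rfl fun S _ => by rw [ph_mix]
    simp only [this]
    rw [Ex_sum]
    refine sum_congr rfl fun S _ => ?_
    rw [← Ex_ph h0 h1, ← Ex_const_mul, ← Ex_mul_const]
    congr 1; funext y; ring
  simp only [e1]
  rw [Ex_sum]
  have e2 : ∀ S : Finset E, Ex p (fun x => (fh p G S * if S ∩ B = ∅ then 1 else 0) *
      ph p (S \ B) x) = if S = ∅ then fh p G ∅ else 0 := by
    intro S
    rw [Ex_const_mul, Ex_ph h0 h1]
    by_cases hS : S = ∅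
    · subst hS; simp
    · rw [if_neg hS]
      by_cases h2 : S ∩ B = ∅
      · have h3 : S \ B ≠ ∅ := by
          intro h3
          apply hS
          rw [← Finset.sdiff_union_inter S B, h2, h3, empty_union]
        rw [if_neg h3, mul_zero]
      · rw [if_neg h2, mul_zero, zero_mul]
  simp only [e2]
  rw [Finset.sum_ite_eq' univ ∅, if_pos (mem_univ _)]
  unfold fh
  simp only [ph_empty, mul_one]

lemma fh_mix (B : Finset E) (f : (E → Bool) → ℝ) (x : E → Bool) (T : Finset E) :
    fh p (fun y => f (mix B y x)) T = ∑ S with S ∩ B = T, fh p f S * ph p (S \ B) x := by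
  unfold fh
  have : ∀ y, f (mix B y x) * ph p T y =
      ∑ S, (fh p f S * ph p (S \ B) x) * (ph p (S ∩ B) y * ph p T y) := by
    intro y
    rw [expand h0 h1 f (mix B y x), Finset.sum_mul]
    exact sum_congr rfl fun S _ => by rw [ph_mix]; ring
  simp only [this]
  rw [Ex_sum, Finset.sum_filter]
  refine sum_congr rfl fun S _ => ?_
  rw [Ex_const_mul, ph_orth h0 h1]
  by_cases h : S ∩ B = T
  · rw [if_pos h, if_pos h, mul_one]; rfl
  · rw [if_neg h, if_neg h, mul_zero]

lemma fh_mix_sq (B : Finset E) (f : (E → Bool) → ℝ) (T : Finset E) :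
    Ex p (fun x => fh p (fun y => f (mix B y x)) T ^ 2) = ∑ S with S ∩ B = T, fh p f S ^ 2 := by
  have e1 : ∀ x, fh p (fun y => f (mix B y x)) T ^ 2 = ∑ S with S ∩ B = T,
      ∑ S' with S' ∩ B = T, fh p f S * fh p f S' * (ph p (S \ B) x * ph p (S' \ B) x) := by
    intro x
    rw [fh_mix h0 h1, sq, Finset.sum_mul_sum]
    exact sum_congr rfl fun S _ => sum_congr rfl fun S' _ => by ring
  simp only [e1]
  rw [Ex_sum]
  refine sum_congr rfl fun S hS => ?_
  rw [Ex_sum]
  rw [mem_filter] at hS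
  rw [Finset.sum_eq_single S]
  · rw [Ex_const_mul, ph_orth h0 h1, if_pos rfl]; ring
  · intro S' hS' hne
    rw [mem_filter] at hS'
    rw [Ex_const_mul, ph_orth h0 h1, if_neg, mul_zero]
    intro h
    apply hne
    rw [← Finset.sdiff_union_inter S B, ← Finset.sdiff_union_inter S' B, h, hS.2, hS'.2]
  · intro h
    exact absurd (mem_filter.2 hS) h

lemma sum_fh_mix_sq (B : Finset E) (f : (E → Bool) → ℝ) (Q : Finset E → Prop) [DecidablePred Q] :
    Ex p (fun x => ∑ T with Q T, fh p (fun y => f (mix B y x)) T ^ 2) =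
      ∑ S with Q (S ∩ B), fh p f S ^ 2 := by
  rw [Ex_sum]
  simp only [fh_mix_sq h0 h1]
  rw [Finset.sum_filter, Finset.sum_filter]
  simp only [Finset.sum_filter]
  have : ∀ T : Finset E, (if Q T then ∑ S, if S ∩ B = T then fh p f S ^ 2 else 0 else 0) =
      ∑ S, if S ∩ B = T then (if Q (S ∩ B) then fh p f S ^ 2 else 0) else 0 := by
    intro T
    by_cases hT : Q T
    · rw [if_pos hT]
      refine sum_congr rfl fun S _ => ?_
      by_cases h : S ∩ B = T
      · rw [if_pos h, if_pos h, if_pos (h ▸ hT)]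
      · rw [if_neg h, if_neg h]
    · rw [if_neg hT]
      refine (sum_eq_zero fun S _ => ?_).symm
      by_cases h : S ∩ B = T
      · rw [if_pos h, if_neg (fun h2 => hT (h ▸ h2))]
      · rw [if_neg h]
  simp only [this]
  rw [sum_comm]
  refine sum_congr rfl fun S _ => ?_
  rw [Finset.sum_ite_eq univ (S ∩ B), if_pos (mem_univ _)]

lemma Ex_Dv_mix {B : Finset E} {e : E} (he : e ∈ B) (f : (E → Bool) → ℝ) :
    Ex p (fun x => Ex p (fun y => Dv e (fun y => f (mix B y x)) y ^ 2)) =
      Ex p (fun x => Dv e f x ^ 2) := by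
  simp only [Dv_mix he]
  exact Ex_mix h0 h1 B (fun x => Dv e f x ^ 2)

lemma Ex_total_mix_le (B : Finset E) (f : (E → Bool) → ℝ) :
    Ex p (fun x => ∑ e, Ex p (fun y => Dv e (fun y => f (mix B y x)) y ^ 2)) ≤
      ∑ e, Ex p (fun x => Dv e f x ^ 2) := by
  rw [Ex_sum]
  refine sum_le_sum fun e _ => ?_
  by_cases he : e ∈ B
  · exact (Ex_Dv_mix h0 h1 he f).le
  · simp only [Dv_mix_notMem he]
    have : Ex p (fun _ : E → Bool => Ex p (fun _ : E → Bool => (0 : ℝ) ^ 2)) = 0 := by
      simp [Ex_const]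
    rw [this]
    exact Ex_nonneg h0.le h1.le fun _ => sq_nonneg _

/-- the KKL type bound for a fixed function `h` all of whose relevant influences are `≤ I / m`.
`QE` = relevant slots, `QT` = relevant sets -/
lemma W_bound (h : (E → Bool) → ℝ) (hh : ∀ x, h x = 0 ∨ h x = 1) (t : ℕ) (m : ℝ) (hm : 0 < m)
    (QE : E → Prop) (QT : Finset E → Prop) [DecidablePred QE] [DecidablePred QT]
    (hQ : ∀ T, QT T → 1 ≤ T.card ∧ T.card ≤ t ∧ ∀ e ∈ T, QE e)
    (hI : ∀ e, QE e → m * Ex p (fun x => Dv e h x ^ 2) ≤ ∑ e, Ex p (fun x => Dv e h x ^ 2))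
    (δ : ℝ) (hδ0 : 0 ≤ δ)
    (hδ : (p * (1 - p)) ^ 2 * (4 / (p * (1 - p))) ^ t ≤ δ ^ 3 * m) :
    ∑ T with QT T, fh p h T ^ 2 ≤ δ * ∑ e, Ex p (fun x => Dv e h x ^ 2) := by
  have hl := lam_pos h0 h1
  have hl4 : p * (1 - p) ≤ 1 / 4 := by nlinarith [sq_nonneg (2 * p - 1)]
  have hK1 : 1 ≤ 4 / (p * (1 - p)) := by rw [le_div_iff₀ hl]; linarith
  set lam : ℝ := p * (1 - p) with hlam
  set K : ℝ := 4 / lam with hK
  set Q : E → ℝ := fun e => Ex p (fun x => Dv e h x ^ 2) with hQdef
  set I : ℝ := ∑ e, Q e with hIdef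
  have hQ0 : ∀ e, 0 ≤ Q e := fun e => Ex_nonneg h0.le h1.le fun _ => sq_nonneg _
  have hI0 : 0 ≤ I := sum_nonneg fun e _ => hQ0 e
  have hDv : ∀ e x, Dv e h x ^ 3 = Dv e h x := by
    intro e x
    unfold Dv
    rcases hh (Function.update x e true) with h2 | h2 <;>
      rcases hh (Function.update x e false) with h3 | h3 <;> rw [h2, h3] <;> norm_num
  set W : ℝ := ∑ T with QT T, fh p h T ^ 2 with hW
  have hW0 : 0 ≤ W := sum_nonneg fun _ _ => sq_nonneg _
  have hW1 : W ≤ 1 := by
    calc W ≤ ∑ T, fh p h T ^ 2 := sum_le_sum_of_subset_of_nonneg (filter_subset _ _)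
          fun _ _ _ => sq_nonneg _
      _ = Ex p (fun x => h x ^ 2) := (parseval h0 h1 h).symm
      _ ≤ Ex p (fun _ => 1) := Ex_mono h0.le h1.le fun x => by
          rcases hh x with h2 | h2 <;> rw [h2] <;> norm_num
      _ = 1 := Ex_one p
  -- bound by influences
  set s : ℝ := Real.sqrt (K ^ t * I / m) with hs
  have hs0 : 0 ≤ s := Real.sqrt_nonneg _
  have hs2 : s ^ 2 = K ^ t * I / m := Real.sq_sqrt (by positivity)
  have key : ∀ e, QE e → ∑ S with e ∈ S ∧ (S.erase e).card ≤ t - 1, fh p h S ^ 2 ≤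
      lam * (s * Q e) := by
    intro e he
    rw [sum_mem_fh h0 h1 e h (fun T => T.card ≤ t - 1)]
    refine mul_le_mul_of_nonneg_left ?_ hl.le
    have lv := level h0 h1 (t - 1) (Dv e h) (hDv e)
    apply le_of_sq_le_sq _ (mul_nonneg hs0 (hQ0 e))
    refine lv.trans ?_
    have e1 : K ^ (t - 1) ≤ K ^ t := pow_le_pow_right₀ hK1 (Nat.sub_le _ _)
    have e2 := hI e he
    have e3 : Q e ≤ I / m := by
      rw [le_div_iff₀ hm]; linarith
    calc K ^ (t - 1) * Q e ^ 3 ≤ K ^ t * Q e ^ 3 :=
          mul_le_mul_of_nonneg_right e1 (pow_nonneg (hQ0 e) _)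
      _ = K ^ t * (Q e * Q e ^ 2) := by ring
      _ ≤ K ^ t * (I / m * Q e ^ 2) := by
          refine mul_le_mul_of_nonneg_left ?_ (by positivity)
          exact mul_le_mul_of_nonneg_right e3 (sq_nonneg _)
      _ = (s * Q e) ^ 2 := by rw [mul_pow, hs2]; ring
  have hWb : W ≤ lam * (s * I) := by
    calc W ≤ ∑ T with QT T, (T.card : ℝ) * fh p h T ^ 2 := by
          refine sum_le_sum fun T hT => ?_
          rw [mem_filter] at hT
          have h2 : (1 : ℝ) ≤ T.card := by exact_mod_cast (hQ T hT.2).1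
          nlinarith [sq_nonneg (fh p h T)]
      _ = ∑ T with QT T, ∑ e with e ∈ T, fh p h T ^ 2 := by
          refine sum_congr rfl fun T _ => ?_
          rw [Finset.sum_const, nsmul_eq_mul]
          congr 2
          simp
      _ = ∑ e, ∑ T with QT T ∧ e ∈ T, fh p h T ^ 2 := by
          simp only [Finset.sum_filter]
          have : ∀ T : Finset E, (if QT T then ∑ e, if e ∈ T then fh p h T ^ 2 else 0 else 0) =
              ∑ e, if QT T ∧ e ∈ T then fh p h T ^ 2 else 0 := by
            intro T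
            by_cases h2 : QT T <;> simp [h2]
          simp only [this]
          rw [sum_comm]
      _ ≤ ∑ e, lam * (s * Q e) := by
          refine sum_le_sum fun e _ => ?_
          by_cases he : QE e
          · refine le_trans ?_ (key e he)
            refine sum_le_sum_of_subset_of_nonneg ?_ fun _ _ _ => sq_nonneg _
            intro T hT
            rw [mem_filter] at hT ⊢
            refine ⟨mem_univ _, hT.2.2, ?_⟩
            have := (hQ T hT.2.1).2.1
            rw [card_erase_of_mem hT.2.2]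
            omega
          · rw [Finset.sum_eq_zero]
            · have := hQ0 e; positivity
            · intro T hT
              rw [mem_filter] at hT
              exact absurd ((hQ T hT.2.1).2.2 e hT.2.2) he
      _ = lam * (s * I) := by rw [← Finset.mul_sum, ← Finset.mul_sum]
  have hW3 : W ^ 3 ≤ (δ * I) ^ 3 := by
    calc W ^ 3 = W ^ 2 * W := by ring
      _ ≤ W ^ 2 * 1 := mul_le_mul_of_nonneg_left hW1 (sq_nonneg _)
      _ ≤ (lam * (s * I)) ^ 2 := by rw [mul_one]; exact pow_le_pow_left₀ hW0 hWb 2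
      _ = (lam ^ 2 * K ^ t) / m * I ^ 3 := by
          rw [mul_pow lam, mul_pow s, hs2]; ring
      _ ≤ δ ^ 3 * I ^ 3 := by
          refine mul_le_mul_of_nonneg_right ?_ (by positivity)
          rw [div_le_iff₀ hm]; exact hδ
      _ = _ := by ring
  exact le_of_pow_le_pow_left₀ (by norm_num) (by positivity) hW3

end

end Crest.Agent.BK
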