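import Mathlib
import Crest.Prelude.Def_StronglyRayleigh
import Crest.Prelude.Def_SpanningTrees

set_option autoImplicit false

/-!
Shared definitions for S0254 / S0255.
`FDD ι`: consistent family of finite-dimensional laws of a random subset of `ι`.
-/

namespace Crest.Agent.SRFlow

open MeasureTheory

variable {ι : Type*} [DecidableEq ι]

/-- partition function of the weights `q` on subsets of `L` tilted by the field `x`. -/
noncomputable def Zf (q : Finset ι → ℝ) (L : Finset ι) (x : ι → ℝ) : ℝ :=
  ∑ S ∈ L.powerset, q S * Real.exp (∑ u ∈ S, x u)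

/-- unnormalised weight of the configurations containing `A`. -/
noncomputable def Nf (q : Finset ι → ℝ) (L : Finset ι) (x : ι → ℝ) (A : Finset ι) : ℝ :=
  ∑ S ∈ L.powerset with A ⊆ S, q S * Real.exp (∑ u ∈ S, x u)

/-- occupation probability of `v` under the tilted law. -/
noncomputable def gibbs (q : Finset ι → ℝ) (L : Finset ι) (x : ι → ℝ) (v : ι) : ℝ :=
  Nf q L x {v} / Zf q L x

/-- covariance of the occupation variables of `u`, `v` under the tilted law. -/
noncomputable def cov (q : Finset ι → ℝ) (L : Finset ι) (x : ι → ℝ) (u v : ι) : ℝ :=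
  Nf q L x {u, v} / Zf q L x - gibbs q L x u * gibbs q L x v

/-- the key hypothesis: covariances of all tilted laws are summable with total at most `C`. -/
def CovBound (C : ℝ) (q : Finset ι → ℝ) (L : Finset ι) : Prop :=
  ∀ (x : ι → ℝ), ∀ v ∈ L, ∑ u ∈ L, |cov q L x u v| ≤ C

/-- consistent family of laws of random subsets. -/
structure FDD (ι : Type*) [DecidableEq ι] where
  p : Finset ι → Finset ι → ℝ
  nonneg : ∀ L S, 0 ≤ p L S
  sum_one : ∀ L, ∑ S ∈ L.powerset, p L S = 1
  consistent : ∀ M L, M ⊆ L → ∀ S, S ⊆ M →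
    p M S = ∑ S' ∈ L.powerset with S' ∩ M = S, p L S'

/-- finite-dimensional weights of a law on configurations. -/
noncomputable def lawWeights (ν : Measure (ι → Bool)) (L S : Finset ι) : ℝ :=
  (ν {ω | ∀ i ∈ L, (ω i = true ↔ i ∈ S)}).toReal

end Crest.Agent.SRFlow
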