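import Mathlib
import Crest.Prelude.Def_SpanningTrees

set_option autoImplicit false

/-!
Linear algebra for weighted spanning tree counts (used for S0254): a Cauchy–Binet type expansion of
the determinant of `∑ w_e a_e a_eᵀ`, and monotonicity of "effective resistances".
-/

namespace Crest.Agent.UST

open Matrix

section CB

variable {V E : Type*} [Fintype V] [DecidableEq V] [DecidableEq E] {R : Type*} [CommRing R]

/-- weighted sum of rank one matrices `∑_{e ∈ s} w e • a e (a e)ᵀ`. -/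
def lap (a : E → V → R) (s : Finset E) (w : E → R) : Matrix V V R :=
  ∑ e ∈ s, w e • Matrix.vecMulVec (a e) (a e)

omit [Fintype V] [DecidableEq V] [DecidableEq E] in
theorem lap_apply (a : E → V → R) (s : Finset E) (w : E → R) (i j : V) :
    lap a s w i j = ∑ e ∈ s, w e * (a e i * a e j) := by
  simp [lap, Matrix.sum_apply, Matrix.vecMulVec_apply]

/-- coefficient of a choice function. -/
def cf (a : E → V → R) (r : V → E) : R := (∏ i, a (r i) i) * (Matrix.of fun i => a (r i)).det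

omit [DecidableEq E] in
theorem cf_eq_zero (a : E → V → R) (r : V → E) (hr : ¬ Function.Injective r) : cf a r = 0 := by
  simp only [Function.Injective, not_forall] at hr
  obtain ⟨i, j, hij, hne⟩ := hr
  unfold cf
  rw [Matrix.det_zero_of_row_eq hne (by ext k; simp [Matrix.of_apply, hij])]
  simp

theorem det_lap_aux (a : E → V → R) (s : Finset E) (w : E → R) :
    (lap a s w).det = ∑ r ∈ (Fintype.piFinset fun _ : V => s) with Function.Injective r,
      (∏ i, w (r i)) * cf a r := by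
  classical
  have h1 : lap a s w = Matrix.of (fun i => ∑ e ∈ s, (w e * a e i) • a e) := by
    ext i j
    rw [lap_apply, Matrix.of_apply, Finset.sum_apply]
    refine Finset.sum_congr rfl fun e _ => ?_
    simp only [Pi.smul_apply, smul_eq_mul]; ring
  rw [h1]
  have h2 : (Matrix.of (fun i : V => ∑ e ∈ s, (w e * a e i) • a e)).det =
      ∑ r ∈ (Fintype.piFinset fun _ : V => s),
        (Matrix.detRowAlternating (n := V) (R := R)).toMultilinearMap
          (fun i => (w (r i) * a (r i) i) • a (r i)) := by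
    have := MultilinearMap.map_sum_finset
      ((Matrix.detRowAlternating (n := V) (R := R)).toMultilinearMap)
      (fun (i : V) (e : E) => (w e * a e i) • a e) (fun _ => s)
    exact this
  rw [h2, Finset.sum_filter_of_ne]
  · refine Finset.sum_congr rfl fun r _ => ?_
    rw [MultilinearMap.map_smul_univ]
    simp only [Finset.prod_mul_distrib, smul_eq_mul, cf]
    rw [mul_assoc]
    rfl
  · intro r _ hne
    by_contra hr
    exact hne (by rw [cf_eq_zero a r hr, mul_zero])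

theorem det_lap (a : E → V → R) (s : Finset E) (w : E → R) :
    (lap a s w).det = ∑ A ∈ s.powersetCard (Fintype.card V),
      (∏ e ∈ A, w e) * (lap a A (fun _ => 1)).det := by
  classical
  rw [det_lap_aux]
  rw [← Finset.sum_fiberwise_of_maps_to (t := s.powersetCard (Fintype.card V))
    (g := fun r : V → E => Finset.univ.image r)]
  · refine Finset.sum_congr rfl fun A hA => ?_
    rw [Finset.mem_powersetCard] at hA
    rw [det_lap_aux, Finset.mul_sum]
    refine Finset.sum_bij (fun r _ => r) ?_ ?_ ?_ ?_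
    · intro r hr
      simp only [Finset.mem_filter, Fintype.mem_piFinset] at hr ⊢
      refine ⟨fun i => ?_, hr.1.2⟩
      rw [← hr.2]
      exact Finset.mem_image_of_mem _ (Finset.mem_univ i)
    · intro r _ r' _ h; exact h
    · intro r hr
      simp only [Finset.mem_filter, Fintype.mem_piFinset] at hr
      refine ⟨r, ?_, rfl⟩
      simp only [Finset.mem_filter, Fintype.mem_piFinset]
      refine ⟨⟨fun i => hA.1 (hr.1 i), hr.2⟩, ?_⟩
      apply Finset.eq_of_subset_of_card_le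
      · intro e he
        obtain ⟨i, -, rfl⟩ := Finset.mem_image.mp he
        exact hr.1 i
      · rw [Finset.card_image_of_injective _ hr.2, Finset.card_univ, hA.2]
    · intro r hr
      simp only [Finset.mem_filter, Fintype.mem_piFinset] at hr
      rw [← hr.2, Finset.prod_image (fun x _ y _ h => hr.1.2 h)]
      simp
  · intro r hr
    simp only [Finset.mem_filter, Fintype.mem_piFinset] at hr
    rw [Finset.mem_powersetCard]
    refine ⟨?_, ?_⟩
    · intro e he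
      obtain ⟨i, -, rfl⟩ := Finset.mem_image.mp he
      exact hr.1 i
    · rw [Finset.card_image_of_injective _ hr.2, Finset.card_univ]

omit [DecidableEq V] [DecidableEq E] in
theorem lap_mulVec (a : E → V → R) (s : Finset E) (w : E → R) (φ : V → R) :
    lap a s w *ᵥ φ = ∑ e ∈ s, (w e * (a e ⬝ᵥ φ)) • a e := by
  ext i
  simp only [Matrix.mulVec, dotProduct, lap_apply, Finset.sum_apply, Pi.smul_apply, smul_eq_mul,
    Finset.sum_mul, Finset.mul_sum]
  rw [Finset.sum_comm]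
  refine Finset.sum_congr rfl fun e _ => Finset.sum_congr rfl fun j _ => ?_
  ring

omit [DecidableEq V] [DecidableEq E] in
theorem dot_lap_mulVec (a : E → V → R) (s : Finset E) (w : E → R) (ψ φ : V → R) :
    ψ ⬝ᵥ (lap a s w *ᵥ φ) = ∑ e ∈ s, w e * ((a e ⬝ᵥ ψ) * (a e ⬝ᵥ φ)) := by
  rw [lap_mulVec, dotProduct_sum]
  refine Finset.sum_congr rfl fun e _ => ?_
  rw [dotProduct_smul, dotProduct_comm ψ]
  simp only [smul_eq_mul]; ring

end CB

section Res

variable {V V₁ V₂ E : Type*} [Fintype V] [DecidableEq V] [Fintype V₁] [DecidableEq V₁]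
  [Fintype V₂] [DecidableEq V₂] [DecidableEq E]

/-- effective resistance -/
noncomputable def res (a : E → V → ℝ) (s : Finset E) (w : E → ℝ) (e : E) : ℝ :=
  a e ⬝ᵥ ((lap a s w)⁻¹ *ᵥ a e)

theorem lap_update (a : E → V → ℝ) (s : Finset E) (w : E → ℝ) (e : E) (he : e ∈ s) (t : ℝ) :
    lap a s (Function.update w e (w e + t)) = lap a s w + t • Matrix.vecMulVec (a e) (a e) := by
  unfold lap
  rw [← Finset.add_sum_erase _ _ he, ← Finset.add_sum_erase s (fun e => w e • vecMulVec (a e) (a e)) he]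
  have : ∀ x ∈ s.erase e, Function.update w e (w e + t) x • vecMulVec (a x) (a x) =
      w x • vecMulVec (a x) (a x) := by
    intro x hx
    rw [Function.update_of_ne (Finset.ne_of_mem_erase hx)]
  rw [Finset.sum_congr rfl this, Function.update_self, add_smul]
  abel

theorem det_lap_update (a : E → V → ℝ) (s : Finset E) (w : E → ℝ) (e : E) (he : e ∈ s) (t : ℝ)
    (hd : (lap a s w).det ≠ 0) :
    (lap a s (Function.update w e (w e + t))).det =
      (lap a s w).det * (1 + t * res a s w e) := by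
  rw [lap_update a s w e he t]
  have h := Matrix.det_add_replicateCol_mul_replicateRow (ι := Unit) (A := lap a s w)
    (isUnit_iff_ne_zero.mpr hd) (t • a e) (a e)
  have h2 : lap a s w + t • Matrix.vecMulVec (a e) (a e) =
      lap a s w + replicateCol Unit (t • a e) * replicateRow Unit (a e) := by
    congr 1
    ext i j
    simp [Matrix.vecMulVec_apply, Matrix.mul_apply, mul_assoc]
  rw [h2, h]
  congr 1
  rw [Matrix.det_unique]
  simp only [Matrix.add_apply, Matrix.one_apply_eq]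
  congr 1
  unfold res
  simp only [Matrix.mul_apply, Matrix.replicateRow_apply, Matrix.replicateCol_apply,
    dotProduct, Matrix.mulVec, Finset.sum_mul, Finset.mul_sum, Pi.smul_apply, smul_eq_mul]
  rw [Finset.sum_comm]
  refine Finset.sum_congr rfl fun i _ => Finset.sum_congr rfl fun j _ => ?_
  ring

theorem res_eq_energy (a : E → V → ℝ) (s : Finset E) (w : E → ℝ) (e : E)
    (hd : (lap a s w).det ≠ 0) :
    res a s w e = ∑ f ∈ s, w f * (a f ⬝ᵥ ((lap a s w)⁻¹ *ᵥ a e)) ^ 2 := by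
  have h1 : lap a s w *ᵥ ((lap a s w)⁻¹ *ᵥ a e) = a e := by
    rw [Matrix.mulVec_mulVec, Matrix.mul_nonsing_inv _ (isUnit_iff_ne_zero.mpr hd),
      Matrix.one_mulVec]
  have h2 := dot_lap_mulVec a s w ((lap a s w)⁻¹ *ᵥ a e) ((lap a s w)⁻¹ *ᵥ a e)
  rw [h1] at h2
  unfold res
  rw [dotProduct_comm, h2]
  refine Finset.sum_congr rfl fun f _ => ?_
  ring

theorem res_nonneg (a : E → V → ℝ) (s : Finset E) (w : E → ℝ) (e : E)
    (hw : ∀ f ∈ s, 0 ≤ w f) (hd : (lap a s w).det ≠ 0) : 0 ≤ res a s w e := by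
  rw [res_eq_energy a s w e hd]
  exact Finset.sum_nonneg fun f hf => mul_nonneg (hw f hf) (sq_nonneg _)

/-- Rayleigh monotonicity of effective resistances. -/
theorem res_mono (a₁ : E → V₁ → ℝ) (a₂ : E → V₂ → ℝ) (s₁ s₂ : Finset E) (hs : s₁ ⊆ s₂)
    (w₁ w₂ : E → ℝ) (hw₁ : ∀ e ∈ s₁, 0 ≤ w₁ e) (hw₂ : ∀ e ∈ s₂, 0 ≤ w₂ e)
    (hw : ∀ e ∈ s₁, w₁ e ≤ w₂ e) (r : (V₂ → ℝ) → (V₁ → ℝ))
    (hr : ∀ e ∈ s₁, ∀ φ, a₁ e ⬝ᵥ r φ = a₂ e ⬝ᵥ φ)
    (hd₁ : (lap a₁ s₁ w₁).det ≠ 0) (hd₂ : (lap a₂ s₂ w₂).det ≠ 0) (e : E) (he : e ∈ s₁) :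
    res a₂ s₂ w₂ e ≤ res a₁ s₁ w₁ e := by
  have hn₁ := res_nonneg a₁ s₁ w₁ e hw₁ hd₁
  have hn₂ := res_nonneg a₂ s₂ w₂ e hw₂ hd₂
  set φ₁ := (lap a₁ s₁ w₁)⁻¹ *ᵥ a₁ e with hφ₁
  set φ₂ := (lap a₂ s₂ w₂)⁻¹ *ᵥ a₂ e with hφ₂
  have hL₁ : lap a₁ s₁ w₁ *ᵥ φ₁ = a₁ e := by
    rw [hφ₁, Matrix.mulVec_mulVec, Matrix.mul_nonsing_inv _ (isUnit_iff_ne_zero.mpr hd₁),
      Matrix.one_mulVec]
  have hR₂ : res a₂ s₂ w₂ e = ∑ f ∈ s₁, w₁ f * ((a₁ f ⬝ᵥ r φ₂) * (a₁ f ⬝ᵥ φ₁)) := by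
    rw [← dot_lap_mulVec, hL₁, dotProduct_comm, hr e he]
    rfl
  have hE₁ : res a₁ s₁ w₁ e = ∑ f ∈ s₁, w₁ f * (a₁ f ⬝ᵥ φ₁) ^ 2 := res_eq_energy a₁ s₁ w₁ e hd₁
  have hE₂ : res a₂ s₂ w₂ e = ∑ f ∈ s₂, w₂ f * (a₂ f ⬝ᵥ φ₂) ^ 2 := res_eq_energy a₂ s₂ w₂ e hd₂
  have hle : ∑ f ∈ s₁, w₁ f * (a₁ f ⬝ᵥ r φ₂) ^ 2 ≤ res a₂ s₂ w₂ e := by
    rw [hE₂]
    calc ∑ f ∈ s₁, w₁ f * (a₁ f ⬝ᵥ r φ₂) ^ 2
        ≤ ∑ f ∈ s₁, w₂ f * (a₂ f ⬝ᵥ φ₂) ^ 2 := by
          refine Finset.sum_le_sum fun f hf => ?_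
          rw [hr f hf]
          exact mul_le_mul_of_nonneg_right (hw f hf) (sq_nonneg _)
      _ ≤ ∑ f ∈ s₂, w₂ f * (a₂ f ⬝ᵥ φ₂) ^ 2 :=
          Finset.sum_le_sum_of_subset_of_nonneg hs
            fun f hf _ => mul_nonneg (hw₂ f hf) (sq_nonneg _)
  have hCS : (res a₂ s₂ w₂ e) ^ 2 ≤ (∑ f ∈ s₁, w₁ f * (a₁ f ⬝ᵥ r φ₂) ^ 2) *
      (∑ f ∈ s₁, w₁ f * (a₁ f ⬝ᵥ φ₁) ^ 2) := by
    rw [hR₂]
    refine Finset.sum_sq_le_sum_mul_sum_of_sq_eq_mul _ ?_ ?_ ?_
    · intro f hf; exact mul_nonneg (hw₁ f hf) (sq_nonneg _)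
    · intro f hf; exact mul_nonneg (hw₁ f hf) (sq_nonneg _)
    · intro f hf; ring
  rw [← hE₁] at hCS
  have h3 : (res a₂ s₂ w₂ e) ^ 2 ≤ res a₂ s₂ w₂ e * res a₁ s₁ w₁ e :=
    hCS.trans (mul_le_mul_of_nonneg_right hle hn₁)
  rcases hn₂.eq_or_lt with h0 | h0
  · rw [← h0]; exact hn₁
  · rw [sq] at h3
    exact le_of_mul_le_mul_left h3 h0

/-- increase the weights of the edges of `F` by `t`. -/
noncomputable def bump (w : E → ℝ) (F : Finset E) (t : ℝ) : E → ℝ := fun e => if e ∈ F then w e + t else w e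

theorem bump_insert (w : E → ℝ) (F : Finset E) (e : E) (he : e ∉ F) (t : ℝ) :
    bump w (insert e F) t = Function.update (bump w F t) e (bump w F t e + t) := by
  ext x
  by_cases hx : x = e
  · subst hx; simp [bump, he]
  · simp [bump, Function.update_of_ne hx, hx]

theorem bump_nonneg (w : E → ℝ) (F : Finset E) (t : ℝ) (ht : 0 ≤ t) (hw : ∀ e, 0 < w e) (e : E) :
    0 < bump w F t e := by
  unfold bump; split_ifs
  · have := hw e; positivity
  · exact hw e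

/-- ratios of determinants are monotone -/
theorem det_ratio (a₁ : E → V₁ → ℝ) (a₂ : E → V₂ → ℝ) (s₁ s₂ : Finset E) (hs : s₁ ⊆ s₂)
    (w₁ w₂ : E → ℝ) (hw₁ : ∀ e, 0 < w₁ e) (hw₂ : ∀ e, 0 < w₂ e) (hw : ∀ e, w₁ e ≤ w₂ e)
    (r : (V₂ → ℝ) → (V₁ → ℝ))
    (hr : ∀ e ∈ s₁, ∀ φ, a₁ e ⬝ᵥ r φ = a₂ e ⬝ᵥ φ)
    (hd₁ : ∀ w : E → ℝ, (∀ e, 0 < w e) → 0 < (lap a₁ s₁ w).det)
    (hd₂ : ∀ w : E → ℝ, (∀ e, 0 < w e) → 0 < (lap a₂ s₂ w).det)
    (F : Finset E) (hF : F ⊆ s₁) (t : ℝ) (ht : 0 ≤ t) :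
    (lap a₂ s₂ (bump w₂ F t)).det * (lap a₁ s₁ w₁).det ≤
      (lap a₁ s₁ (bump w₁ F t)).det * (lap a₂ s₂ w₂).det := by
  induction F using Finset.induction_on with
  | empty =>
    have h1 : bump w₁ ∅ t = w₁ := by ext; simp [bump]
    have h2 : bump w₂ ∅ t = w₂ := by ext; simp [bump]
    rw [h1, h2, mul_comm]
  | insert e F he ih =>
    have hF' : F ⊆ s₁ := (Finset.subset_insert e F).trans hF
    have hes : e ∈ s₁ := hF (Finset.mem_insert_self e F)
    have ih := ih hF'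
    have hp₁ := bump_nonneg w₁ F t ht hw₁
    have hp₂ := bump_nonneg w₂ F t ht hw₂
    have hD₁ := hd₁ _ hp₁
    have hD₂ := hd₂ _ hp₂
    rw [bump_insert _ _ _ he, bump_insert _ _ _ he,
      det_lap_update a₂ s₂ _ e (hs hes) t hD₂.ne', det_lap_update a₁ s₁ _ e hes t hD₁.ne']
    have hm : res a₂ s₂ (bump w₂ F t) e ≤ res a₁ s₁ (bump w₁ F t) e := by
      apply res_mono a₁ a₂ s₁ s₂ hs _ _ (fun e _ => (hp₁ e).le) (fun e _ => (hp₂ e).le) _ r hr
        hD₁.ne' hD₂.ne' e hes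
      intro f _
      unfold bump; split_ifs
      · linarith [hw f]
      · exact hw f
    have hr2 : 0 ≤ res a₂ s₂ (bump w₂ F t) e := res_nonneg _ _ _ _ (fun e _ => (hp₂ e).le) hD₂.ne'
    have hmm : 1 + t * res a₂ s₂ (bump w₂ F t) e ≤ 1 + t * res a₁ s₁ (bump w₁ F t) e := by
      have := mul_le_mul_of_nonneg_left hm ht; linarith
    have hpos : 0 ≤ 1 + t * res a₂ s₂ (bump w₂ F t) e := by positivity
    calc (lap a₂ s₂ (bump w₂ F t)).det * (1 + t * res a₂ s₂ (bump w₂ F t) e) *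
          (lap a₁ s₁ w₁).det
        = ((lap a₂ s₂ (bump w₂ F t)).det * (lap a₁ s₁ w₁).det) *
          (1 + t * res a₂ s₂ (bump w₂ F t) e) := by ring
      _ ≤ ((lap a₁ s₁ (bump w₁ F t)).det * (lap a₂ s₂ w₂).det) *
          (1 + t * res a₁ s₁ (bump w₁ F t) e) := by
          apply mul_le_mul ih hmm hpos
          exact mul_nonneg hD₁.le (hd₂ _ hw₂).le
      _ = _ := by ring

end Res

end Crest.Agent.UST
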