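import Mathlib
import Crest.Prelude.Def_SpanningTrees
import Crest.Agent.USTDet

set_option autoImplicit false

/-!
Weighted matrix-tree theorem, negative correlation of edges in weighted uniform spanning trees and
monotonicity of `ustContains` (used for S0254).
-/

namespace Crest.Agent.UST

open Matrix Crest.ProbabilityR.SpanningTrees

theorem mem_edgesIn {G : SimpleGraph ℕ} {S : Finset ℕ} {x y : ℕ} :
    s(x, y) ∈ edgesIn G S ↔ x ∈ S ∧ y ∈ S ∧ G.Adj x y := by
  classical
  unfold edgesIn
  rw [Finset.mem_filter, Finset.mk_mem_sym2_iff, SimpleGraph.mem_edgeSet]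
  tauto

/-- the subgraph with edge set `A` on the vertex set `S`. -/
abbrev gr (S : Finset ℕ) (A : Finset (Sym2 ℕ)) : SimpleGraph (S : Set ℕ) :=
  (SimpleGraph.fromEdgeSet (A : Set (Sym2 ℕ))).induce (S : Set ℕ)

theorem gr_adj {S : Finset ℕ} {A : Finset (Sym2 ℕ)} {x y : (S : Set ℕ)} :
    (gr S A).Adj x y ↔ s((x : ℕ), (y : ℕ)) ∈ A ∧ (x : ℕ) ≠ y := by
  simp [gr, SimpleGraph.comap_adj, SimpleGraph.fromEdgeSet_adj]

theorem card_edgeSet_gr {G : SimpleGraph ℕ} {S : Finset ℕ} {A : Finset (Sym2 ℕ)}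
    (hA : A ⊆ edgesIn G S) : Nat.card (gr S A).edgeSet = A.card := by
  have h1 : ∀ e : (gr S A).edgeSet, Sym2.map Subtype.val (e : Sym2 (S : Set ℕ)) ∈ A := by
    rintro ⟨e, he⟩
    induction e using Sym2.ind with
    | _ x y =>
      rw [SimpleGraph.mem_edgeSet, gr_adj] at he
      simpa using he.1
  have h2 : Function.Bijective (fun e : (gr S A).edgeSet =>
      (⟨Sym2.map Subtype.val (e : Sym2 (S : Set ℕ)), h1 e⟩ : A)) := by
    constructor
    · intro e f hef
      simp only [Subtype.mk.injEq] at hef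
      exact Subtype.ext (Sym2.map.injective Subtype.val_injective hef)
    · rintro ⟨e, he⟩
      induction e using Sym2.ind with
      | _ x y =>
        have h3 := mem_edgesIn.mp (hA he)
        refine ⟨⟨s(⟨x, by simpa using h3.1⟩, ⟨y, by simpa using h3.2.1⟩), ?_⟩, ?_⟩
        · rw [SimpleGraph.mem_edgeSet, gr_adj]
          exact ⟨he, h3.2.2.ne⟩
        · simp
  rw [Nat.card_eq_of_bijective _ h2]
  simp

theorem isSpanningTreeOn_iff {G : SimpleGraph ℕ} {S : Finset ℕ} {A : Finset (Sym2 ℕ)} :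
    IsSpanningTreeOn G S A ↔ A ⊆ edgesIn G S ∧ (gr S A).Connected ∧ A.card + 1 = S.card := by
  unfold IsSpanningTreeOn
  constructor
  · rintro ⟨h1, h2⟩
    refine ⟨h1, ?_⟩
    have h3 := SimpleGraph.isTree_iff_connected_and_card.mp h2
    rw [card_edgeSet_gr h1] at h3
    simpa using h3
  · rintro ⟨h1, h2, h3⟩
    refine ⟨h1, ?_⟩
    rw [SimpleGraph.isTree_iff_connected_and_card, card_edgeSet_gr h1]
    refine ⟨h2, ?_⟩
    simpa using h3

/-- the spanning trees of the piece `S`. -/
noncomputable def trees (G : SimpleGraph ℕ) (S : Finset ℕ) : Finset (Finset (Sym2 ℕ)) := by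
  classical exact (edgesIn G S).powerset.filter (fun A => IsSpanningTreeOn G S A)

theorem mem_trees {G : SimpleGraph ℕ} {S : Finset ℕ} {A : Finset (Sym2 ℕ)} :
    A ∈ trees G S ↔ A ⊆ edgesIn G S ∧ (gr S A).Connected ∧ A.card + 1 = S.card := by
  classical
  unfold trees
  rw [Finset.mem_filter, Finset.mem_powerset, isSpanningTreeOn_iff]
  tauto

theorem trees_card (G : SimpleGraph ℕ) (S : Finset ℕ) (A : Finset (Sym2 ℕ))
    (hA : A ∈ trees G S) : A.card + 1 = S.card := (mem_trees.mp hA).2.2

theorem trees_nonempty (G : SimpleGraph ℕ) (S : Finset ℕ)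
    (hS : (G.induce (S : Set ℕ)).Connected) : (trees G S).Nonempty := by
  classical
  obtain ⟨T, hT, htree⟩ := hS.exists_isTree_le
  have hfin : (T.edgeSet).Finite := Set.toFinite _
  refine ⟨hfin.toFinset.image (Sym2.map Subtype.val), ?_⟩
  have hmem : ∀ x y : (S : Set ℕ), s((x : ℕ), (y : ℕ)) ∈ hfin.toFinset.image (Sym2.map Subtype.val) ↔
      T.Adj x y := by
    intro x y
    rw [Finset.mem_image]
    constructor
    · rintro ⟨e, he, h⟩
      rw [Set.Finite.mem_toFinset] at he
      have : e = s(x, y) := by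
        apply Sym2.map.injective Subtype.val_injective
        rw [h]; simp
      rw [this] at he
      exact he
    · intro h
      exact ⟨s(x, y), by rw [Set.Finite.mem_toFinset]; exact h, by simp⟩
  have hsub : hfin.toFinset.image (Sym2.map Subtype.val) ⊆ edgesIn G S := by
    intro e he
    rw [Finset.mem_image] at he
    obtain ⟨e', he', rfl⟩ := he
    induction e' using Sym2.ind with
    | _ x y =>
      rw [Set.Finite.mem_toFinset, SimpleGraph.mem_edgeSet] at he'
      rw [Sym2.map_mk, mem_edgesIn]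
      exact ⟨by simpa using x.2, by simpa using y.2, by simpa using hT he'⟩
  have hgr : gr S (hfin.toFinset.image (Sym2.map Subtype.val)) = T := by
    ext x y
    rw [gr_adj, hmem]
    constructor
    · exact fun h => h.1
    · intro h
      exact ⟨h, fun h' => h.ne (Subtype.ext h')⟩
  unfold trees
  rw [Finset.mem_filter, Finset.mem_powerset]
  refine ⟨hsub, hsub, ?_⟩
  change (gr S _).IsTree
  rw [hgr]
  exact htree

/-! ### incidence vectors -/

/-- indicator of the vertex `x` (zero at the root `o`) -/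
def dl (R : Type*) [Zero R] [One R] (S : Finset ℕ) (o : ℕ) (x : ℕ) : ↥(S.erase o) → R :=
  fun v => if (v : ℕ) = x then 1 else 0

/-- reduced incidence vector of the edge `e` -/
def inc (R : Type*) [Ring R] (S : Finset ℕ) (o : ℕ) (e : Sym2 ℕ) : ↥(S.erase o) → R :=
  dl R S o e.inf - dl R S o e.sup

/-- extension by zero -/
def ex {R : Type*} [Zero R] {S : Finset ℕ} {o : ℕ} (φ : ↥(S.erase o) → R) (x : ℕ) : R :=
  if h : x ∈ S.erase o then φ ⟨x, h⟩ else 0

theorem dl_dot {R : Type*} [Ring R] {S : Finset ℕ} {o : ℕ} (φ : ↥(S.erase o) → R) (x : ℕ) :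
    dl R S o x ⬝ᵥ φ = ex φ x := by
  unfold dl ex dotProduct
  split_ifs with h
  · rw [Finset.sum_eq_single (⟨x, h⟩ : ↥(S.erase o))]
    · simp
    · intro b _ hb
      have : (b : ℕ) ≠ x := fun hh => hb (Subtype.ext hh)
      simp [this]
    · intro h'; exact absurd (Finset.mem_univ _) h'
  · apply Finset.sum_eq_zero
    intro b _
    have : (b : ℕ) ≠ x := fun hh => h (hh ▸ b.2)
    simp [this]

theorem inc_dot {R : Type*} [Ring R] {S : Finset ℕ} {o : ℕ} (φ : ↥(S.erase o) → R)
    (e : Sym2 ℕ) : inc R S o e ⬝ᵥ φ = ex φ e.inf - ex φ e.sup := by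
  unfold inc
  rw [sub_dotProduct, dl_dot, dl_dot]

theorem sym2_eq (e : Sym2 ℕ) : e = s(e.inf, e.sup) := by
  induction e using Sym2.ind with
  | _ x y =>
    simp only [Sym2.inf_mk, Sym2.sup_mk]
    rcases le_total x y with h | h
    · simp [inf_eq_left.mpr h, sup_eq_right.mpr h]
    · rw [inf_eq_right.mpr h, sup_eq_left.mpr h, Sym2.eq_swap]

theorem inf_mem {G : SimpleGraph ℕ} {S : Finset ℕ} {e : Sym2 ℕ} (he : e ∈ edgesIn G S) :
    e.inf ∈ S ∧ e.sup ∈ S ∧ G.Adj e.inf e.sup := by
  rw [sym2_eq e] at he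
  exact mem_edgesIn.mp he

theorem card_V {S : Finset ℕ} {o : ℕ} (ho : o ∈ S) : Fintype.card ↥(S.erase o) + 1 = S.card := by
  rw [Fintype.card_coe, Finset.card_erase_add_one ho]

/-- a function on a connected graph that is constant along edges is constant -/
theorem const_of_conn {V X : Type*} {H : SimpleGraph V} (hH : H.Connected) (f : V → X)
    (hf : ∀ x y, H.Adj x y → f x = f y) (x y : V) : f x = f y := by
  obtain ⟨p⟩ := hH.preconnected x y
  induction p with
  | nil => rfl
  | cons h _ ih => exact (hf _ _ h).trans ih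

theorem det_not_conn {G : SimpleGraph ℕ} {S : Finset ℕ} {o : ℕ} (ho : o ∈ S)
    {A : Finset (Sym2 ℕ)} (hA : A ⊆ edgesIn G S) (hc : ¬ (gr S A).Connected) :
    (lap (inc ℝ S o) A (fun _ => 1)).det = 0 := by
  classical
  rw [← Matrix.exists_mulVec_eq_zero_iff]
  have hpre : ¬ (gr S A).Preconnected := fun h => hc
    ((SimpleGraph.connected_iff _).mpr ⟨h, ⟨⟨o, by simpa using ho⟩⟩⟩)
  have : ∃ v : (S : Set ℕ), ¬ (gr S A).Reachable ⟨o, by simpa using ho⟩ v := by
    by_contra hcon
    push Not at hcon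
    exact hpre fun x y => (hcon x).symm.trans (hcon y)
  obtain ⟨v, hv⟩ := this
  let ψ : ℕ → ℝ := fun x => if hx : x ∈ (S : Set ℕ) then
    (if (gr S A).Reachable ⟨o, by simpa using ho⟩ ⟨x, hx⟩ then 0 else 1) else 0
  have hψo : ψ o = 0 := by
    have : o ∈ (S : Set ℕ) := by simpa using ho
    simp only [ψ]
    rw [dif_pos this, if_pos (SimpleGraph.Reachable.refl _)]
  have hψv : ψ v = 1 := by
    simp only [ψ]
    rw [dif_pos v.2, if_neg hv]
  let φ : ↥(S.erase o) → ℝ := fun x => ψ x
  have hex : ∀ x ∈ S, ex φ x = ψ x := by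
    intro x hx
    unfold ex
    split_ifs with h
    · rfl
    · have : x = o := by
        by_contra hne
        exact h (Finset.mem_erase.mpr ⟨hne, hx⟩)
      rw [this, hψo]
  refine ⟨φ, ?_, ?_⟩
  · intro h0
    have hvo : (v : ℕ) ≠ o := by
      intro h
      rw [h, hψo] at hψv
      norm_num at hψv
    have := congrFun h0 ⟨v, Finset.mem_erase.mpr ⟨hvo, by simpa using v.2⟩⟩
    simp only [φ, Pi.zero_apply] at this
    rw [hψv] at this
    norm_num at this
  · rw [lap_mulVec]
    apply Finset.sum_eq_zero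
    intro e he
    obtain ⟨h1, h2, h3⟩ := inf_mem (hA he)
    rw [inc_dot, hex _ h1, hex _ h2]
    have : ψ e.inf = ψ e.sup := by
      have h1' : e.inf ∈ (S : Set ℕ) := by simpa using h1
      have h2' : e.sup ∈ (S : Set ℕ) := by simpa using h2
      have hadj : (gr S A).Adj ⟨e.inf, h1'⟩ ⟨e.sup, h2'⟩ := by
        rw [gr_adj]
        exact ⟨by rw [← sym2_eq]; exact he, h3.ne⟩
      simp only [ψ]
      rw [dif_pos h1', dif_pos h2']
      have : (gr S A).Reachable ⟨o, by simpa using ho⟩ ⟨e.inf, h1'⟩ ↔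
          (gr S A).Reachable ⟨o, by simpa using ho⟩ ⟨e.sup, h2'⟩ :=
        ⟨fun h => h.trans hadj.reachable, fun h => h.trans hadj.symm.reachable⟩
      simp only [this]
    rw [this, sub_self, mul_zero, zero_smul]

theorem det_conn {G : SimpleGraph ℕ} {S : Finset ℕ} {o : ℕ} (ho : o ∈ S)
    {A : Finset (Sym2 ℕ)} (hA : A ⊆ edgesIn G S) (hc : (gr S A).Connected)
    (hcard : A.card + 1 = S.card) :
    (lap (inc ℝ S o) A (fun _ => 1)).det = 1 := by
  classical
  -- the integer vectors generate
  let M : Submodule ℤ (↥(S.erase o) → ℤ) :=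
    Submodule.span ℤ (Set.range fun e : A => inc ℤ S o e)
  have hspan : ∀ x ∈ S, dl ℤ S o x ∈ M := by
    intro x hx
    have h1 : ∀ y z : (S : Set ℕ), (gr S A).Adj y z →
        Submodule.Quotient.mk (p := M) (dl ℤ S o y) = Submodule.Quotient.mk (p := M) (dl ℤ S o z) := by
      intro y z hyz
      rw [gr_adj] at hyz
      rw [Submodule.Quotient.eq]
      have h2 : inc ℤ S o s((y : ℕ), (z : ℕ)) ∈ M :=
        Submodule.subset_span ⟨⟨_, hyz.1⟩, rfl⟩
      unfold inc at h2
      simp only [Sym2.inf_mk, Sym2.sup_mk] at h2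
      rcases le_total (y : ℕ) z with h | h
      · rwa [inf_eq_left.mpr h, sup_eq_right.mpr h] at h2
      · rw [inf_eq_right.mpr h, sup_eq_left.mpr h] at h2
        have := M.neg_mem h2
        rwa [neg_sub] at this
    have h3 := const_of_conn hc (fun y : (S : Set ℕ) => Submodule.Quotient.mk (p := M) (dl ℤ S o y)) h1
      ⟨x, by simpa using hx⟩ ⟨o, by simpa using ho⟩
    have h4 : dl ℤ S o o = 0 := by
      ext v
      have : (v : ℕ) ≠ o := (Finset.mem_erase.mp v.2).1
      simp [dl, this]
    simp only [h4] at h3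
    rw [Submodule.Quotient.mk_zero, Submodule.Quotient.mk_eq_zero] at h3
    exact h3
  have hcards : Fintype.card ↥(S.erase o) = Fintype.card A := by
    have := card_V ho
    rw [Fintype.card_coe A]; omega
  let σ : ↥(S.erase o) ≃ A := Fintype.equivOfCardEq hcards
  -- coefficients
  have hcoef : ∀ v : ↥(S.erase o), ∃ c : A → ℤ, ∑ e, c e • inc ℤ S o e = dl ℤ S o v := by
    intro v
    have := hspan v (Finset.mem_of_mem_erase v.2)
    exact (Submodule.mem_span_range_iff_exists_fun ℤ).mp this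
  choose c hcv using hcoef
  let B : Matrix ↥(S.erase o) ↥(S.erase o) ℤ := Matrix.of fun v u => inc ℤ S o (σ u) v
  let C : Matrix ↥(S.erase o) ↥(S.erase o) ℤ := Matrix.of fun u v => c v (σ u)
  have hBC : B * C = 1 := by
    ext v u
    rw [Matrix.mul_apply]
    have h1 := congrFun (hcv u) v
    rw [Finset.sum_apply] at h1
    simp only [Pi.smul_apply, smul_eq_mul] at h1
    rw [← σ.sum_comp] at h1
    simp only [B, C, Matrix.of_apply]
    rw [Matrix.one_apply]
    calc ∑ x, inc ℤ S o (σ x) v * c u (σ x) = ∑ x, c u (σ x) * inc ℤ S o (σ x) v :=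
          Finset.sum_congr rfl fun x _ => mul_comm _ _
      _ = dl ℤ S o u v := h1
      _ = if v = u then 1 else 0 := by
          unfold dl
          by_cases h : v = u
          · simp [h]
          · have : (v : ℕ) ≠ u := fun hh => h (Subtype.ext hh)
            simp [h, this]
  have hdet : B.det ^ 2 = 1 := by
    have h1 : B.det * C.det = 1 := by rw [← Matrix.det_mul, hBC, Matrix.det_one]
    have h2 : IsUnit B.det := IsUnit.of_mul_eq_one _ h1
    rcases Int.isUnit_iff.mp h2 with h | h <;> rw [h] <;> norm_num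
  have hL : lap (inc ℝ S o) A (fun _ => 1) = (B * Bᵀ).map (Int.castRingHom ℝ) := by
    ext i j
    rw [lap_apply, Matrix.map_apply, Matrix.mul_apply, map_sum]
    simp only [B, Matrix.transpose_apply, Matrix.of_apply, map_mul]
    rw [σ.sum_comp (fun e : A => (Int.castRingHom ℝ) (inc ℤ S o e i) *
      (Int.castRingHom ℝ) (inc ℤ S o e j))]
    rw [← Finset.sum_coe_sort A]
    refine Finset.sum_congr rfl fun e _ => ?_
    simp only [inc, dl, Pi.sub_apply, one_mul, map_sub, Int.coe_castRingHom]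
    push_cast
    rfl
  rw [hL]
  have : ((B * Bᵀ).map (Int.castRingHom ℝ)).det = (Int.castRingHom ℝ) (B * Bᵀ).det := by
    rw [RingHom.map_det]; rfl
  rw [this, Matrix.det_mul, Matrix.det_transpose, ← sq, hdet, map_one]

/-- weighted matrix-tree theorem. -/
theorem matrix_tree (G : SimpleGraph ℕ) (S : Finset ℕ) (o : ℕ) (ho : o ∈ S) (w : Sym2 ℕ → ℝ) :
    (lap (inc ℝ S o) (edgesIn G S) w).det = ∑ A ∈ trees G S, ∏ a ∈ A, w a := by
  classical
  rw [det_lap]
  have hsub : trees G S ⊆ (edgesIn G S).powersetCard (Fintype.card ↥(S.erase o)) := by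
    intro A hA
    rw [mem_trees] at hA
    rw [Finset.mem_powersetCard]
    refine ⟨hA.1, ?_⟩
    have := card_V ho
    omega
  symm
  rw [← Finset.sum_subset hsub]
  · refine Finset.sum_congr rfl fun A hA => ?_
    rw [mem_trees] at hA
    rw [det_conn ho hA.1 hA.2.1 hA.2.2, mul_one]
  · intro A hA hn
    rw [Finset.mem_powersetCard] at hA
    have hcard : A.card + 1 = S.card := by have := card_V ho; omega
    have : ¬ (gr S A).Connected := fun h => hn (mem_trees.mpr ⟨hA.1, h, hcard⟩)
    rw [det_not_conn ho hA.1 this, mul_zero]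


theorem Z_pos (G : SimpleGraph ℕ) (S : Finset ℕ) (hS : (G.induce (S : Set ℕ)).Connected)
    (w : Sym2 ℕ → ℝ) (hw : ∀ e, 0 < w e) : 0 < ∑ A ∈ trees G S, ∏ a ∈ A, w a :=
  Finset.sum_pos (fun A _ => Finset.prod_pos fun a _ => hw a) (trees_nonempty G S hS)

theorem exists_root (G : SimpleGraph ℕ) (S : Finset ℕ) (hS : (G.induce (S : Set ℕ)).Connected) :
    ∃ o, o ∈ S := by
  obtain ⟨o⟩ := hS.nonempty
  exact ⟨o, by simpa using o.2⟩

theorem prod_update {w : Sym2 ℕ → ℝ} (e : Sym2 ℕ) (A : Finset (Sym2 ℕ)) :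
    ∏ a ∈ A, Function.update w e (2 * w e) a = (if e ∈ A then 2 else 1) * ∏ a ∈ A, w a := by
  classical
  split_ifs with h
  · rw [← Finset.mul_prod_erase _ _ h, ← Finset.mul_prod_erase A w h, Function.update_self]
    rw [Finset.prod_congr rfl (g := w)]
    · ring
    · intro x hx; rw [Function.update_of_ne (Finset.ne_of_mem_erase hx)]
  · rw [one_mul]
    refine Finset.prod_congr rfl fun x hx => ?_
    have hne : x ≠ e := by rintro rfl; exact h hx
    rw [Function.update_of_ne hne]

theorem neg_corr (G : SimpleGraph ℕ) (S : Finset ℕ) (hS : (G.induce (S : Set ℕ)).Connected)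
    (w : Sym2 ℕ → ℝ) (hw : ∀ e, 0 < w e) (e f : Sym2 ℕ) (hef : e ≠ f) :
    (∑ A ∈ trees G S with e ∈ A ∧ f ∈ A, ∏ a ∈ A, w a) * (∑ A ∈ trees G S, ∏ a ∈ A, w a)
      ≤ (∑ A ∈ trees G S with e ∈ A, ∏ a ∈ A, w a) *
        (∑ A ∈ trees G S with f ∈ A, ∏ a ∈ A, w a) := by
  classical
  have hpos : ∀ A ∈ trees G S, 0 ≤ ∏ a ∈ A, w a := fun A _ => Finset.prod_nonneg fun a _ => (hw a).le
  by_cases he : e ∈ edgesIn G S
  swap
  · have : (trees G S).filter (fun A => e ∈ A ∧ f ∈ A) = ∅ := by
      rw [Finset.filter_eq_empty_iff]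
      intro A hA h
      exact he ((mem_trees.mp hA).1 h.1)
    rw [this, Finset.sum_empty, zero_mul]
    exact mul_nonneg (Finset.sum_nonneg fun A hA => hpos A (Finset.mem_filter.mp hA).1)
      (Finset.sum_nonneg fun A hA => hpos A (Finset.mem_filter.mp hA).1)
  by_cases hf : f ∈ edgesIn G S
  swap
  · have : (trees G S).filter (fun A => e ∈ A ∧ f ∈ A) = ∅ := by
      rw [Finset.filter_eq_empty_iff]
      intro A hA h
      exact hf ((mem_trees.mp hA).1 h.2)
    rw [this, Finset.sum_empty, zero_mul]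
    exact mul_nonneg (Finset.sum_nonneg fun A hA => hpos A (Finset.mem_filter.mp hA).1)
      (Finset.sum_nonneg fun A hA => hpos A (Finset.mem_filter.mp hA).1)
  obtain ⟨o, ho⟩ := exists_root G S hS
  set a := inc ℝ S o with ha
  set E := edgesIn G S with hE
  have hD : ∀ w : Sym2 ℕ → ℝ, (∀ e, 0 < w e) → 0 < (lap a E w).det := by
    intro w hw
    rw [ha, hE, matrix_tree G S o ho w]
    exact Z_pos G S hS w hw
  have hupd : ∀ (w : Sym2 ℕ → ℝ) (e : Sym2 ℕ), (∀ e, 0 < w e) →
      ∀ x, 0 < Function.update w e (2 * w e) x := by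
    intro w e hw x
    by_cases hx : x = e
    · subst hx; rw [Function.update_self]; have := hw x; positivity
    · rw [Function.update_of_ne hx]; exact hw x
  set wf := Function.update w f (2 * w f) with hwf
  have hwfp := hupd w f hw
  -- ratio
  have h1 : (lap a E (Function.update w e (2 * w e))).det =
      (lap a E w).det * (1 + w e * res a E w e) := by
    rw [← det_lap_update a E w e he (w e) (hD w hw).ne']
    congr 3; ring
  have h2 : (lap a E (Function.update wf e (2 * wf e))).det =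
      (lap a E wf).det * (1 + wf e * res a E wf e) := by
    rw [← det_lap_update a E wf e he (wf e) (hD wf hwfp).ne']
    congr 3; ring
  have hwfe : wf e = w e := by rw [hwf, Function.update_of_ne hef]
  have hm : res a E wf e ≤ res a E w e := by
    apply res_mono a a E E (Finset.Subset.refl _) w wf (fun e _ => (hw e).le)
      (fun e _ => (hwfp e).le) _ id (fun _ _ _ => rfl) (hD w hw).ne' (hD wf hwfp).ne' e he
    intro x _
    rw [hwf]
    by_cases hx : x = f
    · subst hx; rw [Function.update_self]; linarith [hw x]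
    · rw [Function.update_of_ne hx]
  have hkey : (lap a E (Function.update wf e (2 * wf e))).det * (lap a E w).det ≤
      (lap a E (Function.update w e (2 * w e))).det * (lap a E wf).det := by
    rw [h1, h2, hwfe]
    have h3 : 1 + w e * res a E wf e ≤ 1 + w e * res a E w e := by
      have := mul_le_mul_of_nonneg_left hm (hw e).le
      linarith
    calc (lap a E wf).det * (1 + w e * res a E wf e) * (lap a E w).det
        = ((lap a E wf).det * (lap a E w).det) * (1 + w e * res a E wf e) := by ring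
      _ ≤ ((lap a E wf).det * (lap a E w).det) * (1 + w e * res a E w e) :=
          mul_le_mul_of_nonneg_left h3 (mul_nonneg (hD wf hwfp).le (hD w hw).le)
      _ = _ := by ring
  rw [ha, hE, matrix_tree G S o ho, matrix_tree G S o ho, matrix_tree G S o ho,
    matrix_tree G S o ho] at hkey
  -- expand sums
  have hZf : ∑ A ∈ trees G S, ∏ x ∈ A, wf x =
      ∑ A ∈ trees G S, ∏ x ∈ A, w x + ∑ A ∈ trees G S with f ∈ A, ∏ x ∈ A, w x := by
    rw [Finset.sum_filter, ← Finset.sum_add_distrib]
    refine Finset.sum_congr rfl fun A _ => ?_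
    rw [hwf, prod_update]
    split_ifs <;> ring
  have hZe : ∑ A ∈ trees G S, ∏ x ∈ A, Function.update w e (2 * w e) x =
      ∑ A ∈ trees G S, ∏ x ∈ A, w x + ∑ A ∈ trees G S with e ∈ A, ∏ x ∈ A, w x := by
    rw [Finset.sum_filter, ← Finset.sum_add_distrib]
    refine Finset.sum_congr rfl fun A _ => ?_
    rw [prod_update]
    split_ifs <;> ring
  have hZef : ∑ A ∈ trees G S, ∏ x ∈ A, Function.update wf e (2 * wf e) x =
      ∑ A ∈ trees G S, ∏ x ∈ A, w x + ∑ A ∈ trees G S with f ∈ A, ∏ x ∈ A, w x +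
        ∑ A ∈ trees G S with e ∈ A, ∏ x ∈ A, w x +
        ∑ A ∈ trees G S with e ∈ A ∧ f ∈ A, ∏ x ∈ A, w x := by
    rw [Finset.sum_filter, Finset.sum_filter, Finset.sum_filter, ← Finset.sum_add_distrib,
      ← Finset.sum_add_distrib, ← Finset.sum_add_distrib]
    refine Finset.sum_congr rfl fun A _ => ?_
    rw [prod_update, hwf, prod_update]
    by_cases h1 : e ∈ A <;> by_cases h2 : f ∈ A <;> simp [h1, h2] <;> ring
  rw [hZf, hZe, hZef] at hkey
  nlinarith [hkey]

theorem prod_bump (F A : Finset (Sym2 ℕ)) (t : ℝ) :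
    ∏ a ∈ A, bump (fun _ => (1 : ℝ)) F t a = (1 + t) ^ (A ∩ F).card := by
  classical
  unfold bump
  rw [Finset.prod_ite, Finset.prod_const, Finset.prod_const_one, mul_one]
  rw [Finset.filter_mem_eq_inter]

theorem ustContains_eq (G : SimpleGraph ℕ) (S : Finset ℕ) (F : Finset (Sym2 ℕ)) :
    ustContains G S F =
      (((trees G S).filter (fun A => F ⊆ A)).card : ℝ) / ((trees G S).card : ℝ) := by
  classical
  unfold ustContains trees
  rw [Finset.filter_filter]
  congr!

theorem ust_mono (G : SimpleGraph ℕ) (S S' : Finset ℕ) (hS : (G.induce (S : Set ℕ)).Connected)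
    (hS' : (G.induce (S' : Set ℕ)).Connected) (hSS : S ⊆ S') (F : Finset (Sym2 ℕ))
    (hF : F ⊆ edgesIn G S) : ustContains G S' F ≤ ustContains G S F := by
  classical
  rw [ustContains_eq, ustContains_eq]
  have hZ : (0 : ℝ) < (trees G S).card := by
    exact_mod_cast Finset.card_pos.mpr (trees_nonempty G S hS)
  have hZ' : (0 : ℝ) < (trees G S').card := by
    exact_mod_cast Finset.card_pos.mpr (trees_nonempty G S' hS')
  rw [div_le_div_iff₀ hZ' hZ]
  rcases F.eq_empty_or_nonempty with hF0 | hF0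
  · subst hF0
    simp [mul_comm]
  obtain ⟨o, ho⟩ := exists_root G S hS
  have ho' : o ∈ S' := hSS ho
  set N : ℝ := (((trees G S).filter (fun A => F ⊆ A)).card : ℝ) with hN
  set N' : ℝ := (((trees G S').filter (fun A => F ⊆ A)).card : ℝ) with hN'
  set Z : ℝ := ((trees G S).card : ℝ) with hZd
  set Z' : ℝ := ((trees G S').card : ℝ) with hZd'
  have hEE : edgesIn G S ⊆ edgesIn G S' := by
    intro e he
    obtain ⟨h1, h2, h3⟩ := inf_mem he
    rw [sym2_eq e, mem_edgesIn]
    exact ⟨hSS h1, hSS h2, h3⟩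
  -- key inequality
  have hkey : ∀ t : ℝ, 0 ≤ t →
      (∑ A ∈ trees G S', (1 + t) ^ (A ∩ F).card) * Z ≤
        (∑ A ∈ trees G S, (1 + t) ^ (A ∩ F).card) * Z' := by
    intro t ht
    let r : (↥(S'.erase o) → ℝ) → (↥(S.erase o) → ℝ) := fun φ v => ex φ v
    have hr : ∀ e ∈ edgesIn G S, ∀ φ, inc ℝ S o e ⬝ᵥ r φ = inc ℝ S' o e ⬝ᵥ φ := by
      intro e he φ
      obtain ⟨h1, h2, h3⟩ := inf_mem he
      rw [inc_dot, inc_dot]
      have h4 : ∀ x ∈ S, ex (r φ) x = ex φ x := by
        intro x hx
        by_cases hxo : x = o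
        · subst hxo
          simp [ex]
        · have hx1 : x ∈ S.erase o := Finset.mem_erase.mpr ⟨hxo, hx⟩
          unfold ex
          rw [dif_pos hx1]
          rfl
      rw [h4 _ h1, h4 _ h2]
    have := det_ratio (inc ℝ S o) (inc ℝ S' o) (edgesIn G S) (edgesIn G S') hEE
      (fun _ => 1) (fun _ => 1) (fun _ => one_pos) (fun _ => one_pos) (fun _ => le_refl _) r hr
      (fun w hw => by rw [matrix_tree G S o ho w]; exact Z_pos G S hS w hw)
      (fun w hw => by rw [matrix_tree G S' o ho' w]; exact Z_pos G S' hS' w hw) F hF t ht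
    rw [matrix_tree G S o ho, matrix_tree G S' o ho', matrix_tree G S o ho,
      matrix_tree G S' o ho'] at this
    simpa [prod_bump] using this
  -- limit
  have hk : 0 < F.card := Finset.card_pos.mpr hF0
  have hlow : ∀ x : ℝ, 1 ≤ x → N' * x ^ F.card ≤ ∑ A ∈ trees G S', x ^ (A ∩ F).card := by
    intro x hx
    calc N' * x ^ F.card = ∑ A ∈ (trees G S').filter (fun A => F ⊆ A), x ^ (A ∩ F).card := by
          rw [Finset.sum_congr rfl (g := fun _ => x ^ F.card)]
          · rw [Finset.sum_const, nsmul_eq_mul]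
          · intro A hA
            rw [Finset.inter_eq_right.mpr (Finset.mem_filter.mp hA).2]
      _ ≤ _ := Finset.sum_le_sum_of_subset_of_nonneg (Finset.filter_subset _ _)
          fun A _ _ => by positivity
  have hupp : ∀ x : ℝ, 1 ≤ x → ∑ A ∈ trees G S, x ^ (A ∩ F).card ≤
      N * x ^ F.card + Z * x ^ (F.card - 1) := by
    intro x hx
    have hx0 : (0 : ℝ) ≤ x := by linarith
    rw [← Finset.sum_filter_add_sum_filter_not (trees G S) (fun A => F ⊆ A)]
    apply add_le_add
    · rw [Finset.sum_congr rfl (g := fun _ => x ^ F.card)]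
      · rw [Finset.sum_const, nsmul_eq_mul]
      · intro A hA
        rw [Finset.inter_eq_right.mpr (Finset.mem_filter.mp hA).2]
    · calc ∑ A ∈ (trees G S).filter (fun A => ¬ F ⊆ A), x ^ (A ∩ F).card
          ≤ ∑ A ∈ (trees G S).filter (fun A => ¬ F ⊆ A), x ^ (F.card - 1) := by
            refine Finset.sum_le_sum fun A hA => ?_
            apply pow_le_pow_right₀ hx
            have h1 : ¬ F ⊆ A := (Finset.mem_filter.mp hA).2
            have h2 : A ∩ F ⊂ F := by
              refine Finset.ssubset_iff_subset_ne.mpr ⟨Finset.inter_subset_right, ?_⟩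
              intro h
              exact h1 (Finset.inter_eq_right.mp h)
            have := Finset.card_lt_card h2
            omega
        _ ≤ ∑ A ∈ trees G S, x ^ (F.card - 1) :=
            Finset.sum_le_sum_of_subset_of_nonneg (Finset.filter_subset _ _)
              fun A _ _ => by positivity
        _ = Z * x ^ (F.card - 1) := by rw [Finset.sum_const, nsmul_eq_mul]
  have hx : ∀ x : ℝ, 1 ≤ x → N' * Z ≤ N * Z' + Z * Z' / x := by
    intro x hx
    have hx0 : (0 : ℝ) < x := by linarith
    have h1 := hkey (x - 1) (by linarith)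
    rw [show (1 : ℝ) + (x - 1) = x by ring] at h1
    have h2 := (mul_le_mul_of_nonneg_right (hlow x hx) hZ.le).trans
      (h1.trans (mul_le_mul_of_nonneg_right (hupp x hx) hZ'.le))
    have h3 : x ^ F.card = x ^ (F.card - 1) * x := by
      rw [← pow_succ]; congr 1; omega
    have hp : 0 < x ^ (F.card - 1) := by positivity
    rw [h3] at h2
    have h4 : N' * Z * x ≤ (N * x + Z) * Z' := by
      have h5 : (x ^ (F.card - 1)) * (N' * Z * x) ≤ (x ^ (F.card - 1)) * ((N * x + Z) * Z') := by
        nlinarith [h2]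
      exact le_of_mul_le_mul_left h5 hp
    rw [← sub_nonneg]
    have h6 : N * Z' + Z * Z' / x - N' * Z = ((N * x + Z) * Z' - N' * Z * x) / x := by
      field_simp
    rw [h6]
    exact div_nonneg (by linarith) hx0.le
  apply le_of_forall_pos_le_add
  intro ε hε
  have h1 := hx (1 + Z * Z' / ε) (by have : 0 ≤ Z * Z' / ε := by positivity
                                     linarith)
  refine h1.trans ?_
  have h2 : Z * Z' / (1 + Z * Z' / ε) ≤ ε := by
    rw [div_le_iff₀ (by positivity)]
    have : ε * (1 + Z * Z' / ε) = ε + Z * Z' := by field_simp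
    rw [this]; linarith
  linarith

end Crest.Agent.UST
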