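import Mathlib
import Crest.Prelude.Def_SpanningTrees
import Crest.Prelude.Def_GraphTables
import Crest.Agent.USTNeg
import Crest.Agent.SRBase

set_option autoImplicit false

/-!
The free uniform spanning forest of a connected graph on `ℕ` as a consistent family of finite
dimensional laws; summable covariances; equivariance and measurability (used for S0254).
-/

namespace Crest.Agent.FUSF

open Crest.ProbabilityR.SpanningTrees Crest.Agent.UST Crest.Agent.SRFlow Filter Topology

noncomputable section

/-! ### finite volume laws -/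

open Classical in
/-- law of the trace on `L` of the uniform spanning tree of the piece `S`. -/
def qn (G : SimpleGraph ℕ) (S : Finset ℕ) (L A : Finset (Sym2 ℕ)) : ℝ :=
  (((trees G S).filter (fun T => T ∩ L = A)).card : ℝ) / ((trees G S).card : ℝ)

theorem qn_nonneg (G : SimpleGraph ℕ) (S : Finset ℕ) (L A : Finset (Sym2 ℕ)) :
    0 ≤ qn G S L A := by unfold qn; positivity

theorem cardpos {G : SimpleGraph ℕ} {S : Finset ℕ} (hS : (G.induce (S : Set ℕ)).Connected) :
    (0 : ℝ) < (trees G S).card := by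
  exact_mod_cast Finset.card_pos.mpr (trees_nonempty G S hS)

/-- sums against `qn` are averages over trees. -/
theorem sum_qn (G : SimpleGraph ℕ) (S : Finset ℕ) (L : Finset (Sym2 ℕ))
    (P : Finset (Sym2 ℕ) → Prop) [DecidablePred P] (f : Finset (Sym2 ℕ) → ℝ) :
    ∑ A ∈ L.powerset with P A, qn G S L A * f A =
      (∑ T ∈ trees G S with P (T ∩ L), f (T ∩ L)) / (trees G S).card := by
  classical
  unfold qn
  have h1 : ∀ A, (((trees G S).filter (fun T => T ∩ L = A)).card : ℝ) / ((trees G S).card : ℝ) *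
      f A = (∑ T ∈ (trees G S).filter (fun T => T ∩ L = A), f (T ∩ L)) / (trees G S).card := by
    intro A
    rw [Finset.sum_congr rfl (g := fun _ => f A)
      (fun T hT => by rw [(Finset.mem_filter.mp hT).2]), Finset.sum_const, nsmul_eq_mul]
    ring
  rw [Finset.sum_congr rfl fun A _ => h1 A, ← Finset.sum_div]
  congr 1
  rw [← Finset.sum_fiberwise_of_maps_to (s := (trees G S).filter (fun T => P (T ∩ L)))
    (t := L.powerset.filter P) (g := fun T => T ∩ L)]
  · refine Finset.sum_congr rfl fun A hA => ?_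
    rw [Finset.filter_filter]
    refine Finset.sum_congr ?_ fun _ _ => rfl
    ext T
    simp only [Finset.mem_filter, Finset.mem_powerset] at hA ⊢
    constructor
    · rintro ⟨h1, h2⟩; exact ⟨h1, h2 ▸ hA.2, h2⟩
    · rintro ⟨h1, _, h2⟩; exact ⟨h1, h2⟩
  · intro T hT
    rw [Finset.mem_filter] at hT
    simp only [Finset.mem_filter, Finset.mem_powerset]
    exact ⟨Finset.inter_subset_right, hT.2⟩

theorem qn_sum {G : SimpleGraph ℕ} {S : Finset ℕ} (hS : (G.induce (S : Set ℕ)).Connected)
    (L : Finset (Sym2 ℕ)) : ∑ A ∈ L.powerset, qn G S L A = 1 := by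
  classical
  have := sum_qn G S L (fun _ => True) (fun _ => 1)
  simp only [Finset.filter_true, mul_one, Finset.sum_const, nsmul_eq_mul] at this
  rw [this, div_self (cardpos hS).ne']

theorem qn_consistent (G : SimpleGraph ℕ) (S : Finset ℕ) (M L : Finset (Sym2 ℕ)) (hML : M ⊆ L)
    (A : Finset (Sym2 ℕ)) :
    qn G S M A = ∑ A' ∈ L.powerset with A' ∩ M = A, qn G S L A' := by
  classical
  have := sum_qn G S L (fun A' => A' ∩ M = A) (fun _ => 1)
  simp only [mul_one, Finset.sum_const, nsmul_eq_mul] at this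
  rw [this]
  unfold qn
  congr 3
  ext T
  rw [Finset.mem_filter, Finset.mem_filter, Finset.inter_assoc, Finset.inter_eq_right.mpr hML]

theorem signed_sum {B S : Finset (Sym2 ℕ)} :
    ∑ A ∈ B.powerset with S ⊆ A, (-1 : ℝ) ^ (A \ S).card = if B = S then 1 else 0 := by
  classical
  by_cases hSB : S ⊆ B
  · have h1 : ∑ A ∈ B.powerset with S ⊆ A, (-1 : ℝ) ^ (A \ S).card =
        ∑ C ∈ (B \ S).powerset, (-1 : ℝ) ^ C.card := by
      refine Finset.sum_bij' (fun A _ => A \ S) (fun C _ => C ∪ S) ?_ ?_ ?_ ?_ ?_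
      · intro A hA
        simp only [Finset.mem_filter, Finset.mem_powerset] at hA ⊢
        exact Finset.sdiff_subset_sdiff hA.1 (Finset.Subset.refl _)
      · intro C hC
        simp only [Finset.mem_filter, Finset.mem_powerset] at hC ⊢
        exact ⟨Finset.union_subset (hC.trans Finset.sdiff_subset) hSB, Finset.subset_union_right⟩
      · intro A hA
        simp only [Finset.mem_filter, Finset.mem_powerset] at hA
        exact Finset.sdiff_union_of_subset hA.2
      · intro C hC
        simp only [Finset.mem_powerset] at hC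
        rw [Finset.union_sdiff_right]
        rw [Finset.sdiff_eq_self_iff_disjoint]
        exact Finset.disjoint_of_subset_left hC Finset.sdiff_disjoint
      · intro A _; rfl
    rw [h1]
    have h2 : ∑ C ∈ (B \ S).powerset, (-1 : ℝ) ^ C.card =
        ((∑ C ∈ (B \ S).powerset, (-1 : ℤ) ^ C.card : ℤ) : ℝ) := by push_cast; rfl
    rw [h2, Finset.sum_powerset_neg_one_pow_card]
    by_cases hBS : B = S
    · subst hBS; simp
    · have : B \ S ≠ ∅ := by
        intro h
        exact hBS (Finset.Subset.antisymm (Finset.sdiff_eq_empty_iff_subset.mp h) hSB)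
      simp [this, hBS]
  · have : B ≠ S := fun h => hSB h.ge
    rw [if_neg this]
    apply Finset.sum_eq_zero
    intro A hA
    simp only [Finset.mem_filter, Finset.mem_powerset] at hA
    exact absurd (hA.2.trans hA.1) hSB

/-- inclusion-exclusion -/
def incl (u : Finset (Sym2 ℕ) → ℝ) (L S : Finset (Sym2 ℕ)) : ℝ :=
  ∑ A ∈ L.powerset with S ⊆ A, (-1 : ℝ) ^ (A \ S).card * u A

theorem incl_self (u : Finset (Sym2 ℕ) → ℝ) (L : Finset (Sym2 ℕ)) : incl u L L = u L := by
  classical
  unfold incl
  have : L.powerset.filter (fun A => L ⊆ A) = {L} := by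
    ext A
    simp only [Finset.mem_filter, Finset.mem_powerset, Finset.mem_singleton]
    constructor
    · rintro ⟨h1, h2⟩; exact Finset.Subset.antisymm h1 h2
    · rintro rfl; exact ⟨Finset.Subset.refl _, Finset.Subset.refl _⟩
  rw [this]
  simp

theorem qn_eq_incl (G : SimpleGraph ℕ) (S : Finset ℕ) (L A : Finset (Sym2 ℕ)) :
    qn G S L A = incl (ustContains G S) L A := by
  classical
  unfold qn incl
  have h1 : (((trees G S).filter (fun T => T ∩ L = A)).card : ℝ) =
      ∑ T ∈ trees G S, ∑ A' ∈ (T ∩ L).powerset with A ⊆ A', (-1 : ℝ) ^ (A' \ A).card := by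
    rw [Finset.sum_congr rfl fun T _ => signed_sum, Finset.sum_ite, Finset.sum_const_zero, add_zero,
      Finset.sum_const, nsmul_eq_mul, mul_one]
  rw [h1]
  have h2 : ∀ A' : Finset (Sym2 ℕ), ustContains G S A' =
      (∑ T ∈ trees G S, if A' ⊆ T then (1 : ℝ) else 0) / (trees G S).card := by
    intro A'
    rw [ustContains_eq, Finset.sum_ite, Finset.sum_const_zero, add_zero,
      Finset.sum_const, nsmul_eq_mul, mul_one]
  have h3 : ∀ A', (-1 : ℝ) ^ (A' \ A).card * ustContains G S A' =
      (∑ T ∈ trees G S, if A' ⊆ T then (-1 : ℝ) ^ (A' \ A).card else 0) / (trees G S).card := by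
    intro A'
    rw [h2, mul_div_assoc', Finset.mul_sum]
    congr 1
    refine Finset.sum_congr rfl fun T _ => ?_
    split_ifs <;> simp
  simp only [h3]
  rw [← Finset.sum_div, Finset.sum_comm (s := L.powerset.filter (fun A' => A ⊆ A'))]
  congr 1
  refine Finset.sum_congr rfl fun T _ => ?_
  rw [← Finset.sum_filter, Finset.filter_filter]
  refine Finset.sum_congr ?_ fun _ _ => rfl
  ext A'
  simp only [Finset.mem_filter, Finset.mem_powerset, Finset.subset_inter_iff]
  tauto

/-! ### the limit -/

open Classical in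
/-- canonical infinite volume inclusion probabilities. -/
def cG (G : SimpleGraph ℕ) (F : Finset (Sym2 ℕ)) : ℝ :=
  if (F : Set (Sym2 ℕ)) ⊆ G.edgeSet then
    ⨅ S : Finset ℕ, (if (G.induce (S : Set ℕ)).Connected ∧ F ⊆ edgesIn G S then
      ustContains G S F else 1)
  else 0

theorem ust_nonneg (G : SimpleGraph ℕ) (S : Finset ℕ) (F : Finset (Sym2 ℕ)) :
    0 ≤ ustContains G S F := by
  unfold ustContains; positivity

theorem ust_le_one (G : SimpleGraph ℕ) (S : Finset ℕ) (F : Finset (Sym2 ℕ)) :
    ustContains G S F ≤ 1 := by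
  classical
  rw [ustContains_eq]
  apply div_le_one_of_le₀ _ (by positivity)
  exact_mod_cast Finset.card_le_card (Finset.filter_subset _ _)

theorem bdd (G : SimpleGraph ℕ) (F : Finset (Sym2 ℕ)) : BddBelow (Set.range fun S : Finset ℕ =>
    open Classical in (if (G.induce (S : Set ℕ)).Connected ∧ F ⊆ edgesIn G S then
      ustContains G S F else 1)) := by
  refine ⟨0, ?_⟩
  rintro _ ⟨S, rfl⟩
  beta_reduce
  split_ifs
  · exact ust_nonneg _ _ _
  · exact zero_le_one

theorem cG_le {G : SimpleGraph ℕ} {F : Finset (Sym2 ℕ)} (hF : (F : Set (Sym2 ℕ)) ⊆ G.edgeSet)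
    {S : Finset ℕ} (hS : (G.induce (S : Set ℕ)).Connected) (hFS : F ⊆ edgesIn G S) :
    cG G F ≤ ustContains G S F := by
  unfold cG
  rw [if_pos hF]
  refine (ciInf_le (bdd G F) S).trans ?_
  rw [if_pos ⟨hS, hFS⟩]

theorem ust_eq_zero {G : SimpleGraph ℕ} {F : Finset (Sym2 ℕ)}
    (hF : ¬ (F : Set (Sym2 ℕ)) ⊆ G.edgeSet) (S : Finset ℕ) : ustContains G S F = 0 := by
  classical
  rw [ustContains_eq]
  have : (trees G S).filter (fun A => F ⊆ A) = ∅ := by
    rw [Finset.filter_eq_empty_iff]
    intro A hA h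
    apply hF
    intro e he
    obtain ⟨_, _, h3⟩ := inf_mem ((mem_trees.mp hA).1 (h he))
    rw [sym2_eq e, SimpleGraph.mem_edgeSet]
    exact h3
  rw [this]; simp

/-- a finite set of edges is inside a large enough piece. -/
theorem exists_edgesIn {G : SimpleGraph ℕ} {F : Finset (Sym2 ℕ)}
    (hF : (F : Set (Sym2 ℕ)) ⊆ G.edgeSet) : ∃ U : Finset ℕ, ∀ S : Finset ℕ, U ⊆ S →
    F ⊆ edgesIn G S := by
  classical
  refine ⟨F.image (fun e => e.inf) ∪ F.image (fun e => e.sup), fun S hS e he => ?_⟩
  have h3 : G.Adj e.inf e.sup := by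
    have := hF he
    rw [sym2_eq e, SimpleGraph.mem_edgeSet] at this
    exact this
  rw [sym2_eq e, mem_edgesIn]
  refine ⟨hS ?_, hS ?_, h3⟩
  · exact Finset.mem_union_left _ (Finset.mem_image_of_mem _ he)
  · exact Finset.mem_union_right _ (Finset.mem_image_of_mem _ he)

theorem exhaust {S : ℕ → Finset ℕ} (hm : Monotone S) (hc : ∀ v : ℕ, ∃ n, v ∈ S n)
    (U : Finset ℕ) : ∃ N, ∀ n, N ≤ n → U ⊆ S n := by
  classical
  induction U using Finset.induction_on with
  | empty => exact ⟨0, fun _ _ => Finset.empty_subset _⟩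
  | insert a U _ ih =>
    obtain ⟨N, hN⟩ := ih
    obtain ⟨k, hk⟩ := hc a
    refine ⟨max N k, fun n hn => ?_⟩
    exact Finset.insert_subset (hm ((le_max_right _ _).trans hn) hk)
      (hN n ((le_max_left _ _).trans hn))

theorem exists_conn_superset {G : SimpleGraph ℕ} (hG : G.Connected) (U : Finset ℕ) :
    ∃ S : Finset ℕ, U ⊆ S ∧ (G.induce (S : Set ℕ)).Connected := by
  classical
  obtain ⟨S, h1, h2⟩ := G.extend_finset_to_connected hG.preconnected
    (t := insert 0 U) (Finset.insert_nonempty 0 U)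
  exact ⟨S, (Finset.subset_insert 0 U).trans h1, h2⟩

theorem tendsto_cG {G : SimpleGraph ℕ} (hG : G.Connected) {S : ℕ → Finset ℕ} (hm : Monotone S)
    (hc : ∀ v : ℕ, ∃ n, v ∈ S n) (hS : ∀ n, (G.induce (S n : Set ℕ)).Connected)
    (F : Finset (Sym2 ℕ)) :
    Tendsto (fun n => ustContains G (S n) F) atTop (𝓝 (cG G F)) := by
  classical
  by_cases hF : (F : Set (Sym2 ℕ)) ⊆ G.edgeSet
  swap
  · simp only [ust_eq_zero hF, cG, if_neg hF]
    exact tendsto_const_nhds
  obtain ⟨U, hU⟩ := exists_edgesIn hF
  obtain ⟨N, hN⟩ := exhaust hm hc U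
  rw [tendsto_order]
  constructor
  · intro a ha
    filter_upwards [eventually_ge_atTop N] with n hn
    exact ha.trans_le (cG_le hF (hS n) (hU _ (hN n hn)))
  · intro a ha
    have h1 : ∃ T : Finset ℕ, (G.induce (T : Set ℕ)).Connected ∧ F ⊆ edgesIn G T ∧
        ustContains G T F < a := by
      by_contra hcon
      push Not at hcon
      have h2 : a ≤ ustContains G (S N) F := hcon _ (hS N) (hU _ (hN N le_rfl))
      have h2' := h2.trans (ust_le_one G _ F)
      have : a ≤ cG G F := by
        unfold cG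
        rw [if_pos hF]
        apply le_ciInf
        intro T
        split_ifs with h
        · exact hcon T h.1 h.2
        · exact h2'
      exact absurd ha (not_lt.mpr this)
    obtain ⟨T, hT1, hT2, hT3⟩ := h1
    obtain ⟨M, hM⟩ := exhaust hm hc T
    filter_upwards [eventually_ge_atTop M] with n hn
    exact (ust_mono G T (S n) hT1 (hS n) (hM n hn) F hT2).trans_lt hT3

theorem exists_exhaustion {G : SimpleGraph ℕ} (hG : G.Connected) : ∃ S : ℕ → Finset ℕ,
    Monotone S ∧ (∀ v : ℕ, ∃ n, v ∈ S n) ∧ ∀ n, (G.induce (S n : Set ℕ)).Connected := by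
  classical
  choose f hf1 hf2 using fun U => exists_conn_superset hG U
  let S : ℕ → Finset ℕ := fun n => Nat.rec (f ∅) (fun n T => f (insert n T)) n
  have hS : ∀ n, S (n + 1) = f (insert n (S n)) := fun n => rfl
  refine ⟨S, ?_, ?_, ?_⟩
  · apply monotone_nat_of_le_succ
    intro n
    rw [hS]
    exact (Finset.subset_insert _ _).trans (hf1 _)
  · intro v
    refine ⟨v + 1, ?_⟩
    rw [hS]
    exact hf1 _ (Finset.mem_insert_self _ _)
  · intro n
    cases n with
    | zero => exact hf2 _
    | succ n => rw [hS]; exact hf2 _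

/-- the finite dimensional laws of the free uniform spanning forest (no edges at all when `G` is
not connected). -/
def pG (G : SimpleGraph ℕ) (L A : Finset (Sym2 ℕ)) : ℝ :=
  open Classical in if G.Connected then incl (cG G) L A else if A = ∅ then 1 else 0

theorem tendsto_qn {G : SimpleGraph ℕ} (hG : G.Connected) {S : ℕ → Finset ℕ} (hm : Monotone S)
    (hc : ∀ v : ℕ, ∃ n, v ∈ S n) (hS : ∀ n, (G.induce (S n : Set ℕ)).Connected)
    (L A : Finset (Sym2 ℕ)) :
    Tendsto (fun n => qn G (S n) L A) atTop (𝓝 (pG G L A)) := by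
  unfold pG
  rw [if_pos hG]
  simp only [qn_eq_incl]
  unfold incl
  refine tendsto_finsetSum _ fun A' _ => ?_
  exact (tendsto_cG hG hm hc hS A').const_mul _

theorem pG_self {G : SimpleGraph ℕ} (hG : G.Connected) (F : Finset (Sym2 ℕ)) :
    pG G F F = cG G F := by
  unfold pG
  rw [if_pos hG, incl_self]

/-- the free uniform spanning forest as a consistent family. -/
def fddG (G : SimpleGraph ℕ) : FDD (Sym2 ℕ) where
  p := pG G
  nonneg := by
    classical
    intro L A
    by_cases hG : G.Connected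
    · obtain ⟨S, h1, h2, h3⟩ := exists_exhaustion hG
      exact ge_of_tendsto' (tendsto_qn hG h1 h2 h3 L A) fun n => qn_nonneg _ _ _ _
    · unfold pG
      rw [if_neg hG]
      split_ifs <;> norm_num
  sum_one := by
    classical
    intro L
    by_cases hG : G.Connected
    · obtain ⟨S, h1, h2, h3⟩ := exists_exhaustion hG
      have h4 : Tendsto (fun n => ∑ A ∈ L.powerset, qn G (S n) L A) atTop
          (𝓝 (∑ A ∈ L.powerset, pG G L A)) :=
        tendsto_finsetSum _ fun A _ => tendsto_qn hG h1 h2 h3 L A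
      simp only [fun n => qn_sum (h3 n) L] at h4
      exact tendsto_nhds_unique h4 tendsto_const_nhds
    · simp only [pG, if_neg hG]
      rw [Finset.sum_ite_eq' L.powerset ∅ (fun _ => (1 : ℝ))]
      simp
  consistent := by
    classical
    intro M L hML A hA
    by_cases hG : G.Connected
    · obtain ⟨S, h1, h2, h3⟩ := exists_exhaustion hG
      have h4 : Tendsto (fun n => ∑ A' ∈ L.powerset with A' ∩ M = A, qn G (S n) L A') atTop
          (𝓝 (∑ A' ∈ L.powerset with A' ∩ M = A, pG G L A')) :=
        tendsto_finsetSum _ fun A _ => tendsto_qn hG h1 h2 h3 L A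
      simp only [fun n => (qn_consistent G (S n) M L hML A).symm] at h4
      convert tendsto_nhds_unique (tendsto_qn hG h1 h2 h3 M A) h4
    · simp only [pG, if_neg hG]
      rw [Finset.sum_filter]
      by_cases hA0 : A = ∅
      · subst hA0
        rw [Finset.sum_eq_single ∅]
        · simp
        · intro B _ hB; simp [hB]
        · intro h; simp at h
      · rw [if_neg hA0]
        symm
        apply Finset.sum_eq_zero
        intro B _
        split_ifs with h1 h2
        · subst h2
          exact absurd (by simpa using h1.symm) hA0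
        · rfl
        · rfl

/-! ### summable covariances -/

/-- weights -/
def wt (L : Finset (Sym2 ℕ)) (x : Sym2 ℕ → ℝ) : Sym2 ℕ → ℝ :=
  fun e => if e ∈ L then Real.exp (x e) else 1

theorem wt_pos (L : Finset (Sym2 ℕ)) (x : Sym2 ℕ → ℝ) (e : Sym2 ℕ) : 0 < wt L x e := by
  unfold wt; split_ifs
  · exact Real.exp_pos _
  · exact one_pos

theorem prod_wt (L T : Finset (Sym2 ℕ)) (x : Sym2 ℕ → ℝ) :
    ∏ a ∈ T, wt L x a = Real.exp (∑ u ∈ T ∩ L, x u) := by
  unfold wt
  rw [Finset.prod_ite, Finset.prod_const_one, mul_one, Real.exp_sum, Finset.filter_mem_eq_inter]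

theorem Nf_qn (G : SimpleGraph ℕ) (S : Finset ℕ) (L : Finset (Sym2 ℕ)) (x : Sym2 ℕ → ℝ)
    (B : Finset (Sym2 ℕ)) (hB : B ⊆ L) :
    Nf (qn G S L) L x B =
      (∑ T ∈ trees G S with B ⊆ T, ∏ a ∈ T, wt L x a) / (trees G S).card := by
  classical
  unfold Nf
  rw [sum_qn G S L (fun A => B ⊆ A) (fun A => Real.exp (∑ u ∈ A, x u))]
  congr 1
  refine Finset.sum_congr ?_ fun T _ => (prod_wt L T x).symm
  ext T
  simp only [Finset.mem_filter, Finset.subset_inter_iff]
  tauto

theorem Zf_qn (G : SimpleGraph ℕ) (S : Finset ℕ) (L : Finset (Sym2 ℕ)) (x : Sym2 ℕ → ℝ) :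
    Zf (qn G S L) L x =
      (∑ T ∈ trees G S, ∏ a ∈ T, wt L x a) / (trees G S).card := by
  classical
  unfold Zf
  have := sum_qn G S L (fun _ => True) (fun A => Real.exp (∑ u ∈ A, x u))
  simp only [Finset.filter_true] at this
  rw [this]
  congr 1
  exact Finset.sum_congr rfl fun T _ => (prod_wt L T x).symm

theorem covBound_qn {G : SimpleGraph ℕ} {S : Finset ℕ} (hS : (G.induce (S : Set ℕ)).Connected)
    (L : Finset (Sym2 ℕ)) : CovBound 1 (qn G S L) L := by
  classical
  intro x v hv
  set w := wt L x with hw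
  have hwp : ∀ e, 0 < w e := wt_pos L x
  set K : ℝ := ((trees G S).card : ℝ) with hK
  have hKp : 0 < K := cardpos hS
  set Z : ℝ := ∑ T ∈ trees G S, ∏ a ∈ T, w a with hZ
  have hZp : 0 < Z := Z_pos G S hS w hwp
  set N : Sym2 ℕ → ℝ := fun u => ∑ T ∈ trees G S with u ∈ T, ∏ a ∈ T, w a with hN
  set N2 : Sym2 ℕ → ℝ := fun u => ∑ T ∈ trees G S with u ∈ T ∧ v ∈ T, ∏ a ∈ T, w a with hN2
  have hTpos : ∀ T : Finset (Sym2 ℕ), 0 ≤ ∏ a ∈ T, w a :=
    fun T => Finset.prod_nonneg fun a _ => (hwp a).le
  have hcov : ∀ u ∈ L, cov (qn G S L) L x u v = N2 u / Z - (N u / Z) * (N v / Z) := by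
    intro u hu
    unfold cov gibbs
    rw [Nf_qn G S L x {u, v} (by
        intro a ha
        simp only [Finset.mem_insert, Finset.mem_singleton] at ha
        rcases ha with rfl | rfl <;> assumption),
      Nf_qn G S L x {u} (by simpa using hu), Nf_qn G S L x {v} (by simpa using hv), Zf_qn]
    have e1 : ∀ a b : ℝ, a / K / (b / K) = a / b := by
      intro a b
      by_cases hb : b = 0
      · simp [hb]
      · field_simp
    rw [e1, e1, e1]
    have f1 : (∑ T ∈ trees G S with {u, v} ⊆ T, ∏ a ∈ T, w a) = N2 u := by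
      simp only [hN2]
      refine Finset.sum_congr ?_ fun _ _ => rfl
      ext T; simp [Finset.insert_subset_iff]
    have f2 : ∀ u, (∑ T ∈ trees G S with {u} ⊆ T, ∏ a ∈ T, w a) = N u := by
      intro u
      simp only [hN, Finset.singleton_subset_iff]
    rw [f1, f2, f2]
  -- the diagonal term
  have hN2v : N2 v = N v := by simp [hN2, hN]
  have hNv0 : 0 ≤ N v := Finset.sum_nonneg fun T _ => hTpos T
  have hNvZ : N v ≤ Z := Finset.sum_le_sum_of_subset_of_nonneg (Finset.filter_subset _ _)
    fun T _ _ => hTpos T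
  set pv := N v / Z with hpv
  have hp0 : 0 ≤ pv := div_nonneg hNv0 hZp.le
  have hp1 : pv ≤ 1 := div_le_one_of_le₀ hNvZ hZp.le
  -- off-diagonal terms
  have hneg : ∀ u, u ≠ v → N2 u / Z ≤ (N u / Z) * pv := by
    intro u huv
    have := neg_corr G S hS w hwp u v huv
    rw [hpv, div_mul_div_comm, div_le_div_iff₀ hZp (by positivity)]
    have h2 : N2 u * Z ≤ N u * N v := this
    nlinarith [mul_le_mul_of_nonneg_right h2 hZp.le]
  set U := L ∪ edgesIn G S with hU
  have hvU : v ∈ U := Finset.mem_union_left _ hv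
  have htree : ∀ T ∈ trees G S, T ⊆ U := fun T hT =>
    (mem_trees.mp hT).1.trans Finset.subset_union_right
  -- total number of edges
  have hcardT : ∀ T ∈ trees G S, (T.card : ℝ) = (S.card : ℝ) - 1 := by
    intro T hT
    have := trees_card G S T hT
    have h : (T.card : ℝ) + 1 = S.card := by exact_mod_cast this
    linarith
  have hsumN : ∑ u ∈ U, N u = ((S.card : ℝ) - 1) * Z := by
    simp only [hN, Finset.sum_filter]
    rw [Finset.sum_comm, hZ, Finset.mul_sum]
    refine Finset.sum_congr rfl fun T hT => ?_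
    rw [← Finset.sum_filter, Finset.sum_const, nsmul_eq_mul, Finset.filter_mem_eq_inter,
      Finset.inter_eq_right.mpr (htree T hT), hcardT T hT]
  have hsumN2 : ∑ u ∈ U, N2 u = ((S.card : ℝ) - 1) * N v := by
    have : ∀ u, N2 u = ∑ T ∈ trees G S with v ∈ T, if u ∈ T then ∏ a ∈ T, w a else 0 := by
      intro u
      rw [← Finset.sum_filter, Finset.filter_filter]
      refine Finset.sum_congr ?_ fun _ _ => rfl
      ext T; simp only [Finset.mem_filter]; tauto
    simp only [this]
    rw [Finset.sum_comm, hN, Finset.mul_sum]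
    refine Finset.sum_congr rfl fun T hT => ?_
    have hT' := (Finset.mem_filter.mp hT).1
    rw [← Finset.sum_filter, Finset.sum_const, nsmul_eq_mul, Finset.filter_mem_eq_inter,
      Finset.inter_eq_right.mpr (htree T hT'), hcardT T hT']
  calc ∑ u ∈ L, |cov (qn G S L) L x u v|
      = ∑ u ∈ L, |N2 u / Z - (N u / Z) * pv| := by
        refine Finset.sum_congr rfl fun u hu => ?_
        rw [hcov u hu]
    _ ≤ ∑ u ∈ U, |N2 u / Z - (N u / Z) * pv| :=
        Finset.sum_le_sum_of_subset_of_nonneg Finset.subset_union_left fun u _ _ => abs_nonneg _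
    _ = |N2 v / Z - (N v / Z) * pv| + ∑ u ∈ U.erase v, |N2 u / Z - (N u / Z) * pv| :=
        (Finset.add_sum_erase _ _ hvU).symm
    _ = |pv - pv * pv| + ∑ u ∈ U.erase v, ((N u / Z) * pv - N2 u / Z) := by
        rw [hN2v]
        congr 1
        refine Finset.sum_congr rfl fun u hu => ?_
        rw [abs_sub_comm, abs_of_nonneg]
        have := hneg u (Finset.ne_of_mem_erase hu)
        linarith
    _ = (pv - pv * pv) + (pv - pv * pv) := by
        congr 1
        · rw [abs_of_nonneg]; nlinarith
        · have h1 : ∑ u ∈ U, ((N u / Z) * pv - N2 u / Z) = 0 := by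
            rw [Finset.sum_sub_distrib, ← Finset.sum_mul, ← Finset.sum_div, ← Finset.sum_div,
              hsumN, hsumN2, hpv]
            field_simp
            ring
          rw [← Finset.add_sum_erase _ _ hvU, hN2v] at h1
          have h2 : N v / Z * pv - N v / Z = -(pv - pv * pv) := by rw [← hpv]; ring
          rw [h2] at h1
          linarith
    _ ≤ 1 := by nlinarith [sq_nonneg (pv - 1 / 2)]

theorem covBound_pG (G : SimpleGraph ℕ) (L : Finset (Sym2 ℕ)) : CovBound 1 ((fddG G).p L) L := by
  classical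
  intro x v hv
  by_cases hG : G.Connected
  · obtain ⟨S, h1, h2, h3⟩ := exists_exhaustion hG
    have hN : ∀ A, Tendsto (fun n => Nf (qn G (S n) L) L x A) atTop
        (𝓝 (Nf (pG G L) L x A)) := by
      intro A
      unfold Nf
      exact tendsto_finsetSum _ fun B _ => (tendsto_qn hG h1 h2 h3 L B).mul_const _
    have hZ : Tendsto (fun n => Zf (qn G (S n) L) L x) atTop (𝓝 (Zf (pG G L) L x)) := by
      unfold Zf
      exact tendsto_finsetSum _ fun B _ => (tendsto_qn hG h1 h2 h3 L B).mul_const _
    have hZpos : 0 < Zf (pG G L) L x := by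
      have hP := (fddG G).sum_one L
      have hn := (fddG G).nonneg L
      have h1 : ∃ i ∈ L.powerset, 0 < (fddG G).p L i := by
        by_contra hh
        push Not at hh
        have : ∑ i ∈ L.powerset, (fddG G).p L i ≤ 0 := Finset.sum_nonpos hh
        linarith
      obtain ⟨i, hi, hci⟩ := h1
      unfold Zf
      refine lt_of_lt_of_le (mul_pos hci (Real.exp_pos _))
        (Finset.single_le_sum (f := fun S => pG G L S * Real.exp (∑ u ∈ S, x u))
          (fun j _ => mul_nonneg (hn j) (Real.exp_pos _).le) hi)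
    have hlim : Tendsto (fun n => ∑ u ∈ L, |cov (qn G (S n) L) L x u v|) atTop
        (𝓝 (∑ u ∈ L, |cov (pG G L) L x u v|)) := by
      refine tendsto_finsetSum _ fun u _ => ?_
      refine Tendsto.abs ?_
      unfold cov gibbs
      exact ((hN _).div hZ hZpos.ne').sub
        (((hN _).div hZ hZpos.ne').mul ((hN _).div hZ hZpos.ne'))
    exact le_of_tendsto' hlim fun n => covBound_qn (h3 n) L x v hv
  · -- degenerate law
    have hp : ∀ A, (fddG G).p L A = if A = ∅ then 1 else 0 := by
      intro A
      change pG G L A = _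
      unfold pG
      rw [if_neg hG]
    have hNf : ∀ A, A ≠ ∅ → Nf ((fddG G).p L) L x A = 0 := by
      intro A hA
      unfold Nf
      apply Finset.sum_eq_zero
      intro B hB
      rw [hp, if_neg, zero_mul]
      rintro rfl
      exact hA (Finset.subset_empty.mp (Finset.mem_filter.mp hB).2)
    rw [Finset.sum_eq_zero]
    · norm_num
    · intro u _
      unfold cov gibbs
      rw [hNf _ (Finset.insert_ne_empty _ _), hNf _ (Finset.singleton_ne_empty _)]
      simp

end

end Crest.Agent.FUSF
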