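import Mathlib
import Crest.Agent.FUSF

set_option autoImplicit false

/-!
Equivariance and measurability of the finite dimensional laws of the free uniform spanning forest
(used for S0254).
-/

namespace Crest.Agent.FUSF

open Crest.ProbabilityR.SpanningTrees Crest.Agent.UST Crest.Agent.SRFlow Filter Topology
open Crest.ProbabilityR.GraphTables

noncomputable section

/-! ### equivariance -/

section Equiv

variable (σ : Equiv.Perm ℕ)

/-- action on sets of edges -/
abbrev im (F : Finset (Sym2 ℕ)) : Finset (Sym2 ℕ) := F.image (Sym2.map σ)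

theorem mapinj : Function.Injective (Sym2.map σ) := Sym2.map.injective σ.injective

theorem im_symm (F : Finset (Sym2 ℕ)) : im σ (im σ.symm F) = F := by
  unfold im
  rw [Finset.image_image, ← Sym2.map_comp]
  have : (σ : ℕ → ℕ) ∘ σ.symm = id := by ext; simp
  rw [this, Sym2.map_id, Finset.image_id]

theorem im_subset (A B : Finset (Sym2 ℕ)) : im σ A ⊆ im σ B ↔ A ⊆ B :=
  Finset.image_subset_image_iff (mapinj σ)

theorem mem_im (x y : ℕ) (A : Finset (Sym2 ℕ)) : s(σ x, σ y) ∈ im σ A ↔ s(x, y) ∈ A := by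
  constructor
  · intro h
    obtain ⟨e, he, h2⟩ := Finset.mem_image.mp h
    have : e = s(x, y) := mapinj σ (by rw [h2]; simp)
    rwa [this] at he
  · intro h
    exact Finset.mem_image.mpr ⟨_, h, by simp⟩

theorem mem_imS (x : ℕ) (S : Finset ℕ) : σ x ∈ S.image σ ↔ x ∈ S := by
  simp

theorem im_sub_edgesIn (G : SimpleGraph ℕ) (S : Finset ℕ) (F : Finset (Sym2 ℕ)) :
    im σ F ⊆ edgesIn G (S.image σ) ↔ F ⊆ edgesIn (G.comap σ) S := by
  constructor
  · intro h e he
    induction e using Sym2.ind with
    | _ x y =>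
      have h1 : s(σ x, σ y) ∈ im σ F := (mem_im σ x y F).mpr he
      have h2 := mem_edgesIn.mp (h h1)
      rw [mem_imS, mem_imS] at h2
      rw [mem_edgesIn]
      exact h2
  · intro h e he
    obtain ⟨e', he', rfl⟩ := Finset.mem_image.mp he
    induction e' using Sym2.ind with
    | _ x y =>
      have h2 := mem_edgesIn.mp (h he')
      rw [Sym2.map_mk, mem_edgesIn, mem_imS, mem_imS]
      exact h2

theorem im_sub_edgeSet (G : SimpleGraph ℕ) (F : Finset (Sym2 ℕ)) :
    ((im σ F : Finset (Sym2 ℕ)) : Set (Sym2 ℕ)) ⊆ G.edgeSet ↔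
      (F : Set (Sym2 ℕ)) ⊆ (G.comap σ).edgeSet := by
  constructor
  · intro h e he
    induction e using Sym2.ind with
    | _ x y =>
      have h1 : s(σ x, σ y) ∈ im σ F := (mem_im σ x y F).mpr he
      exact h h1
  · intro h e he
    obtain ⟨e', he', rfl⟩ := Finset.mem_image.mp (Finset.mem_coe.mp he)
    have := h he'
    induction e' using Sym2.ind with
    | _ x y => exact this

/-- transport of vertices -/
def vEquiv (S : Finset ℕ) : (S : Set ℕ) ≃ ((S.image σ : Finset ℕ) : Set ℕ) where
  toFun x := ⟨σ x, by simpa using x.2⟩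
  invFun y := ⟨σ.symm y, by
    have := y.2
    rw [Finset.mem_coe, Finset.mem_image] at this
    obtain ⟨a, ha, h⟩ := this
    rw [← h]; simpa using ha⟩
  left_inv x := by ext; simp
  right_inv y := by ext; simp

def grIso (S : Finset ℕ) (A : Finset (Sym2 ℕ)) : gr S A ≃g gr (S.image σ) (im σ A) where
  toEquiv := vEquiv σ S
  map_rel_iff' := by
    intro x y
    change (gr (S.image σ) (im σ A)).Adj (vEquiv σ S x) (vEquiv σ S y) ↔ (gr S A).Adj x y
    rw [gr_adj, gr_adj]
    change s(σ x, σ y) ∈ im σ A ∧ σ x ≠ σ y ↔ _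
    rw [mem_im]
    simp

def indIso (G : SimpleGraph ℕ) (S : Finset ℕ) :
    (G.comap σ).induce (S : Set ℕ) ≃g G.induce ((S.image σ : Finset ℕ) : Set ℕ) where
  toEquiv := vEquiv σ S
  map_rel_iff' := by
    intro x y
    rfl

theorem mem_trees_im (G : SimpleGraph ℕ) (S : Finset ℕ) (A : Finset (Sym2 ℕ)) :
    im σ A ∈ trees G (S.image σ) ↔ A ∈ trees (G.comap σ) S := by
  rw [mem_trees, mem_trees, im_sub_edgesIn, (grIso σ S A).connected_iff,
    Finset.card_image_of_injective _ (mapinj σ), Finset.card_image_of_injective _ σ.injective]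

theorem ustContains_comap (G : SimpleGraph ℕ) (S : Finset ℕ) (F : Finset (Sym2 ℕ)) :
    ustContains (G.comap σ) S F = ustContains G (S.image σ) (im σ F) := by
  classical
  rw [ustContains_eq, ustContains_eq]
  have h1 : trees G (S.image σ) = (trees (G.comap σ) S).image (im σ) := by
    ext B
    rw [Finset.mem_image]
    constructor
    · intro hB
      refine ⟨im σ.symm B, ?_, im_symm σ B⟩
      rw [← mem_trees_im, im_symm]
      exact hB
    · rintro ⟨A, hA, rfl⟩
      rwa [mem_trees_im]
  have hinj : Function.Injective (im σ) := Finset.image_injective (mapinj σ)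
  have h2 : (trees G (S.image σ)).filter (fun A => im σ F ⊆ A) =
      ((trees (G.comap σ) S).filter (fun A => F ⊆ A)).image (im σ) := by
    rw [h1, Finset.filter_image]
    congr 1
    ext A
    simp only [Finset.mem_filter, im_subset]
  rw [h2, h1, Finset.card_image_of_injective _ hinj, Finset.card_image_of_injective _ hinj]

theorem cG_comap (G : SimpleGraph ℕ) (F : Finset (Sym2 ℕ)) :
    cG (G.comap σ) F = cG G (im σ F) := by
  classical
  unfold cG
  by_cases hF : (F : Set (Sym2 ℕ)) ⊆ (G.comap σ).edgeSet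
  · rw [if_pos hF, if_pos ((im_sub_edgeSet σ G F).mpr hF)]
    refine Function.Surjective.iInf_congr (fun S : Finset ℕ => S.image σ) ?_ ?_
    · intro S
      refine ⟨S.image σ.symm, ?_⟩
      beta_reduce
      rw [Finset.image_image]
      simp
    · intro S
      beta_reduce
      have h1 : ((G.comap σ).induce (S : Set ℕ)).Connected ↔
          (G.induce ((S.image σ : Finset ℕ) : Set ℕ)).Connected := (indIso σ G S).connected_iff
      by_cases hc : ((G.comap σ).induce (S : Set ℕ)).Connected ∧ F ⊆ edgesIn (G.comap σ) S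
      · rw [if_pos hc, if_pos ⟨h1.mp hc.1, (im_sub_edgesIn σ G S F).mpr hc.2⟩,
          ← ustContains_comap]
      · rw [if_neg hc, if_neg fun h => hc ⟨h1.mpr h.1, (im_sub_edgesIn σ G S F).mp h.2⟩]
  · rw [if_neg hF, if_neg (fun h => hF ((im_sub_edgeSet σ G F).mp h))]

theorem connected_comap (G : SimpleGraph ℕ) : (G.comap σ).Connected ↔ G.Connected :=
  (SimpleGraph.Iso.comap σ G).connected_iff

theorem pG_comap (G : SimpleGraph ℕ) (L A : Finset (Sym2 ℕ)) :
    pG (G.comap σ) L A = pG G (im σ L) (im σ A) := by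
  classical
  unfold pG
  by_cases hG : G.Connected
  · rw [if_pos hG, if_pos ((connected_comap σ G).mpr hG)]
    unfold incl
    refine Finset.sum_bij (fun B _ => im σ B) ?_ ?_ ?_ ?_
    · intro B hB
      simp only [Finset.mem_filter, Finset.mem_powerset] at hB ⊢
      exact ⟨(im_subset σ _ _).mpr hB.1, (im_subset σ _ _).mpr hB.2⟩
    · intro B _ B' _ h
      exact Finset.image_injective (mapinj σ) h
    · intro B hB
      refine ⟨im σ.symm B, ?_, im_symm σ B⟩
      simp only [Finset.mem_filter, Finset.mem_powerset] at hB ⊢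
      rw [← im_subset σ, ← im_subset σ A, im_symm]
      exact hB
    · intro B _
      beta_reduce
      rw [cG_comap]
      have : (im σ B) \ (im σ A) = im σ (B \ A) := (Finset.image_sdiff _ _ (mapinj σ)).symm
      rw [this, Finset.card_image_of_injective _ (mapinj σ)]
  · rw [if_neg hG, if_neg (fun h => hG ((connected_comap σ G).mp h))]
    simp [im]

end Equiv

/-! ### measurability -/

theorem measurableSet_adj (x y : ℕ) :
    MeasurableSet {t : ℕ → ℕ → Bool | (graphOfTable t).Adj x y} := by
  have : {t : ℕ → ℕ → Bool | (graphOfTable t).Adj x y} =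
      {t | x ≠ y} ∩ ({t : ℕ → ℕ → Bool | t x y = true} ∪ {t | t y x = true}) := by
    ext t
    simp only [graphOfTable, SimpleGraph.fromRel_adj, Set.mem_ofPred_eq, Set.mem_inter_iff,
      Set.mem_union]
  rw [this]
  have h1 : ∀ a b : ℕ, MeasurableSet {t : ℕ → ℕ → Bool | t a b = true} := by
    intro a b
    have hm : Measurable (fun t : ℕ → ℕ → Bool => t a b) :=
      (measurable_pi_apply b).comp (measurable_pi_apply a)
    exact hm (measurableSet_singleton true)
  exact (MeasurableSet.const _).inter ((h1 x y).union (h1 y x))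

theorem measurableSet_edgesIn_eq (S : Finset ℕ) (E : Finset (Sym2 ℕ)) :
    MeasurableSet {t : ℕ → ℕ → Bool | edgesIn (graphOfTable t) S = E} := by
  classical
  have : {t : ℕ → ℕ → Bool | edgesIn (graphOfTable t) S = E} =
      ⋂ p : ℕ × ℕ, {t | (p.1 ∈ S ∧ p.2 ∈ S ∧ (graphOfTable t).Adj p.1 p.2) ↔ s(p.1, p.2) ∈ E} := by
    ext t
    simp only [Set.mem_ofPred_eq, Set.mem_iInter]
    constructor
    · intro h p
      rw [← h, mem_edgesIn]
    · intro h
      ext e
      induction e using Sym2.ind with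
      | _ x y => rw [mem_edgesIn]; exact h (x, y)
  rw [this]
  refine MeasurableSet.iInter fun p => ?_
  have hm := measurableSet_adj p.1 p.2
  by_cases h1 : p.1 ∈ S ∧ p.2 ∈ S
  · by_cases h2 : s(p.1, p.2) ∈ E
    · have : {t : ℕ → ℕ → Bool | (p.1 ∈ S ∧ p.2 ∈ S ∧ (graphOfTable t).Adj p.1 p.2) ↔
          s(p.1, p.2) ∈ E} = {t | (graphOfTable t).Adj p.1 p.2} := by
        ext t; simp [h1.1, h1.2, h2]
      rw [this]; exact hm
    · have : {t : ℕ → ℕ → Bool | (p.1 ∈ S ∧ p.2 ∈ S ∧ (graphOfTable t).Adj p.1 p.2) ↔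
          s(p.1, p.2) ∈ E} = {t | (graphOfTable t).Adj p.1 p.2}ᶜ := by
        ext t; simp [h1.1, h1.2, h2]
      rw [this]; exact hm.compl
  · have : {t : ℕ → ℕ → Bool | (p.1 ∈ S ∧ p.2 ∈ S ∧ (graphOfTable t).Adj p.1 p.2) ↔
          s(p.1, p.2) ∈ E} = {t | False ↔ s(p.1, p.2) ∈ E} := by
      ext t
      simp only [Set.mem_ofPred_eq]
      have : ¬ (p.1 ∈ S ∧ p.2 ∈ S ∧ (graphOfTable t).Adj p.1 p.2) := fun h => h1 ⟨h.1, h.2.1⟩
      simp only [this]
    rw [this]
    exact MeasurableSet.const _

theorem measurableSet_edgesIn (S : Finset ℕ) (Q : Finset (Sym2 ℕ) → Prop) :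
    MeasurableSet {t : ℕ → ℕ → Bool | Q (edgesIn (graphOfTable t) S)} := by
  have : {t : ℕ → ℕ → Bool | Q (edgesIn (graphOfTable t) S)} =
      ⋃ E : {E : Finset (Sym2 ℕ) // Q E}, {t | edgesIn (graphOfTable t) S = E} := by
    ext t
    simp only [Set.mem_ofPred_eq, Set.mem_iUnion]
    constructor
    · intro h; exact ⟨⟨_, h⟩, rfl⟩
    · rintro ⟨⟨E, hE⟩, h⟩; rw [h]; exact hE
  rw [this]
  exact MeasurableSet.iUnion fun E => measurableSet_edgesIn_eq S E

theorem measurable_edgesIn {β : Type*} [MeasurableSpace β] (S : Finset ℕ)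
    (g : Finset (Sym2 ℕ) → β) :
    Measurable (fun t : ℕ → ℕ → Bool => g (edgesIn (graphOfTable t) S)) := by
  intro B _
  exact measurableSet_edgesIn S (fun E => g E ∈ B)

theorem induce_eq_gr (G : SimpleGraph ℕ) (S : Finset ℕ) :
    G.induce (S : Set ℕ) = gr S (edgesIn G S) := by
  ext x y
  rw [gr_adj, mem_edgesIn]
  constructor
  · intro h
    have h' : G.Adj x y := h
    exact ⟨⟨by simpa using x.2, by simpa using y.2, h'⟩, h'.ne⟩
  · intro h; exact h.1.2.2

theorem measurableSet_induce_conn (S : Finset ℕ) :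
    MeasurableSet {t : ℕ → ℕ → Bool | ((graphOfTable t).induce (S : Set ℕ)).Connected} := by
  have : {t : ℕ → ℕ → Bool | ((graphOfTable t).induce (S : Set ℕ)).Connected} =
      {t : ℕ → ℕ → Bool | (gr S (edgesIn (graphOfTable t) S)).Connected} := by
    ext t
    exact iff_of_eq (congrArg _ (induce_eq_gr (graphOfTable t) S))
  rw [this]
  exact measurableSet_edgesIn S (fun E => (gr S E).Connected)

theorem measurableSet_conn :
    MeasurableSet {t : ℕ → ℕ → Bool | (graphOfTable t).Connected} := by
  have : {t : ℕ → ℕ → Bool | (graphOfTable t).Connected} =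
      ⋂ n : ℕ, ⋃ S : {S : Finset ℕ // 0 ∈ S ∧ n ∈ S},
        {t : ℕ → ℕ → Bool | ((graphOfTable t).induce ((S : Finset ℕ) : Set ℕ)).Connected} := by
    ext t
    simp only [Set.mem_ofPred_eq, Set.mem_iInter, Set.mem_iUnion]
    constructor
    · intro h n
      obtain ⟨S, h1, h2⟩ := exists_conn_superset h {0, n}
      exact ⟨⟨S, h1 (by simp), h1 (by simp)⟩, h2⟩
    · intro h
      have h0 : ∀ n, (graphOfTable t).Reachable 0 n := by
        intro n
        obtain ⟨⟨S, hS⟩, hc⟩ := h n
        have := hc.preconnected ⟨0, by simpa using hS.1⟩ ⟨n, by simpa using hS.2⟩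
        exact this.map (SimpleGraph.Embedding.induce _).toHom
      rw [SimpleGraph.connected_iff]
      exact ⟨fun a b => (h0 a).symm.trans (h0 b), ⟨0⟩⟩
  rw [this]
  exact MeasurableSet.iInter fun n => MeasurableSet.iUnion fun S => measurableSet_induce_conn _

theorem measurableSet_locFin :
    MeasurableSet {t : ℕ → ℕ → Bool | ∀ v, ((graphOfTable t).neighborSet v).Finite} := by
  have : {t : ℕ → ℕ → Bool | ∀ v, ((graphOfTable t).neighborSet v).Finite} =
      ⋂ v : ℕ, ⋃ N : ℕ, ⋂ u : {u : ℕ // N ≤ u}, {t | (graphOfTable t).Adj v u}ᶜ := by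
    ext t
    simp only [Set.mem_ofPred_eq, Set.mem_iInter, Set.mem_iUnion, Set.mem_compl_iff]
    refine forall_congr' fun v => ?_
    constructor
    · intro h
      obtain ⟨N, hN⟩ := h.bddAbove
      refine ⟨N + 1, fun u hu => ?_⟩
      have := hN (show (u : ℕ) ∈ (graphOfTable t).neighborSet v from hu)
      have := u.2
      omega
    · rintro ⟨N, hN⟩
      refine (Set.finite_lt_nat N).subset fun u hu => ?_
      by_contra hlt
      have hlt' : N ≤ u := not_lt.mp hlt
      exact hN ⟨u, hlt'⟩ hu
  rw [this]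
  exact MeasurableSet.iInter fun v => MeasurableSet.iUnion fun N =>
    MeasurableSet.iInter fun u => (measurableSet_adj v u).compl

theorem measurableSet_subset_edgeSet (F : Finset (Sym2 ℕ)) :
    MeasurableSet {t : ℕ → ℕ → Bool | (F : Set (Sym2 ℕ)) ⊆ (graphOfTable t).edgeSet} := by
  have : {t : ℕ → ℕ → Bool | (F : Set (Sym2 ℕ)) ⊆ (graphOfTable t).edgeSet} =
      ⋂ e ∈ F, {t | (graphOfTable t).Adj e.inf e.sup} := by
    ext t
    simp only [Set.mem_ofPred_eq, Set.mem_iInter]
    constructor
    · intro h e he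
      have := h (Finset.mem_coe.mpr he)
      rw [sym2_eq e] at this
      exact this
    · intro h e he
      have := h e (Finset.mem_coe.mp he)
      rw [sym2_eq e]
      exact this
  rw [this]
  exact Finset.measurableSet_biInter F fun e _ => measurableSet_adj _ _

open Classical in
/-- `ustContains` as a function of the edges inside -/
def ustE (S : Finset ℕ) (F E : Finset (Sym2 ℕ)) : ℝ :=
  ((E.powerset.filter (fun A => ((gr S A).Connected ∧ A.card + 1 = S.card) ∧ F ⊆ A)).card : ℝ) /
    ((E.powerset.filter (fun A => (gr S A).Connected ∧ A.card + 1 = S.card)).card : ℝ)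

theorem ustContains_eq_ustE (G : SimpleGraph ℕ) (S : Finset ℕ) (F : Finset (Sym2 ℕ)) :
    ustContains G S F = ustE S F (edgesIn G S) := by
  classical
  rw [ustContains_eq]
  unfold ustE
  have h1 : trees G S =
      (edgesIn G S).powerset.filter (fun A => (gr S A).Connected ∧ A.card + 1 = S.card) := by
    ext A
    rw [mem_trees, Finset.mem_filter, Finset.mem_powerset]
  rw [h1, Finset.filter_filter]

theorem measurable_ust (S : Finset ℕ) (F : Finset (Sym2 ℕ)) :
    Measurable (fun t : ℕ → ℕ → Bool => ustContains (graphOfTable t) S F) := by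
  simp only [ustContains_eq_ustE]
  exact measurable_edgesIn S (ustE S F)

theorem measurable_cG (F : Finset (Sym2 ℕ)) :
    Measurable (fun t : ℕ → ℕ → Bool => cG (graphOfTable t) F) := by
  classical
  unfold cG
  refine Measurable.ite (measurableSet_subset_edgeSet F) ?_ measurable_const
  refine Measurable.iInf fun S => ?_
  refine Measurable.ite ?_ (measurable_ust S F) measurable_const
  exact (measurableSet_induce_conn S).inter (measurableSet_edgesIn S (fun E => F ⊆ E))

theorem measurable_pG (L A : Finset (Sym2 ℕ)) :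
    Measurable (fun t : ℕ → ℕ → Bool => pG (graphOfTable t) L A) := by
  classical
  unfold pG
  refine Measurable.ite measurableSet_conn ?_ measurable_const
  unfold incl
  exact Finset.measurable_sum _ fun B _ => (measurable_cG B).const_mul _

/-- non-edges never occur -/
theorem pG_nonedge (G : SimpleGraph ℕ) (L A : Finset (Sym2 ℕ))
    (hA : ¬ (A : Set (Sym2 ℕ)) ⊆ G.edgeSet) : pG G L A = 0 := by
  classical
  unfold pG
  split_ifs with h1 h2
  · unfold incl
    apply Finset.sum_eq_zero
    intro B hB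
    have hAB := (Finset.mem_filter.mp hB).2
    have : ¬ (B : Set (Sym2 ℕ)) ⊆ G.edgeSet := fun h => hA ((Finset.coe_subset.mpr hAB).trans h)
    unfold cG
    rw [if_neg this, mul_zero]
  · subst h2; simp at hA
  · rfl

end

end Crest.Agent.FUSF
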