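import Mathlib
import Crest.Agent.SRBase

set_option autoImplicit false
set_option linter.unusedSectionVars false
set_option linter.unusedVariables false

namespace Crest.Agent.SRFlow

open MeasureTheory

/-! ### ratios of exponential sums -/

section Ratio

variable {κ : Type*} (I : Finset κ) (c α : κ → ℝ)

/-- exponential sum -/
noncomputable def eS (f : κ → ℝ) (s : ℝ) : ℝ := ∑ i ∈ I, c i * f i * Real.exp (s * α i)

/-- tilted mean of `f`. -/
noncomputable def mS (f : κ → ℝ) (s : ℝ) : ℝ := eS I c α f s / eS I c α (fun _ => 1) s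

variable {I c α}

lemma eS_one_pos (hc : ∀ i ∈ I, 0 ≤ c i) (hsum : 0 < ∑ i ∈ I, c i) (s : ℝ) :
    0 < eS I c α (fun _ => 1) s := by
  have h1 : ∃ i ∈ I, 0 < c i := by
    by_contra h
    push Not at h
    have : ∑ i ∈ I, c i ≤ 0 := Finset.sum_nonpos h
    linarith
  obtain ⟨i, hi, hci⟩ := h1
  unfold eS
  refine Finset.sum_pos' (fun j hj => ?_) ⟨i, hi, ?_⟩
  · have := hc j hj
    positivity
  · positivity

lemma hasDerivAt_eS (f : κ → ℝ) (s : ℝ) :
    HasDerivAt (eS I c α f) (eS I c α (fun i => f i * α i) s) s := by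
  unfold eS
  have : ∀ i ∈ I, HasDerivAt (fun s => c i * f i * Real.exp (s * α i))
      (c i * (f i * α i) * Real.exp (s * α i)) s := by
    intro i _
    have h1 : HasDerivAt (fun s : ℝ => s * α i) (α i) s := by
      simpa using (hasDerivAt_id s).mul_const (α i)
    have h2 := (h1.exp).const_mul (c i * f i)
    have e : c i * (f i * α i) * Real.exp (s * α i) =
        c i * f i * (Real.exp (s * α i) * α i) := by ring
    rw [e]
    exact h2
  have h := HasDerivAt.fun_sum this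
  exact h

lemma hasDerivAt_mS (hc : ∀ i ∈ I, 0 ≤ c i) (hsum : 0 < ∑ i ∈ I, c i) (f : κ → ℝ) (s : ℝ) :
    HasDerivAt (mS I c α f)
      (mS I c α (fun i => f i * α i) s - mS I c α f s * mS I c α α s) s := by
  have hZ := eS_one_pos (α := α) hc hsum s
  have h := (hasDerivAt_eS (I := I) (c := c) (α := α) f s).div
    (hasDerivAt_eS (I := I) (c := c) (α := α) (fun _ => 1) s) hZ.ne'
  have e1 : eS I c α (fun i => 1 * α i) s = eS I c α α s := by
    unfold eS; simp
  rw [e1] at h
  have e2 : mS I c α (fun i => f i * α i) s - mS I c α f s * mS I c α α s =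
      (eS I c α (fun i => f i * α i) s * eS I c α (fun _ => 1) s -
        eS I c α f s * eS I c α α s) / eS I c α (fun _ => 1) s ^ 2 := by
    unfold mS
    field_simp
  rw [e2]
  exact h

lemma abs_mS_le (hc : ∀ i ∈ I, 0 ≤ c i) (hsum : 0 < ∑ i ∈ I, c i) (f : κ → ℝ) (s F : ℝ)
    (hf : ∀ i ∈ I, |f i| ≤ F) : |mS I c α f s| ≤ F := by
  have hZ := eS_one_pos (α := α) hc hsum s
  unfold mS
  rw [abs_div, abs_of_pos hZ, div_le_iff₀ hZ]
  unfold eS
  rw [Finset.mul_sum]
  refine (Finset.abs_sum_le_sum_abs _ _).trans (Finset.sum_le_sum fun i hi => ?_)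
  rw [abs_mul, abs_mul, abs_of_pos (Real.exp_pos _), abs_of_nonneg (hc i hi)]
  have h1 := hf i hi
  have h2 := hc i hi
  have h3 := Real.exp_pos (s * α i)
  calc c i * |f i| * Real.exp (s * α i) ≤ c i * F * Real.exp (s * α i) := by gcongr
    _ = F * (c i * 1 * Real.exp (s * α i)) := by ring

lemma mS_expand (hc : ∀ i ∈ I, 0 ≤ c i) (hsum : 0 < ∑ i ∈ I, c i) (f : κ → ℝ) (F A : ℝ)
    (hF : 0 ≤ F) (hA : 0 ≤ A)
    (hf : ∀ i ∈ I, |f i| ≤ F) (hα : ∀ i ∈ I, |α i| ≤ A) :
    |mS I c α f 1 - mS I c α f 0 -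
      (mS I c α (fun i => f i * α i) 0 - mS I c α f 0 * mS I c α α 0)| ≤ 6 * F * A ^ 2 := by
  set g' : ℝ → ℝ := fun s =>
    mS I c α (fun i => f i * α i) s - mS I c α f s * mS I c α α s with hg'
  have hd : ∀ s, HasDerivAt (mS I c α f) (g' s) s := fun s => hasDerivAt_mS hc hsum f s
  have hfα : ∀ i ∈ I, |f i * α i| ≤ F * A := fun i hi => by
    rw [abs_mul]; exact mul_le_mul (hf i hi) (hα i hi) (abs_nonneg _) hF
  have hfαα : ∀ i ∈ I, |f i * α i * α i| ≤ F * A * A := fun i hi => by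
    rw [abs_mul]; exact mul_le_mul (hfα i hi) (hα i hi) (abs_nonneg _) (by positivity)
  have hαα : ∀ i ∈ I, |α i * α i| ≤ A * A := fun i hi => by
    rw [abs_mul]; exact mul_le_mul (hα i hi) (hα i hi) (abs_nonneg _) hA
  -- second derivative
  have hd2 : ∀ s, ∃ D, HasDerivAt g' D s ∧ |D| ≤ 6 * F * A ^ 2 := by
    intro s
    refine ⟨_, (hasDerivAt_mS hc hsum (fun i => f i * α i) s).sub
      ((hasDerivAt_mS hc hsum f s).mul (hasDerivAt_mS hc hsum α s)), ?_⟩
    have b1 := abs_mS_le (α := α) hc hsum (fun i => f i * α i * α i) s _ hfαα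
    have b2 := abs_mS_le (α := α) hc hsum (fun i => f i * α i) s _ hfα
    have b3 := abs_mS_le (α := α) hc hsum f s _ hf
    have b4 := abs_mS_le (α := α) hc hsum α s _ hα
    have b5 := abs_mS_le (α := α) hc hsum (fun i => α i * α i) s _ hαα
    set x1 := mS I c α (fun i => f i * α i * α i) s
    set x2 := mS I c α (fun i => f i * α i) s
    set x3 := mS I c α f s
    set x4 := mS I c α α s
    set x5 := mS I c α (fun i => α i * α i) s
    have e1 : |x2 * x4| ≤ F * A * A := by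
      rw [abs_mul]; exact mul_le_mul b2 b4 (abs_nonneg _) (by positivity)
    have e2 : |x3 * x4| ≤ F * A := by
      rw [abs_mul]; exact mul_le_mul b3 b4 (abs_nonneg _) (by positivity)
    have e3 : |x3 * x4 * x4| ≤ F * A * A := by
      rw [abs_mul]; exact mul_le_mul e2 b4 (abs_nonneg _) (by positivity)
    have e4 : |x3 * x5| ≤ F * (A * A) := by
      rw [abs_mul]; exact mul_le_mul b3 b5 (abs_nonneg _) (by positivity)
    rw [abs_le] at b1 e1 e3 e4 ⊢
    constructor <;> nlinarith [b1.1, b1.2, e1.1, e1.2, e3.1, e3.2, e4.1, e4.2]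
  choose g'' hg'' hbd using hd2
  have hlip : ∀ s ∈ Set.Icc (0:ℝ) 1, ‖g' s - g' 0‖ ≤ 6 * F * A ^ 2 := by
    intro s hs
    have := (convex_univ (𝕜 := ℝ) (E := ℝ)).norm_image_sub_le_of_norm_hasDerivWithin_le
      (f := g') (f' := g'') (C := 6 * F * A ^ 2) (x := 0) (y := s)
      (fun x _ => (hg'' x).hasDerivWithinAt) (fun x _ => hbd x) (Set.mem_univ _) (Set.mem_univ _)
    refine this.trans ?_
    rw [sub_zero, Real.norm_of_nonneg hs.1]
    have : 0 ≤ 6 * F * A ^ 2 := by positivity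
    nlinarith [hs.2]
  have key := (convex_Icc (0:ℝ) 1).norm_image_sub_le_of_norm_hasDerivWithin_le
      (f := fun s => mS I c α f s - s * g' 0) (f' := fun s => g' s - g' 0)
      (C := 6 * F * A ^ 2) (x := 0) (y := 1)
      (fun x _ => by
        have h1 : HasDerivAt (fun s : ℝ => s * g' 0) (g' 0) x := by
          simpa using (hasDerivAt_id x).mul_const (g' 0)
        exact ((hd x).sub h1).hasDerivWithinAt)
      hlip (by simp) (by simp)
  simp only [Real.norm_eq_abs] at key
  have e : mS I c α f 1 - mS I c α f 0 - g' 0 =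
      mS I c α f 1 - 1 * g' 0 - (mS I c α f 0 - 0 * g' 0) := by ring
  rw [e]
  refine key.trans ?_
  norm_num

end Ratio

/-! ### Gibbs weights -/

section Gibbs

variable {ι : Type*} [DecidableEq ι]

/-- `q` is a probability vector on subsets of `L`. -/
structure Wt (q : Finset ι → ℝ) (L : Finset ι) : Prop where
  nonneg : ∀ S, 0 ≤ q S
  sum_one : ∑ S ∈ L.powerset, q S = 1

variable {q : Finset ι → ℝ} {L : Finset ι}

lemma FDD.wt (P : FDD ι) (L : Finset ι) : Wt (P.p L) L := ⟨P.nonneg L, P.sum_one L⟩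

lemma Zf_pos (h : Wt q L) (x : ι → ℝ) : 0 < Zf q L x := by
  have h1 : ∃ i ∈ L.powerset, 0 < q i := by
    by_contra hh
    push Not at hh
    have : ∑ i ∈ L.powerset, q i ≤ 0 := Finset.sum_nonpos hh
    linarith [h.sum_one]
  obtain ⟨i, hi, hci⟩ := h1
  unfold Zf
  refine Finset.sum_pos' (fun j hj => ?_) ⟨i, hi, ?_⟩
  · have := h.nonneg j
    positivity
  · positivity

lemma Nf_nonneg (h : Wt q L) (x : ι → ℝ) (A : Finset ι) : 0 ≤ Nf q L x A := by
  unfold Nf
  exact Finset.sum_nonneg fun S _ => by have := h.nonneg S; positivity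

lemma Nf_le_Zf (h : Wt q L) (x : ι → ℝ) (A : Finset ι) : Nf q L x A ≤ Zf q L x := by
  unfold Nf Zf
  exact Finset.sum_le_sum_of_subset_of_nonneg (Finset.filter_subset _ _)
    fun S _ _ => by have := h.nonneg S; positivity

lemma gibbs_nonneg (h : Wt q L) (x : ι → ℝ) (v : ι) : 0 ≤ gibbs q L x v :=
  div_nonneg (Nf_nonneg h x _) (Zf_pos h x).le

lemma gibbs_le_one (h : Wt q L) (x : ι → ℝ) (v : ι) : gibbs q L x v ≤ 1 :=
  div_le_one_of_le₀ (Nf_le_Zf h x _) (Zf_pos h x).le

lemma gibbs_mul_Zf (h : Wt q L) (x : ι → ℝ) (v : ι) :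
    gibbs q L x v * Zf q L x = Nf q L x {v} := by
  unfold gibbs
  rw [div_mul_cancel₀ _ (Zf_pos h x).ne']

lemma Zf_congr {x y : ι → ℝ} (hxy : ∀ u ∈ L, x u = y u) : Zf q L x = Zf q L y := by
  unfold Zf
  refine Finset.sum_congr rfl fun S hS => ?_
  rw [Finset.sum_congr rfl fun u hu => hxy u (Finset.mem_powerset.1 hS hu)]

lemma Nf_congr {x y : ι → ℝ} (hxy : ∀ u ∈ L, x u = y u) (A : Finset ι) :
    Nf q L x A = Nf q L y A := by
  unfold Nf
  refine Finset.sum_congr rfl fun S hS => ?_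
  rw [Finset.sum_congr rfl fun u hu =>
    hxy u (Finset.mem_powerset.1 (Finset.mem_filter.1 hS).1 hu)]

lemma gibbs_congr {x y : ι → ℝ} (hxy : ∀ u ∈ L, x u = y u) (v : ι) :
    gibbs q L x v = gibbs q L y v := by
  unfold gibbs
  rw [Zf_congr hxy, Nf_congr hxy]

lemma Nf_of_not_subset (x : ι → ℝ) {A : Finset ι} (hA : ¬ A ⊆ L) : Nf q L x A = 0 := by
  unfold Nf
  rw [Finset.filter_eq_empty_iff.2, Finset.sum_empty]
  intro S hS h
  exact hA (h.trans (Finset.mem_powerset.1 hS))

lemma gibbs_of_not_mem (x : ι → ℝ) {v : ι} (hv : v ∉ L) : gibbs q L x v = 0 := by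
  unfold gibbs
  rw [Nf_of_not_subset x (by simpa using hv), zero_div]

lemma cov_abs_le_one (h : Wt q L) (x : ι → ℝ) (u v : ι) : |cov q L x u v| ≤ 1 := by
  unfold cov
  have h1 : 0 ≤ Nf q L x {u, v} / Zf q L x := div_nonneg (Nf_nonneg h x _) (Zf_pos h x).le
  have h2 : Nf q L x {u, v} / Zf q L x ≤ 1 :=
    div_le_one_of_le₀ (Nf_le_Zf h x _) (Zf_pos h x).le
  have h3 := gibbs_nonneg h x u
  have h4 := gibbs_nonneg h x v
  have h5 := gibbs_le_one h x u
  have h6 := gibbs_le_one h x v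
  have h7 : 0 ≤ gibbs q L x u * gibbs q L x v := mul_nonneg h3 h4
  have h8 : gibbs q L x u * gibbs q L x v ≤ 1 := mul_le_one₀ h5 h4 h6
  rw [abs_le]
  constructor <;> linarith

lemma covBound_card (h : Wt q L) : CovBound (L.card : ℝ) q L := by
  intro x v _
  calc ∑ u ∈ L, |cov q L x u v| ≤ ∑ u ∈ L, (1:ℝ) :=
        Finset.sum_le_sum fun u _ => cov_abs_le_one h x u v
    _ = L.card := by simp

/-- directional data for the `mS` machinery. -/
lemma eS_eq_Nf (x a : ι → ℝ) (A : Finset ι) (s : ℝ) :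
    eS L.powerset (fun S => q S * Real.exp (∑ u ∈ S, x u)) (fun S => ∑ u ∈ S, a u)
      (fun S => if A ⊆ S then 1 else 0) s = Nf q L (fun u => x u + s * a u) A := by
  unfold eS Nf
  rw [Finset.sum_filter]
  refine Finset.sum_congr rfl fun S _ => ?_
  beta_reduce
  by_cases hA : A ⊆ S
  · rw [if_pos hA, if_pos hA, Finset.sum_add_distrib, Real.exp_add, Finset.mul_sum]; ring
  · rw [if_neg hA, if_neg hA]; ring

lemma eS_one_eq_Zf (x a : ι → ℝ) (s : ℝ) :
    eS L.powerset (fun S => q S * Real.exp (∑ u ∈ S, x u)) (fun S => ∑ u ∈ S, a u)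
      (fun _ => 1) s = Zf q L (fun u => x u + s * a u) := by
  unfold eS Zf
  refine Finset.sum_congr rfl fun S _ => ?_
  rw [Finset.sum_add_distrib, Real.exp_add, Finset.mul_sum]; ring

lemma mS_eq_gibbs (x a : ι → ℝ) (v : ι) (s : ℝ) :
    mS L.powerset (fun S => q S * Real.exp (∑ u ∈ S, x u)) (fun S => ∑ u ∈ S, a u)
      (fun S => if {v} ⊆ S then 1 else 0) s = gibbs q L (fun u => x u + s * a u) v := by
  unfold mS gibbs
  rw [eS_eq_Nf, eS_one_eq_Zf]

lemma eS_lin {κ : Type*} (I : Finset κ) (c α : κ → ℝ) {κ' : Type*} (J : Finset κ')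
    (f : κ' → κ → ℝ) (t : κ' → ℝ) (s : ℝ) :
    eS I c α (fun i => ∑ j ∈ J, t j * f j i) s = ∑ j ∈ J, t j * eS I c α (f j) s := by
  unfold eS
  simp only [Finset.mul_sum]
  rw [Finset.sum_comm]
  refine Finset.sum_congr rfl fun i _ => ?_
  rw [Finset.sum_mul]
  refine Finset.sum_congr rfl fun j _ => ?_
  ring

/-- the derivative of the tilted mean in direction `a` is the covariance sum. -/
lemma deriv_eq_cov (h : Wt q L) (x a : ι → ℝ) (v : ι) (s : ℝ) :
    mS L.powerset (fun S => q S * Real.exp (∑ u ∈ S, x u)) (fun S => ∑ u ∈ S, a u)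
        (fun S => (if {v} ⊆ S then 1 else 0) * ∑ u ∈ S, a u) s -
      mS L.powerset (fun S => q S * Real.exp (∑ u ∈ S, x u)) (fun S => ∑ u ∈ S, a u)
        (fun S => if {v} ⊆ S then 1 else 0) s *
      mS L.powerset (fun S => q S * Real.exp (∑ u ∈ S, x u)) (fun S => ∑ u ∈ S, a u)
        (fun S => ∑ u ∈ S, a u) s
      = ∑ u ∈ L, cov q L (fun u => x u + s * a u) u v * a u := by
  set c : Finset ι → ℝ := fun S => q S * Real.exp (∑ u ∈ S, x u)
  set al : Finset ι → ℝ := fun S => ∑ u ∈ S, a u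
  have hZ := Zf_pos h (fun u => x u + s * a u)
  have e1 : eS L.powerset c al (fun S => (if {v} ⊆ S then 1 else 0) * ∑ u ∈ S, a u) s
      = ∑ u ∈ L, a u * Nf q L (fun u => x u + s * a u) {u, v} := by
    have : eS L.powerset c al (fun S => (if {v} ⊆ S then 1 else 0) * ∑ u ∈ S, a u) s
        = eS L.powerset c al (fun S => ∑ u ∈ L, a u * (if {u, v} ⊆ S then 1 else 0)) s := by
      unfold eS
      refine Finset.sum_congr rfl fun S hS => ?_
      congr 2
      have hSL := Finset.mem_powerset.1 hS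
      by_cases hv : v ∈ S
      · simp only [Finset.singleton_subset_iff, hv, if_true, one_mul, Finset.insert_subset_iff,
          and_true, mul_ite, mul_one, mul_zero]
        rw [← Finset.sum_filter]
        congr 1
        ext u
        simp only [Finset.mem_filter]
        exact ⟨fun hu => ⟨hSL hu, hu⟩, fun hu => hu.2⟩
      · simp [Finset.insert_subset_iff, hv]
    rw [this, eS_lin]
    refine Finset.sum_congr rfl fun u _ => ?_
    rw [eS_eq_Nf]
  have e2 : eS L.powerset c al al s = ∑ u ∈ L, a u * Nf q L (fun u => x u + s * a u) {u} := by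
    have : eS L.powerset c al al s
        = eS L.powerset c al (fun S => ∑ u ∈ L, a u * (if {u} ⊆ S then 1 else 0)) s := by
      unfold eS
      refine Finset.sum_congr rfl fun S hS => ?_
      congr 2
      have hSL := Finset.mem_powerset.1 hS
      simp only [Finset.singleton_subset_iff, mul_ite, mul_one, mul_zero]
      rw [← Finset.sum_filter]
      congr 1
      ext u
      simp only [Finset.mem_filter]
      exact ⟨fun hu => ⟨hSL hu, hu⟩, fun hu => hu.2⟩
    rw [this, eS_lin]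
    refine Finset.sum_congr rfl fun u _ => ?_
    rw [eS_eq_Nf]
  unfold mS
  rw [e1, e2, eS_eq_Nf, eS_one_eq_Zf, Finset.sum_div, Finset.sum_div, Finset.mul_sum,
    ← Finset.sum_sub_distrib]
  refine Finset.sum_congr rfl fun u _ => ?_
  unfold cov gibbs
  ring

lemma wt_c_nonneg (h : Wt q L) (x : ι → ℝ) :
    ∀ S ∈ L.powerset, 0 ≤ q S * Real.exp (∑ u ∈ S, x u) := fun S _ => by
  have := h.nonneg S; positivity

lemma wt_c_sum_pos (h : Wt q L) (x : ι → ℝ) :
    0 < ∑ S ∈ L.powerset, q S * Real.exp (∑ u ∈ S, x u) := Zf_pos h x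

/-- Lipschitz bound from the covariance bound. -/
lemma gibbs_lip (h : Wt q L) {C : ℝ} (hC : CovBound C q L) (x y : ι → ℝ) (v : ι) {δ : ℝ}
    (hC0 : 0 ≤ C) (hδ0 : 0 ≤ δ)
    (hδ : ∀ u ∈ L, |x u - y u| ≤ δ) : |gibbs q L x v - gibbs q L y v| ≤ C * δ := by
  by_cases hv : v ∈ L
  swap
  · rw [gibbs_of_not_mem x hv, gibbs_of_not_mem y hv, sub_zero, abs_zero]
    positivity
  set a : ι → ℝ := fun u => x u - y u
  have hd := fun s => hasDerivAt_mS (α := fun S => ∑ u ∈ S, a u) (wt_c_nonneg h y)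
    (wt_c_sum_pos h y) (fun S => if {v} ⊆ S then 1 else 0) s
  have key := (convex_univ (𝕜 := ℝ) (E := ℝ)).norm_image_sub_le_of_norm_hasDerivWithin_le
      (C := C * δ) (x := 0) (y := 1)
      (fun x _ => (hd x).hasDerivWithinAt) (fun s _ => by
        rw [deriv_eq_cov h, Real.norm_eq_abs]
        calc |∑ u ∈ L, cov q L (fun u => y u + s * a u) u v * a u|
            ≤ ∑ u ∈ L, |cov q L (fun u => y u + s * a u) u v * a u| :=
              Finset.abs_sum_le_sum_abs _ _
          _ ≤ ∑ u ∈ L, |cov q L (fun u => y u + s * a u) u v| * δ := by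
              refine Finset.sum_le_sum fun u hu => ?_
              rw [abs_mul]
              exact mul_le_mul_of_nonneg_left (hδ u hu) (abs_nonneg _)
          _ = (∑ u ∈ L, |cov q L (fun u => y u + s * a u) u v|) * δ := by
              rw [Finset.sum_mul]
          _ ≤ C * δ := mul_le_mul_of_nonneg_right (hC _ v hv) hδ0)
      (Set.mem_univ _) (Set.mem_univ _)
  rw [mS_eq_gibbs, mS_eq_gibbs] at key
  simpa [a] using key

/-- second order expansion of the tilted mean. -/
lemma gibbs_expand (h : Wt q L) (x a : ι → ℝ) (v : ι) :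
    |gibbs q L (fun u => x u + a u) v - gibbs q L x v - ∑ u ∈ L, cov q L x u v * a u|
      ≤ 6 * (∑ u ∈ L, |a u|) ^ 2 := by
  have key := mS_expand (α := fun S => ∑ u ∈ S, a u) (wt_c_nonneg h x)
    (wt_c_sum_pos h x) (fun S => if {v} ⊆ S then 1 else 0) 1 (∑ u ∈ L, |a u|) zero_le_one
    (Finset.sum_nonneg fun u _ => abs_nonneg _)
    (fun S _ => by split_ifs <;> simp)
    (fun S hS => (Finset.abs_sum_le_sum_abs _ _).trans
      (Finset.sum_le_sum_of_subset_of_nonneg (Finset.mem_powerset.1 hS)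
        fun _ _ _ => abs_nonneg _))
  rw [deriv_eq_cov h, mS_eq_gibbs, mS_eq_gibbs] at key
  simpa using key

lemma continuous_Zf : Continuous fun x : ι → ℝ => Zf q L x := by
  unfold Zf; fun_prop

lemma continuous_Nf (A : Finset ι) : Continuous fun x : ι → ℝ => Nf q L x A := by
  unfold Nf; fun_prop

lemma continuous_gibbs (h : Wt q L) (v : ι) : Continuous fun x : ι → ℝ => gibbs q L x v := by
  unfold gibbs
  exact (continuous_Nf _).div continuous_Zf fun x => (Zf_pos h x).ne'

end Gibbs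

end Crest.Agent.SRFlow
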