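import Mathlib
import Crest.Agent.SRGibbs

set_option autoImplicit false
set_option linter.unusedSectionVars false
set_option linter.unusedVariables false

namespace Crest.Agent.SRFlow

open MeasureTheory ProbabilityTheory

lemma gauss1_shift (r : ℝ) :
    (gaussianReal 0 1).withDensity (fun x => ENNReal.ofReal (Real.exp (r * x - r ^ 2 / 2)))
      = gaussianReal r 1 := by
  rw [gaussianReal_of_var_ne_zero 0 one_ne_zero, gaussianReal_of_var_ne_zero r one_ne_zero,
    ← withDensity_mul _ (by fun_prop) (by fun_prop)]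
  congr 1
  ext x
  simp only [Pi.mul_apply, gaussianPDF]
  rw [← ENNReal.ofReal_mul (gaussianPDFReal_nonneg _ _ _)]
  congr 1
  unfold gaussianPDFReal
  rw [mul_assoc, ← Real.exp_add]
  congr 2
  simp
  ring

variable {ι : Type*} [DecidableEq ι]

/-- the white noise law. -/
noncomputable def gam (ι : Type*) : Measure (ι → ℝ) :=
  Measure.infinitePi (fun _ : ι => gaussianReal 0 1)

instance : IsProbabilityMeasure (gam ι) := by unfold gam; infer_instance

/-- exponential density. -/
noncomputable def rho (r : ℝ) (S : Finset ι) (g : ι → ℝ) : ℝ :=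
  Real.exp (∑ u ∈ S, (r * g u - r ^ 2 / 2))

/-- shift by `r` on `S`. -/
noncomputable def sh (r : ℝ) (S : Finset ι) (g : ι → ℝ) : ι → ℝ :=
  fun u => g u + if u ∈ S then r else 0

lemma measurable_sh (r : ℝ) (S : Finset ι) : Measurable (sh (ι := ι) r S) := by
  unfold sh
  fun_prop

lemma measurable_rho (r : ℝ) (S : Finset ι) : Measurable (rho (ι := ι) r S) := by
  unfold rho
  fun_prop

lemma map_sh (r : ℝ) (S : Finset ι) :
    (gam ι).map (sh r S) = (gam ι).withDensity (fun g => ENNReal.ofReal (rho r S g)) := by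
  have h1 : (gam ι).map (sh r S) =
      Measure.infinitePi (fun u : ι => gaussianReal (if u ∈ S then r else 0) 1) := by
    unfold gam sh
    rw [Measure.infinitePi_map_pi (fun _ : ι => gaussianReal 0 1)
      (f := fun u x => x + if u ∈ S then r else 0) (fun u => by fun_prop)]
    congr 1
    ext1 u
    rw [gaussianReal_map_add_const, zero_add]
  rw [h1]
  symm
  apply Measure.eq_infinitePi
  intro s t ht
  have hmeas : MeasurableSet ((s : Set ι).pi t) :=
    MeasurableSet.pi s.countable_toSet fun i _ => ht i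
  rw [withDensity_apply _ hmeas, ← lintegral_indicator hmeas]
  set f : ι → ℝ → ENNReal := fun i x =>
    (if i ∈ s then (t i).indicator (fun _ => 1) x else 1) *
      (if i ∈ S then ENNReal.ofReal (Real.exp (r * x - r ^ 2 / 2)) else 1) with hf
  have hfm : ∀ i, Measurable (f i) := by
    intro i
    simp only [hf]
    refine Measurable.mul ?_ ?_
    · by_cases hi : i ∈ s
      · simp only [hi, if_true]
        exact measurable_const.indicator (ht i)
      · simp only [hi, if_false]
        exact measurable_const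
    · by_cases hi : i ∈ S
      · simp only [hi, if_true]; fun_prop
      · simp only [hi, if_false]; fun_prop
  have e1 : ∀ g : ι → ℝ, ((s : Set ι).pi t).indicator (fun g => ENNReal.ofReal (rho r S g)) g
      = ∏ i ∈ s ∪ S, f i (g i) := by
    intro g
    simp only [hf, Finset.prod_mul_distrib]
    have a1 : ∏ i ∈ s ∪ S, (if i ∈ s then (t i).indicator (fun _ => (1:ENNReal)) (g i) else 1)
        = ∏ i ∈ s, (t i).indicator (fun _ => (1:ENNReal)) (g i) := by
      rw [Finset.prod_ite]
      simp only [Finset.prod_const_one, mul_one]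
      congr 1
      ext i; simp only [Finset.mem_filter, Finset.mem_union]; tauto
    have a2 : ∏ i ∈ s ∪ S, (if i ∈ S then ENNReal.ofReal (Real.exp (r * g i - r ^ 2 / 2)) else 1)
        = ENNReal.ofReal (rho r S g) := by
      rw [Finset.prod_ite]
      simp only [Finset.prod_const_one, mul_one]
      rw [← ENNReal.ofReal_prod_of_nonneg (fun i _ => (Real.exp_pos _).le)]
      unfold rho
      rw [Real.exp_sum]
      congr 2
      ext i; simp only [Finset.mem_filter, Finset.mem_union]; tauto
    rw [a1, a2]
    by_cases hg : g ∈ (s : Set ι).pi t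
    · rw [Set.indicator_of_mem hg, Finset.prod_eq_one, one_mul]
      intro i hi
      rw [Set.indicator_of_mem (hg i (by simpa using hi))]
    · rw [Set.indicator_of_notMem hg]
      have : ∃ i ∈ s, g i ∉ t i := by
        by_contra hcon
        push Not at hcon
        exact hg fun i hi => hcon i (by simpa using hi)
      obtain ⟨i, hi, hgi⟩ := this
      rw [Finset.prod_eq_zero hi, zero_mul]
      rw [Set.indicator_of_notMem hgi]
  simp_rw [e1]
  have hind : iIndepFun (fun i (g : ι → ℝ) => f i (g i)) (gam ι) := by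
    unfold gam
    exact iIndepFun_infinitePi (P := fun _ : ι => gaussianReal 0 1) (X := f) (fun i => hfm i)
  rw [lintegral_prod_eq_prod_lintegral_of_indepFun (s ∪ S) (fun i (g : ι → ℝ) => f i (g i)) hind
    (fun i => (hfm i).comp (measurable_pi_apply i))]
  have e2 : ∀ i, ∫⁻ g, f i (g i) ∂(gam ι) = ∫⁻ x, f i x ∂(gaussianReal 0 1) := by
    intro i
    have := (measurePreserving_eval_infinitePi (fun _ : ι => gaussianReal 0 1) i).lintegral_comp
      (hfm i)
    exact this
  simp_rw [e2]
  have e3 : ∀ i ∈ s ∪ S, ∫⁻ x, f i x ∂(gaussianReal 0 1) =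
      if i ∈ s then gaussianReal (if i ∈ S then r else 0) 1 (t i) else 1 := by
    intro i _
    simp only [hf]
    by_cases hi : i ∈ s <;> by_cases hiS : i ∈ S
    · simp only [hi, hiS, if_true]
      rw [← gauss1_shift r, withDensity_apply _ (ht i), ← lintegral_indicator (ht i)]
      refine lintegral_congr fun x => ?_
      by_cases hx : x ∈ t i <;> simp [hx]
    · simp only [hi, hiS, if_true, if_false, mul_one]
      rw [lintegral_indicator_const (ht i), one_mul]
    · simp only [hi, hiS, if_true, if_false, one_mul]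
      have := gauss1_shift r
      have h2 : (gaussianReal r 1) Set.univ = 1 := measure_univ
      rw [← this, withDensity_apply _ MeasurableSet.univ, Measure.restrict_univ] at h2
      exact h2
    · simp [hi, hiS]
  rw [Finset.prod_congr rfl e3, Finset.prod_ite]
  simp only [Finset.prod_const_one, mul_one]
  congr 1
  ext i; simp only [Finset.mem_filter, Finset.mem_union]; tauto

/-! ### Integral forms -/

lemma rho_pos (r : ℝ) (S : Finset ι) (g : ι → ℝ) : 0 < rho r S g := Real.exp_pos _

lemma integral_sh (r : ℝ) (S : Finset ι) (φ : (ι → ℝ) → ℝ) (hφ : Measurable φ) :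
    ∫ g, φ (sh r S g) ∂(gam ι) = ∫ g, φ g * rho r S g ∂(gam ι) := by
  rw [← integral_map (measurable_sh r S).aemeasurable
    (hφ.aestronglyMeasurable), map_sh,
    integral_withDensity_eq_integral_toReal_smul (by have := measurable_rho (ι := ι) r S; fun_prop)
      (by simp)]
  refine integral_congr_ae (Filter.Eventually.of_forall fun g => ?_)
  simp only [smul_eq_mul]
  rw [ENNReal.toReal_ofReal (rho_pos r S g).le, mul_comm]

lemma integrable_rho (r : ℝ) (S : Finset ι) : Integrable (rho r S) (gam ι) := by
  refine ⟨(measurable_rho r S).aestronglyMeasurable, ?_⟩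
  rw [hasFiniteIntegral_iff_ofReal (Filter.Eventually.of_forall fun g => (rho_pos r S g).le)]
  have h : ((gam ι).withDensity (fun g => ENNReal.ofReal (rho r S g))) Set.univ = 1 := by
    rw [← map_sh, Measure.map_apply (measurable_sh r S) MeasurableSet.univ, Set.preimage_univ,
      measure_univ]
  rw [withDensity_apply _ MeasurableSet.univ, Measure.restrict_univ] at h
  rw [h]; simp

lemma integral_rho (r : ℝ) (S : Finset ι) : ∫ g, rho r S g ∂(gam ι) = 1 := by
  have := integral_sh (ι := ι) r S (fun _ => 1) measurable_const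
  simp at this
  exact this.symm

/-- the time-dependent field. -/
noncomputable def fld (r : ℝ) (x : ι → ℝ) : ι → ℝ := fun u => r * x u - r ^ 2 / 2

lemma exp_fld (r : ℝ) (S : Finset ι) (x : ι → ℝ) :
    Real.exp (∑ u ∈ S, fld r x u) = rho r S x := rfl

lemma Zf_fld (q : Finset ι → ℝ) (L : Finset ι) (r : ℝ) (x : ι → ℝ) :
    Zf q L (fld r x) = ∑ S ∈ L.powerset, q S * rho r S x := rfl

lemma Nf_fld (q : Finset ι → ℝ) (L : Finset ι) (r : ℝ) (x : ι → ℝ) (A : Finset ι) :
    Nf q L (fld r x) A = ∑ S ∈ L.powerset with A ⊆ S, q S * rho r S x := rfl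

lemma integrable_mul_rho (r : ℝ) (S : Finset ι) (φ : (ι → ℝ) → ℝ) (hφ : Measurable φ) {B : ℝ}
    (hB : ∀ g, |φ g| ≤ B) : Integrable (fun g => φ g * rho r S g) (gam ι) := by
  have := (integrable_rho (ι := ι) r S).bdd_mul (c := B) hφ.aestronglyMeasurable
    (Filter.Eventually.of_forall fun g => by simpa using hB g)
  exact this

lemma integral_mul_Zf (q : Finset ι → ℝ) (L : Finset ι) (r : ℝ) (φ : (ι → ℝ) → ℝ)
    (hφ : Measurable φ) {B : ℝ} (hB : ∀ g, |φ g| ≤ B) :
    ∫ g, φ g * Zf q L (fld r g) ∂(gam ι) =
      ∑ S ∈ L.powerset, q S * ∫ g, φ (sh r S g) ∂(gam ι) := by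
  simp_rw [Zf_fld, Finset.mul_sum]
  rw [integral_finsetSum]
  · refine Finset.sum_congr rfl fun S _ => ?_
    rw [integral_sh r S φ hφ, ← integral_const_mul]
    refine integral_congr_ae (Filter.Eventually.of_forall fun g => ?_)
    simp only; ring
  · intro S _
    have := (integrable_mul_rho r S φ hφ hB).const_mul (q S)
    refine this.congr (Filter.Eventually.of_forall fun g => ?_)
    simp only; ring

lemma integral_mul_Nf (q : Finset ι → ℝ) (L : Finset ι) (r : ℝ) (φ : (ι → ℝ) → ℝ)
    (hφ : Measurable φ) {B : ℝ} (hB : ∀ g, |φ g| ≤ B) (A : Finset ι) :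
    ∫ g, φ g * Nf q L (fld r g) A ∂(gam ι) =
      ∑ S ∈ L.powerset with A ⊆ S, q S * ∫ g, φ (sh r S g) ∂(gam ι) := by
  simp_rw [Nf_fld, Finset.mul_sum]
  rw [integral_finsetSum]
  · refine Finset.sum_congr rfl fun S _ => ?_
    rw [integral_sh r S φ hφ, ← integral_const_mul]
    refine integral_congr_ae (Filter.Eventually.of_forall fun g => ?_)
    simp only; ring
  · intro S _
    have := (integrable_mul_rho r S φ hφ hB).const_mul (q S)
    refine this.congr (Filter.Eventually.of_forall fun g => ?_)
    simp only; ring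

lemma integrable_mul_Zf (q : Finset ι → ℝ) (L : Finset ι) (r : ℝ) (φ : (ι → ℝ) → ℝ)
    (hφ : Measurable φ) {B : ℝ} (hB : ∀ g, |φ g| ≤ B) :
    Integrable (fun g => φ g * Zf q L (fld r g)) (gam ι) := by
  simp_rw [Zf_fld, Finset.mul_sum]
  refine integrable_finsetSum _ fun S _ => ?_
  have := (integrable_mul_rho r S φ hφ hB).const_mul (q S)
  refine this.congr (Filter.Eventually.of_forall fun g => ?_)
  simp only; ring

lemma integrable_mul_Nf (q : Finset ι → ℝ) (L : Finset ι) (r : ℝ) (φ : (ι → ℝ) → ℝ)
    (hφ : Measurable φ) {B : ℝ} (hB : ∀ g, |φ g| ≤ B) (A : Finset ι) :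
    Integrable (fun g => φ g * Nf q L (fld r g) A) (gam ι) := by
  simp_rw [Nf_fld, Finset.mul_sum]
  refine integrable_finsetSum _ fun S _ => ?_
  have := (integrable_mul_rho r S φ hφ hB).const_mul (q S)
  refine this.congr (Filter.Eventually.of_forall fun g => ?_)
  simp only; ring

lemma integral_Zf {q : Finset ι → ℝ} {L : Finset ι} (h : Wt q L) (r : ℝ) :
    ∫ g, Zf q L (fld r g) ∂(gam ι) = 1 := by
  have := integral_mul_Zf q L r (fun _ => 1) measurable_const (B := 1) (by simp)
  simp only [one_mul, integral_const, smul_eq_mul, mul_one] at this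
  rw [this]
  simpa using h.sum_one

end Crest.Agent.SRFlow
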