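import Mathlib
import Crest.Prelude.Def_Labels
import Crest.Agent.FUSFEq
import Crest.Agent.SRGauss

set_option autoImplicit false

/-!
Canonical independent standard Gaussians on the edges of a locally finite graph on `ℕ`, built from
independent uniform vertex labels, equivariantly and jointly measurably (used for S0254).
-/

namespace Crest.Agent.LabGauss

open MeasureTheory ProbabilityTheory Set Filter Topology
open Crest.ProbabilityR.GraphTables Crest.ProbabilityR.Labels
open Crest.Agent.SRFlow Crest.Agent.FUSF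

noncomputable section

/-- rank of `v` among the neighbours of `u` -/
def rk (G : SimpleGraph ℕ) (a : ℕ → ℝ) (u v : ℕ) : ℕ := Set.ncard {w | G.Adj u w ∧ a w < a v}

open Classical in
/-- label of the (ordered) pair `(u,v)` -/
def labF (G : SimpleGraph ℕ) (a : ℕ → ℝ) (b : ℕ × ℕ → ℝ) (u v : ℕ) : ℝ :=
  if G.Adj u v then
    (if a u < a v then b (u, rk G a u v) else if a v < a u then b (v, rk G a v u) else 0)
  else 0

theorem labF_symm (G : SimpleGraph ℕ) (a : ℕ → ℝ) (b : ℕ × ℕ → ℝ) (u v : ℕ) :
    labF G a b u v = labF G a b v u := by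
  unfold labF
  by_cases h : G.Adj u v
  · rw [if_pos h, if_pos h.symm]
    rcases lt_trichotomy (a u) (a v) with h1 | h1 | h1
    · rw [if_pos h1, if_neg (not_lt.mpr h1.le), if_pos h1]
    · rw [if_neg (by rw [h1]; exact lt_irrefl _), if_neg (by rw [h1]; exact lt_irrefl _),
        if_neg (by rw [h1]; exact lt_irrefl _), if_neg (by rw [h1]; exact lt_irrefl _)]
    · rw [if_neg (not_lt.mpr h1.le), if_pos h1, if_pos h1]
  · rw [if_neg h, if_neg (fun h' => h h'.symm)]

/-- labels of unordered pairs -/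
def labAB (G : SimpleGraph ℕ) (a : ℕ → ℝ) (b : ℕ × ℕ → ℝ) : Sym2 ℕ → ℝ :=
  Sym2.lift ⟨labF G a b, labF_symm G a b⟩

theorem labAB_mk (G : SimpleGraph ℕ) (a : ℕ → ℝ) (b : ℕ × ℕ → ℝ) (u v : ℕ) :
    labAB G a b s(u, v) = labF G a b u v := rfl

theorem exists_DD : ∃ f : unitInterval → (ℕ → ℝ), Measurable f ∧
    (volume : Measure unitInterval).map f = Measure.infinitePi (fun _ : ℕ => gaussianReal 0 1) :=
  Measure.exists_measurable_map_eq _

/-- a sequence of independent Gaussians from one uniform label -/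
def DD : unitInterval → (ℕ → ℝ) := Classical.choose exists_DD

theorem measurable_DD : Measurable DD := (Classical.choose_spec exists_DD).1

theorem map_DD : (volume : Measure unitInterval).map DD =
    Measure.infinitePi (fun _ : ℕ => gaussianReal 0 1) := (Classical.choose_spec exists_DD).2

/-- keys -/
def keyA (x : ℕ → unitInterval) : ℕ → ℝ := fun u => DD (x u) 0
/-- values -/
def valB (x : ℕ → unitInterval) : ℕ × ℕ → ℝ := fun p => DD (x p.1) (p.2 + 1)

/-- canonical edge labels -/
def lab (G : SimpleGraph ℕ) (x : ℕ → unitInterval) : Sym2 ℕ → ℝ := labAB G (keyA x) (valB x)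

/-! ### equivariance -/

theorem rk_comap (σ : Equiv.Perm ℕ) (G : SimpleGraph ℕ) (a : ℕ → ℝ) (u v : ℕ) :
    rk (G.comap σ) (a ∘ σ) u v = rk G a (σ u) (σ v) := by
  unfold rk
  have : {w | G.Adj (σ u) w ∧ a w < a (σ v)} =
      σ '' {w | (G.comap σ).Adj u w ∧ (a ∘ σ) w < (a ∘ σ) v} := by
    ext w
    simp only [Set.mem_ofPred_eq, Set.mem_image, SimpleGraph.comap_adj, Function.comp]
    constructor
    · intro h
      exact ⟨σ.symm w, by simpa using h, by simp⟩
    · rintro ⟨w', h, rfl⟩
      exact h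
  rw [this, Set.ncard_image_of_injective _ σ.injective]

theorem lab_comap (σ : Equiv.Perm ℕ) (G : SimpleGraph ℕ) (x : ℕ → unitInterval) :
    lab (G.comap σ) (x ∘ σ) = lab G x ∘ Sym2.map σ := by
  ext e
  induction e using Sym2.ind with
  | _ u v =>
    simp only [lab, labAB_mk, Function.comp, Sym2.map_mk]
    unfold labF
    have h1 : keyA (x ∘ σ) = keyA x ∘ σ := rfl
    rw [h1, rk_comap, rk_comap]
    rfl

/-! ### measurability -/

section Meas

theorem measurable_keyA : Measurable keyA :=
  measurable_pi_lambda _ fun u =>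
    (measurable_pi_apply 0).comp (measurable_DD.comp (measurable_pi_apply u))

theorem measurable_valB : Measurable valB :=
  measurable_pi_lambda _ fun p =>
    (measurable_pi_apply (p.2 + 1)).comp (measurable_DD.comp (measurable_pi_apply p.1))

variable {Ω : Type*} [MeasurableSpace Ω]

theorem measurable_ncard {A : Ω → Set ℕ} (hA : ∀ w, MeasurableSet {ω | w ∈ A ω}) :
    Measurable (fun ω => (A ω).ncard) := by
  classical
  have h1 : ∀ W : Finset ℕ, MeasurableSet {ω | A ω = (W : Set ℕ)} := by
    intro W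
    have : {ω | A ω = (W : Set ℕ)} = ⋂ w : ℕ, {ω | w ∈ A ω ↔ w ∈ W} := by
      ext ω
      simp only [Set.mem_ofPred_eq, Set.mem_iInter, Set.ext_iff, Finset.mem_coe]
    rw [this]
    refine MeasurableSet.iInter fun w => ?_
    by_cases hw : w ∈ W
    · simpa [hw] using hA w
    · simp only [hw, iff_false]
      exact (hA w).compl
  refine measurable_to_countable' fun n => ?_
  have : (fun ω => (A ω).ncard) ⁻¹' {n} =
      (⋃ W : {W : Finset ℕ // W.card = n}, {ω | A ω = ((W : Finset ℕ) : Set ℕ)}) ∪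
      ({ω | n = 0} ∩ (⋃ W : Finset ℕ, {ω | A ω = (W : Set ℕ)})ᶜ) := by
    ext ω
    simp only [Set.mem_preimage, Set.mem_singleton_iff, Set.mem_union, Set.mem_iUnion,
      Set.mem_ofPred_eq, Set.mem_inter_iff, Set.mem_compl_iff]
    constructor
    · intro h
      by_cases hf : (A ω).Finite
      · left
        refine ⟨⟨hf.toFinset, ?_⟩, by simp⟩
        rw [← h, Set.ncard_eq_toFinset_card _ hf]
      · right
        refine ⟨?_, ?_⟩
        · rw [← h, Set.Infinite.ncard hf]
        · rintro ⟨W, hW⟩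
          exact hf (hW ▸ W.finite_toSet)
    · rintro (⟨⟨W, hW⟩, h⟩ | ⟨h0, h⟩)
      · rw [h, Set.ncard_coe_finset, hW]
      · rw [h0]
        apply Set.Infinite.ncard
        intro hf
        exact h ⟨hf.toFinset, by simp⟩
  rw [this]
  exact (MeasurableSet.iUnion fun W => h1 _).union
    ((MeasurableSet.const _).inter (MeasurableSet.iUnion fun W => h1 _).compl)

theorem measurable_labF {t : Ω → (ℕ → ℕ → Bool)} (ht : Measurable t) {a : Ω → (ℕ → ℝ)}
    (ha : Measurable a) {b : Ω → (ℕ × ℕ → ℝ)} (hb : Measurable b) (u v : ℕ) :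
    Measurable (fun ω => labF (graphOfTable (t ω)) (a ω) (b ω) u v) := by
  classical
  have hau : ∀ w, Measurable fun ω => a ω w := fun w => measurable_pi_iff.1 ha w
  have hadj : ∀ x y, MeasurableSet {ω | (graphOfTable (t ω)).Adj x y} :=
    fun x y => ht (measurableSet_adj x y)
  have hrk : ∀ x y, Measurable (fun ω => rk (graphOfTable (t ω)) (a ω) x y) := by
    intro x y
    unfold rk
    refine measurable_ncard fun w => ?_
    exact (hadj x w).inter (measurableSet_lt (hau w) (hau y))
  have hbr : ∀ x y, Measurable (fun ω => b ω (x, rk (graphOfTable (t ω)) (a ω) x y)) := by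
    intro x y
    have h1 : Measurable (fun p : (ℕ × ℕ → ℝ) × ℕ => p.1 (x, p.2)) :=
      measurable_from_prod_countable_left fun n => measurable_pi_apply (x, n)
    exact h1.comp (hb.prodMk (hrk x y))
  unfold labF
  refine Measurable.ite (hadj u v) ?_ measurable_const
  refine Measurable.ite (measurableSet_lt (hau u) (hau v)) (hbr u v) ?_
  exact Measurable.ite (measurableSet_lt (hau v) (hau u)) (hbr v u) measurable_const

theorem measurable_labAB {t : Ω → (ℕ → ℕ → Bool)} (ht : Measurable t) {a : Ω → (ℕ → ℝ)}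
    (ha : Measurable a) {b : Ω → (ℕ × ℕ → ℝ)} (hb : Measurable b) :
    Measurable (fun ω => labAB (graphOfTable (t ω)) (a ω) (b ω)) := by
  refine measurable_pi_lambda _ fun e => ?_
  induction e using Sym2.ind with
  | _ u v => exact measurable_labF ht ha hb u v

theorem measurable_lab :
    Measurable (fun p : (ℕ → ℕ → Bool) × (ℕ → unitInterval) => lab (graphOfTable p.1) p.2) :=
  measurable_labAB measurable_fst (measurable_keyA.comp measurable_snd)
    (measurable_valB.comp measurable_snd)

end Meas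

/-! ### law -/

/-- combination of keys and values -/
def comb (p : (ℕ → ℝ) × (ℕ × ℕ → ℝ)) : ℕ × ℕ → ℝ :=
  fun i => Nat.casesOn i.2 (p.1 i.1) (fun m => p.2 (i.1, m))

theorem comb_zero (p : (ℕ → ℝ) × (ℕ × ℕ → ℝ)) (u : ℕ) : comb p (u, 0) = p.1 u := rfl
theorem comb_succ (p : (ℕ → ℝ) × (ℕ × ℕ → ℝ)) (u m : ℕ) : comb p (u, m + 1) = p.2 (u, m) := rfl

theorem measurable_comb : Measurable comb := by
  refine measurable_pi_lambda _ fun i => ?_
  obtain ⟨u, m⟩ := i
  cases m with
  | zero => exact (measurable_pi_apply u).comp measurable_fst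
  | succ m => exact (measurable_pi_apply (u, m)).comp measurable_snd

theorem map_comb : ((gam ℕ).prod (gam (ℕ × ℕ))).map comb = gam (ℕ × ℕ) := by
  classical
  unfold gam
  refine Measure.eq_infinitePi _ fun s t ht => ?_
  rw [Measure.map_apply measurable_comb (MeasurableSet.pi s.countable_toSet fun i _ => ht i)]
  have hi0 : Function.Injective (fun u : ℕ => ((u, 0) : ℕ × ℕ)) := fun a b h => (Prod.mk.inj h).1
  have hi1 : Function.Injective (fun p : ℕ × ℕ => ((p.1, p.2 + 1) : ℕ × ℕ)) := by
    rintro ⟨a, b⟩ ⟨c, d⟩ h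
    simp only [Prod.mk.injEq] at h ⊢
    exact ⟨h.1, by omega⟩
  set s0 : Finset ℕ := s.preimage (fun u : ℕ => ((u, 0) : ℕ × ℕ)) hi0.injOn with hs0
  set s1 : Finset (ℕ × ℕ) := s.preimage (fun p : ℕ × ℕ => ((p.1, p.2 + 1) : ℕ × ℕ)) hi1.injOn
    with hs1
  have hpre : comb ⁻¹' (Set.pi (s : Set (ℕ × ℕ)) t) =
      (Set.pi (s0 : Set ℕ) (fun u => t (u, 0))) ×ˢ
        (Set.pi (s1 : Set (ℕ × ℕ)) (fun p => t (p.1, p.2 + 1))) := by
    ext p
    simp only [Set.mem_preimage, Set.mem_pi, Set.mem_prod, Finset.mem_coe, hs0, hs1,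
      Finset.mem_preimage]
    constructor
    · intro h
      exact ⟨fun u hu => h (u, 0) hu, fun q hq => h (q.1, q.2 + 1) hq⟩
    · rintro ⟨h1, h2⟩ ⟨u, m⟩ hi
      cases m with
      | zero => exact h1 u hi
      | succ m => exact h2 (u, m) hi
  rw [hpre, Measure.prod_prod, Measure.infinitePi_pi _ (fun i _ => ht _),
    Measure.infinitePi_pi _ (fun i _ => ht _)]
  have hs : s = s0.image (fun u : ℕ => ((u, 0) : ℕ × ℕ)) ∪
      s1.image (fun p : ℕ × ℕ => ((p.1, p.2 + 1) : ℕ × ℕ)) := by
    ext ⟨u, m⟩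
    simp only [Finset.mem_union, Finset.mem_image, hs0, hs1, Finset.mem_preimage]
    constructor
    · intro h
      cases m with
      | zero => exact Or.inl ⟨u, h, rfl⟩
      | succ m => exact Or.inr ⟨(u, m), h, rfl⟩
    · rintro (⟨u', h, h'⟩ | ⟨p, h, h'⟩) <;> (rw [← h']; exact h)
  conv_rhs => rw [hs]
  rw [Finset.prod_union, Finset.prod_image (fun a _ b _ h => hi0 h),
    Finset.prod_image (fun a _ b _ h => hi1 h)]
  rw [Finset.disjoint_left]
  rintro ⟨u, m⟩ h1 h2
  simp only [Finset.mem_image, Prod.mk.injEq] at h1 h2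
  obtain ⟨_, _, _, h⟩ := h1
  obtain ⟨_, _, _, h'⟩ := h2
  omega

theorem map_labels : (labelMeasure ℕ).map (fun x => (fun p : ℕ × ℕ => DD (x p.1) p.2)) =
    gam (ℕ × ℕ) := by
  unfold labelMeasure gam
  have h1 : (Measure.infinitePi (fun _ : ℕ => (volume : Measure unitInterval))).map
      (fun x (u : ℕ) => DD (x u)) =
      Measure.infinitePi (fun _ : ℕ => Measure.infinitePi (fun _ : ℕ => gaussianReal 0 1)) := by
    rw [Measure.infinitePi_map_pi (fun _ : ℕ => (volume : Measure unitInterval))
      (f := fun _ => DD) (fun _ => measurable_DD)]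
    simp_rw [map_DD]
  have h2 := Measure.infinitePi_map_curry_symm (ι := ℕ) (κ := ℕ) (fun _ _ => gaussianReal 0 1)
  rw [← h1, Measure.map_map] at h2
  · exact h2
  · exact (MeasurableEquiv.curry ℕ ℕ ℝ).symm.measurable
  · exact measurable_pi_lambda _ fun u => measurable_DD.comp (measurable_pi_apply u)

theorem map_inj {E : Type*} (j : E → ℕ × ℕ) (hj : Function.Injective j) (s : Finset E)
    (t : E → Set ℝ) (ht : ∀ e, MeasurableSet (t e)) :
    gam (ℕ × ℕ) {b | ∀ e ∈ s, b (j e) ∈ t e} = ∏ e ∈ s, gaussianReal 0 1 (t e) := by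
  classical
  have h1 : {b : ℕ × ℕ → ℝ | ∀ e ∈ s, b (j e) ∈ t e} =
      Set.pi ((s.image j : Finset (ℕ × ℕ)) : Set (ℕ × ℕ))
        (fun i => if h : ∃ e, j e = i then t h.choose else Set.univ) := by
    ext b
    simp only [Set.mem_ofPred_eq, Set.mem_pi, Finset.mem_coe, Finset.mem_image]
    constructor
    · rintro h i ⟨e, he, rfl⟩
      have hex : ∃ e', j e' = j e := ⟨e, rfl⟩
      rw [dif_pos hex, hj hex.choose_spec]
      exact h e he
    · intro h e he
      have := h (j e) ⟨e, he, rfl⟩
      have hex : ∃ e', j e' = j e := ⟨e, rfl⟩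
      rwa [dif_pos hex, hj hex.choose_spec] at this
  rw [h1]
  unfold gam
  rw [Measure.infinitePi_pi, Finset.prod_image (fun a _ b _ h => hj h)]
  · refine Finset.prod_congr rfl fun e _ => ?_
    have hex : ∃ e', j e' = j e := ⟨e, rfl⟩
    rw [dif_pos hex, hj hex.choose_spec]
  · intro i _
    split_ifs
    · exact ht _
    · exact MeasurableSet.univ

theorem ae_injective : ∀ᵐ a ∂(gam ℕ), Function.Injective a := by
  have h1 : ∀ u v : ℕ, u ≠ v → ∀ᵐ a ∂(gam ℕ), a u ≠ a v := by
    intro u v huv
    -- the pair (a u, a v) has law N ⊗ N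
    have hind : IndepFun (fun a : ℕ → ℝ => a u) (fun a : ℕ → ℝ => a v) (gam ℕ) := by
      have := iIndepFun_infinitePi (P := fun _ : ℕ => gaussianReal 0 1)
        (X := fun _ => (id : ℝ → ℝ)) (fun _ => measurable_id)
      exact this.indepFun huv
    have hlaw := (indepFun_iff_map_prod_eq_prod_map_map
      (measurable_pi_apply u).aemeasurable (measurable_pi_apply v).aemeasurable).1 hind
    have hmu : (gam ℕ).map (fun a => a u) = gaussianReal 0 1 := by
      unfold gam; exact Measure.infinitePi_map_eval _ u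
    have hmv : (gam ℕ).map (fun a => a v) = gaussianReal 0 1 := by
      unfold gam; exact Measure.infinitePi_map_eval _ v
    rw [hmu, hmv] at hlaw
    have hms : MeasurableSet {p : ℝ × ℝ | p.1 = p.2} :=
      measurableSet_eq_fun measurable_fst measurable_snd
    have hz : ((gaussianReal 0 1).prod (gaussianReal 0 1)) {p : ℝ × ℝ | p.1 = p.2} = 0 := by
      rw [Measure.prod_apply hms]
      haveI hna : NullSingletonClass (gaussianReal 0 1) :=
        nullSingletonClass_gaussianReal (by norm_num)
      have : ∀ x : ℝ, (gaussianReal 0 1) (Prod.mk x ⁻¹' {p : ℝ × ℝ | p.1 = p.2}) = 0 := by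
        intro x
        have : Prod.mk x ⁻¹' {p : ℝ × ℝ | p.1 = p.2} = {x} := by
          ext y; simp [eq_comm]
        rw [this]
        exact measure_singleton x
      simp only [this, lintegral_zero]
    rw [← hlaw, Measure.map_apply (by fun_prop) hms] at hz
    rw [ae_iff]
    convert hz using 2
    ext a; simp
  have h2 : ∀ᵐ a ∂(gam ℕ), ∀ p : ℕ × ℕ, p.1 ≠ p.2 → a p.1 ≠ a p.2 := by
    rw [ae_all_iff]
    intro p
    by_cases hp : p.1 = p.2
    · exact Eventually.of_forall fun a h => absurd hp h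
    · filter_upwards [h1 p.1 p.2 hp] with a ha _ using ha
  filter_upwards [h2] with a ha
  intro u v h
  by_contra hne
  exact ha (u, v) hne h

/-- slot of an edge: lower endpoint and rank -/
theorem exists_slot (G : SimpleGraph ℕ) (hG : ∀ v, (G.neighborSet v).Finite) {a : ℕ → ℝ}
    (ha : Function.Injective a) : ∃ j : G.edgeSet → ℕ × ℕ, Function.Injective j ∧
    ∀ (b : ℕ × ℕ → ℝ) (e : G.edgeSet), labAB G a b e = b (j e) := by
  classical
  have hlo : ∀ e : G.edgeSet, ∃ p : ℕ × ℕ, (e : Sym2 ℕ) = s(p.1, p.2) ∧ a p.1 < a p.2 := by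
    rintro ⟨e, he⟩
    induction e using Sym2.ind with
    | _ u v =>
      have hadj : G.Adj u v := he
      rcases lt_trichotomy (a u) (a v) with h | h | h
      · exact ⟨(u, v), rfl, h⟩
      · exact absurd (ha h) hadj.ne
      · exact ⟨(v, u), Sym2.eq_swap, h⟩
  choose p hp1 hp2 using hlo
  refine ⟨fun e => ((p e).1, rk G a (p e).1 (p e).2), ?_, ?_⟩
  · have hadj : ∀ e, G.Adj (p e).1 (p e).2 := by
      intro e
      have := e.2
      rw [hp1 e] at this
      exact this
    have hlt : ∀ e e' : G.edgeSet, (p e).1 = (p e').1 → a (p e).2 < a (p e').2 →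
        rk G a (p e).1 (p e).2 < rk G a (p e').1 (p e').2 := by
      intro e e' h1 h2
      unfold rk
      apply Set.ncard_lt_ncard
      · rw [Set.ssubset_iff_subset_ne]
        constructor
        · rintro w ⟨hw1, hw2⟩
          exact ⟨h1 ▸ hw1, hw2.trans h2⟩
        · intro heq
          have : (p e).2 ∈ {w | G.Adj (p e').1 w ∧ a w < a (p e').2} := ⟨h1 ▸ hadj e, h2⟩
          rw [← heq] at this
          exact lt_irrefl _ this.2
      · exact (hG (p e').1).subset fun w hw => hw.1
    intro e e' h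
    simp only [Prod.mk.injEq] at h
    have h2 : a (p e).2 = a (p e').2 := by
      rcases lt_trichotomy (a (p e).2) (a (p e').2) with h3 | h3 | h3
      · exact absurd h.2 (hlt e e' h.1 h3).ne
      · exact h3
      · exact absurd h.2 (hlt e' e h.1.symm h3).ne'
    have h3 := ha h2
    apply Subtype.ext
    rw [hp1 e, hp1 e', h.1, h3]
  · intro b e
    have hadj : G.Adj (p e).1 (p e).2 := by
      have := e.2
      rw [hp1 e] at this
      exact this
    rw [hp1 e, labAB_mk]
    unfold labF
    rw [if_pos hadj, if_pos (hp2 e)]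

theorem measurableSet_labAB (G : SimpleGraph ℕ) (E : Finset (Sym2 ℕ)) (t : Sym2 ℕ → Set ℝ)
    (ht : ∀ e, MeasurableSet (t e)) :
    MeasurableSet {p : (ℕ → ℝ) × (ℕ × ℕ → ℝ) | ∀ e ∈ E, labAB G p.1 p.2 e ∈ t e} := by
  classical
  have hG : graphOfTable (tableOf G) = G := by
    ext u v
    simp only [graphOfTable, tableOf, SimpleGraph.fromRel_adj, decide_eq_true_eq]
    constructor
    · rintro ⟨_, h | h⟩
      · exact h
      · exact h.symm
    · intro h; exact ⟨h.ne, Or.inl h⟩
  have hm : Measurable (fun p : (ℕ → ℝ) × (ℕ × ℕ → ℝ) => labAB G p.1 p.2) := by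
    have := measurable_labAB (Ω := (ℕ → ℝ) × (ℕ × ℕ → ℝ)) (t := fun _ => tableOf G)
      measurable_const measurable_fst measurable_snd
    rwa [hG] at this
  have : {p : (ℕ → ℝ) × (ℕ × ℕ → ℝ) | ∀ e ∈ E, labAB G p.1 p.2 e ∈ t e} =
      ⋂ e ∈ E, {p | labAB G p.1 p.2 e ∈ t e} := by
    ext p; simp
  rw [this]
  exact Finset.measurableSet_biInter E fun e _ => (measurable_pi_iff.1 hm e) (ht e)

/-- the edge labels are independent standard Gaussians. -/
theorem law_lab (G : SimpleGraph ℕ) (hG : ∀ v, (G.neighborSet v).Finite) :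
    (labelMeasure ℕ).map (fun x (e : G.edgeSet) => lab G x e) =
      Measure.infinitePi (fun _ : G.edgeSet => gaussianReal 0 1) := by
  classical
  refine Measure.eq_infinitePi _ fun s t ht => ?_
  have htab : graphOfTable (tableOf G) = G := by
    ext u v
    simp only [graphOfTable, tableOf, SimpleGraph.fromRel_adj, decide_eq_true_eq]
    constructor
    · rintro ⟨_, h | h⟩
      · exact h
      · exact h.symm
    · intro h; exact ⟨h.ne, Or.inl h⟩
  have hlabm : Measurable (lab G) := by
    have := (measurable_lab).comp (measurable_const (a := tableOf G) |>.prodMk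
      (measurable_id (α := ℕ → unitInterval)))
    simp only [Function.comp_def, htab] at this
    exact this
  have hmeas : Measurable (fun x (e : G.edgeSet) => lab G x e) :=
    measurable_pi_lambda _ fun e => measurable_pi_iff.1 hlabm e
  rw [Measure.map_apply hmeas (MeasurableSet.pi s.countable_toSet fun i _ => ht i)]
  -- sets over Sym2 ℕ
  set E : Finset (Sym2 ℕ) := s.image Subtype.val with hE
  set t' : Sym2 ℕ → Set ℝ := fun e => if h : e ∈ G.edgeSet then t ⟨e, h⟩ else Set.univ with ht'
  have ht'm : ∀ e, MeasurableSet (t' e) := by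
    intro e; simp only [ht']; split_ifs
    · exact ht _
    · exact MeasurableSet.univ
  set A : Set ((ℕ → ℝ) × (ℕ × ℕ → ℝ)) := {p | ∀ e ∈ E, labAB G p.1 p.2 e ∈ t' e} with hA
  have hAm : MeasurableSet A := measurableSet_labAB G E t' ht'm
  have hAiff : ∀ p : (ℕ → ℝ) × (ℕ × ℕ → ℝ), p ∈ A ↔ ∀ e ∈ s, labAB G p.1 p.2 (e : Sym2 ℕ) ∈ t e := by
    intro p
    simp only [hA, Set.mem_ofPred_eq, hE, Finset.mem_image]
    constructor
    · intro h e he
      have := h e ⟨e, he, rfl⟩
      simpa only [ht', dif_pos e.2, Subtype.coe_eta] using this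
    · rintro h _ ⟨e, he, rfl⟩
      have := h e he
      simpa only [ht', dif_pos e.2, Subtype.coe_eta] using this
  -- transfer to the product space
  let sp : (ℕ × ℕ → ℝ) → (ℕ → ℝ) × (ℕ × ℕ → ℝ) := fun y => (fun u => y (u, 0), fun p => y (p.1, p.2 + 1))
  have hspm : Measurable sp := by
    refine Measurable.prodMk ?_ ?_
    · exact measurable_pi_lambda _ fun u => measurable_pi_apply _
    · exact measurable_pi_lambda _ fun u => measurable_pi_apply _
  have hspcomb : ∀ p, sp (comb p) = p := fun p => rfl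
  have hYm : Measurable (fun (x : ℕ → unitInterval) (p : ℕ × ℕ) => DD (x p.1) p.2) :=
    measurable_pi_lambda _ fun p =>
      (measurable_pi_apply p.2).comp (measurable_DD.comp (measurable_pi_apply p.1))
  have e1 : (fun x (e : G.edgeSet) => lab G x e) ⁻¹' (Set.pi (s : Set G.edgeSet) t) =
      (fun (x : ℕ → unitInterval) (p : ℕ × ℕ) => DD (x p.1) p.2) ⁻¹' (sp ⁻¹' A) := by
    ext x
    simp only [Set.mem_preimage, Set.mem_pi, Finset.mem_coe]
    rw [hAiff]
    rfl
  rw [e1, ← Measure.map_apply hYm (hspm hAm), map_labels, ← map_comb,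
    Measure.map_apply measurable_comb (hspm hAm)]
  have e2 : comb ⁻¹' (sp ⁻¹' A) = A := by
    ext p
    simp only [Set.mem_preimage, hspcomb]
  rw [e2, Measure.prod_apply hAm]
  have e3 : ∀ᵐ a ∂(gam ℕ), (gam (ℕ × ℕ)) (Prod.mk a ⁻¹' A) = ∏ e ∈ s, gaussianReal 0 1 (t e) := by
    filter_upwards [ae_injective] with a ha
    obtain ⟨j, hj, hjb⟩ := exists_slot G hG ha
    rw [← map_inj j hj s t ht]
    congr 1
    ext b
    rw [Set.mem_preimage, hAiff]
    simp only [hjb, Set.mem_ofPred_eq]
  rw [lintegral_congr_ae e3, lintegral_const]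
  have : IsProbabilityMeasure (gam ℕ) := by unfold gam; infer_instance
  rw [measure_univ, mul_one]

/-- functions of the edge coordinates have the same law under the canonical labels and under
independent Gaussians on all pairs -/
theorem law_lab' (G : SimpleGraph ℕ) (hG : ∀ v, (G.neighborSet v).Finite) {β : Type*}
    [MeasurableSpace β] (Ψ : (Sym2 ℕ → ℝ) → β) (hΨ : Measurable Ψ)
    (hdep : ∀ y z : Sym2 ℕ → ℝ, (∀ e ∈ G.edgeSet, y e = z e) → Ψ y = Ψ z) :
    (labelMeasure ℕ).map (fun x => Ψ (lab G x)) = (gam (Sym2 ℕ)).map Ψ := by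
  classical
  have htab : graphOfTable (tableOf G) = G := by
    ext u v
    simp only [graphOfTable, tableOf, SimpleGraph.fromRel_adj, decide_eq_true_eq]
    constructor
    · rintro ⟨_, h | h⟩
      · exact h
      · exact h.symm
    · intro h; exact ⟨h.ne, Or.inl h⟩
  have hlabm : Measurable (lab G) := by
    have := (measurable_lab).comp (measurable_const (a := tableOf G) |>.prodMk
      (measurable_id (α := ℕ → unitInterval)))
    simp only [Function.comp_def, htab] at this
    exact this
  have hmeas : Measurable (fun x (e : G.edgeSet) => lab G x e) :=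
    measurable_pi_lambda _ fun e => measurable_pi_iff.1 hlabm e
  let ext0 : (G.edgeSet → ℝ) → (Sym2 ℕ → ℝ) := fun z e => if h : e ∈ G.edgeSet then z ⟨e, h⟩ else 0
  have hextm : Measurable ext0 := by
    refine measurable_pi_lambda _ fun e => ?_
    by_cases h : e ∈ G.edgeSet
    · simp only [ext0, dif_pos h]; exact measurable_pi_apply _
    · simp only [ext0, dif_neg h]; exact measurable_const
  have hfac : ∀ y : Sym2 ℕ → ℝ, Ψ y = Ψ (ext0 (fun e : G.edgeSet => y e)) := by
    intro y
    apply hdep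
    intro e he
    simp only [ext0, dif_pos he]
  have h1 : (fun x => Ψ (lab G x)) = (fun z => Ψ (ext0 z)) ∘ (fun x (e : G.edgeSet) => lab G x e) := by
    ext x
    exact hfac _
  have h2 : Ψ = (fun z => Ψ (ext0 z)) ∘ (fun (y : Sym2 ℕ → ℝ) (e : G.edgeSet) => y e) := by
    ext y
    exact hfac _
  have hrm : Measurable (fun (y : Sym2 ℕ → ℝ) (e : G.edgeSet) => y e) :=
    measurable_pi_lambda _ fun e => measurable_pi_apply _
  have hc : Measurable (fun z => Ψ (ext0 z)) := hΨ.comp hextm
  rw [h1, ← Measure.map_map hc hmeas, law_lab G hG]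
  conv_rhs => rw [h2]
  rw [← Measure.map_map hc hrm]
  congr 1
  unfold gam
  exact (Measure.infinitePi_map_restrict' (fun _ : Sym2 ℕ => gaussianReal 0 1)
    (I := G.edgeSet)).symm

end

end Crest.Agent.LabGauss
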