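import Mathlib
import Crest.Prelude.Def_QuadraticTransport

/-!
Definitions for S0109 / S0110 (stability of optimal maps from a convex body).

Everything lives in `EuclideanSpace ℝ (Fin d)`; `ρ` is always `uniformProbOn K`.
-/

set_option autoImplicit false

open MeasureTheory Set
open scoped ENNReal RealInnerProductSpace
open Crest.AnalysisR.OT

namespace Crest.Agent.OS109

/-- the ambient space -/
abbrev Sp (d : ℕ) := EuclideanSpace ℝ (Fin d)

/-- Laguerre (semi-discrete optimal transport) data for sites `V`, masses `M`, source density `θ`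
with respect to `ρ`.  `T x` is a maximiser of `⟪x, v⟫ - ψ v` over `v ∈ V`. -/
structure Lag {d : ℕ} (ρ : Measure (Sp d)) (V : Finset (Sp d)) (M : Sp d → ℝ)
    (θ : Sp d → ℝ) where
  ψ : Sp d → ℝ
  T : Sp d → Sp d
  meas_T : Measurable T
  T_mem : ∀ x, T x ∈ V
  T_max : ∀ x, ∀ v ∈ V, inner ℝ x v - ψ v ≤ inner ℝ x (T x) - ψ (T x)
  mass : ∀ v ∈ V, ∫ x in T ⁻¹' {v}, θ x ∂ρ = M v

namespace Lag

variable {d : ℕ} {ρ : Measure (Sp d)} {V : Finset (Sp d)} {M θ : Sp d → ℝ}

/-- the convex potential -/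
noncomputable def f (L : Lag ρ V M θ) (x : Sp d) : ℝ := inner ℝ x (L.T x) - L.ψ (L.T x)

/-- subgradient inequality, valid on the whole space -/
lemma f_subgrad (L : Lag ρ V M θ) (x x' : Sp d) : L.f x + inner ℝ (x' - x) (L.T x) ≤ L.f x' := by
  have h := L.T_max x' (L.T x) (L.T_mem x)
  unfold f
  rw [inner_sub_left]
  linarith

/-- barycentre of the mass sent to `v` (meaningful when `M v > 0`) -/
noncomputable def b (L : Lag ρ V M θ) (v : Sp d) : Sp d :=
  (M v)⁻¹ • ∫ x in L.T ⁻¹' {v}, θ x • x ∂ρ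

end Lag

end Crest.Agent.OS109
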