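import Crest.Agent.OS109Interp3

set_option autoImplicit false
set_option linter.unusedSectionVars false
set_option linter.style.haveILetI false

open MeasureTheory Set
open scoped ENNReal
open Crest.AnalysisR.OT

namespace Crest.Agent.OS109

variable {d : ℕ} {K : Set (Sp d)}

lemma choose_r1 {X Y A B D r₁ : ℝ} (hX : 0 ≤ X) (hA : 0 ≤ A) (hB : 0 ≤ B) (hD : 0 ≤ D)
    (hr₁ : 0 < r₁) (hY : Y ≤ D) (h : ∀ r, 0 < r → r ≤ r₁ → Y ≤ A * (X / r ^ 2) + B * r) :
    Y ≤ (A + B + D / r₁) * X ^ (1 / 3 : ℝ) := by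
  rcases hX.eq_or_lt with h0 | hpos
  · have hY0 : Y ≤ 0 := by
      refine le_of_forall_pos_le_add fun ε hε => ?_
      have h1 := h (min r₁ (ε / (B + 1))) (by positivity) (min_le_left _ _)
      have h2 : B * min r₁ (ε / (B + 1)) ≤ ε := by
        calc B * min r₁ (ε / (B + 1)) ≤ (B + 1) * (ε / (B + 1)) := by
              apply mul_le_mul (by linarith) (min_le_right _ _) (by positivity) (by positivity)
          _ = ε := by field_simp
      rw [← h0] at h1
      simp only [zero_div, mul_zero, zero_add] at h1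
      linarith
    rw [← h0, Real.zero_rpow (by norm_num), mul_zero]
    exact hY0
  · set q := X ^ (1 / 3 : ℝ) with hq
    have hqpos : 0 < q := Real.rpow_pos_of_pos hpos _
    have hq3 : q ^ 3 = X := by
      rw [hq, ← Real.rpow_natCast, ← Real.rpow_mul hX]
      norm_num
    by_cases hc : q ≤ r₁
    · have h1 := h q hqpos hc
      have h2 : X / q ^ 2 = q := by
        rw [← hq3]; field_simp
      rw [h2] at h1
      have : 0 ≤ D / r₁ * q := by positivity
      nlinarith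
    · push Not at hc
      have h1 : D ≤ D / r₁ * q := by
        rw [div_mul_eq_mul_div, le_div_iff₀ hr₁]
        gcongr
      have : 0 ≤ (A + B) * q := by positivity
      nlinarith

lemma choose_r2 {X Y A B D r₁ : ℝ} (hX : 0 ≤ X) (hA : 0 ≤ A) (hB : 0 ≤ B) (hD : 0 ≤ D)
    (hr₁ : 0 < r₁) (hY : Y ≤ D) (h : ∀ r, 0 < r → r ≤ r₁ → Y ≤ A * (X / r) + B * r) :
    Y ≤ (A + B + D / r₁) * Real.sqrt X := by
  rcases hX.eq_or_lt with h0 | hpos
  · have hY0 : Y ≤ 0 := by
      refine le_of_forall_pos_le_add fun ε hε => ?_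
      have h1 := h (min r₁ (ε / (B + 1))) (by positivity) (min_le_left _ _)
      have h2 : B * min r₁ (ε / (B + 1)) ≤ ε := by
        calc B * min r₁ (ε / (B + 1)) ≤ (B + 1) * (ε / (B + 1)) := by
              apply mul_le_mul (by linarith) (min_le_right _ _) (by positivity) (by positivity)
          _ = ε := by field_simp
      rw [← h0] at h1
      simp only [zero_div, mul_zero, zero_add] at h1
      linarith
    rw [← h0, Real.sqrt_zero, mul_zero]
    exact hY0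
  · set q := Real.sqrt X with hq
    have hqpos : 0 < q := Real.sqrt_pos.2 hpos
    have hq2 : q ^ 2 = X := Real.sq_sqrt hX
    by_cases hc : q ≤ r₁
    · have h1 := h q hqpos hc
      have h2 : X / q = q := by
        rw [← hq2]; field_simp
      rw [h2] at h1
      have : 0 ≤ D / r₁ * q := by positivity
      nlinarith
    · push Not at hc
      have h1 : D ≤ D / r₁ * q := by
        rw [div_mul_eq_mul_div, le_div_iff₀ hr₁]
        gcongr
      have : 0 ≤ (A + B) * q := by positivity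
      nlinarith

lemma norm_sq_int (hKc : IsCompact K) {T S : Sp d → Sp d} (hT : Measurable T)
    (hS : Measurable S) {L : ℝ} (hTL : ∀ x, ‖T x‖ ≤ L) (hSL : ∀ x, ‖S x‖ ≤ L) :
    ∫ x, ‖T x - S x‖ ^ 2 ∂(uniformProbOn K) =
      (volume K).toReal⁻¹ * ∑ i, ∫ x in K, (T x i - S x i) ^ 2 := by
  rw [int_unif, ← integral_finsetSum _ (fun i _ => sq_coord_int hKc hT hS hTL hSL i)]
  congr 2
  funext x
  rw [EuclideanSpace.norm_sq_eq]
  simp

lemma norm_sq_le (hKc : IsCompact K) (hKi : (interior K).Nonempty) {T S : Sp d → Sp d} {L : ℝ}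
    (hTL : ∀ x, ‖T x‖ ≤ L) (hSL : ∀ x, ‖S x‖ ≤ L) :
    ∫ x, ‖T x - S x‖ ^ 2 ∂(uniformProbOn K) ≤ 4 * L ^ 2 := by
  have := prob_unif hKc hKi
  have h : ‖∫ x, ‖T x - S x‖ ^ 2 ∂(uniformProbOn K)‖ ≤ 4 * L ^ 2 := by
    refine (norm_integral_le_of_norm_le_const (C := 4 * L ^ 2)
      (Filter.Eventually.of_forall fun x => ?_)).trans (by simp)
    have a1 := norm_sub_le (T x) (S x)
    have a2 := hTL x
    have a3 := hSL x
    rw [Real.norm_of_nonneg (by positivity)]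
    calc ‖T x - S x‖ ^ 2 ≤ (2 * L) ^ 2 := by gcongr; linarith
      _ = _ := by ring
  exact le_of_abs_le h

theorem interp (hKc : IsCompact K) (hKv : Convex ℝ K) (hKi : (interior K).Nonempty) (L : ℝ) :
    ∃ C : ℝ, 0 ≤ C ∧ ∀ (f g : Sp d → ℝ) (T S : Sp d → Sp d),
      Measurable T → Measurable S → (∀ x, ‖T x‖ ≤ L) → (∀ x, ‖S x‖ ≤ L) →
      (∀ x x', f x + inner ℝ (x' - x) (T x) ≤ f x') →
      (∀ x x', g x + inner ℝ (x' - x) (S x) ≤ g x') →
      ∀ c : ℝ, ∫ x, ‖T x - S x‖ ^ 2 ∂(uniformProbOn K) ≤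
        C * (∫ x, (f x - g x - c) ^ 2 ∂(uniformProbOn K)) ^ (1 / 3 : ℝ) := by
  obtain ⟨r₁, hr₁, hG⟩ := exists_inner hKc hKv hKi
  have hv : 0 < (volume K).toReal := ENNReal.toReal_pos (vol_pos hKi).ne' (vol_lt hKc).ne
  refine ⟨d * 18 + d * (12 * L ^ 2 * (d / r₁)) + 4 * L ^ 2 / r₁, by positivity, ?_⟩
  intro f g T S hT hS hTL hSL hf hg c
  refine choose_r1 (integral_nonneg fun x => sq_nonneg _) (by positivity) (by positivity)
    (by positivity) hr₁ (norm_sq_le hKc hKi hTL hSL) fun r hr hr1 => ?_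
  obtain ⟨G, hGc, hGK, hGr, hGv⟩ := hG r hr hr1
  rw [norm_sq_int hKc hT hS hTL hSL, int_unif]
  have h1 : ∑ i, ∫ x in K, (T x i - S x i) ^ 2 ≤
      ∑ _i : Fin d, (18 / r ^ 2 * (∫ x in K, (f x - g x - c) ^ 2) +
        12 * L ^ 2 * (d * (r / r₁) * (volume K).toReal)) :=
    Finset.sum_le_sum fun i _ => coord_interp hKc hr hr₁ hT hS hTL hSL hf hg hGc hGK hGr hGv i
  rw [Finset.sum_const, Finset.card_univ, Fintype.card_fin, nsmul_eq_mul] at h1
  calc (volume K).toReal⁻¹ * ∑ i, ∫ x in K, (T x i - S x i) ^ 2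
      ≤ (volume K).toReal⁻¹ * (d * (18 / r ^ 2 * (∫ x in K, (f x - g x - c) ^ 2) +
        12 * L ^ 2 * (d * (r / r₁) * (volume K).toReal))) := by gcongr
    _ = _ := by field_simp

theorem near (hKc : IsCompact K) (hKv : Convex ℝ K) (hKi : (interior K).Nonempty) (L : ℝ) :
    ∃ C : ℝ, 0 ≤ C ∧ ∀ (f : Sp d → ℝ) (T S : Sp d → Sp d) (ε : Sp d → ℝ),
      Measurable T → Measurable S → (∀ x, ‖T x‖ ≤ L) → (∀ x, ‖S x‖ ≤ L) →
      (∀ x x', f x + inner ℝ (x' - x) (T x) ≤ f x') →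
      (∀ x x', f x + inner ℝ (x' - x) (S x) - ε x ≤ f x') → (∀ x, 0 ≤ ε x) →
      Integrable ε (uniformProbOn K) →
      ∫ x, ‖T x - S x‖ ^ 2 ∂(uniformProbOn K) ≤
        C * Real.sqrt (∫ x, ε x ∂(uniformProbOn K)) := by
  obtain ⟨r₁, hr₁, hG⟩ := exists_inner hKc hKv hKi
  have hv : 0 < (volume K).toReal := ENNReal.toReal_pos (vol_pos hKi).ne' (vol_lt hKc).ne
  refine ⟨d * (2 * |L|) + d * (8 * L ^ 2 * (d / r₁)) + 4 * L ^ 2 / r₁, by positivity, ?_⟩
  intro f T S ε hT hS hTL hSL hf hg hε0 hεi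
  have hL : 0 ≤ L := (norm_nonneg _).trans (hTL 0)
  rw [abs_of_nonneg hL]
  have hεi' : IntegrableOn ε K := by
    unfold uniformProbOn at hεi
    have h1 : ((volume : Measure (Sp d)) K)⁻¹ ≠ 0 := ENNReal.inv_ne_zero.2 (vol_lt hKc).ne
    have h2 : ((volume : Measure (Sp d)) K)⁻¹ ≠ ⊤ := ENNReal.inv_ne_top.2 (vol_pos hKi).ne'
    exact (integrable_smul_measure h1 h2).1 hεi
  refine choose_r2 (integral_nonneg fun x => hε0 x) (by positivity) (by positivity)
    (by positivity) hr₁ (norm_sq_le hKc hKi hTL hSL) fun r hr hr1 => ?_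
  obtain ⟨G, hGc, hGK, hGr, hGv⟩ := hG r hr hr1
  rw [norm_sq_int hKc hT hS hTL hSL, int_unif]
  have h1 : ∑ i, ∫ x in K, (T x i - S x i) ^ 2 ≤
      ∑ _i : Fin d, (2 * L / r * (∫ x in K, ε x) +
        8 * L ^ 2 * (d * (r / r₁) * (volume K).toReal)) :=
    Finset.sum_le_sum fun i _ =>
      coord_near hKc hr hr₁ hT hS hTL hSL hf hg hε0 hεi' hGc hGK hGr hGv i
  rw [Finset.sum_const, Finset.card_univ, Fintype.card_fin, nsmul_eq_mul] at h1
  calc (volume K).toReal⁻¹ * ∑ i, ∫ x in K, (T x i - S x i) ^ 2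
      ≤ (volume K).toReal⁻¹ * (d * (2 * L / r * (∫ x in K, ε x) +
        8 * L ^ 2 * (d * (r / r₁) * (volume K).toReal))) := by gcongr
    _ = _ := by field_simp

end Crest.Agent.OS109
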