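import Mathlib
import Crest.Prelude.Def_QuadraticTransport
import Crest.Agent.OS109Defs

/-!
Existence of Laguerre data (semi-discrete optimal transport) for S0109, part L.
-/

set_option autoImplicit false

open MeasureTheory Set
open scoped ENNReal RealInnerProductSpace
open Crest.AnalysisR.OT

namespace Crest.Agent.OS109

/-- ties are null -/
lemma ties_null {d : ℕ} {v v' : Sp d} (hv : v ≠ v') (a a' : ℝ) :
    volume {x : Sp d | inner ℝ x v - a = inner ℝ x v' - a'} = 0 := by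
  let A : AffineSubspace ℝ (Sp d) :=
    { carrier := {x : Sp d | inner ℝ x v - a = inner ℝ x v' - a'}
      smul_vsub_vadd_mem' := by
        intro c p1 p2 p3 h1 h2 h3
        simp only [Set.mem_ofPred_eq] at h1 h2 h3 ⊢
        simp only [vsub_eq_sub, vadd_eq_add, inner_add_left, inner_smul_left, inner_sub_left]
        simp only [conj_trivial]
        linear_combination c * (h1 - h2) + h3 }
  have hA : A ≠ ⊤ := by
    intro h
    have hall : ∀ x : Sp d, inner ℝ x v - a = inner ℝ x v' - a' := by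
      intro x
      have : x ∈ A := by rw [h]; exact AffineSubspace.mem_top _ _ _
      exact this
    have h0 := hall 0
    have h1 := hall (v - v')
    simp only [inner_zero_left, zero_sub, neg_inj] at h0
    apply hv
    have : inner ℝ (v - v') (v - v') = (0:ℝ) := by
      rw [inner_sub_right]
      linarith
    exact sub_eq_zero.1 (inner_self_eq_zero.1 this)
  exact Measure.addHaar_affineSubspace volume A hA

section ρ

variable {d : ℕ} {K : Set (Sp d)}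

lemma vol_ne_zero (hKi : (interior K).Nonempty) : volume K ≠ 0 :=
  (Measure.measure_pos_of_nonempty_interior volume hKi).ne'

lemma isProb_ρ (hKc : IsCompact K) (hKi : (interior K).Nonempty) : IsProbabilityMeasure (uniformProbOn K) := by
  constructor
  unfold uniformProbOn
  rw [Measure.smul_apply, Measure.restrict_apply_univ, smul_eq_mul]
  exact ENNReal.inv_mul_cancel (vol_ne_zero hKi) hKc.measure_lt_top.ne

lemma ρ_ac : uniformProbOn K ≪ volume :=
  Measure.AbsolutelyContinuous.smul_left Measure.restrict_le_self.absolutelyContinuous _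

lemma ae_mem_K (hKc : IsCompact K) : ∀ᵐ x ∂(uniformProbOn K), x ∈ K :=
  Measure.ae_smul_measure (ae_restrict_mem hKc.measurableSet) _

lemma exists_bound (hKc : IsCompact K) : ∃ R : ℝ, 0 ≤ R ∧ ∀ x ∈ K, ‖x‖ ≤ R := by
  obtain ⟨R, hR⟩ := hKc.isBounded.exists_norm_le
  exact ⟨max R 0, le_max_right _ _, fun x hx => (hR x hx).trans (le_max_left _ _)⟩

lemma ae_ne_ties {v v' : Sp d} (hv : v ≠ v') (a a' : ℝ) :
    ∀ᵐ x ∂(uniformProbOn K), inner ℝ x v - a ≠ inner ℝ x v' - a' := by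
  have h : ∀ᵐ x ∂(volume : Measure (Sp d)), inner ℝ x v - a ≠ inner ℝ x v' - a' := by
    rw [ae_iff]
    simpa using ties_null hv a a'
  exact ρ_ac.ae_le h

end ρ

/-- measurable argmax -/
lemma exists_meas_argmax {d : ℕ} (V : Finset (Sp d)) (hV : V.Nonempty) (ψ : Sp d → ℝ) :
    ∃ T : Sp d → Sp d, Measurable T ∧ (Measurable fun x => inner ℝ x (T x) - ψ (T x)) ∧ (∀ x, T x ∈ V) ∧
      ∀ x, ∀ v ∈ V, inner ℝ x v - ψ v ≤ inner ℝ x (T x) - ψ (T x) := by
  classical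
  induction hV using Finset.Nonempty.cons_induction with
  | singleton a =>
    refine ⟨fun _ => a, measurable_const, (by fun_prop : Measurable fun x : Sp d => inner ℝ x a).sub measurable_const, fun _ => by simp, ?_⟩
    intro x v hv
    rw [Finset.mem_singleton.1 hv]
  | cons a s ha hs ih =>
    obtain ⟨T, hT, hTm, hTV, hmax⟩ := ih
    have hset : MeasurableSet {x : Sp d | inner ℝ x (T x) - ψ (T x) ≤ inner ℝ x a - ψ a} :=
      measurableSet_le hTm (by fun_prop)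
    refine ⟨fun x => if inner ℝ x (T x) - ψ (T x) ≤ inner ℝ x a - ψ a then a else T x,
      Measurable.ite hset measurable_const hT, ?_, ?_, ?_⟩
    · have : (fun x : Sp d => inner ℝ x (if inner ℝ x (T x) - ψ (T x) ≤ inner ℝ x a - ψ a then a else T x) -
          ψ (if inner ℝ x (T x) - ψ (T x) ≤ inner ℝ x a - ψ a then a else T x)) =
          fun x => if inner ℝ x (T x) - ψ (T x) ≤ inner ℝ x a - ψ a then inner ℝ x a - ψ a else inner ℝ x (T x) - ψ (T x) := by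
        ext x
        split_ifs <;> rfl
      rw [this]
      exact Measurable.ite hset (by fun_prop) hTm
    · intro x
      show (if inner ℝ x (T x) - ψ (T x) ≤ inner ℝ x a - ψ a then a else T x) ∈ _
      split_ifs
      · simp
      · exact Finset.mem_cons_of_mem (hTV x)
    · intro x v hv
      show _ ≤ inner ℝ x (if inner ℝ x (T x) - ψ (T x) ≤ inner ℝ x a - ψ a then a else T x) -
          ψ (if inner ℝ x (T x) - ψ (T x) ≤ inner ℝ x a - ψ a then a else T x)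
      rw [Finset.mem_cons] at hv
      split_ifs with h
      · rcases hv with rfl | hv
        · exact le_rfl
        · exact (hmax x v hv).trans h
      · rcases hv with rfl | hv
        · exact (not_le.1 h).le
        · exact hmax x v hv

section main

variable {d : ℕ} {V : Finset (Sp d)} [Nonempty ↥V]

/-- `F ψ x = max_v (⟪x,v⟫ - ψ v)` -/
noncomputable def Fm (ψ : ↥V → ℝ) (x : Sp d) : ℝ :=
  (Finset.univ : Finset ↥V).sup' Finset.univ_nonempty (fun v => inner ℝ x (v : Sp d) - ψ v)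

lemma le_Fm (ψ : ↥V → ℝ) (x : Sp d) (v : ↥V) : inner ℝ x (v : Sp d) - ψ v ≤ Fm ψ x :=
  Finset.le_sup' (fun v : ↥V => inner ℝ x (v : Sp d) - ψ v) (Finset.mem_univ v)

lemma Fm_le (ψ : ↥V → ℝ) (x : Sp d) (c : ℝ) (h : ∀ v : ↥V, inner ℝ x (v : Sp d) - ψ v ≤ c) : Fm ψ x ≤ c :=
  Finset.sup'_le _ _ (fun v _ => h v)

lemma Fm_meas (ψ : ↥V → ℝ) : Measurable (Fm ψ) := by
  unfold Fm
  have : (fun x : Sp d => (Finset.univ : Finset ↥V).sup' Finset.univ_nonempty (fun v => inner ℝ x (v : Sp d) - ψ v)) =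
      (Finset.univ : Finset ↥V).sup' Finset.univ_nonempty (fun v => fun x : Sp d => inner ℝ x (v : Sp d) - ψ v) := by
    ext x
    rw [Finset.sup'_apply]
  rw [this]
  exact Finset.measurable_sup' _ (fun v _ => by fun_prop)

lemma Fm_add_const (ψ : ↥V → ℝ) (c : ℝ) (x : Sp d) : Fm (fun v => ψ v - c) x = Fm ψ x + c := by
  apply le_antisymm
  · apply Fm_le
    intro v
    linarith [le_Fm ψ x v]
  · rw [← le_sub_iff_add_le]
    apply Fm_le
    intro v
    linarith [le_Fm (fun v => ψ v - c) x v]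

lemma Fm_lip (ψ ψ' : ↥V → ℝ) (x : Sp d) : |Fm ψ x - Fm ψ' x| ≤ ‖ψ - ψ'‖ := by
  have key : ∀ φ φ' : ↥V → ℝ, Fm φ x ≤ Fm φ' x + ‖φ - φ'‖ := by
    intro φ φ'
    apply Fm_le
    intro v
    have h1 := le_Fm φ' x v
    have h2 : |φ v - φ' v| ≤ ‖φ - φ'‖ := norm_le_pi_norm (φ - φ') v
    have := (abs_le.1 h2).1
    linarith
  rw [abs_le]
  constructor
  · have := key ψ' ψ
    rw [norm_sub_rev] at this
    linarith
  · linarith [key ψ ψ']

/-- the dual functional -/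
noncomputable def Jf (ρ : Measure (Sp d)) (θ : Sp d → ℝ) (M : Sp d → ℝ) (ψ : ↥V → ℝ) : ℝ :=
  (∫ x, Fm ψ x * θ x ∂ρ) + ∑ v : ↥V, M v * ψ v

variable {K : Set (Sp d)} {θ : Sp d → ℝ} {M : Sp d → ℝ}

lemma Fm_bound {R L : ℝ} (hR : 0 ≤ R) (hL : ∀ v ∈ V, ‖v‖ ≤ L) (ψ : ↥V → ℝ) (x : Sp d) (hx : ‖x‖ ≤ R) :
    |Fm ψ x| ≤ R * L + ‖ψ‖ := by
  have h0 : ∀ v : ↥V, |inner ℝ x (v : Sp d)| ≤ R * L := by
    intro v
    exact (abs_real_inner_le_norm _ _).trans (mul_le_mul hx (hL v v.2) (norm_nonneg _) hR)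
  have h1 : ∀ v : ↥V, |ψ v| ≤ ‖ψ‖ := fun v => norm_le_pi_norm ψ v
  rw [abs_le]
  constructor
  · obtain ⟨v⟩ := ‹Nonempty ↥V›
    have := le_Fm ψ x v
    have a1 := (abs_le.1 (h0 v)).1
    have a2 := (abs_le.1 (h1 v)).2
    linarith
  · apply Fm_le
    intro v
    have a1 := (abs_le.1 (h0 v)).2
    have a2 := (abs_le.1 (h1 v)).1
    linarith

lemma Fθ_int (hKc : IsCompact K) (hKi : (interior K).Nonempty) (hθ : Measurable θ) (hθ0 : ∀ x, 0 ≤ θ x)
    (hθ2 : ∀ x, θ x ≤ 2) (ψ : ↥V → ℝ) : Integrable (fun x => Fm ψ x * θ x) (uniformProbOn K) := by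
  have := isProb_ρ hKc hKi
  obtain ⟨R, hR0, hR⟩ := exists_bound hKc
  obtain ⟨L, hL⟩ : ∃ L : ℝ, ∀ v ∈ V, ‖v‖ ≤ L := by
    obtain ⟨B, hB⟩ := (V.image (fun v => ‖v‖)).bddAbove
    exact ⟨B, fun v hv => hB (by simpa using ⟨v, hv, rfl⟩)⟩
  refine Integrable.of_bound (C := (R * L + ‖ψ‖) * 2) ((Fm_meas ψ).mul hθ).aestronglyMeasurable ?_
  filter_upwards [ae_mem_K hKc] with x hx
  have h1 := Fm_bound hR0 hL ψ x (hR x hx)
  rw [Real.norm_eq_abs, abs_mul, abs_of_nonneg (hθ0 x)]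
  exact mul_le_mul h1 (hθ2 x) (hθ0 x) ((abs_nonneg _).trans h1)

lemma θ_int (hKc : IsCompact K) (hKi : (interior K).Nonempty) (hθ : Measurable θ) (hθ0 : ∀ x, 0 ≤ θ x)
    (hθ2 : ∀ x, θ x ≤ 2) : Integrable θ (uniformProbOn K) := by
  have := isProb_ρ hKc hKi
  refine Integrable.of_bound (C := 2) hθ.aestronglyMeasurable ?_
  filter_upwards with x
  rw [Real.norm_eq_abs, abs_of_nonneg (hθ0 x)]
  exact hθ2 x

/-- comparison principle for `J` -/
lemma J_le (hKc : IsCompact K) (hKi : (interior K).Nonempty) (hθ : Measurable θ) (hθ0 : ∀ x, 0 ≤ θ x)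
    (hθ2 : ∀ x, θ x ≤ 2) (hθ1 : ∫ x, θ x ∂(uniformProbOn K) = 1)
    (hM : ∀ v ∈ V, 0 < M v) (hM1 : ∑ v ∈ V, M v = 1) (ψ ψ' : ↥V → ℝ) :
    Jf (uniformProbOn K) θ M ψ ≤ Jf (uniformProbOn K) θ M ψ' + 2 * ‖ψ - ψ'‖ := by
  have hM1' : ∑ v : ↥V, M v = 1 := by
    rw [← hM1]; exact Finset.sum_coe_sort V M
  have i1 := Fθ_int hKc hKi hθ hθ0 hθ2 ψ
  have i2 := Fθ_int hKc hKi hθ hθ0 hθ2 ψ'
  have i3 := (θ_int hKc hKi hθ hθ0 hθ2).const_mul (‖ψ - ψ'‖)
  have h1 : ∫ x, Fm ψ x * θ x ∂(uniformProbOn K) ≤ (∫ x, Fm ψ' x * θ x ∂(uniformProbOn K)) + ‖ψ - ψ'‖ := by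
    have : ∫ x, Fm ψ x * θ x ∂(uniformProbOn K) ≤ ∫ x, (Fm ψ' x * θ x + ‖ψ - ψ'‖ * θ x) ∂(uniformProbOn K) := by
      apply integral_mono i1 (i2.add i3)
      intro x
      simp only [Pi.add_apply]
      have := (abs_le.1 (Fm_lip ψ ψ' x)).2
      nlinarith [hθ0 x]
    rw [integral_add i2 i3, integral_const_mul, hθ1] at this
    linarith
  have h2 : ∑ v : ↥V, M v * ψ v ≤ ∑ v : ↥V, M v * ψ' v + ‖ψ - ψ'‖ := by
    calc ∑ v : ↥V, M v * ψ v ≤ ∑ v : ↥V, (M v * ψ' v + M v * ‖ψ - ψ'‖) := by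
          apply Finset.sum_le_sum
          intro v _
          have h2 : |ψ v - ψ' v| ≤ ‖ψ - ψ'‖ := norm_le_pi_norm (ψ - ψ') v
          have := (abs_le.1 h2).2
          nlinarith [hM v v.2]
      _ = _ := by rw [Finset.sum_add_distrib, ← Finset.sum_mul, hM1', one_mul]
  unfold Jf
  linarith

lemma J_cont (hKc : IsCompact K) (hKi : (interior K).Nonempty) (hθ : Measurable θ) (hθ0 : ∀ x, 0 ≤ θ x)
    (hθ2 : ∀ x, θ x ≤ 2) (hθ1 : ∫ x, θ x ∂(uniformProbOn K) = 1)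
    (hM : ∀ v ∈ V, 0 < M v) (hM1 : ∑ v ∈ V, M v = 1) :
    Continuous (fun ψ : ↥V → ℝ => Jf (uniformProbOn K) θ M ψ) := by
  have : LipschitzWith 2 (fun ψ : ↥V → ℝ => Jf (uniformProbOn K) θ M ψ) := by
    apply LipschitzWith.of_dist_le_mul
    intro ψ ψ'
    rw [Real.dist_eq, dist_eq_norm, abs_le]
    have h1 := J_le hKc hKi hθ hθ0 hθ2 hθ1 hM hM1 ψ ψ'
    have h2 := J_le hKc hKi hθ hθ0 hθ2 hθ1 hM hM1 ψ' ψ
    rw [norm_sub_rev] at h2
    simp only [NNReal.coe_ofNat]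
    constructor <;> linarith
  exact this.continuous

lemma J_shift (hKc : IsCompact K) (hKi : (interior K).Nonempty) (hθ : Measurable θ) (hθ0 : ∀ x, 0 ≤ θ x)
    (hθ2 : ∀ x, θ x ≤ 2) (hθ1 : ∫ x, θ x ∂(uniformProbOn K) = 1)
    (hM1 : ∑ v ∈ V, M v = 1) (ψ : ↥V → ℝ) (c : ℝ) :
    Jf (uniformProbOn K) θ M (fun v => ψ v - c) = Jf (uniformProbOn K) θ M ψ := by
  have hM1' : ∑ v : ↥V, M v = 1 := by
    rw [← hM1]; exact Finset.sum_coe_sort V M
  unfold Jf
  simp only [Fm_add_const, mul_sub, add_mul, Finset.sum_sub_distrib, ← Finset.sum_mul, hM1', one_mul]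
  rw [integral_add (Fθ_int hKc hKi hθ hθ0 hθ2 ψ) ((θ_int hKc hKi hθ hθ0 hθ2).const_mul c), integral_const_mul, hθ1]
  ring

/-- a global minimiser exists -/
lemma exists_min (hKc : IsCompact K) (hKi : (interior K).Nonempty) (hθ : Measurable θ) (hθ0 : ∀ x, 0 ≤ θ x)
    (hθ2 : ∀ x, θ x ≤ 2) (hθ1 : ∫ x, θ x ∂(uniformProbOn K) = 1)
    (hM : ∀ v ∈ V, 0 < M v) (hM1 : ∑ v ∈ V, M v = 1) :
    ∃ ψ : ↥V → ℝ, ∀ φ : ↥V → ℝ, Jf (uniformProbOn K) θ M ψ ≤ Jf (uniformProbOn K) θ M φ := by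
  have := isProb_ρ hKc hKi
  obtain ⟨R, hR0, hR⟩ := exists_bound hKc
  obtain ⟨L, hL0, hL⟩ : ∃ L : ℝ, 0 ≤ L ∧ ∀ v ∈ V, ‖v‖ ≤ L := by
    obtain ⟨B, hB⟩ := (V.image (fun v => ‖v‖)).bddAbove
    exact ⟨max B 0, le_max_right _ _, fun v hv => (hB (by simpa using ⟨v, hv, rfl⟩)).trans (le_max_left _ _)⟩
  obtain ⟨μ0, hμ0, hμ⟩ : ∃ μ0 : ℝ, 0 < μ0 ∧ ∀ v : ↥V, μ0 ≤ M v := by
    obtain ⟨v0, hv0⟩ := Finite.exists_min (fun v : ↥V => M v)
    exact ⟨M v0, hM v0 v0.2, hv0⟩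
  set B : ℝ := 2 * (R * L) / μ0 with hB
  have hB0 : 0 ≤ B := by positivity
  have hcomp : IsCompact (Set.pi univ (fun _ : ↥V => Icc (0:ℝ) B)) := isCompact_univ_pi (fun _ => isCompact_Icc)
  have hne : (Set.pi univ (fun _ : ↥V => Icc (0:ℝ) B)).Nonempty := ⟨fun _ => 0, fun v _ => ⟨le_rfl, hB0⟩⟩
  obtain ⟨ψ, hψ, hmin⟩ := hcomp.exists_isMinOn hne (J_cont hKc hKi hθ hθ0 hθ2 hθ1 hM hM1).continuousOn
  refine ⟨ψ, fun φ => ?_⟩
  obtain ⟨v0, hv0⟩ := Finite.exists_min φ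
  rw [← J_shift hKc hKi hθ hθ0 hθ2 hθ1 hM1 φ (φ v0)]
  by_cases hbox : (fun v => φ v - φ v0) ∈ Set.pi univ (fun _ : ↥V => Icc (0:ℝ) B)
  · exact hmin hbox
  · have : ∃ v1, B < φ v1 - φ v0 := by
      by_contra hcon
      push Not at hcon
      exact hbox (fun v _ => ⟨by linarith [hv0 v], hcon v⟩)
    obtain ⟨v1, hv1⟩ := this
    -- J 0 ≤ R L
    have hJ0 : Jf (uniformProbOn K) θ M (fun _ : ↥V => (0:ℝ)) ≤ R * L := by
      unfold Jf
      simp only [mul_zero, Finset.sum_const_zero, add_zero]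
      calc ∫ x, Fm (fun _ : ↥V => (0:ℝ)) x * θ x ∂(uniformProbOn K) ≤ ∫ x, (R * L) * θ x ∂(uniformProbOn K) := by
            apply integral_mono_ae (Fθ_int hKc hKi hθ hθ0 hθ2 _) ((θ_int hKc hKi hθ hθ0 hθ2).const_mul _)
            filter_upwards [ae_mem_K hKc] with x hx
            apply mul_le_mul_of_nonneg_right _ (hθ0 x)
            apply Fm_le
            intro v
            rw [sub_zero]
            exact (real_inner_le_norm _ _).trans (mul_le_mul (hR x hx) (hL v v.2) (norm_nonneg _) hR0)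
        _ = R * L := by rw [integral_const_mul, hθ1, mul_one]
    have h1 : Jf (uniformProbOn K) θ M ψ ≤ R * L :=
      (hmin (show (fun _ : ↥V => (0:ℝ)) ∈ _ from fun v _ => ⟨le_rfl, hB0⟩)).trans hJ0
    refine h1.trans ?_
    have h2 : -(R * L) ≤ ∫ x, Fm (fun v => φ v - φ v0) x * θ x ∂(uniformProbOn K) := by
      calc -(R * L) = ∫ x, (-(R * L)) * θ x ∂(uniformProbOn K) := by rw [integral_const_mul, hθ1, mul_one]
        _ ≤ _ := by
          apply integral_mono_ae ((θ_int hKc hKi hθ hθ0 hθ2).const_mul _) (Fθ_int hKc hKi hθ hθ0 hθ2 _)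
          filter_upwards [ae_mem_K hKc] with x hx
          apply mul_le_mul_of_nonneg_right _ (hθ0 x)
          have h3 := le_Fm (fun v => φ v - φ v0) x v0
          have h4 : |inner ℝ x (v0 : Sp d)| ≤ R * L :=
            (abs_real_inner_le_norm _ _).trans (mul_le_mul (hR x hx) (hL v0 v0.2) (norm_nonneg _) hR0)
          have := (abs_le.1 h4).1
          simp only [sub_self, sub_zero] at h3
          linarith
    have h3 : μ0 * B ≤ ∑ v : ↥V, M v * (φ v - φ v0) := by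
      calc μ0 * B ≤ M v1 * (φ v1 - φ v0) := by
            apply mul_le_mul (hμ v1) hv1.le hB0 (hM v1 v1.2).le
        _ ≤ _ := Finset.single_le_sum (f := fun v : ↥V => M v * (φ v - φ v0))
              (fun v _ => mul_nonneg (hM v v.2).le (by linarith [hv0 v])) (Finset.mem_univ v1)
    have h4 : μ0 * B = 2 * (R * L) := by
      rw [hB]; field_simp
    unfold Jf
    linarith

lemma cell_meas (ψ : ↥V → ℝ) (v0 : ↥V) (ε : ℝ) :
    MeasurableSet {x : Sp d | ∀ w : ↥V, w ≠ v0 → inner ℝ x (w : Sp d) - ψ w + ε ≤ inner ℝ x (v0 : Sp d) - ψ v0} := by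
  simp only [Set.ofPred_forall]
  refine MeasurableSet.iInter fun w => MeasurableSet.iInter fun _ => ?_
  exact measurableSet_le (by fun_prop) (by fun_prop)

lemma cell_mass_le (hKc : IsCompact K) (hKi : (interior K).Nonempty) (hθ : Measurable θ) (hθ0 : ∀ x, 0 ≤ θ x)
    (hθ2 : ∀ x, θ x ≤ 2) (ψ : ↥V → ℝ)
    (hψ : ∀ φ : ↥V → ℝ, Jf (uniformProbOn K) θ M ψ ≤ Jf (uniformProbOn K) θ M φ) (v0 : ↥V) (ε : ℝ) (hε : 0 < ε) :
    ∫ x in {x : Sp d | ∀ w : ↥V, w ≠ v0 → inner ℝ x (w : Sp d) - ψ w + ε ≤ inner ℝ x (v0 : Sp d) - ψ v0}, θ x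
      ∂(uniformProbOn K) ≤ M v0 := by
  classical
  set C := {x : Sp d | ∀ w : ↥V, w ≠ v0 → inner ℝ x (w : Sp d) - ψ w + ε ≤ inner ℝ x (v0 : Sp d) - ψ v0} with hC
  have hCm : MeasurableSet C := cell_meas ψ v0 ε
  set φ : ↥V → ℝ := fun v => ψ v + if v = v0 then ε else 0 with hφ
  have h1 := hψ φ
  have hpt : ∀ x, Fm φ x * θ x ≤ Fm ψ x * θ x - ε * C.indicator θ x := by
    intro x
    by_cases hx : x ∈ C
    · rw [indicator_of_mem hx, ← sub_mul]
      apply mul_le_mul_of_nonneg_right _ (hθ0 x)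
      apply Fm_le
      intro v
      have h2 := le_Fm ψ x v0
      by_cases hv : v = v0
      · subst hv
        simp only [hφ, if_true]
        linarith
      · have := hx v hv
        simp only [hφ, if_neg hv]
        linarith
    · rw [indicator_of_notMem hx, mul_zero, sub_zero]
      apply mul_le_mul_of_nonneg_right _ (hθ0 x)
      apply Fm_le
      intro v
      have h2 := le_Fm ψ x v
      by_cases hv : v = v0
      · subst hv
        simp only [hφ, if_true]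
        linarith
      · simp only [hφ, if_neg hv]
        linarith
  have i1 := Fθ_int hKc hKi hθ hθ0 hθ2 φ
  have i2 := Fθ_int hKc hKi hθ hθ0 hθ2 ψ
  have i3 := (θ_int hKc hKi hθ hθ0 hθ2)
  have i4 : Integrable (fun x => ε * C.indicator θ x) (uniformProbOn K) := (i3.indicator hCm).const_mul ε
  have h2 : ∫ x, Fm φ x * θ x ∂(uniformProbOn K) ≤ (∫ x, Fm ψ x * θ x ∂(uniformProbOn K)) - ε * ∫ x in C, θ x ∂(uniformProbOn K) := by
    calc ∫ x, Fm φ x * θ x ∂(uniformProbOn K) ≤ ∫ x, (Fm ψ x * θ x - ε * C.indicator θ x) ∂(uniformProbOn K) :=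
          integral_mono i1 (i2.sub i4) hpt
      _ = _ := by rw [integral_sub i2 i4, integral_const_mul, integral_indicator hCm]
  have h3 : ∑ v : ↥V, M v * φ v = ∑ v : ↥V, M v * ψ v + ε * M v0 := by
    simp only [hφ, mul_add, Finset.sum_add_distrib, mul_ite, mul_zero, Finset.sum_ite_eq', Finset.mem_univ, if_true]
    ring
  unfold Jf at h1
  rw [h3] at h1
  have h4 : ε * ∫ x in C, θ x ∂(uniformProbOn K) ≤ ε * M v0 := by linarith
  exact le_of_mul_le_mul_left h4 hε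

lemma strict_mass_le (hKc : IsCompact K) (hKi : (interior K).Nonempty) (hθ : Measurable θ) (hθ0 : ∀ x, 0 ≤ θ x)
    (hθ2 : ∀ x, θ x ≤ 2) (ψ : ↥V → ℝ)
    (hψ : ∀ φ : ↥V → ℝ, Jf (uniformProbOn K) θ M ψ ≤ Jf (uniformProbOn K) θ M φ) (v0 : ↥V) :
    ∫ x in {x : Sp d | ∀ w : ↥V, w ≠ v0 → inner ℝ x (w : Sp d) - ψ w < inner ℝ x (v0 : Sp d) - ψ v0}, θ x
      ∂(uniformProbOn K) ≤ M v0 := by
  set s : ℕ → Set (Sp d) := fun n => {x : Sp d | ∀ w : ↥V, w ≠ v0 → inner ℝ x (w : Sp d) - ψ w + 1 / ((n:ℝ) + 1) ≤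
    inner ℝ x (v0 : Sp d) - ψ v0} with hs
  have hsm : ∀ n, MeasurableSet (s n) := fun n => cell_meas ψ v0 _
  have hmono : Monotone s := by
    intro n m hnm x hx w hw
    have h1 := hx w hw
    have h2 : 1 / ((m:ℝ) + 1) ≤ 1 / ((n:ℝ) + 1) := by
      apply one_div_le_one_div_of_le (by positivity)
      have : (n:ℝ) ≤ m := by exact_mod_cast hnm
      linarith
    linarith
  have hU : {x : Sp d | ∀ w : ↥V, w ≠ v0 → inner ℝ x (w : Sp d) - ψ w < inner ℝ x (v0 : Sp d) - ψ v0} = ⋃ n, s n := by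
    ext x
    simp only [mem_iUnion]
    constructor
    · intro hx
      -- uniform gap
      have hx' : ∀ w : ↥V, ∃ n : ℕ, w ≠ v0 → inner ℝ x (w : Sp d) - ψ w + 1 / ((n:ℝ) + 1) ≤ inner ℝ x (v0 : Sp d) - ψ v0 := by
        intro w
        by_cases hw : w = v0
        · exact ⟨0, fun h => absurd hw h⟩
        · have h1 := hx w hw
          obtain ⟨n, hn⟩ := exists_nat_one_div_lt (sub_pos.2 h1)
          exact ⟨n, fun _ => by linarith⟩
      choose N hN using hx'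
      refine ⟨Finset.univ.sup N, fun w hw => ?_⟩
      have h1 := hN w hw
      have h2 : 1 / (((Finset.univ.sup N : ℕ):ℝ) + 1) ≤ 1 / ((N w:ℝ) + 1) := by
        apply one_div_le_one_div_of_le (by positivity)
        have : (N w : ℝ) ≤ (Finset.univ.sup N : ℕ) := by exact_mod_cast Finset.le_sup (Finset.mem_univ w)
        linarith
      linarith
    · rintro ⟨n, hn⟩ w hw
      have h1 := hn w hw
      have : 0 < 1 / ((n:ℝ) + 1) := by positivity
      linarith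
  rw [hU]
  have hlim := tendsto_setIntegral_of_monotone hsm hmono
    (θ_int hKc hKi hθ hθ0 hθ2).integrableOn
  exact le_of_tendsto' hlim (fun n => cell_mass_le hKc hKi hθ hθ0 hθ2 ψ hψ v0 _ (by positivity))

end main

/-- PART L: existence of Laguerre data. -/
theorem exists_lag {d : ℕ} {K : Set (Sp d)} (hKc : IsCompact K) (hKi : (interior K).Nonempty)
    (V : Finset (Sp d)) (hV : V.Nonempty) (M : Sp d → ℝ)
    (hM : ∀ v ∈ V, 0 < M v) (hM1 : ∑ v ∈ V, M v = 1) (θ : Sp d → ℝ) (hθ : Measurable θ)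
    (hθ0 : ∀ x, 0 ≤ θ x) (hθ2 : ∀ x, θ x ≤ 2)
    (hθ1 : ∫ x, θ x ∂(uniformProbOn K) = 1) : Nonempty (Lag (uniformProbOn K) V M θ) := by
  classical
  have : Nonempty ↥V := hV.coe_sort
  obtain ⟨ψ, hψ⟩ := exists_min hKc hKi hθ hθ0 hθ2 hθ1 hM hM1
  set ψ' : Sp d → ℝ := fun v => if h : v ∈ V then ψ ⟨v, h⟩ else 0 with hψ'
  have hψv : ∀ v : ↥V, ψ' v = ψ v := fun v => by simp [hψ']
  obtain ⟨T, hT, -, hTV, hmax⟩ := exists_meas_argmax V hV ψ'
  have hle : ∀ v ∈ V, ∫ x in T ⁻¹' {v}, θ x ∂(uniformProbOn K) ≤ M v := by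
    intro v hv
    refine le_trans (le_of_eq ?_) (strict_mass_le hKc hKi hθ hθ0 hθ2 ψ hψ ⟨v, hv⟩)
    apply setIntegral_congr_set
    have hties : ∀ᵐ x ∂(uniformProbOn K), ∀ w : ↥V, w ≠ ⟨v, hv⟩ → inner ℝ x (w : Sp d) - ψ w ≠ inner ℝ x v - ψ ⟨v, hv⟩ := by
      rw [ae_all_iff]
      intro w
      by_cases hw : w = ⟨v, hv⟩
      · filter_upwards with x h
        exact absurd hw h
      · have : (w : Sp d) ≠ v := fun h => hw (Subtype.ext h)
        filter_upwards [ae_ne_ties (K := K) this (ψ w) (ψ ⟨v, hv⟩)] with x hx _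
        exact hx
    filter_upwards [hties] with x hx
    apply propext
    show T x = v ↔ ∀ w : ↥V, w ≠ ⟨v, hv⟩ → inner ℝ x (w : Sp d) - ψ w < inner ℝ x v - ψ ⟨v, hv⟩
    constructor
    · intro hTx w hw
      have h1 := hmax x w w.2
      rw [hTx, hψv w] at h1
      have h2 : ψ' v = ψ ⟨v, hv⟩ := hψv ⟨v, hv⟩
      rw [h2] at h1
      exact lt_of_le_of_ne h1 (hx w hw)
    · intro h
      by_contra hne
      have h1 := h ⟨T x, hTV x⟩ (fun h => hne (congrArg Subtype.val h))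
      have h2 := hmax x v hv
      have h3 : ψ' v = ψ ⟨v, hv⟩ := hψv ⟨v, hv⟩
      have h4 : ψ' (T x) = ψ ⟨T x, hTV x⟩ := hψv ⟨T x, hTV x⟩
      rw [h3, h4] at h2
      simp only at h1
      linarith
  have hsum : ∑ v ∈ V, ∫ x in T ⁻¹' {v}, θ x ∂(uniformProbOn K) = ∑ v ∈ V, M v := by
    rw [hM1, ← hθ1]
    have h1 : ∀ v ∈ V, ∫ x in T ⁻¹' {v}, θ x ∂(uniformProbOn K) =
        ∫ x, (T ⁻¹' {v}).indicator θ x ∂(uniformProbOn K) := by
      intro v _
      rw [integral_indicator (hT (measurableSet_singleton v))]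
    rw [Finset.sum_congr rfl h1, ← integral_finsetSum]
    · apply integral_congr_ae
      filter_upwards with x
      rw [Finset.sum_eq_single (T x)]
      · rw [indicator_of_mem]; rfl
      · intro v _ hv
        rw [indicator_of_notMem]
        intro h
        exact hv (Set.mem_singleton_iff.1 h).symm
      · intro h; exact absurd (hTV x) h
    · intro v _
      exact (θ_int hKc hKi hθ hθ0 hθ2).indicator (hT (measurableSet_singleton v))
  have heq := (Finset.sum_eq_sum_iff_of_le hle).1 hsum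
  exact ⟨⟨ψ', T, hT, hTV, hmax, heq⟩⟩

end Crest.Agent.OS109
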