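import Crest.Agent.OS109Defs

/-!
Midpoint form of the Prekopa-Leindler inequality (for S0109).
-/

set_option autoImplicit false

open MeasureTheory Set
open scoped ENNReal Pointwise

namespace Crest.Agent.OS109

/-- One dimensional Brunn-Minkowski, compact sets, midpoint form. -/
lemma bm_compact {K L C : Set ℝ} (hK : IsCompact K) (hL : IsCompact L) (hKn : K.Nonempty)
    (hLn : L.Nonempty) (hC : ∀ x ∈ K, ∀ y ∈ L, (1/2 : ℝ) * (x + y) ∈ C) :
    volume K + volume L ≤ 2 * volume C := by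
  obtain ⟨m, hm, hmle⟩ := hL.exists_isLeast hLn
  obtain ⟨M, hM, hMge⟩ := hK.exists_isGreatest hKn
  have e2 : (2 : ℝ≥0∞) * ENNReal.ofReal (1/2) = 1 := by
    rw [show (2 : ℝ≥0∞) = ENNReal.ofReal 2 by simp, ← ENNReal.ofReal_mul (by norm_num)]
    norm_num
  have key : ∀ (S : Set ℝ) (a : ℝ), 2 * volume ((fun x => (1/2 : ℝ) * (x + a)) '' S) = volume S := by
    intro S a
    have : (fun x => (1/2 : ℝ) * (x + a)) '' S = (fun x => (1/2:ℝ) * x) '' ((fun x => x + a) '' S) := by
      rw [Set.image_image]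
    rw [this]
    have h1 : (fun x => (1/2:ℝ) * x) '' ((fun x => x + a) '' S) = (1/2 : ℝ) • ((fun x => x + a) '' S) := by
      rfl
    rw [h1, Measure.addHaar_smul]
    simp only [Module.finrank_self, pow_one]
    rw [abs_of_pos (by norm_num : (0:ℝ) < 1/2), ← mul_assoc, e2, one_mul]
    rw [image_add_right, measure_preimage_add_right]
  rw [← key K m, ← key L M, ← mul_add]
  have hdisj : volume ((fun x => (1/2 : ℝ) * (x + m)) '' K ∩ (fun x => (1/2 : ℝ) * (x + M)) '' L) = 0 := by
    refine measure_mono_null (t := {(1/2 : ℝ) * (M + m)}) ?_ (by simp)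
    rintro z ⟨⟨x, hx, rfl⟩, ⟨y, hy, hxy⟩⟩
    have h1 := hMge hx
    have h2 := hmle hy
    simp only [mem_singleton_iff]
    simp only at hxy
    nlinarith
  have hmeas : MeasurableSet ((fun x => (1/2 : ℝ) * (x + M)) '' L) :=
    (hL.image (by fun_prop)).measurableSet
  have hun := measure_union_add_inter ((fun x => (1/2 : ℝ) * (x + m)) '' K) hmeas (μ := volume)
  rw [hdisj, add_zero] at hun
  rw [← hun]
  gcongr
  rintro z (⟨x, hx, rfl⟩ | ⟨y, hy, rfl⟩)
  · exact hC x hx m hm
  · have := hC M hM y hy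
    simp only
    rw [add_comm]
    exact this

/-- One dimensional Brunn-Minkowski, measurable nonempty sets, midpoint form. -/
lemma bm_meas {A B C : Set ℝ} (hA : MeasurableSet A) (hB : MeasurableSet B) (hAn : A.Nonempty)
    (hBn : B.Nonempty) (hC : ∀ x ∈ A, ∀ y ∈ B, (1/2 : ℝ) * (x + y) ∈ C) :
    volume A + volume B ≤ 2 * volume C := by
  obtain ⟨a, ha⟩ := hAn
  obtain ⟨b, hb⟩ := hBn
  have main : ∀ K ⊆ A, IsCompact K → ∀ L ⊆ B, IsCompact L →
      volume K + volume L ≤ 2 * volume C := by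
    intro K hKA hK L hLB hL
    have := bm_compact (K := insert a K) (L := insert b L) (C := C) (hK.insert a) (hL.insert b)
      (insert_nonempty _ _) (insert_nonempty _ _) (by
        intro x hx y hy
        refine hC x ?_ y ?_
        · rcases hx with rfl | hx
          · exact ha
          · exact hKA hx
        · rcases hy with rfl | hy
          · exact hb
          · exact hLB hy)
    refine le_trans ?_ this
    gcongr
    · exact subset_insert _ _
    · exact subset_insert _ _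
  have hnull : ∀ (K A : Set ℝ), ¬ (K ⊆ A ∧ IsCompact K) →
      (⨆ (_ : K ⊆ A), ⨆ (_ : IsCompact K), volume K) = 0 := by
    intro K A h
    by_cases h1 : K ⊆ A
    · have h2 : ¬ IsCompact K := fun h2 => h ⟨h1, h2⟩
      simp [h1, h2]
    · simp [h1]
  rw [hA.measure_eq_iSup_isCompact, hB.measure_eq_iSup_isCompact]
  refine ENNReal.iSup_add_iSup_le fun K L => ?_
  by_cases h1 : K ⊆ A ∧ IsCompact K
  · by_cases h2 : L ⊆ B ∧ IsCompact L
    · simp only [h1.1, h1.2, h2.1, h2.2, iSup_true]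
      exact main K h1.1 h1.2 L h2.1 h2.2
    · rw [hnull L B h2, add_zero]
      simp only [h1.1, h1.2, iSup_true]
      have := main K h1.1 h1.2 ∅ (empty_subset _) isCompact_empty
      simpa using this
  · rw [hnull K A h1, zero_add]
    refine iSup_le fun h3 => iSup_le fun h4 => ?_
    have := main ∅ (empty_subset _) isCompact_empty L h3 h4
    simpa using this

/-- AM-GM in `ℝ≥0∞`. -/
lemma amgm {x y z : ℝ≥0∞} (h : x + y ≤ 2 * z) : x * y ≤ z ^ 2 := by
  rcases eq_or_ne z ⊤ with rfl | hz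
  · simp
  have h2 : 2 * z ≠ ⊤ := ENNReal.mul_ne_top (by simp) hz
  have hx : x ≠ ⊤ := ne_top_of_le_ne_top h2 (le_trans le_self_add h)
  have hy : y ≠ ⊤ := ne_top_of_le_ne_top h2 (le_trans le_add_self h)
  lift x to NNReal using hx
  lift y to NNReal using hy
  lift z to NNReal using hz
  norm_cast at h ⊢
  have h' : (x : ℝ) + y ≤ 2 * z := by exact_mod_cast h
  have : (x : ℝ) * y ≤ z ^ 2 := by
    nlinarith [sq_nonneg ((x : ℝ) - y), x.2, y.2, z.2, NNReal.coe_nonneg x, NNReal.coe_nonneg y]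
  exact_mod_cast this

lemma pl_core {f g h : ℝ → ℝ} (hf : Measurable f) (hg : Measurable g) (hh : Measurable h)
    (hf0 : ∀ x, 0 ≤ f x) (hg0 : ∀ x, 0 ≤ g x) (hh0 : ∀ x, 0 ≤ h x)
    (hf1 : ∀ x, f x ≤ 1) (hg1 : ∀ x, g x ≤ 1)
    (hfs : ∀ t < 1, ∃ x, t < f x) (hgs : ∀ t < 1, ∃ x, t < g x)
    (H : ∀ x y, f x * g y ≤ h ((1/2 : ℝ) * (x + y)) ^ 2) :
    (∫⁻ x, ENNReal.ofReal (f x)) + (∫⁻ x, ENNReal.ofReal (g x)) ≤
      2 * ∫⁻ x, ENNReal.ofReal (h x) := by
  have hm : ∀ u : ℝ → ℝ, Measurable (fun t => volume {a : ℝ | t < u a}) := by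
    intro u
    exact (Antitone.measurable fun s t hst => measure_mono fun a ha => lt_of_le_of_lt hst ha)
  have h1 : ∀ u : ℝ → ℝ, (∀ x, u x ≤ 1) → ∫⁻ t in Ioi (0:ℝ), volume {a : ℝ | t < u a} =
      ∫⁻ t in Ioo (0:ℝ) 1, volume {a : ℝ | t < u a} := by
    intro u hu
    rw [← Ioo_union_Ici_eq_Ioi (zero_lt_one (α := ℝ)),
      lintegral_union measurableSet_Ici (by
        rw [Set.disjoint_left]; intro x hx hx'; exact absurd hx.2 (not_lt.2 hx'))]
    have : ∫⁻ t in Ici (1:ℝ), volume {a : ℝ | t < u a} = 0 := by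
      rw [lintegral_eq_zero_iff (hm u)]
      filter_upwards [ae_restrict_mem measurableSet_Ici] with t ht
      have : {a : ℝ | t < u a} = ∅ := by
        ext a
        simp only [mem_ofPred_eq, mem_empty_iff_false, iff_false, not_lt]
        exact (hu a).trans ht
      rw [this]; simp
    rw [this, add_zero]
  rw [lintegral_eq_lintegral_meas_lt _ (Filter.Eventually.of_forall hf0) hf.aemeasurable,
    lintegral_eq_lintegral_meas_lt _ (Filter.Eventually.of_forall hg0) hg.aemeasurable,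
    lintegral_eq_lintegral_meas_lt _ (Filter.Eventually.of_forall hh0) hh.aemeasurable,
    h1 f hf1, h1 g hg1, ← lintegral_add_left (hm f), ← lintegral_const_mul _ (hm h)]
  refine le_trans ?_ (lintegral_mono_set (s := Ioo (0:ℝ) 1) Ioo_subset_Ioi_self)
  refine setLIntegral_mono' measurableSet_Ioo fun t ht => ?_
  refine bm_meas (measurableSet_lt measurable_const hf) (measurableSet_lt measurable_const hg)
    (hfs t ht.2) (hgs t ht.2) fun x hx y hy => ?_
  have hx' : t < f x := hx
  have hy' : t < g y := hy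
  change t < h _
  have h2 : t * t < h ((1/2 : ℝ) * (x + y)) ^ 2 := by
    refine lt_of_lt_of_le ?_ (H x y)
    exact mul_lt_mul'' hx' hy' ht.1.le ht.1.le
  have h3 := hh0 ((1/2 : ℝ) * (x + y))
  have h4 := ht.1
  nlinarith

/-- Prekopa-Leindler on the line, bounded functions. -/
lemma pl_one_bdd {F G H : ℝ → ℝ≥0∞} (hF : Measurable F) (hG : Measurable G) (hH : Measurable H)
    (N : ℝ≥0∞) (hN : N ≠ ⊤) (hFN : ∀ x, F x ≤ N) (hGN : ∀ x, G x ≤ N) (hHN : ∀ x, H x ≤ N)
    (h : ∀ x y, F x * G y ≤ H ((1/2 : ℝ) * (x + y)) ^ 2) :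
    (∫⁻ x, F x) * (∫⁻ x, G x) ≤ (∫⁻ x, H x) ^ 2 := by
  set a := ⨆ x, F x with ha
  set b := ⨆ x, G x with hb
  have haN : a ≤ N := iSup_le hFN
  have hbN : b ≤ N := iSup_le hGN
  have haT : a ≠ ⊤ := ne_top_of_le_ne_top hN haN
  have hbT : b ≠ ⊤ := ne_top_of_le_ne_top hN hbN
  rcases eq_or_ne a 0 with ha0 | ha0
  · have : F = fun _ => 0 := by
      funext x
      have : F x ≤ a := le_iSup F x
      rw [ha0] at this
      exact le_antisymm this bot_le
    rw [this]; simp
  rcases eq_or_ne b 0 with hb0 | hb0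
  · have : G = fun _ => 0 := by
      funext x
      have : G x ≤ b := le_iSup G x
      rw [hb0] at this
      exact le_antisymm this bot_le
    rw [this]; simp
  set α := a.toReal with hα
  set β := b.toReal with hβ
  have hα0 : 0 < α := ENNReal.toReal_pos ha0 haT
  have hβ0 : 0 < β := ENNReal.toReal_pos hb0 hbT
  set γ := Real.sqrt (α * β) with hγ
  have hγ0 : 0 < γ := Real.sqrt_pos.2 (mul_pos hα0 hβ0)
  have hγ2 : γ ^ 2 = α * β := Real.sq_sqrt (mul_pos hα0 hβ0).le
  have hFT : ∀ x, F x ≠ ⊤ := fun x => ne_top_of_le_ne_top hN (hFN x)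
  have hGT : ∀ x, G x ≠ ⊤ := fun x => ne_top_of_le_ne_top hN (hGN x)
  have hHT : ∀ x, H x ≠ ⊤ := fun x => ne_top_of_le_ne_top hN (hHN x)
  have hcore := pl_core (f := fun x => (F x).toReal / α) (g := fun x => (G x).toReal / β)
    (h := fun x => (H x).toReal / γ) (by fun_prop) (by fun_prop) (by fun_prop)
    (fun x => by positivity) (fun x => by positivity) (fun x => by positivity)
    (fun x => by
      rw [div_le_one hα0]
      exact ENNReal.toReal_mono haT (le_iSup F x))
    (fun x => by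
      rw [div_le_one hβ0]
      exact ENNReal.toReal_mono hbT (le_iSup G x))
    (fun t ht => by
      have h1 : ENNReal.ofReal (t * α) < a := by
        rw [← ENNReal.ofReal_toReal haT]
        rw [ENNReal.ofReal_lt_ofReal_iff hα0]
        nlinarith
      obtain ⟨x, hx⟩ := lt_iSup_iff.1 h1
      refine ⟨x, ?_⟩
      rw [lt_div_iff₀ hα0]
      by_contra hcon
      push Not at hcon
      exact absurd hx (not_lt.2 (by
        rw [← ENNReal.ofReal_toReal (hFT x)]; exact ENNReal.ofReal_le_ofReal hcon)))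
    (fun t ht => by
      have h1 : ENNReal.ofReal (t * β) < b := by
        rw [← ENNReal.ofReal_toReal hbT]
        rw [ENNReal.ofReal_lt_ofReal_iff hβ0]
        nlinarith
      obtain ⟨x, hx⟩ := lt_iSup_iff.1 h1
      refine ⟨x, ?_⟩
      rw [lt_div_iff₀ hβ0]
      by_contra hcon
      push Not at hcon
      exact absurd hx (not_lt.2 (by
        rw [← ENNReal.ofReal_toReal (hGT x)]; exact ENNReal.ofReal_le_ofReal hcon)))
    (fun x y => by
      have h1 := h x y
      have h2 : (F x).toReal * (G y).toReal ≤ (H ((1/2 : ℝ) * (x + y))).toReal ^ 2 := by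
        rw [← ENNReal.toReal_mul, ← ENNReal.toReal_pow]
        exact ENNReal.toReal_mono (ENNReal.pow_ne_top (hHT _)) h1
      rw [div_pow, hγ2, div_mul_div_comm]
      gcongr)
  have key : ∀ (K : ℝ → ℝ≥0∞) (c : ℝ), 0 < c → (∀ x, K x ≠ ⊤) → Measurable K →
      ∫⁻ x, K x = ENNReal.ofReal c * ∫⁻ x, ENNReal.ofReal ((K x).toReal / c) := by
    intro K c hc hK hKm
    rw [← lintegral_const_mul _ (by fun_prop)]
    refine lintegral_congr fun x => ?_
    rw [← ENNReal.ofReal_mul hc.le, mul_div_cancel₀ _ hc.ne', ENNReal.ofReal_toReal (hK x)]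
  rw [key F α hα0 hFT hF, key G β hβ0 hGT hG, key H γ hγ0 hHT hH]
  have h3 := amgm hcore
  calc _ = (ENNReal.ofReal α * ENNReal.ofReal β) *
        ((∫⁻ x, ENNReal.ofReal ((F x).toReal / α)) * ∫⁻ x, ENNReal.ofReal ((G x).toReal / β)) := by
        ring
    _ ≤ (ENNReal.ofReal α * ENNReal.ofReal β) * (∫⁻ x, ENNReal.ofReal ((H x).toReal / γ)) ^ 2 := by
        gcongr
    _ = _ := by
        rw [mul_pow, ← ENNReal.ofReal_mul hα0.le, ← hγ2, ENNReal.ofReal_pow hγ0.le]

/-- Truncation: general from bounded, on any measure space. -/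
lemma trunc_lintegral {X : Type*} [MeasurableSpace X] (μ : Measure X) {F : X → ℝ≥0∞}
    (hF : Measurable F) : ∫⁻ x, F x ∂μ = ⨆ n : ℕ, ∫⁻ x, min (F x) n ∂μ := by
  rw [← lintegral_iSup (fun n => by fun_prop)]
  · refine lintegral_congr fun x => ?_
    have : ⨆ n : ℕ, (F x) ⊓ (n : ℝ≥0∞) = F x := by
      rw [← inf_iSup_eq, ENNReal.iSup_natCast, inf_top_eq]
    exact this.symm
  · intro m n hmn x
    simp only
    gcongr

/-- Prekopa-Leindler on the line. -/
lemma pl_one {F G H : ℝ → ℝ≥0∞} (hF : Measurable F) (hG : Measurable G) (hH : Measurable H)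
    (h : ∀ x y, F x * G y ≤ H ((1/2 : ℝ) * (x + y)) ^ 2) :
    (∫⁻ x, F x) * (∫⁻ x, G x) ≤ (∫⁻ x, H x) ^ 2 := by
  rw [trunc_lintegral volume hF, trunc_lintegral volume hG]
  have hb : ∀ n : ℕ, (∫⁻ x, min (F x) n) * (∫⁻ x, min (G x) n) ≤ (∫⁻ x, H x) ^ 2 := by
    intro n
    refine le_trans (pl_one_bdd (F := fun x => min (F x) n) (G := fun x => min (G x) n)
      (H := fun x => min (H x) n) (by fun_prop) (by fun_prop) (by fun_prop) n (by simp)
      (fun x => min_le_right _ _) (fun x => min_le_right _ _) (fun x => min_le_right _ _) ?_) ?_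
    · intro x y
      rcases le_total (H ((1/2 : ℝ) * (x + y))) n with h1 | h1
      · rw [min_eq_left h1]
        refine le_trans ?_ (h x y)
        gcongr <;> exact min_le_left _ _
      · rw [min_eq_right h1, pow_two]
        gcongr <;> exact min_le_right _ _
    · gcongr
      exact min_le_left _ _
  rw [ENNReal.iSup_mul]
  refine iSup_le fun m => ?_
  rw [ENNReal.mul_iSup]
  refine iSup_le fun n => ?_
  refine le_trans ?_ (hb (max m n))
  gcongr
  · exact le_max_left _ _
  · exact le_max_right _ _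

/-- Prekopa-Leindler on `Fin n → ℝ`. -/
lemma pl_pi (n : ℕ) : ∀ {F G H : (Fin n → ℝ) → ℝ≥0∞}, Measurable F → Measurable G →
    Measurable H → (∀ x y, F x * G y ≤ H ((1/2 : ℝ) • (x + y)) ^ 2) →
    (∫⁻ x, F x) * (∫⁻ x, G x) ≤ (∫⁻ x, H x) ^ 2 := by
  induction n with
  | zero =>
    intro F G H hF hG hH h
    have hv : (volume : Measure (Fin 0 → ℝ)) univ = 1 := by
      rw [← Set.pi_univ, volume_pi_pi]; simp
    rw [lintegral_unique, lintegral_unique, lintegral_unique, hv, mul_one, mul_one, mul_one]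
    have := h default default
    have e : (1/2 : ℝ) • ((default : Fin 0 → ℝ) + default) = default := Subsingleton.elim _ _
    rw [e] at this
    convert this using 2 <;> exact congrArg _ (Subsingleton.elim _ _)
  | succ n ih =>
    intro F G H hF hG hH h
    set e := MeasurableEquiv.piFinSuccAbove (fun _ : Fin (n+1) => ℝ) 0 with he
    have hmp : MeasurePreserving e := volume_preserving_piFinSuccAbove (fun _ : Fin (n+1) => ℝ) 0
    have hint : ∀ K : (Fin (n+1) → ℝ) → ℝ≥0∞, Measurable K →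
        ∫⁻ x, K x = ∫⁻ s : ℝ, ∫⁻ x : Fin n → ℝ, K (e.symm (s, x)) := by
      intro K hK
      rw [← (hmp.symm e).lintegral_comp hK]
      exact lintegral_prod _ (hK.comp e.symm.measurable).aemeasurable
    have hmeas : ∀ K : (Fin (n+1) → ℝ) → ℝ≥0∞, Measurable K →
        Measurable fun s : ℝ => ∫⁻ x : Fin n → ℝ, K (e.symm (s, x)) := by
      intro K hK
      exact (hK.comp e.symm.measurable).lintegral_prod_right'
    rw [hint F hF, hint G hG, hint H hH]
    refine pl_one (hmeas F hF) (hmeas G hG) (hmeas H hH) fun s t => ?_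
    refine ih (hF.comp (e.symm.measurable.comp measurable_prodMk_left))
      (hG.comp (e.symm.measurable.comp measurable_prodMk_left))
      (hH.comp (e.symm.measurable.comp measurable_prodMk_left)) fun x y => ?_
    have h1 := h (e.symm (s, x)) (e.symm (t, y))
    have h2 : (1/2 : ℝ) • (e.symm (s, x) + e.symm (t, y)) =
        e.symm ((1/2 : ℝ) * (s + t), (1/2 : ℝ) • (x + y)) := by
      funext i
      refine Fin.cases ?_ (fun j => ?_) i
      · simp [he, MeasurableEquiv.piFinSuccAbove]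
      · simp [he, MeasurableEquiv.piFinSuccAbove]
        ring
    rwa [h2] at h1

/-- Prekopa-Leindler inequality, midpoint form. -/
theorem prekopa_half (d : ℕ) (F G H : Sp d → ℝ≥0∞) (hF : Measurable F) (hG : Measurable G)
    (hH : Measurable H) (h : ∀ x y, F x * G y ≤ H ((1/2 : ℝ) • (x + y)) ^ 2) :
    (∫⁻ x, F x) * (∫⁻ x, G x) ≤ (∫⁻ x, H x) ^ 2 := by
  have hmp : MeasurePreserving (MeasurableEquiv.toLp 2 (Fin d → ℝ)) :=
    (EuclideanSpace.volume_preserving_symm_measurableEquiv_toLp (Fin d)).symm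
  rw [← hmp.lintegral_comp hF, ← hmp.lintegral_comp hG, ← hmp.lintegral_comp hH]
  refine pl_pi d (hF.comp (MeasurableEquiv.measurable _)) (hG.comp (MeasurableEquiv.measurable _))
    (hH.comp (MeasurableEquiv.measurable _)) fun x y => ?_
  exact h _ _

end Crest.Agent.OS109
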