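import Mathlib
import Crest.Prelude.Def_QuadraticTransport
import Crest.Agent.OS109Defs
import Crest.Agent.OS109Lag

/-!
Continuity of the Laguerre potential in the source density: S0109, part U.
-/

set_option autoImplicit false

open MeasureTheory Set
open scoped ENNReal RealInnerProductSpace
open Crest.AnalysisR.OT

namespace Crest.Agent.OS109

section

variable {d : ℕ} {V : Finset (Sp d)} [Nonempty ↥V] {K : Set (Sp d)} {θ : Sp d → ℝ} {M : Sp d → ℝ}
  {ρ : Measure (Sp d)}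

lemma Lag.f_eq_Fm (L : Lag ρ V M θ) (x : Sp d) : L.f x = Fm (fun v : ↥V => L.ψ v) x := by
  apply le_antisymm
  · exact le_Fm (fun v : ↥V => L.ψ v) x ⟨L.T x, L.T_mem x⟩
  · exact Fm_le _ _ _ (fun v => L.T_max x v v.2)

lemma Lag.sum_mass (L : Lag ρ V M θ) (hθ : Integrable θ ρ) (φ : ↥V → ℝ) :
    ∑ v : ↥V, M v * φ v = ∫ x, φ ⟨L.T x, L.T_mem x⟩ * θ x ∂ρ := by
  classical
  have h1 : ∀ v : ↥V, M v * φ v = ∫ x, φ v * (L.T ⁻¹' {(v : Sp d)}).indicator θ x ∂ρ := by
    intro v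
    rw [integral_const_mul, integral_indicator (L.meas_T (measurableSet_singleton _)), L.mass v v.2, mul_comm]
  rw [Finset.sum_congr rfl (fun v _ => h1 v), ← integral_finsetSum]
  · apply integral_congr_ae
    filter_upwards with x
    rw [Finset.sum_eq_single ⟨L.T x, L.T_mem x⟩]
    · rw [indicator_of_mem]; rfl
    · intro v _ hv
      rw [indicator_of_notMem, mul_zero]
      intro h
      exact hv (Subtype.ext (Set.mem_singleton_iff.1 h).symm)
    · intro h; exact absurd (Finset.mem_univ _) h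
  · intro v _
    exact (hθ.indicator (L.meas_T (measurableSet_singleton _))).const_mul _

lemma Lag.sum_mass_int (L : Lag ρ V M θ) (hθ : Integrable θ ρ) (φ : ↥V → ℝ) :
    Integrable (fun x => φ ⟨L.T x, L.T_mem x⟩ * θ x) ρ := by
  classical
  have h1 : (fun x => φ ⟨L.T x, L.T_mem x⟩ * θ x) =
      fun x => ∑ v : ↥V, φ v * (L.T ⁻¹' {(v : Sp d)}).indicator θ x := by
    ext x
    rw [Finset.sum_eq_single ⟨L.T x, L.T_mem x⟩]
    · rw [indicator_of_mem]; rfl
    · intro v _ hv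
      rw [indicator_of_notMem, mul_zero]
      intro h
      exact hv (Subtype.ext (Set.mem_singleton_iff.1 h).symm)
    · intro h; exact absurd (Finset.mem_univ _) h
  rw [h1]
  apply integrable_finsetSum
  intro v _
  exact (hθ.indicator (L.meas_T (measurableSet_singleton _))).const_mul _

lemma Lag.J_eq (hKc : IsCompact K) (hKi : (interior K).Nonempty) (hθ : Measurable θ) (hθ0 : ∀ x, 0 ≤ θ x)
    (hθ2 : ∀ x, θ x ≤ 2) (L : Lag (uniformProbOn K) V M θ) (φ : ↥V → ℝ) :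
    Jf (uniformProbOn K) θ M φ = ∫ x, (Fm φ x + φ ⟨L.T x, L.T_mem x⟩) * θ x ∂(uniformProbOn K) := by
  unfold Jf
  rw [L.sum_mass (θ_int hKc hKi hθ hθ0 hθ2) φ, ← integral_add (Fθ_int hKc hKi hθ hθ0 hθ2 φ)
    (L.sum_mass_int (θ_int hKc hKi hθ hθ0 hθ2) φ)]
  congr 1
  ext x
  ring

lemma Lag.J_int (hKc : IsCompact K) (hKi : (interior K).Nonempty) (hθ : Measurable θ) (hθ0 : ∀ x, 0 ≤ θ x)
    (hθ2 : ∀ x, θ x ≤ 2) (L : Lag (uniformProbOn K) V M θ) (φ : ↥V → ℝ) :
    Integrable (fun x => (Fm φ x + φ ⟨L.T x, L.T_mem x⟩) * θ x) (uniformProbOn K) := by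
  have := (Fθ_int hKc hKi hθ hθ0 hθ2 φ).add (L.sum_mass_int (θ_int hKc hKi hθ hθ0 hθ2) φ)
  refine this.congr ?_
  filter_upwards with x
  simp only [Pi.add_apply]
  ring

/-- the potential of a Laguerre datum minimises the dual functional -/
lemma Lag.J_min (hKc : IsCompact K) (hKi : (interior K).Nonempty) (hθ : Measurable θ) (hθ0 : ∀ x, 0 ≤ θ x)
    (hθ2 : ∀ x, θ x ≤ 2) (L : Lag (uniformProbOn K) V M θ) (φ : ↥V → ℝ) :
    Jf (uniformProbOn K) θ M (fun v : ↥V => L.ψ v) ≤ Jf (uniformProbOn K) θ M φ := by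
  rw [L.J_eq hKc hKi hθ hθ0 hθ2, L.J_eq hKc hKi hθ hθ0 hθ2]
  apply integral_mono (L.J_int hKc hKi hθ hθ0 hθ2 _) (L.J_int hKc hKi hθ hθ0 hθ2 _)
  intro x
  apply mul_le_mul_of_nonneg_right _ (hθ0 x)
  rw [← L.f_eq_Fm]
  have h1 := le_Fm φ x ⟨L.T x, L.T_mem x⟩
  unfold Lag.f
  simp only at h1 ⊢
  linarith

lemma Fm_cont (ψ : ↥V → ℝ) : Continuous (Fm ψ) := by
  unfold Fm
  exact Continuous.finset_sup'_apply _ (fun v _ => by fun_prop)

/-- uniqueness of minimisers for the density 1, tested against mean-zero functions -/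
lemma min_unique (hKc : IsCompact K) (hKv : Convex ℝ K) (hKi : (interior K).Nonempty)
    (L0 : Lag (uniformProbOn K) V M (fun _ => 1)) (ψ : ↥V → ℝ)
    (hψ : Jf (uniformProbOn K) (fun _ => 1) M ψ ≤ Jf (uniformProbOn K) (fun _ => 1) M (fun v : ↥V => L0.ψ v)) :
    ∃ c : ℝ, ∀ x ∈ K, Fm ψ x - L0.f x = c := by
  classical
  have hprob := isProb_ρ hKc hKi
  -- a.e. equality
  have hae : ∀ᵐ x ∂(uniformProbOn K), Fm ψ x - L0.f x = L0.ψ (L0.T x) - ψ ⟨L0.T x, L0.T_mem x⟩ := by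
    rw [L0.J_eq hKc hKi measurable_const (fun _ => zero_le_one) (fun _ => one_le_two),
      L0.J_eq hKc hKi measurable_const (fun _ => zero_le_one) (fun _ => one_le_two)] at hψ
    have i1 := L0.J_int hKc hKi measurable_const (fun _ => zero_le_one) (fun _ => one_le_two) ψ
    have i2 := L0.J_int hKc hKi measurable_const (fun _ => zero_le_one) (fun _ => one_le_two) (fun v : ↥V => L0.ψ v)
    have hpt : ∀ x, (Fm (fun v : ↥V => L0.ψ v) x + L0.ψ (L0.T x)) * 1 ≤ (Fm ψ x + ψ ⟨L0.T x, L0.T_mem x⟩) * 1 := by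
      intro x
      rw [← L0.f_eq_Fm]
      have h1 := le_Fm ψ x ⟨L0.T x, L0.T_mem x⟩
      unfold Lag.f
      simp only at h1 ⊢
      linarith
    have h0 : 0 ≤ᵐ[uniformProbOn K] fun x => (Fm ψ x + ψ ⟨L0.T x, L0.T_mem x⟩) * 1 - (Fm (fun v : ↥V => L0.ψ v) x + L0.ψ (L0.T x)) * 1 := by
      filter_upwards with x
      exact sub_nonneg.2 (hpt x)
    have h2 : ∫ x, ((Fm ψ x + ψ ⟨L0.T x, L0.T_mem x⟩) * 1 - (Fm (fun v : ↥V => L0.ψ v) x + L0.ψ (L0.T x)) * 1) ∂(uniformProbOn K) = 0 := by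
      apply le_antisymm _ (integral_nonneg_of_ae h0)
      rw [integral_sub i1 i2]
      linarith
    rw [integral_eq_zero_iff_of_nonneg_ae h0 (i1.sub i2)] at h2
    filter_upwards [h2] with x hx
    simp only [Pi.zero_apply, mul_one] at hx
    rw [L0.f_eq_Fm]
    linarith
  set u : Sp d → ℝ := fun x => Fm ψ x - L0.f x with hu
  have hucont : Continuous u := by
    have : u = fun x => Fm ψ x - Fm (fun v : ↥V => L0.ψ v) x := by
      ext x; rw [hu]; simp only [L0.f_eq_Fm]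
    rw [this]
    exact (Fm_cont _).sub (Fm_cont _)
  set Φ : Finset ℝ := Finset.univ.image (fun v : ↥V => L0.ψ v - ψ v) with hΦ
  have haeΦ : ∀ᵐ x ∂(uniformProbOn K), u x ∈ (Φ : Set ℝ) := by
    filter_upwards [hae] with x hx
    rw [hu]
    simp only
    rw [hx, hΦ]
    simp only [Finset.coe_image, Finset.coe_univ, image_univ, mem_range]
    exact ⟨⟨L0.T x, L0.T_mem x⟩, rfl⟩
  -- on the interior
  have hint : ∀ x ∈ interior K, u x ∈ (Φ : Set ℝ) := by
    intro x hx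
    by_contra hcon
    set O : Set (Sp d) := interior K ∩ u ⁻¹' (Φ : Set ℝ)ᶜ with hO
    have hOo : IsOpen O := isOpen_interior.inter ((Finset.finite_toSet Φ).isClosed.isOpen_compl.preimage hucont)
    have hOne : O.Nonempty := ⟨x, hx, hcon⟩
    have hpos : 0 < volume O := hOo.measure_pos volume hOne
    have hzero : uniformProbOn K O = 0 := by
      rw [ae_iff] at haeΦ
      refine measure_mono_null ?_ haeΦ
      intro y hy
      exact hy.2
    unfold uniformProbOn at hzero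
    rw [Measure.smul_apply, Measure.restrict_apply hOo.measurableSet, smul_eq_mul, mul_eq_zero] at hzero
    rcases hzero with h | h
    · exact (ENNReal.inv_ne_zero.2 hKc.measure_lt_top.ne) h
    · rw [inter_eq_left.2 (inter_subset_left.trans interior_subset)] at h
      exact hpos.ne' h
  have hconst : (u '' interior K).Subsingleton := by
    have hpre : IsPreconnected (u '' interior K) :=
      (hKv.interior.isPreconnected).image u hucont.continuousOn
    have hfin : (u '' interior K).Finite := (Finset.finite_toSet Φ).subset (by rintro _ ⟨x, hx, rfl⟩; exact hint x hx)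
    exact hfin.countable.isTotallyDisconnected _ Subset.rfl hpre
  obtain ⟨x0, hx0⟩ := hKi
  refine ⟨u x0, fun x hx => ?_⟩
  have hcl : x ∈ closure (interior K) := by
    rw [hKv.closure_interior_eq_closure_of_nonempty_interior ⟨x0, hx0⟩]
    exact subset_closure hx
  have hclosed : IsClosed {y | u y = u x0} := isClosed_eq hucont continuous_const
  have hsub : interior K ⊆ {y | u y = u x0} := fun y hy => hconst (mem_image_of_mem u hy) (mem_image_of_mem u hx0)
  exact (hclosed.closure_subset_iff.2 hsub) hcl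

lemma J_zero_le {R L : ℝ} (hKc : IsCompact K) (hKi : (interior K).Nonempty) (hθ : Measurable θ) (hθ0 : ∀ x, 0 ≤ θ x)
    (hθ2 : ∀ x, θ x ≤ 2) (hθ1 : ∫ x, θ x ∂(uniformProbOn K) = 1)
    (hR0 : 0 ≤ R) (hR : ∀ x ∈ K, ‖x‖ ≤ R) (hL : ∀ v ∈ V, ‖v‖ ≤ L) :
    Jf (uniformProbOn K) θ M (fun _ : ↥V => (0:ℝ)) ≤ R * L := by
  unfold Jf
  simp only [mul_zero, Finset.sum_const_zero, add_zero]
  calc ∫ x, Fm (fun _ : ↥V => (0:ℝ)) x * θ x ∂(uniformProbOn K) ≤ ∫ x, (R * L) * θ x ∂(uniformProbOn K) := by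
        apply integral_mono_ae (Fθ_int hKc hKi hθ hθ0 hθ2 _) ((θ_int hKc hKi hθ hθ0 hθ2).const_mul _)
        filter_upwards [ae_mem_K hKc] with x hx
        apply mul_le_mul_of_nonneg_right _ (hθ0 x)
        apply Fm_le
        intro v
        rw [sub_zero]
        exact (real_inner_le_norm _ _).trans (mul_le_mul (hR x hx) (hL v v.2) (norm_nonneg _) hR0)
    _ = R * L := by rw [integral_const_mul, hθ1, mul_one]

/-- near-minimisers that are normalised are bounded -/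
lemma box_of_le {R L μ0 : ℝ} (hKc : IsCompact K) (hKi : (interior K).Nonempty) (hθ : Measurable θ) (hθ0 : ∀ x, 0 ≤ θ x)
    (hθ2 : ∀ x, θ x ≤ 2) (hθ1 : ∫ x, θ x ∂(uniformProbOn K) = 1)
    (hR0 : 0 ≤ R) (hR : ∀ x ∈ K, ‖x‖ ≤ R) (hL0 : 0 ≤ L) (hL : ∀ v ∈ V, ‖v‖ ≤ L)
    (hM : ∀ v ∈ V, 0 < M v) (hμ0 : 0 < μ0) (hμ : ∀ v : ↥V, μ0 ≤ M v)
    (φ : ↥V → ℝ) (hφ : Jf (uniformProbOn K) θ M φ ≤ R * L) (v0 : ↥V) (hv0 : φ v0 = 0) (hpos : ∀ v, 0 ≤ φ v) :
    φ ∈ Set.pi univ (fun _ : ↥V => Icc (0:ℝ) (2 * (R * L) / μ0)) := by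
  intro v1 _
  refine ⟨hpos v1, ?_⟩
  have h2 : -(R * L) ≤ ∫ x, Fm φ x * θ x ∂(uniformProbOn K) := by
    calc -(R * L) = ∫ x, (-(R * L)) * θ x ∂(uniformProbOn K) := by rw [integral_const_mul, hθ1, mul_one]
      _ ≤ _ := by
        apply integral_mono_ae ((θ_int hKc hKi hθ hθ0 hθ2).const_mul _) (Fθ_int hKc hKi hθ hθ0 hθ2 _)
        filter_upwards [ae_mem_K hKc] with x hx
        apply mul_le_mul_of_nonneg_right _ (hθ0 x)
        have h3 := le_Fm φ x v0
        have h4 : |inner ℝ x (v0 : Sp d)| ≤ R * L :=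
          (abs_real_inner_le_norm _ _).trans (mul_le_mul (hR x hx) (hL v0 v0.2) (norm_nonneg _) hR0)
        have := (abs_le.1 h4).1
        rw [hv0, sub_zero] at h3
        linarith
  have h3 : μ0 * φ v1 ≤ ∑ v : ↥V, M v * φ v := by
    calc μ0 * φ v1 ≤ M v1 * φ v1 := mul_le_mul_of_nonneg_right (hμ v1) (hpos v1)
      _ ≤ _ := Finset.single_le_sum (f := fun v : ↥V => M v * φ v)
            (fun v _ => mul_nonneg (hM v v.2).le (hpos v)) (Finset.mem_univ v1)
  unfold Jf at hφ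
  rw [le_div_iff₀ hμ0]
  linarith

end

/-- PART U -/
theorem lag_cont {d : ℕ} {K : Set (Sp d)} (hKc : IsCompact K) (hKv : Convex ℝ K) (hKi : (interior K).Nonempty)
    (V : Finset (Sp d)) (hV : V.Nonempty) (M : Sp d → ℝ)
    (hM : ∀ v ∈ V, 0 < M v) (hM1 : ∑ v ∈ V, M v = 1) (L0 : Lag (uniformProbOn K) V M (fun _ => 1))
    (h : Sp d → ℝ) (hh : Measurable h) (hb : ∀ x, |h x| ≤ 1) (h0 : ∫ x, h x ∂(uniformProbOn K) = 0)
    (ε : ℝ) (hε : 0 < ε) :
    ∃ τ₀ : ℝ, 0 < τ₀ ∧ ∀ τ : ℝ, 0 < τ → τ < τ₀ → ∀ Lτ : Lag (uniformProbOn K) V M (fun x => 1 + τ * h x),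
      |∫ x, (Lτ.f x - L0.f x) * h x ∂(uniformProbOn K)| < ε := by
  classical
  have hne : Nonempty ↥V := hV.coe_sort
  have hprob := isProb_ρ hKc hKi
  obtain ⟨R, hR0, hR⟩ := exists_bound hKc
  obtain ⟨L, hL0, hL⟩ : ∃ L : ℝ, 0 ≤ L ∧ ∀ v ∈ V, ‖v‖ ≤ L := by
    obtain ⟨B, hB⟩ := (V.image (fun v => ‖v‖)).bddAbove
    exact ⟨max B 0, le_max_right _ _, fun v hv => (hB (by simpa using ⟨v, hv, rfl⟩)).trans (le_max_left _ _)⟩
  obtain ⟨μ0, hμ0, hμ⟩ : ∃ μ0 : ℝ, 0 < μ0 ∧ ∀ v : ↥V, μ0 ≤ M v := by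
    obtain ⟨v0, hv0⟩ := Finite.exists_min (fun v : ↥V => M v)
    exact ⟨M v0, hM v0 v0.2, hv0⟩
  set B : ℝ := 2 * (R * L) / μ0 with hB
  have hB0 : 0 ≤ B := by positivity
  set box : Set (↥V → ℝ) := Set.pi univ (fun _ : ↥V => Icc (0:ℝ) B) with hbox
  have hcomp : IsCompact box := isCompact_univ_pi (fun _ => isCompact_Icc)
  have hnorm : ∀ φ ∈ box, ‖φ‖ ≤ B := by
    intro φ hφ
    rw [pi_norm_le_iff_of_nonneg hB0]
    intro v
    have := hφ v (mem_univ v)
    rw [Real.norm_eq_abs, abs_of_nonneg this.1]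
    exact this.2
  -- integrability of h and F h
  have hhint : Integrable h (uniformProbOn K) := by
    refine Integrable.of_bound (C := 1) hh.aestronglyMeasurable ?_
    filter_upwards with x
    exact hb x
  have hFh : ∀ φ : ↥V → ℝ, Integrable (fun x => Fm φ x * h x) (uniformProbOn K) := by
    intro φ
    refine Integrable.of_bound (C := (R * L + ‖φ‖) * 1) ((Fm_meas φ).mul hh).aestronglyMeasurable ?_
    filter_upwards [ae_mem_K hKc] with x hx
    have h1 := Fm_bound hR0 hL φ x (hR x hx)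
    rw [Real.norm_eq_abs, abs_mul]
    exact mul_le_mul h1 (hb x) (abs_nonneg _) ((abs_nonneg _).trans h1)
  set g : (↥V → ℝ) → ℝ := fun φ => ∫ x, (Fm φ x - L0.f x) * h x ∂(uniformProbOn K) with hg
  have hgF : ∀ φ, g φ = (∫ x, Fm φ x * h x ∂(uniformProbOn K)) - ∫ x, Fm (fun v : ↥V => L0.ψ v) x * h x ∂(uniformProbOn K) := by
    intro φ
    rw [hg]
    simp only [L0.f_eq_Fm, sub_mul]
    exact integral_sub (hFh φ) (hFh _)
  have hgshift : ∀ (φ : ↥V → ℝ) (c : ℝ), g (fun v => φ v - c) = g φ := by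
    intro φ c
    rw [hgF, hgF]
    simp only [Fm_add_const, add_mul]
    rw [integral_add (hFh φ) (hhint.const_mul c), integral_const_mul, h0]
    ring
  have hgcont : Continuous g := by
    have : LipschitzWith 1 g := by
      apply LipschitzWith.of_dist_le_mul
      intro φ φ'
      rw [Real.dist_eq, dist_eq_norm, hgF, hgF, sub_sub_sub_cancel_right, ← integral_sub (hFh φ) (hFh φ')]
      have : ‖∫ x, (Fm φ x * h x - Fm φ' x * h x) ∂(uniformProbOn K)‖ ≤ ‖φ - φ'‖ * ((uniformProbOn K) univ).toReal := by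
        apply norm_integral_le_of_norm_le_const
        filter_upwards with x
        rw [← sub_mul, Real.norm_eq_abs, abs_mul]
        calc |Fm φ x - Fm φ' x| * |h x| ≤ ‖φ - φ'‖ * 1 :=
              mul_le_mul (Fm_lip φ φ' x) (hb x) (abs_nonneg _) (norm_nonneg _)
          _ = _ := mul_one _
      simpa using this
    exact this.continuous
  -- normalised potentials
  have hnormal : ∀ (θ : Sp d → ℝ), Measurable θ → (∀ x, 0 ≤ θ x) → (∀ x, θ x ≤ 2) → ∫ x, θ x ∂(uniformProbOn K) = 1 →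
      ∀ Lθ : Lag (uniformProbOn K) V M θ, ∃ φ ∈ box, (∃ c, φ = fun v : ↥V => Lθ.ψ v - c) := by
    intro θ hθ hθ0 hθ2 hθ1 Lθ
    obtain ⟨v0, hv0⟩ := Finite.exists_min (fun v : ↥V => Lθ.ψ v)
    refine ⟨fun v : ↥V => Lθ.ψ v - Lθ.ψ v0, ?_, Lθ.ψ v0, rfl⟩
    refine box_of_le hKc hKi hθ hθ0 hθ2 hθ1 hR0 hR hL0 hL hM hμ0 hμ _ ?_ v0 (sub_self _) (fun v => sub_nonneg.2 (hv0 v))
    rw [J_shift hKc hKi hθ hθ0 hθ2 hθ1 hM1]
    exact (Lθ.J_min hKc hKi hθ hθ0 hθ2 _).trans (J_zero_le hKc hKi hθ hθ0 hθ2 hθ1 hR0 hR hL)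
  have h1one : ∫ x, (fun _ : Sp d => (1:ℝ)) x ∂(uniformProbOn K) = 1 := by simp
  obtain ⟨φ0, hφ0box, c0, hc0⟩ := hnormal (fun _ => 1) measurable_const (fun _ => zero_le_one) (fun _ => one_le_two) h1one L0
  set J1 : (↥V → ℝ) → ℝ := fun φ => Jf (uniformProbOn K) (fun _ => 1) M φ with hJ1
  have hJ1cont : Continuous J1 :=
    J_cont hKc hKi measurable_const (fun _ => zero_le_one) (fun _ => one_le_two) h1one hM hM1
  have hJ1min : ∀ φ, J1 φ0 ≤ J1 φ := by
    intro φ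
    rw [hJ1]
    simp only
    rw [hc0, J_shift hKc hKi measurable_const (fun _ => zero_le_one) (fun _ => one_le_two) h1one hM1]
    exact L0.J_min hKc hKi measurable_const (fun _ => zero_le_one) (fun _ => one_le_two) φ
  -- minimisers have g = 0
  have hgmin : ∀ φ, J1 φ ≤ J1 φ0 → g φ = 0 := by
    intro φ hφ
    have h1 : Jf (uniformProbOn K) (fun _ => 1) M φ ≤ Jf (uniformProbOn K) (fun _ => 1) M (fun v : ↥V => L0.ψ v) := by
      refine hφ.trans (le_of_eq ?_)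
      rw [hJ1]
      simp only
      rw [hc0, J_shift hKc hKi measurable_const (fun _ => zero_le_one) (fun _ => one_le_two) h1one hM1]
    obtain ⟨c, hc⟩ := min_unique hKc hKv hKi L0 φ h1
    rw [hg]
    simp only
    have : ∫ x, (Fm φ x - L0.f x) * h x ∂(uniformProbOn K) = ∫ x, c * h x ∂(uniformProbOn K) := by
      apply integral_congr_ae
      filter_upwards [ae_mem_K hKc] with x hx
      rw [hc x hx]
    rw [this, integral_const_mul, h0, mul_zero]
  -- perturbation estimate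
  set C : ℝ := R * L + B with hC
  have hC0 : 0 ≤ C := by positivity
  have hpert : ∀ φ ∈ box, ∀ τ : ℝ, 0 < τ → τ ≤ 1 → |Jf (uniformProbOn K) (fun x => 1 + τ * h x) M φ - J1 φ| ≤ τ * C := by
    intro φ hφ τ hτ hτ1
    have e1 : Jf (uniformProbOn K) (fun x => 1 + τ * h x) M φ - J1 φ = τ * ∫ x, Fm φ x * h x ∂(uniformProbOn K) := by
      rw [hJ1]
      unfold Jf
      have i1 := Fθ_int (θ := fun _ => 1) hKc hKi measurable_const (fun _ => zero_le_one) (fun _ => one_le_two) φ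
      have : ∫ x, Fm φ x * (1 + τ * h x) ∂(uniformProbOn K) = ∫ x, (Fm φ x * 1 + τ * (Fm φ x * h x)) ∂(uniformProbOn K) := by
        congr 1; ext x; ring
      rw [this, integral_add i1 ((hFh φ).const_mul τ), integral_const_mul]
      ring
    rw [e1, abs_mul, abs_of_pos hτ]
    apply mul_le_mul_of_nonneg_left _ hτ.le
    have : ‖∫ x, Fm φ x * h x ∂(uniformProbOn K)‖ ≤ C * ((uniformProbOn K) univ).toReal := by
      apply norm_integral_le_of_norm_le_const
      filter_upwards [ae_mem_K hKc] with x hx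
      rw [Real.norm_eq_abs, abs_mul]
      have h1 := Fm_bound hR0 hL φ x (hR x hx)
      have h2 := hnorm φ hφ
      calc |Fm φ x| * |h x| ≤ (R * L + ‖φ‖) * 1 := mul_le_mul h1 (hb x) (abs_nonneg _) ((abs_nonneg _).trans h1)
        _ ≤ C := by rw [mul_one]; linarith
    simpa using this
  -- compactness
  have hmain : ∃ δ : ℝ, 0 < δ ∧ ∀ φ ∈ box, J1 φ < J1 φ0 + δ → |g φ| < ε := by
    set A : Set (↥V → ℝ) := box ∩ {φ | ε ≤ |g φ|} with hA
    have hAc : IsCompact A := hcomp.inter_right (isClosed_le continuous_const hgcont.abs)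
    by_cases hAe : A.Nonempty
    · obtain ⟨a, ha, hamin⟩ := hAc.exists_isMinOn hAe hJ1cont.continuousOn
      have hlt : J1 φ0 < J1 a := by
        by_contra hcon
        have h1 := hgmin a (not_lt.1 hcon)
        have h2 : ε ≤ |g a| := ha.2
        rw [h1, abs_zero] at h2
        linarith
      refine ⟨J1 a - J1 φ0, sub_pos.2 hlt, fun φ hφ hφlt => ?_⟩
      by_contra hcon
      have h1 : φ ∈ A := ⟨hφ, not_lt.1 hcon⟩
      have h2 : J1 a ≤ J1 φ := hamin h1
      linarith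
    · refine ⟨1, one_pos, fun φ hφ _ => ?_⟩
      by_contra hcon
      exact hAe ⟨φ, hφ, not_lt.1 hcon⟩
  obtain ⟨δ, hδ, hδg⟩ := hmain
  refine ⟨min 1 (δ / (2 * (C + 1))), by positivity, ?_⟩
  intro τ hτ hττ Lτ
  have hτ1 : τ < 1 := hττ.trans_le (min_le_left _ _)
  have hτδ : τ < δ / (2 * (C + 1)) := hττ.trans_le (min_le_right _ _)
  have hθm : Measurable (fun x => 1 + τ * h x) := by fun_prop
  have hθ0 : ∀ x, 0 ≤ 1 + τ * h x := by
    intro x
    have := (abs_le.1 (hb x)).1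
    nlinarith
  have hθ2 : ∀ x, 1 + τ * h x ≤ 2 := by
    intro x
    have := (abs_le.1 (hb x)).2
    nlinarith
  have hθ1 : ∫ x, (1 + τ * h x) ∂(uniformProbOn K) = 1 := by
    rw [integral_add (integrable_const _) (hhint.const_mul τ), integral_const_mul, h0]
    simp
  obtain ⟨φ, hφbox, c, hc⟩ := hnormal _ hθm hθ0 hθ2 hθ1 Lτ
  have hJτ : Jf (uniformProbOn K) (fun x => 1 + τ * h x) M φ ≤ Jf (uniformProbOn K) (fun x => 1 + τ * h x) M φ0 := by
    rw [hc, J_shift hKc hKi hθm hθ0 hθ2 hθ1 hM1]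
    exact Lτ.J_min hKc hKi hθm hθ0 hθ2 φ0
  have hlt : J1 φ < J1 φ0 + δ := by
    have a1 := (abs_le.1 (hpert φ hφbox τ hτ hτ1.le)).1
    have a2 := (abs_le.1 (hpert φ0 hφ0box τ hτ hτ1.le)).2
    have a3 : 2 * (τ * C) < δ := by
      rw [lt_div_iff₀ (by positivity)] at hτδ
      nlinarith
    linarith
  have hfin := hδg φ hφbox hlt
  have : g φ = ∫ x, (Lτ.f x - L0.f x) * h x ∂(uniformProbOn K) := by
    rw [hc, hgshift, hg]
    simp only [Lτ.f_eq_Fm]
  rwa [← this]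

end Crest.Agent.OS109
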