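import Crest.Agent.OS109Stab
import Crest.Agent.OS109Interp4
import Crest.Agent.OS109PL
import Crest.Agent.OS109Lag
import Crest.Agent.OS109Unique

set_option autoImplicit false
set_option linter.unusedSectionVars false
set_option linter.style.haveILetI false

open MeasureTheory Set
open scoped ENNReal
open Crest.AnalysisR.OT

namespace Crest.Agent.OS109

variable {d : ℕ} {K : Set (Sp d)}

lemma Yt_zero (p : Sp d × Sp d) : Yt 0 p = p.1 := by unfold Yt; simp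
lemma Yt_one (p : Sp d × Sp d) : Yt 1 p = p.2 := by unfold Yt; simp

lemma uc (hKc : IsCompact K) (hKv : Convex ℝ K) (hKi : (interior K).Nonempty) : UCstmt K :=
  fun V hV M hM hM1 L0 h hh hb h0 ε hε => lag_cont hKc hKv hKi V hV M hM hM1 L0 h hh hb h0 ε hε

open Classical in
theorem disc (hKc : IsCompact K) (hKv : Convex ℝ K) (hKi : (interior K).Nonempty) :
    ∀ L : ℝ, ∃ C : ℝ, 0 ≤ C ∧ ∀ (P : Finset (Sp d × Sp d)) (m : Sp d × Sp d → ℝ),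
      P.Nonempty → (∀ p ∈ P, 0 < m p) → ∑ p ∈ P, m p = 1 →
      (∀ p ∈ P, ‖p.1‖ ≤ L ∧ ‖p.2‖ ≤ L) →
      ∀ (A : Lag (uniformProbOn K) (P.image Prod.fst) (fun v => ∑ p ∈ P with p.1 = v, m p)
          (fun _ => 1))
        (B : Lag (uniformProbOn K) (P.image Prod.snd) (fun v => ∑ p ∈ P with p.2 = v, m p)
          (fun _ => 1)),
      ∫ x, ‖A.T x - B.T x‖ ^ 2 ∂(uniformProbOn K) ≤
        C * (∑ p ∈ P, m p * ‖p.1 - p.2‖ ^ 2) ^ (1 / 3 : ℝ) := by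
  intro L
  have UC := uc hKc hKv hKi
  obtain ⟨C1, hC1, h1⟩ := interp hKc hKv hKi L
  obtain ⟨C2, hC2, h2⟩ := key (K := K) (prekopa_half d) hKc hKv hKi
  have EL : ELstmt K := fun V hV M hM hM1 θ hθ hθ0 hθ2 hθ1 =>
    exists_lag hKc hKi V hV M hM hM1 θ hθ hθ0 hθ2 hθ1
  refine ⟨C1 * C2 ^ (1 / 3 : ℝ), by positivity, ?_⟩
  intro P m hP hm hm1 hPL A B
  have eV0 : P.image Prod.fst = Vt P 0 := by
    unfold Vt
    exact Finset.image_congr fun p _ => (Yt_zero p).symm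
  have eV1 : P.image Prod.snd = Vt P 1 := by
    unfold Vt
    exact Finset.image_congr fun p _ => (Yt_one p).symm
  have eM0 : ∀ v ∈ P.image Prod.fst, ∑ p ∈ P with p.1 = v, m p = Mt P m 0 v := by
    intro v _
    unfold Mt
    simp only [Yt_zero]
  have eM1 : ∀ v ∈ P.image Prod.snd, ∑ p ∈ P with p.2 = v, m p = Mt P m 1 v := by
    intro v _
    unfold Mt
    simp only [Yt_one]
  set A' := A.cast eV0 eM0 with hA'
  set B' := B.cast eV1 eM1 with hB'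
  obtain ⟨c, hc⟩ := var_bound hKc hKi EL UC hC2 h2 hP hm hm1 A' B'
  have hTA : ∀ x, ‖A.T x‖ ≤ L := by
    intro x
    obtain ⟨p, hp, hpx⟩ := Finset.mem_image.1 (A.T_mem x)
    rw [← hpx]; exact (hPL p hp).1
  have hTB : ∀ x, ‖B.T x‖ ≤ L := by
    intro x
    obtain ⟨p, hp, hpx⟩ := Finset.mem_image.1 (B.T_mem x)
    rw [← hpx]; exact (hPL p hp).2
  have h3 := h1 B.f A.f B.T A.T B.meas_T A.meas_T hTB hTA B.f_subgrad A.f_subgrad c
  have e1 : ∫ x, ‖A.T x - B.T x‖ ^ 2 ∂(uniformProbOn K) =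
      ∫ x, ‖B.T x - A.T x‖ ^ 2 ∂(uniformProbOn K) := by
    congr 1; funext x; rw [norm_sub_rev]
  rw [e1]
  refine h3.trans ?_
  have hW : ∑ p ∈ P, m p * ‖p.2 - p.1‖ ^ 2 = ∑ p ∈ P, m p * ‖p.1 - p.2‖ ^ 2 :=
    Finset.sum_congr rfl fun p _ => by rw [norm_sub_rev]
  rw [hW] at hc
  have hc' : ∫ x, (B.f x - A.f x - c) ^ 2 ∂(uniformProbOn K) ≤
      C2 * ∑ p ∈ P, m p * ‖p.1 - p.2‖ ^ 2 := hc
  have hW0 : 0 ≤ ∑ p ∈ P, m p * ‖p.1 - p.2‖ ^ 2 := Finset.sum_nonneg fun p hp => by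
    have := hm p hp
    positivity
  have hX0 : 0 ≤ ∫ x, (B.f x - A.f x - c) ^ 2 ∂(uniformProbOn K) :=
    integral_nonneg fun x => sq_nonneg _
  calc C1 * (∫ x, (B.f x - A.f x - c) ^ 2 ∂(uniformProbOn K)) ^ (1 / 3 : ℝ)
      ≤ C1 * (C2 * ∑ p ∈ P, m p * ‖p.1 - p.2‖ ^ 2) ^ (1 / 3 : ℝ) := by
        gcongr
    _ = _ := by rw [Real.mul_rpow hC2 hW0]; ring

end Crest.Agent.OS109
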