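import Mathlib

/-!
Helper for S0175: splitting a nonatomic finite measure.
-/

set_option autoImplicit false

namespace Crest.Agent.S0175

open MeasureTheory ProbabilityTheory Set Filter Topology unitInterval

/-- The cdf of a probability measure on `ℝ` without point masses is continuous. -/
theorem continuous_cdf_of_null (m : Measure ℝ) [IsProbabilityMeasure m] [NullSingletonClass m] :
    Continuous (cdf m) := by
  rw [continuous_iff_continuousAt]
  intro x
  have h1 : (cdf m).measure {x} = 0 := by
    rw [measure_cdf]; exact measure_singleton x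
  rw [StieltjesFunction.measure_singleton, ENNReal.ofReal_eq_zero] at h1
  have h2 : Function.leftLim (cdf m) x ≤ cdf m x := (monotone_cdf m).leftLim_le le_rfl
  rw [(monotone_cdf m).continuousAt_iff_leftLim_eq_rightLim, StieltjesFunction.rightLim_eq]
  linarith

/-- A nonatomic probability measure on a standard Borel space can be pushed to the uniform law. -/
theorem exists_uniformize {E : Type*} [MeasurableSpace E] [StandardBorelSpace E]
    (m : Measure E) [IsProbabilityMeasure m] [NullSingletonClass m] :
    ∃ u : E → I, Measurable u ∧ m.map u = volume := by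
  classical
  have he := measurableEmbedding_embeddingReal E
  set e : E → ℝ := embeddingReal E with hedef
  set m' : Measure ℝ := m.map e with hm'
  have : IsProbabilityMeasure m' := Measure.isProbabilityMeasure_map he.measurable.aemeasurable
  have : NullSingletonClass m' := by
    refine ⟨fun x => ?_⟩
    rw [hm', Measure.map_apply he.measurable (measurableSet_singleton x)]
    exact (Set.subsingleton_singleton.preimage he.injective).measure_zero m
  have hc : Continuous (cdf m') := continuous_cdf_of_null m'
  let g : ℝ → I := fun y => ⟨cdf m' y, cdf_nonneg m' y, cdf_le_one m' y⟩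
  have hg : Measurable g := by
    have : Continuous g := by
      exact Continuous.subtype_mk hc _
    exact this.measurable
  refine ⟨g ∘ e, hg.comp he.measurable, ?_⟩
  rw [← Measure.map_map hg he.measurable, ← hm']
  have : IsProbabilityMeasure (m'.map g) := Measure.isProbabilityMeasure_map hg.aemeasurable
  refine Measure.ext_of_Iic _ _ fun t => ?_
  rw [Measure.map_apply hg measurableSet_Iic, unitInterval.volume_Iic]
  have hS : g ⁻¹' Iic t = {y | cdf m' y ≤ (t : ℝ)} := by
    ext y; simp only [mem_preimage, mem_Iic, mem_ofPred_eq]; rfl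
  rw [hS]
  rcases eq_or_lt_of_le t.2.2 with ht1 | ht1
  · have : {y | cdf m' y ≤ (t : ℝ)} = univ := by
      ext y; simp only [mem_ofPred_eq, mem_univ, iff_true]; rw [ht1]; exact cdf_le_one m' y
    rw [this, measure_univ, ht1, ENNReal.ofReal_one]
  · by_cases hne : {y | cdf m' y ≤ (t : ℝ)}.Nonempty
    · -- bounded above
      have hbdd : BddAbove {y | cdf m' y ≤ (t : ℝ)} := by
        have h1 := (tendsto_cdf_atTop m').eventually (lt_mem_nhds ht1)
        obtain ⟨b, hb⟩ := h1.exists
        refine ⟨b, fun y hy => ?_⟩
        by_contra hlt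
        push Not at hlt
        have := monotone_cdf m' hlt.le
        have hy' : cdf m' y ≤ (t : ℝ) := hy
        linarith
      set a := sSup {y | cdf m' y ≤ (t : ℝ)} with ha
      have hcl : IsClosed {y | cdf m' y ≤ (t : ℝ)} := isClosed_le hc continuous_const
      have haS : cdf m' a ≤ (t : ℝ) := hcl.csSup_mem hne hbdd
      have hge : (t : ℝ) ≤ cdf m' a := by
        have h2 : ∀ᶠ y in 𝓝[>] a, (t : ℝ) ≤ cdf m' y := by
          filter_upwards [self_mem_nhdsWithin] with y hy
          by_contra hlt
          push Not at hlt
          exact absurd (le_csSup hbdd (show y ∈ {y | cdf m' y ≤ (t : ℝ)} from hlt.le))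
            (not_le.mpr hy)
        have h3 : Tendsto (cdf m') (𝓝[>] a) (𝓝 (cdf m' a)) :=
          (hc.tendsto a).mono_left nhdsWithin_le_nhds
        exact ge_of_tendsto h3 h2
      have heq : {y | cdf m' y ≤ (t : ℝ)} = Iic a := by
        ext y
        simp only [mem_ofPred_eq, mem_Iic]
        constructor
        · intro hy; exact le_csSup hbdd hy
        · intro hy; exact (monotone_cdf m' hy).trans haS
      rw [heq, ← ofReal_cdf, le_antisymm haS hge]
    · rw [not_nonempty_iff_eq_empty.mp hne, measure_empty]
      have ht0 : (t : ℝ) ≤ 0 := by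
        have h1 : ∀ y, (t : ℝ) ≤ cdf m' y := by
          intro y
          by_contra hlt
          push Not at hlt
          exact hne ⟨y, hlt.le⟩
        exact ge_of_tendsto (tendsto_cdf_atBot m') (Eventually.of_forall h1)
      rw [ENNReal.ofReal_of_nonpos ht0]

/-- A nonatomic finite measure on a standard Borel space can be pushed to any finite measure of
the same mass on a standard Borel space. -/
theorem exists_transport {E Y : Type*} [MeasurableSpace E] [StandardBorelSpace E]
    [MeasurableSpace Y] [StandardBorelSpace Y] [Nonempty Y]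
    (ν : Measure E) [IsFiniteMeasure ν] [NullSingletonClass ν] (κ : Measure Y)
    (hmass : ν univ = κ univ) :
    ∃ T : E → Y, Measurable T ∧ ν.map T = κ := by
  by_cases h0 : ν univ = 0
  · have h1 : ν = 0 := Measure.measure_univ_eq_zero.mp h0
    have h2 : κ = 0 := Measure.measure_univ_eq_zero.mp (hmass ▸ h0)
    obtain ⟨y⟩ := ‹Nonempty Y›
    refine ⟨fun _ => y, measurable_const, ?_⟩
    rw [h1, h2, Measure.map_zero]
  · set c := ν univ with hc
    have hcT : c ≠ ⊤ := measure_ne_top ν univ
    have hinv : c * c⁻¹ = 1 := ENNReal.mul_inv_cancel h0 hcT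
    have hinv' : c⁻¹ * c = 1 := ENNReal.inv_mul_cancel h0 hcT
    have : IsProbabilityMeasure (c⁻¹ • ν) := by
      refine ⟨?_⟩
      rw [Measure.smul_apply, smul_eq_mul, ← hc, hinv']
    have : NullSingletonClass (c⁻¹ • ν) := by
      refine ⟨fun x => ?_⟩
      rw [Measure.smul_apply, measure_singleton, smul_zero]
    have : IsProbabilityMeasure (c⁻¹ • κ) := by
      refine ⟨?_⟩
      rw [Measure.smul_apply, smul_eq_mul, ← hmass, hinv']
    obtain ⟨u, hu, hum⟩ := exists_uniformize (c⁻¹ • ν)
    obtain ⟨f, hf, hfm⟩ := Measure.exists_measurable_map_eq (c⁻¹ • κ)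
    refine ⟨f ∘ u, hf.comp hu, ?_⟩
    have h3 : (c⁻¹ • ν).map (f ∘ u) = c⁻¹ • κ := by
      rw [← Measure.map_map hf hu, hum, hfm]
    have h4 : c • ((c⁻¹ • ν).map (f ∘ u)) = c • (c⁻¹ • κ) := by rw [h3]
    rw [Measure.map_smul, smul_smul, smul_smul, hinv, one_smul, one_smul] at h4
    exact h4

theorem exists_split {E : Type*} [MetricSpace E] [SecondCountableTopology E] [CompleteSpace E]
    [MeasurableSpace E] [BorelSpace E] [Nonempty E] (ν : Measure E) [IsFiniteMeasure ν]
    [NullSingletonClass ν] (δ : ℝ) (hδ : 0 < δ) :
    ∃ (i : E → Bool) (r : E → E), Measurable i ∧ Measurable r ∧ (∀ᵐ a ∂ν, dist (r a) a < δ) ∧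
      ∀ f : Bool → E → ENNReal, (∀ b, Measurable (f b)) →
        2 * ∫⁻ a, f (i a) (r a) ∂ν = ∫⁻ a, f true a ∂ν + ∫⁻ a, f false a ∂ν := by
  classical
  have : PolishSpace E := inferInstance
  have : StandardBorelSpace E := inferInstance
  -- the index of the cell
  have hex : ∀ a : E, ∃ n : ℕ, dist a (TopologicalSpace.denseSeq E n) < δ / 2 := by
    intro a
    have h := (TopologicalSpace.denseRange_denseSeq E).exists_dist_lt a (half_pos hδ)
    exact h
  set N : E → ℕ := fun a => Nat.find (hex a) with hN
  have hNm : Measurable N := by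
    refine measurable_find hex fun n => ?_
    exact measurableSet_lt (measurable_id.dist measurable_const) measurable_const
  set C : ℕ → Set E := fun n => N ⁻¹' {n} with hC
  have hCm : ∀ n, MeasurableSet (C n) := fun n => hNm (measurableSet_singleton n)
  have hCd : Pairwise (Function.onFun Disjoint C) := by
    intro m n hmn
    exact Disjoint.preimage N (Set.disjoint_singleton.mpr hmn)
  have hCu : (⋃ n, C n) = univ := by
    ext a; simp [hC]
  have hdiam : ∀ n, ∀ a ∈ C n, ∀ b ∈ C n, dist a b < δ := by
    intro n a ha b hb
    have h1 : dist a (TopologicalSpace.denseSeq E n) < δ / 2 := by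
      have := Nat.find_spec (hex a)
      have h2 : Nat.find (hex a) = n := ha
      rwa [h2] at this
    have h2 : dist b (TopologicalSpace.denseSeq E n) < δ / 2 := by
      have := Nat.find_spec (hex b)
      have h2 : Nat.find (hex b) = n := hb
      rwa [h2] at this
    calc dist a b ≤ dist a (TopologicalSpace.denseSeq E n) + dist b (TopologicalSpace.denseSeq E n) :=
          dist_triangle_right _ _ _
      _ < δ := by linarith
  -- transports on the cells
  have hT : ∀ n, ∃ T : E → Bool × E, Measurable T ∧
      ((2 : ENNReal) • ν.restrict (C n)).map T =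
        (ν.restrict (C n)).map (fun a => (true, a)) + (ν.restrict (C n)).map (fun a => (false, a)) := by
    intro n
    have : IsFiniteMeasure ((2 : ENNReal) • ν.restrict (C n)) := by
      refine ⟨?_⟩
      rw [Measure.smul_apply, smul_eq_mul]
      exact ENNReal.mul_lt_top ENNReal.ofNat_lt_top (measure_lt_top _ _)
    have : NullSingletonClass ((2 : ENNReal) • ν.restrict (C n)) := by
      refine ⟨fun x => ?_⟩
      rw [Measure.smul_apply, measure_singleton, smul_zero]
    refine exists_transport _ _ ?_
    rw [Measure.smul_apply, Measure.add_apply,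
      Measure.map_apply measurable_prodMk_left MeasurableSet.univ,
      Measure.map_apply measurable_prodMk_left MeasurableSet.univ, preimage_univ, preimage_univ,
      smul_eq_mul, two_mul]
  choose T hTm hTmap using hT
  have hTint : ∀ n, ∀ f : Bool → E → ENNReal, (∀ b, Measurable (f b)) →
      2 * ∫⁻ a in C n, f (T n a).1 (T n a).2 ∂ν = ∫⁻ a in C n, f true a ∂ν + ∫⁻ a in C n, f false a ∂ν := by
    intro n f hf
    have hf' : Measurable (fun p : Bool × E => f p.1 p.2) := by
      exact measurable_from_prod_countable_right hf
    have h1 : ∫⁻ p, f p.1 p.2 ∂(((2 : ENNReal) • ν.restrict (C n)).map (T n)) =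
        ∫⁻ p, f p.1 p.2 ∂((ν.restrict (C n)).map (fun a => (true, a)) +
          (ν.restrict (C n)).map (fun a => (false, a))) := by rw [hTmap n]
    rw [lintegral_map hf' (hTm n), lintegral_smul_measure, lintegral_add_measure,
      lintegral_map hf' measurable_prodMk_left, lintegral_map hf' measurable_prodMk_left] at h1
    simpa using h1
  have hTae : ∀ n, ∀ᵐ a ∂(ν.restrict (C n)), (T n a).2 ∈ C n := by
    intro n
    have h1 := hTint n (fun _ a => (C n)ᶜ.indicator 1 a) (fun _ => measurable_one.indicator (hCm n).compl)
    have h2 : ∫⁻ a in C n, (C n)ᶜ.indicator (1 : E → ENNReal) a ∂ν = 0 := by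
      rw [lintegral_indicator (hCm n).compl, Measure.restrict_restrict (hCm n).compl, compl_inter_self,
        Measure.restrict_empty, lintegral_zero_measure]
    simp only [h2, add_zero, mul_eq_zero, OfNat.ofNat_ne_zero, false_or] at h1
    have hmeas : Measurable fun a => (C n)ᶜ.indicator (1 : E → ENNReal) (T n a).2 :=
      (measurable_one.indicator (hCm n).compl).comp (measurable_snd.comp (hTm n))
    rw [lintegral_eq_zero_iff hmeas] at h1
    filter_upwards [h1] with a ha
    by_contra hcon
    have : (C n)ᶜ.indicator (1 : E → ENNReal) (T n a).2 = 1 := by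
      rw [indicator_of_mem (show (T n a).2 ∈ (C n)ᶜ from hcon)]; rfl
    rw [this] at ha
    simp at ha
  -- gluing
  set TT : E → Bool × E := fun a => T (N a) a with hTT
  have hTTm : Measurable TT := by
    have h1 : Measurable (fun p : ℕ × E => T p.1 p.2) := measurable_from_prod_countable_right hTm
    exact h1.comp (hNm.prodMk measurable_id)
  refine ⟨fun a => (TT a).1, fun a => (TT a).2, measurable_fst.comp hTTm, measurable_snd.comp hTTm,
    ?_, ?_⟩
  · have h1 : ∀ᵐ a ∂(ν.restrict (⋃ n, C n)), dist (TT a).2 a < δ := by
      rw [ae_restrict_iUnion_iff]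
      intro n
      filter_upwards [hTae n, ae_restrict_mem (hCm n)] with a ha haC
      have h2 : TT a = T n a := by
        have : N a = n := haC
        rw [hTT]; simp only [this]
      rw [h2]
      exact hdiam n _ ha _ haC
    rwa [hCu, Measure.restrict_univ] at h1
  · intro f hf
    have hsplit : ∀ g : E → ENNReal, ∫⁻ a, g a ∂ν = ∑' n, ∫⁻ a in C n, g a ∂ν := by
      intro g
      rw [← lintegral_iUnion hCm hCd, hCu, Measure.restrict_univ]
    rw [hsplit, hsplit, hsplit, ← ENNReal.tsum_add, ← ENNReal.tsum_mul_left]
    refine tsum_congr fun n => ?_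
    rw [← hTint n f hf]
    congr 1
    refine setLIntegral_congr_fun (hCm n) fun a ha => ?_
    have h2 : TT a = T n a := by
      have : N a = n := ha
      rw [hTT]; simp only [this]
    simp only [h2]

end Crest.Agent.S0175
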