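import Mathlib
import Crest.Prelude.Def_QuadraticTransport
import Crest.Agent.OS109Defs
import Crest.Agent.OS109Lag
import Crest.Agent.S0175Split

/-!
From discrete targets to general targets: S0109, part G.
-/

set_option autoImplicit false

open MeasureTheory Set
open scoped ENNReal NNReal RealInnerProductSpace
open Crest.AnalysisR.OT

namespace Crest.Agent.OS109

/-- a finite quantisation of a compact set -/
lemma exists_quant {d : ℕ} {Y : Set (Sp d)} (hYc : IsCompact Y) (hYn : Y.Nonempty) (δ : ℝ) (hδ : 0 < δ) :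
    ∃ (t : Finset (Sp d)) (Q : Sp d → Sp d), (∀ c ∈ t, c ∈ Y) ∧ Measurable Q ∧ (∀ y, Q y ∈ t) ∧
      ∀ y ∈ Y, ‖Q y - y‖ ≤ δ := by
  obtain ⟨t, htY, hcov⟩ := hYc.elim_nhds_subcover (fun x => Metric.ball x δ) (fun x _ => Metric.ball_mem_nhds x hδ)
  have htn : t.Nonempty := by
    obtain ⟨y, hy⟩ := hYn
    have := hcov hy
    simp only [mem_iUnion] at this
    obtain ⟨c, hc, _⟩ := this
    exact ⟨c, hc⟩
  obtain ⟨Q, hQ, -, hQt, hmax⟩ := exists_meas_argmax t htn (fun c => ‖c‖ ^ 2 / 2)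
  refine ⟨t, Q, htY, hQ, hQt, fun y hy => ?_⟩
  have := hcov hy
  simp only [mem_iUnion] at this
  obtain ⟨c, hc, hyc⟩ := this
  rw [Metric.mem_ball, dist_eq_norm] at hyc
  have h1 := hmax y c hc
  have h2 : ‖y - c‖ ^ 2 = ‖y‖ ^ 2 - 2 * inner ℝ y c + ‖c‖ ^ 2 := norm_sub_sq_real y c
  have h3 : ‖y - Q y‖ ^ 2 = ‖y‖ ^ 2 - 2 * inner ℝ y (Q y) + ‖Q y‖ ^ 2 := norm_sub_sq_real y (Q y)
  have h4 : ‖y - Q y‖ ^ 2 ≤ ‖y - c‖ ^ 2 := by rw [h2, h3]; linarith
  rw [norm_sub_rev]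
  exact (abs_le_of_sq_le_sq' h4 (norm_nonneg _)).2.trans hyc.le

/-- a measure absolutely continuous w.r.t. Lebesgue measure has no atoms (`0 < d`). -/
lemma null_singleton {d : ℕ} (hd : 0 < d) {K : Set (Sp d)} : NullSingletonClass (uniformProbOn K) := by
  have : Nonempty (Fin d) := ⟨⟨0, hd⟩⟩
  refine ⟨fun x => ?_⟩
  exact ρ_ac (measure_singleton x)

/-- cell-by-cell transport -/
lemma exists_S {d : ℕ} {ρ μ : Measure (Sp d)} [IsProbabilityMeasure ρ] [NullSingletonClass ρ] [IsProbabilityMeasure μ]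
    {V : Finset (Sp d)} {M : Sp d → ℝ} (A : Lag ρ V M (fun _ => 1)) (Q : Sp d → Sp d) (hQ : Measurable Q)
    (hQM : ∀ v ∈ V, (μ (Q ⁻¹' {v})).toReal = M v) (hQV : μ {y | Q y ∉ V} = 0) :
    ∃ S : Sp d → Sp d, Measurable S ∧ ρ.map S = μ ∧ ∀ᵐ x ∂ρ, Q (S x) = A.T x := by
  classical
  have hmass : ∀ v ∈ V, ρ (A.T ⁻¹' {v}) = μ (Q ⁻¹' {v}) := by
    intro v hv
    have h1 := A.mass v hv
    rw [← hQM v hv, setIntegral_const, smul_eq_mul, mul_one, Measure.real] at h1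
    exact (ENNReal.toReal_eq_toReal_iff' (measure_ne_top _ _) (measure_ne_top _ _)).1 h1
  have hex : ∀ v : Sp d, ∃ S : Sp d → Sp d, Measurable S ∧
      (v ∈ V → (ρ.restrict (A.T ⁻¹' {v})).map S = μ.restrict (Q ⁻¹' {v})) := by
    intro v
    by_cases hv : v ∈ V
    · obtain ⟨S, hS, hSm⟩ := S0175.exists_transport (ρ.restrict (A.T ⁻¹' {v})) (μ.restrict (Q ⁻¹' {v}))
        (by rw [Measure.restrict_apply_univ, Measure.restrict_apply_univ]; exact hmass v hv)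
      exact ⟨S, hS, fun _ => hSm⟩
    · exact ⟨id, measurable_id, fun h => absurd h hv⟩
  choose F hF hFm using hex
  have hpre : ∀ s : Set (Sp d), (fun x => F (A.T x) x) ⁻¹' s = ⋃ v ∈ V, (A.T ⁻¹' {v} ∩ F v ⁻¹' s) := by
    intro s
    ext x
    simp only [mem_preimage, mem_iUnion, mem_inter_iff, mem_singleton_iff, exists_prop]
    constructor
    · intro h
      exact ⟨A.T x, A.T_mem x, rfl, h⟩
    · rintro ⟨v, _, hv, h⟩
      rw [hv]; exact h
  have hcell : ∀ v, MeasurableSet (A.T ⁻¹' {v}) := fun v => A.meas_T (measurableSet_singleton v)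
  have hSmeas : Measurable (fun x => F (A.T x) x) := by
    intro s hs
    rw [hpre s]
    exact Finset.measurableSet_biUnion _ (fun v _ => (hcell v).inter (hF v hs))
  have hQcell : ∀ v, MeasurableSet (Q ⁻¹' {v}) := fun v => hQ (measurableSet_singleton v)
  have hmap : ∀ s : Set (Sp d), MeasurableSet s → ρ ((fun x => F (A.T x) x) ⁻¹' s) = ∑ v ∈ V, μ (Q ⁻¹' {v} ∩ s) := by
    intro s hs
    rw [hpre s, measure_biUnion_finset]
    · apply Finset.sum_congr rfl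
      intro v hv
      have h1 : (ρ.restrict (A.T ⁻¹' {v})).map (F v) s = μ.restrict (Q ⁻¹' {v}) s := by rw [hFm v hv]
      rw [Measure.map_apply (hF v) hs, Measure.restrict_apply (hF v hs), Measure.restrict_apply hs] at h1
      rw [inter_comm, h1, inter_comm]
    · intro v _ w _ hvw
      apply Disjoint.mono inter_subset_left inter_subset_left
      rw [Set.disjoint_left]
      intro x hx hx'
      exact hvw ((Set.mem_singleton_iff.1 hx).symm.trans (Set.mem_singleton_iff.1 hx'))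
    · intro v _
      exact (hcell v).inter (hF v hs)
  refine ⟨fun x => F (A.T x) x, hSmeas, ?_, ?_⟩
  · ext s hs
    rw [Measure.map_apply hSmeas hs, hmap s hs, ← measure_biUnion_finset]
    · apply measure_congr
      have : ∀ᵐ y ∂μ, Q y ∈ V := by rw [ae_iff]; exact hQV
      filter_upwards [this] with y hy
      apply propext
      show y ∈ (⋃ b ∈ V, Q ⁻¹' {b} ∩ s) ↔ y ∈ s
      simp only [mem_iUnion, mem_inter_iff, mem_preimage, mem_singleton_iff, exists_prop]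
      constructor
      · rintro ⟨_, _, _, h⟩; exact h
      · intro h; exact ⟨Q y, hy, rfl, h⟩
    · intro v _ w _ hvw
      apply Disjoint.mono inter_subset_left inter_subset_left
      rw [Set.disjoint_left]
      intro x hx hx'
      exact hvw ((Set.mem_singleton_iff.1 hx).symm.trans (Set.mem_singleton_iff.1 hx'))
    · intro v _
      exact (hQcell v).inter hs
  · -- on each cell
    have hall : ∀ v ∈ V, ∀ᵐ x ∂ρ, A.T x = v → Q (F v x) = v := by
      intro v hv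
      have h1 : ∀ᵐ y ∂(μ.restrict (Q ⁻¹' {v})), Q y = v := ae_restrict_mem (hQcell v)
      rw [← hFm v hv, ae_map_iff (hF v).aemeasurable (show MeasurableSet {y | Q y = v} from hQcell v)] at h1
      exact (ae_restrict_iff' (hcell v)).1 h1
    have hall' : ∀ᵐ x ∂ρ, ∀ v ∈ V, A.T x = v → Q (F v x) = v :=
      (Filter.eventually_all_finset V).2 hall
    filter_upwards [hall'] with x hx
    exact hx (A.T x) (A.T_mem x) rfl

lemma ae_of_map {d : ℕ} {ρ μ : Measure (Sp d)} {T : Sp d → Sp d} (hT : Measurable T) (hTm : ρ.map T = μ)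
    {p : Sp d → Prop} (h : ∀ᵐ y ∂μ, p y) : ∀ᵐ x ∂ρ, p (T x) := by
  rw [← hTm] at h
  exact ae_of_ae_map hT.aemeasurable h

lemma int_inner {d : ℕ} {ρ : Measure (Sp d)} [IsProbabilityMeasure ρ] {R L : ℝ} (hR0 : 0 ≤ R)
    (hR : ∀ᵐ x ∂ρ, ‖x‖ ≤ R) {S : Sp d → Sp d} (hS : Measurable S) (hSL : ∀ᵐ x ∂ρ, ‖S x‖ ≤ L) :
    Integrable (fun x => inner ℝ x (S x)) ρ := by
  refine Integrable.of_bound (C := R * L) (by fun_prop) ?_
  filter_upwards [hR, hSL] with x h1 h2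
  exact (abs_real_inner_le_norm _ _).trans (mul_le_mul h1 h2 (norm_nonneg _) hR0)

lemma opt_inner {d : ℕ} {ρ μ : Measure (Sp d)} [IsProbabilityMeasure ρ] {R L : ℝ} (hR0 : 0 ≤ R)
    (hR : ∀ᵐ x ∂ρ, ‖x‖ ≤ R) (hμ : ∀ᵐ y ∂μ, ‖y‖ ≤ L) {T : Sp d → Sp d} (hT : IsOptimalMap ρ μ T)
    {S : Sp d → Sp d} (hS : Measurable S) (hSm : ρ.map S = μ) :
    ∫ x, inner ℝ x (S x) ∂ρ ≤ ∫ x, inner ℝ x (T x) ∂ρ := by
  obtain ⟨hTm, hTμ, hopt⟩ := hT
  have hint : ∀ U : Sp d → Sp d, Measurable U → (∀ᵐ x ∂ρ, ‖U x‖ ≤ L) → Integrable (fun x => ‖x - U x‖ ^ 2) ρ := by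
    intro U hU hUL
    refine Integrable.of_bound (C := (R + L) ^ 2) (by fun_prop) ?_
    filter_upwards [hR, hUL] with x h1 h2
    rw [Real.norm_eq_abs, abs_of_nonneg (by positivity)]
    have : ‖x - U x‖ ≤ R + L := (norm_sub_le _ _).trans (add_le_add h1 h2)
    gcongr
  have hcost : ∀ U : Sp d → Sp d, Measurable U → (∀ᵐ x ∂ρ, ‖U x‖ ≤ L) →
      ∫⁻ x, ‖x - U x‖ₑ ^ 2 ∂ρ = ENNReal.ofReal (∫ x, ‖x - U x‖^2 ∂ρ) := by
    intro U hU hUL
    rw [ofReal_integral_eq_lintegral_ofReal (hint U hU hUL) (Filter.Eventually.of_forall fun x => by positivity)]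
    congr 1
    ext x
    rw [← ofReal_norm, ENNReal.ofReal_pow (norm_nonneg _)]
  have hTL := ae_of_map hTm hTμ hμ
  have hSL := ae_of_map hS hSm hμ
  have h1 := hopt S hS hSm
  rw [hcost T hTm hTL, hcost S hS hSL, ENNReal.ofReal_le_ofReal_iff (integral_nonneg fun x => by positivity)] at h1
  have hexp : ∀ U : Sp d → Sp d, Measurable U → ρ.map U = μ → (∀ᵐ x ∂ρ, ‖U x‖ ≤ L) →
      ∫ x, ‖x - U x‖ ^ 2 ∂ρ = (∫ x, ‖x‖ ^ 2 ∂ρ) - 2 * (∫ x, inner ℝ x (U x) ∂ρ) + ∫ y, ‖y‖ ^ 2 ∂μ := by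
    intro U hU hUm hUL
    have e1 : ∀ x, ‖x - U x‖ ^ 2 = (‖x‖ ^ 2 - 2 * inner ℝ x (U x)) + ‖U x‖ ^ 2 := fun x => norm_sub_sq_real x (U x)
    have i1 : Integrable (fun x : Sp d => ‖x‖ ^ 2) ρ := by
      refine Integrable.of_bound (C := R ^ 2) (by fun_prop) ?_
      filter_upwards [hR] with x h1
      rw [Real.norm_eq_abs, abs_of_nonneg (by positivity)]
      gcongr
    have i2 := (int_inner hR0 hR hU hUL).const_mul 2
    have i3 : Integrable (fun x : Sp d => ‖U x‖ ^ 2) ρ := by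
      refine Integrable.of_bound (C := L ^ 2) (by fun_prop) ?_
      filter_upwards [hUL] with x h1
      rw [Real.norm_eq_abs, abs_of_nonneg (by positivity)]
      gcongr
    have i12 : Integrable (fun x : Sp d => ‖x‖ ^ 2 - 2 * inner ℝ x (U x)) ρ := i1.sub i2
    simp_rw [e1]
    rw [integral_add i12 i3, integral_sub i1 i2, integral_const_mul, ← hUm,
      integral_map hU.aemeasurable (by fun_prop)]
  rw [hexp T hTm hTμ hTL, hexp S hS hSm hSL] at h1
  linarith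

/-- the statement of lemma `near` for a fixed body and bound -/
def NearStmt {d : ℕ} (K : Set (Sp d)) (L Cn : ℝ) : Prop :=
  ∀ (f : Sp d → ℝ) (T S : Sp d → Sp d) (ε : Sp d → ℝ), Measurable T → Measurable S → (∀ x, ‖T x‖ ≤ L) → (∀ x, ‖S x‖ ≤ L) →
    (∀ x x', f x + inner ℝ (x' - x) (T x) ≤ f x') → (∀ x x', f x + inner ℝ (x' - x) (S x) - ε x ≤ f x') →
    (∀ x, 0 ≤ ε x) → Integrable ε (uniformProbOn K) →
    ∫ x, ‖T x - S x‖ ^ 2 ∂(uniformProbOn K) ≤ Cn * Real.sqrt (∫ x, ε x ∂(uniformProbOn K))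

lemma approx {d : ℕ} (hd : 0 < d) {K : Set (Sp d)} (hKc : IsCompact K) (hKi : (interior K).Nonempty) {L Cn R δ : ℝ}
    (hCn0 : 0 ≤ Cn) (hnear : NearStmt K L Cn) (hR0 : 0 ≤ R) (hR : ∀ x ∈ K, ‖x‖ ≤ R) (_hδ : 0 < δ)
    {Y : Set (Sp d)} (hYL : ∀ y ∈ Y, ‖y‖ ≤ L) {μ : Measure (Sp d)} (hμ : IsProbabilityOn Y μ)
    {T : Sp d → Sp d} (hT : IsOptimalMap (uniformProbOn K) μ T)
    {Q : Sp d → Sp d} (hQ : Measurable Q) (hQδ : ∀ y ∈ Y, ‖Q y - y‖ ≤ δ)
    {V : Finset (Sp d)} (hVY : ∀ v ∈ V, ‖v‖ ≤ L) {M : Sp d → ℝ} (A : Lag (uniformProbOn K) V M (fun _ => 1))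
    (hQM : ∀ v ∈ V, (μ (Q ⁻¹' {v})).toReal = M v) (hQV : μ {y | Q y ∉ V} = 0) :
    ∫ x, ‖T x - A.T x‖ ^ 2 ∂(uniformProbOn K) ≤ 2 * δ ^ 2 + 2 * (Cn * Real.sqrt (2 * (R * δ))) := by
  classical
  have hprob := isProb_ρ hKc hKi
  have hnull := null_singleton hd (K := K)
  have hμp : IsProbabilityMeasure μ := hμ.1
  have haeY : ∀ᵐ y ∂μ, y ∈ Y := by
    rw [ae_iff]; exact hμ.2
  have haeV : ∀ᵐ y ∂μ, Q y ∈ V := by
    rw [ae_iff]; exact hQV
  have hRae : ∀ᵐ x ∂(uniformProbOn K), ‖x‖ ≤ R := by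
    filter_upwards [ae_mem_K hKc] with x hx
    exact hR x hx
  have hμL : ∀ᵐ y ∂μ, ‖y‖ ≤ L := by
    filter_upwards [haeY] with y hy
    exact hYL y hy
  obtain ⟨hTm, hTμ, hopt⟩ := hT
  have hTY := ae_of_map hTm hTμ haeY
  have hTV := ae_of_map hTm hTμ haeV
  obtain ⟨S, hS, hSμ, hQS⟩ := exists_S A Q hQ hQM hQV
  have hSY := ae_of_map hS hSμ haeY
  -- the competitor
  set S' : Sp d → Sp d := fun x => if Q (T x) ∈ V then Q (T x) else A.T x with hS'
  have hS'm : Measurable S' := by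
    refine Measurable.ite ?_ (hQ.comp hTm) A.meas_T
    exact (hQ.comp hTm) (Finset.measurableSet V)
  have hS'V : ∀ x, S' x ∈ V := by
    intro x
    rw [hS']
    simp only
    split_ifs with h
    · exact h
    · exact A.T_mem x
  have hS'ae : ∀ᵐ x ∂(uniformProbOn K), S' x = Q (T x) := by
    filter_upwards [hTV] with x hx
    rw [hS']
    simp only [if_pos hx]
  set ε : Sp d → ℝ := fun x => A.f x + A.ψ (S' x) - inner ℝ x (S' x) with hε
  have hε0 : ∀ x, 0 ≤ ε x := by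
    intro x
    have := A.T_max x (S' x) (hS'V x)
    rw [hε]
    unfold Lag.f
    simp only
    linarith
  -- integrability
  have hAL : ∀ x, ‖A.T x‖ ≤ L := fun x => hVY _ (A.T_mem x)
  have hS'L : ∀ x, ‖S' x‖ ≤ L := fun x => hVY _ (hS'V x)
  have iA := int_inner hR0 hRae A.meas_T (Filter.Eventually.of_forall hAL)
  have iS' := int_inner hR0 hRae hS'm (Filter.Eventually.of_forall hS'L)
  -- functions of finitely valued maps
  have hfin : ∀ U : Sp d → Sp d, Measurable U → (∀ x, U x ∈ V) →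
      Integrable (fun x => A.ψ (U x)) (uniformProbOn K) ∧
      ∫ x, A.ψ (U x) ∂(uniformProbOn K) = ∑ v ∈ V, A.ψ v * ((uniformProbOn K) (U ⁻¹' {v})).toReal := by
    intro U hU hUV
    have e1 : ∀ x, A.ψ (U x) = ∑ v ∈ V, (U ⁻¹' {v}).indicator (fun _ => A.ψ v) x := by
      intro x
      rw [Finset.sum_eq_single (U x)]
      · rw [indicator_of_mem]; rfl
      · intro v _ hv
        rw [indicator_of_notMem]
        intro h
        exact hv (Set.mem_singleton_iff.1 h).symm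
      · intro h; exact absurd (hUV x) h
    have i1 : ∀ v ∈ V, Integrable (fun x => (U ⁻¹' {v}).indicator (fun _ => A.ψ v) x) (uniformProbOn K) :=
      fun v _ => (integrable_const _).indicator (hU (measurableSet_singleton v))
    constructor
    · simp_rw [e1]
      exact integrable_finsetSum _ i1
    · simp_rw [e1]
      rw [integral_finsetSum _ i1]
      apply Finset.sum_congr rfl
      intro v _
      rw [integral_indicator (hU (measurableSet_singleton v)), setIntegral_const, smul_eq_mul, mul_comm]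
      rfl
  have hψeq : ∫ x, A.ψ (S' x) ∂(uniformProbOn K) = ∫ x, A.ψ (A.T x) ∂(uniformProbOn K) := by
    rw [(hfin S' hS'm hS'V).2, (hfin A.T A.meas_T A.T_mem).2]
    apply Finset.sum_congr rfl
    intro v hv
    congr 1
    have h1 : (uniformProbOn K) (S' ⁻¹' {v}) = μ (Q ⁻¹' {v}) := by
      rw [← hTμ, Measure.map_apply hTm (hQ (measurableSet_singleton v))]
      apply measure_congr
      filter_upwards [hS'ae] with x hx
      apply propext
      show S' x = v ↔ Q (T x) = v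
      rw [hx]
    rw [h1, hQM v hv, ← A.mass v hv, setIntegral_const, smul_eq_mul, mul_one]
    rfl
  have hεint : Integrable ε (uniformProbOn K) := by
    have h1 := ((iA.sub (hfin A.T A.meas_T A.T_mem).1).add (hfin S' hS'm hS'V).1).sub iS'
    exact h1
  have hεval : ∫ x, ε x ∂(uniformProbOn K) ≤ 2 * (R * δ) := by
    have e1 : ∫ x, ε x ∂(uniformProbOn K) = (∫ x, inner ℝ x (A.T x) ∂(uniformProbOn K)) - ∫ x, inner ℝ x (S' x) ∂(uniformProbOn K) := by
      have h1 : ∀ x, ε x = (inner ℝ x (A.T x) - A.ψ (A.T x) + A.ψ (S' x)) - inner ℝ x (S' x) := fun x => rfl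
      have j1 : Integrable (fun x => inner ℝ x (A.T x) - A.ψ (A.T x)) (uniformProbOn K) :=
        iA.sub (hfin A.T A.meas_T A.T_mem).1
      have j2 : Integrable (fun x => inner ℝ x (A.T x) - A.ψ (A.T x) + A.ψ (S' x)) (uniformProbOn K) :=
        j1.add (hfin S' hS'm hS'V).1
      simp_rw [h1]
      rw [integral_sub j2 iS', integral_add j1 (hfin S' hS'm hS'V).1,
        integral_sub iA (hfin A.T A.meas_T A.T_mem).1, hψeq]
      ring
    have hTL : ∀ᵐ x ∂(uniformProbOn K), ‖T x‖ ≤ L := ae_of_map hTm hTμ hμL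
    have hSL : ∀ᵐ x ∂(uniformProbOn K), ‖S x‖ ≤ L := ae_of_map hS hSμ hμL
    have iT := int_inner hR0 hRae hTm hTL
    have iS := int_inner hR0 hRae hS hSL
    have h2 : ∫ x, inner ℝ x (A.T x) ∂(uniformProbOn K) ≤ (∫ x, inner ℝ x (S x) ∂(uniformProbOn K)) + R * δ := by
      have : ∫ x, inner ℝ x (A.T x) ∂(uniformProbOn K) ≤ ∫ x, (inner ℝ x (S x) + R * δ) ∂(uniformProbOn K) := by
        apply integral_mono_ae iA (iS.add (integrable_const _))
        filter_upwards [hRae, hSY, hQS] with x h1 h2 h3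
        show inner ℝ x (A.T x) ≤ inner ℝ x (S x) + R * δ
        rw [← h3]
        have h4 : inner ℝ x (Q (S x)) = inner ℝ x (S x) + inner ℝ x (Q (S x) - S x) := by
          rw [inner_sub_right]; ring
        rw [h4]
        have h5 : inner ℝ x (Q (S x) - S x) ≤ R * δ :=
          (real_inner_le_norm _ _).trans (mul_le_mul h1 (hQδ _ h2) (norm_nonneg _) hR0)
        linarith
      rw [integral_add iS (integrable_const _)] at this
      simpa using this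
    have h3 : (∫ x, inner ℝ x (T x) ∂(uniformProbOn K)) - R * δ ≤ ∫ x, inner ℝ x (S' x) ∂(uniformProbOn K) := by
      have : ∫ x, (inner ℝ x (T x) - R * δ) ∂(uniformProbOn K) ≤ ∫ x, inner ℝ x (S' x) ∂(uniformProbOn K) := by
        apply integral_mono_ae (iT.sub (integrable_const _)) iS'
        filter_upwards [hRae, hTY, hS'ae] with x h1 h2 h3
        show inner ℝ x (T x) - R * δ ≤ inner ℝ x (S' x)
        rw [h3]
        have h4 : inner ℝ x (Q (T x)) = inner ℝ x (T x) + inner ℝ x (Q (T x) - T x) := by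
          rw [inner_sub_right]; ring
        rw [h4]
        have h5 : |inner ℝ x (Q (T x) - T x)| ≤ R * δ :=
          (abs_real_inner_le_norm _ _).trans (mul_le_mul h1 (hQδ _ h2) (norm_nonneg _) hR0)
        have := (abs_le.1 h5).1
        linarith
      rw [integral_sub iT (integrable_const _)] at this
      simpa using this
    have h4 := opt_inner hR0 hRae hμL ⟨hTm, hTμ, hopt⟩ hS hSμ
    rw [e1]
    linarith
  have hsub : ∀ x x', A.f x + inner ℝ (x' - x) (S' x) - ε x ≤ A.f x' := by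
    intro x x'
    have := A.T_max x' (S' x) (hS'V x)
    rw [inner_sub_left, hε]
    simp only
    unfold Lag.f
    linarith
  have h1 := hnear A.f A.T S' ε A.meas_T hS'm hAL hS'L A.f_subgrad hsub hε0 hεint
  have h2 : Real.sqrt (∫ x, ε x ∂(uniformProbOn K)) ≤ Real.sqrt (2 * (R * δ)) := Real.sqrt_le_sqrt hεval
  have h3 : ∫ x, ‖A.T x - S' x‖ ^ 2 ∂(uniformProbOn K) ≤ Cn * Real.sqrt (2 * (R * δ)) :=
    h1.trans (mul_le_mul_of_nonneg_left h2 hCn0)
  -- combine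
  have iAS : Integrable (fun x => ‖A.T x - S' x‖ ^ 2) (uniformProbOn K) := by
    refine Integrable.of_bound (C := (L + L) ^ 2)
      ((A.meas_T.sub hS'm).norm.pow_const 2).aestronglyMeasurable ?_
    filter_upwards with x
    rw [Real.norm_eq_abs, abs_of_nonneg (by positivity)]
    have : ‖A.T x - S' x‖ ≤ L + L := (norm_sub_le _ _).trans (add_le_add (hAL x) (hS'L x))
    gcongr
  have iTA : Integrable (fun x => ‖T x - A.T x‖ ^ 2) (uniformProbOn K) := by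
    refine Integrable.of_bound (C := (L + L) ^ 2)
      ((hTm.sub A.meas_T).norm.pow_const 2).aestronglyMeasurable ?_
    filter_upwards [ae_of_map hTm hTμ hμL] with x hx
    rw [Real.norm_eq_abs, abs_of_nonneg (by positivity)]
    have : ‖T x - A.T x‖ ≤ L + L := (norm_sub_le _ _).trans (add_le_add hx (hAL x))
    gcongr
  calc ∫ x, ‖T x - A.T x‖ ^ 2 ∂(uniformProbOn K) ≤ ∫ x, (2 * δ ^ 2 + 2 * ‖A.T x - S' x‖ ^ 2) ∂(uniformProbOn K) := by
        apply integral_mono_ae iTA ((integrable_const _).add (iAS.const_mul 2))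
        filter_upwards [hTY, hS'ae] with x h1 h2
        have h3 : ‖T x - A.T x‖ ≤ ‖T x - S' x‖ + ‖S' x - A.T x‖ := norm_sub_le_norm_sub_add_norm_sub _ _ _
        have h4 : ‖T x - S' x‖ ≤ δ := by
          rw [h2, norm_sub_rev]; exact hQδ _ h1
        have h5 : ‖T x - A.T x‖ ^ 2 ≤ (δ + ‖A.T x - S' x‖) ^ 2 := by
          rw [norm_sub_rev (S' x)] at h3
          exact pow_le_pow_left₀ (norm_nonneg _) (h3.trans (by linarith)) 2
        show ‖T x - A.T x‖ ^ 2 ≤ 2 * δ ^ 2 + 2 * ‖A.T x - S' x‖ ^ 2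
        nlinarith [sq_nonneg (δ - ‖A.T x - S' x‖)]
    _ = 2 * δ ^ 2 + 2 * ∫ x, ‖A.T x - S' x‖ ^ 2 ∂(uniformProbOn K) := by
        rw [integral_add (integrable_const _) (iAS.const_mul 2)]
        simp [integral_const_mul]
    _ ≤ _ := by linarith


/-- the discrete statement -/
def DiscStmt {d : ℕ} (K : Set (Sp d)) (L C : ℝ) : Prop :=
  ∀ (P : Finset (Sp d × Sp d)) (m : Sp d × Sp d → ℝ), P.Nonempty → (∀ p ∈ P, 0 < m p) → ∑ p ∈ P, m p = 1 →
    (∀ p ∈ P, ‖p.1‖ ≤ L ∧ ‖p.2‖ ≤ L) →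
    ∀ (V1 V2 : Finset (Sp d)) (M1 M2 : Sp d → ℝ), V1 = P.image Prod.fst → V2 = P.image Prod.snd →
    (∀ v ∈ V1, M1 v = ∑ p ∈ P with p.1 = v, m p) → (∀ v ∈ V2, M2 v = ∑ p ∈ P with p.2 = v, m p) →
    ∀ (A : Lag (uniformProbOn K) V1 M1 (fun _ => 1)) (B : Lag (uniformProbOn K) V2 M2 (fun _ => 1)),
      ∫ x, ‖A.T x - B.T x‖ ^ 2 ∂(uniformProbOn K) ≤ C * (∑ p ∈ P, m p * ‖p.1 - p.2‖ ^ 2) ^ (1/3 : ℝ)

/-- quantising a coupling -/
lemma exists_disc {d : ℕ} {t : Finset (Sp d)} {Q : Sp d → Sp d} (hQ : Measurable Q) (hQt : ∀ y, Q y ∈ t)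
    (π : Measure (Sp d × Sp d)) [IsProbabilityMeasure π] :
    ∃ (P : Finset (Sp d × Sp d)) (m : Sp d × Sp d → ℝ), (∀ p ∈ P, 0 < m p) ∧ (∀ p ∈ P, p.1 ∈ t ∧ p.2 ∈ t) ∧
      ∀ g : Sp d × Sp d → ℝ, Integrable (fun q : Sp d × Sp d => g (Q q.1, Q q.2)) π ∧
        ∫ q : Sp d × Sp d, g (Q q.1, Q q.2) ∂π = ∑ p ∈ P, m p * g p := by
  classical
  set QQ : Sp d × Sp d → Sp d × Sp d := fun q => (Q q.1, Q q.2) with hQQ
  have hQQm : Measurable QQ := (hQ.comp measurable_fst).prodMk (hQ.comp measurable_snd)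
  refine ⟨(t ×ˢ t).filter (fun p => 0 < (π (QQ ⁻¹' {p})).toReal), fun p => (π (QQ ⁻¹' {p})).toReal,
    fun p hp => (Finset.mem_filter.1 hp).2, fun p hp => Finset.mem_product.1 (Finset.mem_filter.1 hp).1, ?_⟩
  have hcellm : ∀ p, MeasurableSet (QQ ⁻¹' {p}) := fun p => hQQm (measurableSet_singleton p)
  intro g
  have e1 : ∀ q, g (QQ q) = ∑ p ∈ t ×ˢ t, (QQ ⁻¹' {p}).indicator (fun _ => g p) q := by
    intro q
    rw [Finset.sum_eq_single (QQ q)]
    · rw [indicator_of_mem]; rfl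
    · intro p _ hp
      rw [indicator_of_notMem]
      intro h
      exact hp (Set.mem_singleton_iff.1 h).symm
    · intro h
      exact absurd (Finset.mem_product.2 ⟨hQt _, hQt _⟩) h
  have i1 : ∀ p ∈ t ×ˢ t, Integrable (fun q => (QQ ⁻¹' {p}).indicator (fun _ => g p) q) π :=
    fun p _ => (integrable_const _).indicator (hcellm p)
  constructor
  · show Integrable (fun q => g (QQ q)) π
    simp_rw [e1]
    exact integrable_finsetSum _ i1
  · show ∫ q, g (QQ q) ∂π = _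
    simp_rw [e1]
    rw [integral_finsetSum _ i1, Finset.sum_filter]
    apply Finset.sum_congr rfl
    intro p _
    rw [integral_indicator (hcellm p), setIntegral_const, smul_eq_mul]
    split_ifs with h
    · rfl
    · have : π.real (QQ ⁻¹' {p}) = 0 := le_antisymm (not_lt.1 h) ENNReal.toReal_nonneg
      rw [this, zero_mul]

lemma exists_lag_one {d : ℕ} {K : Set (Sp d)} (hKc : IsCompact K) (hKi : (interior K).Nonempty)
    (V : Finset (Sp d)) (hV : V.Nonempty) (M : Sp d → ℝ)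
    (hM : ∀ v ∈ V, 0 < M v) (hM1 : ∑ v ∈ V, M v = 1) : Nonempty (Lag (uniformProbOn K) V M (fun _ => 1)) := by
  have hprob := isProb_ρ hKc hKi
  exact exists_lag hKc hKi V hV M hM hM1 (fun _ => 1) measurable_const (fun _ => zero_le_one) (fun _ => one_le_two) (by simp)

/-- one quantisation step -/
lemma step {d : ℕ} (hd : 0 < d) {K : Set (Sp d)} (hKc : IsCompact K) (hKi : (interior K).Nonempty) {L Cn Cd R δ : ℝ}
    (hCn0 : 0 ≤ Cn) (hnear : NearStmt K L Cn) (hCd0 : 0 ≤ Cd) (hdisc : DiscStmt K L Cd)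
    (hR0 : 0 ≤ R) (hR : ∀ x ∈ K, ‖x‖ ≤ R) (hδ : 0 < δ)
    {Y : Set (Sp d)} (hYc : IsCompact Y) (hYn : Y.Nonempty) (hYL : ∀ y ∈ Y, ‖y‖ ≤ L) {μ ν : Measure (Sp d)}
    (hμ : IsProbabilityOn Y μ) (hν : IsProbabilityOn Y ν)
    {Tμ Tν : Sp d → Sp d} (hTμ : IsOptimalMap (uniformProbOn K) μ Tμ) (hTν : IsOptimalMap (uniformProbOn K) ν Tν)
    {π : Measure (Sp d × Sp d)} (hπ : IsPairCoupling μ ν π) :
    ∫ x, ‖Tμ x - Tν x‖ ^ 2 ∂(uniformProbOn K) ≤
      3 * (2 * (2 * δ ^ 2 + 2 * (Cn * Real.sqrt (2 * (R * δ)))) +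
        Cd * ((∫ q, ‖q.1 - q.2‖ ^ 2 ∂π) + (8 * L * δ + 4 * δ ^ 2)) ^ (1/3 : ℝ)) := by
  classical
  have hprob := isProb_ρ hKc hKi
  have hμp : IsProbabilityMeasure μ := hμ.1
  have hνp : IsProbabilityMeasure ν := hν.1
  obtain ⟨hπ1, hπ2⟩ := hπ
  have hπp : IsProbabilityMeasure π := by
    constructor
    have h1 : μ univ = 1 := measure_univ
    rw [← hπ1, Measure.map_apply measurable_fst MeasurableSet.univ, preimage_univ] at h1
    exact h1
  have hL0 : 0 ≤ L := by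
    obtain ⟨y, hy⟩ := hYn
    exact (norm_nonneg _).trans (hYL y hy)
  obtain ⟨t, Q, htY, hQ, hQt, hQδ⟩ := exists_quant hYc hYn δ hδ
  obtain ⟨P, m, hPpos, hPt, hG⟩ := exists_disc hQ hQt π
  have hsum : ∑ p ∈ P, m p = 1 := by
    have h1 := (hG (fun _ => (1:ℝ))).2
    simp only [mul_one] at h1
    rw [← h1]
    simp
  have hPn : P.Nonempty := by
    by_contra h
    rw [Finset.not_nonempty_iff_eq_empty] at h
    rw [h, Finset.sum_empty] at hsum
    exact one_ne_zero hsum.symm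
  have hPL : ∀ p ∈ P, ‖p.1‖ ≤ L ∧ ‖p.2‖ ≤ L := fun p hp =>
    ⟨hYL _ (htY _ (hPt p hp).1), hYL _ (htY _ (hPt p hp).2)⟩
  -- marginals
  have hW1 : ∀ W : Set (Sp d), MeasurableSet W →
      (μ (Q ⁻¹' W)).toReal = ∑ p ∈ P, m p * (W.indicator (fun _ => (1:ℝ)) p.1) := by
    intro W hWm
    rw [← (hG (fun p => W.indicator (fun _ => (1:ℝ)) p.1)).2]
    have : (fun q : Sp d × Sp d => W.indicator (fun _ => (1:ℝ)) (Q q.1)) =
        (Prod.fst ⁻¹' (Q ⁻¹' W)).indicator (fun _ => (1:ℝ)) := by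
      ext q; rfl
    simp only
    rw [this, integral_indicator (measurable_fst (hQ hWm)), setIntegral_const, smul_eq_mul, mul_one,
      ← hπ1, Measure.map_apply measurable_fst (hQ hWm)]
    rfl
  have hW2 : ∀ W : Set (Sp d), MeasurableSet W →
      (ν (Q ⁻¹' W)).toReal = ∑ p ∈ P, m p * (W.indicator (fun _ => (1:ℝ)) p.2) := by
    intro W hWm
    rw [← (hG (fun p => W.indicator (fun _ => (1:ℝ)) p.2)).2]
    have : (fun q : Sp d × Sp d => W.indicator (fun _ => (1:ℝ)) (Q q.2)) =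
        (Prod.snd ⁻¹' (Q ⁻¹' W)).indicator (fun _ => (1:ℝ)) := by
      ext q; rfl
    simp only
    rw [this, integral_indicator (measurable_snd (hQ hWm)), setIntegral_const, smul_eq_mul, mul_one,
      ← hπ2, Measure.map_apply measurable_snd (hQ hWm)]
    rfl
  have hmarg1 : ∀ v, (μ (Q ⁻¹' {v})).toReal = ∑ p ∈ P with p.1 = v, m p := by
    intro v
    rw [hW1 {v} (measurableSet_singleton v), Finset.sum_filter]
    apply Finset.sum_congr rfl
    intro p _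
    by_cases h : p.1 = v
    · rw [if_pos h, indicator_of_mem (by exact h), mul_one]
    · rw [if_neg h, indicator_of_notMem (by exact h), mul_zero]
  have hmarg2 : ∀ v, (ν (Q ⁻¹' {v})).toReal = ∑ p ∈ P with p.2 = v, m p := by
    intro v
    rw [hW2 {v} (measurableSet_singleton v), Finset.sum_filter]
    apply Finset.sum_congr rfl
    intro p _
    by_cases h : p.2 = v
    · rw [if_pos h, indicator_of_mem (by exact h), mul_one]
    · rw [if_neg h, indicator_of_notMem (by exact h), mul_zero]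
  have hout1 : μ {y | Q y ∉ P.image Prod.fst} = 0 := by
    have h1 := hW1 ((P.image Prod.fst : Finset (Sp d)) : Set (Sp d))ᶜ (Finset.measurableSet _).compl
    rw [Finset.sum_eq_zero] at h1
    · exact (ENNReal.toReal_eq_zero_iff _).1 h1 |>.resolve_right (measure_ne_top _ _)
    · intro p hp
      rw [indicator_of_notMem, mul_zero]
      rw [notMem_compl_iff]
      exact Finset.mem_coe.2 (Finset.mem_image_of_mem _ hp)
  have hout2 : ν {y | Q y ∉ P.image Prod.snd} = 0 := by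
    have h1 := hW2 ((P.image Prod.snd : Finset (Sp d)) : Set (Sp d))ᶜ (Finset.measurableSet _).compl
    rw [Finset.sum_eq_zero] at h1
    · exact (ENNReal.toReal_eq_zero_iff _).1 h1 |>.resolve_right (measure_ne_top _ _)
    · intro p hp
      rw [indicator_of_notMem, mul_zero]
      rw [notMem_compl_iff]
      exact Finset.mem_coe.2 (Finset.mem_image_of_mem _ hp)
  -- Laguerre data
  obtain ⟨V1, hV1⟩ : ∃ V1 : Finset (Sp d), V1 = P.image Prod.fst := ⟨_, rfl⟩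
  obtain ⟨V2, hV2⟩ : ∃ V2 : Finset (Sp d), V2 = P.image Prod.snd := ⟨_, rfl⟩
  have hpos1 : ∀ v ∈ V1, 0 < (μ (Q ⁻¹' {v})).toReal := by
    intro v hv
    rw [hmarg1]
    rw [hV1] at hv
    obtain ⟨p, hp, hpv⟩ := Finset.mem_image.1 hv
    exact Finset.sum_pos (fun q hq => hPpos q (Finset.mem_filter.1 hq).1) ⟨p, Finset.mem_filter.2 ⟨hp, hpv⟩⟩
  have hpos2 : ∀ v ∈ V2, 0 < (ν (Q ⁻¹' {v})).toReal := by
    intro v hv
    rw [hmarg2]
    rw [hV2] at hv
    obtain ⟨p, hp, hpv⟩ := Finset.mem_image.1 hv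
    exact Finset.sum_pos (fun q hq => hPpos q (Finset.mem_filter.1 hq).1) ⟨p, Finset.mem_filter.2 ⟨hp, hpv⟩⟩
  have hs1 : ∑ v ∈ V1, (μ (Q ⁻¹' {v})).toReal = 1 := by
    rw [← hsum, Finset.sum_congr rfl (fun v _ => hmarg1 v), hV1]
    exact Finset.sum_fiberwise_of_maps_to (fun p hp => Finset.mem_image_of_mem _ hp) m
  have hs2 : ∑ v ∈ V2, (ν (Q ⁻¹' {v})).toReal = 1 := by
    rw [← hsum, Finset.sum_congr rfl (fun v _ => hmarg2 v), hV2]
    exact Finset.sum_fiberwise_of_maps_to (fun p hp => Finset.mem_image_of_mem _ hp) m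
  have hV1n : V1.Nonempty := hV1 ▸ hPn.image _
  have hV2n : V2.Nonempty := hV2 ▸ hPn.image _
  obtain ⟨A⟩ := exists_lag_one hKc hKi V1 hV1n (fun v => (μ (Q ⁻¹' {v})).toReal) hpos1 hs1
  obtain ⟨B⟩ := exists_lag_one hKc hKi V2 hV2n (fun v => (ν (Q ⁻¹' {v})).toReal) hpos2 hs2
  have hV1L : ∀ v ∈ V1, ‖v‖ ≤ L := by
    intro v hv
    rw [hV1] at hv
    obtain ⟨p, hp, rfl⟩ := Finset.mem_image.1 hv
    exact (hPL p hp).1
  have hV2L : ∀ v ∈ V2, ‖v‖ ≤ L := by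
    intro v hv
    rw [hV2] at hv
    obtain ⟨p, hp, rfl⟩ := Finset.mem_image.1 hv
    exact (hPL p hp).2
  have hA := approx hd hKc hKi hCn0 hnear hR0 hR hδ hYL hμ hTμ hQ hQδ hV1L A (fun v _ => rfl) (hV1 ▸ hout1)
  have hB := approx hd hKc hKi hCn0 hnear hR0 hR hδ hYL hν hTν hQ hQδ hV2L B (fun v _ => rfl) (hV2 ▸ hout2)
  have hAB := hdisc P m hPn hPpos hsum hPL V1 V2 _ _ hV1 hV2 (fun v _ => hmarg1 v) (fun v _ => hmarg2 v) A B
  -- cost estimate
  have haeπ : ∀ᵐ q ∂π, q.1 ∈ Y ∧ q.2 ∈ Y := by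
    have h1 : ∀ᵐ y ∂μ, y ∈ Y := by rw [ae_iff]; exact hμ.2
    have h2 : ∀ᵐ y ∂ν, y ∈ Y := by rw [ae_iff]; exact hν.2
    rw [← hπ1] at h1
    rw [← hπ2] at h2
    exact (ae_of_ae_map measurable_fst.aemeasurable h1).and (ae_of_ae_map measurable_snd.aemeasurable h2)
  have hcint : Integrable (fun q : Sp d × Sp d => ‖q.1 - q.2‖ ^ 2) π := by
    refine Integrable.of_bound (C := (L + L) ^ 2) (by fun_prop) ?_
    filter_upwards [haeπ] with q hq
    rw [Real.norm_eq_abs, abs_of_nonneg (by positivity)]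
    have : ‖q.1 - q.2‖ ≤ L + L := (norm_sub_le _ _).trans (add_le_add (hYL _ hq.1) (hYL _ hq.2))
    gcongr
  have hcost : ∑ p ∈ P, m p * ‖p.1 - p.2‖ ^ 2 ≤ (∫ q, ‖q.1 - q.2‖ ^ 2 ∂π) + (8 * L * δ + 4 * δ ^ 2) := by
    rw [← (hG (fun p => ‖p.1 - p.2‖ ^ 2)).2]
    calc ∫ q : Sp d × Sp d, ‖((Q q.1, Q q.2) : Sp d × Sp d).1 - ((Q q.1, Q q.2) : Sp d × Sp d).2‖ ^ 2 ∂π ≤ ∫ q, (‖q.1 - q.2‖ ^ 2 + (8 * L * δ + 4 * δ ^ 2)) ∂π := by
          apply integral_mono_ae (hG (fun p => ‖p.1 - p.2‖ ^ 2)).1 (hcint.add (integrable_const _))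
          filter_upwards [haeπ] with q hq
          show ‖Q q.1 - Q q.2‖ ^ 2 ≤ ‖q.1 - q.2‖ ^ 2 + (8 * L * δ + 4 * δ ^ 2)
          have h1 := hQδ _ hq.1
          have h2 := hQδ _ hq.2
          have h3 : ‖q.1 - q.2‖ ≤ L + L := (norm_sub_le _ _).trans (add_le_add (hYL _ hq.1) (hYL _ hq.2))
          have h4 : ‖Q q.1 - Q q.2‖ ≤ ‖q.1 - q.2‖ + 2 * δ := by
            have e1 : Q q.1 - Q q.2 = (q.1 - q.2) + (Q q.1 - q.1) - (Q q.2 - q.2) := by abel
            rw [e1]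
            refine (norm_sub_le _ _).trans ?_
            have := norm_add_le (q.1 - q.2) (Q q.1 - q.1)
            linarith
          have h5 : ‖Q q.1 - Q q.2‖ ^ 2 ≤ (‖q.1 - q.2‖ + 2 * δ) ^ 2 := pow_le_pow_left₀ (norm_nonneg _) h4 2
          have h6 : ‖q.1 - q.2‖ * δ ≤ (L + L) * δ := mul_le_mul_of_nonneg_right h3 hδ.le
          nlinarith
      _ = _ := by
          rw [integral_add hcint (integrable_const _)]
          simp
  have hcost0 : 0 ≤ ∑ p ∈ P, m p * ‖p.1 - p.2‖ ^ 2 := Finset.sum_nonneg fun p hp => mul_nonneg (hPpos p hp).le (by positivity)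
  have hAB' : ∫ x, ‖A.T x - B.T x‖ ^ 2 ∂(uniformProbOn K) ≤
      Cd * ((∫ q, ‖q.1 - q.2‖ ^ 2 ∂π) + (8 * L * δ + 4 * δ ^ 2)) ^ (1/3 : ℝ) :=
    hAB.trans (mul_le_mul_of_nonneg_left (Real.rpow_le_rpow hcost0 hcost (by norm_num)) hCd0)
  -- integrability
  have hTμL : ∀ᵐ x ∂(uniformProbOn K), ‖Tμ x‖ ≤ L := by
    apply ae_of_map (p := fun y => ‖y‖ ≤ L) hTμ.1 hTμ.2.1
    have h1 : ∀ᵐ y ∂μ, y ∈ Y := by rw [ae_iff]; exact hμ.2
    filter_upwards [h1] with y hy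
    exact hYL y hy
  have hTνL : ∀ᵐ x ∂(uniformProbOn K), ‖Tν x‖ ≤ L := by
    apply ae_of_map (p := fun y => ‖y‖ ≤ L) hTν.1 hTν.2.1
    have h1 : ∀ᵐ y ∂ν, y ∈ Y := by rw [ae_iff]; exact hν.2
    filter_upwards [h1] with y hy
    exact hYL y hy
  have hAL : ∀ᵐ x ∂(uniformProbOn K), ‖A.T x‖ ≤ L := Filter.Eventually.of_forall fun x => hV1L _ (A.T_mem x)
  have hBL : ∀ᵐ x ∂(uniformProbOn K), ‖B.T x‖ ≤ L := Filter.Eventually.of_forall fun x => hV2L _ (B.T_mem x)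
  have hint : ∀ U W : Sp d → Sp d, Measurable U → Measurable W → (∀ᵐ x ∂(uniformProbOn K), ‖U x‖ ≤ L) →
      (∀ᵐ x ∂(uniformProbOn K), ‖W x‖ ≤ L) → Integrable (fun x => ‖U x - W x‖ ^ 2) (uniformProbOn K) := by
    intro U W hU hW hUL hWL
    refine Integrable.of_bound (C := (L + L) ^ 2) ((hU.sub hW).norm.pow_const 2).aestronglyMeasurable ?_
    filter_upwards [hUL, hWL] with x h1 h2
    rw [Real.norm_eq_abs, abs_of_nonneg (by positivity)]
    have : ‖U x - W x‖ ≤ L + L := (norm_sub_le _ _).trans (add_le_add h1 h2)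
    gcongr
  have j0 := hint Tμ Tν hTμ.1 hTν.1 hTμL hTνL
  have j1 := hint Tμ A.T hTμ.1 A.meas_T hTμL hAL
  have j2 := hint A.T B.T A.meas_T B.meas_T hAL hBL
  have j3 := hint Tν B.T hTν.1 B.meas_T hTνL hBL
  have j12 : Integrable (fun x => ‖Tμ x - A.T x‖ ^ 2 + ‖A.T x - B.T x‖ ^ 2) (uniformProbOn K) := j1.add j2
  have hfinal : ∫ x, ‖Tμ x - Tν x‖ ^ 2 ∂(uniformProbOn K) ≤
      3 * ((∫ x, ‖Tμ x - A.T x‖ ^ 2 ∂(uniformProbOn K)) + (∫ x, ‖A.T x - B.T x‖ ^ 2 ∂(uniformProbOn K)) +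
        ∫ x, ‖Tν x - B.T x‖ ^ 2 ∂(uniformProbOn K)) := by
    rw [← integral_add j1 j2, ← integral_add j12 j3, ← integral_const_mul]
    apply integral_mono j0 ((j12.add j3).const_mul 3)
    intro x
    show ‖Tμ x - Tν x‖ ^ 2 ≤ 3 * (‖Tμ x - A.T x‖ ^ 2 + ‖A.T x - B.T x‖ ^ 2 + ‖Tν x - B.T x‖ ^ 2)
    have h1 : ‖Tμ x - Tν x‖ ≤ ‖Tμ x - A.T x‖ + ‖A.T x - B.T x‖ + ‖Tν x - B.T x‖ := by
      have e1 : Tμ x - Tν x = (Tμ x - A.T x) + (A.T x - B.T x) - (Tν x - B.T x) := by abel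
      rw [e1]
      refine (norm_sub_le _ _).trans ?_
      have := norm_add_le (Tμ x - A.T x) (A.T x - B.T x)
      linarith
    have h2 := pow_le_pow_left₀ (norm_nonneg _) h1 2
    nlinarith [sq_nonneg (‖Tμ x - A.T x‖ - ‖A.T x - B.T x‖), sq_nonneg (‖Tμ x - A.T x‖ - ‖Tν x - B.T x‖),
      sq_nonneg (‖A.T x - B.T x‖ - ‖Tν x - B.T x‖)]
  linarith

/-- PART G: general targets from discrete targets. -/
theorem gen {d : ℕ} (hd : 0 < d) {K : Set (Sp d)} (hKc : IsCompact K) (hKi : (interior K).Nonempty)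
    (hnear : ∀ L : ℝ, ∃ Cn : ℝ, 0 ≤ Cn ∧ NearStmt K L Cn)
    (hdisc : ∀ L : ℝ, ∃ Cd : ℝ, 0 ≤ Cd ∧ DiscStmt K L Cd)
    (Y : Set (Sp d)) (hYc : IsCompact Y) (hYn : Y.Nonempty) :
    ∃ C : ℝ≥0, ∀ μ ν : Measure (EuclideanSpace ℝ (Fin d)), IsProbabilityOn Y μ → IsProbabilityOn Y ν →
      ∀ Tμ Tν : EuclideanSpace ℝ (Fin d) → EuclideanSpace ℝ (Fin d),
        IsOptimalMap (uniformProbOn K) μ Tμ → IsOptimalMap (uniformProbOn K) ν Tν →
        ∀ π : Measure (EuclideanSpace ℝ (Fin d) × EuclideanSpace ℝ (Fin d)), IsPairCoupling μ ν π →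
          ∫⁻ x, ‖Tμ x - Tν x‖ₑ ^ 2 ∂(uniformProbOn K) ≤ C * quadCost π ^ (1 / 3 : ℝ) := by
  have hprob := isProb_ρ hKc hKi
  obtain ⟨R, hR0, hR⟩ := exists_bound hKc
  obtain ⟨L, hL0, hYL⟩ := exists_bound hYc
  obtain ⟨Cn, hCn0, hn⟩ := hnear L
  obtain ⟨Cd, hCd0, hdi⟩ := hdisc L
  refine ⟨Real.toNNReal (3 * Cd), ?_⟩
  intro μ ν hμ hν Tμ Tν hTμ hTν π hπ
  have hstep := fun (δ : ℝ) (hδ : 0 < δ) => step hd hKc hKi hCn0 hn hCd0 hdi hR0 hR hδ hYc hYn hYL hμ hν hTμ hTν hπ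
  -- limit δ → 0
  set c : ℝ := ∫ q, ‖q.1 - q.2‖ ^ 2 ∂π with hc
  have hc0 : 0 ≤ c := integral_nonneg fun q => by positivity
  have hlim : Filter.Tendsto (fun δ : ℝ => 3 * (2 * (2 * δ ^ 2 + 2 * (Cn * Real.sqrt (2 * (R * δ)))) +
        Cd * (c + (8 * L * δ + 4 * δ ^ 2)) ^ (1/3 : ℝ))) (nhdsWithin 0 (Ioi 0)) (nhds (3 * (Cd * c ^ (1/3 : ℝ)))) := by
    have hcont : Continuous (fun δ : ℝ => 3 * (2 * (2 * δ ^ 2 + 2 * (Cn * Real.sqrt (2 * (R * δ)))) +
        Cd * (c + (8 * L * δ + 4 * δ ^ 2)) ^ (1/3 : ℝ))) := by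
      have h1 : Continuous (fun δ : ℝ => (c + (8 * L * δ + 4 * δ ^ 2)) ^ (1/3 : ℝ)) :=
        (by fun_prop : Continuous fun δ : ℝ => c + (8 * L * δ + 4 * δ ^ 2)).rpow_const (fun _ => Or.inr (by norm_num))
      fun_prop
    have := (hcont.tendsto 0).mono_left (nhdsWithin_le_nhds (s := Ioi 0))
    simpa using this
  have hmain : ∫ x, ‖Tμ x - Tν x‖ ^ 2 ∂(uniformProbOn K) ≤ 3 * (Cd * c ^ (1/3 : ℝ)) := by
    apply ge_of_tendsto hlim
    filter_upwards [self_mem_nhdsWithin] with δ hδ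
    exact hstep δ hδ
  -- conversion to ENNReal
  have hTμL : ∀ᵐ x ∂(uniformProbOn K), ‖Tμ x‖ ≤ L := by
    apply ae_of_map (p := fun y => ‖y‖ ≤ L) hTμ.1 hTμ.2.1
    have h1 : ∀ᵐ y ∂μ, y ∈ Y := by rw [ae_iff]; exact hμ.2
    filter_upwards [h1] with y hy
    exact hYL y hy
  have hTνL : ∀ᵐ x ∂(uniformProbOn K), ‖Tν x‖ ≤ L := by
    apply ae_of_map (p := fun y => ‖y‖ ≤ L) hTν.1 hTν.2.1
    have h1 : ∀ᵐ y ∂ν, y ∈ Y := by rw [ae_iff]; exact hν.2
    filter_upwards [h1] with y hy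
    exact hYL y hy
  have hμp : IsProbabilityMeasure μ := hμ.1
  have hπp : IsProbabilityMeasure π := by
    constructor
    have h1 : μ univ = 1 := measure_univ
    rw [← hπ.1, Measure.map_apply measurable_fst MeasurableSet.univ, preimage_univ] at h1
    exact h1
  have haeπ : ∀ᵐ q ∂π, q.1 ∈ Y ∧ q.2 ∈ Y := by
    have h1 : ∀ᵐ y ∂μ, y ∈ Y := by rw [ae_iff]; exact hμ.2
    have h2 : ∀ᵐ y ∂ν, y ∈ Y := by rw [ae_iff]; exact hν.2
    rw [← hπ.1] at h1
    rw [← hπ.2] at h2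
    exact (ae_of_ae_map measurable_fst.aemeasurable h1).and (ae_of_ae_map measurable_snd.aemeasurable h2)
  have i1 : Integrable (fun x => ‖Tμ x - Tν x‖ ^ 2) (uniformProbOn K) := by
    refine Integrable.of_bound (C := (L + L) ^ 2) ((hTμ.1.sub hTν.1).norm.pow_const 2).aestronglyMeasurable ?_
    filter_upwards [hTμL, hTνL] with x h1 h2
    rw [Real.norm_eq_abs, abs_of_nonneg (by positivity)]
    have : ‖Tμ x - Tν x‖ ≤ L + L := (norm_sub_le _ _).trans (add_le_add h1 h2)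
    gcongr
  have i2 : Integrable (fun q : Sp d × Sp d => ‖q.1 - q.2‖ ^ 2) π := by
    refine Integrable.of_bound (C := (L + L) ^ 2) (by fun_prop) ?_
    filter_upwards [haeπ] with q hq
    rw [Real.norm_eq_abs, abs_of_nonneg (by positivity)]
    have : ‖q.1 - q.2‖ ≤ L + L := (norm_sub_le _ _).trans (add_le_add (hYL _ hq.1) (hYL _ hq.2))
    gcongr
  have e1 : ∫⁻ x, ‖Tμ x - Tν x‖ₑ ^ 2 ∂(uniformProbOn K) = ENNReal.ofReal (∫ x, ‖Tμ x - Tν x‖ ^ 2 ∂(uniformProbOn K)) := by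
    rw [ofReal_integral_eq_lintegral_ofReal i1 (Filter.Eventually.of_forall fun x => by positivity)]
    congr 1
    ext x
    rw [← ofReal_norm, ENNReal.ofReal_pow (norm_nonneg _)]
  have e2 : quadCost π = ENNReal.ofReal c := by
    unfold quadCost
    rw [hc, ofReal_integral_eq_lintegral_ofReal i2 (Filter.Eventually.of_forall fun x => by positivity)]
    congr 1
    ext x
    rw [← ofReal_norm, ENNReal.ofReal_pow (norm_nonneg _)]
  rw [e1, e2, ENNReal.ofReal_rpow_of_nonneg hc0 (by norm_num)]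
  have e3 : ((Real.toNNReal (3 * Cd) : ℝ≥0) : ℝ≥0∞) = ENNReal.ofReal (3 * Cd) := rfl
  rw [e3, ← ENNReal.ofReal_mul (by positivity)]
  apply ENNReal.ofReal_le_ofReal
  linarith

end Crest.Agent.OS109
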