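import Crest.Agent.OS109Key3

set_option autoImplicit false
set_option linter.unusedSectionVars false
set_option linter.style.haveILetI false

open MeasureTheory Set
open scoped ENNReal
open Crest.AnalysisR.OT

namespace Crest.Agent.OS109

variable {d : ℕ} {K : Set (Sp d)}

lemma int_unif (f : Sp d → ℝ) :
    ∫ x, f x ∂(uniformProbOn K) = ((volume : Measure (Sp d)) K).toReal⁻¹ * ∫ x in K, f x := by
  unfold uniformProbOn
  rw [integral_smul_measure, ENNReal.toReal_inv, smul_eq_mul]

/-- good inner sets: homothetic copies -/
lemma exists_inner (hKc : IsCompact K) (hKv : Convex ℝ K) (hKi : (interior K).Nonempty) :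
    ∃ r₁ : ℝ, 0 < r₁ ∧ ∀ r : ℝ, 0 < r → r ≤ r₁ → ∃ G : Set (Sp d), IsCompact G ∧ G ⊆ K ∧
      (∀ x ∈ G, ∀ y, ‖y‖ ≤ r → x + y ∈ K) ∧
      (volume K).toReal - (volume G).toReal ≤ d * (r / r₁) * (volume K).toReal := by
  obtain ⟨x0, hx0⟩ := hKi
  obtain ⟨ε, hε, hball⟩ := Metric.isOpen_iff.1 isOpen_interior x0 hx0
  refine ⟨ε / 2, by positivity, fun r hr hr1 => ?_⟩
  set r₁ := ε / 2 with hr₁
  have hr1pos : 0 < r₁ := by positivity
  set s := r / r₁ with hs
  have hs0 : 0 < s := by positivity
  have hs1 : s ≤ 1 := (div_le_one hr1pos).2 hr1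
  refine ⟨AffineMap.homothety x0 (1 - s) '' K, ?_, ?_, ?_, ?_⟩
  · exact hKc.image (AffineMap.homothety_continuous x0 (1 - s))
  · rintro _ ⟨x, hx, rfl⟩
    rw [AffineMap.homothety_apply, vsub_eq_sub, vadd_eq_add]
    have : (1 - s) • (x - x0) + x0 = (1 - s) • x + s • x0 := by module
    rw [this]
    exact hKv hx (interior_subset hx0) (by linarith) hs0.le (by ring)
  · rintro _ ⟨x, hx, rfl⟩ y hy
    rw [AffineMap.homothety_apply, vsub_eq_sub, vadd_eq_add]
    have hy' : x0 + s⁻¹ • y ∈ K := by
      apply interior_subset
      apply hball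
      rw [Metric.mem_ball, dist_eq_norm, add_sub_cancel_left, norm_smul, norm_inv,
        Real.norm_of_nonneg hs0.le]
      calc s⁻¹ * ‖y‖ ≤ s⁻¹ * r := by gcongr
        _ = r₁ := by rw [hs]; field_simp
        _ < ε := by rw [hr₁]; linarith
    have : (1 - s) • (x - x0) + x0 + y = (1 - s) • x + s • (x0 + s⁻¹ • y) := by
      rw [smul_add, smul_smul, mul_inv_cancel₀ hs0.ne', one_smul]
      module
    rw [this]
    exact hKv hx hy' (by linarith) hs0.le (by ring)
  · rw [Measure.addHaar_image_homothety, ENNReal.toReal_mul, finrank_euclideanSpace,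
      Fintype.card_fin, abs_of_nonneg (by have : 0 ≤ 1 - s := by linarith
                                          positivity),
      ENNReal.toReal_ofReal (by have : 0 ≤ 1 - s := by linarith
                                positivity)]
    have hb : 1 - d * s ≤ (1 - s) ^ d := by
      have := one_add_mul_le_pow (a := -s) (by linarith) d
      have e1 : 1 + (d : ℝ) * -s = 1 - d * s := by ring
      have e2 : 1 + -s = 1 - s := by ring
      rw [e1, e2] at this
      exact this
    have hv : 0 ≤ (volume K).toReal := ENNReal.toReal_nonneg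
    nlinarith

/-- integral of the second difference of a Lipschitz function -/
lemma second_diff (hKc : IsCompact K) {G : Set (Sp d)} (hG : IsCompact G) (hGK : G ⊆ K)
    {r L : ℝ} (hr : 0 < r) (hGr : ∀ x ∈ G, ∀ y, ‖y‖ ≤ r → x + y ∈ K)
    (g : Sp d → ℝ) (hg : Continuous g) (hL : ∀ x y, |g x - g y| ≤ L * ‖x - y‖)
    (e : Sp d) (he : ‖e‖ = 1) :
    ∫ x in G, (g (x + r • e) + g (x - r • e) - 2 * g x) ≤
      2 * (L * r) * ((volume K).toReal - (volume G).toReal) := by
  set D : Sp d → ℝ := fun x => g (x + r • e) - g x with hD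
  have hDc : Continuous D := by simp only [hD]; fun_prop
  have hnre : ‖r • e‖ = r := by rw [norm_smul, he, Real.norm_of_nonneg hr.le, mul_one]
  have hDb : ∀ x, |D x| ≤ L * r := by
    intro x
    have := hL (x + r • e) x
    rwa [add_sub_cancel_left, hnre] at this
  have hGm := hG.measurableSet
  have hKm := hKc.measurableSet
  have hGf : volume G ≠ ⊤ := hG.measure_lt_top.ne
  have hKf : volume K ≠ ⊤ := hKc.measure_lt_top.ne
  have iG : ∀ f : Sp d → ℝ, Continuous f → Integrable (G.indicator f) := fun f hf =>
    (hf.continuousOn.integrableOn_compact hG).integrable_indicator hGm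
  have iK : ∀ f : Sp d → ℝ, Continuous f → Integrable (K.indicator f) := fun f hf =>
    (hf.continuousOn.integrableOn_compact hKc).integrable_indicator hKm
  have e1 : ∫ x in G, (g (x + r • e) + g (x - r • e) - 2 * g x) =
      ∫ x, (G.indicator D x - G.indicator (fun x => D (x - r • e)) x) := by
    rw [← integral_indicator hGm]
    congr 1
    funext x
    by_cases hx : x ∈ G
    · simp only [indicator_of_mem hx, hD]
      rw [sub_add_cancel]; ring
    · simp only [indicator_of_notMem hx]; ring
  have hDc' : Continuous (fun x => D (x - r • e)) := by fun_prop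
  rw [e1, integral_sub (iG _ hDc) (iG _ hDc')]
  have e2 : ∫ x, G.indicator (fun x => D (x - r • e)) x =
      ∫ x, G.indicator (fun _ => (1 : ℝ)) (x + r • e) * D x := by
    rw [← integral_sub_right_eq_self (fun x => G.indicator (fun _ => (1 : ℝ)) (x + r • e) * D x)
      (r • e)]
    congr 1
    funext x
    rw [sub_add_cancel]
    by_cases hx : x ∈ G
    · simp only [indicator_of_mem hx]; ring
    · simp only [indicator_of_notMem hx]; ring
  have hpre : MeasurableSet {x : Sp d | x + r • e ∈ G} := by
    exact (measurable_id.add_const (r • e)) hGm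
  have ind_eq : (fun x => G.indicator (fun _ => (1 : ℝ)) (x + r • e)) =
      {x : Sp d | x + r • e ∈ G}.indicator (fun _ => (1 : ℝ)) := by
    funext x
    by_cases hx : x + r • e ∈ G
    · rw [indicator_of_mem hx, indicator_of_mem (by exact hx)]
    · rw [indicator_of_notMem hx, indicator_of_notMem (by exact hx)]
  have hsub : {x : Sp d | x + r • e ∈ G} ⊆ K := by
    intro x hx
    have := hGr _ hx (-(r • e)) (by rw [norm_neg, hnre])
    simpa using this
  have hvol : volume {x : Sp d | x + r • e ∈ G} = volume G := by
    have : {x : Sp d | x + r • e ∈ G} = (fun x => x + r • e) ⁻¹' G := rfl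
    rw [this, measure_preimage_add_right]
  have iG' : Integrable (fun x => G.indicator (fun _ => (1 : ℝ)) (x + r • e) * D x) := by
    have h1 : Integrable (G.indicator (fun x => D (x - r • e))) := iG _ hDc'
    have h2 := h1.comp_add_right (r • e)
    refine h2.congr (Filter.Eventually.of_forall fun x => ?_)
    simp only
    by_cases hx : x + r • e ∈ G
    · simp only [indicator_of_mem hx, add_sub_cancel_right]; ring
    · simp only [indicator_of_notMem hx]; ring
  rw [e2, ← integral_sub (iG _ hDc) iG']
  have hb : ∀ x, G.indicator D x - G.indicator (fun _ => (1 : ℝ)) (x + r • e) * D x ≤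
      (L * r) * ((K.indicator (fun _ => (1 : ℝ)) x - G.indicator (fun _ => (1 : ℝ)) x) +
        (K.indicator (fun _ => (1 : ℝ)) x -
          {x : Sp d | x + r • e ∈ G}.indicator (fun _ => (1 : ℝ)) x)) := by
    intro x
    have h1 := abs_le.1 (hDb x)
    have hLr : 0 ≤ L * r := (abs_nonneg _).trans (hDb x)
    rw [← show (fun x => G.indicator (fun _ => (1 : ℝ)) (x + r • e)) x =
      {x : Sp d | x + r • e ∈ G}.indicator (fun _ => (1 : ℝ)) x from congrFun ind_eq x]
    by_cases hxK : x ∈ K
    · by_cases hx : x ∈ G
      · by_cases hx' : x + r • e ∈ G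
        · simp only [indicator_of_mem hx, indicator_of_mem hxK, indicator_of_mem hx']; linarith
        · simp only [indicator_of_mem hx, indicator_of_mem hxK, indicator_of_notMem hx']
          linarith [h1.2]
      · by_cases hx' : x + r • e ∈ G
        · simp only [indicator_of_notMem hx, indicator_of_mem hxK, indicator_of_mem hx']
          linarith [h1.1]
        · simp only [indicator_of_notMem hx, indicator_of_mem hxK, indicator_of_notMem hx']
          linarith
    · have hx : x ∉ G := fun h => hxK (hGK h)
      have hx' : x + r • e ∉ G := fun h => hxK (hsub h)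
      simp only [indicator_of_notMem hx, indicator_of_notMem hxK, indicator_of_notMem hx']
      linarith
  have i1 : Integrable (K.indicator (fun _ : Sp d => (1 : ℝ))) := iK _ continuous_const
  have i2 : Integrable (G.indicator (fun _ : Sp d => (1 : ℝ))) := iG _ continuous_const
  have i3 : Integrable ({x : Sp d | x + r • e ∈ G}.indicator (fun _ => (1 : ℝ))) := by
    rw [integrable_indicator_iff hpre]
    exact integrableOn_const (by rw [hvol]; exact hGf)
  refine (integral_mono ((iG _ hDc).sub iG')
    ((((i1.sub i2).add (i1.sub i3)).const_mul (L * r))) hb).trans ?_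
  rw [integral_const_mul]
  have e3 : ∫ x, ((K.indicator (fun _ => (1 : ℝ)) x - G.indicator (fun _ => (1 : ℝ)) x) +
        (K.indicator (fun _ => (1 : ℝ)) x -
          {x : Sp d | x + r • e ∈ G}.indicator (fun _ => (1 : ℝ)) x)) =
      2 * ((volume K).toReal - (volume G).toReal) := by
    have j1 : Integrable (fun x : Sp d => K.indicator (fun _ => (1 : ℝ)) x -
      G.indicator (fun _ => (1 : ℝ)) x) := i1.sub i2
    have j2 : Integrable (fun x : Sp d => K.indicator (fun _ => (1 : ℝ)) x -
      {x : Sp d | x + r • e ∈ G}.indicator (fun _ => (1 : ℝ)) x) := i1.sub i3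
    rw [integral_add j1 j2, integral_sub i1 i2, integral_sub i1 i3, integral_indicator hKm,
      integral_indicator hGm, integral_indicator hpre, setIntegral_const, setIntegral_const,
      setIntegral_const]
    simp only [Measure.real, smul_eq_mul, mul_one, hvol]
    ring
  simp only [Pi.add_apply, Pi.sub_apply]
  rw [e3]
  apply le_of_eq; ring

end Crest.Agent.OS109
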