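import Crest.Agent.OS109Interp

set_option autoImplicit false
set_option linter.unusedSectionVars false
set_option linter.style.haveILetI false

open MeasureTheory Set
open scoped ENNReal
open Crest.AnalysisR.OT

namespace Crest.Agent.OS109

variable {d : ℕ} {K : Set (Sp d)}

lemma sub_lip {f : Sp d → ℝ} {T : Sp d → Sp d} {L : ℝ} (hT : ∀ x, ‖T x‖ ≤ L)
    (hf : ∀ x x', f x + inner ℝ (x' - x) (T x) ≤ f x') (x y : Sp d) :
    |f x - f y| ≤ L * ‖x - y‖ := by
  have h1 := hf x y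
  have h2 := hf y x
  have b1 : |inner ℝ (y - x) (T x)| ≤ L * ‖x - y‖ := by
    refine (abs_real_inner_le_norm _ _).trans ?_
    rw [mul_comm, norm_sub_rev]
    have := hT x
    gcongr
  have b2 : |inner ℝ (x - y) (T y)| ≤ L * ‖x - y‖ := by
    refine (abs_real_inner_le_norm _ _).trans ?_
    rw [mul_comm]
    have := hT y
    gcongr
  rw [abs_le] at b1 b2 ⊢
  constructor <;> linarith [b1.1, b1.2, b2.1, b2.2]

lemma sub_cont {f : Sp d → ℝ} {T : Sp d → Sp d} {L : ℝ} (hT : ∀ x, ‖T x‖ ≤ L)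
    (hf : ∀ x x', f x + inner ℝ (x' - x) (T x) ≤ f x') : Continuous f := by
  have hL : 0 ≤ L := (norm_nonneg _).trans (hT 0)
  have : LipschitzWith ⟨L, hL⟩ f := LipschitzWith.of_dist_le_mul fun x x' => by
    rw [Real.dist_eq, dist_eq_norm]; exact sub_lip hT hf x x'
  exact this.continuous

lemma inner_coord (r : ℝ) (i : Fin d) (y : Sp d) :
    inner ℝ (r • (EuclideanSpace.single i (1 : ℝ) : Sp d)) y = r * y i := by
  rw [inner_smul_left, EuclideanSpace.inner_single_left]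
  simp

lemma coord_upper {f : Sp d → ℝ} {T : Sp d → Sp d}
    (hf : ∀ x x', f x + inner ℝ (x' - x) (T x) ≤ f x') {r : ℝ} (x : Sp d) (i : Fin d) :
    r * T x i ≤ f (x + r • EuclideanSpace.single i (1 : ℝ)) - f x ∧
      f x - f (x - r • EuclideanSpace.single i (1 : ℝ)) ≤ r * T x i := by
  have h1 := hf x (x + r • EuclideanSpace.single i (1 : ℝ))
  have h2 := hf x (x - r • EuclideanSpace.single i (1 : ℝ))
  rw [add_sub_cancel_left, inner_coord] at h1
  have e : x - r • EuclideanSpace.single i (1 : ℝ) - x = (-r) • EuclideanSpace.single i (1 : ℝ) := by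
    rw [neg_smul]; abel
  rw [e, inner_coord] at h2
  constructor <;> linarith

lemma norm_single_one (i : Fin d) : ‖(EuclideanSpace.single i (1 : ℝ) : Sp d)‖ = 1 := by
  simp

lemma coord_le_norm (y : Sp d) (i : Fin d) : |y i| ≤ ‖y‖ := by
  have := EuclideanSpace.norm_sq_eq y
  have h1 : y i ^ 2 ≤ ‖y‖ ^ 2 := by
    rw [this]
    have := Finset.single_le_sum (f := fun i => ‖y i‖ ^ 2) (fun i _ => by positivity)
      (Finset.mem_univ i)
    simpa using this
  exact abs_le_of_sq_le_sq h1 (norm_nonneg _)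

/-- pointwise bound for a coordinate of the difference -/
lemma pt_interp {f g : Sp d → ℝ} {T S : Sp d → Sp d} {L r c : ℝ} (hr : 0 < r)
    (hS : ∀ x, ‖S x‖ ≤ L)
    (hf : ∀ x x', f x + inner ℝ (x' - x) (T x) ≤ f x')
    (hg : ∀ x x', g x + inner ℝ (x' - x) (S x) ≤ g x') (x : Sp d) (i : Fin d) :
    (T x i - S x i) ^ 2 ≤ 6 / r ^ 2 * ((f (x + r • EuclideanSpace.single i (1 : ℝ)) -
        g (x + r • EuclideanSpace.single i (1 : ℝ)) - c) ^ 2 + (f x - g x - c) ^ 2 +
        (f (x - r • EuclideanSpace.single i (1 : ℝ)) -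
        g (x - r • EuclideanSpace.single i (1 : ℝ)) - c) ^ 2) +
      4 * L / r * (g (x + r • EuclideanSpace.single i (1 : ℝ)) +
        g (x - r • EuclideanSpace.single i (1 : ℝ)) - 2 * g x) := by
  set e : Sp d := EuclideanSpace.single i (1 : ℝ) with he
  have hL : 0 ≤ L := (norm_nonneg _).trans (hS 0)
  obtain ⟨f1, f2⟩ := coord_upper hf (r := r) x i
  obtain ⟨g1, g2⟩ := coord_upper hg (r := r) x i
  rw [← he] at f1 f2 g1 g2
  have l1 := abs_le.1 (sub_lip hS hg (x + r • e) x)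
  have l2 := abs_le.1 (sub_lip hS hg (x - r • e) x)
  have hnre : ‖r • e‖ = r := by
    rw [norm_smul, he, norm_single_one, Real.norm_of_nonneg hr.le, mul_one]
  rw [add_sub_cancel_left, hnre] at l1
  have e2 : x - r • e - x = -(r • e) := by abel
  rw [e2, norm_neg, hnre] at l2
  set up := f (x + r • e) - g (x + r • e) - c with hup
  set u0 := f x - g x - c with hu0
  set um := f (x - r • e) - g (x - r • e) - c with hum
  set Δ := g (x + r • e) + g (x - r • e) - 2 * g x with hΔ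
  have hΔ0 : 0 ≤ Δ := by rw [hΔ]; linarith
  have hΔ1 : Δ ≤ 2 * (L * r) := by rw [hΔ]; linarith [l1.2, l2.2]
  -- key two-sided bound
  have k1 : r * (T x i - S x i) ≤ (|up| + |u0| + |um|) + Δ := by
    have : r * (T x i - S x i) ≤ (up - u0) + Δ := by
      rw [hup, hu0, hΔ]; linarith
    have a1 := le_abs_self up
    have a2 := neg_abs_le u0
    have a3 := abs_nonneg um
    linarith
  have k2 : -((|up| + |u0| + |um|) + Δ) ≤ r * (T x i - S x i) := by
    have : (u0 - um) - Δ ≤ r * (T x i - S x i) := by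
      rw [hum, hu0, hΔ]; linarith
    have a1 := le_abs_self um
    have a2 := neg_abs_le u0
    have a3 := abs_nonneg up
    linarith
  have k3 : (r * (T x i - S x i)) ^ 2 ≤ ((|up| + |u0| + |um|) + Δ) ^ 2 := sq_le_sq' k2 k1
  have k4 : ((|up| + |u0| + |um|) + Δ) ^ 2 ≤ 6 * (up ^ 2 + u0 ^ 2 + um ^ 2) + 2 * Δ ^ 2 := by
    rw [← sq_abs up, ← sq_abs u0, ← sq_abs um]
    nlinarith [sq_nonneg (|up| + |u0| + |um| - Δ), sq_nonneg (|up| - |u0|),
      sq_nonneg (|up| - |um|), sq_nonneg (|u0| - |um|)]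
  have k5 : Δ ^ 2 ≤ 2 * (L * r) * Δ := by nlinarith
  have hr2 : 0 < r ^ 2 := by positivity
  have k6 : (r * (T x i - S x i)) ^ 2 = r ^ 2 * (T x i - S x i) ^ 2 := by ring
  rw [k6] at k3
  have k7 : r ^ 2 * (T x i - S x i) ^ 2 ≤
      r ^ 2 * (6 / r ^ 2 * (up ^ 2 + u0 ^ 2 + um ^ 2) + 4 * L / r * Δ) := by
    have : r ^ 2 * (6 / r ^ 2 * (up ^ 2 + u0 ^ 2 + um ^ 2) + 4 * L / r * Δ) =
      6 * (up ^ 2 + u0 ^ 2 + um ^ 2) + 4 * (L * r) * Δ := by
      field_simp
    rw [this]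
    linarith
  exact le_of_mul_le_mul_left k7 hr2

/-- pointwise bound for approximate subgradients -/
lemma pt_near {f : Sp d → ℝ} {T S : Sp d → Sp d} {L r : ℝ} {ε : Sp d → ℝ} (hr : 0 < r)
    (hT : ∀ x, ‖T x‖ ≤ L) (hS : ∀ x, ‖S x‖ ≤ L)
    (hf : ∀ x x', f x + inner ℝ (x' - x) (T x) ≤ f x')
    (hg : ∀ x x', f x + inner ℝ (x' - x) (S x) - ε x ≤ f x') (x : Sp d) (i : Fin d) :
    (T x i - S x i) ^ 2 ≤ 2 * L / r * ((f (x + r • EuclideanSpace.single i (1 : ℝ)) +
        f (x - r • EuclideanSpace.single i (1 : ℝ)) - 2 * f x) + ε x) := by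
  set e : Sp d := EuclideanSpace.single i (1 : ℝ) with he
  have hL : 0 ≤ L := (norm_nonneg _).trans (hS 0)
  obtain ⟨f1, f2⟩ := coord_upper hf (r := r) x i
  rw [← he] at f1 f2
  have h1 := hg x (x + r • e)
  have h2 := hg x (x - r • e)
  rw [add_sub_cancel_left, he, inner_coord, ← he] at h1
  have e2 : x - r • e - x = (-r) • e := by rw [neg_smul]; abel
  rw [e2, he, inner_coord, ← he] at h2
  set Δ := f (x + r • e) + f (x - r • e) - 2 * f x with hΔ
  have k1 : |r * (T x i - S x i)| ≤ Δ + ε x := by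
    rw [abs_le, hΔ]; constructor <;> linarith
  have k2 : |T x i - S x i| ≤ (Δ + ε x) / r := by
    rw [abs_mul, abs_of_pos hr] at k1
    rw [le_div_iff₀ hr]; linarith
  have k3 : |T x i - S x i| ≤ 2 * L := by
    have a1 := coord_le_norm (T x) i
    have a2 := coord_le_norm (S x) i
    have a3 := hT x
    have a4 := hS x
    have := abs_sub (T x i) (S x i)
    linarith
  rw [← sq_abs]
  calc |T x i - S x i| ^ 2 = |T x i - S x i| * |T x i - S x i| := by ring
    _ ≤ (2 * L) * ((Δ + ε x) / r) := by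
        apply mul_le_mul k3 k2 (abs_nonneg _) (by positivity)
    _ = _ := by ring

end Crest.Agent.OS109
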