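import Crest.Agent.OS109Interp2

set_option autoImplicit false
set_option linter.unusedSectionVars false
set_option linter.style.haveILetI false

open MeasureTheory Set
open scoped ENNReal
open Crest.AnalysisR.OT

namespace Crest.Agent.OS109

variable {d : ℕ} {K : Set (Sp d)}

lemma trans_le (hKc : IsCompact K) {G : Set (Sp d)} (hG : IsCompact G) (v : Sp d)
    (hGv : ∀ x ∈ G, x + v ∈ K) (φ : Sp d → ℝ) (hφ : Continuous φ) (hφ0 : ∀ x, 0 ≤ φ x) :
    ∫ x in G, φ (x + v) ≤ ∫ x in K, φ x := by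
  set s : Set (Sp d) := {y | y - v ∈ G} with hs
  have hpre : (fun x => x + v) ⁻¹' s = G := by
    ext x; simp [hs]
  have h1 : ∫ x in G, φ (x + v) = ∫ y in s, φ y := by
    have := (measurePreserving_add_right (volume : Measure (Sp d)) v).setIntegral_preimage_emb
      (measurableEmbedding_addRight v) φ s
    rw [hpre] at this
    exact this
  rw [h1]
  apply setIntegral_mono_set (hφ.continuousOn.integrableOn_compact hKc)
    (Filter.Eventually.of_forall fun x => hφ0 x)
  refine Filter.Eventually.of_forall fun x hx => ?_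
  have := hGv _ (show x - v ∈ G from hx)
  rwa [sub_add_cancel] at this

lemma sq_coord_int (hKc : IsCompact K) {T S : Sp d → Sp d} (hT : Measurable T)
    (hS : Measurable S) {L : ℝ} (hTL : ∀ x, ‖T x‖ ≤ L) (hSL : ∀ x, ‖S x‖ ≤ L) (i : Fin d) :
    IntegrableOn (fun x => (T x i - S x i) ^ 2) K := by
  have hm : Measurable (fun x => (T x i - S x i) ^ 2) := by
    have h1 : Measurable (fun x => T x i) := by fun_prop
    have h2 : Measurable (fun x => S x i) := by fun_prop
    exact (h1.sub h2).pow_const 2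
  refine Measure.integrableOn_of_bounded (M := (2 * L) ^ 2) hKc.measure_lt_top.ne
    hm.aestronglyMeasurable (Filter.Eventually.of_forall fun x => ?_)
  have a1 := coord_le_norm (T x) i
  have a2 := coord_le_norm (S x) i
  have a3 := hTL x
  have a4 := hSL x
  have a5 := abs_sub (T x i) (S x i)
  rw [Real.norm_of_nonneg (sq_nonneg _), ← sq_abs]
  gcongr
  linarith

lemma outer_bound (hKc : IsCompact K) {G : Set (Sp d)} (hG : IsCompact G) (hGK : G ⊆ K)
    {T S : Sp d → Sp d} (hT : Measurable T)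
    (hS : Measurable S) {L : ℝ} (hTL : ∀ x, ‖T x‖ ≤ L) (hSL : ∀ x, ‖S x‖ ≤ L) (i : Fin d) :
    ∫ x in K, (T x i - S x i) ^ 2 ≤ (∫ x in G, (T x i - S x i) ^ 2) +
      4 * L ^ 2 * ((volume K).toReal - (volume G).toReal) := by
  have hi := sq_coord_int hKc hT hS hTL hSL i
  have hGm := hG.measurableSet
  have hKm := hKc.measurableSet
  have e : K = G ∪ (K \ G) := (union_sdiff_cancel hGK).symm
  have h1 : ∫ x in K, (T x i - S x i) ^ 2 =
      (∫ x in G, (T x i - S x i) ^ 2) + ∫ x in K \ G, (T x i - S x i) ^ 2 := by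
    conv_lhs => rw [e]
    exact setIntegral_union disjoint_sdiff_right (hKm.diff hGm) (hi.mono_set hGK)
      (hi.mono_set sdiff_subset)
  rw [h1]
  have h2 : ‖∫ x in K \ G, (T x i - S x i) ^ 2‖ ≤ 4 * L ^ 2 * (volume (K \ G)).toReal := by
    refine norm_setIntegral_le_of_norm_le_const
      (lt_of_le_of_lt (measure_mono sdiff_subset) hKc.measure_lt_top) ?_
    intro x _
    have a1 := coord_le_norm (T x) i
    have a2 := coord_le_norm (S x) i
    have a3 := hTL x
    have a4 := hSL x
    have a5 := abs_sub (T x i) (S x i)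
    rw [Real.norm_of_nonneg (sq_nonneg _), ← sq_abs]
    calc |T x i - S x i| ^ 2 ≤ (2 * L) ^ 2 := by gcongr; linarith
      _ = _ := by ring
  have h3 : (volume (K \ G)).toReal = (volume K).toReal - (volume G).toReal := by
    rw [measure_sdiff hGK hGm.nullMeasurableSet hG.measure_lt_top.ne,
      ENNReal.toReal_sub_of_le (measure_mono hGK) hKc.measure_lt_top.ne]
  rw [h3] at h2
  have := le_of_abs_le h2
  linarith

lemma cont_line (f : Sp d → ℝ) (hf : Continuous f) (v : Sp d) :
    Continuous (fun x => f (x + v)) := hf.comp (continuous_add_const v)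

/-- coordinate estimate for `interp` -/
lemma coord_interp (hKc : IsCompact K) {f g : Sp d → ℝ} {T S : Sp d → Sp d} {L c r r₁ : ℝ}
    (hr : 0 < r) (hr₁ : 0 < r₁) (hT : Measurable T)
    (hS : Measurable S) (hTL : ∀ x, ‖T x‖ ≤ L) (hSL : ∀ x, ‖S x‖ ≤ L)
    (hf : ∀ x x', f x + inner ℝ (x' - x) (T x) ≤ f x')
    (hg : ∀ x x', g x + inner ℝ (x' - x) (S x) ≤ g x')
    {G : Set (Sp d)} (hG : IsCompact G) (hGK : G ⊆ K)
    (hGr : ∀ x ∈ G, ∀ y, ‖y‖ ≤ r → x + y ∈ K)
    (hGv : (volume K).toReal - (volume G).toReal ≤ d * (r / r₁) * (volume K).toReal)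
    (i : Fin d) :
    ∫ x in K, (T x i - S x i) ^ 2 ≤ 18 / r ^ 2 * (∫ x in K, (f x - g x - c) ^ 2) +
      12 * L ^ 2 * (d * (r / r₁) * (volume K).toReal) := by
  have hL : 0 ≤ L := (norm_nonneg _).trans (hTL 0)
  have hfc := sub_cont hTL hf
  have hgc := sub_cont hSL hg
  set e : Sp d := EuclideanSpace.single i (1 : ℝ) with he
  have hnre : ‖r • e‖ = r := by
    rw [norm_smul, he, norm_single_one, Real.norm_of_nonneg hr.le, mul_one]
  set u : Sp d → ℝ := fun x => (f x - g x - c) ^ 2 with hu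
  have huc : Continuous u := by simp only [hu]; fun_prop
  have hu0 : ∀ x, 0 ≤ u x := fun x => sq_nonneg _
  have o := outer_bound hKc hG hGK hT hS hTL hSL i
  set Δ : Sp d → ℝ := fun x => g (x + r • e) + g (x - r • e) - 2 * g x with hΔ
  have hΔc : Continuous Δ := by simp only [hΔ]; fun_prop
  have cG : ∀ φ : Sp d → ℝ, Continuous φ → IntegrableOn φ G := fun φ hφ =>
    hφ.continuousOn.integrableOn_compact hG
  have p : ∫ x in G, (T x i - S x i) ^ 2 ≤
      ∫ x in G, (6 / r ^ 2 * (u (x + r • e) + u x + u (x + -(r • e))) + 4 * L / r * Δ x) := by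
    refine integral_mono ((sq_coord_int hKc hT hS hTL hSL i).mono_set hGK) (cG _ ?_) fun x => ?_
    · have c1 := cont_line u huc (r • e)
      have c2 := cont_line u huc (-(r • e))
      fun_prop
    · have := pt_interp (c := c) hr hSL hf hg x i
      simp only [hu, hΔ, ← sub_eq_add_neg]
      exact this
  have c1 := cont_line u huc (r • e)
  have c2 := cont_line u huc (-(r • e))
  have e1 : ∫ x in G, (6 / r ^ 2 * (u (x + r • e) + u x + u (x + -(r • e))) + 4 * L / r * Δ x) =
      6 / r ^ 2 * ((∫ x in G, u (x + r • e)) + (∫ x in G, u x) + ∫ x in G, u (x + -(r • e))) +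
        4 * L / r * ∫ x in G, Δ x := by
    have j1 : IntegrableOn (fun x => u (x + r • e) + u x) G := cG _ (c1.add huc)
    have j2 : IntegrableOn (fun x => u (x + r • e) + u x + u (x + -(r • e))) G :=
      cG _ ((c1.add huc).add c2)
    rw [integral_add (j2.const_mul _) ((cG _ hΔc).const_mul _), integral_const_mul,
      integral_const_mul, integral_add j1 (cG _ c2), integral_add (cG _ c1) (cG _ huc)]
  rw [e1] at p
  have t1 := trans_le hKc hG (r • e) (fun x hx => hGr x hx _ hnre.le) u huc hu0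
  have t2 := trans_le hKc hG (-(r • e)) (fun x hx => hGr x hx _ (by rw [norm_neg, hnre])) u huc hu0
  have t3 := trans_le hKc hG 0 (fun x hx => by simpa using hGK hx) u huc hu0
  simp only [add_zero] at t3
  have sd := second_diff hKc hG hGK hr hGr g hgc (fun x y => sub_lip hSL hg x y) e
    (by rw [he, norm_single_one])
  have hV0 : 0 ≤ (volume K).toReal - (volume G).toReal := by
    have := ENNReal.toReal_mono (hKc.measure_lt_top (μ := volume)).ne (measure_mono hGK)
    linarith
  set X := ∫ x in K, u x with hX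
  set δ := (volume K).toReal - (volume G).toReal with hδ
  have q1 : 6 / r ^ 2 * ((∫ x in G, u (x + r • e)) + (∫ x in G, u x) +
      ∫ x in G, u (x + -(r • e))) ≤ 6 / r ^ 2 * (X + X + X) := by gcongr
  have q2 : 4 * L / r * ∫ x in G, Δ x ≤ 4 * L / r * (2 * (L * r) * δ) := by
    have : 0 ≤ 4 * L / r := by positivity
    exact mul_le_mul_of_nonneg_left sd this
  have q3 : 4 * L / r * (2 * (L * r) * δ) = 8 * L ^ 2 * δ := by field_simp; ring
  have q4 : 12 * L ^ 2 * δ ≤ 12 * L ^ 2 * (d * (r / r₁) * (volume K).toReal) := by gcongr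
  have q5 : 6 / r ^ 2 * (X + X + X) = 18 / r ^ 2 * X := by ring
  linarith

/-- coordinate estimate for `near` -/
lemma coord_near (hKc : IsCompact K) {f : Sp d → ℝ} {T S : Sp d → Sp d} {ε : Sp d → ℝ}
    {L r r₁ : ℝ}
    (hr : 0 < r) (hr₁ : 0 < r₁) (hT : Measurable T)
    (hS : Measurable S) (hTL : ∀ x, ‖T x‖ ≤ L) (hSL : ∀ x, ‖S x‖ ≤ L)
    (hf : ∀ x x', f x + inner ℝ (x' - x) (T x) ≤ f x')
    (hg : ∀ x x', f x + inner ℝ (x' - x) (S x) - ε x ≤ f x')
    (hε0 : ∀ x, 0 ≤ ε x) (hεi : IntegrableOn ε K)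
    {G : Set (Sp d)} (hG : IsCompact G) (hGK : G ⊆ K)
    (hGr : ∀ x ∈ G, ∀ y, ‖y‖ ≤ r → x + y ∈ K)
    (hGv : (volume K).toReal - (volume G).toReal ≤ d * (r / r₁) * (volume K).toReal)
    (i : Fin d) :
    ∫ x in K, (T x i - S x i) ^ 2 ≤ 2 * L / r * (∫ x in K, ε x) +
      8 * L ^ 2 * (d * (r / r₁) * (volume K).toReal) := by
  have hL : 0 ≤ L := (norm_nonneg _).trans (hTL 0)
  have hfc := sub_cont hTL hf
  set e : Sp d := EuclideanSpace.single i (1 : ℝ) with he
  have hnre : ‖r • e‖ = r := by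
    rw [norm_smul, he, norm_single_one, Real.norm_of_nonneg hr.le, mul_one]
  have o := outer_bound hKc hG hGK hT hS hTL hSL i
  set Δ : Sp d → ℝ := fun x => f (x + r • e) + f (x - r • e) - 2 * f x with hΔ
  have hΔc : Continuous Δ := by simp only [hΔ]; fun_prop
  have cG : ∀ φ : Sp d → ℝ, Continuous φ → IntegrableOn φ G := fun φ hφ =>
    hφ.continuousOn.integrableOn_compact hG
  have p : ∫ x in G, (T x i - S x i) ^ 2 ≤ ∫ x in G, 2 * L / r * (Δ x + ε x) := by
    refine integral_mono ((sq_coord_int hKc hT hS hTL hSL i).mono_set hGK)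
      (((cG _ hΔc).add (hεi.mono_set hGK)).const_mul _) fun x => ?_
    exact pt_near hr hTL hSL hf hg x i
  rw [integral_const_mul, integral_add (cG _ hΔc) (hεi.mono_set hGK)] at p
  have t3 : ∫ x in G, ε x ≤ ∫ x in K, ε x :=
    setIntegral_mono_set hεi (Filter.Eventually.of_forall fun x => hε0 x)
      (Filter.Eventually.of_forall hGK)
  have sd := second_diff hKc hG hGK hr hGr f hfc (fun x y => sub_lip hTL hf x y) e
    (by rw [he, norm_single_one])
  have hV0 : 0 ≤ (volume K).toReal - (volume G).toReal := by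
    have := ENNReal.toReal_mono (hKc.measure_lt_top (μ := volume)).ne (measure_mono hGK)
    linarith
  set X := ∫ x in K, ε x with hX
  set δ := (volume K).toReal - (volume G).toReal with hδ
  have hc : 0 ≤ 2 * L / r := by positivity
  have q1 : 2 * L / r * ((∫ x in G, Δ x) + ∫ x in G, ε x) ≤
      2 * L / r * (2 * (L * r) * δ + X) := mul_le_mul_of_nonneg_left (add_le_add sd t3) hc
  have q3 : 2 * L / r * (2 * (L * r) * δ + X) = 4 * L ^ 2 * δ + 2 * L / r * X := by
    field_simp; ring
  have q4 : 8 * L ^ 2 * δ ≤ 8 * L ^ 2 * (d * (r / r₁) * (volume K).toReal) := by gcongr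
  linarith

end Crest.Agent.OS109
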