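import Crest.Agent.OS109Defs

/-!
The key estimate: barycentres from a fixed discrete target are Lipschitz in the source density.
-/

set_option autoImplicit false
set_option linter.unusedSectionVars false
set_option linter.style.haveILetI false

open MeasureTheory Set
open scoped ENNReal
open Crest.AnalysisR.OT

namespace Crest.Agent.OS109

/-- midpoint Prekopa-Leindler -/
def PLstmt (d : ℕ) : Prop :=
  ∀ F G H : Sp d → ℝ≥0∞, Measurable F → Measurable G → Measurable H →
    (∀ x y, F x * G y ≤ H ((1 / 2 : ℝ) • (x + y)) ^ 2) →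
    (∫⁻ x, F x) * (∫⁻ x, G x) ≤ (∫⁻ x, H x) ^ 2

variable {d : ℕ} {K : Set (Sp d)}

lemma vol_pos (hKi : (interior K).Nonempty) : 0 < (volume : Measure (Sp d)) K :=
  lt_of_lt_of_le (isOpen_interior.measure_pos volume hKi) (measure_mono interior_subset)

lemma vol_lt (hKc : IsCompact K) : (volume : Measure (Sp d)) K < ⊤ := hKc.measure_lt_top

lemma prob_unif (hKc : IsCompact K) (hKi : (interior K).Nonempty) :
    IsProbabilityMeasure (uniformProbOn K) := by
  refine ⟨?_⟩
  unfold uniformProbOn
  rw [Measure.smul_apply, Measure.restrict_apply MeasurableSet.univ, univ_inter, smul_eq_mul,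
    ENNReal.inv_mul_cancel (vol_pos hKi).ne' (vol_lt hKc).ne]

lemma unif_compl (hKc : IsCompact K) : uniformProbOn K Kᶜ = 0 := by
  unfold uniformProbOn
  rw [Measure.smul_apply, Measure.restrict_apply hKc.measurableSet.compl, compl_inter_self,
    measure_empty, smul_zero]

lemma ae_mem (hKc : IsCompact K) : ∀ᵐ x ∂(uniformProbOn K), x ∈ K := by
  rw [ae_iff]; exact unif_compl hKc

/-- P-L for the uniform measure -/
lemma pl_unif (PL : PLstmt d) (hKc : IsCompact K) (hKv : Convex ℝ K) (F G H : Sp d → ℝ≥0∞)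
    (hF : Measurable F) (hG : Measurable G) (hH : Measurable H)
    (h : ∀ x ∈ K, ∀ y ∈ K, F x * G y ≤ H ((1 / 2 : ℝ) • (x + y)) ^ 2) :
    (∫⁻ x, F x ∂(uniformProbOn K)) * (∫⁻ x, G x ∂(uniformProbOn K)) ≤
      (∫⁻ x, H x ∂(uniformProbOn K)) ^ 2 := by
  have hKm := hKc.measurableSet
  have key := PL (K.indicator F) (K.indicator G) (K.indicator H) (hF.indicator hKm)
    (hG.indicator hKm) (hH.indicator hKm) (by
      intro x y
      by_cases hx : x ∈ K
      · by_cases hy : y ∈ K
        · have hm : (1 / 2 : ℝ) • (x + y) ∈ K := by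
            rw [smul_add]
            exact hKv hx hy (by norm_num) (by norm_num) (by norm_num)
          rw [indicator_of_mem hx, indicator_of_mem hy, indicator_of_mem hm]
          exact h x hx y hy
        · rw [indicator_of_notMem hy]; simp
      · rw [indicator_of_notMem hx]; simp)
  rw [lintegral_indicator hKm, lintegral_indicator hKm, lintegral_indicator hKm] at key
  unfold uniformProbOn
  rw [lintegral_smul_measure, lintegral_smul_measure, lintegral_smul_measure]
  simp only [smul_eq_mul]
  calc _ = (volume K)⁻¹ ^ 2 * ((∫⁻ x in K, F x) * ∫⁻ x in K, G x) := by ring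
    _ ≤ (volume K)⁻¹ ^ 2 * (∫⁻ x in K, H x) ^ 2 := by gcongr
    _ = _ := by ring

/-- real version on cells -/
lemma pl_cell (PL : PLstmt d) (hKc : IsCompact K) (hKv : Convex ℝ K) (hKi : (interior K).Nonempty)
    (A B Cc : Set (Sp d)) (hA : MeasurableSet A) (hB : MeasurableSet B) (hC : MeasurableSet Cc)
    (F G w : Sp d → ℝ) (hF : Continuous F) (hG : Continuous G) (hw : Continuous w)
    (hF0 : ∀ x ∈ K, 0 ≤ F x) (hG0 : ∀ x ∈ K, 0 ≤ G x) (hw0 : ∀ x ∈ K, 0 ≤ w x)
    (hmid : ∀ x ∈ A, ∀ y ∈ B, (1 / 2 : ℝ) • (x + y) ∈ Cc)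
    (hle : ∀ x ∈ K, ∀ y ∈ K, (F x + G y) / 2 ≤ w ((1 / 2 : ℝ) • (x + y))) :
    (∫ x in A, F x ∂(uniformProbOn K)) * (∫ x in B, G x ∂(uniformProbOn K)) ≤
      (∫ x in Cc, w x ∂(uniformProbOn K)) ^ 2 := by
  have := prob_unif hKc hKi
  have hint : ∀ f : Sp d → ℝ, Continuous f → Integrable f (uniformProbOn K) := by
    intro f hf
    obtain ⟨c, hc⟩ := hKc.exists_bound_of_continuousOn hf.continuousOn
    refine Integrable.of_bound hf.aestronglyMeasurable c ?_
    filter_upwards [ae_mem hKc] with x hx using hc x hx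
  have hae : ∀ f : Sp d → ℝ, (∀ x ∈ K, 0 ≤ f x) → ∀ S : Set (Sp d),
      0 ≤ᵐ[(uniformProbOn K).restrict S] f := by
    intro f hf S
    exact ae_restrict_of_ae (by filter_upwards [ae_mem hKc] with x hx using hf x hx)
  have hm := fun (f : Sp d → ℝ) (hf : Continuous f) => hf.measurable.ennreal_ofReal
  have key := pl_unif PL hKc hKv (A.indicator fun x => ENNReal.ofReal (F x))
    (B.indicator fun x => ENNReal.ofReal (G x)) (Cc.indicator fun x => ENNReal.ofReal (w x))
    ((hm F hF).indicator hA) ((hm G hG).indicator hB) ((hm w hw).indicator hC) (by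
      intro x hx y hy
      by_cases hxA : x ∈ A
      · by_cases hyB : y ∈ B
        · rw [indicator_of_mem hxA, indicator_of_mem hyB, indicator_of_mem (hmid x hxA y hyB),
            ← ENNReal.ofReal_mul (hF0 x hx), ← ENNReal.ofReal_pow]
          · apply ENNReal.ofReal_le_ofReal
            have h1 := hle x hx y hy
            have h2 := hF0 x hx
            have h3 := hG0 y hy
            nlinarith [sq_nonneg (F x - G y)]
          · apply hw0
            rw [smul_add]
            exact hKv hx hy (by norm_num) (by norm_num) (by norm_num)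
        · rw [indicator_of_notMem hyB]; simp
      · rw [indicator_of_notMem hxA]; simp)
  rw [lintegral_indicator hA, lintegral_indicator hB, lintegral_indicator hC,
    ← ofReal_integral_eq_lintegral_ofReal (hint F hF).integrableOn (hae F hF0 A),
    ← ofReal_integral_eq_lintegral_ofReal (hint G hG).integrableOn (hae G hG0 B),
    ← ofReal_integral_eq_lintegral_ofReal (hint w hw).integrableOn (hae w hw0 Cc)] at key
  have i1 : 0 ≤ ∫ x in A, F x ∂(uniformProbOn K) := integral_nonneg_of_ae (hae F hF0 A)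
  have i3 : 0 ≤ ∫ x in Cc, w x ∂(uniformProbOn K) := integral_nonneg_of_ae (hae w hw0 Cc)
  rw [← ENNReal.ofReal_mul i1, ← ENNReal.ofReal_pow i3] at key
  exact (ENNReal.ofReal_le_ofReal_iff (by positivity)).1 key

end Crest.Agent.OS109
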