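import Crest.Agent.OS109Key

set_option autoImplicit false
set_option linter.unusedSectionVars false
set_option linter.style.haveILetI false

open MeasureTheory Set
open scoped ENNReal
open Crest.AnalysisR.OT

namespace Crest.Agent.OS109

variable {d : ℕ} {K : Set (Sp d)}

/-- the strongly concave weight -/
noncomputable def wt (R : ℝ) (x : Sp d) : ℝ := 17 * R ^ 2 - ‖x‖ ^ 2 / 2

lemma wt_cont (R : ℝ) : Continuous (wt (d := d) R) := by unfold wt; fun_prop

lemma wt_mid (R : ℝ) (x y : Sp d) :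
    wt R ((1 / 2 : ℝ) • (x + y)) = (wt R x + wt R y) / 2 + ‖x - y‖ ^ 2 / 8 := by
  unfold wt
  have h1 : ‖(1 / 2 : ℝ) • (x + y)‖ ^ 2 = ‖x + y‖ ^ 2 / 4 := by
    rw [norm_smul, mul_pow]; norm_num; ring
  rw [h1, norm_add_sq_real, norm_sub_sq_real]
  ring

lemma wt_diff {R : ℝ} {x y : Sp d} (hx : ‖x‖ ≤ R) (hy : ‖y‖ ≤ R) :
    (wt R x - wt R y) ^ 2 ≤ R ^ 2 * ‖x - y‖ ^ 2 := by
  have hR : 0 ≤ R := (norm_nonneg x).trans hx
  have h1 : wt R x - wt R y = -(inner ℝ (x - y) (x + y) / 2) := by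
    unfold wt
    rw [inner_sub_left, inner_add_right, inner_add_right, real_inner_self_eq_norm_sq,
      real_inner_self_eq_norm_sq, real_inner_comm]
    ring
  have h2 : |inner ℝ (x - y) (x + y)| ≤ ‖x - y‖ * (2 * R) := by
    refine (abs_real_inner_le_norm _ _).trans ?_
    gcongr
    exact (norm_add_le _ _).trans (by linarith)
  rw [h1, ← mul_pow]
  have h3 : |-(inner ℝ (x - y) (x + y) / 2)| ≤ R * ‖x - y‖ := by
    rw [abs_neg, abs_div, abs_of_pos (show (0 : ℝ) < 2 by norm_num)]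
    linarith
  calc _ = |-(inner ℝ (x - y) (x + y) / 2)| ^ 2 := (sq_abs _).symm
    _ ≤ _ := by gcongr

lemma integrable_cont (hKc : IsCompact K) (hKi : (interior K).Nonempty)
    {X : Type*} [NormedAddCommGroup X] [SecondCountableTopology X] [MeasurableSpace X] [BorelSpace X]
    (f : Sp d → X) (hf : Continuous f) : Integrable f (uniformProbOn K) := by
  have := prob_unif hKc hKi
  obtain ⟨c, hc⟩ := hKc.exists_bound_of_continuousOn hf.continuousOn
  refine Integrable.of_bound hf.aestronglyMeasurable c ?_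
  filter_upwards [ae_mem hKc] with x hx using hc x hx

lemma int_lin (hKc : IsCompact K) (hKi : (interior K).Nonempty) (S : Set (Sp d)) (R α γ : ℝ)
    (p : Sp d) :
    ∫ x in S, (α * wt R x + inner ℝ p x + γ) ∂(uniformProbOn K) =
      α * (∫ x in S, wt R x ∂(uniformProbOn K)) + inner ℝ p (∫ x in S, x ∂(uniformProbOn K)) +
        γ * (uniformProbOn K).real S := by
  have := prob_unif hKc hKi
  have i1 : IntegrableOn (fun x : Sp d => α * wt R x) S (uniformProbOn K) :=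
    (integrable_cont hKc hKi _ ((wt_cont R).const_mul α)).integrableOn
  have i2 : IntegrableOn (fun x : Sp d => inner ℝ p x) S (uniformProbOn K) :=
    (integrable_cont hKc hKi _ (by fun_prop)).integrableOn
  have i3 : IntegrableOn (fun x : Sp d => x) S (uniformProbOn K) :=
    (integrable_cont hKc hKi _ continuous_id).integrableOn
  have i12 : IntegrableOn (fun x : Sp d => α * wt R x + inner ℝ p x) S (uniformProbOn K) :=
    i1.add i2
  have i4 : IntegrableOn (fun _ : Sp d => γ) S (uniformProbOn K) :=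
    integrableOn_const (by finiteness)
  rw [integral_add i12 i4, integral_add i1 i2, integral_const_mul,
    integral_inner i3, setIntegral_const, smul_eq_mul]
  ring

set_option maxHeartbeats 1600000 in
/-- the per-cell inequality -/
lemma cell_real (PL : PLstmt d) (hKc : IsCompact K) (hKv : Convex ℝ K)
    (hKi : (interior K).Nonempty) {R : ℝ} (hR : 0 < R) (hKR : ∀ x ∈ K, ‖x‖ ≤ R)
    (A B Cc : Set (Sp d)) (hA : MeasurableSet A) (hB : MeasurableSet B) (hC : MeasurableSet Cc)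
    (hmid : ∀ x ∈ A, ∀ y ∈ B, (1 / 2 : ℝ) • (x + y) ∈ Cc)
    (l0 l1 W0 W1 s : ℝ) (b0 b1 : Sp d) (hl0 : l0 = (uniformProbOn K).real A)
    (hl1 : l1 = (uniformProbOn K).real B) (hl0p : 0 < l0) (hl1p : 0 < l1)
    (hW0 : W0 = ∫ x in A, wt R x ∂(uniformProbOn K))
    (hW1 : W1 = ∫ x in B, wt R x ∂(uniformProbOn K))
    (hb0 : l0 • b0 = ∫ x in A, x ∂(uniformProbOn K))
    (hb1 : l1 • b1 = ∫ x in B, x ∂(uniformProbOn K))
    (hs : s = W0 / l0 - W1 / l1) (nb0 : ‖b0‖ ≤ R) (nb1 : ‖b1‖ ≤ R)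
    (hw0 : |W0 / l0 - 17 * R ^ 2 + R ^ 2 / 4| ≤ R ^ 2 / 4)
    (hw1 : |W1 / l1 - 17 * R ^ 2 + R ^ 2 / 4| ≤ R ^ 2 / 4) :
    (W0 + l0 * ((‖b1 - b0‖ ^ 2 + s ^ 2 / R ^ 2) / 16)) *
      (W1 + l1 * ((‖b1 - b0‖ ^ 2 + s ^ 2 / R ^ 2) / 16)) ≤
      (∫ x in Cc, wt R x ∂(uniformProbOn K)) ^ 2 := by
  set p := b1 - b0 with hp
  set q := (1 / 2 : ℝ) • (b0 + b1) with hq
  set m := (W0 / l0 + W1 / l1) / 2 with hm
  have hR2 : 0 < R ^ 2 := by positivity
  -- the two functions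
  set F : Sp d → ℝ := fun x => (1 + s / (4 * R ^ 2)) * wt R x + inner ℝ (-(1 / 4 : ℝ) • p) x +
    (1 / 8) * (2 * inner ℝ p q - ‖p‖ ^ 2 / 2 - (2 * s * m + s ^ 2 / 2) / R ^ 2) with hF
  set G : Sp d → ℝ := fun x => (1 - s / (4 * R ^ 2)) * wt R x + inner ℝ ((1 / 4 : ℝ) • p) x +
    (1 / 8) * (-2 * inner ℝ p q - ‖p‖ ^ 2 / 2 - (-2 * s * m + s ^ 2 / 2) / R ^ 2) with hG
  have hFe : ∀ x, F x = wt R x + (1 / 8) * (-2 * inner ℝ p (x - q) - ‖p‖ ^ 2 / 2 +
      (2 * s * (wt R x - m) - s ^ 2 / 2) / R ^ 2) := by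
    intro x
    simp only [hF]
    rw [inner_smul_left, inner_sub_right]
    simp only [conj_trivial]
    field_simp
    ring
  have hGe : ∀ x, G x = wt R x + (1 / 8) * (2 * inner ℝ p (x - q) - ‖p‖ ^ 2 / 2 +
      (-2 * s * (wt R x - m) - s ^ 2 / 2) / R ^ 2) := by
    intro x
    simp only [hG]
    rw [inner_smul_left, inner_sub_right]
    simp only [conj_trivial]
    field_simp
    ring
  have hFc : Continuous F := by
    have := wt_cont (d := d) R
    simp only [hF]; fun_prop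
  have hGc : Continuous G := by
    have := wt_cont (d := d) R
    simp only [hG]; fun_prop
  -- bounds
  have hwtK : ∀ x ∈ K, 17 * R ^ 2 - R ^ 2 / 2 ≤ wt R x ∧ wt R x ≤ 17 * R ^ 2 := by
    intro x hx
    have h1 := hKR x hx
    have h2 : ‖x‖ ^ 2 ≤ R ^ 2 := by gcongr
    unfold wt
    constructor
    · linarith
    · have : 0 ≤ ‖x‖ ^ 2 := by positivity
      linarith
  have hsb : |s| ≤ R ^ 2 / 2 := by
    rw [hs]
    have e1 := abs_le.1 hw0
    have e2 := abs_le.1 hw1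
    rw [abs_le]
    constructor <;> linarith [e1.1, e1.2, e2.1, e2.2]
  have hmb : |m - 17 * R ^ 2 + R ^ 2 / 4| ≤ R ^ 2 / 4 := by
    rw [hm]
    have e1 := abs_le.1 hw0
    have e2 := abs_le.1 hw1
    rw [abs_le]
    constructor <;> linarith [e1.1, e1.2, e2.1, e2.2]
  have hpb : ‖p‖ ≤ 2 * R := (norm_sub_le _ _).trans (by linarith)
  have hqb : ‖q‖ ≤ R := by
    rw [hq, norm_smul]
    have := norm_add_le b0 b1
    norm_num
    linarith
  have hp2 : ‖p‖ ^ 2 ≤ 4 * R ^ 2 := by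
    calc ‖p‖ ^ 2 ≤ (2 * R) ^ 2 := by gcongr
      _ = _ := by ring
  have hinner : ∀ x ∈ K, |inner ℝ p (x - q)| ≤ 4 * R ^ 2 := by
    intro x hx
    have h1 : ‖x - q‖ ≤ 2 * R := (norm_sub_le _ _).trans (by linarith [hKR x hx])
    calc |inner ℝ p (x - q)| ≤ ‖p‖ * ‖x - q‖ := abs_real_inner_le_norm _ _
      _ ≤ (2 * R) * (2 * R) := by gcongr
      _ = _ := by ring
  have hlast : ∀ x ∈ K, |2 * s * (wt R x - m)| ≤ R ^ 4 / 2 := by
    intro x hx
    have h1 := hwtK x hx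
    have h2 := abs_le.1 hmb
    have h3 : |wt R x - m| ≤ R ^ 2 / 2 := by
      rw [abs_le]
      constructor <;> linarith [h1.1, h1.2, h2.1, h2.2]
    rw [abs_mul, abs_mul, abs_of_pos (show (0 : ℝ) < 2 by norm_num)]
    calc 2 * |s| * |wt R x - m| ≤ 2 * (R ^ 2 / 2) * (R ^ 2 / 2) := by gcongr
      _ = _ := by ring
  have hs2 : s ^ 2 ≤ R ^ 4 / 4 := by
    calc s ^ 2 = |s| ^ 2 := (sq_abs s).symm
      _ ≤ (R ^ 2 / 2) ^ 2 := by gcongr
      _ = _ := by ring
  have hF0 : ∀ x ∈ K, 0 ≤ F x := by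
    intro x hx
    rw [hFe]
    have h1 := (hwtK x hx).1
    have h2 := abs_le.1 (hinner x hx)
    have h3 := abs_le.1 (hlast x hx)
    have h4 : -(R ^ 2) ≤ (2 * s * (wt R x - m) - s ^ 2 / 2) / R ^ 2 := by
      rw [le_div_iff₀ hR2]
      nlinarith [h3.1]
    linarith [h2.1, h2.2]
  have hG0 : ∀ x ∈ K, 0 ≤ G x := by
    intro x hx
    rw [hGe]
    have h1 := (hwtK x hx).1
    have h2 := abs_le.1 (hinner x hx)
    have h3 := abs_le.1 (hlast x hx)
    have h4 : -(R ^ 2) ≤ (-2 * s * (wt R x - m) - s ^ 2 / 2) / R ^ 2 := by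
      rw [le_div_iff₀ hR2]
      nlinarith [h3.2]
    linarith [h2.1, h2.2]
  have hw0' : ∀ x ∈ K, 0 ≤ wt R x := fun x hx => by
    have := (hwtK x hx).1
    linarith
  have hle : ∀ x ∈ K, ∀ y ∈ K, (F x + G y) / 2 ≤ wt R ((1 / 2 : ℝ) • (x + y)) := by
    intro x hx y hy
    rw [wt_mid, hFe, hGe]
    have h1 : 2 * inner ℝ p (y - x) - ‖p‖ ^ 2 ≤ ‖x - y‖ ^ 2 := by
      have : 0 ≤ ‖(x - y) + p‖ ^ 2 := by positivity
      rw [norm_add_sq_real] at this
      have h5 : inner ℝ (x - y) p = - inner ℝ p (y - x) := by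
        rw [real_inner_comm, ← inner_neg_right, neg_sub]
      rw [h5] at this
      linarith
    have h2 := wt_diff (hKR x hx) (hKR y hy)
    have h3 : (2 * s * (wt R x - wt R y) - s ^ 2) / R ^ 2 ≤ ‖x - y‖ ^ 2 := by
      rw [div_le_iff₀ hR2]
      nlinarith [sq_nonneg (wt R x - wt R y - s)]
    have h4 : inner ℝ p (y - x) = inner ℝ p (y - q) - inner ℝ p (x - q) := by
      rw [← inner_sub_right]; congr 1; abel
    rw [h4] at h1
    have h5 : (2 * s * (wt R x - m) - s ^ 2 / 2) / R ^ 2 + (-2 * s * (wt R y - m) - s ^ 2 / 2) / R ^ 2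
        = (2 * s * (wt R x - wt R y) - s ^ 2) / R ^ 2 := by
      rw [← add_div]; congr 1; ring
    linarith
  have key := pl_cell PL hKc hKv hKi A B Cc hA hB hC F G (wt R) hFc hGc (wt_cont R) hF0 hG0 hw0'
    hmid hle
  -- compute the two integrals
  have e1 : ∫ x in A, F x ∂(uniformProbOn K) =
      W0 + l0 * ((‖p‖ ^ 2 + s ^ 2 / R ^ 2) / 16) := by
    simp only [hF]
    rw [int_lin hKc hKi, ← hW0, ← hb0, ← hl0]
    have h1 : W0 = l0 * (m + s / 2) := by
      rw [hm, hs]; field_simp; ring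
    have h2 : inner ℝ (-(1 / 4 : ℝ) • p) (l0 • b0) = -(l0 / 4) * inner ℝ p b0 := by
      rw [inner_smul_left, inner_smul_right, conj_trivial]; ring
    have h3 : b0 = q - (1 / 2 : ℝ) • p := by
      rw [hq, hp]; module
    have h4 : inner ℝ p b0 = inner ℝ p q - ‖p‖ ^ 2 / 2 := by
      conv_lhs => rw [h3]
      rw [inner_sub_right, inner_smul_right p p, real_inner_self_eq_norm_sq]; ring
    rw [h2, h4]
    rw [h1]
    field_simp
    ring
  have e2 : ∫ x in B, G x ∂(uniformProbOn K) =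
      W1 + l1 * ((‖p‖ ^ 2 + s ^ 2 / R ^ 2) / 16) := by
    simp only [hG]
    rw [int_lin hKc hKi, ← hW1, ← hb1, ← hl1]
    have h1 : W1 = l1 * (m - s / 2) := by
      rw [hm, hs]; field_simp; ring
    have h2 : inner ℝ ((1 / 4 : ℝ) • p) (l1 • b1) = (l1 / 4) * inner ℝ p b1 := by
      rw [inner_smul_left, inner_smul_right, conj_trivial]; ring
    have h3 : b1 = q + (1 / 2 : ℝ) • p := by
      rw [hq, hp]; module
    have h4 : inner ℝ p b1 = inner ℝ p q + ‖p‖ ^ 2 / 2 := by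
      conv_lhs => rw [h3]
      rw [inner_add_right, inner_smul_right p p, real_inner_self_eq_norm_sq]; ring
    rw [h2, h4]
    rw [h1]
    field_simp
    ring
  rw [e1, e2] at key
  exact key

end Crest.Agent.OS109
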