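import Crest.Agent.OS109Key2

set_option autoImplicit false
set_option linter.unusedSectionVars false
set_option linter.style.haveILetI false

open MeasureTheory Set
open scoped ENNReal
open Crest.AnalysisR.OT

namespace Crest.Agent.OS109

variable {d : ℕ} {K : Set (Sp d)}

/-- hyperplanes are null -/
lemma ties_null' {v v' : Sp d} (h : v ≠ v') (a a' : ℝ) :
    volume {x : Sp d | inner ℝ x v - a = inner ℝ x v' - a'} = 0 := by
  set s : AffineSubspace ℝ (Sp d) :=
    { carrier := {x : Sp d | inner ℝ x v - a = inner ℝ x v' - a'}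
      smul_vsub_vadd_mem' := by
        intro c p1 p2 p3 h1 h2 h3
        simp only [mem_ofPred_eq, vsub_eq_sub, vadd_eq_add] at *
        rw [inner_add_left, inner_add_left, inner_smul_left, inner_smul_left, inner_sub_left,
          inner_sub_left]
        simp only [conj_trivial]
        have e1 : inner ℝ p1 v - inner ℝ p1 v' = a - a' := by linarith
        have e2 : inner ℝ p2 v - inner ℝ p2 v' = a - a' := by linarith
        linear_combination c * e1 - c * e2 + h3 } with hs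
  have hne : s ≠ ⊤ := by
    intro htop
    have hall : ∀ x : Sp d, inner ℝ x v - a = inner ℝ x v' - a' := by
      intro x
      have : x ∈ s := by rw [htop]; trivial
      exact this
    have h0 := hall 0
    have h1 := hall (v - v')
    simp only [inner_zero_left] at h0
    have h2 : inner ℝ (v - v') (v - v') = (0 : ℝ) := by
      rw [inner_sub_right]; linarith
    have h3 : v - v' = 0 := inner_self_eq_zero.1 h2
    exact h (sub_eq_zero.1 h3)
  exact Measure.addHaar_affineSubspace volume s hne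

lemma unif_ac (K : Set (Sp d)) : uniformProbOn K ≪ (volume : Measure (Sp d)) := by
  unfold uniformProbOn
  exact Measure.AbsolutelyContinuous.smul_left Measure.restrict_le_self.absolutelyContinuous _

lemma sum_fibres {V : Finset (Sp d)}
    {T : Sp d → Sp d} (hT : Measurable T) (hTV : ∀ x, T x ∈ V)
    {X : Type*} [NormedAddCommGroup X] [NormedSpace ℝ X] (f : Sp d → X)
    (hf : Integrable f (uniformProbOn K)) :
    ∑ v ∈ V, ∫ x in T ⁻¹' {v}, f x ∂(uniformProbOn K) = ∫ x, f x ∂(uniformProbOn K) := by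
  classical
  rw [← integral_biUnion_finset V (fun v _ => hT (measurableSet_singleton v)) ?_
    (fun v _ => hf.integrableOn)]
  · have : (⋃ v ∈ V, T ⁻¹' {v}) = univ := by
      ext x; simp [hTV x]
    rw [this, setIntegral_univ]
  · intro v _ v' _ hvv'
    simp only [Function.onFun]
    rw [Set.disjoint_left]
    intro x hx hx'
    exact hvv' (by rw [← (show T x = v from hx), ← (show T x = v' from hx')])

/-- Cauchy-Schwarz on a set -/
lemma cs_set (hKc : IsCompact K) (hKi : (interior K).Nonempty) (B : Set (Sp d))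
    (η : Sp d → ℝ) (hη : Measurable η) (c : ℝ) (hb : ∀ x, |η x| ≤ c) :
    (∫ x in B, η x ∂(uniformProbOn K)) ^ 2 ≤
      (uniformProbOn K).real B * ∫ x in B, η x ^ 2 ∂(uniformProbOn K) := by
  have := prob_unif hKc hKi
  have hi : IntegrableOn η B (uniformProbOn K) :=
    (Integrable.of_bound hη.aestronglyMeasurable c
      (Filter.Eventually.of_forall fun x => by simpa using hb x)).integrableOn
  have hi2 : IntegrableOn (fun x => η x ^ 2) B (uniformProbOn K) := by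
    refine (Integrable.of_bound (hη.pow_const 2).aestronglyMeasurable (c ^ 2)
      (Filter.Eventually.of_forall fun x => ?_)).integrableOn
    rw [Real.norm_eq_abs, abs_pow]
    exact pow_le_pow_left₀ (abs_nonneg _) (hb x) 2
  set l := (uniformProbOn K).real B with hl
  set I := ∫ x in B, η x ∂(uniformProbOn K) with hI
  set N := ∫ x in B, η x ^ 2 ∂(uniformProbOn K) with hN
  have key : ∀ t : ℝ, 0 ≤ N - 2 * t * I + t ^ 2 * l := by
    intro t
    have h1 : 0 ≤ ∫ x in B, (η x - t) ^ 2 ∂(uniformProbOn K) :=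
      integral_nonneg (fun x => sq_nonneg _)
    have h2 : ∫ x in B, (η x - t) ^ 2 ∂(uniformProbOn K) = N - 2 * t * I + t ^ 2 * l := by
      have e : (fun x => (η x - t) ^ 2) = fun x => (η x ^ 2 - (2 * t) * η x) + t ^ 2 := by
        funext x; ring
      have j1 : IntegrableOn (fun x => (2 * t) * η x) B (uniformProbOn K) := hi.const_mul _
      have j2 : IntegrableOn (fun x => η x ^ 2 - (2 * t) * η x) B (uniformProbOn K) := hi2.sub j1
      have j3 : IntegrableOn (fun _ : Sp d => t ^ 2) B (uniformProbOn K) :=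
        integrableOn_const (by finiteness)
      rw [e, integral_add j2 j3, integral_sub hi2 j1, integral_const_mul, setIntegral_const,
        smul_eq_mul]
      ring
    rw [← h2]; exact h1
  have hl0 : 0 ≤ l := measureReal_nonneg
  rcases hl0.eq_or_lt with h0 | hpos
  · have hI0 : I = 0 := by
      have hB : (uniformProbOn K) B = 0 := by
        rw [hl, eq_comm, measureReal_eq_zero_iff] at h0
        exact h0
      rw [hI, Measure.restrict_eq_zero.2 hB, integral_zero_measure]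
    rw [hI0, ← h0]; simp
  · have h1 := key (I / l)
    have h2 : N - 2 * (I / l) * I + (I / l) ^ 2 * l = N - I ^ 2 / l := by
      field_simp; ring
    rw [h2] at h1
    have h3 : I ^ 2 / l ≤ N := by linarith
    rw [div_le_iff₀ hpos] at h3
    linarith

lemma alg1 {a b l0 l1 g I : ℝ} (ha : 0 ≤ a) (hb : 0 ≤ b) (hl0 : 0 ≤ l0) (hl1 : 0 ≤ l1)
    (hg : 0 ≤ g) (hI : 0 ≤ I) (h : (a + l0 * g) * (b + l1 * g) ≤ I ^ 2) :
    Real.sqrt (a * b) + Real.sqrt (l0 * l1) * g ≤ I := by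
  have h1 : Real.sqrt (a * b) * Real.sqrt (l0 * l1) ≤ (a * l1 + b * l0) / 2 := by
    rw [← Real.sqrt_mul (by positivity)]
    have : a * b * (l0 * l1) = (a * l1) * (b * l0) := by ring
    rw [this, Real.sqrt_mul (by positivity)]
    have e1 : Real.sqrt (a * l1) ^ 2 = a * l1 := Real.sq_sqrt (by positivity)
    have e2 : Real.sqrt (b * l0) ^ 2 = b * l0 := Real.sq_sqrt (by positivity)
    nlinarith [sq_nonneg (Real.sqrt (a * l1) - Real.sqrt (b * l0))]
  have e1 : Real.sqrt (a * b) ^ 2 = a * b := Real.sq_sqrt (by positivity)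
  have e2 : Real.sqrt (l0 * l1) ^ 2 = l0 * l1 := Real.sq_sqrt (by positivity)
  apply le_of_sq_le_sq _ hI
  calc (Real.sqrt (a * b) + Real.sqrt (l0 * l1) * g) ^ 2
      = Real.sqrt (a * b) ^ 2 + 2 * g * (Real.sqrt (a * b) * Real.sqrt (l0 * l1)) +
        Real.sqrt (l0 * l1) ^ 2 * g ^ 2 := by ring
    _ ≤ a * b + 2 * g * ((a * l1 + b * l0) / 2) + l0 * l1 * g ^ 2 := by
        rw [e1, e2]; gcongr
    _ = (a + l0 * g) * (b + l1 * g) := by ring
    _ ≤ I ^ 2 := h

lemma alg2 {a b : ℝ} (ha : 0 ≤ a) (hb : 0 ≤ b) (hab : 0 < a + b) :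
    (a + b) / 2 - (a - b) ^ 2 / (2 * (a + b)) ≤ Real.sqrt (a * b) := by
  have h1 : (a + b) / 2 - (a - b) ^ 2 / (2 * (a + b)) = 2 * (a * b) / (a + b) := by
    field_simp; ring
  rw [h1, div_le_iff₀ hab]
  have e : Real.sqrt (a * b) ^ 2 = a * b := Real.sq_sqrt (by positivity)
  have h2 : 2 * Real.sqrt (a * b) ≤ a + b := by
    have e1 : Real.sqrt a ^ 2 = a := Real.sq_sqrt ha
    have e2 : Real.sqrt b ^ 2 = b := Real.sq_sqrt hb
    rw [Real.sqrt_mul ha]
    nlinarith [sq_nonneg (Real.sqrt a - Real.sqrt b)]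
  nlinarith [Real.sqrt_nonneg (a * b)]

lemma alg3 {l0 l1 : ℝ} (h0 : 0 < l0) (h1 : 0 < l1) (h2 : l1 ≤ 2 * l0) (h3 : l0 ≤ 3 / 2 * l1) :
    (l0 + l1) / 4 ≤ Real.sqrt (l0 * l1) := by
  apply Real.le_sqrt_of_sq_le
  nlinarith

set_option maxHeartbeats 1000000 in
/-- the per-cell conclusion -/
lemma alg4 {R l0 l1 W0 W1 s P N I : ℝ} (hR : 0 < R) (h0 : 0 < l0) (h1 : 0 < l1)
    (h2 : l1 ≤ 2 * l0) (h3 : l0 ≤ 3 / 2 * l1)
    (hs : s = W0 / l0 - W1 / l1) (hP : 0 ≤ P)
    (a0 : 16 * R ^ 2 ≤ W0 / l0) (a0' : W0 / l0 ≤ 17 * R ^ 2)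
    (a1 : 16 * R ^ 2 ≤ W1 / l1) (a1' : W1 / l1 ≤ 17 * R ^ 2)
    (hN : (l0 - l1) ^ 2 ≤ l1 * N) (hN0 : 0 ≤ N) (hI : 0 ≤ I)
    (hmain : (W0 + l0 * ((P + s ^ 2 / R ^ 2) / 16)) * (W1 + l1 * ((P + s ^ 2 / R ^ 2) / 16)) ≤
      I ^ 2) :
    (W0 + W1) / 2 + (l0 + l1) * P / 64 - 19 * R ^ 2 * N ≤ I := by
  have hR2 : 0 < R ^ 2 := by positivity
  obtain ⟨w0, hw0⟩ : ∃ w0, w0 = W0 / l0 := ⟨_, rfl⟩
  obtain ⟨w1, hw1⟩ : ∃ w1, w1 = W1 / l1 := ⟨_, rfl⟩
  obtain ⟨S, hS⟩ : ∃ S, S = s ^ 2 / R ^ 2 := ⟨_, rfl⟩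
  obtain ⟨Q, hQ⟩ : ∃ Q, Q = R ^ 2 := ⟨_, rfl⟩
  rw [← hS] at hmain
  rw [← hw0] at a0 a0' hs
  rw [← hw1] at a1 a1' hs
  rw [← hQ] at a0 a0' a1 a1' hR2 ⊢
  have eS : s ^ 2 = S * Q := by rw [hS, hQ]; field_simp
  have eW0 : W0 = l0 * w0 := by rw [hw0]; field_simp
  have eW1 : W1 = l1 * w1 := by rw [hw1]; field_simp
  have hS0 : 0 ≤ S := by rw [hS]; positivity
  clear hS hw0 hw1 hQ
  have p0 : 0 < w0 := by linarith
  have p1 : 0 < w1 := by linarith
  have hW0 : 0 < W0 := by rw [eW0]; positivity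
  have hW1 : 0 < W1 := by rw [eW1]; positivity
  have hg : 0 ≤ (P + S) / 16 := by positivity
  have k1 := alg1 hW0.le hW1.le h0.le h1.le hg hI hmain
  have k2 := alg2 hW0.le hW1.le (by positivity)
  have k3 := alg3 h0 h1 h2 h3
  have k4 : (l0 + l1) / 4 * ((P + S) / 16) ≤
      Real.sqrt (l0 * l1) * ((P + S) / 16) := by gcongr
  have k5 : (W0 - W1) ^ 2 / (2 * (W0 + W1)) ≤ (l0 + l1) * S / 64 + 19 * Q * N := by
    rw [div_le_iff₀ (by positivity)]
    have m1 : (W0 - W1) ^ 2 ≤ (l0 + l1) ^ 2 * s ^ 2 / 2 + (l0 - l1) ^ 2 * (34 * Q) ^ 2 / 2 := by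
      have e : W0 - W1 = ((l0 + l1) * s + (l0 - l1) * (w0 + w1)) / 2 := by
        rw [eW0, eW1, hs]; ring
      have q1 : (w0 + w1) ^ 2 ≤ (34 * Q) ^ 2 := by
        apply pow_le_pow_left₀ (by positivity); linarith
      have q2 : (l0 - l1) ^ 2 * (w0 + w1) ^ 2 ≤ (l0 - l1) ^ 2 * (34 * Q) ^ 2 := by gcongr
      rw [e]
      nlinarith [sq_nonneg ((l0 + l1) * s - (l0 - l1) * (w0 + w1))]
    have m2 : 16 * Q * (l0 + l1) ≤ W0 + W1 := by
      rw [eW0, eW1]
      have r1 : l0 * (16 * Q) ≤ l0 * w0 := by gcongr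
      have r2 : l1 * (16 * Q) ≤ l1 * w1 := by gcongr
      linarith
    have m3 : (l0 - l1) ^ 2 ≤ (l0 + l1) * N := by
      refine hN.trans ?_
      have : 0 ≤ l0 * N := by positivity
      linarith
    have m4 : 0 ≤ (l0 + l1) * S / 64 + 19 * Q * N := by positivity
    calc (W0 - W1) ^ 2 ≤ (l0 + l1) ^ 2 * s ^ 2 / 2 + (l0 - l1) ^ 2 * (34 * Q) ^ 2 / 2 := m1
      _ ≤ (l0 + l1) ^ 2 * s ^ 2 / 2 + ((l0 + l1) * N) * (34 * Q) ^ 2 / 2 := by gcongr
      _ ≤ ((l0 + l1) * S / 64 + 19 * Q * N) * (2 * (16 * Q * (l0 + l1))) := by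
          rw [eS]
          have e1 : ((l0 + l1) * S / 64 + 19 * Q * N) *
              (2 * (16 * Q * (l0 + l1))) =
              (l0 + l1) ^ 2 * (S * Q) / 2 + 608 * (Q ^ 2 * ((l0 + l1) * N)) := by
            ring
          have e2 : ((l0 + l1) * N) * (34 * Q) ^ 2 / 2 = 578 * (Q ^ 2 * ((l0 + l1) * N)) := by
            ring
          rw [e1, e2]
          have : 0 ≤ Q ^ 2 * ((l0 + l1) * N) := by positivity
          linarith
      _ ≤ _ := by gcongr
  have k6 : (l0 + l1) / 4 * ((P + S) / 16) =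
      (l0 + l1) * P / 64 + (l0 + l1) * S / 64 := by ring
  linarith

end Crest.Agent.OS109
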