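import Crest.Agent.OS109Key3

set_option autoImplicit false
set_option linter.unusedSectionVars false
set_option linter.style.haveILetI false

open MeasureTheory Set
open scoped ENNReal
open Crest.AnalysisR.OT

namespace Crest.Agent.OS109

variable {d : ℕ} {K : Set (Sp d)}

/-- closed Laguerre cell -/
def ccell (V : Finset (Sp d)) (ψ : Sp d → ℝ) (v : Sp d) : Set (Sp d) :=
  {x | ∀ v' ∈ V, inner ℝ x v' - ψ v' ≤ inner ℝ x v - ψ v}

lemma ccell_meas (V : Finset (Sp d)) (ψ : Sp d → ℝ) (v : Sp d) : MeasurableSet (ccell V ψ v) := by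
  have : ccell V ψ v = ⋂ v' ∈ V, {x | inner ℝ x v' - ψ v' ≤ inner ℝ x v - ψ v} := by
    ext x; simp [ccell]
  rw [this]
  refine Finset.measurableSet_biInter V fun v' _ => ?_
  exact (isClosed_le (by fun_prop) (by fun_prop)).measurableSet

lemma sum_ccell_le (hKc : IsCompact K) (hKi : (interior K).Nonempty) (V : Finset (Sp d))
    (ψ : Sp d → ℝ) (w : Sp d → ℝ) (hw : Continuous w) (hw0 : ∀ x ∈ K, 0 ≤ w x) :
    ∑ v ∈ V, ∫ x in ccell V ψ v, w x ∂(uniformProbOn K) ≤ ∫ x, w x ∂(uniformProbOn K) := by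
  classical
  have := prob_unif hKc hKi
  have hint : Integrable w (uniformProbOn K) := integrable_cont hKc hKi w hw
  have h1 : ∀ v ∈ V, ∫ x in ccell V ψ v, w x ∂(uniformProbOn K) =
      ∫ x, (ccell V ψ v).indicator w x ∂(uniformProbOn K) := fun v _ =>
    (integral_indicator (ccell_meas V ψ v)).symm
  rw [Finset.sum_congr rfl h1, ← integral_finsetSum V
    (fun v _ => hint.indicator (ccell_meas V ψ v))]
  refine integral_mono_ae (integrable_finsetSum V fun v _ =>
    hint.indicator (ccell_meas V ψ v)) hint ?_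
  have hties : ∀ᵐ x ∂(uniformProbOn K), ∀ v ∈ V, ∀ v' ∈ V, v ≠ v' →
      ¬ (x ∈ ccell V ψ v ∧ x ∈ ccell V ψ v') := by
    rw [Finset.eventually_all]
    intro v hv
    rw [Finset.eventually_all]
    intro v' hv'
    by_cases hvv : v = v'
    · exact Filter.Eventually.of_forall fun x h => absurd hvv h
    · have h0 : uniformProbOn K {x : Sp d | inner ℝ x v - ψ v = inner ℝ x v' - ψ v'} = 0 :=
        unif_ac K (ties_null' hvv _ _)
      have h2 : ∀ᵐ x ∂(uniformProbOn K), ¬ (inner ℝ x v - ψ v = inner ℝ x v' - ψ v') := by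
        rw [ae_iff]; simpa using h0
      filter_upwards [h2] with x hx _ hc
      exact hx (le_antisymm (hc.2 v hv) (hc.1 v' hv'))
  filter_upwards [hties, ae_mem hKc] with x hx hxK
  by_cases hex : ∃ v ∈ V, x ∈ ccell V ψ v
  · obtain ⟨v, hv, hxv⟩ := hex
    rw [Finset.sum_eq_single_of_mem v hv]
    · rw [indicator_of_mem hxv]
    · intro v' hv' hne
      rw [indicator_of_notMem]
      intro h
      exact hx v hv v' hv' hne.symm ⟨hxv, h⟩
  · push Not at hex
    rw [Finset.sum_eq_zero]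
    · exact hw0 x hxK
    · intro v hv
      rw [indicator_of_notMem (hex v hv)]

/-- bounds of averages -/
lemma avg_bounds (hKc : IsCompact K) (hKi : (interior K).Nonempty) {R : ℝ} (hR : 0 < R)
    (hKR : ∀ x ∈ K, ‖x‖ ≤ R) (A : Set (Sp d)) (l : ℝ) (hl : l = (uniformProbOn K).real A)
    (hlp : 0 < l) :
    17 * R ^ 2 - R ^ 2 / 2 ≤ (∫ x in A, wt R x ∂(uniformProbOn K)) / l ∧
      (∫ x in A, wt R x ∂(uniformProbOn K)) / l ≤ 17 * R ^ 2 ∧
      ‖l⁻¹ • ∫ x in A, x ∂(uniformProbOn K)‖ ≤ R := by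
  have := prob_unif hKc hKi
  have hi : IntegrableOn (wt (d := d) R) A (uniformProbOn K) :=
    (integrable_cont hKc hKi _ (wt_cont R)).integrableOn
  have hc : ∀ c : ℝ, IntegrableOn (fun _ : Sp d => c) A (uniformProbOn K) := fun c =>
    integrableOn_const (by finiteness)
  have hae : ∀ᵐ x ∂((uniformProbOn K).restrict A), x ∈ K := ae_restrict_of_ae (ae_mem hKc)
  have hb : ∀ x ∈ K, 17 * R ^ 2 - R ^ 2 / 2 ≤ wt R x ∧ wt R x ≤ 17 * R ^ 2 := by
    intro x hx
    have h1 := hKR x hx
    have h2 : ‖x‖ ^ 2 ≤ R ^ 2 := by gcongr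
    unfold wt
    constructor
    · linarith
    · have : 0 ≤ ‖x‖ ^ 2 := by positivity
      linarith
  refine ⟨?_, ?_, ?_⟩
  · rw [le_div_iff₀ hlp]
    have h := integral_mono_ae (hc (17 * R ^ 2 - R ^ 2 / 2)) hi
      (by filter_upwards [hae] with x hx using (hb x hx).1)
    rw [setIntegral_const, smul_eq_mul, ← hl] at h
    linarith
  · rw [div_le_iff₀ hlp]
    have h := integral_mono_ae hi (hc (17 * R ^ 2))
      (by filter_upwards [hae] with x hx using (hb x hx).2)
    rw [setIntegral_const, smul_eq_mul, ← hl] at h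
    linarith
  · rw [norm_smul, norm_inv, Real.norm_of_nonneg hlp.le, inv_mul_le_iff₀ hlp]
    have h := norm_setIntegral_le_of_norm_le_const_ae' (μ := uniformProbOn K) (s := A) (C := R)
      (f := fun x : Sp d => x) (by finiteness) (by
        filter_upwards [ae_mem hKc] with x hx _ using hKR x hx)
    rw [← hl] at h
    linarith

end Crest.Agent.OS109
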