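import Crest.Agent.OS109Key4

set_option autoImplicit false
set_option linter.unusedSectionVars false
set_option linter.style.haveILetI false

open MeasureTheory Set
open scoped ENNReal
open Crest.AnalysisR.OT

namespace Crest.Agent.OS109

variable {d : ℕ} {K : Set (Sp d)}

set_option maxHeartbeats 1000000 in
/-- second half: from Lebesgue barycentres to weighted barycentres -/
lemma bary_shift (hKc : IsCompact K) (hKi : (interior K).Nonempty) {R : ℝ} (hR : 0 < R)
    (hKR : ∀ x ∈ K, ‖x‖ ≤ R) (B : Set (Sp d)) (η : Sp d → ℝ) (hη : Measurable η)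
    (hηb : ∀ x, |η x| ≤ 1 / 2) (M l1 : ℝ) (hl1 : l1 = (uniformProbOn K).real B)
    (hM : ∫ x in B, (1 + η x) ∂(uniformProbOn K) = M) (hMp : 0 < M) (hl1p : 0 < l1)
    (hl1M : l1 ≤ 2 * M) :
    M * ‖M⁻¹ • (∫ x in B, (1 + η x) • x ∂(uniformProbOn K)) -
        l1⁻¹ • ∫ x in B, x ∂(uniformProbOn K)‖ ^ 2 ≤
      8 * R ^ 2 * ∫ x in B, η x ^ 2 ∂(uniformProbOn K) := by
  have := prob_unif hKc hKi
  set b := l1⁻¹ • ∫ x in B, x ∂(uniformProbOn K) with hb
  have hbR : ‖b‖ ≤ R := (avg_bounds hKc hKi hR hKR B l1 hl1 hl1p).2.2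
  have iη : Integrable η (uniformProbOn K) :=
    Integrable.of_bound hη.aestronglyMeasurable (1 / 2)
      (Filter.Eventually.of_forall fun x => by simpa using hηb x)
  have ix : Integrable (fun x : Sp d => x) (uniformProbOn K) :=
    integrable_cont hKc hKi _ continuous_id
  have iηx : Integrable (fun x : Sp d => η x • x) (uniformProbOn K) := by
    refine Integrable.of_bound (hη.smul measurable_id).aestronglyMeasurable (1 / 2 * R) ?_
    filter_upwards [ae_mem hKc] with x hx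
    rw [norm_smul, Real.norm_eq_abs]
    have := hηb x
    have := hKR x hx
    gcongr
  have hxb : ∫ x in B, x ∂(uniformProbOn K) = l1 • b := by
    rw [hb, smul_smul, mul_inv_cancel₀ hl1p.ne', one_smul]
  have e1 : ∫ x in B, (1 + η x) • x ∂(uniformProbOn K) =
      l1 • b + ∫ x in B, η x • x ∂(uniformProbOn K) := by
    have : (fun x : Sp d => (1 + η x) • x) = fun x => x + η x • x := by
      funext x; rw [add_smul, one_smul]
    rw [this, integral_add ix.integrableOn iηx.integrableOn, hxb]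
  have e2 : M = l1 + ∫ x in B, η x ∂(uniformProbOn K) := by
    rw [← hM, integral_add (integrable_const _).integrableOn iη.integrableOn, setIntegral_const,
      ← hl1]
    simp
  have e3 : M⁻¹ • (∫ x in B, (1 + η x) • x ∂(uniformProbOn K)) - b =
      M⁻¹ • ∫ x in B, η x • (x - b) ∂(uniformProbOn K) := by
    have h1 : ∫ x in B, η x • (x - b) ∂(uniformProbOn K) =
        (∫ x in B, η x • x ∂(uniformProbOn K)) - (∫ x in B, η x ∂(uniformProbOn K)) • b := by
      have : (fun x : Sp d => η x • (x - b)) = fun x => η x • x - η x • b := by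
        funext x; rw [smul_sub]
      rw [this, integral_sub iηx.integrableOn (iη.smul_const b).integrableOn,
        integral_smul_const]
    rw [h1, e1]
    set X := ∫ x in B, η x • x ∂(uniformProbOn K)
    set H := ∫ x in B, η x ∂(uniformProbOn K)
    have h2 : M⁻¹ • (l1 • b + X) - M⁻¹ • (X - H • b) = b := by
      rw [← smul_sub]
      have : l1 • b + X - (X - H • b) = M • b := by
        rw [e2, add_smul]; abel
      rw [this, smul_smul, inv_mul_cancel₀ hMp.ne', one_smul]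
    rw [sub_eq_iff_eq_add] at h2 ⊢
    rw [h2]; abel
  rw [e3, norm_smul, norm_inv, Real.norm_of_nonneg hMp.le]
  have h5 : ‖∫ x in B, η x • (x - b) ∂(uniformProbOn K)‖ ≤
      (2 * R) * ∫ x in B, |η x| ∂(uniformProbOn K) := by
    rw [← integral_const_mul]
    refine norm_integral_le_of_norm_le (iη.abs.const_mul (2 * R)).integrableOn ?_
    filter_upwards [ae_restrict_of_ae (ae_mem hKc)] with x hx
    rw [norm_smul, Real.norm_eq_abs, mul_comm]
    have : ‖x - b‖ ≤ 2 * R := (norm_sub_le _ _).trans (by linarith [hKR x hx])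
    gcongr
  have h6 := cs_set hKc hKi B (fun x => |η x|) (by fun_prop) (1 / 2)
    (fun x => by rw [abs_abs]; exact hηb x)
  simp only [sq_abs] at h6
  rw [← hl1] at h6
  set N := ∫ x in B, η x ^ 2 ∂(uniformProbOn K) with hN
  have hN0 : 0 ≤ N := integral_nonneg fun x => sq_nonneg _
  set J := ∫ x in B, |η x| ∂(uniformProbOn K) with hJ
  have hJ0 : 0 ≤ J := integral_nonneg fun x => abs_nonneg _
  set X := ‖∫ x in B, η x • (x - b) ∂(uniformProbOn K)‖ with hX
  have hX0 : 0 ≤ X := norm_nonneg _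
  have h7 : X ^ 2 ≤ 4 * R ^ 2 * (l1 * N) := by
    calc X ^ 2 ≤ (2 * R * J) ^ 2 := by gcongr
      _ = 4 * R ^ 2 * J ^ 2 := by ring
      _ ≤ _ := by gcongr
  calc M * (M⁻¹ * X) ^ 2 = M⁻¹ * X ^ 2 := by field_simp
    _ ≤ M⁻¹ * (4 * R ^ 2 * (l1 * N)) := by gcongr
    _ ≤ M⁻¹ * (4 * R ^ 2 * ((2 * M) * N)) := by gcongr
    _ = 8 * R ^ 2 * N := by field_simp; ring

end Crest.Agent.OS109

namespace Crest.Agent.OS109

variable {d : ℕ} {K : Set (Sp d)}

lemma exists_R (hKc : IsCompact K) : ∃ R : ℝ, 0 < R ∧ ∀ x ∈ K, ‖x‖ ≤ R := by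
  obtain ⟨R, hR⟩ := hKc.isBounded.exists_norm_le
  exact ⟨max R 1, by positivity, fun x hx => (hR x hx).trans (le_max_left _ _)⟩

set_option maxHeartbeats 2000000 in
/-- the key estimate -/
theorem key (PL : PLstmt d) (hKc : IsCompact K) (hKv : Convex ℝ K) (hKi : (interior K).Nonempty) :
    ∃ C : ℝ, 0 ≤ C ∧ ∀ (V : Finset (Sp d)) (M η : Sp d → ℝ), (∀ v ∈ V, 0 < M v) →
      Measurable η → (∀ x, |η x| ≤ 1 / 2) →
      ∀ (L0 : Lag (uniformProbOn K) V M (fun _ => 1))
        (L1 : Lag (uniformProbOn K) V M (fun x => 1 + η x)),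
      ∑ v ∈ V, M v * ‖L1.b v - L0.b v‖ ^ 2 ≤ C * ∫ x, η x ^ 2 ∂(uniformProbOn K) := by
  obtain ⟨R, hR, hKR⟩ := exists_R hKc
  have := prob_unif hKc hKi
  set ρ := uniformProbOn K with hρ
  refine ⟨2500 * R ^ 2, by positivity, fun V M η hM hη hηb L0 L1 => ?_⟩
  have hR2 : 0 < R ^ 2 := by positivity
  have iη : Integrable η ρ :=
    Integrable.of_bound hη.aestronglyMeasurable (1 / 2)
      (Filter.Eventually.of_forall fun x => by simpa using hηb x)
  have iη2 : Integrable (fun x => η x ^ 2) ρ := by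
    refine Integrable.of_bound (hη.pow_const 2).aestronglyMeasurable ((1 / 2) ^ 2)
      (Filter.Eventually.of_forall fun x => ?_)
    rw [Real.norm_eq_abs, abs_pow]
    exact pow_le_pow_left₀ (abs_nonneg _) (hηb x) 2
  have iw : Integrable (wt (d := d) R) ρ := integrable_cont hKc hKi _ (wt_cont R)
  set ψh : Sp d → ℝ := fun v => (L0.ψ v + L1.ψ v) / 2 with hψh
  -- facts per cell
  have hcell : ∀ v ∈ V,
      ((∫ x in L0.T ⁻¹' {v}, wt R x ∂ρ) + ∫ x in L1.T ⁻¹' {v}, wt R x ∂ρ) / 2 +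
        (M v * ‖L1.b v - L0.b v‖ ^ 2) / 128 ≤
      (∫ x in ccell V ψh v, wt R x ∂ρ) +
        (19 + 1 / 8) * R ^ 2 * ∫ x in L1.T ⁻¹' {v}, η x ^ 2 ∂ρ := by
    intro v hv
    set A := L0.T ⁻¹' {v} with hA
    set B := L1.T ⁻¹' {v} with hB
    have hAm : MeasurableSet A := L0.meas_T (measurableSet_singleton v)
    have hBm : MeasurableSet B := L1.meas_T (measurableSet_singleton v)
    set l0 := ρ.real A with hl0
    set l1 := ρ.real B with hl1
    have hMv := hM v hv
    have m0 : l0 = M v := by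
      have := L0.mass v hv
      rw [setIntegral_const, smul_eq_mul, mul_one] at this
      exact this
    have m1 := L1.mass v hv
    have m1' : l1 + ∫ x in B, η x ∂ρ = M v := by
      rw [← m1, integral_add (integrable_const _).integrableOn iη.integrableOn, setIntegral_const,
        smul_eq_mul, mul_one]
    have hηB : |∫ x in B, η x ∂ρ| ≤ 1 / 2 * l1 := by
      have h := norm_setIntegral_le_of_norm_le_const_ae' (μ := ρ) (s := B) (C := 1 / 2)
        (f := η) (by finiteness) (Filter.Eventually.of_forall fun x _ => by simpa using hηb x)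
      rwa [Real.norm_eq_abs] at h
    have hηB' := abs_le.1 hηB
    have hl0p : 0 < l0 := by rw [m0]; exact hMv
    have hl1n : 0 ≤ l1 := measureReal_nonneg
    have hl1p : 0 < l1 := by
      rcases hl1n.eq_or_lt with h | h
      · rw [← h] at hηB' m1'
        linarith [hηB'.2]
      · exact h
    have h2 : l1 ≤ 2 * l0 := by rw [m0]; linarith [hηB'.1]
    have h3 : l0 ≤ 3 / 2 * l1 := by rw [m0]; linarith [hηB'.2]
    have a0 := avg_bounds hKc hKi hR hKR A l0 hl0 hl0p
    have a1 := avg_bounds hKc hKi hR hKR B l1 hl1 hl1p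
    set W0 := ∫ x in A, wt R x ∂ρ with hW0
    set W1 := ∫ x in B, wt R x ∂ρ with hW1
    set b0 := l0⁻¹ • ∫ x in A, x ∂ρ with hb0
    set b1 := l1⁻¹ • ∫ x in B, x ∂ρ with hb1
    set N := ∫ x in B, η x ^ 2 ∂ρ with hN
    set I := ∫ x in ccell V ψh v, wt R x ∂ρ with hI
    have hN0 : 0 ≤ N := integral_nonneg fun x => sq_nonneg _
    have hI0 : 0 ≤ I := by
      refine integral_nonneg_of_ae (ae_restrict_of_ae ?_)
      filter_upwards [ae_mem hKc] with x hx
      have h1 := hKR x hx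
      have h2 : ‖x‖ ^ 2 ≤ R ^ 2 := by gcongr
      show 0 ≤ wt R x
      unfold wt; linarith
    have hmain := cell_real PL hKc hKv hKi hR hKR A B (ccell V ψh v) hAm hBm
      (ccell_meas V ψh v) (by
        intro x hx y hy v' hv'
        have t1 := L0.T_max x v' hv'
        have t2 := L1.T_max y v' hv'
        have hx' : L0.T x = v := hx
        have hy' : L1.T y = v := hy
        rw [hx'] at t1
        rw [hy'] at t2
        rw [inner_smul_left, inner_smul_left, inner_add_left, inner_add_left]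
        simp only [hψh, conj_trivial]
        linarith) l0 l1 W0 W1 (W0 / l0 - W1 / l1) b0 b1 hl0 hl1 hl0p hl1p hW0 hW1
      (by rw [hb0, smul_smul, mul_inv_cancel₀ hl0p.ne', one_smul])
      (by rw [hb1, smul_smul, mul_inv_cancel₀ hl1p.ne', one_smul]) rfl a0.2.2 a1.2.2
      (by rw [abs_le]; constructor <;> linarith [a0.1, a0.2.1])
      (by rw [abs_le]; constructor <;> linarith [a1.1, a1.2.1])
    have hcs := cs_set hKc hKi B η hη (1 / 2) hηb
    rw [← hρ, ← hl1, ← hN] at hcs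
    have hlN : (l0 - l1) ^ 2 ≤ l1 * N := by
      have : l0 - l1 = ∫ x in B, η x ∂ρ := by rw [m0]; linarith
      rw [this]; exact hcs
    have h4 := alg4 hR hl0p hl1p h2 h3 rfl (by positivity : (0 : ℝ) ≤ ‖b1 - b0‖ ^ 2)
      (by linarith [a0.1]) a0.2.1 (by linarith [a1.1]) a1.2.1 hlN hN0 hI0 hmain
    -- weighted barycentre
    have h5 := bary_shift hKc hKi hR hKR B η hη hηb (M v) l1 hl1 m1 hMv hl1p (by linarith)
    rw [← hρ, ← hN, ← hb1] at h5
    have hL0b : L0.b v = b0 := by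
      unfold Lag.b
      rw [hb0, m0]
      simp [hA]
    have hL1b : L1.b v = (M v)⁻¹ • ∫ x in B, (1 + η x) • x ∂ρ := rfl
    rw [← hL1b] at h5
    rw [hL0b]
    have h6 : ‖L1.b v - b0‖ ^ 2 ≤ 2 * ‖b1 - b0‖ ^ 2 + 2 * ‖L1.b v - b1‖ ^ 2 := by
      have e : L1.b v - b0 = (b1 - b0) + (L1.b v - b1) := by abel
      have := norm_add_le (b1 - b0) (L1.b v - b1)
      rw [e]
      have k := norm_nonneg (b1 - b0 + (L1.b v - b1))
      nlinarith [sq_nonneg (‖b1 - b0‖ - ‖L1.b v - b1‖)]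
    have h7 : M v * ‖L1.b v - b0‖ ^ 2 ≤ 2 * (M v * ‖b1 - b0‖ ^ 2) + 2 * (8 * R ^ 2 * N) := by
      calc M v * ‖L1.b v - b0‖ ^ 2 ≤ M v * (2 * ‖b1 - b0‖ ^ 2 + 2 * ‖L1.b v - b1‖ ^ 2) := by
            gcongr
        _ = 2 * (M v * ‖b1 - b0‖ ^ 2) + 2 * (M v * ‖L1.b v - b1‖ ^ 2) := by ring
        _ ≤ _ := by gcongr
    have h8 : M v * ‖b1 - b0‖ ^ 2 ≤ (l0 + l1) * ‖b1 - b0‖ ^ 2 := by
      gcongr; linarith
    linarith
  have hsum := Finset.sum_le_sum hcell
  rw [Finset.sum_add_distrib, Finset.sum_add_distrib, ← Finset.sum_div, Finset.sum_add_distrib,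
    ← Finset.sum_div, ← Finset.mul_sum, sum_fibres L0.meas_T L0.T_mem _ iw,
    sum_fibres L1.meas_T L1.T_mem _ iw, sum_fibres L1.meas_T L1.T_mem _ iη2] at hsum
  have hw0 : ∀ x ∈ K, 0 ≤ wt R x := by
    intro x hx
    have h1 := hKR x hx
    have h2 : ‖x‖ ^ 2 ≤ R ^ 2 := by gcongr
    unfold wt; linarith
  have hC := sum_ccell_le hKc hKi V ψh (wt R) (wt_cont R) hw0
  rw [← hρ] at hC
  have hN0 : 0 ≤ ∫ x, η x ^ 2 ∂ρ := integral_nonneg fun x => sq_nonneg _
  rw [← hρ] at hsum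
  have hRN : 0 ≤ R ^ 2 * ∫ x, η x ^ 2 ∂ρ := by positivity
  linarith

end Crest.Agent.OS109
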