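import Crest.Agent.OS109Key5

set_option autoImplicit false
set_option linter.unusedSectionVars false
set_option linter.style.haveILetI false

open MeasureTheory Set
open scoped ENNReal
open Crest.AnalysisR.OT

namespace Crest.Agent.OS109

variable {d : ℕ} {K : Set (Sp d)}

namespace Lag

variable {ρ : Measure (Sp d)} {V : Finset (Sp d)} {M θ : Sp d → ℝ}

/-- a bound for the norms of the sites -/
lemma exists_bound (V : Finset (Sp d)) : ∃ B : ℝ, 0 ≤ B ∧ ∀ v ∈ V, ‖v‖ ≤ B := by
  refine ⟨∑ v ∈ V, ‖v‖, by positivity, fun v hv => ?_⟩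
  exact Finset.single_le_sum (f := fun v => ‖v‖) (fun _ _ => norm_nonneg _) hv

lemma f_lip (L : Lag ρ V M θ) {B : ℝ} (hB : ∀ v ∈ V, ‖v‖ ≤ B) (x x' : Sp d) :
    |L.f x - L.f x'| ≤ B * ‖x - x'‖ := by
  have h1 := L.f_subgrad x x'
  have h2 := L.f_subgrad x' x
  have b1 : |inner ℝ (x' - x) (L.T x)| ≤ B * ‖x - x'‖ := by
    refine (abs_real_inner_le_norm _ _).trans ?_
    rw [mul_comm, norm_sub_rev]
    have := hB _ (L.T_mem x)
    gcongr
  have b2 : |inner ℝ (x - x') (L.T x')| ≤ B * ‖x - x'‖ := by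
    refine (abs_real_inner_le_norm _ _).trans ?_
    rw [mul_comm]
    have := hB _ (L.T_mem x')
    gcongr
  rw [abs_le] at b1 b2 ⊢
  constructor <;> linarith [b1.1, b1.2, b2.1, b2.2]

lemma f_cont (L : Lag ρ V M θ) : Continuous L.f := by
  obtain ⟨B, hB0, hB⟩ := exists_bound V
  have : LipschitzWith ⟨B, hB0⟩ L.f := LipschitzWith.of_dist_le_mul fun x x' => by
    rw [Real.dist_eq, dist_eq_norm]; exact L.f_lip hB x x'
  exact this.continuous

/-- transport along equalities -/
def cast {V' : Finset (Sp d)} {M' : Sp d → ℝ} (L : Lag ρ V M θ) (hV : V = V')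
    (hM : ∀ v ∈ V, M v = M' v) : Lag ρ V' M' θ where
  ψ := L.ψ
  T := L.T
  meas_T := L.meas_T
  T_mem := fun x => hV ▸ L.T_mem x
  T_max := fun x v hv => L.T_max x v (hV ▸ hv)
  mass := fun v hv => by
    have hv' : v ∈ V := hV ▸ hv
    rw [L.mass v hv', hM v hv']

/-- value of the problem -/
noncomputable def val (L : Lag ρ V M θ) : ℝ := ∫ x, L.f x * θ x ∂ρ + ∑ v ∈ V, M v * L.ψ v

end Lag

/-- admissible density -/
structure Dens (K : Set (Sp d)) (θ : Sp d → ℝ) : Prop where
  meas : Measurable θ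
  nn : ∀ x, 0 ≤ θ x
  le2 : ∀ x, θ x ≤ 2

section

variable {V : Finset (Sp d)} {M θ : Sp d → ℝ}

lemma Dens.int (hθ : Dens K θ) (_hKc : IsCompact K) (_hKi : (interior K).Nonempty)
    {X : Type*} [NormedAddCommGroup X] [NormedSpace ℝ X]
    (f : Sp d → X) (hf : Integrable f (uniformProbOn K)) :
    Integrable (fun x => θ x • f x) (uniformProbOn K) := by
  refine Integrable.bdd_smul hf 2 hθ.meas.aestronglyMeasurable ?_
  refine Filter.Eventually.of_forall fun x => ?_
  rw [Real.norm_of_nonneg (hθ.nn x)]; exact hθ.le2 x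

lemma Dens.int' (hθ : Dens K θ) (hKc : IsCompact K) (hKi : (interior K).Nonempty)
    (f : Sp d → ℝ) (hf : Integrable f (uniformProbOn K)) :
    Integrable (fun x => f x * θ x) (uniformProbOn K) := by
  have := hθ.int hKc hKi f hf
  simpa [mul_comm] using this

lemma sum_psi (hKc : IsCompact K) (hKi : (interior K).Nonempty) (hθ : Dens K θ)
    (L : Lag (uniformProbOn K) V M θ) (g : Sp d → ℝ) :
    Integrable (fun x => g (L.T x) * θ x) (uniformProbOn K) ∧
    ∫ x, g (L.T x) * θ x ∂(uniformProbOn K) = ∑ v ∈ V, M v * g v := by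
  classical
  have := prob_unif hKc hKi
  have hθi : Integrable θ (uniformProbOn K) := by
    have := hθ.int' hKc hKi (fun _ => (1 : ℝ)) (integrable_const _)
    simpa using this
  have hrep : (fun x => g (L.T x) * θ x) = fun x => ∑ v ∈ V, (L.T ⁻¹' {v}).indicator
      (fun x => g v * θ x) x := by
    funext x
    rw [Finset.sum_eq_single_of_mem (L.T x) (L.T_mem x)]
    · rw [indicator_of_mem (by simp)]
    · intro v _ hv
      rw [indicator_of_notMem]
      intro h
      exact hv (show L.T x = v from h).symm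
  have hi : ∀ v ∈ V, Integrable ((L.T ⁻¹' {v}).indicator (fun x => g v * θ x))
      (uniformProbOn K) := fun v _ =>
    (hθi.const_mul _).indicator (L.meas_T (measurableSet_singleton v))
  constructor
  · rw [hrep]; exact integrable_finsetSum V hi
  · rw [hrep, integral_finsetSum V hi]
    refine Finset.sum_congr rfl fun v hv => ?_
    rw [integral_indicator (L.meas_T (measurableSet_singleton v)), integral_const_mul, L.mass v hv,
      mul_comm]

/-- primal = dual -/
lemma val_primal (hKc : IsCompact K) (hKi : (interior K).Nonempty) (hθ : Dens K θ)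
    (L : Lag (uniformProbOn K) V M θ) :
    L.val = ∫ x, inner ℝ x (L.T x) * θ x ∂(uniformProbOn K) := by
  have hs := sum_psi hKc hKi hθ L L.ψ
  have hf : Integrable (fun x => L.f x * θ x) (uniformProbOn K) :=
    hθ.int' hKc hKi _ (integrable_cont hKc hKi _ L.f_cont)
  unfold Lag.val
  rw [← hs.2, ← integral_add hf hs.1]
  congr 1
  funext x
  unfold Lag.f
  ring

/-- dual feasibility of another potential -/
lemma val_le_dual (hKc : IsCompact K) (hKi : (interior K).Nonempty) {θ' : Sp d → ℝ}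
    (hθ' : Dens K θ') (L : Lag (uniformProbOn K) V M θ) (L' : Lag (uniformProbOn K) V M θ') :
    L'.val ≤ ∫ x, L.f x * θ' x ∂(uniformProbOn K) + ∑ v ∈ V, M v * L.ψ v := by
  have hs := sum_psi hKc hKi hθ' L' L.ψ
  have hf : Integrable (fun x => L.f x * θ' x) (uniformProbOn K) :=
    hθ'.int' hKc hKi _ (integrable_cont hKc hKi _ L.f_cont)
  have hs' := sum_psi hKc hKi hθ' L' L'.ψ
  have hf' : Integrable (fun x => L'.f x * θ' x) (uniformProbOn K) :=
    hθ'.int' hKc hKi _ (integrable_cont hKc hKi _ L'.f_cont)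
  rw [← hs.2, ← integral_add hf hs.1]
  unfold Lag.val
  rw [← hs'.2, ← integral_add hf' hs'.1]
  refine integral_mono (hf'.add hs'.1) (hf.add hs.1) fun x => ?_
  have h1 := L.T_max x (L'.T x) (L'.T_mem x)
  have h2 := hθ'.nn x
  have h3 : L'.f x + L'.ψ (L'.T x) ≤ L.f x + L.ψ (L'.T x) := by
    unfold Lag.f; linarith
  simp only
  nlinarith

end

end Crest.Agent.OS109
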