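import Crest.Agent.OS109Mix

set_option autoImplicit false
set_option linter.unusedSectionVars false
set_option linter.style.haveILetI false

open MeasureTheory Set
open scoped ENNReal
open Crest.AnalysisR.OT

namespace Crest.Agent.OS109

variable {d : ℕ} {K : Set (Sp d)}

/-- interpolated position -/
noncomputable def Yt (t : ℝ) (p : Sp d × Sp d) : Sp d := (1 - t) • p.1 + t • p.2

open Classical in
noncomputable def Vt (P : Finset (Sp d × Sp d)) (t : ℝ) : Finset (Sp d) := P.image (Yt t)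

open Classical in
noncomputable def Mt (P : Finset (Sp d × Sp d)) (m : Sp d × Sp d → ℝ) (t : ℝ) (v : Sp d) : ℝ :=
  ∑ p ∈ P with Yt t p = v, m p

lemma Yt_add (t t' : ℝ) (p : Sp d × Sp d) : Yt t' p = Yt t p + (t' - t) • (p.2 - p.1) := by
  unfold Yt; module

lemma regroup (P : Finset (Sp d × Sp d)) (m : Sp d × Sp d → ℝ) (t : ℝ) (g : Sp d → ℝ) :
    ∑ v ∈ Vt P t, Mt P m t v * g v = ∑ p ∈ P, m p * g (Yt t p) := by
  classical
  have h := Finset.sum_fiberwise_of_maps_to (s := P) (t := Vt P t) (g := Yt t)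
    (fun p hp => Finset.mem_image_of_mem _ hp) (fun p => m p * g (Yt t p))
  rw [← h]
  refine Finset.sum_congr rfl fun v _ => ?_
  unfold Mt
  rw [Finset.sum_mul]
  refine Finset.sum_congr (by congr) fun p hp => ?_
  rw [(Finset.mem_filter.1 hp).2]

lemma Mt_pos (P : Finset (Sp d × Sp d)) (m : Sp d × Sp d → ℝ) (hm : ∀ p ∈ P, 0 < m p) (t : ℝ) :
    ∀ v ∈ Vt P t, 0 < Mt P m t v := by
  classical
  intro v hv
  obtain ⟨p, hp, rfl⟩ := Finset.mem_image.1 hv
  unfold Mt
  refine Finset.sum_pos (fun q hq => hm q (Finset.mem_filter.1 hq).1) ⟨p, ?_⟩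
  simp [hp]

lemma Vt_mem {P : Finset (Sp d × Sp d)} {t : ℝ} {p : Sp d × Sp d} (hp : p ∈ P) :
    Yt t p ∈ Vt P t := Finset.mem_image_of_mem _ hp

section

variable {V : Finset (Sp d)} {M θ : Sp d → ℝ}

lemma inner_b (hKc : IsCompact K) (hKi : (interior K).Nonempty) (hθ : Dens K θ)
    (L : Lag (uniformProbOn K) V M θ) (v z : Sp d) :
    inner ℝ (L.b v) z = (M v)⁻¹ * ∫ x in L.T ⁻¹' {v}, inner ℝ x z * θ x ∂(uniformProbOn K) := by
  unfold Lag.b
  rw [inner_smul_left, real_inner_comm]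
  have hi : IntegrableOn (fun x : Sp d => θ x • x) (L.T ⁻¹' {v}) (uniformProbOn K) :=
    (hθ.int hKc hKi _ (integrable_cont hKc hKi _ continuous_id)).integrableOn
  rw [← integral_inner hi]
  simp only [conj_trivial]
  congr 2
  funext x
  rw [inner_smul_right, real_inner_comm]
  ring

lemma val_b (hKc : IsCompact K) (hKi : (interior K).Nonempty) (hθ : Dens K θ)
    (hM : ∀ v ∈ V, 0 < M v) (L : Lag (uniformProbOn K) V M θ) :
    L.val = ∑ v ∈ V, M v * inner ℝ (L.b v) v := by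
  rw [val_primal hKc hKi hθ L]
  obtain ⟨B, hB0, hB⟩ := Lag.exists_bound V
  have hi : Integrable (fun x : Sp d => inner ℝ x (L.T x) * θ x) (uniformProbOn K) := by
    have h1 : Integrable (fun x : Sp d => L.f x * θ x) (uniformProbOn K) :=
      hθ.int' hKc hKi _ (integrable_cont hKc hKi _ L.f_cont)
    have h2 := (sum_psi hKc hKi hθ L L.ψ).1
    refine (h1.add h2).congr (Filter.Eventually.of_forall fun x => ?_)
    simp only [Pi.add_apply, Lag.f]
    ring
  rw [← sum_fibres L.meas_T L.T_mem _ hi]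
  refine Finset.sum_congr rfl fun v hv => ?_
  rw [inner_b hKc hKi hθ, ← mul_assoc, mul_inv_cancel₀ (hM v hv).ne', one_mul]
  refine setIntegral_congr_fun (L.meas_T (measurableSet_singleton v)) fun x hx => ?_
  have : L.T x = v := hx
  simp only [this]

end

variable {P : Finset (Sp d × Sp d)} {m : Sp d × Sp d → ℝ} {θ : Sp d → ℝ}

/-- slope of the value in `t` -/
noncomputable def slope (P : Finset (Sp d × Sp d)) (m : Sp d × Sp d → ℝ) (t : ℝ)
    (L : Lag (uniformProbOn K) (Vt P t) (Mt P m t) θ) : ℝ :=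
  ∑ p ∈ P, m p * inner ℝ (L.b (Yt t p)) (p.2 - p.1)

lemma val_subgrad (hKc : IsCompact K) (hKi : (interior K).Nonempty) (hθ : Dens K θ)
    (hm : ∀ p ∈ P, 0 < m p) (t t' : ℝ)
    (L : Lag (uniformProbOn K) (Vt P t) (Mt P m t) θ)
    (L' : Lag (uniformProbOn K) (Vt P t') (Mt P m t') θ) :
    L.val + (t' - t) * slope P m t L ≤ L'.val := by
  have := prob_unif hKc hKi
  have hMp := Mt_pos P m hm t
  have hθi : Integrable θ (uniformProbOn K) := by
    have := hθ.int' hKc hKi (fun _ => (1 : ℝ)) (integrable_const _)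
    simpa using this
  have hf' : Integrable (fun x => L'.f x * θ x) (uniformProbOn K) :=
    hθ.int' hKc hKi _ (integrable_cont hKc hKi _ L'.f_cont)
  have e1 : L.val + (t' - t) * slope P m t L =
      ∑ p ∈ P, m p * inner ℝ (L.b (Yt t p)) (Yt t' p) := by
    rw [val_b hKc hKi hθ hMp L, regroup P m t (fun v => inner ℝ (L.b v) v)]
    unfold slope
    rw [Finset.mul_sum, ← Finset.sum_add_distrib]
    refine Finset.sum_congr rfl fun p _ => ?_
    rw [Yt_add t t' p, inner_add_right, inner_smul_right]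
    ring
  rw [e1]
  have e2 : ∀ p ∈ P, m p * inner ℝ (L.b (Yt t p)) (Yt t' p) ≤
      m p * ((Mt P m t (Yt t p))⁻¹ * ∫ x in L.T ⁻¹' {Yt t p}, L'.f x * θ x ∂(uniformProbOn K)) +
        m p * L'.ψ (Yt t' p) := by
    intro p hp
    have hMv := hMp _ (Vt_mem (t := t) hp)
    rw [inner_b hKc hKi hθ]
    have hmass := L.mass _ (Vt_mem (t := t) hp)
    have h1 : ∫ x in L.T ⁻¹' {Yt t p}, inner ℝ x (Yt t' p) * θ x ∂(uniformProbOn K) ≤
        ∫ x in L.T ⁻¹' {Yt t p}, (L'.f x * θ x + L'.ψ (Yt t' p) * θ x) ∂(uniformProbOn K) := by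
      refine integral_mono ?_ ?_ ?_
      · exact (hθ.int' hKc hKi _ (integrable_cont hKc hKi _ (by fun_prop))).integrableOn
      · exact (hf'.add (hθi.const_mul _)).integrableOn
      · intro x
        have h2 := L'.T_max x (Yt t' p) (Vt_mem hp)
        have h3 := hθ.nn x
        have h4 : inner ℝ x (Yt t' p) ≤ L'.f x + L'.ψ (Yt t' p) := by
          unfold Lag.f; linarith
        simp only
        nlinarith
    rw [integral_add hf'.integrableOn (hθi.const_mul _).integrableOn, integral_const_mul,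
      hmass] at h1
    have hmp := hm p hp
    have h5 : (Mt P m t (Yt t p))⁻¹ *
        ∫ x in L.T ⁻¹' {Yt t p}, inner ℝ x (Yt t' p) * θ x ∂(uniformProbOn K) ≤
        (Mt P m t (Yt t p))⁻¹ * (∫ x in L.T ⁻¹' {Yt t p}, L'.f x * θ x ∂(uniformProbOn K)) +
          L'.ψ (Yt t' p) := by
      calc _ ≤ (Mt P m t (Yt t p))⁻¹ *
            (∫ x in L.T ⁻¹' {Yt t p}, L'.f x * θ x ∂(uniformProbOn K) +
              L'.ψ (Yt t' p) * Mt P m t (Yt t p)) := by gcongr
        _ = _ := by field_simp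
    calc _ ≤ m p * ((Mt P m t (Yt t p))⁻¹ *
          (∫ x in L.T ⁻¹' {Yt t p}, L'.f x * θ x ∂(uniformProbOn K)) + L'.ψ (Yt t' p)) := by
            gcongr
      _ = _ := by ring
  refine (Finset.sum_le_sum e2).trans ?_
  rw [Finset.sum_add_distrib, ← regroup P m t' L'.ψ,
    ← regroup P m t (fun v => (Mt P m t v)⁻¹ *
      ∫ x in L.T ⁻¹' {v}, L'.f x * θ x ∂(uniformProbOn K))]
  have e3 : ∑ v ∈ Vt P t, Mt P m t v * ((Mt P m t v)⁻¹ *
      ∫ x in L.T ⁻¹' {v}, L'.f x * θ x ∂(uniformProbOn K)) =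
      ∫ x, L'.f x * θ x ∂(uniformProbOn K) := by
    rw [← sum_fibres L.meas_T L.T_mem _ hf']
    refine Finset.sum_congr rfl fun v hv => ?_
    rw [← mul_assoc, mul_inv_cancel₀ (hMp v hv).ne', one_mul]
  rw [e3]
  exact le_rfl

end Crest.Agent.OS109
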