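import Crest.Agent.OS109Mix2

set_option autoImplicit false
set_option linter.unusedSectionVars false
set_option linter.style.haveILetI false

open MeasureTheory Set
open scoped ENNReal
open Crest.AnalysisR.OT

namespace Crest.Agent.OS109

variable {d : ℕ} {K : Set (Sp d)}

/-- existence of Laguerre data -/
def ELstmt (K : Set (Sp d)) : Prop :=
  ∀ (V : Finset (Sp d)), V.Nonempty → ∀ (M : Sp d → ℝ), (∀ v ∈ V, 0 < M v) →
    ∑ v ∈ V, M v = 1 → ∀ (θ : Sp d → ℝ), Measurable θ → (∀ x, 0 ≤ θ x) → (∀ x, θ x ≤ 2) →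
    ∫ x, θ x ∂(uniformProbOn K) = 1 → Nonempty (Lag (uniformProbOn K) V M θ)

/-- continuity of potentials in the density -/
def UCstmt (K : Set (Sp d)) : Prop :=
  ∀ (V : Finset (Sp d)), V.Nonempty → ∀ (M : Sp d → ℝ), (∀ v ∈ V, 0 < M v) →
    ∑ v ∈ V, M v = 1 → ∀ (L0 : Lag (uniformProbOn K) V M (fun _ => 1))
    (h : Sp d → ℝ), Measurable h → (∀ x, |h x| ≤ 1) → ∫ x, h x ∂(uniformProbOn K) = 0 →
    ∀ ε : ℝ, 0 < ε → ∃ τ₀ : ℝ, 0 < τ₀ ∧ ∀ τ : ℝ, 0 < τ → τ < τ₀ →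
      ∀ Lτ : Lag (uniformProbOn K) V M (fun x => 1 + τ * h x),
        |∫ x, (Lτ.f x - L0.f x) * h x ∂(uniformProbOn K)| < ε

/-- the key estimate as a proposition -/
def Keystmt (K : Set (Sp d)) (C : ℝ) : Prop :=
  ∀ (V : Finset (Sp d)) (M η : Sp d → ℝ), (∀ v ∈ V, 0 < M v) →
      Measurable η → (∀ x, |η x| ≤ 1 / 2) →
      ∀ (L0 : Lag (uniformProbOn K) V M (fun _ => 1))
        (L1 : Lag (uniformProbOn K) V M (fun x => 1 + η x)),
      ∑ v ∈ V, M v * ‖L1.b v - L0.b v‖ ^ 2 ≤ C * ∫ x, η x ^ 2 ∂(uniformProbOn K)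

lemma dens_one (K : Set (Sp d)) : Dens K (fun _ => (1 : ℝ)) :=
  ⟨measurable_const, fun _ => zero_le_one, fun _ => one_le_two⟩

lemma dens_eta (K : Set (Sp d)) {η : Sp d → ℝ} (hη : Measurable η) (hb : ∀ x, |η x| ≤ 1 / 2) :
    Dens K (fun x => 1 + η x) :=
  ⟨measurable_const.add hη, fun x => by have := (abs_le.1 (hb x)).1; linarith,
    fun x => by have := (abs_le.1 (hb x)).2; linarith⟩

lemma val_unique {V : Finset (Sp d)} {M θ : Sp d → ℝ} (hKc : IsCompact K)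
    (hKi : (interior K).Nonempty) (hθ : Dens K θ) (L L' : Lag (uniformProbOn K) V M θ) :
    L.val = L'.val :=
  le_antisymm (val_le_dual hKc hKi hθ L' L) (val_le_dual hKc hKi hθ L L')

lemma cs_finset {ι : Type*} (P : Finset ι) (m a b : ι → ℝ) (hm : ∀ p ∈ P, 0 ≤ m p) :
    ∑ p ∈ P, m p * (a p * b p) ≤
      Real.sqrt (∑ p ∈ P, m p * a p ^ 2) * Real.sqrt (∑ p ∈ P, m p * b p ^ 2) := by
  have h := Real.sum_mul_le_sqrt_mul_sqrt P (fun p => Real.sqrt (m p) * a p)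
    (fun p => Real.sqrt (m p) * b p)
  have e1 : ∑ p ∈ P, Real.sqrt (m p) * a p * (Real.sqrt (m p) * b p) =
      ∑ p ∈ P, m p * (a p * b p) := by
    refine Finset.sum_congr rfl fun p hp => ?_
    have := Real.mul_self_sqrt (hm p hp)
    linear_combination (a p * b p) * this
  have e2 : ∀ c : ι → ℝ, ∑ p ∈ P, (Real.sqrt (m p) * c p) ^ 2 = ∑ p ∈ P, m p * c p ^ 2 := by
    intro c
    refine Finset.sum_congr rfl fun p hp => ?_
    rw [mul_pow, Real.sq_sqrt (hm p hp)]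
  rw [e1, e2, e2] at h
  exact h

section

variable {P : Finset (Sp d × Sp d)} {m : Sp d × Sp d → ℝ} {η : Sp d → ℝ}

lemma slope_diff {C : ℝ} (hC : Keystmt K C) (hm : ∀ p ∈ P, 0 < m p) (hη : Measurable η)
    (hb : ∀ x, |η x| ≤ 1 / 2) (t : ℝ)
    (L0 : Lag (uniformProbOn K) (Vt P t) (Mt P m t) (fun _ => 1))
    (L1 : Lag (uniformProbOn K) (Vt P t) (Mt P m t) (fun x => 1 + η x)) :
    slope P m t L1 - slope P m t L0 ≤
      Real.sqrt (C * ∫ x, η x ^ 2 ∂(uniformProbOn K)) *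
        Real.sqrt (∑ p ∈ P, m p * ‖p.2 - p.1‖ ^ 2) := by
  have h1 := hC _ _ η (Mt_pos P m hm t) hη hb L0 L1
  rw [regroup P m t (fun v => ‖L1.b v - L0.b v‖ ^ 2)] at h1
  unfold slope
  rw [← Finset.sum_sub_distrib]
  have h2 : ∑ p ∈ P, (m p * inner ℝ (L1.b (Yt t p)) (p.2 - p.1) -
      m p * inner ℝ (L0.b (Yt t p)) (p.2 - p.1)) ≤
      ∑ p ∈ P, m p * (‖L1.b (Yt t p) - L0.b (Yt t p)‖ * ‖p.2 - p.1‖) := by
    refine Finset.sum_le_sum fun p hp => ?_
    rw [← mul_sub, ← inner_sub_left]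
    have := hm p hp
    gcongr
    exact real_inner_le_norm _ _
  refine h2.trans ((cs_finset P m _ _ (fun p hp => (hm p hp).le)).trans ?_)
  gcongr

lemma slope_bound (hKc : IsCompact K) (hKi : (interior K).Nonempty) {θ : Sp d → ℝ}
    (hθ : Dens K θ) {R : ℝ} (hKR : ∀ x ∈ K, ‖x‖ ≤ R) (hm : ∀ p ∈ P, 0 < m p) (t : ℝ)
    (L : Lag (uniformProbOn K) (Vt P t) (Mt P m t) θ) :
    |slope P m t L| ≤ ∑ p ∈ P, m p * (R * ‖p.2 - p.1‖) := by
  have := prob_unif hKc hKi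
  have hθi : Integrable θ (uniformProbOn K) := by
    have := hθ.int' hKc hKi (fun _ => (1 : ℝ)) (integrable_const _)
    simpa using this
  unfold slope
  refine (Finset.abs_sum_le_sum_abs _ _).trans (Finset.sum_le_sum fun p hp => ?_)
  have hmp := hm p hp
  have hMv := Mt_pos P m hm t _ (Vt_mem (t := t) hp)
  rw [abs_mul, abs_of_pos hmp]
  have hb : ‖L.b (Yt t p)‖ ≤ R := by
    unfold Lag.b
    rw [norm_smul, norm_inv, Real.norm_of_nonneg hMv.le, inv_mul_le_iff₀ hMv]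
    have h1 : ‖∫ x in L.T ⁻¹' {Yt t p}, θ x • x ∂(uniformProbOn K)‖ ≤
        ∫ x in L.T ⁻¹' {Yt t p}, R * θ x ∂(uniformProbOn K) := by
      refine norm_integral_le_of_norm_le (hθi.const_mul _).integrableOn ?_
      filter_upwards [ae_restrict_of_ae (ae_mem hKc)] with x hx
      rw [norm_smul, Real.norm_of_nonneg (hθ.nn x), mul_comm]
      have := hKR x hx
      have := hθ.nn x
      gcongr
    rw [integral_const_mul, L.mass _ (Vt_mem hp)] at h1
    linarith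
  have h2 : |inner ℝ (L.b (Yt t p)) (p.2 - p.1)| ≤ R * ‖p.2 - p.1‖ :=
    (abs_real_inner_le_norm _ _).trans (by gcongr)
  gcongr

set_option maxHeartbeats 1000000 in
lemma mixed_bound (hKc : IsCompact K) (hKi : (interior K).Nonempty) (EL : ELstmt K)
    {C : ℝ} (hC : Keystmt K C) (hP : P.Nonempty) (hm : ∀ p ∈ P, 0 < m p)
    (hm1 : ∑ p ∈ P, m p = 1) (hη : Measurable η) (hb : ∀ x, |η x| ≤ 1 / 2)
    (hη0 : ∫ x, η x ∂(uniformProbOn K) = 0)
    (A : Lag (uniformProbOn K) (Vt P 0) (Mt P m 0) (fun _ => 1))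
    (B : Lag (uniformProbOn K) (Vt P 1) (Mt P m 1) (fun x => 1 + η x)) :
    ∫ x, (B.f x - A.f x) * η x ∂(uniformProbOn K) ≤
      Real.sqrt (C * ∫ x, η x ^ 2 ∂(uniformProbOn K)) *
        Real.sqrt (∑ p ∈ P, m p * ‖p.2 - p.1‖ ^ 2) := by
  have := prob_unif hKc hKi
  obtain ⟨R, hR, hKR⟩ := exists_R hKc
  have h1d := dens_one K
  have hθd := dens_eta K hη hb
  have iη : Integrable η (uniformProbOn K) :=
    Integrable.of_bound hη.aestronglyMeasurable (1 / 2)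
      (Filter.Eventually.of_forall fun x => by simpa using hb x)
  have hVne : ∀ t, (Vt P t).Nonempty := fun t => hP.image _
  have hM1 : ∀ t, ∑ v ∈ Vt P t, Mt P m t v = 1 := by
    intro t
    have := regroup P m t (fun _ => (1 : ℝ))
    simpa [hm1] using this
  have ex0 : ∀ t, Nonempty (Lag (uniformProbOn K) (Vt P t) (Mt P m t) (fun _ => (1 : ℝ))) :=
    fun t => EL _ (hVne t) _ (Mt_pos P m hm t) (hM1 t) _ h1d.meas h1d.nn h1d.le2 (by simp)
  have ex1 : ∀ t, Nonempty (Lag (uniformProbOn K) (Vt P t) (Mt P m t) (fun x => 1 + η x)) :=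
    fun t => EL _ (hVne t) _ (Mt_pos P m hm t) (hM1 t) _ hθd.meas hθd.nn hθd.le2 (by
      rw [integral_add (integrable_const _) iη, hη0]; simp)
  obtain ⟨L0⟩ : Nonempty (∀ t, Lag (uniformProbOn K) (Vt P t) (Mt P m t) (fun _ => (1 : ℝ))) :=
    ⟨fun t => (ex0 t).some⟩
  obtain ⟨L1⟩ : Nonempty (∀ t, Lag (uniformProbOn K) (Vt P t) (Mt P m t) (fun x => 1 + η x)) :=
    ⟨fun t => (ex1 t).some⟩
  set D := Real.sqrt (C * ∫ x, η x ^ 2 ∂(uniformProbOn K)) *
        Real.sqrt (∑ p ∈ P, m p * ‖p.2 - p.1‖ ^ 2) with hD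
  set c0 : ℝ → ℝ := fun t => (L0 t).val with hc0
  set c1 : ℝ → ℝ := fun t => (L1 t).val with hc1
  set s0 : ℝ → ℝ := fun t => slope P m t (L0 t) with hs0
  set s1 : ℝ → ℝ := fun t => slope P m t (L1 t) with hs1
  set Bd := ∑ p ∈ P, m p * (R * ‖p.2 - p.1‖) with hBd
  have hsub0 : ∀ t t', c0 t + (t' - t) * s0 t ≤ c0 t' := fun t t' =>
    val_subgrad hKc hKi h1d hm t t' (L0 t) (L0 t')
  have hsub1 : ∀ t t', c1 t + (t' - t) * s1 t ≤ c1 t' := fun t t' =>
    val_subgrad hKc hKi hθd hm t t' (L1 t) (L1 t')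
  have hsd : ∀ t, s1 t - s0 t ≤ D := fun t => slope_diff hC hm hη hb t (L0 t) (L1 t)
  have hsb : ∀ t, |s0 t| ≤ Bd := fun t => slope_bound hKc hKi h1d hKR hm t (L0 t)
  -- the mixed difference
  have hmix : ∀ N : ℕ, 0 < N → (c1 1 - c1 0) - (c0 1 - c0 0) ≤ D + 2 * Bd / N := by
    intro N hN
    have hN' : (0 : ℝ) < N := by exact_mod_cast hN
    have t1 : c1 1 - c1 0 = ∑ k ∈ Finset.range N,
        (c1 (((k + 1 : ℕ) : ℝ) / N) - c1 ((k : ℝ) / N)) := by
      rw [Finset.sum_range_sub (fun k : ℕ => c1 ((k : ℝ) / N))]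
      simp [hN'.ne']
    have t0 : c0 1 - c0 0 = ∑ k ∈ Finset.range N,
        (c0 (((k + 1 : ℕ) : ℝ) / N) - c0 ((k : ℝ) / N)) := by
      rw [Finset.sum_range_sub (fun k : ℕ => c0 ((k : ℝ) / N))]
      simp [hN'.ne']
    have tS : s0 1 - s0 0 = ∑ k ∈ Finset.range N,
        (s0 (((k + 1 : ℕ) : ℝ) / N) - s0 ((k : ℝ) / N)) := by
      rw [Finset.sum_range_sub (fun k : ℕ => s0 ((k : ℝ) / N))]
      simp [hN'.ne']
    have hk : ∀ k ∈ Finset.range N,
        (c1 (((k + 1 : ℕ) : ℝ) / N) - c1 ((k : ℝ) / N)) -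
          (c0 (((k + 1 : ℕ) : ℝ) / N) - c0 ((k : ℝ) / N)) ≤
        D / N + (s0 (((k + 1 : ℕ) : ℝ) / N) - s0 ((k : ℝ) / N)) / N := by
      intro k _
      have a1 := hsub1 (((k + 1 : ℕ) : ℝ) / N) ((k : ℝ) / N)
      have a0 := hsub0 ((k : ℝ) / N) (((k + 1 : ℕ) : ℝ) / N)
      have e1 : (k : ℝ) / N - ((k + 1 : ℕ) : ℝ) / N = -(1 / N) := by
        push_cast; field_simp; ring
      have e0 : ((k + 1 : ℕ) : ℝ) / N - (k : ℝ) / N = 1 / N := by
        push_cast; field_simp; ring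
      rw [e1] at a1
      rw [e0] at a0
      have a2 := hsd (((k + 1 : ℕ) : ℝ) / N)
      have a3 : (1 / (N : ℝ)) * (s1 (((k + 1 : ℕ) : ℝ) / N) - s0 (((k + 1 : ℕ) : ℝ) / N)) ≤
          (1 / (N : ℝ)) * D := by gcongr
      have e5 : D / N + (s0 (((k + 1 : ℕ) : ℝ) / N) - s0 ((k : ℝ) / N)) / N =
        (1 / (N : ℝ)) * D + (1 / (N : ℝ)) * s0 (((k + 1 : ℕ) : ℝ) / N) -
          (1 / (N : ℝ)) * s0 ((k : ℝ) / N) := by ring
      rw [e5]
      nlinarith
    have hsum := Finset.sum_le_sum hk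
    rw [Finset.sum_sub_distrib, ← t1, ← t0, Finset.sum_add_distrib, ← Finset.sum_div,
      ← Finset.sum_div, ← tS] at hsum
    have e3 : (∑ _k ∈ Finset.range N, D) / N = D := by
      rw [Finset.sum_const, Finset.card_range, nsmul_eq_mul]
      field_simp
    rw [e3] at hsum
    have b1 := (abs_le.1 (hsb 1)).2
    have b0 := (abs_le.1 (hsb 0)).1
    have e4 : (s0 1 - s0 0) / N ≤ 2 * Bd / N := by
      gcongr; linarith
    linarith
  have hmixD : (c1 1 - c1 0) - (c0 1 - c0 0) ≤ D := by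
    refine le_of_forall_pos_le_add fun ε hε => ?_
    obtain ⟨N, hN⟩ := exists_nat_gt (2 * Bd / ε)
    have hBd0 : 0 ≤ Bd := (abs_nonneg _).trans (hsb 0)
    have hN0 : (0 : ℝ) < N := lt_of_le_of_lt (by positivity) hN
    have hN0' : 0 < N := by exact_mod_cast hN0
    have := hmix N hN0'
    have h3 : 2 * Bd / N ≤ ε := by
      rw [div_lt_iff₀ hε] at hN
      rw [div_le_iff₀ hN0]
      linarith
    linarith
  -- compare with A and B
  have iA : Integrable A.f (uniformProbOn K) := integrable_cont hKc hKi _ A.f_cont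
  have iB : Integrable B.f (uniformProbOn K) := integrable_cont hKc hKi _ B.f_cont
  have iAη : Integrable (fun x => A.f x * η x) (uniformProbOn K) := by
    have := Integrable.bdd_mul (c := 1 / 2) iA hη.aestronglyMeasurable
      (Filter.Eventually.of_forall fun x => by simpa using hb x)
    simpa [mul_comm] using this
  have iBη : Integrable (fun x => B.f x * η x) (uniformProbOn K) := by
    have := Integrable.bdd_mul (c := 1 / 2) iB hη.aestronglyMeasurable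
      (Filter.Eventually.of_forall fun x => by simpa using hb x)
    simpa [mul_comm] using this
  have hA1 := val_le_dual hKc hKi hθd A (L1 0)
  have hA2 : ∫ x, A.f x * (1 + η x) ∂(uniformProbOn K) + ∑ v ∈ Vt P 0, Mt P m 0 v * A.ψ v =
      A.val + ∫ x, A.f x * η x ∂(uniformProbOn K) := by
    unfold Lag.val
    have : (fun x => A.f x * (1 + η x)) = fun x => A.f x * 1 + A.f x * η x := by
      funext x; ring
    rw [this, integral_add (by simpa using iA) iAη]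
    ring
  have hA3 : A.val = c0 0 := val_unique hKc hKi h1d A (L0 0)
  have hB1 := val_le_dual hKc hKi h1d B (L0 1)
  have hB2 : ∫ x, B.f x * 1 ∂(uniformProbOn K) + ∑ v ∈ Vt P 1, Mt P m 1 v * B.ψ v =
      B.val - ∫ x, B.f x * η x ∂(uniformProbOn K) := by
    unfold Lag.val
    have : (fun x => B.f x * (1 + η x)) = fun x => B.f x * 1 + B.f x * η x := by
      funext x; ring
    rw [this, integral_add (by simpa using iB) iBη]
    ring
  have hB3 : B.val = c1 1 := val_unique hKc hKi hθd B (L1 1)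
  have hfin : ∫ x, (B.f x - A.f x) * η x ∂(uniformProbOn K) =
      ∫ x, B.f x * η x ∂(uniformProbOn K) - ∫ x, A.f x * η x ∂(uniformProbOn K) := by
    rw [← integral_sub iBη iAη]
    congr 1; funext x; ring
  rw [hfin]
  have hc10 : (L1 0).val = c1 0 := rfl
  have hc01 : (L0 1).val = c0 1 := rfl
  rw [hA2, hA3, hc10] at hA1
  rw [hB2, hB3, hc01] at hB1
  linarith

end

end Crest.Agent.OS109
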