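import Crest.Agent.OS109Mix3

set_option autoImplicit false
set_option linter.unusedSectionVars false
set_option linter.style.haveILetI false

open MeasureTheory Set
open scoped ENNReal
open Crest.AnalysisR.OT

namespace Crest.Agent.OS109

variable {d : ℕ} {K : Set (Sp d)}
variable {P : Finset (Sp d × Sp d)} {m : Sp d × Sp d → ℝ}

/-- linear test functionals of the difference of the potentials -/
lemma test_bound (hKc : IsCompact K) (hKi : (interior K).Nonempty) (EL : ELstmt K)
    (UC : UCstmt K) {C : ℝ} (hC0 : 0 ≤ C) (hC : Keystmt K C) (hP : P.Nonempty)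
    (hm : ∀ p ∈ P, 0 < m p) (hm1 : ∑ p ∈ P, m p = 1) {h : Sp d → ℝ} (hh : Measurable h)
    (hb : ∀ x, |h x| ≤ 1) (h0 : ∫ x, h x ∂(uniformProbOn K) = 0)
    (A : Lag (uniformProbOn K) (Vt P 0) (Mt P m 0) (fun _ => 1))
    (B : Lag (uniformProbOn K) (Vt P 1) (Mt P m 1) (fun _ => 1)) :
    ∫ x, (B.f x - A.f x) * h x ∂(uniformProbOn K) ≤
      Real.sqrt (C * ∫ x, h x ^ 2 ∂(uniformProbOn K)) *
        Real.sqrt (∑ p ∈ P, m p * ‖p.2 - p.1‖ ^ 2) := by
  have := prob_unif hKc hKi
  refine le_of_forall_pos_le_add fun ε hε => ?_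
  have hVne : (Vt P 1).Nonempty := hP.image _
  have hM1 : ∑ v ∈ Vt P 1, Mt P m 1 v = 1 := by
    have := regroup P m 1 (fun _ => (1 : ℝ))
    simpa [hm1] using this
  obtain ⟨τ₀, hτ₀, hτ⟩ := UC _ hVne _ (Mt_pos P m hm 1) hM1 B h hh hb h0 ε hε
  obtain ⟨τ, hτ0, hτ1, hτ2⟩ : ∃ τ : ℝ, 0 < τ ∧ τ < τ₀ ∧ τ ≤ 1 / 2 := by
    refine ⟨min (τ₀ / 2) (1 / 2), by positivity, ?_, min_le_right _ _⟩
    exact lt_of_le_of_lt (min_le_left _ _) (by linarith)
  have hηb : ∀ x, |τ * h x| ≤ 1 / 2 := by
    intro x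
    rw [abs_mul, abs_of_pos hτ0]
    calc τ * |h x| ≤ (1 / 2) * 1 := by gcongr; exact hb x
      _ = _ := by ring
  have hηm : Measurable (fun x => τ * h x) := hh.const_mul τ
  have hη0 : ∫ x, τ * h x ∂(uniformProbOn K) = 0 := by
    rw [integral_const_mul, h0, mul_zero]
  have hθd := dens_eta K hηm hηb
  have iη : Integrable (fun x => τ * h x) (uniformProbOn K) :=
    Integrable.of_bound hηm.aestronglyMeasurable (1 / 2)
      (Filter.Eventually.of_forall fun x => by simpa using hηb x)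
  obtain ⟨Bτ⟩ := EL _ hVne _ (Mt_pos P m hm 1) hM1 _ hθd.meas hθd.nn hθd.le2 (by
      rw [integral_add (integrable_const _) iη, hη0]; simp)
  have h1 := mixed_bound hKc hKi EL hC hP hm hm1 hηm hηb hη0 A Bτ
  have h2 := hτ τ hτ0 hτ1 Bτ
  have ihh : ∀ f : Sp d → ℝ, Continuous f → Integrable (fun x => f x * h x) (uniformProbOn K) := by
    intro f hf
    have := Integrable.bdd_mul (c := 1) (integrable_cont hKc hKi _ hf) hh.aestronglyMeasurable
      (Filter.Eventually.of_forall fun x => by simpa using hb x)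
    simpa [mul_comm] using this
  have i1 := ihh _ (Bτ.f_cont.sub A.f_cont)
  have i2 := ihh _ (Bτ.f_cont.sub B.f_cont)
  have e1 : ∫ x, (Bτ.f x - A.f x) * (τ * h x) ∂(uniformProbOn K) =
      τ * ∫ x, (Bτ.f x - A.f x) * h x ∂(uniformProbOn K) := by
    rw [← integral_const_mul]; congr 1; funext x; ring
  have e2 : ∫ x, (τ * h x) ^ 2 ∂(uniformProbOn K) = τ ^ 2 * ∫ x, h x ^ 2 ∂(uniformProbOn K) := by
    rw [← integral_const_mul]; congr 1; funext x; ring
  rw [e1, e2] at h1
  have e3 : Real.sqrt (C * (τ ^ 2 * ∫ x, h x ^ 2 ∂(uniformProbOn K))) =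
      τ * Real.sqrt (C * ∫ x, h x ^ 2 ∂(uniformProbOn K)) := by
    rw [show C * (τ ^ 2 * ∫ x, h x ^ 2 ∂(uniformProbOn K)) =
      τ ^ 2 * (C * ∫ x, h x ^ 2 ∂(uniformProbOn K)) by ring, Real.sqrt_mul (by positivity),
      Real.sqrt_sq hτ0.le]
  rw [e3, mul_assoc] at h1
  have h3 := le_of_mul_le_mul_left h1 hτ0
  have e4 : ∫ x, (B.f x - A.f x) * h x ∂(uniformProbOn K) =
      ∫ x, (Bτ.f x - A.f x) * h x ∂(uniformProbOn K) -
        ∫ x, (Bτ.f x - B.f x) * h x ∂(uniformProbOn K) := by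
    have i1' : Integrable (fun x => (Bτ.f x - A.f x) * h x) (uniformProbOn K) := i1
    have i2' : Integrable (fun x => (Bτ.f x - B.f x) * h x) (uniformProbOn K) := i2
    rw [← integral_sub i1' i2']
    congr 1; funext x; ring
  rw [e4]
  have := (abs_lt.1 h2).1
  linarith

/-- potential stability: the variance of `g - f` is at most `C W²` -/
theorem var_bound (hKc : IsCompact K) (hKi : (interior K).Nonempty) (EL : ELstmt K)
    (UC : UCstmt K) {C : ℝ} (hC0 : 0 ≤ C) (hC : Keystmt K C) (hP : P.Nonempty)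
    (hm : ∀ p ∈ P, 0 < m p) (hm1 : ∑ p ∈ P, m p = 1)
    (A : Lag (uniformProbOn K) (Vt P 0) (Mt P m 0) (fun _ => 1))
    (B : Lag (uniformProbOn K) (Vt P 1) (Mt P m 1) (fun _ => 1)) :
    ∃ c : ℝ, ∫ x, (B.f x - A.f x - c) ^ 2 ∂(uniformProbOn K) ≤
      C * ∑ p ∈ P, m p * ‖p.2 - p.1‖ ^ 2 := by
  have := prob_unif hKc hKi
  have hcont : Continuous (fun x => B.f x - A.f x) := B.f_cont.sub A.f_cont
  have hint := integrable_cont hKc hKi _ hcont
  set c := ∫ x, (B.f x - A.f x) ∂(uniformProbOn K) with hc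
  refine ⟨c, ?_⟩
  obtain ⟨b, hb⟩ := hKc.exists_bound_of_continuousOn (hcont.sub continuous_const).continuousOn
    (f := fun x => B.f x - A.f x - c)
  set b' := max b 1 with hb'
  have hb'0 : 0 < b' := by positivity
  have hbK : ∀ x ∈ K, |B.f x - A.f x - c| ≤ b' := fun x hx =>
    (hb x hx).trans (le_max_left _ _)
  set h : Sp d → ℝ := K.indicator (fun x => (B.f x - A.f x - c) / b') with hh
  have hm' : Measurable h :=
    ((hcont.sub continuous_const).div_const b').measurable.indicator hKc.measurableSet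
  have hh1 : ∀ x, |h x| ≤ 1 := by
    intro x
    by_cases hx : x ∈ K
    · rw [hh, indicator_of_mem hx, abs_div, abs_of_pos hb'0, div_le_one hb'0]
      exact hbK x hx
    · rw [hh, indicator_of_notMem hx]; simp
  have hae : ∀ᵐ x ∂(uniformProbOn K), h x = (B.f x - A.f x - c) / b' := by
    filter_upwards [ae_mem hKc] with x hx
    rw [hh, indicator_of_mem hx]
  have h0 : ∫ x, h x ∂(uniformProbOn K) = 0 := by
    rw [integral_congr_ae hae, integral_div, integral_sub hint (integrable_const _)]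
    simp [hc]
  have key := test_bound hKc hKi EL UC hC0 hC hP hm hm1 hm' hh1 h0 A B
  set X := ∫ x, (B.f x - A.f x - c) ^ 2 ∂(uniformProbOn K) with hX
  have hX0 : 0 ≤ X := integral_nonneg fun x => sq_nonneg _
  have hihh : Integrable h (uniformProbOn K) :=
    Integrable.of_bound hm'.aestronglyMeasurable 1
      (Filter.Eventually.of_forall fun x => by simpa using hh1 x)
  have e1 : ∫ x, (B.f x - A.f x) * h x ∂(uniformProbOn K) = X / b' := by
    have i1 : Integrable (fun x => (B.f x - A.f x - c) * h x) (uniformProbOn K) := by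
      have := Integrable.bdd_mul (c := 1)
        (integrable_cont hKc hKi _ (hcont.sub (continuous_const (y := c))))
        hm'.aestronglyMeasurable (Filter.Eventually.of_forall fun x => by simpa using hh1 x)
      simpa [mul_comm] using this
    have e2 : ∫ x, (B.f x - A.f x) * h x ∂(uniformProbOn K) =
        ∫ x, (B.f x - A.f x - c) * h x ∂(uniformProbOn K) + ∫ x, c * h x ∂(uniformProbOn K) := by
      rw [← integral_add i1 (hihh.const_mul c)]
      congr 1; funext x; ring
    rw [e2, integral_const_mul, h0, mul_zero, add_zero, hX, ← integral_div]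
    refine integral_congr_ae ?_
    filter_upwards [hae] with x hx
    rw [hx]; ring
  have e3 : ∫ x, h x ^ 2 ∂(uniformProbOn K) = X / b' ^ 2 := by
    rw [hX, ← integral_div]
    refine integral_congr_ae ?_
    filter_upwards [hae] with x hx
    rw [hx]; ring
  rw [e1, e3] at key
  set W := ∑ p ∈ P, m p * ‖p.2 - p.1‖ ^ 2 with hW
  have hW0 : 0 ≤ W := Finset.sum_nonneg fun p hp => by
    have := hm p hp
    positivity
  rw [← mul_div_assoc, Real.sqrt_div (by positivity), Real.sqrt_sq hb'0.le, div_mul_eq_mul_div,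
    div_le_div_iff_of_pos_right hb'0, ← Real.sqrt_mul (by positivity)] at key
  have hsq : X ^ 2 ≤ C * X * W := by
    calc X ^ 2 ≤ Real.sqrt (C * X * W) ^ 2 := by gcongr
      _ = _ := Real.sq_sqrt (by positivity)
  rcases hX0.eq_or_lt with h | h
  · rw [← h]; positivity
  · have : X * X ≤ X * (C * W) := by nlinarith
    exact le_of_mul_le_mul_left this h

end Crest.Agent.OS109
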