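import Mathlib
import Crest.Prelude.Def_QuadraticTransport

set_option autoImplicit false

open MeasureTheory Set
open scoped ENNReal NNReal RealInnerProductSpace
open Crest.AnalysisR.OT

namespace Crest.Agent.OS109X

/-- uniform probability on `[-1,1]` -/
noncomputable def ν1 : Measure ℝ := (2:ℝ≥0∞)⁻¹ • (volume.restrict (Icc (-1:ℝ) 1))

lemma ν1_apply (s : Set ℝ) (hs : MeasurableSet s) : ν1 s = (2:ℝ≥0∞)⁻¹ * volume (s ∩ Icc (-1:ℝ) 1) := by
  simp [ν1, Measure.restrict_apply hs]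

instance : IsProbabilityMeasure ν1 := by
  constructor
  rw [ν1_apply _ MeasurableSet.univ, univ_inter, Real.volume_Icc]
  norm_num
  rw [ENNReal.inv_mul_cancel (by norm_num) (by norm_num)]

def cube (d : ℕ) : Set (EuclideanSpace ℝ (Fin d)) := {x | ∀ i, |x i| ≤ 1}

lemma cube_eq (d : ℕ) : cube d = (WithLp.ofLp (p := 2)) ⁻¹' (Set.pi univ fun _ : Fin d => Icc (-1:ℝ) 1) := by
  ext x
  simp only [cube, Set.mem_ofPred_eq, mem_preimage, Set.mem_pi, mem_univ, true_imp_iff, mem_Icc, abs_le]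

lemma cube_meas (d : ℕ) : MeasurableSet (cube d) := by
  rw [cube_eq]
  exact (PiLp.volume_preserving_ofLp (Fin d)).measurable (MeasurableSet.univ_pi fun _ => measurableSet_Icc)

lemma map_ρ (d : ℕ) : (uniformProbOn (cube d)).map (WithLp.ofLp (p := 2)) = Measure.pi (fun _ : Fin d => ν1) := by
  symm
  apply Measure.pi_eq
  intro s hs
  have hm : Measurable (WithLp.ofLp (p := 2) : EuclideanSpace ℝ (Fin d) → (Fin d → ℝ)) :=
    (PiLp.volume_preserving_ofLp (Fin d)).measurable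
  rw [Measure.map_apply hm (MeasurableSet.univ_pi hs)]
  unfold uniformProbOn
  rw [Measure.smul_apply, Measure.restrict_apply (hm (MeasurableSet.univ_pi hs))]
  have h1 : volume (cube d) = 2 ^ d := by
    rw [cube_eq, (PiLp.volume_preserving_ofLp (Fin d)).measure_preimage
      (MeasurableSet.univ_pi fun _ => measurableSet_Icc).nullMeasurableSet, volume_pi_pi]
    simp [Real.volume_Icc]
    norm_num
  have h2 : volume (WithLp.ofLp (p := 2) ⁻¹' (Set.pi univ s) ∩ cube d) = ∏ i, volume (s i ∩ Icc (-1:ℝ) 1) := by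
    rw [cube_eq, ← preimage_inter, ← Set.pi_inter_distrib, (PiLp.volume_preserving_ofLp (Fin d)).measure_preimage
      (MeasurableSet.univ_pi fun i => (hs i).inter measurableSet_Icc).nullMeasurableSet, volume_pi_pi]
  rw [h1, h2, smul_eq_mul]
  simp_rw [ν1_apply _ (hs _)]
  rw [Finset.prod_mul_distrib, Finset.prod_const, Finset.card_univ, Fintype.card_fin, ENNReal.inv_pow]

instance (d : ℕ) : IsProbabilityMeasure (uniformProbOn (cube d)) := by
  have hm : Measurable (WithLp.ofLp (p := 2) : EuclideanSpace ℝ (Fin d) → (Fin d → ℝ)) :=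
    (PiLp.volume_preserving_ofLp (Fin d)).measurable
  constructor
  have := congrArg (fun μ => μ univ) (map_ρ d)
  simpa [Measure.map_apply hm] using this

/-- joint law of two distinct coordinates -/
lemma map_pair (d : ℕ) (i j : Fin d) (hij : i ≠ j) :
    (uniformProbOn (cube d)).map (fun x => (x i, x j)) = ν1.prod ν1 := by
  have hm : Measurable (WithLp.ofLp (p := 2) : EuclideanSpace ℝ (Fin d) → (Fin d → ℝ)) :=
    (PiLp.volume_preserving_ofLp (Fin d)).measurable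
  have h1 : (uniformProbOn (cube d)).map (fun x => (x i, x j)) =
      ((uniformProbOn (cube d)).map (WithLp.ofLp (p := 2))).map (fun x : Fin d → ℝ => (x i, x j)) := by
    rw [Measure.map_map (by fun_prop) hm]
    rfl
  rw [h1, map_ρ]
  have h2 : ProbabilityTheory.iIndepFun (fun (i : Fin d) (ω : Fin d → ℝ) => (fun x : ℝ => x) (ω i)) (Measure.pi fun _ : Fin d => ν1) :=
    ProbabilityTheory.iIndepFun_pi (X := fun _ => fun x : ℝ => x) (fun _ => measurable_id.aemeasurable)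
  have h3 := h2.indepFun hij
  rw [(ProbabilityTheory.indepFun_iff_map_prod_eq_prod_map_map (measurable_pi_apply i).aemeasurable (measurable_pi_apply j).aemeasurable).1 h3]
  have h4 : ∀ i : Fin d, (Measure.pi fun _ : Fin d => ν1).map (fun ω => ω i) = ν1 := fun i =>
    (measurePreserving_eval (fun _ : Fin d => ν1) i).map_eq
  simp only [h4]

/-- semi-discrete optimality and uniqueness -/
theorem optimal_of_argmax {d : ℕ} {ρ : Measure (EuclideanSpace ℝ (Fin d))} [IsProbabilityMeasure ρ]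
    (R : ℝ) (hR : ∀ᵐ x ∂ρ, ‖x‖ ≤ R) (V : Finset (EuclideanSpace ℝ (Fin d)))
    (ψ : EuclideanSpace ℝ (Fin d) → ℝ) (hψ : Measurable ψ)
    (T : EuclideanSpace ℝ (Fin d) → EuclideanSpace ℝ (Fin d)) (hT : Measurable T)
    (hTV : ∀ x, T x ∈ V)
    (hmax : ∀ᵐ x ∂ρ, ∀ v ∈ V, v ≠ T x → inner ℝ x v - ψ v < inner ℝ x (T x) - ψ (T x)) :
    IsOptimalMap ρ (ρ.map T) T ∧ ∀ S, IsOptimalMap ρ (ρ.map T) S → S =ᵐ[ρ] T := by
  obtain ⟨B, hB⟩ : ∃ B : ℝ, ∀ v ∈ V, ‖v‖ ≤ B := by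
    obtain ⟨B, hB⟩ := (V.image (fun v => ‖v‖)).bddAbove
    exact ⟨B, fun v hv => hB (by simpa using ⟨v, hv, rfl⟩)⟩
  obtain ⟨B', hB'⟩ : ∃ B : ℝ, ∀ v ∈ V, |‖v‖^2 - 2 * ψ v| ≤ B := by
    obtain ⟨B, hB⟩ := (V.image (fun v => |‖v‖^2 - 2 * ψ v|)).bddAbove
    exact ⟨B, fun v hv => hB (by simpa using ⟨v, hv, rfl⟩)⟩
  have hSV : ∀ S : EuclideanSpace ℝ (Fin d) → EuclideanSpace ℝ (Fin d), Measurable S → ρ.map S = ρ.map T →
      ∀ᵐ x ∂ρ, S x ∈ V := by
    intro S hS hST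
    have h1 : ρ.map S (V : Set (EuclideanSpace ℝ (Fin d)))ᶜ = 0 := by
      rw [hST, Measure.map_apply hT (Finset.measurableSet _).compl]
      have : T ⁻¹' (V : Set (EuclideanSpace ℝ (Fin d)))ᶜ = ∅ := by
        ext x; simp [hTV x]
      rw [this]; simp
    rw [Measure.map_apply hS (Finset.measurableSet _).compl] at h1
    rw [ae_iff]
    exact h1
  -- integrability
  have hint1 : ∀ S : EuclideanSpace ℝ (Fin d) → EuclideanSpace ℝ (Fin d), Measurable S → (∀ᵐ x ∂ρ, S x ∈ V) →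
      Integrable (fun x => ‖x - S x‖^2) ρ := by
    intro S hS hSV
    refine Integrable.of_bound (C := (R + B)^2) (by fun_prop) ?_
    filter_upwards [hR, hSV] with x hx hx'
    rw [Real.norm_eq_abs, abs_of_nonneg (by positivity)]
    have : ‖x - S x‖ ≤ R + B := (norm_sub_le _ _).trans (add_le_add hx (hB _ hx'))
    gcongr
  have hint2 : ∀ S : EuclideanSpace ℝ (Fin d) → EuclideanSpace ℝ (Fin d), Measurable S → (∀ᵐ x ∂ρ, S x ∈ V) →
      Integrable (fun x => ‖S x‖^2 - 2 * ψ (S x)) ρ := by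
    intro S hS hSV
    refine Integrable.of_bound (C := B') (by fun_prop) ?_
    filter_upwards [hSV] with x hx'
    exact hB' _ hx'
  -- the gap identity
  have hgap : ∀ S : EuclideanSpace ℝ (Fin d) → EuclideanSpace ℝ (Fin d), Measurable S → ρ.map S = ρ.map T →
      Integrable (fun x => (inner ℝ x (T x) - ψ (T x)) - (inner ℝ x (S x) - ψ (S x))) ρ ∧
      2 * ∫ x, ((inner ℝ x (T x) - ψ (T x)) - (inner ℝ x (S x) - ψ (S x))) ∂ρ =
        (∫ x, ‖x - S x‖^2 ∂ρ) - ∫ x, ‖x - T x‖^2 ∂ρ := by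
    intro S hS hST
    have hSV' := hSV S hS hST
    have hTV' : ∀ᵐ x ∂ρ, T x ∈ V := Filter.Eventually.of_forall hTV
    have e1 : ∀ x, (inner ℝ x (T x) - ψ (T x)) - (inner ℝ x (S x) - ψ (S x)) =
        (1/2 : ℝ) * (((‖x - S x‖^2) - ‖x - T x‖^2) - ((‖S x‖^2 - 2 * ψ (S x)) - (‖T x‖^2 - 2 * ψ (T x)))) := by
      intro x
      rw [norm_sub_sq_real, norm_sub_sq_real]
      ring
    have i1 : Integrable (fun x => ‖x - S x‖^2 - ‖x - T x‖^2) ρ := (hint1 S hS hSV').sub (hint1 T hT hTV')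
    have i2 : Integrable (fun x => (‖S x‖^2 - 2 * ψ (S x)) - (‖T x‖^2 - 2 * ψ (T x))) ρ :=
      (hint2 S hS hSV').sub (hint2 T hT hTV')
    have e2 : ∫ x, (‖S x‖^2 - 2 * ψ (S x)) ∂ρ = ∫ x, (‖T x‖^2 - 2 * ψ (T x)) ∂ρ := by
      have a1 : ∫ x, (‖S x‖^2 - 2 * ψ (S x)) ∂ρ = ∫ y, (‖y‖^2 - 2 * ψ y) ∂(ρ.map S) :=
        (integral_map hS.aemeasurable (by fun_prop : Measurable fun y : EuclideanSpace ℝ (Fin d) => ‖y‖^2 - 2 * ψ y).aestronglyMeasurable).symm
      have a2 : ∫ x, (‖T x‖^2 - 2 * ψ (T x)) ∂ρ = ∫ y, (‖y‖^2 - 2 * ψ y) ∂(ρ.map T) :=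
        (integral_map hT.aemeasurable (by fun_prop : Measurable fun y : EuclideanSpace ℝ (Fin d) => ‖y‖^2 - 2 * ψ y).aestronglyMeasurable).symm
      rw [a1, a2, hST]
    constructor
    · simp_rw [e1]
      exact (i1.sub i2).const_mul _
    · simp_rw [e1]
      rw [integral_const_mul, integral_sub i1 i2, integral_sub (hint1 S hS hSV') (hint1 T hT hTV'),
        integral_sub (hint2 S hS hSV') (hint2 T hT hTV'), e2]
      ring
  have hnn : ∀ S : EuclideanSpace ℝ (Fin d) → EuclideanSpace ℝ (Fin d), Measurable S → ρ.map S = ρ.map T →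
      0 ≤ᵐ[ρ] fun x => (inner ℝ x (T x) - ψ (T x)) - (inner ℝ x (S x) - ψ (S x)) := by
    intro S hS hST
    filter_upwards [hmax, hSV S hS hST] with x hx hx'
    by_cases h : S x = T x
    · simp [h]
    · have := hx _ hx' h
      simp only [Pi.zero_apply]
      linarith
  have hcost : ∀ S : EuclideanSpace ℝ (Fin d) → EuclideanSpace ℝ (Fin d), Measurable S → ρ.map S = ρ.map T →
      ∫⁻ x, ‖x - S x‖ₑ ^ 2 ∂ρ = ENNReal.ofReal (∫ x, ‖x - S x‖^2 ∂ρ) := by
    intro S hS hST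
    rw [ofReal_integral_eq_lintegral_ofReal (hint1 S hS (hSV S hS hST)) (Filter.Eventually.of_forall fun x => by positivity)]
    congr 1
    ext x
    rw [← ofReal_norm, ENNReal.ofReal_pow (norm_nonneg _)]
  constructor
  · refine ⟨hT, rfl, fun S hS hST => ?_⟩
    rw [hcost T hT rfl, hcost S hS hST]
    apply ENNReal.ofReal_le_ofReal
    have h1 := (hgap S hS hST).2
    have h2 := integral_nonneg_of_ae (hnn S hS hST)
    linarith
  · rintro S ⟨hS, hST, hopt⟩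
    have h1 := (hgap S hS hST).2
    have h2 := hopt T hT rfl
    rw [hcost T hT rfl, hcost S hS hST, ENNReal.ofReal_le_ofReal_iff (integral_nonneg fun x => by positivity)] at h2
    have h3 : ∫ x, ((inner ℝ x (T x) - ψ (T x)) - (inner ℝ x (S x) - ψ (S x))) ∂ρ = 0 :=
      le_antisymm (by linarith) (integral_nonneg_of_ae (hnn S hS hST))
    rw [integral_eq_zero_iff_of_nonneg_ae (hnn S hS hST) (hgap S hS hST).1] at h3
    filter_upwards [h3, hmax, hSV S hS hST] with x hx hx1 hx2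
    by_contra h
    have := hx1 _ hx2 h
    simp only [Pi.zero_apply] at hx
    linarith


lemma ae_ν1 : ∀ᵐ b ∂ν1, b ∈ Icc (-1:ℝ) 1 :=
  Measure.ae_smul_measure (ae_restrict_mem measurableSet_Icc) _

lemma lintegral_affine (p q : ℝ) (h : ∀ b ∈ Icc (-1:ℝ) 1, 0 ≤ p + q * b) :
    ∫⁻ b, ENNReal.ofReal (p + q * b) ∂ν1 = ENNReal.ofReal p := by
  have hi : Integrable (fun b => p + q * b) ν1 := by
    refine Integrable.of_bound (C := |p| + |q|) (by fun_prop) ?_
    filter_upwards [ae_ν1] with b hb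
    rw [Real.norm_eq_abs]
    refine (abs_add_le _ _).trans ?_
    rw [abs_mul]
    have : |b| ≤ 1 := abs_le.2 hb
    nlinarith [abs_nonneg q]
  rw [← ofReal_integral_eq_lintegral_ofReal hi]
  · congr 1
    unfold ν1
    rw [integral_smul_measure, integral_Icc_eq_integral_Ioc, ← intervalIntegral.integral_of_le (by norm_num)]
    rw [intervalIntegral.integral_add (by simp) (by
      exact (continuous_const.mul continuous_id).intervalIntegrable _ _)]
    rw [intervalIntegral.integral_const_mul, integral_id]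
    simp
    ring
  · filter_upwards [ae_ν1] with b hb
    exact h b hb

lemma ν1_Ioi (c : ℝ) (h0 : -1 ≤ c) (_h1 : c ≤ 1) : ν1 (Ioi c) = ENNReal.ofReal ((1 - c) / 2) := by
  rw [ν1_apply _ measurableSet_Ioi]
  have : Ioi c ∩ Icc (-1:ℝ) 1 = Ioc c 1 := by
    ext x; simp only [mem_inter_iff, mem_Ioi, mem_Icc, mem_Ioc]
    constructor
    · rintro ⟨a, b, e⟩; exact ⟨a, e⟩
    · rintro ⟨a, b⟩; exact ⟨a, by linarith, b⟩
  rw [this, Real.volume_Ioc, div_eq_inv_mul, ENNReal.ofReal_mul (by norm_num), ENNReal.ofReal_inv_of_pos (by norm_num)]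
  simp

lemma ν1_Iio (c : ℝ) (_h0 : -1 ≤ c) (h1 : c ≤ 1) : ν1 (Iio c) = ENNReal.ofReal ((1 + c) / 2) := by
  rw [ν1_apply _ measurableSet_Iio]
  have : Iio c ∩ Icc (-1:ℝ) 1 = Ico (-1) c := by
    ext x; simp only [mem_inter_iff, mem_Iio, mem_Icc, mem_Ico]
    constructor
    · rintro ⟨a, b, e⟩; exact ⟨b, a⟩
    · rintro ⟨a, b⟩; exact ⟨b, a, by linarith⟩
  rw [this, Real.volume_Ico, div_eq_inv_mul, ENNReal.ofReal_mul (by norm_num), ENNReal.ofReal_inv_of_pos (by norm_num)]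
  simp [add_comm]

lemma ν1_Icc (c : ℝ) (_h0 : 0 ≤ c) (h1 : c ≤ 1) : ν1 (Icc (-c) c) = ENNReal.ofReal c := by
  rw [ν1_apply _ measurableSet_Icc]
  have : Icc (-c) c ∩ Icc (-1:ℝ) 1 = Icc (-c) c := by
    rw [inter_eq_left]
    exact Icc_subset_Icc (by linarith) h1
  rw [this, Real.volume_Icc]
  have : c = 2⁻¹ * (c - -c) := by ring
  conv_rhs => rw [this]
  rw [ENNReal.ofReal_mul (by norm_num), ENNReal.ofReal_inv_of_pos (by norm_num)]
  simp

lemma ν1_singleton (c : ℝ) : ν1 {c} = 0 := by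
  rw [ν1_apply _ (measurableSet_singleton c)]
  have : volume ({c} ∩ Icc (-1:ℝ) 1) = 0 := measure_mono_null inter_subset_left (by simp)
  rw [this, mul_zero]

section maps

variable {d : ℕ} (i0 i1 : Fin d)

/-- the two points -/
noncomputable abbrev e (i : Fin d) : EuclideanSpace ℝ (Fin d) := EuclideanSpace.single i (1:ℝ)

open Classical in
noncomputable def idx (ε t : ℝ) (x : EuclideanSpace ℝ (Fin d)) : Fin 3 :=
  if ε * (1 + t * x i1) < x i0 then 0 else if x i0 < -(ε * (1 + t * x i1)) then 1 else 2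

noncomputable def pts (ε t : ℝ) : Fin 3 → EuclideanSpace ℝ (Fin d) :=
  ![e i0, -e i0, (ε * t) • e i1]

noncomputable def T (ε t : ℝ) (x : EuclideanSpace ℝ (Fin d)) : EuclideanSpace ℝ (Fin d) :=
  pts i0 i1 ε t (idx i0 i1 ε t x)

noncomputable def m (ε : ℝ) : Fin 3 → ℝ := ![(1 - ε)/2, (1 - ε)/2, ε]

lemma meas_idx (ε t : ℝ) : Measurable (idx i0 i1 ε t) := by
  unfold idx
  refine Measurable.ite (measurableSet_lt (by fun_prop) (by fun_prop)) measurable_const ?_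
  exact Measurable.ite (measurableSet_lt (by fun_prop) (by fun_prop)) measurable_const measurable_const

lemma meas_T (ε t : ℝ) : Measurable (T i0 i1 ε t) := by
  unfold T
  exact (measurable_of_countable (pts i0 i1 ε t)).comp (meas_idx i0 i1 ε t)

lemma meas_pair : Measurable (fun x : EuclideanSpace ℝ (Fin d) => (x i0, x i1)) := by fun_prop

variable {i0 i1}

lemma pre_apply (h : i0 ≠ i1) (s : Set (ℝ × ℝ)) (hs : MeasurableSet s) :
    uniformProbOn (cube d) {x | (x i0, x i1) ∈ s} = ∫⁻ b, ν1 ((fun a => (a, b)) ⁻¹' s) ∂ν1 := by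
  have : {x : EuclideanSpace ℝ (Fin d) | (x i0, x i1) ∈ s} = (fun x : EuclideanSpace ℝ (Fin d) => (x i0, x i1)) ⁻¹' s := rfl
  rw [this, ← Measure.map_apply (meas_pair i0 i1) hs, map_pair d i0 i1 h, Measure.prod_apply_symm hs]

lemma mass0 (h : i0 ≠ i1) (ε t : ℝ) (hε : 0 < ε) (hε1 : ε < 1/2) (ht : 0 ≤ t) (ht1 : t ≤ 1) :
    uniformProbOn (cube d) (idx i0 i1 ε t ⁻¹' {0}) = ENNReal.ofReal (m ε 0) := by
  have h1 : idx i0 i1 ε t ⁻¹' {0} = {x : EuclideanSpace ℝ (Fin d) | (x i0, x i1) ∈ {p : ℝ × ℝ | ε * (1 + t * p.2) < p.1}} := by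
    ext x
    simp only [idx, mem_preimage, mem_singleton_iff, Set.mem_ofPred_eq]
    split_ifs <;> simp_all
  rw [h1, pre_apply h _ (measurableSet_lt (by fun_prop) (by fun_prop))]
  have h2 : ∫⁻ b, ν1 ((fun a => (a, b)) ⁻¹' {p : ℝ × ℝ | ε * (1 + t * p.2) < p.1}) ∂ν1 =
      ∫⁻ b, ENNReal.ofReal ((1 - ε)/2 + (-(ε * t) / 2) * b) ∂ν1 := by
    apply lintegral_congr_ae
    filter_upwards [ae_ν1] with b hb
    have : (fun a => (a, b)) ⁻¹' {p : ℝ × ℝ | ε * (1 + t * p.2) < p.1} = Ioi (ε * (1 + t * b)) := by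
      ext a; simp
    rw [this, ν1_Ioi]
    · congr 1; ring
    · nlinarith [hb.1, hb.2, mul_nonneg hε.le ht, mul_nonneg (mul_nonneg hε.le ht) (by linarith [hb.1] : 0 ≤ 1 + b)]
    · nlinarith [hb.1, hb.2, mul_nonneg hε.le ht, mul_nonneg (mul_nonneg hε.le ht) (by linarith [hb.2] : 0 ≤ 1 - b), mul_nonneg hε.le (by linarith : 0 ≤ 1 - t)]
  rw [h2, lintegral_affine]
  · simp [m]
  · intro b hb
    nlinarith [hb.1, hb.2, mul_nonneg hε.le ht, mul_nonneg (mul_nonneg hε.le ht) (by linarith [hb.2] : 0 ≤ 1 - b), mul_nonneg hε.le (by linarith : 0 ≤ 1 - t)]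

lemma mass1 (h : i0 ≠ i1) (ε t : ℝ) (hε : 0 < ε) (hε1 : ε < 1/2) (ht : 0 ≤ t) (ht1 : t ≤ 1) :
    uniformProbOn (cube d) (idx i0 i1 ε t ⁻¹' {1}) = ENNReal.ofReal (m ε 1) := by
  have h0 : uniformProbOn (cube d) (idx i0 i1 ε t ⁻¹' {1}) =
      uniformProbOn (cube d) {x : EuclideanSpace ℝ (Fin d) | (x i0, x i1) ∈ {p : ℝ × ℝ | p.1 < -(ε * (1 + t * p.2))}} := by
    have hae : ∀ᵐ x ∂(uniformProbOn (cube d)), x ∈ cube d :=
      Measure.ae_smul_measure (ae_restrict_mem (cube_meas d)) _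
    apply measure_congr
    filter_upwards [hae] with x hx
    have hb := hx i1
    rw [abs_le] at hb
    apply propext
    show idx i0 i1 ε t x = 1 ↔ x i0 < -(ε * (1 + t * x i1))
    have : 0 ≤ ε * (1 + t * x i1) := by
      apply mul_nonneg hε.le
      nlinarith [hb.1, hb.2]
    unfold idx
    split_ifs with h1 h2
    · simp only [Fin.isValue, zero_ne_one, false_iff, not_lt]; linarith
    · simp [h2]
    · simp [h2]
  rw [h0, pre_apply h _ (measurableSet_lt (by fun_prop) (by fun_prop))]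
  have h2 : ∫⁻ b, ν1 ((fun a => (a, b)) ⁻¹' {p : ℝ × ℝ | p.1 < -(ε * (1 + t * p.2))}) ∂ν1 =
      ∫⁻ b, ENNReal.ofReal ((1 - ε)/2 + (-(ε * t) / 2) * b) ∂ν1 := by
    apply lintegral_congr_ae
    filter_upwards [ae_ν1] with b hb
    have : (fun a => (a, b)) ⁻¹' {p : ℝ × ℝ | p.1 < -(ε * (1 + t * p.2))} = Iio (-(ε * (1 + t * b))) := by
      ext a; simp
    rw [this, ν1_Iio]
    · congr 1; ring
    · nlinarith [hb.1, hb.2, mul_nonneg hε.le ht, mul_nonneg (mul_nonneg hε.le ht) (by linarith [hb.2] : 0 ≤ 1 - b), mul_nonneg hε.le (by linarith : 0 ≤ 1 - t)]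
    · nlinarith [hb.1, hb.2, mul_nonneg hε.le ht, mul_nonneg (mul_nonneg hε.le ht) (by linarith [hb.1] : 0 ≤ 1 + b)]
  rw [h2, lintegral_affine]
  · simp [m]
  · intro b hb
    nlinarith [hb.1, hb.2, mul_nonneg hε.le ht, mul_nonneg (mul_nonneg hε.le ht) (by linarith [hb.2] : 0 ≤ 1 - b), mul_nonneg hε.le (by linarith : 0 ≤ 1 - t)]

lemma mass2 (h : i0 ≠ i1) (ε t : ℝ) (hε : 0 < ε) (hε1 : ε < 1/2) (ht : 0 ≤ t) (ht1 : t ≤ 1) :
    uniformProbOn (cube d) (idx i0 i1 ε t ⁻¹' {2}) = ENNReal.ofReal (m ε 2) := by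
  have h1 : idx i0 i1 ε t ⁻¹' {2} = {x : EuclideanSpace ℝ (Fin d) | (x i0, x i1) ∈ {p : ℝ × ℝ | p.1 ≤ ε * (1 + t * p.2)} ∩ {p : ℝ × ℝ | -(ε * (1 + t * p.2)) ≤ p.1}} := by
    ext x
    simp only [idx, mem_preimage, mem_singleton_iff, Set.mem_ofPred_eq, mem_inter_iff]
    split_ifs with h1 h2
    · simp [h1]
    · simp [h2]
    · simp; exact ⟨not_lt.1 h1, not_lt.1 h2⟩
  rw [h1, pre_apply h _ ((measurableSet_le (by fun_prop) (by fun_prop)).inter (measurableSet_le (by fun_prop) (by fun_prop)))]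
  have h2 : ∫⁻ b, ν1 ((fun a => (a, b)) ⁻¹' ({p : ℝ × ℝ | p.1 ≤ ε * (1 + t * p.2)} ∩ {p : ℝ × ℝ | -(ε * (1 + t * p.2)) ≤ p.1})) ∂ν1 =
      ∫⁻ b, ENNReal.ofReal (ε + (ε * t) * b) ∂ν1 := by
    apply lintegral_congr_ae
    filter_upwards [ae_ν1] with b hb
    have : (fun a => (a, b)) ⁻¹' ({p : ℝ × ℝ | p.1 ≤ ε * (1 + t * p.2)} ∩ {p : ℝ × ℝ | -(ε * (1 + t * p.2)) ≤ p.1}) =
        Icc (-(ε * (1 + t * b))) (ε * (1 + t * b)) := by
      ext a; simp [and_comm]
    rw [this, ν1_Icc]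
    · congr 1; ring
    · apply mul_nonneg hε.le
      nlinarith [hb.1, hb.2]
    · nlinarith [hb.1, hb.2, mul_nonneg hε.le ht, mul_nonneg (mul_nonneg hε.le ht) (by linarith [hb.2] : 0 ≤ 1 - b), mul_nonneg hε.le (by linarith : 0 ≤ 1 - t)]
  rw [h2, lintegral_affine]
  · simp [m]
  · intro b hb
    have : 0 ≤ ε * (1 + t * b) := by
      apply mul_nonneg hε.le
      nlinarith [hb.1, hb.2]
    linarith

/-- the target measure -/
noncomputable def tgt (i0 i1 : Fin d) (ε t : ℝ) : Measure (EuclideanSpace ℝ (Fin d)) :=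
  ∑ i, ENNReal.ofReal (m ε i) • Measure.dirac (pts i0 i1 ε t i)

lemma map_T (h : i0 ≠ i1) (ε t : ℝ) (hε : 0 < ε) (hε1 : ε < 1/2) (ht : 0 ≤ t) (ht1 : t ≤ 1) :
    (uniformProbOn (cube d)).map (T i0 i1 ε t) = tgt i0 i1 ε t := by
  have h1 : (uniformProbOn (cube d)).map (idx i0 i1 ε t) = ∑ i : Fin 3, ENNReal.ofReal (m ε i) • Measure.dirac i := by
    rw [← Measure.sum_smul_dirac ((uniformProbOn (cube d)).map (idx i0 i1 ε t)), Measure.sum_fintype]
    apply Finset.sum_congr rfl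
    intro i _
    rw [Measure.map_apply (meas_idx i0 i1 ε t) (measurableSet_singleton i)]
    have hm : ∀ i : Fin 3, uniformProbOn (cube d) (idx i0 i1 ε t ⁻¹' {i}) = ENNReal.ofReal (m ε i) := by
      intro i
      fin_cases i
      · exact mass0 h ε t hε hε1 ht ht1
      · exact mass1 h ε t hε hε1 ht ht1
      · exact mass2 h ε t hε hε1 ht ht1
    rw [hm i]
  have h2 : (uniformProbOn (cube d)).map (T i0 i1 ε t) =
      ((uniformProbOn (cube d)).map (idx i0 i1 ε t)).map (pts i0 i1 ε t) := by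
    rw [Measure.map_map (measurable_of_countable _) (meas_idx i0 i1 ε t)]
    rfl
  rw [h2, h1]
  unfold tgt
  ext s hs
  rw [Measure.map_apply (measurable_of_countable _) hs]
  simp only [Measure.coe_finsetSum, Finset.sum_apply, Measure.smul_apply, Measure.dirac_apply' _ hs,
    Measure.dirac_apply' _ (measurable_of_countable (pts i0 i1 ε t) hs), smul_eq_mul]
  rfl


lemma ae_cube : ∀ᵐ x ∂(uniformProbOn (cube d)), x ∈ cube d :=
  Measure.ae_smul_measure (ae_restrict_mem (cube_meas d)) _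

lemma ae_ne (h : i0 ≠ i1) (ε t : ℝ) :
    ∀ᵐ x ∂(uniformProbOn (cube d)), x i0 ≠ ε * (1 + t * x i1) ∧ x i0 ≠ -(ε * (1 + t * x i1)) := by
  have key : ∀ g : ℝ → ℝ, Measurable g → ∀ᵐ x ∂(uniformProbOn (cube d)), x i0 ≠ g (x i1) := by
    intro g hg
    rw [ae_iff]
    have h1 : {x : EuclideanSpace ℝ (Fin d) | ¬ x i0 ≠ g (x i1)} =
        {x : EuclideanSpace ℝ (Fin d) | (x i0, x i1) ∈ {p : ℝ × ℝ | p.1 = g p.2}} := by
      ext x; simp
    rw [h1, pre_apply h _ (measurableSet_eq_fun (by fun_prop) (by fun_prop))]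
    have : ∀ b, (fun a => (a, b)) ⁻¹' {p : ℝ × ℝ | p.1 = g p.2} = {g b} := by
      intro b; ext a; simp
    simp [this, ν1_singleton]
  filter_upwards [key (fun b => ε * (1 + t * b)) (by fun_prop), key (fun b => -(ε * (1 + t * b))) (by fun_prop)] with x h1 h2
  exact ⟨h1, h2⟩

lemma norm_cube_le : ∀ᵐ x ∂(uniformProbOn (cube d)), ‖x‖ ≤ Real.sqrt d := by
  filter_upwards [ae_cube (d := d)] with x hx
  rw [EuclideanSpace.norm_eq]
  apply Real.sqrt_le_sqrt
  calc ∑ i, ‖x i‖^2 ≤ ∑ i : Fin d, 1 := by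
        apply Finset.sum_le_sum
        intro i _
        have : ‖x i‖ ≤ 1 := hx i
        nlinarith [norm_nonneg (x i)]
    _ = d := by simp

/-- `T` is the (a.e. unique) optimal map onto the target. -/
lemma opt_T (h : i0 ≠ i1) (ε t : ℝ) (hε : 0 < ε) (hε1 : ε < 1/2) (ht : 0 ≤ t) (ht1 : t ≤ 1) :
    IsOptimalMap (uniformProbOn (cube d)) (tgt i0 i1 ε t) (T i0 i1 ε t) ∧
      ∀ S, IsOptimalMap (uniformProbOn (cube d)) (tgt i0 i1 ε t) S → S =ᵐ[uniformProbOn (cube d)] T i0 i1 ε t := by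
  rw [← map_T h ε t hε hε1 ht ht1]
  classical
  refine optimal_of_argmax (Real.sqrt d) norm_cube_le (Finset.univ.image (pts i0 i1 ε t))
    (fun y => -ε + ε * |y i0|) (by fun_prop) (T i0 i1 ε t) (meas_T i0 i1 ε t) (fun x => by simp [T]) ?_
  filter_upwards [ae_cube (d := d), ae_ne h ε t] with x hx hne
  obtain ⟨hne1, hne2⟩ := hne
  have hb := hx i1
  rw [abs_le] at hb
  have hg0 : 0 ≤ ε * (1 + t * x i1) := by
    apply mul_nonneg hε.le
    nlinarith [hb.1, hb.2]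
  -- values
  have v0 : inner ℝ x (e i0) - (-ε + ε * |(e i0 : EuclideanSpace ℝ (Fin d)) i0|) = x i0 := by
    simp [EuclideanSpace.inner_single_right]
  have v1 : inner ℝ x (-e i0) - (-ε + ε * |(-e i0 : EuclideanSpace ℝ (Fin d)) i0|) = -x i0 := by
    simp [EuclideanSpace.inner_single_right]
  have v2 : inner ℝ x ((ε * t) • e i1) - (-ε + ε * |((ε * t) • e i1 : EuclideanSpace ℝ (Fin d)) i0|) = ε * (1 + t * x i1) := by
    simp [EuclideanSpace.inner_single_right, inner_smul_right, h]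
    ring
  intro v hv
  simp only [Finset.mem_image, Finset.mem_univ, true_and] at hv
  obtain ⟨j, rfl⟩ := hv
  unfold T idx
  split_ifs with h1 h2
  · intro hvne
    have e0 : pts i0 i1 ε t 0 = e i0 := rfl
    rw [e0] at hvne ⊢
    show _ < inner ℝ x (e i0) - (-ε + ε * |(e i0 : EuclideanSpace ℝ (Fin d)) i0|)
    rw [v0]
    fin_cases j
    · exact absurd rfl hvne
    · show inner ℝ x (-e i0) - (-ε + ε * |(-e i0 : EuclideanSpace ℝ (Fin d)) i0|) < _
      rw [v1]; linarith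
    · show inner ℝ x ((ε * t) • e i1) - (-ε + ε * |((ε * t) • e i1 : EuclideanSpace ℝ (Fin d)) i0|) < _
      rw [v2]; linarith
  · intro hvne
    have e0 : pts i0 i1 ε t 1 = -e i0 := rfl
    rw [e0] at hvne ⊢
    show _ < inner ℝ x (-e i0) - (-ε + ε * |(-e i0 : EuclideanSpace ℝ (Fin d)) i0|)
    rw [v1]
    fin_cases j
    · show inner ℝ x (e i0) - (-ε + ε * |(e i0 : EuclideanSpace ℝ (Fin d)) i0|) < _
      rw [v0]; linarith
    · exact absurd rfl hvne
    · show inner ℝ x ((ε * t) • e i1) - (-ε + ε * |((ε * t) • e i1 : EuclideanSpace ℝ (Fin d)) i0|) < _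
      rw [v2]; linarith
  · intro hvne
    have e0 : pts i0 i1 ε t 2 = (ε * t) • e i1 := rfl
    rw [e0] at hvne ⊢
    show _ < inner ℝ x ((ε * t) • e i1) - (-ε + ε * |((ε * t) • e i1 : EuclideanSpace ℝ (Fin d)) i0|)
    rw [v2]
    have h1' := lt_of_le_of_ne (not_lt.1 h1) hne1
    have h2' := lt_of_le_of_ne (not_lt.1 h2) (Ne.symm hne2)
    fin_cases j
    · show inner ℝ x (e i0) - (-ε + ε * |(e i0 : EuclideanSpace ℝ (Fin d)) i0|) < _
      rw [v0]; linarith
    · show inner ℝ x (-e i0) - (-ε + ε * |(-e i0 : EuclideanSpace ℝ (Fin d)) i0|) < _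
      rw [v1]; linarith
    · exact absurd rfl hvne

/-- lower bound on the distance of the two maps -/
lemma lower (h : i0 ≠ i1) (ε : ℝ) (hε : 0 < ε) (hε1 : ε < 1/2) :
    ENNReal.ofReal (ε / 16) ≤ ∫⁻ x, ‖T i0 i1 ε 0 x - T i0 i1 ε 1 x‖ₑ ^ 2 ∂(uniformProbOn (cube d)) := by
  set D : Set (EuclideanSpace ℝ (Fin d)) := {x | (x i0, x i1) ∈ Ioo ε (3 * ε / 2) ×ˢ Ioi (1/2 : ℝ)} with hD
  have hDm : MeasurableSet D := (meas_pair i0 i1) (measurableSet_Ioo.prod measurableSet_Ioi)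
  have hDv : uniformProbOn (cube d) D = ENNReal.ofReal (ε / 16) := by
    have : D = (fun x : EuclideanSpace ℝ (Fin d) => (x i0, x i1)) ⁻¹' (Ioo ε (3 * ε / 2) ×ˢ Ioi (1/2 : ℝ)) := rfl
    rw [this, ← Measure.map_apply (meas_pair i0 i1) (measurableSet_Ioo.prod measurableSet_Ioi), map_pair d i0 i1 h,
      Measure.prod_prod, ν1_Ioi _ (by norm_num) (by norm_num), ν1_apply _ measurableSet_Ioo]
    have h2 : Ioo ε (3 * ε / 2) ∩ Icc (-1:ℝ) 1 = Ioo ε (3 * ε / 2) := by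
      rw [inter_eq_left]
      intro a ha
      exact ⟨by linarith [ha.1], by linarith [ha.2]⟩
    rw [h2, Real.volume_Ioo]
    have h3 : (2:ℝ≥0∞)⁻¹ = ENNReal.ofReal (2⁻¹) := by
      rw [ENNReal.ofReal_inv_of_pos (by norm_num)]; simp
    rw [h3, ← ENNReal.ofReal_mul (by norm_num), ← ENNReal.ofReal_mul (by nlinarith)]
    congr 1
    ring
  rw [← hDv, ← lintegral_indicator_one hDm]
  apply lintegral_mono
  intro x
  by_cases hx : x ∈ D
  · rw [indicator_of_mem hx]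
    obtain ⟨⟨ha, hb⟩, hc⟩ := hx
    simp only [mem_Ioi] at ha hb hc
    have t0 : T i0 i1 ε 0 x = e i0 := by
      unfold T idx
      rw [if_pos (by linarith)]
      rfl
    have t1 : T i0 i1 ε 1 x = (ε * 1) • e i1 := by
      unfold T idx
      rw [if_neg (by nlinarith), if_neg (by nlinarith)]
      rfl
    simp only [t0, t1, Pi.one_apply]
    have hn : (1:ℝ) ≤ ‖(e i0 : EuclideanSpace ℝ (Fin d)) - (ε * 1) • e i1‖ := by
      have := PiLp.norm_apply_le ((e i0 : EuclideanSpace ℝ (Fin d)) - (ε * 1) • e i1) i0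
      simpa [h] using this
    have hn' : (1:ℝ≥0∞) ≤ ‖(e i0 : EuclideanSpace ℝ (Fin d)) - (ε * 1) • e i1‖ₑ := by
      rw [← ofReal_norm, ← ENNReal.ofReal_one]
      exact ENNReal.ofReal_le_ofReal hn
    exact one_le_pow₀ hn'
  · rw [indicator_of_notMem hx]
    exact zero_le

/-- the coupling -/
noncomputable def cpl (i0 i1 : Fin d) (ε : ℝ) : Measure (EuclideanSpace ℝ (Fin d) × EuclideanSpace ℝ (Fin d)) :=
  ∑ i, ENNReal.ofReal (m ε i) • Measure.dirac (pts i0 i1 ε 0 i, pts i0 i1 ε 1 i)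

lemma cpl_isCoupling (ε : ℝ) : IsPairCoupling (tgt i0 i1 ε 0) (tgt i0 i1 ε 1) (cpl i0 i1 ε) := by
  constructor
  · unfold cpl tgt
    ext s hs
    rw [Measure.map_apply measurable_fst hs]
    simp only [Measure.coe_finsetSum, Finset.sum_apply, Measure.smul_apply, Measure.dirac_apply' _ hs,
      Measure.dirac_apply' _ (measurable_fst hs), smul_eq_mul]
    rfl
  · unfold cpl tgt
    ext s hs
    rw [Measure.map_apply measurable_snd hs]
    simp only [Measure.coe_finsetSum, Finset.sum_apply, Measure.smul_apply, Measure.dirac_apply' _ hs,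
      Measure.dirac_apply' _ (measurable_snd hs), smul_eq_mul]
    rfl

lemma cpl_cost (ε : ℝ) (hε : 0 < ε) : quadCost (cpl i0 i1 ε) = ENNReal.ofReal (ε ^ 3) := by
  unfold quadCost cpl
  rw [lintegral_finsetSum_measure]
  simp only [lintegral_smul_measure, lintegral_dirac, Fin.sum_univ_three, smul_eq_mul]
  have h0 : pts i0 i1 ε 0 0 - pts i0 i1 ε 1 0 = 0 := by simp [pts]
  have h1 : pts i0 i1 ε 0 1 - pts i0 i1 ε 1 1 = 0 := by simp [pts]
  have h2 : pts i0 i1 ε 0 2 - pts i0 i1 ε 1 2 = - (ε • e i1) := by simp [pts]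
  rw [h0, h1, h2]
  have h3 : m ε 2 = ε := rfl
  have h4 : ‖ε • (e i1 : EuclideanSpace ℝ (Fin d))‖ₑ = ENNReal.ofReal ε := by
    rw [← ofReal_norm, norm_smul]
    simp [abs_of_pos hε]
  rw [h3, enorm_neg, h4, enorm_zero]
  rw [← ENNReal.ofReal_pow hε.le]
  simp only [ne_eq, OfNat.ofNat_ne_zero, not_false_eq_true, zero_pow, mul_zero, zero_add]
  rw [← ENNReal.ofReal_mul hε.le]
  congr 1
  ring

lemma tgt_prob (h : i0 ≠ i1) (ε t : ℝ) (hε : 0 < ε) (hε1 : ε < 1/2) (ht : 0 ≤ t) (ht1 : t ≤ 1) :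
    IsProbabilityOn (cube d) (tgt i0 i1 ε t) := by
  constructor
  · rw [← map_T h ε t hε hε1 ht ht1]
    exact Measure.isProbabilityMeasure_map (meas_T i0 i1 ε t).aemeasurable
  · unfold tgt
    have hmem : ∀ i, pts i0 i1 ε t i ∈ cube d := by
      intro i j
      have key : ∀ k : Fin d, |(EuclideanSpace.single k (1:ℝ) : EuclideanSpace ℝ (Fin d)) j| ≤ 1 := by
        intro k
        rw [PiLp.single_apply]
        split_ifs <;> simp
      fin_cases i
      · exact key i0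
      · show |(-e i0 : EuclideanSpace ℝ (Fin d)) j| ≤ 1
        rw [PiLp.neg_apply, abs_neg]
        exact key i0
      · show |((ε * t) • e i1 : EuclideanSpace ℝ (Fin d)) j| ≤ 1
        rw [PiLp.smul_apply, smul_eq_mul, abs_mul, abs_of_nonneg (mul_nonneg hε.le ht)]
        have := key i1
        have h2 : ε * t ≤ 1 := by nlinarith
        exact mul_le_one₀ h2 (abs_nonneg _) this
    simp only [Measure.coe_finsetSum, Finset.sum_apply, Measure.smul_apply, Measure.dirac_apply' _ (cube_meas d).compl,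
      smul_eq_mul]
    apply Finset.sum_eq_zero
    intro i _
    rw [indicator_of_notMem (by simpa using hmem i), mul_zero]

lemma tgt_three (h : i0 ≠ i1) (ε t : ℝ) (hε : 0 < ε) (hε1 : ε < 1/2) :
    IsThreeAtomic (tgt i0 i1 ε t) := by
  refine ⟨pts i0 i1 ε t, ?_, m ε, ?_, rfl⟩
  · have p0 : (pts i0 i1 ε t 0) i0 = 1 := by simp [pts]
    have p1 : (pts i0 i1 ε t 1) i0 = -1 := by simp [pts]
    have p2 : (pts i0 i1 ε t 2) i0 = 0 := by simp [pts, h]
    have : Function.Injective (fun i : Fin 3 => (pts i0 i1 ε t i) i0) := by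
      intro i j hij
      simp only at hij
      fin_cases i <;> fin_cases j <;>
        simp only [Fin.zero_eta, Fin.mk_one, Fin.reduceFinMk, p0, p1, p2] at hij ⊢ <;> norm_num at hij
    intro i j hij
    exact this (by simp only [hij])
  · intro i
    fin_cases i
    · show 0 < (1 - ε)/2
      linarith
    · show 0 < (1 - ε)/2
      linarith
    · exact hε

end maps

/-- choice of ε -/
lemma exists_eps (α : ℝ) (hα : 1/3 < α) (C : ℝ≥0) : ∃ ε : ℝ, 0 < ε ∧ ε < 1/2 ∧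
    (C : ℝ≥0∞) * (ENNReal.ofReal (ε ^ 3)) ^ α < ENNReal.ofReal (ε / 16) := by
  have hlim : Filter.Tendsto (fun ε : ℝ => (C : ℝ) * ε ^ (3 * α - 1)) (nhdsWithin 0 (Ioi 0)) (nhds 0) := by
    have h1 : Filter.Tendsto (fun ε : ℝ => ε ^ (3 * α - 1)) (nhds 0) (nhds 0) := by
      have := (Real.continuousAt_rpow_const 0 (3 * α - 1) (Or.inr (by linarith))).tendsto
      rwa [Real.zero_rpow (by linarith)] at this
    have h2 : Filter.Tendsto (fun ε : ℝ => ε ^ (3 * α - 1)) (nhdsWithin 0 (Ioi 0)) (nhds 0) :=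
      h1.mono_left nhdsWithin_le_nhds
    have := h2.const_mul (C : ℝ)
    simpa using this
  have h1 : ∀ᶠ ε in nhdsWithin (0:ℝ) (Ioi 0), (C : ℝ) * ε ^ (3 * α - 1) < 1/16 :=
    hlim.eventually_lt_const (by norm_num)
  have h2 : ∀ᶠ ε in nhdsWithin (0:ℝ) (Ioi 0), ε < 1/2 :=
    nhdsWithin_le_nhds (Iio_mem_nhds (by norm_num))
  obtain ⟨ε, ⟨ha, hb⟩, hc⟩ := ((h1.and h2).and self_mem_nhdsWithin).exists
  have hε : 0 < ε := hc
  refine ⟨ε, hε, hb, ?_⟩
  rw [ENNReal.ofReal_rpow_of_pos (by positivity)]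
  have : (C : ℝ≥0∞) = ENNReal.ofReal (C : ℝ) := by simp
  rw [this, ← ENNReal.ofReal_mul (NNReal.coe_nonneg C)]
  rw [ENNReal.ofReal_lt_ofReal_iff (by positivity)]
  have h3 : (ε ^ 3) ^ α = ε ^ (3 * α - 1) * ε := by
    rw [← Real.rpow_natCast, ← Real.rpow_mul hε.le]
    conv_rhs => rw [← Real.rpow_one ε, ← Real.rpow_mul hε.le, ← Real.rpow_add hε]
    congr 1
    push_cast
    ring
  rw [h3, ← mul_assoc]
  calc (C:ℝ) * ε ^ (3 * α - 1) * ε < 1/16 * ε := by gcongr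
    _ = ε / 16 := by ring

end Crest.Agent.OS109X
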