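import Mathlib
import Crest.Prelude.Def_MultiMarginal

/-!
Densities of pushforwards under smooth local diffeomorphisms.
-/

set_option autoImplicit false
set_option linter.unusedSectionVars false

open Filter Topology Set Metric MeasureTheory
open scoped ContDiff ENNReal

namespace Crest.Agent.OT175

section det

variable {E : Type*} [NormedAddCommGroup E] [NormedSpace ℝ E] [FiniteDimensional ℝ E]

lemma contDiff_det {n : WithTop ℕ∞} : ContDiff ℝ n (fun A : E →L[ℝ] E => A.det) := by
  classical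
  set b := Module.finBasis ℝ E with hb
  have h : (fun A : E →L[ℝ] E => A.det) =
      fun A : E →L[ℝ] E => (Matrix.of fun i j => b.repr (A (b j)) i).det := by
    funext A
    rw [ContinuousLinearMap.det, ← LinearMap.det_toMatrix b]
    congr 1
    ext i j
    simp [LinearMap.toMatrix_apply]
  rw [h]
  simp only [Matrix.det_apply]
  refine ContDiff.sum fun σ _ => ?_
  refine ContDiff.const_smul _ (contDiff_prod fun i _ => ?_)
  have : (fun A : E →L[ℝ] E => (Matrix.of fun i j => b.repr (A (b j)) i) (σ i) i) =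
      fun A : E →L[ℝ] E =>
        ((b.coord (σ i)).toContinuousLinearMap) (A (b i)) := by
    funext A
    simp
  rw [this]
  exact (ContinuousLinearMap.contDiff _).comp
    ((ContinuousLinearMap.apply ℝ E (b i)).contDiff)

end det

variable {E : Type*} [NormedAddCommGroup E] [InnerProductSpace ℝ E] [FiniteDimensional ℝ E]
  [MeasurableSpace E] [BorelSpace E]

/-- change of variables for a map with smooth inverse. -/
lemma map_withDensity (U V : Set E) (hU : IsOpen U) (hV : IsOpen V) (f g : E → E)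
    (hfU : ∀ y ∈ V, f y ∈ U) (hgf : ∀ y ∈ V, g (f y) = y)
    (hgV : ∀ a ∈ U, g a ∈ V) (hfg : ∀ a ∈ U, f (g a) = a)
    (hf : ∀ y ∈ V, DifferentiableAt ℝ f y) (hg : Measurable g)
    (χ : E → ℝ≥0∞) (hχU : ∀ x, x ∉ U → χ x = 0) :
    (volume.withDensity χ).map g =
      volume.withDensity (V.indicator fun y => ENNReal.ofReal |(fderiv ℝ f y).det| * χ (f y)) := by
  ext S hS
  rw [Measure.map_apply hg hS, withDensity_apply _ (hg hS), withDensity_apply _ hS]
  have hTm : MeasurableSet (V ∩ S) := hV.measurableSet.inter hS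
  have himg : f '' (V ∩ S) = U ∩ g ⁻¹' S := by
    ext a
    constructor
    · rintro ⟨y, ⟨hy1, hy2⟩, rfl⟩
      exact ⟨hfU y hy1, by simpa [hgf y hy1] using hy2⟩
    · rintro ⟨ha1, ha2⟩
      exact ⟨g a, ⟨hgV a ha1, ha2⟩, hfg a ha1⟩
  have hcv := lintegral_image_eq_lintegral_abs_det_fderiv_mul (volume : Measure E) hTm
    (f := f) (f' := fun y => fderiv ℝ f y)
    (fun x hx => ((hf x hx.1).hasFDerivAt).hasFDerivWithinAt)
    (fun x hx y hy hxy => by rw [← hgf x hx.1, ← hgf y hy.1, hxy]) χ
  rw [himg] at hcv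
  have h1 : ∫⁻ x in g ⁻¹' S, χ x = ∫⁻ x in U ∩ g ⁻¹' S, χ x := by
    rw [← lintegral_indicator (hg hS), ← lintegral_indicator (hU.measurableSet.inter (hg hS))]
    refine lintegral_congr fun x => ?_
    by_cases hx : x ∈ U
    · by_cases hx2 : x ∈ g ⁻¹' S
      · rw [indicator_of_mem hx2, indicator_of_mem (mem_inter hx hx2)]
      · rw [indicator_of_notMem hx2, indicator_of_notMem (fun h => hx2 (mem_of_mem_inter_right h))]
    · rw [indicator_of_notMem (s := U ∩ g ⁻¹' S) (fun h => hx (mem_of_mem_inter_left h))]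
      by_cases hx2 : x ∈ g ⁻¹' S
      · rw [indicator_of_mem hx2, hχU x hx]
      · rw [indicator_of_notMem hx2]
  rw [h1, hcv]
  rw [← lintegral_indicator hTm, ← lintegral_indicator hS]
  refine lintegral_congr fun x => ?_
  by_cases hx : x ∈ V
  · by_cases hx2 : x ∈ S
    · rw [indicator_of_mem (mem_inter hx hx2), indicator_of_mem hx2, indicator_of_mem hx]
    · rw [indicator_of_notMem (fun h => hx2 (mem_of_mem_inter_right h)), indicator_of_notMem hx2]
  · rw [indicator_of_notMem (fun h => hx (mem_of_mem_inter_left h))]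
    by_cases hx2 : x ∈ S
    · rw [indicator_of_mem hx2, indicator_of_notMem hx]
    · rw [indicator_of_notMem hx2]

/-- the smooth square root of the pushforward density -/
lemma exists_piece (U V : Set E) (hU : IsOpen U) (hV : IsOpen V) (f g : E → E)
    (hfU : ∀ y ∈ V, f y ∈ U) (hgf : ∀ y ∈ V, g (f y) = y)
    (hgV : ∀ a ∈ U, g a ∈ V) (hfg : ∀ a ∈ U, f (g a) = a)
    (hf : ∀ y ∈ V, ContDiffAt ℝ ω f y) (hgs : ∀ a ∈ U, ContDiffAt ℝ ω g a) (hg : Measurable g)
    (χ : E → ℝ) (hχ : ContDiff ℝ ∞ χ) (hχ0 : ∀ x, 0 ≤ χ x) (K : Set E) (hK : IsCompact K)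
    (hKU : K ⊆ U) (hχK : ∀ x, x ∉ K → χ x = 0) :
    ∃ σ : E → ℝ, ContDiff ℝ ∞ σ ∧ HasCompactSupport σ ∧ (∀ y, 0 ≤ σ y) ∧
      (∀ y, y ∉ V → σ y = 0) ∧
      (volume.withDensity fun x => ENNReal.ofReal (χ x ^ 2)).map g =
        volume.withDensity fun y => ENNReal.ofReal (σ y ^ 2) := by
  classical
  set D : E → ℝ := fun y => (fderiv ℝ f y).det with hD
  -- the determinant does not vanish on V
  have hdet : ∀ y ∈ V, D y ≠ 0 := by
    intro y hy h0
    have hfd : HasFDerivAt f (fderiv ℝ f y) y := ((hf y hy).differentiableAt (by simp)).hasFDerivAt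
    have hgd : HasFDerivAt g (fderiv ℝ g (f y)) (f y) :=
      ((hgs (f y) (hfU y hy)).differentiableAt (by simp)).hasFDerivAt
    have hcomp := hgd.comp y hfd
    have hid : HasFDerivAt (g ∘ f) (ContinuousLinearMap.id ℝ E) y := by
      refine (hasFDerivAt_id y).congr_of_eventuallyEq ?_
      filter_upwards [hV.mem_nhds hy] with z hz
      exact hgf z hz
    have heq := hcomp.unique hid
    have h2 := congrArg ContinuousLinearMap.det heq
    have h3 : ((fderiv ℝ g (f y)).comp (fderiv ℝ f y)).det =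
        (fderiv ℝ g (f y)).det * (fderiv ℝ f y).det := by
      simp only [ContinuousLinearMap.det, ContinuousLinearMap.toLinearMap_comp, LinearMap.det_comp]
    rw [h3] at h2
    have h4 : (fderiv ℝ f y).det = 0 := h0
    rw [h4, mul_zero] at h2
    simp [ContinuousLinearMap.det] at h2
  set τ : E → ℝ := fun y => χ (f y) * ((D y) ^ 2) ^ (1 / 4 : ℝ) with hτ
  have hτs : ∀ y ∈ V, ContDiffAt ℝ ∞ τ y := by
    intro y hy
    have hf' : ContDiffAt ℝ ∞ f y := (hf y hy).of_le le_top
    have h1 : ContDiffAt ℝ ∞ (fun y => χ (f y)) y :=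
      ContDiffAt.comp y (g := χ) (hχ.contDiffAt) hf'
    have h2 : ContDiffAt ℝ ∞ (fderiv ℝ f) y :=
      (hf y hy).fderiv_right (m := ∞) le_top
    have h3 : ContDiffAt ℝ ∞ D y :=
      ContDiffAt.comp y (g := fun A : E →L[ℝ] E => A.det) contDiff_det.contDiffAt h2
    refine h1.mul ?_
    exact (h3.pow 2).rpow_const_of_ne (pow_ne_zero 2 (hdet y hy))
  have hKc : IsCompact (g '' K) := by
    apply hK.image_of_continuousOn
    intro a ha
    exact ((hgs a (hKU ha)).continuousAt).continuousWithinAt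
  have hKV : g '' K ⊆ V := by
    rintro _ ⟨a, ha, rfl⟩
    exact hgV a (hKU ha)
  set σ : E → ℝ := V.indicator τ with hσ
  have hσK : ∀ y, y ∉ g '' K → σ y = 0 := by
    intro y hy
    by_cases hyV : y ∈ V
    · rw [hσ, indicator_of_mem hyV]
      have : f y ∉ K := fun h => hy ⟨f y, h, hgf y hyV⟩
      simp [hτ, hχK _ this]
    · rw [hσ, indicator_of_notMem hyV]
  refine ⟨σ, ?_, ?_, ?_, ?_, ?_⟩
  · rw [contDiff_iff_contDiffAt]
    intro y
    by_cases hyV : y ∈ V
    · refine (hτs y hyV).congr_of_eventuallyEq ?_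
      filter_upwards [hV.mem_nhds hyV] with z hz
      rw [hσ, indicator_of_mem hz]
    · have hyK : y ∈ (g '' K)ᶜ := fun h => hyV (hKV h)
      refine contDiffAt_const (c := (0 : ℝ)) |>.congr_of_eventuallyEq ?_
      filter_upwards [hKc.isClosed.isOpen_compl.mem_nhds hyK] with z hz
      exact hσK z hz
  · exact HasCompactSupport.intro hKc hσK
  · intro y
    by_cases hyV : y ∈ V
    · rw [hσ, indicator_of_mem hyV]
      exact mul_nonneg (hχ0 _) (by positivity)
    · rw [hσ, indicator_of_notMem hyV]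
  · intro y hy
    rw [hσ, indicator_of_notMem hy]
  · rw [map_withDensity U V hU hV f g hfU hgf hgV hfg
      (fun y hy => (hf y hy).differentiableAt (by simp)) hg
      (fun x => ENNReal.ofReal (χ x ^ 2)) ?_]
    · congr 1
      funext y
      by_cases hyV : y ∈ V
      · rw [indicator_of_mem hyV, hσ, indicator_of_mem hyV]
        rw [← ENNReal.ofReal_mul (abs_nonneg _)]
        congr 1
        have h5 : (((D y) ^ 2) ^ (1 / 4 : ℝ)) ^ 2 = |D y| := by
          rw [← Real.rpow_natCast, ← Real.rpow_mul (by positivity)]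
          norm_num
          rw [← Real.sqrt_eq_rpow, Real.sqrt_sq_eq_abs]
        show |D y| * χ (f y) ^ 2 = (χ (f y) * ((D y) ^ 2) ^ (1 / 4 : ℝ)) ^ 2
        rw [mul_pow, h5]; ring
      · rw [indicator_of_notMem hyV, hσ, indicator_of_notMem hyV]; simp
    · intro x hx
      rw [hχK x (fun h => hx (hKU h))]; simp

end Crest.Agent.OT175
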