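import Crest.Agent.OTGeo3
import Crest.Agent.OTDensity

set_option autoImplicit false
set_option linter.unusedSectionVars false

open Filter Topology Set Metric MeasureTheory
open scoped ContDiff ENNReal
open Crest.AnalysisR.OT

namespace Crest.Agent.OT175

variable {E : Type*} [NormedAddCommGroup E] [InnerProductSpace ℝ E] [FiniteDimensional ℝ E]
  [MeasurableSpace E] [BorelSpace E] {s : ℝ}

lemma map_G (G : E ≃ₗᵢ[ℝ] E) (GG : ∀ x, G (G x) = x) (h : E → ℝ≥0∞) :
    ((volume : Measure E).withDensity h).map G = volume.withDensity (fun y => h (G y)) := by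
  have hmp : MeasurePreserving (G : E → E) volume volume := G.measurePreserving
  ext S hS
  rw [Measure.map_apply hmp.measurable hS, withDensity_apply _ (hmp.measurable hS),
    withDensity_apply _ hS]
  have hemb : MeasurableEmbedding (G : E → E) := G.toHomeomorph.measurableEmbedding
  have := hmp.setLIntegral_comp_preimage_emb hemb (fun y => h (G y)) S
  rw [← this]
  refine lintegral_congr fun x => ?_
  rw [GG]

/-- the radial bump -/
noncomputable def bump (r : ℝ) (x : E) : ℝ := Real.smoothTransition (2 - ‖x‖ ^ 2 / (r / 2) ^ 2)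

lemma bump_smooth (r : ℝ) : ContDiff ℝ ∞ (bump r : E → ℝ) := by
  unfold bump
  exact Real.smoothTransition.contDiff.comp
    (contDiff_const.sub ((contDiff_norm_sq ℝ).div_const _))

lemma bump_nn (r : ℝ) (x : E) : 0 ≤ bump r x := Real.smoothTransition.nonneg _

lemma bump_zero {r : ℝ} (hr : 0 < r) {x : E} (hx : x ∉ closedBall (0 : E) (3 * r / 4)) :
    bump r x = 0 := by
  unfold bump
  apply Real.smoothTransition.zero_of_nonpos
  have h1 : 3 * r / 4 < ‖x‖ := by simpa using hx
  have h2 : (3 * r / 4) ^ 2 ≤ ‖x‖ ^ 2 := by gcongr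
  have h3 : 2 ≤ ‖x‖ ^ 2 / (r / 2) ^ 2 := by
    rw [le_div_iff₀ (by positivity)]
    nlinarith
  linarith

lemma bump_one {r : ℝ} (hr : 0 < r) {x : E} (hx : x ∈ closedBall (0 : E) (r / 2)) :
    bump r x = 1 := by
  unfold bump
  apply Real.smoothTransition.one_of_one_le
  have h1 : ‖x‖ ≤ r / 2 := by simpa using hx
  have h2 : ‖x‖ ^ 2 ≤ (r / 2) ^ 2 := by gcongr
  have h3 : ‖x‖ ^ 2 / (r / 2) ^ 2 ≤ 1 := by
    rw [div_le_one (by positivity)]
    exact h2
  linarith

lemma bump_G (r : ℝ) (G : E ≃ₗᵢ[ℝ] E) (x : E) : bump r (G x) = bump r x := by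
  unfold bump; rw [LinearIsometryEquiv.norm_map]

lemma bump_cpt {r : ℝ} (hr : 0 < r) : HasCompactSupport (bump r : E → ℝ) :=
  HasCompactSupport.intro (isCompact_closedBall (0 : E) (3 * r / 4)) (fun _ hx => bump_zero hr hx)

lemma bump_int_pos [Nontrivial E] {r : ℝ} (hr : 0 < r) : 0 < ∫ x : E, bump r x ^ 2 := by
  have hc : Continuous (fun x : E => bump r x ^ 2) := ((bump_smooth (E := E) r).continuous).pow 2
  have hcs : HasCompactSupport (fun x : E => bump r x ^ 2) := by
    refine HasCompactSupport.intro (isCompact_closedBall (0 : E) (3 * r / 4)) (fun x hx => ?_)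
    rw [bump_zero hr hx]; norm_num
  apply Continuous.integral_pos_of_hasCompactSupport_nonneg_nonzero hc hcs
  · intro x; positivity
  · show bump r (0 : E) ^ 2 ≠ 0
    rw [bump_one hr (by simp; positivity)]; norm_num

namespace Geo

theorem assemble [Nontrivial E] (g : Geo E s) :
    ∃ ρ : E → ℝ, (∀ x, 0 ≤ ρ x) ∧ ContDiff ℝ ∞ ρ ∧ HasCompactSupport ρ ∧
      ContDiff ℝ ∞ (fun x => Real.sqrt (ρ x)) ∧ ∫ x, ρ x = 1 ∧
      ∃ D : CoreData E s, measOfDensity ρ = D.μ := by
  classical
  set r := g.L.ρ with hr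
  have hr0 : 0 < r := g.L.ρ_pos
  set I := ∫ x : E, bump r x ^ 2 with hI
  have hIpos : 0 < I := bump_int_pos hr0
  set k : ℝ := (Real.sqrt (6 * I))⁻¹ with hk
  have hkpos : 0 < k := by positivity
  have hk2 : 6 * (k ^ 2 * I) = 1 := by
    rw [hk, inv_pow, Real.sq_sqrt (by positivity)]
    field_simp
  set χ : E → ℝ := fun x => k * bump r x with hχ
  have hχs : ContDiff ℝ ∞ χ := contDiff_const.mul (bump_smooth r)
  have hχ0 : ∀ x, 0 ≤ χ x := fun x => mul_nonneg hkpos.le (bump_nn r x)
  have hχz : ∀ x, x ∉ closedBall (0 : E) (3 * r / 4) → χ x = 0 := by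
    intro x hx; simp only [hχ]; rw [bump_zero hr0 hx, mul_zero]
  have hKU : closedBall (0 : E) (3 * r / 4) ⊆ ball (0 : E) g.L.ρ :=
    closedBall_subset_ball (by rw [← hr]; linarith)
  have hχU : ∀ x, x ∉ ball (0 : E) g.L.ρ → χ x = 0 := fun x hx => hχz x (fun h => hx (hKU h))
  have hχG : ∀ x, χ (g.G x) = χ x := by intro x; simp only [hχ, bump_G]
  have hχc : HasCompactSupport χ := HasCompactSupport.intro (isCompact_closedBall _ _) hχz
  -- pieces
  obtain ⟨sB, sBs, sBc, sB0, sBV, sBm⟩ := exists_piece (ball (0 : E) g.L.ρ) g.L.VB isOpen_ball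
    g.L.openB g.L.lB g.β' g.L.lB_mem
    (fun y hy => by rw [g.β'_eq (g.L.lB_mem y hy)]; exact g.L.β_lB y hy)
    (fun a ha => by rw [g.β'_eq ha]; exact g.L.β_mem a ha)
    (fun a ha => by rw [g.β'_eq ha]; exact g.L.lB_β a ha)
    g.L.lB_smooth
    (fun a ha => (g.L.β_smooth a ha).congr_of_eventuallyEq (by
      filter_upwards [isOpen_ball.mem_nhds ha] with x hx using g.β'_eq hx))
    g.meas_β' χ hχs hχ0 _ (isCompact_closedBall (0 : E) (3 * r / 4)) hKU hχz
  obtain ⟨sC, sCs, sCc, sC0, sCV, sCm⟩ := exists_piece (ball (0 : E) g.L.ρ) g.L.VC isOpen_ball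
    g.L.openC g.L.lC g.γ' g.L.lC_mem
    (fun y hy => by rw [g.γ'_eq (g.L.lC_mem y hy)]; exact g.L.γ_lC y hy)
    (fun a ha => by rw [g.γ'_eq ha]; exact g.L.γ_mem a ha)
    (fun a ha => by rw [g.γ'_eq ha]; exact g.L.lC_γ a ha)
    g.L.lC_smooth
    (fun a ha => (g.L.γ_smooth a ha).congr_of_eventuallyEq (by
      filter_upwards [isOpen_ball.mem_nhds ha] with x hx using g.γ'_eq hx))
    g.meas_γ' χ hχs hχ0 _ (isCompact_closedBall (0 : E) (3 * r / 4)) hKU hχz
  -- the measure ν
  set ν : Measure E := volume.withDensity fun x => ENNReal.ofReal (χ x ^ 2) with hν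
  have hint : Integrable (fun x : E => χ x ^ 2) := by
    apply Continuous.integrable_of_hasCompactSupport (hχs.continuous.pow 2)
    refine HasCompactSupport.intro (isCompact_closedBall (0 : E) (3 * r / 4)) (fun x hx => ?_)
    rw [Pi.pow_apply, hχz x hx]; norm_num
  have hIχ : ∫ x : E, χ x ^ 2 = k ^ 2 * I := by
    rw [hI, ← integral_const_mul]
    congr 1
    funext x
    simp only [hχ]
    ring
  have hνuniv : ν univ = ENNReal.ofReal (k ^ 2 * I) := by
    rw [hν, withDensity_apply _ MeasurableSet.univ, Measure.restrict_univ, ← hIχ,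
      ofReal_integral_eq_lintegral_ofReal hint (Eventually.of_forall fun x => by positivity)]
  have hfin : IsFiniteMeasure ν := ⟨by rw [hνuniv]; exact ENNReal.ofReal_lt_top⟩
  have hno : ∀ x, ν {x} = 0 := by
    intro x
    exact (withDensity_absolutelyContinuous (volume : Measure E) _) (measure_singleton x)
  have hne : ν ≠ 0 := by
    intro h
    have h2 : ν univ = 0 := by rw [h]; simp
    rw [hνuniv, ENNReal.ofReal_eq_zero] at h2
    have : 0 < k ^ 2 * I := by positivity
    linarith
  have hA : ν (ball (0 : E) g.L.ρ)ᶜ = 0 := by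
    rw [hν, withDensity_apply _ isOpen_ball.measurableSet.compl,
      ← lintegral_indicator isOpen_ball.measurableSet.compl]
    rw [lintegral_eq_zero_iff' ]
    · refine Eventually.of_forall fun x => ?_
      by_cases hx : x ∈ (ball (0 : E) g.L.ρ)ᶜ
      · simp only [indicator_of_mem hx, hχU x hx]; simp
      · simp only [indicator_of_notMem hx]; rfl
    · exact ((hχs.continuous.pow 2).measurable.ennreal_ofReal.indicator
        isOpen_ball.measurableSet.compl).aemeasurable
  -- maps
  have hνG : ν.map g.G = ν := by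
    rw [hν, map_G g.G g.GG]
    simp only [hχG]
  have hm1 : ν.map (fun a => g.G (g.β' (g.G a))) =
      volume.withDensity fun y => ENNReal.ofReal (sB (g.G y) ^ 2) := by
    have h1 : ν.map (fun a => g.G (g.β' (g.G a))) = ((ν.map g.G).map g.β').map g.G := by
      rw [Measure.map_map g.meas_β' g.meas_G, Measure.map_map g.meas_G (g.meas_β'.comp g.meas_G)]
      rfl
    rw [h1, hνG, hν, sBm, map_G g.G g.GG]
  have hm2 : ν.map (fun a => g.G (g.γ' (g.G a))) =
      volume.withDensity fun y => ENNReal.ofReal (sC (g.G y) ^ 2) := by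
    have h1 : ν.map (fun a => g.G (g.γ' (g.G a))) = ((ν.map g.G).map g.γ').map g.G := by
      rw [Measure.map_map g.meas_γ' g.meas_G, Measure.map_map g.meas_G (g.meas_γ'.comp g.meas_G)]
      rfl
    rw [h1, hνG, hν, sCm, map_G g.G g.GG]
  -- pieces vanish off clusters
  have v0 : ∀ x, x ∉ g.Cl 0 → χ x = 0 := hχU
  have v1 : ∀ x, x ∉ g.Cl 1 → sB x = 0 := sBV
  have v2 : ∀ x, x ∉ g.Cl 2 → sC x = 0 := sCV
  have v3 : ∀ x, x ∉ g.Cl 3 → sB (g.G x) = 0 := fun x hx => sBV _ hx
  have v4 : ∀ x, x ∉ g.Cl 4 → sC (g.G x) = 0 := fun x hx => sCV _ hx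
  set σ : E → ℝ := fun x => Real.sqrt 2 * χ x + sB x + sC x + sB (g.G x) + sC (g.G x) with hσ
  have hσ0 : ∀ x, 0 ≤ σ x := by
    intro x
    have := hχ0 x
    have := sB0 x
    have := sC0 x
    have := sB0 (g.G x)
    have := sC0 (g.G x)
    simp only [hσ]
    positivity
  have hsq : ∀ x, σ x ^ 2 = χ x ^ 2 + χ x ^ 2 + sB x ^ 2 + sC x ^ 2 + sB (g.G x) ^ 2
      + sC (g.G x) ^ 2 := by
    intro x
    simp only [hσ]
    have h2 : Real.sqrt 2 ^ 2 = 2 := Real.sq_sqrt (by norm_num)
    have hd : ∀ i j : Fin 5, i ≠ j → x ∈ g.Cl i → x ∉ g.Cl j := fun i j hij h => g.disj hij h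
    by_cases h0 : x ∈ g.Cl 0
    · rw [v1 x (hd 0 1 (by decide) h0), v2 x (hd 0 2 (by decide) h0),
        v3 x (hd 0 3 (by decide) h0), v4 x (hd 0 4 (by decide) h0)]
      have : (Real.sqrt 2 * χ x + 0 + 0 + 0 + 0) ^ 2 = Real.sqrt 2 ^ 2 * χ x ^ 2 := by ring
      rw [this, h2]; ring
    rw [v0 x h0]
    by_cases h1 : x ∈ g.Cl 1
    · rw [v2 x (hd 1 2 (by decide) h1),
        v3 x (hd 1 3 (by decide) h1), v4 x (hd 1 4 (by decide) h1)]
      ring
    rw [v1 x h1]
    by_cases h2 : x ∈ g.Cl 2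
    · rw [v3 x (hd 2 3 (by decide) h2), v4 x (hd 2 4 (by decide) h2)]
      ring
    rw [v2 x h2]
    by_cases h3 : x ∈ g.Cl 3
    · rw [v4 x (hd 3 4 (by decide) h3)]
      ring
    rw [v3 x h3]
    ring
  have hGs : ContDiff ℝ ∞ (g.G : E → E) := g.G.contDiff
  have hσs : ContDiff ℝ ∞ σ :=
    ((((contDiff_const.mul hχs).add sBs).add sCs).add (sBs.comp hGs)).add (sCs.comp hGs)
  have hBGc : HasCompactSupport (fun x => sB (g.G x)) := sBc.comp_homeomorph g.G.toHomeomorph
  have hCGc : HasCompactSupport (fun x => sC (g.G x)) := sCc.comp_homeomorph g.G.toHomeomorph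
  have hσc : HasCompactSupport σ := by
    have h1 : HasCompactSupport (fun x => Real.sqrt 2 * χ x) := hχc.mul_left
    exact (((h1.add sBc).add sCc).add hBGc).add hCGc
  set D := g.core ν hfin hno hne hA with hD
  have hμ : measOfDensity (fun x => σ x ^ 2) = D.μ := by
    have hμ' : D.μ = ν + ν + ν.map g.β' + ν.map g.γ' + ν.map (fun a => g.G (g.β' (g.G a)))
      + ν.map (fun a => g.G (g.γ' (g.G a))) := rfl
    rw [hμ', hm1, hm2, sBm, sCm, hν]
    unfold measOfDensity
    have m0 : Measurable (fun x => ENNReal.ofReal (χ x ^ 2)) :=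
      (hχs.continuous.pow 2).measurable.ennreal_ofReal
    have m1 : Measurable (fun x => ENNReal.ofReal (sB x ^ 2)) :=
      (sBs.continuous.pow 2).measurable.ennreal_ofReal
    have m2 : Measurable (fun x => ENNReal.ofReal (sC x ^ 2)) :=
      (sCs.continuous.pow 2).measurable.ennreal_ofReal
    have m3 : Measurable (fun x => ENNReal.ofReal (sB (g.G x) ^ 2)) := m1.comp g.meas_G
    rw [← withDensity_add_left m0, ← withDensity_add_left (m0.add m0),
      ← withDensity_add_left ((m0.add m0).add m1), ← withDensity_add_left (((m0.add m0).add m1).add m2),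
      ← withDensity_add_left ((((m0.add m0).add m1).add m2).add m3)]
    congr 1
    funext x
    simp only [Pi.add_apply]
    rw [hsq x, ENNReal.ofReal_add (by positivity) (by positivity),
      ENNReal.ofReal_add (by positivity) (by positivity),
      ENNReal.ofReal_add (by positivity) (by positivity),
      ENNReal.ofReal_add (by positivity) (by positivity),
      ENNReal.ofReal_add (by positivity) (by positivity)]
  refine ⟨fun x => σ x ^ 2, fun x => by positivity, hσs.pow 2, ?_, ?_, ?_, D, hμ⟩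
  · have : (fun x => σ x ^ 2) = fun x => σ x * σ x := by funext x; ring
    rw [this]
    exact hσc.mul_left
  · have : (fun x => Real.sqrt (σ x ^ 2)) = σ := by
      funext x; exact Real.sqrt_sq (hσ0 x)
    rw [this]; exact hσs
  · have hc : Continuous (fun x => σ x ^ 2) := hσs.continuous.pow 2
    have hnn : 0 ≤ᵐ[(volume : Measure E)] fun x => σ x ^ 2 :=
      Eventually.of_forall fun x => by positivity
    show ∫ x, σ x ^ 2 = 1
    rw [integral_eq_lintegral_of_nonneg_ae hnn hc.aestronglyMeasurable]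
    have h1 : ∫⁻ x, ENNReal.ofReal (σ x ^ 2) = D.μ univ := by
      rw [← hμ]
      unfold measOfDensity
      rw [withDensity_apply _ MeasurableSet.univ, Measure.restrict_univ]
    rw [h1]
    have hmapu : ∀ f : E → E, Measurable f → (ν.map f) univ = ν univ := by
      intro f hf; rw [Measure.map_apply hf MeasurableSet.univ, preimage_univ]
    have hμ' : D.μ = ν + ν + ν.map g.β' + ν.map g.γ' + ν.map (fun a => g.G (g.β' (g.G a)))
      + ν.map (fun a => g.G (g.γ' (g.G a))) := rfl
    rw [hμ']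
    simp only [Measure.coe_add, Pi.add_apply]
    rw [hmapu _ g.meas_β', hmapu _ g.meas_γ',
      hmapu (fun a => g.G (g.β' (g.G a))) (g.meas_G.comp (g.meas_β'.comp g.meas_G)),
      hmapu (fun a => g.G (g.γ' (g.G a))) (g.meas_G.comp (g.meas_γ'.comp g.meas_G)), hνuniv]
    have hp : 0 ≤ k ^ 2 * I := by positivity
    rw [← ENNReal.ofReal_add hp hp, ← ENNReal.ofReal_add (by positivity) hp,
      ← ENNReal.ofReal_add (by positivity) hp, ← ENNReal.ofReal_add (by positivity) hp,
      ← ENNReal.ofReal_add (by positivity) hp, ENNReal.toReal_ofReal (by positivity)]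
    linarith

end Geo

end Crest.Agent.OT175
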