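import Mathlib
import Crest.Prelude.Def_MultiMarginal

/-!
Abstract input for the measure-theoretic core of S0175.
-/

set_option autoImplicit false

open MeasureTheory
open scoped ENNReal
open Crest.AnalysisR.OT

namespace Crest.Agent.OT175

/-- the sign attached to a cluster type: `0 ↦ 0`, `1,2 ↦ 1`, `3,4 ↦ -1`. -/
def sg (i : Fin 5) : ℝ := ![0, 1, 1, -1, -1] i

/-- abstract data for the core argument -/
structure CoreData (E : Type*) [NormedAddCommGroup E] [MeasurableSpace E] (s : ℝ) where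
  ν : Measure E
  fin : IsFiniteMeasure ν
  noat : ∀ x, ν {x} = 0
  ne : ν ≠ 0
  A : Set E
  S : Set E
  mA : MeasurableSet A
  mS : MeasurableSet S
  ν_compl : ν Aᶜ = 0
  b1 : E → E
  c1 : E → E
  b2 : E → E
  c2 : E → E
  lab : E → E
  typ : E → Fin 5
  u : E → ℝ≥0∞
  mb1 : Measurable b1
  mc1 : Measurable c1
  mb2 : Measurable b2
  mc2 : Measurable c2
  mlab : Measurable lab
  mtyp : Measurable typ
  mu : Measurable u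
  A_sub : A ⊆ S
  b1_S : ∀ a ∈ A, b1 a ∈ S
  c1_S : ∀ a ∈ A, c1 a ∈ S
  b2_S : ∀ a ∈ A, b2 a ∈ S
  c2_S : ∀ a ∈ A, c2 a ∈ S
  lab_a : ∀ a ∈ A, lab a = a
  lab_b1 : ∀ a ∈ A, lab (b1 a) = a
  lab_c1 : ∀ a ∈ A, lab (c1 a) = a
  lab_b2 : ∀ a ∈ A, lab (b2 a) = a
  lab_c2 : ∀ a ∈ A, lab (c2 a) = a
  typ_a : ∀ a ∈ A, typ a = 0
  typ_b1 : ∀ a ∈ A, typ (b1 a) = 1
  typ_c1 : ∀ a ∈ A, typ (c1 a) = 2
  typ_b2 : ∀ a ∈ A, typ (b2 a) = 3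
  typ_c2 : ∀ a ∈ A, typ (c2 a) = 4
  u_bdd : ∃ K : ℝ≥0∞, K < ⊤ ∧ ∀ x ∈ S, u x ≤ K
  le : ∀ x ∈ S, ∀ y ∈ S, ∀ z ∈ S, u x + u y + u z ≤ tripleCost s (x, y, z)
  eq_imp : ∀ x ∈ S, ∀ y ∈ S, ∀ z ∈ S, tripleCost s (x, y, z) = u x + u y + u z →
    lab x = lab y ∧ lab x = lab z ∧
      (sg (typ x) + sg (typ y) + sg (typ z) = 2 ∨ sg (typ x) + sg (typ y) + sg (typ z) = -2)
  eq1 : ∀ a ∈ A, tripleCost s (a, b1 a, c1 a) = u a + u (b1 a) + u (c1 a)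
  eq2 : ∀ a ∈ A, tripleCost s (a, b2 a, c2 a) = u a + u (b2 a) + u (c2 a)
  cont : ∀ ε : ℝ≥0∞, 0 < ε → ∃ δ : ℝ, 0 < δ ∧ ∀ a ∈ A, ∀ a' ∈ A, dist a a' < δ →
    tripleCost s (a', b1 a, c1 a) ≤ tripleCost s (a, b1 a, c1 a) + ε ∧
    tripleCost s (a', b2 a, c2 a) ≤ tripleCost s (a, b2 a, c2 a) + ε

/-- the marginal -/
noncomputable def CoreData.μ {E : Type*} [NormedAddCommGroup E] [MeasurableSpace E] {s : ℝ}
    (D : CoreData E s) : Measure E :=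
  D.ν + D.ν + D.ν.map D.b1 + D.ν.map D.c1 + D.ν.map D.b2 + D.ν.map D.c2

end Crest.Agent.OT175
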