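import Mathlib
import Crest.Prelude.Def_MultiMarginal
import Crest.Agent.OTCoreDef
import Crest.Agent.S0175Split

/-!
Measure-theoretic core for S0175.
-/

set_option autoImplicit false

open MeasureTheory Set
open scoped ENNReal
open Crest.AnalysisR.OT

namespace Crest.Agent.OT175

section basics

variable {E : Type*} [NormedAddCommGroup E]

theorem pairCost_comm (s : ℝ) (x y : E) : pairCost s x y = pairCost s y x := by
  unfold pairCost
  rw [norm_sub_rev]

theorem tripleCost_rot (s : ℝ) (x y z : E) : tripleCost s (y, z, x) = tripleCost s (x, y, z) := by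
  simp only [tripleCost]
  rw [pairCost_comm s y x, pairCost_comm s z x]
  ring

theorem tripleCost_rot' (s : ℝ) (x y z : E) : tripleCost s (z, x, y) = tripleCost s (x, y, z) := by
  rw [← tripleCost_rot s z x y]

variable [MeasurableSpace E] [BorelSpace E] [SecondCountableTopology E]

theorem measurable_tripleCost (s : ℝ) : Measurable (tripleCost (E := E) s) := by
  unfold tripleCost pairCost
  fun_prop

end basics

variable {E : Type*} [NormedAddCommGroup E] [MeasurableSpace E] [BorelSpace E]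
  [SecondCountableTopology E] {s : ℝ} (D : CoreData E s)

namespace CoreData

omit [BorelSpace E] [SecondCountableTopology E] in
theorem lint_mu (f : E → ℝ≥0∞) (hf : Measurable f) :
    ∫⁻ x, f x ∂D.μ = ∫⁻ a, f a ∂D.ν + ∫⁻ a, f a ∂D.ν + ∫⁻ a, f (D.b1 a) ∂D.ν
      + ∫⁻ a, f (D.c1 a) ∂D.ν + ∫⁻ a, f (D.b2 a) ∂D.ν + ∫⁻ a, f (D.c2 a) ∂D.ν := by
  unfold CoreData.μ
  rw [lintegral_add_measure, lintegral_add_measure, lintegral_add_measure, lintegral_add_measure,
    lintegral_add_measure, lintegral_map hf D.mb1, lintegral_map hf D.mc1, lintegral_map hf D.mb2,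
    lintegral_map hf D.mc2]

omit [BorelSpace E] [SecondCountableTopology E] in
theorem ae_A : ∀ᵐ a ∂D.ν, a ∈ D.A := by
  rw [ae_iff]
  exact D.ν_compl

omit [BorelSpace E] [SecondCountableTopology E] in
theorem ae_mu_iff {p : E → Prop} (hp : MeasurableSet {x | p x}) :
    (∀ᵐ x ∂D.μ, p x) ↔ ((∀ᵐ a ∂D.ν, p a) ∧ (∀ᵐ a ∂D.ν, p (D.b1 a)) ∧ (∀ᵐ a ∂D.ν, p (D.c1 a)) ∧
      (∀ᵐ a ∂D.ν, p (D.b2 a)) ∧ (∀ᵐ a ∂D.ν, p (D.c2 a))) := by
  unfold CoreData.μ
  rw [ae_add_measure_iff, ae_add_measure_iff, ae_add_measure_iff, ae_add_measure_iff,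
    ae_add_measure_iff, ae_map_iff D.mb1.aemeasurable hp, ae_map_iff D.mc1.aemeasurable hp,
    ae_map_iff D.mb2.aemeasurable hp, ae_map_iff D.mc2.aemeasurable hp]
  tauto

omit [BorelSpace E] [SecondCountableTopology E] in
theorem ae_S : ∀ᵐ x ∂D.μ, x ∈ D.S := by
  rw [D.ae_mu_iff (p := fun x => x ∈ D.S) D.mS]
  refine ⟨?_, ?_, ?_, ?_, ?_⟩
  · filter_upwards [D.ae_A] with a ha using D.A_sub ha
  · filter_upwards [D.ae_A] with a ha using D.b1_S a ha
  · filter_upwards [D.ae_A] with a ha using D.c1_S a ha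
  · filter_upwards [D.ae_A] with a ha using D.b2_S a ha
  · filter_upwards [D.ae_A] with a ha using D.c2_S a ha

omit [NormedAddCommGroup E] [BorelSpace E] [SecondCountableTopology E] in
theorem mp1 : Measurable (fun p : E × E × E => p.1) := measurable_fst

omit [NormedAddCommGroup E] [BorelSpace E] [SecondCountableTopology E] in
theorem mp2 : Measurable (fun p : E × E × E => p.2.1) := measurable_fst.comp measurable_snd

omit [NormedAddCommGroup E] [BorelSpace E] [SecondCountableTopology E] in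
theorem mp3 : Measurable (fun p : E × E × E => p.2.2) := measurable_snd.comp measurable_snd

/-- the optimal plan -/
noncomputable def pi0 : Measure (E × E × E) :=
  (D.ν.map (fun a => (a, D.b1 a, D.c1 a)) + D.ν.map (fun a => (D.b1 a, D.c1 a, a))
    + D.ν.map (fun a => (D.c1 a, a, D.b1 a))) +
  (D.ν.map (fun a => (a, D.b2 a, D.c2 a)) + D.ν.map (fun a => (D.b2 a, D.c2 a, a))
    + D.ν.map (fun a => (D.c2 a, a, D.b2 a)))

omit [BorelSpace E] [SecondCountableTopology E] in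
theorem lint_pi0 (f : E × E × E → ℝ≥0∞) (hf : Measurable f) :
    ∫⁻ p, f p ∂D.pi0 = (∫⁻ a, f (a, D.b1 a, D.c1 a) ∂D.ν + ∫⁻ a, f (D.b1 a, D.c1 a, a) ∂D.ν
      + ∫⁻ a, f (D.c1 a, a, D.b1 a) ∂D.ν) + (∫⁻ a, f (a, D.b2 a, D.c2 a) ∂D.ν
      + ∫⁻ a, f (D.b2 a, D.c2 a, a) ∂D.ν + ∫⁻ a, f (D.c2 a, a, D.b2 a) ∂D.ν) := by
  have h1 := D.mb1
  have h2 := D.mc1
  have h3 := D.mb2
  have h4 := D.mc2
  unfold pi0
  rw [lintegral_add_measure, lintegral_add_measure, lintegral_add_measure, lintegral_add_measure,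
    lintegral_add_measure, lintegral_map hf (by fun_prop), lintegral_map hf (by fun_prop),
    lintegral_map hf (by fun_prop), lintegral_map hf (by fun_prop), lintegral_map hf (by fun_prop),
    lintegral_map hf (by fun_prop)]

omit [NormedAddCommGroup E] [BorelSpace E] [SecondCountableTopology E] in
theorem ext_of_lint {m m' : Measure E}
    (h : ∀ f : E → ℝ≥0∞, Measurable f → ∫⁻ x, f x ∂m = ∫⁻ x, f x ∂m') : m = m' := by
  ext t ht
  have := h (t.indicator 1) (measurable_one.indicator ht)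
  rwa [lintegral_indicator_one ht, lintegral_indicator_one ht] at this

omit [BorelSpace E] [SecondCountableTopology E] in
theorem coupling_pi0 : IsCoupling₃ D.μ D.pi0 := by
  have h1 := D.mb1
  have h2 := D.mc1
  have h3 := D.mb2
  have h4 := D.mc2
  refine ⟨?_, ?_, ?_⟩
  · refine ext_of_lint fun f hf => ?_
    rw [lintegral_map hf mp1, D.lint_pi0 (fun p => f p.1) (hf.comp mp1), D.lint_mu f hf]
    ring
  · refine ext_of_lint fun f hf => ?_
    rw [lintegral_map hf mp2, D.lint_pi0 (fun p => f p.2.1) (hf.comp mp2), D.lint_mu f hf]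
    ring
  · refine ext_of_lint fun f hf => ?_
    rw [lintegral_map hf mp3, D.lint_pi0 (fun p => f p.2.2) (hf.comp mp3), D.lint_mu f hf]
    ring

/-- the value along the two graphs -/
noncomputable def val : ℝ≥0∞ :=
  ∫⁻ a, tripleCost s (a, D.b1 a, D.c1 a) ∂D.ν + ∫⁻ a, tripleCost s (a, D.b2 a, D.c2 a) ∂D.ν

theorem cost_pi0 : ∫⁻ p, tripleCost s p ∂D.pi0 = 3 * D.val := by
  rw [D.lint_pi0 _ (measurable_tripleCost s)]
  simp only [tripleCost_rot]
  unfold val
  ring

omit [BorelSpace E] [SecondCountableTopology E] in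
theorem val_eq : D.val = ∫⁻ x, D.u x ∂D.μ := by
  have h0 := D.mu
  have h1 := D.mb1
  have h2 := D.mc1
  have h3 := D.mb2
  have h4 := D.mc2
  rw [D.lint_mu _ D.mu]
  have e1 : ∫⁻ a, tripleCost s (a, D.b1 a, D.c1 a) ∂D.ν =
      ∫⁻ a, (D.u a + D.u (D.b1 a) + D.u (D.c1 a)) ∂D.ν := by
    refine lintegral_congr_ae ?_
    filter_upwards [D.ae_A] with a ha using D.eq1 a ha
  have e2 : ∫⁻ a, tripleCost s (a, D.b2 a, D.c2 a) ∂D.ν =
      ∫⁻ a, (D.u a + D.u (D.b2 a) + D.u (D.c2 a)) ∂D.ν := by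
    refine lintegral_congr_ae ?_
    filter_upwards [D.ae_A] with a ha using D.eq2 a ha
  unfold val
  rw [e1, e2, lintegral_add_right _ (by fun_prop), lintegral_add_right _ (by fun_prop),
    lintegral_add_right _ (by fun_prop), lintegral_add_right _ (by fun_prop)]
  ring

omit [BorelSpace E] [SecondCountableTopology E] in
theorem finite_mu : IsFiniteMeasure D.μ := by
  have := D.fin
  unfold CoreData.μ
  infer_instance

omit [BorelSpace E] [SecondCountableTopology E] in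
theorem lint_u_lt_top : ∫⁻ x, D.u x ∂D.μ < ⊤ := by
  have := D.finite_mu
  obtain ⟨K, hK, hKu⟩ := D.u_bdd
  calc ∫⁻ x, D.u x ∂D.μ ≤ ∫⁻ _, K ∂D.μ := by
        refine lintegral_mono_ae ?_
        filter_upwards [D.ae_S] with x hx using hKu x hx
    _ = K * D.μ univ := by rw [lintegral_const]
    _ < ⊤ := ENNReal.mul_lt_top hK (measure_lt_top _ _)

omit [BorelSpace E] [SecondCountableTopology E] in
theorem lower_bound (π : Measure (E × E × E)) (hπ : IsCoupling₃ D.μ π) :
    3 * D.val ≤ ∫⁻ p, tripleCost s p ∂π := by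
  obtain ⟨m1, m2, m3⟩ := hπ
  have h0 := D.mu
  have a1 : ∀ᵐ p ∂π, p.1 ∈ D.S := by
    have := D.ae_S
    rw [← m1] at this
    exact ae_of_ae_map mp1.aemeasurable this
  have a2 : ∀ᵐ p ∂π, p.2.1 ∈ D.S := by
    have := D.ae_S
    rw [← m2] at this
    exact ae_of_ae_map mp2.aemeasurable this
  have a3 : ∀ᵐ p ∂π, p.2.2 ∈ D.S := by
    have := D.ae_S
    rw [← m3] at this
    exact ae_of_ae_map mp3.aemeasurable this
  have i1 : ∫⁻ p, D.u p.1 ∂π = ∫⁻ x, D.u x ∂D.μ := by
    conv_rhs => rw [← m1]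
    rw [lintegral_map D.mu mp1]
  have i2 : ∫⁻ p, D.u p.2.1 ∂π = ∫⁻ x, D.u x ∂D.μ := by
    conv_rhs => rw [← m2]
    rw [lintegral_map D.mu mp2]
  have i3 : ∫⁻ p, D.u p.2.2 ∂π = ∫⁻ x, D.u x ∂D.μ := by
    conv_rhs => rw [← m3]
    rw [lintegral_map D.mu mp3]
  calc 3 * D.val = ∫⁻ p, (D.u p.1 + D.u p.2.1 + D.u p.2.2) ∂π := by
        rw [lintegral_add_right _ (by fun_prop), lintegral_add_right _ (by fun_prop), i1, i2, i3,
          D.val_eq]
        ring
    _ ≤ ∫⁻ p, tripleCost s p ∂π := by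
        refine lintegral_mono_ae ?_
        filter_upwards [a1, a2, a3] with p h1 h2 h3
        exact D.le _ h1 _ h2 _ h3

omit [NormedAddCommGroup E] [BorelSpace E] [SecondCountableTopology E] in
theorem integrable_bdd {m : Measure E} [IsFiniteMeasure m] {h : E → ℝ} (hm : Measurable h) {C : ℝ}
    (hC : ∀ x, |h x| ≤ C) : Integrable h m :=
  Integrable.of_bound hm.aestronglyMeasurable C (Filter.Eventually.of_forall hC)

omit [BorelSpace E] [SecondCountableTopology E] in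
theorem int_mu (h : E → ℝ) (hm : Measurable h) (C : ℝ) (hC : ∀ x, |h x| ≤ C) :
    ∫ x, h x ∂D.μ = ∫ a, h a ∂D.ν + ∫ a, h a ∂D.ν + ∫ a, h (D.b1 a) ∂D.ν
      + ∫ a, h (D.c1 a) ∂D.ν + ∫ a, h (D.b2 a) ∂D.ν + ∫ a, h (D.c2 a) ∂D.ν := by
  have := D.fin
  unfold CoreData.μ
  rw [integral_add_measure (integrable_bdd hm hC) (integrable_bdd hm hC),
    integral_add_measure (integrable_bdd hm hC) (integrable_bdd hm hC),
    integral_add_measure (integrable_bdd hm hC) (integrable_bdd hm hC),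
    integral_add_measure (integrable_bdd hm hC) (integrable_bdd hm hC),
    integral_add_measure (integrable_bdd hm hC) (integrable_bdd hm hC),
    integral_map D.mb1.aemeasurable hm.aestronglyMeasurable,
    integral_map D.mc1.aemeasurable hm.aestronglyMeasurable,
    integral_map D.mb2.aemeasurable hm.aestronglyMeasurable,
    integral_map D.mc2.aemeasurable hm.aestronglyMeasurable]

theorem abs_sg_le (i : Fin 5) : |sg i| ≤ 1 := by
  fin_cases i <;> simp [sg]

theorem not_monge (T₂ T₃ : E → E) (hT₂ : Measurable T₂) (hT₃ : Measurable T₃)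
    (h2 : D.μ.map T₂ = D.μ) (h3 : D.μ.map T₃ = D.μ) :
    3 * D.val < ∫⁻ x, tripleCost s (x, T₂ x, T₃ x) ∂D.μ := by
  by_contra hcon
  rw [not_lt] at hcon
  have := D.fin
  have := D.finite_mu
  have hu := D.mu
  have s1 : ∀ᵐ x ∂D.μ, x ∈ D.S := D.ae_S
  have s2 : ∀ᵐ x ∂D.μ, T₂ x ∈ D.S := by
    have := D.ae_S
    rw [← h2] at this
    exact ae_of_ae_map hT₂.aemeasurable this
  have s3 : ∀ᵐ x ∂D.μ, T₃ x ∈ D.S := by
    have := D.ae_S
    rw [← h3] at this
    exact ae_of_ae_map hT₃.aemeasurable this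
  have hF : ∫⁻ x, (D.u x + D.u (T₂ x) + D.u (T₃ x)) ∂D.μ = 3 * D.val := by
    have i2 : ∫⁻ x, D.u (T₂ x) ∂D.μ = ∫⁻ x, D.u x ∂D.μ := by
      conv_rhs => rw [← h2]
      rw [lintegral_map D.mu hT₂]
    have i3 : ∫⁻ x, D.u (T₃ x) ∂D.μ = ∫⁻ x, D.u x ∂D.μ := by
      conv_rhs => rw [← h3]
      rw [lintegral_map D.mu hT₃]
    rw [lintegral_add_right _ (by fun_prop), lintegral_add_right _ (by fun_prop), i2, i3, D.val_eq]
    ring
  have hle : (fun x => D.u x + D.u (T₂ x) + D.u (T₃ x)) ≤ᵐ[D.μ]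
      fun x => tripleCost s (x, T₂ x, T₃ x) := by
    filter_upwards [s1, s2, s3] with x a1 a2 a3
    exact D.le _ a1 _ a2 _ a3
  have hFtop : ∫⁻ x, (D.u x + D.u (T₂ x) + D.u (T₃ x)) ∂D.μ ≠ ⊤ := by
    rw [hF, D.val_eq]
    exact ENNReal.mul_ne_top (by norm_num) D.lint_u_lt_top.ne
  have hcm : Measurable fun x => tripleCost s (x, T₂ x, T₃ x) :=
    (measurable_tripleCost s).comp (measurable_id.prodMk (hT₂.prodMk hT₃))
  have heq := ae_eq_of_ae_le_of_lintegral_le hle hFtop hcm.aemeasurable (by rw [hF]; exact hcon)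
  have H : ∀ᵐ x ∂D.μ, D.lab x = D.lab (T₂ x) ∧ D.lab x = D.lab (T₃ x) ∧
      (sg (D.typ x) + sg (D.typ (T₂ x)) + sg (D.typ (T₃ x)) = 2 ∨
        sg (D.typ x) + sg (D.typ (T₂ x)) + sg (D.typ (T₃ x)) = -2) := by
    filter_upwards [s1, s2, s3, heq] with x a1 a2 a3 a4
    exact D.eq_imp _ a1 _ a2 _ a3 a4.symm
  have hlab := D.mlab
  have htyp := D.mtyp
  have hsg : Measurable sg := measurable_of_countable _
  have hσ : Measurable fun x => sg (D.typ x) := hsg.comp D.mtyp
  have hσ2 : Measurable fun x => sg (D.typ (T₂ x)) := hσ.comp hT₂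
  have hσ3 : Measurable fun x => sg (D.typ (T₃ x)) := hσ.comp hT₃
  set G : E → ℝ := fun x => sg (D.typ x) + sg (D.typ (T₂ x)) + sg (D.typ (T₃ x)) with hG
  have hGm : Measurable G := (hσ.add hσ2).add hσ3
  have hGb : ∀ x, |G x| ≤ 3 := by
    intro x
    have b1 := abs_le.mp (abs_sg_le (D.typ x))
    have b2 := abs_le.mp (abs_sg_le (D.typ (T₂ x)))
    have b3 := abs_le.mp (abs_sg_le (D.typ (T₃ x)))
    rw [hG, abs_le]
    constructor <;> linarith [b1.1, b1.2, b2.1, b2.2, b3.1, b3.2]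
  have hGl : Measurable fun x => G (D.lab x) := hGm.comp hlab
  -- first computation
  have hJm : Measurable fun x => sg (D.typ x) * G (D.lab x) := hσ.mul hGl
  have hJb : ∀ x, |sg (D.typ x) * G (D.lab x)| ≤ 3 := by
    intro x
    rw [abs_mul]
    calc |sg (D.typ x)| * |G (D.lab x)| ≤ 1 * 3 :=
          mul_le_mul (abs_sg_le _) (hGb _) (abs_nonneg _) zero_le_one
      _ = 3 := by norm_num
  have hJ : ∫ x, sg (D.typ x) * G (D.lab x) ∂D.μ = 0 := by
    rw [D.int_mu _ hJm 3 hJb]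
    have e0 : ∫ a, sg (D.typ a) * G (D.lab a) ∂D.ν = 0 := by
      rw [← integral_zero E ℝ (μ := D.ν)]
      refine integral_congr_ae ?_
      filter_upwards [D.ae_A] with a ha
      simp [D.typ_a a ha, sg]
    have e1 : ∫ a, sg (D.typ (D.b1 a)) * G (D.lab (D.b1 a)) ∂D.ν = ∫ a, G a ∂D.ν := by
      refine integral_congr_ae ?_
      filter_upwards [D.ae_A] with a ha
      rw [D.typ_b1 a ha, D.lab_b1 a ha]; simp [sg]
    have e2 : ∫ a, sg (D.typ (D.c1 a)) * G (D.lab (D.c1 a)) ∂D.ν = ∫ a, G a ∂D.ν := by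
      refine integral_congr_ae ?_
      filter_upwards [D.ae_A] with a ha
      rw [D.typ_c1 a ha, D.lab_c1 a ha]; simp [sg]
    have e3 : ∫ a, sg (D.typ (D.b2 a)) * G (D.lab (D.b2 a)) ∂D.ν = - ∫ a, G a ∂D.ν := by
      rw [← integral_neg]
      refine integral_congr_ae ?_
      filter_upwards [D.ae_A] with a ha
      rw [D.typ_b2 a ha, D.lab_b2 a ha]; simp [sg]
    have e4 : ∫ a, sg (D.typ (D.c2 a)) * G (D.lab (D.c2 a)) ∂D.ν = - ∫ a, G a ∂D.ν := by
      rw [← integral_neg]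
      refine integral_congr_ae ?_
      filter_upwards [D.ae_A] with a ha
      rw [D.typ_c2 a ha, D.lab_c2 a ha]; simp [sg]
    rw [e0, e1, e2, e3, e4]
    ring
  have hJ2 : ∫ x, sg (D.typ (T₂ x)) * G (D.lab x) ∂D.μ = 0 := by
    have e : ∫ x, sg (D.typ (T₂ x)) * G (D.lab x) ∂D.μ =
        ∫ x, sg (D.typ (T₂ x)) * G (D.lab (T₂ x)) ∂D.μ := by
      refine integral_congr_ae ?_
      filter_upwards [H] with x hx
      rw [← hx.1]
    rw [e, ← hJ]
    conv_rhs => rw [← h2]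
    rw [integral_map hT₂.aemeasurable hJm.aestronglyMeasurable]
  have hJ3 : ∫ x, sg (D.typ (T₃ x)) * G (D.lab x) ∂D.μ = 0 := by
    have e : ∫ x, sg (D.typ (T₃ x)) * G (D.lab x) ∂D.μ =
        ∫ x, sg (D.typ (T₃ x)) * G (D.lab (T₃ x)) ∂D.μ := by
      refine integral_congr_ae ?_
      filter_upwards [H] with x hx
      rw [← hx.2.1]
    rw [e, ← hJ]
    conv_rhs => rw [← h3]
    rw [integral_map hT₃.aemeasurable hJm.aestronglyMeasurable]
  have hbnd : ∀ (τ : E → Fin 5), ∀ x, |sg (τ x) * G (D.lab x)| ≤ 3 := by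
    intro τ x
    rw [abs_mul]
    calc |sg (τ x)| * |G (D.lab x)| ≤ 1 * 3 :=
          mul_le_mul (abs_sg_le _) (hGb _) (abs_nonneg _) zero_le_one
      _ = 3 := by norm_num
  have hI0 : ∫ x, G x * G (D.lab x) ∂D.μ = 0 := by
    have e : ∀ x, G x * G (D.lab x) = sg (D.typ x) * G (D.lab x) + sg (D.typ (T₂ x)) * G (D.lab x)
        + sg (D.typ (T₃ x)) * G (D.lab x) := by
      intro x; simp only [hG]; ring
    have i1 : Integrable (fun x => sg (D.typ x) * G (D.lab x)) D.μ := integrable_bdd hJm hJb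
    have i2 : Integrable (fun x => sg (D.typ (T₂ x)) * G (D.lab x)) D.μ :=
      integrable_bdd (hσ2.mul hGl) (hbnd fun x => D.typ (T₂ x))
    have i3 : Integrable (fun x => sg (D.typ (T₃ x)) * G (D.lab x)) D.μ :=
      integrable_bdd (hσ3.mul hGl) (hbnd fun x => D.typ (T₃ x))
    have i12 : Integrable (fun x => sg (D.typ x) * G (D.lab x)
        + sg (D.typ (T₂ x)) * G (D.lab x)) D.μ := i1.add i2
    rw [integral_congr_ae (Filter.Eventually.of_forall e), integral_add i12 i3,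
      integral_add i1 i2, hJ, hJ2, hJ3]
    ring
  -- second computation
  have hIm : Measurable fun x => G x * G (D.lab x) := hGm.mul hGl
  have hIb : ∀ x, |G x * G (D.lab x)| ≤ 9 := by
    intro x
    rw [abs_mul]
    calc |G x| * |G (D.lab x)| ≤ 3 * 3 := mul_le_mul (hGb _) (hGb _) (abs_nonneg _) (by norm_num)
      _ = 9 := by norm_num
  have hGv : ∀ᵐ x ∂D.μ, G x = 2 ∨ G x = -2 := by
    filter_upwards [H] with x hx using hx.2.2
  have hGv' := (D.ae_mu_iff (p := fun x => G x = 2 ∨ G x = -2)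
    ((measurableSet_eq_fun hGm measurable_const).union
      (measurableSet_eq_fun hGm measurable_const))).mp hGv
  obtain ⟨v0, v1, v2, v3, v4⟩ := hGv'
  have hlow : ∀ x, sg (D.typ x) = 1 → -1 ≤ G x := by
    intro x hx
    have b2 := abs_le.mp (abs_sg_le (D.typ (T₂ x)))
    have b3 := abs_le.mp (abs_sg_le (D.typ (T₃ x)))
    simp only [hG]
    linarith [b2.1, b3.1]
  have hupp : ∀ x, sg (D.typ x) = -1 → G x ≤ 1 := by
    intro x hx
    have b2 := abs_le.mp (abs_sg_le (D.typ (T₂ x)))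
    have b3 := abs_le.mp (abs_sg_le (D.typ (T₃ x)))
    simp only [hG]
    linarith [b2.2, b3.2]
  have hI1 : ∫ x, G x * G (D.lab x) ∂D.μ = 8 * D.ν.real univ := by
    rw [D.int_mu _ hIm 9 hIb]
    have e0 : ∫ a, G a * G (D.lab a) ∂D.ν = ∫ _, (4 : ℝ) ∂D.ν := by
      refine integral_congr_ae ?_
      filter_upwards [D.ae_A, v0] with a ha hv
      rw [D.lab_a a ha]
      rcases hv with hv | hv <;> rw [hv] <;> norm_num
    have e1 : ∫ a, G (D.b1 a) * G (D.lab (D.b1 a)) ∂D.ν = ∫ a, 2 * G a ∂D.ν := by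
      refine integral_congr_ae ?_
      filter_upwards [D.ae_A, v1] with a ha hv
      rw [D.lab_b1 a ha]
      have h1 := hlow (D.b1 a) (by rw [D.typ_b1 a ha]; simp [sg])
      rcases hv with hv | hv
      · rw [hv]
      · rw [hv] at h1; norm_num at h1
    have e2 : ∫ a, G (D.c1 a) * G (D.lab (D.c1 a)) ∂D.ν = ∫ a, 2 * G a ∂D.ν := by
      refine integral_congr_ae ?_
      filter_upwards [D.ae_A, v2] with a ha hv
      rw [D.lab_c1 a ha]
      have h1 := hlow (D.c1 a) (by rw [D.typ_c1 a ha]; simp [sg])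
      rcases hv with hv | hv
      · rw [hv]
      · rw [hv] at h1; norm_num at h1
    have e3 : ∫ a, G (D.b2 a) * G (D.lab (D.b2 a)) ∂D.ν = - ∫ a, 2 * G a ∂D.ν := by
      rw [← integral_neg]
      refine integral_congr_ae ?_
      filter_upwards [D.ae_A, v3] with a ha hv
      rw [D.lab_b2 a ha]
      have h1 := hupp (D.b2 a) (by rw [D.typ_b2 a ha]; simp [sg])
      rcases hv with hv | hv
      · rw [hv] at h1; norm_num at h1
      · rw [hv]; ring
    have e4 : ∫ a, G (D.c2 a) * G (D.lab (D.c2 a)) ∂D.ν = - ∫ a, 2 * G a ∂D.ν := by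
      rw [← integral_neg]
      refine integral_congr_ae ?_
      filter_upwards [D.ae_A, v4] with a ha hv
      rw [D.lab_c2 a ha]
      have h1 := hupp (D.c2 a) (by rw [D.typ_c2 a ha]; simp [sg])
      rcases hv with hv | hv
      · rw [hv] at h1; norm_num at h1
      · rw [hv]; ring
    rw [e0, e1, e2, e3, e4, integral_const, smul_eq_mul]
    ring
  rw [hI0] at hI1
  have hpos : 0 < D.ν.real univ := by
    rw [measureReal_def]
    exact ENNReal.toReal_pos (fun h => D.ne (Measure.measure_univ_eq_zero.mp h))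
      (measure_ne_top _ _)
  linarith

theorem approx [CompleteSpace E] (ε : ℝ≥0∞) (hε : 0 < ε) :
    ∃ T₂ T₃ : E → E, Measurable T₂ ∧ Measurable T₃ ∧ D.μ.map T₂ = D.μ ∧ D.μ.map T₃ = D.μ ∧
      ∫⁻ x, tripleCost s (x, T₂ x, T₃ x) ∂D.μ < 3 * D.val + ε := by
  classical
  have := D.fin
  have : NullSingletonClass D.ν := ⟨D.noat⟩
  have h1 := D.mb1
  have h2 := D.mc1
  have h3 := D.mb2
  have h4 := D.mc2
  -- choice of the tolerance
  obtain ⟨η, hη0, hη⟩ : ∃ η : ℝ≥0∞, 0 < η ∧ 2 * (η * D.ν univ) < ε := by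
    have hν : D.ν univ ≠ ⊤ := measure_ne_top _ _
    have hν0 : D.ν univ ≠ 0 := fun h => D.ne (Measure.measure_univ_eq_zero.mp h)
    by_cases hεt : ε = ⊤
    · refine ⟨1, one_pos, ?_⟩
      rw [hεt]
      exact ENNReal.mul_lt_top (by norm_num) (ENNReal.mul_lt_top (by norm_num) hν.lt_top)
    · refine ⟨ε / 4 / D.ν univ, ?_, ?_⟩
      · exact ENNReal.div_pos (ENNReal.div_pos hε.ne' (by norm_num)).ne' hν
      · rw [ENNReal.div_mul_cancel hν0 hν]
        have : 2 * (ε / 4) = ε / 2 := by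
          rw [ENNReal.div_eq_inv_mul, ENNReal.div_eq_inv_mul, ← mul_assoc]
          congr 1
          rw [show (4 : ℝ≥0∞) = 2 * 2 by norm_num, ENNReal.mul_inv (by norm_num) (by norm_num),
            ← mul_assoc, ENNReal.mul_inv_cancel (by norm_num) (by norm_num), one_mul]
        rw [this]
        exact ENNReal.half_lt_self hε.ne' hεt
  obtain ⟨δ, hδ, hcont⟩ := D.cont η hη0
  obtain ⟨i, r, hi, hr, hdist, hsplit⟩ := Crest.Agent.S0175.exists_split D.ν δ hδ
  -- r maps into A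
  have hrA : ∀ᵐ a ∂D.ν, r a ∈ D.A := by
    have h := hsplit (fun _ x => D.Aᶜ.indicator 1 x)
      (fun _ => measurable_one.indicator D.mA.compl)
    rw [lintegral_indicator_one D.mA.compl, D.ν_compl, add_zero, mul_eq_zero] at h
    have h' := h.resolve_left (by norm_num)
    have hmm : Measurable fun a => D.Aᶜ.indicator (1 : E → ℝ≥0∞) (r a) :=
      (measurable_one.indicator D.mA.compl).comp hr
    rw [lintegral_eq_zero_iff hmm] at h'
    filter_upwards [h'] with a ha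
    by_contra hcon
    have : D.Aᶜ.indicator (1 : E → ℝ≥0∞) (r a) = 1 := by
      rw [indicator_of_mem (show r a ∈ D.Aᶜ from hcon)]; rfl
    rw [this] at ha
    simp at ha
  -- the maps
  let tt : E → Fin 5 := D.typ
  let bb : Bool → E → E := fun j => cond j D.b1 D.b2
  let cc : Bool → E → E := fun j => cond j D.c1 D.c2
  have hbb : ∀ j, Measurable (bb j) := by intro j; cases j <;> assumption
  have hcc : ∀ j, Measurable (cc j) := by intro j; cases j <;> assumption
  have hbb2 : Measurable fun x => bb (i x) (r x) := by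
    have : Measurable fun p : Bool × E => bb p.1 p.2 := measurable_from_prod_countable_right hbb
    exact this.comp (hi.prodMk hr)
  have hcc2 : Measurable fun x => cc (i x) (r x) := by
    have : Measurable fun p : Bool × E => cc p.1 p.2 := measurable_from_prod_countable_right hcc
    exact this.comp (hi.prodMk hr)
  let t2 : Fin 5 → E → E := ![fun x => bb (i x) (r x), fun x => D.c1 (D.lab x), fun x => D.lab x,
    fun x => D.c2 (D.lab x), fun x => D.lab x]
  let t3 : Fin 5 → E → E := ![fun x => cc (i x) (r x), fun x => D.lab x, fun x => D.b1 (D.lab x),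
    fun x => D.lab x, fun x => D.b2 (D.lab x)]
  have ht2 : ∀ k, Measurable (t2 k) := by
    intro k
    fin_cases k
    · exact hbb2
    · exact h2.comp D.mlab
    · exact D.mlab
    · exact h4.comp D.mlab
    · exact D.mlab
  have ht3 : ∀ k, Measurable (t3 k) := by
    intro k
    fin_cases k
    · exact hcc2
    · exact D.mlab
    · exact h1.comp D.mlab
    · exact D.mlab
    · exact h3.comp D.mlab
  have hT2 : Measurable fun x => t2 (D.typ x) x := by
    have : Measurable fun p : Fin 5 × E => t2 p.1 p.2 := measurable_from_prod_countable_right ht2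
    exact this.comp (D.mtyp.prodMk measurable_id)
  have hT3 : Measurable fun x => t3 (D.typ x) x := by
    have : Measurable fun p : Fin 5 × E => t3 p.1 p.2 := measurable_from_prod_countable_right ht3
    exact this.comp (D.mtyp.prodMk measurable_id)
  -- general computation of integrals
  have key : ∀ f : E × E × E → ℝ≥0∞, Measurable f →
      ∫⁻ x, f (x, t2 (D.typ x) x, t3 (D.typ x) x) ∂D.μ =
        2 * ∫⁻ a, f (a, bb (i a) (r a), cc (i a) (r a)) ∂D.ν
        + ∫⁻ a, f (D.b1 a, D.c1 a, a) ∂D.ν + ∫⁻ a, f (D.c1 a, a, D.b1 a) ∂D.ν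
        + ∫⁻ a, f (D.b2 a, D.c2 a, a) ∂D.ν + ∫⁻ a, f (D.c2 a, a, D.b2 a) ∂D.ν := by
    intro f hf
    have hfm : Measurable fun x => f (x, t2 (D.typ x) x, t3 (D.typ x) x) :=
      hf.comp (measurable_id.prodMk (hT2.prodMk hT3))
    rw [D.lint_mu _ hfm]
    have e0 : ∫⁻ a, f (a, t2 (D.typ a) a, t3 (D.typ a) a) ∂D.ν =
        ∫⁻ a, f (a, bb (i a) (r a), cc (i a) (r a)) ∂D.ν := by
      refine lintegral_congr_ae ?_
      filter_upwards [D.ae_A] with a ha
      rw [D.typ_a a ha]; rfl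
    have e1 : ∫⁻ a, f (D.b1 a, t2 (D.typ (D.b1 a)) (D.b1 a), t3 (D.typ (D.b1 a)) (D.b1 a)) ∂D.ν =
        ∫⁻ a, f (D.b1 a, D.c1 a, a) ∂D.ν := by
      refine lintegral_congr_ae ?_
      filter_upwards [D.ae_A] with a ha
      have : t2 (D.typ (D.b1 a)) (D.b1 a) = D.c1 a := by
        rw [D.typ_b1 a ha]; change D.c1 (D.lab (D.b1 a)) = D.c1 a; rw [D.lab_b1 a ha]
      rw [this]
      have : t3 (D.typ (D.b1 a)) (D.b1 a) = a := by
        rw [D.typ_b1 a ha]; change D.lab (D.b1 a) = a; rw [D.lab_b1 a ha]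
      rw [this]
    have e2 : ∫⁻ a, f (D.c1 a, t2 (D.typ (D.c1 a)) (D.c1 a), t3 (D.typ (D.c1 a)) (D.c1 a)) ∂D.ν =
        ∫⁻ a, f (D.c1 a, a, D.b1 a) ∂D.ν := by
      refine lintegral_congr_ae ?_
      filter_upwards [D.ae_A] with a ha
      have : t2 (D.typ (D.c1 a)) (D.c1 a) = a := by
        rw [D.typ_c1 a ha]; change D.lab (D.c1 a) = a; rw [D.lab_c1 a ha]
      rw [this]
      have : t3 (D.typ (D.c1 a)) (D.c1 a) = D.b1 a := by
        rw [D.typ_c1 a ha]; change D.b1 (D.lab (D.c1 a)) = D.b1 a; rw [D.lab_c1 a ha]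
      rw [this]
    have e3 : ∫⁻ a, f (D.b2 a, t2 (D.typ (D.b2 a)) (D.b2 a), t3 (D.typ (D.b2 a)) (D.b2 a)) ∂D.ν =
        ∫⁻ a, f (D.b2 a, D.c2 a, a) ∂D.ν := by
      refine lintegral_congr_ae ?_
      filter_upwards [D.ae_A] with a ha
      have : t2 (D.typ (D.b2 a)) (D.b2 a) = D.c2 a := by
        rw [D.typ_b2 a ha]; change D.c2 (D.lab (D.b2 a)) = D.c2 a; rw [D.lab_b2 a ha]
      rw [this]
      have : t3 (D.typ (D.b2 a)) (D.b2 a) = a := by
        rw [D.typ_b2 a ha]; change D.lab (D.b2 a) = a; rw [D.lab_b2 a ha]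
      rw [this]
    have e4 : ∫⁻ a, f (D.c2 a, t2 (D.typ (D.c2 a)) (D.c2 a), t3 (D.typ (D.c2 a)) (D.c2 a)) ∂D.ν =
        ∫⁻ a, f (D.c2 a, a, D.b2 a) ∂D.ν := by
      refine lintegral_congr_ae ?_
      filter_upwards [D.ae_A] with a ha
      have : t2 (D.typ (D.c2 a)) (D.c2 a) = a := by
        rw [D.typ_c2 a ha]; change D.lab (D.c2 a) = a; rw [D.lab_c2 a ha]
      rw [this]
      have : t3 (D.typ (D.c2 a)) (D.c2 a) = D.b2 a := by
        rw [D.typ_c2 a ha]; change D.b2 (D.lab (D.c2 a)) = D.b2 a; rw [D.lab_c2 a ha]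
      rw [this]
    rw [e0, e1, e2, e3, e4]
    ring
  refine ⟨fun x => t2 (D.typ x) x, fun x => t3 (D.typ x) x, hT2, hT3, ?_, ?_, ?_⟩
  · refine ext_of_lint fun f hf => ?_
    rw [lintegral_map hf hT2, key (fun p => f p.2.1) (hf.comp mp2), D.lint_mu f hf,
      hsplit (fun j x => f (bb j x)) (fun j => hf.comp (hbb j))]
    change (∫⁻ a, f (D.b1 a) ∂D.ν + ∫⁻ a, f (D.b2 a) ∂D.ν) + _ + _ + _ + _ = _
    ring
  · refine ext_of_lint fun f hf => ?_
    rw [lintegral_map hf hT3, key (fun p => f p.2.2) (hf.comp mp3), D.lint_mu f hf,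
      hsplit (fun j x => f (cc j x)) (fun j => hf.comp (hcc j))]
    change (∫⁻ a, f (D.c1 a) ∂D.ν + ∫⁻ a, f (D.c2 a) ∂D.ν) + _ + _ + _ + _ = _
    ring
  · rw [key _ (measurable_tripleCost s)]
    have hA : 2 * ∫⁻ a, tripleCost s (a, bb (i a) (r a), cc (i a) (r a)) ∂D.ν ≤
        D.val + 2 * (η * D.ν univ) := by
      have hle : ∫⁻ a, tripleCost s (a, bb (i a) (r a), cc (i a) (r a)) ∂D.ν ≤
          ∫⁻ a, (tripleCost s (r a, bb (i a) (r a), cc (i a) (r a)) + η) ∂D.ν := by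
        refine lintegral_mono_ae ?_
        filter_upwards [D.ae_A, hrA, hdist] with a ha hra hd
        have h := hcont (r a) hra a ha hd
        cases hia : i a
        · exact h.2
        · exact h.1
      rw [lintegral_add_right _ measurable_const, lintegral_const] at hle
      calc 2 * ∫⁻ a, tripleCost s (a, bb (i a) (r a), cc (i a) (r a)) ∂D.ν
          ≤ 2 * (∫⁻ a, tripleCost s (r a, bb (i a) (r a), cc (i a) (r a)) ∂D.ν + η * D.ν univ) := by
            gcongr
        _ = 2 * ∫⁻ a, tripleCost s (r a, bb (i a) (r a), cc (i a) (r a)) ∂D.ν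
            + 2 * (η * D.ν univ) := by rw [mul_add]
        _ = D.val + 2 * (η * D.ν univ) := by
            rw [hsplit (fun j x => tripleCost s (x, bb j x, cc j x)) (fun j =>
              (measurable_tripleCost s).comp (measurable_id.prodMk ((hbb j).prodMk (hcc j))))]
            rfl
    simp only [tripleCost_rot]
    have e5 : ∫⁻ a, tripleCost s (D.c1 a, a, D.b1 a) ∂D.ν =
        ∫⁻ a, tripleCost s (a, D.b1 a, D.c1 a) ∂D.ν := by simp only [tripleCost_rot']
    have e6 : ∫⁻ a, tripleCost s (D.c2 a, a, D.b2 a) ∂D.ν =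
        ∫⁻ a, tripleCost s (a, D.b2 a, D.c2 a) ∂D.ν := by simp only [tripleCost_rot']
    have hval : D.val ≠ ⊤ := by
      rw [D.val_eq]; exact D.lint_u_lt_top.ne
    calc _ ≤ (D.val + 2 * (η * D.ν univ)) + ∫⁻ a, tripleCost s (a, D.b1 a, D.c1 a) ∂D.ν
          + ∫⁻ a, tripleCost s (a, D.b1 a, D.c1 a) ∂D.ν
          + ∫⁻ a, tripleCost s (a, D.b2 a, D.c2 a) ∂D.ν
          + ∫⁻ a, tripleCost s (a, D.b2 a, D.c2 a) ∂D.ν := by
            gcongr
      _ = 3 * D.val + 2 * (η * D.ν univ) := by unfold val; ring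
      _ < 3 * D.val + ε := by
            refine ENNReal.add_lt_add_left ?_ hη
            exact ENNReal.mul_ne_top (by norm_num) hval

end CoreData

theorem core [CompleteSpace E] :
    ∃ π₀ : Measure (E × E × E), IsCoupling₃ D.μ π₀ ∧ ∫⁻ p, tripleCost s p ∂π₀ < ⊤ ∧
      (∀ π : Measure (E × E × E), IsCoupling₃ D.μ π →
        ∫⁻ p, tripleCost s p ∂π₀ ≤ ∫⁻ p, tripleCost s p ∂π) ∧
      (∀ T₂ T₃ : E → E, Measurable T₂ → Measurable T₃ →
        D.μ.map T₂ = D.μ → D.μ.map T₃ = D.μ →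
        ∫⁻ p, tripleCost s p ∂π₀ < ∫⁻ x, tripleCost s (x, T₂ x, T₃ x) ∂D.μ) ∧
      (∀ ε : ℝ≥0∞, 0 < ε → ∃ T₂ T₃ : E → E, Measurable T₂ ∧ Measurable T₃ ∧
        D.μ.map T₂ = D.μ ∧ D.μ.map T₃ = D.μ ∧
        ∫⁻ x, tripleCost s (x, T₂ x, T₃ x) ∂D.μ < ∫⁻ p, tripleCost s p ∂π₀ + ε) := by
  refine ⟨D.pi0, D.coupling_pi0, ?_, ?_, ?_, ?_⟩
  · rw [D.cost_pi0, D.val_eq]
    exact ENNReal.mul_lt_top (by norm_num) D.lint_u_lt_top
  · intro π hπ
    rw [D.cost_pi0]
    exact D.lower_bound π hπ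
  · intro T₂ T₃ hT₂ hT₃ h2 h3
    rw [D.cost_pi0]
    exact D.not_monge T₂ T₃ hT₂ hT₃ h2 h3
  · intro ε hε
    rw [D.cost_pi0]
    exact D.approx ε hε

end Crest.Agent.OT175
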