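import Crest.Agent.OTGlobal
import Crest.Agent.OTCoreDef

set_option autoImplicit false
set_option linter.unusedSectionVars false

open Filter Topology Set Metric MeasureTheory
open scoped ContDiff ENNReal
open Crest.AnalysisR.OT

namespace Crest.Agent.OT175

/-- geometric data -/
structure Geo (E : Type*) [NormedAddCommGroup E] [InnerProductSpace ℝ E] (s : ℝ) where
  hs : 0 < s
  e : E
  he : ‖e‖ = 1
  G : E ≃ₗᵢ[ℝ] E
  GG : ∀ x, G (G x) = x
  orth : inner ℝ e (G e) = 0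
  C : Consts s
  hC1 : ‖kvec s e‖ * C.η + 2 * s * C.η ^ 2 ≤ C.ε
  hC2 : 2 * s * C.η ^ 2 ≤ C.ε
  L : LocStruct s e C.η

variable {E : Type*} [NormedAddCommGroup E] [InnerProductSpace ℝ E] {s : ℝ}

namespace Geo

variable (g : Geo E s)

/-- centres -/
def P (i : Fin 5) : E := ![0, g.e, -g.e, g.G g.e, -g.G g.e] i

/-- clusters -/
def Cl (i : Fin 5) : Set E :=
  ![ball 0 g.L.ρ, g.L.VB, g.L.VC, g.G ⁻¹' g.L.VB, g.G ⁻¹' g.L.VC] i

lemma r_pos : 0 < g.L.r := lt_of_lt_of_le g.L.ρ_pos g.L.ρ_le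

lemma hGe : ‖g.G g.e‖ = 1 := by rw [LinearIsometryEquiv.norm_map, g.he]

lemma near (i : Fin 5) {x : E} (hx : x ∈ g.Cl i) : ‖x - g.P i‖ < g.L.r := by
  fin_cases i
  · have : x ∈ ball (0 : E) g.L.ρ := hx
    have h2 : ‖x‖ < g.L.ρ := by simpa using this
    simpa [P] using lt_of_lt_of_le h2 g.L.ρ_le
  · have := g.L.subB hx
    simpa [P, dist_eq_norm] using this
  · have := g.L.subC hx
    simpa [P, dist_eq_norm] using this
  · have := g.L.subB hx
    rw [mem_ball, dist_eq_norm] at this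
    have h2 : x - g.G g.e = g.G (g.G x - g.e) := by rw [map_sub, g.GG]
    show ‖x - g.G g.e‖ < _
    rw [h2, LinearIsometryEquiv.norm_map]; exact this
  · have := g.L.subC hx
    rw [mem_ball, dist_eq_norm] at this
    have h2 : x - -g.G g.e = g.G (g.G x - -g.e) := by rw [map_sub, g.GG, map_neg]
    show ‖x - -g.G g.e‖ < _
    rw [h2, LinearIsometryEquiv.norm_map]; exact this

lemma norm_cross (a b : ℝ) (ha : a ^ 2 = 1) (hb : b ^ 2 = 1) :
    ‖a • g.e - b • g.G g.e‖ = Real.sqrt 2 := by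
  have h : ‖a • g.e - b • g.G g.e‖ ^ 2 = 2 := by
    rw [norm_sub_sq_real, norm_smul, norm_smul, g.he, g.hGe, inner_smul_left, inner_smul_right,
      g.orth]
    simp [ha, hb]
    norm_num
  rw [← h, Real.sqrt_sq (norm_nonneg _)]

/-- distances between centres -/
noncomputable def dt (i j : Fin 5) : ℝ :=
  !![0, 1, 1, 1, 1;
     1, 0, 2, Real.sqrt 2, Real.sqrt 2;
     1, 2, 0, Real.sqrt 2, Real.sqrt 2;
     1, Real.sqrt 2, Real.sqrt 2, 0, 2;
     1, Real.sqrt 2, Real.sqrt 2, 2, 0] i j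

lemma norm_P (i j : Fin 5) : ‖g.P i - g.P j‖ = dt i j := by
  have h1 := g.he
  have h2 := g.hGe
  have n2 : ‖g.e - -g.e‖ = 2 := by
    have : g.e - -g.e = (2 : ℝ) • g.e := by module
    rw [this, norm_smul, g.he]; norm_num
  have n2' : ‖g.G g.e - -g.G g.e‖ = 2 := by
    have : g.G g.e - -g.G g.e = (2 : ℝ) • g.G g.e := by module
    rw [this, norm_smul, g.hGe]; norm_num
  have c1 : ‖g.e - g.G g.e‖ = Real.sqrt 2 := by
    simpa using g.norm_cross 1 1 (by norm_num) (by norm_num)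
  have c2 : ‖g.e - -g.G g.e‖ = Real.sqrt 2 := by
    have := g.norm_cross 1 (-1) (by norm_num) (by norm_num)
    simpa using this
  have c3 : ‖-g.e - g.G g.e‖ = Real.sqrt 2 := by
    have := g.norm_cross (-1) 1 (by norm_num) (by norm_num)
    simpa using this
  have c4 : ‖-g.e - -g.G g.e‖ = Real.sqrt 2 := by
    have := g.norm_cross (-1) (-1) (by norm_num) (by norm_num)
    simpa using this
  fin_cases i <;> fin_cases j <;> simp only [P, dt]
  · simp
  · simpa using h1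
  · simpa using h1
  · simpa using h2
  · simpa using h2
  · simpa using h1
  · simp
  · simpa using n2
  · simpa using c1
  · simpa using c2
  · simpa using h1
  · simpa [norm_sub_rev] using n2
  · simp
  · simpa using c3
  · simpa using c4
  · simpa using h2
  · rw [← norm_neg]; simpa using c1
  · show ‖g.G g.e - -g.e‖ = Real.sqrt 2
    rw [norm_sub_rev]; exact c3
  · simp
  · simpa using n2'
  · simpa using h2
  · show ‖-g.G g.e - g.e‖ = Real.sqrt 2
    rw [norm_sub_rev]; exact c2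
  · show ‖-g.G g.e - -g.e‖ = Real.sqrt 2
    rw [norm_sub_rev]; exact c4
  · show ‖-g.G g.e - g.G g.e‖ = 2
    rw [norm_sub_rev]; exact n2'
  · simp

lemma dt_ge {i j : Fin 5} (h : i ≠ j) : 1 ≤ dt i j := by
  have h21 : 1 ≤ Real.sqrt 2 := by
    rw [show (1 : ℝ) = Real.sqrt 1 by simp]
    exact Real.sqrt_le_sqrt (by norm_num)
  fin_cases i <;> fin_cases j <;> first | exact absurd rfl h | simp [dt]

lemma disj {i j : Fin 5} (h : i ≠ j) {x : E} (hx : x ∈ g.Cl i) : x ∉ g.Cl j := by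
  intro hx2
  have h1 := g.near i hx
  have h2 := g.near j hx2
  have h3 := g.norm_P i j
  have h4 := dt_ge h
  have h5 : ‖g.P i - g.P j‖ ≤ ‖x - g.P j‖ + ‖x - g.P i‖ := by
    calc ‖g.P i - g.P j‖ = ‖(x - g.P j) - (x - g.P i)‖ := by congr 1; abel
      _ ≤ _ := norm_sub_le _ _
  have := g.L.r_lt
  linarith

lemma phi_lb {x y : E} (hs : 0 < s) (hxy : x ≠ y) {D : ℝ} (h : ‖x - y‖ ≤ D) :
    D ^ (-s) ≤ phi s (x - y) := by
  rw [phi_eq]
  exact Real.rpow_le_rpow_of_nonpos (norm_pos_iff.2 (sub_ne_zero.2 hxy)) h (by linarith)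

lemma lbt_le {i j : Fin 5} {x y : E} (hx : x ∈ g.Cl i) (hy : y ∈ g.Cl j) (hxy : x ≠ y) :
    lbt g.C.τ g.C.ε i j ≤ phi s (x - y) := by
  have h1 := g.near i hx
  have h2 := g.near j hy
  have h3 : ‖x - y‖ ≤ dt i j + 2 * g.L.r := by
    rw [← g.norm_P i j]
    calc ‖x - y‖ = ‖(x - g.P i) + (g.P i - g.P j) + -(y - g.P j)‖ := by congr 1; abel
      _ ≤ ‖(x - g.P i) + (g.P i - g.P j)‖ + ‖-(y - g.P j)‖ := norm_add_le _ _
      _ ≤ ‖x - g.P i‖ + ‖g.P i - g.P j‖ + ‖-(y - g.P j)‖ := by gcongr; exact norm_add_le _ _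
      _ ≤ _ := by rw [norm_neg]; linarith
  have h4 := phi_lb g.hs hxy h3
  refine le_trans ?_ h4
  have k1 := g.C.h1 _ g.r_pos g.L.r_le
  have k2 := g.C.h2 _ g.r_pos g.L.r_le
  have k3 := g.C.h3 _ g.r_pos g.L.r_le
  have k4 := g.C.h4 _ g.r_pos g.L.r_le
  fin_cases i <;> fin_cases j <;> simp only [lbt, dt] <;> simp <;> linarith

end Geo

end Crest.Agent.OT175
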