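import Crest.Agent.OTGeo

set_option autoImplicit false
set_option linter.unusedSectionVars false

open Filter Topology Set Metric MeasureTheory
open scoped ContDiff ENNReal
open Crest.AnalysisR.OT

namespace Crest.Agent.OT175

variable {E : Type*} [NormedAddCommGroup E] [InnerProductSpace ℝ E] {s : ℝ}

namespace Geo

variable (g : Geo E s)

/-! ### totalised maps -/

noncomputable def β' : E → E := (ball (0 : E) g.L.ρ).indicator g.L.β
noncomputable def γ' : E → E := (ball (0 : E) g.L.ρ).indicator g.L.γ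
noncomputable def lB' : E → E := g.L.VB.indicator g.L.lB
noncomputable def lC' : E → E := g.L.VC.indicator g.L.lC

lemma β'_eq {a : E} (ha : a ∈ ball (0 : E) g.L.ρ) : g.β' a = g.L.β a := by simp [β', ha, indicator_of_mem]
lemma γ'_eq {a : E} (ha : a ∈ ball (0 : E) g.L.ρ) : g.γ' a = g.L.γ a := by simp [γ', ha, indicator_of_mem]
lemma lB'_eq {a : E} (ha : a ∈ g.L.VB) : g.lB' a = g.L.lB a := by simp [lB', ha]
lemma lC'_eq {a : E} (ha : a ∈ g.L.VC) : g.lC' a = g.L.lC a := by simp [lC', ha]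

open Classical in
/-- type -/
noncomputable def typ (x : E) : Fin 5 :=
  if x ∈ g.Cl 1 then 1 else if x ∈ g.Cl 2 then 2 else if x ∈ g.Cl 3 then 3
    else if x ∈ g.Cl 4 then 4 else 0

lemma typ_of {i : Fin 5} {x : E} (hx : x ∈ g.Cl i) : g.typ x = i := by
  have h : ∀ j, i ≠ j → x ∉ g.Cl j := fun j hij => g.disj hij hx
  unfold typ
  fin_cases i
  · simp only [Fin.zero_eta] at hx h
    rw [if_neg (h 1 (by decide)), if_neg (h 2 (by decide)), if_neg (h 3 (by decide)),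
      if_neg (h 4 (by decide))]
    rfl
  · change x ∈ g.Cl 1 at hx
    rw [if_pos hx]; rfl
  · change x ∈ g.Cl 2 at hx
    rw [if_neg (h 1 (by decide)), if_pos hx]; rfl
  · change x ∈ g.Cl 3 at hx
    rw [if_neg (h 1 (by decide)), if_neg (h 2 (by decide)), if_pos hx]; rfl
  · change x ∈ g.Cl 4 at hx
    rw [if_neg (h 1 (by decide)), if_neg (h 2 (by decide)), if_neg (h 3 (by decide)), if_pos hx]
    rfl

/-! ### potentials -/

noncomputable def uA (x : E) : ℝ := 2 + g.C.τ ^ 2 / 2 - 2 * s * ‖x‖ ^ 2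
noncomputable def uB (x : E) : ℝ :=
  g.C.τ ^ 2 / 4 + F s g.e (g.lB' x, x, g.γ' (g.lB' x)) - (2 + g.C.τ ^ 2)
noncomputable def uC (x : E) : ℝ :=
  g.C.τ ^ 2 / 4 + inner ℝ (kvec s g.e) (x + g.e) - 2 * s * ‖x + g.e‖ ^ 2

noncomputable def uF (i : Fin 5) : E → ℝ :=
  ![g.uA, g.uB, g.uC, fun x => g.uB (g.G x), fun x => g.uC (g.G x)] i

noncomputable def labF (i : Fin 5) : E → E :=
  ![id, g.lB', g.lC', fun x => g.G (g.lB' (g.G x)), fun x => g.G (g.lC' (g.G x))] i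

noncomputable def uR (x : E) : ℝ := g.uF (g.typ x) x
noncomputable def lab (x : E) : E := g.labF (g.typ x) x

lemma uR_of {i : Fin 5} {x : E} (hx : x ∈ g.Cl i) : g.uR x = g.uF i x := by
  unfold uR; rw [g.typ_of hx]

lemma lab_of {i : Fin 5} {x : E} (hx : x ∈ g.Cl i) : g.lab x = g.labF i x := by
  unfold lab; rw [g.typ_of hx]

lemma F_p0 : F s g.e (p0 g.e) = 2 + g.C.τ ^ 2 := by
  have h1 : phi s ((0 : E) - g.e) = 1 := by
    rw [phi_eq, zero_sub, norm_neg, g.he, Real.one_rpow]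
  have h2 : phi s ((0 : E) - -g.e) = 1 := by
    rw [phi_eq]; simp [g.he]
  have h3 : phi s (-g.e - g.e) = (2 : ℝ) ^ (-s) := by
    rw [phi_eq]
    congr 1
    have : -g.e - g.e = (-2 : ℝ) • g.e := by module
    rw [this, norm_smul, g.he]; norm_num
  simp only [F, p0, h1, h2, h3, g.C.τ_sq]
  simp
  ring

lemma uB_bd {x : E} (hx : x ∈ g.L.VB) : |g.uB x - g.C.τ ^ 2 / 4| < g.C.η := by
  have h1 := g.L.lB_mem x hx
  have h2 := g.L.close _ h1
  rw [g.L.β_lB x hx, g.F_p0] at h2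
  unfold uB
  rw [g.lB'_eq hx, g.γ'_eq h1]
  convert h2 using 2
  ring

lemma uC_ub {x : E} (hx : x ∈ g.L.VC) : g.uC x ≤ g.C.τ ^ 2 / 4 + g.C.ε := by
  have h1 := g.L.subC hx
  rw [mem_ball, dist_eq_norm, sub_neg_eq_add] at h1
  have h2 : ‖x + g.e‖ ≤ g.C.η := h1.le.trans g.L.r_le
  have h3 : inner ℝ (kvec s g.e) (x + g.e) ≤ ‖kvec s g.e‖ * g.C.η :=
    (real_inner_le_norm _ _).trans (by gcongr)
  have h4 := g.hC1
  have h5 : 0 ≤ 2 * s * g.C.η ^ 2 := by have := g.hs; positivity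
  have h6 : 0 ≤ 2 * s * ‖x + g.e‖ ^ 2 := by have := g.hs; positivity
  unfold uC
  linarith

lemma uC_lb {x : E} (hx : x ∈ g.L.VC) : g.C.τ ^ 2 / 4 - g.C.ε ≤ g.uC x := by
  have h1 := g.L.subC hx
  rw [mem_ball, dist_eq_norm, sub_neg_eq_add] at h1
  have h2 : ‖x + g.e‖ ≤ g.C.η := h1.le.trans g.L.r_le
  have h3 : |inner ℝ (kvec s g.e) (x + g.e)| ≤ ‖kvec s g.e‖ * g.C.η :=
    (abs_real_inner_le_norm _ _).trans (by gcongr)
  have h3' := (abs_le.1 h3).1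
  have h4 := g.hC1
  have h5 : 2 * s * ‖x + g.e‖ ^ 2 ≤ 2 * s * g.C.η ^ 2 := by have := g.hs; gcongr
  unfold uC
  linarith

lemma uA_ub (x : E) : g.uA x ≤ 2 + g.C.τ ^ 2 / 2 + g.C.ε := by
  have h6 : 0 ≤ 2 * s * ‖x‖ ^ 2 := by have := g.hs; positivity
  have := g.C.ε_pos
  unfold uA
  linarith

lemma uA_lb {x : E} (hx : x ∈ ball (0 : E) g.L.ρ) : 0 ≤ g.uA x := by
  have h1 : ‖x‖ < g.L.ρ := by simpa using hx
  have h2 : ‖x‖ ≤ g.C.η := (h1.le.trans g.L.ρ_le).trans g.L.r_le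
  have h5 : 2 * s * ‖x‖ ^ 2 ≤ 2 * s * g.C.η ^ 2 := by have := g.hs; gcongr
  have := g.hC2
  have := g.C.ε_le1
  have : 0 < g.C.τ ^ 2 := by have := g.C.τ_pos; positivity
  unfold uA
  linarith

lemma uB_nn {x : E} (hx : x ∈ g.L.VB) : 0 ≤ g.uB x := by
  have h1 := (abs_lt.1 (g.uB_bd hx)).1
  have := g.C.ε_le1
  have := g.C.η_le
  have : 0 < g.C.τ ^ 2 := by have := g.C.τ_pos; positivity
  linarith

lemma uC_nn {x : E} (hx : x ∈ g.L.VC) : 0 ≤ g.uC x := by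
  have h1 := g.uC_lb hx
  have := g.C.ε_le1
  have : 0 < g.C.τ ^ 2 := by have := g.C.τ_pos; positivity
  linarith

lemma uB_ub {x : E} (hx : x ∈ g.L.VB) : g.uB x ≤ g.C.τ ^ 2 / 4 + g.C.ε := by
  have h1 := (abs_lt.1 (g.uB_bd hx)).2
  have := g.C.η_le
  linarith

lemma uR_nn {i : Fin 5} {x : E} (hx : x ∈ g.Cl i) : 0 ≤ g.uR x := by
  rw [g.uR_of hx]
  fin_cases i
  · exact g.uA_lb hx
  · exact g.uB_nn hx
  · exact g.uC_nn hx
  · exact g.uB_nn hx
  · exact g.uC_nn hx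

lemma uR_ub {i : Fin 5} {x : E} (hx : x ∈ g.Cl i) : g.uR x ≤ ubt g.C.τ g.C.ε i := by
  rw [g.uR_of hx]
  fin_cases i
  · exact g.uA_ub x
  · exact g.uB_ub hx
  · exact g.uC_ub hx
  · exact g.uB_ub (x := g.G x) hx
  · exact g.uC_ub (x := g.G x) hx

/-! ### the canonical inequality -/

lemma can_id {a b c : E} (hb : b ∈ g.L.VB) :
    phi s (a - b) + phi s (a - c) + phi s (b - c) - (g.uA a + g.uB b + g.uC c) =
      F s g.e (a, g.L.β (g.L.lB b), c) -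
        F s g.e (g.L.lB b, g.L.β (g.L.lB b), g.L.γ (g.L.lB b)) := by
  have h1 := g.L.lB_mem b hb
  rw [g.L.β_lB b hb]
  unfold uA uB uC
  rw [g.lB'_eq hb, g.γ'_eq h1]
  have h2 : F s g.e (a, b, c) = phi s (a - b) + phi s (a - c) + phi s (c - b) + 2 * s * ‖a‖ ^ 2
    - inner ℝ (kvec s g.e) (c + g.e) + 2 * s * ‖c + g.e‖ ^ 2 := rfl
  rw [h2, phi_sub_comm s b c]
  ring

lemma mem_r {a : E} (ha : a ∈ g.Cl 0) : a ∈ ball (0 : E) g.L.r :=
  ball_subset_ball g.L.ρ_le ha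

/-- the good property of a triple -/
def Q (x y z : E) : Prop :=
  g.uR x + g.uR y + g.uR z ≤ phi s (x - y) + phi s (x - z) + phi s (y - z) ∧
  (phi s (x - y) + phi s (x - z) + phi s (y - z) ≤ g.uR x + g.uR y + g.uR z →
    g.lab x = g.lab y ∧ g.lab x = g.lab z)

lemma Q_can {a b c : E} (ha : a ∈ g.Cl 0) (hb : b ∈ g.Cl 1) (hc : c ∈ g.Cl 2) : g.Q a b c := by
  have hb' : b ∈ g.L.VB := hb
  have hc' : c ∈ g.L.VC := hc
  have hid := g.can_id (a := a) (c := c) hb'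
  have h1 := g.L.lB_mem b hb'
  have hmin := g.L.min_le _ h1 a (g.mem_r ha) c (g.L.subC hc')
  have hu : g.uR a + g.uR b + g.uR c = g.uA a + g.uB b + g.uC c := by
    rw [g.uR_of ha, g.uR_of hb, g.uR_of hc]; rfl
  refine ⟨?_, fun h => ?_⟩
  · rw [hu]; linarith
  · rw [hu] at h
    have heq := g.L.min_eq _ h1 a (g.mem_r ha) c (g.L.subC hc') (by linarith)
    rw [g.lab_of ha, g.lab_of hb, g.lab_of hc]
    show a = g.lB' b ∧ a = g.lC' c
    rw [g.lB'_eq hb', g.lC'_eq hc']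
    refine ⟨heq.1, ?_⟩
    rw [heq.2, g.L.lC_γ _ h1]
    exact heq.1

lemma Q_swap12 {x y z : E} (h : g.Q x y z) : g.Q y x z := by
  unfold Q at *
  rw [phi_sub_comm s y x]
  have e1 : g.uR y + g.uR x + g.uR z = g.uR x + g.uR y + g.uR z := by ring
  have e2 : phi s (x - y) + phi s (y - z) + phi s (x - z) =
    phi s (x - y) + phi s (x - z) + phi s (y - z) := by ring
  rw [e1, e2]
  refine ⟨h.1, fun h2 => ?_⟩
  obtain ⟨k1, k2⟩ := h.2 h2
  exact ⟨k1.symm, by rw [← k1]; exact k2⟩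

lemma Q_swap23 {x y z : E} (h : g.Q x y z) : g.Q x z y := by
  unfold Q at *
  rw [phi_sub_comm s z y]
  have e1 : g.uR x + g.uR z + g.uR y = g.uR x + g.uR y + g.uR z := by ring
  have e2 : phi s (x - z) + phi s (x - y) + phi s (y - z) =
    phi s (x - y) + phi s (x - z) + phi s (y - z) := by ring
  rw [e1, e2]
  refine ⟨h.1, fun h2 => ?_⟩
  obtain ⟨k1, k2⟩ := h.2 h2
  exact ⟨k2, k1⟩

lemma G0 {a : E} (ha : a ∈ g.Cl 0) : g.G a ∈ g.Cl 0 := by
  have h : a ∈ ball (0 : E) g.L.ρ := ha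
  show g.G a ∈ ball (0 : E) g.L.ρ
  simpa using h

lemma Q_G {a b c : E} (ha : a ∈ g.Cl 0) (hb : b ∈ g.Cl 3) (hc : c ∈ g.Cl 4) : g.Q a b c := by
  have hGb : g.G b ∈ g.Cl 1 := hb
  have hGc : g.G c ∈ g.Cl 2 := hc
  have h := g.Q_can (g.G0 ha) hGb hGc
  unfold Q at *
  have u1 : g.uR (g.G a) = g.uR a := by
    rw [g.uR_of ha, g.uR_of (g.G0 ha)]
    show g.uA (g.G a) = g.uA a
    unfold uA; rw [LinearIsometryEquiv.norm_map]
  have u2 : g.uR (g.G b) = g.uR b := by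
    rw [g.uR_of hb, g.uR_of hGb]; rfl
  have u3 : g.uR (g.G c) = g.uR c := by
    rw [g.uR_of hc, g.uR_of hGc]; rfl
  have hphi : ∀ x y : E, phi s (g.G x - g.G y) = phi s (x - y) := by
    intro x y
    rw [phi_eq, phi_eq, ← map_sub, LinearIsometryEquiv.norm_map]
  rw [u1, u2, u3, hphi, hphi, hphi] at h
  refine ⟨h.1, fun h2 => ?_⟩
  obtain ⟨k1, k2⟩ := h.2 h2
  rw [g.lab_of (g.G0 ha), g.lab_of hGb] at k1
  rw [g.lab_of (g.G0 ha), g.lab_of hGc] at k2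
  rw [g.lab_of ha, g.lab_of hb, g.lab_of hc]
  have k1' : g.G a = g.lB' (g.G b) := k1
  have k2' : g.G a = g.lC' (g.G c) := k2
  show a = g.G (g.lB' (g.G b)) ∧ a = g.G (g.lC' (g.G c))
  rw [← k1', ← k2', g.GG]
  exact ⟨rfl, rfl⟩

lemma sg_good : ∀ i j k : Fin 5, (i, j, k) ∈ goodList →
    sg i + sg j + sg k = 2 ∨ sg i + sg j + sg k = -2 := by
  intro i j k h
  have s0 : sg 0 = 0 := rfl
  have s1 : sg 1 = 1 := rfl
  have s2 : sg 2 = 1 := rfl
  have s3 : sg 3 = -1 := rfl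
  have s4 : sg 4 = -1 := rfl
  simp only [goodList, List.mem_cons, Prod.mk.injEq, List.not_mem_nil, or_false] at h
  rcases h with h | h | h | h | h | h | h | h | h | h | h | h <;>
    obtain ⟨rfl, rfl, rfl⟩ := h <;> simp only [s0, s1, s2, s3, s4] <;> norm_num

lemma Q_good {i j k : Fin 5} (h : (i, j, k) ∈ goodList) {x y z : E} (hx : x ∈ g.Cl i)
    (hy : y ∈ g.Cl j) (hz : z ∈ g.Cl k) : g.Q x y z := by
  simp only [goodList, List.mem_cons, Prod.mk.injEq, List.not_mem_nil, or_false] at h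
  rcases h with h | h | h | h | h | h | h | h | h | h | h | h <;> obtain ⟨rfl, rfl, rfl⟩ := h
  · exact g.Q_can hx hy hz
  · exact g.Q_swap23 (g.Q_can hx hz hy)
  · exact g.Q_swap12 (g.Q_can hy hx hz)
  · exact g.Q_swap23 (g.Q_swap12 (g.Q_can hz hx hy))
  · exact g.Q_swap12 (g.Q_swap23 (g.Q_can hy hz hx))
  · exact g.Q_swap12 (g.Q_swap23 (g.Q_swap12 (g.Q_can hz hy hx)))
  · exact g.Q_G hx hy hz
  · exact g.Q_swap23 (g.Q_G hx hz hy)
  · exact g.Q_swap12 (g.Q_G hy hx hz)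
  · exact g.Q_swap23 (g.Q_swap12 (g.Q_G hz hx hy))
  · exact g.Q_swap12 (g.Q_swap23 (g.Q_G hy hz hx))
  · exact g.Q_swap12 (g.Q_swap23 (g.Q_swap12 (g.Q_G hz hy hx)))

lemma main_real {i j k : Fin 5} {x y z : E} (hx : x ∈ g.Cl i)
    (hy : y ∈ g.Cl j) (hz : z ∈ g.Cl k) (hxy : x ≠ y) (hxz : x ≠ z) (hyz : y ≠ z) :
    g.uR x + g.uR y + g.uR z ≤ phi s (x - y) + phi s (x - z) + phi s (y - z) ∧
    (phi s (x - y) + phi s (x - z) + phi s (y - z) ≤ g.uR x + g.uR y + g.uR z →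
      g.lab x = g.lab y ∧ g.lab x = g.lab z ∧
      (sg (g.typ x) + sg (g.typ y) + sg (g.typ z) = 2 ∨
        sg (g.typ x) + sg (g.typ y) + sg (g.typ z) = -2)) := by
  by_cases h : (i, j, k) ∈ goodList
  · have hQ := g.Q_good h hx hy hz
    refine ⟨hQ.1, fun h2 => ⟨(hQ.2 h2).1, (hQ.2 h2).2, ?_⟩⟩
    rw [g.typ_of hx, g.typ_of hy, g.typ_of hz]
    exact sg_good i j k h
  · have hb := bad_strict g.C.τ g.C.ε g.C.τ_pos g.C.τ_lt g.C.ε_pos g.C.ε_le1 g.C.ε_le2 i j k h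
    have l1 := g.lbt_le hx hy hxy
    have l2 := g.lbt_le hx hz hxz
    have l3 := g.lbt_le hy hz hyz
    have u1 := g.uR_ub hx
    have u2 := g.uR_ub hy
    have u3 := g.uR_ub hz
    refine ⟨by linarith, fun h2 => ?_⟩
    exfalso
    linarith

end Geo

end Crest.Agent.OT175
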