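import Crest.Agent.OTGeo2

set_option autoImplicit false
set_option linter.unusedSectionVars false

open Filter Topology Set Metric MeasureTheory
open scoped ContDiff ENNReal
open Crest.AnalysisR.OT

namespace Crest.Agent.OT175

variable {E : Type*} [NormedAddCommGroup E] [InnerProductSpace ℝ E] {s : ℝ}

lemma pairCost_ne {x y : E} (h : x ≠ y) : pairCost s x y = ENNReal.ofReal (phi s (x - y)) := by
  unfold pairCost
  rw [phi_eq, ENNReal.ofReal_rpow_of_pos (norm_pos_iff.2 (sub_ne_zero.2 h))]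

lemma pairCost_self (hs : 0 < s) (x : E) : pairCost s x x = ⊤ := by
  unfold pairCost
  rw [sub_self, norm_zero, ENNReal.ofReal_zero, ENNReal.zero_rpow_of_neg (by linarith)]

lemma phi_nn (z : E) : 0 ≤ phi s z := by
  unfold phi; positivity

lemma tripleCost_ne {x y z : E} (h1 : x ≠ y) (h2 : x ≠ z) (h3 : y ≠ z) :
    tripleCost s (x, y, z) =
      ENNReal.ofReal (phi s (x - y) + phi s (x - z) + phi s (y - z)) := by
  unfold tripleCost
  simp only
  rw [pairCost_ne h1, pairCost_ne h2, pairCost_ne h3,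
    ENNReal.ofReal_add (add_nonneg (phi_nn _) (phi_nn _)) (phi_nn _),
    ENNReal.ofReal_add (phi_nn _) (phi_nn _)]

lemma tripleCost_top (hs : 0 < s) {x y z : E} (h : ¬ (x ≠ y ∧ x ≠ z ∧ y ≠ z)) :
    tripleCost s (x, y, z) = ⊤ := by
  unfold tripleCost
  simp only
  by_cases h1 : x = y
  · subst h1; rw [pairCost_self hs]; simp
  by_cases h2 : x = z
  · subst h2; rw [pairCost_self hs]; simp
  by_cases h3 : y = z
  · subst h3; rw [pairCost_self hs]; simp
  exact absurd ⟨h1, h2, h3⟩ h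

namespace Geo

variable (g : Geo E s)

/-- union of the clusters -/
def S : Set E := {x | ∃ i, x ∈ g.Cl i}

noncomputable def u (x : E) : ℝ≥0∞ := ENNReal.ofReal (g.uR x)

lemma u_sum {x y z : E} (hx : x ∈ g.S) (hy : y ∈ g.S) (hz : z ∈ g.S) :
    g.u x + g.u y + g.u z = ENNReal.ofReal (g.uR x + g.uR y + g.uR z) := by
  obtain ⟨i, hx⟩ := hx
  obtain ⟨j, hy⟩ := hy
  obtain ⟨k, hz⟩ := hz
  have h1 := g.uR_nn hx
  have h2 := g.uR_nn hy
  have h3 := g.uR_nn hz
  unfold u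
  rw [ENNReal.ofReal_add (by positivity) h3, ENNReal.ofReal_add h1 h2]

lemma le_core (x : E) (hx : x ∈ g.S) (y : E) (hy : y ∈ g.S) (z : E) (hz : z ∈ g.S) :
    g.u x + g.u y + g.u z ≤ tripleCost s (x, y, z) := by
  by_cases h : x ≠ y ∧ x ≠ z ∧ y ≠ z
  · obtain ⟨h1, h2, h3⟩ := h
    rw [g.u_sum hx hy hz, tripleCost_ne h1 h2 h3]
    obtain ⟨i, hx⟩ := hx
    obtain ⟨j, hy⟩ := hy
    obtain ⟨k, hz⟩ := hz
    exact ENNReal.ofReal_le_ofReal (g.main_real hx hy hz h1 h2 h3).1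
  · rw [tripleCost_top g.hs h]; exact le_top

lemma eq_core (x : E) (hx : x ∈ g.S) (y : E) (hy : y ∈ g.S) (z : E) (hz : z ∈ g.S)
    (heq : tripleCost s (x, y, z) = g.u x + g.u y + g.u z) :
    g.lab x = g.lab y ∧ g.lab x = g.lab z ∧
      (sg (g.typ x) + sg (g.typ y) + sg (g.typ z) = 2 ∨
        sg (g.typ x) + sg (g.typ y) + sg (g.typ z) = -2) := by
  rw [g.u_sum hx hy hz] at heq
  by_cases h : x ≠ y ∧ x ≠ z ∧ y ≠ z
  · obtain ⟨h1, h2, h3⟩ := h
    rw [tripleCost_ne h1 h2 h3] at heq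
    obtain ⟨i, hx⟩ := hx
    obtain ⟨j, hy⟩ := hy
    obtain ⟨k, hz⟩ := hz
    have hm := g.main_real hx hy hz h1 h2 h3
    apply hm.2
    have p1 := g.uR_nn hx
    have p2 := g.uR_nn hy
    have p3 := g.uR_nn hz
    have := (ENNReal.ofReal_le_ofReal_iff (by positivity)).1 heq.le
    exact this
  · rw [tripleCost_top g.hs h] at heq
    exact absurd heq.symm ENNReal.ofReal_ne_top

lemma b1_mem {a : E} (ha : a ∈ g.Cl 0) : g.β' a ∈ g.Cl 1 := by
  rw [g.β'_eq ha]; exact g.L.β_mem a ha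

lemma c1_mem {a : E} (ha : a ∈ g.Cl 0) : g.γ' a ∈ g.Cl 2 := by
  rw [g.γ'_eq ha]; exact g.L.γ_mem a ha

lemma b2_mem {a : E} (ha : a ∈ g.Cl 0) : g.G (g.β' (g.G a)) ∈ g.Cl 3 := by
  show g.G (g.G (g.β' (g.G a))) ∈ g.Cl 1
  rw [g.GG]; exact g.b1_mem (g.G0 ha)

lemma c2_mem {a : E} (ha : a ∈ g.Cl 0) : g.G (g.γ' (g.G a)) ∈ g.Cl 4 := by
  show g.G (g.G (g.γ' (g.G a))) ∈ g.Cl 2
  rw [g.GG]; exact g.c1_mem (g.G0 ha)

lemma lab_b1 {a : E} (ha : a ∈ g.Cl 0) : g.lab (g.β' a) = a := by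
  rw [g.lab_of (g.b1_mem ha)]
  show g.lB' (g.β' a) = a
  rw [g.lB'_eq (g.b1_mem ha), g.β'_eq ha, g.L.lB_β a ha]

lemma lab_c1 {a : E} (ha : a ∈ g.Cl 0) : g.lab (g.γ' a) = a := by
  rw [g.lab_of (g.c1_mem ha)]
  show g.lC' (g.γ' a) = a
  rw [g.lC'_eq (g.c1_mem ha), g.γ'_eq ha, g.L.lC_γ a ha]

lemma lab_b2 {a : E} (ha : a ∈ g.Cl 0) : g.lab (g.G (g.β' (g.G a))) = a := by
  rw [g.lab_of (g.b2_mem ha)]
  show g.G (g.lB' (g.G (g.G (g.β' (g.G a))))) = a
  rw [g.GG, g.lB'_eq (g.b1_mem (g.G0 ha)), g.β'_eq (g.G0 ha), g.L.lB_β _ (g.G0 ha), g.GG]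

lemma lab_c2 {a : E} (ha : a ∈ g.Cl 0) : g.lab (g.G (g.γ' (g.G a))) = a := by
  rw [g.lab_of (g.c2_mem ha)]
  show g.G (g.lC' (g.G (g.G (g.γ' (g.G a))))) = a
  rw [g.GG, g.lC'_eq (g.c1_mem (g.G0 ha)), g.γ'_eq (g.G0 ha), g.L.lC_γ _ (g.G0 ha), g.GG]

lemma ne_of {i j : Fin 5} (hij : i ≠ j) {x y : E} (hx : x ∈ g.Cl i) (hy : y ∈ g.Cl j) :
    x ≠ y := by
  rintro rfl
  exact g.disj hij hx hy

/-- equality along the graph: real form -/
lemma can_val {a : E} (ha : a ∈ g.Cl 0) :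
    phi s (a - g.β' a) + phi s (a - g.γ' a) + phi s (g.β' a - g.γ' a) =
      g.uR a + g.uR (g.β' a) + g.uR (g.γ' a) := by
  have h := g.can_id (a := a) (c := g.γ' a) (g.b1_mem ha : g.β' a ∈ g.L.VB)
  have h1 : g.L.lB (g.β' a) = a := by rw [g.β'_eq ha, g.L.lB_β a ha]
  rw [h1, g.γ'_eq ha, sub_self] at h
  rw [g.uR_of ha, g.uR_of (g.b1_mem ha), g.uR_of (g.c1_mem ha), g.γ'_eq ha]
  show _ = g.uA a + g.uB (g.β' a) + g.uC (g.L.γ a)
  linarith

lemma eq1_core (a : E) (ha : a ∈ g.Cl 0) :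
    tripleCost s (a, g.β' a, g.γ' a) = g.u a + g.u (g.β' a) + g.u (g.γ' a) := by
  rw [tripleCost_ne (g.ne_of (by decide) ha (g.b1_mem ha)) (g.ne_of (by decide) ha (g.c1_mem ha))
    (g.ne_of (by decide) (g.b1_mem ha) (g.c1_mem ha)), g.can_val ha,
    g.u_sum ⟨_, ha⟩ ⟨_, g.b1_mem ha⟩ ⟨_, g.c1_mem ha⟩]

lemma tripleCost_G (x y z : E) :
    tripleCost s (g.G x, g.G y, g.G z) = tripleCost s (x, y, z) := by
  unfold tripleCost pairCost
  simp only [← map_sub, LinearIsometryEquiv.norm_map]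

lemma u_G1 {x : E} (hx : x ∈ g.Cl 1) : g.u (g.G x) = g.u x := by
  have h : g.G x ∈ g.Cl 3 := by
    show g.G (g.G x) ∈ g.Cl 1
    rwa [g.GG]
  unfold u
  rw [g.uR_of h, g.uR_of hx]
  show ENNReal.ofReal (g.uB (g.G (g.G x))) = ENNReal.ofReal (g.uB x)
  rw [g.GG]

lemma u_G2 {x : E} (hx : x ∈ g.Cl 2) : g.u (g.G x) = g.u x := by
  have h : g.G x ∈ g.Cl 4 := by
    show g.G (g.G x) ∈ g.Cl 2
    rwa [g.GG]
  unfold u
  rw [g.uR_of h, g.uR_of hx]
  show ENNReal.ofReal (g.uC (g.G (g.G x))) = ENNReal.ofReal (g.uC x)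
  rw [g.GG]

lemma u_G0 {x : E} (hx : x ∈ g.Cl 0) : g.u (g.G x) = g.u x := by
  unfold u
  rw [g.uR_of (g.G0 hx), g.uR_of hx]
  show ENNReal.ofReal (g.uA (g.G x)) = ENNReal.ofReal (g.uA x)
  unfold uA
  rw [LinearIsometryEquiv.norm_map]

lemma eq2_core (a : E) (ha : a ∈ g.Cl 0) :
    tripleCost s (a, g.G (g.β' (g.G a)), g.G (g.γ' (g.G a))) =
      g.u a + g.u (g.G (g.β' (g.G a))) + g.u (g.G (g.γ' (g.G a))) := by
  have h := g.eq1_core (g.G a) (g.G0 ha)
  rw [g.u_G1 (g.b1_mem (g.G0 ha)), g.u_G2 (g.c1_mem (g.G0 ha)), ← g.u_G0 ha, ← h,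
    ← g.tripleCost_G, g.GG]
  rw [g.GG]

end Geo

/-- uniform continuity of the pair cost -/
lemma pair_unif (s : ℝ) (ε : ℝ≥0∞) (hε : 0 < ε) :
    ∃ δ : ℝ, 0 < δ ∧ ∀ x x' y : E, 1 / 2 ≤ ‖x - y‖ → ‖x - y‖ ≤ 2 → 1 / 2 ≤ ‖x' - y‖ →
      ‖x' - y‖ ≤ 2 → dist x x' < δ → pairCost s x' y ≤ pairCost s x y + ε := by
  obtain ⟨ε', hε', hle⟩ : ∃ ε' : ℝ, 0 < ε' ∧ ENNReal.ofReal ε' ≤ ε := by
    refine ⟨(min ε 1).toReal, ?_, ?_⟩
    · apply ENNReal.toReal_pos
      · exact (lt_min hε one_pos).ne'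
      · exact ne_top_of_le_ne_top ENNReal.one_ne_top (min_le_right _ _)
    · rw [ENNReal.ofReal_toReal (ne_top_of_le_ne_top ENNReal.one_ne_top (min_le_right _ _))]
      exact min_le_left _ _
  have hc : UniformContinuousOn (fun t : ℝ => t ^ (-s)) (Icc (1 / 2) 2) := by
    apply isCompact_Icc.uniformContinuousOn_of_continuous
    intro t ht
    apply ContinuousAt.continuousWithinAt
    apply Real.continuousAt_rpow_const
    left
    have := ht.1
    positivity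
  rw [Metric.uniformContinuousOn_iff] at hc
  obtain ⟨δ, hδ, h⟩ := hc ε' hε'
  refine ⟨δ, hδ, fun x x' y h1 h2 h3 h4 hd => ?_⟩
  have hxy : x ≠ y := by rintro rfl; norm_num at h1
  have hxy' : x' ≠ y := by rintro rfl; norm_num at h3
  rw [pairCost_ne hxy, pairCost_ne hxy', phi_eq, phi_eq]
  have hdist : dist ‖x - y‖ ‖x' - y‖ < δ := by
    rw [Real.dist_eq]
    refine lt_of_le_of_lt (abs_norm_sub_norm_le _ _) ?_
    rw [sub_sub_sub_cancel_right, ← dist_eq_norm]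
    exact hd
  have := h _ ⟨h1, h2⟩ _ ⟨h3, h4⟩ hdist
  rw [Real.dist_eq] at this
  have h5 := (abs_lt.1 this).1
  calc ENNReal.ofReal (‖x' - y‖ ^ (-s)) ≤ ENNReal.ofReal (‖x - y‖ ^ (-s) + ε') :=
        ENNReal.ofReal_le_ofReal (by linarith)
    _ = ENNReal.ofReal (‖x - y‖ ^ (-s)) + ENNReal.ofReal ε' :=
        ENNReal.ofReal_add (by positivity) hε'.le
    _ ≤ _ := by gcongr

namespace Geo

variable (g : Geo E s)

lemma dist_bounds {i : Fin 5} (hi : i ≠ 0) {x y : E} (hx : x ∈ g.Cl 0) (hy : y ∈ g.Cl i) :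
    1 / 2 ≤ ‖x - y‖ ∧ ‖x - y‖ ≤ 2 := by
  have h1 := g.near 0 hx
  have h2 := g.near i hy
  have h3 := g.norm_P 0 i
  have hP0 : g.P 0 = 0 := rfl
  have hd : dt 0 i = 1 := by
    fin_cases i
    · exact absurd rfl hi
    all_goals simp [dt]
  rw [hd, hP0, zero_sub, norm_neg] at h3
  rw [hP0, sub_zero] at h1
  have hr := g.L.r_lt
  constructor
  · have : ‖g.P i‖ ≤ ‖x - y‖ + ‖x‖ + ‖y - g.P i‖ := by
      calc ‖g.P i‖ = ‖-(x - y) + x - (y - g.P i)‖ := by congr 1; abel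
        _ ≤ ‖-(x - y) + x‖ + ‖y - g.P i‖ := norm_sub_le _ _
        _ ≤ ‖-(x - y)‖ + ‖x‖ + ‖y - g.P i‖ := by gcongr; exact norm_add_le _ _
        _ = _ := by rw [norm_neg]
    linarith
  · have : ‖x - y‖ ≤ ‖x‖ + ‖y - g.P i‖ + ‖g.P i‖ := by
      calc ‖x - y‖ = ‖x - (y - g.P i) - g.P i‖ := by congr 1; abel
        _ ≤ ‖x - (y - g.P i)‖ + ‖g.P i‖ := norm_sub_le _ _
        _ ≤ _ := by gcongr; exact norm_sub_le _ _
    linarith

lemma cont_core (ε : ℝ≥0∞) (hε : 0 < ε) : ∃ δ : ℝ, 0 < δ ∧ ∀ i j : Fin 5, i ≠ 0 → j ≠ 0 →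
    ∀ a ∈ g.Cl 0, ∀ a' ∈ g.Cl 0, dist a a' < δ → ∀ b ∈ g.Cl i, ∀ c ∈ g.Cl j,
    tripleCost s (a', b, c) ≤ tripleCost s (a, b, c) + ε := by
  obtain ⟨δ, hδ, h⟩ := pair_unif (E := E) s (ε / 2) (ENNReal.half_pos hε.ne')
  refine ⟨δ, hδ, fun i j hi hj a ha a' ha' hd b hb c hc => ?_⟩
  have k1 := g.dist_bounds hi ha hb
  have k2 := g.dist_bounds hi ha' hb
  have k3 := g.dist_bounds hj ha hc
  have k4 := g.dist_bounds hj ha' hc
  have e1 := h a a' b k1.1 k1.2 k2.1 k2.2 hd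
  have e2 := h a a' c k3.1 k3.2 k4.1 k4.2 hd
  unfold tripleCost
  simp only
  calc pairCost s a' b + pairCost s a' c + pairCost s b c
      ≤ (pairCost s a b + ε / 2) + (pairCost s a c + ε / 2) + pairCost s b c := by gcongr
    _ = pairCost s a b + pairCost s a c + pairCost s b c + (ε / 2 + ε / 2) := by ring
    _ = _ := by rw [ENNReal.add_halves]

/-! ### measurability -/

section meas

variable [MeasurableSpace E] [BorelSpace E] [SecondCountableTopology E]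

lemma meas_ind {U : Set E} (hU : IsOpen U) {f : E → E} (hf : ∀ x ∈ U, ContDiffAt ℝ ω f x) :
    Measurable (U.indicator f) := by
  classical
  rw [← Set.piecewise_eq_indicator]
  refine ContinuousOn.measurable_piecewise ?_ continuousOn_const hU.measurableSet
  exact fun x hx => (hf x hx).continuousAt.continuousWithinAt

lemma meas_β' : Measurable g.β' := meas_ind isOpen_ball g.L.β_smooth
lemma meas_γ' : Measurable g.γ' := meas_ind isOpen_ball g.L.γ_smooth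
lemma meas_lB' : Measurable g.lB' := meas_ind g.L.openB g.L.lB_smooth
lemma meas_lC' : Measurable g.lC' := meas_ind g.L.openC g.L.lC_smooth
lemma meas_G : Measurable g.G := g.G.continuous.measurable

lemma open_Cl (i : Fin 5) : IsOpen (g.Cl i) := by
  fin_cases i
  · exact isOpen_ball
  · exact g.L.openB
  · exact g.L.openC
  · exact g.L.openB.preimage g.G.continuous
  · exact g.L.openC.preimage g.G.continuous

lemma meas_Cl (i : Fin 5) : MeasurableSet (g.Cl i) := (g.open_Cl i).measurableSet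

lemma meas_S : MeasurableSet g.S := by
  have : g.S = ⋃ i, g.Cl i := by ext x; simp [S]
  rw [this]
  exact MeasurableSet.iUnion g.meas_Cl

lemma meas_typ : Measurable g.typ := by
  unfold typ
  refine Measurable.ite (g.meas_Cl 1) measurable_const ?_
  refine Measurable.ite (g.meas_Cl 2) measurable_const ?_
  refine Measurable.ite (g.meas_Cl 3) measurable_const ?_
  exact Measurable.ite (g.meas_Cl 4) measurable_const measurable_const

lemma meas_phi : Measurable (phi s : E → ℝ) := by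
  unfold phi
  exact (measurable_norm.pow_const 2).pow_const _

lemma meas_F {f1 f2 f3 : E → E} (h1 : Measurable f1) (h2 : Measurable f2) (h3 : Measurable f3) :
    Measurable (fun x => F s g.e (f1 x, f2 x, f3 x)) := by
  unfold F
  have m : Measurable (phi s : E → ℝ) := meas_phi
  refine Measurable.add (Measurable.sub (Measurable.add (Measurable.add (Measurable.add ?_ ?_) ?_) ?_) ?_) ?_
  · exact m.comp (h1.sub h2)
  · exact m.comp (h1.sub h3)
  · exact m.comp (h3.sub h2)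
  · exact (h1.norm.pow_const 2).const_mul _
  · exact Measurable.const_inner (h3.add_const _)
  · exact ((h3.add_const _).norm.pow_const 2).const_mul _

lemma meas_uA : Measurable g.uA := by
  unfold uA
  exact measurable_const.sub ((measurable_norm.pow_const 2).const_mul _)

lemma meas_uB : Measurable g.uB := by
  unfold uB
  exact (measurable_const.add (g.meas_F g.meas_lB' measurable_id (g.meas_γ'.comp g.meas_lB'))).sub
    measurable_const

lemma meas_uC : Measurable g.uC := by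
  unfold uC
  exact (measurable_const.add (Measurable.const_inner (measurable_id.add_const _))).sub
    (((measurable_id.add_const _).norm.pow_const 2).const_mul _)

lemma meas_uF (i : Fin 5) : Measurable (g.uF i) := by
  fin_cases i
  · exact g.meas_uA
  · exact g.meas_uB
  · exact g.meas_uC
  · exact g.meas_uB.comp g.meas_G
  · exact g.meas_uC.comp g.meas_G

lemma meas_labF (i : Fin 5) : Measurable (g.labF i) := by
  fin_cases i
  · exact measurable_id
  · exact g.meas_lB'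
  · exact g.meas_lC'
  · exact g.meas_G.comp (g.meas_lB'.comp g.meas_G)
  · exact g.meas_G.comp (g.meas_lC'.comp g.meas_G)

lemma meas_uR : Measurable g.uR := by
  have h : Measurable (fun p : Fin 5 × E => g.uF p.1 p.2) :=
    measurable_from_prod_countable_right (fun i => g.meas_uF i)
  exact h.comp (g.meas_typ.prodMk measurable_id)

lemma meas_lab : Measurable g.lab := by
  have h : Measurable (fun p : Fin 5 × E => g.labF p.1 p.2) :=
    measurable_from_prod_countable_right (fun i => g.meas_labF i)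
  exact h.comp (g.meas_typ.prodMk measurable_id)

/-- the abstract data -/
noncomputable def core (ν : Measure E) (hfin : IsFiniteMeasure ν) (hno : ∀ x, ν {x} = 0)
    (hne : ν ≠ 0) (hA : ν (ball (0 : E) g.L.ρ)ᶜ = 0) : CoreData E s where
  ν := ν
  fin := hfin
  noat := hno
  ne := hne
  A := g.Cl 0
  S := g.S
  mA := g.meas_Cl 0
  mS := g.meas_S
  ν_compl := hA
  b1 := g.β'
  c1 := g.γ'
  b2 := fun a => g.G (g.β' (g.G a))
  c2 := fun a => g.G (g.γ' (g.G a))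
  lab := g.lab
  typ := g.typ
  u := g.u
  mb1 := g.meas_β'
  mc1 := g.meas_γ'
  mb2 := g.meas_G.comp (g.meas_β'.comp g.meas_G)
  mc2 := g.meas_G.comp (g.meas_γ'.comp g.meas_G)
  mlab := g.meas_lab
  mtyp := g.meas_typ
  mu := g.meas_uR.ennreal_ofReal
  A_sub := fun x hx => ⟨0, hx⟩
  b1_S := fun a ha => ⟨1, g.b1_mem ha⟩
  c1_S := fun a ha => ⟨2, g.c1_mem ha⟩
  b2_S := fun a ha => ⟨3, g.b2_mem ha⟩
  c2_S := fun a ha => ⟨4, g.c2_mem ha⟩
  lab_a := fun a ha => by rw [g.lab_of ha]; rfl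
  lab_b1 := fun a ha => g.lab_b1 ha
  lab_c1 := fun a ha => g.lab_c1 ha
  lab_b2 := fun a ha => g.lab_b2 ha
  lab_c2 := fun a ha => g.lab_c2 ha
  typ_a := fun a ha => g.typ_of ha
  typ_b1 := fun a ha => g.typ_of (g.b1_mem ha)
  typ_c1 := fun a ha => g.typ_of (g.c1_mem ha)
  typ_b2 := fun a ha => g.typ_of (g.b2_mem ha)
  typ_c2 := fun a ha => g.typ_of (g.c2_mem ha)
  u_bdd := by
    refine ⟨ENNReal.ofReal (∑ i, |ubt g.C.τ g.C.ε i|), ENNReal.ofReal_lt_top, ?_⟩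
    rintro x ⟨i, hx⟩
    refine ENNReal.ofReal_le_ofReal ((g.uR_ub hx).trans ((le_abs_self _).trans ?_))
    exact Finset.single_le_sum (f := fun i => |ubt g.C.τ g.C.ε i|) (fun _ _ => abs_nonneg _)
      (Finset.mem_univ i)
  le := g.le_core
  eq_imp := g.eq_core
  eq1 := g.eq1_core
  eq2 := g.eq2_core
  cont := by
    intro ε hε
    obtain ⟨δ, hδ, h⟩ := g.cont_core ε hε
    refine ⟨δ, hδ, fun a ha a' ha' hd => ⟨?_, ?_⟩⟩
    · exact h 1 2 (by decide) (by decide) a ha a' ha' hd _ (g.b1_mem ha) _ (g.c1_mem ha)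
    · exact h 3 4 (by decide) (by decide) a ha a' ha' hd _ (g.b2_mem ha) _ (g.c2_mem ha)

end meas

end Geo

end Crest.Agent.OT175
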