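import Crest.Agent.OTLocal3

set_option autoImplicit false
set_option linter.unusedSectionVars false

open Filter Topology Set Metric
open scoped ContDiff

namespace Crest.Agent.OT175

variable {E : Type*} [NormedAddCommGroup E] [InnerProductSpace ℝ E]

/-- numerical choice of constants -/
structure Consts (s : ℝ) where
  τ : ℝ
  ε : ℝ
  η : ℝ
  τ_pos : 0 < τ
  τ_lt : τ < 1
  τ_sq : τ ^ 2 = (2 : ℝ) ^ (-s)
  τ_eq : τ = (Real.sqrt 2) ^ (-s)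
  ε_pos : 0 < ε
  ε_le1 : ε ≤ τ ^ 2 / 8
  ε_le2 : 12 * ε ≤ τ - τ ^ 2
  η_pos : 0 < η
  η_le : η ≤ ε
  h1 : ∀ r, 0 < r → r ≤ η → 1 - ε ≤ (1 + 2 * r) ^ (-s)
  h2 : ∀ r, 0 < r → r ≤ η → τ ^ 2 - ε ≤ (2 + 2 * r) ^ (-s)
  h3 : ∀ r, 0 < r → r ≤ η → τ - ε ≤ (Real.sqrt 2 + 2 * r) ^ (-s)
  h4 : ∀ r, 0 < r → r ≤ η → 10 ≤ (2 * r) ^ (-s)

lemma exists_near (c s ε : ℝ) (hc : 0 < c) (hε : 0 < ε) :
    ∃ η : ℝ, 0 < η ∧ ∀ r, 0 < r → r ≤ η → c ^ (-s) - ε ≤ (c + 2 * r) ^ (-s) := by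
  have hcont : ContinuousAt (fun r : ℝ => (c + 2 * r) ^ (-s)) 0 := by
    apply ContinuousAt.rpow_const
    · fun_prop
    · left; simp [hc.ne']
  have h := Metric.continuousAt_iff.1 hcont ε hε
  obtain ⟨δ, hδ, h⟩ := h
  refine ⟨δ / 2, by positivity, fun r hr hr2 => ?_⟩
  have := h (x := r) (by rw [Real.dist_eq, sub_zero, abs_of_pos hr]; linarith)
  rw [Real.dist_eq] at this
  simp only [mul_zero, add_zero] at this
  have := (abs_lt.1 this).1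
  linarith

lemma exists_consts {s : ℝ} (hs : 0 < s) (K : ℝ) (hK : 0 ≤ K) :
    ∃ C : Consts s, K * C.η + 2 * s * C.η ^ 2 ≤ C.ε ∧ 2 * s * C.η ^ 2 ≤ C.ε := by
  set τ : ℝ := (Real.sqrt 2) ^ (-s) with hτ
  have h2pos : 0 < Real.sqrt 2 := by positivity
  have hτpos : 0 < τ := Real.rpow_pos_of_pos h2pos _
  have h21 : 1 < Real.sqrt 2 := by
    rw [show (1 : ℝ) = Real.sqrt 1 by simp]
    exact Real.sqrt_lt_sqrt (by norm_num) (by norm_num)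
  have hτlt : τ < 1 := Real.rpow_lt_one_of_one_lt_of_neg h21 (by linarith)
  have hτsq : τ ^ 2 = (2 : ℝ) ^ (-s) := by
    rw [hτ, ← Real.rpow_natCast, ← Real.rpow_mul h2pos.le, mul_comm, Real.rpow_mul h2pos.le]
    norm_num
  have hτ2 : τ ^ 2 < τ := by nlinarith
  set ε : ℝ := min (τ ^ 2 / 8) ((τ - τ ^ 2) / 12) with hε
  have hεpos : 0 < ε := by
    apply lt_min (by positivity)
    have : 0 < τ - τ ^ 2 := by linarith
    positivity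
  have hε1 : ε ≤ τ ^ 2 / 8 := min_le_left _ _
  have hε2 : 12 * ε ≤ τ - τ ^ 2 := by
    have := min_le_right (τ ^ 2 / 8) ((τ - τ ^ 2) / 12)
    rw [← hε] at this
    linarith
  obtain ⟨η1, hη1, H1⟩ := exists_near 1 s ε one_pos hεpos
  obtain ⟨η2, hη2, H2⟩ := exists_near 2 s ε two_pos hεpos
  obtain ⟨η3, hη3, H3⟩ := exists_near (Real.sqrt 2) s ε h2pos hεpos
  obtain ⟨η4, hη4, H4⟩ : ∃ η : ℝ, 0 < η ∧ ∀ r, 0 < r → r ≤ η → 10 ≤ (2 * r) ^ (-s) := by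
    refine ⟨(10 : ℝ) ^ (-1 / s) / 2, by positivity, fun r hr hr2 => ?_⟩
    have h3 : 2 * r ≤ (10 : ℝ) ^ (-1 / s) := by linarith
    have h4 : ((10 : ℝ) ^ (-1 / s)) ^ (-s) ≤ (2 * r) ^ (-s) :=
      Real.rpow_le_rpow_of_nonpos (by positivity) h3 (by linarith)
    have h5 : ((10 : ℝ) ^ (-1 / s)) ^ (-s) = 10 := by
      rw [← Real.rpow_mul (by norm_num)]
      have : (-1 / s) * (-s) = 1 := by field_simp
      rw [this, Real.rpow_one]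
    linarith
  obtain ⟨η5, hη5, hη5'⟩ : ∃ η : ℝ, 0 < η ∧ ∀ x, 0 < x → x ≤ η → K * x + 2 * s * x ^ 2 ≤ ε := by
    refine ⟨min 1 (ε / (K + 2 * s)), by positivity, fun x hx hx2 => ?_⟩
    have hx3 : x ≤ 1 := hx2.trans (min_le_left _ _)
    have hx4 : x ≤ ε / (K + 2 * s) := hx2.trans (min_le_right _ _)
    have hx5 : x * (K + 2 * s) ≤ ε := by
      rwa [le_div_iff₀ (by positivity)] at hx4
    have : x ^ 2 ≤ x := by nlinarith
    nlinarith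
  obtain ⟨η, hη, k1, k2, k3, k4, k5, k6⟩ : ∃ η : ℝ, 0 < η ∧ η ≤ η1 ∧ η ≤ η2 ∧ η ≤ η3 ∧ η ≤ η4 ∧
      η ≤ η5 ∧ η ≤ ε := by
    refine ⟨min η1 (min η2 (min η3 (min η4 (min η5 ε)))), by positivity, ?_⟩
    simp
  refine ⟨{ τ := τ, ε := ε, η := η, τ_pos := hτpos, τ_lt := hτlt, τ_sq := hτsq, τ_eq := hτ
            ε_pos := hεpos, ε_le1 := hε1, ε_le2 := hε2, η_pos := hη, η_le := k6
            h1 := fun r hr hr2 => by
              have := H1 r hr (hr2.trans k1)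
              rwa [Real.one_rpow] at this
            h2 := fun r hr hr2 => by
              have := H2 r hr (hr2.trans k2)
              rwa [← hτsq] at this
            h3 := fun r hr hr2 => H3 r hr (hr2.trans k3)
            h4 := fun r hr hr2 => H4 r hr (hr2.trans k4) }, ?_, ?_⟩
  · exact hη5' η hη k5
  · have := hη5' η hη k5
    have : 0 ≤ K * η := by positivity
    show 2 * s * η ^ 2 ≤ ε
    linarith

/-- lower bound table -/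
noncomputable def lbt (τ ε : ℝ) (i j : Fin 5) : ℝ :=
  !![10, 1 - ε, 1 - ε, 1 - ε, 1 - ε;
     1 - ε, 10, τ ^ 2 - ε, τ - ε, τ - ε;
     1 - ε, τ ^ 2 - ε, 10, τ - ε, τ - ε;
     1 - ε, τ - ε, τ - ε, 10, τ ^ 2 - ε;
     1 - ε, τ - ε, τ - ε, τ ^ 2 - ε, 10] i j

/-- upper bound table -/
noncomputable def ubt (τ ε : ℝ) (i : Fin 5) : ℝ :=
  ![2 + τ ^ 2 / 2 + ε, τ ^ 2 / 4 + ε, τ ^ 2 / 4 + ε, τ ^ 2 / 4 + ε, τ ^ 2 / 4 + ε] i

def goodList : List (Fin 5 × Fin 5 × Fin 5) :=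
  [(0, 1, 2), (0, 2, 1), (1, 0, 2), (1, 2, 0), (2, 0, 1), (2, 1, 0),
   (0, 3, 4), (0, 4, 3), (3, 0, 4), (3, 4, 0), (4, 0, 3), (4, 3, 0)]

lemma bad_strict (τ ε : ℝ) (h0 : 0 < τ) (h1 : τ < 1) (hε : 0 < ε) (e1 : ε ≤ τ ^ 2 / 8)
    (e2 : 12 * ε ≤ τ - τ ^ 2) (i j k : Fin 5) (h : (i, j, k) ∉ goodList) :
    ubt τ ε i + ubt τ ε j + ubt τ ε k < lbt τ ε i j + lbt τ ε i k + lbt τ ε j k := by
  have h2 : τ ^ 2 < 1 := by nlinarith
  have h3 : 0 < τ ^ 2 := by positivity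
  fin_cases i <;> fin_cases j <;> fin_cases k <;>
    first
    | exact absurd (by decide) h
    | (simp [ubt, lbt]; linarith)

end Crest.Agent.OT175
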