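import Mathlib

/-!
Local analysis for S0175: the function `F(a,b,c)` and its partial gradient `W`.
-/

set_option autoImplicit false

open Filter Topology Set
open scoped ContDiff

set_option linter.unusedSectionVars false

namespace Crest.Agent.OT175

variable {E : Type*} [NormedAddCommGroup E] [InnerProductSpace ℝ E]

/-- radial potential `‖z‖^(-s)`, written through the squared norm. -/
noncomputable def phi (s : ℝ) (z : E) : ℝ := (‖z‖ ^ 2) ^ (-s / 2)

/-- its gradient -/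
noncomputable def V (s : ℝ) (z : E) : E := (-s * (‖z‖ ^ 2) ^ (-s / 2 - 1)) • z

lemma normsq_ne {z : E} (hz : z ≠ 0) : ‖z‖ ^ 2 ≠ 0 := by
  have := norm_pos_iff.2 hz
  positivity

lemma phi_eq (s : ℝ) (z : E) : phi s z = ‖z‖ ^ (-s) := by
  unfold phi
  rw [← Real.rpow_natCast, ← Real.rpow_mul (norm_nonneg z)]
  congr 1
  push_cast
  ring

lemma phi_neg (s : ℝ) (z : E) : phi s (-z) = phi s z := by simp [phi]

lemma phi_sub_comm (s : ℝ) (x y : E) : phi s (x - y) = phi s (y - x) := by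
  rw [← phi_neg, neg_sub]

lemma V_neg (s : ℝ) (z : E) : V s (-z) = - V s z := by simp [V]

lemma contDiffAt_phi (s : ℝ) {z : E} (hz : z ≠ 0) : ContDiffAt ℝ ω (phi s) z := by
  unfold phi
  exact ((contDiff_norm_sq ℝ).contDiffAt).rpow_const_of_ne (normsq_ne hz)

lemma contDiffAt_V (s : ℝ) {z : E} (hz : z ≠ 0) : ContDiffAt ℝ ω (V s) z := by
  unfold V
  refine ContDiffAt.smul (contDiffAt_const.mul ?_) contDiffAt_id
  exact ((contDiff_norm_sq ℝ).contDiffAt).rpow_const_of_ne (normsq_ne hz)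

lemma hasFDerivAt_phi (s : ℝ) {z : E} (hz : z ≠ 0) :
    HasFDerivAt (phi s) (innerSL ℝ (V s z)) z := by
  have h1 : HasStrictFDerivAt (fun z : E => ‖z‖ ^ 2) (2 • (innerSL ℝ z)) z :=
    hasStrictFDerivAt_norm_sq z
  have h2 := (h1.hasFDerivAt).rpow_const (p := -s / 2) (Or.inl (normsq_ne hz))
  refine h2.congr_fderiv ?_
  ext w
  simp [V]
  ring

/-- derivative of `V`. -/
noncomputable def hL (s : ℝ) (z : E) : E →L[ℝ] E :=
  (-s * (‖z‖ ^ 2) ^ (-s / 2 - 1)) • ContinuousLinearMap.id ℝ E +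
    (s * (s + 2) * (‖z‖ ^ 2) ^ (-s / 2 - 2)) • (innerSL ℝ z).smulRight z

lemma hasStrictFDerivAt_V (s : ℝ) {z : E} (hz : z ≠ 0) :
    HasStrictFDerivAt (V s) (hL s z) z := by
  have h1 : HasStrictFDerivAt (fun z : E => ‖z‖ ^ 2) (2 • (innerSL ℝ z)) z :=
    hasStrictFDerivAt_norm_sq z
  have h2 : HasStrictFDerivAt (fun z : E => (‖z‖ ^ 2) ^ (-s / 2 - 1))
      (((-s / 2 - 1) * (‖z‖ ^ 2) ^ (-s / 2 - 1 - 1)) • (2 • (innerSL ℝ z))) z :=
    h1.rpow_const (Or.inl (normsq_ne hz))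
  have h3 := (h2.const_mul (-s)).smul (hasStrictFDerivAt_id (𝕜 := ℝ) z)
  unfold V
  refine h3.congr_fderiv ?_
  ext w
  simp only [hL, add_apply, smul_apply,
    ContinuousLinearMap.id_apply, ContinuousLinearMap.smulRight_apply, innerSL_apply_apply,
    smul_eq_mul, id_eq, smul_smul]
  congr 2
  have : (-s / 2 - 1 - 1 : ℝ) = -s / 2 - 2 := by ring
  rw [this]
  simp
  ring


/-! ### The system `W = 0` -/

/-- the constant vector -/
noncomputable def kvec (s : ℝ) (e : E) : E := V s (-e) + V s (-e - e)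

/-- partial gradient of `F` in `(a, c)` -/
noncomputable def W (s : ℝ) (e : E) (p : E × E × E) : E × E :=
  (V s (p.1 - p.2.1) + V s (p.1 - p.2.2) + (4 * s) • p.1,
   V s (p.2.2 - p.1) + V s (p.2.2 - p.2.1) - kvec s e + (4 * s) • (p.2.2 + e))

/-- base point -/
def p0 (e : E) : E × E × E := (0, e, -e)

/-- `F` -/
noncomputable def F (s : ℝ) (e : E) (p : E × E × E) : ℝ :=
  phi s (p.1 - p.2.1) + phi s (p.1 - p.2.2) + phi s (p.2.2 - p.2.1) + 2 * s * ‖p.1‖ ^ 2
    - inner ℝ (kvec s e) (p.2.2 + e) + 2 * s * ‖p.2.2 + e‖ ^ 2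

lemma W_p0 (s : ℝ) (e : E) : W s e (p0 e) = 0 := by
  simp only [W, p0, zero_sub, sub_neg_eq_add, zero_add, smul_zero, add_zero, sub_zero,
    neg_add_cancel, kvec, Prod.mk_eq_zero]
  refine ⟨?_, by abel⟩
  rw [V_neg]; abel

/-- the three differences as continuous linear maps -/
noncomputable def dab : (E × E × E) →L[ℝ] E :=
  ContinuousLinearMap.fst ℝ E (E × E) - (ContinuousLinearMap.fst ℝ E E).comp (ContinuousLinearMap.snd ℝ E (E × E))
noncomputable def dac : (E × E × E) →L[ℝ] E :=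
  ContinuousLinearMap.fst ℝ E (E × E) - (ContinuousLinearMap.snd ℝ E E).comp (ContinuousLinearMap.snd ℝ E (E × E))
noncomputable def dcb : (E × E × E) →L[ℝ] E :=
  (ContinuousLinearMap.snd ℝ E E).comp (ContinuousLinearMap.snd ℝ E (E × E)) - (ContinuousLinearMap.fst ℝ E E).comp (ContinuousLinearMap.snd ℝ E (E × E))
noncomputable def prA : (E × E × E) →L[ℝ] E := ContinuousLinearMap.fst ℝ E (E × E)
noncomputable def prB : (E × E × E) →L[ℝ] E :=
  (ContinuousLinearMap.fst ℝ E E).comp (ContinuousLinearMap.snd ℝ E (E × E))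
noncomputable def prC : (E × E × E) →L[ℝ] E :=
  (ContinuousLinearMap.snd ℝ E E).comp (ContinuousLinearMap.snd ℝ E (E × E))

@[simp] lemma dab_apply (p : E × E × E) : dab p = p.1 - p.2.1 := rfl
@[simp] lemma dac_apply (p : E × E × E) : dac p = p.1 - p.2.2 := rfl
@[simp] lemma dcb_apply (p : E × E × E) : dcb p = p.2.2 - p.2.1 := rfl
@[simp] lemma prA_apply (p : E × E × E) : prA p = p.1 := rfl
@[simp] lemma prB_apply (p : E × E × E) : prB p = p.2.1 := rfl
@[simp] lemma prC_apply (p : E × E × E) : prC p = p.2.2 := rfl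

/-- derivative of `W` at the base point -/
noncomputable def LW (s : ℝ) (e : E) : (E × E × E) →L[ℝ] (E × E) :=
  ((hL s (-e)).comp dab + (hL s e).comp dac + (4 * s) • prA).prod
    (-((hL s (-e)).comp dac) + (hL s (-e - e)).comp dcb + (4 * s) • prC)

lemma contDiffAt_W (s : ℝ) {e : E} (he : e ≠ 0) : ContDiffAt ℝ ω (W s e) (p0 e) := by
  unfold W
  have he2 : (-e : E) ≠ 0 := neg_ne_zero.2 he
  have he3 : (-e - e : E) ≠ 0 := by
    intro h
    apply he
    have : (2 : ℝ) • e = 0 := by rw [two_smul]; rw [← neg_eq_zero]; rw [← h]; abel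
    simpa using this
  refine ContDiffAt.prodMk ?_ ?_
  · refine ContDiffAt.add (ContDiffAt.add ?_ ?_) ?_
    · exact ContDiffAt.comp (p0 e) (g := V s) (contDiffAt_V s (by simpa [p0] using he))
        (dab (E := E)).contDiff.contDiffAt
    · exact ContDiffAt.comp (p0 e) (g := V s) (contDiffAt_V s (by simpa [p0] using he))
        (dac (E := E)).contDiff.contDiffAt
    · exact contDiffAt_const.smul (prA (E := E)).contDiff.contDiffAt
  · refine ContDiffAt.add (ContDiffAt.sub (ContDiffAt.add ?_ ?_) contDiffAt_const) ?_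
    · exact ContDiffAt.comp (p0 e) (g := V s) (contDiffAt_V s (by simpa [p0] using he))
        (-dac (E := E)).contDiff.contDiffAt |>.congr_of_eventuallyEq
          (Eventually.of_forall fun p => by simp)
    · exact ContDiffAt.comp (p0 e) (g := V s) (contDiffAt_V s (by simpa [p0] using he3))
        (dcb (E := E)).contDiff.contDiffAt
    · exact contDiffAt_const.smul ((prC (E := E)).contDiff.contDiffAt.add contDiffAt_const)

lemma hasStrictFDerivAt_W (s : ℝ) {e : E} (he : e ≠ 0) :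
    HasStrictFDerivAt (W s e) (LW s e) (p0 e) := by
  have he2 : (-e : E) ≠ 0 := neg_ne_zero.2 he
  have he3 : (-e - e : E) ≠ 0 := by
    intro h
    apply he
    have : (2 : ℝ) • e = 0 := by rw [two_smul]; rw [← neg_eq_zero]; rw [← h]; abel
    simpa using this
  unfold W LW
  have h1 : HasStrictFDerivAt (fun p : E × E × E => V s (p.1 - p.2.1)) ((hL s (-e)).comp dab) (p0 e) := by
    have := HasStrictFDerivAt.comp (p0 e) (g := V s) (f := fun p => dab p)
      (hasStrictFDerivAt_V s (z := dab (p0 e)) (by simpa [p0] using he))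
      (dab (E := E)).hasStrictFDerivAt
    simpa [p0] using this
  have h2 : HasStrictFDerivAt (fun p : E × E × E => V s (p.1 - p.2.2)) ((hL s e).comp dac) (p0 e) := by
    have := HasStrictFDerivAt.comp (p0 e) (g := V s) (f := fun p => dac p)
      (hasStrictFDerivAt_V s (z := dac (p0 e)) (by simpa [p0] using he))
      (dac (E := E)).hasStrictFDerivAt
    simpa [p0] using this
  have h3 : HasStrictFDerivAt (fun p : E × E × E => V s (p.2.2 - p.1)) (-((hL s (-e)).comp dac)) (p0 e) := by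
    have := HasStrictFDerivAt.comp (p0 e) (g := V s) (f := fun p => (-dac) p)
      (hasStrictFDerivAt_V s (z := (-dac) (p0 e)) (by simpa [p0] using he))
      (-dac (E := E)).hasStrictFDerivAt
    simpa [p0] using this
  have h4 : HasStrictFDerivAt (fun p : E × E × E => V s (p.2.2 - p.2.1)) ((hL s (-e - e)).comp dcb) (p0 e) := by
    have := HasStrictFDerivAt.comp (p0 e) (g := V s) (f := fun p => dcb p)
      (hasStrictFDerivAt_V s (z := dcb (p0 e)) (by simpa [p0] using he3))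
      (dcb (E := E)).hasStrictFDerivAt
    simpa [p0] using this
  have h5 : HasStrictFDerivAt (fun p : E × E × E => (4 * s) • p.1) ((4 * s) • prA) (p0 e) :=
    (prA (E := E)).hasStrictFDerivAt.const_smul (4 * s)
  have h6 : HasStrictFDerivAt (fun p : E × E × E => (4 * s) • (p.2.2 + e)) ((4 * s) • prC) (p0 e) :=
    ((prC (E := E)).hasStrictFDerivAt.add_const e).const_smul (4 * s)
  exact ((h1.add h2).add h5).prodMk (((h3.add h4).sub_const _).add h6)


/-! ### Linear algebra at the base point -/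

/-- `κ = 4^(-s/2-1)` -/
noncomputable def kap (s : ℝ) : ℝ := (4 : ℝ) ^ (-s / 2 - 1)

lemma kap_pos (s : ℝ) : 0 < kap s := by unfold kap; positivity

lemma kap_lt {s : ℝ} (hs : 0 < s) : kap s < 1 / 4 := by
  unfold kap
  have : (4 : ℝ) ^ (-s / 2 - 1) < (4 : ℝ) ^ (-1 : ℝ) := by
    apply Real.rpow_lt_rpow_of_exponent_lt (by norm_num)
    linarith
  rw [Real.rpow_neg_one] at this
  norm_num at this ⊢
  exact this

lemma hL_e {s : ℝ} {e : E} (he : ‖e‖ = 1) (w : E) :
    hL s e w = (-s) • w + (s * (s + 2) * inner ℝ e w) • e := by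
  simp [hL, he, smul_smul]

lemma hL_ne {s : ℝ} {e : E} (he : ‖e‖ = 1) (w : E) :
    hL s (-e) w = (-s) • w + (s * (s + 2) * inner ℝ e w) • e := by
  simp [hL, he, smul_smul]

lemma hL_2e {s : ℝ} {e : E} (he : ‖e‖ = 1) (w : E) :
    hL s (-e - e) w = kap s • ((-s) • w + (s * (s + 2) * inner ℝ e w) • e) := by
  have h2 : (-e - e : E) = (-2 : ℝ) • e := by rw [neg_smul, two_smul]; abel
  have h3 : ‖(-2 : ℝ) • e‖ ^ 2 = 4 := by rw [norm_smul, he]; norm_num
  have h4 : (4 : ℝ) ^ (-s / 2 - 1) = (4 : ℝ) ^ (-s / 2 - 2) * 4 := by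
    rw [← Real.rpow_add_one (by norm_num)]; congr 1; ring
  rw [h2]
  simp only [hL, h3, kap, add_apply, smul_apply, ContinuousLinearMap.id_apply,
    ContinuousLinearMap.smulRight_apply, innerSL_apply_apply, inner_smul_left, smul_smul, smul_add]
  congr 1
  · congr 1; ring
  · congr 1
    rw [h4]
    simp
    ring

/-- abstract linear map `h0` -/
noncomputable def h0 (s : ℝ) (e w : E) : E := (-s) • w + (s * (s + 2) * inner ℝ e w) • e

lemma h0_add (s : ℝ) (e v w : E) : h0 s e (v + w) = h0 s e v + h0 s e w := by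
  simp only [h0, inner_add_right, smul_add, mul_add, add_smul]; abel

lemma h0_sub (s : ℝ) (e v w : E) : h0 s e (v - w) = h0 s e v - h0 s e w := by
  simp only [h0, inner_sub_right, smul_sub, mul_sub, sub_smul]; abel

lemma h0_neg (s : ℝ) (e v : E) : h0 s e (-v) = - h0 s e v := by
  simp only [h0, inner_neg_right, smul_neg, mul_neg, neg_smul]; abel

lemma h0_smul (s : ℝ) (e : E) (t : ℝ) (v : E) : h0 s e (t • v) = t • h0 s e v := by
  simp only [h0, inner_smul_right, smul_add, smul_smul]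
  congr 1
  · congr 1; ring
  · congr 1; ring

lemma inner_h0_e {s : ℝ} {e : E} (he : ‖e‖ = 1) (w : E) :
    inner ℝ e (h0 s e w) = s * (s + 1) * inner ℝ e w := by
  have : inner ℝ e e = (1 : ℝ) := by rw [real_inner_self_eq_norm_sq, he]; norm_num
  simp only [h0, inner_add_right, inner_smul_right, this]
  ring

lemma inner_h0_self (s : ℝ) (e w : E) :
    inner ℝ w (h0 s e w) = -s * ‖w‖ ^ 2 + s * (s + 2) * (inner ℝ e w) ^ 2 := by
  simp only [h0, inner_add_right, inner_smul_right, real_inner_self_eq_norm_sq]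
  rw [real_inner_comm w e]
  ring

lemma h0_inj {s : ℝ} (hs : 0 < s) {e : E} (he : ‖e‖ = 1) {w : E} (h : h0 s e w = 0) : w = 0 := by
  have h1 := inner_h0_e (s := s) he w
  rw [h, inner_zero_right] at h1
  have h2 : inner ℝ e w = (0 : ℝ) := by
    have : s * (s + 1) ≠ 0 := by positivity
    rcases mul_eq_zero.1 h1.symm with h | h
    · exact absurd h this
    · exact h
  have h3 : (-s) • w = 0 := by
    have := h
    simp only [h0, h2, mul_zero, zero_smul, add_zero] at this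
    exact this
  rcases smul_eq_zero.1 h3 with h | h
  · exact absurd h (by linarith)
  · exact h

lemma LW_apply {s : ℝ} {e : E} (he : ‖e‖ = 1) (p : E × E × E) :
    LW s e p = (h0 s e (p.1 - p.2.1) + h0 s e (p.1 - p.2.2) + (4 * s) • p.1,
      h0 s e (p.2.2 - p.1) + kap s • h0 s e (p.2.2 - p.2.1) + (4 * s) • p.2.2) := by
  have h1 : ∀ w : E, hL s e w = h0 s e w := fun w => hL_e he w
  have h2 : ∀ w : E, hL s (-e) w = h0 s e w := fun w => hL_ne he w
  have h3 : ∀ w : E, hL s (-e - e) w = kap s • h0 s e w := fun w => hL_2e he w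
  simp only [LW, ContinuousLinearMap.prod_apply, add_apply, smul_apply,
    ContinuousLinearMap.comp_apply, neg_apply, h1, h2, h3,
    dab_apply, dac_apply, dcb_apply, prA_apply, prC_apply]
  rw [← h0_neg, neg_sub]

/-- positivity on the `(a,c)` block -/
lemma LW_pos {s : ℝ} (hs : 0 < s) {e : E} (he : ‖e‖ = 1) (α γ : E) :
    s * (‖α‖ ^ 2 + ‖γ‖ ^ 2) ≤ inner ℝ (LW s e (α, 0, γ)).1 α + inner ℝ (LW s e (α, 0, γ)).2 γ := by
  have hk := kap_pos s
  have hk2 := kap_lt hs
  rw [LW_apply he]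
  simp only [sub_zero]
  have e1 : inner ℝ (h0 s e α + h0 s e (α - γ) + (4 * s) • α) α
      + inner ℝ (h0 s e (γ - α) + kap s • h0 s e γ + (4 * s) • γ) γ
      = inner ℝ α (h0 s e α) + inner ℝ (α - γ) (h0 s e (α - γ)) + kap s * inner ℝ γ (h0 s e γ)
        + 4 * s * ‖α‖ ^ 2 + 4 * s * ‖γ‖ ^ 2 := by
    have : h0 s e (γ - α) = - h0 s e (α - γ) := by rw [← h0_neg, neg_sub]
    rw [this]
    simp only [inner_add_left, inner_neg_left, inner_smul_left, inner_sub_left,
      real_inner_self_eq_norm_sq, RCLike.conj_to_real, real_inner_comm]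
    ring
  rw [e1, inner_h0_self, inner_h0_self, inner_h0_self]
  have p1 : 0 ≤ s * (s + 2) * (inner ℝ e α) ^ 2 := by positivity
  have p2 : 0 ≤ s * (s + 2) * (inner ℝ e (α - γ)) ^ 2 := by positivity
  have p3 : 0 ≤ kap s * (s * (s + 2) * (inner ℝ e γ) ^ 2) := by positivity
  have p4 : ‖α - γ‖ ^ 2 ≤ 2 * ‖α‖ ^ 2 + 2 * ‖γ‖ ^ 2 := by
    have := norm_sub_le α γ
    nlinarith [sq_nonneg (‖α‖ - ‖γ‖), norm_nonneg α, norm_nonneg γ, norm_nonneg (α - γ)]
  have p5 : kap s * (s * ‖γ‖ ^ 2) ≤ 1 / 4 * (s * ‖γ‖ ^ 2) := by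
    apply mul_le_mul_of_nonneg_right hk2.le; positivity
  have p6 : s * ‖α - γ‖ ^ 2 ≤ s * (2 * ‖α‖ ^ 2 + 2 * ‖γ‖ ^ 2) := by
    apply mul_le_mul_of_nonneg_left p4 hs.le
  have p7 : 0 ≤ s * ‖γ‖ ^ 2 := by positivity
  nlinarith

lemma LW_injB {s : ℝ} (hs : 0 < s) {e : E} (he : ‖e‖ = 1) (p : E × E × E)
    (hp : prB p = 0) (h : LW s e p = 0) : p = 0 := by
  obtain ⟨α, β, γ⟩ := p
  simp only [prB_apply] at hp
  subst hp
  have := LW_pos hs he α γ
  rw [h] at this
  simp only [Prod.fst_zero, Prod.snd_zero, inner_zero_left, add_zero] at this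
  have h1 : ‖α‖ ^ 2 + ‖γ‖ ^ 2 ≤ 0 := by
    by_contra hc
    push Not at hc
    nlinarith
  have h2 : ‖α‖ = 0 := by nlinarith [sq_nonneg ‖α‖, sq_nonneg ‖γ‖]
  have h3 : ‖γ‖ = 0 := by nlinarith [sq_nonneg ‖α‖, sq_nonneg ‖γ‖]
  rw [norm_eq_zero] at h2 h3
  simp [h2, h3]

lemma LW_injA {s : ℝ} (hs : 0 < s) {e : E} (he : ‖e‖ = 1) (p : E × E × E)
    (hp : prA p = 0) (h : LW s e p = 0) : p = 0 := by
  obtain ⟨α, β, γ⟩ := p
  simp only [prA_apply] at hp
  subst hp
  have hk := kap_pos s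
  have hk2 := kap_lt hs
  rw [LW_apply he] at h
  simp only [zero_sub, smul_zero, add_zero, sub_zero, Prod.mk_eq_zero] at h
  obtain ⟨h1, h2⟩ := h
  have h3 : h0 s e (β + γ) = 0 := by
    rw [h0_neg, h0_neg] at h1
    rw [h0_add, ← neg_eq_zero, neg_add]; exact h1
  have h4 : β = -γ := eq_neg_of_add_eq_zero_left (h0_inj hs he h3)
  rw [h4] at h2
  have h5 : inner ℝ γ (h0 s e γ + kap s • h0 s e (γ - -γ) + (4 * s) • γ) = (0 : ℝ) := by
    rw [h2, inner_zero_right]
  rw [sub_neg_eq_add, ← two_smul ℝ γ, h0_smul] at h5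
  simp only [inner_add_right, inner_smul_right, inner_h0_self, real_inner_self_eq_norm_sq] at h5
  have p1 : 0 ≤ s * (s + 2) * (inner ℝ e γ) ^ 2 := by positivity
  have p3 : 0 ≤ kap s * (s * (s + 2) * (inner ℝ e γ) ^ 2) := by positivity
  have p5 : kap s * (s * ‖γ‖ ^ 2) ≤ 1 / 4 * (s * ‖γ‖ ^ 2) := by
    apply mul_le_mul_of_nonneg_right hk2.le; positivity
  have h6 : s * ‖γ‖ ^ 2 ≤ 0 := by nlinarith
  have h7 : ‖γ‖ = 0 := by
    by_contra hc
    have : 0 < ‖γ‖ := lt_of_le_of_ne (norm_nonneg _) (Ne.symm hc)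
    have : 0 < s * ‖γ‖ ^ 2 := by positivity
    linarith
  rw [norm_eq_zero] at h7
  simp [h4, h7]

lemma LW_injC {s : ℝ} (hs : 0 < s) {e : E} (he : ‖e‖ = 1) (p : E × E × E)
    (hp : prC p = 0) (h : LW s e p = 0) : p = 0 := by
  obtain ⟨α, β, γ⟩ := p
  simp only [prC_apply] at hp
  subst hp
  have hk := kap_pos s
  have hk2 := kap_lt hs
  rw [LW_apply he] at h
  simp only [zero_sub, smul_zero, add_zero, sub_zero, Prod.mk_eq_zero] at h
  obtain ⟨h1, h2⟩ := h
  have h3 : h0 s e (α + kap s • β) = 0 := by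
    rw [h0_neg, h0_neg] at h2
    rw [h0_add, h0_smul, ← neg_eq_zero, neg_add, ← smul_neg]; exact h2
  have h4 : α = -(kap s • β) := eq_neg_of_add_eq_zero_left (h0_inj hs he h3)
  rw [h4] at h1
  have h5 : (1 + 2 * kap s) • h0 s e β + (4 * s * kap s) • β = 0 := by
    rw [← neg_eq_zero, ← h1, h0_sub, h0_neg, h0_smul]
    module
  have h6 : inner ℝ e ((1 + 2 * kap s) • h0 s e β + (4 * s * kap s) • β) = (0 : ℝ) := by
    rw [h5, inner_zero_right]
  rw [inner_add_right, inner_smul_right, inner_smul_right, inner_h0_e he] at h6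
  have h7 : ((1 + 2 * kap s) * (s * (s + 1)) + 4 * s * kap s) * inner ℝ e β = (0 : ℝ) := by
    linarith
  have h8 : inner ℝ e β = (0 : ℝ) := by
    rcases mul_eq_zero.1 h7 with h | h
    · have : 0 < (1 + 2 * kap s) * (s * (s + 1)) + 4 * s * kap s := by positivity
      linarith
    · exact h
  have h9 : (-(s * (1 - 2 * kap s))) • β = 0 := by
    rw [← h5]
    simp only [h0, h8, mul_zero, zero_smul, add_zero]
    module
  have h10 : β = 0 := by
    rcases smul_eq_zero.1 h9 with h | h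
    · have : 0 < s * (1 - 2 * kap s) := by apply mul_pos hs; linarith
      linarith
    · exact h
  simp [h4, h10]

end Crest.Agent.OT175
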