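import Crest.Agent.OTLocal

set_option autoImplicit false
set_option linter.unusedSectionVars false

open Filter Topology Set Metric
open scoped ContDiff

namespace Crest.Agent.OT175

variable {E : Type*} [NormedAddCommGroup E] [InnerProductSpace ℝ E]

/-- local inverse for one of the three coordinate projections -/
lemma local_inv [FiniteDimensional ℝ E] (s : ℝ) {e : E} (he : ‖e‖ = 1)
    (π : (E × E × E) →L[ℝ] E) (hinj : ∀ p, π p = 0 → LW s e p = 0 → p = 0) :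
    ∃ P : E → E × E × E, P (π (p0 e)) = p0 e ∧ (∀ᶠ x in 𝓝 (π (p0 e)), ContDiffAt ℝ ω P x) ∧
      (∀ᶠ x in 𝓝 (π (p0 e)), π (P x) = x ∧ W s e (P x) = 0) ∧
      (∀ᶠ p in 𝓝 (p0 e), W s e p = 0 → P (π p) = p) := by
  have he0 : e ≠ 0 := by rintro rfl; simp at he
  set Ψ : E × E × E → E × E × E := fun p => (π p, W s e p) with hΨ
  have hd : HasStrictFDerivAt Ψ (π.prod (LW s e)) (p0 e) :=
    π.hasStrictFDerivAt.prodMk (hasStrictFDerivAt_W s he0)
  have hc : ContDiffAt ℝ ω Ψ (p0 e) := π.contDiff.contDiffAt.prodMk (contDiffAt_W s he0)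
  have hin : Function.Injective ((π.prod (LW s e) : (E × E × E) →L[ℝ] (E × E × E)) :
      (E × E × E) →ₗ[ℝ] (E × E × E)) := by
    rw [← LinearMap.ker_eq_bot, LinearMap.ker_eq_bot']
    intro p hp
    have hp' : (π p, LW s e p) = (0, 0) := hp
    rw [Prod.mk_inj] at hp'
    exact hinj p hp'.1 hp'.2
  set eqv : (E × E × E) ≃L[ℝ] (E × E × E) :=
    (LinearEquiv.ofInjectiveEndo _ hin).toContinuousLinearEquiv with heqv
  have hcoe : (eqv : (E × E × E) →L[ℝ] (E × E × E)) = π.prod (LW s e) := by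
    ext p <;> rfl
  have hd' : HasFDerivAt Ψ (eqv : (E × E × E) →L[ℝ] (E × E × E)) (p0 e) := by
    rw [hcoe]; exact hd.hasFDerivAt
  have hn : (ω : WithTop ℕ∞) ≠ 0 := by simp
  set G := hc.localInverse hd' hn with hG
  have hGc : ContDiffAt ℝ ω G (Ψ (p0 e)) := hc.to_localInverse hd' hn
  have hstr := hc.hasStrictFDerivAt' hd' hn
  have hΨ0 : Ψ (p0 e) = (π (p0 e), 0) := by simp [hΨ, W_p0]
  set ι : E → E × E × E := fun x => (x, 0) with hι
  have hιc : Continuous ι := by fun_prop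
  have hιt : Tendsto ι (𝓝 (π (p0 e))) (𝓝 (Ψ (p0 e))) := by
    rw [hΨ0]; exact hιc.tendsto _
  refine ⟨fun x => G (ι x), ?_, ?_, ?_, ?_⟩
  · have : ι (π (p0 e)) = Ψ (p0 e) := by rw [hΨ0]
    show G (ι (π (p0 e))) = p0 e
    rw [this]
    exact hc.localInverse_apply_image hd' hn
  · have h1 : ∀ᶠ y in 𝓝 (Ψ (p0 e)), ContDiffAt ℝ ω G y := hGc.eventually (by simp)
    filter_upwards [hιt.eventually h1] with x hx
    have hιd : ContDiff ℝ ω ι := contDiff_id.prodMk contDiff_const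
    exact ContDiffAt.comp x (g := G) (f := ι) hx hιd.contDiffAt
  · have h1 : ∀ᶠ y in 𝓝 (Ψ (p0 e)), Ψ (G y) = y := hstr.eventually_right_inverse
    filter_upwards [hιt.eventually h1] with x hx
    have hx' : (π (G (ι x)), W s e (G (ι x))) = (x, 0) := hx
    rw [Prod.mk_inj] at hx'
    exact hx'
  · have h1 : ∀ᶠ p in 𝓝 (p0 e), G (Ψ p) = p := hstr.eventually_left_inverse
    filter_upwards [h1] with p hp hW
    have : Ψ p = ι (π p) := by simp [hΨ, hι, hW]
    rw [this] at hp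
    exact hp

lemma mono_near {s : ℝ} (hs : 0 < s) {e : E} (he : ‖e‖ = 1) :
    ∀ᶠ pq : (E × E × E) × (E × E × E) in 𝓝 (p0 e, p0 e),
      pq.1.2.1 = pq.2.2.1 →
      (s / 2) * (‖pq.1.1 - pq.2.1‖ ^ 2 + ‖pq.1.2.2 - pq.2.2.2‖ ^ 2) ≤
        inner ℝ ((W s e pq.1).1 - (W s e pq.2).1) (pq.1.1 - pq.2.1) +
        inner ℝ ((W s e pq.1).2 - (W s e pq.2).2) (pq.1.2.2 - pq.2.2.2) := by
  have he0 : e ≠ 0 := by rintro rfl; simp at he
  have h := (hasStrictFDerivAt_W s he0).isLittleO.def (c := s / 4) (by positivity)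
  filter_upwards [h] with pq hpq hb
  obtain ⟨⟨a, b, c⟩, ⟨a', b', c'⟩⟩ := pq
  simp only at hb hpq ⊢
  subst hb
  set α := a - a' with hα
  set γ := c - c' with hγ
  have hsub : ((a, b, c) : E × E × E) - (a', b, c') = (α, 0, γ) := by simp [hα, hγ]
  rw [hsub] at hpq
  set R := W s e (a, b, c) - W s e (a', b, c') - LW s e (α, 0, γ) with hR
  have hn : ‖((α, 0, γ) : E × E × E)‖ ≤ ‖α‖ + ‖γ‖ := by
    rw [Prod.norm_def, Prod.norm_def]
    simp only [norm_zero]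
    refine max_le (by linarith [norm_nonneg γ]) (max_le (by positivity) (by linarith [norm_nonneg α]))
  have e1 : (W s e (a, b, c)).1 - (W s e (a', b, c')).1 = (LW s e (α, 0, γ)).1 + R.1 := by
    simp [hR]
  have e2 : (W s e (a, b, c)).2 - (W s e (a', b, c')).2 = (LW s e (α, 0, γ)).2 + R.2 := by
    simp [hR]
  rw [e1, e2, inner_add_left, inner_add_left]
  have hp := LW_pos hs he α γ
  have r1 : -(‖R‖ * ‖α‖) ≤ inner ℝ R.1 α := by
    have := abs_real_inner_le_norm R.1 α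
    have h2 : ‖R.1‖ ≤ ‖R‖ := norm_fst_le R
    have h3 := abs_le.1 this
    have h4 : ‖R.1‖ * ‖α‖ ≤ ‖R‖ * ‖α‖ := mul_le_mul_of_nonneg_right h2 (norm_nonneg _)
    linarith [h3.1]
  have r2 : -(‖R‖ * ‖γ‖) ≤ inner ℝ R.2 γ := by
    have := abs_real_inner_le_norm R.2 γ
    have h2 : ‖R.2‖ ≤ ‖R‖ := norm_snd_le R
    have h3 := abs_le.1 this
    have h4 : ‖R.2‖ * ‖γ‖ ≤ ‖R‖ * ‖γ‖ := mul_le_mul_of_nonneg_right h2 (norm_nonneg _)
    linarith [h3.1]
  have r3 : ‖R‖ ≤ s / 4 * (‖α‖ + ‖γ‖) :=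
    hpq.trans (mul_le_mul_of_nonneg_left hn (by positivity))
  have r4 : ‖R‖ * (‖α‖ + ‖γ‖) ≤ s / 4 * (‖α‖ + ‖γ‖) * (‖α‖ + ‖γ‖) :=
    mul_le_mul_of_nonneg_right r3 (by positivity)
  have r5 : s / 4 * (‖α‖ + ‖γ‖) * (‖α‖ + ‖γ‖) ≤ s / 2 * (‖α‖ ^ 2 + ‖γ‖ ^ 2) := by
    have : 0 ≤ s / 4 * (‖α‖ - ‖γ‖) ^ 2 := by positivity
    nlinarith
  nlinarith

lemma hasDerivAt_line (s : ℝ) (e : E) (p : E × E × E) (α γ : E) (t : ℝ)
    (h1 : (p.1 + t • α) - p.2.1 ≠ 0) (h2 : (p.1 + t • α) - (p.2.2 + t • γ) ≠ 0)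
    (h3 : (p.2.2 + t • γ) - p.2.1 ≠ 0) :
    HasDerivAt (fun t : ℝ => F s e (p.1 + t • α, p.2.1, p.2.2 + t • γ))
      (inner ℝ (W s e (p.1 + t • α, p.2.1, p.2.2 + t • γ)).1 α +
       inner ℝ (W s e (p.1 + t • α, p.2.1, p.2.2 + t • γ)).2 γ) t := by
  have la : HasDerivAt (fun t : ℝ => p.1 + t • α) α t := by
    simpa using ((hasDerivAt_id t).smul_const α).const_add p.1
  have lc : HasDerivAt (fun t : ℝ => p.2.2 + t • γ) γ t := by
    simpa using ((hasDerivAt_id t).smul_const γ).const_add p.2.2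
  have d1 : HasDerivAt (fun t : ℝ => phi s ((p.1 + t • α) - p.2.1))
      (inner ℝ (V s ((p.1 + t • α) - p.2.1)) α) t := by
    exact (hasFDerivAt_phi s h1).comp_hasDerivAt t (la.sub_const p.2.1)
  have d2 : HasDerivAt (fun t : ℝ => phi s ((p.1 + t • α) - (p.2.2 + t • γ)))
      (inner ℝ (V s ((p.1 + t • α) - (p.2.2 + t • γ))) (α - γ)) t := by
    exact (hasFDerivAt_phi s h2).comp_hasDerivAt t (la.sub lc)
  have d3 : HasDerivAt (fun t : ℝ => phi s ((p.2.2 + t • γ) - p.2.1))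
      (inner ℝ (V s ((p.2.2 + t • γ) - p.2.1)) γ) t := by
    exact (hasFDerivAt_phi s h3).comp_hasDerivAt t (lc.sub_const p.2.1)
  have d4 : HasDerivAt (fun t : ℝ => ‖p.1 + t • α‖ ^ 2) (2 * inner ℝ (p.1 + t • α) α) t := by
    have := la.norm_sq
    simpa using this
  have d5 : HasDerivAt (fun t : ℝ => ‖(p.2.2 + t • γ) + e‖ ^ 2)
      (2 * inner ℝ ((p.2.2 + t • γ) + e) γ) t := by
    have := (lc.add_const e).norm_sq
    simpa using this
  have d6 : HasDerivAt (fun t : ℝ => inner ℝ (kvec s e) ((p.2.2 + t • γ) + e))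
      (inner ℝ (kvec s e) γ) t := by
    have := (hasDerivAt_const t (kvec s e)).inner ℝ (lc.add_const e)
    simpa using this
  have := ((((d1.add d2).add d3).add (d4.const_mul (2 * s))).sub d6).add (d5.const_mul (2 * s))
  unfold F
  refine this.congr_deriv ?_
  simp only [W]
  have hV : V s ((p.2.2 + t • γ) - (p.1 + t • α)) = - V s ((p.1 + t • α) - (p.2.2 + t • γ)) := by
    rw [← V_neg, neg_sub]
  rw [hV]
  simp only [inner_add_left, inner_sub_left, inner_neg_left, inner_sub_right, inner_smul_left,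
    RCLike.conj_to_real]
  ring

/-- local strict minimality of critical points of `F(·, b, ·)` -/
lemma local_min {s : ℝ} (hs : 0 < s) {e : E} (he : ‖e‖ = 1) :
    ∃ r : ℝ, 0 < r ∧ r < 1 / 4 ∧ ∀ a ∈ ball (0 : E) r, ∀ a' ∈ ball (0 : E) r, ∀ b ∈ ball e r,
      ∀ c ∈ ball (-e) r, ∀ c' ∈ ball (-e) r, W s e (a', b, c') = 0 →
        F s e (a', b, c') ≤ F s e (a, b, c) ∧
        (F s e (a, b, c) ≤ F s e (a', b, c') → a = a' ∧ c = c') := by
  obtain ⟨r0, hr0, h⟩ := Metric.eventually_nhds_iff_ball.1 (mono_near hs he)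
  refine ⟨min r0 (1 / 5), by positivity, by
    have := min_le_right r0 (1 / 5); linarith, ?_⟩
  set r := min r0 (1 / 5) with hr
  have hrr : r ≤ r0 := min_le_left _ _
  have hr5 : r ≤ 1 / 5 := min_le_right _ _
  intro a ha a' ha' b hb c hc c' hc' hW
  rcases eq_or_ne (a, c) (a', c') with heq | hne
  · rw [Prod.mk_inj] at heq
    obtain ⟨rfl, rfl⟩ := heq
    exact ⟨le_rfl, fun _ => ⟨rfl, rfl⟩⟩
  -- points on the segment
  set α := a - a' with hα
  set γ := c - c' with hγ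
  have hmemA : ∀ t ∈ Icc (0 : ℝ) 1, a' + t • α ∈ ball (0 : E) r := by
    intro t ht
    have : a' + t • α = (1 - t) • a' + t • a := by rw [hα]; module
    rw [this]
    exact convex_ball (0 : E) r ha' ha (by linarith [ht.2]) ht.1 (by ring)
  have hmemC : ∀ t ∈ Icc (0 : ℝ) 1, c' + t • γ ∈ ball (-e) r := by
    intro t ht
    have : c' + t • γ = (1 - t) • c' + t • c := by rw [hγ]; module
    rw [this]
    exact convex_ball (-e) r hc' hc (by linarith [ht.2]) ht.1 (by ring)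
  have nz1 : ∀ x ∈ ball (0 : E) r, x - b ≠ 0 := by
    intro x hx h0
    have h1 : ‖x‖ < r := by simpa using hx
    have h2 : ‖b - e‖ < r := by simpa [dist_eq_norm] using hb
    have h3 : x = b := sub_eq_zero.1 h0
    have : ‖e‖ ≤ ‖x‖ + ‖b - e‖ := by
      calc ‖e‖ = ‖x - (b - e)‖ := by rw [h3]; congr 1; abel
        _ ≤ _ := norm_sub_le _ _
    linarith
  have nz2 : ∀ x ∈ ball (0 : E) r, ∀ y ∈ ball (-e) r, x - y ≠ 0 := by
    intro x hx y hy h0
    have h1 : ‖x‖ < r := by simpa using hx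
    have h2 : ‖y + e‖ < r := by simpa [dist_eq_norm] using hy
    have h3 : x = y := sub_eq_zero.1 h0
    have : ‖e‖ ≤ ‖y + e‖ + ‖x‖ := by
      calc ‖e‖ = ‖(y + e) - x‖ := by rw [h3]; congr 1; abel
        _ ≤ _ := norm_sub_le _ _
    linarith
  have nz3 : ∀ y ∈ ball (-e) r, y - b ≠ 0 := by
    intro y hy h0
    have h1 : ‖b - e‖ < r := by simpa [dist_eq_norm] using hb
    have h2 : ‖y + e‖ < r := by simpa [dist_eq_norm] using hy
    have h3 : y = b := sub_eq_zero.1 h0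
    have : ‖(2 : ℝ) • e‖ ≤ ‖y + e‖ + ‖b - e‖ := by
      calc ‖(2 : ℝ) • e‖ = ‖(y + e) - (b - e)‖ := by rw [h3]; congr 1; module
        _ ≤ _ := norm_sub_le _ _
    rw [norm_smul, he] at this
    norm_num at this
    linarith
  set g : ℝ → ℝ := fun t => F s e (a' + t • α, b, c' + t • γ) with hg
  set g' : ℝ → ℝ := fun t => inner ℝ (W s e (a' + t • α, b, c' + t • γ)).1 α +
       inner ℝ (W s e (a' + t • α, b, c' + t • γ)).2 γ with hg'
  have hder : ∀ t ∈ Icc (0 : ℝ) 1, HasDerivAt g (g' t) t := by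
    intro t ht
    exact hasDerivAt_line s e (a', b, c') α γ t (nz1 _ (hmemA t ht))
      (nz2 _ (hmemA t ht) _ (hmemC t ht)) (nz3 _ (hmemC t ht))
  obtain ⟨ξ, hξ, hslope⟩ := exists_hasDerivAt_eq_slope g g' (by norm_num : (0 : ℝ) < 1)
    (fun t ht => (hder t ht).continuousAt.continuousWithinAt)
    (fun t ht => hder t (Ioo_subset_Icc_self ht))
  have hpos : 0 < g' ξ := by
    have hp1 : ((a' + ξ • α, b, c' + ξ • γ), (a', b, c')) ∈ ball (p0 e, p0 e) r0 := by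
      rw [← ball_prod_same, mem_prod, p0, ← ball_prod_same, ← ball_prod_same]
      have i1 := ball_subset_ball hrr (hmemA ξ (Ioo_subset_Icc_self hξ))
      have i2 := ball_subset_ball hrr (hmemC ξ (Ioo_subset_Icc_self hξ))
      exact ⟨⟨i1, ball_subset_ball hrr hb, i2⟩,
        ⟨ball_subset_ball hrr ha', ball_subset_ball hrr hb, ball_subset_ball hrr hc'⟩⟩
    have := h _ hp1 rfl
    simp only [hW, Prod.fst_zero, Prod.snd_zero, sub_zero, add_sub_cancel_left, inner_smul_right,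
      norm_smul, Real.norm_eq_abs, abs_of_pos hξ.1] at this
    have hne' : 0 < ‖α‖ ^ 2 + ‖γ‖ ^ 2 := by
      by_contra hcon
      push Not at hcon
      have h1 : ‖α‖ = 0 := by nlinarith [sq_nonneg ‖α‖, sq_nonneg ‖γ‖]
      have h2 : ‖γ‖ = 0 := by nlinarith [sq_nonneg ‖α‖, sq_nonneg ‖γ‖]
      rw [norm_eq_zero, hα, sub_eq_zero] at h1
      rw [norm_eq_zero, hγ, sub_eq_zero] at h2
      exact hne (by rw [h1, h2])
    have h3 : 0 < ξ * g' ξ := by
      have h4 : s / 2 * ((ξ * ‖α‖) ^ 2 + (ξ * ‖γ‖) ^ 2) ≤ ξ * g' ξ := by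
        rw [hg']; simp only [mul_add]; linarith
      have h5 : 0 < s / 2 * ((ξ * ‖α‖) ^ 2 + (ξ * ‖γ‖) ^ 2) := by
        have : (ξ * ‖α‖) ^ 2 + (ξ * ‖γ‖) ^ 2 = ξ ^ 2 * (‖α‖ ^ 2 + ‖γ‖ ^ 2) := by ring
        rw [this]
        have := hξ.1
        positivity
      linarith
    exact (mul_pos_iff_of_pos_left hξ.1).1 h3
  have hlt : F s e (a', b, c') < F s e (a, b, c) := by
    have h0 : g 0 = F s e (a', b, c') := by simp [hg]
    have h1 : g 1 = F s e (a, b, c) := by simp [hg, hα, hγ]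
    rw [hslope, h0, h1] at hpos
    simp at hpos
    exact hpos
  exact ⟨hlt.le, fun hh => absurd hlt (not_lt.2 hh)⟩

end Crest.Agent.OT175
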