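import Crest.Agent.OTLocal2

set_option autoImplicit false
set_option linter.unusedSectionVars false

open Filter Topology Set Metric
open scoped ContDiff

namespace Crest.Agent.OT175

variable {E : Type*} [NormedAddCommGroup E] [InnerProductSpace ℝ E]

lemma mem_ball_p0 {e : E} {r : ℝ} {p : E × E × E} :
    p ∈ ball (p0 e) r ↔ p.1 ∈ ball (0 : E) r ∧ p.2.1 ∈ ball e r ∧ p.2.2 ∈ ball (-e) r := by
  rw [p0, ← ball_prod_same, mem_prod, ← ball_prod_same, mem_prod]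

lemma continuousAt_F (s : ℝ) {e : E} (he : e ≠ 0) : ContinuousAt (F s e) (p0 e) := by
  have he3 : (-e - e : E) ≠ 0 := by
    intro h
    apply he
    have : (2 : ℝ) • e = 0 := by rw [two_smul]; rw [← neg_eq_zero]; rw [← h]; abel
    simpa using this
  have h1 : ContinuousAt (fun p : E × E × E => phi s (p.1 - p.2.1)) (p0 e) :=
    ContinuousAt.comp (g := phi s) (f := fun p : E × E × E => p.1 - p.2.1)
      (contDiffAt_phi s (by simpa [p0] using he)).continuousAt (by fun_prop)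
  have h2 : ContinuousAt (fun p : E × E × E => phi s (p.1 - p.2.2)) (p0 e) :=
    ContinuousAt.comp (g := phi s) (f := fun p : E × E × E => p.1 - p.2.2)
      (contDiffAt_phi s (by simpa [p0] using he)).continuousAt (by fun_prop)
  have h3 : ContinuousAt (fun p : E × E × E => phi s (p.2.2 - p.2.1)) (p0 e) :=
    ContinuousAt.comp (g := phi s) (f := fun p : E × E × E => p.2.2 - p.2.1)
      (contDiffAt_phi s (by simpa [p0] using he3)).continuousAt (by fun_prop)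
  unfold F
  refine ContinuousAt.add (ContinuousAt.sub (ContinuousAt.add (ContinuousAt.add (ContinuousAt.add h1 h2) h3) ?_) ?_) ?_
  · fun_prop
  · fun_prop
  · fun_prop

/-- The local structure of the contact set. -/
structure LocStruct (s : ℝ) (e : E) (η : ℝ) where
  r : ℝ
  ρ : ℝ
  β : E → E
  γ : E → E
  lB : E → E
  lC : E → E
  VB : Set E
  VC : Set E
  ρ_pos : 0 < ρ
  ρ_le : ρ ≤ r
  r_lt : r < 1 / 4
  r_le : r ≤ η
  openB : IsOpen VB
  openC : IsOpen VC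
  subB : VB ⊆ ball e r
  subC : VC ⊆ ball (-e) r
  β_mem : ∀ a ∈ ball (0 : E) ρ, β a ∈ VB
  lB_β : ∀ a ∈ ball (0 : E) ρ, lB (β a) = a
  lB_mem : ∀ y ∈ VB, lB y ∈ ball (0 : E) ρ
  β_lB : ∀ y ∈ VB, β (lB y) = y
  γ_mem : ∀ a ∈ ball (0 : E) ρ, γ a ∈ VC
  lC_γ : ∀ a ∈ ball (0 : E) ρ, lC (γ a) = a
  lC_mem : ∀ y ∈ VC, lC y ∈ ball (0 : E) ρ
  γ_lC : ∀ y ∈ VC, γ (lC y) = y
  β_smooth : ∀ a ∈ ball (0 : E) ρ, ContDiffAt ℝ ω β a
  γ_smooth : ∀ a ∈ ball (0 : E) ρ, ContDiffAt ℝ ω γ a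
  lB_smooth : ∀ y ∈ VB, ContDiffAt ℝ ω lB y
  lC_smooth : ∀ y ∈ VC, ContDiffAt ℝ ω lC y
  min_le : ∀ a₀ ∈ ball (0 : E) ρ, ∀ a ∈ ball (0 : E) r, ∀ c ∈ ball (-e) r,
    F s e (a₀, β a₀, γ a₀) ≤ F s e (a, β a₀, c)
  min_eq : ∀ a₀ ∈ ball (0 : E) ρ, ∀ a ∈ ball (0 : E) r, ∀ c ∈ ball (-e) r,
    F s e (a, β a₀, c) ≤ F s e (a₀, β a₀, γ a₀) → a = a₀ ∧ c = γ a₀
  close : ∀ a₀ ∈ ball (0 : E) ρ, |F s e (a₀, β a₀, γ a₀) - F s e (p0 e)| < η

theorem exists_locStruct [FiniteDimensional ℝ E] {s : ℝ} (hs : 0 < s) {e : E} (he : ‖e‖ = 1)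
    {η : ℝ} (hη : 0 < η) : Nonempty (LocStruct s e η) := by
  have he0 : e ≠ 0 := by rintro rfl; simp at he
  obtain ⟨rm, hrm, hrm4, hmin⟩ := local_min hs he
  obtain ⟨PA, hA0, hAs, hAr, hAl⟩ := local_inv s he prA (fun p h1 h2 => LW_injA hs he p h1 h2)
  obtain ⟨PB, hB0, hBs, hBr, hBl⟩ := local_inv s he prB (fun p h1 h2 => LW_injB hs he p h1 h2)
  obtain ⟨PC, hC0, hCs, hCr, hCl⟩ := local_inv s he prC (fun p h1 h2 => LW_injC hs he p h1 h2)
  have a0 : prA (p0 e) = 0 := rfl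
  have b0 : prB (p0 e) = e := rfl
  have c0 : prC (p0 e) = -e := rfl
  rw [a0] at hA0 hAs hAr
  rw [b0] at hB0 hBs hBr
  rw [c0] at hC0 hCs hCr
  obtain ⟨r1, hr1, H1⟩ := Metric.eventually_nhds_iff_ball.1 (hAs.and hAr)
  obtain ⟨r2, hr2, H2⟩ := Metric.eventually_nhds_iff_ball.1 (hBs.and hBr)
  obtain ⟨r3, hr3, H3⟩ := Metric.eventually_nhds_iff_ball.1 (hCs.and hCr)
  obtain ⟨r4, hr4, H4⟩ := Metric.eventually_nhds_iff_ball.1 (hAl.and (hBl.and hCl))
  obtain ⟨r, hr, hr_le⟩ : ∃ r : ℝ, 0 < r ∧ r ≤ rm ∧ r ≤ η ∧ r ≤ r1 ∧ r ≤ r2 ∧ r ≤ r3 ∧ r ≤ r4 := by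
    refine ⟨min rm (min η (min r1 (min r2 (min r3 r4)))), by positivity, ?_⟩
    simp
  obtain ⟨k1, k2, k3, k4, k5, k6⟩ := hr_le
  have hPAc : ContinuousAt PA 0 := (H1 0 (mem_ball_self hr1)).1.continuousAt
  have hev1 : ∀ᶠ a in 𝓝 (0 : E), PA a ∈ ball (p0 e) r := by
    apply hPAc.eventually_mem
    rw [hA0]; exact ball_mem_nhds _ hr
  have hev2 : ∀ᶠ a in 𝓝 (0 : E), |F s e (PA a) - F s e (p0 e)| < η := by
    have hc : ContinuousAt (fun a => F s e (PA a)) 0 := by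
      apply ContinuousAt.comp (g := F s e)
      · rw [hA0]; exact continuousAt_F s he0
      · exact hPAc
    have := Metric.continuousAt_iff'.1 hc η hη
    rw [hA0] at this
    simpa [Real.dist_eq] using this
  obtain ⟨ρ1, hρ1, H5⟩ := Metric.eventually_nhds_iff_ball.1 (hev1.and hev2)
  obtain ⟨ρ, hρ, hρr, hρ1'⟩ : ∃ ρ : ℝ, 0 < ρ ∧ ρ ≤ r ∧ ρ ≤ ρ1 :=
    ⟨min r ρ1, by positivity, min_le_left _ _, min_le_right _ _⟩
  have inA : ∀ a ∈ ball (0 : E) ρ, a ∈ ball (0 : E) r1 :=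
    fun a ha => ball_subset_ball (hρr.trans k3) ha
  have inP : ∀ a ∈ ball (0 : E) ρ, PA a ∈ ball (p0 e) r :=
    fun a ha => (H5 a (ball_subset_ball hρ1' ha)).1
  have fstA : ∀ a ∈ ball (0 : E) ρ, (PA a).1 = a := fun a ha => (H1 a (inA a ha)).2.1
  have WA : ∀ a ∈ ball (0 : E) ρ, W s e (PA a) = 0 := fun a ha => (H1 a (inA a ha)).2.2
  have eqA : ∀ a ∈ ball (0 : E) ρ, PA a = (a, (PA a).2.1, (PA a).2.2) := by
    intro a ha
    conv_lhs => rw [← Prod.mk.eta (p := PA a), fstA a ha]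
  have BA : ∀ a ∈ ball (0 : E) ρ, PB (PA a).2.1 = PA a := fun a ha =>
    (H4 (PA a) (ball_subset_ball k6 (inP a ha))).2.1 (WA a ha)
  have CA : ∀ a ∈ ball (0 : E) ρ, PC (PA a).2.2 = PA a := fun a ha =>
    (H4 (PA a) (ball_subset_ball k6 (inP a ha))).2.2 (WA a ha)
  have cB : ContinuousOn PB (ball e r) := fun y hy =>
    ((H2 y (ball_subset_ball k4 hy)).1.continuousAt).continuousWithinAt
  have cC : ContinuousOn PC (ball (-e) r) := fun y hy =>
    ((H3 y (ball_subset_ball k5 hy)).1.continuousAt).continuousWithinAt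
  have oset : IsOpen (ball (p0 e) r ∩ Prod.fst ⁻¹' (ball (0 : E) ρ)) :=
    isOpen_ball.inter (isOpen_ball.preimage continuous_fst)
  refine ⟨{
    r := r, ρ := ρ
    β := fun a => (PA a).2.1
    γ := fun a => (PA a).2.2
    lB := fun y => (PB y).1
    lC := fun z => (PC z).1
    VB := ball e r ∩ PB ⁻¹' (ball (p0 e) r ∩ Prod.fst ⁻¹' (ball (0 : E) ρ))
    VC := ball (-e) r ∩ PC ⁻¹' (ball (p0 e) r ∩ Prod.fst ⁻¹' (ball (0 : E) ρ))
    ρ_pos := hρ
    ρ_le := hρr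
    r_lt := lt_of_le_of_lt k1 hrm4
    r_le := k2
    openB := cB.isOpen_inter_preimage isOpen_ball oset
    openC := cC.isOpen_inter_preimage isOpen_ball oset
    subB := inter_subset_left
    subC := inter_subset_left
    β_mem := ?_
    lB_β := ?_
    lB_mem := ?_
    β_lB := ?_
    γ_mem := ?_
    lC_γ := ?_
    lC_mem := ?_
    γ_lC := ?_
    β_smooth := ?_
    γ_smooth := ?_
    lB_smooth := ?_
    lC_smooth := ?_
    min_le := ?_
    min_eq := ?_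
    close := ?_ }⟩
  · intro a ha
    refine ⟨(mem_ball_p0.1 (inP a ha)).2.1, ?_, ?_⟩
    · rw [BA a ha]; exact inP a ha
    · show (PB (PA a).2.1).1 ∈ ball (0 : E) ρ
      rw [BA a ha, fstA a ha]; exact ha
  · intro a ha
    show (PB (PA a).2.1).1 = a
    rw [BA a ha, fstA a ha]
  · intro y hy; exact hy.2.2
  · intro y hy
    obtain ⟨hy1, hy2, hy3⟩ := hy
    have := H2 y (ball_subset_ball k4 hy1)
    have h2 := (H4 (PB y) (ball_subset_ball k6 hy2)).1 this.2.2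
    have h3 : PA (PB y).1 = PB y := h2
    show (PA (PB y).1).2.1 = y
    rw [h3]; exact this.2.1
  · intro a ha
    refine ⟨(mem_ball_p0.1 (inP a ha)).2.2, ?_, ?_⟩
    · rw [CA a ha]; exact inP a ha
    · show (PC (PA a).2.2).1 ∈ ball (0 : E) ρ
      rw [CA a ha, fstA a ha]; exact ha
  · intro a ha
    show (PC (PA a).2.2).1 = a
    rw [CA a ha, fstA a ha]
  · intro y hy; exact hy.2.2
  · intro y hy
    obtain ⟨hy1, hy2, hy3⟩ := hy
    have := H3 y (ball_subset_ball k5 hy1)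
    have h2 := (H4 (PC y) (ball_subset_ball k6 hy2)).1 this.2.2
    have h3 : PA (PC y).1 = PC y := h2
    show (PA (PC y).1).2.2 = y
    rw [h3]; exact this.2.1
  · intro a ha
    exact ((H1 a (inA a ha)).1.snd).fst
  · intro a ha
    exact ((H1 a (inA a ha)).1.snd).snd
  · intro y hy
    exact ((H2 y (ball_subset_ball k4 hy.1)).1).fst
  · intro y hy
    exact ((H3 y (ball_subset_ball k5 hy.1)).1).fst
  · intro a₀ ha₀ a ha c hc
    have hP := mem_ball_p0.1 (inP a₀ ha₀)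
    have hW : W s e (a₀, (PA a₀).2.1, (PA a₀).2.2) = 0 := by rw [← eqA a₀ ha₀]; exact WA a₀ ha₀
    exact (hmin a (ball_subset_ball k1 ha) a₀ (ball_subset_ball (hρr.trans k1) ha₀)
      _ (ball_subset_ball k1 hP.2.1) c (ball_subset_ball k1 hc) _ (ball_subset_ball k1 hP.2.2) hW).1
  · intro a₀ ha₀ a ha c hc
    have hP := mem_ball_p0.1 (inP a₀ ha₀)
    have hW : W s e (a₀, (PA a₀).2.1, (PA a₀).2.2) = 0 := by rw [← eqA a₀ ha₀]; exact WA a₀ ha₀
    exact (hmin a (ball_subset_ball k1 ha) a₀ (ball_subset_ball (hρr.trans k1) ha₀)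
      _ (ball_subset_ball k1 hP.2.1) c (ball_subset_ball k1 hc) _ (ball_subset_ball k1 hP.2.2) hW).2
  · intro a ha
    have := (H5 a (ball_subset_ball hρ1' ha)).2
    rw [eqA a ha] at this
    exact this

end Crest.Agent.OT175
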