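import Mathlib
import Crest.Prelude.Def_PolyominoGame

set_option autoImplicit false

namespace Crest.Agent.Snaky
open Crest.CombinatoricsR.PolyominoGame

abbrev Cell := ℤ × ℤ

/-- Maker to move wins with at most `k` further claims; `M` = Maker cells, `F` = Breaker cells. -/
def Wins : ℕ → Set Cell → Set Cell → Prop
  | 0, M, _ => ContainsCopy M
  | k+1, M, F => ∃ m, m ∉ M ∧ m ∉ F ∧
      (ContainsCopy (insert m M) ∨ ∀ r, r ∉ insert m M → r ∉ F → Wins k (insert m M) (insert r F))

/-- cell with index `i` -/
def cell (i : ℕ) : Cell := (((i % 32 : ℕ) : ℤ), ((i / 32 : ℕ) : ℤ))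

theorem cell_inj {i j : ℕ} (h : cell i = cell j) : i = j := by
  simp only [cell, Prod.mk.injEq, Nat.cast_inj] at h
  omega

/-- the set of cells coded by a natural number -/
def S (n : ℕ) : Set Cell := {c | ∃ i, n.testBit i = true ∧ cell i = c}

theorem mem_S {n i : ℕ} : cell i ∈ S n ↔ n.testBit i = true := by
  constructor
  · rintro ⟨j, hj, hc⟩
    rwa [cell_inj hc] at hj
  · intro h; exact ⟨i, h, rfl⟩

theorem S_or (a b : ℕ) : S (a ||| b) = S a ∪ S b := by
  ext c; constructor
  · rintro ⟨i, hi, rfl⟩
    rw [Nat.testBit_or, Bool.or_eq_true] at hi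
    rcases hi with hi | hi
    · exact Or.inl ⟨i, hi, rfl⟩
    · exact Or.inr ⟨i, hi, rfl⟩
  · rintro (⟨i, hi, rfl⟩ | ⟨i, hi, rfl⟩)
    · exact ⟨i, by simp [Nat.testBit_or, hi], rfl⟩
    · exact ⟨i, by simp [Nat.testBit_or, hi], rfl⟩

theorem S_and (a b : ℕ) : S (a &&& b) = S a ∩ S b := by
  ext c; constructor
  · rintro ⟨i, hi, rfl⟩
    rw [Nat.testBit_and, Bool.and_eq_true] at hi
    exact ⟨⟨i, hi.1, rfl⟩, ⟨i, hi.2, rfl⟩⟩
  · rintro ⟨⟨i, hi, rfl⟩, h2⟩
    rw [mem_S] at h2
    exact ⟨i, by simp [Nat.testBit_and, hi, h2], rfl⟩

theorem S_zero : S 0 = ∅ := by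
  ext c; simp [S]

theorem S_two_pow (m : ℕ) : S (2 ^ m) = {cell m} := by
  ext c; constructor
  · rintro ⟨i, hi, rfl⟩
    rw [Nat.testBit_two_pow] at hi
    have : m = i := by simpa using hi
    simp [this]
  · intro h
    rw [Set.mem_singleton_iff] at h
    exact ⟨m, by simp, h.symm⟩

/-- `W k M Z`: Maker to move, owning the cells of `M`, wins within `k` claims, all of whose cells
lie in `Z`, provided Breaker owns no cell of `Z`. -/
def W (k M Z : ℕ) : Prop := ∀ F : Set Cell, Disjoint F (S Z) → Wins k (S M) F

/-- normalised shapes -/
def base : ℕ → ℕ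
  | 0 => 2^0 + 2^1 + 2^2 + 2^3 + 2^(3+32) + 2^(4+32)          -- (0,0)(1,0)(2,0)(3,0)(3,1)(4,1)
  | 1 => 2^(1) + 2^(2) + 2^(3) + 2^(4) + 2^(0+32) + 2^(1+32)   -- mirrored in x
  | 2 => 2^(32) + 2^(1+32) + 2^(2+32) + 2^(3+32) + 2^3 + 2^4   -- mirrored in y
  | 3 => 2^(1+32) + 2^(2+32) + 2^(3+32) + 2^(4+32) + 2^0 + 2^1 -- mirrored in both
  | 4 => 2^0 + 2^32 + 2^64 + 2^96 + 2^(1+96) + 2^(1+128)       -- transposed: (0,0)(0,1)(0,2)(0,3)(1,3)(1,4)
  | 5 => 2^(32) + 2^64 + 2^96 + 2^128 + 2^(1) + 2^(1+32)       -- (0,1)..(0,4),(1,0),(1,1)
  | 6 => 2^1 + 2^(1+32) + 2^(1+64) + 2^(1+96) + 2^(96) + 2^(128)  -- (1,0)..(1,3),(0,3),(0,4)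
  | _ => 2^(1+32) + 2^(1+64) + 2^(1+96) + 2^(1+128) + 2^0 + 2^32  -- (1,1)..(1,4),(0,0),(0,1)

theorem cell_add {s x y : ℕ} (hx : s % 32 + x < 32) :
    cell (s + (x + 32 * y)) = (((s % 32 + x : ℕ) : ℤ), ((s / 32 + y : ℕ) : ℤ)) := by
  have h1 : (s + (x + 32 * y)) % 32 = s % 32 + x := by omega
  have h2 : (s + (x + 32 * y)) / 32 = s / 32 + y := by omega
  simp only [cell, h1, h2]

theorem mem_of_base {b s i X : ℕ} (h : (b <<< s) &&& X = b <<< s) (hb : b.testBit i = true) :
    X.testBit (s + i) = true := by
  have h1 : (b <<< s).testBit (s + i) = true := by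
    rw [Nat.testBit_shiftLeft]
    simp [hb]
  rw [← h, Nat.testBit_and, Bool.and_eq_true] at h1
  exact h1.2

theorem containsCopy_of_base {o s X : ℕ} (hs : s % 32 ≤ 27)
    (h : (base o <<< s) &&& X = base o <<< s) : ContainsCopy (S X) := by
  have key : ∀ x y : ℕ, x < 5 → (base o).testBit (x + 32 * y) = true →
      ((((s % 32 : ℕ) : ℤ) + x, ((s / 32 : ℕ) : ℤ) + y) : Cell) ∈ S X := by
    intro x y hx hb
    have h1 := mem_of_base h hb
    have h2 := mem_S.2 h1
    rw [cell_add (by omega)] at h2
    push_cast at h2
    exact h2
  set a : ℤ := ((s % 32 : ℕ) : ℤ)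
  set b : ℤ := ((s / 32 : ℕ) : ℤ)
  match o, key with
  | 0, key =>
    refine ⟨(a, b), 1, 1, Or.inl rfl, Or.inl rfl, Or.inl ?_⟩
    intro p hp
    simp only [snaky, Finset.mem_insert, Finset.mem_singleton] at hp
    rcases hp with rfl | rfl | rfl | rfl | rfl | rfl
    · simpa using key 0 0 (by norm_num) (by decide)
    · simpa using key 1 0 (by norm_num) (by decide)
    · simpa using key 2 0 (by norm_num) (by decide)
    · simpa using key 3 0 (by norm_num) (by decide)
    · simpa using key 3 1 (by norm_num) (by decide)
    · simpa using key 4 1 (by norm_num) (by decide)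
  | 1, key =>
    refine ⟨(a + 4, b), -1, 1, Or.inr rfl, Or.inl rfl, Or.inl ?_⟩
    intro p hp
    simp only [snaky, Finset.mem_insert, Finset.mem_singleton] at hp
    rcases hp with rfl | rfl | rfl | rfl | rfl | rfl
    · have := key 4 0 (by norm_num) (by decide); push_cast at this; convert this using 2 <;> ring
    · have := key 3 0 (by norm_num) (by decide); push_cast at this; convert this using 2 <;> ring
    · have := key 2 0 (by norm_num) (by decide); push_cast at this; convert this using 2 <;> ring
    · have := key 1 0 (by norm_num) (by decide); push_cast at this; convert this using 2 <;> ring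
    · have := key 1 1 (by norm_num) (by decide); push_cast at this; convert this using 2 <;> ring
    · have := key 0 1 (by norm_num) (by decide); push_cast at this; convert this using 2 <;> ring
  | 2, key =>
    refine ⟨(a, b + 1), 1, -1, Or.inl rfl, Or.inr rfl, Or.inl ?_⟩
    intro p hp
    simp only [snaky, Finset.mem_insert, Finset.mem_singleton] at hp
    rcases hp with rfl | rfl | rfl | rfl | rfl | rfl
    · have := key 0 1 (by norm_num) (by decide); push_cast at this; convert this using 2 <;> ring
    · have := key 1 1 (by norm_num) (by decide); push_cast at this; convert this using 2 <;> ring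
    · have := key 2 1 (by norm_num) (by decide); push_cast at this; convert this using 2 <;> ring
    · have := key 3 1 (by norm_num) (by decide); push_cast at this; convert this using 2 <;> ring
    · have := key 3 0 (by norm_num) (by decide); push_cast at this; convert this using 2 <;> ring
    · have := key 4 0 (by norm_num) (by decide); push_cast at this; convert this using 2 <;> ring
  | 3, key =>
    refine ⟨(a + 4, b + 1), -1, -1, Or.inr rfl, Or.inr rfl, Or.inl ?_⟩
    intro p hp
    simp only [snaky, Finset.mem_insert, Finset.mem_singleton] at hp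
    rcases hp with rfl | rfl | rfl | rfl | rfl | rfl
    · have := key 4 1 (by norm_num) (by decide); push_cast at this; convert this using 2 <;> ring
    · have := key 3 1 (by norm_num) (by decide); push_cast at this; convert this using 2 <;> ring
    · have := key 2 1 (by norm_num) (by decide); push_cast at this; convert this using 2 <;> ring
    · have := key 1 1 (by norm_num) (by decide); push_cast at this; convert this using 2 <;> ring
    · have := key 1 0 (by norm_num) (by decide); push_cast at this; convert this using 2 <;> ring
    · have := key 0 0 (by norm_num) (by decide); push_cast at this; convert this using 2 <;> ring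
  | 4, key =>
    refine ⟨(a, b), 1, 1, Or.inl rfl, Or.inl rfl, Or.inr ?_⟩
    intro p hp
    simp only [snaky, Finset.mem_insert, Finset.mem_singleton] at hp
    rcases hp with rfl | rfl | rfl | rfl | rfl | rfl
    · have := key 0 0 (by norm_num) (by decide); push_cast at this; convert this using 2 <;> ring
    · have := key 0 1 (by norm_num) (by decide); push_cast at this; convert this using 2 <;> ring
    · have := key 0 2 (by norm_num) (by decide); push_cast at this; convert this using 2 <;> ring
    · have := key 0 3 (by norm_num) (by decide); push_cast at this; convert this using 2 <;> ring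
    · have := key 1 3 (by norm_num) (by decide); push_cast at this; convert this using 2 <;> ring
    · have := key 1 4 (by norm_num) (by decide); push_cast at this; convert this using 2 <;> ring
  | 5, key =>
    refine ⟨(a, b + 4), 1, -1, Or.inl rfl, Or.inr rfl, Or.inr ?_⟩
    intro p hp
    simp only [snaky, Finset.mem_insert, Finset.mem_singleton] at hp
    rcases hp with rfl | rfl | rfl | rfl | rfl | rfl
    · have := key 0 4 (by norm_num) (by decide); push_cast at this; convert this using 2 <;> ring
    · have := key 0 3 (by norm_num) (by decide); push_cast at this; convert this using 2 <;> ring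
    · have := key 0 2 (by norm_num) (by decide); push_cast at this; convert this using 2 <;> ring
    · have := key 0 1 (by norm_num) (by decide); push_cast at this; convert this using 2 <;> ring
    · have := key 1 1 (by norm_num) (by decide); push_cast at this; convert this using 2 <;> ring
    · have := key 1 0 (by norm_num) (by decide); push_cast at this; convert this using 2 <;> ring
  | 6, key =>
    refine ⟨(a + 1, b), -1, 1, Or.inr rfl, Or.inl rfl, Or.inr ?_⟩
    intro p hp
    simp only [snaky, Finset.mem_insert, Finset.mem_singleton] at hp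
    rcases hp with rfl | rfl | rfl | rfl | rfl | rfl
    · have := key 1 0 (by norm_num) (by decide); push_cast at this; convert this using 2 <;> ring
    · have := key 1 1 (by norm_num) (by decide); push_cast at this; convert this using 2 <;> ring
    · have := key 1 2 (by norm_num) (by decide); push_cast at this; convert this using 2 <;> ring
    · have := key 1 3 (by norm_num) (by decide); push_cast at this; convert this using 2 <;> ring
    · have := key 0 3 (by norm_num) (by decide); push_cast at this; convert this using 2 <;> ring
    · have := key 0 4 (by norm_num) (by decide); push_cast at this; convert this using 2 <;> ring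
  | (n+7), key =>
    refine ⟨(a + 1, b + 4), -1, -1, Or.inr rfl, Or.inr rfl, Or.inr ?_⟩
    intro p hp
    simp only [snaky, Finset.mem_insert, Finset.mem_singleton] at hp
    rcases hp with rfl | rfl | rfl | rfl | rfl | rfl
    · have := key 1 4 (by norm_num) (by simp only [base]; decide); push_cast at this; convert this using 2 <;> ring
    · have := key 1 3 (by norm_num) (by simp only [base]; decide); push_cast at this; convert this using 2 <;> ring
    · have := key 1 2 (by norm_num) (by simp only [base]; decide); push_cast at this; convert this using 2 <;> ring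
    · have := key 1 1 (by norm_num) (by simp only [base]; decide); push_cast at this; convert this using 2 <;> ring
    · have := key 0 1 (by norm_num) (by simp only [base]; decide); push_cast at this; convert this using 2 <;> ring
    · have := key 0 0 (by norm_num) (by simp only [base]; decide); push_cast at this; convert this using 2 <;> ring

end Crest.Agent.Snaky
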