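import Mathlib
import Crest.Agent.SnakyBase

set_option autoImplicit false

namespace Crest.Agent.Snaky
open Crest.CombinatoricsR.PolyominoGame

theorem ContainsCopy_mono {X Y : Set Cell} (h : X ⊆ Y) (hX : ContainsCopy X) : ContainsCopy Y := by
  obtain ⟨t, ε₁, ε₂, h1, h2, h3⟩ := hX
  exact ⟨t, ε₁, ε₂, h1, h2, h3.imp (fun h4 p hp => h (h4 p hp)) (fun h4 p hp => h (h4 p hp))⟩

def GW (n : ℕ) (M F : Set Cell) : Prop := ContainsCopy M ∨ Wins n M F

theorem exists_fresh {M F : Set Cell} (hM : M.Finite) (hF : F.Finite) : ∃ c : Cell, c ∉ M ∧ c ∉ F := by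
  have h : (M ∪ F)ᶜ.Nonempty := (hM.union hF).infinite_compl.nonempty
  obtain ⟨c, hc⟩ := h
  exact ⟨c, fun h => hc (Or.inl h), fun h => hc (Or.inr h)⟩

theorem GW_step {n : ℕ} {M F : Set Cell} (hM : M.Finite) (hF : F.Finite) (h : GW (n+1) M F) :
    ∃ m, m ∉ M ∧ m ∉ F ∧ ∀ r, r ∉ insert m M → r ∉ F → GW n (insert m M) (insert r F) := by
  rcases h with h | ⟨m, h1, h2, h3⟩
  · obtain ⟨m, h1, h2⟩ := exists_fresh hM hF
    exact ⟨m, h1, h2, fun _ _ _ => Or.inl (ContainsCopy_mono (Set.subset_insert _ _) h)⟩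
  · refine ⟨m, h1, h2, ?_⟩
    rcases h3 with h3 | h3
    · exact fun _ _ _ => Or.inl h3
    · exact fun r hr hrF => Or.inr (h3 r hr hrF)

open Classical in
/-- Maker's move when `n + 1` claims are left -/
noncomputable def mv (n : ℕ) (M F : Set Cell) : Cell :=
  if h : ∃ m, m ∉ M ∧ m ∉ F ∧ ∀ r, r ∉ insert m M → r ∉ F → GW n (insert m M) (insert r F) then h.choose
  else (0, 0)

theorem mv_spec {n : ℕ} {M F : Set Cell} (hM : M.Finite) (hF : F.Finite) (h : GW (n+1) M F) :
    mv n M F ∉ M ∧ mv n M F ∉ F ∧ ∀ r, r ∉ insert (mv n M F) M → r ∉ F →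
      GW n (insert (mv n M F) M) (insert r F) := by
  unfold mv
  rw [dif_pos (GW_step hM hF h)]
  exact (GW_step hM hF h).choose_spec

/-- state: Maker's cells, Breaker's cells, number of claims left -/
noncomputable def step (s : Set Cell × Set Cell × ℕ) (r : Cell) : Set Cell × Set Cell × ℕ :=
  (insert (mv (s.2.2 - 1) s.1 s.2.1) s.1, insert r s.2.1, s.2.2 - 1)

noncomputable def stt (l : List Cell) : Set Cell × Set Cell × ℕ := l.foldl step (∅, ∅, 21)

noncomputable def pol (l : List Cell) : Cell := mv ((stt l).2.2 - 1) (stt l).1 (stt l).2.1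

theorem policy_of_wins (h : Wins 21 ∅ ∅) :
    ∃ σ : List (ℤ × ℤ) → ℤ × ℤ, ∀ b : ℕ → ℤ × ℤ,
      (∀ k : ℕ, k < 20 →
        (∀ j : ℕ, j ≤ k → b k ≠ makerClaim σ b j) ∧
        (∀ j : ℕ, j < k → b k ≠ b j)) →
      (∀ k : ℕ, k ≤ 20 →
        (∀ j : ℕ, j < k → makerClaim σ b k ≠ makerClaim σ b j) ∧
        (∀ j : ℕ, j < k → makerClaim σ b k ≠ b j)) ∧
      ContainsCopy {c | ∃ j : ℕ, j ≤ 20 ∧ c = makerClaim σ b j} := by
  refine ⟨pol, fun b hb => ?_⟩
  set mc : ℕ → Cell := makerClaim pol b with hmc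
  set s : ℕ → Set Cell × Set Cell × ℕ := fun k => stt ((List.range k).map b) with hs
  have hs0 : s 0 = (∅, ∅, 21) := rfl
  have hs1 : ∀ k, s (k+1) = step (s k) (b k) := by
    intro k
    simp only [hs, stt, List.range_succ, List.map_append, List.foldl_append, List.map_cons, List.map_nil,
      List.foldl_cons, List.foldl_nil]
  have hmc' : ∀ k, mc k = mv ((s k).2.2 - 1) (s k).1 (s k).2.1 := fun k => rfl
  have hn : ∀ k, (s k).2.2 = 21 - k := by
    intro k
    induction k with
    | zero => rfl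
    | succ k ih => rw [hs1]; simp only [step, ih]; omega
  have hM : ∀ k, (s k).1 = {c | ∃ j, j < k ∧ c = mc j} := by
    intro k
    induction k with
    | zero => rw [hs0]; ext c; simp
    | succ k ih =>
      rw [hs1]
      simp only [step]
      rw [← hmc' k, ih]
      ext c
      simp only [Set.mem_insert_iff, Set.mem_ofPred_eq]
      constructor
      · rintro (rfl | ⟨j, hj, rfl⟩)
        · exact ⟨k, by omega, rfl⟩
        · exact ⟨j, by omega, rfl⟩
      · rintro ⟨j, hj, rfl⟩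
        rcases Nat.lt_succ_iff_lt_or_eq.1 hj with h1 | h1
        · exact Or.inr ⟨j, h1, rfl⟩
        · exact Or.inl (by rw [h1])
  have hF : ∀ k, (s k).2.1 = {c | ∃ j, j < k ∧ c = b j} := by
    intro k
    induction k with
    | zero => rw [hs0]; ext c; simp
    | succ k ih =>
      rw [hs1]
      simp only [step]
      rw [ih]
      ext c
      simp only [Set.mem_insert_iff, Set.mem_ofPred_eq]
      constructor
      · rintro (rfl | ⟨j, hj, rfl⟩)
        · exact ⟨k, by omega, rfl⟩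
        · exact ⟨j, by omega, rfl⟩
      · rintro ⟨j, hj, rfl⟩
        rcases Nat.lt_succ_iff_lt_or_eq.1 hj with h1 | h1
        · exact Or.inr ⟨j, h1, rfl⟩
        · exact Or.inl (by rw [h1])
  have fin : ∀ (k : ℕ) (f : ℕ → Cell), {c | ∃ j, j < k ∧ c = f j}.Finite := by
    intro k f
    have : {c | ∃ j, j < k ∧ c = f j} = f '' (Set.Iio k) := by
      ext c; simp only [Set.mem_ofPred_eq, Set.mem_image, Set.mem_Iio]
      constructor
      · rintro ⟨j, hj, rfl⟩; exact ⟨j, hj, rfl⟩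
      · rintro ⟨j, hj, rfl⟩; exact ⟨j, hj, rfl⟩
    rw [this]
    exact (Set.finite_Iio k).image f
  have finM : ∀ k, (s k).1.Finite := fun k => by rw [hM]; exact fin k mc
  have finF : ∀ k, (s k).2.1.Finite := fun k => by rw [hF]; exact fin k b
  have hG : ∀ k, k ≤ 20 → GW (21 - k) (s k).1 (s k).2.1 := by
    intro k
    induction k with
    | zero => intro _; rw [hs0]; exact Or.inr h
    | succ k ih =>
      intro hk
      have h1 := ih (by omega)
      rw [show 21 - k = (20 - k) + 1 by omega] at h1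
      have h2 := (mv_spec (finM k) (finF k) h1).2.2 (b k) ?_ ?_
      · rw [hs1]
        simp only [step, hn]
        rw [show 21 - k - 1 = 20 - k by omega, show 21 - (k+1) = 20 - k by omega]
        exact h2
      · have h3 : mv (20 - k) (s k).1 (s k).2.1 = mc k := by
          rw [hmc', hn]; congr 1; omega
        rw [h3, hM]
        rintro (h4 | ⟨j, hj, h4⟩)
        · exact (hb k (by omega)).1 k le_rfl h4
        · exact (hb k (by omega)).1 j hj.le h4
      · rw [hF]
        rintro ⟨j, hj, h4⟩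
        exact (hb k (by omega)).2 j hj h4
  have hsp : ∀ k, k ≤ 20 → mc k ∉ (s k).1 ∧ mc k ∉ (s k).2.1 ∧ ∀ r, r ∉ insert (mc k) (s k).1 → r ∉ (s k).2.1 →
      GW (20 - k) (insert (mc k) (s k).1) (insert r (s k).2.1) := by
    intro k hk
    have h1 := hG k hk
    rw [show 21 - k = (20 - k) + 1 by omega] at h1
    have h2 := mv_spec (finM k) (finF k) h1
    have h3 : mv (20 - k) (s k).1 (s k).2.1 = mc k := by
      rw [hmc', hn]; congr 1; omega
    rw [h3] at h2
    exact h2
  refine ⟨fun k hk => ⟨fun j hj he => ?_, fun j hj he => ?_⟩, ?_⟩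
  · apply (hsp k hk).1
    rw [hM]
    exact ⟨j, hj, he⟩
  · apply (hsp k hk).2.1
    rw [hF]
    exact ⟨j, hj, he⟩
  · have h1 := (hsp 20 le_rfl).2.2
    obtain ⟨r, hr1, hr2⟩ := exists_fresh (finM 20 |>.insert (mc 20)) (finF 20)
    have h2 := h1 r hr1 hr2
    have h3 : ContainsCopy (insert (mc 20) (s 20).1) := by
      rcases h2 with h2 | h2
      · exact h2
      · exact h2
    refine ContainsCopy_mono ?_ h3
    rw [hM]
    rintro c (rfl | ⟨j, hj, rfl⟩)
    · exact ⟨20, le_rfl, rfl⟩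
    · exact ⟨j, hj.le, rfl⟩

end Crest.Agent.Snaky
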