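import Crest.Agent.S0066F

set_option autoImplicit false

namespace Crest.Agent.S0066

lemma fin66_cases (i : Fin 66) : (∃ _ : i.val < 62, True) ∨ i = 62 ∨ i = 63 ∨ i = 64 ∨ i = 65 := by
  by_cases hi : i.val < 62
  · exact Or.inl ⟨hi, trivial⟩
  · right
    have := i.2
    rcases (show i.val = 62 ∨ i.val = 63 ∨ i.val = 64 ∨ i.val = 65 by omega) with h | h | h | h
    · left; exact Fin.ext h
    · right; left; exact Fin.ext h
    · right; right; left; exact Fin.ext h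
    · right; right; right; exact Fin.ext h

lemma sel_lt {h : ℕ} (z : Fin (2 ^ h)) (ι : Inst h) (t1 t2 : E h) (i : Fin 66) (hi : i.val < 62) :
    sel z ι t1 t2 i = ⟨.M ⟨i.val, hi⟩, z⟩ := by rw [sel, dif_pos hi]
lemma sel_62 {h : ℕ} (z : Fin (2 ^ h)) (ι : Inst h) (t1 t2 : E h) :
    sel z ι t1 t2 62 = ⟨.Z1 ι, z⟩ := by
  rw [sel, dif_neg (by decide), if_pos (by decide)]
lemma sel_63 {h : ℕ} (z : Fin (2 ^ h)) (ι : Inst h) (t1 t2 : E h) :
    sel z ι t1 t2 63 = ⟨.Z2 ι, z⟩ := by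
  rw [sel, dif_neg (by decide), if_neg (by decide), if_pos (by decide)]
lemma sel_64 {h : ℕ} (z : Fin (2 ^ h)) (ι : Inst h) (t1 t2 : E h) :
    sel z ι t1 t2 64 = t1 := by
  rw [sel, dif_neg (by decide), if_neg (by decide), if_neg (by decide), if_pos (by decide)]
lemma sel_65 {h : ℕ} (z : Fin (2 ^ h)) (ι : Inst h) (t1 t2 : E h) :
    sel z ι t1 t2 65 = t2 := by
  rw [sel, dif_neg (by decide), if_neg (by decide), if_neg (by decide), if_neg (by decide)]

section copy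

variable {h : ℕ} (B : E h → E h → Bool) (x y : Fin (2 ^ h))
  (hB : ∀ r c, inS x y r c → B r c = ent r c)
  (hfree : ¬ ∃ f g : Fin 66 → E h, StrictMono f ∧ StrictMono g ∧ ∀ i j, B (f i) (g j) = pat i j)

include hB hfree in
/-- generic copy lemma -/
lemma copy_gen (ι : Inst h) (t1 t2 s1 s2 : E h) (ht3 : 3 ≤ t1.b.reg) (hs3 : 3 ≤ s1.b.reg)
    (ht : t1 < t2) (hs : s1 < s2)
    -- rows of frames against s1, s2
    (m1 : ∀ (b : Blk h), b.reg ≤ 2 → inS x y ⟨b, zz x y⟩ s1)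
    (m2 : ∀ (b : Blk h), b.reg ≤ 2 → inS x y ⟨b, zz x y⟩ s2)
    (n1 : ∀ (b : Blk h), b.reg ≤ 2 → inS x y t1 ⟨b, y⟩)
    (n2 : ∀ (b : Blk h), b.reg ≤ 2 → inS x y t2 ⟨b, y⟩)
    (a1 : ∀ i, ent (⟨.M i, zz x y⟩ : E h) s1 = true) (a2 : ∀ i, ent (⟨.M i, zz x y⟩ : E h) s2 = true)
    (b1 : ∀ i, ent t1 (⟨.M i, y⟩ : E h) = true) (b2 : ∀ i, ent t2 (⟨.M i, y⟩ : E h) = true)
    (c11 : ent (⟨.Z1 ι, zz x y⟩ : E h) s1 = true) (c12 : ent (⟨.Z1 ι, zz x y⟩ : E h) s2 = false)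
    (c21 : ent (⟨.Z2 ι, zz x y⟩ : E h) s1 = false) (c22 : ent (⟨.Z2 ι, zz x y⟩ : E h) s2 = true)
    (d11 : ent t1 (⟨.Z1 ι, y⟩ : E h) = true) (d12 : ent t1 (⟨.Z2 ι, y⟩ : E h) = false)
    (d21 : ent t2 (⟨.Z1 ι, y⟩ : E h) = false) (d22 : ent t2 (⟨.Z2 ι, y⟩ : E h) = true)
    (t11 : B t1 s1 = false) (t12 : B t1 s2 = true) (t21 : B t2 s1 = true)
    (t22 : B t2 s2 = false) : False := by
  apply hfree
  refine ⟨sel (zz x y) ι t1 t2, sel y ι s1 s2, sel_strictMono _ _ ht3 ht,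
    sel_strictMono _ _ hs3 hs, ?_⟩
  have key : ∀ (b b' : Blk h), b.reg ≤ 2 → b'.reg ≤ 2 →
      B ⟨b, zz x y⟩ ⟨b', y⟩ = ent (⟨b, zz x y⟩ : E h) ⟨b', y⟩ := by
    intro b b' hb hb'
    apply hB
    cases b <;> simp [Blk.reg] at hb <;> cases b' <;> simp [Blk.reg] at hb' <;> simp [inS]
  intro i j
  rcases fin66_cases i with ⟨hi, -⟩ | rfl | rfl | rfl | rfl
  · rw [sel_lt _ _ _ _ i hi]
    rcases fin66_cases j with ⟨hj, -⟩ | rfl | rfl | rfl | rfl
    · rw [sel_lt _ _ _ _ j hj, key _ _ (by simp [Blk.reg]) (by simp [Blk.reg])]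
      simp only [pat, hent, if_pos hi, if_pos hj, ent]
    · rw [sel_62, key _ _ (by simp [Blk.reg]) (by simp [Blk.reg])]
      simp [pat, hent, if_pos hi, ent]
    · rw [sel_63, key _ _ (by simp [Blk.reg]) (by simp [Blk.reg])]
      simp [pat, hent, if_pos hi, ent]
    · rw [sel_64, hB _ _ (m1 _ (by simp [Blk.reg])), a1]
      simp [pat, hent, if_pos hi]
    · rw [sel_65, hB _ _ (m2 _ (by simp [Blk.reg])), a2]
      simp [pat, hent, if_pos hi]
  · rw [sel_62]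
    rcases fin66_cases j with ⟨hj, -⟩ | rfl | rfl | rfl | rfl
    · rw [sel_lt _ _ _ _ j hj, key _ _ (by simp [Blk.reg]) (by simp [Blk.reg])]
      simp [pat, hent, if_pos hj, ent]
    · rw [sel_62, key _ _ (by simp [Blk.reg]) (by simp [Blk.reg])]
      simp [pat, hent, ent]
    · rw [sel_63, key _ _ (by simp [Blk.reg]) (by simp [Blk.reg])]
      simp [pat, hent, ent]
    · rw [sel_64, hB _ _ (m1 _ (by simp [Blk.reg])), c11]
      decide
    · rw [sel_65, hB _ _ (m2 _ (by simp [Blk.reg])), c12]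
      decide
  · rw [sel_63]
    rcases fin66_cases j with ⟨hj, -⟩ | rfl | rfl | rfl | rfl
    · rw [sel_lt _ _ _ _ j hj, key _ _ (by simp [Blk.reg]) (by simp [Blk.reg])]
      simp [pat, hent, if_pos hj, ent]
    · rw [sel_62, key _ _ (by simp [Blk.reg]) (by simp [Blk.reg])]
      simp [pat, hent, ent]
    · rw [sel_63, key _ _ (by simp [Blk.reg]) (by simp [Blk.reg])]
      simp [pat, hent, ent]
    · rw [sel_64, hB _ _ (m1 _ (by simp [Blk.reg])), c21]
      decide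
    · rw [sel_65, hB _ _ (m2 _ (by simp [Blk.reg])), c22]
      decide
  · rw [sel_64]
    rcases fin66_cases j with ⟨hj, -⟩ | rfl | rfl | rfl | rfl
    · rw [sel_lt _ _ _ _ j hj, hB _ _ (n1 _ (by simp [Blk.reg])), b1]
      simp [pat, hent, if_pos hj]
    · rw [sel_62, hB _ _ (n1 _ (by simp [Blk.reg])), d11]
      decide
    · rw [sel_63, hB _ _ (n1 _ (by simp [Blk.reg])), d12]
      decide
    · rw [sel_64, t11]; decide
    · rw [sel_65, t12]; decide
  · rw [sel_65]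
    rcases fin66_cases j with ⟨hj, -⟩ | rfl | rfl | rfl | rfl
    · rw [sel_lt _ _ _ _ j hj, hB _ _ (n2 _ (by simp [Blk.reg])), b2]
      simp [pat, hent, if_pos hj]
    · rw [sel_62, hB _ _ (n2 _ (by simp [Blk.reg])), d21]
      decide
    · rw [sel_63, hB _ _ (n2 _ (by simp [Blk.reg])), d22]
      decide
    · rw [sel_64, t21]; decide
    · rw [sel_65, t22]; decide

include hB hfree in
lemma copy_col (ι : Inst h) (k k1' k2' : Bool) (l l1 l2 : Fin (h + 1))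
    (q0 : r1 ι = none) (q1 : r2 ι = some (tag h k l.val (Fin.rev x).val))
    (q2 : c1 ι = some (tag h k1' l1.val x.val)) (q3 : c2 ι = some (tag h k2' l2.val x.val))
    (hne : (k1', l1.val) ≠ (k2', l2.val))
    (hs : (⟨.T k1' l1, hyb l1 x y⟩ : E h) < ⟨.T k2' l2, hyb l2 x y⟩)
    (t21 : B ⟨.T k l, Fin.rev x⟩ ⟨.T k1' l1, hyb l1 x y⟩ = true) :
    B ⟨.T k l, Fin.rev x⟩ ⟨.T k2' l2, hyb l2 x y⟩ = true := by
  by_contra hcon
  have t22 : B ⟨.T k l, Fin.rev x⟩ ⟨.T k2' l2, hyb l2 x y⟩ = false := by simpa using hcon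
  have hne' : tag h k1' l1.val x.val ≠ tag h k2' l2.val x.val := by
    intro he; apply hne
    simp only [tag, Prod.mk.injEq] at he
    rw [he.1, he.2.1]
  refine copy_gen B x y hB hfree ι ⟨.D ι, zz x y⟩ ⟨.T k l, Fin.rev x⟩ ⟨.T k1' l1, hyb l1 x y⟩
    ⟨.T k2' l2, hyb l2 x y⟩ (by simp [Blk.reg]) (by simp [Blk.reg])
    (by rw [lt_iff]; left; simp [Blk.reg]) hs ?_ ?_ ?_ ?_ ?_ ?_ ?_ ?_ ?_ ?_ ?_ ?_ ?_ ?_ ?_ ?_ ?_ ?_
    t21 t22
  · intro b hb; cases b <;> simp [Blk.reg] at hb <;> simp [inS]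
  · intro b hb; cases b <;> simp [Blk.reg] at hb <;> simp [inS]
  · intro b hb; cases b <;> simp [Blk.reg] at hb <;> simp [inS]
  · intro b hb; cases b <;> simp [Blk.reg] at hb <;> simp [inS]
  · intro i; simp [ent]
  · intro i; simp [ent]
  · intro i; simp [ent]
  · intro i; simp [ent]
  · simp only [ent, decide_eq_true_eq]; rw [q2, tag_hyb]
  · simp only [ent, decide_eq_false_iff_not]; rw [q2, tag_hyb]
    simpa using hne'
  · simp only [ent, decide_eq_false_iff_not]; rw [q3, tag_hyb]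
    simpa using hne'.symm
  · simp only [ent, decide_eq_true_eq]; rw [q3, tag_hyb]
  · simp [ent]
  · simp [ent]
  · simp only [ent, decide_eq_false_iff_not]; rw [q0]; simp
  · simp only [ent, decide_eq_true_eq]; rw [q1]
  · rw [hB _ _ (by simp [inS])]
    simp only [ent, decide_eq_false_iff_not]; rw [q3, tag_hyb]
    simpa using hne'.symm
  · rw [hB _ _ (by simp [inS])]
    simp only [ent, decide_eq_true_eq]; rw [q3, tag_hyb]

include hB hfree in
lemma copy_row (ι : Inst h) (k k1' k2' : Bool) (l l1 l2 : Fin (h + 1))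
    (q0 : c1 ι = none) (q1 : c2 ι = some (tag h k l.val x.val))
    (q2 : r1 ι = some (tag h k1' l1.val (Fin.rev x).val))
    (q3 : r2 ι = some (tag h k2' l2.val (Fin.rev x).val))
    (hne : (k1', l1.val) ≠ (k2', l2.val))
    (hs : (⟨.T k1' l1, Fin.rev x⟩ : E h) < ⟨.T k2' l2, Fin.rev x⟩)
    (t12 : B ⟨.T k1' l1, Fin.rev x⟩ ⟨.T k l, hyb l x y⟩ = true) :
    B ⟨.T k2' l2, Fin.rev x⟩ ⟨.T k l, hyb l x y⟩ = true := by
  by_contra hcon
  have t22 : B ⟨.T k2' l2, Fin.rev x⟩ ⟨.T k l, hyb l x y⟩ = false := by simpa using hcon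
  have hne' : tag h k1' l1.val (Fin.rev x).val ≠ tag h k2' l2.val (Fin.rev x).val := by
    intro he; apply hne
    simp only [tag, Prod.mk.injEq] at he
    rw [he.1, he.2.1]
  refine copy_gen B x y hB hfree ι ⟨.T k1' l1, Fin.rev x⟩ ⟨.T k2' l2, Fin.rev x⟩ ⟨.D ι, y⟩
    ⟨.T k l, hyb l x y⟩ (by simp [Blk.reg]) (by simp [Blk.reg])
    hs (by rw [lt_iff]; left; simp [Blk.reg]) ?_ ?_ ?_ ?_ ?_ ?_ ?_ ?_ ?_ ?_ ?_ ?_ ?_ ?_ ?_ ?_ ?_
    t12 ?_ t22
  · intro b hb; cases b <;> simp [Blk.reg] at hb <;> simp [inS]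
  · intro b hb; cases b <;> simp [Blk.reg] at hb <;> simp [inS]
  · intro b hb; cases b <;> simp [Blk.reg] at hb <;> simp [inS]
  · intro b hb; cases b <;> simp [Blk.reg] at hb <;> simp [inS]
  · intro i; simp [ent]
  · intro i; simp [ent]
  · intro i; simp [ent]
  · intro i; simp [ent]
  · simp [ent]
  · simp only [ent, decide_eq_false_iff_not]; rw [q0]; simp
  · simp [ent]
  · simp only [ent, decide_eq_true_eq]; rw [q1, tag_hyb]
  · simp only [ent, decide_eq_true_eq]; rw [q2]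
  · simp only [ent, decide_eq_false_iff_not]; rw [q3]
    simpa using hne'.symm
  · simp only [ent, decide_eq_false_iff_not]; rw [q2]
    simpa using hne'
  · simp only [ent, decide_eq_true_eq]; rw [q3]
  · rw [hB _ _ (by simp [inS])]
    simp only [ent, decide_eq_false_iff_not]; rw [q3]
    simpa using hne'.symm
  · rw [hB _ _ (by simp [inS])]
    simp only [ent, decide_eq_true_eq]; rw [q3]

omit B hB hfree in
lemma inS00 (k k' : Bool) : inS x y (⟨.T k ⟨0, by omega⟩, Fin.rev x⟩ : E h)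
    ⟨.T k' ⟨0, by omega⟩, hyb ⟨0, by omega⟩ x y⟩ :=
  ⟨rfl, rfl, rfl, hyb_zero x y _ rfl⟩

omit x y B hB hfree in
lemma st_zero {h : ℕ} (a : Fin (2 ^ h)) : st h 0 a.val = 0 := by
  simp only [st, Nat.sub_zero]
  rw [Nat.div_eq_of_lt a.2, zero_mul]

def bt (n : ℕ) : Fin 2 := ⟨n % 2, Nat.mod_lt _ (by norm_num)⟩

lemma lt_V {h : ℕ} {k k' : Fin (h+1)} (hk : k'.val = k.val + 1) (a b : Fin (2 ^ h))
    (hab : st h k.val a.val ≤ st h k'.val b.val) :
    (⟨.T true k, a⟩ : E h) < ⟨.T true k', b⟩ := by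
  rw [lt_iff]
  right
  refine ⟨rfl, ?_⟩
  simp only [E.k1, E.k2]
  omega

lemma lt_U {h : ℕ} {k k' : Fin (h+1)} (hk : k'.val = k.val + 1) (a b : Fin (2 ^ h))
    (hab : en h k'.val b.val ≤ en h k.val a.val) :
    (⟨.T false k', b⟩ : E h) < ⟨.T false k, a⟩ := by
  rw [lt_iff]
  right
  refine ⟨rfl, ?_⟩
  simp only [E.k1, E.k2]
  have := k'.2
  omega

lemma lt_J {h : ℕ} (a b : Fin (2 ^ h)) (hab : a.val ≤ b.val) :
    (⟨.T true (Fin.last h), a⟩ : E h) < ⟨.T false (Fin.last h), b⟩ := by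
  rw [lt_iff]
  right
  refine ⟨rfl, ?_⟩
  simp only [E.k1, E.k2, Fin.val_last, st_h, en_h]
  omega

include hB hfree in
lemma chainV (k : ℕ) (hk : k ≤ h) :
    B ⟨.T true ⟨k, by omega⟩, Fin.rev x⟩ ⟨.T true ⟨k, by omega⟩, hyb ⟨k, by omega⟩ x y⟩ = true := by
  induction k with
  | zero =>
    rw [hB _ _ (inS00 x y _ _)]
    simp only [ent, val, if_true, decide_eq_true_eq]
    rw [en_eq, en_eq]
    simp only [Nat.sub_zero]
    have := Nat.two_pow_pos h
    omega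
  | succ k ih =>
    have ih := ih (by omega)
    have hkh : k < h := by omega
    have step1 : B ⟨.T true ⟨k + 1, by omega⟩, Fin.rev x⟩
        ⟨.T true ⟨k, by omega⟩, hyb ⟨k, by omega⟩ x y⟩ = true := by
      refine copy_row B x y hB hfree
        (0, ⟨k, hkh⟩, bt ((Fin.rev x).val / 2 ^ (h - k)), bt ((Fin.rev x).val / 2 ^ (h - (k + 1))),
          bt (x.val / 2 ^ (h - k))) true true true ⟨k, by omega⟩ ⟨k, by omega⟩ ⟨k + 1, by omega⟩
        rfl rfl rfl rfl (by simp) ?_ ih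
      exact lt_V rfl _ _ (st_mono_level hkh)
    refine copy_col B x y hB hfree
      (1, ⟨k, hkh⟩, 0, bt (x.val / 2 ^ (h - k)), bt (x.val / 2 ^ (h - (k + 1))))
      true true true ⟨k + 1, by omega⟩ ⟨k, by omega⟩ ⟨k + 1, by omega⟩
      rfl ?_ rfl rfl (by simp) ?_ step1
    · simp only [r2, tag, bt, Fin.val_rev]
      rw [rev_parity hkh x.2]
    · apply lt_V rfl
      rw [st_hyb, st_hyb]
      exact st_mono_level hkh

include hB hfree in
lemma chainJ (hh : 1 ≤ h) :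
    B ⟨.T false (Fin.last h), Fin.rev x⟩ ⟨.T false (Fin.last h), hyb (Fin.last h) x y⟩ = true := by
  have h0 := chainV B x y hB hfree h le_rfl
  have h1 : B ⟨.T true (Fin.last h), Fin.rev x⟩ ⟨.T false (Fin.last h), hyb (Fin.last h) x y⟩
      = true := by
    refine copy_col B x y hB hfree
      (2, ⟨0, hh⟩, bt ((Fin.rev x).val / 2 ^ (h - h)), bt (x.val / 2 ^ (h - h)),
        bt (x.val / 2 ^ (h - h))) true true false (Fin.last h) (Fin.last h) (Fin.last h)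
      rfl rfl rfl rfl (by simp) ?_ h0
    exact lt_J _ _ le_rfl
  refine copy_row B x y hB hfree
      (3, ⟨0, hh⟩, bt ((Fin.rev x).val / 2 ^ (h - h)), bt ((Fin.rev x).val / 2 ^ (h - h)),
        bt (x.val / 2 ^ (h - h))) false true false (Fin.last h) (Fin.last h) (Fin.last h)
      rfl rfl rfl rfl (by simp) ?_ h1
  exact lt_J _ _ le_rfl

include hB hfree in
lemma chainU (hh : 1 ≤ h) (j : ℕ) (hj : j ≤ h) :
    B ⟨.T false ⟨h - j, by omega⟩, Fin.rev x⟩
      ⟨.T false ⟨h - j, by omega⟩, hyb ⟨h - j, by omega⟩ x y⟩ = true := by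
  induction j with
  | zero => exact chainJ B x y hB hfree hh
  | succ j ih =>
    have ih := ih (by omega)
    obtain ⟨k, hk⟩ : ∃ k, k = h - (j + 1) := ⟨_, rfl⟩
    have hkh : k < h := by omega
    have e1 : (⟨h - (j + 1), by omega⟩ : Fin (h+1)) = ⟨k, by omega⟩ := Fin.ext hk.symm
    have e2 : (⟨h - j, by omega⟩ : Fin (h+1)) = ⟨k + 1, by omega⟩ :=
      Fin.ext (by show h - j = k + 1; omega)
    rw [e1]
    rw [e2] at ih
    have step1 : B ⟨.T false ⟨k + 1, by omega⟩, Fin.rev x⟩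
        ⟨.T false ⟨k, by omega⟩, hyb ⟨k, by omega⟩ x y⟩ = true := by
      refine copy_col B x y hB hfree
        (4, ⟨k, hkh⟩, 0, bt (x.val / 2 ^ (h - (k + 1))), bt (x.val / 2 ^ (h - k)))
        false false false ⟨k + 1, by omega⟩ ⟨k + 1, by omega⟩ ⟨k, by omega⟩
        rfl ?_ rfl rfl (by simp) ?_ ih
      · simp only [r2, tag, bt, Fin.val_rev]
        rw [rev_parity hkh x.2]
      · apply lt_U rfl
        rw [en_hyb, en_hyb]
        exact en_mono_level hkh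
    refine copy_row B x y hB hfree
      (5, ⟨k, hkh⟩, bt ((Fin.rev x).val / 2 ^ (h - (k + 1))), bt ((Fin.rev x).val / 2 ^ (h - k)),
        bt (x.val / 2 ^ (h - k))) false false false ⟨k, by omega⟩ ⟨k + 1, by omega⟩ ⟨k, by omega⟩
      rfl rfl rfl rfl (by simp) ?_ step1
    exact lt_U rfl _ _ (en_mono_level hkh)

include hB hfree in
lemma chain_false (hh : 1 ≤ h) : False := by
  have h1 := chainU B x y hB hfree hh h le_rfl
  have e : (⟨h - h, by omega⟩ : Fin (h + 1)) = ⟨0, by omega⟩ := Fin.ext (by simp)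
  rw [e] at h1
  rw [hB _ _ (inS00 x y _ _)] at h1
  simp only [ent, val, Bool.false_eq_true, if_false, decide_eq_true_eq] at h1
  rw [st_zero, st_zero] at h1
  have := Nat.two_pow_pos h
  omega

end copy

end Crest.Agent.S0066
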