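import Crest.Statements.S0066
import Crest.Agent.S0066G

set_option autoImplicit false
open Crest Crest.CombinatoricsR

namespace Crest.Agent.S0066

open Crest.CombinatoricsR.OrderedMatrix

lemma count_le (h n : ℕ) (e : Fin n ≃o E h) :
    orderedCopyCount pat (fun i j => ent (e i) (e j)) ≤ n ^ 65 * n ^ 65 := by
  unfold orderedCopyCount
  have hcard : Fintype.card ((Fin 65 → Fin n) × (Fin 65 → Fin n)) = n ^ 65 * n ^ 65 := by
    simp
  rw [← hcard]
  refine Fintype.card_le_of_injective
    (fun rc => (fun i => rc.1.1 (Fin.castSucc i), fun i => rc.1.2 (Fin.castSucc i))) ?_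
  rintro ⟨⟨f, g⟩, hf, hg, H⟩ ⟨⟨f', g'⟩, hf', hg', H'⟩ heq
  simp only [Prod.mk.injEq] at heq
  simp only at hf hg H hf' hg' H'
  obtain ⟨h1, h2⟩ := heq
  have d := determined (f := fun i => e (f i)) (g := fun i => e (g i))
    (e.strictMono.comp hf) (e.strictMono.comp hg) H
  have d' := determined (f := fun i => e (f' i)) (g := fun i => e (g' i))
    (e.strictMono.comp hf') (e.strictMono.comp hg') H'
  have g64' : g 64 = g' 64 := congrFun h2 64
  have f65 : f 65 = f' 65 := by
    apply e.injective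
    have a : e (f 65) = rowOf (e (g 64)) := d.1
    have b : e (f' 65) = rowOf (e (g' 64)) := d'.1
    rw [a, b, g64']
  have g65 : g 65 = g' 65 := by
    apply e.injective
    have a : e (g 65) = colOf (e (g 64)) := d.2
    have b : e (g' 65) = colOf (e (g' 64)) := d'.2
    rw [a, b, g64']
  have hff : f = f' := by
    funext i
    refine Fin.lastCases ?_ (fun j => ?_) i
    · exact f65
    · exact congrFun h1 j
  have hgg : g = g' := by
    funext i
    refine Fin.lastCases ?_ (fun j => ?_) i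
    · exact g65
    · exact congrFun h2 j
  subst hff hgg
  rfl

lemma far (h n : ℕ) (hh : 1 ≤ h) (e : Fin n ≃o E h) (B : Fin n → Fin n → Bool)
    (hB0 : orderedCopyCount pat B = 0) :
    2 ^ h * 2 ^ h ≤ (Finset.univ.filter
      (fun rc : Fin n × Fin n => ent (e rc.1) (e rc.2) ≠ B rc.1 rc.2)).card := by
  classical
  have hfree : ¬ ∃ f g : Fin 66 → E h, StrictMono f ∧ StrictMono g ∧
      ∀ i j, B (e.symm (f i)) (e.symm (g j)) = pat i j := by
    rintro ⟨f, g, hf, hg, H⟩
    unfold orderedCopyCount at hB0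
    rw [Fintype.card_eq_zero_iff] at hB0
    exact hB0.elim ⟨(fun i => e.symm (f i), fun i => e.symm (g i)),
      e.symm.strictMono.comp hf, e.symm.strictMono.comp hg, H⟩
  have hex : ∀ p : Fin (2 ^ h) × Fin (2 ^ h), ∃ r c : E h, inS p.1 p.2 r c ∧
      B (e.symm r) (e.symm c) ≠ ent r c := by
    intro p
    by_contra hcon
    push Not at hcon
    exact chain_false (fun r c => B (e.symm r) (e.symm c)) p.1 p.2 hcon hfree hh
  choose R C hRC using hex
  have hcard : Fintype.card (Fin (2 ^ h) × Fin (2 ^ h)) = 2 ^ h * 2 ^ h := by simp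
  rw [← hcard, ← Finset.card_univ]
  refine Finset.card_le_card_of_injOn (fun p => (e.symm (R p), e.symm (C p))) ?_ ?_
  · intro p _
    simp only [Finset.coe_filter, Finset.mem_univ, true_and, Set.mem_ofPred_eq, OrderIso.apply_symm_apply]
    exact (hRC p).2.symm
  · intro p _ p' _ hpp
    simp only [Prod.mk.injEq, EmbeddingLike.apply_eq_iff_eq] at hpp
    have h1 := (hRC p).1
    have h2 := (hRC p').1
    rw [← hpp.1, ← hpp.2] at h2
    have := inS_inj h1 h2
    exact Prod.ext this.1 this.2

/-- There is a fixed 66 × 66 binary pattern H such that for every h ≥ 1, with n = (386h + 2) · 2^h and ε = (386h + 2)⁻², some n × n binary matrix A is ε-far from free of ordered copies of H (every n × n binary matrix without an ordered copy of H differs from A in at least ε · n² cells) while the number of ordered copies of H in A is at most ε · 2^(-h) · n^132. An ordered copy picks 66 rows and 66 columns in increasing order on which A coincides with H, zeros included. -/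
theorem result :
    ∃ H : Fin 66 → Fin 66 → Bool, ∀ h : ℕ, 1 ≤ h →
      ∃ A : Fin ((386 * h + 2) * 2 ^ h) → Fin ((386 * h + 2) * 2 ^ h) → Bool,
        (∀ B : Fin ((386 * h + 2) * 2 ^ h) → Fin ((386 * h + 2) * 2 ^ h) → Bool,
          Crest.CombinatoricsR.OrderedMatrix.orderedCopyCount H B = 0 →
            ((386 * (h : ℝ) + 2) ^ 2)⁻¹ * (((386 * h + 2) * 2 ^ h : ℕ) : ℝ) ^ 2 ≤
              ((Finset.univ.filter (fun rc : Fin ((386 * h + 2) * 2 ^ h) × Fin ((386 * h + 2) * 2 ^ h) =>
                A rc.1 rc.2 ≠ B rc.1 rc.2)).card : ℝ)) ∧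
        (Crest.CombinatoricsR.OrderedMatrix.orderedCopyCount H A : ℝ) /
            (((386 * h + 2) * 2 ^ h : ℕ) : ℝ) ^ 132 ≤
          ((386 * (h : ℝ) + 2) ^ 2)⁻¹ * (2 : ℝ)⁻¹ ^ h := by
  refine ⟨pat, fun h hh => ?_⟩
  have hc := card_E h hh
  have hnc : (((386 * h + 2) * 2 ^ h : ℕ) : ℝ) = (386 * (h : ℝ) + 2) * 2 ^ h := by
    push_cast; ring
  have hnpos : 0 < (386 * h + 2) * 2 ^ h := by positivity
  generalize (386 * h + 2) * 2 ^ h = n at hc hnc hnpos ⊢
  let e : Fin n ≃o E h := Fintype.orderIsoFinOfCardEq (E h) hc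
  refine ⟨fun i j => ent (e i) (e j), ?_, ?_⟩
  · intro B hB
    have h1 := far h n hh e B hB
    have h2 : ((2 ^ h * 2 ^ h : ℕ) : ℝ) ≤ ((Finset.univ.filter
      (fun rc : Fin n × Fin n => ent (e rc.1) (e rc.2) ≠ B rc.1 rc.2)).card : ℝ) := by
      exact_mod_cast h1
    refine le_trans (le_of_eq ?_) h2
    have hpos : (386 * (h : ℝ) + 2) ≠ 0 := by positivity
    rw [hnc]
    push_cast
    field_simp
  · have h1 := count_le h n e
    have hnR : (0 : ℝ) < (n : ℝ) := by exact_mod_cast hnpos
    have h2 : (orderedCopyCount pat (fun i j => ent (e i) (e j)) : ℝ) ≤ (n : ℝ) ^ 130 := by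
      have : orderedCopyCount pat (fun i j => ent (e i) (e j)) ≤ n ^ 130 := by
        calc _ ≤ n ^ 65 * n ^ 65 := h1
          _ = n ^ 130 := by rw [← pow_add]
      exact_mod_cast this
    have h3 : (orderedCopyCount pat (fun i j => ent (e i) (e j)) : ℝ) / (n : ℝ) ^ 132 ≤
        ((n : ℝ) ^ 2)⁻¹ := by
      rw [div_le_iff₀ (by positivity)]
      calc (orderedCopyCount pat (fun i j => ent (e i) (e j)) : ℝ) ≤ (n : ℝ) ^ 130 := h2
        _ = ((n : ℝ) ^ 2)⁻¹ * (n : ℝ) ^ 132 := by
          rw [show (132 : ℕ) = 2 + 130 by norm_num, pow_add, ← mul_assoc,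
            inv_mul_cancel₀ (by positivity), one_mul]
    refine le_trans h3 ?_
    rw [hnc, mul_pow, mul_inv]
    apply mul_le_mul_of_nonneg_left _ (by positivity)
    rw [← inv_pow, ← inv_pow, ← pow_mul]
    apply pow_le_pow_of_le_one (by norm_num) (by norm_num)
    omega

end Crest.Agent.S0066
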