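import Mathlib
import Crest.Prelude.Def_OrderedMatrix

set_option autoImplicit false

/-!
Construction for S0066: blocks, order, host matrix and pattern.
-/

namespace Crest.Agent.S0066

/-- gadget instances -/
abbrev Inst (h : ℕ) : Type := Fin 6 × Fin h × Fin 2 × Fin 2 × Fin 2

/-- blocks of rows / columns -/
inductive Blk (h : ℕ) : Type
  | M (i : Fin 62) : Blk h
  | Z1 (ι : Inst h) : Blk h
  | Z2 (ι : Inst h) : Blk h
  | D (ι : Inst h) : Blk h
  | T (kd : Bool) (l : Fin (h+1)) : Blk h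
  | F (j : Fin (240 * h - 62)) : Blk h

def Blk.equiv (h : ℕ) :
    Blk h ≃ (Fin 62 ⊕ Inst h ⊕ Inst h ⊕ Inst h ⊕ (Bool × Fin (h+1)) ⊕ Fin (240 * h - 62)) where
  toFun b := match b with
    | .M i => .inl i
    | .Z1 i => .inr (.inl i)
    | .Z2 i => .inr (.inr (.inl i))
    | .D i => .inr (.inr (.inr (.inl i)))
    | .T k l => .inr (.inr (.inr (.inr (.inl (k, l)))))
    | .F j => .inr (.inr (.inr (.inr (.inr j))))
  invFun s := match s with
    | .inl i => .M i
    | .inr (.inl i) => .Z1 i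
    | .inr (.inr (.inl i)) => .Z2 i
    | .inr (.inr (.inr (.inl i))) => .D i
    | .inr (.inr (.inr (.inr (.inl (k, l))))) => .T k l
    | .inr (.inr (.inr (.inr (.inr j)))) => .F j
  left_inv b := by cases b <;> rfl
  right_inv s := by
    rcases s with i | i | i | i | ⟨k, l⟩ | j <;> rfl

/-- elements: a block and a label -/
structure E (h : ℕ) : Type where
  b : Blk h
  x : Fin (2 ^ h)

def E.equiv (h : ℕ) : E h ≃ Blk h × Fin (2 ^ h) where
  toFun e := (e.b, e.x)
  invFun p := ⟨p.1, p.2⟩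
  left_inv _ := rfl
  right_inv _ := rfl

instance (h : ℕ) : Fintype (Blk h) := Fintype.ofEquiv _ (Blk.equiv h).symm
instance (h : ℕ) : Fintype (E h) := Fintype.ofEquiv _ (E.equiv h).symm

lemma card_E (h : ℕ) (hh : 1 ≤ h) : Fintype.card (E h) = (386 * h + 2) * 2 ^ h := by
  rw [Fintype.card_congr (E.equiv h), Fintype.card_prod, Fintype.card_congr (Blk.equiv h)]
  simp only [Fintype.card_sum, Fintype.card_prod, Fintype.card_fin, Fintype.card_bool]
  congr 1
  omega

/-- start of the dyadic interval of level `l` containing `x` -/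
def st (h l x : ℕ) : ℕ := x / 2 ^ (h - l) * 2 ^ (h - l)
/-- exclusive end of the dyadic interval of level `l` containing `x` -/
def en (h l x : ℕ) : ℕ := (x / 2 ^ (h - l) + 1) * 2 ^ (h - l)

/-- region number -/
def Blk.reg {h : ℕ} : Blk h → ℕ
  | .M _ => 0
  | .Z1 _ => 1
  | .Z2 _ => 2
  | .D _ => 3
  | .T _ _ => 4
  | .F _ => 5

noncomputable def instNum {h : ℕ} (ι : Inst h) : ℕ := (Fintype.equivFin (Inst h) ι).val

lemma instNum_inj {h : ℕ} : Function.Injective (instNum (h := h)) := by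
  intro a b hab
  exact (Fintype.equivFin (Inst h)).injective (Fin.ext hab)

/-- first key -/
noncomputable def E.k1 {h : ℕ} (e : E h) : ℕ :=
  match e.b with
  | .M i => i.val
  | .Z1 i => instNum i
  | .Z2 i => instNum i
  | .D i => instNum i
  | .T true l => 2 * st h l.val e.x.val + 1
  | .T false l => 2 * en h l.val e.x.val
  | .F j => j.val

/-- second key -/
def E.k2 {h : ℕ} (e : E h) : ℕ :=
  match e.b with
  | .M _ => 0
  | .Z1 _ => 0
  | .Z2 _ => 0
  | .D _ => 0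
  | .T true l => l.val
  | .T false l => h - l.val
  | .F _ => 0

noncomputable def E.key {h : ℕ} (e : E h) : ℕ ×ₗ ℕ ×ₗ ℕ ×ₗ ℕ :=
  toLex (e.b.reg, toLex (e.k1, toLex (e.k2, e.x.val)))

lemma E.key_inj {h : ℕ} : Function.Injective (E.key (h := h)) := by
  rintro ⟨b, x⟩ ⟨b', x'⟩ heq
  have h0 := congrArg ofLex heq
  simp only [E.key, ofLex_toLex, Prod.mk.injEq] at h0
  obtain ⟨h1, h2⟩ := h0
  have h2 := congrArg ofLex h2
  simp only [ofLex_toLex, Prod.mk.injEq] at h2
  obtain ⟨h2, h3⟩ := h2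
  have h3 := congrArg ofLex h3
  simp only [ofLex_toLex, Prod.mk.injEq] at h3
  obtain ⟨h3, h4⟩ := h3
  have hx : x = x' := Fin.ext h4
  subst hx
  congr 1
  rcases b with i | i | i | i | ⟨k, l⟩ | j <;> rcases b' with i' | i' | i' | i' | ⟨k', l'⟩ | j' <;>
    simp only [Blk.reg] at h1 <;> try omega
  · simp only [E.k1] at h2
    rw [Fin.ext h2]
  · simp only [E.k1] at h2
    rw [instNum_inj h2]
  · simp only [E.k1] at h2
    rw [instNum_inj h2]
  · simp only [E.k1] at h2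
    rw [instNum_inj h2]
  · cases k <;> cases k' <;> simp only [E.k1, E.k2] at h2 h3
    · have : l = l' := Fin.ext (by omega)
      rw [this]
    · omega
    · omega
    · have : l = l' := Fin.ext (by omega)
      rw [this]
  · simp only [E.k1] at h2
    rw [Fin.ext h2]

noncomputable instance (h : ℕ) : LinearOrder (E h) := LinearOrder.lift' E.key E.key_inj

lemma lt_iff_key {h : ℕ} (e e' : E h) : e < e' ↔ e.key < e'.key := Iff.rfl

lemma lt_iff {h : ℕ} (e e' : E h) : e < e' ↔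
    e.b.reg < e'.b.reg ∨ (e.b.reg = e'.b.reg ∧ (e.k1 < e'.k1 ∨ (e.k1 = e'.k1 ∧
      (e.k2 < e'.k2 ∨ (e.k2 = e'.k2 ∧ e.x.val < e'.x.val))))) := by
  rw [lt_iff_key, E.key, E.key]
  simp only [Prod.Lex.toLex_lt_toLex]

lemma reg_le_of_lt {h : ℕ} {e e' : E h} (hlt : e < e') : e.b.reg ≤ e'.b.reg := by
  rw [lt_iff] at hlt; omega

lemma reg_le_of_le {h : ℕ} {e e' : E h} (hle : e ≤ e') : e.b.reg ≤ e'.b.reg := by
  rcases hle.lt_or_eq with hlt | rfl
  · exact reg_le_of_lt hlt
  · exact le_rfl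

lemma k1_le_of_lt {h : ℕ} {e e' : E h} (hlt : e < e') (hr : e.b.reg = e'.b.reg) :
    e.k1 ≤ e'.k1 := by
  rw [lt_iff] at hlt; omega

/-- tag of a T-element -/
def tag (h : ℕ) (kd : Bool) (l x : ℕ) : Bool × ℕ × ℕ := (kd, l, (x / 2 ^ (h - l)) % 2)

def fb (b : Fin 2) : ℕ := b.val

def r1 {h : ℕ} (ι : Inst h) : Option (Bool × ℕ × ℕ) :=
  match ι.1 with
  | 0 => some (true, ι.2.1.val, ι.2.2.1.val)
  | 3 => some (true, h, ι.2.2.1.val)
  | 5 => some (false, ι.2.1.val + 1, ι.2.2.1.val)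
  | _ => none

def r2 {h : ℕ} (ι : Inst h) : Option (Bool × ℕ × ℕ) :=
  match ι.1 with
  | 0 => some (true, ι.2.1.val + 1, ι.2.2.2.1.val)
  | 1 => some (true, ι.2.1.val + 1, 1 - ι.2.2.2.2.val)
  | 2 => some (true, h, ι.2.2.1.val)
  | 3 => some (false, h, ι.2.2.2.1.val)
  | 4 => some (false, ι.2.1.val + 1, 1 - ι.2.2.2.1.val)
  | 5 => some (false, ι.2.1.val, ι.2.2.2.1.val)

def c1 {h : ℕ} (ι : Inst h) : Option (Bool × ℕ × ℕ) :=
  match ι.1 with
  | 1 => some (true, ι.2.1.val, ι.2.2.2.1.val)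
  | 2 => some (true, h, ι.2.2.2.1.val)
  | 4 => some (false, ι.2.1.val + 1, ι.2.2.2.1.val)
  | _ => none

def c2 {h : ℕ} (ι : Inst h) : Option (Bool × ℕ × ℕ) :=
  match ι.1 with
  | 0 => some (true, ι.2.1.val, ι.2.2.2.2.val)
  | 1 => some (true, ι.2.1.val + 1, ι.2.2.2.2.val)
  | 2 => some (false, h, ι.2.2.2.2.val)
  | 3 => some (false, h, ι.2.2.2.2.val)
  | 4 => some (false, ι.2.1.val, ι.2.2.2.2.val)
  | 5 => some (false, ι.2.1.val, ι.2.2.2.2.val)

/-- T × T entries -/
def val (h : ℕ) (lr xr : ℕ) (kc : Bool) (lc xc : ℕ) : Bool :=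
  if kc then decide (2 ^ h < en h lr xr + en h lc xc) else decide (2 ^ h ≤ st h lr xr + st h lc xc)

/-- the host matrix on elements -/
def ent {h : ℕ} (r c : E h) : Bool :=
  match r.b, c.b with
  | .M i, .M j => decide (i.val + j.val ≤ 61)
  | .M i, .Z1 _ => decide (i.val ≠ 0)
  | .M i, .Z2 _ => decide (i.val ≠ 1)
  | .M _, .D _ => true
  | .M _, .T _ _ => true
  | .M _, .F _ => false
  | .Z1 _, .M j => decide (j.val ≠ 0)
  | .Z1 ι, .Z1 κ => decide (ι = κ)
  | .Z1 ι, .Z2 κ => decide (ι = κ)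
  | .Z1 ι, .D κ => decide (ι = κ)
  | .Z1 ι, .T kd l => decide (c1 ι = some (tag h kd l.val c.x.val))
  | .Z1 _, .F _ => false
  | .Z2 _, .M j => decide (j.val ≠ 1)
  | .Z2 ι, .Z1 κ => decide (ι = κ)
  | .Z2 ι, .Z2 κ => decide (ι = κ)
  | .Z2 _, .D _ => false
  | .Z2 ι, .T kd l => decide (c2 ι = some (tag h kd l.val c.x.val))
  | .Z2 _, .F _ => false
  | .D _, .M _ => true
  | .D ι, .Z1 κ => decide (ι = κ)
  | .D _, .Z2 _ => false
  | .D _, .D _ => true
  | .D ι, .T kd l => decide (c2 ι = some (tag h kd l.val c.x.val))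
  | .D _, .F _ => false
  | .T _ _, .M _ => true
  | .T kd l, .Z1 κ => decide (r1 κ = some (tag h kd l.val r.x.val))
  | .T kd l, .Z2 κ => decide (r2 κ = some (tag h kd l.val r.x.val))
  | .T kd l, .D κ => decide (r2 κ = some (tag h kd l.val r.x.val))
  | .T _ l, .T kd' l' => val h l.val r.x.val kd' l'.val c.x.val
  | .T _ _, .F _ => false
  | .F _, _ => false

/-- the pattern, on naturals -/
def hent (i j : ℕ) : Bool :=
  if i < 62 then
    (if j < 62 then decide (i + j ≤ 61) else if j = 62 then decide (i ≠ 0)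
      else if j = 63 then decide (i ≠ 1) else true)
  else if i = 62 then (if j < 62 then decide (j ≠ 0) else decide (j ≠ 65))
  else if i = 63 then (if j < 62 then decide (j ≠ 1) else decide (j ≠ 64))
  else if i = 64 then (if j < 62 then true else decide (j = 62 ∨ j = 65))
  else (if j < 62 then true else decide (j = 63 ∨ j = 64))

def pat (i j : Fin 66) : Bool := hent i.val j.val

end Crest.Agent.S0066
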