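import Crest.Agent.S0066A

set_option autoImplicit false

namespace Crest.Agent.S0066

lemma pow_split {h l : ℕ} (hl : l ≤ h) : 2 ^ h = 2 ^ l * 2 ^ (h - l) := by
  rw [← pow_add]; congr 1; omega

lemma laminar_aux (h l m x y : ℕ) (hlm : l ≤ m) (hm : m ≤ h) :
    (en h l x + en h m y ≤ 2 ^ h) ∨ (2 ^ h ≤ st h l x + st h m y) ∨
    (st h l x + en h m y ≤ 2 ^ h ∧ 2 ^ h ≤ en h l x + st h m y) := by
  unfold en st
  set p := x / 2 ^ (h - l)
  set q := y / 2 ^ (h - m)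
  have e1 : 2 ^ (h - l) = 2 ^ (m - l) * 2 ^ (h - m) := by
    rw [← pow_add]; congr 1; omega
  have e2 : 2 ^ h = 2 ^ m * 2 ^ (h - m) := pow_split hm
  rw [e1, e2]
  set D := 2 ^ (h - m)
  set t := 2 ^ (m - l)
  set K := 2 ^ m
  have i1 : (p + 1) * (t * D) + (q + 1) * D = ((p + 1) * t + q + 1) * D := by ring
  have i2 : p * (t * D) + q * D = (p * t + q) * D := by ring
  have i3 : p * (t * D) + (q + 1) * D = (p * t + q + 1) * D := by ring
  have i4 : (p + 1) * (t * D) + q * D = ((p + 1) * t + q) * D := by ring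
  rw [i1, i2, i3, i4]
  by_cases c1 : (p + 1) * t + q + 1 ≤ K
  · left; exact Nat.mul_le_mul_right _ c1
  by_cases c2 : K ≤ p * t + q
  · right; left; exact Nat.mul_le_mul_right _ c2
  right; right
  exact ⟨Nat.mul_le_mul_right _ (by omega), Nat.mul_le_mul_right _ (by omega)⟩

lemma laminar (h l m x y : ℕ) (hl : l ≤ h) (hm : m ≤ h) :
    (en h l x + en h m y ≤ 2 ^ h) ∨ (2 ^ h ≤ st h l x + st h m y) ∨
    (st h l x + en h m y ≤ 2 ^ h ∧ 2 ^ h ≤ en h l x + st h m y) ∨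
    (2 ^ h ≤ st h l x + en h m y ∧ en h l x + st h m y ≤ 2 ^ h) := by
  rcases le_total l m with hlm | hml
  · rcases laminar_aux h l m x y hlm hm with h1 | h1 | h1
    · left; exact h1
    · right; left; exact h1
    · right; right; left; exact h1
  · rcases laminar_aux h m l y x hml hl with h1 | h1 | h1
    · left; omega
    · right; left; omega
    · right; right; right; omega

lemma en_eq (h l x : ℕ) : en h l x = st h l x + 2 ^ (h - l) := by
  unfold en st; ring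

lemma en_eq' {h l : ℕ} (x : ℕ) (hl : l < h) : en h l x = st h l x + 2 * 2 ^ (h - (l + 1)) := by
  rw [en_eq]
  congr 1
  rw [← pow_succ']
  congr 1
  omega

lemma D_pos (h l : ℕ) : 1 ≤ 2 ^ (h - l) := Nat.one_le_two_pow

/-- parity lemma: complementary parities at level `l+1`. -/
lemma parity_en {h l x y b : ℕ} (hl : l < h) (hb : b ≤ 1)
    (hx : (x / 2 ^ (h - (l + 1))) % 2 = 1 - b) (hy : (y / 2 ^ (h - (l + 1))) % 2 = b)
    (hle : en h (l + 1) x + en h (l + 1) y ≤ 2 ^ h) :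
    en h (l + 1) x + en h (l + 1) y + 2 ^ (h - (l + 1)) ≤ 2 ^ h := by
  have e2 : 2 ^ h = 2 ^ (l + 1) * 2 ^ (h - (l + 1)) := pow_split hl
  unfold en at *
  set p := x / 2 ^ (h - (l + 1))
  set q := y / 2 ^ (h - (l + 1))
  set d := 2 ^ (h - (l + 1)) with hd
  have hd0 : 0 < d := Nat.two_pow_pos _
  have hK : 2 ^ (l + 1) = 2 * 2 ^ l := by rw [pow_succ]; ring
  rw [e2] at hle ⊢
  have i1 : (p + 1) * d + (q + 1) * d = (p + q + 2) * d := by ring
  rw [i1] at hle ⊢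
  have h1 : p + q + 2 ≤ 2 ^ (l + 1) := Nat.le_of_mul_le_mul_right hle hd0
  have h2 : p + q + 3 ≤ 2 ^ (l + 1) := by omega
  calc (p + q + 2) * d + d = (p + q + 3) * d := by ring
    _ ≤ _ := Nat.mul_le_mul_right _ h2

lemma parity_st {h l x y b : ℕ} (hl : l < h) (hb : b ≤ 1)
    (hx : (x / 2 ^ (h - (l + 1))) % 2 = 1 - b) (hy : (y / 2 ^ (h - (l + 1))) % 2 = b)
    (hle : 2 ^ h ≤ st h (l + 1) x + st h (l + 1) y) :
    2 ^ h + 2 ^ (h - (l + 1)) ≤ st h (l + 1) x + st h (l + 1) y := by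
  have e2 : 2 ^ h = 2 ^ (l + 1) * 2 ^ (h - (l + 1)) := pow_split hl
  unfold st at *
  set p := x / 2 ^ (h - (l + 1))
  set q := y / 2 ^ (h - (l + 1))
  set d := 2 ^ (h - (l + 1)) with hd
  have hd0 : 0 < d := Nat.two_pow_pos _
  have hK : 2 ^ (l + 1) = 2 * 2 ^ l := by rw [pow_succ]; ring
  rw [e2] at hle ⊢
  have i1 : p * d + q * d = (p + q) * d := by ring
  rw [i1] at hle ⊢
  have h1 : 2 ^ (l + 1) ≤ p + q := Nat.le_of_mul_le_mul_right hle hd0
  have h2 : 2 ^ (l + 1) + 1 ≤ p + q := by omega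
  calc 2 ^ (l + 1) * d + d = (2 ^ (l + 1) + 1) * d := by ring
    _ ≤ _ := Nat.mul_le_mul_right _ h2

/-- first key of a T-element -/
def tk1 (h : ℕ) (kd : Bool) (l x : ℕ) : ℕ := if kd then 2 * st h l x + 1 else 2 * en h l x

lemma k1_T {h : ℕ} (kd : Bool) (l : Fin (h+1)) (x : Fin (2 ^ h)) :
    (E.k1 ⟨.T kd l, x⟩ : ℕ) = tk1 h kd l.val x.val := by
  cases kd <;> rfl

/-- exclusion of the forbidden pattern in T × T -/
lemma excl_pattern {h : ℕ} {k1' k2' k3' kc1 kc2 : Bool} {l1 l2 l3 m1 m2 x1 x2 x3 y1 y2 : ℕ}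
    (hl2 : l2 ≤ h) (hm1 : m1 ≤ h) (hm2 : m2 ≤ h)
    (o12 : tk1 h k1' l1 x1 ≤ tk1 h k2' l2 x2) (o23 : tk1 h k2' l2 x2 ≤ tk1 h k3' l3 x3)
    (oc : tk1 h kc1 m1 y1 ≤ tk1 h kc2 m2 y2)
    (v12 : val h l1 x1 kc2 m2 y2 = true) (v22 : val h l2 x2 kc2 m2 y2 = false)
    (v21 : val h l2 x2 kc1 m1 y1 = true) (v31 : val h l3 x3 kc1 m1 y1 = false) : False := by
  have L1 := laminar h l2 m1 x2 y1 hl2 hm1
  have L2 := laminar h l2 m2 x2 y2 hl2 hm2
  have E1 := en_eq h l1 x1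
  have E2 := en_eq h l2 x2
  have E3 := en_eq h l3 x3
  have F1 := en_eq h m1 y1
  have F2 := en_eq h m2 y2
  have P1 := D_pos h l1
  have P2 := D_pos h l2
  have P3 := D_pos h l3
  have Q1 := D_pos h m1
  have Q2 := D_pos h m2
  cases k1' <;> cases k2' <;> cases k3' <;> cases kc1 <;> cases kc2 <;>
    simp [tk1, val] at o12 o23 oc v12 v22 v21 v31 <;> omega

lemma excl_Vrow {h : ℕ} {l x1 x2 y : ℕ} (hl : l < h)
    (o : tk1 h true l x1 ≤ tk1 h true (l + 1) x2)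
    (v1 : val h l x1 true l y = true) (v2 : val h (l + 1) x2 true l y = false) : False := by
  have L1 := laminar h l l x1 y hl.le hl.le
  have E1 := en_eq h l x1
  have E2 := en_eq h (l + 1) x2
  have F1 := en_eq h l y
  have P1 := D_pos h l
  have P2 := D_pos h (l + 1)
  simp [tk1, val] at o v1 v2
  omega

lemma excl_Vcol {h : ℕ} {l x y1 y2 b : ℕ} (hl : l < h) (hb : b ≤ 1)
    (hx : (x / 2 ^ (h - (l + 1))) % 2 = 1 - b) (hy : (y2 / 2 ^ (h - (l + 1))) % 2 = b)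
    (o : tk1 h true l y1 ≤ tk1 h true (l + 1) y2)
    (v1 : val h (l + 1) x true l y1 = true) (v2 : val h (l + 1) x true (l + 1) y2 = false) :
    False := by
  have L1 := laminar h (l + 1) l x y1 (by omega) hl.le
  have E1 := en_eq h (l + 1) x
  have F1 := en_eq' y1 hl
  have F2 := en_eq h (l + 1) y2
  have P2 := D_pos h (l + 1)
  simp [tk1, val] at o v1 v2
  have P := parity_en hl hb hx hy v2
  omega

lemma excl_Ucol {h : ℕ} {l x y1 y2 b : ℕ} (hl : l < h) (hb : b ≤ 1)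
    (hx : (x / 2 ^ (h - (l + 1))) % 2 = 1 - b) (hy : (y1 / 2 ^ (h - (l + 1))) % 2 = b)
    (o : tk1 h false (l + 1) y1 ≤ tk1 h false l y2)
    (v1 : val h (l + 1) x false (l + 1) y1 = true) (v2 : val h (l + 1) x false l y2 = false) :
    False := by
  have E1 := en_eq h (l + 1) x
  have F1 := en_eq h (l + 1) y1
  have F2 := en_eq' y2 hl
  have P2 := D_pos h (l + 1)
  simp [tk1, val] at o v1 v2
  have P := parity_st hl hb hx hy v1
  omega

lemma excl_Urow {h : ℕ} {l x1 x2 y : ℕ} (hl : l < h)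
    (o : tk1 h false (l + 1) x1 ≤ tk1 h false l x2)
    (v1 : val h (l + 1) x1 false l y = true) (v2 : val h l x2 false l y = false) : False := by
  have L1 := laminar h l l x2 y hl.le hl.le
  have E1 := en_eq h (l + 1) x1
  have E2 := en_eq h l x2
  have F1 := en_eq h l y
  have P1 := D_pos h l
  have P2 := D_pos h (l + 1)
  simp [tk1, val] at o v1 v2
  omega

lemma st_h (h x : ℕ) : st h h x = x := by simp [st]
lemma en_h (h x : ℕ) : en h h x = x + 1 := by simp [en]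

lemma excl_Jcol {h : ℕ} {x y1 y2 : ℕ}
    (o : tk1 h true h y1 ≤ tk1 h false h y2)
    (v1 : val h h x true h y1 = true) (v2 : val h h x false h y2 = false) :
    y2 = y1 ∧ x = 2 ^ h - 1 - y1 := by
  simp [tk1, val, st_h, en_h] at o v1 v2
  omega

lemma excl_Jrow {h : ℕ} {x1 x2 y : ℕ}
    (o : tk1 h true h x1 ≤ tk1 h false h x2)
    (v1 : val h h x1 false h y = true) (v2 : val h h x2 false h y = false) : False := by
  simp [tk1, val, st_h, en_h] at o v1 v2
  omega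

end Crest.Agent.S0066
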