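import Crest.Agent.S0066B

set_option autoImplicit false

namespace Crest.Agent.S0066

lemma reg_zero {h : ℕ} {b : Blk h} (hb : b.reg = 0) : ∃ i, b = .M i := by
  cases b <;> simp_all [Blk.reg]
lemma reg_one {h : ℕ} {b : Blk h} (hb : b.reg = 1) : ∃ i, b = .Z1 i := by
  cases b <;> simp_all [Blk.reg]
lemma reg_two {h : ℕ} {b : Blk h} (hb : b.reg = 2) : ∃ i, b = .Z2 i := by
  cases b <;> simp_all [Blk.reg]
lemma reg_three {h : ℕ} {b : Blk h} (hb : b.reg = 3) : ∃ i, b = .D i := by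
  cases b <;> simp_all [Blk.reg]
lemma reg_four {h : ℕ} {b : Blk h} (hb : b.reg = 4) : ∃ k l, b = .T k l := by
  cases b <;> simp_all [Blk.reg]
lemma reg_five {h : ℕ} {b : Blk h} (hb : b.reg = 5) : ∃ i, b = .F i := by
  cases b <;> simp_all [Blk.reg]
lemma reg_le_five {h : ℕ} (b : Blk h) : b.reg ≤ 5 := by
  cases b <;> simp [Blk.reg]

lemma ent_F_row {h : ℕ} {r c : E h} (hr : r.b.reg = 5) : ent r c = false := by
  obtain ⟨i, hi⟩ := reg_five hr
  cases hb : c.b <;> simp only [ent, hi, hb]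

lemma ent_F_col {h : ℕ} {r c : E h} (hr : c.b.reg = 5) : ent r c = false := by
  obtain ⟨i, hi⟩ := reg_five hr
  cases hb : r.b <;> simp only [ent, hi, hb]

lemma ent_congr_M_row {h : ℕ} {r r' c : E h} (hr : r.b.reg = 0) (hb : r.b = r'.b) :
    ent r c = ent r' c := by
  obtain ⟨i, hi⟩ := reg_zero hr
  have hi' := hi
  rw [hb] at hi'
  cases hc : c.b <;> simp only [ent, hi, hi', hc]

lemma ent_congr_M_col {h : ℕ} {r c c' : E h} (hr : c.b.reg = 0) (hb : c.b = c'.b) :
    ent r c = ent r c' := by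
  obtain ⟨i, hi⟩ := reg_zero hr
  have hi' := hi
  rw [hb] at hi'
  cases hc : r.b <;> simp only [ent, hi, hi', hc]

/-- two marker rows with a zero in the same non-marker column lie in the same block -/
lemma M_row_zero {h : ℕ} {r r' c : E h} (hr : r.b.reg = 0) (hr' : r'.b.reg = 0)
    (hc : c.b.reg ≠ 0) (hc5 : c.b.reg ≤ 4) (h1 : ent r c = false) (h2 : ent r' c = false) :
    r.b = r'.b := by
  obtain ⟨i, hi⟩ := reg_zero hr
  obtain ⟨i', hi'⟩ := reg_zero hr'
  cases hb : c.b <;> simp [ent, hi, hi', hb, Blk.reg] at h1 h2 hc hc5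
  · rw [hi, hi']; congr 1; exact Fin.ext (by simp [h1, h2])
  · rw [hi, hi']; congr 1; exact Fin.ext (by simp [h1, h2])

lemma M_col_zero {h : ℕ} {r c c' : E h} (hr : c.b.reg = 0) (hr' : c'.b.reg = 0)
    (hc : r.b.reg ≠ 0) (hc5 : r.b.reg ≤ 4) (h1 : ent r c = false) (h2 : ent r c' = false) :
    c.b = c'.b := by
  obtain ⟨i, hi⟩ := reg_zero hr
  obtain ⟨i', hi'⟩ := reg_zero hr'
  cases hb : r.b <;> simp [ent, hi, hi', hb, Blk.reg] at h1 h2 hc hc5
  · rw [hi, hi']; congr 1; exact Fin.ext (by simp [h1, h2])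
  · rw [hi, hi']; congr 1; exact Fin.ext (by simp [h1, h2])

/-- partition-like property of all non-T×T region pairs -/
lemma part_like {h : ℕ} {r r' c c' : E h} (hr : r.b.reg = r'.b.reg) (hc : c.b.reg = c'.b.reg)
    (h0 : r.b.reg ≠ 0) (h0' : c.b.reg ≠ 0) (h4 : ¬ (r.b.reg = 4 ∧ c.b.reg = 4))
    (e1 : ent r c = true) (e2 : ent r c' = true) (e3 : ent r' c = true) : ent r' c' = true := by
  obtain ⟨b, x⟩ := r
  obtain ⟨b', x'⟩ := r'
  obtain ⟨d, y⟩ := c
  obtain ⟨d', y'⟩ := c'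
  simp only at hr hc h0 h0' h4
  cases b <;> cases b' <;> simp [Blk.reg] at hr h0 h4 <;>
  cases d <;> cases d' <;> simp [Blk.reg] at hc h0' h4 <;>
  simp [ent] at e1 e2 e3 ⊢ <;> simp_all

/-- the forbidden window -/
lemma window {h : ℕ} {r1' r2' r3' s1 s2 : E h} (a12 : r1' < r2') (a23 : r2' < r3') (b12 : s1 < s2)
    (q12 : r1'.b.reg = r2'.b.reg) (q23 : r2'.b.reg = r3'.b.reg) (p12 : s1.b.reg = s2.b.reg)
    (h0 : r1'.b.reg ≠ 0) (h0' : s1.b.reg ≠ 0)
    (e11 : ent r1' s1 = true) (e12 : ent r1' s2 = true) (e21 : ent r2' s1 = true)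
    (e22 : ent r2' s2 = false) (e31 : ent r3' s1 = false) : False := by
  by_cases h4 : r1'.b.reg = 4 ∧ s1.b.reg = 4
  · obtain ⟨h4, h4'⟩ := h4
    have o12 := k1_le_of_lt a12 q12
    have o23 := k1_le_of_lt a23 q23
    have oc := k1_le_of_lt b12 p12
    obtain ⟨b1, x1⟩ := r1'
    obtain ⟨b2, x2⟩ := r2'
    obtain ⟨b3, x3⟩ := r3'
    obtain ⟨d1, y1⟩ := s1
    obtain ⟨d2, y2⟩ := s2
    simp only at q12 q23 p12 h4 h4'
    obtain ⟨k1', l1, rfl⟩ := reg_four h4
    obtain ⟨k2', l2, rfl⟩ := reg_four (q12 ▸ h4)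
    obtain ⟨k3', l3, rfl⟩ := reg_four (q23 ▸ q12 ▸ h4)
    obtain ⟨c1', m1, rfl⟩ := reg_four h4'
    obtain ⟨c2', m2, rfl⟩ := reg_four (p12 ▸ h4')
    rw [k1_T, k1_T] at o12 o23 oc
    simp only [ent] at e11 e12 e21 e22 e31
    exact excl_pattern (by have := l2.2; omega) (by have := m1.2; omega) (by have := m2.2; omega)
      o12 o23 oc e12 e22 e21 e31
  · have := part_like q12 p12 h0 h0' h4 e11 e12 e21
    rw [this] at e22
    exact absurd e22 (by simp)

lemma pat_row_ne (i : Fin 66) : ∃ j : Fin 66, pat i j = true := by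
  by_cases hi : i.val < 62
  · refine ⟨0, ?_⟩
    simp only [pat, hent, if_pos hi]
    simp; omega
  · have h4 : i = 62 ∨ i = 63 ∨ i = 64 ∨ i = 65 := by
      have := i.2
      rcases (show i.val = 62 ∨ i.val = 63 ∨ i.val = 64 ∨ i.val = 65 by omega) with h | h | h | h
      · left; exact Fin.ext h
      · right; left; exact Fin.ext h
      · right; right; left; exact Fin.ext h
      · right; right; right; exact Fin.ext h
    rcases h4 with rfl | rfl | rfl | rfl
    · exact ⟨62, by decide⟩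
    · exact ⟨62, by decide⟩
    · exact ⟨62, by decide⟩
    · exact ⟨63, by decide⟩
lemma pat_col_ne (j : Fin 66) : ∃ i : Fin 66, pat i j = true := by
  by_cases hi : j.val < 62
  · refine ⟨0, ?_⟩
    simp only [pat, hent, if_pos hi]
    simp; omega
  · have h4 : j = 62 ∨ j = 63 ∨ j = 64 ∨ j = 65 := by
      have := j.2
      rcases (show j.val = 62 ∨ j.val = 63 ∨ j.val = 64 ∨ j.val = 65 by omega) with h | h | h | h
      · left; exact Fin.ext h
      · right; left; exact Fin.ext h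
      · right; right; left; exact Fin.ext h
      · right; right; right; exact Fin.ext h
    rcases h4 with rfl | rfl | rfl | rfl
    · exact ⟨62, by decide⟩
    · exact ⟨62, by decide⟩
    · exact ⟨62, by decide⟩
    · exact ⟨63, by decide⟩

section align

variable {h : ℕ} {f g : Fin 66 → E h} (hf : StrictMono f) (hg : StrictMono g)
  (H : ∀ i j, ent (f i) (g j) = pat i j)

include H in
lemma notF_row (i : Fin 66) : (f i).b.reg ≤ 4 := by
  by_contra hc
  have h5 : (f i).b.reg = 5 := by have := reg_le_five (f i).b; omega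
  obtain ⟨j, hj⟩ := pat_row_ne i
  rw [← H, ent_F_row h5] at hj
  exact absurd hj (by simp)

include H in
lemma notF_col (j : Fin 66) : (g j).b.reg ≤ 4 := by
  by_contra hc
  have h5 : (g j).b.reg = 5 := by have := reg_le_five (g j).b; omega
  obtain ⟨i, hi⟩ := pat_col_ne j
  rw [← H, ent_F_col h5] at hi
  exact absurd hi (by simp)

include hf H in
/-- if column 61 is not a marker column then row 2 is not a marker row -/
lemma dich1 (hc : (g 61).b.reg ≠ 0) : (f 2).b.reg ≠ 0 := by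
  intro h2
  have h1 : (f 1).b.reg = 0 := by
    have := reg_le_of_lt (hf (show (1 : Fin 66) < 2 by decide)); omega
  have hb : (f 1).b = (f 2).b := M_row_zero h1 h2 hc (notF_col H 61)
    (by rw [H]; decide) (by rw [H]; decide)
  have := ent_congr_M_row (c := g 60) h1 hb
  rw [H, H] at this
  exact absurd this (by decide)

include hg H in
lemma dich2 (hc : (f 61).b.reg ≠ 0) : (g 2).b.reg ≠ 0 := by
  intro h2
  have h1 : (g 1).b.reg = 0 := by
    have := reg_le_of_lt (hg (show (1 : Fin 66) < 2 by decide)); omega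
  have hb : (g 1).b = (g 2).b := M_col_zero h1 h2 hc (notF_row H 61)
    (by rw [H]; decide) (by rw [H]; decide)
  have := ent_congr_M_col (r := f 60) h1 hb
  rw [H, H] at this
  exact absurd this (by decide)

include hf hg H in
/-- no window in the low case -/
lemma no_window (a : ℕ) (ha : a < 59) (h2 : 2 ≤ a) (hr : (f 2).b.reg ≠ 0) (hc : (g 2).b.reg ≠ 0)
    (q1 : (f ⟨a, by omega⟩).b.reg = (f ⟨a + 2, by omega⟩).b.reg)
    (q2 : (g ⟨59 - a, by omega⟩).b.reg = (g ⟨61 - a, by omega⟩).b.reg) (h57 : a ≤ 57) : False := by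
  have r2 : (f 2).b.reg ≤ (f ⟨a, by omega⟩).b.reg :=
    reg_le_of_le (hf.monotone (by rw [Fin.le_def]; exact h2))
  have r3 : (f ⟨a, by omega⟩).b.reg ≤ (f ⟨a + 1, by omega⟩).b.reg :=
    reg_le_of_le (hf.monotone (by rw [Fin.le_def]; simp))
  have r4 : (f ⟨a + 1, by omega⟩).b.reg ≤ (f ⟨a + 2, by omega⟩).b.reg :=
    reg_le_of_le (hf.monotone (by rw [Fin.le_def]; simp))
  have s2 : (g 2).b.reg ≤ (g ⟨59 - a, by omega⟩).b.reg :=
    reg_le_of_le (hg.monotone (by rw [Fin.le_def]; show 2 ≤ 59 - a; omega))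
  have s3 : (g ⟨59 - a, by omega⟩).b.reg ≤ (g ⟨60 - a, by omega⟩).b.reg :=
    reg_le_of_le (hg.monotone (by rw [Fin.le_def]; show 59 - a ≤ 60 - a; omega))
  have s4 : (g ⟨60 - a, by omega⟩).b.reg ≤ (g ⟨61 - a, by omega⟩).b.reg :=
    reg_le_of_le (hg.monotone (by rw [Fin.le_def]; show 60 - a ≤ 61 - a; omega))
  refine window (r1' := f ⟨a, by omega⟩) (r2' := f ⟨a + 1, by omega⟩) (r3' := f ⟨a + 2, by omega⟩)
    (s1 := g ⟨60 - a, by omega⟩) (s2 := g ⟨61 - a, by omega⟩)
    (hf (by rw [Fin.lt_def]; simp)) (hf (by rw [Fin.lt_def]; simp))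
    (hg (by rw [Fin.lt_def]; show 60 - a < 61 - a; omega))
    (by omega) (by omega) (by omega) (by omega) (by omega) ?_ ?_ ?_ ?_ ?_
  · rw [H]; simp only [pat, hent]; rw [if_pos (by omega), if_pos (by omega)]; simp; omega
  · rw [H]; simp only [pat, hent]; rw [if_pos (by omega), if_pos (by omega)]; simp; omega
  · rw [H]; simp only [pat, hent]; rw [if_pos (by omega), if_pos (by omega)]; simp; omega
  · rw [H]; simp only [pat, hent]; rw [if_pos (by omega), if_pos (by omega)]; simp; omega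
  · rw [H]; simp only [pat, hent]; rw [if_pos (by omega), if_pos (by omega)]; simp; omega

include hf hg H in
lemma low_case_false (hr : (f 2).b.reg ≠ 0) (hc : (g 2).b.reg ≠ 0) : False := by
  have mf : ∀ (i j : ℕ) (hij : i ≤ j) (hj : j < 66), (f ⟨i, by omega⟩).b.reg ≤ (f ⟨j, hj⟩).b.reg :=
    fun i j hij hj => reg_le_of_le (hf.monotone (by rw [Fin.le_def]; exact hij))
  have mg : ∀ (i j : ℕ) (hij : i ≤ j) (hj : j < 66), (g ⟨i, by omega⟩).b.reg ≤ (g ⟨j, hj⟩).b.reg :=
    fun i j hij hj => reg_le_of_le (hg.monotone (by rw [Fin.le_def]; exact hij))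
  have w := fun a ha h2 => no_window hf hg H a ha h2 hr hc
  have w2 := w 2 (by omega) (by omega)
  have w4 := w 4 (by omega) (by omega)
  have w6 := w 6 (by omega) (by omega)
  have w8 := w 8 (by omega) (by omega)
  have w10 := w 10 (by omega) (by omega)
  have w12 := w 12 (by omega) (by omega)
  have w14 := w 14 (by omega) (by omega)
  have a1 := mf 2 4 (by omega) (by omega)
  have a2 := mf 4 6 (by omega) (by omega)
  have a3 := mf 6 8 (by omega) (by omega)
  have a4 := mf 8 10 (by omega) (by omega)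
  have a5 := mf 10 12 (by omega) (by omega)
  have a6 := mf 12 14 (by omega) (by omega)
  have a7 := mf 14 16 (by omega) (by omega)
  have b1 := mg 57 59 (by omega) (by omega)
  have b2 := mg 55 57 (by omega) (by omega)
  have b3 := mg 53 55 (by omega) (by omega)
  have b4 := mg 51 53 (by omega) (by omega)
  have b5 := mg 49 51 (by omega) (by omega)
  have b6 := mg 47 49 (by omega) (by omega)
  have b7 := mg 45 47 (by omega) (by omega)
  have m1 := notF_row H ⟨16, by omega⟩
  have m2 := notF_col H ⟨59, by omega⟩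
  have m3 : 1 ≤ (f ⟨2, by omega⟩).b.reg := Nat.one_le_iff_ne_zero.mpr hr
  have m4 : 1 ≤ (g ⟨45, by omega⟩).b.reg :=
    le_trans (Nat.one_le_iff_ne_zero.mpr hc) (mg 2 45 (by omega) (by omega))
  norm_num at w2 w4 w6 w8 w10 w12 w14
  omega

end align

end Crest.Agent.S0066
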