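import Crest.Agent.S0066C

set_option autoImplicit false

namespace Crest.Agent.S0066

/-- marker index -/
def mi {h : ℕ} (e : E h) : ℕ := match e.b with
  | .M i => i.val
  | _ => 0

lemma ent_MM {h : ℕ} {r c : E h} (hr : r.b.reg = 0) (hc : c.b.reg = 0) :
    ent r c = decide (mi r + mi c ≤ 61) := by
  obtain ⟨i, hi⟩ := reg_zero hr
  obtain ⟨j, hj⟩ := reg_zero hc
  simp [ent, mi, hi, hj]

lemma mi_le {h : ℕ} {r : E h} : mi r ≤ 61 := by
  unfold mi
  split
  · rename_i i _; have := i.2; omega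
  · omega

lemma b_eq_of_mi {h : ℕ} {r : E h} (hr : r.b.reg = 0) {i : ℕ} (hi : i < 62) (hm : mi r = i) :
    r.b = .M ⟨i, hi⟩ := by
  obtain ⟨j, hj⟩ := reg_zero hr
  simp only [mi, hj] at hm
  rw [hj]; congr 1; exact Fin.ext hm

section align2

variable {h : ℕ} {f g : Fin 66 → E h} (hf : StrictMono f) (hg : StrictMono g)
  (H : ∀ i j, ent (f i) (g j) = pat i j)

include hf hg H in
lemma high_case : (f 61).b.reg = 0 ∧ (g 61).b.reg = 0 := by
  by_contra hcon
  have key : (f 2).b.reg ≠ 0 ∧ (g 2).b.reg ≠ 0 := by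
    by_cases h1 : (g 61).b.reg = 0
    · have h2 : (f 61).b.reg ≠ 0 := fun h3 => hcon ⟨h3, h1⟩
      have h3 := dich2 hg H h2
      have h4 : (g 2).b.reg ≤ (g 61).b.reg := reg_le_of_lt (hg (by decide))
      omega
    · have h2 := dich1 hf H h1
      have h4 : (f 2).b.reg ≤ (f 61).b.reg := reg_le_of_lt (hf (by decide))
      have h3 : (f 61).b.reg ≠ 0 := by omega
      exact ⟨h2, dich2 hg H h3⟩
  exact low_case_false hf hg H key.1 key.2

include hf hg H in
lemma f_M (i : ℕ) (hi : i < 62) : (f ⟨i, by omega⟩).b.reg = 0 := by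
  have h1 := (high_case hf hg H).1
  have : (f ⟨i, by omega⟩).b.reg ≤ (f 61).b.reg :=
    reg_le_of_le (hf.monotone (by rw [Fin.le_def]; show i ≤ 61; omega))
  omega

include hf hg H in
lemma g_M (i : ℕ) (hi : i < 62) : (g ⟨i, by omega⟩).b.reg = 0 := by
  have h1 := (high_case hf hg H).2
  have : (g ⟨i, by omega⟩).b.reg ≤ (g 61).b.reg :=
    reg_le_of_le (hg.monotone (by rw [Fin.le_def]; show i ≤ 61; omega))
  omega

include hf hg H in
lemma MM_iff (i j : ℕ) (hi : i < 62) (hj : j < 62) :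
    (mi (f ⟨i, by omega⟩) + mi (g ⟨j, by omega⟩) ≤ 61 ↔ i + j ≤ 61) := by
  have h1 := ent_MM (f_M hf hg H i hi) (g_M hf hg H j hj)
  rw [H] at h1
  simp only [pat, hent] at h1
  rw [if_pos hi, if_pos hj] at h1
  simpa using h1.symm

include hf hg H in
lemma f_step (i : ℕ) (hi : i < 61) :
    mi (f ⟨i, by omega⟩) < mi (f ⟨i + 1, by omega⟩) := by
  have h1 := (MM_iff hf hg H i (61 - i) (by omega) (by omega)).2 (by omega)
  have h2 := mt (MM_iff hf hg H (i + 1) (61 - i) (by omega) (by omega)).1 (by omega)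
  omega

include hf hg H in
lemma g_step (i : ℕ) (hi : i < 61) :
    mi (g ⟨i, by omega⟩) < mi (g ⟨i + 1, by omega⟩) := by
  have h1 := (MM_iff hf hg H (61 - i) i (by omega) (by omega)).2 (by omega)
  have h2 := mt (MM_iff hf hg H (61 - i) (i + 1) (by omega) (by omega)).1 (by omega)
  omega

lemma steps_id (P : ℕ → ℕ) (hs : ∀ i < 61, P i < P (i + 1)) (hb : P 61 ≤ 61) (i : ℕ) (hi : i < 62) :
    P i = i := by
  have h1 : ∀ k i, i + k ≤ 61 → P i + k ≤ P (i + k) := by
    intro k
    induction k with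
    | zero => intro i _; simp
    | succ k ih =>
      intro i hik
      have := ih i (by omega)
      have h2 := hs (i + k) (by omega)
      have e : i + (k + 1) = i + k + 1 := rfl
      rw [e]; omega
  have h2 := h1 i 0 (by omega)
  have h3 := h1 (61 - i) i (by omega)
  have e : i + (61 - i) = 61 := by omega
  rw [e] at h3
  simp only [zero_add] at h2
  omega

include hf hg H in
lemma f_id (i : ℕ) (hi : i < 62) : (f ⟨i, by omega⟩).b = .M ⟨i, hi⟩ := by
  apply b_eq_of_mi (f_M hf hg H i hi) hi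
  set P : ℕ → ℕ := fun n => if hn : n < 66 then mi (f ⟨n, hn⟩) else 0 with hP
  have hPe : ∀ n (hn : n < 66), P n = mi (f ⟨n, hn⟩) := fun n hn => dif_pos hn
  have h1 : ∀ j < 61, P j < P (j + 1) := by
    intro j hj
    rw [hPe j (by omega), hPe (j + 1) (by omega)]
    exact f_step hf hg H j hj
  have h2 : P 61 ≤ 61 := by
    rw [hPe 61 (by omega)]; exact mi_le
  have := steps_id P h1 h2 i hi
  rw [hPe i (by omega)] at this
  exact this

include hf hg H in
lemma g_id (i : ℕ) (hi : i < 62) : (g ⟨i, by omega⟩).b = .M ⟨i, hi⟩ := by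
  apply b_eq_of_mi (g_M hf hg H i hi) hi
  set P : ℕ → ℕ := fun n => if hn : n < 66 then mi (g ⟨n, hn⟩) else 0 with hP
  have hPe : ∀ n (hn : n < 66), P n = mi (g ⟨n, hn⟩) := fun n hn => dif_pos hn
  have h1 : ∀ j < 61, P j < P (j + 1) := by
    intro j hj
    rw [hPe j (by omega), hPe (j + 1) (by omega)]
    exact g_step hf hg H j hj
  have h2 : P 61 ≤ 61 := by
    rw [hPe 61 (by omega)]; exact mi_le
  have := steps_id P h1 h2 i hi
  rw [hPe i (by omega)] at this
  exact this

include hf hg H in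
lemma f62 : ∃ ι, (f 62).b = .Z1 ι := by
  have g0 : (g 0).b = .M 0 := g_id hf hg H 0 (by omega)
  have g1 : (g 1).b = .M 1 := g_id hf hg H 1 (by omega)
  have e0 := H 62 0
  have e1 := H 62 1
  have p0 : pat 62 0 = false := by decide
  have p1 : pat 62 1 = true := by decide
  rw [p0] at e0; rw [p1] at e1
  have f61 : (f 61).b = .M 61 := f_id hf hg H 61 (by omega)
  have hlt : f 61 < f 62 := hf (by decide)
  have h4 := notF_row H 62
  cases hb : (f 62).b with
  | M i =>
    exfalso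
    have hk := k1_le_of_lt hlt (by rw [f61, hb]; rfl)
    simp only [E.k1, f61, hb] at hk
    have hi : i = 61 := by
      apply Fin.ext; have := i.2; have h61 : ((61 : Fin 62) : ℕ) = 61 := rfl
      omega
    subst hi
    simp [ent, hb, g0] at e0
  | Z1 ι => exact ⟨ι, rfl⟩
  | Z2 ι => simp [ent, hb, g0] at e0
  | D ι => simp [ent, hb, g0] at e0
  | T k l => simp [ent, hb, g0] at e0
  | F j => simp [Blk.reg, hb] at h4

include hf hg H in
lemma g62 : ∃ ι, (g 62).b = .Z1 ι := by
  have g0 : (f 0).b = .M 0 := f_id hf hg H 0 (by omega)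
  have g1 : (f 1).b = .M 1 := f_id hf hg H 1 (by omega)
  have e0 := H 0 62
  have e1 := H 1 62
  have p0 : pat 0 62 = false := by decide
  have p1 : pat 1 62 = true := by decide
  rw [p0] at e0; rw [p1] at e1
  have f61 : (g 61).b = .M 61 := g_id hf hg H 61 (by omega)
  have hlt : g 61 < g 62 := hg (by decide)
  have h4 := notF_col H 62
  cases hb : (g 62).b with
  | M i =>
    exfalso
    have hk := k1_le_of_lt hlt (by rw [f61, hb]; rfl)
    simp only [E.k1, f61, hb] at hk
    have hi : i = 61 := by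
      apply Fin.ext; have := i.2; have h61 : ((61 : Fin 62) : ℕ) = 61 := rfl
      omega
    subst hi
    simp [ent, hb, g0] at e0
  | Z1 ι => exact ⟨ι, rfl⟩
  | Z2 ι => simp [ent, hb, g0] at e0
  | D ι => simp [ent, hb, g0] at e0
  | T k l => simp [ent, hb, g0] at e0
  | F j => simp [Blk.reg, hb] at h4

include hf hg H in
lemma f63 : ∃ ι, (f 63).b = .Z2 ι := by
  have g0 : (g 0).b = .M 0 := g_id hf hg H 0 (by omega)
  have g1 : (g 1).b = .M 1 := g_id hf hg H 1 (by omega)
  have e0 := H 63 0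
  have e1 := H 63 1
  have p0 : pat 63 0 = true := by decide
  have p1 : pat 63 1 = false := by decide
  rw [p0] at e0; rw [p1] at e1
  obtain ⟨ι, hι⟩ := f62 hf hg H
  have hreg : (f 62).b.reg ≤ (f 63).b.reg := reg_le_of_lt (hf (by decide))
  rw [hι] at hreg
  have h4 := notF_row H 63
  cases hb : (f 63).b with
  | M i => rw [hb] at hreg; simp [Blk.reg] at hreg
  | Z1 ι => simp [ent, hb, g0] at e0
  | Z2 ι => exact ⟨ι, rfl⟩
  | D ι => simp [ent, hb, g1] at e1
  | T k l => simp [ent, hb, g1] at e1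
  | F j => simp [Blk.reg, hb] at h4

include hf hg H in
lemma g63 : ∃ ι, (g 63).b = .Z2 ι := by
  have g0 : (f 0).b = .M 0 := f_id hf hg H 0 (by omega)
  have g1 : (f 1).b = .M 1 := f_id hf hg H 1 (by omega)
  have e0 := H 0 63
  have e1 := H 1 63
  have p0 : pat 0 63 = true := by decide
  have p1 : pat 1 63 = false := by decide
  rw [p0] at e0; rw [p1] at e1
  obtain ⟨ι, hι⟩ := g62 hf hg H
  have hreg : (g 62).b.reg ≤ (g 63).b.reg := reg_le_of_lt (hg (by decide))
  rw [hι] at hreg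
  have h4 := notF_col H 63
  cases hb : (g 63).b with
  | M i => rw [hb] at hreg; simp [Blk.reg] at hreg
  | Z1 ι => simp [ent, hb, g0] at e0
  | Z2 ι => exact ⟨ι, rfl⟩
  | D ι => simp [ent, hb, g1] at e1
  | T k l => simp [ent, hb, g1] at e1
  | F j => simp [Blk.reg, hb] at h4

include hf hg H in
lemma f64 (n : Fin 66) (hn : n = 64 ∨ n = 65) :
    (∃ ι, (f n).b = .D ι) ∨ (∃ k l, (f n).b = .T k l) := by
  have g0 : (g 0).b = .M 0 := g_id hf hg H 0 (by omega)
  have g1 : (g 1).b = .M 1 := g_id hf hg H 1 (by omega)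
  have e0 := H n 0
  have e1 := H n 1
  have p0 : pat n 0 = true := by rcases hn with rfl | rfl <;> decide
  have p1 : pat n 1 = true := by rcases hn with rfl | rfl <;> decide
  rw [p0] at e0; rw [p1] at e1
  obtain ⟨ι, hι⟩ := f62 hf hg H
  have hreg : (f 62).b.reg ≤ (f n).b.reg := reg_le_of_lt (hf (by rcases hn with rfl | rfl <;> decide))
  rw [hι] at hreg
  have h4 := notF_row H n
  cases hb : (f n).b with
  | M i => rw [hb] at hreg; simp [Blk.reg] at hreg
  | Z1 ι => simp [ent, hb, g0] at e0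
  | Z2 ι => simp [ent, hb, g1] at e1
  | D ι => exact Or.inl ⟨ι, rfl⟩
  | T k l => exact Or.inr ⟨k, l, rfl⟩
  | F j => simp [Blk.reg, hb] at h4

include hf hg H in
lemma g64 (n : Fin 66) (hn : n = 64 ∨ n = 65) :
    (∃ ι, (g n).b = .D ι) ∨ (∃ k l, (g n).b = .T k l) := by
  have g0 : (f 0).b = .M 0 := f_id hf hg H 0 (by omega)
  have g1 : (f 1).b = .M 1 := f_id hf hg H 1 (by omega)
  have e0 := H 0 n
  have e1 := H 1 n
  have p0 : pat 0 n = true := by rcases hn with rfl | rfl <;> decide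
  have p1 : pat 1 n = true := by rcases hn with rfl | rfl <;> decide
  rw [p0] at e0; rw [p1] at e1
  obtain ⟨ι, hι⟩ := g62 hf hg H
  have hreg : (g 62).b.reg ≤ (g n).b.reg := reg_le_of_lt (hg (by rcases hn with rfl | rfl <;> decide))
  rw [hι] at hreg
  have h4 := notF_col H n
  cases hb : (g n).b with
  | M i => rw [hb] at hreg; simp [Blk.reg] at hreg
  | Z1 ι => simp [ent, hb, g0] at e0
  | Z2 ι => simp [ent, hb, g1] at e1
  | D ι => exact Or.inl ⟨ι, rfl⟩
  | T k l => exact Or.inr ⟨k, l, rfl⟩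
  | F j => simp [Blk.reg, hb] at h4

end align2

end Crest.Agent.S0066
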