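import Crest.Agent.S0066D

set_option autoImplicit false

namespace Crest.Agent.S0066

def rowOf {h : ℕ} (c : E h) : E h := ⟨.T true (Fin.last h), Fin.rev c.x⟩
def colOf {h : ℕ} (c : E h) : E h := ⟨.T false (Fin.last h), c.x⟩

lemma tag_eq {h : ℕ} {kd : Bool} {l x : ℕ} {a : Bool} {b c : ℕ}
    (hh : some ((a, b, c) : Bool × ℕ × ℕ) = some (tag h kd l x)) :
    kd = a ∧ l = b ∧ (x / 2 ^ (h - l)) % 2 = c := by
  simp only [tag, Option.some.injEq, Prod.mk.injEq] at hh
  exact ⟨hh.1.symm, hh.2.1.symm, hh.2.2.symm⟩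

/-- column step analysis in the host -/
lemma colstep {h : ℕ} {ι : Inst h} {k l k1' l1 k2' l2} {x y1 y2 : Fin (2 ^ h)}
    (hr2 : r2 ι = some (tag h k l x.val)) (hc1 : c1 ι = some (tag h k1' l1 y1.val))
    (hc2 : c2 ι = some (tag h k2' l2 y2.val))
    (hl : l ≤ h) (hl1 : l1 ≤ h) (hl2 : l2 ≤ h)
    (o : tk1 h k1' l1 y1.val ≤ tk1 h k2' l2 y2.val)
    (v1 : val h l x.val k1' l1 y1.val = true) (v2 : val h l x.val k2' l2 y2.val = false) :
    (k = true ∧ l = h ∧ k1' = true ∧ l1 = h ∧ k2' = false ∧ l2 = h) ∧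
      y2.val = y1.val ∧ x.val = 2 ^ h - 1 - y1.val := by
  obtain ⟨kd, n, b1, b2, b3⟩ := ι
  have hn := n.2
  fin_cases kd <;> simp only [r2, c1, c2] at hr2 hc1 hc2
  · simp at hc1
  · obtain ⟨rfl, rfl, e1⟩ := tag_eq hr2
    obtain ⟨rfl, rfl, e2⟩ := tag_eq hc1
    obtain ⟨rfl, rfl, e3⟩ := tag_eq hc2
    exact (excl_Vcol (b := b3.val) hn (by omega) e1 e3 o v1 v2).elim
  · obtain ⟨rfl, rfl, e1⟩ := tag_eq hr2
    obtain ⟨rfl, rfl, e2⟩ := tag_eq hc1
    obtain ⟨rfl, rfl, e3⟩ := tag_eq hc2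
    exact ⟨⟨rfl, rfl, rfl, rfl, rfl, rfl⟩, excl_Jcol o v1 v2⟩
  · simp at hc1
  · obtain ⟨rfl, rfl, e1⟩ := tag_eq hr2
    obtain ⟨rfl, rfl, e2⟩ := tag_eq hc1
    obtain ⟨rfl, rfl, e3⟩ := tag_eq hc2
    exact (excl_Ucol (b := b2.val) hn (by omega) e1 e2 o v1 v2).elim
  · simp at hc1

lemma rowstep {h : ℕ} {ι : Inst h} {k l k1' l1 k2' l2} {y x1 x2 : Fin (2 ^ h)}
    (hc2 : c2 ι = some (tag h k l y.val)) (hr1 : r1 ι = some (tag h k1' l1 x1.val))
    (hr2 : r2 ι = some (tag h k2' l2 x2.val))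
    (o : tk1 h k1' l1 x1.val ≤ tk1 h k2' l2 x2.val)
    (v1 : val h l1 x1.val k l y.val = true) (v2 : val h l2 x2.val k l y.val = false) : False := by
  obtain ⟨kd, n, b1, b2, b3⟩ := ι
  have hn := n.2
  fin_cases kd <;> simp only [r1, r2, c2] at hr1 hr2 hc2
  · obtain ⟨rfl, rfl, e1⟩ := tag_eq hr1
    obtain ⟨rfl, rfl, e2⟩ := tag_eq hr2
    obtain ⟨rfl, rfl, e3⟩ := tag_eq hc2
    exact excl_Vrow hn o v1 v2
  · simp at hr1
  · simp at hr1
  · obtain ⟨rfl, rfl, e1⟩ := tag_eq hr1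
    obtain ⟨rfl, rfl, e2⟩ := tag_eq hr2
    obtain ⟨rfl, rfl, e3⟩ := tag_eq hc2
    exact excl_Jrow o v1 v2
  · simp at hr1
  · obtain ⟨rfl, rfl, e1⟩ := tag_eq hr1
    obtain ⟨rfl, rfl, e2⟩ := tag_eq hr2
    obtain ⟨rfl, rfl, e3⟩ := tag_eq hc2
    exact excl_Urow hn o v1 v2

lemma r1_c1_none {h : ℕ} (ι : Inst h) : r1 ι = none ∨ c1 ι = none := by
  obtain ⟨kd, n, b1, b2, b3⟩ := ι
  fin_cases kd <;> simp [r1, c1]

section fin

variable {h : ℕ} {f g : Fin 66 → E h} (hf : StrictMono f) (hg : StrictMono g)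
  (H : ∀ i j, ent (f i) (g j) = pat i j)

include hf hg H in
lemma determined : f 65 = rowOf (g 64) ∧ g 65 = colOf (g 64) := by
  obtain ⟨ι, hι⟩ := f62 hf hg H
  obtain ⟨ι2, hι2⟩ := f63 hf hg H
  obtain ⟨κ, hκ⟩ := g62 hf hg H
  obtain ⟨κ2, hκ2⟩ := g63 hf hg H
  have e1 := H 62 62
  have e2 := H 63 62
  have e3 := H 62 63
  rw [show pat 62 62 = true by decide] at e1
  rw [show pat 63 62 = true by decide] at e2
  rw [show pat 62 63 = true by decide] at e3
  simp only [ent, hι, hκ, decide_eq_true_eq] at e1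
  simp only [ent, hι2, hκ, decide_eq_true_eq] at e2
  simp only [ent, hι, hκ2, decide_eq_true_eq] at e3
  subst e1 e3
  subst e2
  -- now ι2 everywhere
  have a1 := H 64 62
  have a2 := H 64 63
  have a3 := H 65 62
  have a4 := H 65 63
  have b1 := H 62 64
  have b2 := H 63 64
  have b3 := H 62 65
  have b4 := H 63 65
  have d1 := H 64 64
  have d2 := H 64 65
  have d3 := H 65 64
  have d4 := H 65 65
  rw [show pat 64 62 = true by decide] at a1
  rw [show pat 64 63 = false by decide] at a2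
  rw [show pat 65 62 = false by decide] at a3
  rw [show pat 65 63 = true by decide] at a4
  rw [show pat 62 64 = true by decide] at b1
  rw [show pat 63 64 = false by decide] at b2
  rw [show pat 62 65 = false by decide] at b3
  rw [show pat 63 65 = true by decide] at b4
  rw [show pat 64 64 = false by decide] at d1
  rw [show pat 64 65 = true by decide] at d2
  rw [show pat 65 64 = true by decide] at d3
  rw [show pat 65 65 = false by decide] at d4
  -- f 65 is T
  obtain ⟨k2', l2, hf65⟩ : ∃ k l, (f 65).b = .T k l := by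
    rcases f64 hf hg H 65 (Or.inr rfl) with ⟨i, hi⟩ | hT
    · simp [ent, hi, hκ2] at a4
    · exact hT
  obtain ⟨m2', n2, hg65⟩ : ∃ k l, (g 65).b = .T k l := by
    rcases g64 hf hg H 65 (Or.inr rfl) with ⟨i, hi⟩ | hT
    · simp [ent, hi, hι2] at b4
    · exact hT
  simp only [ent, hf65, hκ2, decide_eq_true_eq] at a4
  simp only [ent, hg65, hι2, decide_eq_true_eq] at b4
  simp only [ent, hf65, hg65] at d4
  have of : f 64 < f 65 := hf (by decide)
  have og : g 64 < g 65 := hg (by decide)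
  rcases f64 hf hg H 64 (Or.inl rfl) with ⟨i, hi⟩ | ⟨k1', l1, hf64⟩
  · rcases g64 hf hg H 64 (Or.inl rfl) with ⟨j, hj⟩ | ⟨m1', n1, hg64⟩
    · simp [ent, hi, hj] at d1
    · simp only [ent, hι, hg64, decide_eq_true_eq] at b1
      simp only [ent, hf65, hg64] at d3
      have o1 := k1_le_of_lt og (by rw [hg64, hg65]; rfl)
      have hk1 : (g 64).k1 = tk1 h m1' n1.val (g 64).x.val := by
        rw [← k1_T]; simp only [E.k1, hg64]
      have hk2 : (g 65).k1 = tk1 h m2' n2.val (g 65).x.val := by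
        rw [← k1_T]; simp only [E.k1, hg65]
      rw [hk1, hk2] at o1
      have hres := colstep a4 b1 b4 (by have := l2.2; omega) (by have := n1.2; omega)
        (by have := n2.2; omega) o1 d3 d4
      obtain ⟨⟨q1, q2, q3, q4, q5, q6⟩, q7, q8⟩ := hres
      constructor
      · have : f 65 = ⟨(f 65).b, (f 65).x⟩ := rfl
        rw [this, hf65, rowOf, q1]
        have hl : l2 = Fin.last h := Fin.ext q2
        rw [hl]
        congr 1
        apply Fin.ext
        rw [q8, Fin.val_rev]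
        omega
      · have : g 65 = ⟨(g 65).b, (g 65).x⟩ := rfl
        rw [this, hg65, colOf, q5]
        have hl : n2 = Fin.last h := Fin.ext q6
        rw [hl]
        congr 1
        exact Fin.ext q7
  · exfalso
    simp only [ent, hf64, hκ, decide_eq_true_eq] at a1
    rcases g64 hf hg H 64 (Or.inl rfl) with ⟨j, hj⟩ | ⟨m1', n1, hg64⟩
    · simp only [ent, hf64, hg65] at d2
      have o1 := k1_le_of_lt of (by rw [hf64, hf65]; rfl)
      have hk1 : (f 64).k1 = tk1 h k1' l1.val (f 64).x.val := by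
        rw [← k1_T]; simp only [E.k1, hf64]
      have hk2 : (f 65).k1 = tk1 h k2' l2.val (f 65).x.val := by
        rw [← k1_T]; simp only [E.k1, hf65]
      rw [hk1, hk2] at o1
      exact rowstep b4 a1 a4 o1 d2 d4
    · simp only [ent, hι, hg64, decide_eq_true_eq] at b1
      rcases r1_c1_none ι2 with hn | hn
      · rw [hn] at a1; exact absurd a1 (by simp)
      · rw [hn] at b1; exact absurd b1 (by simp)

end fin

end Crest.Agent.S0066
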