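import Crest.Agent.S0066E

set_option autoImplicit false

namespace Crest.Agent.S0066

/-! numeric facts -/

lemma hyb_lt {h : ℕ} (l x y : ℕ) (hl : l ≤ h) (hx : x < 2 ^ h) :
    st h l x + y % 2 ^ (h - l) < 2 ^ h := by
  have e := pow_split hl
  have hD : 0 < 2 ^ (h - l) := Nat.two_pow_pos _
  have h1 : x / 2 ^ (h - l) < 2 ^ l := by
    rw [Nat.div_lt_iff_lt_mul hD, ← e]; exact hx
  have h2 : y % 2 ^ (h - l) < 2 ^ (h - l) := Nat.mod_lt _ hD
  unfold st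
  calc x / 2 ^ (h - l) * 2 ^ (h - l) + y % 2 ^ (h - l)
      < x / 2 ^ (h - l) * 2 ^ (h - l) + 2 ^ (h - l) := by omega
    _ = (x / 2 ^ (h - l) + 1) * 2 ^ (h - l) := by ring
    _ ≤ 2 ^ l * 2 ^ (h - l) := Nat.mul_le_mul_right _ h1
    _ = 2 ^ h := e.symm

lemma hyb_div (h l x y : ℕ) :
    (st h l x + y % 2 ^ (h - l)) / 2 ^ (h - l) = x / 2 ^ (h - l) := by
  have hD : 0 < 2 ^ (h - l) := Nat.two_pow_pos _
  unfold st
  rw [mul_comm, Nat.mul_add_div hD, Nat.div_eq_of_lt (Nat.mod_lt _ hD), add_zero]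

lemma hyb_mod (h l x y : ℕ) :
    (st h l x + y % 2 ^ (h - l)) % 2 ^ (h - l) = y % 2 ^ (h - l) := by
  unfold st
  rw [mul_comm, Nat.mul_add_mod, Nat.mod_mod]

lemma hyb_inj {h l x y x' y' : ℕ} (hl : l ≤ h) (hx : x < 2 ^ h) (hx' : x' < 2 ^ h)
    (hy : y < 2 ^ h) (hy' : y' < 2 ^ h)
    (h1 : (x + y) % 2 ^ h = (x' + y') % 2 ^ h)
    (h2 : st h l x + y % 2 ^ (h - l) = st h l x' + y' % 2 ^ (h - l)) : x = x' ∧ y = y' := by
  have a1 : x / 2 ^ (h - l) = x' / 2 ^ (h - l) := by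
    rw [← hyb_div h l x y, h2, hyb_div]
  have a2 : y % 2 ^ (h - l) = y' % 2 ^ (h - l) := by
    rw [← hyb_mod h l x y, h2, hyb_mod]
  have dvd : 2 ^ (h - l) ∣ 2 ^ h := pow_dvd_pow 2 (by omega)
  have a3 : (x + y) % 2 ^ (h - l) = (x' + y') % 2 ^ (h - l) := by
    rw [← Nat.mod_mod_of_dvd _ dvd, h1, Nat.mod_mod_of_dvd _ dvd]
  have a4 : x % 2 ^ (h - l) = x' % 2 ^ (h - l) := by
    have b1 : x + y ≡ x' + y' [MOD 2 ^ (h - l)] := a3
    have b2 : y ≡ y' [MOD 2 ^ (h - l)] := a2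
    exact Nat.ModEq.add_right_cancel b2 b1
  have a5 : x = x' := by
    rw [← Nat.div_add_mod x (2 ^ (h - l)), ← Nat.div_add_mod x' (2 ^ (h - l)), a1, a4]
  subst a5
  refine ⟨rfl, ?_⟩
  have b1 : x + y ≡ x + y' [MOD 2 ^ h] := h1
  have b2 : y ≡ y' [MOD 2 ^ h] := Nat.ModEq.add_left_cancel' x b1
  have b3 : y % 2 ^ h = y' % 2 ^ h := b2
  rwa [Nat.mod_eq_of_lt hy, Nat.mod_eq_of_lt hy'] at b3

lemma rev_div {h l x : ℕ} (hl : l ≤ h) (hx : x < 2 ^ h) :
    (2 ^ h - (x + 1)) / 2 ^ (h - l) = 2 ^ l - 1 - x / 2 ^ (h - l) := by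
  have e := pow_split hl
  have hD : 0 < 2 ^ (h - l) := Nat.two_pow_pos _
  have h1 : x / 2 ^ (h - l) < 2 ^ l := by
    rw [Nat.div_lt_iff_lt_mul hD, ← e]; exact hx
  have h2 := Nat.div_add_mod x (2 ^ (h - l))
  have h3 : x % 2 ^ (h - l) < 2 ^ (h - l) := Nat.mod_lt _ hD
  set q := x / 2 ^ (h - l)
  set r := x % 2 ^ (h - l)
  set D := 2 ^ (h - l)
  obtain ⟨t, ht⟩ : ∃ t, 2 ^ l = q + 1 + t := ⟨2 ^ l - (q + 1), by omega⟩
  have h4 : 2 ^ h - (x + 1) = D * t + (D - 1 - r) := by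
    rw [e, ht, ← h2]
    have : (q + 1 + t) * D = D * q + D + D * t := by ring
    omega
  rw [h4, Nat.mul_add_div hD, Nat.div_eq_of_lt (by omega), ht]
  omega

lemma rev_parity {h l x : ℕ} (hl : l < h) (hx : x < 2 ^ h) :
    ((2 ^ h - (x + 1)) / 2 ^ (h - (l + 1))) % 2 = 1 - (x / 2 ^ (h - (l + 1))) % 2 := by
  rw [rev_div (by omega) hx]
  have hD : 0 < 2 ^ (h - (l + 1)) := Nat.two_pow_pos _
  have e := pow_split (show l + 1 ≤ h by omega)
  have h1 : x / 2 ^ (h - (l + 1)) < 2 ^ (l + 1) := by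
    rw [Nat.div_lt_iff_lt_mul hD, ← e]; exact hx
  have h2 : 2 ^ (l + 1) = 2 * 2 ^ l := by rw [pow_succ]; ring
  omega

lemma st_mono_level {h l x : ℕ} (hl : l < h) : st h l x ≤ st h (l + 1) x := by
  unfold st
  have e : 2 ^ (h - l) = 2 * 2 ^ (h - (l + 1)) := by
    rw [← pow_succ']; congr 1; omega
  rw [e]
  set d := 2 ^ (h - (l + 1))
  have h1 : x / (2 * d) = x / d / 2 := by rw [mul_comm, Nat.div_div_eq_div_mul]
  rw [h1]
  have h2 : x / d / 2 * 2 ≤ x / d := Nat.div_mul_le_self _ _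
  calc x / d / 2 * (2 * d) = (x / d / 2 * 2) * d := by ring
    _ ≤ _ := Nat.mul_le_mul_right _ h2

lemma en_mono_level {h l x : ℕ} (hl : l < h) : en h (l + 1) x ≤ en h l x := by
  unfold en
  have e : 2 ^ (h - l) = 2 * 2 ^ (h - (l + 1)) := by
    rw [← pow_succ']; congr 1; omega
  rw [e]
  set d := 2 ^ (h - (l + 1))
  have h1 : x / (2 * d) = x / d / 2 := by rw [mul_comm, Nat.div_div_eq_div_mul]
  rw [h1]
  have h2 : x / d + 1 ≤ (x / d / 2 + 1) * 2 := by omega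
  calc (x / d + 1) * d ≤ ((x / d / 2 + 1) * 2) * d := Nat.mul_le_mul_right _ h2
    _ = _ := by ring

/-- hybrid label -/
def hyb {h : ℕ} (l : Fin (h + 1)) (x y : Fin (2 ^ h)) : Fin (2 ^ h) :=
  ⟨st h l.val x.val + y.val % 2 ^ (h - l.val), hyb_lt _ _ _ (by have := l.2; omega) x.2⟩

/-- sum label -/
def zz {h : ℕ} (x y : Fin (2 ^ h)) : Fin (2 ^ h) :=
  ⟨(x.val + y.val) % 2 ^ h, Nat.mod_lt _ (Nat.two_pow_pos _)⟩

lemma hyb_zero {h : ℕ} (x y : Fin (2 ^ h)) (l : Fin (h+1)) (hl : l.val = 0) : hyb l x y = y := by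
  apply Fin.ext
  simp only [hyb, st, hl, Nat.sub_zero]
  rw [Nat.div_eq_of_lt x.2, Nat.mod_eq_of_lt y.2]
  simp

lemma st_hyb {h : ℕ} (l : Fin (h+1)) (x y : Fin (2 ^ h)) :
    st h l.val (hyb l x y).val = st h l.val x.val := by
  have := hyb_div h l.val x.val y.val
  unfold st at *
  simp only [hyb, st] at *
  rw [this]

lemma en_hyb {h : ℕ} (l : Fin (h+1)) (x y : Fin (2 ^ h)) :
    en h l.val (hyb l x y).val = en h l.val x.val := by
  rw [en_eq, en_eq, st_hyb]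

lemma tag_hyb {h : ℕ} (kd : Bool) (l : Fin (h+1)) (x y : Fin (2 ^ h)) :
    tag h kd l.val (hyb l x y).val = tag h kd l.val x.val := by
  have := hyb_div h l.val x.val y.val
  simp only [tag, hyb, this]

/-- "safe" cells attached to the pair (x, y) -/
def inS {h : ℕ} (x y : Fin (2 ^ h)) (r c : E h) : Prop :=
  match r.b, c.b with
  | .T _ l, .T _ l' => l.val = 0 ∧ l'.val = 0 ∧ r.x = Fin.rev x ∧ c.x = y
  | .T _ _, _ => r.x = Fin.rev x ∧ c.x = y
  | _, .T _ l => r.x = zz x y ∧ c.x = hyb l x y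
  | _, _ => r.x = zz x y ∧ c.x = y

lemma zz_inj {h : ℕ} {x y x' y' : Fin (2 ^ h)} (h1 : zz x y = zz x' y') (h2 : y = y') :
    x = x' ∧ y = y' := by
  subst h2
  refine ⟨?_, rfl⟩
  have h1 := congrArg Fin.val h1
  simp only [zz] at h1
  have b1 : x.val + y.val ≡ x'.val + y.val [MOD 2 ^ h] := h1
  have b2 : x.val ≡ x'.val [MOD 2 ^ h] := Nat.ModEq.add_right_cancel' _ b1
  have b3 : x.val % 2 ^ h = x'.val % 2 ^ h := b2
  rw [Nat.mod_eq_of_lt x.2, Nat.mod_eq_of_lt x'.2] at b3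
  exact Fin.ext b3

lemma inS_inj {h : ℕ} {x y x' y' : Fin (2 ^ h)} {r c : E h} (h1 : inS x y r c)
    (h2 : inS x' y' r c) : x = x' ∧ y = y' := by
  cases hr : r.b <;> cases hc : c.b <;> simp only [inS, hr, hc] at h1 h2
  case T.T =>
    obtain ⟨-, -, a1, a2⟩ := h1
    obtain ⟨-, -, b1, b2⟩ := h2
    exact ⟨Fin.rev_injective (a1.symm.trans b1), a2.symm.trans b2⟩
  all_goals first
    | exact ⟨Fin.rev_injective (h1.1.symm.trans h2.1), h1.2.symm.trans h2.2⟩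
    | exact zz_inj (h1.1.symm.trans h2.1) (h1.2.symm.trans h2.2)
    | (have a1 := congrArg Fin.val (h1.1.symm.trans h2.1)
       have a2 := congrArg Fin.val (h1.2.symm.trans h2.2)
       simp only [zz] at a1
       simp only [hyb] at a2
       rename_i l
       have := hyb_inj (by have := l.2; omega) x.2 x'.2 y.2 y'.2 a1 a2
       exact ⟨Fin.ext this.1, Fin.ext this.2⟩)

/-- selection of rows or columns -/
def sel {h : ℕ} (z : Fin (2 ^ h)) (ι : Inst h) (t1 t2 : E h) (i : Fin 66) : E h :=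
  if hi : i.val < 62 then ⟨.M ⟨i.val, hi⟩, z⟩
  else if i.val = 62 then ⟨.Z1 ι, z⟩
  else if i.val = 63 then ⟨.Z2 ι, z⟩
  else if i.val = 64 then t1 else t2

lemma sel_strictMono {h : ℕ} (z : Fin (2 ^ h)) (ι : Inst h) {t1 t2 : E h} (h3 : 3 ≤ t1.b.reg)
    (h12 : t1 < t2) : StrictMono (sel z ι t1 t2) := by
  have hr := reg_le_of_lt h12
  intro i j hij
  have hij' : i.val < j.val := hij
  have hj := j.2
  by_cases j1 : j.val < 62
  · rw [sel, sel, dif_pos (by omega), dif_pos j1]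
    rw [lt_iff]
    right
    refine ⟨rfl, Or.inl ?_⟩
    simpa only [E.k1] using hij'
  by_cases j2 : j.val = 62
  · rw [sel, sel, dif_pos (by omega), dif_neg j1, if_pos j2, lt_iff]
    left; simp [Blk.reg]
  by_cases j3 : j.val = 63
  · by_cases i1 : i.val < 62
    · rw [sel, sel, dif_pos i1, dif_neg j1, if_neg j2, if_pos j3, lt_iff]
      left; simp [Blk.reg]
    · rw [sel, sel, dif_neg i1, if_pos (by omega), dif_neg j1, if_neg j2, if_pos j3, lt_iff]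
      left; simp [Blk.reg]
  by_cases i4 : i.val = 64
  · have j5 : j.val = 65 := by omega
    rw [sel, sel, dif_neg (by omega), if_neg (by omega), if_neg (by omega), if_pos i4, dif_neg j1,
      if_neg j2, if_neg j3, if_neg (by omega)]
    exact h12
  · have hi64 : i.val < 64 := by omega
    have r1 : (sel z ι t1 t2 i).b.reg ≤ 2 := by
      unfold sel
      split_ifs <;> first | omega | simp [Blk.reg]
    have r2 : 3 ≤ (sel z ι t1 t2 j).b.reg := by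
      rw [sel, dif_neg j1, if_neg j2, if_neg j3]
      split_ifs <;> omega
    rw [lt_iff]; left; omega

end Crest.Agent.S0066
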