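import Crest.Statements.S0077
import Crest.Agent.BKNum
import Crest.Agent.BK77X

set_option autoImplicit false
open Crest Crest.CombinatoricsR

namespace Crest.Agent.S0077

open Crest.CombinatoricsR.RandomGraph in
/-- edge slots with the vertex permutation action -/
def edgeSlots (n : ℕ) : Crest.Agent.BK.Slots (Fin n) (EdgeSlot n) 2 where
  vs e := e.1.toFinset
  inj := by
    rintro ⟨a, ha⟩ ⟨b, hb⟩ h
    apply Subtype.ext
    apply Sym2.ext
    intro x
    simp only at h
    rw [← Sym2.mem_toFinset, h, Sym2.mem_toFinset]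
  card_vs e := Sym2.card_toFinset_of_not_isDiag _ e.2
  act σ e := ⟨Sym2.map σ e.1, by
    have h := e.2
    revert h
    induction e.1 using Sym2.ind with
    | _ x y => simp⟩
  vs_act σ e := by
    ext x
    rw [Sym2.mem_toFinset, Finset.mem_map_equiv, Sym2.mem_toFinset, Sym2.mem_map]
    constructor
    · rintro ⟨y, hy, rfl⟩
      simpa using hy
    · intro h
      exact ⟨σ.symm x, h, by simp⟩

open Crest.CombinatoricsR.RandomGraph in
lemma graphOf_adj {n : ℕ} (ω : EdgeSlot n → Bool) (i j : Fin n) :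
    (graphOf ω).Adj i j ↔ ∃ h : ¬ (s(i, j)).IsDiag, ω ⟨s(i, j), h⟩ = true := by
  unfold graphOf
  rw [SimpleGraph.fromEdgeSet_adj]
  constructor
  · rintro ⟨h, _⟩; exact h
  · rintro ⟨h, h2⟩
    exact ⟨⟨h, h2⟩, fun hij => h (by rw [hij]; simp)⟩

open Crest.CombinatoricsR.RandomGraph in
lemma graphOf_act {n : ℕ} (ω : EdgeSlot n → Bool) (σ : Equiv.Perm (Fin n)) :
    graphOf ω = (graphOf (ω ∘ (edgeSlots n).act σ)).map σ.toEmbedding := by
  ext i j
  rw [graphOf_adj, SimpleGraph.map_adj]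
  constructor
  · rintro ⟨h, h2⟩
    refine ⟨σ.symm i, σ.symm j, ?_, by simp, by simp⟩
    rw [graphOf_adj]
    have h3 : ¬ (s(σ.symm i, σ.symm j)).IsDiag := by simpa using h
    refine ⟨h3, ?_⟩
    have : (edgeSlots n).act σ ⟨s(σ.symm i, σ.symm j), h3⟩ = ⟨s(i, j), h⟩ := by
      apply Subtype.ext
      simp [edgeSlots]
    rw [Function.comp_apply, this]
    exact h2
  · rintro ⟨u, v, huv, rfl, rfl⟩
    rw [graphOf_adj] at huv
    obtain ⟨h, h2⟩ := huv
    have h3 : ¬ (s(σ u, σ v)).IsDiag := by simpa using h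
    refine ⟨h3, ?_⟩
    have : (edgeSlots n).act σ ⟨s(u, v), h⟩ = ⟨s(σ u, σ v), h3⟩ := by
      apply Subtype.ext
      simp [edgeSlots]
    rw [Function.comp_apply, this] at h2
    exact h2

open Crest.CombinatoricsR.RandomGraph in
lemma graphOf_surj {n : ℕ} (G : SimpleGraph (Fin n)) : ∃ ω : EdgeSlot n → Bool, graphOf ω = G := by
  classical
  refine ⟨fun e => decide (e.1 ∈ G.edgeSet), ?_⟩
  ext i j
  rw [graphOf_adj]
  simp only [decide_eq_true_eq, SimpleGraph.mem_edgeSet]
  constructor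
  · rintro ⟨_, h⟩; exact h
  · intro h; exact ⟨by simpa using h.ne, h⟩

/-- Let n ≥ 2 and let P be a family of simple graphs on n labelled vertices that is invariant under renaming vertices, closed under adding edges, non-empty and not everything; let 0 < ε < 1/2. If the binomial random graph with edge probability p ∈ [0, 1] lies in P with probability at least ε, then at every edge probability q ∈ [0, 1] with q ≥ p + 2^19 · log(1/(2ε)) / (log n)² it lies in P with probability at least 1 - ε: the threshold interval from ε to 1 - ε is at most that long. -/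
theorem result (n : ℕ) (hn : 2 ≤ n)
    (P : Set (SimpleGraph (Fin n)))
    (hsymm : ∀ σ : Equiv.Perm (Fin n), ∀ G : SimpleGraph (Fin n), G ∈ P → G.map σ.toEmbedding ∈ P)
    (hmono : ∀ G G' : SimpleGraph (Fin n), G ≤ G' → G ∈ P → G' ∈ P)
    (hne : P.Nonempty) (hnu : P ≠ Set.univ) (ε : ℝ) (hε0 : 0 < ε) (hε : ε < 1 / 2)
    (p q : ℝ) (hp0 : 0 ≤ p) (hp1 : p ≤ 1) (hq0 : 0 ≤ q) (hq1 : q ≤ 1)
    (hp : ε ≤ Crest.CombinatoricsR.RandomGraph.gnpProb n p P)
    (hq : p + 2 ^ 19 / Real.log n ^ 2 * Real.log (1 / (2 * ε)) ≤ q) :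
    1 - ε ≤ Crest.CombinatoricsR.RandomGraph.gnpProb n q P := by
  classical
  set L := Real.log n with hL
  have hLpos : 0 < L := Real.log_pos (by exact_mod_cast (by omega : 1 < n))
  let f : (Crest.CombinatoricsR.RandomGraph.EdgeSlot n → Bool) → Bool :=
    fun ω => decide (Crest.CombinatoricsR.RandomGraph.graphOf ω ∈ P)
  have hprob : ∀ p : ℝ, Crest.CombinatoricsR.RandomGraph.gnpProb n p P =
      Crest.FinProb.bernoulliProb p {x | f x = true} := by
    intro p
    unfold Crest.CombinatoricsR.RandomGraph.gnpProb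
    congr 1
    ext ω
    simp [f]
  have hfs : ∀ (σ : Equiv.Perm (Fin n)) (x : Crest.CombinatoricsR.RandomGraph.EdgeSlot n → Bool),
      f (x ∘ (edgeSlots n).act σ) = f x := by
    have h1 : ∀ (σ : Equiv.Perm (Fin n)) (x : Crest.CombinatoricsR.RandomGraph.EdgeSlot n → Bool),
        Crest.CombinatoricsR.RandomGraph.graphOf (x ∘ (edgeSlots n).act σ) ∈ P →
        Crest.CombinatoricsR.RandomGraph.graphOf x ∈ P := by
      intro σ x h
      rw [graphOf_act x σ]
      exact hsymm σ _ h
    intro σ x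
    have h2 : Crest.CombinatoricsR.RandomGraph.graphOf (x ∘ (edgeSlots n).act σ) ∈ P ↔
        Crest.CombinatoricsR.RandomGraph.graphOf x ∈ P := by
      refine ⟨h1 σ x, fun h => ?_⟩
      apply h1 σ⁻¹
      have : (x ∘ (edgeSlots n).act σ) ∘ (edgeSlots n).act σ⁻¹ = x := by
        funext e
        simp only [Function.comp_apply]
        congr 1
        apply (edgeSlots n).inj
        rw [(edgeSlots n).vs_act, (edgeSlots n).vs_act]
        ext v
        rw [Finset.mem_map_equiv, Finset.mem_map_equiv]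
        have hv : (Equiv.symm σ⁻¹) ((Equiv.symm σ) v) = v := σ.apply_symm_apply v
        rw [hv]
      rw [this]; exact h
    simp only [f, h2]
  have hmono' : ∀ x y : Crest.CombinatoricsR.RandomGraph.EdgeSlot n → Bool,
      (∀ e, x e = true → y e = true) → f x = true → f y = true := by
    intro x y hxy hx
    simp only [f, decide_eq_true_eq] at hx ⊢
    refine hmono _ _ ?_ hx
    intro i j hij
    rw [graphOf_adj] at hij ⊢
    obtain ⟨h, h2⟩ := hij
    exact ⟨h, hxy _ h2⟩
  have hne' : ∃ x, f x = true := by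
    obtain ⟨G, hG⟩ := hne
    obtain ⟨ω, rfl⟩ := graphOf_surj G
    exact ⟨ω, by simp [f, hG]⟩
  have hnu' : ∃ x, f x = false := by
    obtain ⟨G, hG⟩ := (Set.ne_univ_iff_exists_notMem P).1 hnu
    obtain ⟨ω, rfl⟩ := graphOf_surj G
    exact ⟨ω, by simp [f, hG]⟩
  rw [hprob] at hp ⊢
  refine Crest.Agent.BK.threshold f hmono' hne' hnu' (L ^ 2 / 2 ^ 17) (by positivity) ?_ ε hε0 hε
    p q hp0 hp1 hq0 hq1 hp ?_
  · intro s hs0 hs1
    have h := Crest.Agent.BK.bool_form (edgeSlots n) hs0 hs1 le_rfl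
      (by rw [Fintype.card_fin]; exact hn) f hfs
    rw [Fintype.card_fin, ← hL] at h
    have e1 : ((2 : ℕ) : ℝ) / (((2 : ℕ) : ℝ) - 1) = 2 := by norm_num
    rw [e1, Real.rpow_two] at h
    set I := ∑ e, Crest.FinProb.bernoulliProb s
      {x | f (Function.update x e true) ≠ f (Function.update x e false)} with hI
    have hI0 : 0 ≤ I := Finset.sum_nonneg fun e _ => by
      rw [Crest.Agent.BK.Ex_pivotal]
      exact Crest.Agent.BK.Ex_nonneg hs0.le hs1.le fun _ => sq_nonneg _
    have h2 : (2 ^ 14 * ((2 : ℕ) : ℝ) ^ 2 + 2 ^ 8) / L ^ 2 * I ≤ 2 ^ 17 / L ^ 2 * I := by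
      refine mul_le_mul_of_nonneg_right ?_ hI0
      apply div_le_div_of_nonneg_right _ (sq_nonneg L)
      norm_num
    have h3 := h.trans h2
    have h4 := mul_le_mul_of_nonneg_left h3 (by positivity : 0 ≤ L ^ 2 / 2 ^ 17)
    refine h4.trans (le_of_eq ?_)
    have : L ≠ 0 := hLpos.ne'
    field_simp
  · refine le_trans (le_of_eq ?_) hq
    have : L ≠ 0 := hLpos.ne'
    field_simp
    norm_num


end Crest.Agent.S0077
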