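import Crest.Statements.S0078
import Crest.Agent.BKNum

set_option autoImplicit false
open Crest Crest.CombinatoricsR

namespace Crest.Agent.S0078

/-- For every r ≥ 3 there is a real constant C such that for all n ≥ r, all 0 < p < 1 and every Boolean function f of the simple r-uniform hypergraph on n labelled vertices that is invariant under renaming the vertices (no monotonicity assumed), the variance of f under independent edge-coins of bias p, namely P(f = true) · (1 - P(f = true)), is at most C · (log n)^(-r/(r-1)) times the total pivotal influence of f at bias p (natural logarithm). -/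
theorem result (r : ℕ) (hr : 3 ≤ r) :
    ∃ C : ℝ, ∀ n : ℕ, r ≤ n → ∀ p : ℝ, 0 < p → p < 1 →
      ∀ f : (Crest.CombinatoricsR.HypergraphCube.HyperedgeSlot n r → Bool) → Bool,
        Crest.CombinatoricsR.HypergraphCube.IsSymmetric f →
          Crest.CombinatoricsR.HypergraphCube.probTrue p f *
              (1 - Crest.CombinatoricsR.HypergraphCube.probTrue p f) ≤
            C / Real.log n ^ ((r : ℝ) / ((r : ℝ) - 1)) *
              Crest.CombinatoricsR.HypergraphCube.totalInfluence p f := by
  refine ⟨2 ^ 14 * (r : ℝ) ^ 2 + 2 ^ 8, fun n hn p hp0 hp1 f hf => ?_⟩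
  let Sl : Crest.Agent.BK.Slots (Fin n) (Crest.CombinatoricsR.HypergraphCube.HyperedgeSlot n r) r :=
    { vs := fun e => e.1
      inj := Subtype.val_injective
      card_vs := fun e => e.2
      act := Crest.CombinatoricsR.HypergraphCube.relabelSlot
      vs_act := fun _ _ => rfl }
  have h := Crest.Agent.BK.bool_form Sl hp0 hp1 (by omega) (by rw [Fintype.card_fin]; omega) f
    (fun σ x => hf σ x)
  rw [Fintype.card_fin] at h
  exact h


end Crest.Agent.S0078
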