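import Crest.Statements.S0110
import Crest.Agent.OS109X

set_option autoImplicit false
open MeasureTheory
open scoped ENNReal NNReal
open Crest.AnalysisR.OT
open Crest Crest.AnalysisR Crest.AnalysisR.OT

namespace Crest.Agent.S0110

/-- The exponent one third is optimal, even on the cube with three-atom targets: for d ≥ 2, ρ the uniform probability measure on the cube of points of ℝᵈ with all coordinates in [-1, 1], every α > 1/3 and every C ≥ 0, there are three-atomic probability measures μ, ν on that cube, each admitting a quadratic optimal transport map from ρ, such that for all such optimal maps Tμ, Tν some coupling π of μ, ν has C · (∫ ‖y - z‖² dπ)^α < ∫ ‖Tμ - Tν‖² dρ. Hence ‖Tμ - Tν‖_{L²(ρ)} > √C · W₂(μ, ν)^α. -/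
theorem result
    (d : ℕ) (hd : 2 ≤ d) (α : ℝ) (hα : 1 / 3 < α) (C : ℝ≥0) :
    ∃ μ ν : Measure (EuclideanSpace ℝ (Fin d)),
      IsProbabilityOn {x : EuclideanSpace ℝ (Fin d) | ∀ i, |x i| ≤ 1} μ ∧
      IsProbabilityOn {x : EuclideanSpace ℝ (Fin d) | ∀ i, |x i| ≤ 1} ν ∧
      IsThreeAtomic μ ∧ IsThreeAtomic ν ∧
      (∃ T, IsOptimalMap (uniformProbOn {x : EuclideanSpace ℝ (Fin d) | ∀ i, |x i| ≤ 1}) μ T) ∧
      (∃ T, IsOptimalMap (uniformProbOn {x : EuclideanSpace ℝ (Fin d) | ∀ i, |x i| ≤ 1}) ν T) ∧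
      ∀ Tμ Tν : EuclideanSpace ℝ (Fin d) → EuclideanSpace ℝ (Fin d),
        IsOptimalMap (uniformProbOn {x : EuclideanSpace ℝ (Fin d) | ∀ i, |x i| ≤ 1}) μ Tμ →
        IsOptimalMap (uniformProbOn {x : EuclideanSpace ℝ (Fin d) | ∀ i, |x i| ≤ 1}) ν Tν →
        ∃ π : Measure (EuclideanSpace ℝ (Fin d) × EuclideanSpace ℝ (Fin d)), IsPairCoupling μ ν π ∧
          (C : ℝ≥0∞) * quadCost π ^ α < ∫⁻ x, ‖Tμ x - Tν x‖ₑ ^ 2 ∂(uniformProbOn {x : EuclideanSpace ℝ (Fin d) | ∀ i, |x i| ≤ 1}) := by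
  obtain ⟨ε, hε, hε1, hlt⟩ := OS109X.exists_eps α hα C
  set i0 : Fin d := ⟨0, by omega⟩ with hi0
  set i1 : Fin d := ⟨1, by omega⟩ with hi1
  have h : i0 ≠ i1 := by
    rw [hi0, hi1]
    intro h
    have := congrArg Fin.val h
    simp at this
  refine ⟨OS109X.tgt i0 i1 ε 0, OS109X.tgt i0 i1 ε 1, OS109X.tgt_prob h ε 0 hε hε1 le_rfl zero_le_one,
    OS109X.tgt_prob h ε 1 hε hε1 zero_le_one le_rfl, OS109X.tgt_three h ε 0 hε hε1, OS109X.tgt_three h ε 1 hε hε1,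
    ⟨_, (OS109X.opt_T h ε 0 hε hε1 le_rfl zero_le_one).1⟩, ⟨_, (OS109X.opt_T h ε 1 hε hε1 zero_le_one le_rfl).1⟩, ?_⟩
  intro Tμ Tν hμ hν
  refine ⟨OS109X.cpl i0 i1 ε, OS109X.cpl_isCoupling ε, ?_⟩
  rw [OS109X.cpl_cost ε hε]
  refine hlt.trans_le ((OS109X.lower h ε hε hε1).trans ?_)
  apply le_of_eq
  apply lintegral_congr_ae
  filter_upwards [(OS109X.opt_T h ε 0 hε hε1 le_rfl zero_le_one).2 Tμ hμ,
    (OS109X.opt_T h ε 1 hε hε1 zero_le_one le_rfl).2 Tν hν] with x h1 h2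
  rw [h1, h2]

end Crest.Agent.S0110
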