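import Crest.Agent.S0112I
set_option autoImplicit false
open Filter MeasureTheory
open scoped Topology BoundedContinuousFunction

namespace Crest.Agent.S0112Aux
open Crest.OpAlg Crest.OpAlg.LineCalculus

variable {H : Type*} [NormedAddCommGroup H] [InnerProductSpace ℂ H] [CompleteSpace H]

lemma supportedIn_apply (D : LineCalculus H) (K : BoundedContinuousFunction ℝ ℂ) (s r : ℝ)
    (hK : ∀ u, r ≤ |u - s| → K u = 0) (x : H) : D.SupportedIn (Set.Icc (s - r) (s + r)) (D.apply K x) := by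
  intro f hf
  rw [← apply_mul_vec]
  have : f * K = 0 := by
    ext u
    rw [BoundedContinuousFunction.coe_mul, Pi.mul_apply, BoundedContinuousFunction.coe_zero, Pi.zero_apply]
    rcases le_total r |u - s| with h | h
    · rw [hK u h, mul_zero]
    · rw [hf u, zero_mul]
      rw [abs_le] at h
      exact ⟨by linarith, by linarith⟩
  rw [this]; simp

lemma apply_wave_of_supported (D : LineCalculus H) (K : BoundedContinuousFunction ℝ ℂ) (s r : ℝ)
    (hK : ∀ u, |u - s| ≤ r → K u = 1) (x : H) (hx : D.SupportedIn (Set.Icc (s - r) (s + r)) x) (t : ℝ) :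
    D.apply K (D.wave t x) = D.wave t x := by
  have h1 := hx ((K - 1) * character t) (by
    intro u hu
    rw [BoundedContinuousFunction.coe_mul, Pi.mul_apply, BoundedContinuousFunction.coe_sub, Pi.sub_apply, hK u]
    · simp
    · rw [abs_le]; exact ⟨by linarith [hu.1], by linarith [hu.2]⟩)
  rw [apply_mul_vec, map_sub, map_one, sub_apply, sub_eq_zero] at h1
  exact h1

lemma apply_of_supported (D : LineCalculus H) (K : BoundedContinuousFunction ℝ ℂ) (s r : ℝ)
    (hK : ∀ u, |u - s| ≤ r → K u = 1) (x : H) (hx : D.SupportedIn (Set.Icc (s - r) (s + r)) x) :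
    D.apply K x = x := by
  have := apply_wave_of_supported D K s r hK x hx 0
  rw [wave_zero] at this
  simpa using this

lemma windowMean_mono (f g : ℝ → ℝ) (hf : Continuous f) (hg : Continuous g) (h : ∀ t, f t ≤ g t) (k : ℕ) :
    windowMean f k ≤ windowMean g k := by
  rw [windowMean_eq, windowMean_eq]
  apply mul_le_mul_of_nonneg_left _ (by positivity)
  exact integral_mono hf.continuousOn.integrableOn_Icc hg.continuousOn.integrableOn_Icc h

lemma windowMean_const (c : ℝ) (k : ℕ) (hk : 0 < k) : windowMean (fun _ => c) k = c := by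
  rw [windowMean_eq, setIntegral_const, real_Icc, smul_eq_mul]
  have : (0:ℝ) < k := by exact_mod_cast hk
  field_simp

lemma star_flow (S : ModularDatum H) (t : ℝ) (a : H →L[ℂ] H) : star (S.flow t a) = S.flow t (star a) := by
  simp only [ModularDatum.flow, star_mul, star_wave, neg_neg, mul_assoc]

theorem core (S : ModularDatum H) (herg : S.Ergodic) (T : H →L[ℂ] H) (c κ : ℝ) (hc : 0 < c) (hκ : 0 < κ) :
    ∃ C η : ℝ, 0 < η ∧ ∀ (s δ : ℝ), 0 < δ → Real.exp (s + 2 * δ) ≤ κ → ∀ h : H, ‖h‖ = 1 →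
      S.D.SupportedIn (Set.Icc (s - δ) (s + δ)) h →
      (∃ᶠ k in atTop, c ≤ windowMean (fun t => ‖T (S.D.wave t h)‖ ^ 2) k) →
      ∃ v ∈ S.M, ‖v‖ ≤ C ∧ η ≤ ‖T (v S.vac)‖ ∧ S.D.SupportedIn (Set.Icc (s - 4 * δ) (s + 4 * δ)) (v S.vac) := by
  obtain ⟨C0, hC0, hker⟩ := exists_kernel
  obtain ⟨TT, hTT⟩ : ∃ TT, TT = ‖T‖ + 1 := ⟨_, rfl⟩
  have hTT0 : 0 < TT := by rw [hTT]; positivity
  have hTle : ‖T‖ ≤ TT := by rw [hTT]; linarith
  obtain ⟨ε1, hε1⟩ : ∃ ε1, ε1 = min 1 (c / (12 * TT^2)) := ⟨_, rfl⟩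
  have hε10 : 0 < ε1 := by rw [hε1]; positivity
  have hε11 : ε1 ≤ 1 := by rw [hε1]; exact min_le_left _ _
  have hε12 : TT^2 * (3 * ε1) ≤ c / 4 := by
    have : ε1 ≤ c / (12 * TT^2) := by rw [hε1]; exact min_le_right _ _
    rw [le_div_iff₀ (by positivity)] at this
    linarith
  obtain ⟨wmax, hwmax⟩ : ∃ wmax, wmax = 32 + 64 * κ := ⟨_, rfl⟩
  have hwmax0 : 0 < wmax := by rw [hwmax]; positivity
  obtain ⟨lam, hlam⟩ : ∃ lam, lam = c / (4 * wmax) := ⟨_, rfl⟩
  have hlam0 : 0 < lam := by rw [hlam]; positivity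
  obtain ⟨L, hL⟩ : ∃ L, L = TT * C0 := ⟨_, rfl⟩
  have hL0 : 0 < L := by rw [hL]; positivity
  obtain ⟨τ, hτ⟩ : ∃ τ, τ = L / Real.sqrt lam := ⟨_, rfl⟩
  have hsl : 0 < Real.sqrt lam := Real.sqrt_pos.mpr hlam0
  have hτ0 : 0 < τ := by rw [hτ]; positivity
  refine ⟨C0 * (τ / 2), Real.sqrt c / 4, by positivity, ?_⟩
  intro s δ hδ hexp h hh hband hfreq
  obtain ⟨k1, c1, K1, hk1i, hk1n, hK1, hK1one, hK1zero, hK1norm⟩ := hker δ hδ s
  obtain ⟨k2, c2, K2, hk2i, hk2n, hK2, hK2one, hK2zero, hK2norm⟩ := hker (2 * δ) (by positivity) s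
  have hvac : ∀ t, S.D.wave t S.vac = S.vac := vac_fixed S
  -- choose a
  obtain ⟨a0, ha0⟩ : ∃ a0 : S.M, ‖(a0 : H →L[ℂ] H) S.vac - h‖ < ε1 / C0 := by
    have := S.cyclic.exists_dist_lt h (ε := ε1 / C0) (by positivity)
    obtain ⟨y, ⟨a0, rfl⟩, hy⟩ := this
    refine ⟨a0, ?_⟩
    rw [dist_comm, dist_eq_norm] at hy
    exact hy
  obtain ⟨a, haM, _, haξ⟩ := smoothing S hvac k1 hk1i c1 K1 hK1 (a0 : H →L[ℂ] H) a0.2
  have hah : ‖a S.vac - h‖ ≤ ε1 := by
    have h1 : a S.vac - h = S.D.apply K1 ((a0 : H →L[ℂ] H) S.vac - h) := by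
      rw [haξ, map_sub, apply_of_supported S.D K1 s δ hK1one h hband]
    rw [h1]
    calc ‖S.D.apply K1 ((a0 : H →L[ℂ] H) S.vac - h)‖ ≤ C0 * (ε1 / C0) :=
          ((S.D.apply K1).le_opNorm _).trans (mul_le_mul ((apply_norm_le S.D K1).trans hK1norm) ha0.le (norm_nonneg _) hC0.le)
      _ = ε1 := by field_simp
  have hasupp : S.D.SupportedIn (Set.Icc (s - 2 * δ) (s + 2 * δ)) (a S.vac) := by
    rw [haξ]; exact supportedIn_apply S.D K1 s (2 * δ) hK1zero _
  have hanorm : ‖a S.vac‖ ≤ 2 := by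
    have h1 : a S.vac = (a S.vac - h) + h := by abel
    rw [h1]
    refine (norm_add_le _ _).trans ?_
    rw [hh]; linarith
  obtain ⟨p, hp⟩ : ∃ p, p = ‖a S.vac‖^2 := ⟨_, rfl⟩
  obtain ⟨p', hp'⟩ : ∃ p', p' = ‖star a S.vac‖^2 := ⟨_, rfl⟩
  have hp0 : 0 ≤ p := by rw [hp]; positivity
  have hp'0 : 0 ≤ p' := by rw [hp']; positivity
  have hp4 : p ≤ 4 := by rw [hp]; nlinarith [norm_nonneg (a S.vac)]
  have hp'4 : p' ≤ κ * 4 := by
    have h1 := adjoint_norm S a haM _ _ hasupp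
    have h2 : p' ≤ (Real.exp ((s + 2 * δ) / 2) * ‖a S.vac‖)^2 := by
      rw [hp']; exact pow_le_pow_left₀ (norm_nonneg _) h1 2
    rw [mul_pow, ← Real.exp_nat_mul, ← hp] at h2
    have h3 : ((2:ℕ):ℝ) * ((s + 2 * δ) / 2) = s + 2 * δ := by push_cast; ring
    rw [h3] at h2
    exact h2.trans (mul_le_mul hexp hp4 hp0 hκ.le)
  -- T'
  obtain ⟨T', hT'⟩ : ∃ T' : H →L[ℂ] H, T' = T * S.D.apply K2 := ⟨_, rfl⟩
  have hT'apply : ∀ x, T' x = T (S.D.apply K2 x) := fun x => by rw [hT']; rfl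
  have hT'norm : ∀ x, ‖T' x‖ ≤ L * ‖x‖ := by
    intro x
    rw [hT'apply, hL]
    calc ‖T (S.D.apply K2 x)‖ ≤ ‖T‖ * ‖S.D.apply K2 x‖ := T.le_opNorm _
      _ ≤ TT * (C0 * ‖x‖) := by
          apply mul_le_mul hTle _ (norm_nonneg _) hTT0.le
          exact ((S.D.apply K2).le_opNorm _).trans (mul_le_mul_of_nonneg_right ((apply_norm_le S.D K2).trans hK2norm) (norm_nonneg _))
      _ = _ := by ring
  have hT'wave : ∀ t, T' (S.D.wave t (a S.vac)) = T (S.D.wave t (a S.vac)) := by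
    intro t
    rw [hT'apply, apply_wave_of_supported S.D K2 s (2 * δ) hK2one _ hasupp]
  -- f
  obtain ⟨f, hf⟩ : ∃ f : ℝ → ℝ, f = fun t => ‖T' (S.D.wave t (a S.vac))‖^2 := ⟨_, rfl⟩
  have hfc : Continuous f := by
    rw [hf]; exact ((T'.continuous.comp (continuous_wave S.D _)).norm).pow 2
  have hffreq : ∃ᶠ k in atTop, 3 * c / 4 ≤ windowMean f k := by
    have h1 : ∀ t, ‖T (S.D.wave t h)‖^2 ≤ f t + c / 4 := by
      intro t
      rw [hf]; simp only
      rw [hT'wave]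
      have h2 : ‖T (S.D.wave t h)‖ ≤ ‖T (S.D.wave t (a S.vac))‖ + TT * ε1 := by
        have h3 : T (S.D.wave t h) = T (S.D.wave t (a S.vac)) - T (S.D.wave t (a S.vac - h)) := by
          rw [map_sub, map_sub]; abel
        rw [h3]
        refine (norm_sub_le _ _).trans ?_
        gcongr
        refine (T.le_opNorm _).trans ?_
        rw [norm_wave]
        exact mul_le_mul hTle hah (norm_nonneg _) hTT0.le
      have h4 : ‖T (S.D.wave t (a S.vac))‖ ≤ TT * (1 + ε1) := by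
        refine (T.le_opNorm _).trans ?_
        rw [norm_wave]
        apply mul_le_mul hTle _ (norm_nonneg _) hTT0.le
        have h5 : a S.vac = (a S.vac - h) + h := by abel
        rw [h5]
        refine (norm_add_le _ _).trans ?_
        rw [hh]; linarith
      have h5 : ‖T (S.D.wave t h)‖ ≤ TT := by
        refine (T.le_opNorm _).trans ?_
        rw [norm_wave, hh, mul_one]; exact hTle
      -- x^2 - y^2 = (x-y)(x+y) <= TT ε1 (TT + TT(1+ε1)) <= 3 TT^2 ε1
      have h6 := norm_nonneg (T (S.D.wave t h))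
      have h7 := norm_nonneg (T (S.D.wave t (a S.vac)))
      have h8 : ‖T (S.D.wave t h)‖^2 - ‖T (S.D.wave t (a S.vac))‖^2 ≤ (TT * ε1) * (3 * TT) := by
        have e : ‖T (S.D.wave t h)‖^2 - ‖T (S.D.wave t (a S.vac))‖^2 =
          (‖T (S.D.wave t h)‖ - ‖T (S.D.wave t (a S.vac))‖) * (‖T (S.D.wave t h)‖ + ‖T (S.D.wave t (a S.vac))‖) := by ring
        rw [e]
        rcases le_total (‖T (S.D.wave t h)‖ - ‖T (S.D.wave t (a S.vac))‖) 0 with h9 | h9
        · have : (‖T (S.D.wave t h)‖ - ‖T (S.D.wave t (a S.vac))‖) * (‖T (S.D.wave t h)‖ + ‖T (S.D.wave t (a S.vac))‖) ≤ 0 :=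
            mul_nonpos_of_nonpos_of_nonneg h9 (by positivity)
          have : 0 ≤ (TT * ε1) * (3 * TT) := by positivity
          linarith
        · apply mul_le_mul (by linarith) _ (by positivity) (by positivity)
          have : TT * (1 + ε1) ≤ TT * 2 := mul_le_mul_of_nonneg_left (by linarith) hTT0.le
          linarith
      nlinarith
    have h2 := hfreq.and_eventually (eventually_gt_atTop 0)
    refine h2.mono (fun k hk => ?_)
    have hc1 : Continuous (fun t => ‖T (S.D.wave t h)‖^2) := ((T.continuous.comp (continuous_wave S.D _)).norm).pow 2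
    have h3 := windowMean_mono (fun t => ‖T (S.D.wave t h)‖^2) (fun t => f t + c / 4) hc1 (hfc.add continuous_const) h1 k
    rw [windowMean_add f (fun _ => c/4) hfc continuous_const, windowMean_const _ _ hk.2] at h3
    linarith [hk.1]
  -- W
  obtain ⟨Q, hQ⟩ : ∃ Q, Q = star a (a S.vac) := ⟨_, rfl⟩
  obtain ⟨W, hW⟩ : ∃ W : ℝ → ℝ → ℝ, W = fun s t => 2 * (inner ℂ (S.D.wave s Q) (S.D.wave t Q) : ℂ).re +
      2 * ‖star a (S.D.wave (t - s) (a S.vac))‖^2 + 2 * ‖star a (S.D.wave (s - t) (a S.vac))‖^2 := ⟨_, rfl⟩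
  have hWc1 : ∀ s, Continuous (fun t => (inner ℂ (S.D.wave s Q) (S.D.wave t Q) : ℂ).re) := by
    intro s
    have := continuous_wave S.D Q
    fun_prop
  have hWc2 : ∀ s, Continuous (fun t => ‖star a (S.D.wave (t - s) (a S.vac))‖^2) := by
    intro s
    exact (((star a).continuous.comp ((continuous_wave S.D _).comp (by fun_prop))).norm).pow 2
  have hWc3 : ∀ s, Continuous (fun t => ‖star a (S.D.wave (s - t) (a S.vac))‖^2) := by
    intro s
    exact (((star a).continuous.comp ((continuous_wave S.D _).comp (by fun_prop))).norm).pow 2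
  have hWc : ∀ s, Continuous (W s) := by
    intro s
    rw [hW]
    exact ((continuous_const.mul (hWc1 s)).add (continuous_const.mul (hWc2 s))).add (continuous_const.mul (hWc3 s))
  have hQvac : inner ℂ S.vac Q = ((p : ℝ) : ℂ) := by
    rw [hQ, ContinuousLinearMap.star_eq_adjoint, ContinuousLinearMap.adjoint_inner_right, inner_self_eq_norm_sq_to_K, hp]
    simp
  have hvacaa : inner ℂ S.vac ((a * star a) S.vac) = ((p' : ℝ) : ℂ) := by
    rw [ContinuousLinearMap.mul_apply, ← ContinuousLinearMap.adjoint_inner_left, ← ContinuousLinearMap.star_eq_adjoint,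
      inner_self_eq_norm_sq_to_K, hp']
    simp
  have hlim1 : ∀ s, Tendsto (windowMean (fun t => (inner ℂ (S.D.wave s Q) (S.D.wave t Q) : ℂ).re)) atTop (𝓝 (p^2)) := by
    intro s
    have h1 := lim_wave S herg (star a * a) (mul_mem (star_mem haM) haM) (S.D.wave s Q)
    have h2 : (star a * a) S.vac = Q := by rw [hQ]; rfl
    rw [h2, hQvac, inner_wave_left, hvac] at h1
    have h3 : inner ℂ Q S.vac = ((p : ℝ) : ℂ) := by
      rw [← inner_conj_symm, hQvac, Complex.conj_ofReal]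
    rw [h3, ← Complex.ofReal_mul, Complex.ofReal_re, ← sq] at h1
    exact h1
  have hnsq : ∀ y : H, ∀ t, ‖star a (S.D.wave t y)‖^2 = (inner ℂ y (S.flow (-t) (a * star a) y) : ℂ).re := by
    intro y t
    rw [flow_apply, neg_neg, ← inner_wave_left, ContinuousLinearMap.mul_apply, ← ContinuousLinearMap.adjoint_inner_left,
      ← ContinuousLinearMap.star_eq_adjoint, inner_self_eq_norm_sq_to_K]
    norm_cast
  have hyy : ∀ s, (inner ℂ (S.D.wave s (a S.vac)) (S.D.wave s (a S.vac)) : ℂ) = ((p : ℝ) : ℂ) := by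
    intro s
    rw [inner_self_eq_norm_sq_to_K, norm_wave, hp]; simp
  have hlim2 : ∀ s, Tendsto (windowMean (fun t => ‖star a (S.D.wave (t - s) (a S.vac))‖^2)) atTop (𝓝 (p' * p)) := by
    intro s
    have h1 := lim_flow_neg S herg (a * star a) (mul_mem haM (star_mem haM)) (S.D.wave (-s) (a S.vac)) (S.D.wave (-s) (a S.vac))
    rw [hvacaa, hyy, ← Complex.ofReal_mul, Complex.ofReal_re] at h1
    refine h1.congr (fun k => ?_)
    congr 1; ext t
    rw [← hnsq, sub_eq_add_neg, wave_add]; rfl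
  have hlim3 : ∀ s, Tendsto (windowMean (fun t => ‖star a (S.D.wave (s - t) (a S.vac))‖^2)) atTop (𝓝 (p' * p)) := by
    intro s
    have h1 := lim_flow S herg (a * star a) (mul_mem haM (star_mem haM)) (S.D.wave s (a S.vac)) (S.D.wave s (a S.vac))
    rw [hvacaa, hyy, ← Complex.ofReal_mul, Complex.ofReal_re] at h1
    refine h1.congr (fun k => ?_)
    congr 1; ext t
    have h2 := hnsq (S.D.wave s (a S.vac)) (-t)
    rw [neg_neg] at h2
    rw [← h2, sub_eq_neg_add, wave_add]; rfl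
  obtain ⟨w, hw⟩ : ∃ w, w = 2 * p^2 + 2 * (p' * p) + 2 * (p' * p) := ⟨_, rfl⟩
  have hw0 : 0 ≤ w := by rw [hw]; positivity
  have hwle : w ≤ wmax := by
    have h1 : p' * p ≤ (κ * 4) * 4 := mul_le_mul hp'4 hp4 hp0 (by positivity)
    have h2 : p^2 ≤ 4^2 := pow_le_pow_left₀ hp0 hp4 2
    rw [hw, hwmax]; linarith
  have hWlim : ∀ s, Tendsto (windowMean (W s)) atTop (𝓝 w) := by
    intro s
    rw [hw]
    have := (((hlim1 s).const_mul 2).add ((hlim2 s).const_mul 2)).add ((hlim3 s).const_mul 2)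
    refine this.congr (fun k => ?_)
    rw [hW]
    simp only
    rw [windowMean_add (fun t => 2 * (inner ℂ (S.D.wave s Q) (S.D.wave t Q) : ℂ).re +
      2 * ‖star a (S.D.wave (t - s) (a S.vac))‖^2) (fun t => 2 * ‖star a (S.D.wave (s - t) (a S.vac))‖^2)
      ((continuous_const.mul (hWc1 s)).add (continuous_const.mul (hWc2 s))) (continuous_const.mul (hWc3 s)),
      windowMean_add (fun t => 2 * (inner ℂ (S.D.wave s Q) (S.D.wave t Q) : ℂ).re) (fun t => 2 * ‖star a (S.D.wave (t - s) (a S.vac))‖^2)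
      (continuous_const.mul (hWc1 s)) (continuous_const.mul (hWc2 s)), windowMean_const_mul, windowMean_const_mul, windowMean_const_mul]
  -- choose N
  obtain ⟨N, hN0, hN⟩ : ∃ N : ℕ, 0 < N ∧ lam * ‖Q‖^2 ≤ (c / 8) * N := by
    obtain ⟨N, hN⟩ := exists_nat_gt (lam * ‖Q‖^2 / (c / 8))
    have h0 : 0 ≤ lam * ‖Q‖^2 / (c / 8) := by positivity
    refine ⟨N, ?_, ?_⟩
    · have : (0:ℝ) < N := lt_of_le_of_lt h0 hN
      exact_mod_cast this
    · rw [div_lt_iff₀ (by positivity)] at hN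
      linarith
  have hNr : (0:ℝ) < N := by exact_mod_cast hN0
  obtain ⟨t, ht⟩ := select f hfc W hWc (c/2) (3 * c / 4) w (by linarith) hffreq hWlim (lam / N) (by positivity) N
  -- the operators
  obtain ⟨b, hb⟩ : ∃ b : ℕ → (H →L[ℂ] H), b = fun j => S.flow (t j) a := ⟨_, rfl⟩
  have hbM : ∀ j, b j ∈ S.M := fun j => by rw [hb]; exact S.flow_mem (t j) a haM
  have hbξ : ∀ j, b j S.vac = S.D.wave (t j) (a S.vac) := by
    intro j; rw [hb]; simp only [flow_apply, hvac]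
  have hsb : ∀ i (y : H), star (b i) y = S.D.wave (t i) (star a (S.D.wave (-(t i)) y)) := by
    intro i y; rw [hb]; simp only [star_flow, flow_apply]
  have hbb : ∀ i, star (b i) (b i S.vac) = S.D.wave (t i) Q := by
    intro i
    rw [hsb, hbξ, wave_neg_wave, hQ]
  have hbij : ∀ i j, ‖star (b i) (b j S.vac)‖^2 = ‖star a (S.D.wave (t j - t i) (a S.vac))‖^2 := by
    intro i j
    rw [hsb, hbξ, norm_wave, sub_eq_neg_add, wave_add]; rfl
  have hquart := quartic b S.vac (‖Q‖^2) (fun j => by rw [hbb, norm_wave]) N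
  have hquart2 : sgnAvg b N (fun X => ‖star X (X S.vac)‖^2) ≤ N * ‖Q‖^2 +
      ∑ j ∈ Finset.range N, ∑ i ∈ Finset.range j, W (t i) (t j) := by
    refine hquart.trans (le_of_eq ?_)
    congr 1
    apply Finset.sum_congr rfl; intro j _
    apply Finset.sum_congr rfl; intro i _
    rw [hbb, hbb, hbij, hbij, hW]
  have hquad : sgnAvg b N (fun X => ‖T' (X S.vac)‖^2) = ∑ j ∈ Finset.range N, f (t j) := by
    rw [sgnAvg_quad b N (fun X => ‖T' (X S.vac)‖^2) (by simp) (by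
      intro X c
      simp only [add_apply, sub_apply, map_add, map_sub]
      exact par _ _)]
    apply Finset.sum_congr rfl; intro j _
    rw [hbξ, hf]
  obtain ⟨X, hXM, hX⟩ := sgnAvg_exists b N (fun X => ‖T' (X S.vac)‖^2 + (-(lam / N)) * ‖star X (X S.vac)‖^2) (fun X => X ∈ S.M)
    (zero_mem _) (fun X i hX => add_mem hX (hbM i)) (fun X i hX => sub_mem hX (hbM i))
  rw [sgnAvg_add, sgnAvg_const_mul, hquad] at hX
  have hX2 : N * (c / 4) ≤ ‖T' (X S.vac)‖^2 - (lam / N) * ‖star X (X S.vac)‖^2 := by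
    have h1 : (lam / N) * sgnAvg b N (fun X => ‖star X (X S.vac)‖^2) ≤ (lam / N) * (N * ‖Q‖^2 +
      ∑ j ∈ Finset.range N, ∑ i ∈ Finset.range j, W (t i) (t j)) := mul_le_mul_of_nonneg_left hquart2 (by positivity)
    have h2 : (lam / N) * (N * ‖Q‖^2) = lam * ‖Q‖^2 := by field_simp
    have h3 : (lam / N) * ((N:ℝ) * (N - 1) / 2) * w ≤ N * (c / 8) := by
      have e : (lam / N) * ((N:ℝ) * (N - 1) / 2) * w = (lam * w) * ((N - 1)/2) := by field_simp
      rw [e]
      have h4 : lam * w ≤ c / 4 := by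
        calc lam * w ≤ lam * wmax := mul_le_mul_of_nonneg_left hwle hlam0.le
          _ = c / 4 := by rw [hlam]; field_simp
      have h5 : (0:ℝ) ≤ (N - 1)/2 := by
        have : (1:ℝ) ≤ N := by exact_mod_cast hN0
        linarith
      calc (lam * w) * ((N - 1)/2) ≤ (c / 4) * ((N-1)/2) := mul_le_mul_of_nonneg_right h4 h5
        _ ≤ N * (c / 8) := by nlinarith
    rw [mul_add, h2] at h1
    linarith
  -- A
  obtain ⟨A, hA⟩ : ∃ A : H →L[ℂ] H, A = (((Real.sqrt N)⁻¹ : ℝ) : ℂ) • X := ⟨_, rfl⟩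
  have hsN : 0 < Real.sqrt N := Real.sqrt_pos.mpr hNr
  have hsN2 : Real.sqrt N ^ 2 = N := Real.sq_sqrt hNr.le
  have hAM : A ∈ S.M := by rw [hA]; exact (S.M.toStarSubalgebra).smul_mem hXM _
  have hA1 : ‖T' (A S.vac)‖^2 = ‖T' (X S.vac)‖^2 / N := by
    rw [hA, smul_apply, map_smul, norm_smul, Complex.norm_real, Real.norm_of_nonneg (by positivity), mul_pow, inv_pow, hsN2]
    ring
  have hA2 : ‖star A (A S.vac)‖^2 = ‖star X (X S.vac)‖^2 / N^2 := by
    rw [hA, star_smul, smul_apply, smul_apply, map_smul, norm_smul, norm_smul, norm_star, Complex.norm_real,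
      Real.norm_of_nonneg (by positivity), ← mul_assoc, mul_pow, mul_pow, inv_pow, hsN2]
    field_simp
  have hA3 : c / 4 + lam * ‖star A (A S.vac)‖^2 ≤ ‖T' (A S.vac)‖^2 := by
    rw [hA1, hA2, le_div_iff₀ hNr]
    have : (c / 4 + lam * (‖star X (X S.vac)‖^2 / N^2)) * N = N * (c/4) + (lam / N) * ‖star X (X S.vac)‖^2 := by
      field_simp
    linarith
  obtain ⟨B, hBM, hBn, hAB⟩ := truncate S A hAM τ hτ0
  have hT'B : Real.sqrt c / 4 ≤ ‖T' (B S.vac)‖ := by
    have h1 : ‖T' (A S.vac)‖ - ‖T' (B S.vac)‖ ≤ (Real.sqrt lam / 2) * ‖star A (A S.vac)‖ := by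
      have h2 : ‖T' (A S.vac)‖ ≤ ‖T' (A S.vac - B S.vac)‖ + ‖T' (B S.vac)‖ := by
        have : T' (A S.vac) = T' (A S.vac - B S.vac) + T' (B S.vac) := by rw [map_sub]; abel
        calc ‖T' (A S.vac)‖ = ‖T' (A S.vac - B S.vac) + T' (B S.vac)‖ := by rw [← this]
          _ ≤ _ := norm_add_le _ _
      have h3 : ‖T' (A S.vac - B S.vac)‖ ≤ L * (‖star A (A S.vac)‖ / (2 * τ)) :=
        (hT'norm _).trans (mul_le_mul_of_nonneg_left hAB hL0.le)
      have h4 : L * (‖star A (A S.vac)‖ / (2 * τ)) = (Real.sqrt lam / 2) * ‖star A (A S.vac)‖ := by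
        rw [hτ]; field_simp
      linarith
    have h2 : Real.sqrt lam * ‖star A (A S.vac)‖ ≤ ‖T' (A S.vac)‖ := by
      have h3 : (Real.sqrt lam * ‖star A (A S.vac)‖)^2 ≤ ‖T' (A S.vac)‖^2 := by
        rw [mul_pow, Real.sq_sqrt hlam0.le]; linarith
      exact (sq_le_sq₀ (by positivity) (norm_nonneg _)).mp h3
    have h3 : Real.sqrt c / 2 ≤ ‖T' (A S.vac)‖ := by
      have h4 : (Real.sqrt c / 2)^2 ≤ ‖T' (A S.vac)‖^2 := by
        rw [div_pow, Real.sq_sqrt hc.le]
        have : 0 ≤ lam * ‖star A (A S.vac)‖^2 := by positivity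
        linarith
      exact (sq_le_sq₀ (by positivity) (norm_nonneg _)).mp h4
    linarith
  obtain ⟨v, hvM, hvn, hvξ⟩ := smoothing S hvac k2 hk2i c2 K2 hK2 B hBM
  refine ⟨v, hvM, ?_, ?_, ?_⟩
  · refine hvn.trans ?_
    exact mul_le_mul hk2n hBn (norm_nonneg _) hC0.le
  · rw [hvξ, ← hT'apply]; exact hT'B
  · rw [hvξ]
    exact supportedIn_apply S.D K2 s (4 * δ) (fun u hu => hK2zero u (by linarith)) _

end Crest.Agent.S0112Aux
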