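import Crest.Statements.S0112
import Crest.Agent.S0112J

set_option autoImplicit false
open Crest Crest.AnalysisR Crest.AnalysisR.OperatorAlgebra

namespace Crest.Agent.S0112
open Crest.Agent.S0112Aux Filter

/-- Bounded recovery. Let S be modular data on H (algebra M, cyclic separating unit vector ξ, D = log of the modular operator) with ergodic state, ω a free ultrafilter on ℕ, T a bounded operator, δₙ → 0 positive, hₙ unit vectors with D-spectral support in [s − δₙ, s + δₙ]. If some c > 0 bounds the ω-mean over t of ‖T exp(itD) hₙ‖² from below infinitely often, along a subsequence n_j there are v_j ∈ M, C and η > 0 with ‖v_j‖ ≤ C, ‖T (v_j ξ)‖ ≥ η, v_j ξ supported in [s − 4δ_{n_j}, s + 4δ_{n_j}]. -/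
theorem result
    {H : Type*} [NormedAddCommGroup H] [InnerProductSpace ℂ H] [CompleteSpace H]
    (S : Crest.OpAlg.ModularDatum H) (herg : S.Ergodic)
    (ω : Ultrafilter ℕ) (hω : (ω : Filter ℕ) ≤ Filter.atTop)
    (T : H →L[ℂ] H) (s : ℝ) (δ : ℕ → ℝ) (hδ : ∀ n, 0 < δ n)
    (hδ0 : Filter.Tendsto δ Filter.atTop (nhds 0))
    (h : ℕ → H) (hh : ∀ n, ‖h n‖ = 1)
    (hband : ∀ n, S.D.SupportedIn (Set.Icc (s - δ n) (s + δ n)) (h n))
    (hpos : ∃ c : ℝ, 0 < c ∧ ∃ᶠ n in Filter.atTop,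
      c ≤ Crest.OpAlg.ultraMean ω (fun t : ℝ => ‖T (S.D.wave t (h n))‖ ^ 2)) :
    ∃ (n' : ℕ → ℕ) (v : ℕ → (H →L[ℂ] H)) (C η : ℝ), StrictMono n' ∧ 0 < η ∧
      ∀ j : ℕ, v j ∈ S.M ∧ ‖v j‖ ≤ C ∧ η ≤ ‖T (v j S.vac)‖ ∧
        S.D.SupportedIn (Set.Icc (s - 4 * δ (n' j)) (s + 4 * δ (n' j))) (v j S.vac) := by
  obtain ⟨c, hc, hfr⟩ := hpos
  obtain ⟨C, η, hη, hcore⟩ := core S herg T (c / 2) (Real.exp (s + 2)) (by positivity) (Real.exp_pos _)
  -- eventually δ ≤ 1
  have hδ1 : ∀ᶠ n in Filter.atTop, δ n ≤ 1 := hδ0.eventually_le_const (by norm_num)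
  obtain ⟨φ, hφ, hφ2⟩ := Filter.extraction_of_frequently_atTop (hfr.and_eventually hδ1)
  have hex : ∀ j, ∃ v ∈ S.M, ‖v‖ ≤ C ∧ η ≤ ‖T (v S.vac)‖ ∧
      S.D.SupportedIn (Set.Icc (s - 4 * δ (φ j)) (s + 4 * δ (φ j))) (v S.vac) := by
    intro j
    obtain ⟨h1, h2⟩ := hφ2 j
    apply hcore s (δ (φ j)) (hδ _) (Real.exp_le_exp.mpr (by linarith)) (h (φ j)) (hh _) (hband _)
    -- frequently the window mean is at least c / 2
    set f : ℝ → ℝ := fun t : ℝ => ‖T (S.D.wave t (h (φ j)))‖ ^ 2 with hf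
    have hfc : Continuous f := ((T.continuous.comp (continuous_wave S.D _)).norm).pow 2
    have hbd : ∀ k, Crest.OpAlg.windowMean f k ∈ Set.Icc 0 (‖T‖^2) := by
      intro k
      have hft : ∀ t, f t ≤ ‖T‖^2 := by
        intro t
        rw [hf]; simp only
        apply pow_le_pow_left₀ (norm_nonneg _)
        refine (T.le_opNorm _).trans ?_
        rw [norm_wave, hh, mul_one]
      constructor
      · have h3 := windowMean_mono (fun _ => 0) f continuous_const hfc (fun t => by rw [hf]; positivity) k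
        have h4 : Crest.OpAlg.windowMean (fun _ => (0:ℝ)) k = 0 := by
          rw [windowMean_eq]; simp
        rw [h4] at h3; exact h3
      · rcases Nat.eq_zero_or_pos k with hk | hk
        · subst hk
          rw [windowMean_eq]; simp
        · have h3 := windowMean_mono f (fun _ => ‖T‖^2) hfc continuous_const hft k
          rw [windowMean_const _ _ hk] at h3; exact h3
    have hle : ((ω.map (Crest.OpAlg.windowMean f) : Ultrafilter ℝ) : Filter ℝ) ≤ Filter.principal (Set.Icc 0 (‖T‖^2)) := by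
      rw [Filter.le_principal_iff, Ultrafilter.coe_map, Filter.mem_map]
      filter_upwards with k
      exact hbd k
    obtain ⟨x, _, hx⟩ := isCompact_Icc.ultrafilter_le_nhds _ hle
    have hx' : Filter.Tendsto (Crest.OpAlg.windowMean f) (ω : Filter ℕ) (nhds x) := hx
    have hxc : c ≤ x := by
      have h3 : Crest.OpAlg.ultraMean ω f = x := hx'.limUnder_eq
      rw [← h3]; exact h1
    have h4 : ∀ᶠ k in (ω : Filter ℕ), c / 2 ≤ Crest.OpAlg.windowMean f k :=
      (hx'.eventually_const_lt (show c / 2 < x by linarith)).mono (fun k hk => hk.le)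
    exact h4.frequently.filter_mono hω
  choose v hv using hex
  exact ⟨φ, v, C, η, hφ, hη, fun j => ⟨(hv j).1, (hv j).2.1, (hv j).2.2.1, (hv j).2.2.2⟩⟩

end Crest.Agent.S0112
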