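import Crest.Prelude.Def_ModularData
set_option autoImplicit false
open Filter MeasureTheory
open scoped Topology BoundedContinuousFunction

namespace Crest.Agent.S0112Aux
open Crest.OpAlg Crest.OpAlg.LineCalculus

variable {H : Type*} [NormedAddCommGroup H] [InnerProductSpace ℂ H] [CompleteSpace H]

lemma apply_norm_le (D : LineCalculus H) (f : BoundedContinuousFunction ℝ ℂ) : ‖D.apply f‖ ≤ ‖f‖ :=
  NonUnitalStarAlgHom.norm_apply_le D.apply f

lemma apply_mul_vec (D : LineCalculus H) (f g : BoundedContinuousFunction ℝ ℂ) (x : H) :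
    D.apply (f * g) x = D.apply f (D.apply g x) := by
  rw [map_mul]; rfl

lemma character_apply (t u : ℝ) : character t u = Complex.exp (Complex.I * ((t * u : ℝ) : ℂ)) := rfl

lemma character_add (s t : ℝ) : character (s + t) = character s * character t := by
  ext u
  simp only [BoundedContinuousFunction.coe_mul, Pi.mul_apply, character_apply]
  rw [← Complex.exp_add]
  congr 1
  push_cast; ring

lemma character_zero : character 0 = 1 := by
  ext u
  simp [character_apply]

lemma star_character (t : ℝ) : star (character t) = character (-t) := by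
  ext u
  simp only [BoundedContinuousFunction.star_apply, character_apply]
  rw [← starRingEnd_apply, ← Complex.exp_conj]
  congr 1
  simp

lemma norm_character_apply (t u : ℝ) : ‖character t u‖ = 1 := by
  rw [character_apply, Complex.norm_exp]; simp

lemma wave_add (D : LineCalculus H) (s t : ℝ) : D.wave (s + t) = D.wave s * D.wave t := by
  simp only [wave, character_add, map_mul]

lemma wave_zero (D : LineCalculus H) : D.wave 0 = 1 := by
  simp only [wave, character_zero, map_one]

lemma wave_neg_mul (D : LineCalculus H) (t : ℝ) : D.wave (-t) * D.wave t = 1 := by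
  rw [← wave_add, neg_add_cancel, wave_zero]

lemma wave_mul_neg (D : LineCalculus H) (t : ℝ) : D.wave t * D.wave (-t) = 1 := by
  rw [← wave_add, add_neg_cancel, wave_zero]

lemma star_wave (D : LineCalculus H) (t : ℝ) : star (D.wave t) = D.wave (-t) := by
  simp only [wave, ← map_star, star_character]

lemma wave_neg_wave (D : LineCalculus H) (t : ℝ) (x : H) : D.wave (-t) (D.wave t x) = x := by
  have := congrArg (fun A : H →L[ℂ] H => A x) (wave_neg_mul D t)
  simpa using this

lemma wave_wave_neg (D : LineCalculus H) (t : ℝ) (x : H) : D.wave t (D.wave (-t) x) = x := by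
  have := congrArg (fun A : H →L[ℂ] H => A x) (wave_mul_neg D t)
  simpa using this

lemma inner_wave_left (D : LineCalculus H) (t : ℝ) (x y : H) :
    inner ℂ (D.wave t x) y = inner ℂ x (D.wave (-t) y) := by
  rw [← star_wave, ContinuousLinearMap.star_eq_adjoint, ContinuousLinearMap.adjoint_inner_right]

lemma inner_wave_wave (D : LineCalculus H) (t : ℝ) (x y : H) :
    inner ℂ (D.wave t x) (D.wave t y) = inner ℂ x y := by
  rw [inner_wave_left, wave_neg_wave]

lemma norm_wave (D : LineCalculus H) (t : ℝ) (x : H) : ‖D.wave t x‖ = ‖x‖ := by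
  have := inner_wave_wave D t x x
  rw [inner_self_eq_norm_sq_to_K, inner_self_eq_norm_sq_to_K] at this
  have h2 : (‖D.wave t x‖^2 : ℂ) = (‖x‖^2 : ℂ) := this
  have h3 : ‖D.wave t x‖^2 = ‖x‖^2 := by exact_mod_cast h2
  exact (sq_eq_sq₀ (norm_nonneg _) (norm_nonneg _)).mp h3

/-- for compactly supported χ, t ↦ character t * χ is norm continuous -/
lemma continuous_character_mul (χ : BoundedContinuousFunction ℝ ℂ) (hχ : HasCompactSupport (χ : ℝ → ℂ)) :
    Continuous (fun t : ℝ => character t * χ) := by
  obtain ⟨R, hR⟩ := hχ.isCompact.isBounded.exists_norm_le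
  have hR' : ∀ u, χ u ≠ 0 → |u| ≤ max R 0 := fun u hu => (hR u (subset_tsupport _ hu)).trans (le_max_left _ _)
  have hR0 : 0 ≤ max R 0 := le_max_right _ _
  have key : ∀ s t : ℝ, ‖character s * χ - character t * χ‖ ≤ (max R 0 * ‖χ‖) * |s - t| := by
    intro s t
    rw [BoundedContinuousFunction.norm_le (by positivity)]
    intro u
    simp only [BoundedContinuousFunction.coe_sub, BoundedContinuousFunction.coe_mul, Pi.sub_apply, Pi.mul_apply]
    by_cases hu : χ u = 0
    · rw [hu]; simp; positivity
    · rw [← sub_mul, norm_mul]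
      have h1 : ‖character s u - character t u‖ ≤ |s - t| * |u| := by
        have h2 : character s u - character t u = character t u * (Complex.exp (Complex.I * (((s - t) * u : ℝ) : ℂ)) - 1) := by
          rw [mul_sub, mul_one]
          congr 1
          rw [character_apply, character_apply, ← Complex.exp_add]
          congr 1
          push_cast; ring
        rw [h2, norm_mul, norm_character_apply, one_mul]
        have h3 := Real.norm_exp_I_mul_ofReal_sub_one_le (x := (s - t) * u)
        rw [← abs_mul]
        exact h3
      calc ‖character s u - character t u‖ * ‖χ u‖ ≤ (|s - t| * |u|) * ‖χ‖ :=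
            mul_le_mul h1 (χ.norm_coe_le_norm u) (norm_nonneg _) (by positivity)
        _ ≤ (|s - t| * max R 0) * ‖χ‖ := by
            apply mul_le_mul_of_nonneg_right _ (norm_nonneg _)
            exact mul_le_mul_of_nonneg_left (hR' u hu) (abs_nonneg _)
        _ = _ := by ring
  apply LipschitzWith.continuous (K := (max R 0 * ‖χ‖).toNNReal)
  apply LipschitzWith.of_dist_le_mul
  intro s t
  rw [dist_eq_norm, Real.dist_eq, Real.coe_toNNReal _ (by positivity)]
  exact key s t

lemma continuous_wave (D : LineCalculus H) (x : H) : Continuous (fun t : ℝ => D.wave t x) := by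
  have h1 : ∀ (χ : BoundedContinuousFunction ℝ ℂ), HasCompactSupport (χ : ℝ → ℂ) →
      Continuous (fun t : ℝ => D.wave t (D.apply χ x)) := by
    intro χ hχ
    have h2 : (fun t : ℝ => D.wave t (D.apply χ x)) = fun t => D.apply (character t * χ) x := by
      ext t
      rw [apply_mul_vec]; rfl
    rw [h2]
    have h3 : Continuous (fun f : BoundedContinuousFunction ℝ ℂ => D.apply f) := by
      apply LipschitzWith.continuous (K := 1)
      apply LipschitzWith.of_dist_le_mul
      intro f g
      rw [dist_eq_norm, dist_eq_norm, ← map_sub, NNReal.coe_one, one_mul]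
      exact apply_norm_le D _
    exact (h3.comp (continuous_character_mul χ hχ)).clm_apply continuous_const
  rw [Metric.continuous_iff]
  intro t ε hε
  obtain ⟨χ, hχ, hχx⟩ := D.window x (ε/3) (by positivity)
  obtain ⟨δ, hδ, hδ2⟩ := (Metric.continuous_iff.mp (h1 χ hχ)) t (ε/3) (by positivity)
  refine ⟨δ, hδ, fun s hs => ?_⟩
  have h4 := hδ2 s hs
  rw [dist_eq_norm] at h4 ⊢
  have e : D.wave s x - D.wave t x = (D.wave s (D.apply χ x) - D.wave t (D.apply χ x)) -
      D.wave s (D.apply χ x - x) + D.wave t (D.apply χ x - x) := by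
    rw [map_sub, map_sub]; abel
  rw [e]
  refine (norm_add_le _ _).trans_lt ?_
  have h5 := norm_sub_le (D.wave s (D.apply χ x) - D.wave t (D.apply χ x)) (D.wave s (D.apply χ x - x))
  rw [norm_wave] at h5 ⊢
  linarith

end Crest.Agent.S0112Aux
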