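import Crest.Agent.S0112A
set_option autoImplicit false
open Filter MeasureTheory
open scoped Topology BoundedContinuousFunction

namespace Crest.Agent.S0112Aux
open Crest.OpAlg Crest.OpAlg.LineCalculus

variable {H : Type*} [NormedAddCommGroup H] [InnerProductSpace ℂ H] [CompleteSpace H]

lemma continuous_wave_comp (D : LineCalculus H) (τ : ℝ → ℝ) (hτ : Continuous τ) (g : ℝ → H) (hg : Continuous g) :
    Continuous (fun t : ℝ => D.wave (τ t) (g t)) := by
  rw [Metric.continuous_iff]
  intro t ε hε
  obtain ⟨δ1, hδ1, h1⟩ := Metric.continuous_iff.mp hg t (ε/2) (by positivity)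
  obtain ⟨δ2, hδ2, h2⟩ := Metric.continuous_iff.mp ((continuous_wave D (g t)).comp hτ) t (ε/2) (by positivity)
  refine ⟨min δ1 δ2, by positivity, fun s hs => ?_⟩
  have a1 := h1 s (hs.trans_le (min_le_left _ _))
  have a2 := h2 s (hs.trans_le (min_le_right _ _))
  rw [dist_eq_norm] at a1 a2 ⊢
  have e : D.wave (τ s) (g s) - D.wave (τ t) (g t) = D.wave (τ s) (g s - g t) +
      (D.wave (τ s) (g t) - D.wave (τ t) (g t)) := by rw [map_sub]; abel
  rw [e]
  refine (norm_add_le _ _).trans_lt ?_
  rw [norm_wave]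
  simp only [Function.comp] at a2
  linarith

lemma integrable_smul_of_bounded {E : Type*} [NormedAddCommGroup E] [NormedSpace ℂ E]
    (k : ℝ → ℂ) (hk : Integrable k) (g : ℝ → E) (hg : Continuous g) (C : ℝ) (hC : ∀ w, ‖g w‖ ≤ C) :
    Integrable (fun w => k w • g w) := by
  apply Integrable.mono' (hk.norm.mul_const C) (hk.aestronglyMeasurable.smul hg.aestronglyMeasurable)
  filter_upwards with w
  rw [Pi.smul_apply', norm_smul]
  exact mul_le_mul_of_nonneg_left (hC w) (norm_nonneg _)

lemma norm_integral_smul_le {E : Type*} [NormedAddCommGroup E] [NormedSpace ℂ E]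
    (k : ℝ → ℂ) (hk : Integrable k) (g : ℝ → E) (C : ℝ) (hC : ∀ w, ‖g w‖ ≤ C) :
    ‖∫ w, k w • g w‖ ≤ (∫ w, ‖k w‖) * C := by
  refine (norm_integral_le_integral_norm _).trans ?_
  rw [← integral_mul_const]
  apply integral_mono_of_nonneg
  · filter_upwards with w; positivity
  · exact hk.norm.mul_const C
  · filter_upwards with w
    rw [norm_smul]
    exact mul_le_mul_of_nonneg_left (hC w) (norm_nonneg _)

lemma integral_wave (D : LineCalculus H) (k : ℝ → ℂ) (hk : Integrable k) (c : ℝ)
    (K : BoundedContinuousFunction ℝ ℂ) (hK : ∀ u, K u = ∫ w, k w * character (c * w) u) (y : H) :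
    ∫ w, k w • D.wave (c * w) y = D.apply K y := by
  have hcw : Continuous (fun w : ℝ => c * w) := by fun_prop
  have hint : ∀ y : H, Integrable (fun w => k w • D.wave (c * w) y) := fun y =>
    integrable_smul_of_bounded k hk _ ((continuous_wave D y).comp hcw) ‖y‖ (fun w => by
      rw [norm_wave])
  have key : ∀ χ : BoundedContinuousFunction ℝ ℂ, HasCompactSupport (χ : ℝ → ℂ) →
      ∫ w, k w • D.wave (c * w) (D.apply χ y) = D.apply K (D.apply χ y) := by
    intro χ hχ
    have hcont : Continuous (fun w : ℝ => character (c * w) * χ) := (continuous_character_mul χ hχ).comp hcw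
    have hbd : ∀ w, ‖character (c * w) * χ‖ ≤ ‖χ‖ := by
      intro w
      rw [BoundedContinuousFunction.norm_le (norm_nonneg _)]
      intro u
      rw [BoundedContinuousFunction.coe_mul, Pi.mul_apply, norm_mul, norm_character_apply, one_mul]
      exact χ.norm_coe_le_norm u
    have hi : Integrable (fun w => k w • (character (c * w) * χ)) :=
      integrable_smul_of_bounded k hk _ hcont ‖χ‖ hbd
    let Φ : BoundedContinuousFunction ℝ ℂ →L[ℂ] H :=
      LinearMap.mkContinuous { toFun := fun f => D.apply f y, map_add' := by intro f g; rw [map_add]; rfl,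
                               map_smul' := by intro r f; rw [map_smul]; rfl } ‖y‖ (by
        intro f
        simp only [LinearMap.coe_mk, AddHom.coe_mk]
        calc ‖D.apply f y‖ ≤ ‖D.apply f‖ * ‖y‖ := (D.apply f).le_opNorm y
          _ ≤ ‖f‖ * ‖y‖ := mul_le_mul_of_nonneg_right (apply_norm_le D f) (norm_nonneg _)
          _ = _ := mul_comm _ _)
    have hΦ : ∀ f, Φ f = D.apply f y := fun f => rfl
    have h1 : ∫ w, k w • (character (c * w) * χ) = K * χ := by
      ext u
      have h2 := (BoundedContinuousFunction.evalCLM ℂ u : BoundedContinuousFunction ℝ ℂ →L[ℂ] ℂ).integral_comp_comm hi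
      have h3 : (∫ w, k w • (character (c * w) * χ)) u = ∫ w, (k w • (character (c * w) * χ)) u := by
        rw [show (∫ w, k w • (character (c * w) * χ)) u = (BoundedContinuousFunction.evalCLM ℂ u) (∫ w, k w • (character (c * w) * χ)) from rfl, ← h2]
        rfl
      rw [h3]
      simp only [BoundedContinuousFunction.coe_smul, BoundedContinuousFunction.coe_mul, Pi.mul_apply, smul_eq_mul]
      rw [hK, ← integral_mul_const]
      congr 1
      ext w; ring
    have h4 := Φ.integral_comp_comm hi
    rw [h1] at h4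
    rw [hΦ, apply_mul_vec] at h4
    rw [← h4]
    congr 1
    ext w
    rw [map_smul, hΦ, apply_mul_vec]
    rfl
  -- approximation
  have hfin : ∀ ε > 0, ‖(∫ w, k w • D.wave (c * w) y) - D.apply K y‖ ≤ ((∫ w, ‖k w‖) + ‖K‖) * ε := by
    intro ε hε
    obtain ⟨χ, hχ, hχy⟩ := D.window y ε hε
    have h1 : ∫ w, k w • D.wave (c * w) y = (∫ w, k w • D.wave (c * w) (D.apply χ y)) - ∫ w, k w • D.wave (c * w) (D.apply χ y - y) := by
      rw [← integral_sub (hint _) (hint _)]
      congr 1; ext w
      rw [map_sub]; simp [smul_sub]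
    rw [h1, key χ hχ]
    have h2 : D.apply K (D.apply χ y) - (∫ w, k w • D.wave (c * w) (D.apply χ y - y)) - D.apply K y =
        D.apply K (D.apply χ y - y) - ∫ w, k w • D.wave (c * w) (D.apply χ y - y) := by
      rw [map_sub]; abel
    rw [h2]
    refine (norm_sub_le _ _).trans ?_
    have h3 : ‖D.apply K (D.apply χ y - y)‖ ≤ ‖K‖ * ε :=
      ((D.apply K).le_opNorm _).trans (mul_le_mul (apply_norm_le D K) hχy.le (norm_nonneg _) (norm_nonneg _))
    have h4 : ‖∫ w, k w • D.wave (c * w) (D.apply χ y - y)‖ ≤ (∫ w, ‖k w‖) * ε :=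
      norm_integral_smul_le k hk _ ε (fun w => by rw [norm_wave]; exact hχy.le)
    linarith
  have h0 : ‖(∫ w, k w • D.wave (c * w) y) - D.apply K y‖ ≤ 0 := by
    apply le_of_forall_pos_le_add
    intro ε hε
    have hT : 0 ≤ (∫ w, ‖k w‖) + ‖K‖ := by positivity
    have := hfin (ε / ((∫ w, ‖k w‖) + ‖K‖ + 1)) (by positivity)
    refine this.trans ?_
    rw [zero_add, mul_div_assoc', div_le_iff₀ (by positivity)]
    nlinarith
  rw [norm_le_zero_iff, sub_eq_zero] at h0
  exact h0

/-- membership through commutation with the commutant -/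
lemma mem_of_commute (S : ModularDatum H) (v : H →L[ℂ] H)
    (h : ∀ z : H →L[ℂ] H, z ∈ S.M.commutant → ∀ x, z (v x) = v (z x)) : v ∈ S.M := by
  have h1 : v ∈ S.M.commutant.commutant := by
    rw [VonNeumannAlgebra.mem_commutant_iff]
    intro z hz
    ext x
    exact h z hz x
  rwa [VonNeumannAlgebra.commutant_commutant] at h1

lemma commute_of_mem (S : ModularDatum H) (a z : H →L[ℂ] H) (ha : a ∈ S.M) (hz : z ∈ S.M.commutant) (x : H) :
    z (a x) = a (z x) := by
  rw [VonNeumannAlgebra.mem_commutant_iff] at hz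
  have := hz a ha
  have h2 := congrArg (fun A : H →L[ℂ] H => A x) this
  simpa using h2.symm

/-- smoothing an element of M by a kernel; requires the vacuum to be invariant. -/
lemma smoothing (S : ModularDatum H) (hvac : ∀ t, S.D.wave t S.vac = S.vac)
    (k : ℝ → ℂ) (hk : Integrable k) (c : ℝ)
    (K : BoundedContinuousFunction ℝ ℂ) (hK : ∀ u, K u = ∫ w, k w * character (c * w) u)
    (B : H →L[ℂ] H) (hB : B ∈ S.M) :
    ∃ v ∈ S.M, ‖v‖ ≤ (∫ w, ‖k w‖) * ‖B‖ ∧ v S.vac = S.D.apply K (B S.vac) := by
  have hcw : Continuous (fun w : ℝ => c * w) := by fun_prop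
  have hcont : ∀ x : H, Continuous (fun w => S.D.wave (c * w) (B (S.D.wave (-(c * w)) x))) := by
    intro x
    apply continuous_wave_comp S.D _ hcw
    exact B.continuous.comp ((continuous_wave S.D x).comp (by fun_prop))
  have hbd : ∀ (x : H) w, ‖S.D.wave (c * w) (B (S.D.wave (-(c * w)) x))‖ ≤ ‖B‖ * ‖x‖ := by
    intro x w
    rw [norm_wave]
    refine (B.le_opNorm _).trans ?_
    rw [norm_wave]
  have hint : ∀ x : H, Integrable (fun w => k w • S.D.wave (c * w) (B (S.D.wave (-(c * w)) x))) := fun x =>
    integrable_smul_of_bounded k hk _ (hcont x) _ (hbd x)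
  let v : H →L[ℂ] H := LinearMap.mkContinuous
    { toFun := fun x => ∫ w, k w • S.D.wave (c * w) (B (S.D.wave (-(c * w)) x)),
      map_add' := by
        intro x y
        rw [← integral_add (hint x) (hint y)]
        congr 1; ext w
        simp only [map_add, smul_add]
      map_smul' := by
        intro r x
        simp only [RingHom.id_apply]
        rw [← integral_smul]
        congr 1; ext w
        simp only [map_smul]
        rw [smul_comm] } ((∫ w, ‖k w‖) * ‖B‖) (by
      intro x
      simp only [LinearMap.coe_mk, AddHom.coe_mk]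
      refine (norm_integral_smul_le k hk _ _ (hbd x)).trans (le_of_eq (by ring)))
  have hv : ∀ x, v x = ∫ w, k w • S.D.wave (c * w) (B (S.D.wave (-(c * w)) x)) := fun x => rfl
  refine ⟨v, ?_, LinearMap.mkContinuous_norm_le _ (by positivity) _, ?_⟩
  · apply mem_of_commute
    intro z hz x
    rw [hv, hv, ← z.integral_comp_comm (hint x)]
    congr 1; ext w
    rw [map_smul]
    congr 1
    have hmem := S.flow_mem (c * w) B hB
    have := commute_of_mem S _ z hmem hz x
    simpa using this
  · rw [hv, ← integral_wave S.D k hk c K hK]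
    congr 1; ext w
    rw [hvac]

end Crest.Agent.S0112Aux
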