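import Crest.Agent.S0112B
set_option autoImplicit false
open Filter MeasureTheory FourierTransform
open scoped Topology BoundedContinuousFunction SchwartzMap ContDiff

namespace Crest.Agent.S0112Aux
open Crest.OpAlg Crest.OpAlg.LineCalculus

lemma exists_profile : ∃ (φ : 𝓢(ℝ, ℂ)), (∀ u : ℝ, |u| ≤ 1 → φ u = 1) ∧ (∀ u : ℝ, 2 ≤ |u| → φ u = 0) := by
  let b : ContDiffBump (0:ℝ) := ⟨1, 2, by norm_num, by norm_num⟩
  have hc : HasCompactSupport (fun u : ℝ => ((b u : ℝ) : ℂ)) := by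
    apply b.hasCompactSupport.comp_left (g := fun x : ℝ => (x : ℂ)) (by simp)
  have hs : ContDiff ℝ ∞ (fun u : ℝ => ((b u : ℝ) : ℂ)) := by
    exact Complex.ofRealCLM.contDiff.comp b.contDiff
  refine ⟨hc.toSchwartzMap hs, ?_, ?_⟩
  · intro u hu
    show ((b u : ℝ) : ℂ) = 1
    rw [b.one_of_mem_closedBall (by simpa using hu)]; simp
  · intro u hu
    show ((b u : ℝ) : ℂ) = 0
    rw [b.zero_of_le_dist (by simpa using hu)]; simp

lemma exists_kernel : ∃ C0 : ℝ, 0 < C0 ∧ ∀ r : ℝ, 0 < r → ∀ s : ℝ, ∃ (k : ℝ → ℂ) (c : ℝ) (K : BoundedContinuousFunction ℝ ℂ),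
    Integrable k ∧ (∫ w, ‖k w‖) ≤ C0 ∧ (∀ u, K u = ∫ w, k w * character (c * w) u) ∧
    (∀ u, |u - s| ≤ r → K u = 1) ∧ (∀ u, 2 * r ≤ |u - s| → K u = 0) ∧ ‖K‖ ≤ C0 := by
  obtain ⟨φ, hφ1, hφ2⟩ := exists_profile
  set g : 𝓢(ℝ, ℂ) := 𝓕 φ with hg
  have hinv : ∀ x : ℝ, φ x = ∫ w, Complex.exp (((2 * Real.pi * (w * x) : ℝ) : ℂ) * Complex.I) * g w := by
    intro x
    have h1 : 𝓕⁻ g = φ := FourierTransform.fourierInv_fourier_eq φ
    have h2 : φ x = (𝓕⁻ (g : ℝ → ℂ)) x := by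
      rw [← SchwartzMap.fourierInv_coe, h1]
    rw [h2, Real.fourierInv_eq']
    congr 1
    ext w
    simp [mul_comm x w]
  have hgi : Integrable (fun w => g w) := g.integrable
  refine ⟨(∫ w, ‖g w‖) + 1, by positivity, ?_⟩
  intro r hr s
  refine ⟨fun w => g w * Complex.exp (((-(2 * Real.pi * w * s / r) : ℝ) : ℂ) * Complex.I), 2 * Real.pi / r, ?_⟩
  have hnorm : ∀ w : ℝ, ‖g w * Complex.exp (((-(2 * Real.pi * w * s / r) : ℝ) : ℂ) * Complex.I)‖ = ‖g w‖ := by
    intro w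
    rw [norm_mul, Complex.norm_exp_ofReal_mul_I, mul_one]
  have hki : Integrable (fun w => g w * Complex.exp (((-(2 * Real.pi * w * s / r) : ℝ) : ℂ) * Complex.I)) := by
    apply Integrable.mono' hgi.norm
    · apply Continuous.aestronglyMeasurable
      fun_prop
    · filter_upwards with w
      rw [hnorm]
  have hKval : ∀ u : ℝ, φ ((u - s) / r) = ∫ w, (g w * Complex.exp (((-(2 * Real.pi * w * s / r) : ℝ) : ℂ) * Complex.I)) *
      character (2 * Real.pi / r * w) u := by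
    intro u
    rw [hinv]
    congr 1
    ext w
    rw [character_apply, mul_assoc (g w), ← Complex.exp_add, mul_comm _ (g w)]
    congr 2
    push_cast
    field_simp
    ring
  have hKb : ∀ u : ℝ, ‖φ ((u - s) / r)‖ ≤ (∫ w, ‖g w‖) + 1 := by
    intro u
    rw [hKval]
    refine (norm_integral_le_integral_norm _).trans ?_
    have : ∀ w, ‖(g w * Complex.exp (((-(2 * Real.pi * w * s / r) : ℝ) : ℂ) * Complex.I)) *
      character (2 * Real.pi / r * w) u‖ = ‖g w‖ := by
      intro w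
      rw [norm_mul, norm_character_apply, mul_one, hnorm]
    simp only [this]
    linarith
  refine ⟨BoundedContinuousFunction.ofNormedAddCommGroup (fun u => φ ((u - s) / r))
    (φ.continuous.comp (by fun_prop)) ((∫ w, ‖g w‖) + 1) hKb, hki, ?_, ?_, ?_, ?_, ?_⟩
  · simp only [hnorm]; linarith
  · intro u
    rw [BoundedContinuousFunction.coe_ofNormedAddCommGroup]
    exact hKval u
  · intro u hu
    rw [BoundedContinuousFunction.coe_ofNormedAddCommGroup]
    apply hφ1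
    rw [abs_div, abs_of_pos hr, div_le_one hr]; exact hu
  · intro u hu
    rw [BoundedContinuousFunction.coe_ofNormedAddCommGroup]
    apply hφ2
    rw [abs_div, abs_of_pos hr, le_div_iff₀ hr]; exact hu
  · exact BoundedContinuousFunction.norm_ofNormedAddCommGroup_le _ (by positivity) hKb

end Crest.Agent.S0112Aux
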