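import Crest.Agent.S0112C
set_option autoImplicit false
open Filter MeasureTheory
open scoped Topology BoundedContinuousFunction

namespace Crest.Agent.S0112Aux
open Crest.OpAlg Crest.OpAlg.LineCalculus

variable {H : Type*} [NormedAddCommGroup H] [InnerProductSpace ℂ H] [CompleteSpace H]

lemma inner_apply_left (D : LineCalculus H) (f : BoundedContinuousFunction ℝ ℂ) (x y : H) :
    inner ℂ (D.apply f x) y = inner ℂ x (D.apply (star f) y) := by
  rw [map_star, ContinuousLinearMap.star_eq_adjoint, ContinuousLinearMap.adjoint_inner_right]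

/-- monotonicity of the calculus on vectors -/
lemma apply_mono (D : LineCalculus H) (F G : BoundedContinuousFunction ℝ ℂ) (h : ∀ u, ‖F u‖ ≤ ‖G u‖) (x : H) :
    ‖D.apply F x‖ ≤ ‖D.apply G x‖ := by
  -- r = sqrt (|G|^2 - |F|^2)
  have hnn : ∀ u, 0 ≤ ‖G u‖^2 - ‖F u‖^2 := fun u => by
    have := pow_le_pow_left₀ (norm_nonneg _) (h u) 2
    linarith
  let r : BoundedContinuousFunction ℝ ℂ := BoundedContinuousFunction.ofNormedAddCommGroup
    (fun u => ((Real.sqrt (‖G u‖^2 - ‖F u‖^2) : ℝ) : ℂ)) (by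
      have h1 : Continuous fun u => ‖G u‖ := G.continuous.norm
      have h2 : Continuous fun u => ‖F u‖ := F.continuous.norm
      exact Complex.continuous_ofReal.comp (((h1.pow 2).sub (h2.pow 2)).sqrt)) ‖G‖ (by
      intro u
      rw [Complex.norm_real, Real.norm_of_nonneg (Real.sqrt_nonneg _)]
      rw [← Real.sqrt_sq (norm_nonneg G)]
      apply Real.sqrt_le_sqrt
      have := pow_le_pow_left₀ (norm_nonneg _) (G.norm_coe_le_norm u) 2
      nlinarith [sq_nonneg ‖F u‖])
  have hr : ∀ u, r u = ((Real.sqrt (‖G u‖^2 - ‖F u‖^2) : ℝ) : ℂ) := fun u => rfl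
  have hid : star G * G = star F * F + star r * r := by
    ext u
    simp only [BoundedContinuousFunction.coe_mul, BoundedContinuousFunction.coe_add, Pi.mul_apply, Pi.add_apply,
      BoundedContinuousFunction.star_apply]
    rw [hr, ← starRingEnd_apply, ← starRingEnd_apply, ← starRingEnd_apply, Complex.conj_mul', Complex.conj_mul',
      Complex.conj_ofReal, ← Complex.ofReal_mul, Real.mul_self_sqrt (hnn u)]
    push_cast; ring
  have hkey : ∀ K : BoundedContinuousFunction ℝ ℂ, inner ℂ x (D.apply (star K * K) x) = ((‖D.apply K x‖^2 : ℝ) : ℂ) := by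
    intro K
    rw [apply_mul_vec, ← inner_apply_left, inner_self_eq_norm_sq_to_K]
    simp
  have h1 := hkey G
  rw [hid, map_add, ContinuousLinearMap.add_apply, inner_add_right, hkey F, hkey r] at h1
  have h2 : ‖D.apply F x‖^2 + ‖D.apply r x‖^2 = ‖D.apply G x‖^2 := by exact_mod_cast h1
  have h3 : ‖D.apply F x‖^2 ≤ ‖D.apply G x‖^2 := by nlinarith [sq_nonneg ‖D.apply r x‖]
  exact (sq_le_sq₀ (norm_nonneg _) (norm_nonneg _)).mp h3

/-- cutoffs -/
noncomputable def cut (n : ℕ) : BoundedContinuousFunction ℝ ℂ :=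
  BoundedContinuousFunction.ofNormedAddCommGroup
    (fun u : ℝ => ((max 0 (min 1 ((n:ℝ) + 1 - |u|)) : ℝ) : ℂ)) (by fun_prop) 1 (by
      intro u
      rw [Complex.norm_real, Real.norm_of_nonneg (le_max_left _ _)]
      exact max_le zero_le_one (min_le_left _ _))

lemma cut_apply (n : ℕ) (u : ℝ) : cut n u = ((max 0 (min 1 ((n:ℝ) + 1 - |u|)) : ℝ) : ℂ) := rfl

lemma cut_norm_le (n : ℕ) (u : ℝ) : ‖cut n u‖ ≤ 1 := by
  rw [cut_apply, Complex.norm_real, Real.norm_of_nonneg (le_max_left _ _)]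
  exact max_le zero_le_one (min_le_left _ _)

lemma cut_one (n : ℕ) (u : ℝ) (hu : |u| ≤ n) : cut n u = 1 := by
  rw [cut_apply, min_eq_left (by linarith), max_eq_right zero_le_one]; simp

lemma cut_zero (n : ℕ) (u : ℝ) (hu : (n:ℝ) + 1 ≤ |u|) : cut n u = 0 := by
  rw [cut_apply]
  have : min 1 ((n:ℝ) + 1 - |u|) ≤ 0 := (min_le_right _ _).trans (by linarith)
  rw [max_eq_left this]; simp

lemma cut_compact (n : ℕ) : HasCompactSupport (cut n : ℝ → ℂ) := by
  apply HasCompactSupport.of_support_subset_isCompact (isCompact_Icc (a := -((n:ℝ)+1)) (b := (n:ℝ)+1))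
  intro u hu
  rw [Function.mem_support] at hu
  by_contra hcon
  apply hu
  apply cut_zero
  rw [Set.mem_Icc, ← abs_le] at hcon
  linarith

lemma one_sub_cut_norm_le (n : ℕ) (u : ℝ) : ‖(1 - cut n : BoundedContinuousFunction ℝ ℂ) u‖ ≤ 1 := by
  rw [BoundedContinuousFunction.coe_sub, Pi.sub_apply, BoundedContinuousFunction.coe_one, Pi.one_apply, cut_apply,
    ← Complex.ofReal_one, ← Complex.ofReal_sub, Complex.norm_real, Real.norm_eq_abs, abs_le]
  have h1 := le_max_left 0 (min 1 ((n:ℝ) + 1 - |u|))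
  have h2 : max 0 (min 1 ((n:ℝ) + 1 - |u|)) ≤ 1 := max_le zero_le_one (min_le_left _ _)
  constructor <;> linarith

lemma apply_norm_le_of_le_one (D : LineCalculus H) (F : BoundedContinuousFunction ℝ ℂ) (h : ∀ u, ‖F u‖ ≤ 1) (x : H) :
    ‖D.apply F x‖ ≤ ‖x‖ := by
  have := apply_mono D F 1 (fun u => by simpa using h u) x
  simpa using this

lemma tendsto_cut (D : LineCalculus H) (x : H) : Tendsto (fun n => D.apply (cut n) x) atTop (𝓝 x) := by
  rw [Metric.tendsto_atTop]
  intro ε hε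
  obtain ⟨f, hf, hfx⟩ := D.window x ε hε
  obtain ⟨R, hR⟩ := hf.isCompact.isBounded.exists_norm_le
  obtain ⟨N, hN⟩ := exists_nat_ge R
  refine ⟨N, fun n hn => ?_⟩
  rw [dist_eq_norm]
  have hn' : (N:ℝ) ≤ n := by exact_mod_cast hn
  have h1 : cut n * f = f := by
    ext u
    rw [BoundedContinuousFunction.coe_mul, Pi.mul_apply]
    by_cases hu : f u = 0
    · rw [hu, mul_zero]
    · rw [cut_one, one_mul]
      exact (hR u (subset_tsupport _ hu)).trans (hN.trans hn')
  have h2 : D.apply (cut n) x - x = D.apply (1 - cut n) (D.apply f x - x) := by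
    rw [map_sub (D.apply (1 - cut n)), map_sub D.apply, map_one]
    rw [ContinuousLinearMap.sub_apply, ContinuousLinearMap.sub_apply, ← apply_mul_vec, h1]
    simp
  rw [h2]
  exact (apply_norm_le_of_le_one D _ (one_sub_cut_norm_le n) _).trans_lt hfx

/-- antiunitarity of J -/
lemma inner_J_J (J : H ≃ₗᵢ⋆[ℂ] H) (x y : H) : inner ℂ (J x) (J y) = inner ℂ y x := by
  have hJI : ∀ z, J (Complex.I • z) = -(Complex.I • J z) := by
    intro z
    rw [map_smulₛₗ]; simp
  rw [inner_eq_sum_norm_sq_div_four, inner_eq_sum_norm_sq_div_four (𝕜 := ℂ) y x]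
  have e1 : ‖J x + J y‖ = ‖y + x‖ := by rw [← map_add, J.norm_map, add_comm]
  have e2 : ‖J x - J y‖ = ‖y - x‖ := by rw [← map_sub, J.norm_map, norm_sub_rev]
  have e3 : ‖J x - (RCLike.I : ℂ) • J y‖ = ‖y - (RCLike.I : ℂ) • x‖ := by
    have : J x - (RCLike.I : ℂ) • J y = J (x + Complex.I • y) := by
      rw [map_add, hJI]; simp [sub_eq_add_neg]
    rw [this, J.norm_map]
    have h2 : x + Complex.I • y = Complex.I • (y - Complex.I • x) := by
      rw [smul_sub, smul_smul, Complex.I_mul_I]; simp; abel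
    rw [h2, norm_smul, Complex.norm_I, one_mul]; rfl
  have e4 : ‖J x + (RCLike.I : ℂ) • J y‖ = ‖y + (RCLike.I : ℂ) • x‖ := by
    have : J x + (RCLike.I : ℂ) • J y = J (x - Complex.I • y) := by
      rw [map_sub, hJI]; simp
    rw [this, J.norm_map]
    have h2 : x - Complex.I • y = (-Complex.I) • (y + Complex.I • x) := by
      rw [smul_add, smul_smul, neg_mul, Complex.I_mul_I]; simp; abel
    rw [h2, norm_smul, norm_neg, Complex.norm_I, one_mul]; rfl
  rw [e1, e2, e3, e4]

lemma inner_J_left (S : ModularDatum H) (x y : H) : inner ℂ (S.J x) y = inner ℂ (S.J y) x := by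
  conv_lhs => rw [← S.J_J y]
  rw [inner_J_J]

end Crest.Agent.S0112Aux
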