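import Crest.Agent.S0112D
set_option autoImplicit false
open Filter MeasureTheory
open scoped Topology BoundedContinuousFunction

namespace Crest.Agent.S0112Aux
open Crest.OpAlg Crest.OpAlg.LineCalculus

variable {H : Type*} [NormedAddCommGroup H] [InnerProductSpace ℂ H] [CompleteSpace H]

/-- multiply a compactly supported function by a continuous function -/
noncomputable def mulC (f : BoundedContinuousFunction ℝ ℂ) (hf : HasCompactSupport (f : ℝ → ℂ))
    (g : ℝ → ℂ) (hg : Continuous g) : BoundedContinuousFunction ℝ ℂ :=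
  BoundedContinuousFunction.ofNormedAddCommGroup (fun u => f u * g u) (f.continuous.mul hg)
    ((f.continuous.mul hg).bounded_above_of_compact_support (hf.mul_right)).choose
    ((f.continuous.mul hg).bounded_above_of_compact_support (hf.mul_right)).choose_spec

lemma mulC_apply (f : BoundedContinuousFunction ℝ ℂ) (hf : HasCompactSupport (f : ℝ → ℂ))
    (g : ℝ → ℂ) (hg : Continuous g) (u : ℝ) : mulC f hf g hg u = f u * g u := rfl

lemma mulC_compact (f : BoundedContinuousFunction ℝ ℂ) (hf : HasCompactSupport (f : ℝ → ℂ))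
    (g : ℝ → ℂ) (hg : Continuous g) : HasCompactSupport (mulC f hf g hg : ℝ → ℂ) := hf.mul_right

lemma halfExp_of_calculus (D : LineCalculus H) (f g : BoundedContinuousFunction ℝ ℂ)
    (hfg : ∀ u : ℝ, g u = f u * ((Real.exp (u / 2) : ℝ) : ℂ)) (x : H) :
    D.HalfExp (D.apply f x) (D.apply g x) := by
  intro F G hFG
  rw [← apply_mul_vec, ← apply_mul_vec]
  congr 2
  ext u
  simp only [BoundedContinuousFunction.coe_mul, Pi.mul_apply]
  rw [hfg, hFG]; ring

lemma tomita_pair (S : ModularDatum H) (x : H × H) (hx : S.D.HalfExp x.1 (S.J x.2)) :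
    inner ℂ x.2 S.vac = inner ℂ S.vac x.1 := by
  have h1 : x ∈ closure (Set.range fun a : S.M => ((a : H →L[ℂ] H) S.vac, star (a : H →L[ℂ] H) S.vac)) := by
    rw [S.tomita]; exact hx
  have hcl : IsClosed {p : H × H | inner ℂ p.2 S.vac = inner ℂ S.vac p.1} :=
    isClosed_eq (by fun_prop) (by fun_prop)
  have h2 : (Set.range fun a : S.M => ((a : H →L[ℂ] H) S.vac, star (a : H →L[ℂ] H) S.vac)) ⊆
      {p : H × H | inner ℂ p.2 S.vac = inner ℂ S.vac p.1} := by
    rintro p ⟨a, rfl⟩
    simp only [Set.mem_ofPred_eq]
    rw [ContinuousLinearMap.star_eq_adjoint, ContinuousLinearMap.adjoint_inner_left]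
  exact (hcl.closure_subset_iff.mpr h2) h1

lemma halfExp_of_mem (S : ModularDatum H) (a : H →L[ℂ] H) (ha : a ∈ S.M) :
    S.D.HalfExp (a S.vac) (S.J (star a S.vac)) := by
  have h1 : (a S.vac, star a S.vac) ∈ closure (Set.range fun a : S.M => ((a : H →L[ℂ] H) S.vac, star (a : H →L[ℂ] H) S.vac)) :=
    subset_closure ⟨⟨a, ha⟩, rfl⟩
  rw [S.tomita] at h1
  exact h1

lemma vac_fixed (S : ModularDatum H) (t : ℝ) : S.D.wave t S.vac = S.vac := by
  -- f(D) ξ = (f e^u)(D) ξ for compactly supported f
  have hexp : Continuous (fun u : ℝ => ((Real.exp (u/2) : ℝ) : ℂ)) := by fun_prop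
  have h3 : ∀ (f : BoundedContinuousFunction ℝ ℂ) (hf : HasCompactSupport (f : ℝ → ℂ)),
      S.D.apply (mulC f hf _ hexp) (S.J S.vac) = S.D.apply f S.vac := by
    intro f hf
    apply ext_inner_right ℂ
    intro x
    have hsf : HasCompactSupport (star f : ℝ → ℂ) := by
      have : (star f : ℝ → ℂ) = fun u => star (f u) := rfl
      rw [this]
      exact hf.comp_left (g := fun z : ℂ => star z) (star_zero ℂ)
    have hst : (star (mulC f hf _ hexp) : BoundedContinuousFunction ℝ ℂ) = mulC (star f) hsf _ hexp := by
      ext u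
      rw [BoundedContinuousFunction.star_apply, mulC_apply, mulC_apply, BoundedContinuousFunction.star_apply,
        star_mul', ← starRingEnd_apply (((Real.exp (u/2) : ℝ) : ℂ)), Complex.conj_ofReal]
    have h4 := halfExp_of_calculus S.D (star f) (mulC (star f) hsf _ hexp) (fun u => rfl) x
    have h5 := tomita_pair S (S.D.apply (star f) x, S.J (S.D.apply (mulC (star f) hsf _ hexp) x)) (by
      simp only [S.J_J]; exact h4)
    simp only at h5
    rw [inner_J_left] at h5
    rw [inner_apply_left, hst, h5, inner_apply_left]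
  have h4 : ∀ (f : BoundedContinuousFunction ℝ ℂ) (hf : HasCompactSupport (f : ℝ → ℂ)),
      S.D.apply f (S.J S.vac) = S.D.apply (mulC f hf _ hexp) S.vac := by
    intro f hf
    have h1 := halfExp_of_mem S 1 (one_mem S.M)
    have h2 := h1 f (mulC f hf _ hexp) (fun u => rfl)
    simpa using h2
  have h5 : ∀ (f : BoundedContinuousFunction ℝ ℂ) (hf : HasCompactSupport (f : ℝ → ℂ)),
      S.D.apply f S.vac = S.D.apply (mulC (mulC f hf _ hexp) (mulC_compact f hf _ hexp) _ hexp) S.vac := by
    intro f hf
    rw [← h3 f hf, h4 _ (mulC_compact f hf _ hexp)]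
  -- (char t - 1) cut_n annihilates the vacuum
  have h6 : ∀ n : ℕ, S.D.apply ((character t - 1) * cut n) S.vac = 0 := by
    intro n
    have h7 : S.D.apply (cut n - mulC (mulC (cut n) (cut_compact n) _ hexp) (mulC_compact _ _ _ hexp) _ hexp) S.vac = 0 := by
      rw [map_sub, sub_apply, ← h5 (cut n) (cut_compact n), sub_self]
    have hR : 0 ≤ |t| * Real.exp (n + 1) := by positivity
    have h8 := apply_mono S.D ((character t - 1) * cut n)
      (((|t| * Real.exp (n+1) : ℝ) : ℂ) • (cut n - mulC (mulC (cut n) (cut_compact n) _ hexp) (mulC_compact _ _ _ hexp) _ hexp)) (by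
        intro u
        rw [BoundedContinuousFunction.coe_mul, BoundedContinuousFunction.coe_smul, BoundedContinuousFunction.coe_sub,
          BoundedContinuousFunction.coe_sub]
        simp only [Pi.mul_apply, Pi.sub_apply, BoundedContinuousFunction.coe_one, Pi.one_apply, smul_eq_mul]
        rw [mulC_apply, mulC_apply]
        by_cases hu : (n:ℝ) + 1 ≤ |u|
        · rw [cut_zero n u hu]; simp
        · push Not at hu
          have e1 : cut n u - cut n u * ((Real.exp (u/2) : ℝ) : ℂ) * ((Real.exp (u/2) : ℝ) : ℂ) =
              cut n u * (((1 - Real.exp u : ℝ)) : ℂ) := by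
            have : Real.exp u = Real.exp (u/2) * Real.exp (u/2) := by rw [← Real.exp_add]; congr 1; ring
            rw [this]; push_cast; ring
          rw [e1, norm_mul, norm_mul, norm_mul, Complex.norm_real, Complex.norm_real, Real.norm_of_nonneg hR, Real.norm_eq_abs]
          have h9 : ‖character t u - 1‖ ≤ |t| * |u| := by
            rw [character_apply, ← abs_mul]
            exact Real.norm_exp_I_mul_ofReal_sub_one_le
          have h10 : |u| ≤ Real.exp (n+1) * |1 - Real.exp u| := by
            rcases le_total 0 u with h0 | h0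
            · have a1 := Real.add_one_le_exp u
              rw [abs_of_nonneg h0, abs_of_nonpos (by linarith)]
              have a2 : (1:ℝ) ≤ Real.exp (n+1) := Real.one_le_exp (by positivity)
              nlinarith
            · have a1 := Real.add_one_le_exp (-u)
              have a3 : Real.exp u ≤ 1 := Real.exp_le_one_iff.mpr h0
              rw [abs_of_nonpos h0, abs_of_nonneg (by linarith)]
              have a4 : Real.exp u * Real.exp (-u) = 1 := by rw [← Real.exp_add]; simp
              have a5 : 0 < Real.exp u := Real.exp_pos u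
              have a6 : Real.exp u * (-u) ≤ 1 - Real.exp u := by nlinarith
              have a7 : Real.exp (-u) ≤ Real.exp (n+1) := by
                apply Real.exp_le_exp.mpr
                rw [abs_of_nonpos h0] at hu
                exact hu.le
              have a8 : -u = Real.exp (-u) * (Real.exp u * (-u)) := by
                rw [← mul_assoc, mul_comm (Real.exp (-u)), a4, one_mul]
              rw [a8]
              exact mul_le_mul a7 a6 (mul_nonneg a5.le (by linarith)) (Real.exp_pos _).le
          calc ‖character t u - 1‖ * ‖cut n u‖ ≤ (|t| * |u|) * ‖cut n u‖ :=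
                mul_le_mul_of_nonneg_right h9 (norm_nonneg _)
            _ ≤ (|t| * (Real.exp (n+1) * |1 - Real.exp u|)) * ‖cut n u‖ := by
                apply mul_le_mul_of_nonneg_right _ (norm_nonneg _)
                exact mul_le_mul_of_nonneg_left h10 (abs_nonneg _)
            _ = _ := by ring) S.vac
    rw [map_smul, smul_apply, h7, smul_zero, norm_zero] at h8
    exact norm_le_zero_iff.mp h8
  have h7 : ∀ n : ℕ, S.D.wave t (S.D.apply (cut n) S.vac) = S.D.apply (cut n) S.vac := by
    intro n
    have := h6 n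
    rw [apply_mul_vec, map_sub, map_one, sub_apply, sub_eq_zero] at this
    simpa [wave] using this
  have h8 := tendsto_cut S.D S.vac
  have h9 : Tendsto (fun n => S.D.wave t (S.D.apply (cut n) S.vac)) atTop (𝓝 (S.D.wave t S.vac)) :=
    ((S.D.wave t).continuous.tendsto _).comp h8
  simp only [h7] at h9
  exact tendsto_nhds_unique h9 h8

/-- norm of the adjoint vector -/
lemma adjoint_norm (S : ModularDatum H) (a : H →L[ℂ] H) (ha : a ∈ S.M) (α β : ℝ)
    (hsupp : S.D.SupportedIn (Set.Icc α β) (a S.vac)) :
    ‖star a S.vac‖ ≤ Real.exp (β / 2) * ‖a S.vac‖ := by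
  have hexp : Continuous (fun u : ℝ => ((Real.exp (u/2) : ℝ) : ℂ)) := by fun_prop
  have hmin : Continuous (fun u : ℝ => ((min (Real.exp (u/2)) (Real.exp (β/2)) : ℝ) : ℂ)) := by fun_prop
  have h1 : ∀ n : ℕ, ‖S.D.apply (cut n) (S.J (star a S.vac))‖ ≤ Real.exp (β / 2) * ‖a S.vac‖ := by
    intro n
    have h2 := halfExp_of_mem S a ha (cut n) (mulC (cut n) (cut_compact n) _ hexp) (fun u => rfl)
    rw [h2]
    have h3 : S.D.apply (mulC (cut n) (cut_compact n) _ hexp) (a S.vac) =
        S.D.apply (mulC (cut n) (cut_compact n) _ hmin) (a S.vac) := by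
      have := hsupp (mulC (cut n) (cut_compact n) _ hexp - mulC (cut n) (cut_compact n) _ hmin) (by
        intro u hu
        rw [BoundedContinuousFunction.coe_sub, Pi.sub_apply, mulC_apply, mulC_apply, min_eq_left]
        · ring
        · exact Real.exp_le_exp.mpr (by linarith [hu.2]))
      rw [map_sub, sub_apply, sub_eq_zero] at this
      exact this
    rw [h3]
    have h4 := apply_mono S.D (mulC (cut n) (cut_compact n) _ hmin) (((Real.exp (β/2) : ℝ) : ℂ) • (1 : BoundedContinuousFunction ℝ ℂ)) (by
      intro u
      rw [mulC_apply, norm_mul, BoundedContinuousFunction.coe_smul]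
      simp only [smul_eq_mul]
      rw [norm_mul, Complex.norm_real, Complex.norm_real]
      have h5 : 0 ≤ min (Real.exp (u/2)) (Real.exp (β/2)) := le_min (Real.exp_pos _).le (Real.exp_pos _).le
      rw [Real.norm_of_nonneg h5, Real.norm_of_nonneg (Real.exp_pos _).le]
      simp only [BoundedContinuousFunction.coe_one, Pi.one_apply, norm_one, mul_one]
      calc ‖cut n u‖ * min (Real.exp (u/2)) (Real.exp (β/2)) ≤ 1 * Real.exp (β/2) :=
            mul_le_mul (cut_norm_le n u) (min_le_right _ _) h5 zero_le_one
        _ = _ := one_mul _) (a S.vac)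
    rw [map_smul, map_one, smul_apply, norm_smul, Complex.norm_real, Real.norm_of_nonneg (Real.exp_pos _).le] at h4
    simpa using h4
  have h2 := (tendsto_cut S.D (S.J (star a S.vac))).norm
  rw [S.J.norm_map] at h2
  exact le_of_tendsto' h2 h1

end Crest.Agent.S0112Aux
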