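import Crest.Agent.S0112E
set_option autoImplicit false
open Filter MeasureTheory
open scoped Topology BoundedContinuousFunction

namespace Crest.Agent.S0112Aux
open Crest.OpAlg Crest.OpAlg.LineCalculus

variable {H : Type*} [NormedAddCommGroup H] [InnerProductSpace ℂ H] [CompleteSpace H]

/-- window average of a vector valued function -/
noncomputable def avg (g : ℝ → H) (k : ℕ) : H := (((2 * (k:ℝ))⁻¹ : ℝ) : ℂ) • ∫ t in Set.Icc (-(k:ℝ)) k, g t

lemma real_Icc (k : ℕ) : volume.real (Set.Icc (-(k:ℝ)) k) = 2 * k := by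
  rw [Measure.real, Real.volume_Icc, ENNReal.toReal_ofReal (by linarith [Nat.cast_nonneg (α := ℝ) k])]; ring

lemma avg_norm_le (g : ℝ → H) (C : ℝ) (hC : 0 ≤ C) (hg : ∀ t, ‖g t‖ ≤ C) (k : ℕ) : ‖avg g k‖ ≤ C := by
  rw [avg, norm_smul, Complex.norm_real, Real.norm_of_nonneg (by positivity)]
  have h1 := norm_setIntegral_le_of_norm_le_const (s := Set.Icc (-(k:ℝ)) k) (μ := volume) (f := g) (C := C)
    isCompact_Icc.measure_lt_top (fun t _ => hg t)
  rw [real_Icc] at h1
  rcases Nat.eq_zero_or_pos k with h | h
  · subst h; simp; exact hC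
  · have hk : (0:ℝ) < 2 * k := by positivity
    calc (2 * (k:ℝ))⁻¹ * ‖∫ t in Set.Icc (-(k:ℝ)) k, g t‖ ≤ (2 * (k:ℝ))⁻¹ * (C * (2 * k)) :=
          mul_le_mul_of_nonneg_left h1 (by positivity)
      _ = C := by field_simp

lemma avg_add (g₁ g₂ : ℝ → H) (h₁ : Continuous g₁) (h₂ : Continuous g₂) (k : ℕ) :
    avg (fun t => g₁ t + g₂ t) k = avg g₁ k + avg g₂ k := by
  rw [avg, avg, avg, integral_add h₁.continuousOn.integrableOn_Icc h₂.continuousOn.integrableOn_Icc, smul_add]

lemma avg_sub (g₁ g₂ : ℝ → H) (h₁ : Continuous g₁) (h₂ : Continuous g₂) (k : ℕ) :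
    avg (fun t => g₁ t - g₂ t) k = avg g₁ k - avg g₂ k := by
  rw [avg, avg, avg, integral_sub h₁.continuousOn.integrableOn_Icc h₂.continuousOn.integrableOn_Icc, smul_sub]

lemma avg_smul (c : ℂ) (g : ℝ → H) (k : ℕ) : avg (fun t => c • g t) k = c • avg g k := by
  rw [avg, avg, integral_smul, smul_comm]

lemma avg_clm (L : H →L[ℂ] H) (g : ℝ → H) (hg : Continuous g) (k : ℕ) : avg (fun t => L (g t)) k = L (avg g k) := by
  rw [avg, avg, L.integral_comp_comm hg.continuousOn.integrableOn_Icc, map_smul]

lemma avg_const (x : H) (k : ℕ) (hk : 0 < k) : avg (fun _ => x) k = x := by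
  rw [avg, setIntegral_const, real_Icc, ← Complex.coe_smul, smul_smul, ← Complex.ofReal_mul]
  have : (0:ℝ) < 2 * k := by positivity
  rw [inv_mul_cancel₀ this.ne']; simp

lemma avg_neg (g : ℝ → H) (k : ℕ) : avg (fun t => g (-t)) k = avg g k := by
  rw [avg, avg]
  congr 1
  rw [integral_Icc_eq_integral_Ioc, integral_Icc_eq_integral_Ioc,
    ← intervalIntegral.integral_of_le (by linarith [Nat.cast_nonneg (α := ℝ) k]),
    ← intervalIntegral.integral_of_le (by linarith [Nat.cast_nonneg (α := ℝ) k])]
  rw [intervalIntegral.integral_comp_neg (fun t => g t)]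
  simp

/-- averages of shifted functions -/
lemma avg_shift (g : ℝ → H) (hg : Continuous g) (C : ℝ) (hC : 0 ≤ C) (hgC : ∀ t, ‖g t‖ ≤ C) (s : ℝ) :
    Tendsto (fun k : ℕ => avg (fun t => g (t + s)) k - avg g k) atTop (𝓝 0) := by
  have hint : ∀ a b : ℝ, IntervalIntegrable g volume a b := fun a b => hg.intervalIntegrable a b
  have h1 : ∀ k : ℕ, 0 < k → ‖avg (fun t => g (t + s)) k - avg g k‖ ≤ (2 * C * |s|) * (2 * (k:ℝ))⁻¹ := by
    intro k hk
    have hk' : -(k:ℝ) ≤ k := by linarith [Nat.cast_nonneg (α := ℝ) k]
    rw [avg, avg, ← smul_sub, norm_smul, Complex.norm_real, Real.norm_of_nonneg (by positivity), mul_comm]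
    apply mul_le_mul_of_nonneg_right _ (by positivity)
    rw [integral_Icc_eq_integral_Ioc, integral_Icc_eq_integral_Ioc,
      ← intervalIntegral.integral_of_le hk', ← intervalIntegral.integral_of_le hk']
    rw [intervalIntegral.integral_comp_add_right (fun t => g t)]
    have e : (∫ x in (-(k:ℝ) + s)..(k + s), g x) - ∫ x in (-(k:ℝ))..k, g x =
        (∫ x in (k:ℝ)..(k + s), g x) - ∫ x in (-(k:ℝ))..(-k + s), g x := by
      rw [intervalIntegral.integral_interval_sub_interval_comm' (hint _ _) (hint _ _) (hint _ _)]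
    rw [e]
    refine (norm_sub_le _ _).trans ?_
    have a1 := intervalIntegral.norm_integral_le_of_norm_le_const (a := (k:ℝ)) (b := k + s) (f := g) (C := C) (fun t _ => hgC t)
    have a2 := intervalIntegral.norm_integral_le_of_norm_le_const (a := -(k:ℝ)) (b := -k + s) (f := g) (C := C) (fun t _ => hgC t)
    rw [add_sub_cancel_left] at a1 a2
    linarith
  rw [tendsto_zero_iff_norm_tendsto_zero]
  have h2 : Tendsto (fun k : ℕ => (2 * C * |s|) * (2 * (k:ℝ))⁻¹) atTop (𝓝 0) := by
    have h3 : Tendsto (fun k : ℕ => (2 * (k:ℝ))⁻¹) atTop (𝓝 0) := by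
      have := (tendsto_inv_atTop_zero.comp (tendsto_natCast_atTop_atTop (R := ℝ))).const_mul (2:ℝ)⁻¹
      simp only [mul_zero] at this
      refine this.congr (fun k => ?_)
      simp [mul_comm]
    simpa using h3.const_mul (2 * C * |s|)
  apply squeeze_zero' (Eventually.of_forall (fun k => norm_nonneg _)) _ h2
  filter_upwards [eventually_gt_atTop 0] with k hk
  exact h1 k hk

/-- fixed vectors -/
def fixedSub (D : LineCalculus H) : Submodule ℂ H where
  carrier := {x | ∀ t, D.wave t x = x}
  add_mem' := by intro x y hx hy t; rw [map_add, hx t, hy t]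
  zero_mem' := by intro t; simp
  smul_mem' := by intro c x hx t; rw [map_smul, hx t]

lemma mem_fixedSub (D : LineCalculus H) (x : H) : x ∈ fixedSub D ↔ ∀ t, D.wave t x = x := Iff.rfl

lemma isClosed_fixedSub (D : LineCalculus H) : IsClosed (fixedSub D : Set H) := by
  have : (fixedSub D : Set H) = ⋂ t : ℝ, {x | D.wave t x = x} := by
    ext x; simp [mem_fixedSub]
  rw [this]
  exact isClosed_iInter (fun t => isClosed_eq (D.wave t).continuous continuous_id)

instance (D : LineCalculus H) : (fixedSub D).HasOrthogonalProjection := by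
  have : IsComplete (fixedSub D : Set H) := (isClosed_fixedSub D).isComplete
  have : CompleteSpace (fixedSub D) := this.completeSpace_coe
  infer_instance

/-- von Neumann mean ergodic theorem for the flow of unitaries -/
lemma mean_ergodic (D : LineCalculus H) (y : H) :
    Tendsto (fun k : ℕ => avg (fun t => D.wave t y) k) atTop (𝓝 ((fixedSub D).starProjection y)) := by
  -- the set where it holds
  let G : Submodule ℂ H :=
    { carrier := {y | Tendsto (fun k : ℕ => avg (fun t => D.wave t y) k) atTop (𝓝 ((fixedSub D).starProjection y))}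
      add_mem' := by
        intro x y hx hy
        simp only [Set.mem_ofPred_eq] at hx hy ⊢
        rw [map_add]
        refine (hx.add hy).congr (fun k => ?_)
        rw [← avg_add _ _ (continuous_wave D x) (continuous_wave D y)]
        simp only [map_add]
      zero_mem' := by
        simp only [Set.mem_ofPred_eq, map_zero]
        refine tendsto_const_nhds.congr (fun k => ?_)
        rw [avg]; simp
      smul_mem' := by
        intro c x hx
        simp only [Set.mem_ofPred_eq] at hx ⊢
        rw [map_smul]
        refine (hx.const_smul c).congr (fun k => ?_)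
        rw [← avg_smul]
        simp only [map_smul] }
  have hGmem : ∀ y, y ∈ G ↔ Tendsto (fun k : ℕ => avg (fun t => D.wave t y) k) atTop (𝓝 ((fixedSub D).starProjection y)) :=
    fun y => Iff.rfl
  have hGcl : IsClosed (G : Set H) := by
    rw [← closure_subset_iff_isClosed]
    intro y hy
    show Tendsto _ _ _
    rw [Metric.tendsto_atTop]
    intro ε hε
    rw [Metric.mem_closure_iff] at hy
    obtain ⟨z, hz, hyz⟩ := hy (ε/3) (by positivity)
    have hz' : Tendsto (fun k : ℕ => avg (fun t => D.wave t z) k) atTop (𝓝 ((fixedSub D).starProjection z)) := hz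
    obtain ⟨N, hN⟩ := Metric.tendsto_atTop.mp hz' (ε/3) (by positivity)
    refine ⟨N, fun k hk => ?_⟩
    have h1 := hN k hk
    rw [dist_eq_norm] at h1 hyz ⊢
    have h2 : ‖avg (fun t => D.wave t y) k - avg (fun t => D.wave t z) k‖ ≤ ‖y - z‖ := by
      rw [← avg_sub _ _ (continuous_wave D y) (continuous_wave D z)]
      apply avg_norm_le _ _ (norm_nonneg _)
      intro t
      rw [← map_sub, norm_wave]
    have h3 : ‖(fixedSub D).starProjection z - (fixedSub D).starProjection y‖ ≤ ‖y - z‖ := by
      rw [← map_sub, ← norm_sub_rev z y]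
      exact (fixedSub D).norm_starProjection_apply_le _
    have e : avg (fun t => D.wave t y) k - (fixedSub D).starProjection y =
        (avg (fun t => D.wave t y) k - avg (fun t => D.wave t z) k) +
        (avg (fun t => D.wave t z) k - (fixedSub D).starProjection z) +
        ((fixedSub D).starProjection z - (fixedSub D).starProjection y) := by abel
    rw [e]
    refine (norm_add₃_le).trans_lt ?_
    linarith
  have hfix : ∀ y ∈ fixedSub D, y ∈ G := by
    intro y hy
    rw [hGmem, Submodule.starProjection_eq_self_iff.mpr hy]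
    apply tendsto_const_nhds.congr'
    filter_upwards [eventually_gt_atTop 0] with k hk
    have : (fun t => D.wave t y) = fun _ => y := by ext t; exact hy t
    rw [this, avg_const y k hk]
  have hdiff : ∀ (s : ℝ) (z : H), D.wave s z - z ∈ G := by
    intro s z
    rw [hGmem]
    have h0 : (fixedSub D).starProjection (D.wave s z - z) = 0 := by
      apply Submodule.eq_starProjection_of_mem_of_inner_eq_zero (Submodule.zero_mem _)
      intro w hw
      rw [sub_zero, inner_sub_left, inner_wave_left, (mem_fixedSub D w).mp hw (-s), sub_self]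
    rw [h0]
    refine (avg_shift (fun t => D.wave t z) (continuous_wave D z) ‖z‖ (norm_nonneg _) (fun t => (norm_wave D t z).le) s).congr
      (fun k => ?_)
    rw [← avg_sub (fun t => D.wave (t + s) z) (fun t => D.wave t z)
      ((continuous_wave D z).comp (by fun_prop)) (continuous_wave D z)]
    congr 1
    ext t
    rw [map_sub, wave_add]; rfl
  have hGtop : G = ⊤ := by
    have : CompleteSpace G := hGcl.isComplete.completeSpace_coe
    rw [← Submodule.orthogonal_eq_bot_iff, Submodule.eq_bot_iff]
    intro v hv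
    have h1 : v ∈ fixedSub D := by
      rw [mem_fixedSub]
      intro s
      have h2 : ∀ z, inner ℂ z (D.wave s v - v) = 0 := by
        intro z
        have h3 := (Submodule.mem_orthogonal _ _).mp hv _ (hdiff (-s) z)
        rw [inner_sub_left, inner_wave_left, neg_neg] at h3
        rw [inner_sub_right]; exact h3
      have h4 := h2 (D.wave s v - v)
      rw [inner_self_eq_zero, sub_eq_zero] at h4
      exact h4
    have h2 := (Submodule.mem_orthogonal _ _).mp hv _ (hfix v h1)
    exact inner_self_eq_zero.mp h2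
  have : y ∈ G := by rw [hGtop]; trivial
  exact this

end Crest.Agent.S0112Aux
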