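import Crest.Agent.S0112F
set_option autoImplicit false
open Filter MeasureTheory
open scoped Topology BoundedContinuousFunction

namespace Crest.Agent.S0112Aux
open Crest.OpAlg Crest.OpAlg.LineCalculus

variable {H : Type*} [NormedAddCommGroup H] [InnerProductSpace ℂ H] [CompleteSpace H]

lemma star_mem_commutant (S : ModularDatum H) (z : H →L[ℂ] H) (hz : z ∈ S.M.commutant) : star z ∈ S.M.commutant :=
  star_mem hz

/-- The vacuum is cyclic for the commutant. -/
lemma commutant_dense (S : ModularDatum H) (P : H → Prop) (hcl : IsClosed {x | P x})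
    (h0 : P 0) (hadd : ∀ x y, P x → P y → P (x + y)) (hsmul : ∀ (c : ℂ) x, P x → P (c • x))
    (h : ∀ z ∈ S.M.commutant, P (z S.vac)) (x : H) : P x := by
  -- the closed submodule generated by z ξ
  let K : Submodule ℂ H := Submodule.topologicalClosure
    { carrier := {x | ∃ z ∈ S.M.commutant, z S.vac = x}
      add_mem' := by
        rintro _ _ ⟨z, hz, rfl⟩ ⟨w, hw, rfl⟩
        exact ⟨z + w, add_mem hz hw, rfl⟩
      zero_mem' := ⟨0, zero_mem _, rfl⟩
      smul_mem' := by
        rintro c _ ⟨z, hz, rfl⟩
        exact ⟨c • z, (S.M.commutant.toStarSubalgebra).smul_mem hz c, rfl⟩ }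
  have hKcl : IsClosed (K : Set H) := Submodule.isClosed_topologicalClosure _
  have : CompleteSpace K := hKcl.isComplete.completeSpace_coe
  have hKz : ∀ z ∈ S.M.commutant, ∀ y ∈ K, z y ∈ K := by
    intro z hz y hy
    have h1 : (K : Set H) = closure {x | ∃ z ∈ S.M.commutant, z S.vac = x} := rfl
    have hy' : y ∈ closure {x | ∃ z ∈ S.M.commutant, z S.vac = x} := hy
    have h2 := map_mem_closure (t := {x | ∃ z ∈ S.M.commutant, z S.vac = x}) z.continuous hy' (by
      rintro _ ⟨w, hw, rfl⟩
      exact ⟨z * w, mul_mem hz hw, rfl⟩)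
    exact h2
  have hξ : S.vac ∈ K := by
    apply Submodule.le_topologicalClosure
    exact ⟨1, one_mem _, rfl⟩
  have hPmem : K.starProjection ∈ S.M := by
    apply mem_of_commute
    intro z hz y
    symm
    apply Submodule.eq_starProjection_of_mem_of_inner_eq_zero (hKz z hz _ (K.starProjection_apply_mem y))
    intro w hw
    rw [← map_sub, ← ContinuousLinearMap.adjoint_inner_right, ← ContinuousLinearMap.star_eq_adjoint]
    have h1 : star z w ∈ K := hKz _ (star_mem_commutant S z hz) w hw
    have h2 := Submodule.sub_starProjection_mem_orthogonal (K := K) y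
    rw [inner_eq_zero_symm]
    exact (Submodule.mem_orthogonal _ _).mp h2 _ h1
  have hP1 : (1 - K.starProjection : H →L[ℂ] H) = 0 := by
    apply S.separating _ (sub_mem (one_mem _) hPmem)
    rw [sub_apply, ContinuousLinearMap.one_apply, Submodule.starProjection_eq_self_iff.mpr hξ, sub_self]
  have hx : x ∈ K := by
    rw [← Submodule.starProjection_eq_self_iff]
    have := congrArg (fun A : H →L[ℂ] H => A x) hP1
    simp only [sub_apply, ContinuousLinearMap.one_apply, ContinuousLinearMap.zero_apply, sub_eq_zero] at this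
    exact this.symm
  have hx' : x ∈ closure {x | ∃ z ∈ S.M.commutant, z S.vac = x} := hx
  have h3 : closure {x | ∃ z ∈ S.M.commutant, z S.vac = x} ⊆ {x | P x} := by
    apply hcl.closure_subset_iff.mpr
    rintro _ ⟨z, hz, rfl⟩
    exact h z hz
  exact h3 hx'

lemma flow_apply (S : ModularDatum H) (t : ℝ) (x : H →L[ℂ] H) (y : H) :
    S.flow t x y = S.D.wave t (x (S.D.wave (-t) y)) := rfl

lemma flow_commutant (S : ModularDatum H) (s : ℝ) (z : H →L[ℂ] H) (hz : z ∈ S.M.commutant) :
    S.flow s z ∈ S.M.commutant := by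
  rw [VonNeumannAlgebra.mem_commutant_iff] at hz ⊢
  intro g hg
  have h1 := hz _ (S.flow_mem (-s) g hg)
  rw [neg_neg] at h1
  simp only [ModularDatum.flow]
  calc g * (S.D.wave s * z * S.D.wave (-s)) = S.D.wave s * ((S.D.wave (-s) * g * S.D.wave s) * z) * S.D.wave (-s) := by
        simp only [← mul_assoc]
        rw [wave_mul_neg, one_mul]
    _ = S.D.wave s * (z * (S.D.wave (-s) * g * S.D.wave s)) * S.D.wave (-s) := by rw [h1]
    _ = _ := by
        simp only [mul_assoc]
        rw [wave_mul_neg, mul_one]

lemma continuous_flow (S : ModularDatum H) (x : H →L[ℂ] H) (y : H) : Continuous (fun t => S.flow t x y) := by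
  simp only [flow_apply]
  apply continuous_wave_comp S.D _ continuous_id
  exact x.continuous.comp ((continuous_wave S.D y).comp (by fun_prop))

lemma norm_flow_le (S : ModularDatum H) (x : H →L[ℂ] H) (y : H) (t : ℝ) : ‖S.flow t x y‖ ≤ ‖x‖ * ‖y‖ := by
  rw [flow_apply, norm_wave]
  refine (x.le_opNorm _).trans ?_
  rw [norm_wave]

/-- ergodic averages of the flow -/
noncomputable def flowAvg (S : ModularDatum H) (x : H →L[ℂ] H) (k : ℕ) : H →L[ℂ] H :=
  LinearMap.mkContinuous
    { toFun := fun y => avg (fun t => S.flow t x y) k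
      map_add' := by
        intro y z
        rw [← avg_add _ _ (continuous_flow S x y) (continuous_flow S x z)]
        simp only [map_add]
      map_smul' := by
        intro c y
        simp only [RingHom.id_apply]
        rw [← avg_smul]
        simp only [map_smul] } ‖x‖ (by
      intro y
      simp only [LinearMap.coe_mk, AddHom.coe_mk]
      exact avg_norm_le _ _ (by positivity) (norm_flow_le S x y) k)

lemma flowAvg_apply (S : ModularDatum H) (x : H →L[ℂ] H) (k : ℕ) (y : H) :
    flowAvg S x k y = avg (fun t => S.flow t x y) k := rfl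

lemma flowAvg_norm_le (S : ModularDatum H) (x : H →L[ℂ] H) (k : ℕ) (y : H) : ‖flowAvg S x k y‖ ≤ ‖x‖ * ‖y‖ := by
  rw [flowAvg_apply]
  exact avg_norm_le _ _ (by positivity) (norm_flow_le S x y) k

lemma flow_comm_vac (S : ModularDatum H) (x z : H →L[ℂ] H) (hx : x ∈ S.M) (hz : z ∈ S.M.commutant) (t : ℝ) :
    S.flow t x (z S.vac) = z (S.D.wave t (x S.vac)) := by
  have h1 : S.flow t x ∈ S.M := S.flow_mem t x hx
  rw [← commute_of_mem S _ z h1 hz]
  rw [flow_apply, vac_fixed]

lemma flowAvg_vac (S : ModularDatum H) (x z : H →L[ℂ] H) (hx : x ∈ S.M) (hz : z ∈ S.M.commutant) :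
    Tendsto (fun k => flowAvg S x k (z S.vac)) atTop (𝓝 (z ((fixedSub S.D).starProjection (x S.vac)))) := by
  have h1 := (z.continuous.tendsto _).comp (mean_ergodic S.D (x S.vac))
  refine h1.congr (fun k => ?_)
  simp only [Function.comp, flowAvg_apply]
  rw [← avg_clm z _ (continuous_wave S.D (x S.vac))]
  congr 1
  ext t
  rw [flow_comm_vac S x z hx hz]

lemma flowAvg_converges (S : ModularDatum H) (x : H →L[ℂ] H) (hx : x ∈ S.M) (y : H) :
    ∃ l, Tendsto (fun k => flowAvg S x k y) atTop (𝓝 l) := by
  have key : ∀ y : H, CauchySeq (fun k => flowAvg S x k y) := by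
    apply commutant_dense S (fun y => CauchySeq (fun k => flowAvg S x k y))
    · -- closed
      rw [← closure_subset_iff_isClosed]
      intro y hy
      show CauchySeq _
      rw [Metric.cauchySeq_iff]
      intro ε hε
      rw [Metric.mem_closure_iff] at hy
      have hx0 : 0 ≤ ‖x‖ := norm_nonneg x
      obtain ⟨z, hz, hyz⟩ := hy (ε/(3 * (‖x‖ + 1))) (by positivity)
      have hz' : CauchySeq (fun k => flowAvg S x k z) := hz
      obtain ⟨N, hN⟩ := (Metric.cauchySeq_iff.mp hz') (ε/3) (by positivity)
      refine ⟨N, fun m hm n hn => ?_⟩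
      have h1 := hN m hm n hn
      rw [dist_eq_norm] at h1 hyz ⊢
      have h2 : ∀ k, ‖flowAvg S x k (y - z)‖ < ε/3 := by
        intro k
        refine (flowAvg_norm_le S x k _).trans_lt ?_
        rw [lt_div_iff₀ (by positivity)] at hyz
        have := norm_nonneg (y - z)
        nlinarith
      have e : flowAvg S x m y - flowAvg S x n y = flowAvg S x m (y - z) + (flowAvg S x m z - flowAvg S x n z) - flowAvg S x n (y - z) := by
        rw [map_sub, map_sub]; abel
      rw [e]
      have h3 := norm_sub_le (flowAvg S x m (y - z) + (flowAvg S x m z - flowAvg S x n z)) (flowAvg S x n (y - z))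
      have h4 := norm_add_le (flowAvg S x m (y - z)) (flowAvg S x m z - flowAvg S x n z)
      have := h2 m
      have := h2 n
      linarith
    · simp only [map_zero]; exact tendsto_const_nhds.cauchySeq
    · intro y z hy hz
      simp only [map_add]; exact hy.add hz
    · intro c y hy
      simp only [map_smul]
      obtain ⟨l, hl⟩ := cauchySeq_tendsto_of_complete hy
      exact (hl.const_smul c).cauchySeq
    · intro z hz
      exact (flowAvg_vac S x z hx hz).cauchySeq
  exact cauchySeq_tendsto_of_complete (key y)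

/-- Ergodic theorem in M for an ergodic modular datum. -/
theorem flow_ergodic (S : ModularDatum H) (herg : S.Ergodic) (x : H →L[ℂ] H) (hx : x ∈ S.M) :
    (∀ y, Tendsto (fun k => flowAvg S x k y) atTop (𝓝 ((inner ℂ S.vac (x S.vac) : ℂ) • y))) ∧
    (fixedSub S.D).starProjection (x S.vac) = (inner ℂ S.vac (x S.vac) : ℂ) • S.vac := by
  choose l hl using flowAvg_converges S x hx
  have hl' : Tendsto (fun n y => flowAvg S x n y) atTop (𝓝 l) := by
    rw [tendsto_pi_nhds]; exact hl
  let E : H →L[ℂ] H := continuousLinearMapOfTendsto (fun n => flowAvg S x n) hl'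
  have hE : ∀ y, E y = l y := fun y => rfl
  have hEvac : ∀ z ∈ S.M.commutant, E (z S.vac) = z ((fixedSub S.D).starProjection (x S.vac)) := by
    intro z hz
    rw [hE]
    exact tendsto_nhds_unique (hl _) (flowAvg_vac S x z hx hz)
  have hEM : E ∈ S.M := by
    apply mem_of_commute
    intro z hz y
    have h1 := (z.continuous.tendsto _).comp (hl y)
    rw [hE, hE]
    have h2 : ∀ k, z (flowAvg S x k y) = flowAvg S x k (z y) := by
      intro k
      rw [flowAvg_apply, flowAvg_apply, ← avg_clm z _ (continuous_flow S x y)]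
      congr 1
      ext t
      exact commute_of_mem S _ z (S.flow_mem t x hx) hz y
    have h3 : Tendsto (fun k => flowAvg S x k (z y)) atTop (𝓝 (z (l y))) := h1.congr h2
    exact tendsto_nhds_unique h3 (hl (z y))
  have hEfix : ∀ s, S.flow s E = E := by
    intro s
    ext y
    apply commutant_dense S (fun y => S.flow s E y = E y)
    · exact isClosed_eq (by fun_prop) (by fun_prop)
    · simp
    · intro a b ha hb; simp only [map_add, ha, hb]
    · intro c a ha; simp only [map_smul, ha]
    · intro z hz
      have h1 : S.D.wave (-s) (z S.vac) = S.flow (-s) z S.vac := by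
        rw [flow_apply, neg_neg, vac_fixed]
      rw [flow_apply, h1, hEvac _ (flow_commutant S (-s) z hz), flow_apply, neg_neg,
        (mem_fixedSub S.D _).mp ((fixedSub S.D).starProjection_apply_mem _) s, wave_wave_neg, hEvac z hz]
  obtain ⟨c, hc⟩ := herg E hEM hEfix
  have h1 : (fixedSub S.D).starProjection (x S.vac) = c • S.vac := by
    have := hEvac 1 (one_mem _)
    rw [ContinuousLinearMap.one_apply, ContinuousLinearMap.one_apply] at this
    rw [← this, hc]; rfl
  have hvac : S.vac ∈ fixedSub S.D := fun t => vac_fixed S t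
  have h2 : c = inner ℂ S.vac (x S.vac) := by
    have h3 : inner ℂ S.vac ((fixedSub S.D).starProjection (x S.vac)) = inner ℂ S.vac (x S.vac) := by
      have h4 := Submodule.sub_starProjection_mem_orthogonal (K := fixedSub S.D) (x S.vac)
      have h5 := (Submodule.mem_orthogonal _ _).mp h4 _ hvac
      rw [inner_sub_right, sub_eq_zero] at h5
      exact h5.symm
    rw [h1, inner_smul_right, inner_self_eq_norm_sq_to_K, S.norm_vac] at h3
    simpa using h3
  rw [← h2]
  refine ⟨fun y => ?_, h1⟩
  have := hl y
  rw [← hE, hc] at this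
  exact this

end Crest.Agent.S0112Aux
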