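import Crest.Agent.S0112G
set_option autoImplicit false
open Filter MeasureTheory
open scoped Topology BoundedContinuousFunction

namespace Crest.Agent.S0112Aux
open Crest.OpAlg Crest.OpAlg.LineCalculus

variable {H : Type*} [NormedAddCommGroup H] [InnerProductSpace ℂ H] [CompleteSpace H]

lemma windowMean_eq (f : ℝ → ℝ) (k : ℕ) : windowMean f k = (2 * (k:ℝ))⁻¹ * ∫ t in Set.Icc (-(k:ℝ)) k, f t := by
  rw [windowMean, setAverage_eq, real_Icc, smul_eq_mul]

lemma windowMean_inner (w : H) (g : ℝ → H) (hg : Continuous g) (k : ℕ) :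
    windowMean (fun t => (inner ℂ w (g t) : ℂ).re) k = (inner ℂ w (avg g k) : ℂ).re := by
  rw [windowMean_eq, avg, inner_smul_right]
  have h1 : ∫ t in Set.Icc (-(k:ℝ)) k, (inner ℂ w (g t) : ℂ).re = (inner ℂ w (∫ t in Set.Icc (-(k:ℝ)) k, g t) : ℂ).re := by
    have hi : IntegrableOn g (Set.Icc (-(k:ℝ)) k) := hg.continuousOn.integrableOn_Icc
    have h2 := (Complex.reCLM.comp ((innerSL ℂ w).restrictScalars ℝ)).integral_comp_comm hi
    simpa using h2
  rw [h1, Complex.re_ofReal_mul]

lemma windowMean_add (f g : ℝ → ℝ) (hf : Continuous f) (hg : Continuous g) (k : ℕ) :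
    windowMean (fun t => f t + g t) k = windowMean f k + windowMean g k := by
  rw [windowMean_eq, windowMean_eq, windowMean_eq,
    integral_add hf.continuousOn.integrableOn_Icc hg.continuousOn.integrableOn_Icc, mul_add]

lemma windowMean_const_mul (c : ℝ) (f : ℝ → ℝ) (k : ℕ) :
    windowMean (fun t => c * f t) k = c * windowMean f k := by
  rw [windowMean_eq, windowMean_eq, integral_const_mul]; ring

lemma windowMean_sum (n : ℕ) (f : ℕ → ℝ → ℝ) (hf : ∀ i, Continuous (f i)) (k : ℕ) :
    windowMean (fun t => ∑ i ∈ Finset.range n, f i t) k = ∑ i ∈ Finset.range n, windowMean (f i) k := by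
  induction n with
  | zero => simp [windowMean_eq]
  | succ n ih =>
    simp only [Finset.sum_range_succ]
    rw [windowMean_add _ _ (continuous_finsetSum _ (fun i _ => hf i)) (hf n), ih]

lemma lim_flow (S : ModularDatum H) (herg : S.Ergodic) (x : H →L[ℂ] H) (hx : x ∈ S.M) (w y : H) :
    Tendsto (windowMean (fun t => (inner ℂ w (S.flow t x y) : ℂ).re)) atTop
      (𝓝 ((inner ℂ S.vac (x S.vac) * inner ℂ w y : ℂ).re)) := by
  have h1 := (flow_ergodic S herg x hx).1 y
  have h2 : Tendsto (fun k => (inner ℂ w (flowAvg S x k y) : ℂ).re) atTop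
      (𝓝 ((inner ℂ w ((inner ℂ S.vac (x S.vac) : ℂ) • y) : ℂ).re)) := by
    have hc : Continuous (fun v : H => (inner ℂ w v : ℂ).re) := by fun_prop
    exact (hc.tendsto _).comp h1
  rw [inner_smul_right] at h2
  refine h2.congr (fun k => ?_)
  rw [flowAvg_apply, windowMean_inner w _ (continuous_flow S x y)]

lemma lim_flow_neg (S : ModularDatum H) (herg : S.Ergodic) (x : H →L[ℂ] H) (hx : x ∈ S.M) (w y : H) :
    Tendsto (windowMean (fun t => (inner ℂ w (S.flow (-t) x y) : ℂ).re)) atTop
      (𝓝 ((inner ℂ S.vac (x S.vac) * inner ℂ w y : ℂ).re)) := by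
  refine (lim_flow S herg x hx w y).congr (fun k => ?_)
  rw [windowMean_inner w (fun t => S.flow t x y) (continuous_flow S x y),
    windowMean_inner w (fun t => S.flow (-t) x y) ((continuous_flow S x y).comp continuous_neg),
    avg_neg (fun t => S.flow t x y)]

lemma lim_wave (S : ModularDatum H) (herg : S.Ergodic) (x : H →L[ℂ] H) (hx : x ∈ S.M) (w : H) :
    Tendsto (windowMean (fun t => (inner ℂ w (S.D.wave t (x S.vac)) : ℂ).re)) atTop
      (𝓝 ((inner ℂ S.vac (x S.vac) * inner ℂ w S.vac : ℂ).re)) := by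
  refine (lim_flow S herg x hx w S.vac).congr (fun k => ?_)
  congr 1
  ext t
  rw [flow_apply, vac_fixed]

/-- choice of good times -/
lemma select (f : ℝ → ℝ) (hf : Continuous f) (W : ℝ → ℝ → ℝ) (hW : ∀ s, Continuous (W s)) (m' m w : ℝ) (hm : m' < m)
    (hfreq : ∃ᶠ k in atTop, m ≤ windowMean f k) (hWlim : ∀ s, Tendsto (windowMean (W s)) atTop (𝓝 w))
    (μ : ℝ) (hμ : 0 ≤ μ) (n : ℕ) :
    ∃ t : ℕ → ℝ, n * m' - μ * ((n:ℝ) * (n - 1) / 2) * w ≤
      ∑ j ∈ Finset.range n, f (t j) - μ * ∑ j ∈ Finset.range n, ∑ i ∈ Finset.range j, W (t i) (t j) := by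
  induction n with
  | zero => exact ⟨fun _ => 0, by simp⟩
  | succ n ih =>
    obtain ⟨t, ht⟩ := ih
    -- next time
    set q : ℝ → ℝ := fun s => f s + (-μ) * ∑ i ∈ Finset.range n, W (t i) s with hq
    have hWc : Continuous (fun s => ∑ i ∈ Finset.range n, W (t i) s) := continuous_finsetSum _ (fun i _ => hW (t i))
    have hqc : Continuous q := hf.add (continuous_const.mul hWc)
    have hqm : ∀ k, windowMean q k = windowMean f k + (-μ) * ∑ i ∈ Finset.range n, windowMean (W (t i)) k := by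
      intro k
      rw [hq, windowMean_add f (fun s => (-μ) * ∑ i ∈ Finset.range n, W (t i) s) hf (continuous_const.mul hWc),
        windowMean_const_mul, windowMean_sum n (fun i => W (t i)) (fun i => hW (t i))]
    have hlim : Tendsto (fun k => (-μ) * ∑ i ∈ Finset.range n, windowMean (W (t i)) k) atTop (𝓝 ((-μ) * (n * w))) := by
      apply Tendsto.const_mul
      have := tendsto_finsetSum (Finset.range n) (fun i _ => hWlim (t i))
      simpa using this
    have hev : ∀ᶠ k in atTop, (-μ) * (n * w) - (m - m') < (-μ) * ∑ i ∈ Finset.range n, windowMean (W (t i)) k :=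
      hlim.eventually_const_lt (by linarith)
    obtain ⟨k, hk1, hk2, hk3⟩ := (hfreq.and_eventually (hev.and (eventually_gt_atTop 0))).exists
    have hle : m' - μ * (n * w) ≤ windowMean q k := by
      rw [hqm]; linarith
    have hkpos : (0:ℝ) < k := by exact_mod_cast hk3
    obtain ⟨s, _, hs⟩ := exists_setAverage_le (μ := volume) (s := Set.Icc (-(k:ℝ)) k) (f := q)
      (by rw [Real.volume_Icc]; simp; linarith) (by rw [Real.volume_Icc]; exact ENNReal.ofReal_ne_top)
      hqc.continuousOn.integrableOn_Icc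
    refine ⟨fun j => if j = n then s else t j, ?_⟩
    have e1 : ∑ j ∈ Finset.range (n+1), f (if j = n then s else t j) = ∑ j ∈ Finset.range n, f (t j) + f s := by
      rw [Finset.sum_range_succ]
      congr 1
      · apply Finset.sum_congr rfl
        intro j hj
        rw [if_neg (Finset.mem_range.mp hj).ne]
      · simp
    have e2 : ∑ j ∈ Finset.range (n+1), ∑ i ∈ Finset.range j, W (if i = n then s else t i) (if j = n then s else t j) =
        ∑ j ∈ Finset.range n, ∑ i ∈ Finset.range j, W (t i) (t j) + ∑ i ∈ Finset.range n, W (t i) s := by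
      rw [Finset.sum_range_succ]
      congr 1
      · apply Finset.sum_congr rfl
        intro j hj
        apply Finset.sum_congr rfl
        intro i hi
        have h1 := Finset.mem_range.mp hj
        have h2 := Finset.mem_range.mp hi
        rw [if_neg h1.ne, if_neg (h2.trans h1).ne]
      · apply Finset.sum_congr rfl
        intro i hi
        rw [if_neg (Finset.mem_range.mp hi).ne, if_pos rfl]
    rw [e1, e2]
    have hqs : m' - μ * (n * w) ≤ f s + (-μ) * ∑ i ∈ Finset.range n, W (t i) s := hle.trans hs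
    push_cast
    nlinarith

/-- averages over signs -/
noncomputable def sgnAvg {V : Type*} [AddCommGroup V] (a : ℕ → V) : ℕ → (V → ℝ) → ℝ
  | 0, Ψ => Ψ 0
  | n+1, Ψ => sgnAvg a n (fun X => (Ψ (X + a n) + Ψ (X - a n)) / 2)

section
variable {V : Type*} [AddCommGroup V] (a : ℕ → V)

lemma sgnAvg_mono (n : ℕ) (Ψ Ψ' : V → ℝ) (h : ∀ X, Ψ X ≤ Ψ' X) : sgnAvg a n Ψ ≤ sgnAvg a n Ψ' := by
  induction n generalizing Ψ Ψ' with
  | zero => exact h 0
  | succ n ih =>
    apply ih
    intro X
    have := h (X + a n)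
    have := h (X - a n)
    linarith

lemma sgnAvg_add (n : ℕ) (Ψ Ψ' : V → ℝ) : sgnAvg a n (fun X => Ψ X + Ψ' X) = sgnAvg a n Ψ + sgnAvg a n Ψ' := by
  induction n generalizing Ψ Ψ' with
  | zero => rfl
  | succ n ih =>
    simp only [sgnAvg]
    rw [← ih]
    congr 1; ext X; ring

lemma sgnAvg_const_mul (n : ℕ) (c : ℝ) (Ψ : V → ℝ) : sgnAvg a n (fun X => c * Ψ X) = c * sgnAvg a n Ψ := by
  induction n generalizing Ψ with
  | zero => rfl
  | succ n ih =>
    simp only [sgnAvg]
    rw [← ih]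
    congr 1; ext X; ring

lemma sgnAvg_const (n : ℕ) (c : ℝ) : sgnAvg a n (fun _ => c) = c := by
  induction n with
  | zero => rfl
  | succ n ih =>
    simp only [sgnAvg]
    have : (fun _ : V => (c + c) / 2) = fun _ => c := by ext; ring
    rw [this, ih]

lemma sgnAvg_quad (n : ℕ) (Q : V → ℝ) (h0 : Q 0 = 0) (h : ∀ X b, Q (X + b) + Q (X - b) = 2 * Q X + 2 * Q b) :
    sgnAvg a n Q = ∑ i ∈ Finset.range n, Q (a i) := by
  induction n with
  | zero => simp [sgnAvg, h0]
  | succ n ih =>
    simp only [sgnAvg]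
    have : (fun X => (Q (X + a n) + Q (X - a n)) / 2) = fun X => Q X + Q (a n) := by
      ext X; rw [h]; ring
    rw [this, sgnAvg_add, sgnAvg_const, ih, Finset.sum_range_succ]

lemma sgnAvg_exists (n : ℕ) (Ψ : V → ℝ) (P : V → Prop) (h0 : P 0) (hadd : ∀ X i, P X → P (X + a i))
    (hsub : ∀ X i, P X → P (X - a i)) : ∃ X, P X ∧ sgnAvg a n Ψ ≤ Ψ X := by
  induction n generalizing Ψ with
  | zero => exact ⟨0, h0, le_rfl⟩
  | succ n ih =>
    obtain ⟨X, hX, hle⟩ := ih (fun X => (Ψ (X + a n) + Ψ (X - a n)) / 2)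
    rcases le_total (Ψ (X - a n)) (Ψ (X + a n)) with h | h
    · exact ⟨X + a n, hadd X n hX, by simp only [sgnAvg]; linarith⟩
    · exact ⟨X - a n, hsub X n hX, by simp only [sgnAvg]; linarith⟩

end

end Crest.Agent.S0112Aux
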