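import Crest.Agent.S0112H
set_option autoImplicit false
open Filter MeasureTheory
open scoped Topology BoundedContinuousFunction

namespace Crest.Agent.S0112Aux
open Crest.OpAlg Crest.OpAlg.LineCalculus

variable {H : Type*} [NormedAddCommGroup H] [InnerProductSpace ℂ H] [CompleteSpace H]

lemma par (x y : H) : ‖x + y‖^2 + ‖x - y‖^2 = 2 * ‖x‖^2 + 2 * ‖y‖^2 := by
  have := parallelogram_law_with_norm ℂ x y
  nlinarith

/-- quartic estimate -/
lemma quartic (a : ℕ → (H →L[ℂ] H)) (ξ : H) (D' : ℝ) (hD : ∀ j, ‖star (a j) (a j ξ)‖^2 ≤ D') (n : ℕ) :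
    sgnAvg a n (fun X => ‖star X (X ξ)‖^2) ≤ n * D' +
      ∑ j ∈ Finset.range n, ∑ i ∈ Finset.range j,
        (2 * (inner ℂ (star (a i) (a i ξ)) (star (a j) (a j ξ)) : ℂ).re + 2 * ‖star (a i) (a j ξ)‖^2 +
          2 * ‖star (a j) (a i ξ)‖^2) := by
  induction n with
  | zero => simp [sgnAvg]
  | succ n ih =>
    simp only [sgnAvg]
    set b := a n with hb
    have hstep : ∀ X : H →L[ℂ] H, (‖star (X + b) ((X + b) ξ)‖^2 + ‖star (X - b) ((X - b) ξ)‖^2) / 2 ≤
        ‖star X (X ξ)‖^2 + (2 * (inner ℂ (star X (X ξ)) (star b (b ξ)) : ℂ).re + (D' + (2 * ‖star X (b ξ)‖^2 + 2 * ‖star b (X ξ)‖^2))) := by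
      intro X
      have e1 : star (X + b) ((X + b) ξ) = (star X (X ξ) + star b (b ξ)) + (star X (b ξ) + star b (X ξ)) := by
        simp only [star_add, add_apply, map_add]; abel
      have e2 : star (X - b) ((X - b) ξ) = (star X (X ξ) + star b (b ξ)) - (star X (b ξ) + star b (X ξ)) := by
        simp only [star_sub, sub_apply, map_sub]; abel
      rw [e1, e2, par]
      have h1 : ‖star X (b ξ) + star b (X ξ)‖^2 ≤ 2 * ‖star X (b ξ)‖^2 + 2 * ‖star b (X ξ)‖^2 := by
        have := par (star X (b ξ)) (star b (X ξ))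
        nlinarith [sq_nonneg ‖star X (b ξ) - star b (X ξ)‖]
      have h2 : ‖star X (X ξ) + star b (b ξ)‖^2 = ‖star X (X ξ)‖^2 + 2 * (inner ℂ (star X (X ξ)) (star b (b ξ)) : ℂ).re + ‖star b (b ξ)‖^2 := by
        have := norm_add_sq (𝕜 := ℂ) (star X (X ξ)) (star b (b ξ))
        simpa using this
      rw [h2]
      have := hD n
      rw [← hb] at this
      linarith
    refine (sgnAvg_mono a n _ _ hstep).trans ?_
    rw [sgnAvg_add, sgnAvg_add, sgnAvg_add, sgnAvg_add, sgnAvg_const, sgnAvg_const_mul, sgnAvg_const_mul, sgnAvg_const_mul]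
    rw [sgnAvg_quad a n (fun X => (inner ℂ (star X (X ξ)) (star b (b ξ)) : ℂ).re) (by simp) (by
      intro X c
      simp only [star_add, star_sub, add_apply, sub_apply, map_add, map_sub, inner_add_left, inner_sub_left,
        Complex.add_re, Complex.sub_re]
      ring)]
    rw [sgnAvg_quad a n (fun X => ‖star X (b ξ)‖^2) (by simp) (by
      intro X c
      simp only [star_add, star_sub, add_apply, sub_apply]
      exact par _ _)]
    rw [sgnAvg_quad a n (fun X => ‖star b (X ξ)‖^2) (by simp) (by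
      intro X c
      simp only [add_apply, sub_apply, map_add, map_sub]
      exact par _ _)]
    rw [Finset.sum_range_succ (fun j => ∑ i ∈ Finset.range j,
        (2 * (inner ℂ (star (a i) (a i ξ)) (star (a j) (a j ξ)) : ℂ).re + 2 * ‖star (a i) (a j ξ)‖^2 +
          2 * ‖star (a j) (a i ξ)‖^2)) n]
    rw [Finset.sum_add_distrib, Finset.sum_add_distrib, ← Finset.mul_sum, ← Finset.mul_sum, ← Finset.mul_sum, ← hb]
    push_cast
    linarith

/-- truncation of an element of M -/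
lemma truncate (S : ModularDatum H) (A : H →L[ℂ] H) (hA : A ∈ S.M) (τ : ℝ) (hτ : 0 < τ) :
    ∃ B ∈ S.M, ‖B‖ ≤ τ / 2 ∧ ‖A S.vac - B S.vac‖ ≤ ‖star A (A S.vac)‖ / (2 * τ) := by
  obtain ⟨Q, hQ⟩ : ∃ Q : H →L[ℂ] H, Q = (((τ^2)⁻¹ : ℝ) : ℂ) • (star A * A) := ⟨_, rfl⟩
  have hQsa : ∀ x y, inner ℂ (Q x) y = inner ℂ x (Q y) := by
    intro x y
    rw [hQ]
    simp only [smul_apply, ContinuousLinearMap.mul_apply, inner_smul_left, inner_smul_right, Complex.conj_ofReal]
    rw [ContinuousLinearMap.star_eq_adjoint, ContinuousLinearMap.adjoint_inner_left, ContinuousLinearMap.adjoint_inner_right]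
  have hQpos : ∀ x, τ^2 * (inner ℂ x (Q x) : ℂ).re = ‖A x‖^2 := by
    intro x
    rw [hQ]
    simp only [smul_apply, ContinuousLinearMap.mul_apply, inner_smul_right]
    rw [ContinuousLinearMap.star_eq_adjoint, ContinuousLinearMap.adjoint_inner_right, inner_self_eq_norm_sq_to_K,
      Complex.re_ofReal_mul]
    have : ((‖A x‖ : ℂ)^2).re = ‖A x‖^2 := by norm_cast
    have h2 : ((‖A x‖ : ℂ)^2).re = ‖A x‖^2 := this
    simp only [Complex.coe_algebraMap] at *
    rw [this]
    field_simp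
  -- 1 + Q is invertible
  have hu : IsUnit (1 + Q) := by
    have h1 : (1 + Q : H →L[ℂ] H) = 1 + star (((τ⁻¹ : ℝ) : ℂ) • A) * (((τ⁻¹ : ℝ) : ℂ) • A) := by
      rw [hQ, star_smul, smul_mul_smul_comm]
      congr 2
      rw [← starRingEnd_apply, Complex.conj_ofReal, ← Complex.ofReal_mul]
      congr 1
      rw [sq, mul_inv]
    rw [h1]
    have h2 : ∀ r ∈ spectrum ℝ (star (((τ⁻¹ : ℝ) : ℂ) • A) * (((τ⁻¹ : ℝ) : ℂ) • A)), 0 ≤ r :=
      fun r hr => spectrum_star_mul_self_nonneg r hr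
    have h3 : (-1 : ℝ) ∉ spectrum ℝ (star (((τ⁻¹ : ℝ) : ℂ) • A) * (((τ⁻¹ : ℝ) : ℂ) • A)) := by
      intro h
      have := h2 _ h
      norm_num at this
    rw [spectrum.notMem_iff] at h3
    have h4 := h3.neg
    have h5 : -((algebraMap ℝ (H →L[ℂ] H)) (-1) - star (((τ⁻¹ : ℝ) : ℂ) • A) * (((τ⁻¹ : ℝ) : ℂ) • A)) =
        1 + star (((τ⁻¹ : ℝ) : ℂ) • A) * (((τ⁻¹ : ℝ) : ℂ) • A) := by
      rw [map_neg, map_one]; abel
    rwa [h5] at h4
  obtain ⟨U, hU⟩ := hu
  obtain ⟨G, hG⟩ : ∃ G : H →L[ℂ] H, G = ↑U⁻¹ := ⟨_, rfl⟩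
  have hG1 : (1 + Q) * G = 1 := by rw [hG, ← hU]; exact U.mul_inv
  have hG2 : G * (1 + Q) = 1 := by rw [hG, ← hU]; exact U.inv_mul
  have hQM : Q ∈ S.M := by
    rw [hQ]
    exact (S.M.toStarSubalgebra).smul_mem (mul_mem (star_mem hA) hA) _
  have hGM : G ∈ S.M := by
    apply mem_of_commute
    intro z hz x
    have h1 : ∀ y, z (Q y) = Q (z y) := fun y => commute_of_mem S Q z hQM hz y
    have h2 : z * (1 + Q) = (1 + Q) * z := by
      ext y
      simp only [ContinuousLinearMap.mul_apply, add_apply, map_add, h1]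
      rfl
    have h3 : z * G = G * z := by
      calc z * G = (G * (1 + Q)) * (z * G) := by rw [hG2, one_mul]
        _ = G * ((1 + Q) * z) * G := by simp only [mul_assoc]
        _ = G * (z * (1 + Q)) * G := by rw [h2]
        _ = G * z * ((1 + Q) * G) := by simp only [mul_assoc]
        _ = G * z := by rw [hG1, mul_one]
    have := congrArg (fun B : H →L[ℂ] H => B x) h3
    simpa using this
  have hAG : ∀ y, ‖A (G y)‖ ≤ (τ/2) * ‖y‖ := by
    intro y
    obtain ⟨z, hz⟩ : ∃ z, z = G y := ⟨_, rfl⟩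
    have hy : y = z + Q z := by
      have := congrArg (fun B : H →L[ℂ] H => B y) hG1
      simp only [ContinuousLinearMap.mul_apply, add_apply, ContinuousLinearMap.one_apply] at this
      rw [hz]; exact this.symm
    rw [← hz]
    have h1 : ‖A z‖^2 ≤ ((τ/2) * ‖y‖)^2 := by
      rw [← hQpos z, hy]
      have h2 : ‖z + Q z‖^2 = ‖z‖^2 + 2 * (inner ℂ z (Q z) : ℂ).re + ‖Q z‖^2 := by
        have := norm_add_sq (𝕜 := ℂ) z (Q z)
        simpa using this
      have h3 : ‖z - Q z‖^2 = ‖z‖^2 - 2 * (inner ℂ z (Q z) : ℂ).re + ‖Q z‖^2 := by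
        have := norm_sub_sq (𝕜 := ℂ) z (Q z)
        simpa using this
      have h4 : 0 ≤ ‖z - Q z‖^2 := sq_nonneg _
      rw [mul_pow, h2]
      have h5 : 0 < τ^2 := by positivity
      nlinarith
    exact (sq_le_sq₀ (norm_nonneg _) (by positivity)).mp h1
  refine ⟨A * G, mul_mem hA hGM, ?_, ?_⟩
  · apply ContinuousLinearMap.opNorm_le_bound _ (by positivity)
    intro y
    exact hAG y
  · have h1 : A S.vac - (A * G) S.vac = A (G (Q S.vac)) := by
      have := congrArg (fun B : H →L[ℂ] H => B S.vac) hG2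
      simp only [ContinuousLinearMap.mul_apply, add_apply, ContinuousLinearMap.one_apply, map_add] at this
      rw [ContinuousLinearMap.mul_apply, ← map_sub]
      congr 1
      rw [sub_eq_iff_eq_add']
      exact this.symm
    rw [h1]
    refine (hAG _).trans ?_
    rw [hQ]
    simp only [smul_apply, ContinuousLinearMap.mul_apply]
    rw [norm_smul, Complex.norm_real, Real.norm_of_nonneg (by positivity)]
    apply le_of_eq
    field_simp

end Crest.Agent.S0112Aux
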