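import Mathlib
import Crest.Prelude.Def_AsymptoticConvexity

set_option autoImplicit false
set_option linter.unusedSectionVars false
set_option linter.unusedVariables false

namespace Crest.Agent.S0166

open Filter Topology

section Generic

variable {X : Type*} [NormedAddCommGroup X] [NormedSpace ℝ X]

/-- closed finite-codimensional subspaces, as sets -/
def Cof (F : Set X) : Prop :=
  ∃ S : Submodule ℝ X, (S : Set X) = F ∧ IsClosed F ∧ FiniteDimensional ℝ (X ⧸ S)

/-- a vector with small image in the quotient is close to the subspace -/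
lemma exists_near (S : Submodule ℝ X) (y : X) {ε : ℝ} (h : ‖(S.mkQ y : X ⧸ S)‖ < ε) :
    ∃ f ∈ S, ‖y - f‖ < ε := by
  obtain ⟨m, hm, hm2⟩ := Submodule.Quotient.norm_mk_lt (S := S) (S.mkQ y)
    (ε := ε - ‖(S.mkQ y : X ⧸ S)‖) (by linarith)
  refine ⟨y - m, ?_, by simpa using (by linarith : ‖m‖ < ε)⟩
  have : (Submodule.Quotient.mk m : X ⧸ S) = Submodule.Quotient.mk y := hm
  exact (Submodule.Quotient.eq S).1 this.symm

/-- a closed finite-codimensional subspace and finitely many functionals: the quotient map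
controls all -/
lemma tendsto_quot (S : Submodule ℝ X) [hc : IsClosed (S : Set X)]
    [FiniteDimensional ℝ (X ⧸ S)] (y : ℕ → X)
    (hy : ∀ φ : X →L[ℝ] ℝ, Tendsto (fun n => φ (y n)) atTop (𝓝 0)) :
    Tendsto (fun n => ‖(S.mkQ (y n) : X ⧸ S)‖) atTop (𝓝 0) := by
  have : IsClosed (S : Set X) := hc
  have hq : Continuous S.mkQ := S.continuous_mkQ
  let b := Module.finBasis ℝ (X ⧸ S)
  have h1 : ∀ i, Tendsto (fun n => b.coord i (S.mkQ (y n))) atTop (𝓝 0) := by
    intro i
    have hcont : Continuous (b.coord i) := LinearMap.continuous_of_finiteDimensional _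
    exact hy ⟨(b.coord i).comp S.mkQ, hcont.comp hq⟩
  have h2 : Tendsto (fun n => ∑ i, b.coord i (S.mkQ (y n)) • b i) atTop (𝓝 (∑ i, (0:ℝ) • b i)) :=
    tendsto_finsetSum _ fun i _ => (h1 i).smul_const _
  have h3 : (fun n => ∑ i, b.coord i (S.mkQ (y n)) • b i) = fun n => S.mkQ (y n) := by
    funext n
    have := b.sum_repr (S.mkQ (y n))
    simpa using this
  rw [h3] at h2
  have h4 := h2.norm
  simpa using h4

/-- an upper 2-estimate makes a sequence weakly null -/
lemma weakly_null_of_two_estimate (y : ℕ → X) (K : ℝ)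
    (hK : ∀ (s : Finset ℕ) (a : ℕ → ℝ), ‖∑ n ∈ s, a n • y n‖ ≤ K * Real.sqrt (∑ n ∈ s, a n ^ 2))
    (φ : X →L[ℝ] ℝ) : Tendsto (fun n => φ (y n)) atTop (𝓝 0) := by
  have h1 : ∀ s : Finset ℕ, ∑ n ∈ s, φ (y n) ^ 2 ≤ (‖φ‖ * K) ^ 2 := by
    intro s
    set Q := ∑ n ∈ s, φ (y n) ^ 2 with hQ
    have hQ0 : 0 ≤ Q := Finset.sum_nonneg fun _ _ => sq_nonneg _
    have h2 : Q ≤ ‖φ‖ * (K * Real.sqrt Q) := by
      calc Q = φ (∑ n ∈ s, φ (y n) • y n) := by
            rw [map_sum, hQ]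
            refine Finset.sum_congr rfl fun n _ => ?_
            rw [map_smul, smul_eq_mul, sq]
        _ ≤ ‖φ (∑ n ∈ s, φ (y n) • y n)‖ := le_abs_self _
        _ ≤ ‖φ‖ * ‖∑ n ∈ s, φ (y n) • y n‖ := φ.le_opNorm _
        _ ≤ ‖φ‖ * (K * Real.sqrt Q) := by
            exact mul_le_mul_of_nonneg_left (hK s fun n => φ (y n)) (norm_nonneg _)
    rcases hQ0.eq_or_lt with h | h
    · rw [← h]; positivity
    · have hs : 0 < Real.sqrt Q := Real.sqrt_pos.2 h
      have h3 : Real.sqrt Q ≤ ‖φ‖ * K := by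
        have h4 : Real.sqrt Q * Real.sqrt Q ≤ (‖φ‖ * K) * Real.sqrt Q := by
          rw [Real.mul_self_sqrt hQ0]; linarith
        exact le_of_mul_le_mul_right h4 hs
      calc Q = Real.sqrt Q ^ 2 := (Real.sq_sqrt hQ0).symm
        _ ≤ (‖φ‖ * K) ^ 2 := pow_le_pow_left₀ hs.le h3 2
  have h2 : Summable (fun n => φ (y n) ^ 2) :=
    summable_of_sum_le (fun _ => sq_nonneg _) h1
  have h3 := h2.tendsto_atTop_zero
  have h4 : Tendsto (fun n => Real.sqrt (φ (y n) ^ 2)) atTop (𝓝 0) := by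
    have := h3.sqrt
    simpa using this
  simp_rw [Real.sqrt_sq_eq_abs] at h4
  exact (tendsto_zero_iff_abs_tendsto_zero _).2 h4

/-- combination: elements of a weakly null sequence get close to a finite-codimensional subspace -/
lemma weakly_null_near {F : Set X} (hF : Cof F) (y : ℕ → X)
    (hy : ∀ φ : X →L[ℝ] ℝ, Tendsto (fun n => φ (y n)) atTop (𝓝 0)) {ε : ℝ} (hε : 0 < ε) :
    ∃ n, ∃ f ∈ F, ‖y n - f‖ < ε := by
  obtain ⟨S, rfl, hc, hfd⟩ := hF
  have : IsClosed (S : Set X) := hc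
  have := hfd
  have h := tendsto_quot S y hy
  obtain ⟨n, hn⟩ := (h.eventually (gt_mem_nhds hε)).exists
  obtain ⟨f, hf, hf2⟩ := exists_near S (y n) hn
  exact ⟨n, f, hf, hf2⟩

/-- the kernel of a continuous map into a finite-dimensional space -/
lemma Cof_ker {W : Type*} [NormedAddCommGroup W] [NormedSpace ℝ W] [FiniteDimensional ℝ W]
    (Φ : X →L[ℝ] W) : Cof {x : X | Φ x = 0} := by
  refine ⟨LinearMap.ker Φ.toLinearMap, rfl, Φ.isClosed_ker, ?_⟩
  have h1 : FiniteDimensional ℝ (LinearMap.range Φ.toLinearMap) :=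
    FiniteDimensional.finiteDimensional_submodule _
  exact Module.Finite.equiv (LinearMap.quotKerEquivRange Φ.toLinearMap).symm

variable (X) in
/-- equivalent norm data -/
def EqNorm (N : X → ℝ) : Prop :=
  (∀ x y : X, N (x + y) ≤ N x + N y) ∧ (∀ (a : ℝ) (x : X), N (a • x) = |a| * N x) ∧
    ∃ a b : ℝ, 0 < a ∧ ∀ x : X, a * ‖x‖ ≤ N x ∧ N x ≤ b * ‖x‖

variable (X) in
/-- asymptotic uniform convexity -/
def AUC (N : X → ℝ) : Prop :=
  ∀ t : ℝ, 0 < t → ∃ c : ℝ, 0 < c ∧ ∀ x : X, N x = 1 → ∃ F : Set X, Cof F ∧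
    ∀ y ∈ F, N y = 1 → c ≤ N (x + t • y) - 1

lemma EqNorm.zero {N : X → ℝ} (h : EqNorm X N) : N 0 = 0 := by
  have := h.2.1 0 0
  simpa using this

lemma EqNorm.nonneg {N : X → ℝ} (h : EqNorm X N) (x : X) : 0 ≤ N x := by
  obtain ⟨a, b, ha, hab⟩ := h.2.2
  exact le_trans (mul_nonneg ha.le (norm_nonneg _)) (hab x).1

lemma EqNorm.neg {N : X → ℝ} (h : EqNorm X N) (x : X) : N (-x) = N x := by
  have := h.2.1 (-1) x
  simpa using this

/-- in an AUC norm, adding a vector of `F` that is not too small increases the norm -/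
lemma AUC_step {N : X → ℝ} (hN : EqNorm X N) {t c : ℝ} (ht : 0 < t) (hc : 0 < c) {x : X} {F : Set X}
    (hx : 0 < N x) (hF : Cof F)
    (hF2 : ∀ y ∈ F, N y = 1 → c ≤ N ((N x)⁻¹ • x + t • y) - 1) {y : X} (hy : y ∈ F)
    (hy2 : t * N x ≤ N y) : (1 + c) * N x ≤ N (x + y) := by
  have hNy : 0 < N y := lt_of_lt_of_le (mul_pos ht hx) hy2
  obtain ⟨S, rfl, -, -⟩ := hF
  set u : X := (N y)⁻¹ • y with hu
  have huS : u ∈ (S : Set X) := S.smul_mem _ hy
  have hu1 : N u = 1 := by
    rw [hu, hN.2.1, abs_of_pos (inv_pos.2 hNy), inv_mul_cancel₀ hNy.ne']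
  have h1 := hF2 u huS hu1
  -- convexity along the ray
  set s : ℝ := N y / N x with hs
  have hst : t ≤ s := by rw [hs, le_div_iff₀ hx]; exact hy2
  have hs0 : 0 < s := lt_of_lt_of_le ht hst
  set x' : X := (N x)⁻¹ • x with hx'
  have hx'1 : N x' = 1 := by
    rw [hx', hN.2.1, abs_of_pos (inv_pos.2 hx), inv_mul_cancel₀ hx.ne']
  have h2 : x' + t • u = (1 - t / s) • x' + (t / s) • (x' + s • u) := by
    have h : (t / s) * s = t := by field_simp
    have h' : (1 - t / s) • x' + (t / s) • (x' + s • u) = x' + ((t / s) * s) • u := by module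
    rw [h', h]
  have hts : t / s ≤ 1 := (div_le_one hs0).2 hst
  have hts0 : 0 < t / s := div_pos ht hs0
  have h3 : N (x' + t • u) ≤ (1 - t / s) + (t / s) * N (x' + s • u) := by
    rw [h2]
    refine (hN.1 _ _).trans ?_
    rw [hN.2.1 (1 - t / s) x', hN.2.1 (t / s) (x' + s • u), hx'1,
      abs_of_nonneg (sub_nonneg.2 hts), abs_of_pos hts0, mul_one]
  have h4 : 1 + c ≤ N (x' + s • u) := by
    have h5 : 1 + c ≤ (1 - t / s) + (t / s) * N (x' + s • u) := by linarith
    by_contra h6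
    push Not at h6
    have h7 : (t / s) * N (x' + s • u) < (t / s) * (1 + c) := mul_lt_mul_of_pos_left h6 hts0
    nlinarith
  have h5 : x + y = (N x) • (x' + s • u) := by
    have e1 : N x * (N x)⁻¹ = 1 := mul_inv_cancel₀ hx.ne'
    have e2 : N x * s * (N y)⁻¹ = 1 := by rw [hs]; field_simp
    have e3 : (N x) • (x' + s • u) = (N x * (N x)⁻¹) • x + (N x * s * (N y)⁻¹) • y := by
      rw [hx', hu]; module
    rw [e3, e1, e2, one_smul, one_smul]
  rw [h5, hN.2.1, abs_of_pos hx, mul_comm]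
  exact mul_le_mul_of_nonneg_left h4 hx.le

/-- The criterion: bounded weakly-null trees of arbitrary height exclude AUC norms. -/
theorem not_AUC (δ M : ℝ) (hδ : 0 < δ) (S : ℕ → ℕ → Set X)
    (h0 : ∀ k, ∃ x ∈ S k 0, δ ≤ ‖x‖)
    (hM : ∀ k j, j ≤ k → ∀ x ∈ S k j, ‖x‖ ≤ M)
    (hstep : ∀ k j, j < k → ∀ x ∈ S k j, ∀ F : Set X, Cof F → ∀ ε : ℝ, 0 < ε →
      ∃ y f, x + y ∈ S k (j + 1) ∧ f ∈ F ∧ ‖y - f‖ < ε ∧ δ ≤ ‖y‖)
    (N : X → ℝ) (hN : EqNorm X N) : ¬ AUC X N := by
  intro hA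
  obtain ⟨a, b, ha, hab⟩ := hN.2.2
  -- bounds
  have hMpos : 0 < M := by
    obtain ⟨x, hx, hx2⟩ := h0 0
    exact lt_of_lt_of_le (lt_of_lt_of_le hδ hx2) (hM 0 0 le_rfl x hx)
  have hb : 0 < b := by
    obtain ⟨x, hx, hx2⟩ := h0 0
    have h1 := hab x
    have h2 : 0 < ‖x‖ := lt_of_lt_of_le hδ hx2
    by_contra h3
    push Not at h3
    nlinarith [mul_pos ha h2]
  set t : ℝ := a * δ / 2 / (b * M) with ht
  have htpos : 0 < t := by positivity
  obtain ⟨c, hc, hcx⟩ := hA t htpos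
  -- growth
  have key : ∀ k j, j ≤ k → ∃ x ∈ S k j, (1 + c / 2) ^ j * (a * δ) ≤ N x := by
    intro k j
    induction j with
    | zero =>
      intro _
      obtain ⟨x, hx, hx2⟩ := h0 k
      refine ⟨x, hx, ?_⟩
      rw [pow_zero, one_mul]
      exact le_trans (mul_le_mul_of_nonneg_left hx2 ha.le) (hab x).1
    | succ j ih =>
      intro hj
      obtain ⟨x, hx, hx2⟩ := ih (by omega)
      have hpow : 1 ≤ (1 + c / 2) ^ j := one_le_pow₀ (by linarith)
      have hNx0 : a * δ ≤ N x := by nlinarith [mul_pos ha hδ]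
      have hNx : 0 < N x := lt_of_lt_of_le (mul_pos ha hδ) hNx0
      set x' : X := (N x)⁻¹ • x with hx'
      have hx'1 : N x' = 1 := by
        rw [hx', hN.2.1, abs_of_pos (inv_pos.2 hNx), inv_mul_cancel₀ hNx.ne']
      obtain ⟨F, hF, hF2⟩ := hcx x' hx'1
      set ε : ℝ := min (δ / 2) (min (a * δ / (2 * b)) (c / 2 * (a * δ) / b)) with hεdef
      have hε : 0 < ε := by
        refine lt_min (by positivity) (lt_min (by positivity) (by positivity))
      obtain ⟨y, f, hy1, hf, hyf, hyδ⟩ := hstep k j (by omega) x hx F hF ε hε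
      have hNyf : N (y - f) ≤ b * ε := (hab _).2.trans (mul_le_mul_of_nonneg_left hyf.le hb.le)
      have hε1 : b * ε ≤ a * δ / 2 := by
        have : ε ≤ a * δ / (2 * b) := (min_le_right _ _).trans (min_le_left _ _)
        calc b * ε ≤ b * (a * δ / (2 * b)) := mul_le_mul_of_nonneg_left this hb.le
          _ = a * δ / 2 := by field_simp
      have hε2 : b * ε ≤ c / 2 * (a * δ) := by
        have : ε ≤ c / 2 * (a * δ) / b := (min_le_right _ _).trans (min_le_right _ _)
        calc b * ε ≤ b * (c / 2 * (a * δ) / b) := mul_le_mul_of_nonneg_left this hb.le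
          _ = c / 2 * (a * δ) := by field_simp
      have hNf : a * δ / 2 ≤ N f := by
        have h1 : N y ≤ N (y - f) + N f := by
          have := hN.1 (y - f) f
          simpa using this
        have h2 : a * δ ≤ N y := le_trans (mul_le_mul_of_nonneg_left hyδ ha.le) (hab y).1
        linarith
      have hNxM : N x ≤ b * M := (hab x).2.trans (mul_le_mul_of_nonneg_left (hM k j (by omega) x hx) hb.le)
      have htx : t * N x ≤ N f := by
        have : t * (b * M) = a * δ / 2 := by rw [ht]; field_simp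
        calc t * N x ≤ t * (b * M) := mul_le_mul_of_nonneg_left hNxM htpos.le
          _ = a * δ / 2 := this
          _ ≤ N f := hNf
      have hstep2 := AUC_step hN htpos hc hNx hF hF2 hf htx
      have h3 : N (x + f) ≤ N (x + y) + N (y - f) := by
        have e : x + f = (x + y) + (-(y - f)) := by abel
        rw [e]
        refine (hN.1 _ _).trans ?_
        rw [hN.neg]
      refine ⟨x + y, hy1, ?_⟩
      have h4 : (1 + c / 2) * N x ≤ N (x + y) := by nlinarith
      calc (1 + c / 2) ^ (j + 1) * (a * δ) = (1 + c / 2) * ((1 + c / 2) ^ j * (a * δ)) := by ring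
        _ ≤ (1 + c / 2) * N x := mul_le_mul_of_nonneg_left hx2 (by linarith)
        _ ≤ N (x + y) := h4
  have hlim : Tendsto (fun k : ℕ => (1 + c / 2) ^ k * (a * δ)) atTop atTop :=
    (tendsto_pow_atTop_atTop_of_one_lt (by linarith)).atTop_mul_const (mul_pos ha hδ)
  obtain ⟨k, hk⟩ := (hlim.eventually (eventually_gt_atTop (b * M))).exists
  obtain ⟨x, hx, hx2⟩ := key k k le_rfl
  have h1 := (hab x).2.trans (mul_le_mul_of_nonneg_left (hM k k le_rfl x hx) hb.le)
  linarith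

/-- finite-dimensional spaces are AUC -/
lemma AUC_of_finiteDimensional [FiniteDimensional ℝ X] (N : X → ℝ) (hN : EqNorm X N) :
    AUC X N := by
  intro t ht
  refine ⟨1, one_pos, fun x hx => ⟨{0}, ⟨⊥, by simp, isClosed_singleton, inferInstance⟩, ?_⟩⟩
  intro y hy hy1
  rw [Set.mem_singleton_iff] at hy
  rw [hy, hN.zero] at hy1
  norm_num at hy1

lemma eqNorm_norm : EqNorm X (fun x => ‖x‖) :=
  ⟨norm_add_le, fun a x => by simp [norm_smul], 1, 1, one_pos,
    fun x => ⟨by simp, by simp⟩⟩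

lemma infiniteDimensional_of_not_AUC (h : ¬ AUC X (fun x => ‖x‖)) : ¬ FiniteDimensional ℝ X :=
  fun hfd => h (AUC_of_finiteDimensional _ eqNorm_norm)

end Generic

end Crest.Agent.S0166
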