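import Mathlib
import Crest.Prelude.Def_Diamond
import Crest.Agent.S0166Common

set_option autoImplicit false
set_option linter.unusedSectionVars false
set_option linter.unusedVariables false

namespace Crest.Agent.S0166

open Filter Topology
open Crest.AnalysisR

/-! ### distances in the diamonds -/

lemma adj_symm_iff (k : ℕ) (a b : DiamondVertex k) :
    (diamondGraph k).Adj a b ↔ a ≠ b ∧ ((∃ e : DiamondEdge k, diamondSrc k e = a ∧
      diamondTgt k e = b) ∨ ∃ e : DiamondEdge k, diamondSrc k e = b ∧ diamondTgt k e = a) := by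
  unfold diamondGraph
  rw [SimpleGraph.fromRel_adj]

lemma edge_reach (k : ℕ) (e : DiamondEdge k) :
    (diamondGraph k).Reachable (diamondSrc k e) (diamondTgt k e) := by
  by_cases h : diamondSrc k e = diamondTgt k e
  · rw [h]
  · exact SimpleGraph.Adj.reachable ((adj_symm_iff k _ _).2 ⟨h, Or.inl ⟨e, rfl, rfl⟩⟩)

lemma dist_edge (k : ℕ) (e : DiamondEdge k) :
    diamondDist k (diamondSrc k e) (diamondTgt k e) ≤ 1 := by
  unfold diamondDist
  by_cases h : diamondSrc k e = diamondTgt k e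
  · rw [h, SimpleGraph.dist_self]; exact Nat.zero_le _
  · have := SimpleGraph.dist_eq_one_iff_adj.2
      ((adj_symm_iff k _ _).2 ⟨h, Or.inl ⟨e, rfl, rfl⟩⟩)
    exact this.le

lemma preconn : ∀ k : ℕ, (diamondGraph k).Preconnected := by
  intro k
  induction k with
  | zero =>
    have h := edge_reach 0 ()
    have h1 : (diamondGraph 0).Reachable (false : Bool) (true : Bool) := h
    intro u v
    have hu : (u : Bool) = false ∨ (u : Bool) = true := (Bool.eq_false_or_eq_true u).symm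
    have hv : (v : Bool) = false ∨ (v : Bool) = true := (Bool.eq_false_or_eq_true v).symm
    rcases hu with hu | hu <;> rcases hv with hv | hv <;> subst hu <;> subst hv
    · exact SimpleGraph.Reachable.refl _
    · exact h1
    · exact h1.symm
    · exact SimpleGraph.Reachable.refl _
  | succ k ih =>
    -- every midpoint is reachable from the source
    have hs : ∀ (e : DiamondEdge k) (i : ℕ), (diamondGraph (k + 1)).Reachable
        (Sum.inl (diamondSrc k e) : DiamondVertex k ⊕ (DiamondEdge k × ℕ)) (Sum.inr (e, i)) :=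
      fun e i => edge_reach (k + 1) (e, i, false)
    have ht : ∀ (e : DiamondEdge k) (i : ℕ), (diamondGraph (k + 1)).Reachable
        (Sum.inr (e, i)) (Sum.inl (diamondTgt k e) : DiamondVertex k ⊕ (DiamondEdge k × ℕ)) :=
      fun e i => edge_reach (k + 1) (e, i, true)
    have hll : ∀ u v : DiamondVertex k, (diamondGraph (k + 1)).Reachable
        (Sum.inl u : DiamondVertex k ⊕ (DiamondEdge k × ℕ)) (Sum.inl v) := by
      intro u v
      obtain ⟨p⟩ := ih u v
      induction p with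
      | nil => exact SimpleGraph.Reachable.refl _
      | cons hadj p ih2 =>
        refine SimpleGraph.Reachable.trans ?_ ih2
        obtain ⟨-, ⟨e, he1, he2⟩ | ⟨e, he1, he2⟩⟩ := (adj_symm_iff k _ _).1 hadj
        · rw [← he1, ← he2]
          exact (hs e 0).trans (ht e 0)
        · rw [← he1, ← he2]
          exact ((hs e 0).trans (ht e 0)).symm
    intro u v
    have key : ∀ w : DiamondVertex k ⊕ (DiamondEdge k × ℕ), ∃ w' : DiamondVertex k,
        (diamondGraph (k + 1)).Reachable (Sum.inl w' : DiamondVertex k ⊕ (DiamondEdge k × ℕ)) w := by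
      intro w
      rcases w with w | ⟨e, i⟩
      · exact ⟨w, SimpleGraph.Reachable.refl _⟩
      · exact ⟨_, hs e i⟩
    obtain ⟨u', hu'⟩ := key u
    obtain ⟨v', hv'⟩ := key v
    exact hu'.symm.trans ((hll u' v').trans hv')

/-- Lipschitz functions bound the distance from below -/
lemma lip_dist (k : ℕ) (g : DiamondVertex k → ℝ)
    (hg : ∀ e : DiamondEdge k, |g (diamondTgt k e) - g (diamondSrc k e)| ≤ 1)
    (u v : DiamondVertex k) : |g v - g u| ≤ diamondDist k u v := by
  obtain ⟨p, hp⟩ := SimpleGraph.Reachable.exists_walk_length_eq_dist (preconn k u v)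
  unfold diamondDist
  rw [← hp]
  clear hp
  induction p with
  | nil => simp
  | @cons a b c hadj p ih =>
    have h1 : |g b - g a| ≤ 1 := by
      obtain ⟨-, ⟨e, he1, he2⟩ | ⟨e, he1, he2⟩⟩ := (adj_symm_iff k _ _).1 hadj
      · rw [← he1, ← he2]; exact hg e
      · rw [← he1, ← he2, abs_sub_comm]; exact hg e
    rw [SimpleGraph.Walk.length_cons]
    push_cast
    have h2 : g c - g a = (g c - g b) + (g b - g a) := by ring
    rw [h2]
    exact (abs_add_le _ _).trans (add_le_add ih h1)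

lemma dist_inl (k : ℕ) (u v : DiamondVertex k) :
    2 * (diamondDist k u v : ℝ) ≤ diamondDist (k + 1) (Sum.inl u) (Sum.inl v) := by
  have h := lip_dist (k + 1)
    (fun w : DiamondVertex k ⊕ (DiamondEdge k × ℕ) => match w with
      | Sum.inl w => 2 * (diamondDist k u w : ℝ)
      | Sum.inr (e, _) => (diamondDist k u (diamondSrc k e) : ℝ) +
          diamondDist k u (diamondTgt k e)) ?_ (Sum.inl u) (Sum.inl v)
  · have h0 : diamondDist k u u = 0 := by unfold diamondDist; exact SimpleGraph.dist_self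
    simp only [h0] at h
    refine le_trans (le_trans ?_ (le_abs_self _)) h
    simp
  · rintro ⟨e, i, b⟩
    have he := dist_edge k e
    have h1 : diamondDist k u (diamondTgt k e) ≤ diamondDist k u (diamondSrc k e) +
        diamondDist k (diamondSrc k e) (diamondTgt k e) := by
      unfold diamondDist
      exact SimpleGraph.Reachable.dist_triangle_left (preconn k _ _) _
    have h2 : diamondDist k u (diamondSrc k e) ≤ diamondDist k u (diamondTgt k e) +
        diamondDist k (diamondSrc k e) (diamondTgt k e) := by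
      unfold diamondDist
      rw [SimpleGraph.dist_comm (u := diamondSrc k e)]
      exact SimpleGraph.Reachable.dist_triangle_left (preconn k _ _) _
    have h3 : (diamondDist k u (diamondTgt k e) : ℝ) ≤ diamondDist k u (diamondSrc k e) + 1 := by
      have : diamondDist k u (diamondTgt k e) ≤ diamondDist k u (diamondSrc k e) + 1 := by omega
      exact_mod_cast this
    have h4 : (diamondDist k u (diamondSrc k e) : ℝ) ≤ diamondDist k u (diamondTgt k e) + 1 := by
      have : diamondDist k u (diamondSrc k e) ≤ diamondDist k u (diamondTgt k e) + 1 := by omega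
      exact_mod_cast this
    cases b
    · show |((diamondDist k u (diamondSrc k e) : ℝ) + diamondDist k u (diamondTgt k e)) -
        2 * (diamondDist k u (diamondSrc k e) : ℝ)| ≤ 1
      rw [abs_le]; constructor <;> linarith
    · show |2 * (diamondDist k u (diamondTgt k e) : ℝ) -
        ((diamondDist k u (diamondSrc k e) : ℝ) + diamondDist k u (diamondTgt k e))| ≤ 1
      rw [abs_le]; constructor <;> linarith

open Classical in
lemma dist_mid (k : ℕ) (e : DiamondEdge k) {i l : ℕ} (hil : i ≠ l) :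
    (2 : ℝ) ≤ diamondDist (k + 1) (Sum.inr (e, i)) (Sum.inr (e, l)) := by
  have h := lip_dist (k + 1)
    (fun w : DiamondVertex k ⊕ (DiamondEdge k × ℕ) => match w with
      | Sum.inl w => (1:ℝ)
      | Sum.inr (e, j) => if j = l then 2 else 0) ?_ (Sum.inr (e, i)) (Sum.inr (e, l))
  · simp only [hil, if_false, if_true, sub_zero] at h
    exact (le_abs_self _).trans h
  · rintro ⟨e, j, b⟩
    cases b
    · show |(if j = l then (2:ℝ) else 0) - 1| ≤ 1
      split_ifs <;> norm_num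
    · show |1 - (if j = l then (2:ℝ) else 0)| ≤ 1
      split_ifs <;> norm_num

lemma dist_zero : (1 : ℝ) ≤ diamondDist 0 (false : Bool) (true : Bool) := by
  have h := lip_dist 0 (fun w : Bool => if w then (1:ℝ) else 0) (by
    intro e
    show |(1:ℝ) - 0| ≤ 1
    norm_num) (false : Bool) (true : Bool)
  simp only [if_true] at h
  refine le_trans ?_ h
  norm_num

/-! ### spaces with the midpoint-square property -/

section Star

variable {X : Type*} [NormedAddCommGroup X] [NormedSpace ℝ X]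

variable (X) in
/-- the square midpoint property -/
def Star : Prop :=
  ∀ x : X, ∀ M η : ℝ, 0 < η → ∃ F : Set X, Cof F ∧ ∀ y ∈ F, ‖y‖ ≤ M →
    ‖x‖ ^ 2 + ‖y‖ ^ 2 / 4 - η ≤ (‖x + y‖ ^ 2 + ‖x - y‖ ^ 2) / 2

lemma Cof_inter {F G : Set X} (hF : Cof F) (hG : Cof G) : Cof (F ∩ G) := by
  obtain ⟨S, rfl, hc, hfd⟩ := hF
  obtain ⟨T, rfl, hc2, hfd2⟩ := hG
  refine ⟨S ⊓ T, rfl, hc.inter hc2, ?_⟩
  have := hfd
  have := hfd2
  have h1 : LinearMap.ker (S.mkQ.prod T.mkQ) = S ⊓ T := by
    rw [LinearMap.ker_prod, Submodule.ker_mkQ, Submodule.ker_mkQ]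
  have h2 : FiniteDimensional ℝ (LinearMap.range (S.mkQ.prod T.mkQ)) :=
    FiniteDimensional.finiteDimensional_submodule _
  have h3 := Module.Finite.equiv (LinearMap.quotKerEquivRange (S.mkQ.prod T.mkQ)).symm
  rw [h1] at h3
  exact h3

theorem star_key (h : Star X) {x : X} (hx : ‖x‖ = 1) {t η : ℝ} (ht : 0 < t) (hη : 0 < η) :
    ∃ F : Set X, Cof F ∧ ∀ y ∈ F, ‖y‖ = 1 → 1 ≤ ‖x + t • y‖ ∧ 1 ≤ ‖x - t • y‖ ∧
      1 + t ^ 2 / 4 - η ≤ (‖x + t • y‖ ^ 2 + ‖x - t • y‖ ^ 2) / 2 := by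
  obtain ⟨ψ, hψ1, hψ2⟩ := exists_dual_vector'' ℝ x
  obtain ⟨F, hF, hF2⟩ := h x t η hη
  have hψx : ψ x = 1 := by simpa [hx] using hψ2
  refine ⟨F ∩ {y | ψ y = 0}, Cof_inter hF (Cof_ker ψ), ?_⟩
  rintro y ⟨hy, hy0⟩ hy1
  have hy0' : ψ y = 0 := hy0
  refine ⟨?_, ?_, ?_⟩
  · have h2 : ψ (x + t • y) = 1 := by rw [map_add, map_smul, hy0', smul_zero, add_zero, hψx]
    calc (1:ℝ) = ‖ψ (x + t • y)‖ := by rw [h2, norm_one]
      _ ≤ ‖ψ‖ * ‖x + t • y‖ := ψ.le_opNorm _
      _ ≤ 1 * ‖x + t • y‖ := mul_le_mul_of_nonneg_right hψ1 (norm_nonneg _)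
      _ = _ := one_mul _
  · have h2 : ψ (x - t • y) = 1 := by rw [map_sub, map_smul, hy0', smul_zero, sub_zero, hψx]
    calc (1:ℝ) = ‖ψ (x - t • y)‖ := by rw [h2, norm_one]
      _ ≤ ‖ψ‖ * ‖x - t • y‖ := ψ.le_opNorm _
      _ ≤ 1 * ‖x - t • y‖ := mul_le_mul_of_nonneg_right hψ1 (norm_nonneg _)
      _ = _ := one_mul _
  · obtain ⟨S, rfl, -, -⟩ := hF
    have hn : ‖t • y‖ = t := by
      rw [norm_smul, hy1, mul_one, Real.norm_eq_abs, abs_of_pos ht]
    have h1 := hF2 (t • y) (S.smul_mem t hy) hn.le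
    rw [hn, hx] at h1
    linarith

lemma max_bound {U V w η : ℝ} (hw : 0 ≤ w) (hη : 0 < η) (hU : 1 ≤ U) (hV : 1 ≤ V)
    (h : 1 + w / 4 - η ≤ (U ^ 2 + V ^ 2) / 2) :
    Real.sqrt (1 + w / 4) - η ≤ max U V := by
  set R := Real.sqrt (1 + w / 4) with hR
  have hR2 : R ^ 2 = 1 + w / 4 := Real.sq_sqrt (by linarith)
  have hR1 : 1 ≤ R := Real.one_le_sqrt.2 (by linarith)
  set M := max U V with hM
  have hMU : U ≤ M := le_max_left _ _
  have hMV : V ≤ M := le_max_right _ _
  have h1 : (U ^ 2 + V ^ 2) / 2 ≤ M ^ 2 := by nlinarith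
  by_contra hcon
  push Not at hcon
  nlinarith

lemma avg_bound_two {U V w η : ℝ} (hw : 0 ≤ w) (hη : 0 < η) (hU : 1 ≤ U) (hV : 1 ≤ V)
    (h : 1 + w / 4 - η ≤ (U ^ 2 + V ^ 2) / 2) :
    (Real.sqrt (1 + w / 4) - 1) / 2 - η ≤ (U + V) / 2 - 1 := by
  have h1 := max_bound hw hη hU hV h
  rcases max_cases U V with ⟨h2, -⟩ | ⟨h2, -⟩ <;> rw [h2] at h1 <;> linarith

lemma avg_bound_one {U V w η : ℝ} (hw : 0 ≤ w) (hη : 0 < η) (hU : 1 ≤ U) (hV : 1 ≤ V)
    (h : 1 + w / 4 - η ≤ (U ^ 2 + V ^ 2) / 2) :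
    (Real.sqrt (1 + w / 12) - 1) - η ≤ (U + V) / 2 - 1 := by
  set R := Real.sqrt (1 + w / 12) with hR
  have hR2 : R ^ 2 = 1 + w / 12 := Real.sq_sqrt (by linarith)
  have hR1 : 1 ≤ R := Real.one_le_sqrt.2 (by linarith)
  set S := (U + V) / 2 with hS
  have h1 : 1 ≤ S := by rw [hS]; linarith
  -- d = (U - V)/2, |d| ≤ S - 1
  have h2 : ((U - V) / 2) ^ 2 ≤ (S - 1) ^ 2 := by
    apply sq_le_sq'
    · rw [hS]; linarith
    · rw [hS]; linarith
  have h3 : (U ^ 2 + V ^ 2) / 2 = S ^ 2 + ((U - V) / 2) ^ 2 := by rw [hS]; ring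
  have h4 : 1 + w / 8 - η / 2 ≤ S ^ 2 := by nlinarith
  by_contra hcon
  push Not at hcon
  have h5 : S < R - η := by linarith
  nlinarith

/-- pigeonhole in the quotient -/
lemma pigeon {F : Set X} (hF : Cof F) (z : ℕ → X) (C : ℝ) (hz : ∀ i, ‖z i‖ ≤ C) {ε : ℝ}
    (hε : 0 < ε) : ∃ i l : ℕ, i ≠ l ∧ ∃ f ∈ F, ‖(z i - z l) - f‖ < ε := by
  obtain ⟨S, rfl, hc, hfd⟩ := hF
  have : IsClosed (S : Set X) := hc
  have := hfd
  set π : X →L[ℝ] (X ⧸ S) := ⟨S.mkQ, S.continuous_mkQ⟩ with hπ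
  have hπn : ∀ z : X, ‖π z‖ ≤ ‖z‖ := fun z => Submodule.Quotient.norm_mk_le S z
  have : ProperSpace (X ⧸ S) := FiniteDimensional.proper ℝ _
  obtain ⟨v, -, φ, hφ, hlim⟩ := (isCompact_closedBall (0 : X ⧸ S) C).tendsto_subseq
    (x := fun i => π (z i)) (fun i => by
      rw [mem_closedBall_zero_iff]; exact (hπn _).trans (hz i))
  have h1 := hlim.cauchySeq
  rw [Metric.cauchySeq_iff'] at h1
  obtain ⟨N, hN⟩ := h1 ε hε
  have h2 := hN (N + 1) (by omega)
  rw [dist_eq_norm] at h2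
  refine ⟨φ (N + 1), φ N, (hφ (Nat.lt_succ_self N)).ne', ?_⟩
  simp only [Function.comp] at h2
  rw [← map_sub] at h2
  exact exists_near S _ h2

theorem diamond_aux (h : Star X) (k : ℕ) : ∀ (s : ℝ), 0 < s → ∀ (f : DiamondVertex k → X) (C : ℝ),
    (∀ e, ‖f (diamondTgt k e) - f (diamondSrc k e)‖ ≤ C) →
    (∀ u v, s * (diamondDist k u v : ℝ) ≤ ‖f u - f v‖) → ∀ ε : ℝ, 0 < ε →
    ∃ e : DiamondEdge k, s ^ 2 * (1 + k / 4) - ε ≤ ‖f (diamondTgt k e) - f (diamondSrc k e)‖ ^ 2 := by
  induction k with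
  | zero =>
    intro s hs f C hC hf ε hε
    refine ⟨(), ?_⟩
    have h1 := hf (false : Bool) (true : Bool)
    have h2 := dist_zero
    have h3 : s ≤ ‖f (diamondTgt 0 ()) - f (diamondSrc 0 ())‖ := by
      show s ≤ ‖f (true : Bool) - f (false : Bool)‖
      rw [norm_sub_rev]
      nlinarith
    simp only [Nat.cast_zero, zero_div, add_zero, mul_one]
    nlinarith
  | succ k ih =>
    intro s hs f C hC hf ε hε
    obtain ⟨e, he⟩ := ih (2 * s) (by positivity) (fun v => f (Sum.inl v)) (C + C) (fun e => by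
      have h1 := hC (e, 0, false)
      have h2 := hC (e, 0, true)
      have h1' : ‖f (Sum.inr (e, 0)) - f (Sum.inl (diamondSrc k e))‖ ≤ C := h1
      have h2' : ‖f (Sum.inl (diamondTgt k e)) - f (Sum.inr (e, 0))‖ ≤ C := h2
      have e3 : f (Sum.inl (diamondTgt k e)) - f (Sum.inl (diamondSrc k e)) =
        (f (Sum.inl (diamondTgt k e)) - f (Sum.inr (e, 0))) +
        (f (Sum.inr (e, 0)) - f (Sum.inl (diamondSrc k e))) := by abel
      show ‖f (Sum.inl (diamondTgt k e)) - f (Sum.inl (diamondSrc k e))‖ ≤ C + C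
      rw [e3]
      exact (norm_add_le _ _).trans (add_le_add h2' h1')) (fun u v => by
      have h1 := hf (Sum.inl u) (Sum.inl v)
      have h2 := dist_inl k u v
      refine le_trans ?_ h1
      nlinarith) ε hε
    -- the configuration
    set U : X := f (Sum.inl (diamondSrc k e)) with hU
    set V : X := f (Sum.inl (diamondTgt k e)) with hV
    set m : ℕ → X := fun i => f (Sum.inr (e, i)) with hm
    have hmU : ∀ i, ‖m i - U‖ ≤ C := fun i => hC (e, i, false)
    have hmV : ∀ i, ‖V - m i‖ ≤ C := fun i => hC (e, i, true)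
    have hC0 : 0 ≤ C := (norm_nonneg _).trans (hmU 0)
    set x : X := (1 / 2 : ℝ) • (V - U) with hx
    have hxn : ‖x‖ = ‖V - U‖ / 2 := by
      rw [hx, norm_smul, Real.norm_eq_abs, abs_of_pos (by norm_num)]; ring
    set z : ℕ → X := fun i => m i - (1 / 2 : ℝ) • (U + V) with hz
    have hzC : ∀ i, ‖z i‖ ≤ C := by
      intro i
      have e1 : z i = (1 / 2 : ℝ) • ((m i - U) - (V - m i)) := by
        rw [hz]; module
      rw [e1, norm_smul, Real.norm_eq_abs, abs_of_pos (by norm_num)]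
      have := norm_sub_le (m i - U) (V - m i)
      have h1 := hmU i
      have h2 := hmV i
      linarith
    obtain ⟨F, hF, hF2⟩ := h x (C + 1) (ε / 4) (by positivity)
    -- choice of precision
    set B : ℝ := ‖x‖ + (C + 1) with hB
    have hB0 : 0 < B := by positivity
    set δ : ℝ := min (1 / 2) (ε / (16 * (B + 1))) with hδ
    have hδ0 : 0 < δ := lt_min (by norm_num) (by positivity)
    have hδ1 : δ ≤ 1 / 2 := min_le_left _ _
    have hδ2 : δ * (16 * (B + 1)) ≤ ε := by
      have h1 : δ ≤ ε / (16 * (B + 1)) := min_le_right _ _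
      rwa [le_div_iff₀ (by positivity)] at h1
    obtain ⟨i, l, hil, g, hg, hgd⟩ := pigeon hF z C hzC hδ0
    set y : X := (1 / 2 : ℝ) • (z i - z l) with hy
    set y' : X := (1 / 2 : ℝ) • g with hy'
    have hyy : ‖y - y'‖ ≤ δ := by
      have e1 : y - y' = (1 / 2 : ℝ) • ((z i - z l) - g) := by rw [hy, hy']; module
      rw [e1, norm_smul, Real.norm_eq_abs, abs_of_pos (by norm_num)]
      linarith
    have hyC : ‖y‖ ≤ C := by
      rw [hy, norm_smul, Real.norm_eq_abs, abs_of_pos (by norm_num)]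
      have := norm_sub_le (z i) (z l)
      have h1 := hzC i
      have h2 := hzC l
      linarith
    have hy'C : ‖y'‖ ≤ C + 1 := by
      have h1 : ‖y'‖ ≤ ‖y‖ + ‖y - y'‖ := by
        have := norm_sub_le y (y - y')
        simpa using this
      linarith
    have hy'F : y' ∈ F := by
      obtain ⟨S, rfl, -, -⟩ := hF
      exact S.smul_mem _ hg
    have hst := hF2 y' hy'F hy'C
    -- lower bound of ‖y‖
    have hys : s ≤ ‖y‖ := by
      have h1 := hf (Sum.inr (e, i)) (Sum.inr (e, l))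
      have h2 := dist_mid k e hil
      have h3 : ‖y‖ = ‖m i - m l‖ / 2 := by
        have e1 : y = (1 / 2 : ℝ) • (m i - m l) := by rw [hy, hz]; module
        rw [e1, norm_smul, Real.norm_eq_abs, abs_of_pos (by norm_num)]; ring
      rw [h3]
      have h4 : s * 2 ≤ ‖m i - m l‖ := le_trans (by nlinarith) h1
      linarith
    have hy's : s - δ ≤ ‖y'‖ := by
      have h1 : ‖y‖ ≤ ‖y'‖ + ‖y - y'‖ := by
        have := norm_add_le y' (y - y')
        simpa using this
      linarith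
    -- the four edges
    set L : ℝ := max (max ‖m i - U‖ ‖V - m i‖) (max ‖m l - U‖ ‖V - m l‖) with hL
    have hL1 : ‖m i - U‖ ≤ L := (le_max_left _ _).trans (le_max_left _ _)
    have hL2 : ‖V - m i‖ ≤ L := (le_max_right _ _).trans (le_max_left _ _)
    have hL3 : ‖m l - U‖ ≤ L := (le_max_left _ _).trans (le_max_right _ _)
    have hL4 : ‖V - m l‖ ≤ L := (le_max_right _ _).trans (le_max_right _ _)
    have hL0 : 0 ≤ L := (norm_nonneg _).trans hL1
    have hLC : L ≤ C := max_le (max_le (hmU i) (hmV i)) (max_le (hmU l) (hmV l))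
    have hxy1 : ‖x + y‖ ≤ L := by
      have e1 : x + y = (1 / 2 : ℝ) • ((m i - U) + (V - m l)) := by
        rw [hx, hy, hz]; module
      rw [e1, norm_smul, Real.norm_eq_abs, abs_of_pos (by norm_num)]
      have := norm_add_le (m i - U) (V - m l)
      linarith
    have hxy2 : ‖x - y‖ ≤ L := by
      have e1 : x - y = (1 / 2 : ℝ) • ((m l - U) + (V - m i)) := by
        rw [hx, hy, hz]; module
      rw [e1, norm_smul, Real.norm_eq_abs, abs_of_pos (by norm_num)]
      have := norm_add_le (m l - U) (V - m i)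
      linarith
    have hxy1' : ‖x + y'‖ ≤ L + δ := by
      have e1 : x + y' = (x + y) - (y - y') := by abel
      rw [e1]
      exact (norm_sub_le _ _).trans (add_le_add hxy1 hyy)
    have hxy2' : ‖x - y'‖ ≤ L + δ := by
      have e1 : x - y' = (x - y) + (y - y') := by abel
      rw [e1]
      exact (norm_add_le _ _).trans (add_le_add hxy2 hyy)
    have h1 : (‖x + y'‖ ^ 2 + ‖x - y'‖ ^ 2) / 2 ≤ (L + δ) ^ 2 := by
      have a1 := pow_le_pow_left₀ (norm_nonneg _) hxy1' 2
      have a2 := pow_le_pow_left₀ (norm_nonneg _) hxy2' 2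
      linarith
    have hsC : s ≤ C := hys.trans hyC
    have h2 : s ^ 2 - 2 * C * δ ≤ ‖y'‖ ^ 2 := by
      by_cases hsd : δ ≤ s
      · have a1 := pow_le_pow_left₀ (by linarith : 0 ≤ s - δ) hy's 2
        have a2 : s * δ ≤ C * δ := mul_le_mul_of_nonneg_right hsC hδ0.le
        have a3 : (s - δ) ^ 2 = s ^ 2 - 2 * (s * δ) + δ ^ 2 := by ring
        have a4 : 2 * C * δ = 2 * (C * δ) := by ring
        have a5 := sq_nonneg δ
        rw [a3] at a1
        rw [a4]
        linarith
      · push Not at hsd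
        have a1 : s * s ≤ C * δ := mul_le_mul hsC hsd.le hs.le hC0
        have a2 : 0 ≤ C * δ := by positivity
        have a3 := sq_nonneg ‖y'‖
        have a4 : 2 * C * δ = 2 * (C * δ) := by ring
        rw [a4, sq s]
        linarith
    have hx0 : 0 ≤ ‖x‖ := norm_nonneg x
    have hCB : C ≤ B := by rw [hB]; linarith
    have h3 : (L + δ) ^ 2 ≤ L ^ 2 + 2 * B * δ + δ := by
      have a1 : L * δ ≤ B * δ := mul_le_mul_of_nonneg_right (hLC.trans hCB) hδ0.le
      have a2 : δ * δ ≤ 1 * δ := mul_le_mul_of_nonneg_right (by linarith) hδ0.le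
      have a3 : (L + δ) ^ 2 = L ^ 2 + 2 * (L * δ) + δ * δ := by ring
      have a4 : 2 * B * δ = 2 * (B * δ) := by ring
      rw [a3, a4]
      linarith
    have h4 : (2 * s) ^ 2 * (1 + (k : ℝ) / 4) - ε ≤ 4 * ‖x‖ ^ 2 := by
      rw [hxn]
      have : 4 * (‖V - U‖ / 2) ^ 2 = ‖V - U‖ ^ 2 := by ring
      rw [this]; exact he
    have h5 : s ^ 2 * (1 + ((k + 1 : ℕ) : ℝ) / 4) - ε ≤ L ^ 2 := by
      push_cast
      have a1 : C * δ ≤ B * δ := mul_le_mul_of_nonneg_right hCB hδ0.le
      have a3 : δ * (16 * (B + 1)) = 16 * (B * δ) + 16 * δ := by ring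
      have a4 : s ^ 2 * (1 + ((k : ℝ) + 1) / 4) = s ^ 2 * (1 + (k : ℝ) / 4) + s ^ 2 / 4 := by ring
      have a5 : (2 * s) ^ 2 * (1 + (k : ℝ) / 4) = 4 * (s ^ 2 * (1 + (k : ℝ) / 4)) := by ring
      have a6 : 2 * C * δ = 2 * (C * δ) := by ring
      have a7 : 2 * B * δ = 2 * (B * δ) := by ring
      have a8 : 0 ≤ B * δ := by positivity
      rw [a3] at hδ2
      rw [a5] at h4
      rw [a6] at h2
      rw [a7] at h3
      rw [a4]
      linarith
    -- choose the best edge
    have h6 : ∃ e' : DiamondEdge (k + 1), L ≤ ‖f (diamondTgt (k + 1) e') - f (diamondSrc (k + 1) e')‖ := by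
      rcases max_cases (max ‖m i - U‖ ‖V - m i‖) (max ‖m l - U‖ ‖V - m l‖) with ⟨a, -⟩ | ⟨a, -⟩
      · rcases max_cases ‖m i - U‖ ‖V - m i‖ with ⟨b, -⟩ | ⟨b, -⟩
        · exact ⟨(e, i, false), by rw [hL, a, b]; exact le_rfl⟩
        · exact ⟨(e, i, true), by rw [hL, a, b]; exact le_rfl⟩
      · rcases max_cases ‖m l - U‖ ‖V - m l‖ with ⟨b, -⟩ | ⟨b, -⟩
        · exact ⟨(e, l, false), by rw [hL, a, b]; exact le_rfl⟩
        · exact ⟨(e, l, true), by rw [hL, a, b]; exact le_rfl⟩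
    obtain ⟨e', he'⟩ := h6
    refine ⟨e', h5.trans ?_⟩
    exact pow_le_pow_left₀ hL0 he' 2

/-- the distortion bound -/
theorem diamond_bound (h : Star X) (k : ℕ) (f : DiamondVertex k → X) (D : ℝ)
    (hf : ∃ s : ℝ, 0 < s ∧ ∀ u v : DiamondVertex k,
      s * (diamondDist k u v : ℝ) ≤ ‖f u - f v‖ ∧ ‖f u - f v‖ ≤ D * s * (diamondDist k u v : ℝ)) :
    1 + (k : ℝ) / 4 ≤ D ^ 2 := by
  obtain ⟨s, hs, hf⟩ := hf
  have hedge : ∀ e, ‖f (diamondTgt k e) - f (diamondSrc k e)‖ ≤ |D| * s := by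
    intro e
    have h1 := (hf (diamondSrc k e) (diamondTgt k e)).2
    have h2 : (diamondDist k (diamondSrc k e) (diamondTgt k e) : ℝ) ≤ 1 := by
      exact_mod_cast dist_edge k e
    rw [norm_sub_rev]
    refine h1.trans ?_
    calc D * s * (diamondDist k (diamondSrc k e) (diamondTgt k e) : ℝ)
        ≤ |D| * s * (diamondDist k (diamondSrc k e) (diamondTgt k e) : ℝ) := by
          refine mul_le_mul_of_nonneg_right ?_ (Nat.cast_nonneg _)
          exact mul_le_mul_of_nonneg_right (le_abs_self D) hs.le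
      _ ≤ |D| * s * 1 := mul_le_mul_of_nonneg_left h2 (by positivity)
      _ = |D| * s := mul_one _
  have key : ∀ ε : ℝ, 0 < ε → s ^ 2 * (1 + (k : ℝ) / 4) - ε ≤ D ^ 2 * s ^ 2 := by
    intro ε hε
    obtain ⟨e, he⟩ := diamond_aux h k s hs f (|D| * s) hedge (fun u v => (hf u v).1) ε hε
    refine he.trans ?_
    have h1 := pow_le_pow_left₀ (norm_nonneg _) (hedge e) 2
    rw [mul_pow, sq_abs] at h1
    exact h1
  have h2 : s ^ 2 * (1 + (k : ℝ) / 4) ≤ D ^ 2 * s ^ 2 := by
    refine le_of_forall_pos_le_add fun ε hε => ?_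
    have := key ε hε
    linarith
  have hs2 : 0 < s ^ 2 := by positivity
  rw [mul_comm] at h2
  exact le_of_mul_le_mul_right h2 hs2

end Star

end Crest.Agent.S0166
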