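import Mathlib
import Crest.Agent.S0166Star

set_option autoImplicit false
set_option linter.unusedSectionVars false
set_option linter.unusedVariables false

namespace Crest.Agent.S0166

open Filter Topology
open scoped ENNReal

section Gen

variable {X Y : Type*} [NormedAddCommGroup X] [NormedSpace ℝ X] [NormedAddCommGroup Y]
  [NormedSpace ℝ Y]

lemma Cof_comap (f : X →L[ℝ] Y) {F : Set Y} (hF : Cof F) : Cof (f ⁻¹' F) := by
  obtain ⟨S, rfl, hc, hfd⟩ := hF
  have := hfd
  refine ⟨S.comap f.toLinearMap, rfl, hc.preimage f.continuous, ?_⟩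
  have h1 : LinearMap.ker (S.mkQ ∘ₗ f.toLinearMap) = S.comap f.toLinearMap := by
    rw [LinearMap.ker_comp, Submodule.ker_mkQ]
  have h2 : FiniteDimensional ℝ (LinearMap.range (S.mkQ ∘ₗ f.toLinearMap)) :=
    FiniteDimensional.finiteDimensional_submodule _
  have h3 := Module.Finite.equiv (LinearMap.quotKerEquivRange (S.mkQ ∘ₗ f.toLinearMap)).symm
  rw [h1] at h3
  exact h3

lemma Cof_univ : Cof (Set.univ : Set X) := by
  refine ⟨⊤, by simp, isClosed_univ, ?_⟩
  infer_instance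

lemma Cof_biInter (n : ℕ) (F : ℕ → Set X) (hF : ∀ k, Cof (F k)) :
    Cof {x : X | ∀ k < n, x ∈ F k} := by
  induction n with
  | zero =>
    have : {x : X | ∀ k < 0, x ∈ F k} = Set.univ := by
      ext x; simp
    rw [this]
    exact Cof_univ
  | succ n ih =>
    have : {x : X | ∀ k < n + 1, x ∈ F k} = {x : X | ∀ k < n, x ∈ F k} ∩ F n := by
      ext x
      simp only [Set.mem_setOf_eq, Set.mem_inter_iff]
      constructor
      · intro h
        exact ⟨fun k hk => h k (by omega), h n (by omega)⟩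
      · rintro ⟨h1, h2⟩ k hk
        rcases Nat.lt_succ_iff_lt_or_eq.1 hk with h | h
        · exact h1 k h
        · rw [h]; exact h2
    rw [this]
    exact Cof_inter ih (hF n)

/-- component property implies the square property -/
lemma star_of_mid (h : ∀ x : X, ∀ η : ℝ, 0 < η → ∃ F : Set X, Cof F ∧ ∀ y ∈ F,
    2 * Real.sqrt (‖x‖ ^ 2 + ‖y‖ ^ 2 / 4) - η ≤ ‖x + y‖ + ‖x - y‖) : Star X := by
  intro x M η hη
  have hM0 : 0 ≤ |M| := abs_nonneg M
  set B : ℝ := ‖x‖ + |M| + 1 with hB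
  have hB0 : 0 < B := by positivity
  obtain ⟨F, hF, hF2⟩ := h x (η / B) (by positivity)
  refine ⟨F, hF, fun y hy hyM => ?_⟩
  have h1 := hF2 y hy
  set R := Real.sqrt (‖x‖ ^ 2 + ‖y‖ ^ 2 / 4) with hR
  have hR2 : R ^ 2 = ‖x‖ ^ 2 + ‖y‖ ^ 2 / 4 := Real.sq_sqrt (by positivity)
  have hR0 : 0 ≤ R := Real.sqrt_nonneg _
  have hRB : R ≤ B := by
    rw [hR]
    apply Real.sqrt_le_iff.2
    refine ⟨hB0.le, ?_⟩
    have h2 : ‖y‖ ≤ |M| := hyM.trans (le_abs_self M)
    have h3 := pow_le_pow_left₀ (norm_nonneg _) h2 2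
    have h4 := norm_nonneg x
    rw [hB]
    nlinarith
  have h2 : η / B * R ≤ η := by
    calc η / B * R ≤ η / B * B := mul_le_mul_of_nonneg_left hRB (by positivity)
      _ = η := by field_simp
  have hηB : 0 < η / B := by positivity
  set κ := η / B
  rw [← hR2]
  have hsq : ((‖x + y‖ + ‖x - y‖) / 2) ^ 2 ≤ (‖x + y‖ ^ 2 + ‖x - y‖ ^ 2) / 2 := by
    nlinarith [sq_nonneg (‖x + y‖ - ‖x - y‖)]
  have h0 : 0 ≤ (‖x + y‖ + ‖x - y‖) / 2 := by positivity
  refine le_trans ?_ hsq
  by_cases hc : κ / 2 ≤ R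
  · have h3 : (R - κ / 2) ^ 2 ≤ ((‖x + y‖ + ‖x - y‖) / 2) ^ 2 :=
      pow_le_pow_left₀ (by linarith) (by linarith) 2
    nlinarith [sq_nonneg (κ / 2)]
  · push Not at hc
    nlinarith [sq_nonneg ((‖x + y‖ + ‖x - y‖) / 2)]

end Gen

section Sum

variable {E : ℕ → Type*} [∀ k, NormedAddCommGroup (E k)] [∀ k, NormedSpace ℝ (E k)]

lemma hasSum_sq (x : lp E 2) : HasSum (fun k => ‖x k‖ ^ 2) (‖x‖ ^ 2) := by
  have h := lp.hasSum_norm (p := 2) (by simp) x
  simpa using h

/-- truncation -/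
noncomputable def trunc (n : ℕ) (x : lp E 2) : lp E 2 :=
  ∑ k ∈ Finset.range n, lp.single 2 k (x k)

lemma trunc_apply (n : ℕ) (x : lp E 2) (k : ℕ) :
    (trunc n x : ∀ k, E k) k = if k < n then x k else 0 := by
  unfold trunc
  rw [lp.coeFn_sum, Finset.sum_apply]
  by_cases h : k < n
  · rw [if_pos h, Finset.sum_eq_single k]
    · exact lp.single_apply_self (E := E) 2 k (x k)
    · intro b _ hb
      exact lp.single_apply_ne (E := E) 2 b (x b) hb.symm
    · intro h'
      exact absurd (Finset.mem_range.2 h) h'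
  · rw [if_neg h, Finset.sum_eq_zero]
    intro b hb
    rw [Finset.mem_range] at hb
    exact lp.single_apply_ne (E := E) 2 b (x b) (by omega)

lemma trunc_tendsto (x : lp E 2) : Tendsto (fun n => trunc n x) atTop (𝓝 x) :=
  (lp.hasSum_single (E := E) (p := 2) (by simp) x).tendsto_sum_nat

theorem star_lp (h : ∀ k, Star (E k)) : Star (lp E 2) := by
  intro x M η hη
  have hM0 : 0 ≤ |M| := abs_nonneg M
  set B : ℝ := ‖x‖ + |M| + 1 with hB
  have hB0 : 0 < B := by positivity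
  set δ : ℝ := min 1 (η / (8 * B)) with hδ
  have hδ0 : 0 < δ := lt_min one_pos (by positivity)
  have hδ1 : δ ≤ 1 := min_le_left _ _
  have hδ2 : δ * (8 * B) ≤ η := by
    have h1 : δ ≤ η / (8 * B) := min_le_right _ _
    rwa [le_div_iff₀ (by positivity)] at h1
  obtain ⟨n, hn⟩ := ((Metric.tendsto_nhds.1 (trunc_tendsto x)) δ hδ0).exists
  rw [dist_eq_norm] at hn
  set x' := trunc n x with hx'
  have hc : ∀ k, ∃ F : Set (E k), Cof F ∧ ∀ y ∈ F, ‖y‖ ≤ M →
      ‖x k‖ ^ 2 + ‖y‖ ^ 2 / 4 - η / (4 * (n + 1)) ≤ (‖x k + y‖ ^ 2 + ‖x k - y‖ ^ 2) / 2 :=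
    fun k => h k (x k) M (η / (4 * (n + 1))) (by positivity)
  choose F hF hF2 using hc
  refine ⟨{y | ∀ k < n, y ∈ (lp.evalCLM ℝ E 2 k) ⁻¹' (F k)},
    Cof_biInter n _ fun k => Cof_comap _ (hF k), ?_⟩
  intro y hy hyM
  have hyk : ∀ k < n, y k ∈ F k := fun k hk => hy k hk
  have hyn : ∀ k, ‖y k‖ ≤ M := fun k => (lp.norm_apply_le_norm (by simp) y k).trans hyM
  -- the estimate for x'
  have key : ‖x'‖ ^ 2 + ‖y‖ ^ 2 / 4 - η / 4 ≤ (‖x' + y‖ ^ 2 + ‖x' - y‖ ^ 2) / 2 := by
    have s1 := hasSum_sq x'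
    have s2 := hasSum_sq y
    have s3 := hasSum_sq (x' + y)
    have s4 := hasSum_sq (x' - y)
    have s5 := (s3.add s4).div_const 2
    have s6 := s1.add (s2.div_const 4)
    have s7 : HasSum (fun k => if k ∈ Finset.range n then -(η / (4 * ((n:ℝ) + 1))) else 0)
        (∑ k ∈ Finset.range n, -(η / (4 * ((n:ℝ) + 1)))) := by
      have h9 : HasSum (fun k => if k ∈ Finset.range n then -(η / (4 * ((n:ℝ) + 1))) else 0)
          (∑ k ∈ Finset.range n, if k ∈ Finset.range n then -(η / (4 * ((n:ℝ) + 1))) else 0) :=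
        hasSum_sum_of_ne_finset_zero (fun b hb => if_neg hb)
      convert h9 using 1
      refine Finset.sum_congr rfl fun k hk => ?_
      rw [if_pos hk]
    have s8 := s6.add s7
    have hle := hasSum_le (fun k => ?_) s8 s5
    · rw [Finset.sum_const, Finset.card_range, nsmul_eq_mul] at hle
      have : (n : ℝ) * -(η / (4 * ((n:ℝ) + 1))) ≥ -(η / 4) := by
        have h1 : (n : ℝ) * (η / (4 * ((n:ℝ) + 1))) ≤ η / 4 := by
          rw [mul_div_assoc', div_le_div_iff₀ (by positivity) (by norm_num)]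
          nlinarith
        linarith
      linarith
    · have e1 : (x' + y : lp E 2) k = x' k + y k := rfl
      have e2 : (x' - y : lp E 2) k = x' k - y k := rfl
      rw [e1, e2, hx', trunc_apply]
      by_cases hk : k < n
      · rw [if_pos hk, if_pos (Finset.mem_range.2 hk)]
        have := hF2 k (y k) (hyk k hk) (hyn k)
        linarith
      · rw [if_neg hk, if_neg (fun h' => hk (Finset.mem_range.1 h'))]
        simp only [norm_zero, zero_add, zero_sub, norm_neg]
        nlinarith [sq_nonneg ‖y k‖]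
  -- transfer
  have hyB : ‖y‖ ≤ |M| := hyM.trans (le_abs_self M)
  have hx'n : ‖x'‖ ≤ ‖x‖ + δ := by
    have h1 : ‖x'‖ ≤ ‖x' - x‖ + ‖x‖ := by
      have := norm_add_le (x' - x) x
      simpa using this
    linarith
  have hxn' : ‖x‖ - δ ≤ ‖x'‖ := by
    have h1 : ‖x‖ ≤ ‖x' - x‖ + ‖x'‖ := by
      have := norm_sub_le x' (x' - x)
      have e : x' - (x' - x) = x := by abel
      rw [e] at this
      linarith
    linarith
  have hgen : ∀ a b : ℝ, 0 ≤ a → 0 ≤ b → a ≤ b + δ → a ≤ B → a ^ 2 - 2 * B * δ ≤ b ^ 2 := by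
    intro a b ha hb hab haB
    by_cases hc : δ ≤ a
    · have h1 : (a - δ) ^ 2 ≤ b ^ 2 := pow_le_pow_left₀ (by linarith) (by linarith) 2
      have h2 : a * δ ≤ B * δ := mul_le_mul_of_nonneg_right haB hδ0.le
      have h3 := sq_nonneg δ
      nlinarith
    · push Not at hc
      have h1 : a * a ≤ B * δ := mul_le_mul haB hc.le ha hB0.le
      have h2 : 0 ≤ B * δ := by positivity
      nlinarith [sq_nonneg b]
  have g1 := hgen ‖x‖ ‖x'‖ (norm_nonneg _) (norm_nonneg _) (by linarith) (by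
    rw [hB]; linarith)
  have g2 := hgen ‖x' + y‖ ‖x + y‖ (norm_nonneg _) (norm_nonneg _) (by
    have e : x' + y = (x + y) + (x' - x) := by abel
    rw [e]
    refine (norm_add_le _ _).trans ?_
    linarith) (by
    refine (norm_add_le _ _).trans ?_
    rw [hB]; linarith)
  have g3 := hgen ‖x' - y‖ ‖x - y‖ (norm_nonneg _) (norm_nonneg _) (by
    have e : x' - y = (x - y) + (x' - x) := by abel
    rw [e]
    refine (norm_add_le _ _).trans ?_
    linarith) (by
    refine (norm_sub_le _ _).trans ?_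
    rw [hB]; linarith)
  have e3 : δ * (8 * B) = 4 * (2 * B * δ) := by ring
  rw [e3] at hδ2
  linarith

end Sum

end Crest.Agent.S0166
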