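import Mathlib
import Crest.Agent.S0166Sum

set_option autoImplicit false
set_option linter.unusedSectionVars false
set_option linter.unusedVariables false

namespace Crest.Agent.S0166

open Filter Topology
open scoped ENNReal

/-- reflexivity in elementary form -/
def Refl (X : Type*) [NormedAddCommGroup X] [NormedSpace ℝ X] : Prop :=
  ∀ Ψ : (X →L[ℝ] ℝ) →L[ℝ] ℝ, ∃ x : X, ∀ φ : X →L[ℝ] ℝ, Ψ φ = φ x

section Gen

variable {X Y : Type*} [NormedAddCommGroup X] [NormedSpace ℝ X] [NormedAddCommGroup Y]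
  [NormedSpace ℝ Y]

lemma Refl.surj (h : Refl X) : Function.Surjective (NormedSpace.inclusionInDoubleDual ℝ X) := by
  intro Ψ
  obtain ⟨x, hx⟩ := h Ψ
  refine ⟨x, ?_⟩
  ext φ
  rw [NormedSpace.dual_def]
  exact (hx φ).symm

lemma refl_congr (e : X ≃L[ℝ] Y) (hY : Refl Y) : Refl X := by
  intro Ψ
  obtain ⟨y, hy⟩ := hY (Ψ.comp ((ContinuousLinearMap.compL ℝ X Y ℝ).flip (e : X →L[ℝ] Y)))
  refine ⟨e.symm y, fun φ => ?_⟩
  have h1 := hy (φ.comp (e.symm : Y →L[ℝ] X))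
  have h2 : (φ.comp (e.symm : Y →L[ℝ] X)).comp (e : X →L[ℝ] Y) = φ := by
    ext x
    simp
  have h3 : (Ψ.comp ((ContinuousLinearMap.compL ℝ X Y ℝ).flip (e : X →L[ℝ] Y)))
      (φ.comp (e.symm : Y →L[ℝ] X)) = Ψ ((φ.comp (e.symm : Y →L[ℝ] X)).comp (e : X →L[ℝ] Y)) := rfl
  rw [h3, h2] at h1
  rw [h1]
  rfl

lemma refl_hilbert (H : Type*) [NormedAddCommGroup H] [InnerProductSpace ℝ H] [CompleteSpace H] :
    Refl H := by
  intro Ψ
  set T : H →L[ℝ] (H →L[ℝ] ℝ) := innerSL ℝ with hT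
  obtain ⟨x, hx⟩ : ∃ x : H, ∀ h : H, (Ψ.comp T) h = inner ℝ x h := by
    refine ⟨(InnerProductSpace.toDual ℝ H).symm (Ψ.comp T), fun h => ?_⟩
    rw [InnerProductSpace.toDual_symm_apply]
  refine ⟨x, fun φ => ?_⟩
  set h := (InnerProductSpace.toDual ℝ H).symm φ with hh
  have h1 : T h = φ := by
    ext y
    show inner ℝ h y = φ y
    rw [hh, InnerProductSpace.toDual_symm_apply]
  have h2 := hx h
  have h3 : (Ψ.comp T) h = Ψ (T h) := rfl
  rw [h3, h1] at h2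
  rw [h2, ← h1]
  show inner ℝ x h = inner ℝ h x
  exact real_inner_comm _ _

lemma refl_of_embed {H : Type*} [NormedAddCommGroup H] [InnerProductSpace ℝ H] [CompleteSpace H]
    [CompleteSpace X] (R : X →L[ℝ] H) {c : ℝ} (hc : 0 < c) (hR : ∀ x, c * ‖x‖ ≤ ‖R x‖) :
    Refl X := by
  have hanti : AntilipschitzWith (Real.toNNReal c⁻¹) R := by
    refine AddMonoidHomClass.antilipschitz_of_bound R fun x => ?_
    rw [Real.coe_toNNReal _ (inv_nonneg.2 hc.le), inv_mul_eq_div, le_div_iff₀ hc, mul_comm]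
    exact hR x
  have hinj : Function.Injective R := hanti.injective
  have hcl : IsClosed (Set.range R) := hanti.isClosed_range R.uniformContinuous
  have : CompleteSpace R.range := hcl.completeSpace_coe
  exact refl_congr (R.equivRange hinj hcl) (refl_hilbert _)

end Gen

section Sum

variable {E : ℕ → Type*} [∀ k, NormedAddCommGroup (E k)] [∀ k, NormedSpace ℝ (E k)]

/-- inclusion -/
noncomputable def J (E : ℕ → Type*) [∀ k, NormedAddCommGroup (E k)] [∀ k, NormedSpace ℝ (E k)]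
    (k : ℕ) : E k →L[ℝ] lp E 2 := lp.singleContinuousLinearMap ℝ E 2 k

/-- projection -/
noncomputable def Pr (E : ℕ → Type*) [∀ k, NormedAddCommGroup (E k)] [∀ k, NormedSpace ℝ (E k)]
    (k : ℕ) : lp E 2 →L[ℝ] E k := lp.evalCLM ℝ E 2 k

lemma J_apply (k : ℕ) (x : E k) : J E k x = lp.single 2 k x := rfl

lemma Pr_apply (k : ℕ) (x : lp E 2) : Pr E k x = x k := rfl

lemma norm_J (k : ℕ) (x : E k) : ‖J E k x‖ = ‖x‖ := by
  rw [J_apply]
  exact lp.norm_single (E := E) (p := 2) (by norm_num) k x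

lemma norm_sum_J (s : Finset ℕ) (f : ∀ k, E k) :
    ‖∑ k ∈ s, J E k (f k)‖ ^ 2 = ∑ k ∈ s, ‖f k‖ ^ 2 := by
  have h := lp.norm_sum_single (E := E) (p := 2) (by simp) f s
  simpa [J_apply] using h

lemma sum_sq_le (x : lp E 2) (s : Finset ℕ) : ∑ k ∈ s, ‖x k‖ ^ 2 ≤ ‖x‖ ^ 2 :=
  sum_le_hasSum s (fun _ _ => sq_nonneg _) (hasSum_sq x)

/-- truncation as a continuous map -/
noncomputable def QQ (E : ℕ → Type*) [∀ k, NormedAddCommGroup (E k)] [∀ k, NormedSpace ℝ (E k)]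
    (n : ℕ) : lp E 2 →L[ℝ] lp E 2 := ∑ k ∈ Finset.range n, (J E k).comp (Pr E k)

lemma QQ_apply (n : ℕ) (x : lp E 2) : QQ E n x = trunc n x := by
  unfold QQ trunc
  rw [ContinuousLinearMap.sum_apply]
  rfl

lemma dual_sq (Φ : lp E 2 →L[ℝ] ℝ) (s : Finset ℕ) :
    ∑ k ∈ s, ‖Φ.comp (J E k)‖ ^ 2 ≤ ‖Φ‖ ^ 2 := by
  set a : ℕ → ℝ := fun k => ‖Φ.comp (J E k)‖ with ha
  set A := ∑ k ∈ s, a k ^ 2 with hA
  have ha0 : ∀ k, 0 ≤ a k := fun k => norm_nonneg _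
  have hA0 : 0 ≤ A := Finset.sum_nonneg fun _ _ => sq_nonneg _
  have hS0 : 0 ≤ ∑ k ∈ s, a k := Finset.sum_nonneg fun _ _ => ha0 _
  have key : ∀ ε : ℝ, 0 < ε → A - ε * ∑ k ∈ s, a k ≤ ‖Φ‖ * Real.sqrt A := by
    intro ε hε
    have hu : ∀ k, ∃ u : E k, ‖u‖ ≤ 1 ∧ a k - ε ≤ Φ (J E k u) := by
      intro k
      obtain ⟨z, hz1, hz2⟩ := ContinuousLinearMap.exists_lt_apply_of_lt_opNorm (Φ.comp (J E k))
        (r := ‖Φ.comp (J E k)‖ - ε) (by linarith)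
      rcases le_total 0 ((Φ.comp (J E k)) z) with h' | h'
      · rw [Real.norm_eq_abs, abs_of_nonneg h'] at hz2
        exact ⟨z, hz1.le, hz2.le⟩
      · rw [Real.norm_eq_abs, abs_of_nonpos h'] at hz2
        refine ⟨-z, by rw [norm_neg]; exact hz1.le, ?_⟩
        rw [map_neg, map_neg]
        exact hz2.le
    choose u hu1 hu2 using hu
    set z : lp E 2 := ∑ k ∈ s, J E k (a k • u k) with hz
    have hzn : ‖z‖ ≤ Real.sqrt A := by
      apply Real.le_sqrt_of_sq_le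
      rw [hz, norm_sum_J]
      refine Finset.sum_le_sum fun k _ => ?_
      rw [norm_smul, Real.norm_eq_abs, abs_of_nonneg (ha0 k), mul_pow]
      have h1 : ‖u k‖ ^ 2 ≤ 1 := pow_le_one₀ (norm_nonneg _) (hu1 k)
      have h2 := sq_nonneg (a k)
      nlinarith
    have hΦz : A - ε * ∑ k ∈ s, a k ≤ Φ z := by
      rw [hz, map_sum, hA, Finset.mul_sum, ← Finset.sum_sub_distrib]
      refine Finset.sum_le_sum fun k _ => ?_
      rw [map_smul, map_smul, smul_eq_mul]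
      have h1 := mul_le_mul_of_nonneg_left (hu2 k) (ha0 k)
      nlinarith
    calc A - ε * ∑ k ∈ s, a k ≤ Φ z := hΦz
      _ ≤ ‖Φ z‖ := le_abs_self _
      _ ≤ ‖Φ‖ * ‖z‖ := Φ.le_opNorm z
      _ ≤ ‖Φ‖ * Real.sqrt A := mul_le_mul_of_nonneg_left hzn (norm_nonneg _)
  have h1 : A ≤ ‖Φ‖ * Real.sqrt A := by
    refine le_of_forall_pos_le_add fun δ hδ => ?_
    have h2 := key (δ / (∑ k ∈ s, a k + 1)) (by positivity)
    have h3 : δ / (∑ k ∈ s, a k + 1) * ∑ k ∈ s, a k ≤ δ := by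
      rw [div_mul_eq_mul_div, div_le_iff₀ (by positivity)]
      nlinarith
    linarith
  rcases hA0.eq_or_lt with h | h
  · rw [← h]; positivity
  · have hs : 0 < Real.sqrt A := Real.sqrt_pos.2 h
    have h3 : Real.sqrt A ≤ ‖Φ‖ := by
      have h4 : Real.sqrt A * Real.sqrt A ≤ ‖Φ‖ * Real.sqrt A := by
        rw [Real.mul_self_sqrt hA0]; exact h1
      exact le_of_mul_le_mul_right h4 hs
    calc A = Real.sqrt A ^ 2 := (Real.sq_sqrt hA0).symm
      _ ≤ ‖Φ‖ ^ 2 := pow_le_pow_left₀ hs.le h3 2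

/-- functionals are approximated by their truncations -/
lemma dual_tail (Φ : lp E 2 →L[ℝ] ℝ) {ε : ℝ} (hε : 0 < ε) :
    ∃ n : ℕ, ∀ x : lp E 2, |Φ x - Φ (QQ E n x)| ≤ ε * ‖x‖ := by
  have hs : Summable (fun k => ‖Φ.comp (J E k)‖ ^ 2) :=
    summable_of_sum_le (fun _ => sq_nonneg _) (fun s => dual_sq Φ s)
  have h1 := hs.hasSum.tendsto_sum_nat.cauchySeq
  rw [Metric.cauchySeq_iff'] at h1
  obtain ⟨n, hn⟩ := h1 (ε ^ 2) (by positivity)
  refine ⟨n, fun x => ?_⟩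
  have h2 : ∀ N ≥ n, |Φ (QQ E N x) - Φ (QQ E n x)| ≤ ε * ‖x‖ := by
    intro N hN
    have e1 : Φ (QQ E N x) - Φ (QQ E n x) = ∑ k ∈ Finset.Ico n N, (Φ.comp (J E k)) (x k) := by
      unfold QQ
      rw [ContinuousLinearMap.sum_apply, ContinuousLinearMap.sum_apply, map_sum, map_sum,
        Finset.sum_Ico_eq_sub _ hN]
      rfl
    have e2 : ∑ k ∈ Finset.Ico n N, ‖Φ.comp (J E k)‖ ^ 2 ≤ ε ^ 2 := by
      have h3 := hn N hN
      rw [Real.dist_eq, ← Finset.sum_Ico_eq_sub _ hN] at h3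
      exact (le_abs_self _).trans h3.le
    rw [e1]
    calc |∑ k ∈ Finset.Ico n N, (Φ.comp (J E k)) (x k)|
        ≤ ∑ k ∈ Finset.Ico n N, |(Φ.comp (J E k)) (x k)| := Finset.abs_sum_le_sum_abs _ _
      _ ≤ ∑ k ∈ Finset.Ico n N, ‖Φ.comp (J E k)‖ * ‖x k‖ :=
          Finset.sum_le_sum fun k _ => (Φ.comp (J E k)).le_opNorm (x k)
      _ ≤ Real.sqrt (∑ k ∈ Finset.Ico n N, ‖Φ.comp (J E k)‖ ^ 2) *
            Real.sqrt (∑ k ∈ Finset.Ico n N, ‖x k‖ ^ 2) := Real.sum_mul_le_sqrt_mul_sqrt _ _ _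
      _ ≤ ε * ‖x‖ := by
          refine mul_le_mul ?_ ?_ (Real.sqrt_nonneg _) hε.le
          · exact Real.sqrt_le_iff.2 ⟨hε.le, e2⟩
          · exact Real.sqrt_le_iff.2 ⟨norm_nonneg _, sum_sq_le x _⟩
  have h3 : Tendsto (fun N => |Φ (QQ E N x) - Φ (QQ E n x)|) atTop
      (𝓝 |Φ x - Φ (QQ E n x)|) := by
    have h4 : Tendsto (fun N => Φ (QQ E N x)) atTop (𝓝 (Φ x)) := by
      have h5 : Tendsto (fun N => QQ E N x) atTop (𝓝 x) := by
        have h6 := trunc_tendsto x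
        refine h6.congr fun N => (QQ_apply N x).symm
      exact (Φ.continuous.tendsto x).comp h5
    exact (h4.sub_const _).abs
  exact le_of_tendsto h3 (eventually_atTop.2 ⟨n, h2⟩)

theorem refl_lp (h : ∀ k, Refl (E k)) : Refl (lp E 2) := by
  intro Ψ
  have h1 : ∀ k, ∃ x : E k, ∀ φ : E k →L[ℝ] ℝ, Ψ (φ.comp (Pr E k)) = φ x := by
    intro k
    obtain ⟨x, hx⟩ := h k (Ψ.comp ((ContinuousLinearMap.compL ℝ (lp E 2) (E k) ℝ).flip (Pr E k)))
    exact ⟨x, fun φ => hx φ⟩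
  choose x hx using h1
  have hsum : ∀ s : Finset ℕ, ∑ k ∈ s, ‖x k‖ ^ 2 ≤ ‖Ψ‖ ^ 2 := by
    intro s
    set B := ∑ k ∈ s, ‖x k‖ ^ 2 with hB
    have hB0 : 0 ≤ B := Finset.sum_nonneg fun _ _ => sq_nonneg _
    choose φ hφ1 hφ2 using fun k => exists_dual_vector'' ℝ (x k)
    set Φ : lp E 2 →L[ℝ] ℝ := ∑ k ∈ s, ‖x k‖ • (φ k).comp (Pr E k) with hΦ
    have hΦn : ‖Φ‖ ≤ Real.sqrt B := by
      refine ContinuousLinearMap.opNorm_le_bound _ (Real.sqrt_nonneg _) fun y => ?_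
      have e1 : Φ y = ∑ k ∈ s, ‖x k‖ * φ k (y k) := by
        rw [hΦ, ContinuousLinearMap.sum_apply]
        rfl
      rw [e1]
      calc ‖∑ k ∈ s, ‖x k‖ * φ k (y k)‖ ≤ ∑ k ∈ s, ‖‖x k‖ * φ k (y k)‖ := norm_sum_le _ _
        _ ≤ ∑ k ∈ s, ‖x k‖ * ‖y k‖ := by
            refine Finset.sum_le_sum fun k _ => ?_
            rw [norm_mul, norm_norm]
            refine mul_le_mul_of_nonneg_left ?_ (norm_nonneg _)
            calc ‖φ k (y k)‖ ≤ ‖φ k‖ * ‖y k‖ := (φ k).le_opNorm _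
              _ ≤ 1 * ‖y k‖ := mul_le_mul_of_nonneg_right (hφ1 k) (norm_nonneg _)
              _ = ‖y k‖ := one_mul _
        _ ≤ Real.sqrt (∑ k ∈ s, ‖x k‖ ^ 2) * Real.sqrt (∑ k ∈ s, ‖y k‖ ^ 2) :=
            Real.sum_mul_le_sqrt_mul_sqrt _ _ _
        _ ≤ Real.sqrt B * ‖y‖ := by
            refine mul_le_mul_of_nonneg_left ?_ (Real.sqrt_nonneg _)
            exact Real.sqrt_le_iff.2 ⟨norm_nonneg _, sum_sq_le y s⟩
    have hΨΦ : Ψ Φ = B := by
      rw [hΦ, map_sum, hB]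
      refine Finset.sum_congr rfl fun k _ => ?_
      rw [map_smul, hx, smul_eq_mul]
      have : φ k (x k) = ‖x k‖ := by simpa using hφ2 k
      rw [this, sq]
    have h2 : B ≤ ‖Ψ‖ * Real.sqrt B := by
      calc B = Ψ Φ := hΨΦ.symm
        _ ≤ ‖Ψ Φ‖ := le_abs_self _
        _ ≤ ‖Ψ‖ * ‖Φ‖ := Ψ.le_opNorm Φ
        _ ≤ ‖Ψ‖ * Real.sqrt B := mul_le_mul_of_nonneg_left hΦn (norm_nonneg Ψ)
    rcases hB0.eq_or_lt with h | h
    · rw [← h]; positivity
    · have hs : 0 < Real.sqrt B := Real.sqrt_pos.2 h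
      have h3 : Real.sqrt B ≤ ‖Ψ‖ := by
        have h4 : Real.sqrt B * Real.sqrt B ≤ ‖Ψ‖ * Real.sqrt B := by
          rw [Real.mul_self_sqrt hB0]; exact h2
        exact le_of_mul_le_mul_right h4 hs
      calc B = Real.sqrt B ^ 2 := (Real.sq_sqrt hB0).symm
        _ ≤ ‖Ψ‖ ^ 2 := pow_le_pow_left₀ hs.le h3 2
  have hmem : Memℓp x 2 := by
    refine memℓp_gen' (C := ‖Ψ‖ ^ 2) fun s => ?_
    simpa using hsum s
  set X : lp E 2 := ⟨x, hmem⟩ with hX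
  refine ⟨X, fun Φ => ?_⟩
  have hQ : ∀ n, Ψ (Φ.comp (QQ E n)) = Φ (QQ E n X) := by
    intro n
    have e1 : Φ.comp (QQ E n) = ∑ k ∈ Finset.range n, (Φ.comp (J E k)).comp (Pr E k) := by
      ext y
      unfold QQ
      rw [ContinuousLinearMap.comp_apply, ContinuousLinearMap.sum_apply, map_sum,
        ContinuousLinearMap.sum_apply]
      rfl
    rw [e1, map_sum]
    unfold QQ
    rw [ContinuousLinearMap.sum_apply, map_sum]
    refine Finset.sum_congr rfl fun k _ => ?_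
    rw [hx]
    rfl
  by_contra hne
  have hd : 0 < |Ψ Φ - Φ X| := abs_pos.2 (sub_ne_zero.2 hne)
  set d := |Ψ Φ - Φ X| with hddef
  set ε : ℝ := d / (2 * (‖Ψ‖ + ‖X‖ + 1)) with hε
  have hε0 : 0 < ε := by positivity
  obtain ⟨n, hn⟩ := dual_tail Φ hε0
  have h2 : ‖Φ - Φ.comp (QQ E n)‖ ≤ ε := by
    refine ContinuousLinearMap.opNorm_le_bound _ hε0.le fun y => ?_
    exact hn y
  have h3 : |Ψ Φ - Ψ (Φ.comp (QQ E n))| ≤ ‖Ψ‖ * ε := by
    rw [← map_sub]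
    exact (Ψ.le_opNorm _).trans (mul_le_mul_of_nonneg_left h2 (norm_nonneg _))
  have h4 := hn X
  have h5 : d ≤ ‖Ψ‖ * ε + ε * ‖X‖ := by
    rw [hQ] at h3
    have e : Ψ Φ - Φ X = (Ψ Φ - Φ (QQ E n X)) - (Φ X - Φ (QQ E n X)) := by ring
    rw [hddef, e]
    exact (abs_sub _ _).trans (add_le_add h3 h4)
  have h6 : ‖Ψ‖ * ε + ε * ‖X‖ ≤ d / 2 := by
    have e : ‖Ψ‖ * ε + ε * ‖X‖ = ε * (‖Ψ‖ + ‖X‖) := by ring
    rw [e, hε, div_mul_eq_mul_div, div_le_iff₀ (by positivity)]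
    nlinarith [norm_nonneg Ψ, norm_nonneg X]
  linarith

/-- separability of the sum -/
theorem separable_lp [∀ k, TopologicalSpace.SeparableSpace (E k)] :
    TopologicalSpace.SeparableSpace (lp E 2) := by
  have h1 : TopologicalSpace.IsSeparable (⋃ k, Set.range (J E k)) :=
    TopologicalSpace.IsSeparable.iUnion fun k =>
      TopologicalSpace.isSeparable_range (J E k).continuous
  have h2 := (h1.span (R := ℝ)).closure
  have h3 : closure ((Submodule.span ℝ (⋃ k, Set.range (J E k)) : Submodule ℝ (lp E 2)) :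
      Set (lp E 2)) = Set.univ := by
    refine Set.eq_univ_of_forall fun x => ?_
    refine mem_closure_of_tendsto (trunc_tendsto x) (Eventually.of_forall fun n => ?_)
    refine Submodule.sum_mem _ fun k _ => Submodule.subset_span ?_
    exact Set.mem_iUnion.2 ⟨k, x k, rfl⟩
  rw [h3] at h2
  exact TopologicalSpace.isSeparable_univ_iff.1 h2

end Sum

end Crest.Agent.S0166
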