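import Mathlib
import Crest.Prelude.Def_TreePotentials
import Crest.Agent.S0166Common

set_option autoImplicit false
set_option maxHeartbeats 1000000
set_option linter.unusedSectionVars false
set_option linter.unusedVariables false

namespace Crest.Agent.S0168

open Filter Topology Crest.Agent.S0166
open Crest.AnalysisR.TreePotential

/-! ### The combinatorial construction of combined tests -/

section Clip

variable (T₀ : Set (List ℕ)) (f g : List ℕ → ℝ) (a b : ℝ)

open Classical in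
/-- relative potential of `g` after leaving `T₀` -/
noncomputable def QQ : List ℕ → ℝ
  | [] => 0
  | n :: u => if (n :: u) ∈ T₀ then 0 else QQ u + g (n :: u)

open Classical in
/-- potential of `a f`, frozen after leaving `T₀` -/
noncomputable def CC : List ℕ → ℝ
  | [] => a * f []
  | n :: u => if (n :: u) ∈ T₀ then CC u + a * f (n :: u) else CC u

/-- clipping -/
noncomputable def clip (r c : ℝ) : ℝ := max (-r) (min r c)

/-- the combined potential -/
noncomputable def HH (σ : ℝ) (s : List ℕ) : ℝ :=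
  clip (1 - b / 2 * |QQ T₀ g s|) (CC T₀ f a s) + σ * (b / 2) * QQ T₀ g s

/-- the combined test -/
noncomputable def hh (σ : ℝ) : List ℕ → ℝ
  | [] => HH T₀ f g a b σ []
  | n :: u => HH T₀ f g a b σ (n :: u) - HH T₀ f g a b σ u

lemma clip_sub (r r' c : ℝ) : |clip r c - clip r' c| ≤ |r - r'| := by
  unfold clip
  refine (abs_max_sub_max_le_max _ _ _ _).trans (max_le ?_ ?_)
  · rw [neg_sub_neg, abs_sub_comm]
  · refine (abs_min_sub_min_le_max _ _ _ _).trans (max_le le_rfl ?_)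
    simp

lemma clip_abs {r : ℝ} (hr : 0 ≤ r) (c : ℝ) : |clip r c| ≤ r := by
  unfold clip
  rw [abs_le]
  refine ⟨le_max_left _ _, max_le (by linarith) (min_le_left _ _)⟩

lemma clip_eq {r c : ℝ} (h : |c| ≤ r) : clip r c = c := by
  unfold clip
  rw [abs_le] at h
  rw [min_eq_right h.2, max_eq_right h.1]

variable {T₀ f g a b}

lemma QQ_mem (hnil : [] ∈ T₀) {s : List ℕ} (hs : s ∈ T₀) : QQ T₀ g s = 0 := by
  cases s with
  | nil => rfl
  | cons n u => simp [QQ, hs]

lemma CC_exists (hnil : [] ∈ T₀) (hcl : ∀ n u, (n :: u) ∈ T₀ → u ∈ T₀) (s : List ℕ) :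
    ∃ e ∈ T₀, CC T₀ f a s = a * pathPotential f e ∧
      QQ T₀ g s = pathPotential g s - pathPotential g e ∧ (s ∈ T₀ → e = s) := by
  induction s with
  | nil => exact ⟨[], hnil, rfl, by simp [QQ], fun _ => rfl⟩
  | cons n u ih =>
    by_cases h : (n :: u) ∈ T₀
    · obtain ⟨e, he, h1, h2, h3⟩ := ih
      have heu := h3 (hcl n u h)
      subst heu
      refine ⟨n :: e, h, ?_, by simp [QQ, h], fun _ => rfl⟩
      simp only [CC, h, if_true, pathPotential]
      rw [h1]; ring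
    · obtain ⟨e, he, h1, h2, h3⟩ := ih
      refine ⟨e, he, ?_, ?_, fun h' => absurd h' h⟩
      · simp only [CC, h, if_false]; exact h1
      · simp only [QQ, h, if_false, pathPotential]
        rw [h2]; ring

lemma CC_abs (hnil : [] ∈ T₀) (hcl : ∀ n u, (n :: u) ∈ T₀ → u ∈ T₀) (ha : 0 ≤ a)
    (hf : ∀ s, |pathPotential f s| ≤ 1) (s : List ℕ) : |CC T₀ f a s| ≤ a := by
  obtain ⟨e, he, h1, -⟩ := CC_exists (g := f) (f := f) (a := a) hnil hcl s
  rw [h1, abs_mul, abs_of_nonneg ha]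
  have := hf e
  nlinarith

lemma QQ_abs (hnil : [] ∈ T₀) (hcl : ∀ n u, (n :: u) ∈ T₀ → u ∈ T₀)
    (hg : ∀ s, |pathPotential g s| ≤ 1) (s : List ℕ) : |QQ T₀ g s| ≤ 2 := by
  obtain ⟨e, he, -, h2, -⟩ := CC_exists (g := g) (f := g) (a := 1) hnil hcl s
  rw [h2]
  have h3 := hg e
  have h4 := hg s
  rw [abs_le] at *
  constructor <;> linarith [h3.1, h3.2, h4.1, h4.2]

lemma HH_abs (hnil : [] ∈ T₀) (hcl : ∀ n u, (n :: u) ∈ T₀ → u ∈ T₀) (hb : 0 ≤ b) (hb1 : b ≤ 1)
    (hg : ∀ s, |pathPotential g s| ≤ 1) {σ : ℝ} (hσ : |σ| = 1) (s : List ℕ) :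
    |HH T₀ f g a b σ s| ≤ 1 := by
  unfold HH
  have hQ := QQ_abs hnil hcl hg s
  have hr : 0 ≤ 1 - b / 2 * |QQ T₀ g s| := by nlinarith [abs_nonneg (QQ T₀ g s)]
  refine (abs_add_le _ _).trans ?_
  have h1 := clip_abs hr (CC T₀ f a s)
  have h2 : |σ * (b / 2) * QQ T₀ g s| = b / 2 * |QQ T₀ g s| := by
    rw [abs_mul, abs_mul, hσ, one_mul, abs_of_nonneg (by linarith : 0 ≤ b / 2)]
  rw [h2]
  linarith

lemma pathPotential_hh (σ : ℝ) (s : List ℕ) :
    pathPotential (hh T₀ f g a b σ) s = HH T₀ f g a b σ s := by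
  induction s with
  | nil => rfl
  | cons n u ih => simp only [pathPotential, hh, ih]; ring

lemma HH_mem (hnil : [] ∈ T₀) (hcl : ∀ n u, (n :: u) ∈ T₀ → u ∈ T₀) (ha : 0 ≤ a) (ha1 : a ≤ 1)
    (hf : ∀ s, |pathPotential f s| ≤ 1) (σ : ℝ) {s : List ℕ} (hs : s ∈ T₀) :
    HH T₀ f g a b σ s = a * pathPotential f s := by
  obtain ⟨e, he, h1, -, h3⟩ := CC_exists (g := g) (f := f) (a := a) hnil hcl s
  have := h3 hs
  subst this
  unfold HH
  rw [QQ_mem hnil hs, abs_zero, mul_zero, mul_zero, sub_zero, add_zero, clip_eq, h1]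
  exact (CC_abs hnil hcl ha hf e).trans ha1

lemma hh_mem (hnil : [] ∈ T₀) (hcl : ∀ n u, (n :: u) ∈ T₀ → u ∈ T₀) (ha : 0 ≤ a) (ha1 : a ≤ 1)
    (hf : ∀ s, |pathPotential f s| ≤ 1) (σ : ℝ) {s : List ℕ} (hs : s ∈ T₀) :
    hh T₀ f g a b σ s = a * f s := by
  cases s with
  | nil => simp only [hh]; rw [HH_mem hnil hcl ha ha1 hf σ hs]; rfl
  | cons n u =>
    simp only [hh]
    rw [HH_mem hnil hcl ha ha1 hf σ hs, HH_mem hnil hcl ha ha1 hf σ (hcl n u hs)]
    simp only [pathPotential]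
    ring

lemma hh_off (hnil : [] ∈ T₀) (hb : 0 ≤ b) {σ : ℝ} (hσ : |σ| = 1) {s : List ℕ} (hs : s ∉ T₀) :
    |hh T₀ f g a b σ s| ≤ b * |g s| := by
  cases s with
  | nil => exact absurd hnil hs
  | cons n u =>
    simp only [hh, HH]
    have hC : CC T₀ f a (n :: u) = CC T₀ f a u := by simp [CC, hs]
    have hQ : QQ T₀ g (n :: u) = QQ T₀ g u + g (n :: u) := by simp [QQ, hs]
    rw [hC, hQ]
    set q := QQ T₀ g u
    set c := CC T₀ f a u
    set γ := g (n :: u)
    have h1 := clip_sub (1 - b / 2 * |q + γ|) (1 - b / 2 * |q|) c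
    have h2 : |(1 - b / 2 * |q + γ|) - (1 - b / 2 * |q|)| ≤ b / 2 * |γ| := by
      have e : (1 - b / 2 * |q + γ|) - (1 - b / 2 * |q|) = b / 2 * (|q| - |q + γ|) := by ring
      rw [e, abs_mul, abs_of_nonneg (by linarith : 0 ≤ b / 2)]
      refine mul_le_mul_of_nonneg_left ?_ (by linarith)
      refine (abs_abs_sub_abs_le_abs_sub _ _).trans ?_
      rw [show q - (q + γ) = -γ by ring, abs_neg]
    have e : clip (1 - b / 2 * |q + γ|) c + σ * (b / 2) * (q + γ) -
        (clip (1 - b / 2 * |q|) c + σ * (b / 2) * q) =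
        (clip (1 - b / 2 * |q + γ|) c - clip (1 - b / 2 * |q|) c) + σ * (b / 2) * γ := by ring
    rw [e]
    refine (abs_add_le _ _).trans ?_
    have h3 : |σ * (b / 2) * γ| = b / 2 * |γ| := by
      rw [abs_mul, abs_mul, hσ, one_mul, abs_of_nonneg (by linarith : 0 ≤ b / 2)]
    rw [h3]
    linarith

lemma hh_diff (hnil : [] ∈ T₀) {s : List ℕ} (hs : s ∉ T₀) :
    hh T₀ f g a b 1 s - hh T₀ f g a b (-1) s = b * g s := by
  cases s with
  | nil => exact absurd hnil hs
  | cons n u =>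
    simp only [hh, HH]
    have hQ : QQ T₀ g (n :: u) = QQ T₀ g u + g (n :: u) := by simp [QQ, hs]
    rw [hQ]
    ring

end Clip

/-! ### abstract test classes -/

/-- a good class of tests on the tree with vertex set `V` -/
structure Good (P : (List ℕ → ℝ) → Prop) (V : Set (List ℕ)) : Prop where
  pot : ∀ f, P f → ∀ s, |pathPotential f s| ≤ 1
  neg : ∀ f, P f → P (fun s => -f s)
  two : ∀ f, P f → ∀ (v : List ℕ) (A : Finset ℕ), ∑ n ∈ A, f (n :: v) ^ 2 ≤ 1
  delta : ∀ s ∈ V, P (fun u => if u = s then 1 else 0)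
  off : ∀ s, s ∉ V → ∀ f, P f → f s = 0
  mix : ∀ f g, P f → P g → ∀ T₀ : Set (List ℕ), T₀.Finite → [] ∈ T₀ →
    (∀ n u, (n :: u) ∈ T₀ → u ∈ T₀) → ∀ a b : ℝ, 0 ≤ a → 0 ≤ b → a ^ 2 + b ^ 2 = 1 →
    ∀ h : List ℕ → ℝ, (∀ s, |pathPotential h s| ≤ 1) → (∀ s ∈ T₀, h s = a * f s) →
      (∀ s, s ∉ T₀ → |h s| ≤ b * |g s|) → P h
  ne : ∃ f, P f

lemma abs_le_two {f : List ℕ → ℝ} (hf : ∀ s, |pathPotential f s| ≤ 1) (s : List ℕ) : |f s| ≤ 2 := by
  cases s with
  | nil =>
    have h0 := hf []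
    simp only [pathPotential] at h0
    linarith
  | cons a v =>
    have h1 := hf (a :: v)
    have h2 := hf v
    simp only [pathPotential] at h1
    rw [abs_le] at h1 h2 ⊢
    constructor <;> linarith [h1.1, h1.2, h2.1, h2.2]

/-- the tests as a type -/
def PT (P : (List ℕ → ℝ) → Prop) : Type := {f : List ℕ → ℝ // P f}

/-- constructor for tests -/
def mkPT {P : (List ℕ → ℝ) → Prop} (f : List ℕ → ℝ) (h : P f) : PT P := ⟨f, h⟩

/-- the delta function -/
def dlt (s : List ℕ) : List ℕ → ℝ := fun u => if u = s then 1 else 0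

/-- bounded functions on the tests -/
abbrev LI (P : (List ℕ → ℝ) → Prop) : Type := lp (fun _ : PT P => ℝ) ⊤

variable {P : (List ℕ → ℝ) → Prop} {V : Set (List ℕ)}

/-- coordinate vectors -/
noncomputable def cv (hP : ∀ f, P f → ∀ s, |pathPotential f s| ≤ 1) (s : List ℕ) : LI P :=
  ⟨fun f => f.1 s, memℓp_infty ⟨2, by
    rintro _ ⟨f, rfl⟩
    simpa using abs_le_two (hP f.1 f.2) s⟩⟩

/-- the generated space -/
noncomputable def ES (hP : ∀ f, P f → ∀ s, |pathPotential f s| ≤ 1) : Submodule ℝ (LI P) :=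
  (Submodule.span ℝ (Set.range (cv hP))).topologicalClosure

/-- evaluation at a test -/
noncomputable def ev (f : PT P) : LI P →L[ℝ] ℝ :=
  LinearMap.mkContinuous
    { toFun := fun x => (x : PT P → ℝ) f
      map_add' := fun x y => rfl
      map_smul' := fun c x => rfl } 1 (fun x => by
        rw [one_mul]
        exact lp.norm_apply_le_norm (by simp) x f)

lemma ev_apply (f : PT P) (x : LI P) : ev f x = (x : PT P → ℝ) f := rfl

lemma ev_cv (hP : ∀ f, P f → ∀ s, |pathPotential f s| ≤ 1) (f : PT P) (s : List ℕ) :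
    ev f (cv hP s) = f.1 s := rfl

lemma abs_ev_le (f : PT P) (x : LI P) : |ev f x| ≤ ‖x‖ := by
  have := lp.norm_apply_le_norm (p := ⊤) (by simp) x f
  rw [ev_apply]
  simpa using this

/-- two continuous functionals that agree on coordinate vectors agree on the space -/
lemma clm_ext (hP : ∀ f, P f → ∀ s, |pathPotential f s| ≤ 1) (φ : LI P →L[ℝ] ℝ)
    (h : ∀ s, φ (cv hP s) = 0) (x : LI P) (hx : x ∈ ES hP) : φ x = 0 := by
  have h1 : Submodule.span ℝ (Set.range (cv hP)) ≤ LinearMap.ker φ.toLinearMap := by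
    rw [Submodule.span_le]
    rintro _ ⟨s, rfl⟩
    exact h s
  have h2 : IsClosed ((LinearMap.ker φ.toLinearMap : Submodule ℝ (LI P)) : Set (LI P)) := φ.isClosed_ker
  have h3 := Submodule.topologicalClosure_minimal _ h1 h2
  exact h3 hx

lemma norm_le_of_tests (hne : ∃ f, P f) {x : LI P} {C : ℝ} (h : ∀ f : PT P, |ev f x| ≤ C) :
    ‖x‖ ≤ C := by
  obtain ⟨f, hf⟩ := hne
  have : Nonempty (PT P) := ⟨⟨f, hf⟩⟩
  refine lp.norm_le_of_forall_le' C (fun i => ?_)
  have h1 := h i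
  rw [ev_apply] at h1
  simpa using h1

/-- near-norming tests -/
lemma exists_test (hG : Good P V) {x : LI P} (hx : x ∈ ES hG.pot) {η : ℝ} (hη : 0 < η) :
    ∃ f : PT P, ‖x‖ - η ≤ ev f x := by
  obtain ⟨f0, hf0⟩ := hG.ne
  by_contra hcon
  push Not at hcon
  have h1 : ∀ f : PT P, |ev f x| ≤ ‖x‖ - η := by
    intro f
    rw [abs_le]
    refine ⟨?_, (hcon f).le⟩
    have h2 : (ev (mkPT _ (hG.neg f.1 f.2)) + ev f) x = 0 := clm_ext hG.pot _ (fun s => by
      rw [_root_.add_apply, ev_cv, ev_cv]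
      simp [mkPT]) x hx
    have h3 := hcon (mkPT _ (hG.neg f.1 f.2))
    rw [_root_.add_apply] at h2
    linarith
  have := norm_le_of_tests ⟨f0, hf0⟩ h1
  linarith

/-- coordinate functionals -/
noncomputable def kap (hG : Good P V) (s : List ℕ) : LI P →L[ℝ] ℝ := by
  classical
  exact if h : s ∈ V then ev (mkPT _ (hG.delta s h)) else 0

open Classical in
lemma kap_cv (hG : Good P V) (s u : List ℕ) :
    kap hG s (cv hG.pot u) = if s ∈ V ∧ u = s then (1:ℝ) else 0 := by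
  unfold kap
  by_cases h : s ∈ V
  · simp only [h, dif_pos, true_and]
    rw [ev_cv]
    simp only [mkPT]
  · simp [h]

/-- suffix closure of a finite set -/
noncomputable def sufc (A : Finset (List ℕ)) : Finset (List ℕ) :=
  insert [] (A.biUnion fun s => s.tails.toFinset)

lemma nil_mem_sufc (A : Finset (List ℕ)) : [] ∈ sufc A := by simp [sufc]

lemma subset_sufc {A : Finset (List ℕ)} {s : List ℕ} (h : s ∈ A) : s ∈ sufc A := by
  simp only [sufc, Finset.mem_insert, Finset.mem_biUnion, List.mem_toFinset, List.mem_tails]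
  exact Or.inr ⟨s, h, List.suffix_refl s⟩

lemma sufc_closed (A : Finset (List ℕ)) (n : ℕ) (u : List ℕ) (h : (n :: u) ∈ sufc A) :
    u ∈ sufc A := by
  simp only [sufc, Finset.mem_insert, Finset.mem_biUnion, List.mem_toFinset, List.mem_tails] at *
  rcases h with h | ⟨s, hs, h⟩
  · cases h
  · exact Or.inr ⟨s, hs, (List.suffix_cons n u).trans h⟩

/-- elements of the span have finite support -/
lemma span_support (hP : ∀ f, P f → ∀ s, |pathPotential f s| ≤ 1) {x : LI P}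
    (hx : x ∈ Submodule.span ℝ (Set.range (cv hP))) :
    ∃ (A : Finset (List ℕ)) (c : List ℕ → ℝ), x = ∑ s ∈ A, c s • cv hP s := by
  rw [Finsupp.mem_span_range_iff_exists_finsupp] at hx
  obtain ⟨c, hc⟩ := hx
  exact ⟨c.support, c, hc.symm⟩

/-- The main estimate. -/
theorem mid_estimate (hG : Good P V) (x : ES hG.pot) {η : ℝ} (hη : 0 < η) :
    ∃ F : Set (ES hG.pot), Cof F ∧ ∀ y ∈ F, ∀ a b : ℝ, 0 ≤ a → 0 ≤ b → a ^ 2 + b ^ 2 = 1 →
      2 * a * ‖x‖ + b * ‖y‖ - η ≤ ‖x + y‖ + ‖x - y‖ := by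
  classical
  -- approximate x
  have hx := x.2
  have hx' : (x : LI P) ∈ closure ((Submodule.span ℝ (Set.range (cv hG.pot)) :
      Submodule ℝ (LI P)) : Set (LI P)) := hx
  set η' : ℝ := η / 8 with hη'
  have hη'0 : 0 < η' := by positivity
  obtain ⟨x', hx's, hx'd⟩ := Metric.mem_closure_iff.1 hx' η' hη'0
  rw [dist_eq_norm] at hx'd
  obtain ⟨A, c, hc⟩ := span_support hG.pot hx's
  set T := sufc A with hT
  -- the subspace
  set Φ : ES hG.pot →L[ℝ] (T → ℝ) :=
    ContinuousLinearMap.pi fun s => (kap hG s.1).comp (ES hG.pot).subtypeL with hΦ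
  refine ⟨{y | Φ y = 0}, Cof_ker Φ, ?_⟩
  intro y hy a b ha hb hab
  have hyk : ∀ s ∈ T, kap hG s (y : LI P) = 0 := by
    intro s hs
    have h1 : Φ y = 0 := hy
    exact congrFun h1 ⟨s, hs⟩
  have ha1 : a ≤ 1 := by nlinarith
  have hb1 : b ≤ 1 := by nlinarith
  obtain ⟨f, hf⟩ := exists_test hG hx hη'0
  obtain ⟨g, hg⟩ := exists_test hG y.2 hη'0
  have hnil : [] ∈ (T : Set (List ℕ)) := nil_mem_sufc A
  have hcl : ∀ n u, (n :: u) ∈ (T : Set (List ℕ)) → u ∈ (T : Set (List ℕ)) :=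
    fun n u h => sufc_closed A n u h
  have hPh : ∀ σ : ℝ, |σ| = 1 → P (hh (T : Set (List ℕ)) f.1 g.1 a b σ) := by
    intro σ hσ
    refine hG.mix f.1 g.1 f.2 g.2 (T : Set (List ℕ)) T.finite_toSet hnil hcl a b ha hb hab _
      ?_ ?_ ?_
    · intro s
      rw [pathPotential_hh]
      exact HH_abs hnil hcl hb hb1 (hG.pot g.1 g.2) hσ s
    · intro s hs
      exact hh_mem hnil hcl ha ha1 (hG.pot f.1 f.2) σ hs
    · intro s hs
      exact hh_off hnil hb hσ hs
  obtain ⟨hp, hhp⟩ : ∃ hp : PT P, hp.1 = hh (T : Set (List ℕ)) f.1 g.1 a b 1 :=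
    ⟨mkPT _ (hPh 1 (by simp)), rfl⟩
  obtain ⟨hm, hhm⟩ : ∃ hm : PT P, hm.1 = hh (T : Set (List ℕ)) f.1 g.1 a b (-1) :=
    ⟨mkPT _ (hPh (-1) (by simp)), rfl⟩
  -- evaluation on x'
  have hxe : ∀ h : PT P, (∀ s ∈ T, h.1 s = a * f.1 s) → ev h x' = a * ev f x' := by
    intro h hh1
    rw [hc, map_sum, map_sum, Finset.mul_sum]
    refine Finset.sum_congr rfl fun s hs => ?_
    rw [map_smul, map_smul, ev_cv, ev_cv, hh1 s (subset_sufc hs), smul_eq_mul, smul_eq_mul]
    ring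
  have hxp := hxe hp (fun s hs => by
    rw [hhp]; exact hh_mem hnil hcl ha ha1 (hG.pot f.1 f.2) 1 hs)
  have hxm := hxe hm (fun s hs => by
    rw [hhm]; exact hh_mem hnil hcl ha ha1 (hG.pot f.1 f.2) (-1) hs)
  -- evaluation on y
  have hye : ev hp (y : LI P) - ev hm (y : LI P) = b * ev g (y : LI P) := by
    have h1 : (ev hp - ev hm - b • ev g -
        ∑ s ∈ T, (hp.1 s - hm.1 s - b * g.1 s) • kap hG s) (y : LI P) = 0 := by
      refine clm_ext hG.pot _ (fun u => ?_) _ y.2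
      simp only [_root_.sub_apply, _root_.smul_apply,
        _root_.sum_apply, ev_cv, kap_cv, smul_eq_mul]
      by_cases hu : u ∈ T
      · by_cases huV : u ∈ V
        · rw [Finset.sum_eq_single u]
          · simp [huV]
          · intro s _ hsu
            rw [if_neg (fun h => hsu h.2.symm), mul_zero]
          · intro h; exact absurd hu h
        · have h2 : ∀ f : PT P, f.1 u = 0 := fun f => hG.off u huV f.1 f.2
          rw [h2, h2, h2, Finset.sum_eq_zero]
          · ring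
          · intro s _
            rw [if_neg, mul_zero]
            rintro ⟨h3, h4⟩
            rw [← h4] at h3
            exact huV h3
      · rw [Finset.sum_eq_zero]
        · have := hh_diff (f := f.1) (g := g.1) (a := a) (b := b) hnil
            (fun h : u ∈ (T : Set (List ℕ)) => hu h)
          rw [hhp, hhm, this]
          ring
        · intro s hs
          rw [if_neg, mul_zero]
          rintro ⟨h3, h4⟩
          rw [h4] at hu
          exact hu hs
    have h2 : ∑ s ∈ T, (hp.1 s - hm.1 s - b * g.1 s) * kap hG s (y : LI P) = 0 :=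
      Finset.sum_eq_zero fun s hs => by rw [hyk s hs, mul_zero]
    simp only [_root_.sub_apply, _root_.smul_apply,
        _root_.sum_apply, smul_eq_mul] at h1
    rw [h2] at h1
    linarith
  -- conclusion
  have hdx : ∀ h : PT P, |ev h (x : LI P) - ev h x'| ≤ η' := by
    intro h
    rw [← map_sub]
    exact (abs_ev_le h _).trans hx'd.le
  have h1 : ev hp ((x : LI P) + y) ≤ ‖x + y‖ := (le_abs_self _).trans (abs_ev_le hp _)
  have h2 : ev hm ((x : LI P) - y) ≤ ‖x - y‖ := (le_abs_self _).trans (abs_ev_le hm _)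
  rw [map_add] at h1
  rw [map_sub] at h2
  have h3 := hdx hp
  have h4 := hdx hm
  have h5 := hdx f
  rw [abs_le] at h3 h4 h5
  have hfx : ‖x‖ - η' ≤ ev f (x : LI P) := hf
  have hgy : ‖y‖ - η' ≤ ev g (y : LI P) := hg
  have h6 : a * (‖x‖ - 2 * η') ≤ a * ev f x' := mul_le_mul_of_nonneg_left (by linarith) ha
  have h7 : b * (‖y‖ - η') ≤ b * ev g (y : LI P) := mul_le_mul_of_nonneg_left hgy hb
  nlinarith

/-- consequence in square form -/
theorem mid_sqrt (hG : Good P V) (x : ES hG.pot) {η : ℝ} (hη : 0 < η) :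
    ∃ F : Set (ES hG.pot), Cof F ∧ ∀ y ∈ F,
      2 * Real.sqrt (‖x‖ ^ 2 + ‖y‖ ^ 2 / 4) - η ≤ ‖x + y‖ + ‖x - y‖ := by
  obtain ⟨F, hF, h⟩ := mid_estimate hG x hη
  refine ⟨F, hF, fun y hy => ?_⟩
  set R := Real.sqrt (‖x‖ ^ 2 + ‖y‖ ^ 2 / 4) with hR
  have hR2 : R ^ 2 = ‖x‖ ^ 2 + ‖y‖ ^ 2 / 4 := Real.sq_sqrt (by positivity)
  rcases (Real.sqrt_nonneg (‖x‖ ^ 2 + ‖y‖ ^ 2 / 4)).eq_or_lt with h0 | h0
  · rw [← hR] at h0
    rw [← h0]
    nlinarith [norm_nonneg (x + y), norm_nonneg (x - y)]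
  · rw [← hR] at h0
    have h1 := h y hy (‖x‖ / R) (‖y‖ / 2 / R) (by positivity) (by positivity) (by
      field_simp
      rw [hR2]; ring)
    have h2 : 2 * (‖x‖ / R) * ‖x‖ + ‖y‖ / 2 / R * ‖y‖ = 2 * R := by
      field_simp
      rw [hR2]; ring
    linarith

/-! ### non-AUC -/

/-- path sums -/
noncomputable def node (hP : ∀ f, P f → ∀ s, |pathPotential f s| ≤ 1) : List ℕ → LI P
  | [] => cv hP []
  | n :: v => node hP v + cv hP (n :: v)

lemma cv_mem (hP : ∀ f, P f → ∀ s, |pathPotential f s| ≤ 1) (s : List ℕ) : cv hP s ∈ ES hP :=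
  Submodule.le_topologicalClosure _ (Submodule.subset_span ⟨s, rfl⟩)

lemma node_mem (hP : ∀ f, P f → ∀ s, |pathPotential f s| ≤ 1) (v : List ℕ) : node hP v ∈ ES hP := by
  induction v with
  | nil => exact cv_mem hP []
  | cons n v ih => exact Submodule.add_mem _ ih (cv_mem hP _)

lemma ev_node (hP : ∀ f, P f → ∀ s, |pathPotential f s| ≤ 1) (f : PT P) (v : List ℕ) :
    ev f (node hP v) = pathPotential f.1 v := by
  induction v with
  | nil => rfl
  | cons n v ih =>
    simp only [node, pathPotential]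
    rw [map_add, ih, ev_cv]

lemma norm_node_le (hG : Good P V) (v : List ℕ) : ‖node hG.pot v‖ ≤ 1 :=
  norm_le_of_tests hG.ne fun f => by rw [ev_node]; exact hG.pot f.1 f.2 v

lemma one_le_norm_cv (hG : Good P V) {s : List ℕ} (hs : s ∈ V) : 1 ≤ ‖cv hG.pot s‖ := by
  have h1 := abs_ev_le (mkPT _ (hG.delta s hs)) (cv hG.pot s)
  rw [ev_cv] at h1
  simpa [mkPT] using h1

lemma pathPotential_delta_not_suffix (s : List ℕ) : ∀ v : List ℕ, v.length < s.length →
    pathPotential (fun u => if u = s then (1:ℝ) else 0) v = 0 := by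
  intro v
  induction v with
  | nil =>
    intro h
    simp only [pathPotential]
    rw [if_neg]
    rintro rfl
    exact lt_irrefl _ h
  | cons n v ih =>
    intro h
    simp only [pathPotential]
    rw [ih (by simp only [List.length_cons] at h; omega), if_neg]
    · ring
    · rintro rfl
      exact lt_irrefl _ h

lemma pathPotential_delta_self (s : List ℕ) :
    pathPotential (fun u => if u = s then (1:ℝ) else 0) s = 1 := by
  cases s with
  | nil => simp [pathPotential]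
  | cons n v =>
    simp only [pathPotential]
    rw [pathPotential_delta_not_suffix _ v (by simp)]
    simp

lemma one_le_norm_node (hG : Good P V) {s : List ℕ} (hs : s ∈ V) : 1 ≤ ‖node hG.pot s‖ := by
  have h1 := abs_ev_le (mkPT _ (hG.delta s hs)) (node hG.pot s)
  rw [ev_node] at h1
  simp only [mkPT, pathPotential_delta_self] at h1
  simpa using h1

lemma two_est (hG : Good P V) (v : List ℕ) (s : Finset ℕ) (a : ℕ → ℝ) :
    ‖∑ n ∈ s, a n • cv hG.pot (n :: v)‖ ≤ Real.sqrt (∑ n ∈ s, a n ^ 2) := by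
  refine norm_le_of_tests hG.ne fun f => ?_
  rw [map_sum]
  simp_rw [map_smul, ev_cv, smul_eq_mul]
  refine Real.abs_le_sqrt ?_
  calc (∑ n ∈ s, a n * f.1 (n :: v)) ^ 2 ≤ (∑ n ∈ s, a n ^ 2) * ∑ n ∈ s, f.1 (n :: v) ^ 2 :=
        Finset.sum_mul_sq_le_sq_mul_sq _ _ _
    _ ≤ (∑ n ∈ s, a n ^ 2) * 1 := by
        refine mul_le_mul_of_nonneg_left (hG.two f.1 f.2 v s)
          (Finset.sum_nonneg fun _ _ => sq_nonneg _)
    _ = _ := mul_one _

/-- the coordinate vectors of the children of a vertex are weakly null -/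
lemma cv_near (hG : Good P V) (v : List ℕ) {F : Set (ES hG.pot)} (hF : Cof F) {ε : ℝ}
    (hε : 0 < ε) : ∃ n, ∃ f ∈ F, ‖(⟨cv hG.pot (n :: v), cv_mem hG.pot _⟩ : ES hG.pot) - f‖ < ε := by
  refine weakly_null_near hF (fun n => (⟨cv hG.pot (n :: v), cv_mem hG.pot _⟩ : ES hG.pot))
    (weakly_null_of_two_estimate _ 1 fun s a => ?_) hε
  rw [one_mul]
  have e : ((∑ n ∈ s, a n • (⟨cv hG.pot (n :: v), cv_mem hG.pot _⟩ : ES hG.pot) : ES hG.pot) :
      LI P) = ∑ n ∈ s, a n • cv hG.pot (n :: v) := by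
    rw [AddSubmonoidClass.coe_finsetSum]
    rfl
  have e2 : ‖∑ n ∈ s, a n • (⟨cv hG.pot (n :: v), cv_mem hG.pot _⟩ : ES hG.pot)‖ =
      ‖((∑ n ∈ s, a n • (⟨cv hG.pot (n :: v), cv_mem hG.pot _⟩ : ES hG.pot) : ES hG.pot) :
      LI P)‖ := rfl
  rw [e2, e]
  exact two_est hG v s a

/-- no equivalent AUC norm, infinite depth -/
theorem gen_not_AUC (hG : Good P V) (hV : ∀ s : List ℕ, s ≠ [] → s ∈ V)
    (N : ES hG.pot → ℝ) (hN : EqNorm (ES hG.pot) N) : ¬ AUC (ES hG.pot) N := by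
  refine not_AUC 1 1 one_pos
    (fun _ _ => {x | ∃ v : List ℕ, v ≠ [] ∧ x = ⟨node hG.pot v, node_mem hG.pot v⟩}) ?_ ?_ ?_ N hN
  · intro k
    exact ⟨_, ⟨[0], by simp, rfl⟩, one_le_norm_node hG (hV _ (by simp))⟩
  · rintro k j - x ⟨v, -, rfl⟩
    exact norm_node_le hG v
  · rintro k j - x ⟨v, -, rfl⟩ F hF ε hε
    obtain ⟨n, f, hf, hf2⟩ := cv_near hG v hF hε
    exact ⟨⟨cv hG.pot (n :: v), cv_mem hG.pot _⟩, f, ⟨n :: v, by simp, rfl⟩, hf, hf2,
      one_le_norm_cv hG (hV _ (by simp))⟩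

/-- separability -/
theorem gen_separable (hP : ∀ f, P f → ∀ s, |pathPotential f s| ≤ 1) :
    TopologicalSpace.SeparableSpace (ES hP) := by
  have h1 : TopologicalSpace.IsSeparable (Set.range (cv hP)) :=
    (Set.countable_range (cv hP)).isSeparable
  have h2 : TopologicalSpace.IsSeparable
      ((Submodule.span ℝ (Set.range (cv hP)) : Submodule ℝ (LI P)) : Set (LI P)) :=
    h1.span
  have h3 : TopologicalSpace.IsSeparable ((ES hP : Submodule ℝ (LI P)) : Set (LI P)) := h2.closure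
  exact h3.separableSpace

end Crest.Agent.S0168
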