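import Crest.Statements.S0168
import Crest.Agent.S0168Gen

set_option autoImplicit false
open Crest Crest.AnalysisR

namespace Crest.Agent.S0168

open Crest.AnalysisR.TreePotential Crest.Agent.S0166

/-- splitting a square sum -/
lemma split_sum {ι : Type*} (A : Finset ι) (φ ψ h : ι → ℝ) (T₀ : Set ι) (a b : ℝ)
    (ha : 0 ≤ a) (hb : 0 ≤ b) (hab : a ^ 2 + b ^ 2 = 1)
    (h1 : ∀ s ∈ T₀, h s = a * φ s) (h2 : ∀ s, s ∉ T₀ → |h s| ≤ b * |ψ s|)
    (hφ : ∀ B ⊆ A, ∑ u ∈ B, φ u ^ 2 ≤ 1) (hψ : ∀ B ⊆ A, ∑ u ∈ B, ψ u ^ 2 ≤ 1) :
    ∑ u ∈ A, h u ^ 2 ≤ 1 := by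
  classical
  rw [← Finset.sum_filter_add_sum_filter_not A (fun u => u ∈ T₀)]
  have e1 : ∑ u ∈ A.filter (fun u => u ∈ T₀), h u ^ 2 ≤ a ^ 2 := by
    calc ∑ u ∈ A.filter (fun u => u ∈ T₀), h u ^ 2 =
          a ^ 2 * ∑ u ∈ A.filter (fun u => u ∈ T₀), φ u ^ 2 := by
          rw [Finset.mul_sum]
          refine Finset.sum_congr rfl fun u hu => ?_
          rw [Finset.mem_filter] at hu
          rw [h1 u hu.2]; ring
      _ ≤ a ^ 2 * 1 := mul_le_mul_of_nonneg_left (hφ _ (Finset.filter_subset _ _)) (sq_nonneg _)
      _ = a ^ 2 := mul_one _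
  have e2 : ∑ u ∈ A.filter (fun u => ¬ u ∈ T₀), h u ^ 2 ≤ b ^ 2 := by
    calc ∑ u ∈ A.filter (fun u => ¬ u ∈ T₀), h u ^ 2 ≤
          b ^ 2 * ∑ u ∈ A.filter (fun u => ¬ u ∈ T₀), ψ u ^ 2 := by
          rw [Finset.mul_sum]
          refine Finset.sum_le_sum fun u hu => ?_
          rw [Finset.mem_filter] at hu
          have h3 := h2 u hu.2
          have h4 : |h u| ^ 2 ≤ (b * |ψ u|) ^ 2 := pow_le_pow_left₀ (abs_nonneg _) h3 2
          rw [mul_pow, sq_abs, sq_abs] at h4
          exact h4
      _ ≤ b ^ 2 * 1 := mul_le_mul_of_nonneg_left (hψ _ (Finset.filter_subset _ _)) (sq_nonneg _)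
      _ = b ^ 2 := mul_one _
  linarith

lemma delta_sum {ι : Type*} [DecidableEq ι] (A : Finset ι) (s : ι) :
    ∑ u ∈ A, (if u = s then (1:ℝ) else 0) ^ 2 ≤ 1 := by
  have : ∀ u, (if u = s then (1:ℝ) else 0) ^ 2 = if u = s then 1 else 0 := by
    intro u; split_ifs <;> norm_num
  simp_rw [this]
  rw [Finset.sum_ite_eq']
  split_ifs <;> norm_num

/-- the embedding of the children -/
def consEmb (r : List ℕ) : ℕ ↪ List ℕ where
  toFun n := n :: r
  inj' := fun a b h => by
    have h' : a :: r = b :: r := h
    simpa using h'

lemma consEmb_apply (r : List ℕ) (n : ℕ) : consEmb r n = n :: r := rfl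

lemma delta_sum_children (A : Finset ℕ) (r s : List ℕ) :
    ∑ n ∈ A, (if n :: r = s then (1:ℝ) else 0) ^ 2 ≤ 1 := by
  have h := delta_sum (A.map (consEmb r)) s
  rw [Finset.sum_map] at h
  exact h

lemma pathPotential_delta_abs (s v : List ℕ) :
    |pathPotential (fun u => if u = s then (1:ℝ) else 0) v| ≤ 1 := by
  have key : 0 ≤ pathPotential (fun u => if u = s then (1:ℝ) else 0) v ∧
      pathPotential (fun u => if u = s then (1:ℝ) else 0) v ≤ 1 := by
    induction v with
    | nil =>
      simp only [pathPotential]
      split_ifs <;> norm_num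
    | cons n v ih =>
      by_cases h : n :: v = s
      · rw [← h, pathPotential_delta_self]
        norm_num
      · simp only [pathPotential]
        rw [if_neg h]
        simpa using ih
  rw [abs_le]
  exact ⟨by linarith [key.1], key.2⟩

lemma pathPotential_neg (f : List ℕ → ℝ) (s : List ℕ) :
    pathPotential (fun u => -f u) s = -pathPotential f s := by
  induction s with
  | nil => rfl
  | cons n v ih => simp only [pathPotential]; rw [ih]; ring

/-- the vertex set of the model -/
def Vm : PotentialModel → Set (List ℕ)
  | .rootlessSibling => {s | s ≠ []}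
  | _ => Set.univ

lemma ne_nil_mem_Vm (m : PotentialModel) (s : List ℕ) (h : s ≠ []) : s ∈ Vm m := by
  cases m <;> first | exact h | exact Set.mem_univ _

lemma zero_test (m : PotentialModel) : IsTest m (fun _ => 0) := by
  refine ⟨?_, ?_⟩
  · intro s
    have : pathPotential (fun _ => (0:ℝ)) s = 0 := by
      induction s with
      | nil => rfl
      | cons n v ih => simp only [pathPotential]; rw [ih]; ring
    rw [this]; simp
  · cases m <;> simp [ExtraCondition]

theorem good_model (m : PotentialModel) : Good (IsTest m) (Vm m) := by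
  refine ⟨fun f hf => hf.1, ?_, ?_, ?_, ?_, ?_, ⟨_, zero_test m⟩⟩
  · -- neg
    intro f hf
    refine ⟨fun s => ?_, ?_⟩
    · rw [pathPotential_neg, abs_neg]; exact hf.1 s
    · have h2 := hf.2
      cases m with
      | rootlessSibling =>
        simp only [ExtraCondition] at h2 ⊢
        refine ⟨by rw [h2.1, neg_zero], fun r A => ?_⟩
        simp only [neg_sq]; exact h2.2 r A
      | rootedSibling =>
        simp only [ExtraCondition] at h2 ⊢
        intro r A
        simp only [neg_sq]; exact h2 r A
      | antichain =>
        simp only [ExtraCondition] at h2 ⊢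
        refine ⟨?_, fun A hA => ?_⟩
        · refine h2.1.subset fun s hs => ?_
          simpa using hs
        · simp only [neg_sq]; exact h2.2 A hA
      | global =>
        simp only [ExtraCondition] at h2 ⊢
        intro A
        simp only [neg_sq]; exact h2 A
  · -- two
    intro f hf v A
    have h2 := hf.2
    cases m with
    | rootlessSibling => exact h2.2 v A
    | rootedSibling => exact h2 v A
    | antichain =>
      have h3 := h2.2 (A.map (consEmb v)) (by
        intro u hu w hw huw hsuf
        simp only [Finset.mem_map, consEmb_apply] at hu hw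
        obtain ⟨a, -, rfl⟩ := hu
        obtain ⟨b, -, rfl⟩ := hw
        exact huw (hsuf.eq_of_length (by simp)))
      rw [Finset.sum_map] at h3
      exact h3
    | global =>
      have h3 := h2 (A.map (consEmb v))
      rw [Finset.sum_map] at h3
      exact h3
  · -- delta
    intro s hs
    have e : (fun u => (@ite ℝ (u = s) (Classical.propDecidable _) 1 0)) =
      fun u => if u = s then (1:ℝ) else 0 := by
      funext u
      congr
    refine ⟨fun v => ?_, ?_⟩
    · convert pathPotential_delta_abs s v
    · cases m with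
      | rootlessSibling =>
        refine ⟨if_neg fun h => ?_, fun r A => ?_⟩
        · have hs' : s ≠ [] := hs
          exact hs' h.symm
        · convert delta_sum_children A r s
      | rootedSibling =>
        intro r A
        convert delta_sum_children A r s
      | antichain =>
        refine ⟨(Set.finite_singleton s).subset fun u hu => ?_, fun A _ => ?_⟩
        · by_contra h
          exact hu (if_neg h)
        · convert delta_sum A s
      | global =>
        intro A
        convert delta_sum A s
  · -- off
    intro s hs f hf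
    cases m with
    | rootlessSibling =>
      have hs' : s = [] := by
        by_contra h
        exact hs h
      rw [hs']
      exact hf.2.1
    | rootedSibling => exact absurd (Set.mem_univ s) hs
    | antichain => exact absurd (Set.mem_univ s) hs
    | global => exact absurd (Set.mem_univ s) hs
  · -- mix
    intro f g hf hg T₀ hT₀ hnil hcl a b ha hb hab h hpot h1 h2
    refine ⟨hpot, ?_⟩
    have hf2 := hf.2
    have hg2 := hg.2
    cases m with
    | rootlessSibling =>
      refine ⟨by rw [h1 _ hnil, hf2.1, mul_zero], fun r A => ?_⟩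
      exact split_sum A (fun n => f (n :: r)) (fun n => g (n :: r)) (fun n => h (n :: r))
        {n | (n :: r) ∈ T₀} a b ha hb hab (fun n hn => h1 _ hn) (fun n hn => h2 _ hn)
        (fun B _ => hf2.2 r B) (fun B _ => hg2.2 r B)
    | rootedSibling =>
      intro r A
      exact split_sum A (fun n => f (n :: r)) (fun n => g (n :: r)) (fun n => h (n :: r))
        {n | (n :: r) ∈ T₀} a b ha hb hab (fun n hn => h1 _ hn) (fun n hn => h2 _ hn)
        (fun B _ => hf2 r B) (fun B _ => hg2 r B)
    | antichain =>
      refine ⟨(hT₀.union hg2.1).subset fun s hs => ?_, fun A hA => ?_⟩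
      · by_cases hsT : s ∈ T₀
        · exact Or.inl hsT
        · right
          intro hgs
          have := h2 s hsT
          rw [hgs, abs_zero, mul_zero] at this
          exact hs (abs_eq_zero.1 (le_antisymm this (abs_nonneg _)))
      · exact split_sum A f g h T₀ a b ha hb hab h1 h2
          (fun B hB => hf2.2 B fun u hu v hv => hA u (hB hu) v (hB hv))
          (fun B hB => hg2.2 B fun u hu v hv => hA u (hB hu) v (hB hv))
    | global =>
      intro A
      exact split_sum A f g h T₀ a b ha hb hab h1 h2 (fun B _ => hf2 B) (fun B _ => hg2 B)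

/-- For each of the four bounded-potential coordinate models on the countably branching tree (rootless sibling, rooted sibling, antichain, global), the generated space, namely the closure of the span of the coordinate vectors in the supremum norm over the model's tests, is separable and infinite-dimensional, its norm has at every unit centre and every 0 < t < 1 averaged midpoint asymptotic quantity at least √(1 + t²/4) - 1, and no equivalent norm on it is asymptotically uniformly convex. -/
theorem result
    (m : Crest.AnalysisR.TreePotential.PotentialModel) :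
    (Crest.AnalysisR.TreePotential.modelBanach m).IsSeparableInfiniteDim ∧
      (∀ t : ℝ, 0 < t → t < 1 →
        (Crest.AnalysisR.TreePotential.modelBanach m).MidpointModulusGE
          (Crest.AnalysisR.TreePotential.modelBanach m).norm t (Real.sqrt (1 + t ^ 2 / 4) - 1)) ∧
      ∀ N : (Crest.AnalysisR.TreePotential.modelBanach m).X → ℝ,
        (Crest.AnalysisR.TreePotential.modelBanach m).IsEquivNorm N →
          ¬ (Crest.AnalysisR.TreePotential.modelBanach m).IsAUC N := by
  have hG := good_model m
  have hnot : ∀ N : ES hG.pot → ℝ, EqNorm (ES hG.pot) N → ¬ AUC (ES hG.pot) N :=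
    fun N hN => gen_not_AUC hG (fun s hs => ne_nil_mem_Vm m s hs) N hN
  refine ⟨⟨gen_separable hG.pot, ?_⟩, ?_, hnot⟩
  · exact infiniteDimensional_of_not_AUC (X := ES hG.pot) (hnot _ eqNorm_norm)
  · intro t ht0 ht1
    have key : ∀ x : ES hG.pot, ‖x‖ = 1 → ∀ η : ℝ, 0 < η → ∃ F : Set (ES hG.pot), Cof F ∧
        ∀ y ∈ F, ‖y‖ = 1 → (Real.sqrt (1 + t ^ 2 / 4) - 1) - η ≤
          (‖x + t • y‖ + ‖x - t • y‖) / 2 - 1 := by
      intro x hx η hη
      obtain ⟨F, hF, h⟩ := mid_sqrt hG x hη
      refine ⟨F, hF, fun y hy hy1 => ?_⟩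
      obtain ⟨S, rfl, -, -⟩ := hF
      have h1 := h (t • y) (S.smul_mem t hy)
      rw [norm_smul, hx, hy1, Real.norm_eq_abs, abs_of_pos ht0] at h1
      have e : (1:ℝ) ^ 2 + (t * 1) ^ 2 / 4 = 1 + t ^ 2 / 4 := by ring
      rw [e] at h1
      linarith
    exact key

end Crest.Agent.S0168
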