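import Crest.Statements.S0166
import Crest.Agent.S0166Refl
import Crest.Agent.S0168

set_option autoImplicit false
set_option linter.unusedSectionVars false
set_option linter.unusedVariables false
open Crest Crest.AnalysisR

namespace Crest.Agent.S0166

open Filter Topology
open scoped ENNReal
open Crest.AnalysisR.TreePotential
open Crest.Agent.S0168

/-! ### reflexivity of spaces generated by square summable tests -/

section ReflES

variable {P : (List ℕ → ℝ) → Prop} {V : Set (List ℕ)}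

lemma kap_off (hG : Good P V) {s : List ℕ} (hs : s ∉ V) : kap hG s = 0 := by
  unfold kap
  rw [dif_neg hs]

lemma kap_bound (hG : Good P V) {c : ℝ} (hc : 0 < c)
    (hSC : ∀ (A : Finset (List ℕ)) (a : List ℕ → ℝ), (∀ s ∈ A, s ∈ V) → (∀ s, s ∉ A → a s = 0) →
      ∑ s ∈ A, a s ^ 2 ≤ c ^ 2 → P a) (x : ES hG.pot) (A : Finset (List ℕ)) :
    ∑ s ∈ A, (kap hG s (x : LI P)) ^ 2 ≤ (c⁻¹ * ‖x‖) ^ 2 := by
  classical
  set A' := A.filter (fun s => s ∈ V) with hA'
  have hsum : ∑ s ∈ A, (kap hG s (x : LI P)) ^ 2 = ∑ s ∈ A', (kap hG s (x : LI P)) ^ 2 := by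
    rw [hA', Finset.sum_filter]
    refine Finset.sum_congr rfl fun s _ => ?_
    by_cases h : s ∈ V
    · rw [if_pos h]
    · rw [if_neg h, kap_off hG h]
      simp
  rw [hsum]
  set Q := ∑ s ∈ A', (kap hG s (x : LI P)) ^ 2 with hQ
  have hQ0 : 0 ≤ Q := Finset.sum_nonneg fun _ _ => sq_nonneg _
  rcases hQ0.eq_or_lt with h | h
  · rw [← h]; positivity
  · have hs : 0 < Real.sqrt Q := Real.sqrt_pos.2 h
    have hs2 : Real.sqrt Q ^ 2 = Q := Real.sq_sqrt hQ0
    set f : List ℕ → ℝ := fun s => if s ∈ A' then (c / Real.sqrt Q) * kap hG s (x : LI P) else 0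
      with hf
    have hPf : P f := by
      refine hSC A' f (fun s hs => (Finset.mem_filter.1 hs).2) (fun s hs => if_neg hs) ?_
      have : ∑ s ∈ A', f s ^ 2 = (c / Real.sqrt Q) ^ 2 * Q := by
        rw [hQ, Finset.mul_sum]
        refine Finset.sum_congr rfl fun s hs => ?_
        rw [hf]
        simp only [if_pos hs]
        ring
      rw [this, div_pow, hs2, div_mul_cancel₀ _ h.ne']
    obtain ⟨F, hF⟩ : ∃ F : PT P, F.1 = f := ⟨mkPT f hPf, rfl⟩
    have h1 : (ev F - ∑ s ∈ A', F.1 s • kap hG s) (x : LI P) = 0 := by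
      refine clm_ext hG.pot _ (fun u => ?_) _ x.2
      simp only [_root_.sub_apply, _root_.smul_apply,
        _root_.sum_apply, ev_cv, kap_cv, smul_eq_mul]
      by_cases hu : u ∈ A'
      · rw [Finset.sum_eq_single u]
        · simp [(Finset.mem_filter.1 hu).2]
        · intro s _ hsu
          rw [if_neg (fun h => hsu h.2.symm), mul_zero]
        · intro h; exact absurd hu h
      · rw [Finset.sum_eq_zero]
        · rw [hF]
          simp only [hf]
          rw [if_neg hu]; ring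
        · intro s hs
          rw [if_neg, mul_zero]
          rintro ⟨h3, h4⟩
          rw [h4] at hu
          exact hu hs
    simp only [_root_.sub_apply, _root_.smul_apply, _root_.sum_apply, smul_eq_mul] at h1
    have h2 : ∑ s ∈ A', F.1 s * kap hG s (x : LI P) = c * Real.sqrt Q := by
      have : ∑ s ∈ A', F.1 s * kap hG s (x : LI P) = (c / Real.sqrt Q) * Q := by
        rw [hQ, Finset.mul_sum]
        refine Finset.sum_congr rfl fun s hs => ?_
        rw [hF]
        simp only [hf]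
        rw [if_pos hs]
        ring
      rw [this]
      nth_rewrite 2 [← hs2]
      field_simp
    have h3 := (le_abs_self _).trans (abs_ev_le F (x : LI P))
    have h4 : c * Real.sqrt Q ≤ ‖x‖ := by
      have e : ‖x‖ = ‖(x : LI P)‖ := rfl
      rw [e]
      linarith
    have h5 : Real.sqrt Q ≤ c⁻¹ * ‖x‖ := by
      rw [inv_mul_eq_div, le_div_iff₀ hc, mul_comm]
      exact h4
    calc Q = Real.sqrt Q ^ 2 := hs2.symm
      _ ≤ _ := pow_le_pow_left₀ hs.le h5 2

/-- coordinates as a bounded map to a Hilbert space -/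
theorem refl_ES (hG : Good P V) (hSQ : ∀ f, P f → ∀ A : Finset (List ℕ), ∑ u ∈ A, f u ^ 2 ≤ 1)
    {c : ℝ} (hc : 0 < c)
    (hSC : ∀ (A : Finset (List ℕ)) (a : List ℕ → ℝ), (∀ s ∈ A, s ∈ V) → (∀ s, s ∉ A → a s = 0) →
      ∑ s ∈ A, a s ^ 2 ≤ c ^ 2 → P a) : Refl (ES hG.pot) := by
  classical
  have hmem : ∀ x : ES hG.pot, Memℓp (E := fun _ : List ℕ => ℝ)
      (fun s => kap hG s (x : LI P)) 2 := by
    intro x
    refine memℓp_gen' (C := (c⁻¹ * ‖x‖) ^ 2) fun A => ?_
    simpa using kap_bound hG hc hSC x A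
  set R₀ : ES hG.pot →ₗ[ℝ] lp (fun _ : List ℕ => ℝ) 2 :=
    { toFun := fun x => ⟨fun s => kap hG s (x : LI P), hmem x⟩
      map_add' := fun x y => by
        apply lp.ext
        funext s
        show kap hG s ((x + y : ES hG.pot) : LI P) = kap hG s (x : LI P) + kap hG s (y : LI P)
        rw [← map_add]; rfl
      map_smul' := fun a x => by
        apply lp.ext
        funext s
        show kap hG s ((a • x : ES hG.pot) : LI P) = a • kap hG s (x : LI P)
        rw [← map_smul]; rfl } with hR₀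
  have hsq : ∀ y : lp (fun _ : List ℕ => ℝ) 2, HasSum (fun s => y s ^ 2) (‖y‖ ^ 2) := by
    intro y
    have h := lp.hasSum_norm (p := 2) (by simp) y
    simpa using h
  set R : ES hG.pot →L[ℝ] lp (fun _ : List ℕ => ℝ) 2 := R₀.mkContinuous c⁻¹ (fun x => by
    have h1 := hasSum_le_of_sum_le (hsq (R₀ x)) (fun A => kap_bound hG hc hSC x A)
    exact le_of_sq_le_sq h1 (by positivity)) with hR
  have hRa : ∀ x s, (R x : List ℕ → ℝ) s = kap hG s (x : LI P) := fun x s => rfl
  have hspan : ∀ x : ES hG.pot, (x : LI P) ∈ Submodule.span ℝ (Set.range (cv hG.pot)) →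
      ‖x‖ ≤ ‖R x‖ := by
    intro x hx
    obtain ⟨A, a, ha⟩ := span_support hG.pot hx
    refine norm_le_of_tests hG.ne fun f => ?_
    show |ev f (x : LI P)| ≤ ‖R x‖
    have e1 : ev f (x : LI P) = ∑ s ∈ A, f.1 s * kap hG s (x : LI P) := by
      have e2 : ∀ u ∈ A, ev f (cv hG.pot u) = ∑ s ∈ A, f.1 s * kap hG s (cv hG.pot u) := by
        intro u hu
        simp only [ev_cv, kap_cv]
        rw [Finset.sum_eq_single u]
        · by_cases huV : u ∈ V
          · simp [huV]
          · rw [hG.off u huV f.1 f.2]; simp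
        · intro s _ hsu
          rw [if_neg (fun h => hsu h.2.symm), mul_zero]
        · intro h; exact absurd hu h
      rw [ha]
      simp only [map_sum, map_smul, smul_eq_mul]
      simp_rw [Finset.mul_sum]
      rw [Finset.sum_comm]
      refine Finset.sum_congr rfl fun u hu => ?_
      rw [e2 u hu, Finset.mul_sum]
      refine Finset.sum_congr rfl fun s _ => ?_
      ring
    rw [e1]
    have h1 : (∑ s ∈ A, f.1 s * kap hG s (x : LI P)) ^ 2 ≤ ‖R x‖ ^ 2 := by
      calc (∑ s ∈ A, f.1 s * kap hG s (x : LI P)) ^ 2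
          ≤ (∑ s ∈ A, f.1 s ^ 2) * ∑ s ∈ A, (kap hG s (x : LI P)) ^ 2 :=
            Finset.sum_mul_sq_le_sq_mul_sq _ _ _
        _ ≤ 1 * ∑ s ∈ A, (kap hG s (x : LI P)) ^ 2 :=
            mul_le_mul_of_nonneg_right (hSQ f.1 f.2 A) (Finset.sum_nonneg fun _ _ => sq_nonneg _)
        _ = ∑ s ∈ A, (kap hG s (x : LI P)) ^ 2 := one_mul _
        _ ≤ ‖R x‖ ^ 2 := sum_le_hasSum A (fun _ _ => sq_nonneg _) (hsq (R x))
    exact abs_le_of_sq_le_sq h1 (norm_nonneg _)
  have hall : ∀ x : ES hG.pot, ‖x‖ ≤ ‖R x‖ := by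
    intro x
    have hx : (x : LI P) ∈ closure ((Submodule.span ℝ (Set.range (cv hG.pot)) :
      Submodule ℝ (LI P)) : Set (LI P)) := x.2
    obtain ⟨u, hu1, hu2⟩ := mem_closure_iff_seq_limit.1 hx
    set u' : ℕ → ES hG.pot := fun n => ⟨u n, Submodule.le_topologicalClosure _ (hu1 n)⟩ with hu'
    have hu3 : Tendsto u' atTop (𝓝 x) := by
      rw [tendsto_subtype_rng]
      exact hu2
    refine le_of_tendsto_of_tendsto hu3.norm ((R.continuous.tendsto x).comp hu3).norm
      (Eventually.of_forall fun n => ?_)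
    exact hspan (u' n) (hu1 n)
  have : CompleteSpace (ES hG.pot) := (Submodule.isClosed_topologicalClosure _).completeSpace_coe
  exact refl_of_embed R one_pos (fun x => by rw [one_mul]; exact hall x)

end ReflES

/-! ### the finite depth classes -/

/-- square summable tests of depth `k` -/
def Pk (k : ℕ) (f : List ℕ → ℝ) : Prop :=
  (∀ s, |pathPotential f s| ≤ 1) ∧ (∀ A : Finset (List ℕ), ∑ u ∈ A, f u ^ 2 ≤ 1) ∧
    ∀ s : List ℕ, k ≤ s.length → f s = 0

/-- the vertices of depth less than `k` -/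
def Vk (k : ℕ) : Set (List ℕ) := {s | s.length < k}

lemma zero_pot (s : List ℕ) : pathPotential (fun _ => (0:ℝ)) s = 0 := by
  induction s with
  | nil => rfl
  | cons n v ih => simp only [pathPotential]; rw [ih]; ring

theorem good_k (k : ℕ) : Good (Pk k) (Vk k) := by
  refine ⟨fun f hf => hf.1, ?_, ?_, ?_, ?_, ?_, ⟨fun _ => 0, ?_, ?_, ?_⟩⟩
  · intro f hf
    refine ⟨fun s => ?_, fun A => ?_, fun s hs => ?_⟩
    · rw [pathPotential_neg, abs_neg]; exact hf.1 s
    · simp only [neg_sq]; exact hf.2.1 A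
    · show -f s = 0
      rw [hf.2.2 s hs, neg_zero]
  · intro f hf v A
    have h3 := hf.2.1 (A.map (consEmb v))
    rw [Finset.sum_map] at h3
    exact h3
  · intro s hs
    refine ⟨fun v => ?_, fun A => ?_, fun u hu => ?_⟩
    · convert pathPotential_delta_abs s v
    · convert delta_sum A s
    · refine if_neg fun h => ?_
      have hs' : s.length < k := hs
      rw [h] at hu
      omega
  · intro s hs f hf
    refine hf.2.2 s ?_
    by_contra h
    push Not at h
    exact hs h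
  · intro f g hf hg T₀ hT₀ hnil hcl a b ha hb hab h hpot h1 h2
    refine ⟨hpot, fun A => split_sum A f g h T₀ a b ha hb hab h1 h2 (fun B _ => hf.2.1 B)
      (fun B _ => hg.2.1 B), fun s hs => ?_⟩
    by_cases hsT : s ∈ T₀
    · rw [h1 s hsT, hf.2.2 s hs, mul_zero]
    · have := h2 s hsT
      rw [hg.2.2 s hs, abs_zero, mul_zero] at this
      exact abs_eq_zero.1 (le_antisymm this (abs_nonneg _))
  · intro s; rw [zero_pot]; simp
  · intro A; simp
  · intro s _; rfl

/-- small square summable families are tests -/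
lemma small_test (k : ℕ) (A : Finset (List ℕ)) (a : List ℕ → ℝ) (hA : ∀ s ∈ A, s ∈ Vk k)
    (ha : ∀ s, s ∉ A → a s = 0) (hsq : ∑ s ∈ A, a s ^ 2 ≤ (1 / ((k : ℝ) + 1)) ^ 2) : Pk k a := by
  classical
  set c : ℝ := 1 / ((k : ℝ) + 1) with hc
  have hc0 : 0 < c := by positivity
  have hc1 : c ≤ 1 := by
    rw [hc, div_le_one (by positivity)]
    have : (0:ℝ) ≤ k := Nat.cast_nonneg k
    linarith
  have hck : c * k ≤ 1 := by
    rw [hc, div_mul_eq_mul_div, one_mul, div_le_one (by positivity)]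
    linarith
  have habs : ∀ s, |a s| ≤ c := by
    intro s
    by_cases hs : s ∈ A
    · have h1 : a s ^ 2 ≤ ∑ s ∈ A, a s ^ 2 :=
        Finset.single_le_sum (f := fun s => a s ^ 2) (fun _ _ => sq_nonneg _) hs
      exact abs_le_of_sq_le_sq (h1.trans hsq) hc0.le
    · rw [ha s hs, abs_zero]; exact hc0.le
  have hdep : ∀ s : List ℕ, k ≤ s.length → a s = 0 := by
    intro s hs
    refine ha s fun h => ?_
    have : s.length < k := hA s h
    omega
  have hpot : ∀ s : List ℕ, |pathPotential a s| ≤ c * (min (s.length + 1) k : ℕ) := by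
    intro s
    induction s with
    | nil =>
      simp only [pathPotential]
      by_cases hk : k = 0
      · rw [hdep [] (by simp [hk])]
        simp only [abs_zero]
        positivity
      · have h1 : min (([] : List ℕ).length + 1) k = 1 := by
          simp only [List.length_nil]; omega
        rw [h1, Nat.cast_one, mul_one]
        exact habs []
    | cons n v ih =>
      simp only [pathPotential]
      by_cases hk : k ≤ (n :: v).length
      · rw [hdep _ hk, add_zero]
        refine ih.trans (mul_le_mul_of_nonneg_left ?_ hc0.le)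
        have : min (v.length + 1) k ≤ min ((n :: v).length + 1) k := by
          simp only [List.length_cons]; omega
        exact_mod_cast this
      · have h1 : min ((n :: v).length + 1) k = min (v.length + 1) k + 1 := by
          simp only [List.length_cons] at hk ⊢; omega
        rw [h1]
        push_cast
        refine (abs_add_le _ _).trans ?_
        have h2 := habs (n :: v)
        have h3 : c * ((min (v.length + 1) k : ℕ) + 1 : ℝ) = c * (min (v.length + 1) k : ℕ) + c := by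
          ring
        push_cast at h3 ih
        rw [h3]
        exact add_le_add ih h2
  refine ⟨fun s => (hpot s).trans ?_, fun B => ?_, hdep⟩
  · have h1 : ((min (s.length + 1) k : ℕ) : ℝ) ≤ k := by
      exact_mod_cast min_le_right _ _
    exact (mul_le_mul_of_nonneg_left h1 hc0.le).trans hck
  · have h1 : ∑ u ∈ B, a u ^ 2 ≤ ∑ s ∈ A, a s ^ 2 := by
      have h2 : ∑ u ∈ B, a u ^ 2 = ∑ u ∈ B ∩ A, a u ^ 2 := by
        symm
        refine Finset.sum_subset Finset.inter_subset_left fun u hu hu2 => ?_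
        have : u ∉ A := fun h => hu2 (Finset.mem_inter.2 ⟨hu, h⟩)
        rw [ha u this]; ring
      rw [h2]
      exact Finset.sum_le_sum_of_subset_of_nonneg Finset.inter_subset_right
        fun _ _ _ => sq_nonneg _
    refine h1.trans (hsq.trans ?_)
    exact pow_le_one₀ hc0.le hc1

/-- the components -/
abbrev EK (k : ℕ) : Type := ES (good_k k).pot

noncomputable instance (k : ℕ) : CompleteSpace (EK k) :=
  (Submodule.isClosed_topologicalClosure _).completeSpace_coe

noncomputable instance (k : ℕ) : TopologicalSpace.SeparableSpace (EK k) :=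
  gen_separable (good_k k).pot

/-- the space -/
abbrev EE : Type := lp EK 2

theorem EE_star : Star EE := star_lp fun k => star_of_mid fun x η hη => mid_sqrt (good_k k) x hη

theorem EE_refl : Refl EE := refl_lp fun k =>
  refl_ES (good_k k) (fun f hf => hf.2.1) (c := 1 / ((k : ℝ) + 1)) (by positivity)
    (fun A a h1 h2 h3 => small_test k A a h1 h2 h3)

section Wrap

variable {P : (List ℕ → ℝ) → Prop} {V : Set (List ℕ)}

/-- node as an element of the space -/
noncomputable def nodeE (hG : Good P V) (v : List ℕ) : ES hG.pot :=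
  ⟨node hG.pot v, node_mem hG.pot v⟩

/-- coordinate vector as an element of the space -/
noncomputable def cvE (hG : Good P V) (v : List ℕ) : ES hG.pot :=
  ⟨cv hG.pot v, cv_mem hG.pot v⟩

lemma nodeE_cons (hG : Good P V) (n : ℕ) (v : List ℕ) :
    nodeE hG (n :: v) = nodeE hG v + cvE hG (n :: v) := rfl

lemma norm_nodeE_le (hG : Good P V) (v : List ℕ) : ‖nodeE hG v‖ ≤ 1 := norm_node_le hG v

lemma one_le_norm_nodeE (hG : Good P V) {v : List ℕ} (hv : v ∈ V) : 1 ≤ ‖nodeE hG v‖ :=
  one_le_norm_node hG hv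

lemma one_le_norm_cvE (hG : Good P V) {v : List ℕ} (hv : v ∈ V) : 1 ≤ ‖cvE hG v‖ :=
  one_le_norm_cv hG hv

lemma cvE_near (hG : Good P V) (v : List ℕ) {F : Set (ES hG.pot)} (hF : Cof F) {ε : ℝ}
    (hε : 0 < ε) : ∃ n, ∃ f ∈ F, ‖cvE hG (n :: v) - f‖ < ε := cv_near hG v hF hε

end Wrap

section JJ

variable {E : ℕ → Type*} [∀ k, NormedAddCommGroup (E k)] [∀ k, NormedSpace ℝ (E k)]

lemma J_near (k : ℕ) {F : Set (lp E 2)} {ε : ℝ} (x : E k)
    (h : ∃ f ∈ (J E k) ⁻¹' F, ‖x - f‖ < ε) : ∃ f ∈ F, ‖J E k x - f‖ < ε := by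
  obtain ⟨f, hf, hf2⟩ := h
  refine ⟨J E k f, hf, ?_⟩
  rw [← map_sub, norm_J]
  exact hf2

lemma J_add (k : ℕ) (x y : E k) : J E k x + J E k y = J E k (x + y) := (map_add _ _ _).symm

end JJ

section SumNot

variable {E : ℕ → Type*} [∀ k, NormedAddCommGroup (E k)] [∀ k, NormedSpace ℝ (E k)]

theorem sum_not_AUC (nd : ∀ k, List ℕ → E k) (hn : ∀ k v, ‖nd k v‖ ≤ 1)
    (h0 : ∀ k, 1 ≤ ‖nd (k + 1) []‖)
    (hstep : ∀ (k : ℕ) (v : List ℕ), v.length < k → ∀ F : Set (E (k + 1)), Cof F → ∀ ε : ℝ,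
      0 < ε → ∃ y : E (k + 1), ∃ n : ℕ, nd (k + 1) (n :: v) = nd (k + 1) v + y ∧
        (∃ f ∈ F, ‖y - f‖ < ε) ∧ 1 ≤ ‖y‖)
    (N : lp E 2 → ℝ) (hN : EqNorm (lp E 2) N) : ¬ AUC (lp E 2) N := by
  refine not_AUC 1 1 one_pos
    (fun k j => {x | ∃ v : List ℕ, v.length = j ∧ x = J E (k + 1) (nd (k + 1) v)}) ?_ ?_ ?_ N hN
  · intro k
    refine ⟨_, ⟨[], rfl, rfl⟩, ?_⟩
    rw [norm_J]
    exact h0 k
  · rintro k j - x ⟨v, -, rfl⟩
    rw [norm_J]
    exact hn _ _
  · rintro k j hj x ⟨v, hv, rfl⟩ F hF ε hε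
    obtain ⟨y, n, hy1, hy2, hy3⟩ := hstep k v (by omega) ((J E (k + 1)) ⁻¹' F)
      (Cof_comap (J E (k + 1)) hF) ε hε
    obtain ⟨f, hf, hf2⟩ := J_near (k + 1) y hy2
    refine ⟨J E (k + 1) y, f, ⟨n :: v, by simp [hv], ?_⟩, hf, hf2, ?_⟩
    · rw [J_add, hy1]
    · rw [norm_J]
      exact hy3

end SumNot

section Comp

variable {P : (List ℕ → ℝ) → Prop} {V : Set (List ℕ)}

lemma comp_step (hG : Good P V) (v : List ℕ) (hv : ∀ n, n :: v ∈ V) {F : Set (ES hG.pot)}
    (hF : Cof F) {ε : ℝ} (hε : 0 < ε) :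
    ∃ y : ES hG.pot, ∃ n : ℕ, nodeE hG (n :: v) = nodeE hG v + y ∧
        (∃ f ∈ F, ‖y - f‖ < ε) ∧ 1 ≤ ‖y‖ := by
  obtain ⟨n, hn⟩ := cvE_near hG v hF hε
  exact ⟨cvE hG (n :: v), n, nodeE_cons hG n v, hn, one_le_norm_cvE hG (hv n)⟩

end Comp

theorem EE_not_AUC (N : EE → ℝ) (hN : EqNorm EE N) : ¬ AUC EE N := by
  refine sum_not_AUC (E := EK) (fun k v => nodeE (good_k k) v)
    (fun k v => norm_nodeE_le (good_k k) v) ?_ ?_ N hN
  · intro k
    exact one_le_norm_nodeE (good_k (k + 1)) (Nat.succ_pos k)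
  · intro k v hv F hF ε hε
    exact comp_step (good_k (k + 1)) v (fun n => Nat.succ_lt_succ hv) hF hε

/-- There is a real Banach space (RealBanach record) that is separable, infinite-dimensional and reflexive, whose given norm has at every t > 0 averaged midpoint asymptotic modulus at least √(1 + t²/12) - 1 and at least (√(1 + t²/4) - 1)/2 and maximum-based midpoint modulus at least √(1 + t²/4) - 1, on which no equivalent norm is asymptotically uniformly convex, and in which for every k every map of the depth-k countably branching diamond graph of distortion at most D has 1 + k/4 ≤ D². -/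
theorem result :
    ∃ E : Crest.AnalysisR.RealBanach, E.IsSeparableInfiniteDim ∧ E.IsReflexive ∧
      (∀ t : ℝ, 0 < t → E.MidpointModulusGE E.norm t (Real.sqrt (1 + t ^ 2 / 12) - 1) ∧
        E.MidpointModulusGE E.norm t ((Real.sqrt (1 + t ^ 2 / 4) - 1) / 2) ∧
        E.MaxMidpointModulusGE E.norm t (Real.sqrt (1 + t ^ 2 / 4) - 1)) ∧
      (∀ N : E.X → ℝ, E.IsEquivNorm N → ¬ E.IsAUC N) ∧
      ∀ (k : ℕ) (f : Crest.AnalysisR.DiamondVertex k → E.X) (D : ℝ),
        E.HasDistortionLE k f D → 1 + (k : ℝ) / 4 ≤ D ^ 2 := by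
  refine ⟨⟨EE, inferInstance, inferInstance, inferInstance⟩, ⟨?_, ?_⟩, ?_, ?_, ?_, ?_⟩
  · exact separable_lp (E := EK)
  · exact infiniteDimensional_of_not_AUC (X := EE) (EE_not_AUC _ eqNorm_norm)
  · exact Refl.surj EE_refl
  · intro t ht
    refine ⟨?_, ?_, ?_⟩
    · have key : ∀ x : EE, ‖x‖ = 1 → ∀ η : ℝ, 0 < η → ∃ F : Set EE, Cof F ∧
          ∀ y ∈ F, ‖y‖ = 1 → (Real.sqrt (1 + t ^ 2 / 12) - 1) - η ≤
            (‖x + t • y‖ + ‖x - t • y‖) / 2 - 1 := by
        intro x hx η hη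
        obtain ⟨F, hF, h⟩ := star_key EE_star hx ht hη
        refine ⟨F, hF, fun y hy hy1 => ?_⟩
        obtain ⟨h1, h2, h3⟩ := h y hy hy1
        exact avg_bound_one (sq_nonneg t) hη h1 h2 h3
      exact key
    · have key : ∀ x : EE, ‖x‖ = 1 → ∀ η : ℝ, 0 < η → ∃ F : Set EE, Cof F ∧
          ∀ y ∈ F, ‖y‖ = 1 → ((Real.sqrt (1 + t ^ 2 / 4) - 1) / 2) - η ≤
            (‖x + t • y‖ + ‖x - t • y‖) / 2 - 1 := by
        intro x hx η hη
        obtain ⟨F, hF, h⟩ := star_key EE_star hx ht hη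
        refine ⟨F, hF, fun y hy hy1 => ?_⟩
        obtain ⟨h1, h2, h3⟩ := h y hy hy1
        exact avg_bound_two (sq_nonneg t) hη h1 h2 h3
      exact key
    · have key : ∀ x : EE, ‖x‖ = 1 → ∀ η : ℝ, 0 < η → ∃ F : Set EE, Cof F ∧
          ∀ y ∈ F, ‖y‖ = 1 → (Real.sqrt (1 + t ^ 2 / 4) - 1) - η ≤
            max ‖x + t • y‖ ‖x - t • y‖ - 1 := by
        intro x hx η hη
        obtain ⟨F, hF, h⟩ := star_key EE_star hx ht hη
        refine ⟨F, hF, fun y hy hy1 => ?_⟩
        obtain ⟨h1, h2, h3⟩ := h y hy hy1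
        have := max_bound (sq_nonneg t) hη h1 h2 h3
        linarith
      exact key
  · exact EE_not_AUC
  · intro k f D hf
    exact diamond_bound EE_star k f D hf

end Crest.Agent.S0166
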