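import Mathlib
import Crest.Prelude.Def_DaugavetL1
import Crest.Agent.S0166Common

set_option autoImplicit false
set_option linter.unusedSectionVars false
set_option linter.unusedVariables false

namespace Crest.Agent.S0167

open Filter Topology Crest.Agent.S0166
open Crest.AnalysisR.L1Subspace

section Generic

variable {X : Type*} [NormedAddCommGroup X] [NormedSpace ℝ X]

lemma dauga_step (hD : HasDaugavetProperty X) (χ : X →L[ℝ] ℝ) (hχ : χ ≠ 0) (u : X) (hu : u ≠ 0)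
    {ε : ℝ} (hε : 0 < ε) :
    ∃ (χ₂ : X →L[ℝ] ℝ) (ε₂ : ℝ), χ₂ ≠ 0 ∧ 0 < ε₂ ∧ ∀ z : X, ‖z‖ ≤ 1 → ‖χ₂‖ - ε₂ ≤ χ₂ z →
      ‖χ‖ - ε ≤ χ z ∧ ‖u‖ + 1 - ε ≤ ‖u + z‖ := by
  have hχ0 : 0 < ‖χ‖ := norm_pos_iff.2 hχ
  have hu0 : 0 < ‖u‖ := norm_pos_iff.2 hu
  set κ : ℝ := min ε 1 / 4 with hκ
  have hκ0 : 0 < κ := by
    have : 0 < min ε 1 := lt_min hε one_pos
    positivity
  have hκε : 4 * κ ≤ ε := by
    have : min ε 1 ≤ ε := min_le_left _ _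
    linarith
  have hκ1 : 4 * κ ≤ 1 := by
    have : min ε 1 ≤ 1 := min_le_right _ _
    linarith
  have hχu : 0 < ‖χ‖ * ‖u‖ := mul_pos hχ0 hu0
  set m : ℝ := min 1 (min ‖u‖ (min ‖χ‖ (‖χ‖ * ‖u‖))) with hm
  have hm0 : 0 < m := lt_min one_pos (lt_min hu0 (lt_min hχ0 hχu))
  have hm1 : m ≤ 1 := min_le_left _ _
  have hmu : m ≤ ‖u‖ := (min_le_right _ _).trans (min_le_left _ _)
  have hmχ : m ≤ ‖χ‖ := (min_le_right _ _).trans ((min_le_right _ _).trans (min_le_left _ _))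
  have hmχu : m ≤ ‖χ‖ * ‖u‖ :=
    (min_le_right _ _).trans ((min_le_right _ _).trans (min_le_right _ _))
  set δ : ℝ := κ * m with hδ
  have hδ0 : 0 < δ := mul_pos hκ0 hm0
  have hδκ : δ ≤ κ := by nlinarith
  have hδu : δ ≤ κ * ‖u‖ := mul_le_mul_of_nonneg_left hmu hκ0.le
  have hδχ : δ ≤ κ * ‖χ‖ := mul_le_mul_of_nonneg_left hmχ hκ0.le
  have hδχu : δ < ‖χ‖ * ‖u‖ := by
    have h1 : δ ≤ κ * (‖χ‖ * ‖u‖) := mul_le_mul_of_nonneg_left hmχu hκ0.le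
    have h2 : κ * (‖χ‖ * ‖u‖) < 1 * (‖χ‖ * ‖u‖) :=
      mul_lt_mul_of_pos_right (by linarith) hχu
    linarith
  have hT := hD χ u
  rw [ContinuousLinearMap.norm_smulRight_apply] at hT
  obtain ⟨w0, hw01, hw02⟩ := ContinuousLinearMap.exists_lt_apply_of_lt_opNorm
    (ContinuousLinearMap.id ℝ X + χ.smulRight u) (r := 1 + ‖χ‖ * ‖u‖ - δ) (by rw [hT]; linarith)
  -- choose sign
  obtain ⟨w, hw1, hw2, hw3⟩ : ∃ w : X, ‖w‖ < 1 ∧ 1 + ‖χ‖ * ‖u‖ - δ < ‖w + χ w • u‖ ∧ 0 ≤ χ w := by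
    have e : (ContinuousLinearMap.id ℝ X + χ.smulRight u) w0 = w0 + χ w0 • u := by simp
    rw [e] at hw02
    rcases le_total 0 (χ w0) with h | h
    · exact ⟨w0, hw01, hw02, h⟩
    · refine ⟨-w0, by rwa [norm_neg], ?_, by rw [map_neg]; linarith⟩
      have e2 : -w0 + χ (-w0) • u = -(w0 + χ w0 • u) := by rw [map_neg]; module
      rw [e2, norm_neg]
      exact hw02
  have hχw : χ w ≤ ‖χ‖ := by
    calc χ w ≤ ‖χ w‖ := le_abs_self _
      _ ≤ ‖χ‖ * ‖w‖ := χ.le_opNorm w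
      _ ≤ ‖χ‖ * 1 := mul_le_mul_of_nonneg_left hw1.le (norm_nonneg _)
      _ = ‖χ‖ := mul_one _
  -- lower bound of χ w
  have h1 : ‖χ‖ - κ ≤ χ w := by
    have h2 : ‖w + χ w • u‖ ≤ ‖w‖ + χ w * ‖u‖ := by
      refine (norm_add_le _ _).trans ?_
      rw [norm_smul, Real.norm_eq_abs, abs_of_nonneg hw3]
    have h3 : (‖χ‖ - κ) * ‖u‖ ≤ χ w * ‖u‖ := by nlinarith
    exact le_of_mul_le_mul_right h3 hu0
  have hv0 : ‖w + χ w • u‖ ≠ 0 := by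
    intro h
    rw [h] at hw2
    linarith
  obtain ⟨ψ, hψ1, hψ2⟩ := exists_dual_vector ℝ (w + χ w • u) hv0
  have hψ2' : ψ w + χ w * ψ u = ‖w + χ w • u‖ := by
    have : ψ (w + χ w • u) = ‖w + χ w • u‖ := by simpa using hψ2
    rw [map_add, map_smul, smul_eq_mul] at this
    exact this
  have hψb : ∀ z : X, ψ z ≤ ‖z‖ := fun z => by
    calc ψ z ≤ ‖ψ z‖ := le_abs_self _
      _ ≤ ‖ψ‖ * ‖z‖ := ψ.le_opNorm z
      _ = ‖z‖ := by rw [hψ1, one_mul]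
  have hψw : 1 - κ ≤ ψ w := by
    have h2 : χ w * ψ u ≤ ‖χ‖ * ‖u‖ := by
      calc χ w * ψ u ≤ χ w * ‖u‖ := mul_le_mul_of_nonneg_left (hψb u) hw3
        _ ≤ ‖χ‖ * ‖u‖ := mul_le_mul_of_nonneg_right hχw (norm_nonneg _)
    linarith
  have hψu : ‖u‖ - κ ≤ ψ u := by
    have h2 : ψ w ≤ 1 := (hψb w).trans hw1.le
    have h3 : ‖χ‖ * ‖u‖ - δ ≤ χ w * ψ u := by linarith
    have h4 : 0 ≤ ψ u := by
      by_contra h5
      push Not at h5
      have h6 : χ w * ψ u ≤ 0 := mul_nonpos_of_nonneg_of_nonpos hw3 h5.le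
      linarith
    have h5 : χ w * ψ u ≤ ‖χ‖ * ψ u := mul_le_mul_of_nonneg_right hχw h4
    have h6 : ‖χ‖ * (‖u‖ - κ) ≤ ‖χ‖ * ψ u := by
      have h7 : ‖χ‖ * (‖u‖ - κ) = ‖χ‖ * ‖u‖ - κ * ‖χ‖ := by ring
      rw [h7]
      linarith
    exact le_of_mul_le_mul_left h6 hχ0
  refine ⟨χ + ψ, κ, ?_, hκ0, ?_⟩
  · intro h
    have h2 : (χ + ψ) w = 0 := by rw [h]; rfl
    have h3 : χ w + ψ w = 0 := h2
    linarith
  · intro z hz hz2
    have h2 : χ z + ψ z = (χ + ψ) z := rfl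
    rw [← h2] at hz2
    have h3 : χ w + ψ w ≤ ‖χ + ψ‖ := by
      calc χ w + ψ w = (χ + ψ) w := rfl
        _ ≤ ‖(χ + ψ) w‖ := le_abs_self _
        _ ≤ ‖χ + ψ‖ * ‖w‖ := (χ + ψ).le_opNorm w
        _ ≤ ‖χ + ψ‖ * 1 := mul_le_mul_of_nonneg_left hw1.le (norm_nonneg _)
        _ = ‖χ + ψ‖ := mul_one _
    have h4 : ψ z ≤ 1 := (hψb z).trans hz
    have h5 : χ z ≤ ‖χ‖ := by
      calc χ z ≤ ‖χ z‖ := le_abs_self _
        _ ≤ ‖χ‖ * ‖z‖ := χ.le_opNorm z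
        _ ≤ ‖χ‖ * 1 := mul_le_mul_of_nonneg_left hz (norm_nonneg _)
        _ = ‖χ‖ := mul_one _
    refine ⟨by linarith, ?_⟩
    have h6 : ψ u + ψ z ≤ ‖u + z‖ := by rw [← map_add]; exact hψb _
    linarith

lemma dauga_finset (hD : HasDaugavetProperty X) (φ : X →L[ℝ] ℝ) (hφ : φ ≠ 0) {ε : ℝ} (hε : 0 < ε)
    (U : Finset X) (h0 : (0 : X) ∉ U) :
    ∃ (χ : X →L[ℝ] ℝ) (ε₂ : ℝ), χ ≠ 0 ∧ 0 < ε₂ ∧ ∀ z : X, ‖z‖ ≤ 1 → ‖χ‖ - ε₂ ≤ χ z →
      ‖φ‖ - ε ≤ φ z ∧ ∀ u ∈ U, ‖u‖ + 1 - ε ≤ ‖u + z‖ := by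
  classical
  induction U using Finset.induction_on with
  | empty => exact ⟨φ, ε, hφ, hε, fun z _ h => ⟨h, fun u hu => absurd hu (Finset.notMem_empty u)⟩⟩
  | insert u U hu ih =>
    have h0U : (0 : X) ∉ U := fun h => h0 (Finset.mem_insert_of_mem h)
    have hu0 : u ≠ 0 := fun h => h0 (by rw [← h]; exact Finset.mem_insert_self _ _)
    obtain ⟨χ, ε', hχ, hε', h1⟩ := ih h0U
    obtain ⟨χ₂, ε₂, hχ₂, hε₂, h2⟩ := dauga_step hD χ hχ u hu0 (lt_min hε hε')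
    refine ⟨χ₂, ε₂, hχ₂, hε₂, fun z hz hz2 => ?_⟩
    obtain ⟨h3, h4⟩ := h2 z hz hz2
    obtain ⟨h5, h6⟩ := h1 z hz (by linarith [min_le_right ε ε'])
    refine ⟨h5, fun v hv => ?_⟩
    rcases Finset.mem_insert.1 hv with rfl | hv
    · linarith [min_le_left ε ε']
    · exact h6 v hv

lemma dauga_point (hD : HasDaugavetProperty X) [Nontrivial X] (φ : X →L[ℝ] ℝ) {ε : ℝ} (hε : 0 < ε)
    (U : Finset X) :
    ∃ z : X, ‖z‖ ≤ 1 ∧ ‖φ‖ - ε ≤ φ z ∧ ∀ u ∈ U, ‖u‖ + 1 - ε ≤ ‖u + z‖ := by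
  classical
  obtain ⟨x₀, hx₀⟩ := exists_ne (0 : X)
  have key : ∀ φ : X →L[ℝ] ℝ, φ ≠ 0 →
      ∃ z : X, ‖z‖ ≤ 1 ∧ ‖φ‖ - ε ≤ φ z ∧ ∀ u ∈ U, ‖u‖ + 1 - ε ≤ ‖u + z‖ := by
    intro φ hφ
    obtain ⟨χ, ε₂, hχ, hε₂, h⟩ := dauga_finset hD φ hφ hε (insert x₀ (U.erase 0)) (by
      intro h
      rcases Finset.mem_insert.1 h with h | h
      · exact hx₀ h.symm
      · exact (Finset.mem_erase.1 h).1 rfl)
    obtain ⟨z, hz1, hz2⟩ := ContinuousLinearMap.exists_lt_apply_of_lt_opNorm χ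
      (r := ‖χ‖ - ε₂) (by linarith)
    obtain ⟨w, hw1, hw2⟩ : ∃ w : X, ‖w‖ ≤ 1 ∧ ‖χ‖ - ε₂ ≤ χ w := by
      rcases le_total 0 (χ z) with h' | h'
      · rw [Real.norm_eq_abs, abs_of_nonneg h'] at hz2
        exact ⟨z, hz1.le, hz2.le⟩
      · rw [Real.norm_eq_abs, abs_of_nonpos h'] at hz2
        exact ⟨-z, by rw [norm_neg]; exact hz1.le, by rw [map_neg]; exact hz2.le⟩
    obtain ⟨h1, h2⟩ := h w hw1 hw2
    refine ⟨w, hw1, h1, fun u hu => ?_⟩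
    by_cases hu0 : u = 0
    · have h3 := h2 x₀ (Finset.mem_insert_self _ _)
      have h4 := norm_add_le x₀ w
      rw [hu0, norm_zero, zero_add, zero_add]
      linarith
    · exact h2 u (Finset.mem_insert_of_mem (Finset.mem_erase.2 ⟨hu0, hu⟩))
  by_cases hφ : φ = 0
  · obtain ⟨ψ, hψ1, hψ2⟩ := exists_dual_vector ℝ x₀ (norm_ne_zero_iff.2 hx₀)
    obtain ⟨z, hz1, -, hz3⟩ := key ψ (by
      intro h
      rw [h, norm_zero] at hψ1
      norm_num at hψ1)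
    refine ⟨z, hz1, ?_, hz3⟩
    rw [hφ, norm_zero]
    simp only [zero_sub, ContinuousLinearMap.zero_apply]
    linarith
  · exact key φ hφ

/-- Daugavet property for weakly open sets -/
theorem dauga_weak (hD : HasDaugavetProperty X) [Nontrivial X] {F : Set X} (hF : Cof F) (x u : X)
    (hx : ‖x‖ ≤ 1) {ε : ℝ} (hε : 0 < ε) :
    ∃ z : X, ‖z‖ ≤ 1 ∧ (∃ f ∈ F, ‖(z - x) - f‖ < ε) ∧ ‖u‖ + 1 - ε ≤ ‖u + z‖ := by
  classical
  obtain ⟨S, rfl, hc, hfd⟩ := hF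
  have : IsClosed (S : Set X) := hc
  have := hfd
  set π : X →L[ℝ] (X ⧸ S) := ⟨S.mkQ, S.continuous_mkQ⟩ with hπ
  have hπn : ∀ z : X, ‖π z‖ ≤ ‖z‖ := fun z => Submodule.Quotient.norm_mk_le S z
  set A : Set (X ⧸ S) := {v | ∀ u : X, ∀ δ : ℝ, 0 < δ →
    ∃ z : X, ‖z‖ ≤ 1 ∧ ‖π z - v‖ < δ ∧ ‖u‖ + 1 - δ ≤ ‖u + z‖} with hA
  -- it suffices that π x ∈ A
  suffices h : π x ∈ A by
    obtain ⟨z, hz1, hz2, hz3⟩ := h u ε hε
    refine ⟨z, hz1, ?_, hz3⟩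
    rw [← map_sub] at hz2
    exact exists_near S (z - x) hz2
  have hclosed : IsClosed A := by
    rw [← isSeqClosed_iff_isClosed]
    intro v v₀ hv hlim u δ hδ
    have h1 : ∀ᶠ n in atTop, dist (v n) v₀ < δ / 2 :=
      (Metric.tendsto_nhds.1 hlim) (δ / 2) (by positivity)
    obtain ⟨n, hn⟩ := h1.exists
    obtain ⟨z, hz1, hz2, hz3⟩ := hv n u (δ / 2) (by positivity)
    refine ⟨z, hz1, ?_, by linarith⟩
    calc ‖π z - v₀‖ = ‖(π z - v n) + (v n - v₀)‖ := by congr 1; abel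
      _ ≤ ‖π z - v n‖ + ‖v n - v₀‖ := norm_add_le _ _
      _ < δ / 2 + δ / 2 := by rw [dist_eq_norm] at hn; linarith
      _ = δ := by ring
  have hconv : Convex ℝ A := by
    intro v₁ hv₁ v₂ hv₂ a b ha hb hab u δ hδ
    rcases ha.eq_or_lt with ha0 | ha0
    · have hb1 : b = 1 := by linarith
      rw [← ha0, hb1, zero_smul, one_smul, zero_add]
      exact hv₂ u δ hδ
    rcases hb.eq_or_lt with hb0 | hb0
    · have ha1 : a = 1 := by linarith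
      rw [← hb0, ha1, zero_smul, one_smul, add_zero]
      exact hv₁ u δ hδ
    obtain ⟨z₁, hz11, hz12, hz13⟩ := hv₁ (a⁻¹ • u) δ hδ
    obtain ⟨z₂, hz21, hz22, hz23⟩ := hv₂ (b⁻¹ • (u + a • z₁)) δ hδ
    refine ⟨a • z₁ + b • z₂, ?_, ?_, ?_⟩
    · calc ‖a • z₁ + b • z₂‖ ≤ ‖a • z₁‖ + ‖b • z₂‖ := norm_add_le _ _
        _ = a * ‖z₁‖ + b * ‖z₂‖ := by
          rw [norm_smul, norm_smul, Real.norm_eq_abs, Real.norm_eq_abs, abs_of_pos ha0,
            abs_of_pos hb0]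
        _ ≤ a * 1 + b * 1 := add_le_add (mul_le_mul_of_nonneg_left hz11 ha0.le)
          (mul_le_mul_of_nonneg_left hz21 hb0.le)
        _ = 1 := by linarith
    · have e : π (a • z₁ + b • z₂) - (a • v₁ + b • v₂) = a • (π z₁ - v₁) + b • (π z₂ - v₂) := by
        rw [map_add, map_smul, map_smul]; module
      rw [e]
      calc ‖a • (π z₁ - v₁) + b • (π z₂ - v₂)‖ ≤ ‖a • (π z₁ - v₁)‖ + ‖b • (π z₂ - v₂)‖ :=
            norm_add_le _ _
        _ = a * ‖π z₁ - v₁‖ + b * ‖π z₂ - v₂‖ := by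
          rw [norm_smul, norm_smul, Real.norm_eq_abs, Real.norm_eq_abs, abs_of_pos ha0,
            abs_of_pos hb0]
        _ < a * δ + b * δ := add_lt_add (mul_lt_mul_of_pos_left hz12 ha0)
          (mul_lt_mul_of_pos_left hz22 hb0)
        _ = δ := by rw [← add_mul, hab, one_mul]
    · have e1 : a • (a⁻¹ • u + z₁) = u + a • z₁ := by
        rw [smul_add, smul_smul, mul_inv_cancel₀ ha0.ne', one_smul]
      have e2 : b • (b⁻¹ • (u + a • z₁) + z₂) = u + (a • z₁ + b • z₂) := by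
        rw [smul_add, smul_smul, mul_inv_cancel₀ hb0.ne', one_smul]; abel
      have h1 : ‖u‖ + a - a * δ ≤ ‖u + a • z₁‖ := by
        rw [← e1, norm_smul, Real.norm_eq_abs, abs_of_pos ha0]
        rw [norm_smul, norm_inv, Real.norm_eq_abs, abs_of_pos ha0] at hz13
        calc ‖u‖ + a - a * δ = a * (a⁻¹ * ‖u‖ + 1 - δ) := by field_simp
          _ ≤ a * ‖a⁻¹ • u + z₁‖ := mul_le_mul_of_nonneg_left hz13 ha0.le
      have h2 : ‖u + a • z₁‖ + b - b * δ ≤ ‖u + (a • z₁ + b • z₂)‖ := by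
        rw [← e2, norm_smul, Real.norm_eq_abs, abs_of_pos hb0]
        rw [norm_smul, norm_inv, Real.norm_eq_abs, abs_of_pos hb0] at hz23
        calc ‖u + a • z₁‖ + b - b * δ = b * (b⁻¹ * ‖u + a • z₁‖ + 1 - δ) := by field_simp
          _ ≤ b * ‖b⁻¹ • (u + a • z₁) + z₂‖ := mul_le_mul_of_nonneg_left hz23 hb0.le
      nlinarith
  by_contra hcon
  obtain ⟨ψ, c, hψ1, hψ2⟩ := geometric_hahn_banach_closed_point hconv hclosed hcon
  set φ : X →L[ℝ] ℝ := ψ.comp π with hφ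
  have hφx : c < ‖φ‖ := by
    calc c < ψ (π x) := hψ2
      _ = φ x := rfl
      _ ≤ ‖φ x‖ := le_abs_self _
      _ ≤ ‖φ‖ * ‖x‖ := φ.le_opNorm x
      _ ≤ ‖φ‖ * 1 := mul_le_mul_of_nonneg_left hx (norm_nonneg _)
      _ = ‖φ‖ := mul_one _
  have hch : ∀ p : Finset X × ℕ, ∃ z : X, ‖z‖ ≤ 1 ∧ ‖φ‖ - 1 / ((p.2 : ℝ) + 1) ≤ φ z ∧
      ∀ u ∈ p.1, ‖u‖ + 1 - 1 / ((p.2 : ℝ) + 1) ≤ ‖u + z‖ :=
    fun p => dauga_point hD φ (by positivity) p.1
  choose z hz1 hz2 hz3 using hch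
  have : ProperSpace (X ⧸ S) := FiniteDimensional.proper ℝ _
  obtain ⟨v, hv1, hv2⟩ := (isCompact_closedBall (0 : X ⧸ S) 1).exists_mapClusterPt_of_frequently
    (l := (atTop : Filter (Finset X × ℕ))) (f := fun p => π (z p)) (Frequently.of_forall fun p => by
      rw [mem_closedBall_zero_iff]
      exact (hπn _).trans (hz1 p))
  have hn : ∀ δ : ℝ, 0 < δ → ∀ᶠ p : Finset X × ℕ in atTop, 1 / ((p.2 : ℝ) + 1) < δ := by
    intro δ hδ
    have h1 : Tendsto (fun p : Finset X × ℕ => p.2) atTop atTop := by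
      rw [← prod_atTop_atTop_eq]
      exact tendsto_snd
    exact h1.eventually ((tendsto_one_div_add_atTop_nhds_zero_nat (𝕜 := ℝ)).eventually
      (gt_mem_nhds hδ))
  have hvA : v ∈ A := by
    intro u δ hδ
    have h1 : ∀ᶠ p : Finset X × ℕ in atTop, u ∈ p.1 := by
      have h2 : Tendsto (fun p : Finset X × ℕ => p.1) atTop atTop := by
        rw [← prod_atTop_atTop_eq]
        exact tendsto_fst
      have h4 : ∀ᶠ s : Finset X in atTop, u ∈ s := by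
        filter_upwards [eventually_ge_atTop ({u} : Finset X)] with s hs
        exact hs (Finset.mem_singleton_self u)
      exact h2.eventually h4
    have h3 := hv2.frequently (Metric.ball_mem_nhds v hδ)
    obtain ⟨p, hp1, hp2, hp3⟩ := (h3.and_eventually (h1.and (hn δ hδ))).exists
    refine ⟨z p, hz1 p, ?_, ?_⟩
    · have : dist (π (z p)) v < δ := hp1
      rwa [dist_eq_norm] at this
    · linarith [hz3 p u hp2]
  have h1 := hψ1 v hvA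
  have h2 : ∀ᶠ w in 𝓝 v, ψ w < c := ψ.continuous.continuousAt.eventually (gt_mem_nhds h1)
  have h3 := hv2.frequently h2
  obtain ⟨p, hp1, hp2⟩ := (h3.and_eventually (hn (‖φ‖ - c) (by linarith))).exists
  have h4 := hz2 p
  have h5 : φ (z p) = ψ (π (z p)) := rfl
  linarith

/-- the vectors giving the upper bounds -/
theorem dauga_upper (hD : HasDaugavetProperty X) [Nontrivial X] {F : Set X} (hF : Cof F) (x : X)
    (hx : ‖x‖ = 1) {ε : ℝ} (hε : 0 < ε) :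
    ∃ y ∈ F, ‖y‖ = 1 ∧ ∀ t : ℝ, 0 < t → ‖x + t • y‖ ≤ |1 - t / 2| + t / 2 + t * ε ∧
      ‖x - t • y‖ ≤ 1 + t + t * ε := by
  set ε' : ℝ := min (ε / 2) (1 / 2) with hε'
  have hε'0 : 0 < ε' := lt_min (by positivity) (by norm_num)
  have hε'1 : ε' ≤ ε / 2 := min_le_left _ _
  have hε'2 : ε' ≤ 1 / 2 := min_le_right _ _
  obtain ⟨z, hz1, ⟨f, hf, hzf⟩, hz3⟩ := dauga_weak hD hF x (-x) hx.le hε'0
  rw [norm_neg, hx] at hz3
  have e0 : -x + z = z - x := by abel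
  rw [e0] at hz3
  have hf1 : 2 - 2 * ε' ≤ ‖f‖ := by
    have h1 : ‖z - x‖ ≤ ‖(z - x) - f‖ + ‖f‖ := by
      have := norm_add_le ((z - x) - f) f
      simpa using this
    linarith
  have hf2 : ‖f‖ ≤ 2 + ε' := by
    have h1 : ‖f‖ ≤ ‖z - x‖ + ‖(z - x) - f‖ := by
      have := norm_sub_le (z - x) ((z - x) - f)
      simpa using this
    have h2 : ‖z - x‖ ≤ 2 := by
      have := norm_sub_le z x
      linarith
    linarith
  have hf0 : 0 < ‖f‖ := by linarith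
  obtain ⟨S, rfl, -, -⟩ := hF
  set y : X := ‖f‖⁻¹ • f with hy
  have hyS : y ∈ (S : Set X) := S.smul_mem _ hf
  have hy1 : ‖y‖ = 1 := by
    rw [hy, norm_smul, norm_inv, norm_norm, inv_mul_cancel₀ hf0.ne']
  have hyd : ‖y - (1 / 2 : ℝ) • (z - x)‖ ≤ ε := by
    have e : y - (1 / 2 : ℝ) • (z - x) = (1 - ‖f‖ / 2) • y - (1 / 2 : ℝ) • ((z - x) - f) := by
      have e1 : ‖f‖ • y = f := by rw [hy, smul_smul, mul_inv_cancel₀ hf0.ne', one_smul]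
      have e2 : (1 - ‖f‖ / 2) • y = y - (1 / 2 : ℝ) • (‖f‖ • y) := by module
      rw [e2, e1]
      module
    rw [e]
    calc ‖(1 - ‖f‖ / 2) • y - (1 / 2 : ℝ) • ((z - x) - f)‖
        ≤ ‖(1 - ‖f‖ / 2) • y‖ + ‖(1 / 2 : ℝ) • ((z - x) - f)‖ := norm_sub_le _ _
      _ = |1 - ‖f‖ / 2| + 1 / 2 * ‖(z - x) - f‖ := by
          rw [norm_smul (1 - ‖f‖ / 2) y, norm_smul (1 / 2 : ℝ), hy1, mul_one, Real.norm_eq_abs,
            Real.norm_eq_abs, abs_of_pos (by norm_num : (0:ℝ) < 1 / 2)]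
      _ ≤ ε' + 1 / 2 * ε' := by
          refine add_le_add ?_ (mul_le_mul_of_nonneg_left hzf.le (by norm_num))
          rw [abs_le]; constructor <;> linarith
      _ ≤ ε := by linarith
  refine ⟨y, hyS, hy1, fun t ht => ⟨?_, ?_⟩⟩
  · have e : x + t • y = ((1 - t / 2) • x + (t / 2) • z) + t • (y - (1 / 2 : ℝ) • (z - x)) := by
      module
    rw [e]
    calc ‖((1 - t / 2) • x + (t / 2) • z) + t • (y - (1 / 2 : ℝ) • (z - x))‖
        ≤ ‖(1 - t / 2) • x + (t / 2) • z‖ + ‖t • (y - (1 / 2 : ℝ) • (z - x))‖ := norm_add_le _ _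
      _ ≤ (‖(1 - t / 2) • x‖ + ‖(t / 2) • z‖) + ‖t • (y - (1 / 2 : ℝ) • (z - x))‖ :=
          add_le_add (norm_add_le _ _) le_rfl
      _ = (|1 - t / 2| + t / 2 * ‖z‖) + t * ‖y - (1 / 2 : ℝ) • (z - x)‖ := by
          rw [norm_smul, norm_smul, norm_smul, hx, mul_one, Real.norm_eq_abs, Real.norm_eq_abs,
            Real.norm_eq_abs, abs_of_pos ht, abs_of_pos (by positivity : 0 < t / 2)]
      _ ≤ (|1 - t / 2| + t / 2 * 1) + t * ε := by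
          have h1 : t / 2 * ‖z‖ ≤ t / 2 * 1 := mul_le_mul_of_nonneg_left hz1 (by positivity)
          have h2 : t * ‖y - (1 / 2 : ℝ) • (z - x)‖ ≤ t * ε := mul_le_mul_of_nonneg_left hyd ht.le
          linarith
      _ = |1 - t / 2| + t / 2 + t * ε := by ring
  · have e : x - t • y = ((1 + t / 2) • x - (t / 2) • z) - t • (y - (1 / 2 : ℝ) • (z - x)) := by
      module
    rw [e]
    calc ‖((1 + t / 2) • x - (t / 2) • z) - t • (y - (1 / 2 : ℝ) • (z - x))‖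
        ≤ ‖(1 + t / 2) • x - (t / 2) • z‖ + ‖t • (y - (1 / 2 : ℝ) • (z - x))‖ := norm_sub_le _ _
      _ ≤ (‖(1 + t / 2) • x‖ + ‖(t / 2) • z‖) + ‖t • (y - (1 / 2 : ℝ) • (z - x))‖ :=
          add_le_add (norm_sub_le _ _) le_rfl
      _ = ((1 + t / 2) + t / 2 * ‖z‖) + t * ‖y - (1 / 2 : ℝ) • (z - x)‖ := by
          rw [norm_smul, norm_smul, norm_smul, hx, mul_one, Real.norm_eq_abs, Real.norm_eq_abs,
            Real.norm_eq_abs, abs_of_pos ht, abs_of_pos (by positivity : 0 < t / 2),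
            abs_of_pos (by positivity : 0 < 1 + t / 2)]
      _ ≤ ((1 + t / 2) + t / 2 * 1) + t * ε := by
          have h1 : t / 2 * ‖z‖ ≤ t / 2 * 1 := mul_le_mul_of_nonneg_left hz1 (by positivity)
          have h2 : t * ‖y - (1 / 2 : ℝ) • (z - x)‖ ≤ t * ε := mul_le_mul_of_nonneg_left hyd ht.le
          linarith
      _ = 1 + t + t * ε := by ring

/-- the Daugavet property excludes AUC norms -/
theorem dauga_not_AUC (hD : HasDaugavetProperty X) [Nontrivial X] (N : X → ℝ) (hN : EqNorm X N) :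
    ¬ AUC X N := by
  refine not_AUC (1 / 2) 1 (by norm_num) (fun _ _ => {x | ‖x‖ ≤ 1}) ?_ ?_ ?_ N hN
  · intro k
    obtain ⟨x, hx⟩ := exists_norm_eq (E := X) (c := 1) zero_le_one
    exact ⟨x, by simp [hx], by rw [hx]; norm_num⟩
  · intro k j _ x hx
    exact hx
  · intro k j _ x hx F hF ε hε
    obtain ⟨z, hz1, ⟨f, hf, hzf⟩, hz3⟩ := dauga_weak hD hF x (-x) hx (lt_min hε (by norm_num :
      (0:ℝ) < 1 / 2))
    refine ⟨z - x, f, by simpa using hz1, hf, lt_of_lt_of_le hzf (min_le_left _ _), ?_⟩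
    have e0 : -x + z = z - x := by abel
    rw [e0, norm_neg] at hz3
    have h1 := min_le_right ε (1 / 2 : ℝ)
    have h2 := norm_nonneg x
    linarith

end Generic

end Crest.Agent.S0167
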