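import Crest.Statements.S0167
import Crest.Agent.S0167Gen

set_option autoImplicit false
open Crest Crest.AnalysisR

namespace Crest.Agent.S0167

open MeasureTheory Filter Topology Crest.Agent.S0166
open Crest.AnalysisR.L1Subspace
open scoped ENNReal

section L1

variable {Ω : Type} [MeasurableSpace Ω] {P : MeasureTheory.Measure Ω} [IsProbabilityMeasure P]

lemma lp_int (f : Lp ℝ 1 P) : Integrable (fun z => |f z|) P := (L1.integrable_coeFn f).abs

lemma lp_norm (f : Lp ℝ 1 P) : ‖f‖ = ∫ z, |f z| ∂P := by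
  rw [L1.norm_eq_integral_norm]
  rfl

lemma lp_split (f : Lp ℝ 1 P) {A : Set Ω} (hA : MeasurableSet A) :
    ∫ z in A, |f z| ∂P + ∫ z in Aᶜ, |f z| ∂P = ‖f‖ := by
  rw [lp_norm]
  exact integral_add_compl hA (lp_int f)

/-- the mass on the set where `y` is far from `g` -/
lemma half_mass (y g : Lp ℝ 1 P) (a : ℝ) (ha : 0 < a) (hyg : ‖g‖ ≤ ‖y - g‖) (hy : ‖y‖ = 1) :
    1 / 2 - a ≤ ∫ z in {z | a < |y z - g z|}, |y z| ∂P := by
  set A : Set Ω := {z | a < |y z - g z|} with hA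
  have hAm : MeasurableSet A := by
    have h1 : Measurable (fun z => |y z - g z|) := by
      have := ((Lp.stronglyMeasurable y).measurable.sub (Lp.stronglyMeasurable g).measurable)
      exact this.abs
    exact measurableSet_lt measurable_const h1
  have h1 := lp_split y hAm
  have h2 := lp_split g hAm
  have h3 := lp_split (y - g) hAm
  have hyi := lp_int y
  have hgi := lp_int g
  have hdi := lp_int (y - g)
  have hae : ∀ᵐ z ∂P, (y - g : Lp ℝ 1 P) z = y z - g z := by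
    filter_upwards [Lp.coeFn_sub y g] with z hz
    rw [hz]; rfl
  have h4 : ∫ z in A, |(y - g : Lp ℝ 1 P) z| ∂P ≤ ∫ z in A, |y z| ∂P + ∫ z in A, |g z| ∂P := by
    rw [← integral_add hyi.integrableOn hgi.integrableOn]
    refine integral_mono_ae hdi.integrableOn (hyi.add hgi).integrableOn ?_
    filter_upwards [ae_restrict_of_ae hae] with z hz
    rw [hz]
    exact abs_sub _ _
  have h5 : ∫ z in Aᶜ, |(y - g : Lp ℝ 1 P) z| ∂P ≤ a := by
    have h6 : ∫ z in Aᶜ, |(y - g : Lp ℝ 1 P) z| ∂P ≤ ∫ z in Aᶜ, a ∂P := by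
      refine integral_mono_ae hdi.integrableOn (integrable_const a) ?_
      filter_upwards [ae_restrict_of_ae hae, ae_restrict_mem hAm.compl] with z hz hz2
      rw [hz]
      simpa [hA] using hz2
    refine h6.trans ?_
    rw [setIntegral_const, smul_eq_mul]
    have h7 : P.real Aᶜ ≤ 1 := measureReal_le_one
    nlinarith
  have h6 : ∫ z in Aᶜ, |y z| ∂P ≤ ∫ z in Aᶜ, |g z| ∂P + ∫ z in Aᶜ, |(y - g : Lp ℝ 1 P) z| ∂P := by
    rw [← integral_add hgi.integrableOn hdi.integrableOn]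
    refine integral_mono_ae hyi.integrableOn (hgi.add hdi).integrableOn ?_
    filter_upwards [ae_restrict_of_ae hae] with z hz
    have e : y z = g z + (y - g : Lp ℝ 1 P) z := by rw [hz]; ring
    show |y z| ≤ |g z| + |(y - g : Lp ℝ 1 P) z|
    conv_lhs => rw [e]
    exact abs_add_le _ _
  linarith

/-- splitting of the midpoint quantity -/
lemma mid_split (x y : Lp ℝ 1 P) {A : Set Ω} (hA : MeasurableSet A) {t : ℝ} (ht : 0 < t) :
    2 * (‖x‖ - ∫ z in A, |x z| ∂P) + 2 * t * ∫ z in A, |y z| ∂P ≤ ‖x + t • y‖ + ‖x - t • y‖ := by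
  have hx := lp_split x hA
  have h1 := lp_split (x + t • y) hA
  have h2 := lp_split (x - t • y) hA
  have hp : ∀ᵐ z ∂P, (x + t • y : Lp ℝ 1 P) z = x z + t * y z := by
    filter_upwards [Lp.coeFn_add x (t • y), Lp.coeFn_smul t y] with z hz hz2
    rw [hz, Pi.add_apply, hz2]; rfl
  have hm : ∀ᵐ z ∂P, (x - t • y : Lp ℝ 1 P) z = x z - t * y z := by
    filter_upwards [Lp.coeFn_sub x (t • y), Lp.coeFn_smul t y] with z hz hz2
    rw [hz, Pi.sub_apply, hz2]; rfl
  have hpi := lp_int (x + t • y)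
  have hmi := lp_int (x - t • y)
  have h3 : ∫ z in A, 2 * t * |y z| ∂P ≤
      ∫ z in A, |(x + t • y : Lp ℝ 1 P) z| ∂P + ∫ z in A, |(x - t • y : Lp ℝ 1 P) z| ∂P := by
    rw [← integral_add hpi.integrableOn hmi.integrableOn]
    refine integral_mono_ae ((lp_int y).const_mul _).integrableOn (hpi.add hmi).integrableOn ?_
    filter_upwards [ae_restrict_of_ae hp, ae_restrict_of_ae hm] with z hz hz2
    show 2 * t * |y z| ≤ |(x + t • y : Lp ℝ 1 P) z| + |(x - t • y : Lp ℝ 1 P) z|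
    rw [hz, hz2]
    have e : 2 * t * |y z| = |(x z + t * y z) - (x z - t * y z)| := by
      rw [show (x z + t * y z) - (x z - t * y z) = 2 * t * y z by ring, abs_mul,
        abs_of_pos (by positivity : 0 < 2 * t)]
    rw [e]
    exact abs_sub _ _
  have h4 : ∫ z in Aᶜ, 2 * |x z| ∂P ≤
      ∫ z in Aᶜ, |(x + t • y : Lp ℝ 1 P) z| ∂P + ∫ z in Aᶜ, |(x - t • y : Lp ℝ 1 P) z| ∂P := by
    rw [← integral_add hpi.integrableOn hmi.integrableOn]
    refine integral_mono_ae ((lp_int x).const_mul _).integrableOn (hpi.add hmi).integrableOn ?_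
    filter_upwards [ae_restrict_of_ae hp, ae_restrict_of_ae hm] with z hz hz2
    show 2 * |x z| ≤ |(x + t • y : Lp ℝ 1 P) z| + |(x - t • y : Lp ℝ 1 P) z|
    rw [hz, hz2]
    have e : 2 * |x z| = |(x z + t * y z) + (x z - t * y z)| := by
      rw [show (x z + t * y z) + (x z - t * y z) = 2 * x z by ring, abs_mul,
        abs_of_pos (by norm_num : (0:ℝ) < 2)]
    rw [e]
    exact abs_add_le _ _
  rw [integral_const_mul] at h3 h4
  linarith

/-- absolute continuity -/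
lemma abs_cont (x : Lp ℝ 1 P) {η : ℝ} (hη : 0 < η) :
    ∃ δ : ℝ, 0 < δ ∧ ∀ A : Set Ω, P A < ENNReal.ofReal δ → ∫ z in A, |x z| ∂P ≤ η := by
  have hx := (lp_int x).lintegral_lt_top
  obtain ⟨δ, hδ, h⟩ := exists_pos_setLIntegral_lt_of_measure_lt hx.ne
    (ε := ENNReal.ofReal η) (by simpa using hη)
  refine ⟨(min δ 1).toReal, ?_, fun A hA => ?_⟩
  · refine ENNReal.toReal_pos ?_ ?_
    · exact (lt_min hδ one_pos).ne'
    · exact ne_top_of_le_ne_top ENNReal.one_ne_top (min_le_right _ _)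
  · rw [ENNReal.ofReal_toReal (ne_top_of_le_ne_top ENNReal.one_ne_top (min_le_right _ _))] at hA
    have h1 := h A (lt_of_lt_of_le hA (min_le_left _ _))
    rw [integral_eq_lintegral_of_nonneg_ae (Filter.Eventually.of_forall fun z => abs_nonneg _)
      (lp_int x).aestronglyMeasurable.restrict]
    exact ENNReal.toReal_le_of_le_ofReal hη.le h1.le

/-- extraction from the metric of convergence in measure -/
lemma measureDist_lt {f g : Lp ℝ 1 P} {ε : ℝ} (h : measureDist P f g < ε) :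
    ∃ a : ℝ, 0 < a ∧ a < ε ∧ P {z | a < |f z - g z|} < ENNReal.ofReal a := by
  unfold measureDist at h
  have hne : {a : ℝ | 0 < a ∧ P {z | a < abs ((f : Ω → ℝ) z - (g : Ω → ℝ) z)} <
      ENNReal.ofReal a}.Nonempty := by
    refine ⟨2, by norm_num, ?_⟩
    refine lt_of_le_of_lt prob_le_one ?_
    simp
  obtain ⟨a, ⟨ha1, ha2⟩, ha3⟩ := exists_lt_of_csInf_lt hne h
  exact ⟨a, ha1, ha3, ha2⟩

/-- the lower bound -/
theorem lower_half (E : Submodule ℝ (Lp ℝ 1 P)) (htb : UnitBallTotallyBoundedInMeasure P E)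
    (x : E) (hx : ‖x‖ = 1) {t η : ℝ} (ht : 0 < t) (hη : 0 < η) :
    ∃ F : Set E, Cof F ∧ ∀ y ∈ F, ‖y‖ = 1 → 1 + t / 2 - η ≤ (‖x + t • y‖ + ‖x - t • y‖) / 2 := by
  classical
  obtain ⟨δ, hδ, hδ2⟩ := abs_cont (x : Lp ℝ 1 P) (half_pos hη)
  set ε : ℝ := min δ (η / (2 * t)) with hε
  have hε0 : 0 < ε := lt_min hδ (by positivity)
  obtain ⟨s, hs1, hs2⟩ := htb ε hε0
  choose φ hφ1 hφ2 using fun g : Lp ℝ 1 P => exists_dual_vector'' ℝ g
  set Φ : E →L[ℝ] (s → ℝ) :=
    ContinuousLinearMap.pi fun g => (φ g.1).comp E.subtypeL with hΦ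
  refine ⟨{y | Φ y = 0}, Cof_ker Φ, ?_⟩
  intro y hy hy1
  have hyk : ∀ g ∈ s, φ g (y : Lp ℝ 1 P) = 0 := by
    intro g hg
    have h1 : Φ y = 0 := hy
    exact congrFun h1 ⟨g, hg⟩
  have hy1' : ‖(y : Lp ℝ 1 P)‖ = 1 := hy1
  obtain ⟨g, hg, hgd⟩ := hs2 (y : Lp ℝ 1 P) y.2 hy1'.le
  obtain ⟨a, ha0, haε, haP⟩ := measureDist_lt hgd
  have hgn : ‖g‖ ≤ ‖(y : Lp ℝ 1 P) - g‖ := by
    have h1 : φ g g = ‖g‖ := by simpa using hφ2 g
    have h2 : φ g ((y : Lp ℝ 1 P) - g) = -‖g‖ := by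
      rw [map_sub, hyk g hg, h1, zero_sub]
    calc ‖g‖ = ‖φ g ((y : Lp ℝ 1 P) - g)‖ := by rw [h2, norm_neg, norm_norm]
      _ ≤ ‖φ g‖ * ‖(y : Lp ℝ 1 P) - g‖ := (φ g).le_opNorm _
      _ ≤ 1 * ‖(y : Lp ℝ 1 P) - g‖ := mul_le_mul_of_nonneg_right (hφ1 g) (norm_nonneg _)
      _ = _ := one_mul _
  have h1 := half_mass (y : Lp ℝ 1 P) g a ha0 hgn hy1'
  set A : Set Ω := {z | a < |(y : Lp ℝ 1 P) z - g z|} with hA
  have hAm : MeasurableSet A := by
    have h1 : Measurable (fun z => |(y : Lp ℝ 1 P) z - g z|) := by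
      have := ((Lp.stronglyMeasurable (y : Lp ℝ 1 P)).measurable.sub
        (Lp.stronglyMeasurable g).measurable)
      exact this.abs
    exact measurableSet_lt measurable_const h1
  have h2 := hδ2 A (haP.trans_le (ENNReal.ofReal_le_ofReal (haε.le.trans (min_le_left _ _))))
  have h3 := mid_split (x : Lp ℝ 1 P) (y : Lp ℝ 1 P) hAm ht
  have hx' : ‖(x : Lp ℝ 1 P)‖ = 1 := hx
  rw [hx'] at h3
  have e1 : ‖x + t • y‖ = ‖(x : Lp ℝ 1 P) + t • (y : Lp ℝ 1 P)‖ := rfl
  have e2 : ‖x - t • y‖ = ‖(x : Lp ℝ 1 P) - t • (y : Lp ℝ 1 P)‖ := rfl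
  rw [e1, e2]
  have h4 : t * a ≤ η / 2 := by
    have h5 : a ≤ η / (2 * t) := haε.le.trans (min_le_right _ _)
    calc t * a ≤ t * (η / (2 * t)) := mul_le_mul_of_nonneg_left h5 ht.le
      _ = η / 2 := by field_simp
  have h5 : t * (1 / 2 - a) ≤ t * ∫ z in A, |(y : Lp ℝ 1 P) z| ∂P :=
    mul_le_mul_of_nonneg_left h1 ht.le
  nlinarith

end L1

/-- Let E be an infinite-dimensional closed subspace of the real L¹ of a probability space whose closed unit ball is totally bounded for convergence in measure and whose norm has the Daugavet property. Then at every unit x ∈ E and every t > 0 the averaged midpoint quantity sup_F inf_y ((‖x+ty‖+‖x-ty‖)/2 - 1) equals max(t/2, t-1) and the one-sided one sup_F inf_y (‖x+ty‖ - 1) equals max(0, t-2), as matching lower and upper bounds, and E admits no equivalent asymptotically uniformly convex norm. -/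
theorem result (Ω : Type) [MeasurableSpace Ω] (P : MeasureTheory.Measure Ω) [MeasureTheory.IsProbabilityMeasure P]
    (E : Submodule ℝ (MeasureTheory.Lp ℝ 1 P)) (hcl : IsClosed (E : Set (MeasureTheory.Lp ℝ 1 P)))
    (hinf : ¬ FiniteDimensional ℝ E)
    (htb : Crest.AnalysisR.L1Subspace.UnitBallTotallyBoundedInMeasure P E)
    (hD : Crest.AnalysisR.L1Subspace.HasDaugavetProperty E) :
    (∀ t : ℝ, 0 < t →
      (Crest.AnalysisR.L1Subspace.toRealBanach P E hcl).MidpointModulusGE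
          (Crest.AnalysisR.L1Subspace.toRealBanach P E hcl).norm t (max (t / 2) (t - 1)) ∧
        (Crest.AnalysisR.L1Subspace.toRealBanach P E hcl).MidpointModulusLE
          (Crest.AnalysisR.L1Subspace.toRealBanach P E hcl).norm t (max (t / 2) (t - 1)) ∧
        (Crest.AnalysisR.L1Subspace.toRealBanach P E hcl).OneSidedModulusGE
          (Crest.AnalysisR.L1Subspace.toRealBanach P E hcl).norm t (max 0 (t - 2)) ∧
        (Crest.AnalysisR.L1Subspace.toRealBanach P E hcl).OneSidedModulusLE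
          (Crest.AnalysisR.L1Subspace.toRealBanach P E hcl).norm t (max 0 (t - 2))) ∧
      ∀ N : E → ℝ, (Crest.AnalysisR.L1Subspace.toRealBanach P E hcl).IsEquivNorm N →
        ¬ (Crest.AnalysisR.L1Subspace.toRealBanach P E hcl).IsAUC N := by
  have hnt : Nontrivial E := by
    by_contra h
    rw [not_nontrivial_iff_subsingleton] at h
    exact hinf inferInstance
  have hnot : ∀ N : E → ℝ, EqNorm E N → ¬ AUC E N := fun N hN => dauga_not_AUC hD N hN
  refine ⟨fun t ht => ⟨?_, ?_, ?_, ?_⟩, hnot⟩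
  · have key : ∀ x : E, ‖x‖ = 1 → ∀ η : ℝ, 0 < η → ∃ F : Set E, Cof F ∧
        ∀ y ∈ F, ‖y‖ = 1 → (max (t / 2) (t - 1)) - η ≤
          (‖x + t • y‖ + ‖x - t • y‖) / 2 - 1 := by
      intro x hx η hη
      obtain ⟨F, hF, h⟩ := lower_half E htb x hx ht hη
      refine ⟨F, hF, fun y hy hy1 => ?_⟩
      have h1 := h y hy hy1
      have h2 : 2 * t ≤ ‖x + t • y‖ + ‖x - t • y‖ := by
        have h3 := norm_sub_le (x + t • y) (x - t • y)
        have e : (x + t • y) - (x - t • y) = (2 * t) • y := by module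
        rw [e, norm_smul, hy1, mul_one, Real.norm_eq_abs, abs_of_pos (by positivity)] at h3
        exact h3
      rcases max_cases (t / 2) (t - 1) with ⟨h3, -⟩ | ⟨h3, -⟩ <;> rw [h3] <;> linarith
    exact key
  · have key : ∀ x : E, ‖x‖ = 1 → ∀ F : Set E, Cof F → ∀ η : ℝ, 0 < η →
        ∃ y ∈ F, ‖y‖ = 1 ∧ (‖x + t • y‖ + ‖x - t • y‖) / 2 - 1 ≤ (max (t / 2) (t - 1)) + η := by
      intro x hx F hF η hη
      obtain ⟨y, hy, hy1, h⟩ := dauga_upper hD hF x hx (ε := η / t) (by positivity)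
      obtain ⟨h1, h2⟩ := h t ht
      have e : t * (η / t) = η := by field_simp
      rw [e] at h1 h2
      refine ⟨y, hy, hy1, ?_⟩
      have h3 := le_max_left (t / 2) (t - 1)
      have h4 := le_max_right (t / 2) (t - 1)
      rcases abs_cases (1 - t / 2) with ⟨h5, -⟩ | ⟨h5, -⟩ <;> rw [h5] at h1 <;> linarith
    exact key
  · have key : ∀ x : E, ‖x‖ = 1 → ∀ η : ℝ, 0 < η → ∃ F : Set E, Cof F ∧
        ∀ y ∈ F, ‖y‖ = 1 → (max 0 (t - 2)) - η ≤ ‖x + t • y‖ - 1 := by
      intro x hx η hη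
      obtain ⟨ψ, hψ1, hψ2⟩ := exists_dual_vector'' ℝ x
      refine ⟨{y | ψ y = 0}, Cof_ker ψ, fun y hy hy1 => ?_⟩
      have hy0 : ψ y = 0 := hy
      have h1 : 1 ≤ ‖x + t • y‖ := by
        have h2 : ψ (x + t • y) = 1 := by
          rw [map_add, map_smul, hy0, smul_zero, add_zero]
          simpa [hx] using hψ2
        calc (1:ℝ) = ‖ψ (x + t • y)‖ := by rw [h2, norm_one]
          _ ≤ ‖ψ‖ * ‖x + t • y‖ := ψ.le_opNorm _
          _ ≤ 1 * ‖x + t • y‖ := mul_le_mul_of_nonneg_right hψ1 (norm_nonneg _)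
          _ = _ := one_mul _
      have h2 : t - 1 ≤ ‖x + t • y‖ := by
        have h3 := norm_sub_le (x + t • y) x
        have e : (x + t • y) - x = t • y := by abel
        rw [e, norm_smul, hy1, mul_one, Real.norm_eq_abs, abs_of_pos ht, hx] at h3
        linarith
      rcases max_cases 0 (t - 2) with ⟨h3, -⟩ | ⟨h3, -⟩ <;> rw [h3] <;> linarith
    exact key
  · have key : ∀ x : E, ‖x‖ = 1 → ∀ F : Set E, Cof F → ∀ η : ℝ, 0 < η →
        ∃ y ∈ F, ‖y‖ = 1 ∧ ‖x + t • y‖ - 1 ≤ (max 0 (t - 2)) + η := by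
      intro x hx F hF η hη
      obtain ⟨y, hy, hy1, h⟩ := dauga_upper hD hF x hx (ε := η / t) (by positivity)
      obtain ⟨h1, h2⟩ := h t ht
      have e : t * (η / t) = η := by field_simp
      rw [e] at h1 h2
      refine ⟨y, hy, hy1, ?_⟩
      have h3 := le_max_left 0 (t - 2)
      have h4 := le_max_right 0 (t - 2)
      rcases abs_cases (1 - t / 2) with ⟨h5, -⟩ | ⟨h5, -⟩ <;> rw [h5] at h1 <;> linarith
    exact key

end Crest.Agent.S0167
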