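import Crest.Statements.S0169
import Crest.Agent.S0166Common

set_option autoImplicit false
set_option linter.unusedSectionVars false
set_option linter.unusedVariables false
open Crest Crest.AnalysisR
open MeasureTheory ProbabilityTheory

namespace Crest.Agent.S0169

open Crest.Agent.S0166
open Crest.AnalysisR.TreeProduct

/-- non-root vertices on the root path -/
def pth : List ℕ → Finset (List ℕ)
  | [] => ∅
  | a :: v => insert (a :: v) (pth v)

lemma pth_length : ∀ (v u : List ℕ), u ∈ pth v → u.length ≤ v.length := by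
  intro v
  induction v with
  | nil => intro u hu; simp [pth] at hu
  | cons a v ih =>
    intro u hu
    simp only [pth, Finset.mem_insert] at hu
    rcases hu with rfl | h
    · exact le_rfl
    · have := ih u h
      simp only [List.length_cons]
      omega

lemma cons_notMem (a : ℕ) (v : List ℕ) : a :: v ∉ pth v := fun h => by
  have := pth_length v _ h
  simp at this

lemma nil_notMem : ∀ v, [] ∉ pth v := by
  intro v
  induction v with
  | nil => simp [pth]
  | cons a v ih => simp [pth, ih]

variable {Ω : Type} [MeasurableSpace Ω]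

lemma pathProduct_eq (W : List ℕ → Ω → ℝ) (v : List ℕ) :
    pathProduct W v = fun ω => ∏ u ∈ pth v, W u ω := by
  induction v with
  | nil => funext ω; simp [pathProduct, pth]
  | cons a v ih =>
    funext ω
    simp only [pathProduct, pth]
    rw [Finset.prod_insert (cons_notMem a v), ih]
    ring

section Main

variable {ν : Measure ℝ} [IsProbabilityMeasure ν] {μ : Measure Ω} [IsProbabilityMeasure μ]
  {W : List ℕ → Ω → ℝ}

/-- transfer of integrals to the law -/
lemma law_int (hW : IsRealization ν μ W) {v : List ℕ} (hv : v ≠ []) {g : ℝ → ℝ}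
    (hg : Measurable g) (hi : Integrable g ν) :
    Integrable (fun ω => g (W v ω)) μ ∧ ∫ ω, g (W v ω) ∂μ = ∫ x, g x ∂ν := by
  have hm := hW.1 v
  have hl := hW.2.2 v hv
  constructor
  · rw [← hl] at hi
    exact hi.comp_measurable hm
  · rw [← hl, integral_map hm.aemeasurable hg.aestronglyMeasurable]

lemma path_indep (hW : IsRealization ν μ W) (g : List ℕ → ℝ → ℝ) (hg : ∀ u, Measurable (g u))
    (S : Finset (List ℕ)) (u : List ℕ) (hu : u ∉ S) :
    IndepFun (fun ω => ∏ j ∈ S, g j (W j ω)) (fun ω => g u (W u ω)) μ := by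
  have h1 : iIndepFun (fun u => g u ∘ W u) μ := hW.2.1.comp g hg
  have h2 := h1.indepFun_finsetProd_of_notMem (fun i => (hg i).comp (hW.1 i)) hu
  have e : (∏ j ∈ S, g j ∘ W j) = fun ω => ∏ j ∈ S, g j (W j ω) := by
    funext ω
    simp [Finset.prod_apply]
  rw [e] at h2
  exact h2

/-- integrability and integral of a product over vertices -/
lemma prod_int (hW : IsRealization ν μ W) (g : List ℕ → ℝ → ℝ) (hg : ∀ u, Measurable (g u))
    (hgi : ∀ u, Integrable (g u) ν) (S : Finset (List ℕ)) (hS : [] ∉ S) :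
    Integrable (fun ω => ∏ j ∈ S, g j (W j ω)) μ ∧
      ∫ ω, ∏ j ∈ S, g j (W j ω) ∂μ = ∏ j ∈ S, ∫ x, g j x ∂ν := by
  induction S using Finset.induction_on with
  | empty => simp
  | insert u S hu ih =>
    have hS' : [] ∉ S := fun h => hS (Finset.mem_insert_of_mem h)
    have hune : u ≠ [] := fun h => hS (by rw [h]; exact Finset.mem_insert_self _ _)
    obtain ⟨ih1, ih2⟩ := ih hS'
    have hind := path_indep hW g hg S u hu
    obtain ⟨l1, l2⟩ := law_int hW hune (hg u) (hgi u)
    simp_rw [Finset.prod_insert hu]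
    constructor
    · have := hind.integrable_mul ih1 l1
      refine this.congr (Filter.Eventually.of_forall fun ω => ?_)
      simp [mul_comm]
    · have := hind.integral_fun_mul_eq_mul_integral ih1.aestronglyMeasurable l1.aestronglyMeasurable
      simp_rw [mul_comm (g u (W u _))]
      rw [this, ih2, l2, mul_comm]

variable (hpos : ν (Set.Ioi 0) = 1) (hmean : ∫ x, x ∂ν = 1)
    (hm2 : Integrable (fun x : ℝ => x ^ 2) ν) (hW : IsRealization ν μ W)

include hm2 in
lemma int_id : Integrable (fun x : ℝ => x) ν := by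
  refine Integrable.mono' ((integrable_const (1:ℝ)).add hm2) measurable_id.aestronglyMeasurable
    (Filter.Eventually.of_forall fun x => ?_)
  simp only [Pi.add_apply, Real.norm_eq_abs]
  have h2 := sq_abs x
  nlinarith [sq_nonneg (|x| - 1), abs_nonneg x]

include hpos in
lemma ae_pos : ∀ᵐ x ∂ν, 0 < x := by
  have h : ν (Set.Ioi (0:ℝ))ᶜ = 0 := by
    rw [prob_compl_eq_zero_iff measurableSet_Ioi]
    exact hpos
  rw [ae_iff]
  convert! h using 2

include hpos hmean in
lemma int_abs_id : ∫ x, |x| ∂ν = 1 := by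
  rw [← hmean]
  refine integral_congr_ae ?_
  filter_upwards [ae_pos hpos] with x hx
  exact abs_of_pos hx

/-- second moment -/
noncomputable def m2 (ν : Measure ℝ) : ℝ := ∫ x, x ^ 2 ∂ν
/-- variance -/
noncomputable def vr (ν : Measure ℝ) : ℝ := ∫ x, (x - 1) ^ 2 ∂ν
/-- mean absolute deviation -/
noncomputable def dl (ν : Measure ℝ) : ℝ := ∫ x, |x - 1| ∂ν

include hpos hmean hm2 hW in
lemma pp_int (v : List ℕ) : Integrable (pathProduct W v) μ ∧ ∫ ω, pathProduct W v ω ∂μ = 1 ∧
    ∫ ω, |pathProduct W v ω| ∂μ = 1 := by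
  rw [pathProduct_eq]
  have h1 := prod_int hW (fun _ x => x) (fun _ => measurable_id) (fun _ => int_id hm2) (pth v)
    (nil_notMem v)
  have h2 := prod_int hW (fun _ x => |x|) (fun _ => measurable_id.abs)
    (fun _ => (int_id hm2).abs) (pth v) (nil_notMem v)
  refine ⟨h1.1, ?_, ?_⟩
  · rw [h1.2]; simp [hmean]
  · simp_rw [Finset.abs_prod]
    rw [h2.2]; simp [int_abs_id hpos hmean]

include hmean hm2 in
lemma int_sub_one : Integrable (fun x : ℝ => x - 1) ν ∧ ∫ x, (x - 1) ∂ν = 0 := by
  refine ⟨(int_id hm2).sub (integrable_const 1), ?_⟩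
  rw [integral_sub (int_id hm2) (integrable_const 1), hmean]
  simp

include hm2 in
lemma int_sub_one_sq : Integrable (fun x : ℝ => (x - 1) ^ 2) ν := by
  have e : (fun x : ℝ => (x - 1) ^ 2) = fun x => x ^ 2 - 2 * x + 1 := by funext x; ring
  rw [e]
  exact (hm2.sub ((int_id hm2).const_mul 2)).add (integrable_const 1)

/-- the increments -/
noncomputable def inc (W : List ℕ → Ω → ℝ) (v : List ℕ) (n : ℕ) (ω : Ω) : ℝ :=
  pathProduct W v ω * (W (n :: v) ω - 1)

lemma inc_eq (v : List ℕ) (n : ℕ) (ω : Ω) :
    inc W v n ω = pathProduct W (n :: v) ω - pathProduct W v ω := by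
  unfold inc
  simp only [pathProduct]
  ring

include hpos hmean hm2 hW in
lemma inc_int (v : List ℕ) (n : ℕ) : Integrable (inc W v n) μ := by
  have h1 := (pp_int hpos hmean hm2 hW (n :: v)).1.sub (pp_int hpos hmean hm2 hW v).1
  refine h1.congr (Filter.Eventually.of_forall fun ω => ?_)
  rw [inc_eq]
  rfl

include hpos hmean hm2 hW in
lemma inc_abs (v : List ℕ) (n : ℕ) : ∫ ω, |inc W v n ω| ∂μ = dl ν := by
  have hS : [] ∉ insert (n :: v) (pth v) := by
    simp [nil_notMem]
  have h2 := prod_int hW (fun u x => if u = n :: v then |x - 1| else |x|)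
    (fun u => by
      by_cases h : u = n :: v
      · simp only [h, if_true]; exact (measurable_id.sub_const 1).abs
      · simp only [h, if_false]; exact measurable_id.abs)
    (fun u => by
      by_cases h : u = n :: v
      · simp only [h, if_true]; exact (int_sub_one hmean hm2).1.abs
      · simp only [h, if_false]; exact (int_id hm2).abs) (insert (n :: v) (pth v)) hS
  have e1 : ∀ ω, |inc W v n ω| = ∏ j ∈ insert (n :: v) (pth v),
      (fun (u : List ℕ) (x : ℝ) => if u = n :: v then |x - 1| else |x|) j (W j ω) := by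
    intro ω
    rw [Finset.prod_insert (cons_notMem n v)]
    unfold inc
    rw [abs_mul, pathProduct_eq, Finset.abs_prod, mul_comm]
    congr 1
    · simp
    · refine Finset.prod_congr rfl fun u hu => ?_
      have : u ≠ n :: v := fun h => cons_notMem n v (h ▸ hu)
      simp [this]
  simp_rw [e1]
  rw [h2.2, Finset.prod_insert (cons_notMem n v)]
  have e2 : ∏ x ∈ pth v, ∫ y, (if x = n :: v then |y - 1| else |y|) ∂ν = 1 := by
    refine Finset.prod_eq_one fun u hu => ?_
    have : u ≠ n :: v := fun h => cons_notMem n v (h ▸ hu)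
    simp only [this, if_false]
    exact int_abs_id hpos hmean
  rw [e2]
  simp [dl]

include hpos hmean hm2 hW in
lemma inc_cross (v : List ℕ) (n k : ℕ) :
    Integrable (fun ω => inc W v n ω * inc W v k ω) μ ∧
    ∫ ω, inc W v n ω * inc W v k ω ∂μ =
      if n = k then (m2 ν) ^ (pth v).card * vr ν else 0 := by
  by_cases hnk : n = k
  · subst hnk
    have hS : [] ∉ insert (n :: v) (pth v) := by
      simp [nil_notMem]
    have h2 := prod_int hW (fun u x => if u = n :: v then (x - 1) ^ 2 else x ^ 2)
      (fun u => by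
        by_cases h : u = n :: v
        · simp only [h, if_true]; exact (measurable_id.sub_const 1).pow_const 2
        · simp only [h, if_false]; exact measurable_id.pow_const 2)
      (fun u => by
        by_cases h : u = n :: v
        · simp only [h, if_true]; exact int_sub_one_sq hm2
        · simp only [h, if_false]; exact hm2) (insert (n :: v) (pth v)) hS
    have e1 : ∀ ω, inc W v n ω * inc W v n ω = ∏ j ∈ insert (n :: v) (pth v),
        (fun (u : List ℕ) (x : ℝ) => if u = n :: v then (x - 1) ^ 2 else x ^ 2) j (W j ω) := by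
      intro ω
      rw [Finset.prod_insert (cons_notMem n v)]
      unfold inc
      rw [pathProduct_eq]
      have e3 : ∏ x ∈ pth v, (if x = n :: v then (W x ω - 1) ^ 2 else W x ω ^ 2) =
          (∏ u ∈ pth v, W u ω) ^ 2 := by
        rw [← Finset.prod_pow]
        refine Finset.prod_congr rfl fun u hu => ?_
        have : u ≠ n :: v := fun h => cons_notMem n v (h ▸ hu)
        simp [this]
      simp only [if_true]
      rw [e3]
      ring
    simp_rw [e1]
    refine ⟨h2.1, ?_⟩
    rw [h2.2, Finset.prod_insert (cons_notMem n v)]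
    have e2 : ∏ x ∈ pth v, ∫ y, (if x = n :: v then (y - 1) ^ 2 else y ^ 2) ∂ν =
        (m2 ν) ^ (pth v).card := by
      rw [← Finset.prod_const]
      refine Finset.prod_congr rfl fun u hu => ?_
      have : u ≠ n :: v := fun h => cons_notMem n v (h ▸ hu)
      simp only [this, if_false]
      rfl
    rw [e2]
    simp only [if_true]
    rw [mul_comm]
    rfl
  · have hne : (k :: v) ≠ (n :: v) := fun h => hnk (List.cons.inj h).1.symm
    have hk : (k :: v) ∉ insert (n :: v) (pth v) := by
      simp only [Finset.mem_insert, not_or]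
      exact ⟨hne, cons_notMem k v⟩
    have hS : [] ∉ insert (k :: v) (insert (n :: v) (pth v)) := by
      simp [nil_notMem]
    set g : List ℕ → ℝ → ℝ := fun u x => if u = n :: v ∨ u = k :: v then x - 1 else x ^ 2 with hg
    have h2 := prod_int hW g
      (fun u => by
        by_cases h : u = n :: v ∨ u = k :: v
        · simp only [hg, h, if_true]; exact (measurable_id.sub_const 1)
        · simp only [hg, h, if_false]; exact measurable_id.pow_const 2)
      (fun u => by
        by_cases h : u = n :: v ∨ u = k :: v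
        · simp only [hg, h, if_true]; exact (int_sub_one hmean hm2).1
        · simp only [hg, h, if_false]; exact hm2) (insert (k :: v) (insert (n :: v) (pth v))) hS
    have e1 : ∀ ω, inc W v n ω * inc W v k ω =
        ∏ j ∈ insert (k :: v) (insert (n :: v) (pth v)), g j (W j ω) := by
      intro ω
      rw [Finset.prod_insert hk, Finset.prod_insert (cons_notMem n v)]
      unfold inc
      rw [pathProduct_eq]
      have e3 : ∏ x ∈ pth v, g x (W x ω) = (∏ u ∈ pth v, W u ω) ^ 2 := by
        rw [← Finset.prod_pow]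
        refine Finset.prod_congr rfl fun u hu => ?_
        have h1 : u ≠ n :: v := fun h => cons_notMem n v (h ▸ hu)
        have h2 : u ≠ k :: v := fun h => cons_notMem k v (h ▸ hu)
        simp [hg, h1, h2]
      rw [e3]
      simp only [hg, true_or, or_true, if_true]
      ring
    simp_rw [e1]
    refine ⟨h2.1, ?_⟩
    rw [h2.2, Finset.prod_insert hk, if_neg hnk]
    have : ∫ x, g (k :: v) x ∂ν = 0 := by
      simp only [hg, or_true, if_true]
      exact (int_sub_one hmean hm2).2
    rw [this, zero_mul]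

include hpos hmean hm2 hW in
/-- second moment of a linear combination of increments -/
lemma comb_sq (v : List ℕ) (s : Finset ℕ) (a : ℕ → ℝ) :
    Integrable (fun ω => (∑ n ∈ s, a n * inc W v n ω) ^ 2) μ ∧
    ∫ ω, (∑ n ∈ s, a n * inc W v n ω) ^ 2 ∂μ =
      ((m2 ν) ^ (pth v).card * vr ν) * ∑ n ∈ s, a n ^ 2 := by
  have e : ∀ ω, (∑ n ∈ s, a n * inc W v n ω) ^ 2 =
      ∑ n ∈ s, ∑ k ∈ s, (a n * a k) * (inc W v n ω * inc W v k ω) := by
    intro ω
    rw [sq, Finset.sum_mul_sum]
    refine Finset.sum_congr rfl fun n _ => Finset.sum_congr rfl fun k _ => ?_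
    ring
  simp_rw [e]
  have hi := fun n k => (inc_cross hpos hmean hm2 hW v n k).1.const_mul (a n * a k)
  refine ⟨integrable_finsetSum _ fun n _ => integrable_finsetSum _ fun k _ => hi n k, ?_⟩
  rw [integral_finsetSum _ fun n _ => integrable_finsetSum _ fun k _ => hi n k]
  rw [Finset.mul_sum]
  refine Finset.sum_congr rfl fun n hn => ?_
  rw [integral_finsetSum _ fun k _ => hi n k]
  have e2 : ∀ k, ∫ ω, (a n * a k) * (inc W v n ω * inc W v k ω) ∂μ =
      if n = k then (a n * a k) * ((m2 ν) ^ (pth v).card * vr ν) else 0 := by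
    intro k
    rw [integral_const_mul, (inc_cross hpos hmean hm2 hW v n k).2]
    split_ifs <;> simp
  simp_rw [e2]
  rw [Finset.sum_ite_eq, if_pos hn]
  ring

include hpos hmean hm2 hW in
lemma comb_abs (v : List ℕ) (s : Finset ℕ) (a : ℕ → ℝ) :
    ∫ ω, |∑ n ∈ s, a n * inc W v n ω| ∂μ ≤
      Real.sqrt ((m2 ν) ^ (pth v).card * vr ν) * Real.sqrt (∑ n ∈ s, a n ^ 2) := by
  obtain ⟨h1, h2⟩ := comb_sq hpos hmean hm2 hW v s a
  set f : Ω → ℝ := fun ω => ∑ n ∈ s, a n * inc W v n ω with hf
  have hfi : Integrable f μ :=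
    integrable_finsetSum _ fun n _ => (inc_int hpos hmean hm2 hW v n).const_mul _
  have hA : 0 ≤ (m2 ν) ^ (pth v).card * vr ν := by
    refine mul_nonneg (pow_nonneg (integral_nonneg fun x => sq_nonneg _) _)
      (integral_nonneg fun x => sq_nonneg _)
  rw [← Real.sqrt_mul hA, ← h2]
  refine Real.le_sqrt_of_sq_le ?_
  -- Jensen through the variance
  have h3 : 0 ≤ ∫ ω, (|f ω| - ∫ ω', |f ω'| ∂μ) ^ 2 ∂μ := integral_nonneg fun _ => sq_nonneg _
  set c : ℝ := ∫ ω', |f ω'| ∂μ with hc
  have e : ∀ ω, (|f ω| - c) ^ 2 = f ω ^ 2 - 2 * c * |f ω| + c ^ 2 := by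
    intro ω
    rw [← sq_abs (f ω)]
    ring
  simp_rw [e] at h3
  have i1 : Integrable (fun ω => f ω ^ 2 - 2 * c * |f ω|) μ := h1.sub (hfi.abs.const_mul _)
  rw [integral_add i1 (integrable_const _), integral_sub h1 (hfi.abs.const_mul _),
    integral_const_mul, ← hc] at h3
  have hu : μ.real Set.univ = 1 := by simp
  simp only [integral_const, hu, smul_eq_mul, one_mul] at h3
  nlinarith

/-- the class of a path product -/
noncomputable def cls (v : List ℕ) (h : Integrable (pathProduct W v) μ) : Lp ℝ 1 μ :=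
  h.toL1 (pathProduct W v)

lemma cls_mem (v : List ℕ) (h : Integrable (pathProduct W v) μ) : cls v h ∈ productSpan μ W := by
  refine Submodule.le_topologicalClosure _ (Submodule.subset_span ⟨v, ?_⟩)
  exact h.coeFn_toL1

end Main

theorem result (ν : Measure ℝ) [IsProbabilityMeasure ν] (hpos : ν (Set.Ioi 0) = 1)
    (hnc : ∀ c : ℝ, ν ≠ Measure.dirac c) (hmean : ∫ x, x ∂ν = 1)
    (hm2 : Integrable (fun x : ℝ => x ^ 2) ν)
    (Ω : Type) [MeasurableSpace Ω] (μ : Measure Ω) [IsProbabilityMeasure μ]
    (W : List ℕ → Ω → ℝ) (hW : Crest.AnalysisR.TreeProduct.IsRealization ν μ W) :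
    ¬ FiniteDimensional ℝ (Crest.AnalysisR.TreeProduct.productSpan μ W) ∧
      ∀ N : (Crest.AnalysisR.TreeProduct.spanBanach μ W).X → ℝ,
        (Crest.AnalysisR.TreeProduct.spanBanach μ W).IsEquivNorm N →
          ¬ (Crest.AnalysisR.TreeProduct.spanBanach μ W).IsAUC N := by
  have hI := pp_int hpos hmean hm2 hW
  set E := productSpan μ W with hE
  -- elements
  set X : List ℕ → E := fun v => ⟨cls v (hI v).1, cls_mem v (hI v).1⟩ with hX
  have hXn : ∀ v, ‖X v‖ = 1 := by
    intro v
    have : ‖X v‖ = ‖(hI v).1.toL1 (pathProduct W v)‖ := rfl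
    rw [this, L1.norm_of_fun_eq_integral_norm]
    simp_rw [Real.norm_eq_abs]
    exact (hI v).2.2
  have hδ : 0 < dl ν := by
    have h0 : 0 ≤ dl ν := integral_nonneg fun _ => abs_nonneg _
    refine lt_of_le_of_ne h0 fun h => ?_
    have h1 : (fun x : ℝ => |x - 1|) =ᵐ[ν] 0 :=
      (integral_eq_zero_iff_of_nonneg (fun _ => abs_nonneg _)
        ((int_sub_one hmean hm2).1.abs)).1 h.symm
    have h2 : ∀ᵐ x ∂ν, x = 1 := by
      filter_upwards [h1] with x hx
      have := abs_eq_zero.1 hx
      linarith
    refine hnc 1 ?_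
    have h3 : (fun x : ℝ => x) =ᵐ[ν] fun _ => (1:ℝ) := h2
    have h4 : Measure.map (fun x : ℝ => x) ν = Measure.map (fun _ : ℝ => (1:ℝ)) ν :=
      Measure.map_congr h3
    rw [Measure.map_id', Measure.map_const] at h4
    simpa using h4
  -- the increments as elements
  have hcomb : ∀ (v : List ℕ) (s : Finset ℕ) (a : ℕ → ℝ),
      ‖∑ n ∈ s, a n • (X (n :: v) - X v)‖ = ∫ ω, |∑ n ∈ s, a n * inc W v n ω| ∂μ := by
    intro v s a
    have hfi : Integrable (fun ω => ∑ n ∈ s, a n * inc W v n ω) μ :=
      integrable_finsetSum _ fun n _ => (inc_int hpos hmean hm2 hW v n).const_mul _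
    have e : ((∑ n ∈ s, a n • (X (n :: v) - X v) : E) : Lp ℝ 1 μ) =
        hfi.toL1 (fun ω => ∑ n ∈ s, a n * inc W v n ω) := by
      rw [AddSubmonoidClass.coe_finsetSum]
      induction s using Finset.induction_on with
      | empty =>
        simp only [Finset.sum_empty]
        exact (Integrable.toL1_zero _).symm
      | insert n s hn ih =>
        have hfi' : Integrable (fun ω => ∑ n ∈ s, a n * inc W v n ω) μ :=
          integrable_finsetSum _ fun n _ => (inc_int hpos hmean hm2 hW v n).const_mul _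
        have hn' : Integrable (fun ω => a n * inc W v n ω) μ :=
          (inc_int hpos hmean hm2 hW v n).const_mul _
        rw [Finset.sum_insert hn, ih hfi']
        have e1 : ((a n • (X (n :: v) - X v) : E) : Lp ℝ 1 μ) =
            hn'.toL1 (fun ω => a n * inc W v n ω) := by
          have e2 : ((a n • (X (n :: v) - X v) : E) : Lp ℝ 1 μ) =
            a n • ((hI (n :: v)).1.toL1 (pathProduct W (n :: v)) -
              (hI v).1.toL1 (pathProduct W v)) := rfl
          rw [e2, ← Integrable.toL1_sub, ← Integrable.toL1_smul]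
          refine (Integrable.toL1_eq_toL1_iff _ _ _ _).2 (Filter.Eventually.of_forall fun ω => ?_)
          simp only [inc_eq, Pi.sub_apply, smul_eq_mul, Pi.smul_apply]
        rw [e1, ← Integrable.toL1_add]
        refine (Integrable.toL1_eq_toL1_iff _ _ _ _).2 (Filter.Eventually.of_forall fun ω => ?_)
        simp only [Pi.add_apply]
        rw [Finset.sum_insert hn]
    have e3 : ‖∑ n ∈ s, a n • (X (n :: v) - X v)‖ =
        ‖((∑ n ∈ s, a n • (X (n :: v) - X v) : E) : Lp ℝ 1 μ)‖ := rfl
    rw [e3, e, L1.norm_of_fun_eq_integral_norm]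
    simp_rw [Real.norm_eq_abs]
  have hwn : ∀ (v : List ℕ) (φ : E →L[ℝ] ℝ),
      Filter.Tendsto (fun n => φ (X (n :: v) - X v)) Filter.atTop (nhds 0) := by
    intro v φ
    refine weakly_null_of_two_estimate (fun n => X (n :: v) - X v)
      (Real.sqrt ((m2 ν) ^ (pth v).card * vr ν)) (fun s a => ?_) φ
    rw [hcomb]
    exact comb_abs hpos hmean hm2 hW v s a
  have hyn : ∀ (v : List ℕ) (n : ℕ), ‖X (n :: v) - X v‖ = dl ν := by
    intro v n
    have := hcomb v {n} (fun _ => 1)
    simp only [Finset.sum_singleton, one_smul, one_mul] at this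
    rw [this]
    exact inc_abs hpos hmean hm2 hW v n
  have main : ∀ N : E → ℝ, EqNorm E N → ¬ AUC E N := by
    refine not_AUC (min (dl ν) 1) 1 (lt_min hδ one_pos) (fun _ _ => Set.range X) ?_ ?_ ?_
    · intro k
      exact ⟨X [], ⟨[], rfl⟩, by rw [hXn]; exact min_le_right _ _⟩
    · rintro k j - x ⟨v, rfl⟩
      rw [hXn]
    · rintro k j - x ⟨v, rfl⟩ F hF ε hε
      obtain ⟨n, f, hf, hf2⟩ := weakly_null_near hF _ (hwn v) hε
      refine ⟨X (n :: v) - X v, f, ⟨n :: v, by abel⟩, hf, hf2, ?_⟩
      rw [hyn]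
      exact min_le_left _ _
  exact ⟨infiniteDimensional_of_not_AUC (main _ eqNorm_norm), fun N hN => main N hN⟩

end Crest.Agent.S0169
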