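import Crest.Statements.S0175
import Crest.Agent.OTAssemble
import Crest.Agent.OTCore

set_option autoImplicit false
open MeasureTheory
open scoped ENNReal ContDiff
open Crest.AnalysisR.OT
open Crest Crest.AnalysisR Crest.AnalysisR.OT

namespace Crest.Agent.S0175

open Crest.Agent.OT175 in
/-- the geometric data exist in dimension at least two -/
theorem exists_geo (d : ℕ) (hd : 2 ≤ d) (s : ℝ) (hs : 0 < s) :
    Nonempty (Geo (EuclideanSpace ℝ (Fin d)) s) := by
  classical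
  set i0 : Fin d := ⟨0, by omega⟩ with hi0
  set i1 : Fin d := ⟨1, by omega⟩ with hi1
  have h01 : i0 ≠ i1 := by simp [hi0, hi1]
  set e : EuclideanSpace ℝ (Fin d) := EuclideanSpace.single i0 (1 : ℝ) with he
  have he1 : ‖e‖ = 1 := by simp [he]
  set G : EuclideanSpace ℝ (Fin d) ≃ₗᵢ[ℝ] EuclideanSpace ℝ (Fin d) :=
    LinearIsometryEquiv.piLpCongrLeft 2 ℝ ℝ (Equiv.swap i0 i1) with hG
  obtain ⟨C, hC1, hC2⟩ := exists_consts hs ‖kvec s e‖ (norm_nonneg _)
  obtain ⟨L⟩ := exists_locStruct hs he1 C.η_pos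
  have hGe : G e = EuclideanSpace.single i1 (1 : ℝ) := by
    rw [hG, he, LinearIsometryEquiv.piLpCongrLeft_single]
    rw [Equiv.swap_apply_left]
  refine ⟨{ hs := hs, e := e, he := he1, G := G, GG := ?_, orth := ?_, C := C, hC1 := hC1,
            hC2 := hC2, L := L }⟩
  · intro x
    ext i
    simp [hG]
  · rw [hGe, he]
    rw [EuclideanSpace.inner_single_left]
    simp [h01]

/-- For every d ≥ 2 and s > 0 there is a smooth, compactly supported, nonnegative ρ on ℝᵈ with integral 1 and smooth square root such that, for μ = ρ dx and the cost summing ‖xᵢ - xⱼ‖^(-s) over the three pairs of a triple: some coupling with all three marginals μ has finite cost, minimal among all such couplings; every pair of Borel maps T₂, T₃ pushing μ to itself gives the plan x ↦ (x, T₂ x, T₃ x) strictly larger cost; and such pairs have costs arbitrarily close to that minimum. -/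
theorem result
    (d : ℕ) (hd : 2 ≤ d) (s : ℝ) (hs : 0 < s) :
    ∃ ρ : EuclideanSpace ℝ (Fin d) → ℝ, (∀ x, 0 ≤ ρ x) ∧ ContDiff ℝ ∞ ρ ∧ HasCompactSupport ρ ∧
      ContDiff ℝ ∞ (fun x => Real.sqrt (ρ x)) ∧ ∫ x, ρ x = 1 ∧
      ∃ π₀ : Measure (EuclideanSpace ℝ (Fin d) × EuclideanSpace ℝ (Fin d) × EuclideanSpace ℝ (Fin d)),
        IsCoupling₃ (measOfDensity ρ) π₀ ∧ ∫⁻ p, tripleCost s p ∂π₀ < ⊤ ∧
        (∀ π : Measure (EuclideanSpace ℝ (Fin d) × EuclideanSpace ℝ (Fin d) × EuclideanSpace ℝ (Fin d)), IsCoupling₃ (measOfDensity ρ) π →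
          ∫⁻ p, tripleCost s p ∂π₀ ≤ ∫⁻ p, tripleCost s p ∂π) ∧
        (∀ T₂ T₃ : EuclideanSpace ℝ (Fin d) → EuclideanSpace ℝ (Fin d), Measurable T₂ → Measurable T₃ →
          (measOfDensity ρ).map T₂ = measOfDensity ρ → (measOfDensity ρ).map T₃ = measOfDensity ρ →
          ∫⁻ p, tripleCost s p ∂π₀ < ∫⁻ x, tripleCost s (x, T₂ x, T₃ x) ∂(measOfDensity ρ)) ∧
        (∀ ε : ℝ≥0∞, 0 < ε → ∃ T₂ T₃ : EuclideanSpace ℝ (Fin d) → EuclideanSpace ℝ (Fin d), Measurable T₂ ∧ Measurable T₃ ∧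
          (measOfDensity ρ).map T₂ = measOfDensity ρ ∧ (measOfDensity ρ).map T₃ = measOfDensity ρ ∧
          ∫⁻ x, tripleCost s (x, T₂ x, T₃ x) ∂(measOfDensity ρ) < ∫⁻ p, tripleCost s p ∂π₀ + ε) := by
  obtain ⟨g⟩ := exists_geo d hd s hs
  have : Nonempty (Fin d) := ⟨⟨0, by omega⟩⟩
  obtain ⟨ρ, h0, h1, h2, h3, h4, D, hD⟩ := g.assemble
  refine ⟨ρ, h0, h1, h2, h3, h4, ?_⟩
  rw [hD]
  exact Crest.Agent.OT175.core D

end Crest.Agent.S0175
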