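import Crest.Agent.T22Cyc

/-! S0222 tools: `E_h z^{#cycles (c1 h c2 h^-1)} <= (4e)^m z^{(fix1+fix2)/2}`. -/

set_option autoImplicit false
set_option linter.unusedSectionVars false
namespace Crest.Agent.T22

open Equiv Equiv.Perm Finset

variable {α : Type*} [Fintype α] [DecidableEq α] {γ : Type*} [Fintype γ] [DecidableEq γ]

/-- multiset of values -/
def tp (P : α → γ) : Sym γ (Fintype.card α) :=
  ⟨(Finset.univ : Finset α).val.map P, by rw [Multiset.card_map]; rfl⟩

theorem count_tp (P : α → γ) (c : γ) :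
    (tp P).1.count c = Fintype.card {a // P a = c} := by
  rw [Fintype.card_subtype]
  simp only [tp, Multiset.count_map]
  rw [Finset.card_def, Finset.filter_val]
  congr 1
  refine Multiset.filter_congr fun a _ => ?_
  exact eq_comm

theorem sum_count_tp (s : Sym γ (Fintype.card α)) : ∑ c, s.1.count c = Fintype.card α := by
  have h := Multiset.toFinset_sum_count_eq s.1
  rw [s.2] at h
  refine Eq.trans ?_ h
  symm
  apply Finset.sum_subset (Finset.subset_univ _)
  intro c _ hc
  rw [Multiset.mem_toFinset] at hc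
  exact Multiset.count_eq_zero_of_notMem hc

theorem prod_tp (P : α → γ) (M : γ → ℝ) : ∏ a, M (P a) = ∏ c, M c ^ (tp P).1.count c := by
  rw [← Finset.prod_fiberwise (Finset.univ : Finset α) P (fun a => M (P a))]
  refine Finset.prod_congr rfl fun c _ => ?_
  rw [count_tp, Fintype.card_subtype]
  rw [Finset.prod_congr rfl (g := fun _ => M c) (fun a ha => by rw [(Finset.mem_filter.mp ha).2])]
  rw [Finset.prod_const]

theorem card_h_le (P Q : α → γ) :
    Fintype.card {h : Perm α // P ∘ h = Q} ≤
      if tp P = tp Q then ∏ c, ((tp P).1.count c).factorial else 0 := by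
  classical
  by_cases hne : Nonempty {h : Perm α // P ∘ h = Q}
  · obtain ⟨h0, hh0⟩ := hne
    have h1 : tp P = tp Q := by
      apply Subtype.ext
      simp only [tp]
      rw [← hh0]
      have h2 : (Finset.univ : Finset α).val.map (P ∘ h0) = ((Finset.univ : Finset α).val.map h0).map P := by
        rw [Multiset.map_map]
      rw [h2, Multiset.map_univ_val_equiv]
    rw [if_pos h1]
    have h3 : (∏ c, ((tp P).1.count c).factorial) = Fintype.card {k : Perm α // P ∘ k = P} := by
      rw [DomMulAct.stabilizer_card P]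
      exact Finset.prod_congr rfl fun c _ => by rw [count_tp]
    rw [h3]
    refine Fintype.card_le_of_injective
      (fun h => (⟨h.1 * h0⁻¹, ?_⟩ : {k : Perm α // P ∘ k = P})) ?_
    · funext a
      have h4 := congrFun h.2 (h0⁻¹ a)
      have h5 := congrFun hh0 (h0⁻¹ a)
      simp only [Function.comp_apply] at h4 h5 ⊢
      rw [Perm.mul_apply, h4, ← h5]
      congr 1
      exact h0.apply_symm_apply a
    · intro h k hk
      simp only [Subtype.mk.injEq, mul_left_inj] at hk
      exact Subtype.ext hk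
  · rw [not_nonempty_iff] at hne
    rw [Fintype.card_eq_zero]
    exact Nat.zero_le _


variable {β : Type*} [Fintype β] [DecidableEq β]

/-- number of fixed points -/
def nfix (g : Perm α) : ℕ := Fintype.card {a // g a = a}

/-- colourings with given joint type -/
def AA (g : Perm α) (s : Sym (β × β) (Fintype.card α)) : ℕ :=
  Fintype.card {x : α → β // tp (fun a => (x a, x (g a))) = s}

theorem DD_pos (s : Sym γ (Fintype.card α)) (hm : 0 < Fintype.card α) :
    0 < ∏ c, Real.sqrt ((s.1.count c : ℝ) / Fintype.card α) ^ s.1.count c := by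
  refine Finset.prod_pos fun c _ => ?_
  by_cases h : s.1.count c = 0
  · rw [h, pow_zero]; exact one_pos
  · have : 0 < s.1.count c := Nat.pos_of_ne_zero h
    positivity

/-- the key bound `A_g(N) * prod (N/m)^(N/2) <= z^(fix/2)` -/
theorem AA_le [Nonempty β] (g : Perm α) (s : Sym (β × β) (Fintype.card α)) (hm : 0 < Fintype.card α) :
    (AA g s : ℝ) * ∏ c, Real.sqrt ((s.1.count c : ℝ) / Fintype.card α) ^ s.1.count c
      ≤ Real.sqrt (Fintype.card β) ^ nfix g := by
  classical
  set M : β → β → ℝ := fun p q => Real.sqrt ((s.1.count (p, q) : ℝ) / Fintype.card α) with hM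
  have hMn : ∀ p q, 0 ≤ M p q := fun p q => Real.sqrt_nonneg _
  have hmR : (0 : ℝ) < Fintype.card α := by exact_mod_cast hm
  have hhs : hs2 M = 1 := by
    unfold hs2
    have h1 : ∀ p q, M p q ^ 2 = (s.1.count (p, q) : ℝ) / Fintype.card α := fun p q =>
      Real.sq_sqrt (by positivity)
    simp only [h1]
    rw [← Finset.sum_product' (s := (Finset.univ : Finset β)) (t := (Finset.univ : Finset β))
      (f := fun p q => (s.1.count (p, q) : ℝ) / Fintype.card α)]
    rw [Finset.univ_product_univ]
    have h2 : ∑ t : β × β, (s.1.count (t.1, t.2) : ℝ) / Fintype.card α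
        = (∑ t : β × β, (s.1.count t : ℝ)) / Fintype.card α := by
      rw [Finset.sum_div]
    rw [h2]
    have h3 : (∑ t : β × β, (s.1.count t : ℝ)) = Fintype.card α := by
      exact_mod_cast sum_count_tp s
    rw [h3]
    exact div_self hmR.ne'
  have h1 : (AA g s : ℝ) * ∏ c, Real.sqrt ((s.1.count c : ℝ) / Fintype.card α) ^ s.1.count c
      = ∑ x ∈ (Finset.univ : Finset (α → β)).filter (fun x => tp (fun a => (x a, x (g a))) = s),
        ∏ a, M (x a) (x (g a)) := by
    rw [AA, Fintype.card_subtype, ← nsmul_eq_mul, ← Finset.sum_const]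
    refine Finset.sum_congr rfl fun x hx => ?_
    have hx2 := (Finset.mem_filter.mp hx).2
    have h4 := prod_tp (fun a => (x a, x (g a))) (fun c => M c.1 c.2)
    rw [h4, hx2]
  rw [h1]
  have h2 : ∑ x ∈ (Finset.univ : Finset (α → β)).filter (fun x => tp (fun a => (x a, x (g a))) = s),
        ∏ a, M (x a) (x (g a)) ≤ Sg g (fun _ => M) := by
    unfold Sg
    refine Finset.sum_le_sum_of_subset_of_nonneg (Finset.filter_subset _ _) ?_
    intro x _ _
    exact Finset.prod_nonneg fun a _ => hMn _ _
  refine h2.trans ((Sg_le_Bg g (fun _ => M) (fun _ => hMn)).trans ?_)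
  unfold Bg
  change ∏ a, (if g a = a then trm M else Real.sqrt (hs2 M)) ≤ _
  rw [hhs, Real.sqrt_one]
  have h5 : trm M ≤ Real.sqrt (Fintype.card β) := by
    have := trm_le M
    rwa [hhs, Real.sqrt_one, mul_one] at this
  have h6 : 0 ≤ trm M := Finset.sum_nonneg fun p _ => hMn p p
  calc ∏ a, (if g a = a then trm M else 1)
      ≤ ∏ a, (if g a = a then Real.sqrt (Fintype.card β) else 1) := by
        refine Finset.prod_le_prod (fun a _ => ?_) (fun a _ => ?_)
        · split_ifs
          · exact h6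
          · exact zero_le_one
        · split_ifs
          · exact h5
          · exact le_rfl
    _ = _ := by
        rw [← Finset.prod_filter, Finset.prod_const, nfix, Fintype.card_subtype]

theorem fact_bound (s : Sym γ (Fintype.card α)) (hm : 0 < Fintype.card α) :
    ((∏ c, (s.1.count c).factorial : ℕ) : ℝ)
      ≤ (Fintype.card α : ℝ) ^ (Fintype.card α) *
        (∏ c, Real.sqrt ((s.1.count c : ℝ) / Fintype.card α) ^ s.1.count c) ^ 2 := by
  have hmR : (0 : ℝ) < Fintype.card α := by exact_mod_cast hm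
  have h1 : (Fintype.card α : ℝ) ^ (Fintype.card α) = ∏ c, (Fintype.card α : ℝ) ^ (s.1.count c) := by
    rw [Finset.prod_pow_eq_pow_sum, sum_count_tp s]
  rw [h1, ← Finset.prod_pow, ← Finset.prod_mul_distrib, Nat.cast_prod]
  refine Finset.prod_le_prod (fun c _ => Nat.cast_nonneg _) fun c _ => ?_
  rw [← pow_mul, mul_comm (s.1.count c) 2, pow_mul, Real.sq_sqrt (by positivity), ← mul_pow,
    mul_div_cancel₀ _ hmR.ne']
  exact_mod_cast Nat.factorial_le_pow _

theorem AA_swap (g : Perm α) (s : Sym (β × β) (Fintype.card α)) (hm : 0 < Fintype.card α)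
    [Nonempty β] :
    (Fintype.card {v : α → β // tp (fun b => (v (g b), v b)) = s} : ℝ) *
      ∏ c, Real.sqrt ((s.1.count c : ℝ) / Fintype.card α) ^ s.1.count c
      ≤ Real.sqrt (Fintype.card β) ^ nfix g := by
  classical
  have h1 : Fintype.card {v : α → β // tp (fun b => (v (g b), v b)) = s} = AA g⁻¹ s := by
    unfold AA
    refine Fintype.card_congr ?_
    refine Equiv.subtypeEquiv ?_ ?_
    · exact (Equiv.arrowCongr g.symm (Equiv.refl β))
    · intro v
      have h2 : tp (fun a => (((Equiv.arrowCongr g.symm (Equiv.refl β)) v) a,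
          ((Equiv.arrowCongr g.symm (Equiv.refl β)) v) (g⁻¹ a)))
          = tp (fun b => (v (g b), v b)) := by
        have h3 : (fun a => (((Equiv.arrowCongr g.symm (Equiv.refl β)) v) a,
          ((Equiv.arrowCongr g.symm (Equiv.refl β)) v) (g⁻¹ a))) = fun b => (v (g b), v b) := by
          funext a
          simp [Equiv.arrowCongr]
        rw [h3]
      rw [h2]
  have h4 : nfix g = nfix g⁻¹ := by
    unfold nfix
    refine Fintype.card_congr (Equiv.subtypeEquivRight fun a => ?_)
    constructor
    · intro h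
      exact (Perm.inv_eq_iff_eq).mpr h.symm
    · intro h
      exact ((Perm.inv_eq_iff_eq).mp h).symm
  rw [h1, h4]
  exact AA_le g⁻¹ s hm

theorem sum_h (c1 c2 : Perm α) (z : ℕ) :
    ∑ h : Perm α, z ^ ncyc (c1 * h * c2 * h⁻¹)
      ≤ ∑ s : Sym (Fin z × Fin z) (Fintype.card α),
        AA (β := Fin z) c1 s * Fintype.card {v : α → Fin z // tp (fun b => (v (c2 b), v b)) = s}
          * ∏ c, (s.1.count c).factorial := by
  classical
  have h1 : ∀ h : Perm α, z ^ ncyc (c1 * h * c2 * h⁻¹)
      ≤ ∑ x : α → Fin z, ∑ v : α → Fin z,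
        if (fun a => (x a, x (c1 a))) ∘ h = (fun b => (v (c2 b), v b)) then 1 else 0 := by
    intro h
    rw [← card_inv, Fintype.card_subtype, Finset.card_filter]
    refine Finset.sum_le_sum fun x _ => ?_
    split_ifs with hx
    · rw [← Finset.card_filter]
      apply Finset.card_pos.mpr
      refine ⟨fun b => x (c1 (h b)), ?_⟩
      rw [Finset.mem_filter]
      refine ⟨Finset.mem_univ _, ?_⟩
      funext b
      simp only [Function.comp_apply, Prod.mk.injEq, and_true]
      have := hx (h b)
      simp only [Perm.mul_apply] at this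
      rw [show h⁻¹ (h b) = b from h.symm_apply_apply b] at this
      exact this.symm
    · exact Nat.zero_le _
  refine (Finset.sum_le_sum fun h _ => h1 h).trans ?_
  rw [Finset.sum_comm]
  have h2 : ∀ x : α → Fin z, (∑ h : Perm α, ∑ v : α → Fin z,
        if (fun a => (x a, x (c1 a))) ∘ h = (fun b => (v (c2 b), v b)) then 1 else 0)
      ≤ ∑ v : α → Fin z, if tp (fun a => (x a, x (c1 a))) = tp (fun b => (v (c2 b), v b))
        then ∏ c, ((tp (fun a => (x a, x (c1 a)))).1.count c).factorial else 0 := by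
    intro x
    rw [Finset.sum_comm]
    refine Finset.sum_le_sum fun v _ => ?_
    rw [← Finset.card_filter, ← Fintype.card_subtype]
    exact card_h_le _ _
  refine (Finset.sum_le_sum fun x _ => h2 x).trans (le_of_eq ?_)
  have h3 : ∀ x : α → Fin z, (∑ v : α → Fin z,
      if tp (fun a => (x a, x (c1 a))) = tp (fun b => (v (c2 b), v b))
        then ∏ c, ((tp (fun a => (x a, x (c1 a)))).1.count c).factorial else 0)
      = Fintype.card {v : α → Fin z // tp (fun b => (v (c2 b), v b)) = tp (fun a => (x a, x (c1 a)))}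
        * ∏ c, ((tp (fun a => (x a, x (c1 a)))).1.count c).factorial := by
    intro x
    rw [← Finset.sum_filter, Finset.sum_const, smul_eq_mul, Fintype.card_subtype]
    congr 2
    ext v
    simp only [Finset.mem_filter, Finset.mem_univ, true_and]
    exact eq_comm
  rw [Finset.sum_congr rfl fun x _ => h3 x]
  rw [← Finset.sum_fiberwise (Finset.univ : Finset (α → Fin z)) (fun x => tp (fun a => (x a, x (c1 a))))]
  refine Finset.sum_congr rfl fun s _ => ?_
  rw [Finset.sum_congr rfl (g := fun _ =>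
    Fintype.card {v : α → Fin z // tp (fun b => (v (c2 b), v b)) = s} * ∏ c, (s.1.count c).factorial)]
  · rw [Finset.sum_const, smul_eq_mul]
    simp only [AA, Fintype.card_subtype]
    rw [mul_assoc]
  · intro x hx
    rw [(Finset.mem_filter.mp hx).2]

/-- KEY: average of `z^{#cycles}` -/
theorem cyc_avg (c1 c2 : Perm α) (z : ℕ) (hz : 0 < z) (hm : 0 < Fintype.card α) :
    ∑ h : Perm α, (z : ℝ) ^ ncyc (c1 * h * c2 * h⁻¹)
      ≤ (Nat.multichoose (z * z) (Fintype.card α) : ℝ) * (Fintype.card α : ℝ) ^ (Fintype.card α)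
        * Real.sqrt z ^ (nfix c1 + nfix c2) := by
  classical
  have : Nonempty (Fin z) := ⟨⟨0, hz⟩⟩
  have h0 : ∑ h : Perm α, (z : ℝ) ^ ncyc (c1 * h * c2 * h⁻¹)
      ≤ ∑ s : Sym (Fin z × Fin z) (Fintype.card α),
        (AA (β := Fin z) c1 s : ℝ) *
          (Fintype.card {v : α → Fin z // tp (fun b => (v (c2 b), v b)) = s} : ℝ)
          * ((∏ c, (s.1.count c).factorial : ℕ) : ℝ) := by
    have := sum_h c1 c2 z
    exact_mod_cast this
  refine h0.trans ?_
  have h1 : ∀ s : Sym (Fin z × Fin z) (Fintype.card α),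
      (AA (β := Fin z) c1 s : ℝ) *
          (Fintype.card {v : α → Fin z // tp (fun b => (v (c2 b), v b)) = s} : ℝ)
          * ((∏ c, (s.1.count c).factorial : ℕ) : ℝ)
      ≤ (Fintype.card α : ℝ) ^ (Fintype.card α) * Real.sqrt z ^ (nfix c1 + nfix c2) := by
    intro s
    have hD := DD_pos s hm
    set D := ∏ c, Real.sqrt ((s.1.count c : ℝ) / Fintype.card α) ^ s.1.count c with hDdef
    have e1 := AA_le (β := Fin z) c1 s hm
    have e2 := AA_swap (β := Fin z) c2 s hm
    rw [Fintype.card_fin] at e1 e2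
    have e3 := fact_bound s hm
    rw [← hDdef] at e1 e2 e3
    set A1 : ℝ := (AA (β := Fin z) c1 s : ℝ)
    set A2 : ℝ := (Fintype.card {v : α → Fin z // tp (fun b => (v (c2 b), v b)) = s} : ℝ)
    have hA1 : 0 ≤ A1 := Nat.cast_nonneg _
    have hA2 : 0 ≤ A2 := Nat.cast_nonneg _
    calc A1 * A2 * ((∏ c, (s.1.count c).factorial : ℕ) : ℝ)
        ≤ A1 * A2 * ((Fintype.card α : ℝ) ^ (Fintype.card α) * D ^ 2) :=
          mul_le_mul_of_nonneg_left e3 (mul_nonneg hA1 hA2)
      _ = (Fintype.card α : ℝ) ^ (Fintype.card α) * ((A1 * D) * (A2 * D)) := by ring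
      _ ≤ (Fintype.card α : ℝ) ^ (Fintype.card α) *
          (Real.sqrt z ^ nfix c1 * Real.sqrt z ^ nfix c2) := by
          refine mul_le_mul_of_nonneg_left ?_ (by positivity)
          exact mul_le_mul e1 e2 (mul_nonneg hA2 hD.le) (by positivity)
      _ = _ := by rw [pow_add]
  refine (Finset.sum_le_sum fun s _ => h1 s).trans (le_of_eq ?_)
  rw [Finset.sum_const, nsmul_eq_mul, Finset.card_univ, Sym.card_sym_eq_multichoose,
    Fintype.card_prod, Fintype.card_fin]
  ring


theorem multichoose_le (m z : ℕ) (hz : z * z ≤ m + 1) (hm : 0 < m) :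
    Nat.multichoose (z * z) m ≤ 4 ^ m := by
  rw [Nat.multichoose_eq]
  have h1 : z * z + m - 1 ≤ 2 * m := by omega
  calc (z * z + m - 1).choose m ≤ (2 * m).choose m := Nat.choose_le_choose m h1
    _ ≤ 2 ^ (2 * m) := Nat.choose_le_two_pow _ _
    _ = 4 ^ m := by rw [pow_mul]; norm_num

theorem pow_self_le (m : ℕ) : (m : ℝ) ^ m ≤ Real.exp 1 ^ m * (m.factorial : ℝ) := by
  have h := Real.pow_div_factorial_le_exp (m : ℝ) (Nat.cast_nonneg m) m
  rw [div_le_iff₀ (by positivity)] at h
  rwa [← Real.exp_nat_mul, mul_one]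

/-- KEY, final form -/
theorem cyc_avg' (c1 c2 : Perm α) (z : ℕ) (hz : 0 < z) (hm : 0 < Fintype.card α)
    (hzm : z * z ≤ Fintype.card α + 1) :
    ∑ h : Perm α, (z : ℝ) ^ ncyc (c1 * h * c2 * h⁻¹)
      ≤ (4 * Real.exp 1) ^ (Fintype.card α) * ((Fintype.card α).factorial : ℝ)
        * Real.sqrt z ^ (nfix c1 + nfix c2) := by
  refine (cyc_avg c1 c2 z hz hm).trans ?_
  refine mul_le_mul_of_nonneg_right ?_ (by positivity)
  rw [mul_pow, mul_assoc]
  have h1 : ((Nat.multichoose (z * z) (Fintype.card α) : ℕ) : ℝ) ≤ 4 ^ (Fintype.card α) := by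
    exact_mod_cast multichoose_le _ _ hzm hm
  exact mul_le_mul h1 (pow_self_le _) (by positivity) (by positivity)

end Crest.Agent.T22
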