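import Mathlib

/-! S0222: definitions for the one-round contraction: tuples of disjoint pairs. -/

set_option autoImplicit false

namespace Crest.Agent.T22

open Equiv Finset

variable {α : Type*} [DecidableEq α]

/-- all `2 p` points of the `p` pairs are different -/
def DjK {p : ℕ} (k : Fin p → α × α) : Prop :=
  Function.Injective (Sum.elim (fun i => (k i).1) (fun i => (k i).2) : Fin p ⊕ Fin p → α)

/-- successive averages over the transpositions `(a b)`, `(a, b) = k i` -/
noncomputable def EKf : (p : ℕ) → (Fin p → α × α) → (Equiv.Perm α → ℝ) → (Equiv.Perm α → ℝ)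
  | 0, _, f => f
  | p + 1, k, f => fun g => (EKf p (Fin.init k) f g
      + EKf p (Fin.init k) f (swap (k (Fin.last p)).1 (k (Fin.last p)).2 * g)) / 2

theorem EKf_zero_apply (k : Fin 0 → α × α) (f : Equiv.Perm α → ℝ) : EKf 0 k f = f := by
  unfold EKf
  rfl

theorem EKf_succ_apply (p : ℕ) (k : Fin (p + 1) → α × α) (f : Equiv.Perm α → ℝ) :
    EKf (p + 1) k f = fun g => (EKf p (Fin.init k) f g
      + EKf p (Fin.init k) f (swap (k (Fin.last p)).1 (k (Fin.last p)).2 * g)) / 2 := by
  rw [EKf]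

/-- the set of the points of a tuple of pairs -/
def usedPts {p : ℕ} (k : Fin p → α × α) : Finset α :=
  univ.image (Sum.elim (fun i => (k i).1) (fun i => (k i).2) : Fin p ⊕ Fin p → α)

theorem card_usedPts {p : ℕ} (k : Fin p → α × α) (h : DjK k) : (usedPts k).card = 2 * p := by
  unfold usedPts
  rw [Finset.card_image_of_injective _ h]
  simp
  ring

theorem mem_usedPts {p : ℕ} (k : Fin p → α × α) (a : α) :
    a ∈ usedPts k ↔ (∃ i, (k i).1 = a) ∨ (∃ i, (k i).2 = a) := by
  unfold usedPts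
  simp

theorem DjK_snoc {p : ℕ} (k : Fin p → α × α) (c : α × α) :
    DjK (Fin.snoc k c : Fin (p + 1) → α × α) ↔
      DjK k ∧ (c.1 ∉ usedPts k ∧ c.2 ∉ usedPts k ∧ c.1 ≠ c.2) := by
  unfold DjK
  rw [Sum.elim_injective, Sum.elim_injective]
  have e1 : (fun i => ((Fin.snoc k c : Fin (p + 1) → α × α) i).1)
      = Fin.snoc (fun i => (k i).1) c.1 := by
    have := Fin.comp_snoc (Prod.fst : α × α → α) k c
    exact this
  have e2 : (fun i => ((Fin.snoc k c : Fin (p + 1) → α × α) i).2)
      = Fin.snoc (fun i => (k i).2) c.2 := by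
    have := Fin.comp_snoc (Prod.snd : α × α → α) k c
    exact this
  have e1' : ∀ i, ((Fin.snoc k c : Fin (p + 1) → α × α) i).1
      = (Fin.snoc (fun i => (k i).1) c.1 : Fin (p + 1) → α) i := fun i => congrFun e1 i
  have e2' : ∀ i, ((Fin.snoc k c : Fin (p + 1) → α × α) i).2
      = (Fin.snoc (fun i => (k i).2) c.2 : Fin (p + 1) → α) i := fun i => congrFun e2 i
  rw [e1, e2, Fin.snoc_injective_iff, Fin.snoc_injective_iff]
  simp only [mem_usedPts, Set.mem_range, not_or, not_exists, e1', e2']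
  constructor
  · rintro ⟨⟨h1, h2⟩, ⟨h3, h4⟩, h5⟩
    refine ⟨⟨h1, h3, ?_⟩, ⟨h2, ?_⟩, ⟨?_, h4⟩, ?_⟩
    · intro a b
      have := h5 a.castSucc b.castSucc
      simpa using this
    · intro i hi
      have := h5 (Fin.last p) i.castSucc
      simp at this
      exact this hi.symm
    · intro i hi
      have := h5 i.castSucc (Fin.last p)
      simp at this
      exact this hi
    · have := h5 (Fin.last p) (Fin.last p)
      simpa using this
  · rintro ⟨⟨h1, h3, h5⟩, ⟨h2, h6⟩, ⟨h7, h4⟩, h8⟩
    refine ⟨⟨h1, h2⟩, ⟨h3, h4⟩, ?_⟩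
    intro a b
    refine Fin.lastCases ?_ (fun a => ?_) a
    · refine Fin.lastCases ?_ (fun b => ?_) b
      · simpa using h8
      · simp only [Fin.snoc_last, Fin.snoc_castSucc]
        exact fun h => h6 b h.symm
    · refine Fin.lastCases ?_ (fun b => ?_) b
      · simp only [Fin.snoc_last, Fin.snoc_castSucc]
        exact h7 a
      · simp only [Fin.snoc_castSucc]
        exact h5 a b

open Classical in
/-- the finset of tuples of `p` disjoint pairs -/
noncomputable def djSet (α : Type*) [DecidableEq α] [Fintype α] (p : ℕ) : Finset (Fin p → α × α) :=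
  univ.filter (fun k => DjK k)

theorem mem_djSet [Fintype α] {p : ℕ} (k : Fin p → α × α) : k ∈ djSet α p ↔ DjK k := by
  classical
  unfold djSet
  simp

/-- summation over tuples of `p + 1` disjoint pairs -/
theorem sum_djSet_succ [Fintype α] {p : ℕ} (F : (Fin (p + 1) → α × α) → ℝ) :
    ∑ k ∈ djSet α (p + 1), F k
      = ∑ k ∈ djSet α p, ∑ c ∈ (usedPts k)ᶜ.offDiag, F (Fin.snoc k c) := by
  classical
  rw [Finset.sum_sigma' (djSet α p) (fun k => (usedPts k)ᶜ.offDiag)
    (fun k c => F (Fin.snoc k c))]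
  symm
  apply Finset.sum_bij' (fun (x : (_ : Fin p → α × α) × (α × α)) _ =>
      (Fin.snoc x.1 x.2 : Fin (p + 1) → α × α))
    (fun k _ => (⟨Fin.init k, k (Fin.last p)⟩ : (_ : Fin p → α × α) × (α × α)))
  · intro x hx
    rw [Finset.mem_sigma, mem_djSet, Finset.mem_offDiag, Finset.mem_compl, Finset.mem_compl] at hx
    rw [mem_djSet, DjK_snoc]
    exact ⟨hx.1, hx.2.1, hx.2.2.1, hx.2.2.2⟩
  · intro k hk
    rw [mem_djSet] at hk
    rw [← Fin.snoc_init_self k, DjK_snoc] at hk
    rw [Finset.mem_sigma, mem_djSet, Finset.mem_offDiag, Finset.mem_compl, Finset.mem_compl]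
    exact ⟨hk.1, hk.2.1, hk.2.2.1, hk.2.2.2⟩
  · intro x _
    simp
  · intro k _
    simp
  · intro x _
    rfl

theorem card_offDiag_compl [Fintype α] {p : ℕ} (k : Fin p → α × α) (hk : DjK k) :
    (((usedPts k)ᶜ.offDiag).card : ℝ)
      = ((Fintype.card α : ℝ) - 2 * p) * ((Fintype.card α : ℝ) - 2 * p - 1) := by
  have h1 : (usedPts k).card ≤ Fintype.card α := Finset.card_le_univ _
  have h2 := card_usedPts k hk
  rw [Finset.offDiag_card, Finset.card_compl, h2]
  rw [h2] at h1
  have h3 : Fintype.card α - 2 * p ≤ (Fintype.card α - 2 * p) * (Fintype.card α - 2 * p) :=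
    Nat.le_mul_self _
  rw [Nat.cast_sub h3, Nat.cast_mul, Nat.cast_sub h1]
  push_cast
  ring

end Crest.Agent.T22
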