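import Mathlib

/-! Convolution of functions on a finite group, laws of uniformly random products. -/

set_option autoImplicit false
set_option linter.unusedSectionVars false

namespace Crest.Agent.ThS

open Finset

variable {G : Type*} [Group G] [Fintype G] [DecidableEq G]

/-- convolution -/
noncomputable def cv (p q : G → ℝ) : G → ℝ := fun g => ∑ h, p h * q (h⁻¹ * g)

/-- point mass -/
noncomputable def dlt (a : G) : G → ℝ := fun g => if g = a then 1 else 0

/-- the law of `f c` for `c` uniformly random in the finite type `C` -/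
noncomputable def lawOf {C : Type*} [Fintype C] (f : C → G) : G → ℝ := fun g =>
  ((Finset.univ.filter (fun c => f c = g)).card : ℝ) / (Fintype.card C : ℝ)

/-- uniform law on a finite set -/
noncomputable def unif (S : Finset G) : G → ℝ := fun g => if g ∈ S then 1 / (S.card : ℝ) else 0

theorem cv_assoc (p q r : G → ℝ) : cv (cv p q) r = cv p (cv q r) := by
  funext g
  unfold cv
  calc ∑ h, (∑ k, p k * q (k⁻¹ * h)) * r (h⁻¹ * g)
      = ∑ h, ∑ k, p k * q (k⁻¹ * h) * r (h⁻¹ * g) := by
        simp_rw [Finset.sum_mul]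
    _ = ∑ k, ∑ h, p k * q (k⁻¹ * h) * r (h⁻¹ * g) := Finset.sum_comm
    _ = ∑ k, ∑ h, p k * q h * r ((k * h)⁻¹ * g) := by
        apply Finset.sum_congr rfl
        intro k _
        rw [← Equiv.sum_comp (Equiv.mulLeft k)]
        simp
    _ = ∑ k, p k * ∑ h, q h * r (h⁻¹ * (k⁻¹ * g)) := by
        apply Finset.sum_congr rfl
        intro k _
        rw [Finset.mul_sum]
        apply Finset.sum_congr rfl
        intro h _
        rw [mul_assoc, mul_inv_rev, mul_assoc]

theorem dlt_one_cv (p : G → ℝ) : cv (dlt 1) p = p := by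
  funext g
  unfold cv dlt
  simp

theorem cv_dlt_one (p : G → ℝ) : cv p (dlt 1) = p := by
  funext g
  unfold cv dlt
  have : ∀ h : G, p h * (if h⁻¹ * g = 1 then (1 : ℝ) else 0) = if h = g then p h else 0 := by
    intro h
    by_cases hh : h = g
    · simp [hh]
    · have : ¬ h⁻¹ * g = 1 := fun h1 => hh (by
        have := mul_eq_one_iff_eq_inv.mp h1
        exact inv_injective this)
      simp [hh, this]
  simp_rw [this]
  simp

theorem cv_nonneg {p q : G → ℝ} (hp : ∀ g, 0 ≤ p g) (hq : ∀ g, 0 ≤ q g) (g : G) : 0 ≤ cv p q g :=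
  Finset.sum_nonneg (fun _ _ => mul_nonneg (hp _) (hq _))

theorem sum_cv (p q : G → ℝ) : ∑ g, cv p q g = (∑ g, p g) * (∑ g, q g) := by
  unfold cv
  rw [Finset.sum_comm, Finset.sum_mul]
  apply Finset.sum_congr rfl
  intro h _
  rw [← Finset.mul_sum]
  congr 1
  exact Equiv.sum_comp (Equiv.mulLeft h⁻¹) q

/-- convolution powers -/
noncomputable def cvPow (p : G → ℝ) : ℕ → (G → ℝ)
  | 0 => dlt 1
  | n + 1 => cv p (cvPow p n)

@[simp] theorem cvPow_zero (p : G → ℝ) : cvPow p 0 = dlt 1 := rfl
theorem cvPow_succ (p : G → ℝ) (n : ℕ) : cvPow p (n + 1) = cv p (cvPow p n) := rfl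
theorem cvPow_one (p : G → ℝ) : cvPow p 1 = p := by rw [cvPow_succ, cvPow_zero, cv_dlt_one]

theorem cvPow_add (p : G → ℝ) (a b : ℕ) : cvPow p (a + b) = cv (cvPow p a) (cvPow p b) := by
  induction a with
  | zero => rw [Nat.zero_add, cvPow_zero, dlt_one_cv]
  | succ a ih => rw [Nat.succ_add, cvPow_succ, ih, cvPow_succ, cv_assoc]

theorem cvPow_mul (p : G → ℝ) (a b : ℕ) : cvPow p (a * b) = cvPow (cvPow p a) b := by
  induction b with
  | zero => rfl
  | succ b ih => rw [Nat.mul_succ, Nat.add_comm, cvPow_add, ih, cvPow_succ]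

/-- convolution of a list of laws, the first one being applied last -/
noncomputable def cvList : List (G → ℝ) → (G → ℝ)
  | [] => dlt 1
  | p :: L => cv p (cvList L)

@[simp] theorem cvList_nil : cvList ([] : List (G → ℝ)) = dlt 1 := rfl
theorem cvList_cons (p : G → ℝ) (L : List (G → ℝ)) : cvList (p :: L) = cv p (cvList L) := rfl

theorem cvList_append (L M : List (G → ℝ)) : cvList (L ++ M) = cv (cvList L) (cvList M) := by
  induction L with
  | nil => rw [List.nil_append, cvList_nil, dlt_one_cv]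
  | cons p L ih => rw [List.cons_append, cvList_cons, ih, cvList_cons, cv_assoc]

/-- integration against `lawOf` -/
theorem sum_lawOf {C : Type*} [Fintype C] (f : C → G) (F : G → ℝ) :
    ∑ g, lawOf f g * F g = (∑ c, F (f c)) / (Fintype.card C : ℝ) := by
  unfold lawOf
  simp_rw [div_mul_eq_mul_div]
  rw [← Finset.sum_div]
  congr 1
  rw [← Finset.sum_fiberwise (s := (Finset.univ : Finset C)) (g := f) (f := fun c => F (f c))]
  apply Finset.sum_congr rfl
  intro g _
  rw [Finset.sum_congr rfl (g := fun _ => F g)]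
  · rw [Finset.sum_const, nsmul_eq_mul]
  · intro c hc
    rw [(Finset.mem_filter.mp hc).2]

theorem lawOf_eq_sum {C : Type*} [Fintype C] (f : C → G) (g : G) :
    lawOf f g = (∑ c, dlt g (f c)) / (Fintype.card C : ℝ) := by
  rw [← sum_lawOf f (dlt g)]
  unfold dlt
  simp

/-- the law of a product of two independent uniformly random factors -/
theorem lawOf_mul {C D E : Type*} [Fintype C] [Fintype D] [Fintype E] (f : C → G) (h : D → G)
    (k : E → G) (e : C × D ≃ E) (hk : ∀ c d, k (e (c, d)) = f c * h d) :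
    lawOf k = cv (lawOf f) (lawOf h) := by
  funext g
  have h1 : cv (lawOf f) (lawOf h) g
      = (∑ c, lawOf h ((f c)⁻¹ * g)) / (Fintype.card C : ℝ) := by
    unfold cv
    exact sum_lawOf f (fun a => lawOf h (a⁻¹ * g))
  rw [h1, lawOf_eq_sum]
  simp_rw [lawOf_eq_sum h]
  rw [← Finset.sum_div, div_div]
  congr 1
  · rw [← Equiv.sum_comp e, Fintype.sum_prod_type]
    apply Finset.sum_congr rfl
    intro c _
    apply Finset.sum_congr rfl
    intro d _
    rw [hk]
    unfold dlt
    have : (f c * h d = g) ↔ (h d = (f c)⁻¹ * g) := by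
      constructor
      · intro h'; rw [← h']; group
      · intro h'; rw [h']; group
    simp [this]
  · rw [← Fintype.card_congr e, Fintype.card_prod]
    push_cast; ring

/-- transport of a function along a group isomorphism -/
theorem cv_comp_equiv {G' : Type*} [Group G'] [Fintype G'] [DecidableEq G'] (φ : G ≃* G')
    (p q : G' → ℝ) : (fun g => cv p q (φ g)) = cv (fun g => p (φ g)) (fun g => q (φ g)) := by
  funext g
  unfold cv
  rw [← Equiv.sum_comp φ.toEquiv]
  apply Finset.sum_congr rfl
  intro h _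
  simp

theorem dlt_comp_equiv {G' : Type*} [Group G'] [Fintype G'] [DecidableEq G'] (φ : G ≃* G') :
    (fun g => (dlt (1 : G')) (φ g)) = dlt (1 : G) := by
  funext g
  unfold dlt
  simp

theorem cvPow_comp_equiv {G' : Type*} [Group G'] [Fintype G'] [DecidableEq G'] (φ : G ≃* G')
    (p : G' → ℝ) (n : ℕ) : (fun g => cvPow p n (φ g)) = cvPow (fun g => p (φ g)) n := by
  induction n with
  | zero => exact dlt_comp_equiv φ
  | succ n ih => rw [cvPow_succ, cvPow_succ, ← ih, ← cv_comp_equiv]

/-- translating by group elements and conjugating -/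
theorem dlt_cv (a : G) (p : G → ℝ) (g : G) : cv (dlt a) p g = p (a⁻¹ * g) := by
  unfold cv dlt
  simp

theorem cv_dlt (a : G) (p : G → ℝ) (g : G) : cv p (dlt a) g = p (g * a⁻¹) := by
  unfold cv dlt
  have : ∀ h : G, p h * (if h⁻¹ * g = a then (1 : ℝ) else 0) = if h = g * a⁻¹ then p h else 0 := by
    intro h
    have : (h⁻¹ * g = a) ↔ (h = g * a⁻¹) := by
      constructor
      · intro h'; rw [← h']; group
      · intro h'; rw [h']; group
    simp only [this]
    split_ifs <;> simp
  simp_rw [this]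
  simp

theorem dlt_cv_dlt (a b : G) : cv (dlt a) (dlt b) = dlt (a * b) := by
  funext g
  rw [dlt_cv]
  unfold dlt
  have : (a⁻¹ * g = b) ↔ (g = a * b) := by
    constructor
    · intro h'; rw [← h']; group
    · intro h'; rw [h']; group
  simp only [this]

/-- Cauchy-Schwarz: total variation bounded by the L2 distance -/
theorem tv_le_sqrt (p : G → ℝ) (hp : ∑ g, p g = 1) :
    (1 / 2) * ∑ g, |p g - 1 / (Fintype.card G : ℝ)|
      ≤ (1 / 2) * Real.sqrt ((Fintype.card G : ℝ) * (∑ g, p g ^ 2) - 1) := by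
  have hN : (0 : ℝ) < Fintype.card G := by exact_mod_cast Fintype.card_pos
  have h1 : (∑ g, |p g - 1 / (Fintype.card G : ℝ)|) ^ 2
      ≤ (Fintype.card G : ℝ) * (∑ g, (p g - 1 / (Fintype.card G : ℝ)) ^ 2) := by
    have h2 := Finset.sum_mul_sq_le_sq_mul_sq (Finset.univ : Finset G)
      (fun _ => (1 : ℝ)) (fun g => |p g - 1 / (Fintype.card G : ℝ)|)
    simpa [sq_abs] using h2
  have h3 : (Fintype.card G : ℝ) * (∑ g, (p g - 1 / (Fintype.card G : ℝ)) ^ 2)
      = (Fintype.card G : ℝ) * (∑ g, p g ^ 2) - 1 := by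
    have : ∑ g, (p g - 1 / (Fintype.card G : ℝ)) ^ 2
        = ∑ g, p g ^ 2 - 2 * (1 / (Fintype.card G : ℝ)) * ∑ g, p g
          + ∑ _g : G, (1 / (Fintype.card G : ℝ)) ^ 2 := by
      rw [Finset.mul_sum, ← Finset.sum_sub_distrib, ← Finset.sum_add_distrib]
      apply Finset.sum_congr rfl
      intro g _
      ring
    rw [this, hp, Finset.sum_const, nsmul_eq_mul, Finset.card_univ]
    field_simp
    ring
  rw [h3] at h1
  have h4 : ∑ g, |p g - 1 / (Fintype.card G : ℝ)|
      ≤ Real.sqrt ((Fintype.card G : ℝ) * (∑ g, p g ^ 2) - 1) :=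
    Real.le_sqrt_of_sq_le h1
  linarith

end Crest.Agent.ThS
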