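import Mathlib
import Crest.Agent.ThConv
import Crest.Agent.T22Avg
import Crest.Agent.T22HDef

/-! Common definitions for the random walk theorem on `Perm (Fin m)` (S0222). -/

set_option autoImplicit false
set_option linter.unusedSectionVars false

namespace Crest.Agent.T22

open Finset Crest.Agent.ThS

/-- hypotheses of the random walk theorem: `ζ` is a nonnegative, symmetric, positive semidefinite
class function of mass at most one with (F) and (K) -/
structure RWHyp (m : ℕ) (ζ : Equiv.Perm (Fin m) → ℝ) : Prop where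
  nonneg : ∀ g, 0 ≤ ζ g
  cls : ∀ g k, ζ (k * g * k⁻¹) = ζ g
  symm : ∀ g, ζ g⁻¹ = ζ g
  psd : ∀ f : Equiv.Perm (Fin m) → ℝ, 0 ≤ ∑ g, f g * cv ζ f g
  sum_le : ∑ g, ζ g ≤ 1
  F : ∀ x : ℝ, 0 ≤ x →
    ∑ g, ζ g * (1 + x) ^ (nfix g) ≤ Real.exp (x * (m : ℝ) ^ (-(0.27 : ℝ)) * m)
  K : ∀ f : Equiv.Perm (Fin m) → ℝ, ((djSet (Fin m) (m / 4)).card : ℝ)
        * (∑ g, f g * cv ζ f g)
      ≤ ∑ k ∈ djSet (Fin m) (m / 4), ∑ g, EKf (m / 4) k f g ^ 2

end Crest.Agent.T22
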