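import Crest.Agent.T22Avg

/-! S0222 tools: conjugation invariant laws, L2 norm via centralisers. -/

set_option autoImplicit false
set_option linter.unusedSectionVars false
namespace Crest.Agent.T22

open Equiv Equiv.Perm Finset

variable {α : Type*} [Fintype α] [DecidableEq α]

theorem ncyc_conj (g h : Perm α) : ncyc (h * g * h⁻¹) = ncyc g := by
  unfold ncyc
  rw [cycleType_conj]

theorem ncyc_mul_comm (g h : Perm α) : ncyc (g * h) = ncyc (h * g) := by
  have h1 : g * h = g * (h * g) * g⁻¹ := by group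
  rw [h1, ncyc_conj]

theorem nfix_conj (g h : Perm α) : nfix (h * g * h⁻¹) = nfix g := by
  unfold nfix
  refine Fintype.card_congr (Equiv.subtypeEquiv h⁻¹ fun a => ?_)
  simp only [Perm.mul_apply]
  exact ⟨fun ha => h.injective (by rw [ha]; exact (h.apply_symm_apply a).symm), fun ha => by
    rw [ha]; exact h.apply_symm_apply a⟩

/-- size of the centraliser, as a real -/
noncomputable def zc (g : Perm α) : ℝ := (Nat.card (Subgroup.centralizer {g}) : ℝ)

theorem zc_pos (g : Perm α) : 0 < zc g := by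
  unfold zc
  exact_mod_cast Nat.card_pos

theorem zc_conj {g g' : Perm α} (h : IsConj g g') : zc g = zc g' := by
  unfold zc
  rw [nat_card_centralizer, nat_card_centralizer, (isConj_iff_cycleType_eq.mp h)]

theorem card_class_mul (g : Perm α) :
    ((Finset.univ.filter fun g' => IsConj g g').card : ℝ) * zc g = (Fintype.card α).factorial := by
  classical
  have h := card_isConj_mul_eq g
  rw [← nat_card_centralizer g] at h
  have h2 : Nat.card {h : Perm α | IsConj g h} = (Finset.univ.filter fun g' => IsConj g g').card := by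
    rw [Nat.card_eq_fintype_card, Fintype.card_subtype]
    congr 1
  rw [h2] at h
  unfold zc
  exact_mod_cast h

/-- L2 norm of a conjugation invariant law -/
theorem conj_l2 (μ : Perm α → ℝ) (h0 : ∀ g, 0 ≤ μ g) (hc : ∀ g h, μ (h * g * h⁻¹) = μ g) :
    ((Fintype.card α).factorial : ℝ) * ∑ g, μ g ^ 2 ≤ (∑ g, μ g * Real.sqrt (zc g)) ^ 2 := by
  classical
  have hcl : ∀ g g', IsConj g g' → μ g' = μ g := by
    intro g g' h
    obtain ⟨c, hcc⟩ := isConj_iff.mp h
    rw [← hcc, hc]
  have h1 : ∀ g, ((Fintype.card α).factorial : ℝ) * μ g ^ 2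
      = μ g * zc g * ∑ g' ∈ Finset.univ.filter (fun g' => IsConj g g'), μ g' := by
    intro g
    rw [Finset.sum_congr rfl (g := fun _ => μ g) (fun g' hg' => hcl g g' (Finset.mem_filter.mp hg').2),
      Finset.sum_const, nsmul_eq_mul, ← card_class_mul g]
    ring
  rw [Finset.mul_sum, Finset.sum_congr rfl (fun g _ => h1 g), sq, Finset.sum_mul_sum]
  refine Finset.sum_le_sum fun g _ => ?_
  rw [Finset.mul_sum, Finset.sum_filter]
  refine Finset.sum_le_sum fun g' _ => ?_
  split_ifs with h
  · rw [← zc_conj h]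
    have e : Real.sqrt (zc g) * Real.sqrt (zc g) = zc g := Real.mul_self_sqrt (zc_pos g).le
    have : μ g * Real.sqrt (zc g) * (μ g' * Real.sqrt (zc g)) = μ g * μ g' * (Real.sqrt (zc g) * Real.sqrt (zc g)) := by
      ring
    rw [this, e]
    exact le_of_eq (by ring)
  · exact mul_nonneg (mul_nonneg (h0 g) (Real.sqrt_nonneg _)) (mul_nonneg (h0 g') (Real.sqrt_nonneg _))

/-- `√|Cent g| ≤ z^{ncyc g}` as soon as `m ≤ z²` -/
theorem sqrt_zc_le (g : Perm α) (z : ℕ) (hz : Fintype.card α ≤ z * z) :
    Real.sqrt (zc g) ≤ (z : ℝ) ^ ncyc g := by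
  have h1 : zc g ≤ ((z : ℝ) ^ ncyc g) ^ 2 := by
    have h2 := card_centralizer_le g
    have h3 : (Fintype.card α) ^ ncyc g ≤ (z * z) ^ ncyc g := Nat.pow_le_pow_left hz _
    have h4 : Nat.card (Subgroup.centralizer {g}) ≤ (z * z) ^ ncyc g := h2.trans h3
    unfold zc
    have h5 : ((Nat.card (Subgroup.centralizer {g}) : ℕ) : ℝ) ≤ (((z * z) ^ ncyc g : ℕ) : ℝ) := by
      exact_mod_cast h4
    refine h5.trans (le_of_eq ?_)
    push_cast
    ring
  exact (Real.sqrt_le_sqrt h1).trans (le_of_eq (Real.sqrt_sq (by positivity)))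

end Crest.Agent.T22
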