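import Mathlib
import Crest.Agent.T22Conj

/-! S0222: intertwiners of partial permutations (level version of the centraliser bound). -/

set_option autoImplicit false
set_option linter.unusedSectionVars false

namespace Crest.Agent.T22

open Equiv Equiv.Perm Finset

variable {α : Type*} [Fintype α] [DecidableEq α]

open Classical in
/-- number of cycles of `g` (fixed points included) contained in `X` -/
noncomputable def cin (g : Perm α) (X : Finset α) : ℕ :=
  Fintype.card {t : {a // g a = a} ⊕ g.cycleFactorsFinset // ∀ a, cls g a = t → a ∈ X}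

open Classical in
/-- permutations preserving `X` and commuting with `g` on `X` -/
noncomputable def Sst (g : Perm α) (X : Finset α) : Finset (Perm α) :=
  univ.filter (fun k : Perm α => X.map k.toEmbedding = X ∧ ∀ x ∈ X, k (g x) = g (k x))

theorem mem_Sst (g : Perm α) (X : Finset α) (k : Perm α) :
    k ∈ Sst g X ↔ (X.map k.toEmbedding = X ∧ ∀ x ∈ X, k (g x) = g (k x)) := by
  classical
  unfold Sst; simp

theorem Sst_maps {g : Perm α} {X : Finset α} {k : Perm α} (hk : k ∈ Sst g X) {x : α}
    (hx : x ∈ X) : k x ∈ X := by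
  have h := ((mem_Sst g X k).mp hk).1
  rw [← h]
  exact Finset.mem_map_of_mem _ hx

/-- permutations fixing `W` pointwise -/
theorem card_fixers (W : Finset α) :
    (univ.filter (fun σ : Perm α => ∀ w ∈ W, σ w = w)).card
      = (Fintype.card α - W.card).factorial := by
  classical
  have e := Equiv.Perm.subtypeEquivSubtypePerm (fun a : α => a ∉ W)
  have h1 := Fintype.card_congr e
  rw [Fintype.card_perm] at h1
  have h2 : Fintype.card {a // a ∉ W} = Fintype.card α - W.card := by
    rw [Fintype.card_subtype_compl]
    simp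
  rw [h2] at h1
  rw [h1, Fintype.card_subtype]
  congr 1
  ext σ
  simp

/-- index set of the free choices -/
def Tix (g : Perm α) (X : Finset α) : Type _ :=
  {t : {a // g a = a} ⊕ g.cycleFactorsFinset // ∀ a, cls g a = t → a ∈ X} ⊕
    {x : α // x ∈ X ∧ g⁻¹ x ∉ X}

open Classical in
noncomputable instance (g : Perm α) (X : Finset α) : Fintype (Tix g X) := by
  unfold Tix; infer_instance

noncomputable instance (g : Perm α) (X : Finset α) : DecidableEq (Tix g X) := Classical.decEq _

/-- the chosen point of an index -/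
noncomputable def pt (g : Perm α) (X : Finset α) : Tix g X → α :=
  Sum.elim (fun t => Function.surjInv (cls_surj g) t.1) (fun x => x.1)

theorem pt_mem (g : Perm α) (X : Finset α) (t : Tix g X) : pt g X t ∈ X := by
  rcases t with t | x
  · exact t.2 _ (Function.surjInv_eq (cls_surj g) t.1)
  · exact x.2.1

theorem card_Tix (g : Perm α) (X : Finset α) :
    Fintype.card (Tix g X) = cin g X + (X.map g.toEmbedding \ X).card := by
  classical
  have h1 : Fintype.card (Tix g X) = cin g X + Fintype.card {x : α // x ∈ X ∧ g⁻¹ x ∉ X} := by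
    unfold cin Tix
    rw [Fintype.card_sum]
  rw [h1]
  congr 1
  have h2 : (X.map g.toEmbedding \ X).card = (X \ X.map g.toEmbedding).card := by
    have := Finset.card_sdiff_add_card (X.map g.toEmbedding) X
    have h' := Finset.card_sdiff_add_card X (X.map g.toEmbedding)
    rw [Finset.card_map] at h'
    rw [Finset.union_comm] at h'
    omega
  rw [h2, Fintype.card_subtype]
  congr 1
  ext x
  simp only [Finset.mem_filter, Finset.mem_univ, true_and, Finset.mem_sdiff, Finset.mem_map_equiv]
  rfl

/-- elements of `Sst` are determined on `X` by their values at the chosen points -/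
theorem Sst_determined (g : Perm α) (X : Finset α) (k k' : Perm α) (hk : k ∈ Sst g X)
    (hk' : k' ∈ Sst g X) (h : ∀ t, k (pt g X t) = k' (pt g X t)) : ∀ x ∈ X, k x = k' x := by
  intro x hx
  by_contra hne
  have hit : ∀ n : ℕ, ((g⁻¹) ^ n) x ∈ X ∧ k (((g⁻¹) ^ n) x) ≠ k' (((g⁻¹) ^ n) x) := by
    intro n
    induction n with
    | zero => exact ⟨hx, hne⟩
    | succ n ih =>
      set z := ((g⁻¹) ^ n) x with hz
      have hz' : ((g⁻¹) ^ (n + 1)) x = g⁻¹ z := by
        rw [pow_succ', Perm.mul_apply]
      rw [hz']
      have hzX : g⁻¹ z ∈ X := by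
        by_contra hc
        exact ih.2 (h (Sum.inr ⟨z, ih.1, hc⟩))
      refine ⟨hzX, ?_⟩
      intro he
      apply ih.2
      have h1 := ((mem_Sst g X k).mp hk).2 _ hzX
      have h2 := ((mem_Sst g X k').mp hk').2 _ hzX
      have h3 : g (g⁻¹ z) = z := g.apply_symm_apply z
      rw [h3] at h1 h2
      rw [h1, h2, he]
  have hall : ∀ a, cls g a = cls g x → a ∈ X ∧ k a ≠ k' a := by
    intro a ha
    have hsc : SameCycle g⁻¹ x a := sameCycle_inv.mpr ((cls_eq_iff g a x).mp ha).symm
    obtain ⟨n, hn⟩ := hsc.exists_nat_pow_eq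
    rw [← hn]
    exact hit n
  have ht := h (Sum.inl ⟨cls g x, fun a ha => (hall a ha).1⟩)
  exact (hall _ (Function.surjInv_eq (cls_surj g) (cls g x))).2 ht

theorem card_Sst_le (g : Perm α) (X : Finset α) :
    (Sst g X).card ≤ X.card ^ (cin g X + (X.map g.toEmbedding \ X).card)
      * (Fintype.card α - (X.card + (X.map g.toEmbedding \ X).card)).factorial := by
  classical
  set r := (X.map g.toEmbedding \ X).card with hr
  let Φ : Perm α → (Tix g X → α) := fun k t => k (pt g X t)
  have hW : (X ∪ X.map g.toEmbedding).card = X.card + r := by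
    have := Finset.card_sdiff_add_card (X.map g.toEmbedding) X
    rw [Finset.union_comm]
    omega
  have hfib : ∀ φ ∈ (Sst g X).image Φ, ((Sst g X).filter (fun k => Φ k = φ)).card
      ≤ (Fintype.card α - (X.card + r)).factorial := by
    intro φ hφ
    rw [Finset.mem_image] at hφ
    obtain ⟨k0, hk0, rfl⟩ := hφ
    rw [← hW, ← card_fixers]
    apply Finset.card_le_card_of_injOn (fun k => k0⁻¹ * k)
    · intro k hk
      simp only [Finset.coe_filter, Set.mem_ofPred_eq] at hk
      have hdet := Sst_determined g X k k0 hk.1 hk0 (fun t => congrFun hk.2 t)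
      simp only [Finset.coe_filter, Finset.mem_univ, true_and, Set.mem_ofPred_eq]
      intro w hw
      have hkw : k w = k0 w := by
        rw [Finset.mem_union] at hw
        rcases hw with hw | hw
        · exact hdet w hw
        · rw [Finset.mem_map] at hw
          obtain ⟨x, hx, rfl⟩ := hw
          have h1 := ((mem_Sst g X k).mp hk.1).2 x hx
          have h2 := ((mem_Sst g X k0).mp hk0).2 x hx
          show k (g x) = k0 (g x)
          rw [h1, h2, hdet x hx]
      rw [Perm.mul_apply, hkw]
      exact k0.symm_apply_apply w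
    · intro k _ k' _ h
      exact mul_left_cancel h
  have h1 := Finset.card_le_mul_card_image (f := Φ) (Sst g X) _ hfib
  have h2 : ((Sst g X).image Φ).card ≤ X.card ^ (cin g X + r) := by
    have h3 : (Sst g X).image Φ ⊆ Fintype.piFinset (fun _ : Tix g X => X) := by
      intro φ hφ
      rw [Finset.mem_image] at hφ
      obtain ⟨k, hk, rfl⟩ := hφ
      rw [Fintype.mem_piFinset]
      intro t
      exact Sst_maps hk (pt_mem g X t)
    have h4 := Finset.card_le_card h3
    rw [Fintype.card_piFinset, Finset.prod_const, Finset.card_univ, card_Tix] at h4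
    exact h4
  calc (Sst g X).card ≤ (Fintype.card α - (X.card + r)).factorial * ((Sst g X).image Φ).card := h1
    _ ≤ (Fintype.card α - (X.card + r)).factorial * X.card ^ (cin g X + r) :=
        Nat.mul_le_mul_left _ h2
    _ = _ := mul_comm _ _

theorem card_Sst_le' (g : Perm α) (X : Finset α) :
    ((Sst g X).card : ℝ) ≤ (X.card : ℝ) ^ (cin g X) * Real.exp X.card
      * ((Fintype.card α - X.card).factorial : ℝ) := by
  set r := (X.map g.toEmbedding \ X).card with hr
  have h1 : ((Sst g X).card : ℝ) ≤ (X.card : ℝ) ^ (cin g X + r)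
      * ((Fintype.card α - (X.card + r)).factorial : ℝ) := by
    exact_mod_cast card_Sst_le g X
  have hrm : r + X.card ≤ Fintype.card α := by
    have h := Finset.card_sdiff_add_card (X.map g.toEmbedding) X
    have h' : (X.map g.toEmbedding ∪ X).card ≤ Fintype.card α := Finset.card_le_univ _
    omega
  have h2 : (X.card : ℝ) ^ r ≤ Real.exp X.card * (r.factorial : ℝ) := by
    have h := Real.pow_div_factorial_le_exp (X.card : ℝ) (by positivity) r
    rwa [div_le_iff₀ (by positivity)] at h
  have h3 : (r.factorial : ℝ) * ((Fintype.card α - (X.card + r)).factorial : ℝ)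
      ≤ ((Fintype.card α - X.card).factorial : ℝ) := by
    have h := Nat.factorial_mul_factorial_dvd_factorial (n := Fintype.card α - X.card) (k := r)
      (by omega)
    have h' := Nat.le_of_dvd (Nat.factorial_pos _) h
    have e : Fintype.card α - X.card - r = Fintype.card α - (X.card + r) := by omega
    rw [e] at h'
    exact_mod_cast h'
  calc ((Sst g X).card : ℝ) ≤ (X.card : ℝ) ^ (cin g X + r)
      * ((Fintype.card α - (X.card + r)).factorial : ℝ) := h1
    _ = (X.card : ℝ) ^ (cin g X) * ((X.card : ℝ) ^ r
        * ((Fintype.card α - (X.card + r)).factorial : ℝ)) := by rw [pow_add]; ring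
    _ ≤ (X.card : ℝ) ^ (cin g X) * ((Real.exp X.card * (r.factorial : ℝ))
        * ((Fintype.card α - (X.card + r)).factorial : ℝ)) := by gcongr
    _ = (X.card : ℝ) ^ (cin g X) * (Real.exp X.card * ((r.factorial : ℝ)
        * ((Fintype.card α - (X.card + r)).factorial : ℝ))) := by ring
    _ ≤ (X.card : ℝ) ^ (cin g X) * (Real.exp X.card
        * ((Fintype.card α - X.card).factorial : ℝ)) := by gcongr
    _ = _ := by ring

/-- **(K1)** -/
theorem card_inter_le (g g' : Perm α) (X Y : Finset α) :
    ((univ.filter (fun h : Perm α => Y.map h.toEmbedding = X ∧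
      ∀ y ∈ Y, g (h y) = h (g' y))).card : ℝ)
      ≤ (X.card : ℝ) ^ (cin g X) * Real.exp X.card
        * ((Fintype.card α - X.card).factorial : ℝ) := by
  classical
  rcases (univ.filter (fun h : Perm α => Y.map h.toEmbedding = X ∧
      ∀ y ∈ Y, g (h y) = h (g' y))).eq_empty_or_nonempty with he | ⟨h0, hh0⟩
  · rw [he]; simp; positivity
  · rw [Finset.mem_filter] at hh0
    obtain ⟨_, h0X, h0c⟩ := hh0
    refine le_trans ?_ (card_Sst_le' g X)
    have : (univ.filter (fun h : Perm α => Y.map h.toEmbedding = X ∧
      ∀ y ∈ Y, g (h y) = h (g' y))).card ≤ (Sst g X).card := by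
      apply Finset.card_le_card_of_injOn (fun h => h * h0⁻¹)
      · intro h hh
        simp only [Finset.coe_filter, Finset.mem_univ, true_and, Set.mem_ofPred_eq] at hh
        simp only [Finset.mem_coe]
        rw [mem_Sst]
        constructor
        · ext z
          rw [Finset.mem_map_equiv]
          have e1 : (h * h0⁻¹).symm z = h0 (h.symm z) := rfl
          rw [e1]
          constructor
          · intro hz
            rw [← h0X, Finset.mem_map_equiv, Equiv.symm_apply_apply] at hz
            rw [← hh.1, Finset.mem_map_equiv]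
            exact hz
          · intro hz
            rw [← hh.1, Finset.mem_map_equiv] at hz
            rw [← h0X, Finset.mem_map_equiv, Equiv.symm_apply_apply]
            exact hz
        · intro x hx
          rw [← h0X, Finset.mem_map_equiv] at hx
          have e2 : x = h0 (h0.symm x) := (h0.apply_symm_apply x).symm
          set y := h0.symm x with hy
          have h1 := h0c y hx
          have h2 := hh.2 y hx
          rw [e2, h1]
          have e3 : ∀ w, (h * h0⁻¹) (h0 w) = h w := by
            intro w
            show h (h0.symm (h0 w)) = h w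
            rw [Equiv.symm_apply_apply]
          rw [e3, e3, h2]
      · intro h _ h' _ hh
        exact mul_right_cancel hh
    exact_mod_cast this

/-- **(K1)** with the roles exchanged -/
theorem card_inter_le' (g g' : Perm α) (X Y : Finset α) :
    ((univ.filter (fun h : Perm α => Y.map h.toEmbedding = X ∧
      ∀ y ∈ Y, g (h y) = h (g' y))).card : ℝ)
      ≤ (Y.card : ℝ) ^ (cin g' Y) * Real.exp Y.card
        * ((Fintype.card α - Y.card).factorial : ℝ) := by
  classical
  refine le_trans ?_ (card_inter_le g' g Y X)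
  have : (univ.filter (fun h : Perm α => Y.map h.toEmbedding = X ∧
      ∀ y ∈ Y, g (h y) = h (g' y))).card ≤ (univ.filter (fun h : Perm α =>
        X.map h.toEmbedding = Y ∧ ∀ y ∈ X, g' (h y) = h (g y))).card := by
    apply Finset.card_le_card_of_injOn (fun h => h⁻¹)
    · intro h hh
      simp only [Finset.coe_filter, Finset.mem_univ, true_and, Set.mem_ofPred_eq] at hh ⊢
      constructor
      · ext z
        rw [Finset.mem_map_equiv]
        have e1 : (h⁻¹).symm z = h z := rfl
        rw [e1, ← hh.1, Finset.mem_map_equiv, Equiv.symm_apply_apply]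
      · intro x hx
        rw [← hh.1, Finset.mem_map_equiv] at hx
        have h2 := hh.2 _ hx
        rw [Equiv.apply_symm_apply] at h2
        show g' (h.symm x) = h.symm (g x)
        rw [h2, Equiv.symm_apply_apply]
    · intro h _ h' _ hh
      exact inv_injective hh
  exact_mod_cast this

/-- kernel of a function at level `l` -/
noncomputable def Kf (f : Perm α → ℝ) {l : ℕ} (x y : Fin l ↪ α) : ℝ :=
  ∑ g, f g * (if ∀ i, g (x i) = y i then 1 else 0)

/-- number of embeddings with prescribed range -/
theorem card_emb_agree (l : ℕ) (g g' : Perm α) :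
    ((univ.filter (fun x : Fin l ↪ α => ∀ i, g (x i) = g' (x i))).card : ℝ)
      = (l.factorial : ℝ) *
        (((powersetCard l univ).filter (fun X : Finset α => ∀ x ∈ X, g x = g' x)).card : ℝ) := by
  classical
  have hfib : (univ.filter (fun x : Fin l ↪ α => ∀ i, g (x i) = g' (x i))).card
      = ∑ X ∈ (powersetCard l univ).filter (fun X : Finset α => ∀ x ∈ X, g x = g' x),
        ((univ.filter (fun x : Fin l ↪ α => ∀ i, g (x i) = g' (x i))).filter
          (fun x => univ.map x = X)).card := by
    apply Finset.card_eq_sum_card_fiberwise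
    intro x hx
    simp only [Finset.coe_filter, Finset.mem_univ, true_and, Set.mem_ofPred_eq] at hx
    simp only [Finset.coe_filter, Set.mem_ofPred_eq, Finset.mem_powersetCard]
    refine ⟨⟨Finset.subset_univ _, by simp⟩, ?_⟩
    intro z hz
    rw [Finset.mem_map] at hz
    obtain ⟨i, _, rfl⟩ := hz
    exact hx i
  rw [hfib]
  have hone : ∀ X ∈ (powersetCard l univ).filter (fun X : Finset α => ∀ x ∈ X, g x = g' x),
      ((univ.filter (fun x : Fin l ↪ α => ∀ i, g (x i) = g' (x i))).filter
          (fun x => univ.map x = X)).card = l.factorial := by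
    intro X hX
    rw [Finset.mem_filter, Finset.mem_powersetCard] at hX
    have hcard : X.card = l := hX.1.2
    -- embeddings with range X are bijections Fin l ≃ X
    have e : (Fin l ≃ X) ≃ {x : Fin l ↪ α // univ.map x = X} := {
      toFun := fun σ => ⟨⟨fun i => (σ i : α), fun a b h => σ.injective (Subtype.ext h)⟩, by
        ext z
        rw [Finset.mem_map]
        constructor
        · rintro ⟨i, _, rfl⟩
          exact (σ i).2
        · intro hz
          refine ⟨σ.symm ⟨z, hz⟩, Finset.mem_univ _, ?_⟩
          show ((σ (σ.symm ⟨z, hz⟩)) : α) = z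
          rw [Equiv.apply_symm_apply]⟩
      invFun := fun x => Equiv.ofBijective (fun i => (⟨x.1 i, by
          have h : x.1 i ∈ univ.map x.1 := Finset.mem_map_of_mem _ (Finset.mem_univ i)
          rw [x.2] at h
          exact h⟩ : X)) ⟨fun a b h => x.1.injective (congrArg Subtype.val h), by
            rintro ⟨z, hz⟩
            have hz' := hz
            rw [← x.2, Finset.mem_map] at hz'
            obtain ⟨i, _, hi⟩ := hz'
            exact ⟨i, Subtype.ext hi⟩⟩
      left_inv := by
        intro σ
        apply Equiv.ext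
        intro i
        rfl
      right_inv := by
        intro x
        apply Subtype.ext
        ext i
        rfl }
    have h1 : ((univ.filter (fun x : Fin l ↪ α => ∀ i, g (x i) = g' (x i))).filter
          (fun x => univ.map x = X)) = univ.filter (fun x : Fin l ↪ α => univ.map x = X) := by
      ext x
      simp only [Finset.mem_filter, Finset.mem_univ, true_and, and_iff_right_iff_imp]
      intro hx i
      apply hX.2
      rw [← hx]
      exact Finset.mem_map_of_mem _ (Finset.mem_univ i)
    rw [h1, ← Fintype.card_subtype, ← Fintype.card_congr e]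
    have h2 : Fintype.card (Fin l) = Fintype.card X := by simp [hcard]
    rw [Fintype.card_equiv (Fintype.equivOfCardEq h2)]
    simp
  rw [Finset.sum_congr rfl hone, Finset.sum_const, smul_eq_mul]
  push_cast
  ring

theorem sum_Kf_sq (f : Perm α → ℝ) (l : ℕ) :
    ∑ x : Fin l ↪ α, ∑ y : Fin l ↪ α, (Kf f x y) ^ 2
      = (l.factorial : ℝ) * ∑ g, ∑ g', f g * f g' *
        (((powersetCard l univ).filter (fun X : Finset α => ∀ x ∈ X, g x = g' x)).card : ℝ) := by
  classical
  have h1 : ∀ x y : Fin l ↪ α, (Kf f x y) ^ 2 = ∑ g, ∑ g', f g * f g' *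
      ((if ∀ i, g (x i) = y i then (1:ℝ) else 0) * (if ∀ i, g' (x i) = y i then 1 else 0)) := by
    intro x y
    unfold Kf
    rw [sq, Finset.sum_mul_sum]
    apply Finset.sum_congr rfl; intro g _
    apply Finset.sum_congr rfl; intro g' _
    ring
  simp_rw [h1]
  have h2 : ∀ (x : Fin l ↪ α) (g g' : Perm α), ∑ y : Fin l ↪ α,
      ((if ∀ i, g (x i) = y i then (1:ℝ) else 0) * (if ∀ i, g' (x i) = y i then 1 else 0))
        = if ∀ i, g (x i) = g' (x i) then 1 else 0 := by
    intro x g g'
    rw [Finset.sum_eq_single (x.trans g.toEmbedding)]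
    · have hp : ∀ i, g (x i) = (x.trans g.toEmbedding) i := fun i => rfl
      rw [if_pos hp, one_mul]
      congr 1
      apply propext
      constructor
      · intro h i; exact (h i).symm
      · intro h i; exact (h i).symm
    · intro y _ hy
      rw [if_neg, zero_mul]
      intro h
      apply hy
      ext i
      exact (h i).symm
    · intro h; exact absurd (Finset.mem_univ _) h
  calc ∑ x : Fin l ↪ α, ∑ y : Fin l ↪ α, ∑ g, ∑ g', f g * f g' *
      ((if ∀ i, g (x i) = y i then (1:ℝ) else 0) * (if ∀ i, g' (x i) = y i then 1 else 0))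
      = ∑ x : Fin l ↪ α, ∑ g, ∑ g', f g * f g' * ∑ y : Fin l ↪ α,
        ((if ∀ i, g (x i) = y i then (1:ℝ) else 0) * (if ∀ i, g' (x i) = y i then 1 else 0)) := by
        apply Finset.sum_congr rfl; intro x _
        rw [Finset.sum_comm]
        apply Finset.sum_congr rfl; intro g _
        rw [Finset.sum_comm]
        apply Finset.sum_congr rfl; intro g' _
        rw [Finset.mul_sum]
    _ = ∑ x : Fin l ↪ α, ∑ g, ∑ g', f g * f g' *
        (if ∀ i, g (x i) = g' (x i) then (1:ℝ) else 0) := by
        simp_rw [h2]
    _ = ∑ g, ∑ g', f g * f g' * ∑ x : Fin l ↪ α,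
        (if ∀ i, g (x i) = g' (x i) then (1:ℝ) else 0) := by
        rw [Finset.sum_comm]
        apply Finset.sum_congr rfl; intro g _
        rw [Finset.sum_comm]
        apply Finset.sum_congr rfl; intro g' _
        rw [Finset.mul_sum]
    _ = _ := by
        rw [Finset.mul_sum]
        apply Finset.sum_congr rfl; intro g _
        rw [Finset.mul_sum]
        apply Finset.sum_congr rfl; intro g' _
        rw [Finset.sum_boole, card_emb_agree]
        ring

/-- counting conjugations -/
theorem sum_conj_agree (l : ℕ) (g g' : Perm α) :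
    ∑ h : Perm α, (((powersetCard l univ).filter
        (fun X : Finset α => ∀ x ∈ X, g x = (h * g' * h⁻¹) x)).card : ℝ)
      = ∑ X ∈ powersetCard l (univ : Finset α), ∑ Y ∈ powersetCard l (univ : Finset α),
        ((univ.filter (fun h : Perm α => Y.map h.toEmbedding = X ∧
          ∀ y ∈ Y, g (h y) = h (g' y))).card : ℝ) := by
  classical
  have h1 : ∀ h : Perm α, (((powersetCard l univ).filter
        (fun X : Finset α => ∀ x ∈ X, g x = (h * g' * h⁻¹) x)).card : ℝ)
      = ∑ X ∈ powersetCard l (univ : Finset α),
        (if ∀ x ∈ X, g x = (h * g' * h⁻¹) x then (1 : ℝ) else 0) := by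
    intro h
    rw [Finset.sum_boole]
  simp_rw [h1]
  rw [Finset.sum_comm]
  apply Finset.sum_congr rfl
  intro X hX
  rw [Finset.mem_powersetCard] at hX
  have h2 : ∀ h : Perm α, (if ∀ x ∈ X, g x = (h * g' * h⁻¹) x then (1 : ℝ) else 0)
      = ∑ Y ∈ powersetCard l (univ : Finset α),
        (if (Y.map h.toEmbedding = X ∧ ∀ y ∈ Y, g (h y) = h (g' y)) then (1 : ℝ) else 0) := by
    intro h
    rw [Finset.sum_eq_single (X.map (h⁻¹).toEmbedding)]
    · have e1 : (X.map (h⁻¹).toEmbedding).map h.toEmbedding = X := by
        ext z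
        rw [Finset.mem_map_equiv, Finset.mem_map_equiv]
        have : (h⁻¹).symm (h.symm z) = z := h.apply_symm_apply z
        rw [this]
      congr 1
      apply propext
      constructor
      · intro hh
        refine ⟨e1, ?_⟩
        intro y hy
        rw [Finset.mem_map_equiv] at hy
        have hy' : h y ∈ X := hy
        have := hh (h y) hy'
        rw [this]
        show h (g' (h.symm (h y))) = h (g' y)
        rw [Equiv.symm_apply_apply]
      · rintro ⟨_, hh⟩ x hx
        have hy : h⁻¹ x ∈ X.map (h⁻¹).toEmbedding := Finset.mem_map_of_mem _ hx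
        have := hh _ hy
        have e2 : h (h⁻¹ x) = x := h.apply_symm_apply x
        rw [e2] at this
        exact this
    · intro Y _ hY
      rw [if_neg]
      rintro ⟨h3, _⟩
      apply hY
      rw [← h3]
      ext z
      rw [Finset.mem_map_equiv, Finset.mem_map_equiv]
      have : h.symm ((h⁻¹).symm z) = z := h.symm_apply_apply z
      rw [this]
    · intro hc
      exfalso
      apply hc
      rw [Finset.mem_powersetCard, Finset.card_map]
      exact ⟨Finset.subset_univ _, hX.2⟩
  simp_rw [h2]
  rw [Finset.sum_comm]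
  apply Finset.sum_congr rfl
  intro Y _
  rw [Finset.sum_boole]

/-- **(K2)** -/
theorem sumK_le (f : Perm α → ℝ) (h0 : ∀ g, 0 ≤ f g) (hc : ∀ g h, f (h * g * h⁻¹) = f g)
    (l : ℕ) (hl : l ≤ Fintype.card α) :
    ∑ x : Fin l ↪ α, ∑ y : Fin l ↪ α, (Kf f x y) ^ 2
      ≤ Real.exp l / ((Fintype.card α).choose l : ℝ) *
        (∑ g, f g * ∑ X ∈ powersetCard l (univ : Finset α), (Real.sqrt l) ^ (cin g X)) ^ 2 := by
  classical
  set m := Fintype.card α with hm
  have hfac : (0 : ℝ) < (m.factorial : ℝ) := by exact_mod_cast Nat.factorial_pos m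
  -- average over conjugations
  have h1 : ∀ g : Perm α, ∑ g', f g * f g' *
        (((powersetCard l univ).filter (fun X : Finset α => ∀ x ∈ X, g x = g' x)).card : ℝ)
      = (1 / (m.factorial : ℝ)) * ∑ g', f g * f g' * ∑ h : Perm α, (((powersetCard l univ).filter
        (fun X : Finset α => ∀ x ∈ X, g x = (h * g' * h⁻¹) x)).card : ℝ) := by
    intro g
    have h2 : ∀ h : Perm α, ∑ g', f g * f g' *
        (((powersetCard l univ).filter (fun X : Finset α => ∀ x ∈ X, g x = g' x)).card : ℝ)
        = ∑ g', f g * f g' * (((powersetCard l univ).filter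
        (fun X : Finset α => ∀ x ∈ X, g x = (h * g' * h⁻¹) x)).card : ℝ) := by
      intro h
      rw [← Equiv.sum_comp (MulAut.conj h).toEquiv]
      apply Finset.sum_congr rfl
      intro g' _
      simp only [MulEquiv.toEquiv_eq_coe, EquivLike.coe_coe, MulAut.conj_apply]
      rw [hc] <;> congr!
    have h3 : ∑ h : Perm α, ∑ g', f g * f g' * (((powersetCard l univ).filter
        (fun X : Finset α => ∀ x ∈ X, g x = (h * g' * h⁻¹) x)).card : ℝ)
        = (m.factorial : ℝ) * ∑ g', f g * f g' *
        (((powersetCard l univ).filter (fun X : Finset α => ∀ x ∈ X, g x = g' x)).card : ℝ) := by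
      rw [Finset.sum_congr rfl (fun h _ => (h2 h).symm), Finset.sum_const, nsmul_eq_mul,
        Finset.card_univ, Fintype.card_perm]
    have h4 : ∑ g', f g * f g' * ∑ h : Perm α, (((powersetCard l univ).filter
        (fun X : Finset α => ∀ x ∈ X, g x = (h * g' * h⁻¹) x)).card : ℝ)
        = ∑ h : Perm α, ∑ g', f g * f g' * (((powersetCard l univ).filter
        (fun X : Finset α => ∀ x ∈ X, g x = (h * g' * h⁻¹) x)).card : ℝ) := by
      rw [Finset.sum_comm]
      apply Finset.sum_congr rfl; intro g' _
      rw [Finset.mul_sum]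
    rw [h4, h3]
    field_simp
  rw [sum_Kf_sq]
  -- bound the intertwiners
  have h5 : ∀ g g' : Perm α, ∑ h : Perm α, (((powersetCard l univ).filter
        (fun X : Finset α => ∀ x ∈ X, g x = (h * g' * h⁻¹) x)).card : ℝ)
      ≤ (Real.exp l * ((m - l).factorial : ℝ)) *
        ((∑ X ∈ powersetCard l (univ : Finset α), (Real.sqrt l) ^ (cin g X)) *
         (∑ Y ∈ powersetCard l (univ : Finset α), (Real.sqrt l) ^ (cin g' Y))) := by
    intro g g'
    rw [sum_conj_agree, Finset.sum_mul_sum, Finset.mul_sum]
    apply Finset.sum_le_sum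
    intro X hX
    rw [Finset.mul_sum]
    apply Finset.sum_le_sum
    intro Y hY
    rw [Finset.mem_powersetCard] at hX hY
    have a1 := card_inter_le g g' X Y
    have a2 := card_inter_le' g g' X Y
    rw [hX.2, ← hm] at a1
    rw [hY.2, ← hm] at a2
    set c : ℝ := ((univ.filter (fun h : Perm α => Y.map h.toEmbedding = X ∧
          ∀ y ∈ Y, g (h y) = h (g' y))).card : ℝ) with hcdef
    have hc0 : 0 ≤ c := by rw [hcdef]; positivity
    have hl0 : (0 : ℝ) ≤ l := Nat.cast_nonneg l
    have s1 : (Real.sqrt l) ^ 2 = (l : ℝ) := Real.sq_sqrt hl0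
    apply le_of_sq_le_sq _ (by positivity)
    calc c ^ 2 = c * c := sq c
      _ ≤ ((l : ℝ) ^ cin g X * Real.exp l * ((m - l).factorial : ℝ))
          * ((l : ℝ) ^ cin g' Y * Real.exp l * ((m - l).factorial : ℝ)) := by
          apply mul_le_mul a1 a2 hc0
          positivity
      _ = (Real.exp l * ((m - l).factorial : ℝ) * ((Real.sqrt l) ^ (cin g X)
          * (Real.sqrt l) ^ (cin g' Y))) ^ 2 := by
          have e1 : ∀ n : ℕ, (l : ℝ) ^ n = (Real.sqrt l ^ n) ^ 2 := by
            intro n
            rw [← pow_mul, mul_comm, pow_mul, s1]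
          rw [e1, e1]; ring
  have h6 : ∑ g, ∑ g', f g * f g' *
        (((powersetCard l univ).filter (fun X : Finset α => ∀ x ∈ X, g x = g' x)).card : ℝ)
      ≤ (1 / (m.factorial : ℝ)) * ((Real.exp l * ((m - l).factorial : ℝ)) *
        (∑ g, f g * ∑ X ∈ powersetCard l (univ : Finset α), (Real.sqrt l) ^ (cin g X)) ^ 2) := by
    rw [Finset.sum_congr rfl (fun g _ => h1 g), ← Finset.mul_sum]
    apply mul_le_mul_of_nonneg_left _ (by positivity)
    rw [sq, Finset.sum_mul_sum, Finset.mul_sum]
    apply Finset.sum_le_sum
    intro g _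
    rw [Finset.mul_sum]
    apply Finset.sum_le_sum
    intro g' _
    calc f g * f g' * ∑ h : Perm α, (((powersetCard l univ).filter
        (fun X : Finset α => ∀ x ∈ X, g x = (h * g' * h⁻¹) x)).card : ℝ)
        ≤ f g * f g' * ((Real.exp l * ((m - l).factorial : ℝ)) *
        ((∑ X ∈ powersetCard l (univ : Finset α), (Real.sqrt l) ^ (cin g X)) *
         (∑ Y ∈ powersetCard l (univ : Finset α), (Real.sqrt l) ^ (cin g' Y)))) :=
          mul_le_mul_of_nonneg_left (h5 g g') (mul_nonneg (h0 g) (h0 g'))
      _ = _ := by ring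
  have hchoose : ((m.choose l : ℕ) : ℝ) = (m.factorial : ℝ) / ((l.factorial : ℝ) *
      ((m - l).factorial : ℝ)) := Nat.cast_choose ℝ hl
  calc (l.factorial : ℝ) * ∑ g, ∑ g', f g * f g' *
        (((powersetCard l univ).filter (fun X : Finset α => ∀ x ∈ X, g x = g' x)).card : ℝ)
      ≤ (l.factorial : ℝ) * ((1 / (m.factorial : ℝ)) * ((Real.exp l * ((m - l).factorial : ℝ)) *
        (∑ g, f g * ∑ X ∈ powersetCard l (univ : Finset α), (Real.sqrt l) ^ (cin g X)) ^ 2)) :=
        mul_le_mul_of_nonneg_left h6 (by positivity)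
    _ = _ := by
        rw [hchoose]
        field_simp

end Crest.Agent.T22
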