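import Crest.Agent.T22X1
import Crest.Agent.T22Defs
import Crest.Agent.T22K

/-! S0222, section 4.2: the bounds (X1), (X2). -/

set_option autoImplicit false
set_option linter.unusedSectionVars false
namespace Crest.Agent.T22

open Equiv Equiv.Perm Finset Crest.Agent.ThS Filter
open scoped Topology Nat

/-- fixed points moment in the form used here -/
theorem sum_sqrt_nfix {m : ℕ} {ζ : Perm (Fin m) → ℝ} (H : RWHyp m ζ) (z : ℕ) (hz : 0 < z) :
    ∑ c, ζ c * Real.sqrt z ^ nfix c ≤ Real.exp (Real.sqrt z * ((m : ℝ) ^ (-(0.27 : ℝ)) * m)) := by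
  have h1 : (1 : ℝ) ≤ Real.sqrt z := by
    rw [Real.one_le_sqrt]
    exact_mod_cast hz
  have h := H.F (Real.sqrt z - 1) (by linarith)
  rw [add_sub_cancel] at h
  refine h.trans (Real.exp_le_exp.mpr ?_)
  rw [mul_assoc]
  refine mul_le_mul_of_nonneg_right (by linarith) (by positivity)

theorem sum_sqrt_nfix_nonneg {m : ℕ} {ζ : Perm (Fin m) → ℝ} (H : RWHyp m ζ) (z : ℕ) :
    0 ≤ ∑ c, ζ c * Real.sqrt z ^ nfix c :=
  Finset.sum_nonneg fun c _ => mul_nonneg (H.nonneg c) (by positivity)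

theorem X1_aux {m : ℕ} {ζ : Perm (Fin m) → ℝ} (H : RWHyp m ζ) (z : ℕ) (hz : 0 < z)
    (hzm : m ≤ z * z) :
    (m ! : ℝ) * ∑ g, cv ζ ζ g ^ 2
      ≤ Real.exp (2 * Real.log 2 * ((z : ℝ) * z + m) + 4 * (Real.sqrt z * ((m : ℝ) ^ (-(0.27 : ℝ)) * m))) := by
  have h := l2_cls ζ H.nonneg (fun g k => H.cls g k) z hz (by rw [Fintype.card_fin]; exact hzm)
  rw [Fintype.card_fin] at h
  refine h.trans ?_
  have h1 := multichoose_two (z * z) m
  have h2 : (2 : ℝ) ^ (z * z + m) = Real.exp (Real.log 2 * ((z : ℝ) * z + m)) := by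
    rw [← Nat.cast_mul, ← Nat.cast_add, mul_comm (Real.log 2), Real.exp_nat_mul, Real.exp_log (by norm_num)]
  rw [h2] at h1
  have h3 := pow_le_pow_left₀ (sum_sqrt_nfix_nonneg H z) (sum_sqrt_nfix H z hz) 2
  have h4 := mul_le_mul h1 h3 (sq_nonneg _) (Real.exp_pos _).le
  have h5 := pow_le_pow_left₀ (by positivity) h4 2
  refine h5.trans (le_of_eq ?_)
  rw [← Real.exp_nat_mul, ← Real.exp_add, ← Real.exp_nat_mul]
  congr 1
  push_cast
  ring

theorem X1 : ∃ M : ℕ, ∀ m ≥ M, ∀ ζ : Perm (Fin m) → ℝ, RWHyp m ζ →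
    (m ! : ℝ) * ∑ g, cv ζ ζ g ^ 2 ≤ Real.exp (3.2 * m) := by
  have hA : ∀ᶠ m : ℕ in atTop, (m : ℝ) ^ (-(0.02 : ℝ)) ≤ 0.03 := by
    have h : Tendsto (fun m : ℕ => (m : ℝ) ^ (-(0.02 : ℝ))) atTop (𝓝 0) :=
      (tendsto_rpow_neg_atTop (y := 0.02) (by norm_num)).comp tendsto_natCast_atTop_atTop
    exact h.eventually (eventually_le_nhds (by norm_num))
  obtain ⟨M, hM⟩ := Filter.eventually_atTop.mp hA
  refine ⟨max M 1000, fun m hm ζ H => ?_⟩
  have hmA := hM m (le_trans (le_max_left _ _) hm)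
  have hm1 : 1000 ≤ m := le_trans (le_max_right _ _) hm
  have hmR : (1000 : ℝ) ≤ (m : ℝ) := by exact_mod_cast hm1
  set z := Nat.sqrt m + 1 with hz
  have hzm : m ≤ z * z := (Nat.lt_succ_sqrt m).le
  refine (X1_aux H z (Nat.succ_pos _) hzm).trans (Real.exp_le_exp.mpr ?_)
  set s := Real.sqrt m with hs
  have hs2 : s ^ 2 = m := Real.sq_sqrt (by positivity)
  have hs0 : 0 ≤ s := Real.sqrt_nonneg _
  have hs31 : 31 ≤ s := by
    rw [hs]; apply Real.le_sqrt_of_sq_le; norm_num; linarith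
  have hzs : (z : ℝ) ≤ s + 1 := by
    rw [hz]
    push_cast
    have : ((Nat.sqrt m : ℕ) : ℝ) ≤ s := Real.nat_sqrt_le_real_sqrt
    linarith
  have hz0 : (0 : ℝ) ≤ z := Nat.cast_nonneg _
  have hzz : (z : ℝ) * z ≤ m + 2 * s + 1 := by nlinarith
  have hlog : Real.log 2 < 0.6931471808 := Real.log_two_lt_d9
  have hlog0 : 0 < Real.log 2 := Real.log_pos (by norm_num)
  -- the fourth root
  set u := Real.sqrt s with hu
  have hu0 : 0 ≤ u := Real.sqrt_nonneg _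
  have hu2 : u ^ 2 = s := Real.sq_sqrt hs0
  have hz2 : Real.sqrt z ≤ 1.5 * u := by
    rw [Real.sqrt_le_left (by positivity)]
    rw [mul_pow, hu2]
    linarith
  have hmu : (m : ℝ) ^ (-(0.27 : ℝ)) * u ≤ 0.03 := by
    have e : u = (m : ℝ) ^ (0.25 : ℝ) := by
      rw [hu, hs, Real.sqrt_eq_rpow, Real.sqrt_eq_rpow, ← Real.rpow_mul (by positivity)]
      norm_num
    rw [e, ← Real.rpow_add (by positivity)]
    refine le_trans (le_of_eq ?_) hmA
    congr 1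
    norm_num
  have h27 : 0 ≤ (m : ℝ) ^ (-(0.27 : ℝ)) := by positivity
  have e1 : Real.sqrt z * ((m : ℝ) ^ (-(0.27 : ℝ)) * m) ≤ 0.045 * m := by
    have : Real.sqrt z * (m : ℝ) ^ (-(0.27 : ℝ)) ≤ 0.045 := by
      calc Real.sqrt z * (m : ℝ) ^ (-(0.27 : ℝ)) ≤ (1.5 * u) * (m : ℝ) ^ (-(0.27 : ℝ)) :=
            mul_le_mul_of_nonneg_right hz2 h27
        _ = 1.5 * ((m : ℝ) ^ (-(0.27 : ℝ)) * u) := by ring
        _ ≤ _ := by linarith
    rw [← mul_assoc]
    exact mul_le_mul_of_nonneg_right this (by positivity)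
  have e2 : 2 * Real.log 2 * ((z : ℝ) * z + m) ≤ 1.3862943616 * (2 * m + 2 * s + 1) := by
    have h1 : (z : ℝ) * z + m ≤ 2 * m + 2 * s + 1 := by linarith
    have h2 : 0 ≤ (z : ℝ) * z + m := by positivity
    calc 2 * Real.log 2 * ((z : ℝ) * z + m) ≤ 1.3862943616 * ((z : ℝ) * z + m) :=
          mul_le_mul_of_nonneg_right (by linarith) h2
      _ ≤ _ := by linarith
  nlinarith

theorem cin_le {α : Type*} [Fintype α] [DecidableEq α] (g : Perm α) (X : Finset α) :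
    cin g X ≤ (X ∩ reps g).card := by
  classical
  unfold cin
  rw [Fintype.card_subtype]
  refine Finset.card_le_card_of_injOn (Function.surjInv (cls_surj g)) ?_ ?_
  · intro t ht
    have ht2 := (Finset.mem_filter.mp ht).2
    rw [Finset.mem_coe, Finset.mem_inter]
    refine ⟨ht2 _ (Function.surjInv_eq (cls_surj g) t), ?_⟩
    unfold reps
    exact Finset.mem_image_of_mem _ (Finset.mem_univ _)
  · intro t _ t' _ h
    exact Function.injective_surjInv (cls_surj g) h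

theorem sum_cin_le' {α : Type*} [Fintype α] [DecidableEq α] (g : Perm α) (l : ℕ)
    (hl : l ≤ Fintype.card α) (z : ℝ) (hz : 1 ≤ z) :
    ∑ X ∈ powersetCard l (univ : Finset α), z ^ (cin g X)
      ≤ ((Fintype.card α).choose l : ℝ) * (1 + (z - 1) * ((l : ℝ) / (Fintype.card α : ℝ))) ^ ncyc g := by
  classical
  refine le_trans (Finset.sum_le_sum fun X _ => pow_le_pow_right₀ hz (cin_le g X)) ?_
  refine (sum_pow_inter_le (reps g) l hl z hz).trans ?_
  refine mul_le_mul_of_nonneg_left ?_ (Nat.cast_nonneg _)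
  refine pow_le_pow_right₀ ?_ (card_reps_le g)
  have : (0 : ℝ) ≤ (z - 1) * ((l : ℝ) / (Fintype.card α : ℝ)) :=
    mul_nonneg (by linarith) (by positivity)
  linarith

theorem cyc_z1 {m : ℕ} {ζ : Perm (Fin m) → ℝ} (H : RWHyp m ζ) (z : ℕ) (hz : 0 < z) (p : ℝ)
    (hp : 0 < p) (hp1 : p ≤ 1) :
    ∑ g, cv ζ ζ g * (z : ℝ) ^ ncyc g
      ≤ Real.exp (p * m + ((z : ℝ) * z) * (2 / p) + 2 * (Real.sqrt z * ((m : ℝ) ^ (-(0.27 : ℝ)) * m))) := by
  have h := cyc_cls ζ H.nonneg (fun g k => H.cls g k) z hz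
  rw [Fintype.card_fin] at h
  refine h.trans ?_
  have h1 := multichoose_exp (z * z) m p hp hp1
  have h2 : (2 / p) ^ (z * z) ≤ Real.exp (((z : ℝ) * z) * (2 / p)) := by
    have h3 : 2 / p ≤ Real.exp (2 / p) := by
      have := Real.add_one_le_exp (2 / p)
      linarith
    calc (2 / p) ^ (z * z) ≤ Real.exp (2 / p) ^ (z * z) :=
          pow_le_pow_left₀ (by positivity) h3 _
      _ = _ := by
          rw [← Real.exp_nat_mul]
          push_cast
          rfl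
  have h4 := pow_le_pow_left₀ (sum_sqrt_nfix_nonneg H z) (sum_sqrt_nfix H z hz) 2
  have h5 : (Nat.multichoose (z * z) m : ℝ) ≤ Real.exp (p * m) * Real.exp (((z : ℝ) * z) * (2 / p)) :=
    h1.trans (mul_le_mul_of_nonneg_left h2 (Real.exp_pos _).le)
  have h6 := mul_le_mul h5 h4 (sq_nonneg _) (by positivity)
  refine h6.trans (le_of_eq ?_)
  rw [← Real.exp_nat_mul, ← Real.exp_add, ← Real.exp_add]
  push_cast
  ring_nf

theorem X2_aux : ∃ M : ℕ, ∀ m ≥ M, ∀ ζ : Perm (Fin m) → ℝ, RWHyp m ζ → ∀ l : ℕ,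
    (m : ℝ) ^ (0.95 : ℝ) ≤ l → (l : ℝ) ≤ 0.03 * m → ∀ T : ℝ,
    T ≤ Real.exp l / (m.choose l : ℝ) * (∑ g, cv ζ ζ g *
      ∑ X ∈ powersetCard l (univ : Finset (Fin m)), Real.sqrt l ^ (cin g X)) ^ 2 →
    T ≤ (m.choose l : ℝ) * Real.exp (100 * l) := by
  refine ⟨1, fun m hm ζ H l hl1 hl2 T hT => ?_⟩
  have hmR : (1 : ℝ) ≤ (m : ℝ) := by exact_mod_cast hm
  have hl0 : (1 : ℝ) ≤ (l : ℝ) := le_trans (Real.one_le_rpow hmR (by norm_num)) hl1
  have hln : 0 < l := by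
    have : (0 : ℝ) < l := by linarith
    exact_mod_cast this
  have hlm : l ≤ m := by
    have : (l : ℝ) ≤ m := by linarith
    exact_mod_cast this
  set p : ℝ := (l : ℝ) / m with hp
  have hp0 : 0 < p := by positivity
  have hpm : p * m = l := by rw [hp]; field_simp
  have hp3 : p ≤ 0.03 := by
    rw [hp, div_le_iff₀ (by linarith)]; exact hl2
  set s := Real.sqrt l with hs
  have hs1 : 1 ≤ s := by rw [hs, Real.one_le_sqrt]; exact hl0
  have hs2 : s ^ 2 = l := Real.sq_sqrt (by linarith)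
  -- `s ≥ m^0.475`
  have hs475 : (m : ℝ) ^ (0.475 : ℝ) ≤ s := by
    rw [hs]
    apply Real.le_sqrt_of_sq_le
    rw [← Real.rpow_natCast, ← Real.rpow_mul (by linarith)]
    refine le_trans (le_of_eq ?_) hl1
    congr 1
    norm_num
  have hs46 : (m : ℝ) ^ (0.46 : ℝ) ≤ s :=
    le_trans (Real.rpow_le_rpow_of_exponent_le hmR (by norm_num)) hs475
  -- `s p ≥ 1`
  have hsp : 1 ≤ s * p := by
    rw [hp, ← mul_div_assoc, le_div_iff₀ (by linarith), one_mul]
    have h1 : (m : ℝ) = (m : ℝ) ^ (0.475 : ℝ) * (m : ℝ) ^ (0.525 : ℝ) := by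
      rw [← Real.rpow_add (by linarith)]
      norm_num
    have h2 : (m : ℝ) ^ (0.525 : ℝ) ≤ l :=
      le_trans (Real.rpow_le_rpow_of_exponent_le hmR (by norm_num)) hl1
    rw [h1]
    exact mul_le_mul hs475 h2 (by positivity) (by linarith)
  set z : ℕ := ⌈s * p⌉₊ + 1 with hz
  have hzpos : 0 < z := Nat.succ_pos _
  have hz1 : 1 + (s - 1) * p ≤ (z : ℝ) := by
    rw [hz]
    push_cast
    have := Nat.le_ceil (s * p)
    nlinarith
  have hz2 : (z : ℝ) ≤ 3 * (s * p) := by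
    rw [hz]
    push_cast
    have := Nat.ceil_lt_add_one (show 0 ≤ s * p by positivity)
    linarith
  have hz0 : (0 : ℝ) ≤ z := Nat.cast_nonneg _
  -- the cycle moment
  have hmom := cyc_z1 H z hzpos p hp0 (by linarith)
  have e1 : ((z : ℝ) * z) * (2 / p) ≤ l := by
    have h1 : (z : ℝ) * z ≤ (3 * (s * p)) * (3 * (s * p)) := mul_le_mul hz2 hz2 hz0 (by positivity)
    have h2 : (3 * (s * p)) * (3 * (s * p)) = 9 * l * p ^ 2 := by rw [← hs2]; ring
    calc ((z : ℝ) * z) * (2 / p) ≤ (9 * l * p ^ 2) * (2 / p) :=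
          mul_le_mul_of_nonneg_right (h1.trans (le_of_eq h2)) (by positivity)
      _ = 18 * p * l := by field_simp; ring
      _ ≤ 1 * l := mul_le_mul_of_nonneg_right (by linarith) (by linarith)
      _ = l := one_mul _
  have e2 : Real.sqrt z * ((m : ℝ) ^ (-(0.27 : ℝ)) * m) ≤ 2 * l := by
    have h27 : 0 ≤ (m : ℝ) ^ (-(0.27 : ℝ)) * m := by positivity
    have h1 : Real.sqrt z * ((m : ℝ) ^ (-(0.27 : ℝ)) * m)
        = Real.sqrt (z * ((m : ℝ) ^ (-(0.27 : ℝ)) * m) ^ 2) := by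
      rw [Real.sqrt_mul hz0, Real.sqrt_sq h27]
    rw [h1]
    apply Real.sqrt_le_iff.mpr
    refine ⟨by linarith, ?_⟩
    have h2 : ((m : ℝ) ^ (-(0.27 : ℝ)) * m) ^ 2 = (m : ℝ) * (m : ℝ) ^ (0.46 : ℝ) := by
      rw [mul_pow, ← Real.rpow_natCast ((m : ℝ) ^ (-(0.27 : ℝ))), ← Real.rpow_mul (by linarith)]
      have h3 : (m : ℝ) ^ 2 = (m : ℝ) ^ (2 : ℝ) := by
        rw [← Real.rpow_natCast]; norm_num
      have h4 : (m : ℝ) * (m : ℝ) ^ (0.46 : ℝ) = (m : ℝ) ^ (1.46 : ℝ) := by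
        conv_lhs => rw [← Real.rpow_one (m : ℝ)]
        rw [← Real.rpow_mul (by linarith), ← Real.rpow_add (by linarith)]
        norm_num
      rw [h3, h4, ← Real.rpow_add (by linarith)]
      norm_num
    rw [h2]
    calc (z : ℝ) * ((m : ℝ) * (m : ℝ) ^ (0.46 : ℝ)) ≤ (3 * (s * p)) * ((m : ℝ) * s) := by
          refine mul_le_mul hz2 ?_ (by positivity) (by positivity)
          exact mul_le_mul_of_nonneg_left hs46 (by linarith)
      _ = 3 * s ^ 2 * (p * m) := by ring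
      _ = 3 * l * l := by rw [hs2, hpm]
      _ ≤ (2 * l) ^ 2 := by nlinarith
  rw [hpm] at hmom
  have hmom2 : ∑ g, cv ζ ζ g * (z : ℝ) ^ ncyc g ≤ Real.exp (6 * l) :=
    hmom.trans (Real.exp_le_exp.mpr (by linarith))
  -- the inner sum
  have hin : ∑ g, cv ζ ζ g *
      ∑ X ∈ powersetCard l (univ : Finset (Fin m)), s ^ (cin g X)
      ≤ (m.choose l : ℝ) * Real.exp (6 * l) := by
    have hn : ∀ g, 0 ≤ cv ζ ζ g := cv_nonneg H.nonneg H.nonneg
    calc _ ≤ ∑ g, cv ζ ζ g * ((m.choose l : ℝ) * (z : ℝ) ^ ncyc g) := by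
          refine Finset.sum_le_sum fun g _ => mul_le_mul_of_nonneg_left ?_ (hn g)
          have h1 := sum_cin_le' g l (by rw [Fintype.card_fin]; exact hlm) s hs1
          rw [Fintype.card_fin] at h1
          refine h1.trans ?_
          refine mul_le_mul_of_nonneg_left ?_ (Nat.cast_nonneg _)
          refine pow_le_pow_left₀ ?_ hz1 _
          have : 0 ≤ (s - 1) * p := mul_nonneg (by linarith) hp0.le
          linarith
      _ = (m.choose l : ℝ) * ∑ g, cv ζ ζ g * (z : ℝ) ^ ncyc g := by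
          rw [Finset.mul_sum]
          refine Finset.sum_congr rfl fun g _ => ?_
          ring
      _ ≤ _ := mul_le_mul_of_nonneg_left hmom2 (Nat.cast_nonneg _)
  have hn : ∀ g, 0 ≤ cv ζ ζ g := cv_nonneg H.nonneg H.nonneg
  have hin0 : 0 ≤ ∑ g, cv ζ ζ g *
      ∑ X ∈ powersetCard l (univ : Finset (Fin m)), s ^ (cin g X) :=
    Finset.sum_nonneg fun g _ => mul_nonneg (hn g) (Finset.sum_nonneg fun X _ => by positivity)
  have hC : (0 : ℝ) < (m.choose l : ℝ) := by exact_mod_cast Nat.choose_pos hlm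
  refine hT.trans ?_
  calc _ ≤ Real.exp l / (m.choose l : ℝ) * ((m.choose l : ℝ) * Real.exp (6 * l)) ^ 2 :=
        mul_le_mul_of_nonneg_left (pow_le_pow_left₀ hin0 hin 2) (by positivity)
    _ = (m.choose l : ℝ) * Real.exp (13 * l) := by
        have : Real.exp (13 * (l : ℝ)) = Real.exp l * Real.exp (6 * l) ^ 2 := by
          rw [← Real.exp_nat_mul, ← Real.exp_add]
          congr 1
          push_cast
          ring
        rw [this]
        field_simp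
    _ ≤ _ := mul_le_mul_of_nonneg_left (Real.exp_le_exp.mpr (by linarith)) hC.le

theorem cvPow_two {G : Type*} [Group G] [Fintype G] [DecidableEq G] (p : G → ℝ) :
    cvPow p 2 = cv p p := by
  rw [show (2 : ℕ) = 1 + 1 from rfl, cvPow_succ, cvPow_one]

/-- (X1) -/
theorem X1' : ∃ M : ℕ, ∀ m ≥ M, ∀ ζ : Perm (Fin m) → ℝ, RWHyp m ζ →
    (m ! : ℝ) * ∑ g, cvPow ζ 2 g ^ 2 ≤ Real.exp (3.2 * m) := by
  obtain ⟨M, hM⟩ := X1
  refine ⟨M, fun m hm ζ H => ?_⟩
  rw [cvPow_two]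
  exact hM m hm ζ H

/-- (X2) -/
theorem X2' : ∃ M : ℕ, ∀ m ≥ M, ∀ ζ : Perm (Fin m) → ℝ, RWHyp m ζ → ∀ l : ℕ,
    (m : ℝ) ^ (0.95 : ℝ) ≤ l → (l : ℝ) ≤ 0.03 * m →
    ∑ x : Fin l ↪ Fin m, ∑ y : Fin l ↪ Fin m,
      (∑ g, cvPow ζ 2 g * (if ∀ i, g (x i) = y i then (1 : ℝ) else 0)) ^ 2
    ≤ (m.choose l : ℝ) * Real.exp (100 * l) := by
  obtain ⟨M, hM⟩ := X2_aux
  refine ⟨M, fun m hm ζ H l hl1 hl2 => ?_⟩
  rw [cvPow_two]
  refine hM m hm ζ H l hl1 hl2 _ ?_
  have hlm : l ≤ m := by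
    have h1 : (0 : ℝ) ≤ m := Nat.cast_nonneg m
    have : (l : ℝ) ≤ m := by linarith
    exact_mod_cast this
  have h := sumK_le (cv ζ ζ) (cv_nonneg H.nonneg H.nonneg)
    (fun g k => cv_conj_inv (fun g k => H.cls g k) (fun g k => H.cls g k) g k) l
    (by rw [Fintype.card_fin]; exact hlm)
  rw [Fintype.card_fin] at h
  exact h

end Crest.Agent.T22
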