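import Crest.Agent.T22Lev

/-! S0222, levels: splitting of `ζ^{*120}(1)` into levels, bounds of `X_l`. -/

set_option autoImplicit false
set_option linter.unusedSectionVars false

namespace Crest.Agent.T22

open Finset Equiv Crest.Agent.ThS

variable {α : Type*} [Fintype α] [DecidableEq α]

theorem PA_zero_of_sub {A B : Finset α} (h : B ⊆ A) (f : EG α) (hA : PA A f = 0) :
    PA B f = 0 := by
  have : PA B f = PA B (PA A f) := by unfold PA; rw [rcv_rcv, uA_absorb h]
  rw [this, hA, map_zero]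

theorem Vle_mono_succ (l : ℕ) (hl : l + 1 ≤ Fintype.card α) : Vle α l ≤ Vle α (l + 1) := by
  have h1 : (Vle α (l + 1))ᗮ ≤ (Vle α l)ᗮ := by
    intro f hf
    rw [mem_Vle_orth'] at hf ⊢
    intro B hB
    obtain ⟨A, hBA, hA⟩ := Finset.exists_superset_card_eq (s := B) (n := l + 1) (by omega) hl
    exact PA_zero_of_sub hBA f (hf A hA)
  have h2 := Submodule.orthogonal_le h1
  rwa [Submodule.orthogonal_orthogonal, Submodule.orthogonal_orthogonal] at h2

theorem fixS_univ : fixS (univ : Finset α) = {1} := by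
  ext g
  rw [mem_fixS, Finset.mem_singleton]
  constructor
  · intro h
    ext a
    exact h a (Finset.mem_univ a)
  · rintro rfl a _
    rfl

theorem uA_univ : uA (univ : Finset α) = dlt 1 := by
  funext g
  unfold uA unif dlt
  rw [fixS_univ]
  simp

theorem PA_univ (f : EG α) : PA univ f = f := by
  unfold PA
  rw [uA_univ, rcv_apply, cv_dlt_one]
  rfl

theorem Vle_card : Vle α (Fintype.card α) = ⊤ := by
  rw [← Submodule.orthogonal_eq_bot_iff, Submodule.eq_bot_iff]
  intro f hf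
  rw [mem_Vle_orth'] at hf
  have := hf univ rfl
  rwa [PA_univ] at this

theorem proj_Vle_zero (f : EG α) :
    (Vle α 0).starProjection f
      = toE (fun _ => (∑ g, f g) / (Fintype.card (Perm α) : ℝ)) := by
  have hpos : (Fintype.card (Perm α) : ℝ) ≠ 0 := by
    exact_mod_cast Fintype.card_ne_zero
  apply Submodule.eq_starProjection_of_mem_orthogonal
  · have e : (toE (fun _ => (∑ g, f g) / (Fintype.card (Perm α) : ℝ)) : EG α)
        = ((∑ g, f g) / (Fintype.card (Perm α) : ℝ)) •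
          toE (ind (default : Fin 0 ↪ α) (default : Fin 0 ↪ α)) := by
      ext g
      simp [toE, ind]
    rw [e]
    exact Submodule.smul_mem _ _ (Submodule.subset_span ⟨(default, default), rfl⟩)
  · rw [mem_Vle_orth]
    intro x y
    have : ∀ g : Perm α, ind x y g = 1 := by
      intro g
      simp [ind]
    simp only [this, mul_one]
    have h2 : ∀ g : Perm α,
        (f - toE (fun _ => (∑ g, f g) / (Fintype.card (Perm α) : ℝ)) : EG α) g
        = f g - (∑ g, f g) / (Fintype.card (Perm α) : ℝ) := fun g => rfl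
    simp_rw [h2]
    rw [Finset.sum_sub_distrib, Finset.sum_const, Finset.card_univ, nsmul_eq_mul]
    field_simp
    ring

theorem norm_proj_Vle_zero (f : EG α) :
    ‖(Vle α 0).starProjection f‖ ^ 2 = (∑ g, f g) ^ 2 / (Fintype.card (Perm α) : ℝ) := by
  have hpos : (Fintype.card (Perm α) : ℝ) ≠ 0 := by
    exact_mod_cast Fintype.card_ne_zero
  rw [proj_Vle_zero, norm_sq_EG]
  simp only [toE_apply]
  rw [Finset.sum_const, Finset.card_univ, nsmul_eq_mul]
  field_simp

/-- projection on the level exactly `l` -/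
noncomputable def Pl (l : ℕ) (f : EG α) : EG α :=
  (Vle α l).starProjection f - (Vle α (l - 1)).starProjection f

/-- the level `l` space -/
noncomputable def Ul (α : Type*) [Fintype α] [DecidableEq α] (l : ℕ) : Submodule ℝ (EG α) :=
  Vle α l ⊓ (Vle α (l - 1))ᗮ

theorem Pl_mem (l : ℕ) (h1 : 1 ≤ l) (hl : l ≤ Fintype.card α) (f : EG α) : Pl l f ∈ Ul α l := by
  have hle : Vle α (l - 1) ≤ Vle α l := by
    have := Vle_mono_succ (α := α) (l - 1) (by omega)
    rwa [Nat.sub_add_cancel h1] at this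
  refine ⟨?_, ?_⟩
  · exact Submodule.sub_mem _ ((Vle α l).starProjection_apply_mem f)
      (hle ((Vle α (l - 1)).starProjection_apply_mem f))
  · have h1 : (Vle α (l - 1)).starProjection ((Vle α l).starProjection f)
        = (Vle α (l - 1)).starProjection f := by
      have := Submodule.starProjection_comp_starProjection_of_le hle
      exact congrArg (fun T : EG α →L[ℝ] EG α => T f) this
    have h2 := (Vle α (l - 1)).sub_starProjection_mem_orthogonal ((Vle α l).starProjection f)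
    rwa [h1] at h2

theorem norm_Pl_sq_le (l : ℕ) (h1 : 1 ≤ l) (hl : l ≤ Fintype.card α) (f : EG α) :
    ‖Pl l f‖ ^ 2 ≤ ‖(Vle α l).starProjection f‖ ^ 2 := by
  have hm := Pl_mem l h1 hl f
  have h3 : inner ℝ ((Vle α (l - 1)).starProjection f) (Pl l f) = 0 :=
    (Submodule.mem_orthogonal _ _).mp hm.2 _ ((Vle α (l - 1)).starProjection_apply_mem f)
  have h4 : (Vle α l).starProjection f = (Vle α (l - 1)).starProjection f + Pl l f := by
    unfold Pl; abel
  rw [h4, ← real_inner_self_eq_norm_sq ((Vle α (l - 1)).starProjection f + Pl l f),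
    inner_add_left, inner_add_right, inner_add_right, h3,
    real_inner_comm ((Vle α (l - 1)).starProjection f) (Pl l f), h3,
    real_inner_self_eq_norm_sq, real_inner_self_eq_norm_sq]
  have := sq_nonneg ‖(Vle α (l - 1)).starProjection f‖
  linarith

theorem norm_proj_sq_le (V : Submodule ℝ (EG α)) (f : EG α) :
    ‖V.starProjection f‖ ^ 2 ≤ ‖f‖ ^ 2 := by
  have := V.norm_starProjection_apply_le f
  gcongr

/-- full decomposition -/
theorem norm_sq_split (f : EG α) :
    ‖f‖ ^ 2 = (∑ g, f g) ^ 2 / (Fintype.card (Perm α) : ℝ)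
      + ∑ l ∈ Finset.Icc 1 (Fintype.card α), ‖Pl l f‖ ^ 2 := by
  have h := chain_norm_sq (fun l => Vle α (min l (Fintype.card α))) (fun l => by
    by_cases hl : l + 1 ≤ Fintype.card α
    · rw [min_eq_left (by omega), min_eq_left hl]
      exact Vle_mono_succ l hl
    · rw [min_eq_right (by omega), min_eq_right (by omega)]) (Fintype.card α) f
  rw [min_self, Vle_card, Submodule.starProjection_top, ContinuousLinearMap.id_apply,
    Nat.zero_min, norm_proj_Vle_zero] at h
  rw [h]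
  congr 1
  apply Finset.sum_congr rfl
  intro l hl
  rw [Finset.mem_Icc] at hl
  rw [min_eq_left hl.2, min_eq_left (by omega)]
  rfl

theorem lcv_mem_Vle (p : Perm α → ℝ) (l : ℕ) (v : EG α) (hv : v ∈ Vle α l) :
    lcv p v ∈ Vle α l := by
  obtain ⟨u, rfl⟩ := Vle_le_range l v hv
  rw [lcv_rcv]
  exact Q_mem_Vle l _

theorem lcv_mem_Ul (p : Perm α → ℝ) (hp : ∀ g, p g⁻¹ = p g) (l : ℕ) (v : EG α)
    (hv : v ∈ Ul α l) : lcv p v ∈ Ul α l := by
  refine ⟨lcv_mem_Vle p l v hv.1, ?_⟩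
  show lcv p v ∈ (Vle α (l - 1))ᗮ
  rw [Submodule.mem_orthogonal']
  intro u hu
  rw [lcv_symm p hp]
  exact (Submodule.mem_orthogonal' _ _).mp hv.2 _ (lcv_mem_Vle p _ u hu)

theorem Pl_lcv (p : Perm α → ℝ) (hp : ∀ g, p g⁻¹ = p g) (l : ℕ) (f : EG α) :
    Pl l (lcv p f) = lcv p (Pl l f) := by
  unfold Pl
  rw [starProjection_comm (lcv p) (lcv_symm p hp) _ (lcv_mem_Vle p _),
    starProjection_comm (lcv p) (lcv_symm p hp) _ (lcv_mem_Vle p _), map_sub]

theorem Pl_lcv_pow (p : Perm α → ℝ) (hp : ∀ g, p g⁻¹ = p g) (l k : ℕ) (f : EG α) :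
    Pl l ((lcv p ^ k) f) = (lcv p ^ k) (Pl l f) := by
  induction k with
  | zero => rfl
  | succ k ih => rw [pow_succ', Module.End.mul_apply, Pl_lcv p hp, ih, Module.End.mul_apply]

theorem lcv_pow_cvPow (p : Perm α → ℝ) (j k : ℕ) :
    (lcv p ^ k) (toE (cvPow p j)) = toE (cvPow p (j + k)) := by
  induction k with
  | zero => rfl
  | succ k ih =>
    rw [pow_succ', Module.End.mul_apply, ih, lcv_toE, ← Nat.add_assoc, cvPow_succ]

theorem cvPow_inv (p : Perm α → ℝ) (hp : ∀ g, p g⁻¹ = p g) (k : ℕ) (g : Perm α) :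
    cvPow p k g⁻¹ = cvPow p k g := by
  have hcv : ∀ (a b : Perm α → ℝ) (g : Perm α),
      cv a b g⁻¹ = cv (fun h => b h⁻¹) (fun h => a h⁻¹) g := by
    intro a b g
    unfold cv
    symm
    rw [← Equiv.sum_comp (Equiv.mulLeft g)]
    apply Finset.sum_congr rfl
    intro h _
    have e1 : (Equiv.mulLeft g h)⁻¹ = h⁻¹ * g⁻¹ := by
      simp [Equiv.coe_mulLeft, mul_inv_rev]
    have e2 : ((Equiv.mulLeft g h)⁻¹ * g)⁻¹ = h := by
      rw [e1, inv_mul_cancel_right, inv_inv]
    show b (Equiv.mulLeft g h)⁻¹ * a ((Equiv.mulLeft g h)⁻¹ * g)⁻¹ = _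
    rw [e2, e1, mul_comm]
  have hcomm : cv p (cvPow p k) = cv (cvPow p k) p := by
    rw [← cvPow_succ]
    have := cvPow_add p k 1
    rw [cvPow_one] at this
    exact this
  induction k generalizing g with
  | zero =>
    rw [cvPow_zero]
    unfold dlt
    simp
  | succ k ih =>
    have hcomm' : cv p (cvPow p k) = cv (cvPow p k) p := by
      rw [← cvPow_succ]
      have := cvPow_add p k 1
      rw [cvPow_one] at this
      exact this
    rw [cvPow_succ, hcv]
    have e1 : (fun h => cvPow p k h⁻¹) = cvPow p k := by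
      funext h
      apply ih
      exact hcomm'
    have e2 : (fun h => p h⁻¹) = p := by funext h; exact hp h
    rw [e1, e2, hcomm']

theorem sum_cvPow (p : Perm α → ℝ) (k : ℕ) : ∑ g, cvPow p k g = (∑ g, p g) ^ k := by
  induction k with
  | zero => rw [cvPow_zero]; simp [dlt]
  | succ k ih => rw [cvPow_succ, sum_cv, ih, pow_succ']

theorem cvPow_two_mul_one (p : Perm α → ℝ) (hp : ∀ g, p g⁻¹ = p g) (k : ℕ) :
    cvPow p (k + k) 1 = ‖(toE (cvPow p k) : EG α)‖ ^ 2 := by
  rw [cvPow_add, norm_sq_EG]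
  unfold cv
  apply Finset.sum_congr rfl
  intro h _
  rw [mul_one, cvPow_inv p hp, toE_apply, sq]

/-- the contribution of level `l` to `m! ζ^{*120}(1)` -/
noncomputable def Tl (ζ : Perm α → ℝ) (l : ℕ) : ℝ :=
  ((Fintype.card α).factorial : ℝ) * ‖Pl l (toE (cvPow ζ 60) : EG α)‖ ^ 2

/-- `X_l = m! ‖P_l ζ^{*2}‖²` -/
noncomputable def Xl (ζ : Perm α → ℝ) (l : ℕ) : ℝ :=
  ((Fintype.card α).factorial : ℝ) * ‖Pl l (toE (cvPow ζ 2) : EG α)‖ ^ 2

theorem Xl_nonneg (ζ : Perm α → ℝ) (l : ℕ) : 0 ≤ Xl ζ l := by unfold Xl; positivity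
theorem Tl_nonneg (ζ : Perm α → ℝ) (l : ℕ) : 0 ≤ Tl ζ l := by unfold Tl; positivity

/-- 4.1 SPLIT -/
theorem split (ζ : Perm α → ℝ) (hsym : ∀ g, ζ g⁻¹ = ζ g) :
    ((Fintype.card α).factorial : ℝ) * cvPow ζ 120 1 - (∑ g, ζ g) ^ 120
      = ∑ l ∈ Finset.Icc 1 (Fintype.card α), Tl ζ l := by
  have h1 := cvPow_two_mul_one ζ hsym 60
  have h2 := norm_sq_split (toE (cvPow ζ 60) : EG α)
  have h3 : ∑ g, (toE (cvPow ζ 60) : EG α) g = (∑ g, ζ g) ^ 60 := sum_cvPow ζ 60
  rw [h3] at h2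
  rw [show (120 : ℕ) = 60 + 60 from rfl, h1, h2, Fintype.card_perm]
  have hpos : (((Fintype.card α).factorial : ℕ) : ℝ) ≠ 0 := by
    exact_mod_cast (Nat.factorial_ne_zero _)
  unfold Tl
  rw [← Finset.mul_sum, mul_add]
  field_simp
  ring

/-- membership in the level `l` space, for plain functions -/
def InU (l : ℕ) (f : Perm α → ℝ) : Prop :=
  f ∈ Submodule.span ℝ (Set.range (fun p : (Fin l ↪ α) × (Fin l ↪ α) => ind p.1 p.2)) ∧
    ∀ x y : Fin (l - 1) ↪ α, ∑ g, f g * ind x y g = 0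

theorem toE_mem_Vle_iff (l : ℕ) (f : EG α) :
    f ∈ Vle α l ↔
      (fun g => f g) ∈ Submodule.span ℝ
        (Set.range (fun p : (Fin l ↪ α) × (Fin l ↪ α) => ind (α := α) p.1 p.2)) := by
  have e : Vle α l = (Submodule.span ℝ
      (Set.range (fun p : (Fin l ↪ α) × (Fin l ↪ α) => ind (α := α) p.1 p.2))).map
        ((WithLp.linearEquiv 2 ℝ (Perm α → ℝ)).symm : (Perm α → ℝ) →ₗ[ℝ] EG α) := by
    rw [Submodule.map_span]
    unfold Vle
    congr 1
    ext v
    constructor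
    · rintro ⟨p, rfl⟩
      exact ⟨_, ⟨p, rfl⟩, rfl⟩
    · rintro ⟨_, ⟨p, rfl⟩, rfl⟩
      exact ⟨p, rfl⟩
  rw [e, Submodule.mem_map]
  constructor
  · rintro ⟨v, hv, rfl⟩
    exact hv
  · intro h
    exact ⟨_, h, rfl⟩

theorem InU_of_mem_Ul (l : ℕ) (f : EG α) (hf : f ∈ Ul α l) : InU l (fun g => f g) :=
  ⟨(toE_mem_Vle_iff l f).mp hf.1, (mem_Vle_orth (l - 1) f).mp hf.2⟩

/-- contraction on the level `l` -/
theorem Tl_le (ζ : Perm α → ℝ) (hsym : ∀ g, ζ g⁻¹ = ζ g)
    (hpsd : ∀ f : Perm α → ℝ, 0 ≤ ∑ g, f g * cv ζ f g) (l : ℕ) (h1 : 1 ≤ l)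
    (hl : l ≤ Fintype.card α) (c : ℝ) (hc0 : 0 ≤ c)
    (hc : ∀ f : Perm α → ℝ, InU l f → ∑ g, f g * cv ζ f g ≤ c * ∑ g, f g ^ 2) :
    Tl ζ l ≤ c ^ 116 * Xl ζ l := by
  have e : (toE (cvPow ζ 60) : EG α) = (lcv ζ ^ 58) (toE (cvPow ζ 2)) := by
    rw [lcv_pow_cvPow]
  have h := norm_sq_Z_pow_le (lcv ζ) (lcv_symm ζ hsym) (fun u => by
      rw [real_inner_comm, inner_EG]
      exact hpsd (fun g => u g)) (Ul α l) (fun u hu => lcv_mem_Ul ζ hsym l u hu) c hc0
      (fun u hu => by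
        rw [real_inner_comm, inner_EG, norm_sq_EG]
        exact hc (fun g => u g) (InU_of_mem_Ul l u hu)) 58 (Pl l (toE (cvPow ζ 2)))
      (Pl_mem l h1 hl _)
  unfold Tl Xl
  rw [e, Pl_lcv_pow ζ hsym]
  calc ((Fintype.card α).factorial : ℝ) * ‖(lcv ζ ^ 58) (Pl l (toE (cvPow ζ 2) : EG α))‖ ^ 2
      ≤ ((Fintype.card α).factorial : ℝ) * (c ^ (2 * 58) * ‖Pl l (toE (cvPow ζ 2) : EG α)‖ ^ 2) :=
        mul_le_mul_of_nonneg_left h.2 (by positivity)
    _ = c ^ 116 * (((Fintype.card α).factorial : ℝ) * ‖Pl l (toE (cvPow ζ 2) : EG α)‖ ^ 2) := by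
        ring

/-- (X1) -/
theorem Xl_le1 (ζ : Perm α → ℝ) (l : ℕ) (h1 : 1 ≤ l) (hl : l ≤ Fintype.card α) :
    Xl ζ l ≤ ((Fintype.card α).factorial : ℝ) * ∑ g, (cvPow ζ 2 g) ^ 2 := by
  unfold Xl
  apply mul_le_mul_of_nonneg_left _ (by positivity)
  have h2 := norm_Pl_sq_le l h1 hl (toE (cvPow ζ 2) : EG α)
  have h3 := norm_proj_sq_le (Vle α l) (toE (cvPow ζ 2) : EG α)
  rw [norm_sq_EG (toE (cvPow ζ 2))] at h3
  exact h2.trans h3

theorem card_fixS (A : Finset α) : (fixS A).card = (Fintype.card α - A.card).factorial := by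
  have h1 : Fintype.card {f : Perm α // ∀ a, ¬ (a ∉ A) → f a = a} = (fixS A).card := by
    rw [Fintype.card_subtype]
    congr 1
    ext f
    simp [mem_fixS]
  rw [← h1, ← Fintype.card_congr (Equiv.Perm.subtypeEquivSubtypePerm (fun a => a ∉ A)),
    Fintype.card_perm]
  congr 1
  have := Fintype.card_subtype_compl (fun a => a ∈ A)
  rw [this]
  simp

theorem card_agree_le {l : ℕ} (x y : Fin l ↪ α) :
    ((univ.filter (fun g : Perm α => ∀ i, g (x i) = y i)).card)
      ≤ (fixS (univ.map x)).card := by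
  by_cases hne : (univ.filter (fun g : Perm α => ∀ i, g (x i) = y i)).Nonempty
  · obtain ⟨g0, hg0⟩ := hne
    rw [Finset.mem_filter] at hg0
    apply Finset.card_le_card_of_injOn (fun g => g0⁻¹ * g)
    · intro g hg
      rw [Finset.mem_coe, Finset.mem_filter] at hg
      show g0⁻¹ * g ∈ fixS (univ.map x)
      rw [mem_fixS]
      intro a ha
      rw [Finset.mem_map] at ha
      obtain ⟨i, _, rfl⟩ := ha
      rw [Perm.mul_apply, hg.2 i, Perm.inv_eq_iff_eq, hg0.2 i]
    · intro a _ b _ hab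
      simpa using hab
  · rw [Finset.not_nonempty_iff_eq_empty] at hne
    rw [hne]
    simp

theorem norm_PA_le {l : ℕ} (x : Fin l ↪ α) (f : EG α) :
    ‖PA (univ.map x) f‖ ^ 2 ≤ (1 / ((Fintype.card α - l).factorial : ℝ))
      * ∑ y : Fin l ↪ α, (∑ h, f h * ind x y h) ^ 2 := by
  have hN : ((fixS (univ.map x)).card : ℝ) = ((Fintype.card α - l).factorial : ℝ) := by
    rw [card_fixS]; simp
  have hNpos : 0 < ((Fintype.card α - l).factorial : ℝ) := by positivity
  rw [norm_sq_EG]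
  simp_rw [PA_apply_eq, hN]
  have h1 : ∀ g : Perm α, (1 / ((Fintype.card α - l).factorial : ℝ)
        * ∑ h, f h * ind x (x.trans g.toEmbedding) h) ^ 2
      = ∑ y : Fin l ↪ α, (if (∀ i, g (x i) = y i) then
          (1 / ((Fintype.card α - l).factorial : ℝ)) ^ 2 * (∑ h, f h * ind x y h) ^ 2 else 0) := by
    intro g
    rw [Finset.sum_eq_single (x.trans g.toEmbedding)]
    · rw [if_pos (show ∀ i, g (x i) = (x.trans g.toEmbedding) i from fun i => rfl), mul_pow]
    · intro y _ hy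
      rw [if_neg]
      intro h
      apply hy
      ext i
      exact (h i).symm
    · intro h
      exact absurd (Finset.mem_univ _) h
  simp_rw [h1]
  rw [Finset.sum_comm, Finset.mul_sum]
  apply Finset.sum_le_sum
  intro y _
  rw [← Finset.sum_filter, Finset.sum_const, nsmul_eq_mul]
  have h2 : ((univ.filter (fun g : Perm α => ∀ i, g (x i) = y i)).card : ℝ)
      ≤ ((Fintype.card α - l).factorial : ℝ) := by
    rw [← hN]
    exact_mod_cast card_agree_le x y
  calc ((univ.filter (fun g : Perm α => ∀ i, g (x i) = y i)).card : ℝ)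
        * ((1 / ((Fintype.card α - l).factorial : ℝ)) ^ 2 * (∑ h, f h * ind x y h) ^ 2)
      ≤ ((Fintype.card α - l).factorial : ℝ)
        * ((1 / ((Fintype.card α - l).factorial : ℝ)) ^ 2 * (∑ h, f h * ind x y h) ^ 2) :=
        mul_le_mul_of_nonneg_right h2 (by positivity)
    _ = 1 / ((Fintype.card α - l).factorial : ℝ) * (∑ h, f h * ind x y h) ^ 2 := by
        field_simp

theorem sum_powersetCard_le (l : ℕ) (F : Finset α → ℝ) (hF : ∀ A, 0 ≤ F A) :
    (l.factorial : ℝ) * ∑ A ∈ powersetCard l (univ : Finset α), F A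
      ≤ ∑ x : Fin l ↪ α, F (univ.map x) := by
  rw [← Finset.sum_fiberwise_of_maps_to (s := (univ : Finset (Fin l ↪ α)))
    (t := powersetCard l (univ : Finset α)) (g := fun x => univ.map x)
    (fun x _ => by rw [Finset.mem_powersetCard]; exact ⟨Finset.subset_univ _, by simp⟩),
    Finset.mul_sum]
  apply Finset.sum_le_sum
  intro A hA
  rw [Finset.mem_powersetCard] at hA
  have h1 : ∑ x ∈ univ.filter (fun x : Fin l ↪ α => univ.map x = A), F (univ.map x)
      = ((univ.filter (fun x : Fin l ↪ α => univ.map x = A)).card : ℝ) * F A := by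
    rw [Finset.sum_congr rfl (fun x hx => by rw [(Finset.mem_filter.mp hx).2]),
      Finset.sum_const, nsmul_eq_mul]
  rw [h1]
  apply mul_le_mul_of_nonneg_right _ (hF A)
  obtain ⟨x0, hx0⟩ := exists_emb hA.2
  have h2 : Fintype.card (Perm (Fin l)) ≤ (univ.filter (fun x : Fin l ↪ α => univ.map x = A)).card := by
    rw [← Finset.card_univ]
    apply Finset.card_le_card_of_injOn (fun σ => σ.toEmbedding.trans x0)
    · intro σ _
      rw [Finset.mem_coe, Finset.mem_filter]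
      refine ⟨Finset.mem_univ _, ?_⟩
      rw [← hx0, ← Finset.map_map]
      congr 1
      simp
    · intro σ _ τ _ h
      ext i
      have := DFunLike.congr_fun h i
      simp only [Function.Embedding.trans_apply, Equiv.coe_toEmbedding] at this
      rw [x0.injective this]
  rw [Fintype.card_perm, Fintype.card_fin] at h2
  exact_mod_cast h2

theorem LV' (l : ℕ) (hl : l ≤ Fintype.card α) (f : EG α) :
    ((Fintype.card α).factorial : ℝ) * ‖(Vle α l).starProjection f‖ ^ 2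
      ≤ ((Fintype.card α).choose l : ℝ)
        * ∑ x : Fin l ↪ α, ∑ y : Fin l ↪ α, (∑ h, f h * ind x y h) ^ 2 := by
  have h1 := LV l f
  have h2 := sum_powersetCard_le l (fun A => ‖PA A f‖ ^ 2) (fun A => by positivity)
  have h3 : ∑ x : Fin l ↪ α, ‖PA (univ.map x) f‖ ^ 2
      ≤ (1 / ((Fintype.card α - l).factorial : ℝ))
        * ∑ x : Fin l ↪ α, ∑ y : Fin l ↪ α, (∑ h, f h * ind x y h) ^ 2 := by
    rw [Finset.mul_sum]
    exact Finset.sum_le_sum (fun x _ => norm_PA_le x f)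
  have hch : ((Fintype.card α).choose l : ℝ) * ((l.factorial : ℝ)
      * ((Fintype.card α - l).factorial : ℝ)) = ((Fintype.card α).factorial : ℝ) := by
    rw [← mul_assoc]
    exact_mod_cast Nat.choose_mul_factorial_mul_factorial hl
  have hl0 : 0 < (l.factorial : ℝ) := by positivity
  have hml : 0 < ((Fintype.card α - l).factorial : ℝ) := by positivity
  set S := ∑ x : Fin l ↪ α, ∑ y : Fin l ↪ α, (∑ h, f h * ind x y h) ^ 2
  set T := ∑ A ∈ powersetCard l (univ : Finset α), ‖PA A f‖ ^ 2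
  have h4 : (l.factorial : ℝ) * ((Fintype.card α - l).factorial : ℝ) * T ≤ S := by
    have h5 := h2.trans h3
    have h6 := mul_le_mul_of_nonneg_left h5 hml.le
    calc (l.factorial : ℝ) * ((Fintype.card α - l).factorial : ℝ) * T
        = ((Fintype.card α - l).factorial : ℝ) * ((l.factorial : ℝ) * T) := by ring
      _ ≤ ((Fintype.card α - l).factorial : ℝ)
          * (1 / ((Fintype.card α - l).factorial : ℝ) * S) := h6
      _ = S := by field_simp
  calc ((Fintype.card α).factorial : ℝ) * ‖(Vle α l).starProjection f‖ ^ 2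
      ≤ ((Fintype.card α).factorial : ℝ) * T := mul_le_mul_of_nonneg_left h1 (by positivity)
    _ = ((Fintype.card α).choose l : ℝ)
        * ((l.factorial : ℝ) * ((Fintype.card α - l).factorial : ℝ) * T) := by
        rw [← hch]; ring
    _ ≤ ((Fintype.card α).choose l : ℝ) * S := mul_le_mul_of_nonneg_left h4 (by positivity)

/-- (X2) -/
theorem Xl_le2 (ζ : Perm α → ℝ) (l : ℕ) (h1 : 1 ≤ l) (hl : l ≤ Fintype.card α) :
    Xl ζ l ≤ ((Fintype.card α).choose l : ℝ)
        * ∑ x : Fin l ↪ α, ∑ y : Fin l ↪ α, (∑ g, cvPow ζ 2 g * ind x y g) ^ 2 := by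
  refine le_trans ?_ (LV' l hl (toE (cvPow ζ 2) : EG α))
  unfold Xl
  exact mul_le_mul_of_nonneg_left (norm_Pl_sq_le l h1 hl _) (by positivity)

theorem quad_le (ζ : Perm α → ℝ) (hnn : ∀ g, 0 ≤ ζ g) (hsum : ∑ g, ζ g ≤ 1) (f : Perm α → ℝ) :
    ∑ g, f g * cv ζ f g ≤ 1 * ∑ g, f g ^ 2 := by
  unfold cv
  simp_rw [Finset.mul_sum]
  rw [Finset.sum_comm]
  have h1 : ∀ h : Perm α, ∑ g, f g * (ζ h * f (h⁻¹ * g)) ≤ ζ h * ∑ g, f g ^ 2 := by
    intro h
    have h2 : ∀ g : Perm α, f g * (ζ h * f (h⁻¹ * g))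
        ≤ ζ h * ((f g ^ 2 + f (h⁻¹ * g) ^ 2) / 2) := by
      intro g
      have := hnn h
      nlinarith [sq_nonneg (f g - f (h⁻¹ * g)), mul_nonneg this (sq_nonneg (f g - f (h⁻¹ * g)))]
    refine (Finset.sum_le_sum (fun g _ => h2 g)).trans ?_
    rw [← Finset.mul_sum, ← Finset.sum_div, Finset.sum_add_distrib]
    have h3 : ∑ g : Perm α, f (h⁻¹ * g) ^ 2 = ∑ g, f g ^ 2 :=
      Equiv.sum_comp (Equiv.mulLeft h⁻¹) (fun g => f g ^ 2)
    rw [h3]
    apply le_of_eq
    ring
  refine (Finset.sum_le_sum (fun h _ => h1 h)).trans ?_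
  rw [← Finset.sum_mul]
  have h0 : 0 ≤ ∑ g, f g ^ 2 := Finset.sum_nonneg (fun g _ => sq_nonneg _)
  simpa using mul_le_mul_of_nonneg_right hsum h0

/-- (X3) -/
theorem Xl_le3 (ζ : Perm α → ℝ) (hnn : ∀ g, 0 ≤ ζ g) (hsum : ∑ g, ζ g ≤ 1)
    (hsym : ∀ g, ζ g⁻¹ = ζ g) (hpsd : ∀ f : Perm α → ℝ, 0 ≤ ∑ g, f g * cv ζ f g)
    (l : ℕ) (h1 : 1 ≤ l) (hl : l ≤ Fintype.card α) :
    Xl ζ l ≤ ((Fintype.card α).choose l : ℝ) ^ 2 * (l.factorial : ℝ) := by
  have e : (toE (cvPow ζ 2) : EG α) = (lcv ζ ^ 2) (toE (cvPow ζ 0)) := by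
    rw [lcv_pow_cvPow]
  have h := norm_sq_Z_pow_le (lcv ζ) (lcv_symm ζ hsym) (fun u => by
      rw [real_inner_comm, inner_EG]
      exact hpsd (fun g => u g)) (Ul α l) (fun u hu => lcv_mem_Ul ζ hsym l u hu) 1 zero_le_one
      (fun u hu => by
        rw [real_inner_comm, inner_EG, norm_sq_EG]
        exact quad_le ζ hnn hsum (fun g => u g)) 2 (Pl l (toE (cvPow ζ 0)))
      (Pl_mem l h1 hl _)
  have h2 : Xl ζ l ≤ ((Fintype.card α).factorial : ℝ)
      * ‖(Vle α l).starProjection (toE (cvPow ζ 0) : EG α)‖ ^ 2 := by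
    unfold Xl
    rw [e, Pl_lcv_pow ζ hsym]
    apply mul_le_mul_of_nonneg_left _ (by positivity)
    refine h.2.trans ?_
    rw [one_pow, one_mul]
    exact norm_Pl_sq_le l h1 hl _
  refine h2.trans ((LV' l hl _).trans ?_)
  have h3 : ∀ x y : Fin l ↪ α, (∑ h, (toE (cvPow ζ 0) : EG α) h * ind x y h) ^ 2
      = if x = y then 1 else 0 := by
    intro x y
    have : ∑ h, (toE (cvPow ζ 0) : EG α) h * ind x y h = ind x y 1 := by
      show ∑ h, dlt 1 h * ind x y h = _
      unfold dlt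
      simp
    rw [this]
    unfold ind
    by_cases hxy : x = y
    · subst hxy; simp
    · have : ¬ (∀ i, (1 : Perm α) (x i) = y i) := by
        intro h
        apply hxy
        ext i
        exact h i
      rw [if_neg this, if_neg hxy]
      simp
  simp_rw [h3]
  rw [Finset.sum_congr rfl (fun x _ => by rw [Finset.sum_ite_eq Finset.univ x, if_pos (Finset.mem_univ x)])]
  rw [Finset.sum_const, Finset.card_univ, nsmul_eq_mul, mul_one, Fintype.card_embedding_eq,
    Fintype.card_fin, Nat.descFactorial_eq_factorial_mul_choose]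
  push_cast
  apply le_of_eq
  ring

end Crest.Agent.T22
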