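import Crest.Agent.T22TrC
import Crest.Agent.ThConv

/-! S0222, part (L): contraction on level `l`. -/

set_option autoImplicit false
set_option linter.unusedSectionVars false

namespace Crest.Agent.T22

open Finset Equiv
open Crest.Agent.ThS (cv)
open scoped InnerProductSpace

section

variable {α : Type*} [Fintype α] [DecidableEq α]

/-- the bound of part (L) -/
noncomputable def cL (ζ : Perm α → ℝ) (l : ℕ) : ℝ :=
  ∑ g, ζ g * ((∑ X ∈ powersetCard l (univ : Finset α),
        1 / (((Fintype.card α - l).choose (X.map g.toEmbedding \ X).card : ℕ) : ℝ))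
          / ((Fintype.card α).choose l : ℝ))

theorem cv_pair (ζ φ : Perm α → ℝ) {l : ℕ} (x : Fin l → α) (y : Fin l → α) :
    ∑ g, cv ζ φ g * (if ∀ i, g (x i) = y i then (1 : ℝ) else 0)
      = ∑ h, ζ h * ∑ g, φ g * (if ∀ i, g (x i) = h⁻¹ (y i) then (1 : ℝ) else 0) := by
  unfold cv
  simp_rw [Finset.sum_mul]
  rw [Finset.sum_comm]
  refine Finset.sum_congr rfl fun h _ => ?_
  rw [Finset.mul_sum, ← Equiv.sum_comp (Equiv.mulLeft h)]
  refine Finset.sum_congr rfl fun g _ => ?_
  have e1 : h⁻¹ * (Equiv.mulLeft h) g = g := by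
    show h⁻¹ * (h * g) = g
    group
  have e2 : (∀ i, ((Equiv.mulLeft h) g) (x i) = y i) ↔ (∀ i, g (x i) = h⁻¹ (y i)) := by
    refine forall_congr' fun i => ?_
    show h (g (x i)) = y i ↔ _
    constructor
    · intro hh; rw [← hh]; exact (h.symm_apply_apply _).symm
    · intro hh; rw [hh]; exact h.apply_symm_apply _
  rw [e1, if_congr e2 rfl rfl]
  ring

/-- an eigenvalue on level `k+1` -/
theorem eig_level (ζ : Perm α → ℝ) (hζ : ∀ g, 0 ≤ ζ g) (hcl : ∀ g k, ζ (k * g * k⁻¹) = ζ g)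
    (k : ℕ) (hm : 2 * (k + 1) ≤ Fintype.card α) (φ : Perm α → ℝ)
    (hsp : ∀ ψ : Perm α → ℝ, (∀ x y : Fin (k + 1) ↪ α,
      ∑ g, ψ g * (if ∀ i, g (x i) = y i then (1 : ℝ) else 0) = 0) → ∑ g, ψ g * φ g = 0)
    (horth : ∀ x y : Fin k ↪ α, ∑ g, φ g * (if ∀ i, g (x i) = y i then (1 : ℝ) else 0) = 0)
    (hne : φ ≠ 0) (c : ℝ) (heig : ∀ g, cv ζ φ g = c * φ g) : c ≤ cL ζ (k + 1) := by
  classical
  -- find x with nonzero marginal
  obtain ⟨x, y0, hxy⟩ : ∃ x y0 : Fin (k + 1) ↪ α,
      ∑ g, φ g * (if ∀ i, g (x i) = y0 i then (1 : ℝ) else 0) ≠ 0 := by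
    by_contra hcon
    push Not at hcon
    have h1 := hsp φ hcon
    apply hne
    funext g
    have h2 := (Finset.sum_eq_zero_iff_of_nonneg (fun g _ => mul_self_nonneg (φ g))).mp h1 g
      (Finset.mem_univ _)
    exact mul_self_eq_zero.mp h2
  set F : (Fin (k + 1) → α) → ℝ := fun y =>
    ∑ g, φ g * (if ∀ i, g (x i) = y i then (1 : ℝ) else 0) with hFdef
  have hinj : ∀ y, F y ≠ 0 → Function.Injective y := by
    intro y hy
    by_contra hni
    apply hy
    rw [hFdef]
    refine Finset.sum_eq_zero fun g _ => ?_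
    rw [if_neg, mul_zero]
    intro h
    apply hni
    intro a b hab
    rw [← h a, ← h b] at hab
    exact x.injective (g.injective hab)
  have hnew : ∀ (i : Fin (k + 1)) (y : Fin (k + 1) → α),
      ∑ b, F (Function.update y i b) = 0 := by
    intro i y
    have h1 : ∑ b, F (Function.update y i b)
        = ∑ g, φ g * (if ∀ j : Fin k, g (x (i.succAbove j)) = y (i.succAbove j)
          then (1 : ℝ) else 0) := by
      rw [hFdef]
      simp only
      rw [Finset.sum_comm]
      refine Finset.sum_congr rfl fun g _ => ?_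
      rw [← Finset.mul_sum]
      congr 1
      have h2 : ∀ b, (if ∀ j, g (x j) = Function.update y i b j then (1 : ℝ) else 0)
          = if b = g (x i) then (if ∀ j : Fin k, g (x (i.succAbove j)) = y (i.succAbove j)
          then (1 : ℝ) else 0) else 0 := by
        intro b
        by_cases hb : b = g (x i)
        · rw [if_pos hb]
          congr 1
          apply propext
          constructor
          · intro h j
            have := h (i.succAbove j)
            rwa [Function.update_of_ne (Fin.succAbove_ne i j)] at this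
          · intro h j
            by_cases hj : j = i
            · subst hj; rw [Function.update_self]; exact hb.symm
            · rw [Function.update_of_ne hj]
              obtain ⟨j', rfl⟩ := Fin.exists_succAbove_eq hj
              exact h j'
        · rw [if_neg hb, if_neg]
          intro h
          have := h i
          rw [Function.update_self] at this
          exact hb this.symm
      rw [Finset.sum_congr rfl (fun b _ => h2 b), Finset.sum_ite_eq' Finset.univ (g (x i))]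
      simp
    rw [h1]
    by_cases hy : Function.Injective (fun j : Fin k => y (i.succAbove j))
    · exact horth ⟨fun j => x (i.succAbove j), fun a b h =>
        Fin.succAbove_right_injective (x.injective h)⟩ ⟨_, hy⟩
    · refine Finset.sum_eq_zero fun g _ => ?_
      rw [if_neg, mul_zero]
      intro h
      apply hy
      intro a b hab
      simp only at hab
      rw [← h a, ← h b] at hab
      exact Fin.succAbove_right_injective (x.injective (g.injective hab))
  have heigF : ∀ y, ∑ g, ζ g * F (fun i => g⁻¹ (y i)) = c * F y := by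
    intro y
    rw [hFdef]
    simp only
    rw [← cv_pair ζ φ x y, Finset.mul_sum]
    refine Finset.sum_congr rfl fun g _ => ?_
    rw [heig]
    ring
  have := L_core F hinj hnew ⟨y0, hxy⟩ ζ hζ hcl c heigF (by rw [Fintype.card_fin]; exact hm)
  rw [Fintype.card_fin] at this
  exact this

theorem cv_add (ζ f f' : Perm α → ℝ) : cv ζ (f + f') = cv ζ f + cv ζ f' := by
  funext g; simp [cv, mul_add, Finset.sum_add_distrib]
theorem cv_smul' (ζ f : Perm α → ℝ) (a : ℝ) : cv ζ (a • f) = a • cv ζ f := by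
  funext g
  simp only [cv, Pi.smul_apply, smul_eq_mul, Finset.mul_sum]
  exact Finset.sum_congr rfl fun h _ => by ring

theorem cv_symm (ζ : Perm α → ℝ) (hs : ∀ g, ζ g⁻¹ = ζ g) (f f' : Perm α → ℝ) :
    ∑ g, cv ζ f g * f' g = ∑ g, f g * cv ζ f' g := by
  unfold cv
  simp_rw [Finset.sum_mul, Finset.mul_sum]
  rw [Finset.sum_comm]
  rw [Finset.sum_congr rfl (fun h _ => (Equiv.sum_comp (Equiv.mulLeft h)
    (fun g => ζ h * f (h⁻¹ * g) * f' g)).symm)]
  rw [Finset.sum_comm]
  refine Finset.sum_congr rfl fun g _ => ?_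
  rw [← Equiv.sum_comp (Equiv.inv (Perm α))]
  refine Finset.sum_congr rfl fun h _ => ?_
  simp only [Equiv.inv_apply, Equiv.coe_mulLeft, inv_inv, hs, mul_inv_cancel_left]
  ring

/-- level `k+1` part as a subspace -/
noncomputable def Ulev (α : Type*) [Fintype α] [DecidableEq α] (k : ℕ) :
    Submodule ℝ (EuclideanSpace ℝ (Perm α)) where
  carrier := {f | (∀ ψ : Perm α → ℝ, (∀ x y : Fin (k + 1) ↪ α,
      ∑ g, ψ g * (if ∀ i, g (x i) = y i then (1 : ℝ) else 0) = 0) → ∑ g, ψ g * f g = 0)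
    ∧ ∀ x y : Fin k ↪ α, ∑ g, f g * (if ∀ i, g (x i) = y i then (1 : ℝ) else 0) = 0}
  add_mem' := by
    intro f f' hf hf'
    refine ⟨fun ψ hψ => ?_, fun x y => ?_⟩
    · have h1 := hf.1 ψ hψ
      have h2 := hf'.1 ψ hψ
      simp only [PiLp.add_apply, mul_add, Finset.sum_add_distrib, h1, h2, add_zero]
    · have h1 := hf.2 x y
      have h2 := hf'.2 x y
      simp only [PiLp.add_apply, add_mul, Finset.sum_add_distrib, h1, h2, add_zero]
  zero_mem' := by
    refine ⟨fun ψ _ => by simp, fun x y => by simp⟩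
  smul_mem' := by
    intro a f hf
    refine ⟨fun ψ hψ => ?_, fun x y => ?_⟩
    · have h1 := hf.1 ψ hψ
      have : ∑ g, ψ g * (a • f) g = a * ∑ g, ψ g * f g := by
        rw [Finset.mul_sum]
        refine Finset.sum_congr rfl fun g _ => ?_
        simp only [PiLp.smul_apply, smul_eq_mul]; ring
      rw [this, h1, mul_zero]
    · have h1 := hf.2 x y
      have : ∑ g, (a • f) g * (if ∀ i, g (x i) = y i then (1 : ℝ) else 0)
          = a * ∑ g, f g * (if ∀ i, g (x i) = y i then (1 : ℝ) else 0) := by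
        rw [Finset.mul_sum]
        refine Finset.sum_congr rfl fun g _ => ?_
        simp only [PiLp.smul_apply, smul_eq_mul]; ring
      rw [this, h1, mul_zero]

/-- convolution operator on the Euclidean space -/
noncomputable def Zop (ζ : Perm α → ℝ) :
    EuclideanSpace ℝ (Perm α) →ₗ[ℝ] EuclideanSpace ℝ (Perm α) where
  toFun f := WithLp.toLp 2 (cv ζ f.ofLp)
  map_add' f f' := by
    apply PiLp.ext
    intro g
    simp only [PiLp.add_apply]
    exact congrFun (cv_add ζ f.ofLp f'.ofLp) g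
  map_smul' a f := by
    apply PiLp.ext
    intro g
    simp only [PiLp.smul_apply, RingHom.id_apply]
    exact congrFun (cv_smul' ζ f.ofLp a) g

theorem Zop_apply (ζ : Perm α → ℝ) (f : EuclideanSpace ℝ (Perm α)) (g : Perm α) :
    Zop ζ f g = cv ζ f.ofLp g := rfl

theorem Zop_symm (ζ : Perm α → ℝ) (hs : ∀ g, ζ g⁻¹ = ζ g) : (Zop ζ).IsSymmetric := by
  intro f f'
  rw [PiLp.inner_apply, PiLp.inner_apply]
  have h := cv_symm ζ hs f.ofLp f'.ofLp
  simp only [RCLike.inner_apply, conj_trivial, Zop_apply]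
  calc ∑ g, f' g * cv ζ f.ofLp g = ∑ g, cv ζ f.ofLp g * f' g :=
        Finset.sum_congr rfl fun g _ => mul_comm _ _
    _ = ∑ g, f g * cv ζ f'.ofLp g := h
    _ = ∑ g, cv ζ f'.ofLp g * f g := Finset.sum_congr rfl fun g _ => mul_comm _ _

theorem Zop_inv (ζ : Perm α → ℝ) (hs : ∀ g, ζ g⁻¹ = ζ g) (k : ℕ)
    (f : EuclideanSpace ℝ (Perm α)) (hf : f ∈ Ulev α k) : Zop ζ f ∈ Ulev α k := by
  refine ⟨fun ψ hψ => ?_, fun x y => ?_⟩
  · have h1 : ∑ g, ψ g * Zop ζ f g = ∑ g, cv ζ ψ g * f g := by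
      rw [cv_symm ζ hs ψ f.ofLp]
      rfl
    rw [h1]
    apply hf.1
    intro x y
    rw [cv_pair ζ ψ x y]
    refine Finset.sum_eq_zero fun h _ => ?_
    have := hψ x (y.trans h⁻¹.toEmbedding)
    have e : ∀ i, (y.trans h⁻¹.toEmbedding) i = h⁻¹ (y i) := fun i => rfl
    simp only [e] at this
    rw [this, mul_zero]
  · have h1 := cv_pair ζ f.ofLp x y
    have h2 : ∑ g, Zop ζ f g * (if ∀ i, g (x i) = y i then (1 : ℝ) else 0)
        = ∑ g, cv ζ f.ofLp g * (if ∀ i, g (x i) = y i then (1 : ℝ) else 0) := rfl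
    rw [h2, h1]
    refine Finset.sum_eq_zero fun h _ => ?_
    have := hf.2 x (y.trans h⁻¹.toEmbedding)
    have e : ∀ i, (y.trans h⁻¹.toEmbedding) i = h⁻¹ (y i) := fun i => rfl
    simp only [e] at this
    rw [this, mul_zero]

/-- (L): contraction on level `l = k+1`, `2 l ≤ m` -/
theorem L_contract_aux (ζ : Perm α → ℝ) (hζ : ∀ g, 0 ≤ ζ g) (hcl : ∀ g k, ζ (k * g * k⁻¹) = ζ g)
    (hs : ∀ g, ζ g⁻¹ = ζ g) (k : ℕ) (hm : 2 * (k + 1) ≤ Fintype.card α)
    (f : EuclideanSpace ℝ (Perm α)) (hf : f ∈ Ulev α k) :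
    ⟪Zop ζ f, f⟫_ℝ ≤ cL ζ (k + 1) * ‖f‖ ^ 2 := by
  classical
  set U := Ulev α k with hU
  have hinv : ∀ v ∈ U, Zop ζ v ∈ U := fun v hv => Zop_inv ζ hs k v hv
  have hsym : ((Zop ζ).restrict hinv).IsSymmetric := (Zop_symm ζ hs).restrict_invariant hinv
  set T := (Zop ζ).restrict hinv with hT
  set b := hsym.eigenvectorBasis (n := Module.finrank ℝ U) rfl with hb
  have heigle : ∀ i, hsym.eigenvalues (n := Module.finrank ℝ U) rfl i ≤ cL ζ (k + 1) := by
    intro i
    have h1 := hsym.apply_eigenvectorBasis (n := Module.finrank ℝ U) rfl i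
    set u := hsym.eigenvectorBasis (n := Module.finrank ℝ U) rfl i with hu
    have hune : u ≠ 0 := by
      have := (hsym.eigenvectorBasis (n := Module.finrank ℝ U) rfl).orthonormal.ne_zero i
      exact this
    have h2 : Zop ζ (u : EuclideanSpace ℝ (Perm α))
        = (hsym.eigenvalues (n := Module.finrank ℝ U) rfl i) • (u : EuclideanSpace ℝ (Perm α)) := by
      have := congrArg (fun w : U => (w : EuclideanSpace ℝ (Perm α))) h1
      exact this
    refine eig_level ζ hζ hcl k hm (u : EuclideanSpace ℝ (Perm α)).ofLp u.2.1 u.2.2 ?_ _ ?_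
    · intro h
      apply hune
      apply Subtype.ext
      apply PiLp.ext
      intro g
      exact congrFun h g
    · intro g
      have := congrArg (fun w : EuclideanSpace ℝ (Perm α) => w g) h2
      exact this
  set f' : U := ⟨f, hf⟩ with hf'
  have h1 : ⟪Zop ζ f, f⟫_ℝ = ⟪T f', f'⟫_ℝ := rfl
  have h2 : ⟪T f', f'⟫_ℝ = ∑ i, ⟪T f', b i⟫_ℝ * ⟪b i, f'⟫_ℝ := (b.sum_inner_mul_inner _ _).symm
  have h3 : ‖f‖ ^ 2 = ∑ i, ⟪f', b i⟫_ℝ * ⟪b i, f'⟫_ℝ := by
    rw [b.sum_inner_mul_inner, real_inner_self_eq_norm_sq]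
    rfl
  rw [h1, h2, h3, Finset.mul_sum]
  refine Finset.sum_le_sum fun i _ => ?_
  have h4 : ⟪T f', b i⟫_ℝ = hsym.eigenvalues (n := Module.finrank ℝ U) rfl i * ⟪f', b i⟫_ℝ := by
    rw [hsym f' (b i)]
    have := hsym.apply_eigenvectorBasis (n := Module.finrank ℝ U) rfl i
    rw [hb, this, real_inner_smul_right]
    rfl
  rw [h4, mul_assoc]
  refine mul_le_mul_of_nonneg_right (heigle i) ?_
  rw [real_inner_comm]
  exact mul_self_nonneg _

/-- (L): contraction on level `l`, `1 ≤ l`, `2 l ≤ m` -/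
theorem L_contract (ζ : Perm α → ℝ) (hζ : ∀ g, 0 ≤ ζ g) (hcl : ∀ g k, ζ (k * g * k⁻¹) = ζ g)
    (hs : ∀ g, ζ g⁻¹ = ζ g) (l : ℕ) (hl : 1 ≤ l) (hm : 2 * l ≤ Fintype.card α)
    (f : Perm α → ℝ)
    (hspan : f ∈ Submodule.span ℝ (Set.range (fun p : (Fin l ↪ α) × (Fin l ↪ α) =>
      (fun g : Perm α => if ∀ i, g (p.1 i) = p.2 i then (1 : ℝ) else 0))))
    (horth : ∀ x y : Fin (l - 1) ↪ α,
      ∑ g, f g * (if ∀ i, g (x i) = y i then (1 : ℝ) else 0) = 0) :
    ∑ g, f g * cv ζ f g ≤ cL ζ l * ∑ g, f g ^ 2 := by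
  obtain ⟨k, rfl⟩ : ∃ k, l = k + 1 := ⟨l - 1, by omega⟩
  have hf : (WithLp.toLp 2 f : EuclideanSpace ℝ (Perm α)) ∈ Ulev α k := by
    refine ⟨fun ψ hψ => ?_, horth⟩
    show ∑ g, ψ g * f g = 0
    clear horth
    induction hspan using Submodule.span_induction with
    | mem x hx =>
      obtain ⟨p, rfl⟩ := hx
      exact hψ p.1 p.2
    | zero => simp
    | add a b _ _ ha hb =>
      simp only [Pi.add_apply, mul_add, Finset.sum_add_distrib, ha, hb, add_zero]
    | smul t a _ ha =>
      have : ∑ g, ψ g * (t • a) g = t * ∑ g, ψ g * a g := by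
        rw [Finset.mul_sum]
        refine Finset.sum_congr rfl fun g _ => ?_
        simp only [Pi.smul_apply, smul_eq_mul]; ring
      rw [this, ha, mul_zero]
  have h := L_contract_aux ζ hζ hcl hs k hm (WithLp.toLp 2 f) hf
  rw [EuclideanSpace.norm_sq_eq, PiLp.inner_apply] at h
  simp only [RCLike.inner_apply, conj_trivial, Real.norm_eq_abs, sq_abs] at h
  exact h

end

end Crest.Agent.T22
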