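import Crest.Agent.T22RWA
import Crest.Agent.T22TrD
import Crest.Agent.T22Lev2

/-! S0222: the random walk theorem. -/

set_option autoImplicit false

namespace Crest.Agent.T22

open Finset Crest.Agent.ThS Crest.Agent.T22Num
open scoped Nat

/-- the level-`l` space, as in `L_contract` -/
def PU (m l : ℕ) (f : Equiv.Perm (Fin m) → ℝ) : Prop :=
  f ∈ Submodule.span ℝ (Set.range (fun p : (Fin l ↪ Fin m) × (Fin l ↪ Fin m) =>
      (fun g : Equiv.Perm (Fin m) => if ∀ i, g (p.1 i) = p.2 i then (1 : ℝ) else 0))) ∧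
  ∀ x y : Fin (l - 1) ↪ Fin m,
      ∑ g, f g * (if ∀ i, g (x i) = y i then (1 : ℝ) else 0) = 0

theorem RW_core2 (m : ℕ) (zeta : Equiv.Perm (Fin m) → ℝ) (hz : RWHyp m zeta) (lhs ε : ℝ)
    (T X : ℕ → ℝ)
    (hsplit : lhs ≤ ∑ l ∈ Finset.Icc 1 m, T l)
    (hT : ∀ l c, 1 ≤ l → l ≤ m → 0 ≤ c →
      (∀ f, PU m l f → ∑ g, f g * cv zeta f g ≤ c * ∑ g, f g ^ 2) → T l ≤ c ^ 116 * X l)
    (hX0 : ∀ l, 0 ≤ X l)
    (hX1 : ∀ l, 1 ≤ l → l ≤ m → X l ≤ Real.exp (3.2 * m))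
    (hX2 : ∀ l : ℕ, (m : ℝ) ^ (0.95 : ℝ) ≤ l → (l : ℝ) ≤ 0.03 * m →
      X l ≤ (m.choose l : ℝ) ^ 2 * Real.exp (100 * l))
    (hX3 : ∀ l, 1 ≤ l → l ≤ m → X l ≤ (m.choose l : ℝ) ^ 2 * (l ! : ℝ))
    (hm : 1 ≤ m)
    (hnum : ∀ T X : ℕ → ℝ,
    (∀ l, 0 ≤ X l) →
    (∀ l, 1 ≤ l → 2 * l ≤ m → ∀ y : ℝ, 0 < y → T l ≤ (cLy m l y) ^ 116 * X l) →
    (∀ l, l ≤ m → 0.455 * (m : ℝ) ≤ l → T l ≤ (cH m l) ^ 116 * X l) →
    (∀ l, 1 ≤ l → l ≤ m → X l ≤ Real.exp (3.2 * m)) →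
    (∀ l : ℕ, (m : ℝ) ^ (0.95 : ℝ) ≤ l → (l : ℝ) ≤ 0.03 * m →
      X l ≤ (m.choose l : ℝ) ^ 2 * Real.exp (100 * l)) →
    (∀ l, 1 ≤ l → l ≤ m → X l ≤ (m.choose l : ℝ) ^ 2 * (l ! : ℝ)) →
    ∑ l ∈ Finset.Icc 1 m, T l ≤ ε) : lhs ≤ ε := by
  apply RW_core m zeta hz lhs ε T X (PU m) _ _ hsplit hT hX0 hX1 hX2 hX3 hm hnum
  · intro l f hf x y
    exact hf.2 x y
  · intro l hl hl2 f hf
    have h := L_contract zeta hz.nonneg hz.cls hz.symm l hl (by rw [Fintype.card_fin]; exact hl2) f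
      hf.1 hf.2
    unfold cL at h
    rw [Fintype.card_fin] at h
    exact h

theorem PU_of_InU (m l : ℕ) (f : Equiv.Perm (Fin m) → ℝ) (h : InU l f) : PU m l f := h

theorem InU_of_PU (m l : ℕ) (f : Equiv.Perm (Fin m) → ℝ) (h : PU m l f) : InU l f := h

/-- the random walk theorem, given the bounds of 4.2 -/
theorem RW_of_X
    (hX1 : ∃ M : ℕ, ∀ m ≥ M, ∀ zeta : Equiv.Perm (Fin m) → ℝ, RWHyp m zeta →
      (m ! : ℝ) * ∑ g, (cvPow zeta 2 g) ^ 2 ≤ Real.exp (3.2 * m))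
    (hX2 : ∃ M : ℕ, ∀ m ≥ M, ∀ zeta : Equiv.Perm (Fin m) → ℝ, RWHyp m zeta →
      ∀ l : ℕ, (m : ℝ) ^ (0.95 : ℝ) ≤ l → (l : ℝ) ≤ 0.03 * m →
      ∑ x : Fin l ↪ Fin m, ∑ y : Fin l ↪ Fin m, (∑ g, cvPow zeta 2 g * ind x y g) ^ 2
        ≤ (m.choose l : ℝ) * Real.exp (100 * l))
    (ε : ℝ) (hε : 0 < ε) :
    ∃ M : ℕ, ∀ m ≥ M, ∀ zeta : Equiv.Perm (Fin m) → ℝ, RWHyp m zeta →
      (m ! : ℝ) * cvPow zeta 120 1 - (∑ g, zeta g) ^ 120 ≤ ε := by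
  obtain ⟨M1, hM1⟩ := hX1
  obtain ⟨M2, hM2⟩ := hX2
  obtain ⟨M3, hM3⟩ := num ε hε
  refine ⟨max (max M1 M2) (max M3 1), ?_⟩
  intro m hm zeta hz
  have hm1 : M1 ≤ m := le_trans (le_max_left _ _) (le_trans (le_max_left _ _) hm)
  have hm2 : M2 ≤ m := le_trans (le_max_right _ _) (le_trans (le_max_left _ _) hm)
  have hm3 : M3 ≤ m := le_trans (le_max_left _ _) (le_trans (le_max_right _ _) hm)
  have hm4 : 1 ≤ m := le_trans (le_max_right _ _) (le_trans (le_max_right _ _) hm)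
  have hm0 : (0 : ℝ) < m := by exact_mod_cast hm4
  apply RW_core2 m zeta hz _ ε (Tl zeta) (Xl zeta) _ _ (Xl_nonneg zeta) _ _ _ hm4
    (fun T X h1 h2 h3 h4 h5 h6 => hM3 m hm3 T X h1 h2 h3 h4 h5 h6)
  · have h := split zeta hz.symm
    rw [Fintype.card_fin] at h
    exact h.le
  · intro l c hl hlm hc hf
    exact Tl_le zeta hz.symm hz.psd l hl (by rw [Fintype.card_fin]; exact hlm) c hc
      (fun f hf' => hf f (PU_of_InU m l f hf'))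
  · intro l hl hlm
    have h := Xl_le1 zeta l hl (by rw [Fintype.card_fin]; exact hlm)
    rw [Fintype.card_fin] at h
    exact h.trans (hM1 m hm1 zeta hz)
  · intro l hl hl2
    have hl0 : (0 : ℝ) < l := lt_of_lt_of_le (by positivity) hl
    have hl1 : 1 ≤ l := by
      have : 0 < l := by exact_mod_cast hl0
      omega
    have hlm : l ≤ m := by
      have : (l : ℝ) ≤ m := by linarith
      exact_mod_cast this
    have h := Xl_le2 zeta l hl1 (by rw [Fintype.card_fin]; exact hlm)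
    rw [Fintype.card_fin] at h
    refine h.trans ?_
    have h2 := hM2 m hm2 zeta hz l hl hl2
    calc (m.choose l : ℝ) * ∑ x : Fin l ↪ Fin m, ∑ y : Fin l ↪ Fin m,
          (∑ g, cvPow zeta 2 g * ind x y g) ^ 2
        ≤ (m.choose l : ℝ) * ((m.choose l : ℝ) * Real.exp (100 * l)) :=
          mul_le_mul_of_nonneg_left h2 (by positivity)
      _ = _ := by ring
  · intro l hl hlm
    have h := Xl_le3 zeta hz.nonneg hz.sum_le hz.symm hz.psd l hl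
      (by rw [Fintype.card_fin]; exact hlm)
    rw [Fintype.card_fin] at h
    exact h

end Crest.Agent.T22
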