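import Mathlib
import Crest.Prelude.Def_Shuffle

/-! Basic API for the Thorp shuffle: the position maps are permutations, the law, and the
total variation distance. -/

set_option autoImplicit false

namespace Crest.Agent.ThS

open Crest.ProbabilityR.Shuffle

theorem stepPos_injective (m : ℕ) (c : Fin m → Bool) : Function.Injective (stepPos m c) := by
  intro x y h
  have hx := x.isLt
  have hy := y.isLt
  have h1 : x.val % m < m := Nat.mod_lt _ (by omega)
  have h2 : y.val % m < m := Nat.mod_lt _ (by omega)
  have hv := congrArg Fin.val h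
  simp only [stepPos] at hv
  have hmod : x.val % m = y.val % m := by
    split_ifs at hv <;> omega
  have hcx : (⟨x.val % m, h1⟩ : Fin m) = ⟨y.val % m, h2⟩ := Fin.ext hmod
  have hb : decide (m ≤ x.val) = decide (m ≤ y.val) := by
    by_contra hne
    have hcx' : c ⟨x.val % m, h1⟩ = c ⟨y.val % m, h2⟩ := congrArg c hcx
    have hv2 : (2 * (x.val % m) + if (decide (m ≤ x.val) ^^ c ⟨y.val % m, h2⟩) = true then 1 else 0) =
      2 * (y.val % m) + if (decide (m ≤ y.val) ^^ c ⟨y.val % m, h2⟩) = true then 1 else 0 := by
      rw [← hcx']; rw [← hcx'] at hv; exact hv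
    generalize c ⟨y.val % m, h2⟩ = b at hv2
    generalize decide (m ≤ x.val) = p at hv2 hne
    generalize decide (m ≤ y.val) = q at hv2 hne
    cases b <;> cases p <;> cases q <;> simp at hv2 hne <;> omega
  apply Fin.ext
  have hxx := Nat.div_add_mod x.val m
  have hyy := Nat.div_add_mod y.val m
  by_cases hmx : m ≤ x.val
  · have hmy : m ≤ y.val := by
      have : decide (m ≤ y.val) = true := by rw [← hb]; simpa using hmx
      simpa using this
    have e1 : x.val % m = x.val - m := by
      rw [Nat.mod_eq_sub_mod hmx, Nat.mod_eq_of_lt (by omega)]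
    have e2 : y.val % m = y.val - m := by
      rw [Nat.mod_eq_sub_mod hmy, Nat.mod_eq_of_lt (by omega)]
    omega
  · have hmy : ¬ m ≤ y.val := by
      intro h'
      have : decide (m ≤ x.val) = true := by rw [hb]; simpa using h'
      exact hmx (by simpa using this)
    rw [Nat.mod_eq_of_lt (by omega), Nat.mod_eq_of_lt (by omega)] at hmod
    exact hmod

/-- One shuffle as a permutation. -/
noncomputable def stepPerm (m : ℕ) (c : Fin m → Bool) : Equiv.Perm (Fin (2 * m)) :=
  Equiv.ofBijective (stepPos m c) (Finite.injective_iff_bijective.mp (stepPos_injective m c))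

@[simp] theorem coe_stepPerm (m : ℕ) (c : Fin m → Bool) : ⇑(stepPerm m c) = stepPos m c := rfl

/-- `t` shuffles as a permutation. -/
noncomputable def iterPerm (m : ℕ) : (t : ℕ) → (Fin t → Fin m → Bool) → Equiv.Perm (Fin (2 * m))
  | 0, _ => 1
  | t + 1, cs => stepPerm m (cs (Fin.last t)) * iterPerm m t (fun i => cs i.castSucc)

theorem coe_iterPerm (m t : ℕ) (cs : Fin t → Fin m → Bool) :
    ⇑(iterPerm m t cs) = iterPos m t cs := by
  induction t with
  | zero => funext x; rfl
  | succ t ih =>
    funext x
    simp only [iterPerm, iterPos, Equiv.Perm.coe_mul, Function.comp_apply, ih, coe_stepPerm]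

/-- The law of the arrangement after `t` shuffles. -/
noncomputable def law (m t : ℕ) (g : Equiv.Perm (Fin (2 * m))) : ℝ :=
  ((Finset.univ.filter (fun cs : Fin t → Fin m → Bool => iterPerm m t cs = g)).card : ℝ)
    / (2 : ℝ) ^ (m * t)

theorem uniformProb_eq_law (m t : ℕ) (g : Equiv.Perm (Fin (2 * m))) :
    Crest.FinProb.uniformProb {cs : Fin t → Fin m → Bool | iterPos m t cs = ⇑g} = law m t g := by
  classical
  unfold Crest.FinProb.uniformProb law
  congr 1
  · norm_cast
    apply congrArg
    ext cs
    simp only [Finset.mem_filter, Finset.mem_univ, true_and, Set.mem_ofPred_eq]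
    rw [← coe_iterPerm]
    exact DFunLike.coe_injective.eq_iff
  · simp [Fintype.card_bool, pow_mul]

theorem tv_eq (m t : ℕ) :
    tvFromUniform m t = (1 / 2) * ∑ g : Equiv.Perm (Fin (2 * m)),
      |law m t g - 1 / ((2 * m).factorial : ℝ)| := by
  unfold tvFromUniform
  simp only [uniformProb_eq_law]

theorem law_nonneg (m t : ℕ) (g : Equiv.Perm (Fin (2 * m))) : 0 ≤ law m t g := by
  unfold law; positivity

theorem sum_law (m t : ℕ) : ∑ g : Equiv.Perm (Fin (2 * m)), law m t g = 1 := by
  classical
  unfold law
  rw [← Finset.sum_div]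
  have h : (∑ g : Equiv.Perm (Fin (2 * m)),
      ((Finset.univ.filter (fun cs : Fin t → Fin m → Bool => iterPerm m t cs = g)).card : ℝ))
      = (2 : ℝ) ^ (m * t) := by
    have h1 := Finset.card_eq_sum_card_fiberwise (s := (Finset.univ : Finset (Fin t → Fin m → Bool)))
      (t := (Finset.univ : Finset (Equiv.Perm (Fin (2 * m))))) (f := iterPerm m t)
      (fun x _ => Finset.mem_univ _)
    have h2 : (Finset.univ : Finset (Fin t → Fin m → Bool)).card = 2 ^ (m * t) := by
      simp [Fintype.card_bool, pow_mul]
    rw [h2] at h1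
    exact_mod_cast h1.symm
  rw [h]
  exact div_self (by positivity)

end Crest.Agent.ThS
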