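import Mathlib
import Crest.Agent.ThShuffle

/-! Cube coordinates for the Thorp shuffle with `2 * 2 ^ d` cards. -/

set_option autoImplicit false

namespace Crest.Agent.ThS

open Crest.ProbabilityR.Shuffle

/-- the swap pattern: `x ↔ x ± m` for the columns `u = x % m` with `c u = true`. -/
def swpFun (m : ℕ) (c : Fin m → Bool) (x : Fin (2 * m)) : Fin (2 * m) :=
  if c ⟨x.val % m, Nat.mod_lt _ (by have := x.isLt; omega)⟩ then
    (if h : x.val < m then ⟨x.val + m, by omega⟩ else ⟨x.val - m, by have := x.isLt; omega⟩)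
  else x

theorem swpFun_mod (m : ℕ) (c : Fin m → Bool) (x : Fin (2 * m)) :
    (swpFun m c x).val % m = x.val % m := by
  have hx := x.isLt
  unfold swpFun
  split_ifs with h1 h2
  · simp
  · simp only
    rw [Nat.mod_eq_sub_mod (by omega : m ≤ x.val)]
  · rfl

theorem swpFun_ge (m : ℕ) (c : Fin m → Bool) (x : Fin (2 * m)) (hm : x.val % m < m) :
    decide (m ≤ (swpFun m c x).val) = xor (decide (m ≤ x.val)) (c ⟨x.val % m, hm⟩) := by
  have hx := x.isLt
  unfold swpFun
  split_ifs with h1 h2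
  · rw [h1]
    have : ¬ m ≤ x.val := by omega
    simp [this]
  · rw [h1]
    have h3 : m ≤ x.val := by omega
    have h4 : ¬ m ≤ x.val - m := by omega
    simp [h3, h4]
  · have : c ⟨x.val % m, hm⟩ = false := by simpa using h1
    rw [this]; simp

theorem swpFun_comp (m : ℕ) (c c' : Fin m → Bool) (x : Fin (2 * m)) :
    swpFun m c (swpFun m c' x) = swpFun m (fun u => xor (c u) (c' u)) x := by
  have hx := x.isLt
  have hm : x.val % m < m := Nat.mod_lt _ (by omega)
  have key : ∀ y z : Fin (2 * m), y.val % m = z.val % m → (m ≤ y.val ↔ m ≤ z.val) → y = z := by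
    intro y z h1 h2
    have hy := y.isLt
    have hz := z.isLt
    apply Fin.ext
    by_cases h : m ≤ y.val
    · have h' := h2.mp h
      rw [Nat.mod_eq_sub_mod h, Nat.mod_eq_sub_mod h', Nat.mod_eq_of_lt (by omega),
        Nat.mod_eq_of_lt (by omega)] at h1
      omega
    · have h' : ¬ m ≤ z.val := fun hh => h (h2.mpr hh)
      rw [Nat.mod_eq_of_lt (by omega), Nat.mod_eq_of_lt (by omega)] at h1
      exact h1
  apply key
  · rw [swpFun_mod, swpFun_mod, swpFun_mod]
  · have hm' : (swpFun m c' x).val % m < m := by rw [swpFun_mod]; exact hm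
    have e1 := swpFun_ge m c (swpFun m c' x) hm'
    have e2 := swpFun_ge m c' x hm
    have e3 := swpFun_ge m (fun u => xor (c u) (c' u)) x hm
    have e4 : c ⟨(swpFun m c' x).val % m, hm'⟩ = c ⟨x.val % m, hm⟩ :=
      congrArg c (Fin.ext (swpFun_mod m c' x))
    rw [e4, e2] at e1
    have e5 : decide (m ≤ (swpFun m c (swpFun m c' x)).val)
        = decide (m ≤ (swpFun m (fun u => xor (c u) (c' u)) x).val) := by
      rw [e1, e3]
      cases c ⟨x.val % m, hm⟩ <;> cases c' ⟨x.val % m, hm⟩ <;> cases decide (m ≤ x.val) <;> rfl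
    exact decide_eq_decide.mp e5

/-- the swap pattern as a permutation -/
def swp (m : ℕ) (c : Fin m → Bool) : Equiv.Perm (Fin (2 * m)) where
  toFun := swpFun m c
  invFun := swpFun m c
  left_inv := by
    intro x
    rw [swpFun_comp]
    unfold swpFun
    simp
  right_inv := by
    intro x
    rw [swpFun_comp]
    unfold swpFun
    simp

/-- the perfect shuffle -/
noncomputable def rotP (m : ℕ) : Equiv.Perm (Fin (2 * m)) := stepPerm m (fun _ => false)

theorem stepPerm_eq (m : ℕ) (c : Fin m → Bool) : stepPerm m c = rotP m * swp m c := by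
  apply Equiv.ext
  intro x
  have hx := x.isLt
  have hm : x.val % m < m := Nat.mod_lt _ (by omega)
  have e3 := swpFun_ge m c x hm
  apply Fin.ext
  show (stepPos m c x).val = (stepPos m (fun _ => false) (swpFun m c x)).val
  simp only [stepPos, swpFun_mod, Bool.xor_false]
  rw [e3]

theorem rotP_val (m : ℕ) (x : Fin (2 * m)) :
    (rotP m x).val = 2 * (x.val % m) + (if m ≤ x.val then 1 else 0) := by
  show (stepPos m (fun _ => false) x).val = _
  simp only [stepPos, Bool.xor_false, decide_eq_true_eq]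

/-- `iterPerm` with the perfect shuffles collected on the left. -/
theorem iterPerm_eq (m t : ℕ) (cs : Fin t → Fin m → Bool) :
    iterPerm m t cs = rotP m ^ t *
      ((List.ofFn (fun i : Fin t => (rotP m ^ (i : ℕ))⁻¹ * swp m (cs i) * rotP m ^ (i : ℕ))).reverse).prod := by
  induction t with
  | zero => simp [iterPerm]
  | succ t ih =>
    rw [iterPerm, ih, stepPerm_eq, List.ofFn_succ', List.concat_eq_append, List.reverse_append]
    simp only [List.reverse_cons, List.reverse_nil, List.nil_append, List.singleton_append,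
      List.prod_cons, Fin.val_last, Fin.val_castSucc]
    rw [pow_succ']
    group

theorem rotP_modEq (m : ℕ) (x : Fin (2 * m)) :
    (rotP m x).val ≡ 2 * x.val [MOD (2 * m - 1)] := by
  have hx := x.isLt
  rw [rotP_val]
  by_cases h : m ≤ x.val
  · rw [if_pos h, Nat.mod_eq_sub_mod h, Nat.mod_eq_of_lt (by omega)]
    have : 2 * x.val = 2 * (x.val - m) + 1 + (2 * m - 1) := by omega
    rw [this]
    exact (Nat.modEq_of_dvd (by simp))
  · rw [if_neg h, Nat.mod_eq_of_lt (by omega), add_zero]

theorem rotP_eq_zero_iff (m : ℕ) (x : Fin (2 * m)) : (rotP m x).val = 0 ↔ x.val = 0 := by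
  have hx := x.isLt
  rw [rotP_val]
  by_cases h : m ≤ x.val
  · rw [if_pos h]; omega
  · rw [if_neg h, Nat.mod_eq_of_lt (by omega)]; omega

theorem rotP_pow_modEq (m k : ℕ) (x : Fin (2 * m)) :
    ((rotP m ^ k) x).val ≡ 2 ^ k * x.val [MOD (2 * m - 1)] := by
  induction k with
  | zero => simp; rfl
  | succ k ih =>
    rw [pow_succ']
    show (rotP m ((rotP m ^ k) x)).val ≡ _ [MOD _]
    have h1 := rotP_modEq m ((rotP m ^ k) x)
    have h2 : 2 ^ (k + 1) * x.val = 2 * (2 ^ k * x.val) := by ring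
    rw [h2]
    exact h1.trans (Nat.ModEq.mul_left 2 ih)

theorem rotP_pow_eq_zero_iff (m k : ℕ) (x : Fin (2 * m)) :
    ((rotP m ^ k) x).val = 0 ↔ x.val = 0 := by
  induction k with
  | zero => simp
  | succ k ih =>
    rw [pow_succ']
    show (rotP m ((rotP m ^ k) x)).val = 0 ↔ _
    rw [rotP_eq_zero_iff, ih]

theorem rotP_pow_eq_one' (m d : ℕ) (hm : m = 2 ^ d) : rotP m ^ (d + 1) = 1 := by
  apply Equiv.ext
  intro x
  have hx := x.isLt
  have hmpos : 0 < m := by rw [hm]; positivity
  obtain ⟨y, hy⟩ : ∃ y, y = (rotP m ^ (d + 1)) x := ⟨_, rfl⟩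
  have hyl := y.isLt
  have h1 := rotP_pow_modEq m (d + 1) x
  have h0 := rotP_pow_eq_zero_iff m (d + 1) x
  rw [← hy] at h1 h0 ⊢
  have hpow : 2 ^ (d + 1) = 1 + (2 * m - 1) := by rw [pow_succ, ← hm]; omega
  have h2 : y.val ≡ x.val [MOD (2 * m - 1)] := by
    refine h1.trans ?_
    rw [hpow, add_mul, one_mul]
    exact (Nat.modEq_of_dvd (by simp [Nat.cast_add, Nat.cast_mul]))
  show y = x
  apply Fin.ext
  rcases Nat.eq_zero_or_pos x.val with hx0 | hx0
  · rw [hx0]; exact h0.mpr hx0
  · have hy0 : 0 < y.val := Nat.pos_of_ne_zero (fun h => by have := h0.mp h; omega)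
    have h3 : y.val - 1 ≡ x.val - 1 [MOD (2 * m - 1)] := by
      have h4 : (y.val - 1) + 1 ≡ (x.val - 1) + 1 [MOD (2 * m - 1)] := by
        rw [Nat.sub_add_cancel hy0, Nat.sub_add_cancel hx0]; exact h2
      exact Nat.ModEq.add_right_cancel' 1 h4
    have h5 := Nat.ModEq.eq_of_lt_of_lt h3 (by omega) (by omega)
    omega

theorem rotP_pow_eq_one (d : ℕ) : rotP (2 ^ d) ^ (d + 1) = 1 := rotP_pow_eq_one' _ d rfl

end Crest.Agent.ThS
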