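import Mathlib
import Crest.Agent.ThCube

/-! Bit coordinates: positions `Fin (2 * 2 ^ d)` as points of the cube `Fin (d + 1) → Bool`. -/

set_option autoImplicit false

namespace Crest.Agent.ThS

open Crest.ProbabilityR.Shuffle

/-- bit coordinates of a position -/
def bits (d : ℕ) (x : Fin (2 * 2 ^ d)) : Fin (d + 1) → Bool := fun j => x.val.testBit j

theorem bits_injective (d : ℕ) : Function.Injective (bits d) := by
  intro x y h
  apply Fin.ext
  apply Nat.eq_of_testBit_eq
  intro i
  have hx := x.isLt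
  have hy := y.isLt
  have hp : 2 * 2 ^ d = 2 ^ (d + 1) := by rw [pow_succ]; ring
  by_cases hi : i < d + 1
  · exact congrFun h ⟨i, hi⟩
  · have hle : 2 ^ (d + 1) ≤ 2 ^ i := Nat.pow_le_pow_right (by norm_num) (by omega)
    rw [Nat.testBit_lt_two_pow (by omega), Nat.testBit_lt_two_pow (by omega)]

theorem card_cube (d : ℕ) : Fintype.card (Fin (2 * 2 ^ d)) = Fintype.card (Fin (d + 1) → Bool) := by
  simp [pow_succ]; ring

/-- positions as points of the cube -/
noncomputable def bitsEquiv (d : ℕ) : Fin (2 * 2 ^ d) ≃ (Fin (d + 1) → Bool) :=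
  Equiv.ofBijective (bits d)
    ((Fintype.bijective_iff_injective_and_card _).mpr ⟨bits_injective d, card_cube d⟩)

theorem bitsEquiv_apply (d : ℕ) (x : Fin (2 * 2 ^ d)) (j : Fin (d + 1)) :
    bitsEquiv d x j = x.val.testBit j := rfl

/-- cyclic rotation of the coordinates of the cube -/
def cubeRot (d : ℕ) (x : Fin (d + 1) → Bool) : Fin (d + 1) → Bool :=
  fun j => if h : j.val = 0 then x (Fin.last d) else x ⟨j.val - 1, by omega⟩

theorem bits_rotP (d : ℕ) (x : Fin (2 * 2 ^ d)) :
    bitsEquiv d (rotP (2 ^ d) x) = cubeRot d (bitsEquiv d x) := by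
  funext j
  have hx := x.isLt
  rw [bitsEquiv_apply, rotP_val]
  have hmod : x.val % 2 ^ d < 2 ^ d := Nat.mod_lt _ (by positivity)
  have htop : x.val.testBit d = decide (2 ^ d ≤ x.val) := by
    by_cases h : 2 ^ d ≤ x.val
    · have h1 : x.val = 2 ^ d + (x.val - 2 ^ d) := by omega
      rw [h1, Nat.testBit_two_pow_add_eq, Nat.testBit_lt_two_pow (by omega)]
      simp
    · rw [Nat.testBit_lt_two_pow (by omega)]
      simp [h]
  unfold cubeRot
  by_cases hj : j.val = 0
  · rw [dif_pos hj, hj, bitsEquiv_apply, Fin.val_last, htop]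
    by_cases h : 2 ^ d ≤ x.val <;> simp [h, Nat.testBit_zero, Nat.add_mod]
  · rw [dif_neg hj, bitsEquiv_apply]
    obtain ⟨i, hi⟩ : ∃ i, j.val = i + 1 := ⟨j.val - 1, by omega⟩
    have hjl := j.isLt
    simp only [hi, Nat.add_sub_cancel]
    rw [Nat.testBit_succ]
    have hdiv : (2 * (x.val % 2 ^ d) + if 2 ^ d ≤ x.val then 1 else 0) / 2 = x.val % 2 ^ d := by
      split_ifs <;> omega
    rw [hdiv, Nat.testBit_mod_two_pow]
    have : i < d := by omega
    simp [this]

theorem bits_swp (d : ℕ) (c : Fin (2 ^ d) → Bool) (x : Fin (2 * 2 ^ d)) (hm : x.val % 2 ^ d < 2 ^ d)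
    (j : Fin (d + 1)) :
    bitsEquiv d (swp (2 ^ d) c x) j =
      if j = Fin.last d then xor (bitsEquiv d x j) (c ⟨x.val % 2 ^ d, hm⟩) else bitsEquiv d x j := by
  have htop : ∀ x : Fin (2 * 2 ^ d), x.val.testBit d = decide (2 ^ d ≤ x.val) := by
    intro x
    have hx := x.isLt
    by_cases h : 2 ^ d ≤ x.val
    · have h1 : x.val = 2 ^ d + (x.val - 2 ^ d) := by omega
      rw [h1, Nat.testBit_two_pow_add_eq, Nat.testBit_lt_two_pow (by omega)]
      simp
    · rw [Nat.testBit_lt_two_pow (by omega)]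
      simp [h]
  by_cases hj : j = Fin.last d
  · rw [if_pos hj, hj, bitsEquiv_apply, bitsEquiv_apply, Fin.val_last, htop, htop]
    exact swpFun_ge (2 ^ d) c x hm
  · rw [if_neg hj, bitsEquiv_apply, bitsEquiv_apply]
    have hjl := j.isLt
    have hjd : j.val < d := by
      rcases Nat.lt_or_ge j.val d with h | h
      · exact h
      · exact absurd (Fin.ext (by simp only [Fin.val_last]; omega)) hj
    have h1 := Nat.testBit_mod_two_pow (swp (2 ^ d) c x).val d j.val
    have h2 := Nat.testBit_mod_two_pow x.val d j.val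
    have h3 : (swp (2 ^ d) c x).val % 2 ^ d = x.val % 2 ^ d := swpFun_mod _ _ _
    rw [h3, h2] at h1
    simpa [hjd] using h1.symm

end Crest.Agent.ThS
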