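import Mathlib
import Crest.Agent.ThBits
import Crest.Agent.ThConv

/-! Reduction of the Thorp shuffle to convolution powers of the pass law on the cube. -/

set_option autoImplicit false
set_option linter.unusedSectionVars false

namespace Crest.Agent.ThS

open Crest.ProbabilityR.Shuffle

/-- flip coordinate `j` -/
def flipc {D : ℕ} (j : Fin D) (x : Fin D → Bool) : Fin D → Bool := Function.update x j (!x j)

theorem flipc_self {D : ℕ} (j : Fin D) (x : Fin D → Bool) : flipc j x j = !x j := by
  simp [flipc]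

theorem flipc_ne {D : ℕ} (j i : Fin D) (h : i ≠ j) (x : Fin D → Bool) : flipc j x i = x i := by
  simp [flipc, h]

theorem flipc_flipc {D : ℕ} (j : Fin D) (x : Fin D → Bool) : flipc j (flipc j x) = x := by
  funext i
  by_cases h : i = j
  · subst h; simp [flipc]
  · simp [flipc, h]

/-- permutations of the cube all of whose moves are along direction `j` -/
noncomputable def dirSet (D : ℕ) (j : Fin D) : Finset (Equiv.Perm (Fin D → Bool)) :=
  Finset.univ.filter (fun g => ∀ x, g x = x ∨ g x = flipc j x)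

theorem mem_dirSet {D : ℕ} {j : Fin D} {g : Equiv.Perm (Fin D → Bool)} :
    g ∈ dirSet D j ↔ ∀ x, g x = x ∨ g x = flipc j x := by
  simp [dirSet]

/-- the law of one pass: independent uniform elements of the direction sets,
direction `0` is applied last -/
noncomputable def passLaw (D : ℕ) : Equiv.Perm (Fin D → Bool) → ℝ :=
  cvList (List.ofFn (fun j : Fin D => unif (dirSet D j)))

theorem law_eq_lawOf (m t : ℕ) : law m t = lawOf (iterPerm m t) := by
  funext g
  unfold law lawOf
  congr 1
  simp [pow_mul]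

theorem law_succ (m t : ℕ) : law m (t + 1) = cv (lawOf (stepPerm m)) (law m t) := by
  rw [law_eq_lawOf, law_eq_lawOf]
  refine lawOf_mul (stepPerm m) (iterPerm m t) (iterPerm m (t + 1))
    (Fin.snocEquiv (fun _ : Fin (t + 1) => Fin m → Bool)) ?_
  intro c d
  simp [iterPerm, Fin.snocEquiv]

theorem law_zero (m : ℕ) : law m 0 = dlt 1 := by
  funext g
  unfold law dlt
  by_cases h : g = 1
  · subst h; simp [iterPerm]
  · have : ¬ (1 : Equiv.Perm (Fin (2 * m))) = g := fun h' => h h'.symm
    simp [iterPerm, h, this]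

theorem law_eq_cvPow (m t : ℕ) : law m t = cvPow (lawOf (stepPerm m)) t := by
  induction t with
  | zero => exact law_zero m
  | succ t ih => rw [law_succ, ih, cvPow_succ]

theorem lawOf_stepPerm (m : ℕ) : lawOf (stepPerm m) = cv (dlt (rotP m)) (lawOf (swp m)) := by
  funext g
  rw [dlt_cv]
  unfold lawOf
  congr 2
  apply congrArg
  ext c
  simp only [Finset.mem_filter, Finset.mem_univ, true_and]
  rw [stepPerm_eq]
  constructor
  · intro h; rw [← h]; group
  · intro h; rw [h]; group

/-- conjugation to the cube -/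
noncomputable def toCube (d : ℕ) :
    Equiv.Perm (Fin (2 * 2 ^ d)) ≃* Equiv.Perm (Fin (d + 1) → Bool) :=
  (bitsEquiv d).permCongrHom

theorem toCube_apply (d : ℕ) (g : Equiv.Perm (Fin (2 * 2 ^ d))) (x : Fin (2 * 2 ^ d)) :
    toCube d g (bitsEquiv d x) = bitsEquiv d (g x) := by
  simp [toCube, Equiv.permCongrHom, Equiv.permCongr_apply]

/-- the rotation of the cube as a permutation -/
noncomputable def rotC (d : ℕ) : Equiv.Perm (Fin (d + 1) → Bool) := toCube d (rotP (2 ^ d))

theorem rotC_apply (d : ℕ) (x : Fin (d + 1) → Bool) : rotC d x = cubeRot d x := by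
  obtain ⟨y, rfl⟩ := (bitsEquiv d).surjective x
  rw [rotC, toCube_apply, bits_rotP]

theorem rotC_pow (d : ℕ) : rotC d ^ (d + 1) = 1 := by
  rw [rotC, ← map_pow, rotP_pow_eq_one, map_one]

theorem toCube_swp_mem (d : ℕ) (c : Fin (2 ^ d) → Bool) :
    toCube d (swp (2 ^ d) c) ∈ dirSet (d + 1) (Fin.last d) := by
  rw [mem_dirSet]
  intro x
  obtain ⟨y, rfl⟩ := (bitsEquiv d).surjective x
  rw [toCube_apply]
  have hm : y.val % 2 ^ d < 2 ^ d := Nat.mod_lt _ (by positivity)
  rcases hc : c ⟨y.val % 2 ^ d, hm⟩ with _ | _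
  · left
    funext j
    rw [bits_swp d c y hm j, hc]
    simp
  · right
    funext j
    rw [bits_swp d c y hm j, hc]
    by_cases hj : j = Fin.last d
    · subst hj; rw [if_pos rfl, flipc_self]; simp
    · rw [if_neg hj, flipc_ne _ _ hj]

theorem swp_injective (m : ℕ) : Function.Injective (swp m) := by
  intro c c' h
  funext u
  have hu := u.isLt
  have h1 := congrArg (fun g : Equiv.Perm (Fin (2 * m)) => g ⟨u.val, by omega⟩) h
  have hm : (⟨u.val, by omega⟩ : Fin (2 * m)).val % m < m := by
    simp only; rw [Nat.mod_eq_of_lt hu]; exact hu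
  have e1 := swpFun_ge m c ⟨u.val, by omega⟩ hm
  have e2 := swpFun_ge m c' ⟨u.val, by omega⟩ hm
  have h2 : swpFun m c ⟨u.val, by omega⟩ = swpFun m c' ⟨u.val, by omega⟩ := h1
  rw [h2, e2] at e1
  have hu' : (⟨(⟨u.val, by omega⟩ : Fin (2 * m)).val % m, hm⟩ : Fin m) = u :=
    Fin.ext (Nat.mod_eq_of_lt hu)
  rw [hu'] at e1
  have : ¬ m ≤ u.val := by omega
  simp only [this, decide_false, Bool.false_xor] at e1
  exact e1.symm

theorem exists_swp (d : ℕ) (g : Equiv.Perm (Fin (d + 1) → Bool))
    (hg : g ∈ dirSet (d + 1) (Fin.last d)) :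
    ∃ c : Fin (2 ^ d) → Bool, toCube d (swp (2 ^ d) c) = g := by
  rw [mem_dirSet] at hg
  have hlow : ∀ u : Fin (2 ^ d), u.val < 2 * 2 ^ d := fun u => by have := u.isLt; omega
  refine ⟨fun u => decide (g (bitsEquiv d ⟨u.val, hlow u⟩) ≠ bitsEquiv d ⟨u.val, hlow u⟩), ?_⟩
  set c : Fin (2 ^ d) → Bool :=
    fun u => decide (g (bitsEquiv d ⟨u.val, hlow u⟩) ≠ bitsEquiv d ⟨u.val, hlow u⟩) with hc
  have hflipne : ∀ x : Fin (d + 1) → Bool, flipc (Fin.last d) x ≠ x := by
    intro x h
    have := congrFun h (Fin.last d)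
    rw [flipc_self] at this
    simp at this
  -- the move of `g` is the same at `x` and `flipc x`
  have hsym : ∀ x, g x = x → g (flipc (Fin.last d) x) = flipc (Fin.last d) x := by
    intro x hx
    rcases hg (flipc (Fin.last d) x) with h | h
    · exact h
    · rw [flipc_flipc] at h
      exact absurd (g.injective (h.trans hx.symm)) (hflipne x)
  apply Equiv.ext
  intro x
  obtain ⟨y, rfl⟩ := (bitsEquiv d).surjective x
  have hy := y.isLt
  have hm : y.val % 2 ^ d < 2 ^ d := Nat.mod_lt _ (by positivity)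
  rw [toCube_apply]
  set u : Fin (2 ^ d) := ⟨y.val % 2 ^ d, hm⟩ with hu
  set z : Fin (2 * 2 ^ d) := ⟨u.val, hlow u⟩ with hz
  -- `bits y = bits z` or `bits y = flipc (bits z)`
  have hyz : bitsEquiv d y = bitsEquiv d z ∨ bitsEquiv d y = flipc (Fin.last d) (bitsEquiv d z) := by
    by_cases h : y.val < 2 ^ d
    · left
      congr 1
      apply Fin.ext
      show y.val = y.val % 2 ^ d
      rw [Nat.mod_eq_of_lt h]
    · right
      have hmz : z.val % 2 ^ d < 2 ^ d := Nat.mod_lt _ (by positivity)
      have hsw : swp (2 ^ d) (fun _ => true) z = y := by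
        apply Fin.ext
        show (swpFun (2 ^ d) (fun _ => true) z).val = y.val
        unfold swpFun
        have hz1 : z.val < 2 ^ d := hm
        have hz2 : z.val = y.val - 2 ^ d := by
          show y.val % 2 ^ d = _
          rw [Nat.mod_eq_sub_mod (by omega), Nat.mod_eq_of_lt (by omega)]
        rw [if_pos rfl, dif_pos hz1]
        show z.val + 2 ^ d = y.val
        omega
      rw [← hsw]
      funext j
      rw [bits_swp d _ z hmz j]
      by_cases hj : j = Fin.last d
      · subst hj; rw [if_pos rfl, flipc_self]; simp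
      · rw [if_neg hj, flipc_ne _ _ hj]
  have hcu : c u = true ↔ g (bitsEquiv d z) ≠ bitsEquiv d z := by
    rw [hc]; simp only [decide_eq_true_eq]; rfl
  have hbs : ∀ b, c u = b → bitsEquiv d (swp (2 ^ d) c y)
      = if b then flipc (Fin.last d) (bitsEquiv d y) else bitsEquiv d y := by
    intro b hb
    funext j
    rw [bits_swp d c y hm j]
    rw [show c ⟨y.val % 2 ^ d, hm⟩ = b from hb]
    by_cases hj : j = Fin.last d
    · subst hj; rw [if_pos rfl]; cases b <;> simp [flipc_self]
    · rw [if_neg hj]; cases b <;> simp [flipc_ne _ _ hj]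
  have hgy : g (bitsEquiv d y) = bitsEquiv d y ↔ g (bitsEquiv d z) = bitsEquiv d z := by
    rcases hyz with h | h
    · rw [h]
    · rw [h]
      constructor
      · intro h'
        have := hsym _ h'
        rwa [flipc_flipc] at this
      · intro h'; exact hsym _ h'
  by_cases hb : c u = true
  · rw [hbs true hb, if_pos rfl]
    rcases hg (bitsEquiv d y) with h | h
    · exact absurd (hgy.mp h) (hcu.mp hb)
    · exact h.symm
  · have hb' : c u = false := by simpa using hb
    rw [hbs false hb']
    have : g (bitsEquiv d z) = bitsEquiv d z := by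
      by_contra hne
      exact hb (hcu.mpr hne)
    simpa using (hgy.mpr this).symm

theorem lawOf_swp (d : ℕ) (g : Equiv.Perm (Fin (2 * 2 ^ d))) :
    lawOf (swp (2 ^ d)) g = unif (dirSet (d + 1) (Fin.last d)) (toCube d g) := by
  classical
  -- the image of `toCube ∘ swp`
  have himg : (Finset.univ.image (fun c => toCube d (swp (2 ^ d) c)))
      = dirSet (d + 1) (Fin.last d) := by
    ext h
    simp only [Finset.mem_image, Finset.mem_univ, true_and]
    constructor
    · rintro ⟨c, rfl⟩; exact toCube_swp_mem d c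
    · intro hh; exact exists_swp d h hh
  have hinj : Function.Injective (fun c => toCube d (swp (2 ^ d) c)) :=
    (toCube d).injective.comp (swp_injective _)
  have hcard : (dirSet (d + 1) (Fin.last d)).card = Fintype.card (Fin (2 ^ d) → Bool) := by
    rw [← himg, Finset.card_image_of_injective _ hinj, Finset.card_univ]
  unfold lawOf unif
  by_cases hg : toCube d g ∈ dirSet (d + 1) (Fin.last d)
  · rw [if_pos hg, hcard]
    obtain ⟨c, hc⟩ := exists_swp d _ hg
    have hc' : swp (2 ^ d) c = g := (toCube d).injective hc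
    have : (Finset.univ.filter (fun c => swp (2 ^ d) c = g)) = {c} := by
      ext c'
      simp only [Finset.mem_filter, Finset.mem_univ, true_and, Finset.mem_singleton]
      constructor
      · intro h; exact swp_injective _ (h.trans hc'.symm)
      · intro h; rw [h, hc']
    rw [this]; simp
  · rw [if_neg hg]
    have : (Finset.univ.filter (fun c => swp (2 ^ d) c = g)) = ∅ := by
      apply Finset.filter_eq_empty_iff.mpr
      intro c _ h
      exact hg (h ▸ toCube_swp_mem d c)
    rw [this]; simp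

theorem cubeRot_flipc (d : ℕ) (j : Fin (d + 1)) (hj : j.val < d) (x : Fin (d + 1) → Bool) :
    cubeRot d (flipc j x) = flipc ⟨j.val + 1, by omega⟩ (cubeRot d x) := by
  funext i
  by_cases hi : i.val = 0
  · have h1 : i ≠ ⟨j.val + 1, by omega⟩ := by
      intro h; rw [h] at hi; simp at hi
    rw [flipc_ne _ _ h1]
    unfold cubeRot
    rw [dif_pos hi, dif_pos hi, flipc_ne]
    intro h
    have := congrArg Fin.val h
    simp at this; omega
  · by_cases hij : i = ⟨j.val + 1, by omega⟩
    · subst hij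
      rw [flipc_self]
      unfold cubeRot
      rw [dif_neg (by simp), dif_neg (by simp)]
      have : (⟨(⟨j.val + 1, by omega⟩ : Fin (d + 1)).val - 1, by omega⟩ : Fin (d + 1)) = j :=
        Fin.ext (by simp)
      rw [this, flipc_self]
    · rw [flipc_ne _ _ hij]
      unfold cubeRot
      rw [dif_neg hi, dif_neg hi, flipc_ne]
      intro h
      apply hij
      apply Fin.ext
      have := congrArg Fin.val h
      simp only at this ⊢
      omega

theorem mem_dirSet_rot (d : ℕ) (j : Fin (d + 1)) (hj : j.val < d)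
    (g : Equiv.Perm (Fin (d + 1) → Bool)) :
    rotC d * g * (rotC d)⁻¹ ∈ dirSet (d + 1) ⟨j.val + 1, by omega⟩ ↔ g ∈ dirSet (d + 1) j := by
  rw [mem_dirSet, mem_dirSet]
  constructor
  · intro h x
    have h1 := h (rotC d x)
    have hinv : (rotC d)⁻¹ (rotC d x) = x := (rotC d).symm_apply_apply x
    simp only [Equiv.Perm.coe_mul, Function.comp_apply, hinv] at h1
    rw [rotC_apply d x, ← cubeRot_flipc d j hj x, ← rotC_apply d x, ← rotC_apply d (flipc j x)] at h1
    rcases h1 with h1 | h1
    · left; exact (rotC d).injective h1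
    · right; exact (rotC d).injective h1
  · intro h y
    obtain ⟨x, rfl⟩ := (rotC d).surjective y
    have hinv : (rotC d)⁻¹ (rotC d x) = x := (rotC d).symm_apply_apply x
    simp only [Equiv.Perm.coe_mul, Function.comp_apply, hinv]
    rcases h x with h1 | h1
    · left; rw [h1]
    · right; rw [h1, rotC_apply, rotC_apply, cubeRot_flipc d j hj x]

theorem card_dirSet_rot (d : ℕ) (j : Fin (d + 1)) (hj : j.val < d) :
    (dirSet (d + 1) ⟨j.val + 1, by omega⟩).card = (dirSet (d + 1) j).card := by
  symm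
  apply Finset.card_bij (fun g _ => rotC d * g * (rotC d)⁻¹)
  · intro g hg; exact (mem_dirSet_rot d j hj g).mpr hg
  · intro g _ g' _ h
    exact mul_left_cancel (mul_right_cancel h)
  · intro g hg
    refine ⟨(rotC d)⁻¹ * g * rotC d, ?_, by group⟩
    rw [← mem_dirSet_rot d j hj]
    have : rotC d * ((rotC d)⁻¹ * g * rotC d) * (rotC d)⁻¹ = g := by group
    rw [this]; exact hg

theorem unif_rot (d : ℕ) (j : Fin (d + 1)) (hj : j.val < d) :
    cv (unif (dirSet (d + 1) ⟨j.val + 1, by omega⟩)) (dlt (rotC d))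
      = cv (dlt (rotC d)) (unif (dirSet (d + 1) j)) := by
  funext g
  rw [cv_dlt, dlt_cv]
  unfold unif
  have h := mem_dirSet_rot d j hj ((rotC d)⁻¹ * g)
  have h2 : rotC d * ((rotC d)⁻¹ * g) * (rotC d)⁻¹ = g * (rotC d)⁻¹ := by group
  rw [h2] at h
  simp only [h, card_dirSet_rot d j hj]

/-- uniform law on direction `j`, as a function of a natural number -/
noncomputable def dirLaw (D j : ℕ) : Equiv.Perm (Fin D → Bool) → ℝ :=
  if h : j < D then unif (dirSet D ⟨j, h⟩) else dlt 1

theorem dirLaw_rot (d j : ℕ) (hj : j < d) :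
    cv (dirLaw (d + 1) (j + 1)) (dlt (rotC d)) = cv (dlt (rotC d)) (dirLaw (d + 1) j) := by
  unfold dirLaw
  rw [dif_pos (by omega), dif_pos (by omega)]
  exact unif_rot d ⟨j, by omega⟩ hj

theorem dirLaw_rot_pow (d j k : ℕ) (hj : j + k ≤ d) :
    cv (dirLaw (d + 1) (j + k)) (dlt (rotC d ^ k)) = cv (dlt (rotC d ^ k)) (dirLaw (d + 1) j) := by
  induction k with
  | zero => rw [pow_zero, cv_dlt_one, dlt_one_cv]; rfl
  | succ k ih =>
    rw [pow_succ', ← dlt_cv_dlt, ← cv_assoc, ← Nat.add_assoc, dirLaw_rot d (j + k) (by omega),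
      cv_assoc, ih (by omega), ← cv_assoc]

/-- `E_{d-k+1} ... E_d` -/
noncomputable def tailLaw (d : ℕ) : ℕ → (Equiv.Perm (Fin (d + 1) → Bool) → ℝ)
  | 0 => dlt 1
  | k + 1 => cv (dirLaw (d + 1) (d - k)) (tailLaw d k)

theorem round_pow (d k : ℕ) (hk : k ≤ d + 1) :
    cvPow (cv (dlt (rotC d)) (dirLaw (d + 1) d)) k = cv (dlt (rotC d ^ k)) (tailLaw d k) := by
  induction k with
  | zero => rw [cvPow_zero, pow_zero, dlt_one_cv]; rfl
  | succ k ih =>
    rw [cvPow_succ, ih (by omega)]
    have h := dirLaw_rot_pow d (d - k) k (by omega)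
    have h2 : d - k + k = d := by omega
    rw [h2] at h
    rw [cv_assoc, ← cv_assoc (dirLaw (d + 1) d), h, pow_succ', ← dlt_cv_dlt, tailLaw,
      cv_assoc, cv_assoc]

theorem tailLaw_eq_list (d : ℕ) : ∀ k, k ≤ d + 1 →
    tailLaw d k = cvList ((List.range' (d + 1 - k) k).map (dirLaw (d + 1))) := by
  intro k
  induction k with
  | zero => intro _; rfl
  | succ k ih =>
    intro hk
    rw [tailLaw, ih (by omega)]
    have h1 : d + 1 - (k + 1) = d - k := by omega
    have h2 : d + 1 - k = d - k + 1 := by omega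
    rw [h1, h2, List.range'_succ, List.map_cons, cvList_cons]

theorem passLaw_eq (d : ℕ) : passLaw (d + 1) = tailLaw d (d + 1) := by
  rw [tailLaw_eq_list d (d + 1) le_rfl, passLaw]
  congr 1
  apply List.ext_getElem
  · simp
  · intro i h1 h2
    simp only [List.length_ofFn] at h1
    rw [List.getElem_ofFn, List.getElem_map, List.getElem_range']
    have : d + 1 - (d + 1) + 1 * i = i := by omega
    rw [this, dirLaw, dif_pos h1]

theorem round_pow_pass (d : ℕ) :
    cvPow (cv (dlt (rotC d)) (dirLaw (d + 1) d)) (d + 1) = passLaw (d + 1) := by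
  rw [round_pow d (d + 1) le_rfl, rotC_pow, dlt_one_cv, passLaw_eq]

theorem stepLaw_cube (d : ℕ) :
    lawOf (stepPerm (2 ^ d))
      = fun g => cv (dlt (rotC d)) (dirLaw (d + 1) d) (toCube d g) := by
  rw [cv_comp_equiv, lawOf_stepPerm]
  congr 1
  · funext g
    unfold dlt rotC
    simp
  · funext g
    rw [lawOf_swp]
    unfold dirLaw
    rw [dif_pos (by omega)]
    rfl

/-- The law of `k` passes, on the cube. -/
theorem law_passes (d k : ℕ) (g : Equiv.Perm (Fin (2 * 2 ^ d))) :
    law (2 ^ d) (k * (d + 1)) g = cvPow (passLaw (d + 1)) k (toCube d g) := by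
  rw [law_eq_cvPow, stepLaw_cube, ← cvPow_comp_equiv]
  have h : cvPow (cv (dlt (rotC d)) (dirLaw (d + 1) d)) (k * (d + 1)) = cvPow (passLaw (d + 1)) k := by
    rw [Nat.mul_comm, cvPow_mul, round_pow_pass]
  exact congrFun h (toCube d g)

theorem unif_nonneg {G : Type*} [Group G] [Fintype G] [DecidableEq G] (S : Finset G) (g : G) :
    0 ≤ unif S g := by
  unfold unif; split_ifs <;> positivity

theorem sum_unif {G : Type*} [Group G] [Fintype G] [DecidableEq G] (S : Finset G)
    (hS : S.Nonempty) : ∑ g, unif S g = 1 := by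
  unfold unif
  rw [Finset.sum_ite_mem, Finset.univ_inter, Finset.sum_const, nsmul_eq_mul]
  have : (0 : ℝ) < S.card := by exact_mod_cast hS.card_pos
  field_simp

theorem one_mem_dirSet {D : ℕ} (j : Fin D) : (1 : Equiv.Perm (Fin D → Bool)) ∈ dirSet D j := by
  rw [mem_dirSet]; intro x; left; rfl

/-- total variation after `k` passes, on the cube -/
theorem tv_passes (d k : ℕ) :
    tvFromUniform (2 ^ d) (k * (d + 1)) = (1 / 2) * ∑ g : Equiv.Perm (Fin (d + 1) → Bool),
      |cvPow (passLaw (d + 1)) k g - 1 / ((2 ^ (d + 1)).factorial : ℝ)| := by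
  rw [tv_eq]
  congr 1
  rw [← Equiv.sum_comp (toCube d).toEquiv]
  apply Finset.sum_congr rfl
  intro g _
  rw [law_passes]
  have : ((2 * 2 ^ d).factorial : ℝ) = ((2 ^ (d + 1)).factorial : ℝ) := by
    congr 2; rw [pow_succ]; ring
  rw [this]
  rfl

/-- The L2 bound for the total variation distance after `k` passes. -/
theorem tv_passes_le (d k : ℕ) :
    tvFromUniform (2 ^ d) (k * (d + 1)) ≤ (1 / 2) * Real.sqrt
      (((2 ^ (d + 1)).factorial : ℝ) * (∑ g, cvPow (passLaw (d + 1)) k g ^ 2) - 1) := by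
  rw [tv_passes]
  have hcard : ((2 ^ (d + 1)).factorial : ℝ)
      = (Fintype.card (Equiv.Perm (Fin (d + 1) → Bool)) : ℝ) := by
    rw [Fintype.card_perm]
    simp
  rw [hcard]
  apply tv_le_sqrt
  have h1 := sum_law (2 ^ d) (k * (d + 1))
  rw [← h1]
  symm
  rw [← Equiv.sum_comp (toCube d).toEquiv (fun g => cvPow (passLaw (d + 1)) k g)]
  apply Finset.sum_congr rfl
  intro g _
  rw [law_passes]
  rfl

end Crest.Agent.ThS
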