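import Crest.Agent.ThA4
import Crest.Agent.ThRed

/-! The law of one pass, built recursively, is `passLaw`. -/

set_option autoImplicit false
set_option linter.unusedSectionVars false

namespace Crest.Agent.ThS

open Finset

section Push

variable {G G' : Type*} [Group G] [Fintype G] [DecidableEq G] [Group G'] [Fintype G'] [DecidableEq G']

/-- push forward -/
noncomputable def push (φ : G → G') (p : G → ℝ) : G' → ℝ := fun g' => ∑ g, p g * dlt (φ g) g'

theorem sum_push (φ : G → G') (p : G → ℝ) (F : G' → ℝ) :
    ∑ g', push φ p g' * F g' = ∑ g, p g * F (φ g) := by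
  unfold push
  simp_rw [Finset.sum_mul]
  rw [Finset.sum_comm]
  apply Finset.sum_congr rfl
  intro g _
  unfold dlt
  simp [mul_assoc]

theorem push_cv (φ : G →* G') (p q : G → ℝ) : push φ (cv p q) = cv (push φ p) (push φ q) := by
  funext g'
  have h1 : cv (push φ p) (push φ q) g' = ∑ h, p h * push φ q ((φ h)⁻¹ * g') :=
    sum_push φ p (fun h' => push φ q (h'⁻¹ * g'))
  rw [h1]
  unfold push cv
  simp_rw [Finset.sum_mul, Finset.mul_sum]
  rw [Finset.sum_comm]
  apply Finset.sum_congr rfl
  intro h _
  rw [← Equiv.sum_comp (Equiv.mulLeft h)]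
  apply Finset.sum_congr rfl
  intro k _
  rw [Equiv.coe_mulLeft, inv_mul_cancel_left, mul_assoc]
  congr 2
  unfold dlt
  rw [map_mul]
  have : (g' = φ h * φ k) ↔ ((φ h)⁻¹ * g' = φ k) := by
    constructor
    · intro h'; rw [h']; group
    · intro h'; rw [← h']; group
  simp only [this]

theorem push_dlt (φ : G → G') (a : G) : push φ (dlt a) = dlt (φ a) := by
  funext g'
  unfold push
  have : ∀ g, dlt a g * dlt (φ g) g' = if g = a then dlt (φ a) g' else 0 := by
    intro g
    unfold dlt
    by_cases h : g = a
    · subst h; simp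
    · simp [h]
  simp_rw [this]
  simp

theorem push_unif (φ : G → G') (hφ : Function.Injective φ) (S : Finset G) :
    push φ (unif S) = unif (S.image φ) := by
  funext g'
  unfold push unif
  rw [Finset.card_image_of_injective _ hφ]
  by_cases h : g' ∈ S.image φ
  · rw [if_pos h]
    rw [Finset.mem_image] at h
    obtain ⟨a, ha, rfl⟩ := h
    rw [Finset.sum_eq_single a]
    · rw [if_pos ha]; unfold dlt; simp
    · intro b _ hb
      have : ¬ (φ a = φ b) := fun h => hb (hφ h).symm
      unfold dlt; simp [this]
    · intro h; exact absurd (Finset.mem_univ _) h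
  · rw [if_neg h]
    apply Finset.sum_eq_zero
    intro g _
    by_cases hg : g ∈ S
    · have : ¬ (g' = φ g) := fun h' => h (Finset.mem_image.mpr ⟨g, hg, h'.symm⟩)
      unfold dlt; simp [this]
    · simp [hg]

/-- tensor product -/
def tn (p q : G → ℝ) : G × G → ℝ := fun x => p x.1 * q x.2

theorem tn_cv (p q p' q' : G → ℝ) : cv (tn p q) (tn p' q') = tn (cv p p') (cv q q') := by
  funext x
  unfold cv tn
  rw [Fintype.sum_prod_type, Finset.sum_mul_sum]
  apply Finset.sum_congr rfl
  intro a _
  apply Finset.sum_congr rfl
  intro b _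
  simp only [Prod.fst_mul, Prod.snd_mul, Prod.fst_inv, Prod.snd_inv]
  ring

theorem tn_dlt (a b : G) : tn (dlt a) (dlt b) = dlt (a, b) := by
  funext x
  unfold tn dlt
  by_cases h1 : x.1 = a <;> by_cases h2 : x.2 = b <;> simp [h1, h2, Prod.ext_iff]

theorem tn_unif (S T : Finset G) : tn (unif S) (unif T) = unif (S ×ˢ T) := by
  funext x
  unfold tn unif
  by_cases h1 : x.1 ∈ S <;> by_cases h2 : x.2 ∈ T <;>
    simp [h1, h2, Finset.mem_product, mul_comm]

theorem lawOf_tn {C : Type*} [Fintype C] (f : C → G) :
    lawOf (fun c : C × C => (f c.1, f c.2)) = tn (lawOf f) (lawOf f) := by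
  funext x
  unfold lawOf tn
  have h : (Finset.univ.filter (fun c : C × C => (f c.1, f c.2) = x))
      = (Finset.univ.filter (fun c => f c = x.1)) ×ˢ (Finset.univ.filter (fun c => f c = x.2)) := by
    ext c
    simp [Prod.ext_iff]
  rw [h, Finset.card_product, Fintype.card_prod]
  push_cast
  rw [div_mul_div_comm]

theorem lawOf_push {C : Type*} [Fintype C] (f : C → G) (φ : G → G') :
    lawOf (fun c => φ (f c)) = push φ (lawOf f) := by
  funext g'
  unfold push
  rw [sum_lawOf f (fun g => dlt (φ g) g'), lawOf_eq_sum]
  congr 1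
  apply Finset.sum_congr rfl
  intro c _
  unfold dlt
  simp [eq_comm]

end Push

theorem comb_false_apply {D : ℕ} (g0 g1 : Equiv.Perm (Fin D → Bool)) (b : Bool)
    (y : Fin D → Bool) :
    comb g0 g1 (fun _ => false) (cns b y) = cns b ((if b then g1 else g0) y) := by
  rw [comb_apply]
  cases b <;> simp

/-- act in the two halves -/
def two (D : ℕ) : Equiv.Perm (Fin D → Bool) × Equiv.Perm (Fin D → Bool) →*
    Equiv.Perm (Fin (D + 1) → Bool) where
  toFun g := comb g.1 g.2 (fun _ => false)
  map_one' := by
    apply Equiv.ext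
    intro x
    have e := cns_head_tail x
    rw [← e, comb_false_apply]
    cases x 0 <;> simp
  map_mul' := by
    intro g h
    apply Equiv.ext
    intro x
    have e := cns_head_tail x
    rw [← e, Equiv.Perm.coe_mul, Function.comp_apply, comb_false_apply, comb_false_apply,
      comb_false_apply]
    cases x 0 <;> simp

theorem two_apply {D : ℕ} (g : Equiv.Perm (Fin D → Bool) × Equiv.Perm (Fin D → Bool))
    (b : Bool) (y : Fin D → Bool) :
    two D g (cns b y) = cns b ((if b then g.2 else g.1) y) := by
  show comb g.1 g.2 (fun _ => false) (cns b y) = _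
  rw [comb_apply]
  cases b <;> simp

theorem two_injective (D : ℕ) : Function.Injective (two D) := by
  intro g h hgh
  apply Prod.ext
  · apply Equiv.ext
    intro y
    have h1 := congrArg (fun σ : Equiv.Perm (Fin (D + 1) → Bool) => σ (cns false y)) hgh
    simp only [two_apply] at h1
    simpa using (cns_inj h1).2
  · apply Equiv.ext
    intro y
    have h1 := congrArg (fun σ : Equiv.Perm (Fin (D + 1) → Bool) => σ (cns true y)) hgh
    simp only [two_apply] at h1
    simpa using (cns_inj h1).2

theorem flipc_succ_cns {D : ℕ} (j : Fin D) (b : Bool) (y : Fin D → Bool) :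
    flipc j.succ (cns b y) = cns b (flipc j y) := by
  funext i
  refine Fin.cases ?_ (fun i => ?_) i
  · rw [flipc_ne _ _ (Fin.succ_ne_zero j).symm]; rfl
  · by_cases h : i = j
    · subst h; rw [flipc_self]; simp [flipc_self]
    · rw [flipc_ne _ _ (fun h' => h (Fin.succ_injective _ h')), cns_succ, cns_succ, flipc_ne _ _ h]

theorem flipc_zero_cns {D : ℕ} (b : Bool) (y : Fin D → Bool) :
    flipc (0 : Fin (D + 1)) (cns b y) = cns (!b) y := by
  funext i
  refine Fin.cases ?_ (fun i => ?_) i
  · rw [flipc_self]; rfl
  · rw [flipc_ne _ _ (Fin.succ_ne_zero i)]; rfl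

theorem dirSet_symm {D : ℕ} {j : Fin D} {g : Equiv.Perm (Fin D → Bool)} (hg : g ∈ dirSet D j)
    (x : Fin D → Bool) : g.symm x = x ∨ g.symm x = flipc j x := by
  rw [mem_dirSet] at hg
  have h := hg (g.symm x)
  rw [Equiv.apply_symm_apply] at h
  rcases h with h | h
  · left; exact h.symm
  · right; rw [h, flipc_flipc]; rw [← h]

/-- the half permutations -/
def halfPerm {D : ℕ} (j : Fin D) (b : Bool) (g : Equiv.Perm (Fin (D + 1) → Bool))
    (hg : g ∈ dirSet (D + 1) j.succ) : Equiv.Perm (Fin D → Bool) where
  toFun y := Fin.tail (g (cns b y))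
  invFun y := Fin.tail (g.symm (cns b y))
  left_inv := by
    intro y
    have h1 : cns b (Fin.tail (g (cns b y))) = g (cns b y) := by
      rcases (mem_dirSet.mp hg) (cns b y) with h | h
      · rw [h]; rfl
      · rw [h, flipc_succ_cns]; rfl
    show Fin.tail (g.symm (cns b (Fin.tail (g (cns b y))))) = y
    rw [h1, Equiv.symm_apply_apply]; rfl
  right_inv := by
    intro y
    have h1 : cns b (Fin.tail (g.symm (cns b y))) = g.symm (cns b y) := by
      rcases dirSet_symm hg (cns b y) with h | h
      · rw [h]; rfl
      · rw [h, flipc_succ_cns]; rfl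
    show Fin.tail (g (cns b (Fin.tail (g.symm (cns b y))))) = y
    rw [h1, Equiv.apply_symm_apply]; rfl

theorem halfPerm_apply {D : ℕ} (j : Fin D) (b : Bool) (g : Equiv.Perm (Fin (D + 1) → Bool))
    (hg : g ∈ dirSet (D + 1) j.succ) (y : Fin D → Bool) :
    cns b (halfPerm j b g hg y) = g (cns b y) := by
  show cns b (Fin.tail (g (cns b y))) = g (cns b y)
  rcases (mem_dirSet.mp hg) (cns b y) with h | h
  · rw [h]; rfl
  · rw [h, flipc_succ_cns]; rfl

theorem halfPerm_mem {D : ℕ} (j : Fin D) (b : Bool) (g : Equiv.Perm (Fin (D + 1) → Bool))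
    (hg : g ∈ dirSet (D + 1) j.succ) : halfPerm j b g hg ∈ dirSet D j := by
  rw [mem_dirSet]
  intro y
  have h0 := halfPerm_apply j b g hg y
  rcases (mem_dirSet.mp hg) (cns b y) with h | h
  · left; rw [h] at h0; exact (cns_inj h0).2
  · right; rw [h, flipc_succ_cns] at h0; exact (cns_inj h0).2

theorem image_two_dirSet {D : ℕ} (j : Fin D) :
    (dirSet D j ×ˢ dirSet D j).image (two D) = dirSet (D + 1) j.succ := by
  ext g
  rw [Finset.mem_image]
  constructor
  · rintro ⟨h, hh, rfl⟩
    rw [Finset.mem_product] at hh
    rw [mem_dirSet]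
    intro x
    have e := cns_head_tail x
    rw [← e, two_apply, flipc_succ_cns]
    have h1 := mem_dirSet.mp hh.1 (Fin.tail x)
    have h2 := mem_dirSet.mp hh.2 (Fin.tail x)
    cases x 0
    · rcases h1 with h | h
      · left; simp [h]
      · right; simp [h]
    · rcases h2 with h | h
      · left; simp [h]
      · right; simp [h]
  · intro hg
    refine ⟨(halfPerm j false g hg, halfPerm j true g hg), ?_, ?_⟩
    · rw [Finset.mem_product]
      exact ⟨halfPerm_mem j false g hg, halfPerm_mem j true g hg⟩
    · apply Equiv.ext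
      intro x
      have e := cns_head_tail x
      rw [← e, two_apply]
      cases x 0
      · exact halfPerm_apply j false g hg _
      · exact halfPerm_apply j true g hg _

theorem unif_dirSet_succ {D : ℕ} (j : Fin D) :
    unif (dirSet (D + 1) j.succ) = push (two D) (tn (unif (dirSet D j)) (unif (dirSet D j))) := by
  rw [tn_unif, push_unif _ (two_injective D), image_two_dirSet]

theorem cvList_two {D : ℕ} (L : List (Equiv.Perm (Fin D → Bool) → ℝ)) :
    cvList (L.map (fun p => push (two D) (tn p p))) = push (two D) (tn (cvList L) (cvList L)) := by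
  induction L with
  | nil =>
    rw [List.map_nil, cvList_nil, cvList_nil, tn_dlt, push_dlt]
    congr 1
    exact (map_one (two D)).symm
  | cons p L ih =>
    rw [List.map_cons, cvList_cons, cvList_cons, ih, ← push_cv, tn_cv]

theorem passLaw_succ (D : ℕ) : passLaw (D + 1)
    = cv (unif (dirSet (D + 1) 0)) (push (two D) (tn (passLaw D) (passLaw D))) := by
  unfold passLaw
  rw [List.ofFn_succ, cvList_cons, ← cvList_two]
  congr 2
  rw [List.map_ofFn]
  congr 1
  funext j
  exact unif_dirSet_succ j

/-- the swaps along direction 0 -/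
theorem lawOf_comb_one (D : ℕ) :
    lawOf (fun c : (Fin D → Bool) → Bool => comb (1 : Equiv.Perm (Fin D → Bool)) 1 c)
      = unif (dirSet (D + 1) 0) := by
  classical
  have happ : ∀ (c : (Fin D → Bool) → Bool) (b : Bool) (y : Fin D → Bool),
      comb (1 : Equiv.Perm (Fin D → Bool)) 1 c (cns b y) = cns (xor b (c y)) y := by
    intro c b y
    rw [comb_apply]
    cases b <;> simp
  have hinj : Function.Injective
      (fun c : (Fin D → Bool) → Bool => comb (1 : Equiv.Perm (Fin D → Bool)) 1 c) := by
    intro c c' h
    funext y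
    have h1 := congrArg (fun σ : Equiv.Perm (Fin (D + 1) → Bool) => σ (cns false y)) h
    simp only [happ] at h1
    simpa using (cns_inj h1).1
  have himg : (Finset.univ.image
      (fun c : (Fin D → Bool) → Bool => comb (1 : Equiv.Perm (Fin D → Bool)) 1 c))
        = dirSet (D + 1) 0 := by
    ext g
    rw [Finset.mem_image]
    constructor
    · rintro ⟨c, _, rfl⟩
      rw [mem_dirSet]
      intro x
      have e := cns_head_tail x
      rw [← e, happ, flipc_zero_cns]
      cases c (Fin.tail x)
      · left; simp
      · right; simp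
    · intro hg
      have hg' := mem_dirSet.mp hg
      refine ⟨fun y => (g (cns false y)) 0, Finset.mem_univ _, ?_⟩
      apply Equiv.ext
      intro x
      have e := cns_head_tail x
      rw [← e, happ]
      generalize Fin.tail x = y
      -- both points of the cell
      have hf := hg' (cns false y)
      have ht := hg' (cns true y)
      rw [flipc_zero_cns] at hf ht
      have hne : g (cns false y) ≠ g (cns true y) := by
        intro h
        have := (cns_inj (g.injective h)).1
        exact absurd this (by simp)
      cases x 0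
      · rcases hf with h | h
        · rw [h]; simp
        · rw [h]; simp
      · rcases hf with h | h
        · rcases ht with h' | h'
          · rw [h, h']; simp
          · exfalso; apply hne; rw [h, h']; simp
        · rcases ht with h' | h'
          · exfalso; apply hne; rw [h, h']; simp
          · rw [h, h']; simp
  funext g
  unfold lawOf unif
  rw [← himg, Finset.card_image_of_injective _ hinj, Finset.card_univ]
  by_cases hg : g ∈ Finset.univ.image
      (fun c : (Fin D → Bool) → Bool => comb (1 : Equiv.Perm (Fin D → Bool)) 1 c)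
  · rw [if_pos hg]
    rw [Finset.mem_image] at hg
    obtain ⟨c, _, hc⟩ := hg
    have : (Finset.univ.filter
        (fun c => comb (1 : Equiv.Perm (Fin D → Bool)) 1 c = g)) = {c} := by
      ext c'
      simp only [Finset.mem_filter, Finset.mem_univ, true_and, Finset.mem_singleton]
      constructor
      · intro h; exact hinj (h.trans hc.symm)
      · intro h; rw [h]; exact hc
    rw [this]; simp
  · rw [if_neg hg]
    have : (Finset.univ.filter
        (fun c => comb (1 : Equiv.Perm (Fin D → Bool)) 1 c = g)) = ∅ := by
      apply Finset.filter_eq_empty_iff.mpr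
      intro c _ h
      exact hg (Finset.mem_image.mpr ⟨c, Finset.mem_univ _, h⟩)
    rw [this]; simp

theorem comb_eq_mul {D : ℕ} (g0 g1 : Equiv.Perm (Fin D → Bool)) (c : (Fin D → Bool) → Bool) :
    comb g0 g1 c = comb 1 1 c * two D (g0, g1) := by
  apply Equiv.ext
  intro x
  have e := cns_head_tail x
  rw [← e, Equiv.Perm.coe_mul, Function.comp_apply, two_apply, comb_apply, comb_apply]
  cases x 0 <;> simp

/-- the law of the permutation of one pass -/
theorem lawOf_pm (D : ℕ) : lawOf (pm D) = passLaw D := by
  induction D with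
  | zero =>
    funext g
    unfold passLaw lawOf
    rw [List.ofFn_zero, cvList_nil]
    unfold dlt
    have : g = 1 := Subsingleton.elim _ _
    subst this
    simp [pm]
  | succ D ih =>
    rw [passLaw_succ, ← ih, ← lawOf_tn, ← lawOf_push, ← lawOf_comb_one]
    refine lawOf_mul _ _ _ (Equiv.prodComm _ _) ?_
    intro c ω
    show comb (pm D ω.1) (pm D ω.2) c = _
    exact comb_eq_mul _ _ _

end Crest.Agent.ThS
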