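import Mathlib
import Crest.Agent.ThRed

/-! Definitions for the quenched reduction of the Thorp shuffle (helper9, captain).

Hidden deck type `A`; positions of the hidden cards `y : A ↪ (Fin D → Bool)`.
In every round of an active pass the environment `h` is uniform in `dirSet D j` and the positions
move by `y ↦ act h y`; the free (hidden-hidden) switches are the uniform element of `hidSet j y`
(a subgroup of `Perm A`), which is convolved ON THE LEFT:  `ν ↦ cv (unif (hidSet j y)) ν`.
Lists of directions: the FIRST element of the list is applied LAST (as in `passLaw`). -/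

set_option autoImplicit false
set_option linter.unusedSectionVars false

namespace Crest.Agent.ThS

open Finset

variable {D : ℕ} {A : Type} [Fintype A] [DecidableEq A]

/-- action of a permutation of the cube on positions of the hidden deck -/
def act (h : Equiv.Perm (Fin D → Bool)) (y : A ↪ (Fin D → Bool)) : A ↪ (Fin D → Bool) :=
  y.trans h.toEmbedding

@[simp] theorem act_apply (h : Equiv.Perm (Fin D → Bool)) (y : A ↪ (Fin D → Bool)) (a : A) :
    act h y a = h (y a) := rfl

/-- relabelling of the hidden deck -/
def rel (y : A ↪ (Fin D → Bool)) (σ : Equiv.Perm A) : A ↪ (Fin D → Bool) := σ.toEmbedding.trans y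

@[simp] theorem rel_apply (y : A ↪ (Fin D → Bool)) (σ : Equiv.Perm A) (a : A) :
    rel y σ a = y (σ a) := rfl

/-- free hidden-hidden switches along direction `j` -/
noncomputable def hidSet (j : Fin D) (y : A ↪ (Fin D → Bool)) : Finset (Equiv.Perm A) :=
  Finset.univ.filter (fun κ => ∀ a, y (κ a) = y a ∨ y (κ a) = flipc j (y a))

/-- environment of a list of rounds (first element of the list applied last) -/
def EnvT (D : ℕ) : List (Fin D) → Type
  | [] => Unit
  | j :: L => {h : Equiv.Perm (Fin D → Bool) // h ∈ dirSet D j} × EnvT D L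

noncomputable instance instFintypeEnvT : (L : List (Fin D)) → Fintype (EnvT D L)
  | [] => inferInstanceAs (Fintype Unit)
  | j :: L =>
    let _ := instFintypeEnvT L
    inferInstanceAs (Fintype ({h : Equiv.Perm (Fin D → Bool) // h ∈ dirSet D j} × EnvT D L))

instance instNonemptyEnvT : (L : List (Fin D)) → Nonempty (EnvT D L)
  | [] => ⟨()⟩
  | j :: L => let ⟨e⟩ := instNonemptyEnvT L; ⟨(⟨1, one_mem_dirSet j⟩, e)⟩

/-- positions of the hidden cards after the rounds of the list -/
def posL : (L : List (Fin D)) → EnvT D L → (A ↪ (Fin D → Bool)) → (A ↪ (Fin D → Bool))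
  | [], _, y => y
  | _ :: L, e, y => act e.1.1 (posL L e.2 y)

/-- quenched law of the hidden deck after the rounds of the list -/
noncomputable def nuL : (L : List (Fin D)) → EnvT D L → (A ↪ (Fin D → Bool)) →
    (Equiv.Perm A → ℝ)
  | [], _, _ => dlt 1
  | j :: L, e, y => cv (unif (hidSet j (posL L e.2 y))) (nuL L e.2 y)

/-- the environment of one active pass -/
abbrev PEnv (D : ℕ) := EnvT D (List.finRange D)

/-- the truncated class function `ζ` -/
noncomputable def zetaG (Good : (A ↪ (Fin D → Bool)) → PEnv D → Prop) : Equiv.Perm A → ℝ := by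
  classical
  exact fun g =>
    (∑ y : A ↪ (Fin D → Bool), ∑ e : PEnv D,
      if Good y e then ∑ h, nuL _ e y h * nuL _ e y (h * g) else 0)
      / ((Fintype.card (A ↪ (Fin D → Bool)) : ℝ) * (Fintype.card (PEnv D) : ℝ))

/-- probability of the bad event -/
noncomputable def pBad (Good : (A ↪ (Fin D → Bool)) → PEnv D → Prop) : ℝ := by
  classical
  exact (∑ y : A ↪ (Fin D → Bool), ∑ e : PEnv D, if Good y e then (0 : ℝ) else 1)
      / ((Fintype.card (A ↪ (Fin D → Bool)) : ℝ) * (Fintype.card (PEnv D) : ℝ))

/-- law of the positions `act g y`, `g ∼ p` -/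
noncomputable def posLaw (p : Equiv.Perm (Fin D → Bool) → ℝ) (y z : A ↪ (Fin D → Bool)) : ℝ :=
  ∑ g, if act g y = z then p g else 0

/-- total variation distance of the positions of the hidden deck from uniform -/
noncomputable def tvPos (p : Equiv.Perm (Fin D → Bool) → ℝ) (y : A ↪ (Fin D → Bool)) : ℝ :=
  (1 / 2) * ∑ z : A ↪ (Fin D → Bool),
    |posLaw p y z - 1 / (Fintype.card (A ↪ (Fin D → Bool)) : ℝ)|

end Crest.Agent.ThS
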