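import Mathlib
import Crest.Agent.ThQDef

/-! Quenched reduction for the Thorp shuffle (helper9).

Hidden deck type `A`, positions `y : A ↪ Cube`.  In every used round the environment `h` is uniform
in `dirSet D j`; the free switches are the uniform element of `hidSet j y`. -/

set_option autoImplicit false
set_option linter.unusedSectionVars false

namespace Crest.Agent.ThS

open Finset

section Quench

variable {D : ℕ} {A : Type} [Fintype A] [DecidableEq A]

theorem act_one (y : A ↪ (Fin D → Bool)) : act 1 y = y := by ext a; rfl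

theorem act_mul (g h : Equiv.Perm (Fin D → Bool)) (y : A ↪ (Fin D → Bool)) :
    act (g * h) y = act g (act h y) := by ext a; rfl

theorem act_rel (h : Equiv.Perm (Fin D → Bool)) (y : A ↪ (Fin D → Bool)) (σ : Equiv.Perm A) :
    act h (rel y σ) = rel (act h y) σ := by ext a; rfl

theorem mem_hidSet {j : Fin D} {y : A ↪ (Fin D → Bool)} {κ : Equiv.Perm A} :
    κ ∈ hidSet j y ↔ ∀ a, y (κ a) = y a ∨ y (κ a) = flipc j (y a) := by
  simp [hidSet]

theorem one_mem_hidSet (j : Fin D) (y : A ↪ (Fin D → Bool)) : (1 : Equiv.Perm A) ∈ hidSet j y := by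
  rw [mem_hidSet]; intro a; left; rfl

theorem hidSet_rel (j : Fin D) (y : A ↪ (Fin D → Bool)) (σ κ : Equiv.Perm A) :
    κ ∈ hidSet j (rel y σ) ↔ σ * κ * σ⁻¹ ∈ hidSet j y := by
  rw [mem_hidSet, mem_hidSet]
  constructor
  · intro h a
    have := h (σ⁻¹ a)
    simpa using this
  · intro h a
    have := h (σ a)
    simpa using this

theorem dirSet_mul_mem {j : Fin D} {g h : Equiv.Perm (Fin D → Bool)} (hg : g ∈ dirSet D j)
    (hh : h ∈ dirSet D j) : g * h ∈ dirSet D j := by
  rw [mem_dirSet] at *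
  intro x
  rcases hh x with h1 | h1
  · simpa [h1] using hg x
  · rcases hg (flipc j x) with h2 | h2
    · right; simp [h1, h2]
    · left; simp [h1, h2, flipc_flipc]

theorem dirSet_inv_mem {j : Fin D} {g : Equiv.Perm (Fin D → Bool)} (hg : g ∈ dirSet D j) :
    g⁻¹ ∈ dirSet D j := by
  rw [mem_dirSet] at *
  intro x
  rcases hg (g⁻¹ x) with h1 | h1
  · left; simpa using h1.symm
  · right
    have h2 : x = flipc j (g⁻¹ x) := by simpa using h1
    calc g⁻¹ x = flipc j (flipc j (g⁻¹ x)) := (flipc_flipc _ _).symm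
      _ = flipc j x := by rw [← h2]

/-- the law of `X * ext κ`, `κ ∼ ν` -/
noncomputable def Lw (ι : A ↪ (Fin D → Bool)) (X : Equiv.Perm (Fin D → Bool))
    (ν : Equiv.Perm A → ℝ) : Equiv.Perm (Fin D → Bool) → ℝ :=
  fun x => ∑ κ, ν κ * dlt (X * Equiv.Perm.viaEmbeddingHom ι κ) x

theorem Lw_translate (ι : A ↪ (Fin D → Bool)) (h X : Equiv.Perm (Fin D → Bool))
    (ν : Equiv.Perm A → ℝ) (g : Equiv.Perm (Fin D → Bool)) :
    Lw ι X ν (h⁻¹ * g) = Lw ι (h * X) ν g := by
  unfold Lw dlt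
  apply Finset.sum_congr rfl
  intro κ _
  have : (h⁻¹ * g = X * Equiv.Perm.viaEmbeddingHom ι κ) ↔
      (g = h * X * Equiv.Perm.viaEmbeddingHom ι κ) := by
    constructor
    · intro h'; rw [mul_assoc, ← h']; group
    · intro h'; rw [h']; group
  simp only [this]

theorem Lw_shift (ι : A ↪ (Fin D → Bool)) (X : Equiv.Perm (Fin D → Bool)) (κ' : Equiv.Perm A)
    (ν : Equiv.Perm A → ℝ) :
    Lw ι X (fun κ => ν (κ'⁻¹ * κ)) = Lw ι (X * Equiv.Perm.viaEmbeddingHom ι κ') ν := by
  funext g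
  unfold Lw
  rw [← Equiv.sum_comp (Equiv.mulLeft κ')]
  apply Finset.sum_congr rfl
  intro κ _
  simp [mul_assoc]

theorem conj_mem_dirSet (ι : A ↪ (Fin D → Bool)) (X : Equiv.Perm (Fin D → Bool)) (j : Fin D)
    (κ : Equiv.Perm A) (hκ : κ ∈ hidSet j (act X ι)) :
    X * Equiv.Perm.viaEmbeddingHom ι κ * X⁻¹ ∈ dirSet D j := by
  rw [mem_dirSet]
  rw [mem_hidSet] at hκ
  intro x
  obtain ⟨x0, rfl⟩ := X.surjective x
  have h0 : (X * Equiv.Perm.viaEmbeddingHom ι κ * X⁻¹) (X x0)
      = X (Equiv.Perm.viaEmbeddingHom ι κ x0) := by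
    simp [Equiv.Perm.mul_apply]
  rw [h0]
  by_cases hx : x0 ∈ Set.range ι
  · obtain ⟨a, rfl⟩ := hx
    have h1 : Equiv.Perm.viaEmbeddingHom ι κ (ι a) = ι (κ a) := by
      rw [Equiv.Perm.viaEmbeddingHom_apply]
      exact Equiv.Perm.viaEmbedding_apply κ ι a
    rw [h1]
    have := hκ a
    simpa using this
  · left
    have h1 : Equiv.Perm.viaEmbeddingHom ι κ x0 = x0 := by
      rw [Equiv.Perm.viaEmbeddingHom_apply]
      exact Equiv.Perm.viaEmbedding_apply_of_notMem κ ι x0 hx
    rw [h1]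

/-- one used round -/
theorem round_Lw (ι : A ↪ (Fin D → Bool)) (X : Equiv.Perm (Fin D → Bool)) (j : Fin D)
    (ν : Equiv.Perm A → ℝ) (g : Equiv.Perm (Fin D → Bool)) :
    cv (unif (dirSet D j)) (Lw ι X ν) g
      = (∑ h ∈ dirSet D j, Lw ι (h * X) (cv (unif (hidSet j (act X ι))) ν) g)
        / ((dirSet D j).card : ℝ) := by
  have h1 : cv (unif (dirSet D j)) (Lw ι X ν) g
      = (∑ h ∈ dirSet D j, Lw ι (h * X) ν g) / ((dirSet D j).card : ℝ) := by
    unfold cv unif
    simp_rw [Lw_translate, ite_mul, zero_mul]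
    rw [Finset.sum_ite_mem, Finset.univ_inter, ← Finset.mul_sum]
    ring
  rw [h1]
  congr 1
  have hc : (0 : ℝ) < (hidSet j (act X ι)).card := by
    exact_mod_cast Finset.card_pos.mpr ⟨1, one_mem_hidSet _ _⟩
  have h2 : ∀ h : Equiv.Perm (Fin D → Bool),
      Lw ι (h * X) (cv (unif (hidSet j (act X ι))) ν) g
      = (∑ κ' ∈ hidSet j (act X ι), Lw ι (h * X * Equiv.Perm.viaEmbeddingHom ι κ') ν g)
        / ((hidSet j (act X ι)).card : ℝ) := by
    intro h
    have : ∀ κ' : Equiv.Perm A, Lw ι (h * X * Equiv.Perm.viaEmbeddingHom ι κ') ν g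
        = Lw ι (h * X) (fun κ => ν (κ'⁻¹ * κ)) g := fun κ' => by rw [Lw_shift]
    simp_rw [this]
    unfold Lw cv unif
    simp_rw [ite_mul, zero_mul]
    simp_rw [Finset.sum_ite_mem, Finset.univ_inter, Finset.sum_mul]
    rw [Finset.sum_comm, Finset.sum_div]
    apply Finset.sum_congr rfl
    intro κ' _
    rw [Finset.sum_div]
    apply Finset.sum_congr rfl
    intro κ _
    ring
  simp_rw [h2]
  rw [← Finset.sum_div, Finset.sum_comm]
  rw [eq_div_iff hc.ne']
  rw [mul_comm, ← nsmul_eq_mul, ← Finset.sum_const]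
  apply Finset.sum_congr rfl
  intro κ' hκ'
  have hk := conj_mem_dirSet ι X j κ' hκ'
  symm
  apply Finset.sum_bij (fun h _ => h * (X * Equiv.Perm.viaEmbeddingHom ι κ' * X⁻¹))
  · intro h hh; exact dirSet_mul_mem hh hk
  · intro h _ h' _ he; exact mul_right_cancel he
  · intro h hh
    refine ⟨h * (X * Equiv.Perm.viaEmbeddingHom ι κ' * X⁻¹)⁻¹,
      dirSet_mul_mem hh (dirSet_inv_mem hk), by group⟩
  · intro h _
    have : h * (X * Equiv.Perm.viaEmbeddingHom ι κ' * X⁻¹) * X
        = h * X * Equiv.Perm.viaEmbeddingHom ι κ' := by group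
    rw [this]

theorem sum_EnvT_cons (j : Fin D) (L : List (Fin D)) (F : EnvT D (j :: L) → ℝ) :
    ∑ e : EnvT D (j :: L), F e
      = ∑ h : {h : Equiv.Perm (Fin D → Bool) // h ∈ dirSet D j}, ∑ e : EnvT D L, F (h, e) :=
  Fintype.sum_prod_type F

theorem card_EnvT_cons (j : Fin D) (L : List (Fin D)) :
    Fintype.card (EnvT D (j :: L)) = (dirSet D j).card * Fintype.card (EnvT D L) := by
  have h : Fintype.card (EnvT D (j :: L))
      = Fintype.card ({h : Equiv.Perm (Fin D → Bool) // h ∈ dirSet D j} × EnvT D L) := rfl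
  rw [h, Fintype.card_prod, Fintype.card_coe]

theorem card_EnvT_pos (L : List (Fin D)) : (0 : ℝ) < Fintype.card (EnvT D L) := by
  have : Nonempty (EnvT D L) := inferInstance
  exact_mod_cast Fintype.card_pos

/-- the environment permutation -/
def gL : (L : List (Fin D)) → EnvT D L → Equiv.Perm (Fin D → Bool)
  | [], _ => 1
  | _ :: L, e => e.1.1 * gL L e.2

theorem posL_eq (L : List (Fin D)) (e : EnvT D L) (y : A ↪ (Fin D → Bool)) :
    posL L e y = act (gL L e) y := by
  induction L with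
  | nil => ext a; rfl
  | cons j L ih =>
    show act e.1.1 (posL L e.2 y) = act (e.1.1 * gL L e.2) y
    rw [ih, act_mul]

theorem cv_sum_div {G : Type*} [Group G] [Fintype G] [DecidableEq G] {ι : Type*} [Fintype ι]
    (p : G → ℝ) (F : ι → G → ℝ) (c : ℝ) (g : G) :
    cv p (fun g => (∑ e, F e g) / c) g = (∑ e, cv p (F e) g) / c := by
  unfold cv
  rw [Finset.sum_comm, Finset.sum_div]
  apply Finset.sum_congr rfl
  intro h _
  rw [mul_div_assoc', Finset.mul_sum]

/-- one active pass -/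
theorem pass_Lw (ι : A ↪ (Fin D → Bool)) (L : List (Fin D)) (X : Equiv.Perm (Fin D → Bool))
    (ν : Equiv.Perm A → ℝ) (g : Equiv.Perm (Fin D → Bool)) :
    cv (cvList (L.map (fun j => unif (dirSet D j)))) (Lw ι X ν) g
      = (∑ e : EnvT D L, Lw ι (gL L e * X) (cv (nuL L e (act X ι)) ν) g)
        / (Fintype.card (EnvT D L) : ℝ) := by
  induction L generalizing g with
  | nil =>
    have h1 : Fintype.card (EnvT D []) = 1 := rfl
    have h2 : ∑ e : EnvT D [], Lw ι (gL [] e * X) (cv (nuL [] e (act X ι)) ν) g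
        = Lw ι (gL [] () * X) (cv (nuL [] () (act X ι)) ν) g :=
      Fintype.sum_unique (ι := Unit) (fun e => Lw ι (gL [] e * X) (cv (nuL [] e (act X ι)) ν) g)
    rw [h2, h1]
    simp only [List.map_nil, cvList_nil, dlt_one_cv, gL, one_mul, nuL, Nat.cast_one, div_one]
  | cons j L ih =>
    rw [List.map_cons, cvList_cons, cv_assoc]
    have hf : cv (cvList (L.map (fun j => unif (dirSet D j)))) (Lw ι X ν)
        = fun g => (∑ e : EnvT D L, Lw ι (gL L e * X) (cv (nuL L e (act X ι)) ν) g)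
        / (Fintype.card (EnvT D L) : ℝ) := by funext g; exact ih g
    rw [hf]
    rw [cv_sum_div]
    simp_rw [round_Lw]
    rw [← Finset.sum_div, sum_EnvT_cons, card_EnvT_cons]
    push_cast
    rw [div_div]
    congr 1
    rw [Finset.sum_comm, ← Finset.sum_coe_sort (dirSet D j)]
    apply Finset.sum_congr rfl
    intro h _
    apply Finset.sum_congr rfl
    intro e _
    show Lw ι (↑h * (gL L e * X)) (cv (unif (hidSet j (act (gL L e * X) ι)))
      (cv (nuL L e (act X ι)) ν)) g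
      = Lw ι (↑h * gL L e * X) (cv (cv (unif (hidSet j (posL L e (act X ι))))
        (nuL L e (act X ι))) ν) g
    rw [cv_assoc, posL_eq, act_mul, mul_assoc]

end Quench

end Crest.Agent.ThS
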