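import Mathlib
import Crest.Agent.ThQuench

/-! Glue of the quenched reduction (helper9). -/

set_option autoImplicit false
set_option linter.unusedSectionVars false

namespace Crest.Agent.ThS

open Finset

section Gen

variable {G : Type*} [Group G] [Fintype G] [DecidableEq G]

/-- inner product on functions on a group -/
noncomputable def ipr (f g : G → ℝ) : ℝ := ∑ x, f x * g x

/-- `ν ∘ inv` -/
def chk (ν : G → ℝ) : G → ℝ := fun g => ν g⁻¹

theorem ipr_cv (a f g : G → ℝ) : ipr (cv a f) g = ipr f (cv (chk a) g) := by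
  unfold ipr cv chk
  simp_rw [Finset.sum_mul, Finset.mul_sum]
  rw [Finset.sum_comm]
  rw [Finset.sum_comm (f := fun x i => f x * (a i⁻¹ * g (i⁻¹ * x)))]
  rw [← Equiv.sum_comp (Equiv.inv G)]
  apply Finset.sum_congr rfl
  intro h _
  rw [← Equiv.sum_comp (Equiv.mulLeft (h⁻¹))]
  apply Finset.sum_congr rfl
  intro x _
  simp
  ring

theorem cv_comm_of_cls (p q : G → ℝ) (hp : ∀ g k, p (k * g * k⁻¹) = p g) : cv p q = cv q p := by
  funext g
  unfold cv
  rw [← Equiv.sum_comp ((Equiv.inv G).trans (Equiv.mulLeft g))]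
  apply Finset.sum_congr rfl
  intro h _
  have h1 : ((Equiv.inv G).trans (Equiv.mulLeft g)) h = g * h⁻¹ := rfl
  rw [h1]
  have h2 : (g * h⁻¹)⁻¹ * g = h := by group
  have h3 : p (g * h⁻¹) = p (h⁻¹ * g) := by
    rw [← hp (h⁻¹ * g) h]
    congr 1; group
  rw [h2, h3, mul_comm]

theorem cvPow_comm (p q : G → ℝ) (hp : cv p q = cv q p) (k : ℕ) :
    cv (cvPow p k) q = cv q (cvPow p k) := by
  induction k with
  | zero => rw [cvPow_zero, dlt_one_cv, cv_dlt_one]
  | succ k ih => rw [cvPow_succ, cv_assoc, ih, ← cv_assoc, hp, cv_assoc]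

theorem ipr_dlt_one (f : G → ℝ) : ipr (dlt 1) f = f 1 := by
  unfold ipr dlt
  simp

theorem cv_add_div {ι : Type*} (s : Finset ι) (F : ι → G → ℝ) (q : G → ℝ) (c : ℝ) :
    cv (fun g => (∑ e ∈ s, F e g) / c) q = fun g => (∑ e ∈ s, cv (F e) q g) / c := by
  funext g
  unfold cv
  rw [Finset.sum_comm, Finset.sum_div]
  apply Finset.sum_congr rfl
  intro h _
  rw [← Finset.sum_mul]
  ring

end Gen

section Lin

variable {G : Type*} [Group G] [Fintype G] [DecidableEq G]

/-- the total variation distance to uniform -/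
noncomputable def tvu (ν : G → ℝ) : ℝ := (1 / 2) * ∑ g, |ν g - 1 / (Fintype.card G : ℝ)|

/-- probability laws -/
structure IsLaw (ν : G → ℝ) : Prop where
  nonneg : ∀ g, 0 ≤ ν g
  sum_one : ∑ g, ν g = 1

theorem IsLaw.dlt (a : G) : IsLaw (dlt a) := by
  refine ⟨fun g => ?_, ?_⟩
  · unfold ThS.dlt; split_ifs <;> norm_num
  · unfold ThS.dlt; simp

theorem IsLaw.cv {p q : G → ℝ} (hp : IsLaw p) (hq : IsLaw q) : IsLaw (cv p q) :=
  ⟨cv_nonneg hp.nonneg hq.nonneg, by rw [sum_cv, hp.sum_one, hq.sum_one, mul_one]⟩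

theorem IsLaw.unif {S : Finset G} (hS : S.Nonempty) : IsLaw (unif S) :=
  ⟨unif_nonneg S, sum_unif S hS⟩

theorem IsLaw.cvPow {p : G → ℝ} (hp : IsLaw p) (k : ℕ) : IsLaw (cvPow p k) := by
  induction k with
  | zero => exact IsLaw.dlt 1
  | succ k ih => exact hp.cv ih

theorem IsLaw.cvList {L : List (G → ℝ)} (hL : ∀ p ∈ L, IsLaw p) : IsLaw (cvList L) := by
  induction L with
  | nil => exact IsLaw.dlt 1
  | cons p L ih =>
    exact (hL p (by simp)).cv (ih (fun q hq => hL q (by simp [hq])))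

theorem tvu_nonneg (ν : G → ℝ) : 0 ≤ tvu ν := by
  unfold tvu; positivity

theorem tvu_le_one {ν : G → ℝ} (h : IsLaw ν) : tvu ν ≤ 1 := by
  unfold tvu
  have hN : (0 : ℝ) < Fintype.card G := by exact_mod_cast Fintype.card_pos
  have : ∑ g, |ν g - 1 / (Fintype.card G : ℝ)| ≤ ∑ g, (ν g + 1 / (Fintype.card G : ℝ)) := by
    apply Finset.sum_le_sum
    intro g _
    have h1 := h.nonneg g
    have h2 : (0 : ℝ) ≤ 1 / (Fintype.card G : ℝ) := by positivity
    rw [abs_le]; constructor <;> linarith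
  rw [Finset.sum_add_distrib, h.sum_one, Finset.sum_const, Finset.card_univ, nsmul_eq_mul] at this
  have h3 : (Fintype.card G : ℝ) * (1 / (Fintype.card G : ℝ)) = 1 := by field_simp
  rw [h3] at this
  linarith

theorem sum_abs_cv_le (p f : G → ℝ) (hp : IsLaw p) : ∑ g, |cv p f g| ≤ ∑ g, |f g| := by
  calc ∑ g, |cv p f g| ≤ ∑ g, ∑ h, p h * |f (h⁻¹ * g)| := by
        apply Finset.sum_le_sum
        intro g _
        unfold cv
        refine (Finset.abs_sum_le_sum_abs _ _).trans ?_
        apply Finset.sum_le_sum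
        intro h _
        rw [abs_mul, abs_of_nonneg (hp.nonneg h)]
    _ = ∑ h, p h * ∑ g, |f (h⁻¹ * g)| := by
        rw [Finset.sum_comm]
        apply Finset.sum_congr rfl
        intro h _
        rw [Finset.mul_sum]
    _ = ∑ h, p h * ∑ g, |f g| := by
        apply Finset.sum_congr rfl
        intro h _
        congr 1
        exact Equiv.sum_comp (Equiv.mulLeft h⁻¹) (fun g => |f g|)
    _ = ∑ g, |f g| := by rw [← Finset.sum_mul, hp.sum_one, one_mul]

end Lin

section Glue

variable {D : ℕ} {A : Type} [Fintype A] [DecidableEq A]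

theorem passLaw_eq_list : passLaw D
    = cvList ((List.finRange D).map (fun j => unif (dirSet D j))) := by
  unfold passLaw
  rw [List.ofFn_eq_map]

theorem isLaw_passLaw : IsLaw (passLaw D) := by
  rw [passLaw_eq_list]
  apply IsLaw.cvList
  intro p hp
  rw [List.mem_map] at hp
  obtain ⟨j, _, rfl⟩ := hp
  exact IsLaw.unif ⟨1, one_mem_dirSet j⟩

theorem isLaw_nuL (L : List (Fin D)) (e : EnvT D L) (y : A ↪ (Fin D → Bool)) :
    IsLaw (nuL L e y) := by
  induction L with
  | nil => exact IsLaw.dlt 1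
  | cons j L ih => exact (IsLaw.unif ⟨1, one_mem_hidSet _ _⟩).cv (ih e.2)

/-- translations of embeddings -/
theorem sum_act (h : Equiv.Perm (Fin D → Bool)) (F : (A ↪ (Fin D → Bool)) → ℝ) :
    ∑ y, F (act h y) = ∑ y, F y := by
  let e : (A ↪ (Fin D → Bool)) ≃ (A ↪ (Fin D → Bool)) :=
    { toFun := act h
      invFun := act h⁻¹
      left_inv := fun y => by rw [← act_mul, inv_mul_cancel, act_one]
      right_inv := fun y => by rw [← act_mul, mul_inv_cancel, act_one] }
  exact Equiv.sum_comp e F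

theorem sum_rel (σ : Equiv.Perm A) (F : (A ↪ (Fin D → Bool)) → ℝ) :
    ∑ y, F (rel y σ) = ∑ y, F y := by
  let e : (A ↪ (Fin D → Bool)) ≃ (A ↪ (Fin D → Bool)) :=
    { toFun := fun y => rel y σ
      invFun := fun y => rel y σ⁻¹
      left_inv := fun y => by ext a; simp
      right_inv := fun y => by ext a; simp }
  exact Equiv.sum_comp e F

theorem exists_act (y z : A ↪ (Fin D → Bool)) : ∃ X, act X y = z := by
  classical
  let e : {x // x ∈ Set.range y} ≃ {x // x ∈ Set.range z} :=
    (Equiv.ofInjective y y.injective).symm.trans (Equiv.ofInjective z z.injective)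
  refine ⟨e.extendSubtype, ?_⟩
  ext a
  have h1 : act e.extendSubtype y a = e ⟨y a, Set.mem_range_self a⟩ :=
    Equiv.extendSubtype_apply_of_mem e (y a) (Set.mem_range_self a)
  have h2 : (Equiv.ofInjective y y.injective).symm ⟨y a, Set.mem_range_self a⟩ = a := by
    rw [Equiv.symm_apply_eq]; rfl
  have h3 : ((e ⟨y a, Set.mem_range_self a⟩ : {x // x ∈ Set.range z}) : Fin D → Bool) = z a := by
    show ((Equiv.ofInjective z z.injective)
      ((Equiv.ofInjective y y.injective).symm ⟨y a, Set.mem_range_self a⟩) : Fin D → Bool) = z a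
    rw [h2]; rfl
  rw [h1, h3]

/-- uniform permutations move positions to uniform positions -/
theorem av_act (y : A ↪ (Fin D → Bool)) (F : (A ↪ (Fin D → Bool)) → ℝ) :
    (∑ X : Equiv.Perm (Fin D → Bool), F (act X y))
        / (Fintype.card (Equiv.Perm (Fin D → Bool)) : ℝ)
      = (∑ z, F z) / (Fintype.card (A ↪ (Fin D → Bool)) : ℝ) := by
  have hG : (0 : ℝ) < Fintype.card (Equiv.Perm (Fin D → Bool)) := by
    exact_mod_cast Fintype.card_pos
  have hne : Nonempty (A ↪ (Fin D → Bool)) := ⟨y⟩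
  have hN : (0 : ℝ) < Fintype.card (A ↪ (Fin D → Bool)) := by exact_mod_cast Fintype.card_pos
  -- double count: average over X of F (act X z) does not depend on z
  have h1 : ∀ z, ∑ X : Equiv.Perm (Fin D → Bool), F (act X z)
      = ∑ X : Equiv.Perm (Fin D → Bool), F (act X y) := by
    intro z
    obtain ⟨X0, rfl⟩ := exists_act y z
    rw [← Equiv.sum_comp (Equiv.mulRight X0) (fun X => F (act X y))]
    apply Finset.sum_congr rfl
    intro X _
    show F (act X (act X0 y)) = F (act (X * X0) y)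
    rw [act_mul]
  have h2 : ∑ z : A ↪ (Fin D → Bool), ∑ X : Equiv.Perm (Fin D → Bool), F (act X z)
      = (Fintype.card (A ↪ (Fin D → Bool)) : ℝ)
        * ∑ X : Equiv.Perm (Fin D → Bool), F (act X y) := by
    rw [Finset.sum_congr rfl (fun z _ => h1 z), Finset.sum_const, Finset.card_univ, nsmul_eq_mul]
  have h3 : ∑ z : A ↪ (Fin D → Bool), ∑ X : Equiv.Perm (Fin D → Bool), F (act X z)
      = (Fintype.card (Equiv.Perm (Fin D → Bool)) : ℝ) * ∑ z, F z := by
    rw [Finset.sum_comm, Finset.sum_congr rfl (fun X _ => sum_act X F), Finset.sum_const,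
      Finset.card_univ, nsmul_eq_mul]
  rw [div_eq_div_iff hG.ne' hN.ne']
  linarith

end Glue

end Crest.Agent.ThS
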