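import Crest.Agent.ThA7
import Crest.Agent.ThGlue

/-! Final statement of part (a). -/

set_option autoImplicit false
set_option linter.unusedSectionVars false
set_option linter.unusedVariables false

namespace Crest.Agent.ThS

open Finset Filter Topology

/-- dimension threshold -/
def rr (D : ℕ) : ℕ := Nat.size (37500 * D)

theorem rr_lower (D : ℕ) : (37500 * (D : ℝ)) ≤ 2 ^ rr D := by
  have h := Nat.lt_size_self (37500 * D)
  have : ((37500 * D : ℕ) : ℝ) ≤ ((2 ^ rr D : ℕ) : ℝ) := by exact_mod_cast h.le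
  push_cast at this
  exact this

theorem rr_upper (D : ℕ) (hD : 1 ≤ D) : (2 : ℝ) ^ rr D ≤ 75000 * D := by
  have hpos : 0 < 37500 * D := by positivity
  have hs : 0 < rr D := Nat.size_pos.mpr hpos
  have h1 : rr D - 1 < Nat.size (37500 * D) := by unfold rr at *; omega
  have h2 := Nat.lt_size.mp h1
  have h3 : 2 ^ rr D = 2 * 2 ^ (rr D - 1) := by
    rw [← pow_succ']; congr 1; omega
  have h4 : 2 ^ rr D ≤ 75000 * D := by rw [h3]; omega
  exact_mod_cast h4

/-- the error of part (a), `K + 1 = 12` passes -/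
noncomputable def epsA (D : ℕ) : ℝ :=
  2 ^ D * (Real.sqrt (2 ^ D * ((2 ^ rr D * ((41 / 25) / (41 / 25 - 1)) * ((41 / 25) / 2) ^ D) ^ 11
        * (2 ^ rr D * ((41 / 25) / (2 - 41 / 25)))))
      + 2 * ((11 + 1) * (2 * 2 ^ D * Real.exp (-(2 ^ rr D / 12500)))))

theorem epsA_nonneg (D : ℕ) : 0 ≤ epsA D := by
  unfold epsA
  have := Real.sqrt_nonneg (2 ^ D * ((2 ^ rr D * ((41 / 25) / (41 / 25 - 1)) * ((41 / 25) / 2) ^ D) ^ 11
        * (2 ^ rr D * ((41 / 25 : ℝ) / (2 - 41 / 25)))))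
  positivity

theorem epsA_le (D : ℕ) (hD : 1 ≤ D) :
    epsA D ≤ Real.sqrt ((41 / 16 : ℝ) ^ 11 * (41 / 9) * 75000 ^ 12 * ((D : ℝ) ^ 12 * (8 * (41 / 50) ^ 11) ^ D))
      + 48 * (4 * Real.exp (-3)) ^ D := by
  have hl := rr_lower D
  have hu := rr_upper D hD
  have hp : (0 : ℝ) < 2 ^ rr D := by positivity
  have h2D : (0 : ℝ) < 2 ^ D := by positivity
  unfold epsA
  rw [mul_add]
  apply add_le_add
  · have h1 : ∀ X : ℝ, (2 : ℝ) ^ D * Real.sqrt X = Real.sqrt ((2 ^ D) ^ 2 * X) := fun X => by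
      rw [Real.sqrt_mul (by positivity), Real.sqrt_sq h2D.le]
    rw [h1]
    apply Real.sqrt_le_sqrt
    have h2 : ((2 : ℝ) ^ D) ^ 2 * (2 ^ D * ((2 ^ rr D * ((41 / 25) / (41 / 25 - 1)) * ((41 / 25) / 2) ^ D) ^ 11
        * (2 ^ rr D * ((41 / 25) / (2 - 41 / 25)))))
        = ((41 / 16 : ℝ) ^ 11 * (41 / 9)) * ((2 ^ rr D) ^ 12 * (8 * (41 / 50) ^ 11) ^ D) := by
      have e1 : (8 * (41 / 50 : ℝ) ^ 11) ^ D = (2 ^ D) ^ 3 * ((41 / 50) ^ D) ^ 11 := by
        rw [mul_pow, ← pow_mul, ← pow_mul, ← pow_mul, mul_comm 11 D]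
        congr 1
        rw [mul_comm D 3, pow_mul]; norm_num
      rw [e1]
      have e2 : (41 / 25 : ℝ) / 2 = 41 / 50 := by norm_num
      have e3 : (41 / 25 : ℝ) / (41 / 25 - 1) = 41 / 16 := by norm_num
      have e4 : (41 / 25 : ℝ) / (2 - 41 / 25) = 41 / 9 := by norm_num
      rw [e2, e3, e4]
      ring
    rw [h2]
    have h3 : ((2 : ℝ) ^ rr D) ^ 12 ≤ (75000 * D) ^ 12 := pow_le_pow_left₀ hp.le hu 12
    calc ((41 / 16 : ℝ) ^ 11 * (41 / 9)) * ((2 ^ rr D) ^ 12 * (8 * (41 / 50) ^ 11) ^ D)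
        ≤ ((41 / 16 : ℝ) ^ 11 * (41 / 9)) * ((75000 * D) ^ 12 * (8 * (41 / 50) ^ 11) ^ D) := by
          apply mul_le_mul_of_nonneg_left _ (by positivity)
          exact mul_le_mul_of_nonneg_right h3 (by positivity)
      _ = _ := by rw [mul_pow]; ring
  · have h4 : Real.exp (-(2 ^ rr D / 12500)) ≤ Real.exp (-3) ^ D := by
      rw [← Real.exp_nat_mul]
      apply Real.exp_le_exp.mpr
      have : (37500 * (D : ℝ)) / 12500 ≤ 2 ^ rr D / 12500 := by
        apply div_le_div_of_nonneg_right hl (by norm_num)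
      have h5 : (37500 * (D : ℝ)) / 12500 = 3 * D := by ring
      linarith
    have e : (4 * Real.exp (-3)) ^ D = 2 ^ D * 2 ^ D * Real.exp (-3) ^ D := by
      rw [mul_pow]
      congr 1
      rw [← mul_pow]; norm_num
    rw [e]
    calc (2 : ℝ) ^ D * (2 * ((11 + 1) * (2 * 2 ^ D * Real.exp (-(2 ^ rr D / 12500)))))
        = 48 * (2 ^ D * 2 ^ D * Real.exp (-(2 ^ rr D / 12500))) := by ring
      _ ≤ 48 * (2 ^ D * 2 ^ D * Real.exp (-3) ^ D) := by
          apply mul_le_mul_of_nonneg_left _ (by norm_num)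
          exact mul_le_mul_of_nonneg_left h4 (by positivity)

theorem epsA_tendsto : Tendsto epsA atTop (𝓝 0) := by
  have hr : (8 * (41 / 50 : ℝ) ^ 11) < 1 := by norm_num
  have hr0 : 0 ≤ (8 * (41 / 50 : ℝ) ^ 11) := by positivity
  have h1 : Tendsto (fun D : ℕ => (D : ℝ) ^ 12 * (8 * (41 / 50 : ℝ) ^ 11) ^ D) atTop (𝓝 0) :=
    tendsto_pow_const_mul_const_pow_of_abs_lt_one 12 (by rw [abs_of_nonneg hr0]; exact hr)
  have h2 : Tendsto (fun D : ℕ => Real.sqrt ((41 / 16 : ℝ) ^ 11 * (41 / 9) * 75000 ^ 12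
      * ((D : ℝ) ^ 12 * (8 * (41 / 50) ^ 11) ^ D))) atTop (𝓝 0) := by
    have h3 := (h1.const_mul ((41 / 16 : ℝ) ^ 11 * (41 / 9) * 75000 ^ 12)).sqrt
    rw [mul_zero, Real.sqrt_zero] at h3
    exact h3
  have he : 4 * Real.exp (-3) < 1 := by
    have h4 : (4 : ℝ) < Real.exp 3 := by
      have := Real.exp_one_gt_d9
      have h5 : Real.exp 3 = Real.exp 1 ^ 3 := by rw [← Real.exp_nat_mul]; norm_num
      rw [h5]
      have h6 : (2 : ℝ) ^ 3 ≤ Real.exp 1 ^ 3 := pow_le_pow_left₀ (by norm_num) (by linarith) 3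
      linarith
    rw [Real.exp_neg]
    rw [← div_eq_mul_inv, div_lt_one (Real.exp_pos 3)]
    exact h4
  have h7 : Tendsto (fun D : ℕ => 48 * (4 * Real.exp (-3)) ^ D) atTop (𝓝 0) := by
    have h8 := (tendsto_pow_atTop_nhds_zero_of_lt_one (by positivity) he).const_mul 48
    rw [mul_zero] at h8
    exact h8
  have h9 := h2.add h7
  rw [add_zero] at h9
  refine squeeze_zero' (Eventually.of_forall epsA_nonneg) ?_ h9
  filter_upwards [eventually_ge_atTop 1] with D hD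
  exact epsA_le D hD

/-- part (a), in terms of `Pr` -/
theorem Eq_le_epsA (D q : ℕ) (hq : (q : ℝ) ≤ 5 / 8 * 2 ^ D) : Eq D 12 q ≤ epsA D := by
  have h1 := Eq_le (D := D) (rr D) 11 q (by rw [card_cubeR]; exact hq)
  have hS := Real.sqrt_nonneg (2 ^ D * ((2 ^ rr D * ((41 / 25) / (41 / 25 - 1)) * ((41 / 25) / 2) ^ D) ^ 11
        * (2 ^ rr D * ((41 / 25 : ℝ) / (2 - 41 / 25)))))
  have h2 : 0 ≤ (Real.sqrt (2 ^ D * ((2 ^ rr D * ((41 / 25) / (41 / 25 - 1)) * ((41 / 25) / 2) ^ D) ^ 11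
        * (2 ^ rr D * ((41 / 25) / (2 - 41 / 25)))))
      + 2 * ((11 + 1) * (2 * 2 ^ D * Real.exp (-(2 ^ rr D / 12500))))) := by positivity
  have h3 : (q : ℝ) ≤ 2 ^ D := by
    have : (0 : ℝ) < 2 ^ D := by positivity
    linarith
  unfold epsA
  push_cast at h1
  exact h1.trans (mul_le_mul_of_nonneg_right h3 h2)

/-- law of `K` passes -/
theorem lawOf_pmK (D : ℕ) (hpm : lawOf (pm D) = passLaw D) : ∀ K : ℕ,
    lawOf (pmK D K) = cvPow (passLaw D) K
  | 0 => by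
      funext g
      rw [cvPow_zero]
      unfold lawOf dlt
      by_cases h : g = 1
      · subst h
        have : (Finset.univ.filter (fun c : RK D 0 => pmK D 0 c = 1)) = Finset.univ := by
          apply Finset.filter_true_of_mem
          intro c _
          rfl
        rw [this, if_pos rfl, Finset.card_univ]
        have : (Fintype.card (RK D 0) : ℝ) ≠ 0 := by exact_mod_cast Fintype.card_ne_zero
        rw [div_self this]
      · have : (Finset.univ.filter (fun c : RK D 0 => pmK D 0 c = g)) = ∅ := by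
          apply Finset.filter_false_of_mem
          intro c _ h'
          exact h h'.symm
        rw [this, if_neg h]; simp
  | K + 1 => by
      rw [cvPow_succ, ← lawOf_pmK D hpm K, ← hpm]
      exact lawOf_mul (pm D) (pmK D K) (pmK D (K + 1)) (Equiv.prodComm (Om D) (RK D K))
        (fun c d => rfl)

theorem posLaw_eq (D K : ℕ) (hpm : lawOf (pm D) = passLaw D) {q : ℕ} (x z : Fin q ↪ (Fin D → Bool)) :
    posLaw (cvPow (passLaw D) K) x z = Pr K x z := by
  unfold posLaw Pr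
  rw [← lawOf_pmK D hpm K]
  have h := sum_lawOf (pmK D K) (fun g => if act g x = z then (1 : ℝ) else 0)
  unfold av
  rw [← h]
  apply Finset.sum_congr rfl
  intro g _
  split_ifs <;> simp

theorem partA_fin (D q : ℕ) (hpm : lawOf (pm D) = passLaw D) (hq : (q : ℝ) ≤ 5 / 8 * 2 ^ D) :
    (∑ y : Fin q ↪ (Fin D → Bool), tvPos (cvPow (passLaw D) 12) y)
      / (Fintype.card (Fin q ↪ (Fin D → Bool)) : ℝ) ≤ epsA D := by
  have h1 := Eq_le_epsA D q hq
  have h2 := epsA_nonneg D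
  have h3 : (∑ y : Fin q ↪ (Fin D → Bool), tvPos (cvPow (passLaw D) 12) y)
      / (Fintype.card (Fin q ↪ (Fin D → Bool)) : ℝ) = (1 / 2) * Eq D 12 q := by
    unfold Eq tvPos
    simp_rw [posLaw_eq D 12 hpm]
    rw [← Finset.mul_sum]
    unfold av
    ring
  rw [h3]
  linarith

end Crest.Agent.ThS
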