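import Mathlib
import Crest.Agent.ThGlue

/-! Glue, part 2 : properties of `ζ` and the second moment recursion (helper9). -/

set_option autoImplicit false
set_option linter.unusedSectionVars false

namespace Crest.Agent.ThS

open Finset

section Zeta

variable {D : ℕ} {A : Type} [Fintype A] [DecidableEq A]
variable (Good : (A ↪ (Fin D → Bool)) → PEnv D → Prop)

open Classical in
/-- restriction to the good event -/
noncomputable def gInd (y : A ↪ (Fin D → Bool)) (e : PEnv D) : ℝ := if Good y e then 1 else 0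

theorem gInd_nonneg (y : A ↪ (Fin D → Bool)) (e : PEnv D) : 0 ≤ gInd Good y e := by
  unfold gInd; split_ifs <;> norm_num

theorem gInd_le (y : A ↪ (Fin D → Bool)) (e : PEnv D) : gInd Good y e ≤ 1 := by
  unfold gInd; split_ifs <;> norm_num

/-- normalising constant -/
noncomputable def nrm (D : ℕ) (A : Type) [Fintype A] [DecidableEq A] : ℝ :=
  (Fintype.card (A ↪ (Fin D → Bool)) : ℝ) * (Fintype.card (PEnv D) : ℝ)

theorem nrm_pos [hne : Nonempty (A ↪ (Fin D → Bool))] : 0 < nrm D A := by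
  unfold nrm
  have h1 : (0 : ℝ) < Fintype.card (A ↪ (Fin D → Bool)) := by exact_mod_cast Fintype.card_pos
  exact mul_pos h1 (card_EnvT_pos _)

theorem cv_chk_apply {G : Type*} [Group G] [Fintype G] [DecidableEq G] (ν : G → ℝ) (g : G) :
    cv (chk ν) ν g = ∑ h, ν h * ν (h * g) := by
  unfold cv chk
  rw [← Equiv.sum_comp (Equiv.inv G)]
  simp

theorem zetaG_eq (g : Equiv.Perm A) : zetaG Good g
    = (∑ y : A ↪ (Fin D → Bool), ∑ e : PEnv D,
        gInd Good y e * cv (chk (nuL _ e y)) (nuL _ e y) g) / nrm D A := by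
  unfold zetaG nrm
  congr 1
  apply Finset.sum_congr rfl
  intro y _
  apply Finset.sum_congr rfl
  intro e _
  rw [cv_chk_apply]
  unfold gInd
  split_ifs <;> simp

theorem zetaG_nonneg (g : Equiv.Perm A) : 0 ≤ zetaG Good g := by
  rw [zetaG_eq]
  apply div_nonneg
  · apply Finset.sum_nonneg
    intro y _
    apply Finset.sum_nonneg
    intro e _
    apply mul_nonneg (gInd_nonneg _ _ _)
    exact cv_nonneg (fun h => (isLaw_nuL _ e y).nonneg _) (fun h => (isLaw_nuL _ e y).nonneg _) g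
  · unfold nrm; positivity

theorem zetaG_inv (g : Equiv.Perm A) : zetaG Good g⁻¹ = zetaG Good g := by
  rw [zetaG_eq, zetaG_eq]
  congr 1
  apply Finset.sum_congr rfl
  intro y _
  apply Finset.sum_congr rfl
  intro e _
  congr 1
  rw [cv_chk_apply, cv_chk_apply, ← Equiv.sum_comp (Equiv.mulRight g)]
  apply Finset.sum_congr rfl
  intro h _
  simp
  ring

theorem nuL_rel (L : List (Fin D)) (e : EnvT D L) (y : A ↪ (Fin D → Bool)) (σ κ : Equiv.Perm A) :
    nuL L e (rel y σ) κ = nuL L e y (σ * κ * σ⁻¹) := by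
  induction L generalizing κ with
  | nil =>
    show dlt (1 : Equiv.Perm A) κ = dlt 1 (σ * κ * σ⁻¹)
    unfold dlt
    simp
  | cons j L ih =>
    show cv (unif (hidSet j (posL L e.2 (rel y σ)))) (nuL L e.2 (rel y σ)) κ
      = cv (unif (hidSet j (posL L e.2 y))) (nuL L e.2 y) (σ * κ * σ⁻¹)
    have hpos : posL L e.2 (rel y σ) = rel (posL L e.2 y) σ := by
      rw [posL_eq, posL_eq, act_rel]
    rw [hpos]
    unfold cv
    rw [← Equiv.sum_comp (MulAut.conj σ).toEquiv (fun h => unif (hidSet j (posL L e.2 y)) h *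
      nuL L e.2 y (h⁻¹ * (σ * κ * σ⁻¹)))]
    have hcard : (hidSet j (rel (posL L e.2 y) σ)).card = (hidSet j (posL L e.2 y)).card := by
      apply Finset.card_bij (fun κ _ => σ * κ * σ⁻¹)
      · intro a ha; exact (hidSet_rel _ _ _ _).mp ha
      · intro a _ b _ h; exact mul_left_cancel (mul_right_cancel h)
      · intro b hb
        refine ⟨σ⁻¹ * b * σ, ?_, by group⟩
        rw [hidSet_rel]
        have : σ * (σ⁻¹ * b * σ) * σ⁻¹ = b := by group
        rwa [this]
    apply Finset.sum_congr rfl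
    intro h _
    have h1 : (MulAut.conj σ).toEquiv h = σ * h * σ⁻¹ := rfl
    rw [h1, ih]
    have h2 : (σ * h * σ⁻¹)⁻¹ * (σ * κ * σ⁻¹) = σ * (h⁻¹ * κ) * σ⁻¹ := by group
    rw [h2]
    congr 1
    unfold unif
    rw [hcard]
    simp only [hidSet_rel]

theorem zetaG_conj (hG : ∀ y e σ, Good (rel y σ) e ↔ Good y e) (g k : Equiv.Perm A) :
    zetaG Good (k * g * k⁻¹) = zetaG Good g := by
  rw [zetaG_eq, zetaG_eq]
  congr 1
  rw [← sum_rel k (fun y => ∑ e : PEnv D, gInd Good y e * cv (chk (nuL _ e y)) (nuL _ e y) g)]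
  apply Finset.sum_congr rfl
  intro y _
  apply Finset.sum_congr rfl
  intro e _
  have h1 : gInd Good (rel y k) e = gInd Good y e := by
    unfold gInd
    by_cases h : Good y e
    · rw [if_pos h, if_pos ((hG y e k).mpr h)]
    · rw [if_neg h, if_neg (fun h' => h ((hG y e k).mp h'))]
  rw [h1]
  congr 1
  rw [cv_chk_apply, cv_chk_apply, ← Equiv.sum_comp (MulAut.conj k).toEquiv]
  apply Finset.sum_congr rfl
  intro h _
  have h1 : (MulAut.conj k).toEquiv h = k * h * k⁻¹ := rfl
  rw [h1, nuL_rel, nuL_rel]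
  congr 2
  group

theorem sum_zetaG [hne : Nonempty (A ↪ (Fin D → Bool))] : ∑ g, zetaG Good g = 1 - pBad Good := by
  simp_rw [zetaG_eq]
  rw [← Finset.sum_div, Finset.sum_comm]
  have h1 : ∀ y : A ↪ (Fin D → Bool), ∑ g, ∑ e : PEnv D,
      gInd Good y e * cv (chk (nuL _ e y)) (nuL _ e y) g = ∑ e : PEnv D, gInd Good y e := by
    intro y
    rw [Finset.sum_comm]
    apply Finset.sum_congr rfl
    intro e _
    rw [← Finset.mul_sum, sum_cv]
    have h2 : ∑ g, chk (nuL _ e y) g = 1 := by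
      unfold chk
      rw [← (isLaw_nuL _ e y).sum_one]
      exact Equiv.sum_comp (Equiv.inv _) (nuL _ e y)
    rw [h2, (isLaw_nuL _ e y).sum_one]; ring
  simp_rw [h1]
  have h2 : pBad Good = (∑ y : A ↪ (Fin D → Bool), ∑ e : PEnv D, (1 - gInd Good y e)) / nrm D A := by
    unfold pBad nrm
    congr 1
    apply Finset.sum_congr rfl
    intro y _
    apply Finset.sum_congr rfl
    intro e _
    unfold gInd
    split_ifs <;> simp
  have hpos : 0 < nrm D A := nrm_pos
  rw [h2, eq_sub_iff_add_eq, ← add_div, div_eq_one_iff_eq hpos.ne', ← Finset.sum_add_distrib]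
  have h3 : ∀ y : A ↪ (Fin D → Bool), ∑ e : PEnv D, gInd Good y e
      + ∑ e : PEnv D, (1 - gInd Good y e) = (Fintype.card (PEnv D) : ℝ) := by
    intro y
    rw [← Finset.sum_add_distrib]
    simp
  simp_rw [h3]
  rw [Finset.sum_const, Finset.card_univ, nsmul_eq_mul]
  rfl

theorem pBad_nonneg : 0 ≤ pBad Good := by
  unfold pBad
  apply div_nonneg
  · apply Finset.sum_nonneg
    intro y _
    apply Finset.sum_nonneg
    intro e _
    split_ifs <;> norm_num
  · positivity

theorem sum_zetaG_le [hne : Nonempty (A ↪ (Fin D → Bool))] : ∑ g, zetaG Good g ≤ 1 := by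
  rw [sum_zetaG]
  have := pBad_nonneg Good
  linarith

theorem ipr_cv_lin {G : Type*} [Group G] [Fintype G] [DecidableEq G] (f q w : G → ℝ) :
    ipr f (cv q w) = ∑ h, q h * (∑ x, f x * w (h⁻¹ * x)) := by
  unfold ipr cv
  simp_rw [Finset.mul_sum]
  rw [Finset.sum_comm]
  apply Finset.sum_congr rfl
  intro h _
  apply Finset.sum_congr rfl
  intro x _
  ring

/-- the quadratic form of `ζ` -/
theorem ipr_zetaG (f Z : Equiv.Perm A → ℝ) (hZ : ∀ q : Equiv.Perm A → ℝ, cv Z q = cv q Z) :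
    ipr f (cv (cv Z (zetaG Good)) f) = (∑ y : A ↪ (Fin D → Bool), ∑ e : PEnv D,
      gInd Good y e * ipr (cv (nuL _ e y) f) (cv Z (cv (nuL _ e y) f))) / nrm D A := by
  have h1 : ∀ (y : A ↪ (Fin D → Bool)) (e : PEnv D),
      ipr (cv (nuL _ e y) f) (cv Z (cv (nuL _ e y) f))
        = ∑ h, cv (chk (nuL _ e y)) (nuL _ e y) h * (∑ x, f x * (cv Z f) (h⁻¹ * x)) := by
    intro y e
    rw [ipr_cv, ← ipr_cv_lin]
    congr 1
    rw [← cv_assoc, ← hZ, cv_assoc, ← cv_assoc (chk (nuL _ e y)), ← cv_assoc, hZ, cv_assoc]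
  simp_rw [h1]
  rw [hZ, cv_assoc, ipr_cv_lin]
  simp_rw [zetaG_eq, div_mul_eq_mul_div]
  rw [← Finset.sum_div]
  congr 1
  simp_rw [Finset.sum_mul]
  rw [Finset.sum_comm]
  apply Finset.sum_congr rfl
  intro y _
  rw [Finset.sum_comm]
  apply Finset.sum_congr rfl
  intro e _
  rw [Finset.mul_sum]
  apply Finset.sum_congr rfl
  intro h _
  ring

theorem ipr_self_nonneg {G : Type*} [Fintype G] [Group G] [DecidableEq G] (f : G → ℝ) :
    0 ≤ ipr f f := by
  unfold ipr
  exact Finset.sum_nonneg (fun x _ => mul_self_nonneg _)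

/-- `ζ` is positive semidefinite -/
theorem zetaG_psd (f : Equiv.Perm A → ℝ) : 0 ≤ ipr f (cv (zetaG Good) f) := by
  have h := ipr_zetaG Good f (dlt 1) (fun q => by rw [dlt_one_cv, cv_dlt_one])
  rw [dlt_one_cv] at h
  rw [h]
  apply div_nonneg
  · apply Finset.sum_nonneg
    intro y _
    apply Finset.sum_nonneg
    intro e _
    rw [dlt_one_cv]
    exact mul_nonneg (gInd_nonneg _ _ _) (ipr_self_nonneg _)
  · unfold nrm; positivity

/-- the second moment functional -/
noncomputable def Nk (k : ℕ) (ν : Equiv.Perm A → ℝ) : ℝ := ipr ν (cv (cvPow (zetaG Good) k) ν)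

theorem Nk_succ (hG : ∀ y e σ, Good (rel y σ) e ↔ Good y e) (k : ℕ) (ν : Equiv.Perm A → ℝ) :
    Nk Good (k + 1) ν = (∑ y : A ↪ (Fin D → Bool), ∑ e : PEnv D,
      gInd Good y e * Nk Good k (cv (nuL _ e y) ν)) / nrm D A := by
  have hcls : ∀ q : Equiv.Perm A → ℝ, cv (zetaG Good) q = cv q (zetaG Good) :=
    fun q => cv_comm_of_cls _ _ (fun g k => zetaG_conj Good hG g k)
  have hZ : ∀ q : Equiv.Perm A → ℝ, cv (cvPow (zetaG Good) k) q = cv q (cvPow (zetaG Good) k) :=
    fun q => cvPow_comm _ _ (hcls q) k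
  unfold Nk
  rw [← ipr_zetaG Good ν _ hZ, cvPow_succ, hcls]

theorem Nk_ge [hne : Nonempty (A ↪ (Fin D → Bool))]
    (hG : ∀ y e σ, Good (rel y σ) e ↔ Good y e) (k : ℕ) (ν : Equiv.Perm A → ℝ) (hν : IsLaw ν) :
    (∑ g, zetaG Good g) ^ k ≤ (Fintype.card (Equiv.Perm A) : ℝ) * Nk Good k ν := by
  induction k generalizing ν with
  | zero =>
    unfold Nk
    rw [pow_zero, cvPow_zero, dlt_one_cv]
    have h2 := Finset.sum_mul_sq_le_sq_mul_sq (Finset.univ : Finset (Equiv.Perm A))
      (fun _ => (1 : ℝ)) ν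
    simp only [one_mul, one_pow, Finset.sum_const, Finset.card_univ, nsmul_eq_mul, mul_one] at h2
    rw [hν.sum_one] at h2
    have h3 : ipr ν ν = ∑ g, ν g ^ 2 := by
      unfold ipr
      apply Finset.sum_congr rfl
      intro x _; ring
    rw [h3]
    simpa using h2
  | succ k ih =>
    rw [Nk_succ Good hG]
    have hpos : 0 < nrm D A := nrm_pos
    rw [mul_div_assoc', le_div_iff₀ hpos, Finset.mul_sum]
    have h1 : (∑ g, zetaG Good g) ^ (k + 1) * nrm D A
        = ∑ y : A ↪ (Fin D → Bool), ∑ e : PEnv D, gInd Good y e * (∑ g, zetaG Good g) ^ k := by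
      have h2 : (∑ g, zetaG Good g) * nrm D A
          = ∑ y : A ↪ (Fin D → Bool), ∑ e : PEnv D, gInd Good y e := by
        simp_rw [zetaG_eq]
        rw [← Finset.sum_div, div_mul_cancel₀ _ hpos.ne', Finset.sum_comm]
        apply Finset.sum_congr rfl
        intro y _
        rw [Finset.sum_comm]
        apply Finset.sum_congr rfl
        intro e _
        rw [← Finset.mul_sum, sum_cv]
        have h2 : ∑ g, chk (nuL _ e y) g = 1 := by
          unfold chk
          rw [← (isLaw_nuL _ e y).sum_one]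
          exact Equiv.sum_comp (Equiv.inv _) (nuL _ e y)
        rw [h2, (isLaw_nuL _ e y).sum_one]; ring
      rw [pow_succ, mul_assoc, h2, mul_comm, Finset.sum_mul]
      apply Finset.sum_congr rfl
      intro y _
      rw [Finset.sum_mul]
    rw [h1]
    apply Finset.sum_le_sum
    intro y _
    rw [Finset.mul_sum]
    apply Finset.sum_le_sum
    intro e _
    have h3 := ih (cv (nuL _ e y) ν) ((isLaw_nuL _ e y).cv hν)
    have h4 := gInd_nonneg Good y e
    nlinarith

end Zeta

end Crest.Agent.ThS
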