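import Mathlib
import Crest.Agent.ThGlue2

/-! Glue, part 3 : value functions, hybrid argument, truncated second moment (helper9). -/

set_option autoImplicit false
set_option linter.unusedSectionVars false

namespace Crest.Agent.ThS

open Finset

section Val

variable {D : ℕ} {A : Type} [Fintype A] [DecidableEq A]

/-- ideal value with `k` used passes -/
noncomputable def Iv (D : ℕ) : ℕ → (Equiv.Perm A → ℝ) → ℝ
  | 0, ν => tvu ν
  | k + 1, ν => (∑ z : A ↪ (Fin D → Bool), ∑ e : PEnv D, Iv D k (cv (nuL _ e z) ν)) / nrm D A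

/-- true value with `k` used passes, each preceded by a mixing phase `S` -/
noncomputable def Wv (S : Equiv.Perm (Fin D → Bool) → ℝ) :
    ℕ → (A ↪ (Fin D → Bool)) → (Equiv.Perm A → ℝ) → ℝ
  | 0, _, ν => tvu ν
  | k + 1, y, ν => ∑ g, S g * ((∑ e : PEnv D,
      Wv S k (posL _ e (act g y)) (cv (nuL _ e (act g y)) ν)) / (Fintype.card (PEnv D) : ℝ))

/-- accumulated error -/
noncomputable def dl (S : Equiv.Perm (Fin D → Bool) → ℝ) : ℕ → (A ↪ (Fin D → Bool)) → ℝ
  | 0, _ => 0
  | k + 1, y => tvPos S y + ∑ g, S g * ((∑ e : PEnv D, dl S k (posL _ e (act g y)))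
      / (Fintype.card (PEnv D) : ℝ))

theorem cE_pos : (0 : ℝ) < Fintype.card (PEnv D) := card_EnvT_pos _

theorem Iv_mem (k : ℕ) (ν : Equiv.Perm A → ℝ) (hν : IsLaw ν) :
    0 ≤ Iv D k ν ∧ Iv D k ν ≤ 1 := by
  induction k generalizing ν with
  | zero => exact ⟨tvu_nonneg ν, tvu_le_one hν⟩
  | succ k ih =>
    have h : ∀ (z : A ↪ (Fin D → Bool)) (e : PEnv D), IsLaw (cv (nuL _ e z) ν) :=
      fun z e => (isLaw_nuL _ e z).cv hν
    constructor
    · unfold Iv
      apply div_nonneg
      · exact Finset.sum_nonneg (fun z _ => Finset.sum_nonneg (fun e _ => (ih _ (h z e)).1))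
      · unfold nrm; positivity
    · unfold Iv
      apply div_le_one_of_le₀
      · calc ∑ z : A ↪ (Fin D → Bool), ∑ e : PEnv D, Iv D k (cv (nuL _ e z) ν)
            ≤ ∑ z : A ↪ (Fin D → Bool), ∑ e : PEnv D, (1 : ℝ) :=
              Finset.sum_le_sum (fun z _ => Finset.sum_le_sum (fun e _ => (ih _ (h z e)).2))
          _ = nrm D A := by
              simp only [Finset.sum_const, Finset.card_univ, nsmul_eq_mul, mul_one]
              rfl
      · unfold nrm; positivity

theorem sum_posLaw (S : Equiv.Perm (Fin D → Bool) → ℝ) (y : A ↪ (Fin D → Bool))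
    (J : (A ↪ (Fin D → Bool)) → ℝ) :
    ∑ g, S g * J (act g y) = ∑ z, posLaw S y z * J z := by
  unfold posLaw
  simp_rw [Finset.sum_mul]
  rw [Finset.sum_comm]
  apply Finset.sum_congr rfl
  intro g _
  simp [ite_mul]

theorem mix_le (S : Equiv.Perm (Fin D → Bool) → ℝ) (hS : IsLaw S) (y : A ↪ (Fin D → Bool))
    (J : (A ↪ (Fin D → Bool)) → ℝ) (h0 : ∀ z, 0 ≤ J z) (h1 : ∀ z, J z ≤ 1) :
    ∑ g, S g * J (act g y)
      ≤ (∑ z, J z) / (Fintype.card (A ↪ (Fin D → Bool)) : ℝ) + tvPos S y := by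
  rw [sum_posLaw]
  have hne : Nonempty (A ↪ (Fin D → Bool)) := ⟨y⟩
  have hN : (0 : ℝ) < Fintype.card (A ↪ (Fin D → Bool)) := by exact_mod_cast Fintype.card_pos
  set N : ℝ := (Fintype.card (A ↪ (Fin D → Bool)) : ℝ) with hNdef
  have hp : ∑ z, posLaw S y z = 1 := by
    have := sum_posLaw S y (fun _ => 1)
    simp only [mul_one] at this
    rw [← this, hS.sum_one]
  have hu : ∑ _z : A ↪ (Fin D → Bool), 1 / N = 1 := by
    rw [Finset.sum_const, Finset.card_univ, nsmul_eq_mul, ← hNdef]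
    field_simp
  have e1 : ∑ z, posLaw S y z * J z - (∑ z, J z) / N
      = ∑ z, (posLaw S y z - 1 / N) * (J z - 1 / 2) := by
    have : ∀ z, (posLaw S y z - 1 / N) * (J z - 1 / 2)
        = posLaw S y z * J z - J z / N - (1 / 2) * posLaw S y z + (1 / 2) * (1 / N) := by
      intro z; ring
    simp_rw [this]
    rw [Finset.sum_add_distrib, Finset.sum_sub_distrib, Finset.sum_sub_distrib, ← Finset.mul_sum,
      ← Finset.mul_sum, hp, hu, ← Finset.sum_div]
    ring
  have e2 : ∑ z, (posLaw S y z - 1 / N) * (J z - 1 / 2) ≤ tvPos S y := by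
    unfold tvPos
    rw [Finset.mul_sum]
    apply Finset.sum_le_sum
    intro z _
    have a1 := h0 z
    have a2 := h1 z
    have a3 : |J z - 1 / 2| ≤ 1 / 2 := by rw [abs_le]; constructor <;> linarith
    calc (posLaw S y z - 1 / N) * (J z - 1 / 2)
        ≤ |(posLaw S y z - 1 / N) * (J z - 1 / 2)| := le_abs_self _
      _ = |posLaw S y z - 1 / N| * |J z - 1 / 2| := abs_mul _ _
      _ ≤ |posLaw S y z - 1 / N| * (1 / 2) := mul_le_mul_of_nonneg_left a3 (abs_nonneg _)
      _ = 1 / 2 * |posLaw S y z - 1 / N| := by ring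
  linarith

theorem Wv_le (S : Equiv.Perm (Fin D → Bool) → ℝ) (hS : IsLaw S) (k : ℕ)
    (y : A ↪ (Fin D → Bool)) (ν : Equiv.Perm A → ℝ) (hν : IsLaw ν) :
    Wv S k y ν ≤ Iv D k ν + dl S k y := by
  induction k generalizing y ν with
  | zero => simp [Wv, Iv, dl]
  | succ k ih =>
    have hc := cE_pos (D := D)
    have h1 : Wv S (k + 1) y ν ≤ ∑ g, S g * ((∑ e : PEnv D,
        (Iv D k (cv (nuL _ e (act g y)) ν) + dl S k (posL _ e (act g y))))
          / (Fintype.card (PEnv D) : ℝ)) := by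
      unfold Wv
      apply Finset.sum_le_sum
      intro g _
      apply mul_le_mul_of_nonneg_left _ (hS.nonneg g)
      apply div_le_div_of_nonneg_right _ hc.le
      apply Finset.sum_le_sum
      intro e _
      exact ih _ _ ((isLaw_nuL _ e _).cv hν)
    have h2 := mix_le S hS y (fun z => (∑ e : PEnv D, Iv D k (cv (nuL _ e z) ν))
        / (Fintype.card (PEnv D) : ℝ))
      (fun z => div_nonneg (Finset.sum_nonneg (fun e _ =>
        (Iv_mem k _ ((isLaw_nuL _ e z).cv hν)).1)) hc.le)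
      (fun z => by
        apply div_le_one_of_le₀ _ hc.le
        calc ∑ e : PEnv D, Iv D k (cv (nuL _ e z) ν) ≤ ∑ _e : PEnv D, (1 : ℝ) :=
              Finset.sum_le_sum (fun e _ => (Iv_mem k _ ((isLaw_nuL _ e z).cv hν)).2)
          _ = _ := by simp)
    have h3 : (∑ z : A ↪ (Fin D → Bool), (∑ e : PEnv D, Iv D k (cv (nuL _ e z) ν))
        / (Fintype.card (PEnv D) : ℝ)) / (Fintype.card (A ↪ (Fin D → Bool)) : ℝ)
        = Iv D (k + 1) ν := by
      rw [← Finset.sum_div, div_div, mul_comm]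
      rfl
    rw [h3] at h2
    refine h1.trans ?_
    simp_rw [Finset.sum_add_distrib, add_div, mul_add]
    rw [Finset.sum_add_distrib]
    have h4 : dl S (k + 1) y = tvPos S y + ∑ g, S g * ((∑ e : PEnv D, dl S k (posL _ e (act g y)))
      / (Fintype.card (PEnv D) : ℝ)) := rfl
    rw [h4]
    linarith

theorem sum_dl (S : Equiv.Perm (Fin D → Bool) → ℝ) (hS : IsLaw S) (k : ℕ) :
    ∑ y : A ↪ (Fin D → Bool), dl S k y = (k : ℝ) * ∑ y : A ↪ (Fin D → Bool), tvPos S y := by
  induction k with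
  | zero => simp [dl]
  | succ k ih =>
    have hc := cE_pos (D := D)
    unfold dl
    rw [Finset.sum_add_distrib, Finset.sum_comm]
    have h1 : ∀ g : Equiv.Perm (Fin D → Bool), ∑ y : A ↪ (Fin D → Bool), S g * ((∑ e : PEnv D,
        dl S k (posL _ e (act g y))) / (Fintype.card (PEnv D) : ℝ))
        = S g * ∑ y : A ↪ (Fin D → Bool), dl S k y := by
      intro g
      rw [← Finset.mul_sum, ← Finset.sum_div, Finset.sum_comm]
      congr 1
      have : ∀ e : PEnv D, ∑ y : A ↪ (Fin D → Bool), dl S k (posL _ e (act g y))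
          = ∑ y : A ↪ (Fin D → Bool), dl S k y := by
        intro e
        simp_rw [posL_eq]
        rw [sum_act g (fun y => dl S k (act (gL _ e) y)), sum_act]
      simp_rw [this]
      rw [Finset.sum_const, Finset.card_univ, nsmul_eq_mul]
      field_simp
    simp_rw [h1]
    rw [← Finset.sum_mul, hS.sum_one, ih]
    push_cast
    ring

theorem cv_lin_right {G : Type*} [Group G] [Fintype G] [DecidableEq G] {ι : Type*} [Fintype ι]
    (p : G → ℝ) (a : ι → ℝ) (F : ι → G → ℝ) (g : G) :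
    cv p (fun g => ∑ i, a i * F i g) g = ∑ i, a i * cv p (F i) g := by
  unfold cv
  simp_rw [Finset.mul_sum]
  rw [Finset.sum_comm]
  apply Finset.sum_congr rfl
  intro i _
  apply Finset.sum_congr rfl
  intro h _
  ring

/-- unnormalised distance -/
noncomputable def Tt (S : Equiv.Perm (Fin D → Bool) → ℝ) (ι : A ↪ (Fin D → Bool)) (k : ℕ)
    (X : Equiv.Perm (Fin D → Bool)) (τ : Equiv.Perm A → ℝ) : ℝ :=
  ∑ x, |cv (cvPow (cv (passLaw D) S) k) (Lw ι X τ) x|

theorem Tt_succ_le (S : Equiv.Perm (Fin D → Bool) → ℝ) (hS : IsLaw S) (ι : A ↪ (Fin D → Bool))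
    (k : ℕ) (X : Equiv.Perm (Fin D → Bool)) (τ : Equiv.Perm A → ℝ) :
    Tt S ι (k + 1) X τ ≤ ∑ h, S h * ((∑ e : PEnv D,
      Tt S ι k (gL _ e * (h * X)) (cv (nuL _ e (act (h * X) ι)) τ))
        / (Fintype.card (PEnv D) : ℝ)) := by
  have hc := cE_pos (D := D)
  have e1 : cv S (Lw ι X τ) = fun g => ∑ h, S h * Lw ι (h * X) τ g := by
    funext g
    unfold cv
    simp_rw [Lw_translate]
  have e2 : cv (passLaw D) (cv S (Lw ι X τ)) = fun g => ∑ h, S h * ((∑ e : PEnv D,
      Lw ι (gL _ e * (h * X)) (cv (nuL _ e (act (h * X) ι)) τ) g)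
        / (Fintype.card (PEnv D) : ℝ)) := by
    rw [e1]
    funext g
    rw [cv_lin_right]
    apply Finset.sum_congr rfl
    intro h _
    rw [passLaw_eq_list, pass_Lw]
  have e3 : ∀ x, cv (cvPow (cv (passLaw D) S) (k + 1)) (Lw ι X τ) x
      = ∑ h, S h * ((∑ e : PEnv D, cv (cvPow (cv (passLaw D) S) k)
        (Lw ι (gL _ e * (h * X)) (cv (nuL _ e (act (h * X) ι)) τ)) x)
          / (Fintype.card (PEnv D) : ℝ)) := by
    intro x
    rw [cvPow_add, cvPow_one, cv_assoc, cv_assoc, e2, cv_lin_right]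
    apply Finset.sum_congr rfl
    intro h _
    rw [cv_sum_div]
  unfold Tt
  simp_rw [e3]
  calc ∑ x, |∑ h, S h * ((∑ e : PEnv D, cv (cvPow (cv (passLaw D) S) k)
        (Lw ι (gL _ e * (h * X)) (cv (nuL _ e (act (h * X) ι)) τ)) x)
          / (Fintype.card (PEnv D) : ℝ))|
      ≤ ∑ x, ∑ h, S h * ((∑ e : PEnv D, |cv (cvPow (cv (passLaw D) S) k)
        (Lw ι (gL _ e * (h * X)) (cv (nuL _ e (act (h * X) ι)) τ)) x|)
          / (Fintype.card (PEnv D) : ℝ)) := by
        apply Finset.sum_le_sum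
        intro x _
        refine (Finset.abs_sum_le_sum_abs _ _).trans ?_
        apply Finset.sum_le_sum
        intro h _
        rw [abs_mul, abs_of_nonneg (hS.nonneg h), abs_div, abs_of_pos hc]
        apply mul_le_mul_of_nonneg_left _ (hS.nonneg h)
        apply div_le_div_of_nonneg_right _ hc.le
        exact Finset.abs_sum_le_sum_abs _ _
    _ = _ := by
        rw [Finset.sum_comm]
        apply Finset.sum_congr rfl
        intro h _
        rw [← Finset.mul_sum, ← Finset.sum_div, Finset.sum_comm]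

theorem cv_const {G : Type*} [Group G] [Fintype G] [DecidableEq G] (p : G → ℝ) (hp : IsLaw p)
    (c : ℝ) : cv p (fun _ => c) = fun _ => c := by
  funext g
  unfold cv
  rw [← Finset.sum_mul, hp.sum_one, one_mul]

theorem cv_sub_const {G : Type*} [Group G] [Fintype G] [DecidableEq G] (p ν : G → ℝ)
    (hp : IsLaw p) (c : ℝ) : cv p (fun κ => ν κ - c) = fun κ => cv p ν κ - c := by
  funext g
  unfold cv
  simp_rw [mul_sub]
  rw [Finset.sum_sub_distrib, ← Finset.sum_mul, hp.sum_one, one_mul]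

theorem dist_le (S : Equiv.Perm (Fin D → Bool) → ℝ) (hS : IsLaw S) (ι : A ↪ (Fin D → Bool))
    (k : ℕ) (X : Equiv.Perm (Fin D → Bool)) (ν : Equiv.Perm A → ℝ) (hν : IsLaw ν) :
    (1 / 2) * Tt S ι k X (fun κ => ν κ - 1 / (Fintype.card (Equiv.Perm A) : ℝ))
      ≤ Wv S k (act X ι) ν := by
  induction k generalizing X ν with
  | zero =>
    unfold Tt Wv tvu
    rw [cvPow_zero]
    apply mul_le_mul_of_nonneg_left _ (by norm_num)
    simp_rw [dlt_one_cv]
    calc ∑ x, |Lw ι X (fun κ => ν κ - 1 / (Fintype.card (Equiv.Perm A) : ℝ)) x|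
        ≤ ∑ x, ∑ κ, |ν κ - 1 / (Fintype.card (Equiv.Perm A) : ℝ)|
            * dlt (X * Equiv.Perm.viaEmbeddingHom ι κ) x := by
          apply Finset.sum_le_sum
          intro x _
          unfold Lw
          refine (Finset.abs_sum_le_sum_abs _ _).trans ?_
          apply Finset.sum_le_sum
          intro κ _
          rw [abs_mul]
          apply le_of_eq
          congr 1
          rw [abs_of_nonneg]
          exact (IsLaw.dlt _).nonneg _
      _ = _ := by
          rw [Finset.sum_comm]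
          apply Finset.sum_congr rfl
          intro κ _
          rw [← Finset.mul_sum, (IsLaw.dlt _).sum_one, mul_one]
  | succ k ih =>
    have hc := cE_pos (D := D)
    have h1 := Tt_succ_le S hS ι k X (fun κ => ν κ - 1 / (Fintype.card (Equiv.Perm A) : ℝ))
    refine (mul_le_mul_of_nonneg_left h1 (by norm_num)).trans ?_
    rw [Finset.mul_sum]
    unfold Wv
    apply Finset.sum_le_sum
    intro h _
    have e1 : (1 / 2 : ℝ) * (S h * ((∑ e : PEnv D, Tt S ι k (gL _ e * (h * X))
        (cv (nuL _ e (act (h * X) ι)) (fun κ => ν κ - 1 / (Fintype.card (Equiv.Perm A) : ℝ))))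
        / (Fintype.card (PEnv D) : ℝ)))
        = S h * ((∑ e : PEnv D, (1 / 2) * Tt S ι k (gL _ e * (h * X))
        (cv (nuL _ e (act (h * X) ι)) (fun κ => ν κ - 1 / (Fintype.card (Equiv.Perm A) : ℝ))))
        / (Fintype.card (PEnv D) : ℝ)) := by
      rw [← Finset.mul_sum]; ring
    rw [e1]
    apply mul_le_mul_of_nonneg_left _ (hS.nonneg h)
    apply div_le_div_of_nonneg_right _ hc.le
    apply Finset.sum_le_sum
    intro e _
    rw [cv_sub_const _ _ (isLaw_nuL _ e _)]
    have h2 := ih (gL _ e * (h * X)) (cv (nuL _ e (act (h * X) ι)) ν)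
      ((isLaw_nuL _ e _).cv hν)
    rw [act_mul (gL _ e), ← posL_eq, act_mul] at h2
    rw [act_mul]
    exact h2

end Val

end Crest.Agent.ThS
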