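import Mathlib
import Crest.Agent.ThGlue3

/-! Glue, part 4 : final statement of the quenched reduction (helper9). -/

set_option autoImplicit false
set_option linter.unusedSectionVars false

namespace Crest.Agent.ThS

open Finset

section Trunc

variable {D : ℕ} {A : Type} [Fintype A] [DecidableEq A]
variable (Good : (A ↪ (Fin D → Bool)) → PEnv D → Prop)

theorem sum_gInd_sqrt (M : (A ↪ (Fin D → Bool)) → PEnv D → ℝ) (hM : ∀ y e, 0 ≤ M y e)
    [hne : Nonempty (A ↪ (Fin D → Bool))] :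
    (∑ y : A ↪ (Fin D → Bool), ∑ e : PEnv D, gInd Good y e * Real.sqrt (M y e)) / nrm D A
      ≤ Real.sqrt ((∑ y : A ↪ (Fin D → Bool), ∑ e : PEnv D, gInd Good y e * M y e) / nrm D A) := by
  have hpos : 0 < nrm D A := nrm_pos
  apply Real.le_sqrt_of_sq_le
  have hsq : ∀ y e, gInd Good y e ^ 2 = gInd Good y e := by
    intro y e; unfold gInd; split_ifs <;> norm_num
  have h1 : (∑ p : (A ↪ (Fin D → Bool)) × PEnv D, gInd Good p.1 p.2
        * (gInd Good p.1 p.2 * Real.sqrt (M p.1 p.2))) ^ 2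
      ≤ (∑ p : (A ↪ (Fin D → Bool)) × PEnv D, gInd Good p.1 p.2 ^ 2)
        * (∑ p : (A ↪ (Fin D → Bool)) × PEnv D,
            (gInd Good p.1 p.2 * Real.sqrt (M p.1 p.2)) ^ 2) :=
    Finset.sum_mul_sq_le_sq_mul_sq _ _ _
  have h2 : ∀ p : (A ↪ (Fin D → Bool)) × PEnv D, gInd Good p.1 p.2
        * (gInd Good p.1 p.2 * Real.sqrt (M p.1 p.2)) = gInd Good p.1 p.2 * Real.sqrt (M p.1 p.2) := by
    intro p; rw [← mul_assoc, ← sq, hsq]
  have h3 : ∀ p : (A ↪ (Fin D → Bool)) × PEnv D,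
      (gInd Good p.1 p.2 * Real.sqrt (M p.1 p.2)) ^ 2 = gInd Good p.1 p.2 * M p.1 p.2 := by
    intro p; rw [mul_pow, hsq, Real.sq_sqrt (hM _ _)]
  simp_rw [h2, h3, hsq] at h1
  rw [Fintype.sum_prod_type, Fintype.sum_prod_type, Fintype.sum_prod_type] at h1
  have h4 : ∑ y : A ↪ (Fin D → Bool), ∑ e : PEnv D, gInd Good y e ≤ nrm D A := by
    calc ∑ y : A ↪ (Fin D → Bool), ∑ e : PEnv D, gInd Good y e
        ≤ ∑ y : A ↪ (Fin D → Bool), ∑ e : PEnv D, (1 : ℝ) :=
          Finset.sum_le_sum (fun y _ => Finset.sum_le_sum (fun e _ => gInd_le Good y e))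
      _ = nrm D A := by
          simp only [Finset.sum_const, Finset.card_univ, nsmul_eq_mul, mul_one]
          rfl
  have h5 : 0 ≤ ∑ y : A ↪ (Fin D → Bool), ∑ e : PEnv D, gInd Good y e * M y e :=
    Finset.sum_nonneg (fun y _ => Finset.sum_nonneg (fun e _ =>
      mul_nonneg (gInd_nonneg _ _ _) (hM y e)))
  rw [div_pow, div_le_div_iff₀ (by positivity) hpos]
  have h6 := h1.trans (mul_le_mul_of_nonneg_right h4 h5)
  calc (∑ y : A ↪ (Fin D → Bool), ∑ e : PEnv D, gInd Good y e * Real.sqrt (M y e)) ^ 2 * nrm D A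
      ≤ (nrm D A * ∑ y : A ↪ (Fin D → Bool), ∑ e : PEnv D, gInd Good y e * M y e) * nrm D A :=
        mul_le_mul_of_nonneg_right h6 hpos.le
    _ = _ := by ring

theorem sum_gInd [hne : Nonempty (A ↪ (Fin D → Bool))] :
    (∑ y : A ↪ (Fin D → Bool), ∑ e : PEnv D, gInd Good y e) / nrm D A
      = ∑ g, zetaG Good g := by
  have hpos : 0 < nrm D A := nrm_pos
  simp_rw [zetaG_eq]
  rw [← Finset.sum_div]
  congr 1
  symm
  rw [Finset.sum_comm]
  apply Finset.sum_congr rfl
  intro y _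
  rw [Finset.sum_comm]
  apply Finset.sum_congr rfl
  intro e _
  rw [← Finset.mul_sum, sum_cv]
  have h2 : ∑ g, chk (nuL _ e y) g = 1 := by
    unfold chk
    rw [← (isLaw_nuL _ e y).sum_one]
    exact Equiv.sum_comp (Equiv.inv _) (nuL _ e y)
  rw [h2, (isLaw_nuL _ e y).sum_one]; ring

theorem Iv_le (hG : ∀ y e σ, Good (rel y σ) e ↔ Good y e)
    [hne : Nonempty (A ↪ (Fin D → Bool))] (k : ℕ) (ν : Equiv.Perm A → ℝ) (hν : IsLaw ν) :
    Iv D k ν ≤ k * pBad Good + (1 / 2) * Real.sqrt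
      ((Fintype.card (Equiv.Perm A) : ℝ) * Nk Good k ν - (∑ g, zetaG Good g) ^ k) := by
  have hpos : 0 < nrm D A := nrm_pos
  induction k generalizing ν with
  | zero =>
    have h := tv_le_sqrt ν hν.sum_one
    have h3 : Nk Good 0 ν = ∑ g, ν g ^ 2 := by
      unfold Nk ipr
      rw [cvPow_zero, dlt_one_cv]
      apply Finset.sum_congr rfl
      intro x _; ring
    rw [h3, pow_zero]
    simp only [Nat.cast_zero, zero_mul, zero_add]
    exact h
  | succ k ih =>
    set G := ∑ g, zetaG Good g with hGdef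
    set c := (Fintype.card (Equiv.Perm A) : ℝ) with hc
    have hlaw : ∀ (z : A ↪ (Fin D → Bool)) (e : PEnv D), IsLaw (cv (nuL _ e z) ν) :=
      fun z e => (isLaw_nuL _ e z).cv hν
    have hM : ∀ (y : A ↪ (Fin D → Bool)) (e : PEnv D),
        0 ≤ c * Nk Good k (cv (nuL _ e y) ν) - G ^ k := by
      intro y e
      have := Nk_ge Good hG k (cv (nuL _ e y) ν) (hlaw y e)
      rw [← hGdef, ← hc] at this
      linarith
    have hp0 := pBad_nonneg Good
    have h1 : Iv D (k + 1) ν ≤ (∑ y : A ↪ (Fin D → Bool), ∑ e : PEnv D,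
        ((1 - gInd Good y e) + gInd Good y e * (k * pBad Good)
          + (1 / 2) * (gInd Good y e * Real.sqrt (c * Nk Good k (cv (nuL _ e y) ν) - G ^ k))))
          / nrm D A := by
      unfold Iv
      apply div_le_div_of_nonneg_right _ hpos.le
      apply Finset.sum_le_sum
      intro y _
      apply Finset.sum_le_sum
      intro e _
      have a1 := ih _ (hlaw y e)
      have a2 := (Iv_mem (D := D) k _ (hlaw y e)).2
      have a3 := gInd_nonneg Good y e
      have a4 := gInd_le Good y e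
      have a5 : Iv D k (cv (nuL _ e y) ν) = (1 - gInd Good y e) * Iv D k (cv (nuL _ e y) ν)
          + gInd Good y e * Iv D k (cv (nuL _ e y) ν) := by ring
      rw [a5]
      have a6 : (1 - gInd Good y e) * Iv D k (cv (nuL _ e y) ν) ≤ (1 - gInd Good y e) * 1 :=
        mul_le_mul_of_nonneg_left a2 (by linarith)
      have a7 := mul_le_mul_of_nonneg_left a1 a3
      linarith
    have h2 : (∑ y : A ↪ (Fin D → Bool), ∑ e : PEnv D,
        ((1 - gInd Good y e) + gInd Good y e * (k * pBad Good)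
          + (1 / 2) * (gInd Good y e * Real.sqrt (c * Nk Good k (cv (nuL _ e y) ν) - G ^ k))))
          / nrm D A
        = (1 - G) + G * (k * pBad Good) + (1 / 2) * ((∑ y : A ↪ (Fin D → Bool), ∑ e : PEnv D,
          gInd Good y e * Real.sqrt (c * Nk Good k (cv (nuL _ e y) ν) - G ^ k)) / nrm D A) := by
      have e1 : (∑ y : A ↪ (Fin D → Bool), ∑ e : PEnv D, (1 : ℝ)) = nrm D A := by
        simp only [Finset.sum_const, Finset.card_univ, nsmul_eq_mul, mul_one]
        rfl
      have e2 := sum_gInd Good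
      rw [← hGdef, div_eq_iff hpos.ne'] at e2
      simp_rw [Finset.sum_add_distrib, Finset.sum_sub_distrib, ← Finset.mul_sum, ← Finset.sum_mul]
      rw [e1, e2]
      field_simp
    have h3 := sum_gInd_sqrt Good (fun y e => c * Nk Good k (cv (nuL _ e y) ν) - G ^ k) hM
    have h4 : (∑ y : A ↪ (Fin D → Bool), ∑ e : PEnv D, gInd Good y e
        * (c * Nk Good k (cv (nuL _ e y) ν) - G ^ k)) / nrm D A
        = c * Nk Good (k + 1) ν - G ^ (k + 1) := by
      rw [Nk_succ Good hG]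
      have e2 := sum_gInd Good
      rw [← hGdef] at e2
      have e3 : ∀ (y : A ↪ (Fin D → Bool)) (e : PEnv D), gInd Good y e
          * (c * Nk Good k (cv (nuL _ e y) ν) - G ^ k)
          = c * (gInd Good y e * Nk Good k (cv (nuL _ e y) ν)) - gInd Good y e * G ^ k := by
        intro y e; ring
      simp_rw [e3, Finset.sum_sub_distrib, ← Finset.mul_sum, ← Finset.sum_mul]
      rw [sub_div, mul_div_assoc, mul_div_right_comm, e2, pow_succ]
      ring
    rw [h4] at h3
    have hG1 : G = 1 - pBad Good := by rw [hGdef]; exact sum_zetaG Good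
    have hG2 : G * (k * pBad Good) ≤ k * pBad Good := by
      have : 0 ≤ (k : ℝ) * pBad Good := by positivity
      nlinarith
    rw [h2] at h1
    push_cast
    linarith

end Trunc

section Compl

variable {D : ℕ} {A B : Type} [Fintype A] [DecidableEq A] [Fintype B] [DecidableEq B]

theorem posLaw_cv (p q : Equiv.Perm (Fin D → Bool) → ℝ) (y z : A ↪ (Fin D → Bool)) :
    posLaw (cv p q) y z = ∑ h, q h * posLaw p (act h y) z := by
  unfold posLaw cv
  have h1 : ∀ g : Equiv.Perm (Fin D → Bool),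
      (if act g y = z then ∑ h, p h * q (h⁻¹ * g) else 0)
      = ∑ h, (if act g y = z then p h * q (h⁻¹ * g) else 0) := by
    intro g; split_ifs <;> simp
  simp_rw [h1]
  rw [Finset.sum_comm]
  simp_rw [Finset.mul_sum]
  rw [Finset.sum_comm (f := fun x i => q x * if act i (act x y) = z then p i else 0)]
  apply Finset.sum_congr rfl
  intro h _
  rw [← Equiv.sum_comp (Equiv.mulLeft h)]
  apply Finset.sum_congr rfl
  intro g _
  simp only [Equiv.coe_mulLeft, inv_mul_cancel_left, act_mul]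
  split_ifs <;> ring

theorem sum_tvPos_cv_le (p q : Equiv.Perm (Fin D → Bool) → ℝ) (hq : IsLaw q) :
    ∑ y : A ↪ (Fin D → Bool), tvPos (cv p q) y ≤ ∑ y : A ↪ (Fin D → Bool), tvPos p y := by
  have h1 : ∀ y : A ↪ (Fin D → Bool), tvPos (cv p q) y ≤ ∑ h, q h * tvPos p (act h y) := by
    intro y
    unfold tvPos
    have e1 : ∀ z : A ↪ (Fin D → Bool), posLaw (cv p q) y z
        - 1 / (Fintype.card (A ↪ (Fin D → Bool)) : ℝ)
        = ∑ h, q h * (posLaw p (act h y) z - 1 / (Fintype.card (A ↪ (Fin D → Bool)) : ℝ)) := by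
      intro z
      rw [posLaw_cv]
      simp_rw [mul_sub]
      rw [Finset.sum_sub_distrib, ← Finset.sum_mul, hq.sum_one, one_mul]
    simp_rw [e1]
    calc (1 / 2) * ∑ z : A ↪ (Fin D → Bool), |∑ h, q h * (posLaw p (act h y) z
          - 1 / (Fintype.card (A ↪ (Fin D → Bool)) : ℝ))|
        ≤ (1 / 2) * ∑ z : A ↪ (Fin D → Bool), ∑ h, q h * |posLaw p (act h y) z
          - 1 / (Fintype.card (A ↪ (Fin D → Bool)) : ℝ)| := by
          apply mul_le_mul_of_nonneg_left _ (by norm_num)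
          apply Finset.sum_le_sum
          intro z _
          refine (Finset.abs_sum_le_sum_abs _ _).trans ?_
          apply Finset.sum_le_sum
          intro h _
          rw [abs_mul, abs_of_nonneg (hq.nonneg h)]
      _ = _ := by
          rw [Finset.sum_comm, Finset.mul_sum]
          apply Finset.sum_congr rfl
          intro h _
          rw [← Finset.mul_sum]; ring
  refine (Finset.sum_le_sum (fun y _ => h1 y)).trans ?_
  rw [Finset.sum_comm]
  apply le_of_eq
  calc ∑ h, ∑ y : A ↪ (Fin D → Bool), q h * tvPos p (act h y)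
      = ∑ h, q h * ∑ y : A ↪ (Fin D → Bool), tvPos p y := by
        apply Finset.sum_congr rfl
        intro h _
        rw [← Finset.mul_sum, sum_act h (fun y => tvPos p y)]
    _ = _ := by rw [← Finset.sum_mul, hq.sum_one, one_mul]

/-- complementary embeddings -/
def Cmp (ι : A ↪ (Fin D → Bool)) (ι' : B ↪ (Fin D → Bool)) : Prop :=
  ∀ x, x ∈ Set.range ι ↔ x ∉ Set.range ι'

theorem Cmp.act {ι : A ↪ (Fin D → Bool)} {ι' : B ↪ (Fin D → Bool)} (h : Cmp ι ι')
    (X : Equiv.Perm (Fin D → Bool)) : Cmp (act X ι) (act X ι') := by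
  intro x
  obtain ⟨x0, rfl⟩ := X.surjective x
  have h1 : X x0 ∈ Set.range (ThS.act X ι) ↔ x0 ∈ Set.range ι := by
    constructor
    · rintro ⟨a, ha⟩; exact ⟨a, X.injective ha⟩
    · rintro ⟨a, rfl⟩; exact ⟨a, rfl⟩
  have h2 : X x0 ∈ Set.range (ThS.act X ι') ↔ x0 ∈ Set.range ι' := by
    constructor
    · rintro ⟨a, ha⟩; exact ⟨a, X.injective ha⟩
    · rintro ⟨a, rfl⟩; exact ⟨a, rfl⟩
  rw [h1, h2]; exact h x0

theorem exists_ext {ι : A ↪ (Fin D → Bool)} {ι' : B ↪ (Fin D → Bool)} (hc : Cmp ι ι')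
    (p : Equiv.Perm (Fin D → Bool)) (hp : act p ι' = ι') :
    ∃ κ : Equiv.Perm A, Equiv.Perm.viaEmbeddingHom ι κ = p := by
  have hfix : ∀ b, p (ι' b) = ι' b := fun b => congrArg (fun e => e b) hp
  have hex : ∀ a, ∃ a', ι a' = p (ι a) := by
    intro a
    have : p (ι a) ∈ Set.range ι := by
      rw [hc]
      rintro ⟨b, hb⟩
      have h1 : ι a = ι' b := by
        apply p.injective
        rw [hfix b]; exact hb.symm
      have h2 := (hc (ι a)).mp ⟨a, rfl⟩
      exact h2 ⟨b, h1.symm⟩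
    exact this
  choose f hf using hex
  have hinj : Function.Injective f := by
    intro a b hab
    apply ι.injective
    apply p.injective
    rw [← hf a, ← hf b, hab]
  refine ⟨Equiv.ofBijective f (Finite.injective_iff_bijective.mp hinj), ?_⟩
  apply Equiv.ext
  intro x
  rw [Equiv.Perm.viaEmbeddingHom_apply]
  by_cases hx : x ∈ Set.range ι
  · obtain ⟨a, rfl⟩ := hx
    rw [Equiv.Perm.viaEmbedding_apply]
    exact hf a
  · rw [Equiv.Perm.viaEmbedding_apply_of_notMem _ _ _ hx]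
    have h1 : x ∈ Set.range ι' := by
      by_contra h
      exact hx ((hc x).mpr h)
    obtain ⟨b, rfl⟩ := h1
    exact (hfix b).symm

theorem act_ext {ι : A ↪ (Fin D → Bool)} {ι' : B ↪ (Fin D → Bool)} (hc : Cmp ι ι')
    (κ : Equiv.Perm A) : act (Equiv.Perm.viaEmbeddingHom ι κ) ι' = ι' := by
  apply Function.Embedding.ext
  intro b
  show Equiv.Perm.viaEmbeddingHom ι κ (ι' b) = ι' b
  rw [Equiv.Perm.viaEmbeddingHom_apply]
  apply Equiv.Perm.viaEmbedding_apply_of_notMem
  intro h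
  exact ((hc _).mp h) ⟨b, rfl⟩

theorem sum_dlt_ext {ι : A ↪ (Fin D → Bool)} {ι' : B ↪ (Fin D → Bool)} (hc : Cmp ι ι')
    (h x : Equiv.Perm (Fin D → Bool)) :
    ∑ κ, dlt (h * Equiv.Perm.viaEmbeddingHom ι κ) x
      = if act h ι' = act x ι' then (1 : ℝ) else 0 := by
  by_cases hx : act h ι' = act x ι'
  · rw [if_pos hx]
    have h1 : act (h⁻¹ * x) ι' = ι' := by
      rw [act_mul, ← hx, ← act_mul, inv_mul_cancel, act_one]
    obtain ⟨κ, hκ⟩ := exists_ext hc _ h1
    rw [Finset.sum_eq_single κ]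
    · unfold dlt
      rw [hκ, if_pos (by group)]
    · intro κ' _ hne
      unfold dlt
      rw [if_neg]
      intro h2
      apply hne
      apply Equiv.Perm.viaEmbeddingHom_injective ι
      rw [hκ, h2]; group
    · intro h'; exact absurd (Finset.mem_univ _) h'
  · rw [if_neg hx]
    apply Finset.sum_eq_zero
    intro κ _
    unfold dlt
    rw [if_neg]
    intro h2
    apply hx
    rw [h2, act_mul, act_ext hc]

theorem cv_Lw_unif {ι : A ↪ (Fin D → Bool)} {ι' : B ↪ (Fin D → Bool)} (hc : Cmp ι ι')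
    (μ : Equiv.Perm (Fin D → Bool) → ℝ) (x : Equiv.Perm (Fin D → Bool)) :
    cv μ (Lw ι 1 (fun _ => 1 / (Fintype.card (Equiv.Perm A) : ℝ))) x
      = 1 / (Fintype.card (Equiv.Perm A) : ℝ) * posLaw μ ι' (act x ι') := by
  unfold cv
  have h1 : ∀ h : Equiv.Perm (Fin D → Bool),
      Lw ι 1 (fun _ => 1 / (Fintype.card (Equiv.Perm A) : ℝ)) (h⁻¹ * x)
      = 1 / (Fintype.card (Equiv.Perm A) : ℝ) * (if act h ι' = act x ι' then (1 : ℝ) else 0) := by
    intro h
    rw [Lw_translate]
    unfold Lw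
    rw [← Finset.mul_sum, mul_one, sum_dlt_ext hc]
  simp_rw [h1]
  unfold posLaw
  rw [Finset.mul_sum]
  apply Finset.sum_congr rfl
  intro h _
  split_ifs <;> ring

theorem tvu_Lw_unif {ι : A ↪ (Fin D → Bool)} {ι' : B ↪ (Fin D → Bool)} (hc : Cmp ι ι')
    (μ : Equiv.Perm (Fin D → Bool) → ℝ) (hμ : IsLaw μ) :
    tvu (cv μ (Lw ι 1 (fun _ => 1 / (Fintype.card (Equiv.Perm A) : ℝ)))) = tvPos μ ι' := by
  set nG : ℝ := (Fintype.card (Equiv.Perm (Fin D → Bool)) : ℝ) with hnG
  set nA : ℝ := (Fintype.card (Equiv.Perm A) : ℝ) with hnA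
  set N : ℝ := (Fintype.card (B ↪ (Fin D → Bool)) : ℝ) with hN
  have hG0 : 0 < nG := by rw [hnG]; exact_mod_cast Fintype.card_pos
  have hA0 : 0 < nA := by rw [hnA]; exact_mod_cast Fintype.card_pos
  have hne : Nonempty (B ↪ (Fin D → Bool)) := ⟨ι'⟩
  have hN0 : 0 < N := by rw [hN]; exact_mod_cast Fintype.card_pos
  -- normalisation
  have hkey : nG = nA * N := by
    have h1 : IsLaw (Lw ι 1 (fun _ => 1 / nA)) := by
      constructor
      · intro g
        unfold Lw
        apply Finset.sum_nonneg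
        intro κ _
        exact mul_nonneg (by positivity) ((IsLaw.dlt _).nonneg _)
      · unfold Lw
        rw [Finset.sum_comm]
        have : ∀ κ : Equiv.Perm A, ∑ x, 1 / nA * dlt (1 * Equiv.Perm.viaEmbeddingHom ι κ) x
            = 1 / nA := by
          intro κ
          rw [← Finset.mul_sum, (IsLaw.dlt _).sum_one, mul_one]
        simp_rw [this]
        rw [Finset.sum_const, Finset.card_univ, nsmul_eq_mul, ← hnA]
        field_simp
    have h2 := (hμ.cv h1).sum_one
    have h2' : ∀ x, cv μ (Lw ι 1 (fun _ => 1 / nA)) x = 1 / nA * posLaw μ ι' (act x ι') :=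
      fun x => cv_Lw_unif hc μ x
    simp_rw [h2'] at h2
    rw [← Finset.mul_sum] at h2
    have h3 := av_act ι' (fun z => posLaw μ ι' z)
    rw [← hnG, ← hN] at h3
    have h4 : ∑ z, posLaw μ ι' z = 1 := by
      have := sum_posLaw μ ι' (fun _ => 1)
      simp only [mul_one] at this
      rw [← this, hμ.sum_one]
    rw [h4, div_eq_div_iff hG0.ne' hN0.ne', one_mul] at h3
    have h5 : ∑ x, posLaw μ ι' (act x ι') = nA := by
      field_simp at h2
      linarith
    rw [h5] at h3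
    linarith
  unfold tvu tvPos
  rw [← hnG, ← hN]
  congr 1
  have h1 : ∀ x, |cv μ (Lw ι 1 (fun _ => 1 / nA)) x - 1 / nG|
      = 1 / nA * |posLaw μ ι' (act x ι') - 1 / N| := by
    intro x
    rw [cv_Lw_unif hc, ← hnA]
    have : 1 / nA * posLaw μ ι' (act x ι') - 1 / nG
        = 1 / nA * (posLaw μ ι' (act x ι') - 1 / N) := by
      rw [hkey]; field_simp
    rw [this, abs_mul, abs_of_pos (by positivity)]
  simp_rw [h1]
  rw [← Finset.mul_sum]
  have h3 := av_act ι' (fun z => |posLaw μ ι' z - 1 / N|)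
  rw [← hnG, ← hN, div_eq_div_iff hG0.ne' hN0.ne'] at h3
  rw [hkey] at h3
  have h4 : (∑ x, |posLaw μ ι' (act x ι') - 1 / N|) = (∑ z, |posLaw μ ι' z - 1 / N|) * nA := by
    have : (∑ x, |posLaw μ ι' (act x ι') - 1 / N|) * N
        = ((∑ z, |posLaw μ ι' z - 1 / N|) * nA) * N := by rw [h3]; ring
    exact mul_right_cancel₀ hN0.ne' this
  rw [h4]
  generalize (∑ z, |posLaw μ ι' z - 1 / N|) = s
  field_simp

end Compl

end Crest.Agent.ThS
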