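import Mathlib
import Crest.Agent.ThGlue4

/-! Glue, part 5 : the theorem `Thglue` (helper9). -/

set_option autoImplicit false
set_option linter.unusedSectionVars false

namespace Crest.Agent.ThS

open Finset

section Fin

variable {D : ℕ} {A B : Type} [Fintype A] [DecidableEq A] [Fintype B] [DecidableEq B]

theorem exists_cmp (h : Fintype.card A + Fintype.card B = 2 ^ D) :
    ∃ (ι : A ↪ (Fin D → Bool)) (ι' : B ↪ (Fin D → Bool)), Cmp ι ι' := by
  have hcard : Fintype.card (A ⊕ B) = Fintype.card (Fin D → Bool) := by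
    rw [Fintype.card_sum, h]; simp
  let e : A ⊕ B ≃ (Fin D → Bool) := Fintype.equivOfCardEq hcard
  refine ⟨Function.Embedding.inl.trans e.toEmbedding, Function.Embedding.inr.trans e.toEmbedding,
    ?_⟩
  intro x
  obtain ⟨c, rfl⟩ := e.surjective x
  rcases c with a | b
  · constructor
    · intro _
      rintro ⟨b, hb⟩
      have := e.injective hb
      simp at this
    · intro _; exact ⟨a, rfl⟩
  · constructor
    · rintro ⟨a, ha⟩
      have := e.injective ha
      simp at this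
    · intro h'; exact absurd ⟨b, rfl⟩ h'

theorem tvu_cv_le {G : Type*} [Group G] [Fintype G] [DecidableEq G] (p q : G → ℝ) (hp : IsLaw p) :
    tvu (cv p q) ≤ tvu q := by
  unfold tvu
  apply mul_le_mul_of_nonneg_left _ (by norm_num)
  have h := sum_abs_cv_le p (fun g => q g - 1 / (Fintype.card G : ℝ)) hp
  rw [cv_sub_const p q hp] at h
  exact h

theorem tvu_cvPow_add_le {G : Type*} [Group G] [Fintype G] [DecidableEq G] (p : G → ℝ)
    (hp : IsLaw p) (a b : ℕ) : tvu (cvPow p (a + b)) ≤ tvu (cvPow p b) := by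
  rw [cvPow_add]
  exact tvu_cv_le _ _ (hp.cvPow a)

/-- **Quenched reduction.** -/
theorem Thglue (hcard : Fintype.card A + Fintype.card B = 2 ^ D)
    (Good : (A ↪ (Fin D → Bool)) → PEnv D → Prop)
    (hG : ∀ y e σ, Good (rel y σ) e ↔ Good y e) (K s : ℕ) (hK : 1 ≤ K) (ε : ℝ)
    (hA : ∑ y : A ↪ (Fin D → Bool), tvPos (cvPow (passLaw D) s) y
      ≤ ε * (Fintype.card (A ↪ (Fin D → Bool)) : ℝ))
    (hB : ∑ y : B ↪ (Fin D → Bool), tvPos (cvPow (passLaw D) s) y
      ≤ ε * (Fintype.card (B ↪ (Fin D → Bool)) : ℝ)) :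
    tvu (cvPow (passLaw D) ((s + 1) * K)) ≤ K * pBad Good + (1 / 2) * Real.sqrt
      ((Fintype.card (Equiv.Perm A) : ℝ) * cvPow (zetaG Good) K 1 - (∑ g, zetaG Good g) ^ K)
      + (K + 1) * ε := by
  obtain ⟨ι, ι', hc⟩ := exists_cmp (A := A) (B := B) (D := D) hcard
  have hneA : Nonempty (A ↪ (Fin D → Bool)) := ⟨ι⟩
  have hneB : Nonempty (B ↪ (Fin D → Bool)) := ⟨ι'⟩
  set S := cvPow (passLaw D) s with hSdef
  have hS : IsLaw S := isLaw_passLaw.cvPow s
  set μ := cvPow (cv (passLaw D) S) K with hμdef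
  have hμ : IsLaw μ := (isLaw_passLaw.cv hS).cvPow K
  have hμ2 : μ = cvPow (passLaw D) ((s + 1) * K) := by
    rw [cvPow_mul, cvPow_succ]
  rw [← hμ2]
  have hN : (0 : ℝ) < Fintype.card (A ↪ (Fin D → Bool)) := by exact_mod_cast Fintype.card_pos
  have hN' : (0 : ℝ) < Fintype.card (B ↪ (Fin D → Bool)) := by exact_mod_cast Fintype.card_pos
  have hnG : (0 : ℝ) < Fintype.card (Equiv.Perm (Fin D → Bool)) := by
    exact_mod_cast Fintype.card_pos
  -- pointwise bound
  have h1 : ∀ X : Equiv.Perm (Fin D → Bool),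
      tvu μ ≤ (Iv D K (dlt (1 : Equiv.Perm A)) + dl S K (act X ι)) + tvPos μ (act X ι') := by
    intro X
    have hcX := hc.act X
    have e1 : Lw (act X ι) 1 (dlt (1 : Equiv.Perm A)) = dlt 1 := by
      funext x
      unfold Lw
      rw [Finset.sum_eq_single (1 : Equiv.Perm A)]
      · rw [map_one, mul_one]
        unfold dlt
        simp
      · intro κ _ hne
        unfold dlt
        rw [if_neg hne, zero_mul]
      · intro h'; exact absurd (Finset.mem_univ _) h'
    have e2 : μ = cv μ (Lw (act X ι) 1 (dlt (1 : Equiv.Perm A))) := by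
      rw [e1, cv_dlt_one]
    have e3 : ∀ x, cv μ (Lw (act X ι) 1 (fun κ => dlt (1 : Equiv.Perm A) κ
        - 1 / (Fintype.card (Equiv.Perm A) : ℝ))) x
        = μ x - cv μ (Lw (act X ι) 1 (fun _ => 1 / (Fintype.card (Equiv.Perm A) : ℝ))) x := by
      intro x
      rw [congrFun e2 x]
      unfold cv Lw
      rw [← Finset.sum_sub_distrib]
      apply Finset.sum_congr rfl
      intro h _
      rw [← mul_sub, ← Finset.sum_sub_distrib]
      congr 1
      apply Finset.sum_congr rfl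
      intro κ _
      ring
    have h2 := dist_le S hS (act X ι) K 1 (dlt (1 : Equiv.Perm A)) (IsLaw.dlt 1)
    have h3 := Wv_le S hS K (act 1 (act X ι)) (dlt (1 : Equiv.Perm A)) (IsLaw.dlt 1)
    rw [act_one] at h2 h3
    have h4 := tvu_Lw_unif hcX μ hμ
    have h5 : tvu μ ≤ (1 / 2) * Tt S (act X ι) K 1 (fun κ => dlt (1 : Equiv.Perm A) κ
        - 1 / (Fintype.card (Equiv.Perm A) : ℝ))
        + tvu (cv μ (Lw (act X ι) 1 (fun _ => 1 / (Fintype.card (Equiv.Perm A) : ℝ)))) := by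
      unfold tvu Tt
      rw [← hμdef]
      simp_rw [e3]
      rw [← mul_add, ← Finset.sum_add_distrib]
      apply mul_le_mul_of_nonneg_left _ (by norm_num)
      apply Finset.sum_le_sum
      intro x _
      exact abs_sub_le _ _ _
    rw [h4] at h5
    linarith
  -- average over X
  have h2 : tvu μ ≤ Iv D K (dlt (1 : Equiv.Perm A))
      + (∑ y : A ↪ (Fin D → Bool), dl S K y) / (Fintype.card (A ↪ (Fin D → Bool)) : ℝ)
      + (∑ y : B ↪ (Fin D → Bool), tvPos μ y) / (Fintype.card (B ↪ (Fin D → Bool)) : ℝ) := by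
    rw [← av_act ι, ← av_act ι']
    have h3 : ∑ _X : Equiv.Perm (Fin D → Bool), tvu μ ≤ ∑ X : Equiv.Perm (Fin D → Bool),
        ((Iv D K (dlt (1 : Equiv.Perm A)) + dl S K (act X ι)) + tvPos μ (act X ι')) :=
      Finset.sum_le_sum (fun X _ => h1 X)
    rw [Finset.sum_add_distrib, Finset.sum_add_distrib, Finset.sum_const, Finset.sum_const,
      Finset.card_univ, nsmul_eq_mul, nsmul_eq_mul] at h3
    have h4 : (Fintype.card (Equiv.Perm (Fin D → Bool)) : ℝ) * tvu μ
        / (Fintype.card (Equiv.Perm (Fin D → Bool)) : ℝ)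
        ≤ ((Fintype.card (Equiv.Perm (Fin D → Bool)) : ℝ) * Iv D K (dlt (1 : Equiv.Perm A))
          + ∑ X : Equiv.Perm (Fin D → Bool), dl S K (act X ι)
          + ∑ X : Equiv.Perm (Fin D → Bool), tvPos μ (act X ι'))
          / (Fintype.card (Equiv.Perm (Fin D → Bool)) : ℝ) :=
      div_le_div_of_nonneg_right h3 hnG.le
    rw [add_div, add_div, mul_div_cancel_left₀ _ hnG.ne', mul_div_cancel_left₀ _ hnG.ne'] at h4
    exact h4
  have h3 : (∑ y : A ↪ (Fin D → Bool), dl S K y) / (Fintype.card (A ↪ (Fin D → Bool)) : ℝ)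
      ≤ K * ε := by
    rw [sum_dl S hS, div_le_iff₀ hN, mul_assoc]
    exact mul_le_mul_of_nonneg_left hA (by positivity)
  have h4 : (∑ y : B ↪ (Fin D → Bool), tvPos μ y) / (Fintype.card (B ↪ (Fin D → Bool)) : ℝ)
      ≤ ε := by
    rw [div_le_iff₀ hN']
    refine le_trans ?_ hB
    have e : μ = cv S (cvPow (passLaw D) ((s + 1) * K - s)) := by
      rw [hμ2, hSdef, ← cvPow_add]
      congr 1
      have : s ≤ (s + 1) * K := by nlinarith
      omega
    rw [e]
    exact sum_tvPos_cv_le _ _ (isLaw_passLaw.cvPow _)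
  have h5 := Iv_le Good hG K (dlt (1 : Equiv.Perm A)) (IsLaw.dlt 1)
  have h6 : Nk Good K (dlt (1 : Equiv.Perm A)) = cvPow (zetaG Good) K 1 := by
    unfold Nk
    rw [cv_dlt_one, ipr_dlt_one]
  rw [h6] at h5
  linarith

end Fin

end Crest.Agent.ThS
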