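import Mathlib
import Crest.Agent.ThConv
import Crest.Agent.T22Avg

/-! S0222, section 3: common fixed points of two replicas of the hidden label law of one pass. -/

set_option autoImplicit false
set_option linter.unusedSectionVars false
set_option linter.unusedVariables false

namespace Crest.Agent.ThS

open Finset

variable {A : Type*} [Fintype A] [DecidableEq A]

/-- permutations moving every point to itself or to its partner -/
noncomputable def invSet (τ : A → A) : Finset (Equiv.Perm A) :=
  Finset.univ.filter (fun κ => ∀ a, κ a = a ∨ κ a = τ a)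

theorem mem_invSet {τ : A → A} {κ : Equiv.Perm A} :
    κ ∈ invSet τ ↔ ∀ a, κ a = a ∨ κ a = τ a := by
  simp [invSet]

/-- canonical representative of the pair `{a, τ a}` -/
noncomputable def rp (τ : A → A) (a : A) : A :=
  if Fintype.equivFin A a ≤ Fintype.equivFin A (τ a) then a else τ a

theorem rp_or (τ : A → A) (a : A) : rp τ a = a ∨ rp τ a = τ a := by
  unfold rp; split_ifs
  · left; rfl
  · right; rfl

theorem rp_tau {τ : A → A} (hτ : ∀ a, τ (τ a) = a) (a : A) : rp τ (τ a) = rp τ a := by
  unfold rp
  rw [hτ]
  by_cases h : Fintype.equivFin A a ≤ Fintype.equivFin A (τ a)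
  · rw [if_pos h]
    by_cases h2 : Fintype.equivFin A (τ a) ≤ Fintype.equivFin A a
    · rw [if_pos h2]
      exact (Fintype.equivFin A).injective (le_antisymm h2 h)
    · rw [if_neg h2]
  · rw [if_neg h, if_pos (le_of_lt (not_le.mp h))]

/-- the permutation given by coins -/
noncomputable def kc (τ : A → A) (hτ : ∀ a, τ (τ a) = a) (c : A → Bool) : Equiv.Perm A where
  toFun a := if c (rp τ a) then τ a else a
  invFun a := if c (rp τ a) then τ a else a
  left_inv a := by
    by_cases h : c (rp τ a) = true
    · simp [h, rp_tau hτ, hτ]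
    · simp [h]
  right_inv a := by
    by_cases h : c (rp τ a) = true
    · simp [h, rp_tau hτ, hτ]
    · simp [h]

theorem kc_apply (τ : A → A) (hτ : ∀ a, τ (τ a) = a) (c : A → Bool) (a : A) :
    kc τ hτ c a = if c (rp τ a) then τ a else a := rfl

theorem kc_mem (τ : A → A) (hτ : ∀ a, τ (τ a) = a) (c : A → Bool) : kc τ hτ c ∈ invSet τ := by
  rw [mem_invSet]
  intro a
  rw [kc_apply]
  split_ifs
  · right; rfl
  · left; rfl

theorem kc_surj (τ : A → A) (hτ : ∀ a, τ (τ a) = a) {κ : Equiv.Perm A} (h : κ ∈ invSet τ) :
    ∃ c, kc τ hτ c = κ := by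
  rw [mem_invSet] at h
  refine ⟨fun a => decide (κ a ≠ a), ?_⟩
  apply Equiv.ext
  intro a
  rw [kc_apply]
  have key : ∀ b, κ b = b → κ (τ b) = τ b := by
    intro b hb
    rcases h (τ b) with h1 | h1
    · exact h1
    · rw [hτ] at h1
      have : τ b = b := κ.injective (h1.trans hb.symm)
      rw [this, hb]
  have key2 : (κ (rp τ a) = rp τ a) ↔ κ a = a := by
    rcases rp_or τ a with h1 | h1
    · rw [h1]
    · rw [h1]
      constructor
      · intro h2
        have := key _ h2
        rwa [hτ] at this
      · exact key a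
  by_cases ha : κ a = a
  · have h3 : ¬ (decide (κ (rp τ a) ≠ rp τ a) = true) := by
      simp [key2.mpr ha]
    rw [if_neg h3, ha]
  · have h3 : (decide (κ (rp τ a) ≠ rp τ a) = true) := by
      simp only [ne_eq, decide_eq_true_eq]
      intro h4; exact ha (key2.mp h4)
    rw [if_pos h3]
    rcases h a with h4 | h4
    · exact absurd h4 ha
    · exact h4.symm

theorem kc_xor (τ : A → A) (hτ : ∀ a, τ (τ a) = a) (c d : A → Bool) :
    kc τ hτ (fun a => xor (c a) (d a)) = kc τ hτ c * kc τ hτ d := by
  apply Equiv.ext
  intro a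
  rw [Equiv.Perm.mul_apply, kc_apply, kc_apply, kc_apply]
  by_cases hd : d (rp τ a) = true
  · rw [if_pos hd, rp_tau hτ, hτ]
    by_cases hc : c (rp τ a) = true
    · simp [hd, hc]
    · simp [hd, hc]
  · simp [hd]

theorem kc_false (τ : A → A) (hτ : ∀ a, τ (τ a) = a) : kc τ hτ (fun _ => false) = 1 := by
  apply Equiv.ext
  intro a
  rw [kc_apply]; simp

theorem kc_sq (τ : A → A) (hτ : ∀ a, τ (τ a) = a) (c : A → Bool) : kc τ hτ c * kc τ hτ c = 1 := by
  rw [← kc_xor, ← kc_false τ hτ]
  congr 1
  funext a
  simp

/-- integration against the uniform law of `invSet` by coins -/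
theorem sum_unif_invSet (τ : A → A) (hτ : ∀ a, τ (τ a) = a) (G : Equiv.Perm A → ℝ) :
    ∑ κ, unif (invSet τ) κ * G κ
      = (∑ c : A → Bool, G (kc τ hτ c)) / (Fintype.card (A → Bool) : ℝ) := by
  classical
  set f : ℕ := (Finset.univ.filter (fun c => kc τ hτ c = 1)).card with hf
  -- uniform fibres
  have hfib : ∀ κ ∈ invSet τ, (Finset.univ.filter (fun c => kc τ hτ c = κ)).card = f := by
    intro κ hκ
    obtain ⟨c0, hc0⟩ := kc_surj τ hτ hκ
    have hinv : ∀ c : A → Bool, (fun a => xor (c0 a) (xor (c0 a) (c a))) = c := by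
      intro c; funext a; simp [← Bool.xor_assoc]
    apply Finset.card_bij (fun c _ => fun a => xor (c0 a) (c a))
    · intro c hc
      simp only [Finset.mem_filter, Finset.mem_univ, true_and] at hc ⊢
      rw [kc_xor, hc, ← hc0, kc_sq]
    · intro c _ c' _ h
      rw [← hinv c, ← hinv c']
      funext a
      rw [congrFun h a]
    · intro c hc
      simp only [Finset.mem_filter, Finset.mem_univ, true_and] at hc
      refine ⟨fun a => xor (c0 a) (c a), ?_, hinv c⟩
      simp only [Finset.mem_filter, Finset.mem_univ, true_and]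
      rw [kc_xor, hc, hc0, mul_one]
  have hsum : ∀ G : Equiv.Perm A → ℝ, ∑ c : A → Bool, G (kc τ hτ c) = f * ∑ κ ∈ invSet τ, G κ := by
    intro G
    rw [← Finset.sum_fiberwise_of_maps_to (s := (Finset.univ : Finset (A → Bool)))
      (t := invSet τ) (g := fun c => kc τ hτ c) (fun c _ => kc_mem τ hτ c)
      (fun c => G (kc τ hτ c)), Finset.mul_sum]
    apply Finset.sum_congr rfl
    intro κ hκ
    rw [Finset.sum_congr rfl (g := fun _ => G κ)
      (fun c hc => by rw [(Finset.mem_filter.mp hc).2]), Finset.sum_const, nsmul_eq_mul,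
      hfib κ hκ]
  have hcard : (Fintype.card (A → Bool) : ℝ) = f * (invSet τ).card := by
    have := hsum (fun _ => 1)
    simp only [Finset.sum_const, Finset.card_univ, nsmul_eq_mul, mul_one] at this
    exact this
  have hf0 : (f : ℝ) ≠ 0 := by
    intro h
    rw [h, zero_mul] at hcard
    exact (by exact_mod_cast Fintype.card_ne_zero : (Fintype.card (A → Bool) : ℝ) ≠ 0) hcard
  rw [hsum, hcard]
  unfold unif
  simp_rw [ite_mul, zero_mul]
  rw [Finset.sum_ite_mem, Finset.univ_inter, ← Finset.mul_sum]
  have hi : ((invSet τ).card : ℝ) ≠ 0 := by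
    intro h
    rw [h, mul_zero] at hcard
    exact (by exact_mod_cast Fintype.card_ne_zero : (Fintype.card (A → Bool) : ℝ) ≠ 0) hcard
  field_simp

/-- independence over the pairs -/
theorem coin_prod (τ : A → A) (hτ : ∀ a, τ (τ a) = a) (X : Finset A) (f : A → A → ℝ)
    (g : A → ℝ) (hf0 : ∀ a b, 0 ≤ f a b) (hg0 : ∀ a, 0 ≤ g a)
    (hfix : ∀ a ∈ X, τ a = a → f a a ≤ g a)
    (hone : ∀ a ∈ X, τ a ≠ a → (f a a + f a (τ a)) / 2 ≤ g a)
    (htwo : ∀ a ∈ X, τ a ∈ X → τ a ≠ a →
      (f a a * f (τ a) (τ a) + f a (τ a) * f (τ a) a) / 2 ≤ g a * g (τ a)) :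
    ∑ κ, unif (invSet τ) κ * ∏ a ∈ X, f a (κ a) ≤ ∏ a ∈ X, g a := by
  classical
  rw [sum_unif_invSet τ hτ]
  -- group the product by representatives
  have h1 : ∀ c : A → Bool, ∏ a ∈ X, f a (kc τ hτ c a)
      = ∏ r : A, ∏ a ∈ X.filter (fun a => rp τ a = r), f a (if c r then τ a else a) := by
    intro c
    rw [← Finset.prod_fiberwise X (fun a => rp τ a)]
    apply Finset.prod_congr rfl
    intro r _
    apply Finset.prod_congr rfl
    intro a ha
    rw [kc_apply, (Finset.mem_filter.mp ha).2]
  simp_rw [h1]
  have h2 : ∑ c : A → Bool, ∏ r : A, ∏ a ∈ X.filter (fun a => rp τ a = r),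
        f a (if c r then τ a else a)
      = ∏ r : A, ∑ b : Bool, ∏ a ∈ X.filter (fun a => rp τ a = r), f a (if b then τ a else a) := by
    rw [Finset.prod_univ_sum]
    apply Finset.sum_congr
    · ext c; simp
    · intro c _; rfl
  rw [h2]
  have h3 : (Fintype.card (A → Bool) : ℝ) = ∏ _r : A, (2 : ℝ) := by
    simp
  rw [h3, ← Finset.prod_div_distrib, ← Finset.prod_fiberwise X (fun a => rp τ a) g]
  apply Finset.prod_le_prod
  · intro r _
    apply div_nonneg _ (by norm_num)
    exact Finset.sum_nonneg (fun b _ => Finset.prod_nonneg (fun a _ => hf0 _ _))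
  intro r _
  rw [Fintype.sum_bool]
  simp only [if_true, Bool.false_eq_true, if_false]
  -- the fibre
  set Y := X.filter (fun a => rp τ a = r) with hY
  by_cases hY0 : Y = ∅
  · rw [hY0]; simp
  obtain ⟨a, ha⟩ := Finset.nonempty_iff_ne_empty.mpr hY0
  have haX : a ∈ X := (Finset.mem_filter.mp ha).1
  have har : rp τ a = r := (Finset.mem_filter.mp ha).2
  have hYsub : ∀ b ∈ Y, b = a ∨ b = τ a := by
    intro b hb
    have hbr : rp τ b = r := (Finset.mem_filter.mp hb).2
    rcases rp_or τ a with h | h <;> rcases rp_or τ b with h' | h'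
    · left; rw [← h, ← h', har, hbr]
    · right
      have : τ b = a := by rw [← h, ← h', har, hbr]
      rw [← this, hτ]
    · right; rw [← h, ← h', har, hbr]
    · left
      have : τ b = τ a := by rw [← h, ← h', har, hbr]
      rw [← hτ b, this, hτ]
  by_cases hta : τ a = a
  · have hYa : Y = {a} := by
      ext b
      rw [Finset.mem_singleton]
      constructor
      · intro hb
        rcases hYsub b hb with h | h
        · exact h
        · rw [h, hta]
      · intro h; rw [h]; exact ha
    rw [hYa]
    simp only [Finset.prod_singleton, hta]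
    have := hfix a haX hta
    linarith
  · by_cases htX : τ a ∈ X
    · have hYa : Y = {a, τ a} := by
        ext b
        rw [Finset.mem_insert, Finset.mem_singleton]
        constructor
        · exact hYsub b
        · rintro (h | h)
          · rw [h]; exact ha
          · rw [h, hY, Finset.mem_filter]
            exact ⟨htX, by rw [rp_tau hτ, har]⟩
      have hne : a ≠ τ a := fun h => hta h.symm
      rw [hYa]
      rw [Finset.prod_pair hne, Finset.prod_pair hne, Finset.prod_pair hne, hτ]
      have := htwo a haX htX hta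
      linarith
    · have hYa : Y = {a} := by
        ext b
        rw [Finset.mem_singleton]
        constructor
        · intro hb
          rcases hYsub b hb with h | h
          · exact h
          · exfalso
            apply htX
            rw [← h]
            exact (Finset.mem_filter.mp hb).1
        · intro h; rw [h]; exact ha
      rw [hYa]
      simp only [Finset.prod_singleton]
      have := hone a haX hta
      linarith

/-- one half of a common coin -/
noncomputable def phi (τ : A → A) (a : A) : ℝ := if τ a = a then 1 else (Real.sqrt 2)⁻¹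

theorem phi_nonneg (τ : A → A) (a : A) : 0 ≤ phi τ a := by
  unfold phi; split_ifs <;> positivity

/-- probability that a second replica agrees on `X` -/
theorem agree_le (τ : A → A) (hτ : ∀ a, τ (τ a) = a) (X : Finset A) (κ : Equiv.Perm A)
    (hκ : κ ∈ invSet τ) :
    ∑ κ', unif (invSet τ) κ' * ∏ a ∈ X, (if κ' a = κ a then (1 : ℝ) else 0)
      ≤ ∏ a ∈ X, phi τ a := by
  have hs : (Real.sqrt 2)⁻¹ * (Real.sqrt 2)⁻¹ = 1 / 2 := by
    rw [← mul_inv, Real.mul_self_sqrt (by norm_num)]; norm_num
  have hs2 : (1 : ℝ) / 2 ≤ (Real.sqrt 2)⁻¹ := by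
    have h1 : (0 : ℝ) ≤ (Real.sqrt 2)⁻¹ := by positivity
    have h2 : (Real.sqrt 2)⁻¹ ≤ 1 := by
      apply inv_le_one_of_one_le₀
      rw [Real.one_le_sqrt]; norm_num
    nlinarith
  have hk := mem_invSet.mp hκ
  have key : ∀ b, κ b = b → κ (τ b) = τ b := by
    intro b hb
    rcases hk (τ b) with h1 | h1
    · exact h1
    · rw [hτ] at h1
      have : τ b = b := κ.injective (h1.trans hb.symm)
      rw [this, hb]
  apply coin_prod τ hτ X (fun a b => if b = κ a then (1 : ℝ) else 0) (phi τ)
  · intro a b; show 0 ≤ (if b = κ a then (1 : ℝ) else 0); split_ifs <;> norm_num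
  · exact phi_nonneg τ
  · intro a _ ha
    unfold phi
    rw [if_pos ha]
    show (if a = κ a then (1 : ℝ) else 0) ≤ 1
    split_ifs <;> norm_num
  · intro a _ ha
    unfold phi
    rw [if_neg ha]
    show ((if a = κ a then (1 : ℝ) else 0) + (if τ a = κ a then (1 : ℝ) else 0)) / 2 ≤ _
    by_cases h1 : a = κ a
    · have h2 : ¬ τ a = κ a := by rw [← h1]; exact ha
      rw [if_pos h1, if_neg h2]; linarith
    · rw [if_neg h1]
      split_ifs <;> linarith
  · intro a _ _ ha
    have ha' : τ (τ a) ≠ τ a := by rw [hτ]; exact fun h => ha h.symm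
    unfold phi
    rw [if_neg ha, if_neg ha', hs]
    show ((if a = κ a then (1 : ℝ) else 0) * (if τ a = κ (τ a) then (1 : ℝ) else 0)
      + (if τ a = κ a then (1 : ℝ) else 0) * (if a = κ (τ a) then (1 : ℝ) else 0)) / 2 ≤ 1 / 2
    by_cases h1 : a = κ a
    · have h2 : ¬ τ a = κ a := by rw [← h1]; exact ha
      rw [if_pos h1, if_neg h2]
      split_ifs <;> norm_num
    · rw [if_neg h1]
      split_ifs <;> norm_num

/-- the one-round Liggett inequality -/
theorem liggett_one (τ : A → A) (hτ : ∀ a, τ (τ a) = a) (X : Finset A) (F : A → ℝ)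
    (hF : ∀ a, 0 ≤ F a) :
    ∑ κ, unif (invSet τ) κ * ∏ a ∈ X, F (κ a) ≤ ∏ a ∈ X, ((F a + F (τ a)) / 2) := by
  apply coin_prod τ hτ X (fun _ b => F b) (fun a => (F a + F (τ a)) / 2)
  · intro _ b; exact hF b
  · intro a; have := hF a; have := hF (τ a); linarith
  · intro a _ ha
    show F a ≤ (F a + F (τ a)) / 2
    rw [ha]; linarith
  · intro a _ _
    show (F a + F (τ a)) / 2 ≤ _
    exact le_rfl
  · intro a _ _ _
    show (F a * F (τ a) + F (τ a) * F a) / 2
      ≤ (F a + F (τ a)) / 2 * ((F (τ a) + F (τ (τ a))) / 2)
    rw [hτ]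
    nlinarith [sq_nonneg (F a - F (τ a))]

/-- law of the hidden labels after the rounds of the list (first element = first round) -/
noncomputable def hlaw : List (A → A) → (Equiv.Perm A → ℝ)
  | [] => dlt 1
  | τ :: L => cv (hlaw L) (unif (invSet τ))

/-- `b` can be reached from `a` -/
def reach : List (A → A) → A → A → Prop
  | [], a, b => a = b
  | τ :: L, a, b => reach L a b ∨ reach L (τ a) b

/-- unique path property -/
def UP : List (A → A) → Prop
  | [] => True
  | τ :: L => (∀ a b, reach L a b → reach L (τ a) b → τ a = a) ∧ UP L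

/-- single label functional -/
noncomputable def F0 : List (A → A) → A → ℝ
  | [], _ => 1
  | τ :: L, a => phi τ a * ((F0 L a + F0 L (τ a)) / 2)

theorem F0_nonneg : ∀ (L : List (A → A)) (a : A), 0 ≤ F0 L a
  | [], _ => zero_le_one
  | τ :: L, a => by
      have h1 := F0_nonneg L a
      have h2 := F0_nonneg L (τ a)
      exact mul_nonneg (phi_nonneg τ a) (by linarith)

theorem unif_nn (S : Finset (Equiv.Perm A)) (g : Equiv.Perm A) : 0 ≤ unif S g := by
  unfold unif; split_ifs <;> positivity

theorem hlaw_nonneg : ∀ (L : List (A → A)) (g : Equiv.Perm A), 0 ≤ hlaw L g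
  | [], g => by unfold hlaw dlt; split_ifs <;> norm_num
  | τ :: L, g => cv_nonneg (hlaw_nonneg L) (unif_nn _) g

/-- integration against a convolution -/
theorem sum_cv_apply (p q : Equiv.Perm A → ℝ) (F : Equiv.Perm A → ℝ) :
    ∑ g, cv p q g * F g = ∑ κ, q κ * ∑ k, p k * F (k * κ) := by
  unfold cv
  calc ∑ g, (∑ h, p h * q (h⁻¹ * g)) * F g
      = ∑ g, ∑ h, p h * q (h⁻¹ * g) * F g := by simp_rw [Finset.sum_mul]
    _ = ∑ h, ∑ g, p h * q (h⁻¹ * g) * F g := Finset.sum_comm
    _ = ∑ h, ∑ κ, p h * q κ * F (h * κ) := by
        apply Finset.sum_congr rfl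
        intro h _
        rw [← Equiv.sum_comp (Equiv.mulLeft h)]
        simp
    _ = ∑ κ, ∑ h, p h * q κ * F (h * κ) := Finset.sum_comm
    _ = ∑ κ, q κ * ∑ k, p k * F (k * κ) := by
        apply Finset.sum_congr rfl
        intro κ _
        rw [Finset.mul_sum]
        apply Finset.sum_congr rfl
        intro k _
        ring

theorem hlaw_reach : ∀ (L : List (A → A)) (g : Equiv.Perm A), hlaw L g ≠ 0 → ∀ a, reach L a (g a)
  | [], g, h, a => by
      unfold hlaw dlt at h
      by_cases hg : g = 1
      · rw [hg]; rfl
      · rw [if_neg hg] at h; exact absurd rfl h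
  | τ :: L, g, h, a => by
      unfold hlaw cv at h
      obtain ⟨k, _, hk⟩ := Finset.exists_ne_zero_of_sum_ne_zero h
      have h1 : hlaw L k ≠ 0 := fun h' => hk (by rw [h', zero_mul])
      have h2 : unif (invSet τ) (k⁻¹ * g) ≠ 0 := fun h' => hk (by rw [h', mul_zero])
      have h3 : k⁻¹ * g ∈ invSet τ := by
        by_contra h4
        apply h2
        unfold unif
        rw [if_neg h4]
      have h4 := hlaw_reach L k h1 ((k⁻¹ * g) a)
      have h5 : k ((k⁻¹ * g) a) = g a := by simp
      rw [h5] at h4
      rcases mem_invSet.mp h3 a with h6 | h6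
      · left; rw [h6] at h4; exact h4
      · right; rw [h6] at h4; exact h4

/-- agreement of two replicas -/
theorem agree_hlaw : ∀ (L : List (A → A)), (∀ τ ∈ L, ∀ a, τ (τ a) = a) → UP L → ∀ X : Finset A,
    ∑ g, hlaw L g * ∑ g', hlaw L g' * (if ∀ a ∈ X, g' a = g a then (1 : ℝ) else 0)
      ≤ ∏ a ∈ X, F0 L a
  | [], _, _, X => by
      have h1 : ∀ p : Equiv.Perm A → ℝ, ∑ g, hlaw ([] : List (A → A)) g * p g = p 1 := by
        intro p
        unfold hlaw dlt
        simp
      rw [h1, h1]
      simp [F0]
  | τ :: L, hinv, hUP, X => by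
      classical
      have hτ : ∀ a, τ (τ a) = a := hinv τ (by simp)
      have hL : ∀ τ ∈ L, ∀ a, τ (τ a) = a := fun τ' h' => hinv τ' (by simp [h'])
      obtain ⟨hU1, hU2⟩ := hUP
      have ih := agree_hlaw L hL hU2
      show ∑ g, cv (hlaw L) (unif (invSet τ)) g * ∑ g', cv (hlaw L) (unif (invSet τ)) g'
        * (if ∀ a ∈ X, g' a = g a then (1 : ℝ) else 0) ≤ _
      rw [sum_cv_apply]
      simp_rw [sum_cv_apply]
      -- bound for fixed κ, κ'
      have hb : ∀ κ κ' : Equiv.Perm A, κ ∈ invSet τ → κ' ∈ invSet τ →
          ∑ k, hlaw L k * ∑ k', hlaw L k' * (if ∀ a ∈ X, (k' * κ') a = (k * κ) a then (1 : ℝ) else 0)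
          ≤ (∏ a ∈ X, (if κ' a = κ a then (1 : ℝ) else 0)) * ∏ a ∈ X, F0 L (κ a) := by
        intro κ κ' hκ hκ'
        by_cases hag : ∀ a ∈ X, κ' a = κ a
        · have h1 : ∏ a ∈ X, (if κ' a = κ a then (1 : ℝ) else 0) = 1 :=
            Finset.prod_eq_one (fun a ha => by rw [if_pos (hag a ha)])
          rw [h1, one_mul]
          have h2 := ih (X.image κ)
          rw [Finset.prod_image (fun a _ b _ h => κ.injective h)] at h2
          refine le_trans (le_of_eq ?_) h2
          apply Finset.sum_congr rfl
          intro k _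
          congr 1
          apply Finset.sum_congr rfl
          intro k' _
          congr 1
          have h3 : (∀ a ∈ X, (k' * κ') a = (k * κ) a) ↔ (∀ a ∈ X.image κ, k' a = k a) := by
            constructor
            · intro h b hb
              obtain ⟨a, ha, rfl⟩ := Finset.mem_image.mp hb
              have := h a ha
              rw [Equiv.Perm.mul_apply, Equiv.Perm.mul_apply, hag a ha] at this
              exact this
            · intro h a ha
              rw [Equiv.Perm.mul_apply, Equiv.Perm.mul_apply, hag a ha]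
              exact h _ (Finset.mem_image_of_mem κ ha)
          simp only [h3]
        · -- the replicas disagree: probability zero
          push_neg at hag
          obtain ⟨a, haX, hane⟩ := hag
          have h0 : ∑ k, hlaw L k * ∑ k', hlaw L k'
              * (if ∀ a ∈ X, (k' * κ') a = (k * κ) a then (1 : ℝ) else 0) = 0 := by
            apply Finset.sum_eq_zero
            intro k _
            by_cases hk : hlaw L k = 0
            · rw [hk, zero_mul]
            rw [Finset.sum_eq_zero, mul_zero]
            intro k' _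
            by_cases hk' : hlaw L k' = 0
            · rw [hk', zero_mul]
            rw [if_neg, mul_zero]
            intro h
            have h1 := h a haX
            rw [Equiv.Perm.mul_apply, Equiv.Perm.mul_apply] at h1
            have r1 := hlaw_reach L k hk (κ a)
            have r2 := hlaw_reach L k' hk' (κ' a)
            rw [h1] at r2
            rcases mem_invSet.mp hκ a with e1 | e1 <;> rcases mem_invSet.mp hκ' a with e2 | e2
            · exact hane (e2.trans e1.symm)
            · rw [e1] at r1 r2
              rw [e2] at r2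
              have := hU1 a _ r1 r2
              exact hane (by rw [e2, e1, this])
            · rw [e1] at r1 r2
              rw [e2] at r2
              have := hU1 a _ r2 r1
              exact hane (by rw [e2, e1, this])
            · exact hane (e2.trans e1.symm)
          rw [h0]
          apply mul_nonneg
          · exact Finset.prod_nonneg (fun a _ => by split_ifs <;> norm_num)
          · exact Finset.prod_nonneg (fun a _ => F0_nonneg L _)
      calc ∑ κ, unif (invSet τ) κ * ∑ k, hlaw L k * ∑ κ', unif (invSet τ) κ' * ∑ k', hlaw L k'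
              * (if ∀ a ∈ X, (k' * κ') a = (k * κ) a then (1 : ℝ) else 0)
          = ∑ κ, unif (invSet τ) κ * ∑ κ', unif (invSet τ) κ' * ∑ k, hlaw L k * ∑ k', hlaw L k'
              * (if ∀ a ∈ X, (k' * κ') a = (k * κ) a then (1 : ℝ) else 0) := by
            apply Finset.sum_congr rfl
            intro κ _
            congr 1
            simp_rw [Finset.mul_sum]
            rw [Finset.sum_comm]
            apply Finset.sum_congr rfl
            intro κ' _
            apply Finset.sum_congr rfl
            intro k _
            apply Finset.sum_congr rfl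
            intro k' _
            ring
        _ ≤ ∑ κ, unif (invSet τ) κ * ∑ κ', unif (invSet τ) κ'
              * ((∏ a ∈ X, (if κ' a = κ a then (1 : ℝ) else 0)) * ∏ a ∈ X, F0 L (κ a)) := by
            apply Finset.sum_le_sum
            intro κ _
            by_cases hκ : κ ∈ invSet τ
            · apply mul_le_mul_of_nonneg_left _ (unif_nn _ _)
              apply Finset.sum_le_sum
              intro κ' _
              by_cases hκ' : κ' ∈ invSet τ
              · exact mul_le_mul_of_nonneg_left (hb κ κ' hκ hκ') (unif_nn _ _)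
              · have : unif (invSet τ) κ' = 0 := by unfold unif; rw [if_neg hκ']
                rw [this]; simp
            · have : unif (invSet τ) κ = 0 := by unfold unif; rw [if_neg hκ]
              rw [this]; simp
        _ ≤ ∑ κ, unif (invSet τ) κ * ((∏ a ∈ X, phi τ a) * ∏ a ∈ X, F0 L (κ a)) := by
            apply Finset.sum_le_sum
            intro κ _
            by_cases hκ : κ ∈ invSet τ
            · apply mul_le_mul_of_nonneg_left _ (unif_nn _ _)
              have h1 := agree_le τ hτ X κ hκ
              have h2 : 0 ≤ ∏ a ∈ X, F0 L (κ a) := Finset.prod_nonneg (fun a _ => F0_nonneg L _)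
              calc _ = (∑ κ', unif (invSet τ) κ' * ∏ a ∈ X, (if κ' a = κ a then (1 : ℝ) else 0))
                    * ∏ a ∈ X, F0 L (κ a) := by
                    rw [Finset.sum_mul]
                    apply Finset.sum_congr rfl
                    intro κ' _
                    ring
                _ ≤ _ := mul_le_mul_of_nonneg_right h1 h2
            · have : unif (invSet τ) κ = 0 := by unfold unif; rw [if_neg hκ]
              rw [this]; simp
        _ = (∏ a ∈ X, phi τ a) * ∑ κ, unif (invSet τ) κ * ∏ a ∈ X, F0 L (κ a) := by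
            rw [Finset.mul_sum]
            apply Finset.sum_congr rfl
            intro κ _
            ring
        _ ≤ (∏ a ∈ X, phi τ a) * ∏ a ∈ X, ((F0 L a + F0 L (τ a)) / 2) := by
            apply mul_le_mul_of_nonneg_left _ (Finset.prod_nonneg (fun a _ => phi_nonneg τ a))
            exact liggett_one τ hτ X (F0 L) (F0_nonneg L)
        _ = ∏ a ∈ X, F0 (τ :: L) a := by
            rw [← Finset.prod_mul_distrib]
            rfl


/-- generating function of the common values of two replicas -/
theorem genfun_hlaw (L : List (A → A)) (hinv : ∀ τ ∈ L, ∀ a, τ (τ a) = a) (hUP : UP L)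
    (x : ℝ) (hx : 0 ≤ x) :
    ∑ g, ∑ h, hlaw L h * hlaw L (h * g) * (1 + x) ^ (T22.nfix g)
      ≤ Real.exp (x * ∑ a, F0 L a) := by
  classical
  have h1 : ∀ g : Equiv.Perm A, (1 + x) ^ (T22.nfix g)
      = ∑ X : Finset A, x ^ X.card * (if ∀ a ∈ X, g a = a then (1 : ℝ) else 0) := by
    intro g
    have e1 : (1 + x) ^ (T22.nfix g) = ∏ a : A, (1 + (if g a = a then x else 0)) := by
      have : ∀ a : A, (1 + (if g a = a then x else 0)) = if g a = a then (1 + x) else 1 := by
        intro a; split_ifs <;> ring
      simp_rw [this]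
      rw [Finset.prod_ite, Finset.prod_const, Finset.prod_const_one, mul_one]
      congr 1
      unfold T22.nfix
      rw [Fintype.card_subtype]
    rw [e1, Finset.prod_one_add, Finset.powerset_univ]
    apply Finset.sum_congr rfl
    intro X _
    by_cases hX : ∀ a ∈ X, g a = a
    · rw [if_pos hX, mul_one, Finset.prod_congr rfl (g := fun _ => x)
        (fun a ha => by rw [if_pos (hX a ha)]), Finset.prod_const]
    · rw [if_neg hX, mul_zero]
      push_neg at hX
      obtain ⟨a, ha, hne⟩ := hX
      exact Finset.prod_eq_zero ha (by rw [if_neg hne])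
  calc ∑ g, ∑ h, hlaw L h * hlaw L (h * g) * (1 + x) ^ (T22.nfix g)
      = ∑ g, ∑ h, ∑ X : Finset A, x ^ X.card *
          (hlaw L h * (hlaw L (h * g) * (if ∀ a ∈ X, g a = a then (1 : ℝ) else 0))) := by
        apply Finset.sum_congr rfl
        intro g _
        apply Finset.sum_congr rfl
        intro h _
        rw [h1, Finset.mul_sum]
        apply Finset.sum_congr rfl
        intro X _
        ring
    _ = ∑ X : Finset A, x ^ X.card * ∑ h, hlaw L h * ∑ g', hlaw L g'
          * (if ∀ a ∈ X, g' a = h a then (1 : ℝ) else 0) := by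
        rw [Finset.sum_comm]
        have : ∀ h : Equiv.Perm A, ∑ g : Equiv.Perm A, ∑ X : Finset A, x ^ X.card *
            (hlaw L h * (hlaw L (h * g) * (if ∀ a ∈ X, g a = a then (1 : ℝ) else 0)))
            = ∑ X : Finset A, x ^ X.card * (hlaw L h * ∑ g', hlaw L g'
              * (if ∀ a ∈ X, g' a = h a then (1 : ℝ) else 0)) := by
          intro h
          rw [Finset.sum_comm]
          apply Finset.sum_congr rfl
          intro X _
          rw [← Finset.mul_sum, ← Finset.mul_sum]
          congr 2
          rw [← Equiv.sum_comp (Equiv.mulLeft h)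
            (fun g' => hlaw L g' * (if ∀ a ∈ X, g' a = h a then (1 : ℝ) else 0))]
          apply Finset.sum_congr rfl
          intro g _
          have e2 : (∀ a ∈ X, g a = a) ↔ (∀ a ∈ X, (Equiv.mulLeft h g) a = h a) := by
            constructor
            · intro hh a ha
              rw [Equiv.coe_mulLeft, Equiv.Perm.mul_apply, hh a ha]
            · intro hh a ha
              have := hh a ha
              rw [Equiv.coe_mulLeft, Equiv.Perm.mul_apply] at this
              exact h.injective this
          simp only [e2]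
          rfl
        simp_rw [this]
        rw [Finset.sum_comm]
        apply Finset.sum_congr rfl
        intro X _
        rw [Finset.mul_sum]
    _ ≤ ∑ X : Finset A, x ^ X.card * ∏ a ∈ X, F0 L a := by
        apply Finset.sum_le_sum
        intro X _
        exact mul_le_mul_of_nonneg_left (agree_hlaw L hinv hUP X) (pow_nonneg hx _)
    _ = ∏ a : A, (1 + x * F0 L a) := by
        rw [Finset.prod_one_add, Finset.powerset_univ]
        apply Finset.sum_congr rfl
        intro X _
        rw [Finset.prod_mul_distrib, Finset.prod_const]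
    _ ≤ Real.exp (∑ a, x * F0 L a) := by
        rw [Real.exp_sum]
        apply Finset.prod_le_prod
        · intro a _
          have := F0_nonneg L a
          positivity
        · intro a _
          have := Real.add_one_le_exp (x * F0 L a)
          linarith
    _ = Real.exp (x * ∑ a, F0 L a) := by rw [Finset.mul_sum]

end Crest.Agent.ThS
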