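import Mathlib
import Crest.Agent.ThHid
import Crest.Agent.ThQDef

/-! S0222, section 3: condition (F) for the quenched law of an active pass. -/

set_option autoImplicit false
set_option linter.unusedSectionVars false
set_option linter.unusedVariables false

namespace Crest.Agent.ThS

open Finset

/-! ### generalities on lists of involutions -/

section gen

variable {A : Type*} [Fintype A] [DecidableEq A]

theorem hlaw_snoc : ∀ (L : List (A → A)) (τ : A → A),
    hlaw (L ++ [τ]) = cv (unif (invSet τ)) (hlaw L)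
  | [], τ => by
      show cv (dlt 1) (unif (invSet τ)) = cv (unif (invSet τ)) (dlt 1)
      rw [dlt_one_cv, cv_dlt_one]
  | σ :: L, τ => by
      show cv (hlaw (L ++ [τ])) (unif (invSet σ)) = cv (unif (invSet τ)) (cv (hlaw L) (unif (invSet σ)))
      rw [hlaw_snoc L τ, cv_assoc]

theorem reach_snoc : ∀ (L : List (A → A)) (τ : A → A) (a b : A), (∀ c, τ (τ c) = c) →
    (reach (L ++ [τ]) a b ↔ ∃ c, reach L a c ∧ (b = c ∨ b = τ c))
  | [], τ, a, b, hτ => by
      show (a = b ∨ τ a = b) ↔ _
      constructor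
      · rintro (h | h)
        · exact ⟨a, rfl, Or.inl h.symm⟩
        · exact ⟨a, rfl, Or.inr h.symm⟩
      · rintro ⟨c, hc, h⟩
        have hc' : a = c := hc
        subst hc'
        rcases h with h | h
        · left; exact h.symm
        · right; exact h.symm
  | σ :: L, τ, a, b, hτ => by
      show (reach (L ++ [τ]) a b ∨ reach (L ++ [τ]) (σ a) b) ↔ _
      rw [reach_snoc L τ a b hτ, reach_snoc L τ (σ a) b hτ]
      constructor
      · rintro (⟨c, hc, h⟩ | ⟨c, hc, h⟩)
        · exact ⟨c, Or.inl hc, h⟩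
        · exact ⟨c, Or.inr hc, h⟩
      · rintro ⟨c, hc | hc, h⟩
        · left; exact ⟨c, hc, h⟩
        · right; exact ⟨c, hc, h⟩

theorem UP_of_decomp : ∀ (T : List (A → A)),
    (∀ T1 σ T2, T = T1 ++ σ :: T2 → ∀ a b, reach T2 a b → reach T2 (σ a) b → σ a = a) → UP T
  | [], _ => trivial
  | σ :: T, h => by
      refine ⟨fun a b => h [] σ T rfl a b, UP_of_decomp T ?_⟩
      intro T1 σ' T2 hT
      exact h (σ :: T1) σ' T2 (by rw [hT]; rfl)

end gen

variable {D : ℕ} {A : Type} [Fintype A] [DecidableEq A]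

/-- hidden partner wire (or the wire itself) -/
noncomputable def ptn (j : Fin D) (y : A ↪ (Fin D → Bool)) (a : A) : A := by
  classical
  exact if h : ∃ b, y b = flipc j (y a) then h.choose else a

theorem ptn_of {j : Fin D} {y : A ↪ (Fin D → Bool)} {a b : A} (h : y b = flipc j (y a)) :
    ptn j y a = b := by
  classical
  have hex : ∃ b, y b = flipc j (y a) := ⟨b, h⟩
  unfold ptn
  rw [dif_pos hex]
  exact y.injective (hex.choose_spec.trans h.symm)

theorem ptn_not {j : Fin D} {y : A ↪ (Fin D → Bool)} {a : A} (h : ∀ b, y b ≠ flipc j (y a)) :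
    ptn j y a = a := by
  classical
  have hex : ¬ ∃ b, y b = flipc j (y a) := fun ⟨b, hb⟩ => h b hb
  unfold ptn
  rw [dif_neg hex]

theorem ptn_cases (j : Fin D) (y : A ↪ (Fin D → Bool)) (a : A) :
    y (ptn j y a) = flipc j (y a) ∨ (ptn j y a = a ∧ ∀ b, y b ≠ flipc j (y a)) := by
  by_cases h : ∃ b, y b = flipc j (y a)
  · obtain ⟨b, hb⟩ := h
    left; rw [ptn_of hb, hb]
  · right
    have h' : ∀ b, y b ≠ flipc j (y a) := fun b hb => h ⟨b, hb⟩
    exact ⟨ptn_not h', h'⟩

theorem ptn_ptn (j : Fin D) (y : A ↪ (Fin D → Bool)) (a : A) : ptn j y (ptn j y a) = a := by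
  rcases ptn_cases j y a with h | ⟨h, _⟩
  · apply ptn_of
    rw [h, flipc_flipc]
  · rw [h, h]

theorem flipc_ne_self (j : Fin D) (x : Fin D → Bool) : flipc j x ≠ x := by
  intro h
  have := congrFun h j
  rw [flipc_self] at this
  simp at this

theorem hidSet_eq (j : Fin D) (y : A ↪ (Fin D → Bool)) : hidSet j y = invSet (ptn j y) := by
  ext κ
  unfold hidSet invSet
  rw [Finset.mem_filter, Finset.mem_filter]
  simp only [Finset.mem_univ, true_and]
  constructor
  · intro h a
    rcases h a with h1 | h1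
    · left; exact y.injective h1
    · right; exact (ptn_of h1).symm
  · intro h a
    rcases h a with h1 | h1
    · left; rw [h1]
    · rcases ptn_cases j y a with h2 | ⟨h2, _⟩
      · right; rw [h1, h2]
      · left; rw [h1, h2]

/-- partner maps of the rounds in time order -/
noncomputable def tauL : (L : List (Fin D)) → EnvT D L → (A ↪ (Fin D → Bool)) → List (A → A)
  | [], _, _ => []
  | j :: L, e, y => tauL L e.2 y ++ [ptn j (posL L e.2 y)]

theorem tauL_inv : ∀ (L : List (Fin D)) (e : EnvT D L) (y : A ↪ (Fin D → Bool)),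
    ∀ τ ∈ tauL L e y, ∀ a, τ (τ a) = a
  | [], _, _, τ, h => by simp [tauL] at h
  | j :: L, e, y, τ, h => by
      unfold tauL at h
      rw [List.mem_append, List.mem_singleton] at h
      rcases h with h | h
      · exact tauL_inv L e.2 y τ h
      · rw [h]; exact ptn_ptn j _

theorem nuL_eq : ∀ (L : List (Fin D)) (e : EnvT D L) (y : A ↪ (Fin D → Bool)),
    nuL L e y = hlaw (tauL L e y)
  | [], _, _ => rfl
  | j :: L, e, y => by
      show cv (unif (hidSet j (posL L e.2 y))) (nuL L e.2 y) = hlaw (tauL L e.2 y ++ [_])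
      rw [hlaw_snoc, nuL_eq L e.2 y, hidSet_eq]

theorem dir_flip {j : Fin D} {h : Equiv.Perm (Fin D → Bool)} (hh : h ∈ dirSet D j)
    (x : Fin D → Bool) (i : Fin D) (hi : i ≠ j) : h x i = x i := by
  rcases mem_dirSet.mp hh x with h1 | h1
  · rw [h1]
  · rw [h1, flipc_ne _ _ hi]

theorem dir_sep {j : Fin D} {h : Equiv.Perm (Fin D → Bool)} (hh : h ∈ dirSet D j)
    (x : Fin D → Bool) : h x j ≠ h (flipc j x) j := by
  intro heq
  have hne : h x ≠ h (flipc j x) := fun h1 => flipc_ne_self j x (h.injective h1).symm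
  apply hne
  funext i
  by_cases hi : i = j
  · rw [hi]; exact heq
  · rw [dir_flip hh _ i hi, dir_flip hh _ i hi, flipc_ne _ _ hi]

/-- separation of paths -/
theorem sepQ : ∀ (L : List (Fin D)), L.Nodup → ∀ (e : EnvT D L) (y : A ↪ (Fin D → Bool))
    (T1 : List (A → A)) (σ : A → A) (T2 : List (A → A)), tauL L e y = T1 ++ σ :: T2 →
    ∃ i ∈ L, ∀ a c c', σ a ≠ a → reach T2 a c → reach T2 (σ a) c' →
      posL L e y c i ≠ posL L e y c' i
  | [], _, _, _, T1, σ, T2, h => by
      simp [tauL] at h
  | j :: L, hnd, e, y, T1, σ, T2, h => by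
      have hnd' := List.nodup_cons.mp hnd
      have hpos : posL (j :: L) e y = act e.1.1 (posL L e.2 y) := rfl
      have htau : tauL (j :: L) e y = tauL L e.2 y ++ [ptn j (posL L e.2 y)] := rfl
      rw [htau] at h
      rcases List.eq_nil_or_concat T2 with hT2 | ⟨T2', τ', hT2⟩
      · subst hT2
        have h1 : tauL L e.2 y ++ [ptn j (posL L e.2 y)] = T1 ++ [σ] := h
        have h2 := List.append_inj_right' h1 (by simp)
        have hσ : σ = ptn j (posL L e.2 y) := by
          have := List.cons.inj h2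
          exact this.1.symm
        refine ⟨j, by simp, ?_⟩
        intro a c c' hne hc hc'
        have hc1 : a = c := hc
        have hc2 : σ a = c' := hc'
        subst hc1; subst hc2
        rw [hpos, act_apply, act_apply, hσ]
        rcases ptn_cases j (posL L e.2 y) a with h3 | ⟨h3, _⟩
        · rw [h3]; exact dir_sep e.1.2 _
        · exact absurd (by rw [hσ, h3]) hne
      · rw [List.concat_eq_append] at hT2
        subst hT2
        have h1 : tauL L e.2 y ++ [ptn j (posL L e.2 y)] = (T1 ++ σ :: T2') ++ [τ'] := by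
          rw [h]; simp
        have h2 := List.append_inj' h1 (by simp)
        have hτ' : τ' = ptn j (posL L e.2 y) := (List.cons.inj h2.2).1.symm
        obtain ⟨i, hiL, hi⟩ := sepQ L hnd'.2 e.2 y T1 σ T2' h2.1
        refine ⟨i, by simp [hiL], ?_⟩
        intro a c c' hne hc hc'
        have hinv : ∀ b, τ' (τ' b) = b := by rw [hτ']; exact ptn_ptn j _
        rw [reach_snoc _ _ _ _ hinv] at hc hc'
        obtain ⟨c0, hc0, hcc⟩ := hc
        obtain ⟨c0', hc0', hcc'⟩ := hc'
        have hij : i ≠ j := fun h' => hnd'.1 (h' ▸ hiL)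
        have key : ∀ c0 c, (c = c0 ∨ c = τ' c0) → posL (j :: L) e y c i = posL L e.2 y c0 i := by
          intro c0 c hcc
          rw [hpos, act_apply, dir_flip e.1.2 _ i hij]
          rcases hcc with h3 | h3
          · rw [h3]
          · rw [h3, hτ']
            rcases ptn_cases j (posL L e.2 y) c0 with h4 | ⟨h4, _⟩
            · rw [h4, flipc_ne _ _ hij]
            · rw [h4]
        rw [key c0 c hcc, key c0' c' hcc']
        exact hi a c0 c0' hne hc0 hc0'

theorem tauL_UP (L : List (Fin D)) (hnd : L.Nodup) (e : EnvT D L) (y : A ↪ (Fin D → Bool)) :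
    UP (tauL L e y) := by
  apply UP_of_decomp
  intro T1 σ T2 hT a b h1 h2
  by_contra hne
  obtain ⟨i, _, hi⟩ := sepQ L hnd e y T1 σ T2 hT
  exact hi a b b hne h1 h2 rfl

/-- (F) for the truncated class function -/
theorem zetaG_F (Good : (A ↪ (Fin D → Bool)) → PEnv D → Prop) (B : ℝ)
    (hB : ∀ y e, Good y e → ∑ a, F0 (tauL (List.finRange D) e y) a ≤ B) (x : ℝ) (hx : 0 ≤ x) :
    ∑ g, zetaG Good g * (1 + x) ^ (T22.nfix g) ≤ Real.exp (x * B) := by
  classical
  set Ny : ℝ := (Fintype.card (A ↪ (Fin D → Bool)) : ℝ) with hNy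
  set Ne : ℝ := (Fintype.card (PEnv D) : ℝ) with hNe
  have hne : 0 < Ne := by rw [hNe]; exact_mod_cast Fintype.card_pos
  have h1 : ∑ g, zetaG Good g * (1 + x) ^ (T22.nfix g)
      = (∑ y : A ↪ (Fin D → Bool), ∑ e : PEnv D,
      if Good y e then ∑ g, ∑ h, nuL _ e y h * nuL _ e y (h * g) * (1 + x) ^ (T22.nfix g) else 0)
      / (Ny * Ne) := by
    unfold zetaG
    simp_rw [div_mul_eq_mul_div]
    rw [← Finset.sum_div]
    congr 1
    simp_rw [Finset.sum_mul]
    rw [Finset.sum_comm]
    apply Finset.sum_congr rfl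
    intro y _
    rw [Finset.sum_comm]
    apply Finset.sum_congr rfl
    intro e _
    by_cases hg : Good y e
    · simp only [if_pos hg]
      simp_rw [Finset.sum_mul]
    · simp only [if_neg hg]
      simp
  rw [h1]
  by_cases hNy0 : Ny = 0
  · rw [hNy0, zero_mul, div_zero]
    exact (Real.exp_pos _).le
  have hNypos : 0 < Ny := lt_of_le_of_ne (by rw [hNy]; positivity) (fun h => hNy0 h.symm)
  rw [div_le_iff₀ (by positivity)]
  calc _ ≤ ∑ y : A ↪ (Fin D → Bool), ∑ e : PEnv D, Real.exp (x * B) := by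
        apply Finset.sum_le_sum
        intro y _
        apply Finset.sum_le_sum
        intro e _
        by_cases hg : Good y e
        · rw [if_pos hg]
          have h2 := genfun_hlaw (tauL (List.finRange D) e y) (tauL_inv _ e y)
            (tauL_UP _ (List.nodup_finRange D) e y) x hx
          rw [← nuL_eq] at h2
          refine le_trans h2 (Real.exp_le_exp.mpr ?_)
          exact mul_le_mul_of_nonneg_left (hB y e hg) hx
        · rw [if_neg hg]; exact (Real.exp_pos _).le
    _ = Real.exp (x * B) * (Ny * Ne) := by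
        rw [Finset.sum_const, Finset.sum_const, Finset.card_univ, Finset.card_univ,
          nsmul_eq_mul, nsmul_eq_mul, hNy, hNe]
        ring

end Crest.Agent.ThS
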