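import Mathlib
import Crest.Agent.ThQuench
import Crest.Agent.T22HDef

/-! S0222, (K): first-round domination of the quenched class function. -/

set_option autoImplicit false
set_option linter.unusedSectionVars false

namespace Crest.Agent.ThS

open Finset Crest.Agent.T22

section general

variable {G : Type*} [Group G] [Fintype G] [DecidableEq G]

/-- squared L2 norm -/
noncomputable def nsq (f : G → ℝ) : ℝ := ∑ g, f g ^ 2

theorem nsq_nonneg (f : G → ℝ) : 0 ≤ nsq f := Finset.sum_nonneg fun _ _ => sq_nonneg _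

theorem nsq_cv_le (p f : G → ℝ) (hp : ∀ g, 0 ≤ p g) (hp1 : ∑ g, p g ≤ 1) :
    nsq (cv p f) ≤ nsq f := by
  unfold nsq cv
  have h1 : ∀ g, (∑ h, p h * f (h⁻¹ * g)) ^ 2 ≤ ∑ h, p h * f (h⁻¹ * g) ^ 2 := by
    intro g
    have h2 := Finset.sum_mul_sq_le_sq_mul_sq (Finset.univ : Finset G)
      (fun h => Real.sqrt (p h)) (fun h => Real.sqrt (p h) * f (h⁻¹ * g))
    have e1 : ∀ h, Real.sqrt (p h) * (Real.sqrt (p h) * f (h⁻¹ * g)) = p h * f (h⁻¹ * g) := by
      intro h; rw [← mul_assoc, Real.mul_self_sqrt (hp h)]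
    have e2 : ∀ h, Real.sqrt (p h) ^ 2 = p h := fun h => Real.sq_sqrt (hp h)
    have e3 : ∀ h, (Real.sqrt (p h) * f (h⁻¹ * g)) ^ 2 = p h * f (h⁻¹ * g) ^ 2 := by
      intro h; rw [mul_pow, e2]
    simp only [e1, e2, e3] at h2
    refine h2.trans ?_
    have h3 : 0 ≤ ∑ h, p h * f (h⁻¹ * g) ^ 2 :=
      Finset.sum_nonneg fun h _ => mul_nonneg (hp h) (sq_nonneg _)
    nlinarith
  calc ∑ g, (∑ h, p h * f (h⁻¹ * g)) ^ 2 ≤ ∑ g, ∑ h, p h * f (h⁻¹ * g) ^ 2 :=
        Finset.sum_le_sum fun g _ => h1 g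
    _ = ∑ h, p h * ∑ g, f (h⁻¹ * g) ^ 2 := by
        rw [Finset.sum_comm]
        simp_rw [Finset.mul_sum]
    _ = ∑ h, p h * ∑ g, f g ^ 2 := by
        apply Finset.sum_congr rfl
        intro h _
        congr 1
        exact Equiv.sum_comp (Equiv.mulLeft h⁻¹) (fun g => f g ^ 2)
    _ = (∑ h, p h) * ∑ g, f g ^ 2 := by rw [Finset.sum_mul]
    _ ≤ 1 * ∑ g, f g ^ 2 :=
        mul_le_mul_of_nonneg_right hp1 (Finset.sum_nonneg fun _ _ => sq_nonneg _)
    _ = _ := one_mul _

/-- `<f, (ν^v * ν) * f> = ‖ν * f‖²` -/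
theorem quad_eq (ν f : G → ℝ) :
    ∑ g, f g * cv (fun x => ∑ h, ν h * ν (h * x)) f g = nsq (cv ν f) := by
  unfold nsq cv
  have h1 : ∀ g, (∑ h, ν h * f (h⁻¹ * g)) ^ 2
      = ∑ h, ∑ h', ν h * ν h' * (f (h⁻¹ * g) * f (h'⁻¹ * g)) := by
    intro g
    rw [sq, Finset.sum_mul_sum]
    apply Finset.sum_congr rfl
    intro h _
    apply Finset.sum_congr rfl
    intro h' _
    ring
  simp_rw [h1]
  calc ∑ g, f g * ∑ x, (∑ h, ν h * ν (h * x)) * f (x⁻¹ * g)
      = ∑ h, ∑ x, ∑ g, ν h * ν (h * x) * (f g * f (x⁻¹ * g)) := by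
        have e1 : ∀ g, f g * ∑ x, (∑ h, ν h * ν (h * x)) * f (x⁻¹ * g)
            = ∑ h, ∑ x, ν h * ν (h * x) * (f g * f (x⁻¹ * g)) := by
          intro g
          rw [Finset.mul_sum, Finset.sum_comm]
          apply Finset.sum_congr rfl
          intro x _
          rw [Finset.sum_mul, Finset.mul_sum]
          apply Finset.sum_congr rfl
          intro h _
          ring
        simp_rw [e1]
        rw [Finset.sum_comm]
        apply Finset.sum_congr rfl
        intro h _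
        exact Finset.sum_comm
    _ = ∑ h, ∑ h', ∑ g, ν h * ν h' * (f (h⁻¹ * g) * f (h'⁻¹ * g)) := by
        apply Finset.sum_congr rfl
        intro h _
        rw [← Equiv.sum_comp (Equiv.mulLeft h⁻¹)]
        apply Finset.sum_congr rfl
        intro h' _
        rw [← Equiv.sum_comp (Equiv.mulLeft h⁻¹)]
        apply Finset.sum_congr rfl
        intro g _
        simp
    _ = ∑ g, ∑ h, ∑ h', ν h * ν h' * (f (h⁻¹ * g) * f (h'⁻¹ * g)) := by
        have : ∀ h : G, ∑ h', ∑ g, ν h * ν h' * (f (h⁻¹ * g) * f (h'⁻¹ * g))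
            = ∑ g, ∑ h', ν h * ν h' * (f (h⁻¹ * g) * f (h'⁻¹ * g)) := fun h => Finset.sum_comm
        simp_rw [this]
        exact Finset.sum_comm

end general

section

variable {D : ℕ} {A : Type} [Fintype A] [DecidableEq A]

theorem hidSet_mul_mem {j : Fin D} {y : A ↪ (Fin D → Bool)} {κ κ' : Equiv.Perm A}
    (h : κ ∈ hidSet j y) (h' : κ' ∈ hidSet j y) : κ * κ' ∈ hidSet j y := by
  rw [mem_hidSet] at *
  intro a
  rcases h' a with h1 | h1
  · have h2 : κ' a = a := y.injective h1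
    simpa [h2] using h a
  · rcases h (κ' a) with h2 | h2
    · right; simp only [Equiv.Perm.coe_mul, Function.comp_apply]; rw [h2, h1]
    · left; simp only [Equiv.Perm.coe_mul, Function.comp_apply]; rw [h2, h1, flipc_flipc]

theorem hidSet_inv_mem {j : Fin D} {y : A ↪ (Fin D → Bool)} {κ : Equiv.Perm A}
    (h : κ ∈ hidSet j y) : κ⁻¹ ∈ hidSet j y := by
  rw [mem_hidSet] at *
  intro a
  rcases h (κ⁻¹ a) with h1 | h1
  · left
    have h2 : κ (κ⁻¹ a) = a := by simp
    rw [h2] at h1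
    exact h1.symm
  · right
    have h2 : κ (κ⁻¹ a) = a := by simp
    rw [h2] at h1
    rw [h1, flipc_flipc]

theorem swap_mem_hidSet {j : Fin D} {y : A ↪ (Fin D → Bool)} {a b : A}
    (h : y b = flipc j (y a)) : Equiv.swap a b ∈ hidSet j y := by
  rw [mem_hidSet]
  intro c
  by_cases hca : c = a
  · subst hca; right; rw [Equiv.swap_apply_left, h]
  · by_cases hcb : c = b
    · subst hcb; right; rw [Equiv.swap_apply_right, h, flipc_flipc]
    · left; rw [Equiv.swap_apply_of_ne_of_ne hca hcb]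

theorem cv_unif_apply (S : Finset (Equiv.Perm A)) (f : Equiv.Perm A → ℝ) (g : Equiv.Perm A) :
    cv (unif S) f g = (∑ κ ∈ S, f (κ⁻¹ * g)) / (S.card : ℝ) := by
  unfold cv unif
  simp_rw [ite_mul, zero_mul]
  rw [Finset.sum_ite_mem, Finset.univ_inter, ← Finset.mul_sum]
  ring

theorem cv_unif_shift {j : Fin D} {y : A ↪ (Fin D → Bool)} {s : Equiv.Perm A}
    (hs : s ∈ hidSet j y) (f : Equiv.Perm A → ℝ) :
    cv (unif (hidSet j y)) (fun g => f (s * g)) = cv (unif (hidSet j y)) f := by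
  funext g
  rw [cv_unif_apply, cv_unif_apply]
  congr 1
  apply Finset.sum_bij' (fun κ _ => κ * s⁻¹) (fun κ _ => κ * s)
  · intro κ hκ; exact hidSet_mul_mem hκ (hidSet_inv_mem hs)
  · intro κ hκ; exact hidSet_mul_mem hκ hs
  · intro κ _; group
  · intro κ _; group
  · intro κ _
    show f (s * (κ⁻¹ * g)) = f ((κ * s⁻¹)⁻¹ * g)
    have : s * (κ⁻¹ * g) = (κ * s⁻¹)⁻¹ * g := by group
    rw [this]

theorem cv_unif_EKf {j : Fin D} {y : A ↪ (Fin D → Bool)} (f : Equiv.Perm A → ℝ) :
    ∀ (p : ℕ) (k : Fin p → A × A), (∀ i, y (k i).2 = flipc j (y (k i).1)) →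
      cv (unif (hidSet j y)) (EKf p k f) = cv (unif (hidSet j y)) f := by
  intro p
  induction p with
  | zero => intro k _; rfl
  | succ p ih =>
    intro k hk
    have h1 := ih (Fin.init k) (fun i => hk i.castSucc)
    have hs := swap_mem_hidSet (hk (Fin.last p))
    have h2 := cv_unif_shift hs (EKf p (Fin.init k) f)
    funext g
    have h3 := congrFun h1 g
    have h4 := congrFun h2 g
    rw [cv_unif_apply] at h3 h4 ⊢
    rw [cv_unif_apply] at h3 h4 ⊢
    simp only [EKf]
    rw [← Finset.sum_div, Finset.sum_add_distrib]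
    have : ∀ a b c : ℝ, (a + b) / 2 / c = (a / c + b / c) / 2 := by intro a b c; ring
    rw [this, h4, h3]
    ring

theorem nsq_unif_le_EKf {j : Fin D} {y : A ↪ (Fin D → Bool)} (f : Equiv.Perm A → ℝ)
    (p : ℕ) (k : Fin p → A × A) (hk : ∀ i, y (k i).2 = flipc j (y (k i).1)) :
    nsq (cv (unif (hidSet j y)) f) ≤ nsq (EKf p k f) := by
  rw [← cv_unif_EKf f p k hk]
  exact nsq_cv_le _ _ (unif_nonneg _) (le_of_eq (sum_unif _ ⟨1, one_mem_hidSet _ _⟩))

/-- only the first applied round (last element of the list) is kept -/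
theorem nsq_nuL_le (y : A ↪ (Fin D → Bool)) (f : Equiv.Perm A → ℝ) (j : Fin D) :
    ∀ (L : List (Fin D)) (hL : L ≠ []) (e : EnvT D L), L.getLast hL = j →
      nsq (cv (nuL L e y) f) ≤ nsq (cv (unif (hidSet j y)) f) := by
  intro L
  induction L with
  | nil => intro h; exact absurd rfl h
  | cons i L ih =>
    intro hL e hj
    by_cases hL' : L = []
    · subst hL'
      have : i = j := by simpa using hj
      subst this
      have h1 : nuL [i] e y = unif (hidSet i y) := by
        show cv (unif (hidSet i (posL [] e.2 y))) (nuL [] e.2 y) = _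
        show cv (unif (hidSet i y)) (dlt 1) = _
        rw [cv_dlt_one]
      rw [h1]
    · have h1 : nuL (i :: L) e y = cv (unif (hidSet i (posL L e.2 y))) (nuL L e.2 y) := rfl
      rw [h1, cv_assoc]
      refine (nsq_cv_le _ _ (unif_nonneg _) (le_of_eq (sum_unif _ ⟨1, one_mem_hidSet _ _⟩))).trans ?_
      exact ih hL' e.2 (by rw [List.getLast_cons hL'] at hj; exact hj)

theorem DjK_comp {p : ℕ} (σ : Equiv.Perm A) (k : Fin p → A × A) :
    DjK (fun i => (σ (k i).1, σ (k i).2)) ↔ DjK k := by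
  unfold DjK
  have : (Sum.elim (fun i => σ (k i).1) (fun i => σ (k i).2) : Fin p ⊕ Fin p → A)
      = σ ∘ (Sum.elim (fun i => (k i).1) (fun i => (k i).2)) := by
    funext x; cases x <;> rfl
  show Function.Injective (Sum.elim (fun i => σ (k i).1) (fun i => σ (k i).2)) ↔ _
  rw [this]
  exact σ.injective.of_comp_iff _

/-- the action on tuples of pairs -/
def mvK {p : ℕ} (σ : Equiv.Perm A) (k : Fin p → A × A) : Fin p → A × A :=
  fun i => (σ (k i).1, σ (k i).2)

theorem mvK_mul {p : ℕ} (σ τ : Equiv.Perm A) (k : Fin p → A × A) :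
    mvK (σ * τ) k = mvK σ (mvK τ k) := rfl

theorem exists_mvK {p : ℕ} (k k' : Fin p → A × A) (hk : DjK k) (hk' : DjK k') :
    ∃ τ : Equiv.Perm A, mvK τ k = k' := by
  classical
  set u : Fin p ⊕ Fin p → A := Sum.elim (fun i => (k i).1) (fun i => (k i).2) with hu
  set u' : Fin p ⊕ Fin p → A := Sum.elim (fun i => (k' i).1) (fun i => (k' i).2) with hu'
  let e : {x // x ∈ Set.range u} ≃ {x // x ∈ Set.range u'} :=
    (Equiv.ofInjective u hk).symm.trans (Equiv.ofInjective u' hk')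
  have he : ∀ s, (e ⟨u s, ⟨s, rfl⟩⟩ : A) = u' s := by
    intro s
    show ((Equiv.ofInjective u' hk') ((Equiv.ofInjective u hk).symm ⟨u s, ⟨s, rfl⟩⟩) : A) = u' s
    have : (Equiv.ofInjective u hk).symm ⟨u s, ⟨s, rfl⟩⟩ = s := by
      rw [Equiv.symm_apply_eq]; rfl
    rw [this]; rfl
  have hτ : ∀ s, (Equiv.extendSubtype e) (u s) = u' s := by
    intro s
    rw [Equiv.extendSubtype_apply_of_mem e (u s) ⟨s, rfl⟩]
    exact he s
  refine ⟨Equiv.extendSubtype e, ?_⟩
  funext i
  apply Prod.ext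
  · exact hτ (Sum.inl i)
  · exact hτ (Sum.inr i)

theorem sum_mvK {p : ℕ} (F : (Fin p → A × A) → ℝ) (k0 : Fin p → A × A) (hk0 : DjK k0) :
    ((djSet A p).card : ℝ) * ∑ σ : Equiv.Perm A, F (mvK σ k0)
      = (Fintype.card (Equiv.Perm A) : ℝ) * ∑ k ∈ djSet A p, F k := by
  have h1 : ∀ k ∈ djSet A p, ∑ σ : Equiv.Perm A, F (mvK σ k) = ∑ σ : Equiv.Perm A, F (mvK σ k0) := by
    intro k hk
    obtain ⟨τ, hτ⟩ := exists_mvK k0 k hk0 ((mem_djSet k).mp hk)
    rw [← hτ]
    simp_rw [← mvK_mul]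
    exact Equiv.sum_comp (Equiv.mulRight τ) (fun σ => F (mvK σ k0))
  have h2 : ∀ σ : Equiv.Perm A, ∑ k ∈ djSet A p, F (mvK σ k) = ∑ k ∈ djSet A p, F k := by
    intro σ
    apply Finset.sum_bij' (fun k _ => mvK σ k) (fun k _ => mvK σ⁻¹ k)
    · intro k hk
      rw [mem_djSet] at *
      exact (DjK_comp σ k).mpr hk
    · intro k hk
      rw [mem_djSet] at *
      exact (DjK_comp σ⁻¹ k).mpr hk
    · intro k _
      rw [← mvK_mul, inv_mul_cancel]; rfl
    · intro k _
      rw [← mvK_mul, mul_inv_cancel]; rfl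
    · intro k _; rfl
  calc ((djSet A p).card : ℝ) * ∑ σ : Equiv.Perm A, F (mvK σ k0)
      = ∑ k ∈ djSet A p, ∑ σ : Equiv.Perm A, F (mvK σ k) := by
        rw [Finset.sum_congr rfl h1, Finset.sum_const, nsmul_eq_mul]
    _ = ∑ σ : Equiv.Perm A, ∑ k ∈ djSet A p, F (mvK σ k) := Finset.sum_comm
    _ = _ := by
        rw [Finset.sum_congr rfl (fun σ _ => h2 σ), Finset.sum_const, nsmul_eq_mul, Finset.card_univ]

/-- relabelling as a bijection of the positions -/
def relEquiv (σ : Equiv.Perm A) : (A ↪ (Fin D → Bool)) ≃ (A ↪ (Fin D → Bool)) where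
  toFun := fun y => rel y σ
  invFun := fun y => rel y σ⁻¹
  left_inv := by intro y; ext a; simp
  right_inv := by intro y; ext a; simp

theorem zeta_quad (Good : (A ↪ (Fin D → Bool)) → PEnv D → Prop) [∀ y e, Decidable (Good y e)]
    (f : Equiv.Perm A → ℝ) :
    ∑ g, f g * cv (zetaG Good) f g
      = (∑ y : A ↪ (Fin D → Bool), ∑ e : PEnv D,
          if Good y e then nsq (cv (nuL _ e y) f) else 0)
        / ((Fintype.card (A ↪ (Fin D → Bool)) : ℝ) * (Fintype.card (PEnv D) : ℝ)) := by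
  set c : ℝ := (Fintype.card (A ↪ (Fin D → Bool)) : ℝ) * (Fintype.card (PEnv D) : ℝ) with hc
  have h1 : ∀ g, zetaG Good g = (∑ y : A ↪ (Fin D → Bool), ∑ e : PEnv D,
      if Good y e then ∑ h, nuL _ e y h * nuL _ e y (h * g) else 0) / c := by
    intro g
    unfold zetaG
    congr 1
    apply Finset.sum_congr rfl
    intro y _
    apply Finset.sum_congr rfl
    intro e _
    by_cases h : Good y e <;> simp [h]
  have h2 : ∀ g, cv (zetaG Good) f g = (∑ y : A ↪ (Fin D → Bool), ∑ e : PEnv D,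
      if Good y e then cv (fun x => ∑ h, nuL _ e y h * nuL _ e y (h * x)) f g else 0) / c := by
    intro g
    have : cv (zetaG Good) f g = ∑ x, zetaG Good x * f (x⁻¹ * g) := rfl
    rw [this]
    simp_rw [h1, div_mul_eq_mul_div]
    rw [← Finset.sum_div]
    congr 1
    simp_rw [Finset.sum_mul]
    rw [Finset.sum_comm]
    apply Finset.sum_congr rfl
    intro y _
    rw [Finset.sum_comm]
    apply Finset.sum_congr rfl
    intro e _
    by_cases h : Good y e
    · simp only [h, if_true]; rfl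
    · simp [h]
  simp_rw [h2, mul_div_assoc']
  rw [← Finset.sum_div]
  congr 1
  simp_rw [Finset.mul_sum]
  rw [Finset.sum_comm]
  apply Finset.sum_congr rfl
  intro y _
  rw [Finset.sum_comm]
  apply Finset.sum_congr rfl
  intro e _
  by_cases h : Good y e
  · simp only [h, if_true]
    exact quad_eq (nuL _ e y) f
  · simp [h]

/-- (K) -/
theorem zeta_K (Good : (A ↪ (Fin D → Bool)) → PEnv D → Prop)
    (hrel : ∀ y e (σ : Equiv.Perm A), Good (rel y σ) e ↔ Good y e)
    (j : Fin D) (hL : List.finRange D ≠ []) (hj : (List.finRange D).getLast hL = j) (p : ℕ)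
    (hGood : ∀ y e, Good y e → ∃ k : Fin p → A × A, DjK k ∧ ∀ i, y (k i).2 = flipc j (y (k i).1))
    (f : Equiv.Perm A → ℝ) :
    ((djSet A p).card : ℝ) * ∑ g, f g * cv (zetaG Good) f g
      ≤ ∑ k ∈ djSet A p, ∑ g, (EKf p k f g) ^ 2 := by
  classical
  set Sg : ℝ := ∑ k ∈ djSet A p, nsq (EKf p k f) with hSg
  show _ ≤ Sg
  have hSg0 : 0 ≤ Sg := Finset.sum_nonneg fun _ _ => nsq_nonneg _
  set dj : ℝ := ((djSet A p).card : ℝ) with hdj
  have hdj0 : 0 ≤ dj := Nat.cast_nonneg _
  rw [zeta_quad]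
  set Y : ℝ := (Fintype.card (A ↪ (Fin D → Bool)) : ℝ) with hY
  set E : ℝ := (Fintype.card (PEnv D) : ℝ) with hE
  have hY0 : 0 ≤ Y := Nat.cast_nonneg _
  have hE0 : 0 < E := card_EnvT_pos _
  set Φ : (A ↪ (Fin D → Bool)) → ℝ := fun y => nsq (cv (unif (hidSet j y)) f) with hΦ
  have hΦ0 : ∀ y, 0 ≤ Φ y := fun y => nsq_nonneg _
  have hP : (0 : ℝ) < (Fintype.card (Equiv.Perm A) : ℝ) := by
    exact_mod_cast Fintype.card_pos
  have key : ∀ e : PEnv D, dj * ∑ y : A ↪ (Fin D → Bool), (if Good y e then Φ y else 0) ≤ Y * Sg := by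
    intro e
    have h1 : ∀ σ : Equiv.Perm A, ∑ y : A ↪ (Fin D → Bool), (if Good y e then Φ y else 0)
        = ∑ y : A ↪ (Fin D → Bool), (if Good y e then Φ (rel y σ) else 0) := by
      intro σ
      rw [← Equiv.sum_comp (relEquiv σ)]
      apply Finset.sum_congr rfl
      intro y _
      show (if Good (rel y σ) e then Φ (rel y σ) else 0) = _
      simp only [hrel]
    have h2 : (Fintype.card (Equiv.Perm A) : ℝ) * ∑ y : A ↪ (Fin D → Bool), (if Good y e then Φ y else 0)
        = ∑ y : A ↪ (Fin D → Bool), (if Good y e then ∑ σ : Equiv.Perm A, Φ (rel y σ) else 0) := by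
      have h3 : ∑ _σ : Equiv.Perm A, ∑ y : A ↪ (Fin D → Bool), (if Good y e then Φ y else 0)
          = (Fintype.card (Equiv.Perm A) : ℝ) * ∑ y : A ↪ (Fin D → Bool), (if Good y e then Φ y else 0) := by
        rw [Finset.sum_const, nsmul_eq_mul, Finset.card_univ]
      rw [← h3, Finset.sum_congr rfl (fun σ _ => h1 σ), Finset.sum_comm]
      apply Finset.sum_congr rfl
      intro y _
      by_cases h : Good y e <;> simp [h]
    have h4 : ∀ y : A ↪ (Fin D → Bool), dj * (if Good y e then ∑ σ : Equiv.Perm A, Φ (rel y σ) else 0)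
        ≤ (Fintype.card (Equiv.Perm A) : ℝ) * Sg := by
      intro y
      by_cases h : Good y e
      · rw [if_pos h]
        obtain ⟨k0, hk0, hk⟩ := hGood y e h
        have h5 : ∀ σ : Equiv.Perm A, Φ (rel y σ) ≤ nsq (EKf p (mvK σ⁻¹ k0) f) := by
          intro σ
          apply nsq_unif_le_EKf
          intro i
          have := hk i
          simpa [mvK] using this
        have h6 : ∑ σ : Equiv.Perm A, nsq (EKf p (mvK σ⁻¹ k0) f)
            = ∑ σ : Equiv.Perm A, nsq (EKf p (mvK σ k0) f) :=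
          Equiv.sum_comp (Equiv.inv (Equiv.Perm A)) (fun σ => nsq (EKf p (mvK σ k0) f))
        have h7 := sum_mvK (fun k => nsq (EKf p k f)) k0 hk0
        calc dj * ∑ σ : Equiv.Perm A, Φ (rel y σ)
            ≤ dj * ∑ σ : Equiv.Perm A, nsq (EKf p (mvK σ⁻¹ k0) f) :=
              mul_le_mul_of_nonneg_left (Finset.sum_le_sum fun σ _ => h5 σ) hdj0
          _ = _ := by rw [h6, h7]
      · rw [if_neg h, mul_zero]
        positivity
    have h8 : dj * ((Fintype.card (Equiv.Perm A) : ℝ) *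
        ∑ y : A ↪ (Fin D → Bool), (if Good y e then Φ y else 0))
        ≤ Y * ((Fintype.card (Equiv.Perm A) : ℝ) * Sg) := by
      rw [h2, Finset.mul_sum]
      calc ∑ y : A ↪ (Fin D → Bool), dj * (if Good y e then ∑ σ : Equiv.Perm A, Φ (rel y σ) else 0)
          ≤ ∑ _y : A ↪ (Fin D → Bool), (Fintype.card (Equiv.Perm A) : ℝ) * Sg :=
            Finset.sum_le_sum fun y _ => h4 y
        _ = _ := by rw [Finset.sum_const, nsmul_eq_mul, Finset.card_univ]
    have h9 : (Fintype.card (Equiv.Perm A) : ℝ) *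
        (dj * ∑ y : A ↪ (Fin D → Bool), (if Good y e then Φ y else 0))
        ≤ (Fintype.card (Equiv.Perm A) : ℝ) * (Y * Sg) := by
      calc _ = dj * ((Fintype.card (Equiv.Perm A) : ℝ) *
        ∑ y : A ↪ (Fin D → Bool), (if Good y e then Φ y else 0)) := by ring
        _ ≤ _ := h8
        _ = _ := by ring
    exact le_of_mul_le_mul_left h9 hP
  have hnum : dj * ∑ y : A ↪ (Fin D → Bool), ∑ e : PEnv D,
      (if Good y e then nsq (cv (nuL _ e y) f) else 0) ≤ (Y * E) * Sg := by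
    calc dj * ∑ y : A ↪ (Fin D → Bool), ∑ e : PEnv D,
        (if Good y e then nsq (cv (nuL _ e y) f) else 0)
        ≤ dj * ∑ y : A ↪ (Fin D → Bool), ∑ e : PEnv D, (if Good y e then Φ y else 0) := by
          apply mul_le_mul_of_nonneg_left _ hdj0
          apply Finset.sum_le_sum
          intro y _
          apply Finset.sum_le_sum
          intro e _
          by_cases h : Good y e
          · simp only [h, if_true]
            exact nsq_nuL_le y f j _ hL e hj
          · simp [h]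
      _ = ∑ e : PEnv D, dj * ∑ y : A ↪ (Fin D → Bool), (if Good y e then Φ y else 0) := by
          rw [Finset.sum_comm, Finset.mul_sum]
      _ ≤ ∑ _e : PEnv D, Y * Sg := Finset.sum_le_sum fun e _ => key e
      _ = _ := by rw [Finset.sum_const, nsmul_eq_mul, Finset.card_univ]; ring
  rcases hY0.eq_or_lt with hYz | hYpos
  · rw [← hYz, zero_mul, div_zero, mul_zero]; exact hSg0
  · rw [mul_div_assoc', div_le_iff₀ (by positivity)]
    calc _ ≤ _ := hnum
      _ = _ := by ring

end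

end Crest.Agent.ThS
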