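import Mathlib
import Crest.Agent.ThGlue5
import Crest.Agent.ThK
import Crest.Agent.ThHid2
import Crest.Agent.ThA0
import Crest.Agent.ThA8
import Crest.Agent.T22Defs

/-! Final assembly of S0222, given the random walk theorem and the good event (lead). -/

set_option autoImplicit false
set_option linter.unusedSectionVars false
set_option linter.unusedVariables false

namespace Crest.Agent.ThFin

open Finset Crest.Agent.ThS Crest.Agent.T22 Crest.ProbabilityR.Shuffle Filter Topology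

/-- the last direction of the list (applied first) -/
theorem finRange_ne {D : ℕ} (hD : D ≠ 0) : List.finRange D ≠ [] := by
  intro h
  have := congrArg List.length h
  simp at this
  exact hD this

/-- the hypotheses of the random walk theorem hold for the quenched class function -/
theorem rwhyp_zetaG (D m : ℕ) (hm : m ≤ 2 ^ D) (Good : (Fin m ↪ (Fin D → Bool)) → PEnv D → Prop)
    (hG : ∀ y e (σ : Equiv.Perm (Fin m)), Good (rel y σ) e ↔ Good y e)
    (hL : List.finRange D ≠ [])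
    (hK : ∀ y e, Good y e → ∃ k : Fin (m / 4) → Fin m × Fin m, DjK k ∧
      ∀ i, y (k i).2 = flipc ((List.finRange D).getLast hL) (y (k i).1))
    (hF : ∀ y e, Good y e → ∑ a, F0 (tauL (List.finRange D) e y) a ≤ (m : ℝ) ^ (-(0.27 : ℝ)) * m) :
    RWHyp m (zetaG Good) := by
  have hne : Nonempty (Fin m ↪ (Fin D → Bool)) := by
    apply Function.Embedding.nonempty_of_card_le
    simpa using hm
  refine ⟨zetaG_nonneg Good, fun g k => zetaG_conj Good hG g k, zetaG_inv Good,
    fun f => zetaG_psd Good f, sum_zetaG_le Good, ?_, ?_⟩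
  · intro x hx
    have h := zetaG_F Good _ hF x hx
    rw [← mul_assoc] at h
    exact h
  · intro f
    exact zeta_K Good hG _ hL rfl (m / 4) hK f

theorem tv_eq_tvu (d k : ℕ) :
    tvFromUniform (2 ^ d) (k * (d + 1)) = tvu (cvPow (passLaw (d + 1)) k) := by
  rw [tv_passes]
  unfold tvu
  congr 1
  apply Finset.sum_congr rfl
  intro g _
  have : (Fintype.card (Equiv.Perm (Fin (d + 1) → Bool)) : ℝ) = ((2 ^ (d + 1)).factorial : ℝ) := by
    rw [Fintype.card_perm]
    simp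
  rw [this]

theorem tv_mono (d k l : ℕ) (h : k ≤ l) :
    tvFromUniform (2 ^ d) (l * (d + 1)) ≤ tvFromUniform (2 ^ d) (k * (d + 1)) := by
  rw [tv_eq_tvu, tv_eq_tvu]
  obtain ⟨a, rfl⟩ := Nat.exists_eq_add_of_le' h
  exact tvu_cvPow_add_le _ isLaw_passLaw a k

theorem tv_nonneg (d k : ℕ) : 0 ≤ tvFromUniform (2 ^ d) (k * (d + 1)) := by
  rw [tv_eq_tvu]
  exact tvu_nonneg _

/-- **Final assembly.** -/
theorem assemble
    (RW : ∀ ε : ℝ, 0 < ε → ∃ M : ℕ, ∀ m, M ≤ m → ∀ ζ : Equiv.Perm (Fin m) → ℝ, RWHyp m ζ →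
      (m.factorial : ℝ) * cvPow ζ 120 1 - (∑ g, ζ g) ^ 120 ≤ ε)
    (GE : ∀ ε : ℝ, 0 < ε → ∃ D0 : ℕ, ∀ D, D0 ≤ D → 3 ≤ D → ∀ m, m = 5 * 2 ^ (D - 3) →
      ∃ Good : (Fin m ↪ (Fin D → Bool)) → PEnv D → Prop,
        (∀ y e (σ : Equiv.Perm (Fin m)), Good (rel y σ) e ↔ Good y e) ∧
        (∀ (hL : List.finRange D ≠ []), ∀ y e, Good y e → ∃ k : Fin (m / 4) → Fin m × Fin m,
          DjK k ∧ ∀ i, y (k i).2 = flipc ((List.finRange D).getLast hL) (y (k i).1)) ∧
        (∀ y e, Good y e →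
          ∑ a, F0 (tauL (List.finRange D) e y) a ≤ (m : ℝ) ^ (-(0.27 : ℝ)) * m) ∧
        pBad Good ≤ ε) :
    Tendsto (fun d : ℕ => tvFromUniform (2 ^ d) (1600 * (d + 1))) atTop (𝓝 0) := by
  rw [Metric.tendsto_atTop]
  intro ε hε
  -- the three errors
  obtain ⟨M, hM⟩ := RW (ε ^ 2 / 4) (by positivity)
  obtain ⟨D1, hD1⟩ := GE (ε / (4 * 120)) (by positivity)
  have hA := (Metric.tendsto_atTop.mp epsA_tendsto) (ε / (4 * 121)) (by positivity)
  obtain ⟨D2, hD2⟩ := hA
  refine ⟨max (max D1 D2) (M + 3), fun d hd => ?_⟩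
  have hd1 : D1 ≤ d + 1 := by
    have := le_trans (le_max_left _ _) (le_trans (le_max_left _ _) hd); omega
  have hd2 : D2 ≤ d + 1 := by
    have := le_trans (le_max_right _ _) (le_trans (le_max_left _ _) hd); omega
  have hd3 : M + 3 ≤ d := le_trans (le_max_right _ _) hd
  set D := d + 1 with hD
  have hD3 : 3 ≤ D := by omega
  obtain ⟨N, hN⟩ : ∃ N, N = 2 ^ (D - 3) := ⟨_, rfl⟩
  have hpow : 2 ^ D = 8 * N := by
    rw [hN]
    have : D = (D - 3) + 3 := by omega
    conv_lhs => rw [this, pow_add]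
    ring
  set m := 5 * 2 ^ (D - 3) with hm
  have hmN : m = 5 * N := by rw [hm, hN]
  have hMm : M ≤ m := by
    have h1 : D - 3 < 2 ^ (D - 3) := Nat.lt_two_pow_self
    omega
  obtain ⟨Good, hG, hK, hF, hP⟩ := hD1 D hd1 hD3 m rfl
  have hL : List.finRange D ≠ [] := finRange_ne (by omega)
  have hrw : RWHyp m (zetaG Good) :=
    rwhyp_zetaG D m (by omega) Good hG hL (hK hL) hF
  have h2 := hM m hMm _ hrw
  -- part (a)
  have hpm : lawOf (pm D) = passLaw D := lawOf_pm D
  have hcast : (2 : ℝ) ^ D = 8 * N := by exact_mod_cast hpow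
  have hmR : ((5 * 2 ^ (D - 3) : ℕ) : ℝ) ≤ 5 / 8 * 2 ^ D := by
    rw [hcast, ← hN]; push_cast; linarith
  have hmR' : ((3 * 2 ^ (D - 3) : ℕ) : ℝ) ≤ 5 / 8 * 2 ^ D := by
    rw [hcast, ← hN]; push_cast
    have : (0 : ℝ) ≤ N := Nat.cast_nonneg _
    linarith
  have hpA := partA_fin D (5 * 2 ^ (D - 3)) hpm hmR
  have hpB := partA_fin D (3 * 2 ^ (D - 3)) hpm hmR'
  have hcardA : (0 : ℝ) < Fintype.card (Fin (5 * 2 ^ (D - 3)) ↪ (Fin D → Bool)) := by
    have : Nonempty (Fin (5 * 2 ^ (D - 3)) ↪ (Fin D → Bool)) := by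
      apply Function.Embedding.nonempty_of_card_le
      simp only [Fintype.card_fin, Fintype.card_fun, Fintype.card_bool]
      omega
    exact_mod_cast Fintype.card_pos
  have hcardB : (0 : ℝ) < Fintype.card (Fin (3 * 2 ^ (D - 3)) ↪ (Fin D → Bool)) := by
    have : Nonempty (Fin (3 * 2 ^ (D - 3)) ↪ (Fin D → Bool)) := by
      apply Function.Embedding.nonempty_of_card_le
      simp only [Fintype.card_fin, Fintype.card_fun, Fintype.card_bool]
      omega
    exact_mod_cast Fintype.card_pos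
  rw [div_le_iff₀ hcardA] at hpA
  rw [div_le_iff₀ hcardB] at hpB
  have hglue := Thglue (A := Fin m) (B := Fin (3 * 2 ^ (D - 3))) (D := D)
    (by simp only [Fintype.card_fin]; omega) Good hG 120 12 (by norm_num) (epsA D) hpA hpB
  have hepsA : epsA D < ε / (4 * 121) := by
    have := hD2 D hd2
    rw [Real.dist_eq, sub_zero, abs_of_nonneg (epsA_nonneg D)] at this
    exact this
  have hmono := tv_mono d ((12 + 1) * 120) 1600 (by norm_num)
  rw [tv_eq_tvu d ((12 + 1) * 120)] at hmono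
  have hcardP : (Fintype.card (Equiv.Perm (Fin m)) : ℝ) = (m.factorial : ℝ) := by
    rw [Fintype.card_perm, Fintype.card_fin]
  rw [hcardP] at hglue
  have hsqrt : Real.sqrt ((m.factorial : ℝ) * cvPow (zetaG Good) 120 1
      - (∑ g, zetaG Good g) ^ 120) ≤ ε / 2 := by
    rw [show ε / 2 = Real.sqrt (ε ^ 2 / 4) by
      rw [show ε ^ 2 / 4 = (ε / 2) ^ 2 by ring]
      exact (Real.sqrt_sq (by positivity)).symm]
    exact Real.sqrt_le_sqrt h2
  rw [Real.dist_eq, sub_zero, abs_of_nonneg (tv_nonneg d 1600)]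
  have h3 : ((120 : ℕ) : ℝ) * pBad Good ≤ ε / 4 := by
    push_cast
    have : 120 * pBad Good ≤ 120 * (ε / (4 * 120)) := by linarith
    calc _ ≤ _ := this
      _ = ε / 4 := by ring
  have h4 : (((120 : ℕ) : ℝ) + 1) * epsA D < ε / 4 := by
    push_cast
    have : (120 + 1) * epsA D < (120 + 1) * (ε / (4 * 121)) := by linarith
    calc _ < _ := this
      _ = ε / 4 := by ring
  calc _ ≤ _ := hmono
    _ ≤ _ := hglue
    _ < ε := by linarith

end Crest.Agent.ThFin
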