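import Mathlib
import Crest.Agent.T22Avg

/-! S0222, 4.3 (L*): the combinatorial bound for the transversal contraction constant. -/

set_option autoImplicit false
set_option linter.unusedSectionVars false

namespace Crest.Agent.T22

open Finset Equiv

variable {α : Type*} [Fintype α] [DecidableEq α]

/-- the two-state transfer matrix -/
noncomputable def Mst (y b : ℝ) : Bool → Bool → ℝ
  | true, true => y
  | true, false => Real.sqrt (y * b)
  | false, true => Real.sqrt (y * b)
  | false, false => 1

theorem Mst_nonneg {y b : ℝ} (hy : 0 ≤ y) : ∀ p q, 0 ≤ Mst y b p q := by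
  intro p q
  cases p <;> cases q <;> (unfold Mst; simp only) <;> positivity

theorem trm_Mst (y b : ℝ) : trm (Mst y b) = 1 + y := by
  unfold trm
  simp [Mst, add_comm]

theorem hs2_Mst {y b : ℝ} (hy : 0 ≤ y) (hb : 0 ≤ b) : hs2 (Mst y b) = 1 + 2 * b * y + y ^ 2 := by
  unfold hs2
  have : Real.sqrt (y * b) ^ 2 = y * b := Real.sq_sqrt (mul_nonneg hy hb)
  simp only [Fintype.sum_bool, Mst, this]
  ring

theorem wt_eq {y b : ℝ} (hy : 0 ≤ y) (hb : 0 ≤ b) (g : Perm α) (X : Finset α) :
    ∏ a, Mst y b (decide (a ∈ X)) (decide (g a ∈ X))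
      = y ^ X.card * b ^ (X.map g.toEmbedding \ X).card := by
  set s := Real.sqrt (y * b) with hs
  have hs2 : s ^ 2 = y * b := Real.sq_sqrt (mul_nonneg hy hb)
  set A := X.filter (fun a => g a ∈ X) with hA
  set B := X.filter (fun a => ¬ g a ∈ X) with hB
  set C := Xᶜ.filter (fun a => g a ∈ X) with hC
  have hAB : A.card + B.card = X.card := card_filter_add_card_filter_not _
  have hAC : A.card + C.card = X.card := by
    have h1 : A ∪ C = univ.filter (fun a => g a ∈ X) := by
      ext a
      simp only [hA, hC, mem_union, mem_filter, mem_compl, mem_univ, true_and]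
      tauto
    have h2 : Disjoint A C := by
      rw [disjoint_left]
      intro a ha hc
      exact (mem_compl.mp (mem_filter.mp hc).1) (mem_filter.mp ha).1
    have h3 : (univ.filter (fun a => g a ∈ X)).card = X.card := by
      have : univ.filter (fun a => g a ∈ X) = X.map g.symm.toEmbedding := by
        ext a
        simp only [mem_filter, mem_univ, true_and, mem_map, Equiv.coe_toEmbedding]
        constructor
        · intro h; exact ⟨g a, h, by simp⟩
        · rintro ⟨c, hc, rfl⟩; simpa using hc
      rw [this, card_map]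
    rw [← card_union_of_disjoint h2, h1, h3]
  have hBk : B.card = (X.map g.toEmbedding \ X).card := by
    have : B.map g.toEmbedding = X.map g.toEmbedding \ X := by
      ext c
      simp only [hB, mem_map, mem_filter, mem_sdiff, Equiv.coe_toEmbedding]
      constructor
      · rintro ⟨a, ⟨ha, hga⟩, rfl⟩; exact ⟨⟨a, ha, rfl⟩, hga⟩
      · rintro ⟨⟨a, ha, rfl⟩, hga⟩; exact ⟨a, ⟨ha, hga⟩, rfl⟩
    rw [← this, card_map]
  have hprod : ∏ a, Mst y b (decide (a ∈ X)) (decide (g a ∈ X))
      = (y ^ A.card * s ^ B.card) * s ^ C.card := by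
    rw [← prod_mul_prod_compl X]
    congr 1
    · rw [← prod_filter_mul_prod_filter_not X (fun a => g a ∈ X)]
      congr 1
      · rw [← prod_const]
        apply prod_congr rfl
        intro a ha
        have := mem_filter.mp ha
        simp [this.1, this.2, Mst]
      · rw [← prod_const]
        apply prod_congr rfl
        intro a ha
        have := mem_filter.mp ha
        simp [this.1, this.2, Mst, hs]
    · rw [← prod_filter_mul_prod_filter_not Xᶜ (fun a => g a ∈ X)]
      have h1 : ∏ a ∈ Xᶜ.filter (fun a => ¬ g a ∈ X), Mst y b (decide (a ∈ X)) (decide (g a ∈ X)) = 1 := by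
        apply prod_eq_one
        intro a ha
        have := mem_filter.mp ha
        have h' := mem_compl.mp this.1
        simp [h', this.2, Mst]
      rw [h1, mul_one, ← prod_const]
      apply prod_congr rfl
      intro a ha
      have := mem_filter.mp ha
      have h' := mem_compl.mp this.1
      simp [h', this.2, Mst, hs]
  rw [hprod, ← hBk]
  have hCB : C.card = B.card := by omega
  rw [hCB, mul_assoc, ← pow_add, ← two_mul, pow_mul, hs2, mul_pow, ← mul_assoc, ← pow_add, hAB]

/-- sum over all subsets -/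
theorem sum_wt_eq {y b : ℝ} (hy : 0 ≤ y) (hb : 0 ≤ b) (g : Perm α) :
    ∑ X : Finset α, y ^ X.card * b ^ (X.map g.toEmbedding \ X).card
      = Sg g (fun _ => Mst y b) := by
  unfold Sg
  let e : Finset α ≃ (α → Bool) :=
    { toFun := fun X a => decide (a ∈ X)
      invFun := fun x => univ.filter (fun a => x a = true)
      left_inv := by intro X; ext a; simp
      right_inv := by intro x; funext a; simp }
  rw [← Equiv.sum_comp e]
  apply sum_congr rfl
  intro X _
  rw [← wt_eq hy hb g X]
  rfl

theorem Bg_Mst_le {y b : ℝ} (hy : 0 ≤ y) (hb : 0 ≤ b) (g : Perm α) :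
    Bg g (fun _ => Mst y b)
      ≤ (1 + y) ^ nfix g * Real.sqrt (1 + 2 * b * y + y ^ 2) ^ Fintype.card α := by
  unfold Bg
  simp only [trm_Mst, hs2_Mst hy hb]
  set R := Real.sqrt (1 + 2 * b * y + y ^ 2) with hR
  have hR1 : 1 ≤ R := by
    rw [hR]
    apply Real.one_le_sqrt.mpr
    have : 0 ≤ 2 * b * y := by positivity
    nlinarith [sq_nonneg y]
  have h1 : ∏ a, (if g a = a then 1 + y else R) ≤ ∏ a : α, ((if g a = a then 1 + y else 1) * R) := by
    apply prod_le_prod
    · intro a _
      split_ifs
      · linarith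
      · linarith
    · intro a _
      split_ifs
      · nlinarith
      · linarith
  refine h1.trans (le_of_eq ?_)
  rw [prod_mul_distrib]
  congr 1
  · rw [prod_ite, prod_const, prod_const_one, mul_one]
    congr 1
    unfold nfix
    rw [Fintype.card_subtype]
  · simp

theorem choose_inv_le (N k l : ℕ) (hkl : k ≤ l) (hlN : l ≤ N) (hl : 0 < l) :
    1 / ((N.choose k : ℕ) : ℝ) ≤ ((l : ℝ) / N) ^ k := by
  have hN : 0 < N := by omega
  have hch : 0 < N.choose k := Nat.choose_pos (by omega)
  have key : (N : ℝ) ^ k * (k.factorial : ℝ) ≤ (l : ℝ) ^ k * (N.descFactorial k : ℝ) := by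
    have h1 : (k.factorial : ℝ) = ∏ i ∈ range k, ((k : ℝ) - i) := by
      have : k.factorial = k.descFactorial k := (Nat.descFactorial_self k).symm
      rw [this, Nat.descFactorial_eq_prod_range]
      push_cast
      apply prod_congr rfl
      intro i hi
      rw [Nat.cast_sub (by have := mem_range.mp hi; omega)]
    have h2 : (N.descFactorial k : ℝ) = ∏ i ∈ range k, ((N : ℝ) - i) := by
      rw [Nat.descFactorial_eq_prod_range]
      push_cast
      apply prod_congr rfl
      intro i hi
      rw [Nat.cast_sub (by have := mem_range.mp hi; omega)]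
    have h3 : (N : ℝ) ^ k = ∏ _i ∈ range k, (N : ℝ) := by rw [prod_const, card_range]
    have h4 : (l : ℝ) ^ k = ∏ _i ∈ range k, (l : ℝ) := by rw [prod_const, card_range]
    rw [h1, h2, h3, h4, ← prod_mul_distrib, ← prod_mul_distrib]
    apply prod_le_prod
    · intro i hi
      have : (i : ℝ) ≤ k := by exact_mod_cast (mem_range.mp hi).le
      exact mul_nonneg (Nat.cast_nonneg _) (by linarith)
    · intro i hi
      have hik : (i : ℝ) ≤ k := by exact_mod_cast (mem_range.mp hi).le
      have hkl' : (k : ℝ) ≤ l := by exact_mod_cast hkl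
      have hlN' : (l : ℝ) ≤ N := by exact_mod_cast hlN
      have hi0 : (0 : ℝ) ≤ i := Nat.cast_nonneg _
      nlinarith
  have hdesc : (N.descFactorial k : ℝ) = (k.factorial : ℝ) * (N.choose k : ℝ) := by
    exact_mod_cast Nat.descFactorial_eq_factorial_mul_choose N k
  rw [hdesc] at key
  have hk : (0 : ℝ) < k.factorial := by exact_mod_cast Nat.factorial_pos k
  have hNpos : (0 : ℝ) < (N : ℝ) ^ k := by
    have : (0 : ℝ) < N := by exact_mod_cast hN
    positivity
  have hchR : (0 : ℝ) < (N.choose k : ℝ) := by exact_mod_cast hch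
  rw [div_pow, div_le_div_iff₀ hchR hNpos, one_mul]
  have : (N : ℝ) ^ k * (k.factorial : ℝ) ≤ ((l : ℝ) ^ k * (N.choose k : ℝ)) * (k.factorial : ℝ) := by
    calc _ ≤ _ := key
      _ = _ := by ring
  exact le_of_mul_le_mul_right this hk

/-- the contraction constant -/
theorem cL_le (ζ : Perm α → ℝ) (h0 : ∀ g, 0 ≤ ζ g) (θ : ℝ)
    (hF : ∀ x : ℝ, 0 ≤ x → ∑ g, ζ g * (1 + x) ^ nfix g ≤ Real.exp (x * θ * Fintype.card α))
    (l : ℕ) (hl : 1 ≤ l) (hl2 : 2 * l ≤ Fintype.card α) (y : ℝ) (hy : 0 < y) :
    ∑ g, ζ g * ((∑ X ∈ powersetCard l (univ : Finset α),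
        1 / (((Fintype.card α - l).choose (X.map g.toEmbedding \ X).card : ℕ) : ℝ))
          / ((Fintype.card α).choose l : ℝ))
      ≤ 1 / ((Fintype.card α).choose l : ℝ) * (1 / y ^ l) * Real.exp (y * θ * Fintype.card α)
        * Real.sqrt (1 + 2 * ((l : ℝ) / ((Fintype.card α : ℝ) - l)) * y + y ^ 2) ^ Fintype.card α := by
  set m := Fintype.card α with hm
  set b : ℝ := (l : ℝ) / ((m : ℝ) - l) with hb
  have hml : ((m - l : ℕ) : ℝ) = (m : ℝ) - l := by rw [Nat.cast_sub (by omega)]
  have hb0 : 0 ≤ b := by rw [hb, ← hml]; positivity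
  set R := Real.sqrt (1 + 2 * b * y + y ^ 2) with hR
  have hyl : 0 < y ^ l := pow_pos hy l
  have hX : ∀ g : Perm α, ∑ X ∈ powersetCard l (univ : Finset α),
      1 / (((m - l).choose (X.map g.toEmbedding \ X).card : ℕ) : ℝ)
      ≤ (1 / y ^ l) * ((1 + y) ^ nfix g * R ^ m) := by
    intro g
    have h1 : ∑ X ∈ powersetCard l (univ : Finset α),
        1 / (((m - l).choose (X.map g.toEmbedding \ X).card : ℕ) : ℝ)
        ≤ ∑ X ∈ powersetCard l (univ : Finset α),
          (1 / y ^ l) * (y ^ X.card * b ^ (X.map g.toEmbedding \ X).card) := by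
      apply sum_le_sum
      intro X hX
      have hXc := (mem_powersetCard.mp hX).2
      have hk : (X.map g.toEmbedding \ X).card ≤ l := by
        refine (card_le_card sdiff_subset).trans ?_
        rw [card_map, hXc]
      have h2 := choose_inv_le (m - l) _ l hk (by omega) (by omega)
      rw [hml] at h2
      rw [hXc, ← mul_assoc, one_div_mul_cancel hyl.ne', one_mul]
      exact h2
    refine h1.trans ?_
    rw [← mul_sum]
    apply mul_le_mul_of_nonneg_left _ (by positivity)
    calc ∑ X ∈ powersetCard l (univ : Finset α), y ^ X.card * b ^ (X.map g.toEmbedding \ X).card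
        ≤ ∑ X : Finset α, y ^ X.card * b ^ (X.map g.toEmbedding \ X).card := by
          apply sum_le_sum_of_subset_of_nonneg (subset_univ _)
          intro X _ _
          positivity
      _ = Sg g (fun _ => Mst y b) := sum_wt_eq hy.le hb0 g
      _ ≤ Bg g (fun _ => Mst y b) := Sg_le_Bg g _ (fun _ => Mst_nonneg hy.le)
      _ ≤ _ := Bg_Mst_le hy.le hb0 g
  have hC : 0 ≤ 1 / (m.choose l : ℝ) := by positivity
  calc ∑ g, ζ g * ((∑ X ∈ powersetCard l (univ : Finset α),
        1 / (((m - l).choose (X.map g.toEmbedding \ X).card : ℕ) : ℝ)) / (m.choose l : ℝ))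
      ≤ ∑ g, ζ g * (((1 / y ^ l) * ((1 + y) ^ nfix g * R ^ m)) / (m.choose l : ℝ)) := by
        apply sum_le_sum
        intro g _
        apply mul_le_mul_of_nonneg_left _ (h0 g)
        exact div_le_div_of_nonneg_right (hX g) (Nat.cast_nonneg _)
    _ = (1 / (m.choose l : ℝ) * (1 / y ^ l) * R ^ m) * ∑ g, ζ g * (1 + y) ^ nfix g := by
        rw [mul_sum]
        apply sum_congr rfl
        intro g _
        ring
    _ ≤ (1 / (m.choose l : ℝ) * (1 / y ^ l) * R ^ m) * Real.exp (y * θ * m) :=
        mul_le_mul_of_nonneg_left (hF y hy.le) (by positivity)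
    _ = _ := by ring

end Crest.Agent.T22
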