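import Mathlib
import Crest.Agent.T22Avg

/-! S0222, bad environments: hypergeometric estimates. -/

set_option autoImplicit false
set_option linter.unusedSectionVars false

namespace Crest.Agent.ThB

open Finset

variable {Ω : Type*} [DecidableEq Ω]

/-- `E c^{|P ∩ S|}` for a uniform `M`-subset `S` of `U ⊇ P`. -/
theorem hyp_sum (c : ℝ) (hc0 : 0 ≤ c) (hc1 : c ≤ 1) : ∀ (d : ℕ) (P U : Finset Ω) (M : ℕ),
    P ⊆ U → P.card = d → d ≤ M → M ≤ U.card →
    ∑ S ∈ powersetCard M U, c ^ (P ∩ S).card
      ≤ (U.card.choose M : ℝ) * (1 - (1 - c) * (((M : ℝ) - d) / U.card)) ^ d := by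
  intro d
  induction d with
  | zero =>
    intro P U M _ hP _ _
    have : P = ∅ := card_eq_zero.mp hP
    subst this
    simp
  | succ d ih =>
    intro P U M hPU hPd hdM hMU
    obtain ⟨p, P', hp, hP', hP'd⟩ := card_eq_succ.mp hPd
    subst hP'
    have hpU : p ∈ U := hPU (mem_insert_self _ _)
    set U' := U.erase p with hU'
    have hpU' : p ∉ U' := by simp [hU']
    have hUins : insert p U' = U := insert_erase hpU
    have hUc : U.card = U'.card + 1 := by rw [← hUins, card_insert_of_notMem hpU']
    have hP'U' : P' ⊆ U' := by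
      intro x hx
      rw [hU', mem_erase]
      exact ⟨fun h => hp (h ▸ hx), hPU (mem_insert_of_mem hx)⟩
    obtain ⟨M', rfl⟩ : ∃ M', M = M' + 1 := ⟨M - 1, by omega⟩
    have hsplit : ∑ S ∈ powersetCard (M' + 1) U, c ^ (insert p P' ∩ S).card
        = ∑ S ∈ powersetCard (M' + 1) U', c ^ (P' ∩ S).card
          + c * ∑ S ∈ powersetCard M' U', c ^ (P' ∩ S).card := by
      rw [← hUins, powersetCard_succ_insert hpU', sum_union]
      · congr 1
        · apply sum_congr rfl
          intro S hS
          have hpS : p ∉ S := fun h => hpU' ((mem_powersetCard.mp hS).1 h)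
          rw [insert_inter_of_notMem hpS]
        · rw [sum_image]
          · rw [mul_sum]
            apply sum_congr rfl
            intro S hS
            have hpS : p ∉ S := fun h => hpU' ((mem_powersetCard.mp hS).1 h)
            have h1 : insert p P' ∩ insert p S = insert p (P' ∩ S) := by
              rw [insert_inter_distrib]
            have h2 : p ∉ P' ∩ S := fun h => hpS (mem_inter.mp h).2
            rw [h1, card_insert_of_notMem h2, pow_succ]
            ring
          · intro S hS T hT h
            have hpS : p ∉ S := fun h => hpU' ((mem_powersetCard.mp hS).1 h)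
            have hpT : p ∉ T := fun h => hpU' ((mem_powersetCard.mp hT).1 h)
            have := congrArg (fun X => X.erase p) h
            simpa [erase_insert hpS, erase_insert hpT] using this
      · rw [disjoint_left]
        intro S hS hS'
        obtain ⟨T, _, hT⟩ := mem_image.mp hS'
        exact hpU' ((mem_powersetCard.mp hS).1 (hT ▸ mem_insert_self _ _))
    rw [hsplit]
    have hUpos : (0 : ℝ) < U.card := by rw [hUc]; positivity
    set N : ℝ := (U.card : ℝ) with hN
    set β : ℝ := 1 - (1 - c) * ((((M' + 1 : ℕ) : ℝ) - (d + 1 : ℕ)) / N) with hβ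
    have hMN : (((M' + 1 : ℕ) : ℝ)) ≤ N := by rw [hN]; exact_mod_cast hMU
    have hdM' : ((d + 1 : ℕ) : ℝ) ≤ ((M' + 1 : ℕ) : ℝ) := by exact_mod_cast hdM
    have hr0 : 0 ≤ (((M' + 1 : ℕ) : ℝ) - (d + 1 : ℕ)) / N := div_nonneg (by linarith) hUpos.le
    have hr1 : (((M' + 1 : ℕ) : ℝ) - (d + 1 : ℕ)) / N ≤ 1 := by
      rw [div_le_one hUpos]
      have : (0 : ℝ) ≤ ((d + 1 : ℕ) : ℝ) := Nat.cast_nonneg _
      linarith
    have hβ0 : 0 ≤ β := by
      have := mul_le_mul (by linarith : 1 - c ≤ 1) hr1 hr0 (by norm_num)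
      rw [hβ]; linarith
    -- the two inductive bounds, with the common base β
    have hA : ∑ S ∈ powersetCard M' U', c ^ (P' ∩ S).card ≤ (U'.card.choose M' : ℝ) * β ^ d := by
      by_cases hU0 : U'.card = 0
      · have hU'e : U' = ∅ := card_eq_zero.mp hU0
        have hP'e : P' = ∅ := subset_empty.mp (hU'e ▸ hP'U')
        have hd0 : d = 0 := by rw [← hP'd, hP'e]; rfl
        have hM0 : M' = 0 := by omega
        subst hd0 hM0
        simp [hU'e]
      · have h := ih P' U' M' hP'U' hP'd (by omega) (by omega)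
        refine h.trans (mul_le_mul_of_nonneg_left ?_ (Nat.cast_nonneg _))
        have hU'pos : (0 : ℝ) < U'.card := by exact_mod_cast Nat.pos_of_ne_zero hU0
        have hle : (((M' + 1 : ℕ) : ℝ) - (d + 1 : ℕ)) / N ≤ ((M' : ℝ) - d) / U'.card := by
          have e1 : (((M' + 1 : ℕ) : ℝ) - (d + 1 : ℕ)) = (M' : ℝ) - d := by push_cast; ring
          rw [e1]
          apply div_le_div_of_nonneg_left _ hU'pos
          · rw [hN, hUc]; push_cast; linarith
          · have : (d : ℝ) ≤ M' := by exact_mod_cast (by omega : d ≤ M')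
            linarith
        have hle1 : ((M' : ℝ) - d) / U'.card ≤ 1 := by
          rw [div_le_one hU'pos]
          have h3 : (M' : ℝ) ≤ U'.card := by exact_mod_cast (by omega : M' ≤ U'.card)
          have : (0 : ℝ) ≤ d := Nat.cast_nonneg _
          linarith
        have hle0 : 0 ≤ ((M' : ℝ) - d) / U'.card := le_trans hr0 hle
        apply pow_le_pow_left₀
        · have := mul_le_mul (by linarith : 1 - c ≤ 1) hle1 hle0 (by norm_num)
          linarith
        · have := mul_le_mul_of_nonneg_left hle (by linarith : 0 ≤ 1 - c)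
          rw [hβ]; linarith
    have hB : ∑ S ∈ powersetCard (M' + 1) U', c ^ (P' ∩ S).card
        ≤ (U'.card.choose (M' + 1) : ℝ) * β ^ d := by
      by_cases hM1 : M' + 1 ≤ U'.card
      · have h := ih P' U' (M' + 1) hP'U' hP'd (by omega) hM1
        refine h.trans (mul_le_mul_of_nonneg_left ?_ (Nat.cast_nonneg _))
        have hU'pos : (0 : ℝ) < U'.card := by
          have : 0 < U'.card := by omega
          exact_mod_cast this
        have hle : (((M' + 1 : ℕ) : ℝ) - (d + 1 : ℕ)) / N ≤ (((M' + 1 : ℕ) : ℝ) - d) / U'.card := by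
          have h1 : (((M' + 1 : ℕ) : ℝ) - (d + 1 : ℕ)) / N ≤ (((M' + 1 : ℕ) : ℝ) - d) / N := by
            apply div_le_div_of_nonneg_right _ hUpos.le
            push_cast; linarith
          refine h1.trans ?_
          apply div_le_div_of_nonneg_left _ hU'pos
          · rw [hN, hUc]; push_cast; linarith
          · push_cast at hdM' ⊢; linarith
        have hle1 : (((M' + 1 : ℕ) : ℝ) - d) / U'.card ≤ 1 := by
          rw [div_le_one hU'pos]
          have h3 : ((M' + 1 : ℕ) : ℝ) ≤ U'.card := by exact_mod_cast hM1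
          have : (0 : ℝ) ≤ d := Nat.cast_nonneg _
          linarith
        have hle0 : 0 ≤ (((M' + 1 : ℕ) : ℝ) - d) / U'.card := le_trans hr0 hle
        apply pow_le_pow_left₀
        · have := mul_le_mul (by linarith : 1 - c ≤ 1) hle1 hle0 (by norm_num)
          linarith
        · have := mul_le_mul_of_nonneg_left hle (by linarith : 0 ≤ 1 - c)
          rw [hβ]; linarith
      · have hemp : powersetCard (M' + 1) U' = ∅ := powersetCard_eq_empty.mpr (by omega)
        rw [hemp, sum_empty]
        positivity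
    have hβd : 0 ≤ β ^ d := pow_nonneg hβ0 d
    -- Pascal with weights
    have hch : (U'.card.choose (M' + 1) : ℝ) + c * (U'.card.choose M' : ℝ)
        ≤ (U.card.choose (M' + 1) : ℝ) * β := by
      have h1 : U.card.choose (M' + 1) = U'.card.choose M' + U'.card.choose (M' + 1) := by
        rw [hUc, Nat.choose_succ_succ]
      have h2 : (U'.card.choose M' : ℝ) = (U.card.choose (M' + 1) : ℝ) * (((M' + 1 : ℕ) : ℝ) / N) := by
        have h3 : U.card.choose (M' + 1) * (M' + 1) = U.card * U'.card.choose M' := by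
          rw [hUc]; exact (Nat.add_one_mul_choose_eq _ _).symm
        have h4 : (U.card.choose (M' + 1) : ℝ) * ((M' + 1 : ℕ) : ℝ) = N * (U'.card.choose M' : ℝ) := by
          rw [hN]; exact_mod_cast h3
        rw [← mul_div_assoc, h4]; field_simp
      have h5 : (U'.card.choose (M' + 1) : ℝ)
          = (U.card.choose (M' + 1) : ℝ) - (U'.card.choose M' : ℝ) := by
        rw [h1]; push_cast; ring
      rw [h5, h2]
      have hle : (((M' + 1 : ℕ) : ℝ) - (d + 1 : ℕ)) / N ≤ ((M' + 1 : ℕ) : ℝ) / N := by
        apply div_le_div_of_nonneg_right _ hUpos.le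
        have : (0 : ℝ) ≤ ((d + 1 : ℕ) : ℝ) := Nat.cast_nonneg _
        linarith
      have hC : (0 : ℝ) ≤ (U.card.choose (M' + 1) : ℝ) := Nat.cast_nonneg _
      have h6 := mul_le_mul_of_nonneg_left hle (by linarith : 0 ≤ 1 - c)
      have h7 := mul_le_mul_of_nonneg_left h6 hC
      rw [hβ]
      nlinarith
    calc ∑ S ∈ powersetCard (M' + 1) U', c ^ (P' ∩ S).card
          + c * ∑ S ∈ powersetCard M' U', c ^ (P' ∩ S).card
        ≤ (U'.card.choose (M' + 1) : ℝ) * β ^ d + c * ((U'.card.choose M' : ℝ) * β ^ d) :=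
          add_le_add hB (mul_le_mul_of_nonneg_left hA hc0)
      _ = ((U'.card.choose (M' + 1) : ℝ) + c * (U'.card.choose M' : ℝ)) * β ^ d := by ring
      _ ≤ ((U.card.choose (M' + 1) : ℝ) * β) * β ^ d := mul_le_mul_of_nonneg_right hch hβd
      _ = (U.card.choose (M' + 1) : ℝ) * β ^ (d + 1) := by rw [pow_succ]; ring

end Crest.Agent.ThB
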