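import Mathlib

/-! Part (a) of the Thorp shuffle: averages, coin space of one pass, hidden wires, energy estimate. -/

set_option autoImplicit false
set_option linter.unusedSectionVars false
set_option linter.unusedVariables false

namespace Crest.Agent.ThS

open Finset

/-- average over a finite type -/
noncomputable def av {α : Type*} [Fintype α] (f : α → ℝ) : ℝ := (∑ a, f a) / (Fintype.card α : ℝ)

section AvLemmas

variable {α β : Type*} [Fintype α] [Fintype β]

theorem av_add (f g : α → ℝ) : av (fun a => f a + g a) = av f + av g := by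
  unfold av; rw [Finset.sum_add_distrib, add_div]

theorem av_sub (f g : α → ℝ) : av (fun a => f a - g a) = av f - av g := by
  unfold av; rw [Finset.sum_sub_distrib, sub_div]

theorem av_mul_left (c : ℝ) (f : α → ℝ) : av (fun a => c * f a) = c * av f := by
  unfold av; rw [← Finset.mul_sum, mul_div_assoc]

theorem av_mul_right (c : ℝ) (f : α → ℝ) : av (fun a => f a * c) = av f * c := by
  unfold av; rw [← Finset.sum_mul, div_mul_eq_mul_div]

theorem av_div (c : ℝ) (f : α → ℝ) : av (fun a => f a / c) = av f / c := by
  simp only [div_eq_mul_inv]; exact av_mul_right _ _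

theorem av_const [Nonempty α] (c : ℝ) : av (fun _ : α => c) = c := by
  unfold av
  rw [Finset.sum_const, nsmul_eq_mul, Finset.card_univ]
  have : (Fintype.card α : ℝ) ≠ 0 := by
    exact_mod_cast Fintype.card_ne_zero
  field_simp

theorem av_mono {f g : α → ℝ} (h : ∀ a, f a ≤ g a) : av f ≤ av g := by
  unfold av
  exact div_le_div_of_nonneg_right (Finset.sum_le_sum (fun a _ => h a)) (by positivity)

theorem av_nonneg {f : α → ℝ} (h : ∀ a, 0 ≤ f a) : 0 ≤ av f := by
  unfold av
  exact div_nonneg (Finset.sum_nonneg (fun a _ => h a)) (by positivity)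

theorem av_prod (f : α × β → ℝ) : av f = av (fun a => av (fun b => f (a, b))) := by
  unfold av
  rw [Fintype.sum_prod_type, Fintype.card_prod, ← Finset.sum_div, div_div]
  push_cast
  rw [mul_comm (Fintype.card α : ℝ)]

theorem av_comm (f : α → β → ℝ) : av (fun a => av (fun b => f a b)) = av (fun b => av (fun a => f a b)) := by
  unfold av
  rw [← Finset.sum_div, ← Finset.sum_div, Finset.sum_comm, div_div, div_div, mul_comm]

theorem av_sum {ι : Type*} (s : Finset ι) (f : ι → α → ℝ) :
    av (fun a => ∑ i ∈ s, f i a) = ∑ i ∈ s, av (f i) := by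
  unfold av
  rw [Finset.sum_comm, ← Finset.sum_div]

theorem av_equiv (e : α ≃ β) (f : β → ℝ) : av (fun a => f (e a)) = av f := by
  unfold av
  rw [Equiv.sum_comp e, Fintype.card_congr e]

theorem av_abs_le (f : α → ℝ) : |av f| ≤ av (fun a => |f a|) := by
  unfold av
  rw [abs_div, abs_of_nonneg (by positivity : (0 : ℝ) ≤ (Fintype.card α : ℝ))]
  exact div_le_div_of_nonneg_right (Finset.abs_sum_le_sum_abs _ _) (by positivity)

/-- product of functions of independent variables -/
theorem av_mul_indep (f : α → ℝ) (g : β → ℝ) :
    av (fun a => av (fun b => f a * g b)) = av f * av g := by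
  simp_rw [av_mul_left]
  rw [av_mul_right]

theorem av_sq_le (f : α → ℝ) [Nonempty α] : (av f) ^ 2 ≤ av (fun a => f a ^ 2) := by
  have h := av_nonneg (f := fun a => (f a - av f) ^ 2) (fun a => sq_nonneg _)
  have : (fun a => (f a - av f) ^ 2) = fun a => (f a ^ 2 - (2 * av f) * f a) + (av f) ^ 2 := by
    funext a; ring
  rw [this, av_add, av_sub, av_mul_left, av_const] at h
  nlinarith

end AvLemmas

/-- prepend a bit -/
def cns {D : ℕ} (b : Bool) (x : Fin D → Bool) : Fin (D + 1) → Bool := Fin.cons b x

@[simp] theorem cns_zero {D : ℕ} (b : Bool) (x : Fin D → Bool) : cns b x 0 = b := rfl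
@[simp] theorem cns_succ {D : ℕ} (b : Bool) (x : Fin D → Bool) (i : Fin D) : cns b x i.succ = x i := rfl
@[simp] theorem tail_cns {D : ℕ} (b : Bool) (x : Fin D → Bool) : Fin.tail (cns b x) = x := rfl

theorem cns_head_tail {D : ℕ} (z : Fin (D + 1) → Bool) : cns (z 0) (Fin.tail z) = z :=
  Fin.cons_self_tail z

theorem cns_inj {D : ℕ} {b b' : Bool} {x x' : Fin D → Bool} (h : cns b x = cns b' x') :
    b = b' ∧ x = x' := by
  constructor
  · exact congrFun h 0
  · funext i; exact congrFun h i.succ

/-- restriction of a function to a half cube -/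
def half {D : ℕ} {α : Type*} (b : Bool) (f : (Fin (D + 1) → Bool) → α) : (Fin D → Bool) → α :=
  fun x => f (cns b x)

@[simp] theorem half_apply {D : ℕ} {α : Type*} (b : Bool) (f : (Fin (D + 1) → Bool) → α)
    (x : Fin D → Bool) : half b f x = f (cns b x) := rfl

theorem sum_cube {D : ℕ} (f : (Fin (D + 1) → Bool) → ℝ) :
    ∑ x, f x = ∑ x, half false f x + ∑ x, half true f x := by
  rw [← Equiv.sum_comp (Fin.consEquiv (fun _ : Fin (D + 1) => Bool)), Fintype.sum_prod_type,
    Fintype.sum_bool, add_comm]
  rfl

/-- total mass -/
noncomputable def tot {D : ℕ} (f : (Fin D → Bool) → ℝ) : ℝ := ∑ x, f x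

theorem tot_succ {D : ℕ} (f : (Fin (D + 1) → Bool) → ℝ) :
    tot f = tot (half false f) + tot (half true f) := sum_cube f

/-- coin space of one pass on the `D`-cube (direction `0` last) -/
def Om : ℕ → Type
  | 0 => Unit
  | D + 1 => (Om D × Om D) × ((Fin D → Bool) → Bool)

noncomputable instance instFintypeOm : (D : ℕ) → Fintype (Om D)
  | 0 => inferInstanceAs (Fintype Unit)
  | D + 1 => by
      haveI := instFintypeOm D
      exact inferInstanceAs (Fintype ((Om D × Om D) × ((Fin D → Bool) → Bool)))

instance instNonemptyOm : (D : ℕ) → Nonempty (Om D)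
  | 0 => inferInstanceAs (Nonempty Unit)
  | D + 1 => by
      have := instNonemptyOm D
      exact inferInstanceAs (Nonempty ((Om D × Om D) × ((Fin D → Bool) → Bool)))

theorem av_Om_succ {D : ℕ} (f : Om (D + 1) → ℝ) :
    av f = av (fun ω0 : Om D => av (fun ω1 : Om D =>
      av (fun c : (Fin D → Bool) → Bool => f ((ω0, ω1), c)))) := by
  have h1 := av_prod (α := Om D × Om D) (β := ((Fin D → Bool) → Bool)) f
  have h2 := av_prod (α := Om D) (β := Om D) (fun a => av (fun b => f (a, b)))
  exact h1.trans h2

/-- evolution of the hidden set -/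
def hu : (D : ℕ) → Om D → ((Fin D → Bool) → Bool) → ((Fin D → Bool) → Bool)
  | 0, _, u => u
  | D + 1, ω, u => fun z =>
      if xor (z 0) (ω.2 (Fin.tail z)) then hu D ω.1.2 (half true u) (Fin.tail z)
      else hu D ω.1.1 (half false u) (Fin.tail z)

/-- evolution of a signed function on the hidden set -/
noncomputable def hv : (D : ℕ) → Om D → ((Fin D → Bool) → Bool) → ((Fin D → Bool) → ℝ) →
    ((Fin D → Bool) → ℝ)
  | 0, _, _, v => v
  | D + 1, ω, u, v => fun z =>
      if hu D ω.1.1 (half false u) (Fin.tail z) && hu D ω.1.2 (half true u) (Fin.tail z) then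
        (hv D ω.1.1 (half false u) (half false v) (Fin.tail z)
          + hv D ω.1.2 (half true u) (half true v) (Fin.tail z)) / 2
      else if xor (z 0) (ω.2 (Fin.tail z)) then hv D ω.1.2 (half true u) (half true v) (Fin.tail z)
      else hv D ω.1.1 (half false u) (half false v) (Fin.tail z)

theorem half_hu {D : ℕ} (ω0 ω1 : Om D) (c : (Fin D → Bool) → Bool)
    (u : (Fin (D + 1) → Bool) → Bool) (b : Bool) :
    half b (hu (D + 1) ((ω0, ω1), c) u) = fun y =>
      if xor b (c y) then hu D ω1 (half true u) y else hu D ω0 (half false u) y := rfl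

theorem half_hv {D : ℕ} (ω0 ω1 : Om D) (c : (Fin D → Bool) → Bool)
    (u : (Fin (D + 1) → Bool) → Bool) (v : (Fin (D + 1) → Bool) → ℝ) (b : Bool) :
    half b (hv (D + 1) ((ω0, ω1), c) u v) = fun y =>
      if hu D ω0 (half false u) y && hu D ω1 (half true u) y then
        (hv D ω0 (half false u) (half false v) y + hv D ω1 (half true u) (half true v) y) / 2
      else if xor b (c y) then hv D ω1 (half true u) (half true v) y
      else hv D ω0 (half false u) (half false v) y := rfl

/-- `v` is supported on the hidden set -/
def Spt {D : ℕ} (u : (Fin D → Bool) → Bool) (v : (Fin D → Bool) → ℝ) : Prop :=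
  ∀ x, u x = false → v x = 0

theorem Spt.half {D : ℕ} {u : (Fin (D + 1) → Bool) → Bool} {v : (Fin (D + 1) → Bool) → ℝ}
    (h : Spt u v) (b : Bool) : Spt (half b u) (half b v) := fun x hx => h _ hx

theorem Spt.hv : ∀ {D : ℕ} (ω : Om D) {u : (Fin D → Bool) → Bool} {v : (Fin D → Bool) → ℝ},
    Spt u v → Spt (hu D ω u) (ThS.hv D ω u v)
  | 0, _, _, _, h => h
  | D + 1, ((ω0, ω1), c), u, v, h => by
      intro z hz
      have h0 := Spt.hv ω0 (h.half false) (Fin.tail z)
      have h1 := Spt.hv ω1 (h.half true) (Fin.tail z)
      change (if xor (z 0) (c (Fin.tail z)) then hu D ω1 (ThS.half true u) (Fin.tail z)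
        else hu D ω0 (ThS.half false u) (Fin.tail z)) = false at hz
      change (if hu D ω0 (ThS.half false u) (Fin.tail z) && hu D ω1 (ThS.half true u) (Fin.tail z) then
        (ThS.hv D ω0 (ThS.half false u) (ThS.half false v) (Fin.tail z)
          + ThS.hv D ω1 (ThS.half true u) (ThS.half true v) (Fin.tail z)) / 2
        else if xor (z 0) (c (Fin.tail z)) then ThS.hv D ω1 (ThS.half true u) (ThS.half true v) (Fin.tail z)
        else ThS.hv D ω0 (ThS.half false u) (ThS.half false v) (Fin.tail z)) = 0
      by_cases hx : xor (z 0) (c (Fin.tail z)) = true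
      · rw [if_pos hx] at hz
        rw [hz, Bool.and_false, if_neg (by simp), if_pos hx]
        exact h1 hz
      · rw [if_neg hx] at hz
        rw [hz, Bool.false_and, if_neg (by simp), if_neg hx]
        exact h0 hz

/-- real indicator -/
def ind {D : ℕ} (u : (Fin D → Bool) → Bool) : (Fin D → Bool) → ℝ := fun x => if u x then 1 else 0

theorem ind_half {D : ℕ} (u : (Fin (D + 1) → Bool) → Bool) (b : Bool) :
    ind (half b u) = half b (ind u) := rfl

/-- density -/
noncomputable def rho {D : ℕ} (u : (Fin D → Bool) → Bool) : ℝ := tot (ind u) / 2 ^ D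

theorem card_cubeR (D : ℕ) : (Fintype.card (Fin D → Bool) : ℝ) = 2 ^ D := by
  simp

theorem rho_nonneg {D : ℕ} (u : (Fin D → Bool) → Bool) : 0 ≤ rho u := by
  unfold rho tot ind
  apply div_nonneg _ (by positivity)
  apply Finset.sum_nonneg
  intro x _
  split_ifs <;> norm_num

theorem rho_le_one {D : ℕ} (u : (Fin D → Bool) → Bool) : rho u ≤ 1 := by
  unfold rho tot ind
  rw [div_le_one (by positivity)]
  calc ∑ x, (if u x then (1 : ℝ) else 0) ≤ ∑ _x : Fin D → Bool, (1 : ℝ) := by
        apply Finset.sum_le_sum
        intro x _
        split_ifs <;> norm_num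
    _ = 2 ^ D := by simp

/-! ### coin averages -/

/-- flipping one coin -/
def flipEq {α : Type*} [DecidableEq α] (y : α) : (α → Bool) ≃ (α → Bool) where
  toFun c := Function.update c y (!c y)
  invFun c := Function.update c y (!c y)
  left_inv c := by
    funext z
    by_cases h : z = y
    · subst h; simp
    · simp [h]
  right_inv c := by
    funext z
    by_cases h : z = y
    · subst h; simp
    · simp [h]

theorem flipEq_self {α : Type*} [DecidableEq α] (y : α) (c : α → Bool) :
    flipEq y c y = !c y := by simp [flipEq]

theorem flipEq_ne {α : Type*} [DecidableEq α] {y z : α} (h : z ≠ y) (c : α → Bool) :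
    flipEq y c z = c z := by simp [flipEq, h]

theorem av_coin {α : Type*} [Fintype α] [DecidableEq α] (y : α) (b : Bool) (p q : ℝ) :
    av (fun c : α → Bool => if xor b (c y) then p else q) = (p + q) / 2 := by
  have h1 := av_equiv (flipEq y) (fun c : α → Bool => if xor b (c y) then p else q)
  have h2 : av (fun c : α → Bool => if xor b (c y) then p else q)
      + av (fun c : α → Bool => if xor b (c y) then p else q) = p + q := by
    nth_rewrite 1 [← h1]
    rw [← av_add]
    have : (fun c : α → Bool => (if xor b (flipEq y c y) then p else q)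
        + (if xor b (c y) then p else q)) = fun _ => p + q := by
      funext c
      rw [flipEq_self]
      cases b <;> cases c y <;> simp <;> ring
    rw [this, av_const]
  linarith

/-- sign of a coin -/
def sg (b c : Bool) : ℝ := if xor b c then -1 else 1

theorem sg_sq (b c : Bool) : sg b c * sg b c = 1 := by
  unfold sg; split_ifs <;> norm_num

theorem sg_not (b c : Bool) : sg b (!c) = - sg b c := by
  unfold sg; cases b <;> cases c <;> simp

theorem av_sg {α : Type*} [Fintype α] [DecidableEq α] (y : α) (b : Bool) :
    av (fun c : α → Bool => sg b (c y)) = 0 := by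
  have := av_coin y b (-1) 1
  unfold sg
  rw [this]; norm_num

theorem av_sg_sg {α : Type*} [Fintype α] [DecidableEq α] (y z : α) (b : Bool) :
    av (fun c : α → Bool => sg b (c y) * sg b (c z)) = if y = z then 1 else 0 := by
  by_cases h : y = z
  · subst h
    rw [if_pos rfl]
    simp_rw [sg_sq]
    exact av_const _
  · rw [if_neg h]
    have h1 := av_equiv (flipEq y) (fun c : α → Bool => sg b (c y) * sg b (c z))
    have h2 : av (fun c : α → Bool => sg b (flipEq y c y) * sg b (flipEq y c z))
        = - av (fun c : α → Bool => sg b (c y) * sg b (c z)) := by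
      have : (fun c : α → Bool => sg b (flipEq y c y) * sg b (flipEq y c z))
          = fun c => (-1) * (sg b (c y) * sg b (c z)) := by
        funext c
        rw [flipEq_self, flipEq_ne (fun h' => h h'.symm), sg_not]
        ring
      rw [this, av_mul_left]; ring
    rw [h2] at h1
    linarith

/-! ### first moments -/

theorem av_hu : ∀ {D : ℕ} (u : (Fin D → Bool) → Bool) (y : Fin D → Bool),
    av (fun ω : Om D => ind (hu D ω u) y) = rho u
  | 0, u, y => by
      have : (fun ω : Om 0 => ind (hu 0 ω u) y) = fun _ => ind u y := rfl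
      rw [this, av_const]
      unfold rho tot
      rw [Fintype.sum_subsingleton _ y]
      simp
  | D + 1, u, z => by
      rw [av_Om_succ]
      have hz : z = cns (z 0) (Fin.tail z) := (cns_head_tail z).symm
      have h1 : ∀ (ω0 ω1 : Om D), av (fun c : (Fin D → Bool) → Bool =>
          ind (hu (D + 1) ((ω0, ω1), c) u) z)
          = (ind (hu D ω1 (half true u)) (Fin.tail z) + ind (hu D ω0 (half false u)) (Fin.tail z)) / 2 := by
        intro ω0 ω1
        rw [← av_coin (Fin.tail z) (z 0)]
        congr 1
        funext c
        show (if (if xor (z 0) (c (Fin.tail z)) then hu D ω1 (half true u) (Fin.tail z)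
          else hu D ω0 (half false u) (Fin.tail z)) = true then (1 : ℝ) else 0) = _
        by_cases hx : xor (z 0) (c (Fin.tail z)) = true
        · rw [if_pos hx, if_pos hx]; rfl
        · rw [if_neg hx, if_neg hx]; rfl
      simp_rw [h1]
      simp_rw [av_div, av_add, av_const]
      rw [av_hu (half true u), av_hu (half false u)]
      unfold rho
      rw [tot_succ, ind_half, ind_half, pow_succ]
      ring

theorem av_hv : ∀ {D : ℕ} (u : (Fin D → Bool) → Bool) (v : (Fin D → Bool) → ℝ) (y : Fin D → Bool),
    av (fun ω : Om D => hv D ω u v y) = tot v / 2 ^ D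
  | 0, u, v, y => by
      have : (fun ω : Om 0 => hv 0 ω u v y) = fun _ => v y := rfl
      rw [this, av_const]
      unfold tot
      rw [Fintype.sum_subsingleton _ y]
      simp
  | D + 1, u, v, z => by
      rw [av_Om_succ]
      have h1 : ∀ (ω0 ω1 : Om D), av (fun c : (Fin D → Bool) → Bool =>
          hv (D + 1) ((ω0, ω1), c) u v z)
          = (hv D ω1 (half true u) (half true v) (Fin.tail z)
            + hv D ω0 (half false u) (half false v) (Fin.tail z)) / 2 := by
        intro ω0 ω1
        by_cases hb : (hu D ω0 (half false u) (Fin.tail z) && hu D ω1 (half true u) (Fin.tail z)) = true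
        · have : (fun c : (Fin D → Bool) → Bool => hv (D + 1) ((ω0, ω1), c) u v z)
              = fun _ => (hv D ω1 (half true u) (half true v) (Fin.tail z)
                + hv D ω0 (half false u) (half false v) (Fin.tail z)) / 2 := by
            funext c
            show (if (hu D ω0 (half false u) (Fin.tail z) && hu D ω1 (half true u) (Fin.tail z)) = true
              then _ else _) = _
            rw [if_pos hb, add_comm]
          rw [this, av_const]
        · rw [← av_coin (Fin.tail z) (z 0)]
          congr 1
          funext c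
          show (if (hu D ω0 (half false u) (Fin.tail z) && hu D ω1 (half true u) (Fin.tail z)) = true
              then _ else _) = _
          rw [if_neg hb]
      simp_rw [h1]
      simp_rw [av_div, av_add, av_const]
      rw [av_hv (half true u), av_hv (half false u), tot_succ, pow_succ]
      ring

theorem tot_hv : ∀ {D : ℕ} (ω : Om D) (u : (Fin D → Bool) → Bool) (v : (Fin D → Bool) → ℝ),
    tot (hv D ω u v) = tot v
  | 0, _, _, _ => rfl
  | D + 1, ((ω0, ω1), c), u, v => by
      rw [tot_succ, half_hv, half_hv]
      have : ∀ y, ((if (hu D ω0 (half false u) y && hu D ω1 (half true u) y) = true then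
          (hv D ω0 (half false u) (half false v) y + hv D ω1 (half true u) (half true v) y) / 2
          else if xor false (c y) then hv D ω1 (half true u) (half true v) y
          else hv D ω0 (half false u) (half false v) y) : ℝ)
          + (if (hu D ω0 (half false u) y && hu D ω1 (half true u) y) = true then
          (hv D ω0 (half false u) (half false v) y + hv D ω1 (half true u) (half true v) y) / 2
          else if xor true (c y) then hv D ω1 (half true u) (half true v) y
          else hv D ω0 (half false u) (half false v) y)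
          = hv D ω0 (half false u) (half false v) y + hv D ω1 (half true u) (half true v) y := by
        intro y
        by_cases hb : (hu D ω0 (half false u) y && hu D ω1 (half true u) y) = true
        · rw [if_pos hb, if_pos hb]; ring
        · rw [if_neg hb, if_neg hb]
          cases c y <;> simp
          ring
      have h2 : tot (hv D ω0 (half false u) (half false v)) + tot (hv D ω1 (half true u) (half true v))
          = tot v := by
        rw [tot_hv ω0, tot_hv ω1, ← tot_succ]
      rw [← h2]
      unfold tot
      rw [← Finset.sum_add_distrib, ← Finset.sum_add_distrib]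
      apply Finset.sum_congr rfl
      intro y _
      exact this y

end Crest.Agent.ThS
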