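import Mathlib
import Crest.Agent.ThHid2
import Crest.Agent.ThQuench
import Crest.Agent.ThA1
import Crest.Agent.ThK

/-! S0222, P(bad): the average of `F0` over the environment. -/

set_option autoImplicit false
set_option linter.unusedSectionVars false
set_option linter.unusedVariables false

namespace Crest.Agent.ThS

open Finset

section F0c

variable {A : Type} [Fintype A] [DecidableEq A]

/-- `F0` with a terminal weight -/
noncomputable def F0c : List (A → A) → (A → ℝ) → A → ℝ
  | [], w, a => w a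
  | τ :: T, w, a => phi τ a * ((F0c T w a + F0c T w (τ a)) / 2)

theorem F0_eq_F0c : ∀ (T : List (A → A)) (a : A), F0 T a = F0c T (fun _ => 1) a
  | [], a => rfl
  | τ :: T, a => by
      show phi τ a * ((F0 T a + F0 T (τ a)) / 2) = phi τ a * ((F0c T _ a + F0c T _ (τ a)) / 2)
      rw [F0_eq_F0c T a, F0_eq_F0c T (τ a)]

theorem F0c_snoc : ∀ (T : List (A → A)) (τ : A → A) (w : A → ℝ) (a : A),
    F0c (T ++ [τ]) w a = F0c T (F0c [τ] w) a
  | [], τ, w, a => rfl
  | σ :: T, τ, w, a => by
      show phi σ a * ((F0c (T ++ [τ]) w a + F0c (T ++ [τ]) w (σ a)) / 2) = _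
      rw [F0c_snoc T τ w a, F0c_snoc T τ w (σ a)]
      rfl

theorem F0c_av {ι : Type*} [Fintype ι] : ∀ (T : List (A → A)) (w : ι → A → ℝ) (a : A),
    F0c T (fun b => av (fun h => w h b)) a = av (fun h => F0c T (w h) a)
  | [], w, a => rfl
  | τ :: T, w, a => by
      show phi τ a * ((F0c T _ a + F0c T _ (τ a)) / 2)
        = av (fun h => phi τ a * ((F0c T (w h) a + F0c T (w h) (τ a)) / 2))
      rw [F0c_av T w a, F0c_av T w (τ a), av_mul_left, av_div, av_add]

theorem F0c_congr (T : List (A → A)) (w w' : A → ℝ) (h : ∀ b, w b = w' b) (a : A) :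
    F0c T w a = F0c T w' a := by
  have : w = w' := funext h
  rw [this]

end F0c

variable {D : ℕ} {A : Type} [Fintype A] [DecidableEq A]

theorem av_EnvT_cons (j : Fin D) (L : List (Fin D)) (F : EnvT D (j :: L) → ℝ) :
    av F = av (fun e : EnvT D L =>
      av (fun h : {h : Equiv.Perm (Fin D → Bool) // h ∈ dirSet D j} => F (h, e))) := by
  unfold av
  rw [sum_EnvT_cons, card_EnvT_cons, ← Finset.sum_div, div_div, Finset.sum_comm, Fintype.card_coe]
  push_cast
  ring

/-- the partner map as a permutation -/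
noncomputable def ptnP (j : Fin D) (z : A ↪ (Fin D → Bool)) : Equiv.Perm A where
  toFun := ptn j z
  invFun := ptn j z
  left_inv := ptn_ptn j z
  right_inv := ptn_ptn j z

theorem ptnP_mem (j : Fin D) (z : A ↪ (Fin D → Bool)) : ptnP j z ∈ hidSet j z := by
  rw [mem_hidSet]
  intro a
  rcases ptn_cases j z a with h | ⟨h, _⟩
  · right; exact h
  · left
    show z (ptn j z a) = z a
    rw [h]

theorem exists_dir (j : Fin D) (z : A ↪ (Fin D → Bool)) :
    ∃ k ∈ dirSet D j, act k z = rel z (ptnP j z) := by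
  refine ⟨Equiv.Perm.viaEmbeddingHom z (ptnP j z), ?_, ?_⟩
  · have h := conj_mem_dirSet z 1 j (ptnP j z) (by rw [act_one]; exact ptnP_mem j z)
    simpa using h
  · ext1 a
    show Equiv.Perm.viaEmbeddingHom z (ptnP j z) (z a) = z (ptnP j z a)
    rw [Equiv.Perm.viaEmbeddingHom_apply]
    exact Equiv.Perm.viaEmbedding_apply _ z a

theorem av_dir_shift (j : Fin D) (k : Equiv.Perm (Fin D → Bool)) (hk : k ∈ dirSet D j)
    (F : Equiv.Perm (Fin D → Bool) → ℝ) :
    av (fun h : {h : Equiv.Perm (Fin D → Bool) // h ∈ dirSet D j} => F (h.1 * k))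
      = av (fun h : {h : Equiv.Perm (Fin D → Bool) // h ∈ dirSet D j} => F h.1) := by
  let e : {h : Equiv.Perm (Fin D → Bool) // h ∈ dirSet D j} ≃
      {h : Equiv.Perm (Fin D → Bool) // h ∈ dirSet D j} :=
    { toFun := fun h => ⟨h.1 * k, dirSet_mul_mem h.2 hk⟩
      invFun := fun h => ⟨h.1 * k⁻¹, dirSet_mul_mem h.2 (dirSet_inv_mem hk)⟩
      left_inv := by intro h; apply Subtype.ext; simp
      right_inv := by intro h; apply Subtype.ext; simp }
  exact av_equiv e (fun h => F h.1)

theorem av_w_ptn (w : (A ↪ (Fin D → Bool)) → A → ℝ)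
    (hw : ∀ y (σ : Equiv.Perm A) a, w (rel y σ) a = w y (σ a)) (j : Fin D)
    (z : A ↪ (Fin D → Bool)) (b : A) :
    av (fun h : {h : Equiv.Perm (Fin D → Bool) // h ∈ dirSet D j} => w (act h.1 z) (ptn j z b))
      = av (fun h : {h : Equiv.Perm (Fin D → Bool) // h ∈ dirSet D j} => w (act h.1 z) b) := by
  obtain ⟨k, hk, hkz⟩ := exists_dir j z
  rw [← av_dir_shift j k hk (fun h => w (act h z) b)]
  congr 1
  funext h
  rw [act_mul, hkz, act_rel, hw]
  rfl

/-- weights along the true trajectory -/
noncomputable def QL : (L : List (Fin D)) → EnvT D L → (A ↪ (Fin D → Bool)) → A → ℝ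
  | [], _, _, _ => 1
  | j :: L, e, y, a => QL L e.2 y a * phi (ptn j (posL L e.2 y)) a

theorem ptn_rel (j : Fin D) (z : A ↪ (Fin D → Bool)) (σ : Equiv.Perm A) (a : A) :
    ptn j (rel z σ) a = σ⁻¹ (ptn j z (σ a)) := by
  rcases ptn_cases j z (σ a) with h | ⟨h, h'⟩
  · apply ptn_of
    rw [rel_apply, rel_apply]
    simpa using h
  · rw [h]
    have : σ⁻¹ (σ a) = a := by simp
    rw [this]
    apply ptn_not
    intro b
    exact h' (σ b)

theorem phi_rel (j : Fin D) (z : A ↪ (Fin D → Bool)) (σ : Equiv.Perm A) (a : A) :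
    phi (ptn j (rel z σ)) a = phi (ptn j z) (σ a) := by
  unfold phi
  rw [ptn_rel]
  have : (σ⁻¹ (ptn j z (σ a)) = a) ↔ (ptn j z (σ a) = σ a) := by
    rw [Equiv.Perm.inv_eq_iff_eq]
  simp only [this]

theorem av_F0c : ∀ (L : List (Fin D)) (w : (A ↪ (Fin D → Bool)) → A → ℝ)
    (hw : ∀ y (σ : Equiv.Perm A) a, w (rel y σ) a = w y (σ a))
    (y : A ↪ (Fin D → Bool)) (a : A),
    av (fun e : EnvT D L => F0c (tauL L e y) (w (posL L e y)) a)
      = av (fun e : EnvT D L => QL L e y a * w (posL L e y) a)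
  | [], w, hw, y, a => by
      congr 1
      funext e
      show w y a = 1 * w y a
      rw [one_mul]
  | j :: L, w, hw, y, a => by
      rw [av_EnvT_cons, av_EnvT_cons]
      set W : (A ↪ (Fin D → Bool)) → A → ℝ := fun z b => phi (ptn j z) b *
        av (fun h : {h : Equiv.Perm (Fin D → Bool) // h ∈ dirSet D j} => w (act h.1 z) b) with hW
      have hWrel : ∀ z (σ : Equiv.Perm A) b, W (rel z σ) b = W z (σ b) := by
        intro z σ b
        show phi (ptn j (rel z σ)) b * _ = phi (ptn j z) (σ b) * _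
        rw [phi_rel]
        congr 2
        funext h
        rw [act_rel, hw]
      have ih := av_F0c L W hWrel y a
      have hL : (fun e : EnvT D L =>
          av (fun h : {h : Equiv.Perm (Fin D → Bool) // h ∈ dirSet D j} =>
            F0c (tauL (j :: L) (h, e) y) (w (posL (j :: L) (h, e) y)) a))
          = fun e : EnvT D L => F0c (tauL L e y) (W (posL L e y)) a := by
        funext e
        set z := posL L e y with hz
        have h1 : ∀ h : {h : Equiv.Perm (Fin D → Bool) // h ∈ dirSet D j},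
            F0c (tauL (j :: L) (h, e) y) (w (posL (j :: L) (h, e) y)) a
            = F0c (tauL L e y) (F0c [ptn j z] (w (act h.1 z))) a := by
          intro h
          exact F0c_snoc (tauL L e y) (ptn j z) (w (act h.1 z)) a
        simp_rw [h1]
        rw [← F0c_av]
        apply F0c_congr
        intro b
        show av (fun h : {h : Equiv.Perm (Fin D → Bool) // h ∈ dirSet D j} =>
          phi (ptn j z) b * ((w (act h.1 z) b + w (act h.1 z) (ptn j z b)) / 2)) = W z b
        rw [av_mul_left, av_div, av_add, av_w_ptn w hw j z b]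
        show _ = phi (ptn j z) b * _
        ring
      rw [hL, ih]
      congr 1
      funext e
      have h2 : ∀ h : {h : Equiv.Perm (Fin D → Bool) // h ∈ dirSet D j},
          QL (j :: L) (h, e) y a * w (posL (j :: L) (h, e) y) a
          = (QL L e y a * phi (ptn j (posL L e y)) a) * w (act h.1 (posL L e y)) a := fun h => rfl
      simp_rw [h2]
      rw [av_mul_left]
      show QL L e y a * (phi (ptn j (posL L e y)) a * _) = _
      ring

theorem av_F0 (L : List (Fin D)) (y : A ↪ (Fin D → Bool)) (a : A) :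
    av (fun e : EnvT D L => F0 (tauL L e y) a) = av (fun e : EnvT D L => QL L e y a) := by
  have h := av_F0c L (fun _ _ => 1) (fun _ _ _ => rfl) y a
  simp only [mul_one] at h
  rw [← h]
  congr 1
  funext e
  exact F0_eq_F0c _ a

/-! ### partners as starting wires -/

/-- the starting wire of the partner of `x` -/
noncomputable def pw (j : Fin D) (g : Equiv.Perm (Fin D → Bool)) (x : Fin D → Bool) : Fin D → Bool :=
  g⁻¹ (flipc j (g x))

theorem g_pw (j : Fin D) (g : Equiv.Perm (Fin D → Bool)) (x : Fin D → Bool) :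
    g (pw j g x) = flipc j (g x) := by
  unfold pw
  simp

/-- starting wires of all the partners -/
noncomputable def PS : (L : List (Fin D)) → EnvT D L → (Fin D → Bool) → Finset (Fin D → Bool)
  | [], _, _ => ∅
  | j :: L, e, x => insert (pw j (gL L e.2) x) (PS L e.2 x)

theorem PS_sep : ∀ (L : List (Fin D)), L.Nodup → ∀ (e : EnvT D L) (x p : Fin D → Bool),
    p ∈ PS L e x → ∃ i ∈ L, gL L e p i ≠ gL L e x i
  | [], _, _, _, _, h => by simp [PS] at h
  | j :: L, hnd, e, x, p, h => by
      have hnd' := List.nodup_cons.mp hnd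
      have hg : ∀ q, gL (j :: L) e q = e.1.1 (gL L e.2 q) := fun q => rfl
      unfold PS at h
      rw [mem_insert] at h
      rcases h with h | h
      · refine ⟨j, by simp, ?_⟩
        rw [hg, hg, h, g_pw]
        exact (dir_sep e.1.2 _).symm
      · obtain ⟨i, hiL, hi⟩ := PS_sep L hnd'.2 e.2 x p h
        have hij : i ≠ j := fun h' => hnd'.1 (h' ▸ hiL)
        refine ⟨i, by simp [hiL], ?_⟩
        rw [hg, hg, dir_flip e.1.2 _ i hij, dir_flip e.1.2 _ i hij]
        exact hi

theorem notMem_PS (L : List (Fin D)) (hnd : L.Nodup) (e : EnvT D L) (x : Fin D → Bool) :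
    x ∉ PS L e x := by
  intro h
  obtain ⟨i, _, hi⟩ := PS_sep L hnd e x x h
  exact hi rfl

theorem pw_notMem (j : Fin D) (L : List (Fin D)) (hnd : (j :: L).Nodup) (e : EnvT D L)
    (x : Fin D → Bool) : pw j (gL L e) x ∉ PS L e x := by
  intro h
  have hnd' := List.nodup_cons.mp hnd
  obtain ⟨i, hiL, hi⟩ := PS_sep L hnd'.2 e x _ h
  have hij : i ≠ j := fun h' => hnd'.1 (h' ▸ hiL)
  rw [g_pw, flipc_ne _ _ hij] at hi
  exact hi rfl

theorem card_PS : ∀ (L : List (Fin D)), L.Nodup → ∀ (e : EnvT D L) (x : Fin D → Bool),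
    (PS L e x).card = L.length
  | [], _, _, _ => rfl
  | j :: L, hnd, e, x => by
      have hnd' := List.nodup_cons.mp hnd
      show (insert (pw j (gL L e.2) x) (PS L e.2 x)).card = L.length + 1
      rw [card_insert_of_notMem (pw_notMem j L hnd e.2 x), card_PS L hnd'.2 e.2 x]

/-- the constant `1/√2` -/
noncomputable def cc : ℝ := (Real.sqrt 2)⁻¹

theorem phi_eq (j : Fin D) (g : Equiv.Perm (Fin D → Bool)) (y : A ↪ (Fin D → Bool)) (a : A) :
    phi (ptn j (act g y)) a = if pw j g (y a) ∈ univ.map y then cc else 1 := by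
  unfold phi
  have h : (ptn j (act g y) a = a) ↔ ¬ (pw j g (y a) ∈ univ.map y) := by
    rcases ptn_cases j (act g y) a with h | ⟨h, h'⟩
    · have hne : ptn j (act g y) a ≠ a := by
        intro h1
        rw [h1] at h
        exact flipc_ne_self j _ h.symm
      simp only [hne, false_iff, not_not]
      rw [mem_map]
      refine ⟨ptn j (act g y) a, mem_univ _, ?_⟩
      show y (ptn j (act g y) a) = pw j g (y a)
      unfold pw
      rw [act_apply] at h
      rw [act_apply] at h
      rw [← h]
      simp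
    · simp only [h, true_iff]
      intro hm
      obtain ⟨b, _, hb⟩ := mem_map.mp hm
      apply h' b
      show g (y b) = flipc j (g (y a))
      have hb' : y b = pw j g (y a) := hb
      rw [hb', g_pw]
  by_cases hm : pw j g (y a) ∈ univ.map y
  · have h1 : ¬ ptn j (act g y) a = a := fun h2 => (h.mp h2) hm
    rw [if_neg h1, if_pos hm]
    rfl
  · rw [if_pos (h.mpr hm), if_neg hm]

theorem QL_eq : ∀ (L : List (Fin D)), L.Nodup → ∀ (e : EnvT D L) (y : A ↪ (Fin D → Bool)) (a : A),
    QL L e y a = cc ^ (PS L e (y a) ∩ univ.map y).card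
  | [], _, _, _, _ => by simp [QL, PS]
  | j :: L, hnd, e, y, a => by
      have hnd' := List.nodup_cons.mp hnd
      show QL L e.2 y a * phi (ptn j (posL L e.2 y)) a
        = cc ^ (insert (pw j (gL L e.2) (y a)) (PS L e.2 (y a)) ∩ univ.map y).card
      rw [QL_eq L hnd'.2 e.2 y a, posL_eq, phi_eq]
      by_cases hm : pw j (gL L e.2) (y a) ∈ univ.map y
      · rw [if_pos hm, insert_inter_of_mem hm, card_insert_of_notMem, pow_succ]
        intro h
        exact pw_notMem j L hnd e.2 (y a) (mem_inter.mp h).1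
      · rw [if_neg hm, mul_one, insert_inter_of_notMem hm]

end Crest.Agent.ThS
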