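import Mathlib
import Crest.Agent.ThGoodA
import Crest.Agent.ThBad
import Crest.Agent.T22Lstar

/-! S0222, P(bad): averages over the positions. -/

set_option autoImplicit false
set_option linter.unusedSectionVars false
set_option linter.unusedVariables false

namespace Crest.Agent.ThS

open Finset

section emb

variable {A Ω : Type} [Fintype A] [DecidableEq A] [Fintype Ω] [DecidableEq Ω]

theorem card_emb_range (S : Finset Ω) (hS : S.card = Fintype.card A) :
    (univ.filter (fun y : A ↪ Ω => univ.map y = S)).card = (Fintype.card A).factorial := by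
  classical
  have h1 : (univ.filter (fun y : A ↪ Ω => univ.map y = S)).card
      = Fintype.card {y : A ↪ Ω // ∀ a, y a ∈ S} := by
    rw [Fintype.card_subtype]
    congr 1
    ext y
    simp only [mem_filter, mem_univ, true_and]
    constructor
    · intro h a
      rw [← h]
      exact mem_map_of_mem y (mem_univ a)
    · intro h
      apply eq_of_subset_of_card_le
      · intro x hx
        obtain ⟨a, _, rfl⟩ := mem_map.mp hx
        exact h a
      · rw [card_map, hS, card_univ]
  have e : {y : A ↪ Ω // ∀ a, y a ∈ S} ≃ (A ↪ {x // x ∈ S}) :=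
    { toFun := fun y => ⟨fun a => ⟨y.1 a, y.2 a⟩, fun a b h => y.1.injective (congrArg Subtype.val h)⟩
      invFun := fun z => ⟨z.trans (Function.Embedding.subtype _), fun a => (z a).2⟩
      left_inv := by intro y; apply Subtype.ext; ext a; rfl
      right_inv := by intro z; ext a; rfl }
  rw [h1, Fintype.card_congr e, Fintype.card_embedding_eq, Fintype.card_coe, hS,
    Nat.descFactorial_self]

theorem sum_emb (G : Finset Ω → ℝ) :
    ∑ y : A ↪ Ω, G (univ.map y)
      = ((Fintype.card A).factorial : ℝ) * ∑ S ∈ powersetCard (Fintype.card A) (univ : Finset Ω), G S := by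
  classical
  rw [mul_sum]
  rw [← sum_fiberwise_of_maps_to (s := (univ : Finset (A ↪ Ω)))
    (t := powersetCard (Fintype.card A) (univ : Finset Ω)) (g := fun y => univ.map y)
    (fun y _ => by rw [mem_powersetCard]; exact ⟨subset_univ _, by rw [card_map, card_univ]⟩)
    (fun y => G (univ.map y))]
  apply sum_congr rfl
  intro S hS
  have hS' := (mem_powersetCard.mp hS).2
  rw [sum_congr rfl (g := fun _ => G S) (fun y hy => by rw [(mem_filter.mp hy).2]), sum_const,
    nsmul_eq_mul, card_emb_range S hS']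

theorem card_emb :
    (Fintype.card (A ↪ Ω) : ℝ)
      = ((Fintype.card A).factorial : ℝ) * ((Fintype.card Ω).choose (Fintype.card A) : ℝ) := by
  rw [Fintype.card_embedding_eq, Nat.descFactorial_eq_factorial_mul_choose]
  push_cast
  ring

/-- average over positions of a function of (own wire, hidden set) -/
theorem sum_emb_point (H : Ω → Finset Ω → ℝ) (hA : 0 < Fintype.card A) :
    ∑ y : A ↪ Ω, ∑ a, H (y a) (univ.map y)
      = ((Fintype.card A).factorial : ℝ) * ∑ x : Ω,
          ∑ T ∈ powersetCard (Fintype.card A - 1) (univ.erase x), H x (insert x T) := by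
  classical
  have h1 : ∀ y : A ↪ Ω, ∑ a, H (y a) (univ.map y) = ∑ x ∈ univ.map y, H x (univ.map y) := by
    intro y
    rw [sum_map]
  simp_rw [h1]
  rw [sum_emb (fun S => ∑ x ∈ S, H x S)]
  congr 1
  have h2 : ∑ S ∈ powersetCard (Fintype.card A) (univ : Finset Ω), ∑ x ∈ S, H x S
      = ∑ x : Ω, ∑ S ∈ (powersetCard (Fintype.card A) (univ : Finset Ω)).filter (fun S => x ∈ S), H x S := by
    rw [sum_comm' (t' := univ)
      (s' := fun x => (powersetCard (Fintype.card A) (univ : Finset Ω)).filter (fun S => x ∈ S))]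
    intro S x
    simp only [mem_filter, mem_univ, and_true]
  rw [h2]
  apply sum_congr rfl
  intro x _
  symm
  refine sum_bij' (fun T _ => insert x T) (fun S _ => S.erase x) ?_ ?_ ?_ ?_ ?_
  · intro T hT
    have hT' := mem_powersetCard.mp hT
    have hx : x ∉ T := fun h => by simpa using hT'.1 h
    rw [mem_filter, mem_powersetCard]
    exact ⟨⟨subset_univ _, by rw [card_insert_of_notMem hx, hT'.2]; omega⟩, mem_insert_self _ _⟩
  · intro S hS
    have hS' := mem_filter.mp hS
    rw [mem_powersetCard]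
    exact ⟨erase_subset_erase _ (subset_univ _),
      by rw [card_erase_of_mem hS'.2, (mem_powersetCard.mp hS'.1).2]⟩
  · intro T hT
    have hT' := mem_powersetCard.mp hT
    have hx : x ∉ T := fun h => by simpa using hT'.1 h
    exact erase_insert hx
  · intro S hS
    exact insert_erase (mem_filter.mp hS).2
  · intro T hT
    rfl

end emb

variable {D : ℕ} {A : Type} [Fintype A] [DecidableEq A]

/-- base of the geometric bound -/
noncomputable def bet (m n D : ℕ) : ℝ := 1 - (1 - cc) * ((((m : ℝ) - 1) - D) / ((n : ℝ) - 1))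

theorem cc_nonneg : 0 ≤ cc := by unfold cc; positivity
theorem cc_le_one : cc ≤ 1 := by
  unfold cc
  apply inv_le_one_of_one_le₀
  rw [Real.one_le_sqrt]; norm_num

/-- the weight as a function of own wire and hidden set -/
noncomputable def Hw (L : List (Fin D)) (e : EnvT D L) (x : Fin D → Bool)
    (S : Finset (Fin D → Bool)) : ℝ := cc ^ (PS L e x ∩ S).card

theorem sum_QL_le (L : List (Fin D)) (hnd : L.Nodup) (e : EnvT D L)
    (hA : L.length + 1 ≤ Fintype.card A) (hAn : Fintype.card A ≤ 2 ^ D) (hD : 1 < 2 ^ D) :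
    ∑ y : A ↪ (Fin D → Bool), ∑ a, QL L e y a
      ≤ (Fintype.card (A ↪ (Fin D → Bool)) : ℝ) *
        ((Fintype.card A : ℝ) * (bet (Fintype.card A) (2 ^ D) L.length) ^ L.length) := by
  classical
  set m := Fintype.card A with hm
  set n := 2 ^ D with hn
  have hcard : Fintype.card (Fin D → Bool) = n := by simp [hn]
  have h1 : ∑ y : A ↪ (Fin D → Bool), ∑ a, QL L e y a
      = ∑ y : A ↪ (Fin D → Bool), ∑ a,
        Hw L e (y a) (univ.map y) := by
    apply sum_congr rfl
    intro y _
    apply sum_congr rfl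
    intro a _
    exact QL_eq L hnd e y a
  rw [h1, sum_emb_point (Hw L e) (by omega)]
  rw [card_emb, hcard, ← hm]
  have h2 : ∀ x : Fin D → Bool, ∑ T ∈ powersetCard (m - 1) (univ.erase x),
      Hw L e x (insert x T)
      ≤ ((n - 1).choose (m - 1) : ℝ) * (bet m n L.length) ^ L.length := by
    intro x
    have hPx := notMem_PS L hnd e x
    have h3 : ∀ T ∈ powersetCard (m - 1) (univ.erase x),
        Hw L e x (insert x T)
        = cc ^ (PS L e x ∩ T).card := by
      intro T _
      show cc ^ (PS L e x ∩ insert x T).card = _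
      rw [inter_insert_of_notMem hPx]
    rw [sum_congr rfl h3]
    have hU : (univ.erase x : Finset (Fin D → Bool)).card = n - 1 := by
      rw [card_erase_of_mem (mem_univ x), card_univ, hcard]
    have h4 := ThB.hyp_sum cc cc_nonneg cc_le_one L.length (PS L e x) (univ.erase x) (m - 1)
      (by
        intro p hp
        rw [mem_erase]
        exact ⟨fun h => hPx (h ▸ hp), mem_univ _⟩)
      (card_PS L hnd e x) (by omega) (by rw [hU]; omega)
    rw [hU] at h4
    refine h4.trans (le_of_eq ?_)
    unfold bet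
    rw [Nat.cast_sub (by omega : 1 ≤ m), Nat.cast_sub (by omega : 1 ≤ n)]
    push_cast
    rfl
  have h5 : (n : ℝ) * ((n - 1).choose (m - 1) : ℝ) = (m : ℝ) * (n.choose m : ℝ) := by
    have h6 := Nat.add_one_mul_choose_eq (n - 1) (m - 1)
    rw [Nat.sub_add_cancel (by omega : 1 ≤ n), Nat.sub_add_cancel (by omega : 1 ≤ m)] at h6
    have : (n : ℝ) * ((n - 1).choose (m - 1) : ℝ) = (n.choose m : ℝ) * (m : ℝ) := by exact_mod_cast h6
    rw [this]; ring
  calc (m.factorial : ℝ) * ∑ x : Fin D → Bool, ∑ T ∈ powersetCard (m - 1) (univ.erase x),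
      Hw L e x (insert x T)
      ≤ (m.factorial : ℝ) * ∑ _x : Fin D → Bool,
          ((n - 1).choose (m - 1) : ℝ) * (bet m n L.length) ^ L.length :=
        mul_le_mul_of_nonneg_left (sum_le_sum fun x _ => h2 x) (Nat.cast_nonneg _)
    _ = (m.factorial : ℝ) * (((n : ℝ) * ((n - 1).choose (m - 1) : ℝ)) * (bet m n L.length) ^ L.length) := by
        rw [sum_const, nsmul_eq_mul, card_univ, hcard]; ring
    _ = _ := by rw [h5]; ring

/-- average of `∑ F0` -/
theorem av_sum_F0_le (L : List (Fin D)) (hnd : L.Nodup)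
    (hA : L.length + 1 ≤ Fintype.card A) (hAn : Fintype.card A ≤ 2 ^ D) (hD : 1 < 2 ^ D) :
    ∑ y : A ↪ (Fin D → Bool), ∑ e : EnvT D L, ∑ a, F0 (tauL L e y) a
      ≤ ((Fintype.card (A ↪ (Fin D → Bool)) : ℝ) * (Fintype.card (EnvT D L) : ℝ)) *
        ((Fintype.card A : ℝ) * (bet (Fintype.card A) (2 ^ D) L.length) ^ L.length) := by
  have hE : (0 : ℝ) < (Fintype.card (EnvT D L) : ℝ) := card_EnvT_pos L
  have h1 : ∀ (y : A ↪ (Fin D → Bool)), ∑ e : EnvT D L, ∑ a, F0 (tauL L e y) a
      = ∑ e : EnvT D L, ∑ a, QL L e y a := by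
    intro y
    rw [sum_comm, sum_comm (f := fun e a => QL L e y a)]
    apply sum_congr rfl
    intro a _
    have h := av_F0 L y a
    unfold av at h
    exact (div_left_inj' hE.ne').mp h
  simp_rw [h1]
  rw [sum_comm]
  calc ∑ e : EnvT D L, ∑ y : A ↪ (Fin D → Bool), ∑ a, QL L e y a
      ≤ ∑ _e : EnvT D L, (Fintype.card (A ↪ (Fin D → Bool)) : ℝ) *
        ((Fintype.card A : ℝ) * (bet (Fintype.card A) (2 ^ D) L.length) ^ L.length) :=
        sum_le_sum fun e _ => sum_QL_le L hnd e hA hAn hD
    _ = _ := by rw [sum_const, nsmul_eq_mul, card_univ]; ring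

end Crest.Agent.ThS
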