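import Mathlib
import Crest.Agent.ThGoodB

/-! S0222, P(bad): the number of hidden pairs in the first round. -/

set_option autoImplicit false
set_option linter.unusedSectionVars false
set_option linter.unusedVariables false

namespace Crest.Agent.ThS

open Finset Crest.Agent.T22

variable {D : ℕ} {A : Type} [Fintype A] [DecidableEq A]

/-- the flip as a permutation -/
def flipP (j : Fin D) : Equiv.Perm (Fin D → Bool) where
  toFun := flipc j
  invFun := flipc j
  left_inv := flipc_flipc j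
  right_inv := flipc_flipc j

/-- hidden labels whose `j`-partner is hidden -/
noncomputable def hidT (j : Fin D) (y : A ↪ (Fin D → Bool)) : Finset A := by
  classical
  exact univ.filter (fun a => flipc j (y a) ∈ univ.map y)

theorem mem_hidT {j : Fin D} {y : A ↪ (Fin D → Bool)} {a : A} :
    a ∈ hidT j y ↔ ∃ b, y b = flipc j (y a) := by
  classical
  unfold hidT
  rw [mem_filter, mem_map]
  simp

theorem card_flip_sdiff (j : Fin D) (y : A ↪ (Fin D → Bool)) :
    ((univ.map y).map (flipP j).toEmbedding \ univ.map y).card + (hidT j y).card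
      = Fintype.card A := by
  classical
  have h1 : ((univ.map y).map (flipP j).toEmbedding \ univ.map y)
      = (hidT j y)ᶜ.map (y.trans (flipP j).toEmbedding) := by
    ext x
    rw [mem_sdiff]
    simp only [mem_map, mem_univ, true_and, mem_compl, mem_hidT, Function.Embedding.trans_apply,
      Equiv.coe_toEmbedding]
    constructor
    · rintro ⟨⟨x', ⟨a, rfl⟩, rfl⟩, h⟩
      refine ⟨a, ?_, rfl⟩
      rintro ⟨b, hb⟩
      exact h ⟨b, hb⟩
    · rintro ⟨a, ha, rfl⟩
      refine ⟨⟨y a, ⟨a, rfl⟩, rfl⟩, ?_⟩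
      rintro ⟨b, hb⟩
      exact ha ⟨b, hb⟩
  rw [h1, card_map, card_compl]
  have := card_le_univ (hidT j y)
  omega

theorem exists_pairs (j : Fin D) (y : A ↪ (Fin D → Bool)) (p : ℕ) (hp : 2 * p ≤ (hidT j y).card) :
    ∃ k : Fin p → A × A, DjK k ∧ ∀ i, y (k i).2 = flipc j (y (k i).1) := by
  classical
  set T := (hidT j y).filter (fun a => y a j = false) with hT
  set T' := (hidT j y).filter (fun a => ¬ y a j = false) with hT'
  have hsum : T.card + T'.card = (hidT j y).card := card_filter_add_card_filter_not _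
  have hpt : ∀ a ∈ hidT j y, y (ptn j y a) = flipc j (y a) := by
    intro a ha
    obtain ⟨b, hb⟩ := mem_hidT.mp ha
    rw [ptn_of hb, hb]
  have hptm : ∀ a ∈ hidT j y, ptn j y a ∈ hidT j y := by
    intro a ha
    rw [mem_hidT]
    exact ⟨a, by rw [hpt a ha, flipc_flipc]⟩
  have hTT' : T.card = T'.card := by
    refine card_bij' (fun a _ => ptn j y a) (fun a _ => ptn j y a) ?_ ?_ ?_ ?_
    · intro a ha
      have ha' := mem_filter.mp ha
      rw [hT', mem_filter]
      refine ⟨hptm a ha'.1, ?_⟩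
      rw [hpt a ha'.1, flipc_self, ha'.2]
      simp
    · intro a ha
      have ha' := mem_filter.mp ha
      rw [hT, mem_filter]
      refine ⟨hptm a ha'.1, ?_⟩
      rw [hpt a ha'.1, flipc_self]
      have : y a j = true := by simpa using ha'.2
      rw [this]; rfl
    · intro a _; exact ptn_ptn j y a
    · intro a _; exact ptn_ptn j y a
  have hTp : p ≤ T.card := by omega
  obtain ⟨f⟩ : Nonempty (Fin p ↪ {a // a ∈ T}) :=
    Function.Embedding.nonempty_of_card_le (by rw [Fintype.card_fin, Fintype.card_coe]; exact hTp)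
  have hf1 : ∀ i, (f i).1 ∈ hidT j y := fun i => (mem_filter.mp (f i).2).1
  have hf2 : ∀ i, y (f i).1 j = false := fun i => (mem_filter.mp (f i).2).2
  refine ⟨fun i => ((f i).1, ptn j y (f i).1), ?_, fun i => hpt _ (hf1 i)⟩
  unfold DjK
  rw [Sum.elim_injective]
  refine ⟨?_, ?_, ?_⟩
  · intro i i' h
    exact f.injective (Subtype.ext h)
  · intro i i' h
    have h' : ptn j y (f i).1 = ptn j y (f i').1 := h
    have := congrArg (ptn j y) h'
    rw [ptn_ptn, ptn_ptn] at this
    exact f.injective (Subtype.ext this)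
  · intro i i' h
    have h' : (f i).1 = ptn j y (f i').1 := h
    have h2 : y (f i).1 j = true := by
      rw [h', hpt _ (hf1 i'), flipc_self, hf2 i']
      rfl
    rw [hf2 i] at h2
    exact Bool.noConfusion h2

/-- generating function of subsets by size and number of broken pairs -/
theorem gen_pairs (j : Fin D) (y0 b : ℝ) (hy : 0 ≤ y0) (hb : 0 ≤ b) :
    ∑ X : Finset (Fin D → Bool), y0 ^ X.card * b ^ (X.map (flipP j).toEmbedding \ X).card
      ≤ Real.sqrt (1 + 2 * b * y0 + y0 ^ 2) ^ (2 ^ D) := by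
  classical
  rw [sum_wt_eq hy hb]
  refine (Sg_le_Bg _ _ (fun _ => Mst_nonneg hy)).trans (le_of_eq ?_)
  unfold Bg
  have h1 : ∀ a : Fin D → Bool, ¬ (flipP j) a = a := fun a => flipc_ne_self j a
  simp only [h1, if_false, hs2_Mst hy hb]
  rw [prod_const, card_univ]
  simp

/-- counting positions with few hidden pairs -/
theorem card_few_pairs (j : Fin D) (p : ℕ) (y0 b : ℝ) (hy : 0 < y0) (hb : 1 ≤ b)
    (hp : 2 * p ≤ Fintype.card A) :
    ((univ.filter (fun y : A ↪ (Fin D → Bool) => ¬ (2 * p ≤ (hidT j y).card))).card : ℝ)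
      * (y0 ^ Fintype.card A * b ^ (Fintype.card A - 2 * p))
      ≤ ((Fintype.card A).factorial : ℝ) * Real.sqrt (1 + 2 * b * y0 + y0 ^ 2) ^ (2 ^ D) := by
  classical
  set m := Fintype.card A with hm
  have hb0 : 0 ≤ b := by linarith
  have h1 : ((univ.filter (fun y : A ↪ (Fin D → Bool) => ¬ (2 * p ≤ (hidT j y).card))).card : ℝ)
      * (y0 ^ m * b ^ (m - 2 * p))
      ≤ ∑ y : A ↪ (Fin D → Bool), (fun X : Finset (Fin D → Bool) =>
          y0 ^ X.card * b ^ (X.map (flipP j).toEmbedding \ X).card) (univ.map y) := by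
    rw [← nsmul_eq_mul, ← sum_const]
    refine (sum_le_sum (g := fun y : A ↪ (Fin D → Bool) => (fun X : Finset (Fin D → Bool) =>
          y0 ^ X.card * b ^ (X.map (flipP j).toEmbedding \ X).card) (univ.map y)) ?_).trans ?_
    · intro y hy'
      have hy2 := (mem_filter.mp hy').2
      show _ ≤ y0 ^ (univ.map y).card * b ^ ((univ.map y).map (flipP j).toEmbedding \ univ.map y).card
      rw [card_map, card_univ, ← hm]
      apply mul_le_mul_of_nonneg_left _ (by positivity)
      apply pow_le_pow_right₀ hb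
      have := card_flip_sdiff j y
      omega
    · apply sum_le_sum_of_subset_of_nonneg (filter_subset _ _)
      intro y _ _
      positivity
  refine h1.trans ?_
  rw [sum_emb (fun X : Finset (Fin D → Bool) =>
          y0 ^ X.card * b ^ (X.map (flipP j).toEmbedding \ X).card)]
  apply mul_le_mul_of_nonneg_left _ (Nat.cast_nonneg _)
  refine le_trans ?_ (gen_pairs j y0 b hy.le hb0)
  apply sum_le_sum_of_subset_of_nonneg (subset_univ _)
  intro X _ _
  positivity

/-- the largest term of the binomial sum -/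
theorem binom_max (N k : ℕ) (hk : k ≤ 8 * N) :
    (8 * N).choose k * 5 ^ k * 3 ^ (8 * N - k) ≤ (8 * N).choose (5 * N) * 5 ^ (5 * N) * 3 ^ (3 * N) := by
  set a : ℕ → ℕ := fun k => (8 * N).choose k * 5 ^ k * 3 ^ (8 * N - k) with ha
  have hrec : ∀ k, k < 8 * N → a (k + 1) * (3 * (k + 1)) = a k * (5 * (8 * N - k)) := by
    intro k hk
    have h1 := Nat.choose_succ_right_eq (8 * N) k
    have h2 : 8 * N - k = (8 * N - (k + 1)) + 1 := by omega
    simp only [ha]
    calc (8 * N).choose (k + 1) * 5 ^ (k + 1) * 3 ^ (8 * N - (k + 1)) * (3 * (k + 1))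
        = ((8 * N).choose (k + 1) * (k + 1)) * (5 ^ (k + 1) * (3 ^ (8 * N - (k + 1)) * 3)) := by ring
      _ = ((8 * N).choose k * (8 * N - k)) * (5 ^ (k + 1) * 3 ^ (8 * N - k)) := by
          rw [h1, ← pow_succ, ← h2]
      _ = _ := by ring
  have hup : ∀ i, i ≤ 5 * N → a (5 * N - i) ≤ a (5 * N) := by
    intro i
    induction i with
    | zero => intro _; simp
    | succ i ih =>
      intro hi
      refine le_trans ?_ (ih (by omega))
      obtain ⟨t, ht⟩ : ∃ t, 5 * N - (i + 1) = t := ⟨_, rfl⟩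
      have ht2 : 5 * N - i = t + 1 := by omega
      rw [ht, ht2]
      have h := hrec t (by omega)
      have h3 : 3 * (t + 1) ≤ 5 * (8 * N - t) := by omega
      by_contra hc
      push Not at hc
      have h4 : a (t + 1) * (3 * (t + 1)) < a t * (3 * (t + 1)) :=
        Nat.mul_lt_mul_of_pos_right hc (by omega)
      have h5 : a t * (3 * (t + 1)) ≤ a t * (5 * (8 * N - t)) := Nat.mul_le_mul_left _ h3
      omega
  have hdown : ∀ i, 5 * N + i ≤ 8 * N → a (5 * N + i) ≤ a (5 * N) := by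
    intro i
    induction i with
    | zero => intro _; simp
    | succ i ih =>
      intro hi
      refine le_trans ?_ (ih (by omega))
      have h := hrec (5 * N + i) (by omega)
      have h3 : 5 * (8 * N - (5 * N + i)) ≤ 3 * (5 * N + i + 1) := by omega
      by_contra hc
      push Not at hc
      have hc' : a (5 * N + i) < a (5 * N + i + 1) := hc
      have h4 : a (5 * N + i) * (3 * (5 * N + i + 1)) < a (5 * N + i + 1) * (3 * (5 * N + i + 1)) :=
        Nat.mul_lt_mul_of_pos_right hc' (by omega)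
      have h5 : a (5 * N + i) * (5 * (8 * N - (5 * N + i))) ≤ a (5 * N + i) * (3 * (5 * N + i + 1)) :=
        Nat.mul_le_mul_left _ h3
      omega
  have hfin : a k ≤ a (5 * N) := by
    rcases Nat.lt_or_ge (5 * N) k with h | h
    · have := hdown (k - 5 * N) (by omega)
      have e : 5 * N + (k - 5 * N) = k := by omega
      rwa [e] at this
    · have := hup (5 * N - k) (by omega)
      have e : 5 * N - (5 * N - k) = k := by omega
      rwa [e] at this
  have e2 : 8 * N - 5 * N = 3 * N := by omega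
  simpa only [ha, e2] using hfin

theorem binom_lower (N : ℕ) :
    (8 : ℝ) ^ (8 * N) ≤ (8 * N + 1 : ℝ) * (((8 * N).choose (5 * N) : ℝ) * 5 ^ (5 * N) * 3 ^ (3 * N)) := by
  have h1 := add_pow (5 : ℕ) 3 (8 * N)
  have h2 : (5 + 3 : ℕ) ^ (8 * N) ≤ (8 * N + 1) * ((8 * N).choose (5 * N) * 5 ^ (5 * N) * 3 ^ (3 * N)) := by
    rw [h1]
    calc ∑ k ∈ range (8 * N + 1), 5 ^ k * 3 ^ (8 * N - k) * (8 * N).choose k
        ≤ ∑ _k ∈ range (8 * N + 1), (8 * N).choose (5 * N) * 5 ^ (5 * N) * 3 ^ (3 * N) := by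
          apply sum_le_sum
          intro k hk
          have hk' : k ≤ 8 * N := by have := mem_range.mp hk; omega
          have := binom_max N k hk'
          calc 5 ^ k * 3 ^ (8 * N - k) * (8 * N).choose k
              = (8 * N).choose k * 5 ^ k * 3 ^ (8 * N - k) := by ring
            _ ≤ _ := this
      _ = _ := by rw [sum_const, card_range, smul_eq_mul]
  have h3 : ((5 + 3 : ℕ) : ℝ) ^ (8 * N)
      ≤ ((8 * N + 1 : ℕ) : ℝ) * (((8 * N).choose (5 * N) : ℝ) * 5 ^ (5 * N) * 3 ^ (3 * N)) := by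
    exact_mod_cast h2
  calc (8 : ℝ) ^ (8 * N) = ((5 + 3 : ℕ) : ℝ) ^ (8 * N) := by norm_num
    _ ≤ _ := h3
    _ = _ := by push_cast; ring

/-- few hidden pairs are unlikely -/
theorem few_pairs_le (j : Fin D) (N p : ℕ) (hN : Fintype.card A = 5 * N) (hn : 2 ^ D = 8 * N)
    (hp : 4 * p ≤ 5 * N) :
    ((univ.filter (fun y : A ↪ (Fin D → Bool) => ¬ (2 * p ≤ (hidT j y).card))).card : ℝ)
      ≤ ((8 * N + 1 : ℝ) * (0.96 : ℝ) ^ N) * (Fintype.card (A ↪ (Fin D → Bool)) : ℝ) := by
  classical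
  set F : ℝ := ((univ.filter (fun y : A ↪ (Fin D → Bool) => ¬ (2 * p ≤ (hidT j y).card))).card : ℝ)
    with hF
  have hF0 : 0 ≤ F := Nat.cast_nonneg _
  have h1 := card_few_pairs (A := A) j p (3 / 2) (10 / 9) (by norm_num) (by norm_num) (by omega)
  rw [← hF, hN, hn] at h1
  have e1 : (1 + 2 * (10 / 9 : ℝ) * (3 / 2) + (3 / 2) ^ 2) = 79 / 12 := by norm_num
  rw [e1] at h1
  have hcard : (Fintype.card (A ↪ (Fin D → Bool)) : ℝ)
      = ((5 * N).factorial : ℝ) * ((8 * N).choose (5 * N) : ℝ) := by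
    rw [card_emb]
    have : Fintype.card (Fin D → Bool) = 8 * N := by simp [hn]
    rw [this, hN]
  rw [hcard]
  set f : ℝ := ((5 * N).factorial : ℝ) with hf
  have hfpos : 0 < f := by rw [hf]; exact_mod_cast Nat.factorial_pos _
  set C : ℝ := ((8 * N).choose (5 * N) : ℝ) with hC
  have hC0 : 0 < C := by rw [hC]; exact_mod_cast Nat.choose_pos (by omega)
  have hlow := binom_lower N
  rw [← hC] at hlow
  -- fourth powers
  have h4 : F ^ 4 * (((3 / 2 : ℝ) ^ 20 * (10 / 9) ^ 10) ^ N) ≤ f ^ 4 * ((79 / 12 : ℝ) ^ 16) ^ N := by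
    have hx : 0 ≤ F * ((3 / 2 : ℝ) ^ (5 * N) * (10 / 9) ^ (5 * N - 2 * p)) := by positivity
    have h5 := pow_le_pow_left₀ hx h1 4
    have h6 : (f * Real.sqrt (79 / 12) ^ (8 * N)) ^ 4 = f ^ 4 * ((79 / 12 : ℝ) ^ 16) ^ N := by
      rw [mul_pow, ← pow_mul, ← pow_mul]
      congr 1
      have : 8 * N * 4 = 2 * (16 * N) := by ring
      rw [this, pow_mul, Real.sq_sqrt (by norm_num)]
    rw [h6] at h5
    refine le_trans ?_ h5
    rw [mul_pow, mul_pow, ← pow_mul, ← pow_mul]
    apply mul_le_mul_of_nonneg_left _ (by positivity)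
    rw [mul_pow, ← pow_mul, ← pow_mul]
    have e3 : 5 * N * 4 = 20 * N := by ring
    rw [e3]
    apply mul_le_mul_of_nonneg_left _ (by positivity)
    apply pow_le_pow_right₀ (by norm_num)
    omega
  have h8 : ((8 : ℝ) ^ 32) ^ N ≤ ((8 * N + 1 : ℝ) * C) ^ 4 * ((5 : ℝ) ^ 20 * 3 ^ 12) ^ N := by
    have h9 := pow_le_pow_left₀ (by positivity) hlow 4
    calc ((8 : ℝ) ^ 32) ^ N = ((8 : ℝ) ^ (8 * N)) ^ 4 := by
          rw [← pow_mul, ← pow_mul]; congr 1; ring
      _ ≤ _ := h9
      _ = _ := by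
          rw [mul_pow, mul_pow, mul_pow, ← pow_mul, ← pow_mul, mul_pow, mul_pow, ← pow_mul, ← pow_mul]
          have e3 : 5 * N * 4 = 20 * N := by ring
          have e4 : 3 * N * 4 = 12 * N := by ring
          rw [e3, e4]; ring
  have hnum : (79 / 12 : ℝ) ^ 16 * ((5 : ℝ) ^ 20 * 3 ^ 12)
      ≤ (0.96 : ℝ) ^ 4 * (((3 / 2 : ℝ) ^ 20 * (10 / 9) ^ 10) * (8 : ℝ) ^ 32) := by norm_num
  have hnumN : ((79 / 12 : ℝ) ^ 16) ^ N * ((5 : ℝ) ^ 20 * 3 ^ 12) ^ N
      ≤ ((0.96 : ℝ) ^ 4) ^ N * ((((3 / 2 : ℝ) ^ 20 * (10 / 9) ^ 10)) ^ N * ((8 : ℝ) ^ 32) ^ N) := by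
    rw [← mul_pow, ← mul_pow, ← mul_pow]
    exact pow_le_pow_left₀ (by positivity) hnum N
  set a : ℝ := ((3 / 2 : ℝ) ^ 20 * (10 / 9) ^ 10) ^ N with ha
  set b : ℝ := ((79 / 12 : ℝ) ^ 16) ^ N with hb
  set c : ℝ := ((8 : ℝ) ^ 32) ^ N with hc
  set d : ℝ := ((5 : ℝ) ^ 20 * 3 ^ 12) ^ N with hd
  set r : ℝ := ((0.96 : ℝ) ^ 4) ^ N with hr
  have ha0 : 0 < a := by positivity
  have hc0 : 0 < c := by positivity
  have hd0 : 0 < d := by positivity
  have hfin : F ^ 4 ≤ ((((8 * N + 1 : ℝ) * (0.96 : ℝ) ^ N) * (f * C))) ^ 4 := by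
    have e5 : ((((8 * N + 1 : ℝ) * (0.96 : ℝ) ^ N) * (f * C))) ^ 4
        = r * f ^ 4 * ((8 * N + 1 : ℝ) * C) ^ 4 := by
      have : ((0.96 : ℝ) ^ N) ^ 4 = r := by rw [hr, ← pow_mul, ← pow_mul]; congr 1; ring
      calc _ = ((0.96 : ℝ) ^ N) ^ 4 * f ^ 4 * ((8 * N + 1 : ℝ) * C) ^ 4 := by ring
        _ = _ := by rw [this]
    rw [e5]
    have h10 : F ^ 4 * (a * c * d) ≤ (r * f ^ 4 * ((8 * N + 1 : ℝ) * C) ^ 4) * (a * c * d) := by
      calc F ^ 4 * (a * c * d) = (F ^ 4 * a) * (c * d) := by ring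
        _ ≤ (f ^ 4 * b) * (c * d) := mul_le_mul_of_nonneg_right h4 (by positivity)
        _ = (f ^ 4 * c) * (b * d) := by ring
        _ ≤ (f ^ 4 * c) * (r * (a * c)) := mul_le_mul_of_nonneg_left hnumN (by positivity)
        _ = (f ^ 4 * r * a * c) * c := by ring
        _ ≤ (f ^ 4 * r * a * c) * (((8 * N + 1 : ℝ) * C) ^ 4 * d) :=
            mul_le_mul_of_nonneg_left h8 (by positivity)
        _ = _ := by ring
    exact le_of_mul_le_mul_right h10 (by positivity)
  exact le_of_pow_le_pow_left₀ (by norm_num) (by positivity) hfin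

end Crest.Agent.ThS
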