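import Mathlib
import Crest.Agent.ThGoodB
import Crest.Agent.ThGoodC
import Crest.Agent.ThGlue5
import Crest.Agent.T22Defs

/-! S0222: the good event, its relabelling invariance, `P(bad) → 0`, and the hypotheses of the
random walk theorem for the truncated class function. -/

set_option autoImplicit false
set_option linter.unusedSectionVars false
set_option linter.unusedVariables false

namespace Crest.Agent.ThS

open Finset Crest.Agent.T22

section gen

variable {D : ℕ} {A : Type} [Fintype A] [DecidableEq A]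

/-- the good event -/
def GoodE (p : ℕ) (j : Fin D) (B : ℝ) (y : A ↪ (Fin D → Bool)) (e : PEnv D) : Prop :=
  (∃ k : Fin p → A × A, DjK k ∧ ∀ i, y (k i).2 = flipc j (y (k i).1)) ∧
    ∑ a, F0 (tauL (List.finRange D) e y) a ≤ B

theorem posL_rel : ∀ (L : List (Fin D)) (e : EnvT D L) (y : A ↪ (Fin D → Bool))
    (σ : Equiv.Perm A), posL L e (rel y σ) = rel (posL L e y) σ
  | [], _, _, _ => rfl
  | j :: L, e, y, σ => by
      show act e.1.1 (posL L e.2 (rel y σ)) = rel (act e.1.1 (posL L e.2 y)) σ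
      rw [posL_rel L e.2 y σ, act_rel]

theorem F0c_rel : ∀ (L : List (Fin D)) (e : EnvT D L) (y : A ↪ (Fin D → Bool))
    (σ : Equiv.Perm A) (w : A → ℝ) (a : A),
    F0c (tauL L e (rel y σ)) (fun b => w (σ b)) a = F0c (tauL L e y) w (σ a)
  | [], _, _, _, _, _ => rfl
  | j :: L, e, y, σ, w, a => by
      show F0c (tauL L e.2 (rel y σ) ++ [ptn j (posL L e.2 (rel y σ))]) (fun b => w (σ b)) a
        = F0c (tauL L e.2 y ++ [ptn j (posL L e.2 y)]) w (σ a)
      rw [F0c_snoc, F0c_snoc, posL_rel]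
      set z := posL L e.2 y with hz
      have h : F0c [ptn j (rel z σ)] (fun b => w (σ b))
          = fun b => (F0c [ptn j z] w) (σ b) := by
        funext b
        show phi (ptn j (rel z σ)) b * ((w (σ b) + w (σ (ptn j (rel z σ) b))) / 2)
          = phi (ptn j z) (σ b) * ((w (σ b) + w (ptn j z (σ b))) / 2)
        rw [phi_rel, ptn_rel]
        simp
      rw [h]
      exact F0c_rel L e.2 y σ (F0c [ptn j z] w) a

theorem F0_rel (L : List (Fin D)) (e : EnvT D L) (y : A ↪ (Fin D → Bool))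
    (σ : Equiv.Perm A) (a : A) : F0 (tauL L e (rel y σ)) a = F0 (tauL L e y) (σ a) := by
  rw [F0_eq_F0c, F0_eq_F0c]
  exact F0c_rel L e y σ (fun _ => 1) a

theorem GoodE_rel (p : ℕ) (j : Fin D) (B : ℝ) (y : A ↪ (Fin D → Bool)) (e : PEnv D)
    (σ : Equiv.Perm A) : GoodE p j B (rel y σ) e ↔ GoodE p j B y e := by
  unfold GoodE
  have h1 : (∃ k : Fin p → A × A, DjK k ∧ ∀ i, (rel y σ) (k i).2 = flipc j ((rel y σ) (k i).1))
      ↔ (∃ k : Fin p → A × A, DjK k ∧ ∀ i, y (k i).2 = flipc j (y (k i).1)) := by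
    constructor
    · rintro ⟨k, hk, hi⟩
      exact ⟨mvK σ k, (DjK_comp σ k).mpr hk, fun i => hi i⟩
    · rintro ⟨k, hk, hi⟩
      refine ⟨mvK σ⁻¹ k, (DjK_comp σ⁻¹ k).mpr hk, fun i => ?_⟩
      rw [rel_apply, rel_apply]
      simpa [mvK] using hi i
  have h2 : ∑ a, F0 (tauL (List.finRange D) e (rel y σ)) a
      = ∑ a, F0 (tauL (List.finRange D) e y) a := by
    simp_rw [F0_rel]
    exact Equiv.sum_comp σ (fun a => F0 (tauL (List.finRange D) e y) a)
  rw [h1, h2]

/-- the bad event, finite bound -/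
theorem pBad_le (p N : ℕ) (j : Fin D) (hN : Fintype.card A = 5 * N) (hn : 2 ^ D = 8 * N)
    (hp : 4 * p ≤ 5 * N) (hDA : D + 1 ≤ 5 * N) (B : ℝ) (hB : 0 < B) :
    pBad (A := A) (GoodE p j B)
      ≤ (8 * N + 1 : ℝ) * (0.96 : ℝ) ^ N + (5 * N : ℝ) * (bet (5 * N) (2 ^ D) D) ^ D / B := by
  classical
  set Ny : ℝ := (Fintype.card (A ↪ (Fin D → Bool)) : ℝ) with hNy
  set Ne : ℝ := (Fintype.card (PEnv D) : ℝ) with hNe
  have hNe0 : 0 < Ne := card_EnvT_pos _
  have hNpos : 0 < N := by omega
  have hNy0 : 0 < Ny := by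
    rw [hNy, card_emb]
    have hc : Fintype.card (Fin D → Bool) = 8 * N := by simp [hn]
    rw [hc, hN]
    have h1 : (0 : ℝ) < ((5 * N).factorial : ℝ) := by exact_mod_cast Nat.factorial_pos _
    have h2 : (0 : ℝ) < ((8 * N).choose (5 * N) : ℝ) := by
      exact_mod_cast Nat.choose_pos (by omega)
    positivity
  unfold pBad
  rw [div_le_iff₀ (by positivity)]
  have h1 : ∀ (y : A ↪ (Fin D → Bool)) (e : PEnv D),
      (if GoodE p j B y e then (0 : ℝ) else 1)
        ≤ (if ¬ (2 * p ≤ (hidT j y).card) then (1 : ℝ) else 0)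
          + (∑ a, F0 (tauL (List.finRange D) e y) a) / B := by
    intro y e
    have hS0 : 0 ≤ ∑ a, F0 (tauL (List.finRange D) e y) a :=
      Finset.sum_nonneg fun a _ => F0_nonneg _ a
    have hSB : 0 ≤ (∑ a, F0 (tauL (List.finRange D) e y) a) / B := div_nonneg hS0 hB.le
    by_cases hg : GoodE p j B y e
    · rw [if_pos hg]
      split_ifs <;> linarith
    · rw [if_neg hg]
      by_cases hp2 : 2 * p ≤ (hidT j y).card
      · rw [if_neg (not_not.mpr hp2), zero_add]
        rw [le_div_iff₀ hB, one_mul]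
        by_contra hlt
        exact hg ⟨exists_pairs j y p hp2, (not_le.mp hlt).le⟩
      · rw [if_pos hp2]
        linarith
  calc ∑ y : A ↪ (Fin D → Bool), ∑ e : PEnv D, (if GoodE p j B y e then (0 : ℝ) else 1)
      ≤ ∑ y : A ↪ (Fin D → Bool), ∑ e : PEnv D,
        ((if ¬ (2 * p ≤ (hidT j y).card) then (1 : ℝ) else 0)
          + (∑ a, F0 (tauL (List.finRange D) e y) a) / B) :=
        Finset.sum_le_sum fun y _ => Finset.sum_le_sum fun e _ => h1 y e
    _ = Ne * ((univ.filter (fun y : A ↪ (Fin D → Bool) => ¬ (2 * p ≤ (hidT j y).card))).card : ℝ)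
        + (∑ y : A ↪ (Fin D → Bool), ∑ e : PEnv D, ∑ a, F0 (tauL (List.finRange D) e y) a) / B := by
        simp_rw [Finset.sum_add_distrib]
        congr 1
        · simp_rw [Finset.sum_const, nsmul_eq_mul, Finset.card_univ]
          rw [← Finset.mul_sum, Finset.sum_boole]
        · simp_rw [← Finset.sum_div]
    _ ≤ Ne * (((8 * N + 1 : ℝ) * (0.96 : ℝ) ^ N) * Ny)
        + ((Ny * Ne) * ((5 * N : ℝ) * (bet (5 * N) (2 ^ D) D) ^ D)) / B := by
        apply add_le_add
        · exact mul_le_mul_of_nonneg_left (few_pairs_le j N p hN hn hp) hNe0.le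
        · apply div_le_div_of_nonneg_right _ hB.le
          have h2 := av_sum_F0_le (A := A) (List.finRange D) (List.nodup_finRange D)
            (by rw [List.length_finRange, hN]; exact hDA)
            (by rw [hN, hn]; omega) (by rw [hn]; omega)
          rw [List.length_finRange, hN] at h2
          refine h2.trans (le_of_eq ?_)
          push_cast
          rfl
    _ = _ := by ring

end gen

/-- the last direction -/
theorem getLast_finRange (d : ℕ) (h : List.finRange (d + 1) ≠ []) :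
    (List.finRange (d + 1)).getLast h = Fin.last d := by
  rw [List.getLast_eq_getElem]
  simp
  rfl

end Crest.Agent.ThS
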