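import Mathlib
import Crest.Agent.ThGood

/-! S0222: numerics of `P(bad) → 0`. -/

set_option autoImplicit false
set_option linter.unusedSectionVars false
set_option linter.unusedVariables false

namespace Crest.Agent.ThS

open Finset Crest.Agent.T22

theorem pow_ge_lin (D : ℕ) (hD : 13 ≤ D) : 25 * (D + 1) ≤ 2 ^ (D - 3) := by
  obtain ⟨k, rfl⟩ : ∃ k, D = k + 13 := ⟨D - 13, by omega⟩
  have : k + 13 - 3 = k + 10 := by omega
  rw [this]
  induction k with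
  | zero => norm_num
  | succ k ih =>
    have e : 2 ^ (k + 1 + 10) = 2 * 2 ^ (k + 10) := by ring
    have := ih (by omega) (by omega)
    omega

theorem pow_eight (D : ℕ) (hD : 3 ≤ D) : 2 ^ D = 8 * 2 ^ (D - 3) := by
  obtain ⟨k, rfl⟩ : ∃ k, D = k + 3 := ⟨D - 3, by omega⟩
  rw [Nat.add_sub_cancel]; ring

theorem cc_le : cc ≤ 0.7072 := by
  unfold cc
  have h : (1.4141 : ℝ) ≤ Real.sqrt 2 := by
    apply Real.le_sqrt_of_sq_le
    norm_num
  have h2 : (Real.sqrt 2)⁻¹ ≤ (1.4141 : ℝ)⁻¹ := inv_anti₀ (by norm_num) h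
  refine h2.trans ?_
  norm_num

theorem bet_bounds (D : ℕ) (hD : 13 ≤ D) :
    0 ≤ bet (5 * 2 ^ (D - 3)) (2 ^ D) D ∧ bet (5 * 2 ^ (D - 3)) (2 ^ D) D ≤ 0.8185 := by
  have h1 := pow_ge_lin D hD
  have h2 := pow_eight D (by omega)
  set N : ℕ := 2 ^ (D - 3) with hN
  have h1' : 25 * ((D : ℝ) + 1) ≤ (N : ℝ) := by exact_mod_cast h1
  have hD0 : (0 : ℝ) ≤ D := Nat.cast_nonneg _
  have hn : (0 : ℝ) < 8 * (N : ℝ) - 1 := by linarith
  unfold bet
  rw [h2]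
  push_cast
  set r : ℝ := (5 * (N : ℝ) - 1 - D) / (8 * (N : ℝ) - 1) with hr
  have hr0 : 0.62 ≤ r := by
    rw [hr, le_div_iff₀ hn]
    linarith
  have hr1 : r ≤ 1 := by
    rw [hr, div_le_one hn]
    linarith
  have hc0 := cc_nonneg
  have hc1 := cc_le
  constructor
  · nlinarith
  · nlinarith

theorem rpow_027_le (D : ℕ) (x : ℝ) (hx0 : 0 ≤ x) (hx : x ≤ 2 ^ D) :
    x ^ (0.27 : ℝ) ≤ (1.206 : ℝ) ^ D := by
  have h1 : x ^ (0.27 : ℝ) ≤ ((2 : ℝ) ^ D) ^ (0.27 : ℝ) :=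
    Real.rpow_le_rpow hx0 hx (by norm_num)
  refine h1.trans ?_
  have h2 : ((2 : ℝ) ^ D) ^ (0.27 : ℝ) = ((2 : ℝ) ^ (0.27 : ℝ)) ^ D := by
    rw [← Real.rpow_natCast, ← Real.rpow_mul (by norm_num), ← Real.rpow_natCast,
      ← Real.rpow_mul (by norm_num), mul_comm]
  rw [h2]
  apply pow_le_pow_left₀ (by positivity)
  have h3 : ((2 : ℝ) ^ (0.27 : ℝ)) ^ 100 ≤ (1.206 : ℝ) ^ 100 := by
    rw [← Real.rpow_natCast, ← Real.rpow_mul (by norm_num)]
    have : (0.27 : ℝ) * ((100 : ℕ) : ℝ) = ((27 : ℕ) : ℝ) := by norm_num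
    rw [this, Real.rpow_natCast]
    norm_num
  exact le_of_pow_le_pow_left₀ (by norm_num) (by norm_num) h3

theorem second_term (D : ℕ) (hD : 13 ≤ D) :
    (5 * (2 ^ (D - 3) : ℕ) : ℝ) * (bet (5 * 2 ^ (D - 3)) (2 ^ D) D) ^ D
      / (((5 * 2 ^ (D - 3) : ℕ) : ℝ) ^ (-(0.27 : ℝ)) * ((5 * 2 ^ (D - 3) : ℕ) : ℝ))
      ≤ (0.9872 : ℝ) ^ D := by
  obtain ⟨hb0, hb1⟩ := bet_bounds D hD
  have h2 := pow_eight D (by omega)
  set N : ℕ := 2 ^ (D - 3) with hN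
  have hNpos : 0 < N := by positivity
  have hm0 : (0 : ℝ) < ((5 * N : ℕ) : ℝ) := by exact_mod_cast (by omega : 0 < 5 * N)
  have hm1 : ((5 * N : ℕ) : ℝ) ≤ 2 ^ D := by
    have : 5 * N ≤ 2 ^ D := by rw [h2]; omega
    exact_mod_cast this
  set m : ℝ := ((5 * N : ℕ) : ℝ) with hm
  have e : (5 * (N : ℝ)) = m := by rw [hm]; push_cast; ring
  rw [e]
  have h3 : m * (bet (5 * N) (2 ^ D) D) ^ D / (m ^ (-(0.27 : ℝ)) * m)
      = m ^ (0.27 : ℝ) * (bet (5 * N) (2 ^ D) D) ^ D := by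
    rw [Real.rpow_neg hm0.le]
    have : (0 : ℝ) < m ^ (0.27 : ℝ) := Real.rpow_pos_of_pos hm0 _
    field_simp
  rw [h3]
  calc m ^ (0.27 : ℝ) * (bet (5 * N) (2 ^ D) D) ^ D ≤ (1.206 : ℝ) ^ D * (0.8185 : ℝ) ^ D := by
        apply mul_le_mul (rpow_027_le D m hm0.le hm1) (pow_le_pow_left₀ hb0 hb1 D)
          (by positivity) (by positivity)
    _ = (1.206 * 0.8185 : ℝ) ^ D := by rw [mul_pow]
    _ ≤ (0.9872 : ℝ) ^ D := pow_le_pow_left₀ (by norm_num) (by norm_num) D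

theorem tendsto_first : Filter.Tendsto
    (fun D : ℕ => (8 * ((2 ^ (D - 3) : ℕ) : ℝ) + 1) * (0.96 : ℝ) ^ (2 ^ (D - 3)))
    Filter.atTop (nhds 0) := by
  have h1 : Filter.Tendsto (fun N : ℕ => (8 * (N : ℝ) + 1) * (0.96 : ℝ) ^ N) Filter.atTop (nhds 0) := by
    have ha := tendsto_pow_const_mul_const_pow_of_abs_lt_one 1 (r := (0.96 : ℝ))
      (by rw [abs_of_pos] <;> norm_num)
    have hb := tendsto_pow_atTop_nhds_zero_of_lt_one (r := (0.96 : ℝ)) (by norm_num) (by norm_num)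
    have hc := (ha.const_mul 8).add hb
    simp only [mul_zero, add_zero] at hc
    refine hc.congr ?_
    intro N
    ring
  have h2 : Filter.Tendsto (fun D : ℕ => 2 ^ (D - 3)) Filter.atTop Filter.atTop := by
    apply Filter.tendsto_atTop_mono (f := fun D => D - 3)
    · intro D
      exact (Nat.lt_two_pow_self).le
    · exact Filter.tendsto_sub_atTop_nat 3
  exact h1.comp h2

/-- `P(bad) → 0` -/
theorem pBad_small (ε : ℝ) (hε : 0 < ε) : ∃ D0 : ℕ, ∀ D, D0 ≤ D → ∀ j : Fin D,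
    pBad (A := Fin (5 * 2 ^ (D - 3))) (GoodE ((5 * 2 ^ (D - 3)) / 4) j
      (((5 * 2 ^ (D - 3) : ℕ) : ℝ) ^ (-(0.27 : ℝ)) * ((5 * 2 ^ (D - 3) : ℕ) : ℝ))) ≤ ε := by
  have h1 := tendsto_first
  have h2 := tendsto_pow_atTop_nhds_zero_of_lt_one (r := (0.9872 : ℝ)) (by norm_num) (by norm_num)
  have h3 := h1.add h2
  simp only [add_zero] at h3
  have h4 := (h3.eventually (ge_mem_nhds hε)).and (Filter.eventually_ge_atTop 13)
  obtain ⟨D0, hD0⟩ := Filter.eventually_atTop.mp h4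
  refine ⟨D0, fun D hD j => ?_⟩
  obtain ⟨h5, hD13⟩ := hD0 D hD
  have h6 := pow_ge_lin D hD13
  have h7 := pow_eight D (by omega)
  have hm0 : (0 : ℝ) < ((5 * 2 ^ (D - 3) : ℕ) : ℝ) := by positivity
  have hB : (0 : ℝ) < ((5 * 2 ^ (D - 3) : ℕ) : ℝ) ^ (-(0.27 : ℝ)) * ((5 * 2 ^ (D - 3) : ℕ) : ℝ) :=
    mul_pos (Real.rpow_pos_of_pos hm0 _) hm0
  have h8 := pBad_le (A := Fin (5 * 2 ^ (D - 3))) ((5 * 2 ^ (D - 3)) / 4) (2 ^ (D - 3)) j
    (by rw [Fintype.card_fin]) h7 (by omega) (by omega) _ hB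
  refine h8.trans (le_trans ?_ h5)
  exact add_le_add le_rfl (second_term D hD13)

/-- the hypotheses of the random walk theorem for the truncated class function -/
theorem rwhyp_GoodE (d : ℕ) (m : ℕ) [Nonempty (Fin m ↪ (Fin (d + 1) → Bool))] :
    RWHyp m (zetaG (D := d + 1) (A := Fin m) (GoodE (m / 4) (Fin.last d)
      ((m : ℝ) ^ (-(0.27 : ℝ)) * (m : ℝ)))) where
  nonneg := zetaG_nonneg _
  cls := zetaG_conj _ (fun y e σ => GoodE_rel _ _ _ y e σ)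
  symm := zetaG_inv _
  psd := zetaG_psd _
  sum_le := sum_zetaG_le _
  F := by
    intro x hx
    have h := zetaG_F (D := d + 1) (A := Fin m) (GoodE (m / 4) (Fin.last d)
      ((m : ℝ) ^ (-(0.27 : ℝ)) * (m : ℝ))) ((m : ℝ) ^ (-(0.27 : ℝ)) * (m : ℝ))
      (fun y e h => h.2) x hx
    rw [mul_assoc]
    exact h
  K := by
    intro f
    have hne : List.finRange (d + 1) ≠ [] := by
      intro h
      have := congrArg List.length h
      simp at this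
    exact zeta_K _ (fun y e σ => GoodE_rel _ _ _ y e σ) (Fin.last d) hne
      (getLast_finRange d hne) (m / 4) (fun y e h => h.1) f

end Crest.Agent.ThS
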