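import Mathlib
import Crest.Agent.ThFin
import Crest.Agent.ThGoodD
import Crest.Agent.T22RW

/-! The limit theorem of S0222 from (X1), (X2) (lead). -/

set_option autoImplicit false
set_option linter.unusedSectionVars false
set_option linter.unusedVariables false

namespace Crest.Agent.ThFin

open Finset Crest.Agent.ThS Crest.Agent.T22 Crest.ProbabilityR.Shuffle Filter Topology

theorem GE (ε : ℝ) (hε : 0 < ε) : ∃ D0 : ℕ, ∀ D, D0 ≤ D → 3 ≤ D → ∀ m, m = 5 * 2 ^ (D - 3) →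
      ∃ Good : (Fin m ↪ (Fin D → Bool)) → PEnv D → Prop,
        (∀ y e (σ : Equiv.Perm (Fin m)), Good (rel y σ) e ↔ Good y e) ∧
        (∀ (hL : List.finRange D ≠ []), ∀ y e, Good y e → ∃ k : Fin (m / 4) → Fin m × Fin m,
          DjK k ∧ ∀ i, y (k i).2 = flipc ((List.finRange D).getLast hL) (y (k i).1)) ∧
        (∀ y e, Good y e →
          ∑ a, F0 (tauL (List.finRange D) e y) a ≤ (m : ℝ) ^ (-(0.27 : ℝ)) * m) ∧
        pBad Good ≤ ε := by
  obtain ⟨D0, hD0⟩ := pBad_small ε hε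
  refine ⟨D0, fun D hD hD3 m hm => ?_⟩
  subst hm
  have hL : List.finRange D ≠ [] := finRange_ne (by omega)
  set j : Fin D := (List.finRange D).getLast hL with hj
  refine ⟨GoodE ((5 * 2 ^ (D - 3)) / 4) j
    (((5 * 2 ^ (D - 3) : ℕ) : ℝ) ^ (-(0.27 : ℝ)) * ((5 * 2 ^ (D - 3) : ℕ) : ℝ)), ?_, ?_, ?_, ?_⟩
  · intro y e σ
    exact GoodE_rel _ _ _ y e σ
  · intro hL' y e h
    exact h.1
  · intro y e h
    exact h.2
  · exact hD0 D hD j

/-- the limit theorem from (X1), (X2) -/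
theorem main_of_RW
    (RW : ∀ ε : ℝ, 0 < ε → ∃ M : ℕ, ∀ m, M ≤ m → ∀ ζ : Equiv.Perm (Fin m) → ℝ, RWHyp m ζ →
      (m.factorial : ℝ) * cvPow ζ 120 1 - (∑ g, ζ g) ^ 120 ≤ ε) :
    Tendsto (fun d : ℕ => tvFromUniform (2 ^ d) (1600 * (d + 1))) atTop (𝓝 0) :=
  assemble RW GE

end Crest.Agent.ThFin
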