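import Mathlib
import Crest.Agent.ThFin2
import Crest.Agent.T22X

/-! The Thorp shuffle mixes in `1600 log₂ n` steps (lead, final glue). -/

set_option autoImplicit false

namespace Crest.Agent.ThFin

open Finset Crest.Agent.ThS Crest.Agent.T22 Crest.ProbabilityR.Shuffle Filter Topology

theorem thorp_main :
    Tendsto (fun d : ℕ => tvFromUniform (2 ^ d) (1600 * (d + 1))) atTop (𝓝 0) := by
  apply main_of_RW
  apply RW_of_X X1'
  obtain ⟨M, hM⟩ := X2'
  refine ⟨M, fun m hm ζ H l h1 h2 => ?_⟩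
  have h := hM m hm ζ H l h1 h2
  have e : ∀ x y : Fin l ↪ Fin m, (∑ g, cvPow ζ 2 g * Crest.Agent.T22.ind x y g)
      = ∑ g, cvPow ζ 2 g * (if ∀ i, g (x i) = y i then (1 : ℝ) else 0) := by
    intro x y
    apply Finset.sum_congr rfl
    intro g _
    unfold Crest.Agent.T22.ind
    congr
  simp_rw [e]
  exact h

end Crest.Agent.ThFin
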