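import Crest.Statements.S0223
import Crest.Agent.ThShuffle
-- import your own Crest.Agent.* helpers here

set_option autoImplicit false
open Crest Crest.ProbabilityR

namespace Crest.Agent.S0223

/-- For a deck of `2 * 2 ^ d` cards and every number `t` of shuffles, the total variation distance between the law of the arrangement of the deck and the uniform law on all arrangements is at least `1 - 2 ^ (2 ^ d * t) / (2 * 2 ^ d)!`. -/
theorem result (d t : ℕ) :
    1 - (2 : ℝ) ^ (2 ^ d * t) / ((2 * 2 ^ d).factorial : ℝ)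
      ≤ Crest.ProbabilityR.Shuffle.tvFromUniform (2 ^ d) t := by
  classical
  set m := 2 ^ d with hm
  rw [Crest.Agent.ThS.tv_eq]
  set N : ℝ := ((2 * m).factorial : ℝ) with hN
  have hNpos : 0 < N := by rw [hN]; exact_mod_cast Nat.factorial_pos _
  set S : Finset (Equiv.Perm (Fin (2 * m))) :=
    Finset.univ.image (Crest.Agent.ThS.iterPerm m t) with hS
  have hScard : (S.card : ℝ) ≤ (2 : ℝ) ^ (m * t) := by
    have h1 : S.card ≤ (Finset.univ : Finset (Fin t → Fin m → Bool)).card := Finset.card_image_le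
    have h2 : (Finset.univ : Finset (Fin t → Fin m → Bool)).card = 2 ^ (m * t) := by
      simp [Fintype.card_bool, pow_mul]
    rw [h2] at h1
    exact_mod_cast h1
  have hout : ∀ g, g ∉ S → Crest.Agent.ThS.law m t g = 0 := by
    intro g hg
    unfold Crest.Agent.ThS.law
    have : (Finset.univ.filter (fun cs : Fin t → Fin m → Bool =>
        Crest.Agent.ThS.iterPerm m t cs = g)) = ∅ := by
      apply Finset.filter_eq_empty_iff.mpr
      intro cs _ h
      exact hg (by rw [hS]; exact Finset.mem_image.mpr ⟨cs, Finset.mem_univ _, h⟩)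
    rw [this]; simp
  have hcardG : (Fintype.card (Equiv.Perm (Fin (2 * m))) : ℝ) = N := by
    rw [Fintype.card_perm, Fintype.card_fin]
  have hsum := Crest.Agent.ThS.sum_law m t
  have hsplit : ∑ g : Equiv.Perm (Fin (2 * m)), |Crest.Agent.ThS.law m t g - 1 / N|
      = ∑ g ∈ S, |Crest.Agent.ThS.law m t g - 1 / N|
        + ∑ g ∈ Sᶜ, |Crest.Agent.ThS.law m t g - 1 / N| :=
    (Finset.sum_add_sum_compl S _).symm
  have hsum2 : ∑ g ∈ S, Crest.Agent.ThS.law m t g = 1 := by
    rw [← hsum, ← Finset.sum_add_sum_compl S (fun g => Crest.Agent.ThS.law m t g)]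
    have : ∑ g ∈ Sᶜ, Crest.Agent.ThS.law m t g = 0 :=
      Finset.sum_eq_zero (fun g hg => hout g (by simpa using hg))
    rw [this, add_zero]
  have hA : 1 - S.card / N ≤ ∑ g ∈ S, |Crest.Agent.ThS.law m t g - 1 / N| := by
    calc 1 - S.card / N = ∑ g ∈ S, (Crest.Agent.ThS.law m t g - 1 / N) := by
          rw [Finset.sum_sub_distrib, hsum2, Finset.sum_const, nsmul_eq_mul]; ring
      _ ≤ _ := Finset.sum_le_sum (fun g _ => le_abs_self _)
  have hB : ∑ g ∈ Sᶜ, |Crest.Agent.ThS.law m t g - 1 / N| = 1 - S.card / N := by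
    have h1 : ∑ g ∈ Sᶜ, |Crest.Agent.ThS.law m t g - 1 / N| = ∑ g ∈ Sᶜ, (1 / N) := by
      apply Finset.sum_congr rfl
      intro g hg
      rw [hout g (by simpa using hg), zero_sub, abs_neg, abs_of_pos (by positivity)]
    rw [h1, Finset.sum_const, nsmul_eq_mul]
    have h2 : ((Sᶜ).card : ℝ) = N - S.card := by
      rw [Finset.card_compl, Nat.cast_sub (Finset.card_le_univ _), hcardG]
    rw [h2]; field_simp
  have hC : (S.card : ℝ) / N ≤ (2 : ℝ) ^ (m * t) / N := by gcongr
  rw [hsplit, hB]
  linarith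

end Crest.Agent.S0223
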