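import Crest.Agent.T41Star

/-!
S0241, part FIN: section 8 (assembly): the factor map is the sign of the limit of the
finite-volume mean fields `mm` along `θ_k → θ`, `T_k → ∞`, `R_k → ∞`.
-/

set_option autoImplicit false

namespace Crest.Agent.T41

open MeasureTheory Filter Topology Crest.ProbabilityR.TreeIsing

universe u

section abstractae
variable {Ω : Type*} [MeasurableSpace Ω] {P : Measure Ω} [IsProbabilityMeasure P]

omit [IsProbabilityMeasure P] in
theorem fin_ae_summable {f : ℕ → Ω → ℝ} (hf : ∀ k, Measurable (f k)) (hi : ∀ k, Integrable (f k) P)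
    (hs : Summable (fun k => ∫ ω, |f k ω| ∂P)) : ∀ᵐ ω ∂P, Summable (fun k => |f k ω|) := by
  have h1 : ∫⁻ ω, ∑' k, ENNReal.ofReal |f k ω| ∂P ≠ ⊤ := by
    rw [lintegral_tsum (fun k => (hf k).abs.ennreal_ofReal.aemeasurable)]
    have : ∀ k, ∫⁻ ω, ENNReal.ofReal |f k ω| ∂P = ENNReal.ofReal (∫ ω, |f k ω| ∂P) := fun k =>
      (ofReal_integral_eq_lintegral_ofReal (hi k).abs
        (Filter.Eventually.of_forall fun ω => abs_nonneg _)).symm
    simp only [this]
    rw [← ENNReal.ofReal_tsum_of_nonneg (fun k => integral_nonneg fun ω => abs_nonneg _) hs]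
    exact ENNReal.ofReal_ne_top
  have h2 := ae_lt_top' (AEMeasurable.tsum fun k =>
    (hf k).abs.ennreal_ofReal.aemeasurable) h1
  filter_upwards [h2] with ω hω
  have h3 := ENNReal.summable_toReal hω.ne
  refine h3.congr fun k => ?_
  rw [ENNReal.toReal_ofReal (abs_nonneg _)]

/-- `L²` bound `C 4^{-k}` gives `L¹` bound `C' 2^{-k}` -/
theorem fin_L1 {f : Ω → ℝ} (hf : Measurable f) {B C : ℝ} (hB : ∀ ω, |f ω| ≤ B) (k : ℕ)
    (h : ∫ ω, (f ω) ^ 2 ∂P ≤ C * (1 / 4) ^ k) : ∫ ω, |f ω| ∂P ≤ (1 + C) / 2 * (1 / 2) ^ k := by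
  have i1 : Integrable f P := Integrable.of_bound hf.aestronglyMeasurable B
    (Filter.Eventually.of_forall fun ω => by rw [Real.norm_eq_abs]; exact hB ω)
  have i2 : Integrable (fun ω => (f ω) ^ 2) P :=
    Integrable.of_bound (hf.pow_const 2).aestronglyMeasurable (B ^ 2)
    (Filter.Eventually.of_forall fun ω => by
      rw [Real.norm_eq_abs, abs_pow]; exact pow_le_pow_left₀ (abs_nonneg _) (hB ω) 2)
  have hp : (0 : ℝ) < (1 / 2) ^ k := by positivity
  have h1 : ∀ ω, |f ω| ≤ ((1 / 2) ^ k + (2 : ℝ) ^ k * (f ω) ^ 2) / 2 := by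
    intro ω
    have e : (2 : ℝ) ^ k * (1 / 2) ^ k = 1 := by rw [← mul_pow]; norm_num
    have : 0 ≤ (2 : ℝ) ^ k * (|f ω| - (1 / 2) ^ k) ^ 2 := by positivity
    have e2 : (f ω) ^ 2 = |f ω| ^ 2 := (sq_abs _).symm
    rw [e2]
    nlinarith [abs_nonneg (f ω)]
  calc ∫ ω, |f ω| ∂P ≤ ∫ ω, ((1 / 2) ^ k + (2 : ℝ) ^ k * (f ω) ^ 2) / 2 ∂P :=
        integral_mono i1.abs (((integrable_const _).add (i2.const_mul _)).div_const _) h1
    _ = ((1 / 2) ^ k + (2 : ℝ) ^ k * ∫ ω, (f ω) ^ 2 ∂P) / 2 := by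
        rw [integral_div, integral_add (integrable_const _) (i2.const_mul _), integral_const_mul]
        simp
    _ ≤ (1 + C) / 2 * (1 / 2) ^ k := by
        have e : (2 : ℝ) ^ k * (1 / 4) ^ k = (1 / 2) ^ k := by rw [← mul_pow]; norm_num
        have : (2 : ℝ) ^ k * ∫ ω, (f ω) ^ 2 ∂P ≤ (2 : ℝ) ^ k * (C * (1 / 4) ^ k) :=
          mul_le_mul_of_nonneg_left h (by positivity)
        have e2 : (2 : ℝ) ^ k * (C * (1 / 4) ^ k) = C * (1 / 2) ^ k := by rw [← e]; ring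
        rw [e2] at this
        nlinarith

theorem fin_ae_conv {f : ℕ → Ω → ℝ} (hf : ∀ k, Measurable (f k)) {B C : ℝ}
    (hB : ∀ k ω, |f k ω| ≤ B) (h : ∀ k, ∫ ω, (f k ω) ^ 2 ∂P ≤ C * (1 / 4) ^ k) :
    ∀ᵐ ω ∂P, Summable (fun k => |f k ω|) := by
  refine fin_ae_summable hf (fun k => Integrable.of_bound (hf k).aestronglyMeasurable B
    (Filter.Eventually.of_forall fun ω => by rw [Real.norm_eq_abs]; exact hB k ω)) ?_
  refine Summable.of_nonneg_of_le (fun k => integral_nonneg fun ω => abs_nonneg _)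
    (fun k => fin_L1 (hf k) (hB k) k (h k)) ?_
  exact (summable_geometric_of_lt_one (by norm_num) (by norm_num)).mul_left _


theorem fin_int {f : Ω → ℝ} (hf : Measurable f) {B : ℝ} (hB : ∀ ω, |f ω| ≤ B) :
    Integrable f P := Integrable.of_bound hf.aestronglyMeasurable B
    (Filter.Eventually.of_forall fun ω => by rw [Real.norm_eq_abs]; exact hB ω)

theorem fin_sq_int {f : Ω → ℝ} (hf : Measurable f) {B : ℝ} (hB : ∀ ω, |f ω| ≤ B) :
    Integrable (fun ω => (f ω) ^ 2) P :=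
  fin_int (hf.pow_const 2) (B := B ^ 2) fun ω => by
    rw [abs_pow]; exact pow_le_pow_left₀ (abs_nonneg _) (hB ω) 2

theorem fin_dsq_int {f g : Ω → ℝ} (hf : Measurable f) (hg : Measurable g) (hB : ∀ ω, |f ω| ≤ 1)
    (hB' : ∀ ω, |g ω| ≤ 1) : Integrable (fun ω => (f ω - g ω) ^ 2) P :=
  fin_sq_int (f := fun ω => f ω - g ω) (hf.sub hg) (B := 2) fun ω => by
    have := abs_sub (f ω) (g ω)
    linarith [hB ω, hB' ω]

theorem fin_tri3 {f₁ f₂ f₃ f₄ : Ω → ℝ} (m₁ : Measurable f₁) (m₂ : Measurable f₂)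
    (m₃ : Measurable f₃) (m₄ : Measurable f₄) (b₁ : ∀ ω, |f₁ ω| ≤ 1) (b₂ : ∀ ω, |f₂ ω| ≤ 1)
    (b₃ : ∀ ω, |f₃ ω| ≤ 1) (b₄ : ∀ ω, |f₄ ω| ≤ 1) :
    ∫ ω, (f₁ ω - f₂ ω) ^ 2 ∂P ≤ 3 * (∫ ω, (f₁ ω - f₃ ω) ^ 2 ∂P + ∫ ω, (f₃ ω - f₄ ω) ^ 2 ∂P
      + ∫ ω, (f₂ ω - f₄ ω) ^ 2 ∂P) := by
  have i1 := fin_dsq_int (P := P) m₁ m₃ b₁ b₃
  have i2 := fin_dsq_int (P := P) m₃ m₄ b₃ b₄
  have i3 := fin_dsq_int (P := P) m₂ m₄ b₂ b₄
  have i12 : Integrable (fun ω => (f₁ ω - f₃ ω) ^ 2 + (f₃ ω - f₄ ω) ^ 2) P := i1.add i2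
  rw [← integral_add i1 i2, ← integral_add i12 i3, ← integral_const_mul]
  refine integral_mono_of_nonneg (Filter.Eventually.of_forall fun ω => sq_nonneg _)
    ((i12.add i3).const_mul 3) (Filter.Eventually.of_forall fun ω => ?_)
  simp only []
  nlinarith [sq_nonneg ((f₁ ω - f₃ ω) - (f₃ ω - f₄ ω)), sq_nonneg ((f₁ ω - f₃ ω) + (f₂ ω - f₄ ω)),
    sq_nonneg ((f₃ ω - f₄ ω) + (f₂ ω - f₄ ω))]

theorem fin_tri2 {f₁ f₂ f₄ : Ω → ℝ} (m₁ : Measurable f₁) (m₂ : Measurable f₂)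
    (m₄ : Measurable f₄) (b₁ : ∀ ω, |f₁ ω| ≤ 1) (b₂ : ∀ ω, |f₂ ω| ≤ 1)
    (b₄ : ∀ ω, |f₄ ω| ≤ 1) :
    ∫ ω, (f₁ ω - f₂ ω) ^ 2 ∂P ≤ 2 * (∫ ω, (f₁ ω - f₄ ω) ^ 2 ∂P + ∫ ω, (f₂ ω - f₄ ω) ^ 2 ∂P) := by
  have i1 := fin_dsq_int (P := P) m₁ m₄ b₁ b₄
  have i3 := fin_dsq_int (P := P) m₂ m₄ b₂ b₄
  rw [← integral_add i1 i3, ← integral_const_mul]
  refine integral_mono_of_nonneg (Filter.Eventually.of_forall fun ω => sq_nonneg _)
    ((i1.add i3).const_mul 2) (Filter.Eventually.of_forall fun ω => ?_)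
  nlinarith [sq_nonneg ((f₁ ω - f₄ ω) + (f₂ ω - f₄ ω))]

theorem fin_def {f g : Ω → ℝ} (m₁ : Measurable f) (m₂ : Measurable g)
    (b₁ : ∀ ω, |f ω| ≤ 1) (b₂ : ∀ ω, |g ω| ≤ 1) (k : ℕ)
    (h1 : ∫ ω, (f ω - g ω) ^ 2 ∂P ≤ (1 / 4) ^ k) (h2 : 1 - (1 / 4) ^ k ≤ ∫ ω, (g ω) ^ 2 ∂P) :
    ∫ ω, (1 - (f ω) ^ 2) ∂P ≤ 3 * (1 / 2) ^ k := by
  have bb : ∀ ω, |f ω - g ω| ≤ 2 := by
    intro ω
    have := abs_sub (f ω) (g ω)
    linarith [b₁ ω, b₂ ω]
  have h3 := fin_L1 (P := P) (f := fun ω => f ω - g ω) (m₁.sub m₂) (B := 2) (C := 1) bb k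
    (by simpa using h1)
  have i1 : Integrable (fun ω => (f ω) ^ 2) P := fin_sq_int m₁ b₁
  have i4 : Integrable (fun ω => (g ω) ^ 2) P := fin_sq_int m₂ b₂
  have i5 : Integrable (fun ω => |f ω - g ω|) P :=
    (fin_int (P := P) (f := fun ω => f ω - g ω) (m₁.sub m₂) (B := 2) bb).abs
  have i6 : Integrable (fun ω => 1 - (g ω) ^ 2) P := (integrable_const _).sub i4
  have i7 : Integrable (fun ω => 2 * |f ω - g ω|) P := i5.const_mul 2
  have h4 : ∀ ω, 1 - (f ω) ^ 2 ≤ (1 - (g ω) ^ 2) + 2 * |f ω - g ω| := by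
    intro ω
    have e2 : |(f ω - g ω) * (f ω + g ω)| ≤ |f ω - g ω| * 2 := by
      rw [abs_mul]
      refine mul_le_mul_of_nonneg_left ?_ (abs_nonneg _)
      have := abs_add_le (f ω) (g ω)
      linarith [b₁ ω, b₂ ω]
    have e3 := neg_le_abs ((f ω - g ω) * (f ω + g ω))
    nlinarith
  calc ∫ ω, (1 - (f ω) ^ 2) ∂P
      ≤ ∫ ω, ((1 - (g ω) ^ 2) + 2 * |f ω - g ω|) ∂P :=
        integral_mono ((integrable_const _).sub i1) (i6.add i7) h4
    _ ≤ 3 * (1 / 2) ^ k := by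
        rw [integral_add i6 i7, integral_sub (integrable_const _) i4, integral_const_mul]
        simp only [integral_const, probReal_univ, smul_eq_mul, mul_one]
        have e : ((1 : ℝ) / 4) ^ k ≤ (1 / 2) ^ k :=
          pow_le_pow_left₀ (by norm_num) (by norm_num) k
        linarith

theorem fin_real {x y : ℕ → ℝ} {l : ℝ} (hx : Tendsto x atTop (𝓝 l)) (hl : l ^ 2 = 1)
    (hy : Tendsto (fun k => y k - x k) atTop (𝓝 0)) :
    ∀ᶠ k in atTop, (0 < y k ↔ 0 < limsup x atTop) := by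
  rw [hx.limsup_eq]
  have hy' : Tendsto y atTop (𝓝 l) := by
    have := hy.add hx
    simpa using this
  have h2 : l = 1 ∨ l = -1 := by
    have : (l - 1) * (l + 1) = 0 := by ring_nf; linarith
    rcases mul_eq_zero.1 this with h | h
    · left; linarith
    · right; linarith
  rcases h2 with rfl | rfl
  · filter_upwards [hy'.eventually (lt_mem_nhds (show (0 : ℝ) < 1 by norm_num))] with k hk
    exact iff_of_true hk one_pos
  · filter_upwards [hy'.eventually (gt_mem_nhds (show (-1 : ℝ) < 0 by norm_num))] with k hk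
    have : ¬ (0 < y k) := by linarith
    have h3 : ¬ ((0 : ℝ) < -1) := by norm_num
    exact iff_of_false this h3

theorem fin_tendsto_of_summable {x : ℕ → ℝ} (h : Summable (fun k => |x (k + 1) - x k|)) :
    ∃ l, Tendsto x atTop (𝓝 l) := by
  have h2 : Summable (fun k => dist (x k) (x (k + 1))) := by
    refine h.congr fun k => ?_
    rw [dist_comm, Real.dist_eq]
  exact cauchySeq_tendsto_of_complete (cauchySeq_of_summable_dist h2)


theorem fin_as_abs {X M : ℕ → Ω → ℝ} (mX : ∀ k, Measurable (X k)) (mM : ∀ k, Measurable (M k))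
    (bX : ∀ k ω, |X k ω| ≤ 1) (bM : ∀ k ω, |M k ω| ≤ 1)
    (c1 : ∀ k, ∫ ω, (X (k + 1) ω - X k ω) ^ 2 ∂P ≤ 18 * (1 / 4) ^ k)
    (c2 : ∀ k, ∫ ω, (M k ω - X k ω) ^ 2 ∂P ≤ 4 * (1 / 4) ^ k)
    (c3 : ∀ k, ∫ ω, (1 - (X k ω) ^ 2) ∂P ≤ 3 * (1 / 2) ^ k) :
    ∀ᵐ ω ∂P, ∀ᶠ k in atTop, (0 < M k ω ↔ 0 < limsup (fun k => X k ω) atTop) := by
  have A1 := fin_ae_conv (P := P) (f := fun k ω => X (k + 1) ω - X k ω)
    (fun k => (mX (k + 1)).sub (mX k)) (B := 2) (C := 18) (fun k ω => by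
      have := abs_sub (X (k + 1) ω) (X k ω)
      linarith [bX (k + 1) ω, bX k ω]) c1
  have A2 := fin_ae_conv (P := P) (f := fun k ω => M k ω - X k ω)
    (fun k => (mM k).sub (mX k)) (B := 2) (C := 4) (fun k ω => by
      have := abs_sub (M k ω) (X k ω)
      linarith [bM k ω, bX k ω]) c2
  have hn : ∀ k ω, 0 ≤ 1 - (X k ω) ^ 2 := by
    intro k ω
    have := bX k ω
    have h2 := sq_abs (X k ω)
    nlinarith [abs_nonneg (X k ω)]
  have A3 : ∀ᵐ ω ∂P, Summable (fun k => |1 - (X k ω) ^ 2|) := by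
    refine fin_ae_summable (fun k => measurable_const.sub ((mX k).pow_const 2))
      (fun k => (integrable_const _).sub (fin_sq_int (mX k) (bX k))) ?_
    have e : ∀ k, ∫ ω, |1 - (X k ω) ^ 2| ∂P = ∫ ω, (1 - (X k ω) ^ 2) ∂P := by
      intro k
      refine integral_congr_ae (Filter.Eventually.of_forall fun ω => ?_)
      simp only
      rw [abs_of_nonneg (hn k ω)]
    simp only [e]
    exact Summable.of_nonneg_of_le (fun k => integral_nonneg fun ω => hn k ω) c3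
      ((summable_geometric_of_lt_one (by norm_num) (by norm_num)).mul_left _)
  filter_upwards [A1, A2, A3] with ω h1 h2 h3
  obtain ⟨l, hl⟩ := fin_tendsto_of_summable (x := fun k => X k ω) h1
  have h4 : l ^ 2 = 1 := by
    have t1 : Tendsto (fun k => |1 - (X k ω) ^ 2|) atTop (𝓝 |1 - l ^ 2|) :=
      (tendsto_const_nhds.sub (hl.pow 2)).abs
    have t2 := tendsto_nhds_unique t1 h3.tendsto_atTop_zero
    have := abs_eq_zero.1 t2
    linarith
  have h5 : Tendsto (fun k => M k ω - X k ω) atTop (𝓝 0) :=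
    (tendsto_zero_iff_abs_tendsto_zero _).2 h2.tendsto_atTop_zero
  exact fin_real (x := fun k => X k ω) (y := fun k => M k ω) hl h4 h5

end abstractae

variable {V : Type u} {G : SimpleGraph V} [G.LocallyFinite]

structure FinSeq (G : SimpleGraph V) [G.LocallyFinite] (d : ℕ) (θ : ℝ) where
  ths : ℕ → ℝ
  T : ℕ → ℝ
  R : ℕ → ℕ
  h0 : ∀ k, 0 ≤ ths k
  h1 : ∀ k, ths k < thc d
  lim : Tendsto ths atTop (𝓝 θ)
  T0 : ∀ k, 0 ≤ T k
  app : ∀ (k : ℕ) (o v : V) (R' : ℕ), G.dist o v + R k ≤ R' →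
    ∫ ω, (mm G (ths k) (ball G o R') (T k) ω v - mI G (ths k) (T k) ω v) ^ 2 ∂PP V ≤ (1 / 4) ^ k
  inc : ∀ (k : ℕ) (v : V), ∫ ω, (mI G (ths (k + 1)) (T (k + 1)) ω v - mI G (ths k) (T k) ω v) ^ 2
    ∂PP V ≤ 4 * (1 / 4) ^ k
  low : ∀ (k : ℕ) (v : V), 1 - (1 / 4) ^ k ≤ ∫ ω, (mI G (ths k) (T k) ω v) ^ 2 ∂PP V

section seqs
variable {d : ℕ} {θ : ℝ} (X : FinSeq G d θ)

/-- approximants -/
noncomputable def FinSeq.Xk (X : FinSeq G d θ) (k : ℕ) (ω : Lab V) (v : V) : ℝ :=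
  mm G (X.ths k) (ball G v (X.R k)) (X.T k) ω v

noncomputable def FinSeq.Mk (X : FinSeq G d θ) (o : V) (M k : ℕ) (ω : Lab V) (v : V) : ℝ :=
  mm G (X.ths k) (ball G o (X.R k + M)) (X.T k) ω v

omit [G.LocallyFinite] in
theorem fin_meas_mm (θ : ℝ) (Λ : Finset V) (T : ℝ) (v : V) :
    Measurable (fun ω : Lab V => mm G θ Λ T ω v) := by
  have h := measurable_mm G θ Λ
  have h2 : Measurable (fun ω : Lab V => (ω, T)) := measurable_id.prodMk measurable_const
  exact (measurable_pi_iff.1 (h.comp h2) v)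

theorem fin_meas_mI (θ : ℝ) (T : ℝ) (v : V) :
    Measurable (fun ω : Lab V => mI G θ T ω v) := by
  have h := measurable_mI G θ v
  have h2 : Measurable (fun ω : Lab V => (ω, T)) := measurable_id.prodMk measurable_const
  have h3 := h.comp h2
  simp only [Function.comp_def] at h3
  exact h3

include X in
theorem fin_mI_le (hT : G.IsTree) (hd : 3 ≤ d) (hreg : G.IsRegularOfDegree d) (k : ℕ) (ω : Lab V)
    (v : V) : |mI G (X.ths k) (X.T k) ω v| ≤ 1 := by
  obtain ⟨bd, hb0, hb1, h⟩ := mm_mI_bd d hd ⌈X.T k⌉₊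
  exact ((h V G hT hreg _ (X.h0 k) (X.h1 k).le _ (Nat.le_ceil _) ω).2 v).trans hb1.le

theorem fin_mm_le (hd : 3 ≤ d) (k : ℕ) (ω : Lab V) (Λ : Finset V) (v : V) :
    |mm G (X.ths k) Λ (X.T k) ω v| ≤ 1 :=
  (mm_abs_lt (X.h0 k) ((X.h1 k).trans (thc_lt_one hd)) _ _ _ _).le

theorem fin_c1 (hT : G.IsTree) (hd : 3 ≤ d) (hreg : G.IsRegularOfDegree d) (k : ℕ) (v : V) :
    ∫ ω, (X.Xk (k + 1) ω v - X.Xk k ω v) ^ 2 ∂PP V ≤ 18 * (1 / 4) ^ k := by
  have a1 := X.app (k + 1) v v (X.R (k + 1)) (by simp)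
  have a2 := X.app k v v (X.R k) (by simp)
  have a3 := X.inc k v
  have := fin_tri3 (P := PP V) (fin_meas_mm (G := G) (X.ths (k + 1)) (ball G v (X.R (k + 1)))
    (X.T (k + 1)) v) (fin_meas_mm (G := G) (X.ths k) (ball G v (X.R k)) (X.T k) v)
    (fin_meas_mI (G := G) (X.ths (k + 1)) (X.T (k + 1)) v)
    (fin_meas_mI (G := G) (X.ths k) (X.T k) v)
    (fun ω => fin_mm_le X hd (k + 1) ω (ball G v (X.R (k + 1))) v)
    (fun ω => fin_mm_le X hd k ω (ball G v (X.R k)) v)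
    (fun ω => fin_mI_le X hT hd hreg (k + 1) ω v) (fun ω => fin_mI_le X hT hd hreg k ω v)
  unfold FinSeq.Xk
  have e : ((1 : ℝ) / 4) ^ (k + 1) = (1 / 4) ^ k / 4 := by rw [pow_succ]; ring
  rw [e] at a1
  have : (0 : ℝ) ≤ (1 / 4) ^ k := by positivity
  linarith

theorem fin_c2 (hT : G.IsTree) (hd : 3 ≤ d) (hreg : G.IsRegularOfDegree d) (o : V) (M : ℕ) (v : V)
    (hM : G.dist o v ≤ M) (k : ℕ) :
    ∫ ω, (X.Mk o M k ω v - X.Xk k ω v) ^ 2 ∂PP V ≤ 4 * (1 / 4) ^ k := by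
  have a1 := X.app k o v (X.R k + M) (by omega)
  have a2 := X.app k v v (X.R k) (by simp)
  have := fin_tri2 (P := PP V) (fin_meas_mm (G := G) (X.ths k) (ball G o (X.R k + M)) (X.T k) v)
    (fin_meas_mm (G := G) (X.ths k) (ball G v (X.R k)) (X.T k) v)
    (fin_meas_mI (G := G) (X.ths k) (X.T k) v)
    (fun ω => fin_mm_le X hd k ω (ball G o (X.R k + M)) v)
    (fun ω => fin_mm_le X hd k ω (ball G v (X.R k)) v) (fun ω => fin_mI_le X hT hd hreg k ω v)
  unfold FinSeq.Xk FinSeq.Mk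
  linarith

/-- deficits -/
theorem fin_c3 (hT : G.IsTree) (hd : 3 ≤ d) (hreg : G.IsRegularOfDegree d) (k : ℕ) (o v : V)
    (R' : ℕ) (hR : G.dist o v + X.R k ≤ R') :
    ∫ ω, (1 - (mm G (X.ths k) (ball G o R') (X.T k) ω v) ^ 2) ∂PP V ≤ 3 * (1 / 2) ^ k :=
  fin_def (fin_meas_mm (G := G) (X.ths k) (ball G o R') (X.T k) v)
    (fin_meas_mI (G := G) (X.ths k) (X.T k) v) (fun ω => fin_mm_le X hd k ω (ball G o R') v)
    (fun ω => fin_mI_le X hT hd hreg k ω v) k (X.app k o v R' hR) (X.low k v)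


/-- the limiting spin -/
noncomputable def FinSeq.Phi (X : FinSeq G d θ) (ω : Lab V) (v : V) : Bool :=
  decide (0 < limsup (fun k => X.Xk k ω v) atTop)

/-- almost surely, the sign of `Mk` is eventually the limiting spin -/
theorem fin_as (hT : G.IsTree) (hd : 3 ≤ d) (hreg : G.IsRegularOfDegree d) (o : V) (M : ℕ) (v : V)
    (hM : G.dist o v ≤ M) :
    ∀ᵐ ω ∂PP V, ∀ᶠ k in atTop,
      (0 < X.Mk o M k ω v ↔ 0 < limsup (fun k => X.Xk k ω v) atTop) :=
  fin_as_abs (P := PP V) (X := fun k ω => X.Xk k ω v) (M := fun k ω => X.Mk o M k ω v)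
    (fun k => fin_meas_mm (G := G) (X.ths k) (ball G v (X.R k)) (X.T k) v)
    (fun k => fin_meas_mm (G := G) (X.ths k) (ball G o (X.R k + M)) (X.T k) v)
    (fun k ω => fin_mm_le X hd k ω _ v) (fun k ω => fin_mm_le X hd k ω _ v)
    (fun k => fin_c1 X hT hd hreg k v) (fun k => fin_c2 X hT hd hreg o M v hM k)
    (fun k => fin_c3 X hT hd hreg k v v (X.R k) (by simp))

theorem fin_Phi_meas : Measurable X.Phi := by
  refine measurable_pi_lambda _ fun v => ?_
  have h : Measurable (fun ω => limsup (fun k => X.Xk k ω v) atTop) :=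
    Measurable.limsup fun k => fin_meas_mm (G := G) (X.ths k) (ball G v (X.R k)) (X.T k) v
  have h2 : MeasurableSet {ω : Lab V | 0 < limsup (fun k => X.Xk k ω v) atTop} :=
    measurableSet_lt measurable_const h
  exact measurable_to_bool (by
    convert h2 using 1
    ext ω
    simp [FinSeq.Phi])

theorem fin_Phi_equiv (hT : G.IsTree) (g : G ≃g G) (ω : Lab V) :
    X.Phi (fun w => ω (g w)) = X.Phi ω ∘ ⇑g := by
  funext v
  unfold FinSeq.Phi FinSeq.Xk
  simp only [Function.comp]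
  have : ∀ k, mm G (X.ths k) (ball G (g v) (X.R k)) (X.T k) ω (g v) =
      mm G (X.ths k) (ball G v (X.R k)) (X.T k) (fun w => ω (g w)) v := by
    intro k
    rw [← ball_map hT g, mm_map]
  simp only [this]


/-! ### the law -/

theorem fin_meas_tanh : Measurable Real.tanh := by
  have : Real.tanh = fun x => Real.sinh x / Real.cosh x := by
    funext x; exact Real.tanh_eq_sinh_div_cosh x
  rw [this]
  exact Real.measurable_sinh.div Real.measurable_cosh

omit [G.LocallyFinite] in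
theorem fin_post_mem {θ : ℝ} {Λ S : Finset V} {t : V → ℝ} (h : Adm θ Λ t) (η : V → Bool) :
    0 ≤ post G θ Λ S t η ∧ post G θ Λ S t η ≤ 1 := by
  classical
  have hZ := Zt_pos (G := G) h
  unfold post
  refine ⟨div_nonneg (Finset.sum_nonneg fun A _ => (i3_wtI_nonneg h A).le) hZ.le, ?_⟩
  rw [div_le_one hZ]
  unfold Zt
  refine Finset.sum_le_sum_of_subset_of_nonneg (fun A hA => ?_)
    fun A _ _ => (i3_wtI_nonneg h A).le
  simp only [Finset.mem_filter] at hA
  exact hA.1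

omit [G.LocallyFinite] in
theorem fin_post_congr (θ : ℝ) (Λ S : Finset V) (t t' : V → ℝ)
    (h : ∀ v ∈ Λ, t v = t' v) (η : V → Bool) : post G θ Λ S t η = post G θ Λ S t' η := by
  classical
  unfold post
  rw [Zt_congr G θ Λ t t' h]
  congr 1
  refine Finset.sum_congr rfl fun A _ => ?_
  unfold wtI
  congr 1
  exact Finset.prod_congr rfl fun v hv => by rw [h v hv]

omit [G.LocallyFinite] in
theorem fin_post_meas (θ : ℝ) (Λ S : Finset V) (η : V → Bool) :
    Measurable (fun t : V → ℝ => post G θ Λ S t η) := by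
  classical
  unfold post
  exact (Finset.measurable_sum _ fun A _ => i3_measurable_wtI G θ Λ A).div
    (measurable_Zt G θ Λ)

/-- posterior expectation = Ising probability -/
theorem fin_post_int (hT : G.IsTree) {θ : ℝ} (h0 : 0 ≤ θ) (h1 : θ < 1) (o : V) (R : ℕ) (T : ℝ)
    (S : Finset V) (hS : (G.induce (S : Set V)).Connected) (hSΛ : S ⊆ ball G o R)
    (η : V → Bool) :
    ∫ ω, post G θ (ball G o R) S (fun v => Real.tanh (hh G θ (ball G o R) T ω v)) η ∂PP V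
      = isingWeight G θ S η := by
  classical
  have : Countable V := countable_V hT
  have hF : Measurable (fun t : V → ℝ => max 0 (min 1 (post G θ (ball G o R) S t η))) :=
    measurable_const.max (measurable_const.min (fin_post_meas θ _ S η))
  have hb : ∀ t : V → ℝ, |max 0 (min 1 (post G θ (ball G o R) S t η))| ≤ 1 := by
    intro t
    rw [abs_of_nonneg (le_max_left _ _)]
    exact max_le (by norm_num) (min_le_left _ _)
  have heq : ∀ t : V → ℝ, Adm θ (ball G o R) t →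
      max 0 (min 1 (post G θ (ball G o R) S t η)) = post G θ (ball G o R) S t η := by
    intro t ht
    have := fin_post_mem (G := G) (S := S) ht η
    rw [min_eq_right this.2, max_eq_right this.1]
  have e1 := P2 hT h0 h1 o R T _ hF ⟨1, hb⟩
  have e2 : ∫ ω, post G θ (ball G o R) S (fun v => Real.tanh (hh G θ (ball G o R) T ω v)) η ∂PP V
      = ∫ ω, max 0 (min 1 (post G θ (ball G o R) S
          (fun v => Real.tanh (hh G θ (ball G o R) T ω v)) η)) ∂PP V := by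
    refine integral_congr_ae (Filter.Eventually.of_forall fun ω => ?_)
    exact (heq _ (adm_hh h0 h1 _ T ω)).symm
  rw [e2]
  refine e1.trans ?_
  set μ := Measure.infinitePi (fun _ : V => nu T) with hμ
  have hs1 : ∀ᵐ x ∂nu T, |x| < 1 :=
    (nu_supp T ⌈T⌉₊ (Nat.le_ceil T)).mono fun x hx => lt_of_le_of_lt hx (tbd_lt_one _)
  have hae : ∀ᵐ t ∂μ, ∀ v, |t v| < 1 := ae_all_iff.2 fun v =>
    (measurePreserving_eval_infinitePi (fun _ : V => nu T) v).quasiMeasurePreserving.ae hs1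
  have e3 : ∫ t, max 0 (min 1 (post G θ (ball G o R) S
        (fun v => if v ∈ ball G o R then t v else 0) η)) * Zt G θ (ball G o R) t ∂μ
      = ∫ t, post G θ (ball G o R) S t η * Zt G θ (ball G o R) t ∂μ := by
    refine integral_congr_ae ?_
    filter_upwards [hae] with t ht
    have e4 : post G θ (ball G o R) S (fun v => if v ∈ ball G o R then t v else 0) η
        = post G θ (ball G o R) S t η :=
      fin_post_congr θ _ S _ _ (fun v hv => by simp [hv]) η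
    rw [e4, heq t ⟨h0, h1, fun v _ => ht v⟩]
  have hmean : ∫ x, x ∂nu T = 0 := by
    have h2 : ∫ x, x ∂((nu T).map (fun x => -x)) = ∫ x, -x ∂nu T :=
      integral_map (by fun_prop) (by fun_prop)
    rw [nu_symm, integral_neg] at h2
    linarith
  rw [e3, post_integral θ h0 h1 _ S η (nu T) hs1 hmean, post_zero hT h0 h1 o R S hS hSΛ,
    Zt_ball_zero hT h0 h1, mul_one]

/-- one approximant -/
theorem fin_law_k (hT : G.IsTree) (hd : 3 ≤ d) (hreg : G.IsRegularOfDegree d) (o : V) (M : ℕ)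
    (S : Finset V) (hS : (G.induce (S : Set V)).Connected) (hM : ∀ v ∈ S, G.dist o v ≤ M)
    (η : V → Bool) (k : ℕ) :
    |(PP V).real {ω | ∀ v ∈ S, decide (0 < X.Mk o M k ω v) = η v}
      - isingWeight G (X.ths k) S η| ≤ S.card * (3 * (1 / 2) ^ k) := by
  classical
  have hSΛ : S ⊆ ball G o (X.R k + M) := by
    intro v hv
    rw [mem_ball hT]
    have := hM v hv
    omega
  have h0 := X.h0 k
  have h1 : X.ths k < 1 := (X.h1 k).trans (thc_lt_one hd)
  rw [← fin_post_int hT h0 h1 o (X.R k + M) (X.T k) S hS hSΛ η]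
  have mM : ∀ v, Measurable (fun ω => X.Mk o M k ω v) := fun v =>
    fin_meas_mm (G := G) (X.ths k) (ball G o (X.R k + M)) (X.T k) v
  have bM : ∀ v ω, |X.Mk o M k ω v| ≤ 1 := fun v ω => fin_mm_le X hd k ω _ v
  have hA : MeasurableSet {ω | ∀ v ∈ S, decide (0 < X.Mk o M k ω v) = η v} := by
    have : {ω | ∀ v ∈ S, decide (0 < X.Mk o M k ω v) = η v}
        = ⋂ v ∈ S, {ω | decide (0 < X.Mk o M k ω v) = η v} := by
      ext ω; simp
    rw [this]
    refine Finset.measurableSet_biInter _ fun v _ => ?_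
    have h2 : MeasurableSet {ω : Lab V | 0 < X.Mk o M k ω v} :=
      measurableSet_lt measurable_const (mM v)
    cases η v
    · have : {ω : Lab V | decide (0 < X.Mk o M k ω v) = false} = {ω | 0 < X.Mk o M k ω v}ᶜ := by
        ext ω; simp
      rw [this]; exact h2.compl
    · have : {ω : Lab V | decide (0 < X.Mk o M k ω v) = true} = {ω | 0 < X.Mk o M k ω v} := by
        ext ω; simp
      rw [this]; exact h2
  have e1 : (PP V).real {ω | ∀ v ∈ S, decide (0 < X.Mk o M k ω v) = η v}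
      = ∫ ω, (if (∀ v ∈ S, decide (0 < X.Mk o M k ω v) = η v) then (1 : ℝ) else 0) ∂PP V := by
    rw [← integral_indicator_one hA]
    refine integral_congr_ae (Filter.Eventually.of_forall fun ω => ?_)
    simp only [Set.indicator, Set.mem_ofPred_eq, Pi.one_apply]
  have mI1 : Measurable (fun ω : Lab V =>
      (if (∀ v ∈ S, decide (0 < X.Mk o M k ω v) = η v) then (1 : ℝ) else 0)) :=
    Measurable.ite hA measurable_const measurable_const
  have i1 : Integrable (fun ω : Lab V =>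
      (if (∀ v ∈ S, decide (0 < X.Mk o M k ω v) = η v) then (1 : ℝ) else 0)) (PP V) :=
    fin_int mI1 (B := 1) fun ω => by split_ifs <;> simp
  have mh : Measurable (fun ω : Lab V => fun v =>
      Real.tanh (hh G (X.ths k) (ball G o (X.R k + M)) (X.T k) ω v)) := by
    have h := measurable_hh G (X.ths k) (ball G o (X.R k + M))
    have h2 : Measurable (fun ω : Lab V => (ω, X.T k)) := measurable_id.prodMk measurable_const
    have h3 := h.comp h2
    simp only [Function.comp_def] at h3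
    refine measurable_pi_lambda _ fun v => ?_
    have h4 := (measurable_pi_apply v).comp h3
    simp only [Function.comp_def] at h4
    exact fin_meas_tanh.comp h4
  have i2 : Integrable (fun ω : Lab V => post G (X.ths k) (ball G o (X.R k + M)) S
      (fun v => Real.tanh (hh G (X.ths k) (ball G o (X.R k + M)) (X.T k) ω v)) η) (PP V) :=
    fin_int ((fin_post_meas (G := G) (X.ths k) _ S η).comp mh) (B := 1) fun ω => by
      have := fin_post_mem (G := G) (S := S)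
        (adm_hh (G := G) h0 h1 (ball G o (X.R k + M)) (X.T k) ω) η
      exact (abs_of_nonneg this.1).le.trans this.2
  rw [e1, ← integral_sub i1 i2]
  refine (abs_integral_le_integral_abs).trans ?_
  have i3 : ∀ v ∈ S, Integrable (fun ω => 1 - (X.Mk o M k ω v) ^ 2) (PP V) := fun v _ =>
    (integrable_const _).sub (fin_sq_int (mM v) (bM v))
  calc _ ≤ ∫ ω, ∑ v ∈ S, (1 - (X.Mk o M k ω v) ^ 2) ∂PP V := by
        refine integral_mono_of_nonneg (Filter.Eventually.of_forall fun ω => abs_nonneg _)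
          (integrable_finsetSum _ i3) (Filter.Eventually.of_forall fun ω => ?_)
        have h5 := post_sign (G := G) (ball G o (X.R k + M)) S hSΛ _
          (adm_hh (G := G) h0 h1 (ball G o (X.R k + M)) (X.T k) ω) η
        refine le_trans (le_of_eq ?_) (h5.trans (Finset.sum_le_sum fun v _ => ?_))
        · rfl
        · have := bM v ω
          have h6 : (X.Mk o M k ω v) ^ 2 = |X.Mk o M k ω v| ^ 2 := (sq_abs _).symm
          rw [h6]
          have h7 : mean G (X.ths k) (ball G o (X.R k + M)) (fun w => Real.tanh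
            (hh G (X.ths k) (ball G o (X.R k + M)) (X.T k) ω w)) v = X.Mk o M k ω v := rfl
          rw [h7]
          nlinarith [abs_nonneg (X.Mk o M k ω v)]
    _ = ∑ v ∈ S, ∫ ω, (1 - (X.Mk o M k ω v) ^ 2) ∂PP V := integral_finsetSum _ i3
    _ ≤ ∑ v ∈ S, 3 * (1 / 2) ^ k := Finset.sum_le_sum fun v hv =>
        fin_c3 X hT hd hreg k o v (X.R k + M) (by have := hM v hv; omega)
    _ = S.card * (3 * (1 / 2) ^ k) := by rw [Finset.sum_const, nsmul_eq_mul]

omit [G.LocallyFinite] in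
theorem fin_iw_cont (S : Finset V) (η : V → Bool) :
    Continuous (fun θ : ℝ => isingWeight G θ S η) := by
  unfold isingWeight
  refine continuous_const.mul (continuous_finsetProd _ fun e _ => ?_)
  split_ifs
  · fun_prop
  · fun_prop

omit [G.LocallyFinite] in
theorem fin_iw_nonneg {θ : ℝ} (h0 : 0 ≤ θ) (h1 : θ ≤ 1) (S : Finset V) (η : V → Bool) :
    0 ≤ isingWeight G θ S η := by
  unfold isingWeight
  refine mul_nonneg (by norm_num) (Finset.prod_nonneg fun e _ => ?_)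
  split_ifs
  · linarith
  · linarith

theorem fin_tendsto_prob {Ω : Type*} [MeasurableSpace Ω] {P : Measure Ω} [IsProbabilityMeasure P]
    {A : ℕ → Set Ω} {B : Set Ω} (hA : ∀ k, MeasurableSet (A k)) (hB : MeasurableSet B)
    (h : ∀ᵐ ω ∂P, ∀ᶠ k in atTop, (ω ∈ A k ↔ ω ∈ B)) :
    Tendsto (fun k => P.real (A k)) atTop (𝓝 (P.real B)) := by
  have e : ∀ C : Set Ω, MeasurableSet C → P.real C = ∫ ω, C.indicator (fun _ => (1 : ℝ)) ω ∂P := by
    intro C hC
    exact (integral_indicator_one hC).symm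
  rw [e B hB]
  have e' : (fun k => P.real (A k)) = fun k => ∫ ω, (A k).indicator (fun _ => (1 : ℝ)) ω ∂P := by
    funext k; exact e _ (hA k)
  rw [e']
  refine tendsto_integral_of_dominated_convergence (fun _ => (1 : ℝ))
    (fun k => (measurable_const.indicator (hA k)).aestronglyMeasurable) (integrable_const _)
    (fun k => Filter.Eventually.of_forall fun ω => ?_) ?_
  · by_cases hω : ω ∈ A k
    · simp [hω]
    · simp [hω]
  · filter_upwards [h] with ω hω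
    refine tendsto_const_nhds.congr' ?_
    filter_upwards [hω] with k hk
    by_cases hB : ω ∈ B
    · simp [hB, hk.2 hB]
    · have : ω ∉ A k := fun h => hB (hk.1 h)
      simp [hB, this]

theorem fin_meas_set (f : Lab V → V → ℝ) (hf : ∀ v, Measurable (fun ω => f ω v)) (S : Finset V)
    (η : V → Bool) : MeasurableSet {ω | ∀ v ∈ S, decide (0 < f ω v) = η v} := by
  have : {ω | ∀ v ∈ S, decide (0 < f ω v) = η v}
      = ⋂ v ∈ S, {ω | decide (0 < f ω v) = η v} := by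
    ext ω; simp
  rw [this]
  refine Finset.measurableSet_biInter _ fun v _ => ?_
  have h2 : MeasurableSet {ω : Lab V | 0 < f ω v} := measurableSet_lt measurable_const (hf v)
  cases η v
  · have : {ω : Lab V | decide (0 < f ω v) = false} = {ω | 0 < f ω v}ᶜ := by
      ext ω; simp
    rw [this]; exact h2.compl
  · have : {ω : Lab V | decide (0 < f ω v) = true} = {ω | 0 < f ω v} := by
      ext ω; simp
    rw [this]; exact h2

theorem fin_law (hT : G.IsTree) (hd : 3 ≤ d) (hreg : G.IsRegularOfDegree d)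
    (S : Finset V) (hS : (G.induce (S : Set V)).Connected) (η : V → Bool) :
    (PP V).map X.Phi {σ | ∀ v ∈ S, σ v = η v} = ENNReal.ofReal (isingWeight G θ S η) := by
  classical
  obtain ⟨⟨o, ho⟩⟩ := hS.nonempty
  set M := ∑ v ∈ S, G.dist o v with hMdef
  have hM : ∀ v ∈ S, G.dist o v ≤ M := fun v hv =>
    Finset.single_le_sum (f := fun v => G.dist o v) (fun _ _ => Nat.zero_le _) hv
  have hms : MeasurableSet {σ : V → Bool | ∀ v ∈ S, σ v = η v} := by
    have : {σ : V → Bool | ∀ v ∈ S, σ v = η v} = ⋂ v ∈ S, {σ | σ v = η v} := by ext σ; simp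
    rw [this]
    exact Finset.measurableSet_biInter _ fun v _ =>
      measurableSet_eq_fun (measurable_pi_apply v) measurable_const
  rw [Measure.map_apply (fin_Phi_meas X) hms]
  have mlim : ∀ v, Measurable (fun ω => limsup (fun k => X.Xk k ω v) atTop) := fun v =>
    Measurable.limsup fun k => fin_meas_mm (G := G) (X.ths k) (ball G v (X.R k)) (X.T k) v
  have hB := fin_meas_set (fun ω v => limsup (fun k => X.Xk k ω v) atTop) mlim S η
  have hA : ∀ k, MeasurableSet {ω | ∀ v ∈ S, decide (0 < X.Mk o M k ω v) = η v} := fun k =>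
    fin_meas_set (fun ω v => X.Mk o M k ω v)
      (fun v => fin_meas_mm (G := G) (X.ths k) (ball G o (X.R k + M)) (X.T k) v) S η
  have has : ∀ᵐ ω ∂PP V, ∀ᶠ k in atTop, (ω ∈ {ω | ∀ v ∈ S, decide (0 < X.Mk o M k ω v) = η v} ↔
      ω ∈ {ω | ∀ v ∈ S, decide (0 < limsup (fun k => X.Xk k ω v) atTop) = η v}) := by
    have h1 : ∀ᵐ ω ∂PP V, ∀ v ∈ S, ∀ᶠ k in atTop,
        (0 < X.Mk o M k ω v ↔ 0 < limsup (fun k => X.Xk k ω v) atTop) := by
      rw [Filter.eventually_all_finset]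
      intro v hv
      exact fin_as X hT hd hreg o M v (hM v hv)
    filter_upwards [h1] with ω hω
    rw [← Filter.eventually_all_finset] at hω
    filter_upwards [hω] with k hk
    have h5 : (∀ v ∈ S, decide (0 < X.Mk o M k ω v) = η v) ↔
        (∀ v ∈ S, decide (0 < limsup (fun k => X.Xk k ω v) atTop) = η v) := by
      refine forall₂_congr fun v hv => ?_
      rw [decide_eq_decide.2 (hk v hv)]
    exact h5
  have t1 := fin_tendsto_prob hA hB has
  have t2 : Tendsto (fun k => isingWeight G (X.ths k) S η) atTop (𝓝 (isingWeight G θ S η)) :=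
    ((fin_iw_cont S η).tendsto θ).comp X.lim
  have t3 : Tendsto (fun k => (PP V).real {ω | ∀ v ∈ S, decide (0 < X.Mk o M k ω v) = η v}
      - isingWeight G (X.ths k) S η) atTop (𝓝 0) := by
    refine squeeze_zero_norm (fun k => ?_) (?_ : Tendsto (fun k : ℕ => (S.card : ℝ) * (3 * (1 / 2) ^ k))
      atTop (𝓝 0))
    · rw [Real.norm_eq_abs]
      exact fin_law_k X hT hd hreg o M S hS hM η k
    · have := ((tendsto_pow_atTop_nhds_zero_of_lt_one (show (0 : ℝ) ≤ 1 / 2 by norm_num)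
        (by norm_num)).const_mul (3 : ℝ)).const_mul (S.card : ℝ)
      simpa using this
  have e1 := tendsto_nhds_unique (t1.sub t2) t3
  have e2 : (PP V).real {ω | ∀ v ∈ S, decide (0 < limsup (fun k => X.Xk k ω v) atTop) = η v}
      = isingWeight G θ S η := by linarith
  have e3 : X.Phi ⁻¹' {σ | ∀ v ∈ S, σ v = η v}
      = {ω | ∀ v ∈ S, decide (0 < limsup (fun k => X.Xk k ω v) atTop) = η v} := rfl
  rw [e3, ← e2, Measure.real, ENNReal.ofReal_toReal (measure_ne_top _ _)]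

end seqs

theorem fin_bd1 (hT : G.IsTree) {d : ℕ} (hd : 3 ≤ d) (hreg : G.IsRegularOfDegree d) {θ : ℝ}
    (h0 : 0 ≤ θ) (h1 : θ < thc d) (T : ℝ) (ω : Lab V) (v : V) : |mI G θ T ω v| ≤ 1 := by
  obtain ⟨bd, hb0, hb1, h⟩ := mm_mI_bd d hd ⌈T⌉₊
  exact ((h V G hT hreg _ h0 h1.le _ (Nat.le_ceil _) ω).2 v).trans hb1.le

theorem fin_exists_seq (hT : G.IsTree) {d : ℕ} (hd : 3 ≤ d) (hreg : G.IsRegularOfDegree d) {θ : ℝ}
    (Θ : ℕ → ℝ) (h0 : ∀ n, 0 ≤ Θ n) (h1 : ∀ n, Θ n < thc d) (hl : Tendsto Θ atTop (𝓝 θ))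
    (hc : ∀ T : ℝ, 0 ≤ T → ∀ ε : ℝ, 0 < ε → ∃ N : ℕ, ∀ n ≥ N, ∀ m ≥ N, ∀ v : V,
      ∫ ω, (mI G (Θ n) T ω v - mI G (Θ m) T ω v) ^ 2 ∂PP V ≤ ε) :
    Nonempty (FinSeq G d θ) := by
  -- times
  have ht : ∀ k : ℕ, ∃ t : ℝ, 0 ≤ t ∧ ∀ T, t ≤ T → 1 - ∫ x, x ^ 2 ∂nu T ≤ (1 / 4) ^ k := by
    intro k
    have h2 : ∀ᶠ T in atTop, 1 - (1 / 4 : ℝ) ^ k < ∫ x, x ^ 2 ∂nu T :=
      nu_var_lim.eventually (lt_mem_nhds (by
        have : (0 : ℝ) < (1 / 4) ^ k := by positivity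
        linarith))
    obtain ⟨t, ht⟩ := eventually_atTop.1 h2
    refine ⟨max t 0, le_max_right _ _, fun T hT => ?_⟩
    have := ht T ((le_max_left _ _).trans hT)
    linarith
  choose t ht0 ht1 using ht
  set T : ℕ → ℝ := fun k => ∑ j ∈ Finset.range (k + 1), t j with hTdef
  have hT0 : ∀ k, 0 ≤ T k := fun k => Finset.sum_nonneg fun j _ => ht0 j
  have hTmono : ∀ k, T k ≤ T (k + 1) := by
    intro k
    simp only [hTdef]
    rw [Finset.sum_range_succ _ (k + 1)]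
    linarith [ht0 (k + 1)]
  have hTt : ∀ k, t k ≤ T k := fun k =>
    Finset.single_le_sum (f := t) (fun j _ => ht0 j) (Finset.self_mem_range_succ k)
  -- indices
  have hN : ∀ k : ℕ, ∃ N : ℕ, ∀ n ≥ N, ∀ m ≥ N, ∀ v : V,
      ∫ ω, (mI G (Θ n) (T k) ω v - mI G (Θ m) (T k) ω v) ^ 2 ∂PP V ≤ (1 / 4) ^ k := fun k =>
    hc (T k) (hT0 k) _ (by positivity)
  choose N hN using hN
  set nn : ℕ → ℕ := fun k => k + ∑ j ∈ Finset.range (k + 1), N j with hnn
  have hnnN : ∀ k, N k ≤ nn k := fun k => by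
    have := Finset.single_le_sum (f := N) (fun j _ => Nat.zero_le _)
      (Finset.self_mem_range_succ k)
    simp only [hnn]
    omega
  have hnnmono : ∀ k, nn k ≤ nn (k + 1) := by
    intro k
    simp only [hnn]
    rw [Finset.sum_range_succ _ (k + 1)]
    omega
  have hnnk : ∀ k, k ≤ nn k := fun k => by simp only [hnn]; omega
  -- radii
  have hR : ∀ k : ℕ, ∃ R : ℕ, ∀ (o v : V) (R' : ℕ), G.dist o v + R ≤ R' →
      ∫ ω, (mm G (Θ (nn k)) (ball G o R') (T k) ω v - mI G (Θ (nn k)) (T k) ω v) ^ 2 ∂PP V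
        ≤ (1 / 4) ^ k := by
    intro k
    obtain ⟨C, ρ, hC, hρ0, hρ1, h⟩ := mI_approx hT d hd hreg (Θ (nn k)) (h0 _) (h1 _) ⌈T k⌉₊
    have h2 : Tendsto (fun r : ℕ => C * ρ ^ r) atTop (𝓝 0) := by
      simpa using (tendsto_pow_atTop_nhds_zero_of_lt_one hρ0.le hρ1).const_mul C
    have h3 : ∀ᶠ r : ℕ in atTop, C * ρ ^ r < (1 / 4) ^ k :=
      h2.eventually (gt_mem_nhds (by positivity))
    obtain ⟨R, hR⟩ := eventually_atTop.1 h3
    refine ⟨R, fun o v R' hR' => ?_⟩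
    exact (h (T k) (hT0 k) (Nat.le_ceil _) o v R R' hR').trans (hR R le_rfl).le
  choose R hR using hR
  have hlow : ∀ k v, 1 - (1 / 4 : ℝ) ^ k ≤ ∫ ω, (mI G (Θ (nn k)) (T k) ω v) ^ 2 ∂PP V := by
    intro k v
    have a := one_low hT d hd hreg (Θ (nn k)) (h0 _) (h1 _) (T k) (hT0 k) v
    have b := ht1 k (T k) (hTt k)
    linarith
  refine ⟨⟨fun k => Θ (nn k), T, R, fun k => h0 _, fun k => h1 _, ?_, hT0, hR, ?_, hlow⟩⟩
  · exact hl.comp (tendsto_atTop_mono hnnk tendsto_id)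
  · intro k v
    have b1 := fun ω => fin_bd1 hT hd hreg (h0 (nn (k + 1))) (h1 (nn (k + 1))) (T (k + 1)) ω v
    have b2 := fun ω => fin_bd1 hT hd hreg (h0 (nn k)) (h1 (nn k)) (T k) ω v
    have b3 := fun ω => fin_bd1 hT hd hreg (h0 (nn (k + 1))) (h1 (nn (k + 1))) (T k) ω v
    have m1 := fin_meas_mI (G := G) (Θ (nn (k + 1))) (T (k + 1)) v
    have m2 := fin_meas_mI (G := G) (Θ (nn k)) (T k) v
    have m3 := fin_meas_mI (G := G) (Θ (nn (k + 1))) (T k) v
    have a1 := fin_tri2 (P := PP V) m1 m2 m3 b1 b2 b3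
    have a2 := mI_mart hT d hd hreg (Θ (nn (k + 1))) (h0 _) (h1 _) v (T k) (T (k + 1)) (hT0 k)
      (hTmono k)
    have a3 := one_low hT d hd hreg (Θ (nn (k + 1))) (h0 _) (h1 _) (T k) (hT0 k) v
    have a4 := ht1 k (T k) (hTt k)
    have a5 := hN k (nn k) (hnnN k) (nn (k + 1)) ((hnnN k).trans (hnnmono k)) v
    have a6 : ∫ ω, (mI G (Θ (nn (k + 1))) (T (k + 1)) ω v) ^ 2 ∂PP V ≤ 1 := by
      calc ∫ ω, (mI G (Θ (nn (k + 1))) (T (k + 1)) ω v) ^ 2 ∂PP V ≤ ∫ _ω, (1 : ℝ) ∂PP V := by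
            refine integral_mono (fin_sq_int m1 b1) (integrable_const _) fun ω => ?_
            have := b1 ω
            have h6 := sq_abs (mI G (Θ (nn (k + 1))) (T (k + 1)) ω v)
            nlinarith [abs_nonneg (mI G (Θ (nn (k + 1))) (T (k + 1)) ω v)]
        _ = 1 := by simp
    linarith

theorem fin_main (hT : G.IsTree) (d : ℕ) (hd : 3 ≤ d) (hreg : G.IsRegularOfDegree d) (θ : ℝ)
    (h0 : 0 ≤ θ) (h1 : θ ≤ thc d) :
    ∃ Φ : Lab V → (V → Bool), Measurable Φ ∧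
      (∀ (g : G ≃g G) (ω : Lab V), Φ (fun w => ω (g w)) = Φ ω ∘ ⇑g) ∧
      ∀ (S : Finset V) (η : V → Bool), (G.induce (S : Set V)).Connected →
        (PP V).map Φ {σ | ∀ v ∈ S, σ v = η v} = ENNReal.ofReal (isingWeight G θ S η) := by
  have hseq : ∃ Θ : ℕ → ℝ, (∀ n, 0 ≤ Θ n) ∧ (∀ n, Θ n < thc d) ∧ Tendsto Θ atTop (𝓝 θ) ∧
      (∀ T : ℝ, 0 ≤ T → ∀ ε : ℝ, 0 < ε → ∃ N : ℕ, ∀ n ≥ N, ∀ m ≥ N, ∀ v : V,
        ∫ ω, (mI G (Θ n) T ω v - mI G (Θ m) T ω v) ^ 2 ∂PP V ≤ ε) := by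
    rcases h1.lt_or_eq with h1 | h1
    · refine ⟨fun _ => θ, fun _ => h0, fun _ => h1, tendsto_const_nhds, fun T _ ε hε =>
        ⟨0, fun n _ m _ v => ?_⟩⟩
      simp [hε.le]
    · have hpos := thc_pos hd
      have hq : ∀ n : ℕ, (0 : ℝ) < 1 / ((n : ℝ) + 2) ∧ 1 / ((n : ℝ) + 2) ≤ 1 / 2 := fun n =>
        ⟨by positivity, by
          apply one_div_le_one_div_of_le (by norm_num)
          have : (0 : ℝ) ≤ n := Nat.cast_nonneg n
          linarith⟩
      have hlim : Tendsto (fun n : ℕ => thc d * (1 - 1 / ((n : ℝ) + 2))) atTop (𝓝 (thc d)) := by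
        have h3 : Tendsto (fun n : ℕ => 1 / ((n : ℝ) + 2)) atTop (𝓝 0) := by
          have := (tendsto_const_div_atTop_nhds_zero_nat (1 : ℝ)).comp (tendsto_add_atTop_nat 2)
          refine this.congr fun n => ?_
          simp
        have := (h3.const_sub 1).const_mul (thc d)
        simpa using this
      have hh2 : ∀ n : ℕ, thc d / 2 ≤ thc d * (1 - 1 / ((n : ℝ) + 2)) := fun n => by
        have := hq n
        nlinarith
      have hh1 : ∀ n : ℕ, thc d * (1 - 1 / ((n : ℝ) + 2)) < thc d := fun n => by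
        have := hq n
        nlinarith
      refine ⟨fun n => thc d * (1 - 1 / ((n : ℝ) + 2)), fun n => (by linarith [hh2 n]), hh1,
        by rw [h1]; exact hlim, fun T hT0 ε hε => ?_⟩
      obtain ⟨v₀⟩ : Nonempty V := hT.connected.nonempty
      obtain ⟨N, hN⟩ := star hT d hd hreg _ hh2 hh1 hlim T hT0 ε hε v₀
      exact ⟨N, fun n hn m hm v => by
        rw [star_D hT d hreg _ _ T v v₀]; exact hN n hn m hm⟩
  obtain ⟨Θ, hΘ0, hΘ1, hΘ2, hΘ3⟩ := hseq
  obtain ⟨X⟩ := fin_exists_seq hT hd hreg Θ hΘ0 hΘ1 hΘ2 hΘ3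
  exact ⟨X.Phi, fin_Phi_meas X, fun g ω => fin_Phi_equiv X hT g ω,
    fun S η hS => fin_law X hT hd hreg S hS η⟩

end Crest.Agent.T41
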