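import Crest.Statements.S0241
import Crest.Agent.T41Fin

set_option autoImplicit false
universe u
open Crest Crest.ProbabilityR

namespace Crest.Agent.S0241

open MeasureTheory Crest.Agent.T41

/-- all labels of a vertex from one uniform label -/
theorem exists_DD : ∃ f : unitInterval → (ℕ → Y01), Measurable f ∧
    (volume : Measure unitInterval).map f = muE := by
  exact Measure.exists_measurable_map_eq muE

/-- Let `d ≥ 3`, `β ≥ 0`, `tanh β ≤ (d-1)^(-1/2)`. On every connected acyclic graph with all degrees `d` (the infinite `d`-regular tree) some measurable map from `[0,1]^V` to spin configurations commutes with every automorphism on every input and, fed independent uniform labels, outputs the free zero-field Ising state: each spin pattern on a finite connected vertex set `S` has probability `1/2` times the product over edges inside `S` of `(1 ± tanh β)/2`, with `+` for agreeing endpoints. -/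
theorem result (d : ℕ) (hd : 3 ≤ d) (β : ℝ)
    (hβ : 0 ≤ β) (hθ : Real.tanh β ≤ ((d : ℝ) - 1) ^ (-(1 / 2 : ℝ))) (V : Type u)
    (G : SimpleGraph V) [G.LocallyFinite] (hT : G.IsTree) (hreg : G.IsRegularOfDegree d) :
    ∃ Φ : (V → unitInterval) → (V → Bool),
      Measurable Φ ∧
      (∀ (g : G ≃g G) (x : V → unitInterval), Φ (x ∘ ⇑g) = Φ x ∘ ⇑g) ∧
      ∀ (S : Finset V) (η : V → Bool), (G.induce (S : Set V)).Connected →
        (Crest.ProbabilityR.Labels.labelMeasure V).map Φ {σ | ∀ v ∈ S, σ v = η v} =
          ENNReal.ofReal (Crest.ProbabilityR.TreeIsing.isingWeight G (Real.tanh β) S η) := by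
  have h0 : 0 ≤ Real.tanh β := by
    rw [Real.tanh_eq_sinh_div_cosh]
    exact div_nonneg (Real.sinh_nonneg_iff.2 hβ) (Real.cosh_pos β).le
  have h1 : Real.tanh β ≤ thc d := by
    refine hθ.trans (le_of_eq ?_)
    have hd1 : (0 : ℝ) ≤ (d : ℝ) - 1 := by
      have : (3 : ℝ) ≤ d := by exact_mod_cast hd
      linarith
    unfold thc
    rw [Real.rpow_neg hd1, Real.sqrt_eq_rpow]
  obtain ⟨Φ', hm, he, hl⟩ := fin_main hT d hd hreg (Real.tanh β) h0 h1
  obtain ⟨D, hD, hDm⟩ := exists_DD
  have hmap : Measurable (fun x : V → unitInterval => fun v => D (x v)) :=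
    measurable_pi_lambda _ fun v => hD.comp (measurable_pi_apply v)
  refine ⟨fun x => Φ' (fun v => D (x v)), hm.comp hmap, fun g x => he g (fun v => D (x v)), ?_⟩
  intro S η hS
  rw [← hl S η hS]
  have e1 : (fun x : V → unitInterval => Φ' (fun v => D (x v)))
      = Φ' ∘ (fun x : V → unitInterval => fun v => D (x v)) := rfl
  rw [e1, ← Measure.map_map hm hmap]
  congr 2
  unfold Crest.ProbabilityR.Labels.labelMeasure PP
  rw [Measure.infinitePi_map_pi _ (fun _ => hD)]
  congr 1
  funext v
  exact hDm

end Crest.Agent.S0241
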