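import Mathlib
import Crest.Agent.SRGauss

set_option autoImplicit false
set_option linter.unusedSectionVars false
set_option linter.unusedVariables false

namespace Crest.Agent.SRFlow

open MeasureTheory ProbabilityTheory

variable {ι : Type*} [DecidableEq ι]

/-- one Euler step. -/
noncomputable def eStep (q : Finset ι → ℝ) (L : Finset ι) (h t : ℝ) (x : ι → ℝ) : ι → ℝ :=
  fun v => x v + h * gibbs q L (fld t x) v

/-- `j` Euler steps starting at step `k`. -/
noncomputable def efrom (q : Finset ι → ℝ) (L : Finset ι) (h : ℝ) : ℕ → ℕ → (ι → ℝ) → (ι → ℝ)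
  | _, 0 => fun x => x
  | k, j + 1 => fun x => efrom q L h (k + 1) j (eStep q L h (k * h) x)

/-- forward Euler iterates. -/
noncomputable def eul (q : Finset ι → ℝ) (L : Finset ι) (h : ℝ) : ℕ → (ι → ℝ) → (ι → ℝ)
  | 0 => fun x => x
  | k + 1 => fun x => eStep q L h (k * h) (eul q L h k x)

lemma efrom_succ (q : Finset ι → ℝ) (L : Finset ι) (h : ℝ) (j : ℕ) : ∀ (k : ℕ) (x : ι → ℝ),
    efrom q L h k (j + 1) x = eStep q L h ((k + j : ℕ) * h) (efrom q L h k j x) := by
  induction j with
  | zero => intro k x; simp [efrom]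
  | succ j ih =>
    intro k x
    have e := ih (k + 1) (eStep q L h (k * h) x)
    have : k + 1 + j = k + (j + 1) := by ring
    rw [this] at e
    exact e

lemma efrom_zero_eq (q : Finset ι → ℝ) (L : Finset ι) (h : ℝ) (j : ℕ) (x : ι → ℝ) :
    efrom q L h 0 j x = eul q L h j x := by
  induction j with
  | zero => rfl
  | succ j ih => rw [efrom_succ, ih]; simp [eul]

variable {q : Finset ι → ℝ} {L : Finset ι}

lemma measurable_Zf : Measurable (fun x : ι → ℝ => Zf q L x) := by
  unfold Zf; fun_prop

lemma measurable_Nf (A : Finset ι) : Measurable (fun x : ι → ℝ => Nf q L x A) := by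
  unfold Nf; fun_prop

lemma measurable_gibbs (v : ι) : Measurable (fun x : ι → ℝ => gibbs q L x v) := by
  unfold gibbs
  exact (measurable_Nf _).div measurable_Zf

lemma measurable_cov (u v : ι) : Measurable (fun x : ι → ℝ => cov q L x u v) := by
  unfold cov
  exact ((measurable_Nf _).div measurable_Zf).sub ((measurable_gibbs u).mul (measurable_gibbs v))

lemma measurable_fld (t : ℝ) : Measurable (fun x : ι → ℝ => fld t x) := by
  unfold fld; fun_prop

lemma measurable_eStep (h t : ℝ) : Measurable (eStep q L h t) := by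
  unfold eStep
  refine measurable_pi_lambda _ fun v => ?_
  exact (measurable_pi_apply v).add (((measurable_gibbs v).comp (measurable_fld t)).const_mul h)

lemma measurable_efrom (h : ℝ) (j : ℕ) : ∀ k, Measurable (efrom q L h k j) := by
  induction j with
  | zero => intro k; exact measurable_id
  | succ j ih => intro k; exact (ih (k + 1)).comp (measurable_eStep h _)

lemma measurable_eul (h : ℝ) (j : ℕ) : Measurable (eul q L h j) := by
  have := measurable_efrom (q := q) (L := L) h j 0
  have e : efrom q L h 0 j = eul q L h j := funext fun x => efrom_zero_eq q L h j x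
  rwa [e] at this

/-- regularity class for test functions. -/
def Reg (L : Finset ι) (N : ℝ) (u : (ι → ℝ) → ℝ) : Prop :=
  ∃ D : (ι → ℝ) → ι → ℝ, (∀ v, Measurable fun x => D x v) ∧ (∀ x v, |D x v| ≤ N) ∧
    ∀ x a : ι → ℝ, (∀ w, w ∉ L → a w = 0) →
      |u (fun w => x w + a w) - u x - ∑ v ∈ L, D x v * a v| ≤ N * (∑ v ∈ L, |a v|) ^ 2

lemma fld_add (t : ℝ) (x a : ι → ℝ) :
    fld t (fun w => x w + a w) = fun w => fld t x w + t * a w := by
  ext w; unfold fld; ring

/-- constant in the composition estimate. -/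
noncomputable def KK (L : Finset ι) (T : ℝ) : ℝ :=
  2 * T * (L.card : ℝ) ^ 2 + T ^ 2 * (L.card : ℝ) ^ 4 + 6 * L.card * T ^ 2 + T * L.card

lemma gibbs_fld_diff (hq : Wt q L) {t : ℝ} (ht : 0 ≤ t) (x a : ι → ℝ) (v : ι) {δ : ℝ} (hδ : 0 ≤ δ)
    (ha : ∀ w ∈ L, |a w| ≤ δ) :
    |gibbs q L (fld t (fun w => x w + a w)) v - gibbs q L (fld t x) v| ≤ L.card * (t * δ) := by
  refine gibbs_lip hq (covBound_card hq) _ _ v (by positivity) (by positivity) fun w hw => ?_
  rw [fld_add]
  have : fld t x w + t * a w - fld t x w = t * a w := by ring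
  rw [this, abs_mul, abs_of_nonneg ht]
  exact mul_le_mul_of_nonneg_left (ha w hw) ht

lemma Reg.comp_eStep (hq : Wt q L) {N : ℝ} (hN : 0 ≤ N) {u : (ι → ℝ) → ℝ} (hu : Reg L N u)
    {h t T : ℝ} (hh : 0 ≤ h) (hh1 : h ≤ 1) (ht : 0 ≤ t) (htT : t ≤ T) :
    Reg L ((1 + KK L T * h) * N) (fun x => u (eStep q L h t x)) := by
  obtain ⟨D, hDm, hDb, hD⟩ := hu
  set n : ℝ := (L.card : ℝ) with hn
  have hn0 : 0 ≤ n := by positivity
  have hT0 : 0 ≤ T := ht.trans htT
  refine ⟨fun x w => D (eStep q L h t x) w +
    h * t * ∑ v ∈ L, D (eStep q L h t x) v * cov q L (fld t x) w v, ?_, ?_, ?_⟩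
  · intro w
    refine ((hDm w).comp (measurable_eStep h t)).add (Measurable.const_mul ?_ _)
    refine Finset.measurable_fun_sum L fun v _ => ?_
    exact ((hDm v).comp (measurable_eStep h t)).mul ((measurable_cov w v).comp (measurable_fld t))
  · intro x w
    have h1 := hDb (eStep q L h t x) w
    have h2 : |∑ v ∈ L, D (eStep q L h t x) v * cov q L (fld t x) w v| ≤ n * N := by
      calc |∑ v ∈ L, D (eStep q L h t x) v * cov q L (fld t x) w v|
          ≤ ∑ v ∈ L, |D (eStep q L h t x) v * cov q L (fld t x) w v| :=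
            Finset.abs_sum_le_sum_abs _ _
        _ ≤ ∑ v ∈ L, N := by
            refine Finset.sum_le_sum fun v _ => ?_
            rw [abs_mul]
            calc _ ≤ N * 1 := mul_le_mul (hDb _ _) (cov_abs_le_one hq _ _ _) (abs_nonneg _) hN
              _ = N := mul_one N
        _ = n * N := by simp [hn]
    calc |D (eStep q L h t x) w + h * t * ∑ v ∈ L, D (eStep q L h t x) v * cov q L (fld t x) w v|
        ≤ |D (eStep q L h t x) w| +
            |h * t * ∑ v ∈ L, D (eStep q L h t x) v * cov q L (fld t x) w v| := abs_add_le _ _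
      _ ≤ N + h * t * (n * N) := by
          rw [abs_mul, abs_of_nonneg (mul_nonneg hh ht)]
          gcongr
      _ ≤ (1 + KK L T * h) * N := by
          unfold KK
          rw [← hn]
          have e1 : h * t * (n * N) ≤ (T * n) * h * N := by
            have : h * t * (n * N) = (t * n) * h * N := by ring
            rw [this]; gcongr
          have e2 : (T * n) * h * N ≤ (2 * T * n ^ 2 + T ^ 2 * n ^ 4 + 6 * n * T ^ 2 + T * n) * h * N := by
            gcongr
            have : 0 ≤ 2 * T * n ^ 2 + T ^ 2 * n ^ 4 + 6 * n * T ^ 2 := by positivity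
            linarith
          linarith
  · intro x a ha
    set x' := eStep q L h t x with hx'
    set b : ι → ℝ := fun v => gibbs q L (fld t (fun w => x w + a w)) v - gibbs q L (fld t x) v
      with hb
    set a' : ι → ℝ := fun v => a v + h * b v with ha'
    set A : ℝ := ∑ v ∈ L, |a v| with hA
    have hA0 : 0 ≤ A := Finset.sum_nonneg fun _ _ => abs_nonneg _
    have haA : ∀ w ∈ L, |a w| ≤ A := fun w hw =>
      Finset.single_le_sum (f := fun v => |a v|) (fun _ _ => abs_nonneg _) hw
    have hx'' : eStep q L h t (fun w => x w + a w) = fun w => x' w + a' w := by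
      ext w
      simp only [hx', ha', hb, eStep]
      ring
    have ha'0 : ∀ w, w ∉ L → a' w = 0 := by
      intro w hw
      simp only [ha', hb, gibbs_of_not_mem _ hw, ha w hw]
      ring
    have hbb : ∀ v, |b v| ≤ n * (t * A) := fun v => gibbs_fld_diff hq ht x a v hA0 haA
    have hA' : ∑ v ∈ L, |a' v| ≤ (1 + h * T * n ^ 2) * A := by
      calc ∑ v ∈ L, |a' v| ≤ ∑ v ∈ L, (|a v| + h * (n * (t * A))) := by
            refine Finset.sum_le_sum fun v _ => ?_
            calc |a' v| ≤ |a v| + |h * b v| := abs_add_le _ _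
              _ ≤ |a v| + h * (n * (t * A)) := by
                rw [abs_mul, abs_of_nonneg hh]
                gcongr
                exact hbb v
        _ = A + n * (h * (n * (t * A))) := by
            rw [Finset.sum_add_distrib]; simp [hn, hA]
        _ ≤ A + n * (h * (n * (T * A))) := by gcongr
        _ = (1 + h * T * n ^ 2) * A := by ring
    have h1 := hD x' a' ha'0
    have hrem : ∀ v, |b v - ∑ w ∈ L, cov q L (fld t x) w v * (t * a w)| ≤ 6 * (t * A) ^ 2 := by
      intro v
      have := gibbs_expand hq (fld t x) (fun w => t * a w) v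
      rw [← fld_add] at this
      refine this.trans ?_
      have : ∑ u ∈ L, |t * a u| = t * A := by
        rw [hA, Finset.mul_sum]
        refine Finset.sum_congr rfl fun u _ => ?_
        rw [abs_mul, abs_of_nonneg ht]
      rw [this]
    have e0 : u (eStep q L h t (fun w => x w + a w)) - u (eStep q L h t x) -
        ∑ w ∈ L, (D x' w + h * t * ∑ v ∈ L, D x' v * cov q L (fld t x) w v) * a w
        = (u (fun w => x' w + a' w) - u x' - ∑ v ∈ L, D x' v * a' v) +
          h * ∑ v ∈ L, D x' v * (b v - ∑ w ∈ L, cov q L (fld t x) w v * (t * a w)) := by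
      rw [hx'', ← hx']
      have s1 : ∑ v ∈ L, D x' v * a' v = ∑ v ∈ L, D x' v * a v + h * ∑ v ∈ L, D x' v * b v := by
        rw [Finset.mul_sum, ← Finset.sum_add_distrib]
        refine Finset.sum_congr rfl fun v _ => ?_
        simp only [ha']; ring
      have s2 : ∑ w ∈ L, (D x' w + h * t * ∑ v ∈ L, D x' v * cov q L (fld t x) w v) * a w
          = ∑ w ∈ L, D x' w * a w +
            h * ∑ v ∈ L, D x' v * ∑ w ∈ L, cov q L (fld t x) w v * (t * a w) := by
        simp only [add_mul, Finset.sum_add_distrib, Finset.mul_sum, Finset.sum_mul]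
        congr 1
        rw [Finset.sum_comm]
        refine Finset.sum_congr rfl fun v _ => Finset.sum_congr rfl fun w _ => ?_
        ring
      have s3 : ∑ v ∈ L, D x' v * (b v - ∑ w ∈ L, cov q L (fld t x) w v * (t * a w))
          = ∑ v ∈ L, D x' v * b v -
            ∑ v ∈ L, D x' v * ∑ w ∈ L, cov q L (fld t x) w v * (t * a w) := by
        rw [← Finset.sum_sub_distrib]
        refine Finset.sum_congr rfl fun v _ => ?_
        ring
      rw [s1, s2, s3]; ring
    have e2 : |h * ∑ v ∈ L, D x' v * (b v - ∑ w ∈ L, cov q L (fld t x) w v * (t * a w))|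
        ≤ h * (n * (N * (6 * (T * A) ^ 2))) := by
      rw [abs_mul, abs_of_nonneg hh]
      refine mul_le_mul_of_nonneg_left ?_ hh
      calc |∑ v ∈ L, D x' v * (b v - ∑ w ∈ L, cov q L (fld t x) w v * (t * a w))|
          ≤ ∑ v ∈ L, |D x' v * (b v - ∑ w ∈ L, cov q L (fld t x) w v * (t * a w))| :=
            Finset.abs_sum_le_sum_abs _ _
        _ ≤ ∑ v ∈ L, N * (6 * (T * A) ^ 2) := by
            refine Finset.sum_le_sum fun v _ => ?_
            rw [abs_mul]
            refine mul_le_mul (hDb _ _) ((hrem v).trans ?_) (abs_nonneg _) hN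
            gcongr
        _ = n * (N * (6 * (T * A) ^ 2)) := by simp [hn]
    show |u (eStep q L h t (fun w => x w + a w)) - u (eStep q L h t x) -
        ∑ w ∈ L, (D x' w + h * t * ∑ v ∈ L, D x' v * cov q L (fld t x) w v) * a w| ≤ _
    rw [e0]
    calc _ ≤ |u (fun w => x' w + a' w) - u x' - ∑ v ∈ L, D x' v * a' v| +
          |h * ∑ v ∈ L, D x' v * (b v - ∑ w ∈ L, cov q L (fld t x) w v * (t * a w))| :=
            abs_add_le _ _
      _ ≤ N * ((1 + h * T * n ^ 2) * A) ^ 2 + h * (n * (N * (6 * (T * A) ^ 2))) := by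
          refine add_le_add (h1.trans ?_) e2
          have : 0 ≤ ∑ v ∈ L, |a' v| := Finset.sum_nonneg fun _ _ => abs_nonneg _
          gcongr
      _ = (((1 + h * T * n ^ 2) ^ 2 + 6 * n * T ^ 2 * h) * N) * A ^ 2 := by ring
      _ ≤ ((1 + KK L T * h) * N) * A ^ 2 := by
          refine mul_le_mul_of_nonneg_right (mul_le_mul_of_nonneg_right ?_ hN) (by positivity)
          unfold KK
          rw [← hn]
          have hh2 : h ^ 2 ≤ h := by nlinarith
          have : 0 ≤ T ^ 2 * n ^ 4 := by positivity
          have e3 : T ^ 2 * n ^ 4 * h ^ 2 ≤ T ^ 2 * n ^ 4 * h := by gcongr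
          have e4 : 0 ≤ T * n * h := by positivity
          nlinarith [e3, e4]

lemma sum_gibbs_abs_le (hq : Wt q L) (x : ι → ℝ) {h : ℝ} (hh : 0 ≤ h) :
    ∑ v ∈ L, |h * gibbs q L x v| ≤ h * L.card := by
  calc ∑ v ∈ L, |h * gibbs q L x v| ≤ ∑ v ∈ L, h := by
        refine Finset.sum_le_sum fun v _ => ?_
        rw [abs_mul, abs_of_nonneg hh, abs_of_nonneg (gibbs_nonneg hq x v)]
        have := gibbs_le_one hq x v
        nlinarith
    _ = h * L.card := by simp; ring

/-- one-step consistency estimate. -/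
lemma one_step (hq : Wt q L) {N B : ℝ} (hN : 0 ≤ N) {u : (ι → ℝ) → ℝ} (hu : Reg L N u)
    (hum : Measurable u) (huB : ∀ x, |u x| ≤ B) {h t : ℝ} (hh : 0 ≤ h) (ht : 0 ≤ t) :
    |∫ g, u g * Zf q L (fld (t + h) g) ∂(gam ι) -
      ∫ g, u (eStep q L h t g) * Zf q L (fld t g) ∂(gam ι)| ≤ 2 * (N * (h * L.card) ^ 2) := by
  obtain ⟨D, hDm, hDb, hD⟩ := hu
  set n : ℝ := (L.card : ℝ) with hn
  set R : ℝ := N * (h * n) ^ 2 with hR
  have hR0 : 0 ≤ R := by positivity
  -- second integral
  set W : (ι → ℝ) → ℝ := fun g => u (eStep q L h t g) - u g -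
    ∑ v ∈ L, D g v * (h * gibbs q L (fld t g) v) with hW
  have hWb : ∀ g, |W g| ≤ R := by
    intro g
    have := hD g (fun v => h * gibbs q L (fld t g) v) (fun w hw => by
      simp [gibbs_of_not_mem _ hw])
    refine this.trans ?_
    have h2 := sum_gibbs_abs_le hq (fld t g) hh
    have h3 : 0 ≤ ∑ v ∈ L, |h * gibbs q L (fld t g) v| :=
      Finset.sum_nonneg fun _ _ => abs_nonneg _
    rw [hR]
    gcongr
  have hWm : Measurable W := by
    refine ((hum.comp (measurable_eStep h t)).sub hum).sub
      (Finset.measurable_fun_sum L fun v _ => ?_)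
    exact (hDm v).mul (((measurable_gibbs v).comp (measurable_fld t)).const_mul h)
  have I2 : ∫ g, u (eStep q L h t g) * Zf q L (fld t g) ∂(gam ι) =
      ∫ g, u g * Zf q L (fld t g) ∂(gam ι) + (∑ v ∈ L, h * ∫ g, D g v * Nf q L (fld t g) {v} ∂(gam ι))
        + ∫ g, W g * Zf q L (fld t g) ∂(gam ι) := by
    have e : ∀ g, u (eStep q L h t g) * Zf q L (fld t g) =
        u g * Zf q L (fld t g) + (∑ v ∈ L, h * (D g v * Nf q L (fld t g) {v}))
        + W g * Zf q L (fld t g) := by
      intro g
      have e1 : ∑ v ∈ L, h * (D g v * Nf q L (fld t g) {v}) =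
          (∑ v ∈ L, D g v * (h * gibbs q L (fld t g) v)) * Zf q L (fld t g) := by
        rw [Finset.sum_mul]
        refine Finset.sum_congr rfl fun v _ => ?_
        rw [← gibbs_mul_Zf hq]; ring
      rw [e1]
      simp only [hW]; ring
    simp_rw [e]
    have i1 := integrable_mul_Zf q L t u hum huB
    have i2 : ∀ v ∈ L, Integrable (fun g => h * (D g v * Nf q L (fld t g) {v})) (gam ι) :=
      fun v _ => (integrable_mul_Nf q L t (fun g => D g v) (hDm v) (fun g => hDb g v) {v}).const_mul h
    have i3 := integrable_mul_Zf q L t W hWm hWb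
    have i2' : Integrable (fun g => ∑ v ∈ L, h * (D g v * Nf q L (fld t g) {v})) (gam ι) :=
      integrable_finsetSum _ i2
    have i12 : Integrable (fun g => u g * Zf q L (fld t g) +
        ∑ v ∈ L, h * (D g v * Nf q L (fld t g) {v})) (gam ι) := i1.add i2'
    rw [integral_add i12 i3, integral_add i1 i2', integral_finsetSum _ i2]
    simp_rw [integral_const_mul]
  -- first integral
  have I1 : ∫ g, u g * Zf q L (fld (t + h) g) ∂(gam ι) =
      ∫ g, u g * Zf q L (fld t g) ∂(gam ι) + (∑ v ∈ L, h * ∫ g, D g v * Nf q L (fld t g) {v} ∂(gam ι))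
        + ∑ S ∈ L.powerset, q S * ∫ g, (u (sh (t + h) S g) - u (sh t S g) -
            ∑ v ∈ L, D (sh t S g) v * (if v ∈ S then h else 0)) ∂(gam ι) := by
    rw [integral_mul_Zf q L (t + h) u hum huB, integral_mul_Zf q L t u hum huB]
    have e1 : ∀ v ∈ L, h * ∫ g, D g v * Nf q L (fld t g) {v} ∂(gam ι) =
        ∑ S ∈ L.powerset, q S * (if v ∈ S then h * ∫ g, D (sh t S g) v ∂(gam ι) else 0) := by
      intro v _
      rw [integral_mul_Nf q L t (fun g => D g v) (hDm v) (fun g => hDb g v) {v}, Finset.sum_filter,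
        Finset.mul_sum]
      refine Finset.sum_congr rfl fun S _ => ?_
      by_cases hvS : v ∈ S
      · simp [hvS]; ring
      · simp [hvS]
    rw [Finset.sum_congr rfl e1, Finset.sum_comm, ← Finset.sum_add_distrib,
      ← Finset.sum_add_distrib]
    refine Finset.sum_congr rfl fun S _ => ?_
    have bd : ∀ (φ : (ι → ℝ) → ℝ), Measurable φ → (∃ B', ∀ g, |φ g| ≤ B') → ∀ r,
        Integrable (fun g => φ (sh r S g)) (gam ι) := by
      intro φ hφ hB' r
      obtain ⟨B', hB'⟩ := hB'
      refine Integrable.of_bound (hφ.comp (measurable_sh r S)).aestronglyMeasurable B'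
        (Filter.Eventually.of_forall fun g => by simpa using hB' _)
    have j1 := bd u hum ⟨B, huB⟩ (t + h)
    have j2 := bd u hum ⟨B, huB⟩ t
    have j3 : ∀ v ∈ L, Integrable (fun g => D (sh t S g) v * (if v ∈ S then h else 0)) (gam ι) :=
      fun v _ => (bd (fun g => D g v) (hDm v) ⟨N, fun g => hDb g v⟩ t).mul_const _
    have j3' : Integrable (fun g => ∑ v ∈ L, D (sh t S g) v * (if v ∈ S then h else 0))
        (gam ι) := integrable_finsetSum _ j3
    have j12 : Integrable (fun g => u (sh (t + h) S g) - u (sh t S g)) (gam ι) := j1.sub j2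
    rw [integral_sub j12 j3', integral_sub j1 j2, integral_finsetSum _ j3]
    have e2 : ∑ v ∈ L, ∫ g, D (sh t S g) v * (if v ∈ S then h else 0) ∂(gam ι) =
        ∑ v ∈ L, (if v ∈ S then h * ∫ g, D (sh t S g) v ∂(gam ι) else 0) := by
      refine Finset.sum_congr rfl fun v _ => ?_
      rw [integral_mul_const]
      by_cases hvS : v ∈ S
      · simp [hvS]; ring
      · simp [hvS]
    rw [e2, ← Finset.mul_sum]
    ring
  rw [I1, I2]
  have r1 : |∫ g, W g * Zf q L (fld t g) ∂(gam ι)| ≤ R := by
    calc |∫ g, W g * Zf q L (fld t g) ∂(gam ι)|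
        ≤ ∫ g, R * Zf q L (fld t g) ∂(gam ι) := by
          rw [← Real.norm_eq_abs]
          refine norm_integral_le_of_norm_le (integrable_mul_Zf q L t (fun _ => R)
            measurable_const (B := R) (fun _ => by rw [abs_of_nonneg hR0])) ?_
          refine Filter.Eventually.of_forall fun g => ?_
          rw [norm_mul, Real.norm_eq_abs, Real.norm_eq_abs, abs_of_pos (Zf_pos hq _)]
          exact mul_le_mul_of_nonneg_right (hWb g) (Zf_pos hq _).le
      _ = R := by rw [integral_const_mul, integral_Zf hq, mul_one]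
  have r2 : |∑ S ∈ L.powerset, q S * ∫ g, (u (sh (t + h) S g) - u (sh t S g) -
            ∑ v ∈ L, D (sh t S g) v * (if v ∈ S then h else 0)) ∂(gam ι)| ≤ R := by
    calc _ ≤ ∑ S ∈ L.powerset, |q S * ∫ g, (u (sh (t + h) S g) - u (sh t S g) -
            ∑ v ∈ L, D (sh t S g) v * (if v ∈ S then h else 0)) ∂(gam ι)| :=
          Finset.abs_sum_le_sum_abs _ _
      _ ≤ ∑ S ∈ L.powerset, q S * R := by
          refine Finset.sum_le_sum fun S hS => ?_
          rw [abs_mul, abs_of_nonneg (hq.nonneg S)]
          refine mul_le_mul_of_nonneg_left ?_ (hq.nonneg S)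
          have hbd : ∀ g, ‖u (sh (t + h) S g) - u (sh t S g) -
            ∑ v ∈ L, D (sh t S g) v * (if v ∈ S then h else 0)‖ ≤ R := by
            intro g
            have hSL := Finset.mem_powerset.1 hS
            have := hD (sh t S g) (fun v => if v ∈ S then h else 0) (fun w hw => by
              have : w ∉ S := fun hc => hw (hSL hc)
              simp [this])
            have e3 : sh (t + h) S g = fun w => sh t S g w + if w ∈ S then h else 0 := by
              ext w; unfold sh
              by_cases hw : w ∈ S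
              · simp [hw]; ring
              · simp [hw]
            rw [e3, Real.norm_eq_abs]
            refine this.trans ?_
            have h4 : ∑ v ∈ L, |(if v ∈ S then h else 0)| ≤ h * n := by
              calc ∑ v ∈ L, |(if v ∈ S then h else 0)| ≤ ∑ v ∈ L, h := by
                    refine Finset.sum_le_sum fun v _ => ?_
                    split_ifs
                    · rw [abs_of_nonneg hh]
                    · simpa using hh
                _ = h * n := by simp [hn]; ring
            have h3 : 0 ≤ ∑ v ∈ L, |(if v ∈ S then h else 0)| :=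
              Finset.sum_nonneg fun _ _ => abs_nonneg _
            rw [hR]
            gcongr
          have := norm_integral_le_of_norm_le_const (μ := gam ι)
            (Filter.Eventually.of_forall hbd)
          simpa using this
      _ = R := by rw [← Finset.sum_mul, hq.sum_one, one_mul]
  set X := ∫ g, u g * Zf q L (fld t g) ∂(gam ι)
  set Y := ∑ v ∈ L, h * ∫ g, D g v * Nf q L (fld t g) {v} ∂(gam ι)
  rw [abs_le] at r1 r2 ⊢
  constructor <;> linarith [r1.1, r1.2, r2.1, r2.2]

lemma Reg.comp_efrom (hq : Wt q L) {N : ℝ} (hN : 0 ≤ N) {f : (ι → ℝ) → ℝ} (hf : Reg L N f)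
    {h T : ℝ} (hh : 0 ≤ h) (hh1 : h ≤ 1) (j : ℕ) : ∀ k : ℕ, ((k + j : ℕ) : ℝ) * h ≤ T →
    Reg L ((1 + KK L T * h) ^ j * N) (fun x => f (efrom q L h k j x)) := by
  induction j with
  | zero => intro k _; simpa [efrom] using hf
  | succ j ih =>
    intro k hk
    have hk' : ((k + 1 + j : ℕ) : ℝ) * h ≤ T := by
      have : k + 1 + j = k + (j + 1) := by ring
      rw [this]; exact hk
    have hT : 0 ≤ T := le_trans (by positivity) hk
    have hkT : (k : ℝ) * h ≤ T := by
      refine le_trans ?_ hk
      push_cast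
      nlinarith [Nat.cast_nonneg (α := ℝ) j, Nat.cast_nonneg (α := ℝ) k]
    have hKK : 0 ≤ KK L T := by unfold KK; positivity
    have := (ih (k + 1) hk').comp_eStep hq (by positivity) hh hh1 (t := k * h) (by positivity) hkT
    have e : (1 + KK L T * h) ^ (j + 1) * N = (1 + KK L T * h) * ((1 + KK L T * h) ^ j * N) := by
      ring
    rw [e]
    exact this

/-- Euler scheme: law error. -/
lemma euler_law (hq : Wt q L) {N B : ℝ} (hN : 0 ≤ N) {f : (ι → ℝ) → ℝ} (hf : Reg L N f)
    (hfm : Measurable f) (hfB : ∀ x, |f x| ≤ B) {T : ℝ} (hT : 0 ≤ T) {m : ℕ} (hm : 0 < m)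
    (hTm : T ≤ m) :
    |∫ g, f g * Zf q L (fld T g) ∂(gam ι) - ∫ g, f (eul q L (T / m) m g) ∂(gam ι)| ≤
      2 * (Real.exp (KK L T * T) * N * (T * L.card) ^ 2) / m := by
  set h : ℝ := T / m with hh
  have hm' : (0:ℝ) < m := by exact_mod_cast hm
  have hh0 : 0 ≤ h := by positivity
  have hh1 : h ≤ 1 := by rw [hh, div_le_one hm']; exact hTm
  have hmh : (m : ℝ) * h = T := by rw [hh]; field_simp
  have hKK : 0 ≤ KK L T := by unfold KK; positivity
  set a : ℕ → ℝ := fun k => ∫ g, f (efrom q L h k (m - k) g) * Zf q L (fld (k * h) g) ∂(gam ι)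
    with ha
  have step : ∀ k < m, |a (k + 1) - a k| ≤ 2 * (Real.exp (KK L T * T) * N * (h * L.card) ^ 2) := by
    intro k hk
    have hmk : m - k = (m - (k + 1)) + 1 := by omega
    have hreg := hf.comp_efrom hq hN (T := T) hh0 hh1 (m - (k + 1)) (k + 1) (by
      have : k + 1 + (m - (k + 1)) = m := by omega
      rw [this, hmh])
    have hb : (1 + KK L T * h) ^ (m - (k + 1)) * N ≤ Real.exp (KK L T * T) * N := by
      refine mul_le_mul_of_nonneg_right ?_ hN
      calc (1 + KK L T * h) ^ (m - (k + 1)) ≤ (1 + KK L T * h) ^ m := by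
            refine pow_le_pow_right₀ ?_ (Nat.sub_le _ _)
            have : 0 ≤ KK L T * h := by positivity
            linarith
        _ ≤ (Real.exp (KK L T * h)) ^ m := by
            refine pow_le_pow_left₀ (by positivity) ?_ _
            have := Real.add_one_le_exp (KK L T * h)
            linarith
        _ = Real.exp (KK L T * T) := by
            rw [← Real.exp_nat_mul]
            congr 1
            rw [← hmh]; ring
    have h1 := one_step hq (B := B) (by positivity) hreg
      (hfm.comp (measurable_efrom h _ _)) (fun x => hfB _) hh0 (t := k * h) (by positivity)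
    have e1 : a (k + 1) = ∫ g, f (efrom q L h (k + 1) (m - (k + 1)) g) *
        Zf q L (fld (k * h + h) g) ∂(gam ι) := by
      simp only [ha]
      congr 2
      push_cast
      ring_nf
    have e2 : a k = ∫ g, f (efrom q L h (k + 1) (m - (k + 1)) (eStep q L h (k * h) g)) *
        Zf q L (fld (k * h) g) ∂(gam ι) := by
      simp only [ha]
      rw [hmk]
      rfl
    rw [e1, e2]
    refine h1.trans ?_
    gcongr
  have tele : |a m - a 0| ≤ m * (2 * (Real.exp (KK L T * T) * N * (h * L.card) ^ 2)) := by
    have : ∀ k ≤ m, |a k - a 0| ≤ k * (2 * (Real.exp (KK L T * T) * N * (h * L.card) ^ 2)) := by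
      intro k
      induction k with
      | zero => intro _; simp
      | succ k ih =>
        intro hk
        have h1 := ih (by omega)
        have h2 := step k (by omega)
        calc |a (k + 1) - a 0| ≤ |a (k + 1) - a k| + |a k - a 0| := abs_sub_le _ _ _
          _ ≤ _ := by push_cast; linarith
    exact this m le_rfl
  have em : a m = ∫ g, f g * Zf q L (fld T g) ∂(gam ι) := by
    simp only [ha, Nat.sub_self, hmh, efrom]
  have e0 : a 0 = ∫ g, f (eul q L h m g) ∂(gam ι) := by
    simp only [ha, Nat.sub_zero, efrom_zero_eq]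
    refine integral_congr_ae (Filter.Eventually.of_forall fun g => ?_)
    have : Zf q L (fld ((0:ℕ) * h) g) = 1 := by
      unfold Zf fld
      simpa using hq.sum_one
    simp only
    rw [this, mul_one]
  rw [em, e0] at tele
  refine tele.trans (le_of_eq ?_)
  rw [hh]
  field_simp

end Crest.Agent.SRFlow
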