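import Mathlib
import Crest.Agent.SREuler

set_option autoImplicit false
set_option linter.unusedSectionVars false
set_option linter.unusedVariables false

namespace Crest.Agent.SRFlow

open MeasureTheory ProbabilityTheory Set Filter Topology

variable {ι : Type*} [DecidableEq ι] {q : Finset ι → ℝ} {L : Finset ι}

/-- `y` solves the flow equation on `[0,T]`. -/
structure IsSol (q : Finset ι → ℝ) (L : Finset ι) (T : ℝ) (g : ι → ℝ) (y : ℝ → ι → ℝ) : Prop where
  init : y 0 = g
  deriv : ∀ t ∈ Icc 0 T, ∀ v, HasDerivWithinAt (fun s => y s v)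
    (gibbs q L (fld t (y t)) v) (Icc 0 T) t

/-- extension of a vector indexed by `L`. -/
noncomputable def extL (L : Finset ι) (z : L → ℝ) : ι → ℝ :=
  fun i => if h : i ∈ L then z ⟨i, h⟩ else 0

lemma exists_sol (hq : Wt q L) {T : ℝ} (hT : 0 ≤ T) (g : ι → ℝ) : ∃ y, IsSol q L T g y := by
  set f : ℝ → (L → ℝ) → (L → ℝ) := fun t z u => gibbs q L (fld t (extL L z)) u with hf
  set x₀ : L → ℝ := fun u => g u with hx₀
  have hlipaux : ∀ t ∈ Icc (0:ℝ) T, ∀ z z' : L → ℝ, ‖f t z - f t z'‖ ≤ (L.card * T) * ‖z - z'‖ := by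
    intro t ht z z'
    rw [pi_norm_le_iff_of_nonneg (by positivity)]
    intro u
    simp only [Pi.sub_apply, hf, Real.norm_eq_abs]
    have := gibbs_lip hq (covBound_card hq) (fld t (extL L z)) (fld t (extL L z')) u
      (δ := T * ‖z - z'‖) (by positivity) (by positivity) (fun w hw => by
        unfold fld extL
        simp only [hw, dif_pos]
        have e : t * z ⟨w, hw⟩ - t ^ 2 / 2 - (t * z' ⟨w, hw⟩ - t ^ 2 / 2) =
          t * (z - z') ⟨w, hw⟩ := by simp; ring
        rw [e, abs_mul, abs_of_nonneg ht.1]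
        exact mul_le_mul ht.2 (norm_le_pi_norm (z - z') ⟨w, hw⟩) (abs_nonneg _) hT)
    linarith
  have hPL : IsPicardLindelof f (⟨0, ⟨le_rfl, hT⟩⟩ : Icc (0:ℝ) T) x₀ (Real.toNNReal T) 0 1
      (Real.toNNReal (L.card * T)) := by
    refine ⟨?_, ?_, ?_, ?_⟩
    · intro t ht
      refine LipschitzOnWith.of_dist_le_mul fun z _ z' _ => ?_
      rw [dist_eq_norm, dist_eq_norm, Real.coe_toNNReal _ (by positivity)]
      exact hlipaux t ht z z'
    · intro z _
      refine Continuous.continuousOn ?_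
      refine continuous_pi fun u => ?_
      simp only [hf]
      refine (continuous_gibbs hq (u : ι)).comp (continuous_pi fun w => ?_)
      unfold fld
      fun_prop
    · intro t ht z _
      rw [pi_norm_le_iff_of_nonneg (by simp)]
      intro u
      simp only [hf, Real.norm_eq_abs, NNReal.coe_one]
      rw [abs_of_nonneg (gibbs_nonneg hq _ _)]
      exact gibbs_le_one hq _ _
    · simp [hT]
  obtain ⟨α, hα0, hα⟩ := hPL.exists_eq_forall_mem_Icc_hasDerivWithinAt₀
  refine ⟨fun t i => if h : i ∈ L then α t ⟨i, h⟩ else g i, ?_, ?_⟩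
  · ext i
    by_cases hi : i ∈ L
    · simp only [hi, dif_pos]
      have : α 0 = x₀ := hα0
      rw [this]
    · simp [hi]
  · intro t ht v
    by_cases hv : v ∈ L
    · simp only [hv, dif_pos]
      have h1 := (hasDerivWithinAt_pi.1 (hα t ht)) ⟨v, hv⟩
      have e : gibbs q L (fld t fun i => if h : i ∈ L then α t ⟨i, h⟩ else g i) v =
          f t (α t) ⟨v, hv⟩ := by
        refine gibbs_congr (fun u hu => ?_) v
        unfold fld extL
        simp [hu]
      rw [e]
      exact h1
    · rw [gibbs_of_not_mem _ hv]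
      have e : (fun s => (fun (t : ℝ) (i : ι) => if h : i ∈ L then α t ⟨i, h⟩ else g i) s v) =
          fun _ => g v := by
        ext s; simp [hv]
      rw [e]
      exact hasDerivWithinAt_const _ _ _

namespace IsSol

variable {T : ℝ} {g : ι → ℝ} {y : ℝ → ι → ℝ}

lemma mono (h : IsSol q L T g y) {T' : ℝ} (hT : T' ≤ T) : IsSol q L T' g y :=
  ⟨h.init, fun t ht v => (h.deriv t ⟨ht.1, ht.2.trans hT⟩ v).mono (Icc_subset_Icc le_rfl hT)⟩

lemma continuousOn (h : IsSol q L T g y) (v : ι) : ContinuousOn (fun s => y s v) (Icc 0 T) :=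
  fun t ht => (h.deriv t ht v).continuousWithinAt

lemma incr (hq : Wt q L) (h : IsSol q L T g y) {r s : ℝ} (hr : 0 ≤ r) (hrs : r ≤ s) (hs : s ≤ T)
    (v : ι) : 0 ≤ y s v - y r v ∧ y s v - y r v ≤ s - r := by
  have hd : ∀ t ∈ Icc r s, HasDerivWithinAt (fun s => y s v)
      (gibbs q L (fld t (y t)) v) (Icc r s) t := fun t ht =>
    (h.deriv t ⟨hr.trans ht.1, ht.2.trans hs⟩ v).mono (Icc_subset_Icc hr hs)
  constructor
  · have hm : MonotoneOn (fun s => y s v) (Icc r s) := by
      refine monotoneOn_of_deriv_nonneg (convex_Icc r s) (fun t ht => (hd t ht).continuousWithinAt)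
        (fun t ht => ?_) (fun t ht => ?_)
      · rw [interior_Icc] at ht
        exact (hd t (Ioo_subset_Icc_self ht)).differentiableWithinAt.mono
          (by rw [interior_Icc]; exact Ioo_subset_Icc_self)
      · rw [interior_Icc] at ht
        rw [((hd t (Ioo_subset_Icc_self ht)).hasDerivAt (Icc_mem_nhds ht.1 ht.2)).deriv]
        exact gibbs_nonneg hq _ _
    have := hm (left_mem_Icc.2 hrs) (right_mem_Icc.2 hrs) hrs
    simpa using sub_nonneg.2 this
  · have := (convex_Icc r s).norm_image_sub_le_of_norm_hasDerivWithin_le hd (C := 1)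
      (fun t _ => by
        rw [Real.norm_eq_abs, abs_of_nonneg (gibbs_nonneg hq _ _)]
        exact gibbs_le_one hq _ _)
      (left_mem_Icc.2 hrs) (right_mem_Icc.2 hrs)
    rw [Real.norm_eq_abs, Real.norm_eq_abs, one_mul, abs_of_nonneg (sub_nonneg.2 hrs)] at this
    exact (abs_le.1 this).2

end IsSol

/-- modulus constant for the Euler error -/
noncomputable def MM (L : Finset ι) (T : ℝ) (g : ι → ℝ) : ℝ :=
  L.card * (3 * T + ∑ u ∈ L, |g u|)

lemma drift_mod (hq : Wt q L) {T : ℝ} (hT : 0 ≤ T) {g : ι → ℝ} {y : ℝ → ι → ℝ}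
    (h : IsSol q L T g y) {r s : ℝ} (hr : 0 ≤ r) (hrs : r ≤ s) (hs : s ≤ T) (v : ι) :
    |gibbs q L (fld s (y s)) v - gibbs q L (fld r (y r)) v| ≤ MM L T g * (s - r) := by
  have hS : 0 ≤ ∑ u ∈ L, |g u| := Finset.sum_nonneg fun _ _ => abs_nonneg _
  have := gibbs_lip hq (covBound_card hq) (fld s (y s)) (fld r (y r)) v
    (δ := (3 * T + ∑ u ∈ L, |g u|) * (s - r)) (by positivity)
    (mul_nonneg (by positivity) (sub_nonneg.2 hrs)) (fun w hw => by
      have h1 := h.incr hq hr hrs hs w
      have h2 := h.incr hq le_rfl (hr.trans hrs) hs w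
      rw [h.init] at h2
      have h3 : |g w| ≤ ∑ u ∈ L, |g u| :=
        Finset.single_le_sum (f := fun u => |g u|) (fun _ _ => abs_nonneg _) hw
      unfold fld
      have e : s * y s w - s ^ 2 / 2 - (r * y r w - r ^ 2 / 2) =
        (s - r) * y s w + r * (y s w - y r w) - (s - r) * ((s + r) / 2) := by ring
      rw [e]
      have h4 := abs_le.1 h3
      have hsr : 0 ≤ s - r := sub_nonneg.2 hrs
      have b1 : |(s - r) * y s w| ≤ (s - r) * (T + ∑ u ∈ L, |g u|) := by
        rw [abs_mul, abs_of_nonneg hsr]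
        refine mul_le_mul_of_nonneg_left ?_ hsr
        rw [abs_le]; constructor <;> linarith [h2.1, h2.2, h4.1, h4.2]
      have b2 : |r * (y s w - y r w)| ≤ (s - r) * T := by
        rw [abs_mul, abs_of_nonneg hr, abs_of_nonneg h1.1]
        have : r ≤ T := hrs.trans hs
        nlinarith [h1.1, h1.2]
      have b3 : |(s - r) * ((s + r) / 2)| ≤ (s - r) * T := by
        rw [abs_mul, abs_of_nonneg hsr, abs_of_nonneg (by linarith)]
        refine mul_le_mul_of_nonneg_left ?_ hsr
        linarith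
      calc _ ≤ |(s - r) * y s w| + |r * (y s w - y r w)| + |(s - r) * ((s + r) / 2)| := by
            refine (abs_sub _ _).trans (add_le_add_left (abs_add_le _ _) _)
        _ ≤ _ := by linarith)
  unfold MM
  linarith

lemma euler_err (hq : Wt q L) {T : ℝ} (hT : 0 ≤ T) {g : ι → ℝ} {y : ℝ → ι → ℝ}
    (h : IsSol q L T g y) {η : ℝ} (hη : 0 ≤ η) (k : ℕ) (hk : k * η ≤ T) (v : ι) :
    |eul q L η k g v - y (k * η) v| ≤ k * η ^ 2 * MM L T g * (1 + L.card * T * η) ^ k := by
  have hS : 0 ≤ ∑ u ∈ L, |g u| := Finset.sum_nonneg fun _ _ => abs_nonneg _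
  have hM : 0 ≤ MM L T g := by unfold MM; positivity
  induction k generalizing v with
  | zero => simp [eul, h.init]
  | succ k ih =>
    have hk' : (k : ℝ) * η ≤ T := by
      refine le_trans ?_ hk; push_cast; linarith
    have ih' := ih hk'
    set Δ : ℝ := k * η ^ 2 * MM L T g * (1 + L.card * T * η) ^ k with hΔ
    have hΔ0 : 0 ≤ Δ := by positivity
    set t : ℝ := k * η with ht
    have ht0 : 0 ≤ t := by positivity
    have e1 : ((k + 1 : ℕ) : ℝ) * η = t + η := by push_cast; ring
    rw [e1] at hk ⊢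
    -- local error
    have loc : |y (t + η) v - y t v - η * gibbs q L (fld t (y t)) v| ≤ MM L T g * η * η := by
      have hd : ∀ s ∈ Icc t (t + η), HasDerivWithinAt
          (fun s => y s v - s * gibbs q L (fld t (y t)) v)
          (gibbs q L (fld s (y s)) v - gibbs q L (fld t (y t)) v) (Icc t (t + η)) s := by
        intro s hs
        have h1 := (h.deriv s ⟨ht0.trans hs.1, hs.2.trans hk⟩ v).mono (Icc_subset_Icc ht0 hk)
        have h2 : HasDerivWithinAt (fun s : ℝ => s * gibbs q L (fld t (y t)) v)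
            (gibbs q L (fld t (y t)) v) (Icc t (t + η)) s := by
          simpa using (hasDerivWithinAt_id s _).mul_const (gibbs q L (fld t (y t)) v)
        exact h1.sub h2
      have := (convex_Icc t (t + η)).norm_image_sub_le_of_norm_hasDerivWithin_le hd
        (C := MM L T g * η) (fun s hs => by
          rw [Real.norm_eq_abs]
          refine (drift_mod hq hT h ht0 hs.1 (hs.2.trans hk) v).trans ?_
          refine mul_le_mul_of_nonneg_left ?_ hM
          linarith [hs.2])
        (left_mem_Icc.2 (by linarith)) (right_mem_Icc.2 (by linarith))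
      rw [Real.norm_eq_abs, Real.norm_eq_abs] at this
      have e2 : t + η - t = η := by ring
      rw [e2, abs_of_nonneg hη] at this
      refine le_trans (le_of_eq ?_) this
      congr 1
      ring
    have lip : |gibbs q L (fld t (eul q L η k g)) v - gibbs q L (fld t (y t)) v| ≤
        L.card * (T * Δ) := by
      refine gibbs_lip hq (covBound_card hq) _ _ v (by positivity) (by positivity) fun w _ => ?_
      unfold fld
      have e : t * eul q L η k g w - t ^ 2 / 2 - (t * y t w - t ^ 2 / 2) =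
        t * (eul q L η k g w - y t w) := by ring
      rw [e, abs_mul, abs_of_nonneg ht0]
      exact mul_le_mul hk' (ih' w) (abs_nonneg _) hT
    have e3 : eul q L η (k + 1) g v - y (t + η) v =
        (eul q L η k g v - y t v) +
        η * (gibbs q L (fld t (eul q L η k g)) v - gibbs q L (fld t (y t)) v) -
        (y (t + η) v - y t v - η * gibbs q L (fld t (y t)) v) := by
      simp only [eul, eStep]
      ring
    rw [e3]
    calc _ ≤ |eul q L η k g v - y t v| +
          |η * (gibbs q L (fld t (eul q L η k g)) v - gibbs q L (fld t (y t)) v)| +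
          |y (t + η) v - y t v - η * gibbs q L (fld t (y t)) v| :=
            (abs_sub _ _).trans (add_le_add_left (abs_add_le _ _) _)
      _ ≤ Δ + η * (L.card * (T * Δ)) + MM L T g * η * η := by
          rw [abs_mul, abs_of_nonneg hη]
          gcongr
          exact ih' v
      _ = (1 + L.card * T * η) * Δ + MM L T g * η ^ 2 * 1 := by ring
      _ ≤ (1 + L.card * T * η) * Δ + MM L T g * η ^ 2 * (1 + L.card * T * η) ^ (k + 1) := by
          gcongr
          refine one_le_pow₀ ?_
          have : 0 ≤ L.card * T * η := by positivity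
          linarith
      _ = _ := by rw [hΔ]; push_cast; ring

/-- The canonical flow: limit of the Euler scheme. -/
noncomputable def flow (q : Finset ι → ℝ) (L : Finset ι) (T : ℝ) (g : ι → ℝ) (v : ι) : ℝ :=
  limUnder atTop (fun n : ℕ => eul q L (T / (n + 1 : ℕ)) (n + 1) g v)

lemma euler_tendsto (hq : Wt q L) {T : ℝ} (hT : 0 ≤ T) {g : ι → ℝ} {y : ℝ → ι → ℝ}
    (h : IsSol q L T g y) (v : ι) :
    Tendsto (fun n : ℕ => eul q L (T / (n + 1 : ℕ)) (n + 1) g v) atTop (𝓝 (y T v)) := by
  have hS : 0 ≤ ∑ u ∈ L, |g u| := Finset.sum_nonneg fun _ _ => abs_nonneg _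
  have hM : 0 ≤ MM L T g := by unfold MM; positivity
  rw [tendsto_iff_norm_sub_tendsto_zero]
  set B : ℝ := T ^ 2 * MM L T g * Real.exp (L.card * T * T) with hB
  have hlim : Tendsto (fun n : ℕ => B / ((n : ℝ) + 1)) atTop (𝓝 0) :=
    tendsto_const_div_atTop_nhds_zero_nat B |>.comp (tendsto_add_atTop_nat 1) |>.congr
      (fun n => by simp)
  refine squeeze_zero (fun n => norm_nonneg _) (fun n => ?_) hlim
  have hn : (0:ℝ) < ((n + 1 : ℕ) : ℝ) := by positivity
  have e := euler_err hq hT h (η := T / (n + 1 : ℕ)) (by positivity) (n + 1)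
    (by rw [mul_div_cancel₀ _ hn.ne']) v
  rw [mul_div_cancel₀ _ hn.ne'] at e
  rw [Real.norm_eq_abs]
  refine e.trans ?_
  have h1 : (1 + L.card * T * (T / (n + 1 : ℕ))) ^ (n + 1) ≤ Real.exp (L.card * T * T) := by
    calc (1 + L.card * T * (T / (n + 1 : ℕ))) ^ (n + 1)
        ≤ (Real.exp (L.card * T * (T / (n + 1 : ℕ)))) ^ (n + 1) := by
          refine pow_le_pow_left₀ (by positivity) ?_ _
          have := Real.add_one_le_exp (L.card * T * (T / (n + 1 : ℕ)))
          linarith
      _ = Real.exp (L.card * T * T) := by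
          rw [← Real.exp_nat_mul]
          congr 1
          field_simp
  calc _ ≤ ((n + 1 : ℕ) : ℝ) * (T / (n + 1 : ℕ)) ^ 2 * MM L T g * Real.exp (L.card * T * T) := by
        gcongr
    _ = B / ((n : ℝ) + 1) := by
        rw [hB]; push_cast; field_simp

lemma flow_eq_of_sol (hq : Wt q L) {T : ℝ} (hT : 0 ≤ T) {g : ι → ℝ} {y : ℝ → ι → ℝ}
    (h : IsSol q L T g y) : flow q L T g = y T :=
  funext fun v => (euler_tendsto hq hT h v).limUnder_eq

lemma isSol_flow (hq : Wt q L) {T : ℝ} (hT : 0 ≤ T) (g : ι → ℝ) :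
    IsSol q L T g (fun s => flow q L s g) := by
  obtain ⟨y, hy⟩ := exists_sol hq hT g
  have e : ∀ s ∈ Icc 0 T, flow q L s g = y s := fun s hs => flow_eq_of_sol hq hs.1 (hy.mono hs.2)
  refine ⟨?_, fun t ht v => ?_⟩
  · have := e 0 ⟨le_rfl, hT⟩
    rw [this, hy.init]
  · have h1 := hy.deriv t ht v
    rw [e t ht]
    exact h1.congr (fun s hs => by rw [e s hs]) (by rw [e t ht])

lemma flow_tendsto (hq : Wt q L) {T : ℝ} (hT : 0 ≤ T) (g : ι → ℝ) (v : ι) :
    Tendsto (fun n : ℕ => eul q L (T / (n + 1 : ℕ)) (n + 1) g v) atTop (𝓝 (flow q L T g v)) :=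
  euler_tendsto hq hT (isSol_flow hq hT g) v

lemma measurable_flow (hq : Wt q L) {T : ℝ} (hT : 0 ≤ T) : Measurable (flow q L T) := by
  refine measurable_pi_lambda _ fun v => ?_
  refine measurable_of_tendsto_metrizable (f := fun (n : ℕ) g =>
    eul q L (T / (n + 1 : ℕ)) (n + 1) g v) (fun n => (measurable_pi_iff.1
      (measurable_eul (T / (n + 1 : ℕ)) (n + 1)) v)) ?_
  rw [tendsto_pi_nhds]
  exact fun g => flow_tendsto hq hT g v

/-- law identity, integral form for regular test functions. -/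
lemma flow_law_reg (hq : Wt q L) {N B : ℝ} (hN : 0 ≤ N) {f : (ι → ℝ) → ℝ} (hf : Reg L N f)
    (hfc : Continuous f) (hfm : Measurable f) (hfB : ∀ x, |f x| ≤ B) {T : ℝ} (hT : 0 ≤ T) :
    ∫ g, f (flow q L T g) ∂(gam ι) = ∫ g, f g * Zf q L (fld T g) ∂(gam ι) := by
  have h1 : Tendsto (fun n : ℕ => ∫ g, f (eul q L (T / (n + 1 : ℕ)) (n + 1) g) ∂(gam ι)) atTop
      (𝓝 (∫ g, f (flow q L T g) ∂(gam ι))) := by
    refine tendsto_integral_of_dominated_convergence (fun _ => B) (fun n =>
      (hfm.comp (measurable_eul _ _)).aestronglyMeasurable) (integrable_const B)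
      (fun n => Eventually.of_forall fun g => by simpa using hfB _)
      (Eventually.of_forall fun g => ?_)
    refine (hfc.tendsto _).comp ?_
    rw [tendsto_pi_nhds]
    exact fun v => flow_tendsto hq hT g v
  have h2 : Tendsto (fun n : ℕ => ∫ g, f (eul q L (T / (n + 1 : ℕ)) (n + 1) g) ∂(gam ι)) atTop
      (𝓝 (∫ g, f g * Zf q L (fld T g) ∂(gam ι))) := by
    rw [tendsto_iff_norm_sub_tendsto_zero]
    set C : ℝ := 2 * (Real.exp (KK L T * T) * N * (T * L.card) ^ 2) with hC
    have hlim : Tendsto (fun n : ℕ => C / ((n : ℝ) + 1)) atTop (𝓝 0) :=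
      tendsto_const_div_atTop_nhds_zero_nat C |>.comp (tendsto_add_atTop_nat 1) |>.congr
        (fun n => by simp)
    refine squeeze_zero' (Eventually.of_forall fun n => norm_nonneg _) ?_ hlim
    filter_upwards [eventually_ge_atTop ⌈T⌉₊] with n hn
    have hTn : T ≤ ((n + 1 : ℕ) : ℝ) := by
      have := Nat.le_ceil T
      have h3 : (⌈T⌉₊ : ℝ) ≤ n := by exact_mod_cast hn
      push_cast; linarith
    have := euler_law hq hN hf hfm hfB hT (m := n + 1) (Nat.succ_pos n) hTn
    rw [abs_sub_comm] at this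
    rw [Real.norm_eq_abs]
    refine this.trans (le_of_eq ?_)
    push_cast
    rfl
  exact tendsto_nhds_unique h1 h2

end Crest.Agent.SRFlow
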