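import Mathlib
import Crest.Agent.SRODE

set_option autoImplicit false
set_option linter.unusedSectionVars false
set_option linter.unusedVariables false

namespace Crest.Agent.SRFlow

open MeasureTheory ProbabilityTheory Set Filter Topology

variable {ι : Type*} [DecidableEq ι] {q : Finset ι → ℝ} {L : Finset ι}

lemma cos_expand (a b : ℝ) : |Real.cos (a + b) - Real.cos a - (-Real.sin a) * b| ≤ b ^ 2 := by
  have hd : ∀ s ∈ Icc (0:ℝ) 1, HasDerivWithinAt
      (fun s => Real.cos (a + s * b) - s * ((-Real.sin a) * b))
      (-Real.sin (a + s * b) * b - (-Real.sin a) * b) (Icc 0 1) s := by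
    intro s _
    have h1 : HasDerivAt (fun s : ℝ => a + s * b) b s := by
      simpa using ((hasDerivAt_id s).mul_const b).const_add a
    have h2 := h1.cos
    have h3 : HasDerivAt (fun s : ℝ => s * ((-Real.sin a) * b)) ((-Real.sin a) * b) s := by
      simpa using (hasDerivAt_id s).mul_const ((-Real.sin a) * b)
    exact (h2.sub h3).hasDerivWithinAt
  have := (convex_Icc (0:ℝ) 1).norm_image_sub_le_of_norm_hasDerivWithin_le hd
        (C := b ^ 2) (x := 0) (y := 1) (fun s hs => by
          have e : -Real.sin (a + s * b) * b - (-Real.sin a) * b =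
            -(Real.sin (a + s * b) - Real.sin a) * b := by ring
          rw [e, norm_mul, norm_neg, Real.norm_eq_abs, Real.norm_eq_abs]
          have h1 : |Real.sin (a + s * b) - Real.sin a| ≤ |s * b| := by
            have := Real.abs_sin_sub_sin_le (a + s * b) a
            simpa using this
          have h2 : |s * b| ≤ |b| := by
            rw [abs_mul, abs_of_nonneg hs.1]
            have := abs_nonneg b
            nlinarith [hs.2]
          calc _ ≤ |b| * |b| := mul_le_mul_of_nonneg_right (h1.trans h2) (abs_nonneg _)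
            _ = b ^ 2 := by rw [← sq, sq_abs]) (by simp) (by simp)
  rw [Real.norm_eq_abs] at this
  refine le_trans (le_of_eq ?_) (this.trans (le_of_eq (by simp)))
  congr 1
  simp
  ring

/-- linear functional with finitely many coordinates -/
noncomputable def lin (I : Finset ι) (θ : ι → ℝ) (x : ι → ℝ) : ℝ := ∑ i ∈ I, θ i * x i

lemma reg_cos (I : Finset ι) (θ : ι → ℝ) (c : ℝ) :
    Reg L ((∑ i ∈ I, |θ i|) + (∑ i ∈ I, |θ i|) ^ 2) (fun x => Real.cos (lin I θ x + c)) := by
  set Θ : ℝ := ∑ i ∈ I, |θ i| with hΘ
  have hΘ0 : 0 ≤ Θ := Finset.sum_nonneg fun _ _ => abs_nonneg _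
  refine ⟨fun x v => -Real.sin (lin I θ x + c) * (if v ∈ I then θ v else 0), ?_, ?_, ?_⟩
  · intro v
    unfold lin
    fun_prop
  · intro x v
    rw [abs_mul, abs_neg]
    have h1 := Real.abs_sin_le_one (lin I θ x + c)
    have h2 : |if v ∈ I then θ v else 0| ≤ Θ := by
      split_ifs with hv
      · exact Finset.single_le_sum (f := fun i => |θ i|) (fun _ _ => abs_nonneg _) hv
      · simpa using hΘ0
    calc _ ≤ 1 * Θ := mul_le_mul h1 h2 (abs_nonneg _) zero_le_one
      _ ≤ Θ + Θ ^ 2 := by nlinarith
  · intro x a ha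
    have e1 : lin I θ (fun w => x w + a w) + c = (lin I θ x + c) + lin I θ a := by
      unfold lin
      simp only [mul_add, Finset.sum_add_distrib]; ring
    have e2 : ∑ v ∈ L, -Real.sin (lin I θ x + c) * (if v ∈ I then θ v else 0) * a v =
        (-Real.sin (lin I θ x + c)) * lin I θ a := by
      unfold lin
      rw [Finset.mul_sum]
      have : ∑ v ∈ L, -Real.sin (lin I θ x + c) * (if v ∈ I then θ v else 0) * a v =
          ∑ v ∈ L ∩ I, -Real.sin (lin I θ x + c) * (θ v * a v) := by
        rw [← Finset.sum_filter_of_ne (p := fun v => v ∈ I) (s := L)]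
        · rw [Finset.filter_mem_eq_inter]
          refine Finset.sum_congr rfl fun v hv => ?_
          rw [if_pos (Finset.mem_inter.1 hv).2]; ring
        · intro v _ hne
          by_contra hv
          simp [hv] at hne
      unfold lin at this
      rw [this]
      refine Finset.sum_subset Finset.inter_subset_right fun v hv hv' => ?_
      have : v ∉ L := fun hc => hv' (Finset.mem_inter.2 ⟨hc, hv⟩)
      rw [ha v this]; ring
    beta_reduce
    rw [e1, e2]
    refine (cos_expand _ _).trans ?_
    have hlin : |lin I θ a| ≤ Θ * ∑ v ∈ L, |a v| := by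
      unfold lin
      calc |∑ i ∈ I, θ i * a i| ≤ ∑ i ∈ I, |θ i * a i| := Finset.abs_sum_le_sum_abs _ _
        _ ≤ ∑ i ∈ I, |θ i| * ∑ v ∈ L, |a v| := by
            refine Finset.sum_le_sum fun i _ => ?_
            rw [abs_mul]
            refine mul_le_mul_of_nonneg_left ?_ (abs_nonneg _)
            by_cases hi : i ∈ L
            · exact Finset.single_le_sum (f := fun i => |a i|) (fun _ _ => abs_nonneg _) hi
            · rw [ha i hi, abs_zero]
              exact Finset.sum_nonneg fun _ _ => abs_nonneg _
        _ = Θ * ∑ v ∈ L, |a v| := by rw [Finset.sum_mul]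
    calc (lin I θ a) ^ 2 = |lin I θ a| ^ 2 := (sq_abs _).symm
      _ ≤ (Θ * ∑ v ∈ L, |a v|) ^ 2 := by gcongr
      _ = Θ ^ 2 * (∑ v ∈ L, |a v|) ^ 2 := by ring
      _ ≤ (Θ + Θ ^ 2) * (∑ v ∈ L, |a v|) ^ 2 := by
          refine mul_le_mul_of_nonneg_right ?_ (by positivity)
          linarith

/-- measure-valued law. -/
noncomputable def muT (q : Finset ι → ℝ) (L : Finset ι) (T : ℝ) : Measure (ι → ℝ) :=
  (gam ι).withDensity (fun g => ENNReal.ofReal (Zf q L (fld T g)))

lemma integral_muT (hq : Wt q L) (T : ℝ) (φ : (ι → ℝ) → ℝ) :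
    ∫ g, φ g ∂(muT q L T) = ∫ g, φ g * Zf q L (fld T g) ∂(gam ι) := by
  unfold muT
  rw [integral_withDensity_eq_integral_toReal_smul]
  · refine integral_congr_ae (Filter.Eventually.of_forall fun g => ?_)
    simp only [smul_eq_mul]
    rw [ENNReal.toReal_ofReal (Zf_pos hq _).le, mul_comm]
  · exact (measurable_Zf.comp (measurable_fld T)).ennreal_ofReal
  · simp

lemma isProb_muT (hq : Wt q L) (T : ℝ) : IsProbabilityMeasure (muT q L T) := by
  refine ⟨?_⟩
  unfold muT
  rw [withDensity_apply _ MeasurableSet.univ, Measure.restrict_univ,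
    ← ofReal_integral_eq_lintegral_ofReal]
  · rw [integral_Zf hq]; simp
  · have := integrable_mul_Zf q L T (fun _ => 1) measurable_const (B := 1) (by simp)
    simpa using this
  · exact Filter.Eventually.of_forall fun g => (Zf_pos hq _).le

/-- the law of the flow. -/
theorem map_flow (hq : Wt q L) {T : ℝ} (hT : 0 ≤ T) :
    (gam ι).map (flow q L T) = muT q L T := by
  have := isProb_muT hq T
  have hm := measurable_flow hq hT
  have : IsProbabilityMeasure ((gam ι).map (flow q L T)) :=
    Measure.isProbabilityMeasure_map hm.aemeasurable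
  have key : ∀ (I : Finset ι), ((gam ι).map (flow q L T)).map I.restrict =
      (muT q L T).map I.restrict := by
    intro I
    have hr : Measurable (I.restrict : (ι → ℝ) → (I → ℝ)) := Finset.measurable_restrict I
    have : IsProbabilityMeasure (((gam ι).map (flow q L T)).map I.restrict) :=
      Measure.isProbabilityMeasure_map hr.aemeasurable
    have : IsProbabilityMeasure ((muT q L T).map I.restrict) :=
      Measure.isProbabilityMeasure_map hr.aemeasurable
    apply Measure.ext_of_charFunDual
    ext ℓ
    set θ : ι → ℝ := fun i => if h : i ∈ I then ℓ (Pi.single ⟨i, h⟩ 1) else 0 with hθ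
    have hℓ : ∀ x : ι → ℝ, ℓ (I.restrict x) = lin I θ x := by
      intro x
      have : (I.restrict x : I → ℝ) = ∑ j : I, x j • (Pi.single j (1:ℝ) : I → ℝ) := by
        ext k
        simp [Finset.sum_apply, Pi.single_apply]
      rw [this, map_sum]
      unfold lin
      rw [← Finset.sum_coe_sort I]
      refine Finset.sum_congr rfl fun j _ => ?_
      simp only [map_smul, smul_eq_mul, hθ, j.2, dif_pos]
      ring
    have hcos : ∀ c : ℝ, ∫ g, Real.cos (lin I θ (flow q L T g) + c) ∂(gam ι) =
        ∫ g, Real.cos (lin I θ g + c) * Zf q L (fld T g) ∂(gam ι) := by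
      intro c
      refine flow_law_reg hq (B := 1) (by positivity) (reg_cos (L := L) I θ c) ?_ ?_ ?_ hT
      · unfold lin; fun_prop
      · unfold lin; fun_prop
      · intro x; exact Real.abs_cos_le_one _
    have hcos' : ∀ c : ℝ, ∫ g, Real.cos (lin I θ g + c) ∂((gam ι).map (flow q L T)) =
        ∫ g, Real.cos (lin I θ g + c) ∂(muT q L T) := by
      intro c
      rw [integral_muT hq, ← hcos c, integral_map hm.aemeasurable]
      refine Measurable.aestronglyMeasurable ?_
      unfold lin; fun_prop
    have gen : ∀ (μ : Measure (ι → ℝ)) [IsProbabilityMeasure μ],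
        charFunDual (μ.map I.restrict) ℓ =
          ((∫ g, Real.cos (lin I θ g + 0) ∂μ : ℝ) : ℂ) +
          ((∫ g, Real.cos (lin I θ g + (-(Real.pi / 2))) ∂μ : ℝ) : ℂ) * Complex.I := by
      intro μ _
      rw [charFunDual_apply, integral_map hr.aemeasurable (by fun_prop)]
      have e : ∀ g : ι → ℝ, Complex.exp ((ℓ (I.restrict g) : ℂ) * Complex.I) =
          ((Real.cos (lin I θ g + 0) : ℝ) : ℂ) +
          ((Real.cos (lin I θ g + (-(Real.pi / 2))) : ℝ) : ℂ) * Complex.I := by
        intro g
        rw [hℓ, Complex.exp_mul_I, add_zero, ← sub_eq_add_neg, Real.cos_sub_pi_div_two]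
        simp
      simp_rw [e]
      have i1 : ∀ c, Integrable (fun g : ι → ℝ => Real.cos (lin I θ g + c)) μ := by
        intro c
        refine Integrable.of_bound (C := 1) ?_ (Filter.Eventually.of_forall fun g => by
          simpa using Real.abs_cos_le_one _)
        refine Measurable.aestronglyMeasurable ?_
        unfold lin; fun_prop
      rw [integral_add (i1 0).ofReal ((i1 _).ofReal.mul_const _), integral_mul_const,
        integral_complex_ofReal, integral_complex_ofReal]
    rw [gen, gen, hcos', hcos']
  have hp1 : IsProjectiveLimit ((gam ι).map (flow q L T))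
      (fun I : Finset ι => (muT q L T).map I.restrict) := fun I => key I
  have hp2 : IsProjectiveLimit (muT q L T)
      (fun I : Finset ι => (muT q L T).map I.restrict) := fun I => rfl
  have : ∀ I : Finset ι, IsFiniteMeasure ((muT q L T).map (I.restrict : (ι → ℝ) → (I → ℝ))) :=
    fun I => inferInstance
  exact hp1.unique hp2

/-- integral form. -/
lemma integral_flow (hq : Wt q L) {T : ℝ} (hT : 0 ≤ T) (φ : (ι → ℝ) → ℝ) (hφ : Measurable φ) :
    ∫ g, φ (flow q L T g) ∂(gam ι) = ∫ g, φ g * Zf q L (fld T g) ∂(gam ι) := by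
  rw [← integral_muT hq, ← map_flow hq hT, integral_map (measurable_flow hq hT).aemeasurable
    hφ.aestronglyMeasurable]

end Crest.Agent.SRFlow
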