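import Mathlib
import Crest.Agent.SRLaw

set_option autoImplicit false
set_option linter.unusedSectionVars false
set_option linter.unusedVariables false

namespace Crest.Agent.SRFlow

open MeasureTheory ProbabilityTheory Set Filter Topology

variable {ι : Type*} [DecidableEq ι]

section Proj

variable (P : FDD ι)

lemma Zf_eq_Nf (q : Finset ι → ℝ) (L : Finset ι) (x : ι → ℝ) : Zf q L x = Nf q L x ∅ := by
  unfold Zf Nf
  simp

/-- projection identity -/
lemma proj_identity {M L : Finset ι} (hML : M ⊆ L) (s : ℝ) (φ : (ι → ℝ) → ℝ) (hφ : Measurable φ)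
    {B : ℝ} (hB : ∀ g, |φ g| ≤ B) (hdep : ∀ x y : ι → ℝ, (∀ u ∈ M, x u = y u) → φ x = φ y)
    {A : Finset ι} (hA : A ⊆ M) :
    ∫ g, φ g * Nf (P.p L) L (fld s g) A ∂(gam ι) = ∫ g, φ g * Nf (P.p M) M (fld s g) A ∂(gam ι) := by
  rw [integral_mul_Nf (P.p L) L s φ hφ hB A, integral_mul_Nf (P.p M) M s φ hφ hB A]
  have e1 : ∀ S : Finset ι, ∫ g, φ (sh s S g) ∂(gam ι) = ∫ g, φ (sh s (S ∩ M) g) ∂(gam ι) := by
    intro S
    refine integral_congr_ae (Eventually.of_forall fun g => hdep _ _ fun u hu => ?_)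
    unfold sh
    simp [hu]
  have hmaps : ∀ S ∈ L.powerset.filter (fun S => A ⊆ S), S ∩ M ∈ M.powerset.filter (fun S => A ⊆ S) := by
    intro S hS
    rw [Finset.mem_filter, Finset.mem_powerset] at hS ⊢
    exact ⟨Finset.inter_subset_right, Finset.subset_inter hS.2 hA⟩
  rw [← Finset.sum_fiberwise_of_maps_to hmaps]
  refine Finset.sum_congr rfl fun S' hS' => ?_
  rw [Finset.mem_filter, Finset.mem_powerset] at hS'
  rw [P.consistent M L hML S' hS'.1, Finset.sum_mul]
  have hfilt : (L.powerset.filter (fun S => A ⊆ S)).filter (fun S => S ∩ M = S') =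
      L.powerset.filter (fun S => S ∩ M = S') := by
    ext S
    simp only [Finset.mem_filter, Finset.mem_powerset]
    constructor
    · rintro ⟨⟨h1, h2⟩, h3⟩; exact ⟨h1, h3⟩
    · rintro ⟨h1, h3⟩
      refine ⟨⟨h1, ?_⟩, h3⟩
      rw [← h3] at hS'
      exact hS'.2.trans Finset.inter_subset_left
  rw [hfilt]
  refine Finset.sum_congr rfl fun S hS => ?_
  rw [Finset.mem_filter] at hS
  rw [e1 S, hS.2]

/-- the drift functional -/
noncomputable def bb (L : Finset ι) (v : ι) (s : ℝ) (x : ι → ℝ) : ℝ :=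
  gibbs (P.p L) L (fld s x) v

lemma bb_nonneg (L : Finset ι) (v : ι) (s : ℝ) (x : ι → ℝ) : 0 ≤ bb P L v s x :=
  gibbs_nonneg (P.wt L) _ _

lemma bb_le_one (L : Finset ι) (v : ι) (s : ℝ) (x : ι → ℝ) : bb P L v s x ≤ 1 :=
  gibbs_le_one (P.wt L) _ _

lemma bb_abs (L : Finset ι) (v : ι) (s : ℝ) (x : ι → ℝ) : |bb P L v s x| ≤ 1 := by
  rw [abs_of_nonneg (bb_nonneg P L v s x)]; exact bb_le_one P L v s x

lemma measurable_bb (L : Finset ι) (v : ι) (s : ℝ) : Measurable (bb P L v s) :=
  (measurable_gibbs v).comp (measurable_fld s)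

lemma bb_dep (L : Finset ι) (v : ι) (s : ℝ) (x y : ι → ℝ) (h : ∀ u ∈ L, x u = y u) :
    bb P L v s x = bb P L v s y := by
  unfold bb
  exact gibbs_congr (fun u hu => by unfold fld; rw [h u hu]) v

/-- second moment of the drift -/
noncomputable def mm (v : ι) (M : Finset ι) (s : ℝ) : ℝ :=
  ∫ g, (bb P M v s g) ^ 2 * Zf (P.p M) M (fld s g) ∂(gam ι)

lemma bb_sq_le (L : Finset ι) (v : ι) (s : ℝ) (x : ι → ℝ) : |(bb P L v s x) ^ 2| ≤ 1 := by
  rw [abs_pow]
  exact pow_le_one₀ (abs_nonneg _) (bb_abs P L v s x)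

lemma sq_diff_identity {v : ι} {M L : Finset ι} (hv : v ∈ M) (hML : M ⊆ L) (s : ℝ) :
    ∫ g, (bb P L v s g - bb P M v s g) ^ 2 * Zf (P.p L) L (fld s g) ∂(gam ι) =
      mm P v L s - mm P v M s := by
  have i1 := integrable_mul_Zf (P.p L) L s (fun g => (bb P L v s g) ^ 2)
    ((measurable_bb P L v s).pow_const 2) (bb_sq_le P L v s)
  have i3 := integrable_mul_Zf (P.p L) L s (fun g => (bb P M v s g) ^ 2)
    ((measurable_bb P M v s).pow_const 2) (bb_sq_le P M v s)
  have i2 := integrable_mul_Nf (P.p L) L s (fun g => bb P M v s g)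
    (measurable_bb P M v s) (bb_abs P M v s) {v}
  have e : ∀ g, (bb P L v s g - bb P M v s g) ^ 2 * Zf (P.p L) L (fld s g) =
      (bb P L v s g) ^ 2 * Zf (P.p L) L (fld s g) -
        2 * (bb P M v s g * Nf (P.p L) L (fld s g) {v}) +
        (bb P M v s g) ^ 2 * Zf (P.p L) L (fld s g) := by
    intro g
    rw [← gibbs_mul_Zf (P.wt L)]
    unfold bb
    ring
  simp_rw [e]
  have i2' : Integrable (fun g => 2 * (bb P M v s g * Nf (P.p L) L (fld s g) {v})) (gam ι) :=
    i2.const_mul 2
  have i12 : Integrable (fun g => (bb P L v s g) ^ 2 * Zf (P.p L) L (fld s g) -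
        2 * (bb P M v s g * Nf (P.p L) L (fld s g) {v})) (gam ι) := i1.sub i2'
  rw [integral_add i12 i3, integral_sub i1 i2', integral_const_mul]
  have p1 := proj_identity P hML s (fun g => bb P M v s g) (measurable_bb P M v s)
    (bb_abs P M v s) (bb_dep P M v s) (A := {v}) (by simpa using hv)
  have p2 := proj_identity P hML s (fun g => (bb P M v s g) ^ 2)
    ((measurable_bb P M v s).pow_const 2) (bb_sq_le P M v s)
    (fun x y h => by rw [bb_dep P M v s x y h]) (A := ∅) (by simp)
  simp_rw [← Zf_eq_Nf] at p2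
  rw [p1, p2]
  have p3 : ∫ g, bb P M v s g * Nf (P.p M) M (fld s g) {v} ∂(gam ι) = mm P v M s := by
    unfold mm
    refine integral_congr_ae (Eventually.of_forall fun g => ?_)
    simp only
    rw [← gibbs_mul_Zf (P.wt M)]
    unfold bb
    ring
  rw [p3]
  unfold mm
  ring

lemma mm_nonneg (v : ι) (M : Finset ι) (s : ℝ) : 0 ≤ mm P v M s :=
  integral_nonneg fun g => mul_nonneg (sq_nonneg _) (Zf_pos (P.wt M) _).le

lemma mm_le_one (v : ι) (M : Finset ι) (s : ℝ) : mm P v M s ≤ 1 := by
  unfold mm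
  calc _ ≤ ∫ g, 1 * Zf (P.p M) M (fld s g) ∂(gam ι) := by
        refine integral_mono (integrable_mul_Zf (P.p M) M s (fun g => (bb P M v s g) ^ 2)
          ((measurable_bb P M v s).pow_const 2) (bb_sq_le P M v s))
          (integrable_mul_Zf (P.p M) M s (fun _ => 1) measurable_const (B := 1) (by simp)) ?_
        intro g
        refine mul_le_mul_of_nonneg_right ?_ (Zf_pos (P.wt M) _).le
        exact (abs_le.1 (bb_sq_le P M v s g)).2
    _ = 1 := by simp_rw [one_mul]; exact integral_Zf (P.wt M) s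

lemma mm_mono {v : ι} {M L : Finset ι} (hv : v ∈ M) (hML : M ⊆ L) (s : ℝ) :
    mm P v M s ≤ mm P v L s := by
  have := sq_diff_identity P hv hML s
  have h2 : 0 ≤ ∫ g, (bb P L v s g - bb P M v s g) ^ 2 * Zf (P.p L) L (fld s g) ∂(gam ι) :=
    integral_nonneg fun g => mul_nonneg (sq_nonneg _) (Zf_pos (P.wt L) _).le
  linarith

/-- first moment bound -/
lemma abs_diff_bound {v : ι} {M L : Finset ι} (hv : v ∈ M) (hML : M ⊆ L) (s : ℝ) {δ : ℝ}
    (hδ : 0 < δ) :
    ∫ g, |bb P L v s g - bb P M v s g| * Zf (P.p L) L (fld s g) ∂(gam ι) ≤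
      δ + (mm P v L s - mm P v M s) / δ := by
  have hdm : Measurable (fun g => bb P L v s g - bb P M v s g) :=
    (measurable_bb P L v s).sub (measurable_bb P M v s)
  have hab : ∀ g, |bb P L v s g - bb P M v s g| ≤ 2 := by
    intro g
    have h1 := bb_nonneg P L v s g
    have h2 := bb_le_one P L v s g
    have h3 := bb_nonneg P M v s g
    have h4 := bb_le_one P M v s g
    rw [abs_le]; constructor <;> linarith
  have i1 := integrable_mul_Zf (P.p L) L s (fun g => |bb P L v s g - bb P M v s g|)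
    (hdm.norm) (B := 2) (fun g => by rw [abs_abs]; exact hab g)
  have i2 := integrable_mul_Zf (P.p L) L s (fun g => (bb P L v s g - bb P M v s g) ^ 2)
    (hdm.pow_const 2) (B := 4) (fun g => by
      rw [abs_pow]; nlinarith [hab g, abs_nonneg (bb P L v s g - bb P M v s g)])
  have i3 := integrable_mul_Zf (P.p L) L s (fun _ => 1) measurable_const (B := 1) (by simp)
  calc _ ≤ ∫ g, (δ * (1 * Zf (P.p L) L (fld s g)) +
        (1 / δ) * ((bb P L v s g - bb P M v s g) ^ 2 * Zf (P.p L) L (fld s g))) ∂(gam ι) := by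
        refine integral_mono i1 ((i3.const_mul δ).add (i2.const_mul (1 / δ))) ?_
        intro g
        have hZ := (Zf_pos (P.wt L) (fld s g)).le
        have hx : |bb P L v s g - bb P M v s g| ≤ δ + (1 / δ) * (bb P L v s g - bb P M v s g) ^ 2 := by
          set x := bb P L v s g - bb P M v s g
          rw [← sub_nonneg]
          have : δ + (1 / δ) * x ^ 2 - |x| = (δ ^ 2 + |x| ^ 2 - |x| * δ) / δ := by
            rw [sq_abs]; field_simp
          rw [this]
          refine div_nonneg ?_ hδ.le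
          nlinarith [sq_nonneg (δ - |x|), sq_nonneg (δ + |x|), abs_nonneg x]
        calc _ ≤ (δ + (1 / δ) * (bb P L v s g - bb P M v s g) ^ 2) * Zf (P.p L) L (fld s g) :=
              mul_le_mul_of_nonneg_right hx hZ
          _ = _ := by ring
    _ = δ + (mm P v L s - mm P v M s) / δ := by
        rw [integral_add (i3.const_mul δ) (i2.const_mul (1 / δ))]
        simp only [integral_const_mul, one_mul]
        rw [sq_diff_identity P hv hML s, integral_Zf (P.wt L) s]
        ring

end Proj

/-! ### joint measurability in time -/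

section Joint

variable {q : Finset ι → ℝ} {L : Finset ι}

lemma measurable_fld_joint {α : Type*} [MeasurableSpace α] {t : α → ℝ} {x : α → ι → ℝ}
    (ht : Measurable t) (hx : Measurable x) : Measurable (fun a => fld (t a) (x a)) := by
  unfold fld
  refine measurable_pi_lambda _ fun u => ?_
  have := measurable_pi_iff.1 hx u
  fun_prop

lemma measurable_eul_joint {α : Type*} [MeasurableSpace α] {η : α → ℝ} {x : α → ι → ℝ}
    (hη : Measurable η) (hx : Measurable x) (k : ℕ) :
    Measurable (fun a => eul q L (η a) k (x a)) := by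
  induction k with
  | zero => exact hx
  | succ k ih =>
    refine measurable_pi_lambda _ fun v => ?_
    have h1 : Measurable (fun a => eul q L (η a) k (x a) v) := measurable_pi_iff.1 ih v
    have h2 : Measurable (fun a => gibbs q L (fld (k * η a) (eul q L (η a) k (x a))) v) :=
      (measurable_gibbs v).comp (measurable_fld_joint (by fun_prop) ih)
    exact h1.add (hη.mul h2)

lemma measurable_flow_joint (hq : Wt q L) :
    Measurable (fun a : ℝ × (ι → ℝ) => flow q L (max a.1 0) a.2) := by
  refine measurable_pi_lambda _ fun v => ?_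
  refine measurable_of_tendsto_metrizable (f := fun (n : ℕ) a =>
    eul q L (max a.1 0 / (n + 1 : ℕ)) (n + 1) a.2 v) (fun n => (measurable_pi_iff.1
      (measurable_eul_joint (by fun_prop) measurable_snd (n + 1)) v)) ?_
  rw [tendsto_pi_nhds]
  exact fun a => flow_tendsto hq (le_max_right _ _) a.2 v

end Joint

section Cauchy

variable (P : FDD ι)

/-- the flow for the marginal on `L` -/
noncomputable def yy (L : Finset ι) (s : ℝ) (g : ι → ℝ) : ι → ℝ := flow (P.p L) L s g

lemma yy_sol {T : ℝ} (hT : 0 ≤ T) (L : Finset ι) (g : ι → ℝ) :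
    IsSol (P.p L) L T g (fun s => yy P L s g) := isSol_flow (P.wt L) hT g

lemma measurable_yy {T : ℝ} (hT : 0 ≤ T) (L : Finset ι) : Measurable (yy P L T) :=
  measurable_flow (P.wt L) hT

lemma yy_bounds {T : ℝ} (hT : 0 ≤ T) (L : Finset ι) (g : ι → ℝ) (v : ι) :
    g v ≤ yy P L T g v ∧ yy P L T g v ≤ g v + T := by
  have h := yy_sol P hT L g
  have h2 := h.incr (P.wt L) le_rfl hT le_rfl v
  have h3 := h.init
  rw [h3] at h2
  constructor <;> linarith [h2.1, h2.2]

/-- the defect between level `M` and level `L` along the `L`-flow -/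
noncomputable def dd (v : ι) (M L : Finset ι) (s : ℝ) (g : ι → ℝ) : ℝ :=
  |bb P L v s (yy P L s g) - bb P M v s (yy P L s g)|

lemma dd_nonneg (v : ι) (M L : Finset ι) (s : ℝ) (g : ι → ℝ) : 0 ≤ dd P v M L s g := abs_nonneg _

lemma dd_le (v : ι) (M L : Finset ι) (s : ℝ) (g : ι → ℝ) : dd P v M L s g ≤ 1 := by
  unfold dd
  have h1 := bb_nonneg P L v s (yy P L s g)
  have h2 := bb_le_one P L v s (yy P L s g)
  have h3 := bb_nonneg P M v s (yy P L s g)
  have h4 := bb_le_one P M v s (yy P L s g)
  rw [abs_le]; constructor <;> linarith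

lemma measurable_dd_joint (v : ι) (M L : Finset ι) :
    Measurable (fun a : ℝ × (ι → ℝ) => dd P v M L (max a.1 0) a.2) := by
  unfold dd bb
  have h1 : Measurable (fun a : ℝ × (ι → ℝ) => yy P L (max a.1 0) a.2) :=
    measurable_flow_joint (P.wt L)
  have h2 : Measurable (fun a : ℝ × (ι → ℝ) => fld (max a.1 0) (yy P L (max a.1 0) a.2)) :=
    measurable_fld_joint (by fun_prop) h1
  have h3 := ((measurable_gibbs (q := P.p L) (L := L) v).comp h2)
  have h4 := ((measurable_gibbs (q := P.p M) (L := M) v).comp h2)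
  exact (h3.sub h4).norm

/-- time integral of the defect -/
noncomputable def DD (v : ι) (M L : Finset ι) (R : ℝ) (g : ι → ℝ) : ℝ :=
  ∫ s in Ioc 0 R, dd P v M L (max s 0) g

lemma measurable_DD (v : ι) (M L : Finset ι) (R : ℝ) : Measurable (DD P v M L R) := by
  unfold DD
  have : StronglyMeasurable (fun a : (ι → ℝ) × ℝ => dd P v M L (max a.2 0) a.1) :=
    ((measurable_dd_joint P v M L).comp measurable_swap).stronglyMeasurable
  exact (this.integral_prod_right' (ν := volume.restrict (Ioc 0 R))).measurable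

lemma DD_nonneg (v : ι) (M L : Finset ι) (R : ℝ) (g : ι → ℝ) : 0 ≤ DD P v M L R g :=
  integral_nonneg fun s => dd_nonneg P _ _ _ _ _

lemma integrable_dd_prod (v : ι) (M L : Finset ι) (R : ℝ) :
    Integrable (fun a : ℝ × (ι → ℝ) => dd P v M L (max a.1 0) a.2)
      ((volume.restrict (Ioc 0 R)).prod (gam ι)) := by
  refine Integrable.of_bound (measurable_dd_joint P v M L).aestronglyMeasurable 1
    (Eventually.of_forall fun a => ?_)
  rw [Real.norm_eq_abs, abs_of_nonneg (dd_nonneg P _ _ _ _ _)]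
  exact dd_le P _ _ _ _ _

lemma integral_DD (v : ι) (M L : Finset ι) (R : ℝ) :
    ∫ g, DD P v M L R g ∂(gam ι) =
      ∫ s in Ioc 0 R, ∫ g, dd P v M L (max s 0) g ∂(gam ι) := by
  unfold DD
  exact (integral_integral_swap (integrable_dd_prod P v M L R)).symm

lemma integrable_DD (v : ι) (M L : Finset ι) (R : ℝ) : Integrable (DD P v M L R) (gam ι) := by
  unfold DD
  exact (integrable_dd_prod P v M L R).integral_prod_right

lemma integral_dd_le {v : ι} {M L : Finset ι} (hv : v ∈ M) (hML : M ⊆ L) {s : ℝ} (hs : 0 ≤ s)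
    {δ : ℝ} (hδ : 0 < δ) :
    ∫ g, dd P v M L s g ∂(gam ι) ≤ δ + (mm P v L s - mm P v M s) / δ := by
  have := integral_flow (P.wt L) hs (fun x => |bb P L v s x - bb P M v s x|)
    (((measurable_bb P L v s).sub (measurable_bb P M v s)).norm)
  unfold dd yy
  rw [this]
  exact abs_diff_bound P hv hML s hδ

lemma measurable_mm (v : ι) (M : Finset ι) : Measurable (mm P v M) := by
  unfold mm bb
  have : StronglyMeasurable (fun a : ℝ × (ι → ℝ) =>
      (gibbs (P.p M) M (fld a.1 a.2) v) ^ 2 * Zf (P.p M) M (fld a.1 a.2)) := by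
    have h := measurable_fld_joint (α := ℝ × (ι → ℝ)) measurable_fst measurable_snd
    exact ((((measurable_gibbs v).comp h).pow_const 2).mul (measurable_Zf.comp h)).stronglyMeasurable
  exact (this.integral_prod_right' (ν := gam ι)).measurable

/-- time integral of the second moment -/
noncomputable def QQ (v : ι) (M : Finset ι) (R : ℝ) : ℝ := ∫ s in Ioc 0 R, mm P v M s

lemma integrable_mm (v : ι) (M : Finset ι) (R : ℝ) :
    IntegrableOn (mm P v M) (Ioc 0 R) := by
  refine Integrable.of_bound (measurable_mm P v M).aestronglyMeasurable 1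
    (Eventually.of_forall fun s => ?_)
  rw [Real.norm_eq_abs, abs_of_nonneg (mm_nonneg P v M s)]
  exact mm_le_one P v M s

lemma QQ_le (v : ι) (M : Finset ι) {R : ℝ} (hR : 0 ≤ R) : QQ P v M R ≤ R := by
  unfold QQ
  calc _ ≤ ∫ s in Ioc 0 R, (1:ℝ) :=
        integral_mono (integrable_mm P v M R) (integrable_const _) fun s => mm_le_one P v M s
    _ = R := by simp [hR]

lemma QQ_mono {v : ι} {M L : Finset ι} (hv : v ∈ M) (hML : M ⊆ L) (R : ℝ) :
    QQ P v M R ≤ QQ P v L R :=
  integral_mono (integrable_mm P v M R) (integrable_mm P v L R) fun s => mm_mono P hv hML s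

lemma integral_DD_le {v : ι} {M L : Finset ι} (hv : v ∈ M) (hML : M ⊆ L) {R : ℝ} (hR : 0 ≤ R)
    {δ : ℝ} (hδ : 0 < δ) :
    ∫ g, DD P v M L R g ∂(gam ι) ≤ R * δ + (QQ P v L R - QQ P v M R) / δ := by
  rw [integral_DD]
  have i1 : IntegrableOn (fun s => ∫ g, dd P v M L (max s 0) g ∂(gam ι)) (Ioc 0 R) :=
    (integrable_dd_prod P v M L R).integral_prod_left
  have i2 : IntegrableOn (fun s => δ + (mm P v L s - mm P v M s) / δ) (Ioc 0 R) :=
    (integrable_const δ).add (((integrable_mm P v L R).sub (integrable_mm P v M R)).div_const δ)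
  calc _ ≤ ∫ s in Ioc 0 R, (δ + (mm P v L s - mm P v M s) / δ) := by
        refine setIntegral_mono_on i1 i2 measurableSet_Ioc fun s hs => ?_
        rw [max_eq_left hs.1.le]
        exact integral_dd_le P hv hML hs.1.le hδ
    _ = _ := by
        have i3 : IntegrableOn (fun s => (mm P v L s - mm P v M s) / δ) (Ioc 0 R) :=
          (((integrable_mm P v L R).sub (integrable_mm P v M R)).div_const δ)
        rw [integral_add (integrable_const δ) i3, integral_div,
          integral_sub (integrable_mm P v L R) (integrable_mm P v M R)]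
        simp [hR, QQ]

/-- choice of a good finite level -/
lemma exists_level (v : ι) {R : ℝ} (hR : 0 ≤ R) {ε : ℝ} (hε : 0 < ε) :
    ∃ M : Finset ι, v ∈ M ∧ ∀ L, M ⊆ L → ∫ g, DD P v M L R g ∂(gam ι) ≤ ε := by
  set A : Set ℝ := {x | ∃ M : Finset ι, v ∈ M ∧ QQ P v M R = x} with hA
  have hne : A.Nonempty := ⟨_, {v}, by simp, rfl⟩
  have hbd : BddAbove A := ⟨R, by rintro x ⟨M, _, rfl⟩; exact QQ_le P v M hR⟩
  set δ : ℝ := ε / (2 * (R + 1)) with hδ
  have hδ0 : 0 < δ := by positivity
  set δ' : ℝ := ε * δ / 2 with hδ'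
  have hδ'0 : 0 < δ' := by positivity
  obtain ⟨x, ⟨M, hvM, rfl⟩, hx⟩ := exists_lt_of_lt_csSup hne (show sSup A - δ' < sSup A by linarith)
  refine ⟨M, hvM, fun L hML => ?_⟩
  have h1 : QQ P v L R ≤ sSup A := le_csSup hbd ⟨L, hML hvM, rfl⟩
  refine (integral_DD_le P hvM hML hR hδ0).trans ?_
  have h2 : (QQ P v L R - QQ P v M R) / δ ≤ δ' / δ := by gcongr; linarith
  have h3 : δ' / δ = ε / 2 := by rw [hδ']; field_simp
  have h4 : R * δ ≤ ε / 2 := by
    rw [hδ]
    have : R * (ε / (2 * (R + 1))) = (ε / 2) * (R / (R + 1)) := by field_simp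
    rw [this]
    have h5 : R / (R + 1) ≤ 1 := by rw [div_le_one (by linarith)]; linarith
    nlinarith
  linarith

lemma yy_continuousOn {T : ℝ} (hT : 0 ≤ T) (L : Finset ι) (g : ι → ℝ) (v : ι) :
    ContinuousOn (fun s => yy P L s g v) (Icc 0 T) := (yy_sol P hT L g).continuousOn v

lemma bb_yy_continuousOn {T : ℝ} (hT : 0 ≤ T) (K L : Finset ι) (g : ι → ℝ) (v : ι) :
    ContinuousOn (fun s => bb P K v s (yy P L s g)) (Icc 0 T) := by
  unfold bb
  refine (continuous_gibbs (P.wt K) v).comp_continuousOn ?_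
  refine continuousOn_pi.2 fun u => ?_
  unfold fld
  have h := yy_continuousOn P hT L g u
  exact (continuousOn_id.mul h).sub (by fun_prop)

lemma yy_integral_eq {r : ℝ} (hr : 0 ≤ r) (L : Finset ι) (g : ι → ℝ) (v : ι) :
    yy P L r g v - g v = ∫ s in (0:ℝ)..r, bb P L v s (yy P L s g) := by
  have h := yy_sol P hr L g
  have h1 := intervalIntegral.integral_eq_sub_of_hasDerivAt_of_le hr
    (f := fun s => yy P L s g v) (f' := fun s => bb P L v s (yy P L s g))
    (h.continuousOn v) (fun s hs => (h.deriv s (Ioo_subset_Icc_self hs) v).hasDerivAt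
      (Icc_mem_nhds hs.1 hs.2)) (by
        refine ContinuousOn.intervalIntegrable ?_
        rw [uIcc_of_le hr]
        exact bb_yy_continuousOn P hr L L g v)
  rw [h1]
  have h3 := h.init
  simp only [h3]

lemma dd_continuousOn {T : ℝ} (hT : 0 ≤ T) (v : ι) (M L : Finset ι) (g : ι → ℝ) :
    ContinuousOn (fun s => dd P v M L s g) (Icc 0 T) := by
  unfold dd
  exact ((bb_yy_continuousOn P hT L L g v).sub (bb_yy_continuousOn P hT M L g v)).norm

lemma integral_dd_le_DD {r R : ℝ} (hr : 0 ≤ r) (hrR : r ≤ R) (v : ι) (M L : Finset ι)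
    (g : ι → ℝ) : ∫ s in (0:ℝ)..r, dd P v M L s g ≤ DD P v M L R g := by
  rw [intervalIntegral.integral_of_le hr]
  unfold DD
  have e : ∫ s in Ioc 0 r, dd P v M L s g = ∫ s in Ioc 0 r, dd P v M L (max s 0) g := by
    refine setIntegral_congr_fun measurableSet_Ioc fun s hs => ?_
    rw [max_eq_left hs.1.le]
  rw [e]
  refine setIntegral_mono_set ?_ (Eventually.of_forall fun s => dd_nonneg P _ _ _ _ _)
    (Ioc_subset_Ioc le_rfl hrR).eventuallyLE
  refine Integrable.of_bound ?_ 1 (Eventually.of_forall fun s => ?_)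
  · exact ((measurable_dd_joint P v M L).comp
      (measurable_id.prodMk measurable_const)).aestronglyMeasurable
  · rw [Real.norm_eq_abs, abs_of_nonneg (dd_nonneg P _ _ _ _ _)]
    exact dd_le P _ _ _ _ _

/-- pathwise comparison -/
lemma path_compare {C : ℝ} (hC0 : 0 ≤ C) (hC : ∀ L, CovBound C (P.p L) L) {R r : ℝ}
    (hr : 0 ≤ r) (hrR : r ≤ R) (v : ι) (M L L' : Finset ι) (g : ι → ℝ) (ψ : ℝ → ℝ)
    (hψc : ContinuousOn ψ (Icc 0 R)) (hψ : ∀ s ∈ Icc 0 R, 0 ≤ ψ s)
    (hM : ∀ s ∈ Icc 0 R, ∀ u ∈ M, |yy P L s g u - yy P L' s g u| ≤ ψ s) :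
    |yy P L r g v - yy P L' r g v| ≤
      DD P v M L R g + DD P v M L' R g + C * R * ∫ s in (0:ℝ)..r, ψ s := by
  have hR : 0 ≤ R := hr.trans hrR
  have e : yy P L r g v - yy P L' r g v =
      ∫ s in (0:ℝ)..r, (bb P L v s (yy P L s g) - bb P L' v s (yy P L' s g)) := by
    rw [intervalIntegral.integral_sub, ← yy_integral_eq P hr, ← yy_integral_eq P hr]
    · ring
    · refine ContinuousOn.intervalIntegrable ?_
      rw [uIcc_of_le hr]; exact bb_yy_continuousOn P hr L L g v
    · refine ContinuousOn.intervalIntegrable ?_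
      rw [uIcc_of_le hr]; exact bb_yy_continuousOn P hr L' L' g v
  have hψc' : ContinuousOn ψ (Icc 0 r) := hψc.mono (Icc_subset_Icc le_rfl hrR)
  have hI1 : IntervalIntegrable (fun s => dd P v M L s g) volume 0 r := by
    refine ContinuousOn.intervalIntegrable ?_
    rw [uIcc_of_le hr]; exact dd_continuousOn P hr v M L g
  have hI2 : IntervalIntegrable (fun s => dd P v M L' s g) volume 0 r := by
    refine ContinuousOn.intervalIntegrable ?_
    rw [uIcc_of_le hr]; exact dd_continuousOn P hr v M L' g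
  have hI3 : IntervalIntegrable ψ volume 0 r := by
    refine ContinuousOn.intervalIntegrable ?_
    rw [uIcc_of_le hr]; exact hψc'
  have hI4 : IntervalIntegrable (fun s => bb P L v s (yy P L s g) - bb P L' v s (yy P L' s g))
      volume 0 r := by
    refine ContinuousOn.intervalIntegrable ?_
    rw [uIcc_of_le hr]
    exact (bb_yy_continuousOn P hr L L g v).sub (bb_yy_continuousOn P hr L' L' g v)
  calc |yy P L r g v - yy P L' r g v|
      = |∫ s in (0:ℝ)..r, (bb P L v s (yy P L s g) - bb P L' v s (yy P L' s g))| := by rw [e]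
    _ ≤ ∫ s in (0:ℝ)..r, |bb P L v s (yy P L s g) - bb P L' v s (yy P L' s g)| :=
        intervalIntegral.abs_integral_le_integral_abs hr
    _ ≤ ∫ s in (0:ℝ)..r, (dd P v M L s g + dd P v M L' s g + C * R * ψ s) := by
        refine intervalIntegral.integral_mono_on hr hI4.norm
          ((hI1.add hI2).add (hI3.const_mul (C * R))) fun s hs => ?_
        have hsR : s ∈ Icc 0 R := ⟨hs.1, hs.2.trans hrR⟩
        have h1 : |bb P M v s (yy P L s g) - bb P M v s (yy P L' s g)| ≤ C * (R * ψ s) := by
          unfold bb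
          refine gibbs_lip (P.wt M) (hC M) _ _ v hC0 (mul_nonneg hR (hψ s hsR)) fun u hu => ?_
          unfold fld
          have e : s * yy P L s g u - s ^ 2 / 2 - (s * yy P L' s g u - s ^ 2 / 2) =
            s * (yy P L s g u - yy P L' s g u) := by ring
          rw [e, abs_mul, abs_of_nonneg hs.1]
          exact mul_le_mul hsR.2 (hM s hsR u hu) (abs_nonneg _) hR
        have e2 : bb P L v s (yy P L s g) - bb P L' v s (yy P L' s g) =
          (bb P L v s (yy P L s g) - bb P M v s (yy P L s g)) +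
          (bb P M v s (yy P L s g) - bb P M v s (yy P L' s g)) -
          (bb P L' v s (yy P L' s g) - bb P M v s (yy P L' s g)) := by ring
        rw [e2]
        unfold dd
        refine ((abs_sub _ _).trans (add_le_add_left (abs_add_le _ _) _)).trans ?_
        linarith
    _ = (∫ s in (0:ℝ)..r, dd P v M L s g) + (∫ s in (0:ℝ)..r, dd P v M L' s g) +
          C * R * ∫ s in (0:ℝ)..r, ψ s := by
        rw [intervalIntegral.integral_add (hI1.add hI2) (hI3.const_mul (C * R)),
          intervalIntegral.integral_add hI1 hI2, intervalIntegral.integral_const_mul]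
    _ ≤ _ := by
        have h1 := integral_dd_le_DD P hr hrR v M L g
        have h2 := integral_dd_le_DD P hr hrR v M L' g
        linarith

/-- iterated comparison -/
lemma iterate_claim {C : ℝ} (hC0 : 0 ≤ C) (hC : ∀ L, CovBound C (P.p L) L) {R : ℝ}
    (hR : 0 ≤ R) (k : ℕ) : ∀ (v : ι) (ε : ℝ), 0 < ε → ∃ M0 : Finset ι, ∀ L L', M0 ⊆ L → M0 ⊆ L' →
      ∃ e : (ι → ℝ) → ℝ, (∀ g, 0 ≤ e g) ∧ Integrable e (gam ι) ∧ ∫ g, e g ∂(gam ι) ≤ ε ∧
        ∀ g, ∀ r ∈ Icc 0 R, |yy P L r g v - yy P L' r g v| ≤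
          e g + R * (C * R * r) ^ k / (k.factorial : ℝ) := by
  induction k with
  | zero =>
    intro v ε hε
    refine ⟨∅, fun L L' _ _ => ⟨fun _ => 0, fun _ => le_rfl, integrable_zero _ _ _, by simpa using hε.le,
      fun g r hr => ?_⟩⟩
    have h1 := yy_bounds P hr.1 L g v
    have h2 := yy_bounds P hr.1 L' g v
    simp only [pow_zero, Nat.factorial_zero, Nat.cast_one, div_one, mul_one, zero_add]
    rw [abs_le]; constructor <;> linarith [h1.1, h1.2, h2.1, h2.2, hr.2]
  | succ k ih =>
    intro v ε hε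
    obtain ⟨M, hvM, hM⟩ := exists_level P v hR (ε := ε / 4) (by linarith)
    set ε' : ℝ := ε / (2 * ((M.card : ℝ) + 1) * (C * R * R + 1)) with hε'
    have hCRR : 0 ≤ C * R * R := by positivity
    have hε'0 : 0 < ε' := by positivity
    choose f hf using fun u => ih u ε' hε'0
    refine ⟨M ∪ M.biUnion f, fun L L' hL hL' => ?_⟩
    have hML : M ⊆ L := Finset.union_subset_left hL
    have hML' : M ⊆ L' := Finset.union_subset_left hL'
    have hfL : ∀ u ∈ M, f u ⊆ L := fun u hu =>
      (Finset.subset_biUnion_of_mem f hu).trans (Finset.union_subset_right hL)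
    have hfL' : ∀ u ∈ M, f u ⊆ L' := fun u hu =>
      (Finset.subset_biUnion_of_mem f hu).trans (Finset.union_subset_right hL')
    have hex : ∀ u : ι, ∃ e : (ι → ℝ) → ℝ, (∀ g, 0 ≤ e g) ∧ Integrable e (gam ι) ∧
        ∫ g, e g ∂(gam ι) ≤ ε' ∧ (u ∈ M → ∀ g, ∀ r ∈ Icc 0 R, |yy P L r g u - yy P L' r g u| ≤
          e g + R * (C * R * r) ^ k / (k.factorial : ℝ)) := by
      intro u
      by_cases hu : u ∈ M
      · obtain ⟨e, h1, h2, h3, h4⟩ := hf u L L' (hfL u hu) (hfL' u hu)
        exact ⟨e, h1, h2, h3, fun _ => h4⟩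
      · exact ⟨fun _ => 0, fun _ => le_rfl, integrable_zero _ _ _, by simpa using hε'0.le,
          fun h => absurd h hu⟩
    choose e he0 hei heb hepath using hex
    have hkf : (0:ℝ) < (k.factorial : ℝ) := by exact_mod_cast Nat.factorial_pos k
    refine ⟨fun g => DD P v M L R g + DD P v M L' R g + C * R * R * ∑ u ∈ M, e u g, ?_, ?_, ?_, ?_⟩
    · intro g
      have := DD_nonneg P v M L R g
      have := DD_nonneg P v M L' R g
      have := Finset.sum_nonneg (s := M) fun u _ => he0 u g
      positivity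
    · exact ((integrable_DD P v M L R).add (integrable_DD P v M L' R)).add
        ((integrable_finsetSum M fun u _ => hei u).const_mul _)
    · have i3 : Integrable (fun g => C * R * R * ∑ u ∈ M, e u g) (gam ι) :=
        (integrable_finsetSum M fun u _ => hei u).const_mul _
      have i12 : Integrable (fun g => DD P v M L R g + DD P v M L' R g) (gam ι) :=
        (integrable_DD P v M L R).add (integrable_DD P v M L' R)
      rw [integral_add i12 i3, integral_add (integrable_DD P v M L R) (integrable_DD P v M L' R),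
        integral_const_mul, integral_finsetSum M fun u _ => hei u]
      have h1 := hM L hML
      have h2 := hM L' hML'
      have h3 : ∑ u ∈ M, ∫ g, e u g ∂(gam ι) ≤ M.card * ε' := by
        calc _ ≤ ∑ u ∈ M, ε' := Finset.sum_le_sum fun u _ => heb u
          _ = M.card * ε' := by simp
      have h4 : C * R * R * (M.card * ε') ≤ ε / 2 := by
        rw [hε']
        have hc : (0:ℝ) ≤ M.card := by positivity
        have : C * R * R * (M.card * (ε / (2 * ((M.card : ℝ) + 1) * (C * R * R + 1)))) =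
          (ε / 2) * ((C * R * R / (C * R * R + 1)) * (M.card / ((M.card : ℝ) + 1))) := by
          field_simp
        rw [this]
        have a1 : C * R * R / (C * R * R + 1) ≤ 1 := by
          rw [div_le_one (by linarith)]; linarith
        have a2 : (M.card : ℝ) / ((M.card : ℝ) + 1) ≤ 1 := by
          rw [div_le_one (by linarith)]; linarith
        have a3 : 0 ≤ C * R * R / (C * R * R + 1) := by positivity
        have a4 : 0 ≤ (M.card : ℝ) / ((M.card : ℝ) + 1) := by positivity
        have a5 : C * R * R / (C * R * R + 1) * ((M.card : ℝ) / ((M.card : ℝ) + 1)) ≤ 1 :=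
          mul_le_one₀ a1 a4 a2
        nlinarith
      have h5 : C * R * R * ∑ u ∈ M, ∫ g, e u g ∂(gam ι) ≤ C * R * R * (M.card * ε') :=
        mul_le_mul_of_nonneg_left h3 hCRR
      linarith
    · intro g r hr
      have hsum0 : 0 ≤ ∑ u ∈ M, e u g := Finset.sum_nonneg fun u _ => he0 u g
      have key := path_compare P hC0 hC hr.1 hr.2 v M L L' g
        (fun s => ∑ u ∈ M, e u g + R * (C * R * s) ^ k / (k.factorial : ℝ))
        (by fun_prop)
        (fun s hs => by
          have := hs.1
          positivity)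
        (fun s hs u hu => by
          refine (hepath u hu g s hs).trans ?_
          have := Finset.single_le_sum (f := fun u => e u g) (fun u _ => he0 u g) hu
          linarith)
      refine key.trans ?_
      have hint : ∫ s in (0:ℝ)..r, (∑ u ∈ M, e u g + R * (C * R * s) ^ k / (k.factorial : ℝ)) =
          r * ∑ u ∈ M, e u g + R * (C * R) ^ k * r ^ (k + 1) / ((k + 1) * (k.factorial : ℝ)) := by
        rw [intervalIntegral.integral_add (by simp) (by
          apply Continuous.intervalIntegrable; fun_prop)]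
        have : ∀ s : ℝ, R * (C * R * s) ^ k / (k.factorial : ℝ) =
            (R * (C * R) ^ k / (k.factorial : ℝ)) * s ^ k := by
          intro s; rw [mul_pow]; ring
        simp_rw [this]
        rw [intervalIntegral.integral_const_mul, integral_pow]
        simp
        field_simp
      rw [hint]
      have e5 : C * R * (R * (C * R) ^ k * r ^ (k + 1) / ((k + 1) * (k.factorial : ℝ))) =
          R * (C * R * r) ^ (k + 1) / ((k + 1).factorial : ℝ) := by
        rw [Nat.factorial_succ]; push_cast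
        rw [mul_pow (C * R) r (k + 1), pow_succ (C * R) k]
        ring
      have e6 : C * R * (r * ∑ u ∈ M, e u g) ≤ C * R * R * ∑ u ∈ M, e u g := by
        have : r * ∑ u ∈ M, e u g ≤ R * ∑ u ∈ M, e u g := mul_le_mul_of_nonneg_right hr.2 hsum0
        calc C * R * (r * ∑ u ∈ M, e u g) ≤ C * R * (R * ∑ u ∈ M, e u g) :=
              mul_le_mul_of_nonneg_left this (by positivity)
          _ = _ := by ring
      rw [mul_add, e5]
      linarith

lemma integrable_yy_diff {R : ℝ} (hR : 0 ≤ R) (L L' : Finset ι) (v : ι) :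
    Integrable (fun g => |yy P L R g v - yy P L' R g v|) (gam ι) := by
  refine Integrable.of_bound (C := R) ?_ (Eventually.of_forall fun g => ?_)
  · exact ((measurable_pi_iff.1 (measurable_yy P hR L) v).sub
      (measurable_pi_iff.1 (measurable_yy P hR L') v)).norm.aestronglyMeasurable
  · have h1 := yy_bounds P hR L g v
    have h2 := yy_bounds P hR L' g v
    rw [Real.norm_eq_abs, abs_abs, abs_le]
    constructor <;> linarith [h1.1, h1.2, h2.1, h2.2]

/-- The finite-volume flows are Cauchy in L¹. -/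
theorem cauchy {C : ℝ} (hC0 : 0 ≤ C) (hC : ∀ L, CovBound C (P.p L) L) {R : ℝ}
    (hR : 0 ≤ R) (v : ι) {ε : ℝ} (hε : 0 < ε) : ∃ M0 : Finset ι, ∀ L L', M0 ⊆ L → M0 ⊆ L' →
      ∫ g, |yy P L R g v - yy P L' R g v| ∂(gam ι) ≤ ε := by
  have hlim : Tendsto (fun k : ℕ => R * ((C * R * R) ^ k / (k.factorial : ℝ))) atTop (𝓝 (R * 0)) :=
    (FloorSemiring.tendsto_pow_div_factorial_atTop (C * R * R)).const_mul R
  rw [mul_zero] at hlim
  obtain ⟨k, hk⟩ := (hlim.eventually (gt_mem_nhds (show (0:ℝ) < ε / 2 by linarith))).exists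
  obtain ⟨M0, hM0⟩ := iterate_claim P hC0 hC hR k v (ε / 2) (by linarith)
  refine ⟨M0, fun L L' hL hL' => ?_⟩
  obtain ⟨e, he0, hei, heb, hpath⟩ := hM0 L L' hL hL'
  calc _ ≤ ∫ g, (e g + ε / 2) ∂(gam ι) := by
        refine integral_mono (integrable_yy_diff P hR L L' v) (hei.add (integrable_const _))
          fun g => ?_
        refine (hpath g R ⟨hR, le_rfl⟩).trans ?_
        have : R * (C * R * R) ^ k / (k.factorial : ℝ) = R * ((C * R * R) ^ k / (k.factorial : ℝ)) := by
          ring
        linarith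
    _ = ∫ g, e g ∂(gam ι) + ε / 2 := by
        rw [integral_add hei (integrable_const _)]; simp
    _ ≤ ε := by linarith

end Cauchy

end Crest.Agent.SRFlow
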