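import Mathlib
import Crest.Agent.SRCauchy

set_option autoImplicit false
set_option linter.unusedSectionVars false
set_option linter.unusedVariables false

namespace Crest.Agent.SRFlow

open MeasureTheory ProbabilityTheory Set Filter Topology

/-! ### real-valued indicators of propositions -/

open Classical in
/-- indicator of a proposition -/
noncomputable def ind (p : Prop) : ℝ := if p then 1 else 0

lemma ind_of {p : Prop} (h : p) : ind p = 1 := by unfold ind; simp [h]
lemma ind_of_not {p : Prop} (h : ¬ p) : ind p = 0 := by unfold ind; simp [h]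
lemma ind_nonneg (p : Prop) : 0 ≤ ind p := by unfold ind; split_ifs <;> simp
lemma ind_le_one (p : Prop) : ind p ≤ 1 := by unfold ind; split_ifs <;> simp
lemma ind_abs_le (p : Prop) : |ind p| ≤ 1 := by
  rw [abs_of_nonneg (ind_nonneg p)]; exact ind_le_one p

lemma ind_mono {p q : Prop} (h : p → q) : ind p ≤ ind q := by
  by_cases hp : p
  · rw [ind_of hp, ind_of (h hp)]
  · rw [ind_of_not hp]; exact ind_nonneg q

section

variable {Ω : Type*} [MeasurableSpace Ω]

lemma ind_eq_indicator (p : Ω → Prop) : (fun x => ind (p x)) = ({x | p x} : Set Ω).indicator 1 := by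
  ext x
  by_cases h : p x
  · rw [ind_of h, indicator_of_mem (by exact h)]; rfl
  · rw [ind_of_not h, indicator_of_notMem (by exact h)]

lemma measurable_ind {p : Ω → Prop} (h : MeasurableSet {x | p x}) :
    Measurable (fun x => ind (p x)) := by
  rw [ind_eq_indicator]
  exact measurable_one.indicator h

lemma integrable_ind {p : Ω → Prop} (h : MeasurableSet {x | p x}) (μ : Measure Ω)
    [IsFiniteMeasure μ] : Integrable (fun x => ind (p x)) μ :=
  Integrable.of_bound (measurable_ind h).aestronglyMeasurable 1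
    (Eventually.of_forall fun x => by rw [Real.norm_eq_abs]; exact ind_abs_le _)

lemma integral_ind {p : Ω → Prop} (h : MeasurableSet {x | p x}) (μ : Measure Ω) :
    ∫ x, ind (p x) ∂μ = μ.real {x | p x} := by
  rw [ind_eq_indicator, integral_indicator_one h]

end

variable {ι : Type*} [DecidableEq ι]

lemma integrable_sq (v : ι) : Integrable (fun g : ι → ℝ => (g v) ^ 2) (gam ι) := by
  have h : Integrable (fun x : ℝ => x ^ 2) (gaussianReal 0 1) :=
    (memLp_id_gaussianReal (μ := 0) (v := 1) 2).integrable_sq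
  have hp := measurePreserving_eval_infinitePi (fun _ : ι => gaussianReal 0 1) v
  exact hp.integrable_comp_of_integrable h

lemma integral_sq (v : ι) : ∫ g : ι → ℝ, (g v) ^ 2 ∂(gam ι) = 1 := by
  have hp := measurePreserving_eval_infinitePi (fun _ : ι => gaussianReal 0 1) v
  have h1 : ∫ g : ι → ℝ, (g v) ^ 2 ∂(gam ι) = ∫ x, x ^ 2 ∂(gaussianReal 0 1) := by
    rw [← hp.map_eq, integral_map (measurable_pi_apply v).aemeasurable (by fun_prop)]
    rfl
  rw [h1]
  have h2 := variance_id_gaussianReal (μ := 0) (v := 1)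
  rw [variance_eq_sub (memLp_id_gaussianReal 2)] at h2
  simp only [Pi.pow_apply, id_eq, integral_id_gaussianReal] at h2
  simpa using h2

/-- Gaussian tail by Chebyshev -/
lemma tail_bound (v : ι) {k : ℝ} (hk : 0 < k) :
    ∫ g : ι → ℝ, ind (k / 3 ≤ |g v|) ∂(gam ι) ≤ 9 / k ^ 2 := by
  calc _ ≤ ∫ g : ι → ℝ, (9 / k ^ 2) * (g v) ^ 2 ∂(gam ι) := by
        refine integral_mono (integrable_ind (measurableSet_le measurable_const
          (measurable_pi_apply v).norm) _) ((integrable_sq v).const_mul _) fun g => ?_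
        by_cases h : k / 3 ≤ |g v|
        · rw [ind_of h]
          have h2 : (k / 3) ^ 2 ≤ |g v| ^ 2 := by gcongr
          rw [sq_abs] at h2
          have : (1:ℝ) = 9 / k ^ 2 * (k / 3) ^ 2 := by field_simp; norm_num
          rw [this]
          gcongr
        · rw [ind_of_not h]; positivity
    _ = 9 / k ^ 2 := by rw [integral_const_mul, integral_sq, mul_one]

section Decode

variable (P : FDD ι)

/-- law identity in mixture form -/
lemma integral_yy {T : ℝ} (hT : 0 ≤ T) (L : Finset ι) (φ : (ι → ℝ) → ℝ) (hφ : Measurable φ)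
    {B : ℝ} (hB : ∀ g, |φ g| ≤ B) :
    ∫ g, φ (yy P L T g) ∂(gam ι) = ∑ S ∈ L.powerset, P.p L S * ∫ g, φ (sh T S g) ∂(gam ι) := by
  unfold yy
  rw [integral_flow (P.wt L) hT φ hφ, integral_mul_Zf _ _ _ φ hφ hB]

lemma measurableSet_mid (v : ι) (a b : ℝ) : MeasurableSet {x : ι → ℝ | a ≤ x v ∧ x v ≤ b} :=
  (measurableSet_le measurable_const (measurable_pi_apply v)).inter
    (measurableSet_le (measurable_pi_apply v) measurable_const)

lemma mid_bound (v : ι) {k : ℝ} (hk : 0 < k) (L : Finset ι) :
    ∫ g, ind (k / 3 ≤ yy P L k g v ∧ yy P L k g v ≤ 2 * k / 3) ∂(gam ι) ≤ 9 / k ^ 2 := by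
  rw [integral_yy P hk.le L (fun x => ind (k / 3 ≤ x v ∧ x v ≤ 2 * k / 3))
    (measurable_ind (measurableSet_mid v _ _)) (fun g => ind_abs_le _)]
  calc _ ≤ ∑ S ∈ L.powerset, P.p L S * (9 / k ^ 2) := by
        refine Finset.sum_le_sum fun S _ => mul_le_mul_of_nonneg_left ?_ (P.nonneg L S)
        refine le_trans (integral_mono ?_ (integrable_ind (measurableSet_le measurable_const
          (measurable_pi_apply v).norm) _) fun g => ?_) (tail_bound v hk)
        · exact integrable_ind ((measurable_sh k S) (measurableSet_mid v _ _)) _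
        · refine ind_mono fun h => ?_
          unfold sh at h
          by_cases hv : v ∈ S
          · simp only [hv, if_true] at h
            rw [Real.norm_eq_abs, le_abs]; right; linarith [h.2]
          · simp only [hv, if_false, add_zero] at h
            rw [Real.norm_eq_abs, le_abs]; left; linarith [h.1]
    _ = 9 / k ^ 2 := by rw [← Finset.sum_mul, P.sum_one, one_mul]

/-- the decoded bit at time `k`. -/
def decP (Lam : ℕ → ι → Finset ι) (k : ℕ) (v : ι) (g : ι → ℝ) : Prop :=
  (k : ℝ) / 2 < yy P (Lam k v) k g v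

open Classical in
/-- the factor map -/
noncomputable def Phi (Lam : ℕ → ι → Finset ι) (g : ι → ℝ) (v : ι) : Bool :=
  decide (∃ᶠ k in atTop, decP P Lam k v g)

lemma Phi_iff (Lam : ℕ → ι → Finset ι) (g : ι → ℝ) (v : ι) :
    Phi P Lam g v = true ↔ ∃ᶠ k in atTop, decP P Lam k v g := by
  unfold Phi; simp

lemma measurableSet_decP (Lam : ℕ → ι → Finset ι) (k : ℕ) (v : ι) :
    MeasurableSet {g | decP P Lam k v g} :=
  measurableSet_lt measurable_const (measurable_pi_iff.1 (measurable_yy P (Nat.cast_nonneg k) _) v)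

lemma measurable_Phi (Lam : ℕ → ι → Finset ι) : Measurable (Phi P Lam) := by
  refine measurable_pi_lambda _ fun v => ?_
  have hs : MeasurableSet {g | ∃ᶠ k in atTop, decP P Lam k v g} := by
    have := MeasurableSet.measurableSet_limsup (fun k => measurableSet_decP P Lam k v)
    have e : {g | ∃ᶠ k in atTop, decP P Lam k v g} =
        limsup (fun k => {g | decP P Lam k v g}) atTop := by
      ext g
      rw [mem_limsup_iff_frequently_mem]
      rfl
    rw [e]; exact this
  refine measurable_to_bool ?_
  have : (fun c => Phi P Lam c v) ⁻¹' {true} =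
      {g | ∃ᶠ k in atTop, decP P Lam k v g} := by
    ext g; exact Phi_iff P Lam g v
  rw [this]; exact hs

/-- closeness hypothesis on the level choice -/
def Good (Lam : ℕ → ι → Finset ι) : Prop :=
  ∀ (k : ℕ) (v : ι), ∀ᶠ L in (atTop : Filter (Finset ι)),
    ∫ g, |yy P (Lam k v) k g v - yy P L k g v| ∂(gam ι) ≤ (1 / 2) ^ k

lemma yy_step (L : Finset ι) (k : ℕ) (g : ι → ℝ) (v : ι) :
    yy P L k g v ≤ yy P L (k + 1 : ℕ) g v ∧ yy P L (k + 1 : ℕ) g v ≤ yy P L k g v + 1 := by
  have h := yy_sol P (T := ((k + 1 : ℕ) : ℝ)) (by positivity) L g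
  have h2 := h.incr (P.wt L) (r := k) (s := (k + 1 : ℕ)) (by positivity) (by push_cast; linarith)
    le_rfl v
  have e : ((k + 1 : ℕ) : ℝ) - k = 1 := by push_cast; ring
  constructor <;> linarith [h2.1, h2.2]

/-- one-step disagreement bound -/
lemma disagree_bound {Lam : ℕ → ι → Finset ι} (hG : Good P Lam) {k : ℕ} (hk : 5 ≤ k) (v : ι) :
    ∫ g, ind (¬ (decP P Lam k v g ↔ decP P Lam (k + 1) v g)) ∂(gam ι) ≤
      4 * (1 / 2) ^ k + 4 * (1 / 2) ^ (k + 1) + 9 / (k : ℝ) ^ 2 := by
  obtain ⟨L, hL1, hL2⟩ := ((hG k v).and (hG (k + 1) v)).exists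
  have hk0 : (0:ℝ) < k := by
    have : 0 < k := by omega
    exact_mod_cast this
  have hk5 : (5:ℝ) ≤ k := by exact_mod_cast hk
  have i1 := integrable_yy_diff P (R := (k : ℝ)) hk0.le (Lam k v) L v
  have i2 := integrable_yy_diff P (R := ((k + 1 : ℕ) : ℝ)) (by positivity) (Lam (k + 1) v) L v
  have hmid : MeasurableSet {g | k / 3 ≤ yy P L k g v ∧ yy P L k g v ≤ 2 * (k : ℝ) / 3} :=
    (measurable_yy P hk0.le L) (measurableSet_mid v (k / 3) (2 * (k : ℝ) / 3))
  have i3 := integrable_ind hmid (gam ι)
  calc _ ≤ ∫ g, (4 * |yy P (Lam k v) k g v - yy P L k g v| +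
          4 * |yy P (Lam (k + 1) v) (k + 1 : ℕ) g v - yy P L (k + 1 : ℕ) g v| +
          ind (k / 3 ≤ yy P L k g v ∧ yy P L k g v ≤ 2 * (k : ℝ) / 3)) ∂(gam ι) := by
        refine integral_mono ?_ (((i1.const_mul 4).add (i2.const_mul 4)).add i3) fun g => ?_
        · have h1 := measurableSet_decP P Lam k v
          have h2 := measurableSet_decP P Lam (k + 1) v
          refine integrable_ind ?_ _
          have : {g | ¬ (decP P Lam k v g ↔ decP P Lam (k + 1) v g)} =
              ({g | decP P Lam k v g} ∩ {g | decP P Lam (k + 1) v g}ᶜ) ∪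
              ({g | decP P Lam k v g}ᶜ ∩ {g | decP P Lam (k + 1) v g}) := by
            ext g; simp only [Set.mem_ofPred_eq, mem_union, mem_inter_iff, mem_compl_iff]; tauto
          rw [this]
          exact (h1.inter h2.compl).union (h1.compl.inter h2)
        · by_cases hb : decP P Lam k v g ↔ decP P Lam (k + 1) v g
          · rw [ind_of_not (by simpa using hb)]
            have := ind_nonneg (k / 3 ≤ yy P L k g v ∧ yy P L k g v ≤ 2 * (k : ℝ) / 3)
            positivity
          · rw [ind_of hb]
            by_contra hlt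
            push Not at hlt
            have hI := ind_nonneg (k / 3 ≤ yy P L k g v ∧ yy P L k g v ≤ 2 * (k : ℝ) / 3)
            have a1 : |yy P (Lam k v) k g v - yy P L k g v| < 1 / 4 := by
              have := abs_nonneg (yy P (Lam (k + 1) v) (k + 1 : ℕ) g v - yy P L (k + 1 : ℕ) g v)
              linarith
            have a2 : |yy P (Lam (k + 1) v) (k + 1 : ℕ) g v - yy P L (k + 1 : ℕ) g v| < 1 / 4 := by
              have := abs_nonneg (yy P (Lam k v) k g v - yy P L k g v)
              linarith
            have a3 : ¬ (k / 3 ≤ yy P L k g v ∧ yy P L k g v ≤ 2 * (k : ℝ) / 3) := by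
              intro hc
              rw [ind_of hc] at hlt
              have := abs_nonneg (yy P (Lam k v) k g v - yy P L k g v)
              have := abs_nonneg (yy P (Lam (k + 1) v) (k + 1 : ℕ) g v - yy P L (k + 1 : ℕ) g v)
              linarith
            have st := yy_step P L k g v
            rw [abs_lt] at a1 a2
            apply hb
            unfold decP
            rcases lt_or_ge (yy P L k g v) (k / 3) with hc | hc
            · constructor
              · intro h; linarith [a1.2]
              · intro h; push_cast at h a2 st; linarith [a2.2, st.2]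
            · have hc' : 2 * (k : ℝ) / 3 < yy P L k g v := by
                by_contra hcc
                push Not at hcc
                exact a3 ⟨hc, hcc⟩
              constructor
              · intro h; push_cast at a2 st ⊢; linarith [a2.1, st.1]
              · intro h; linarith [a1.1]
    _ = 4 * (∫ g, |yy P (Lam k v) k g v - yy P L k g v| ∂(gam ι)) +
          4 * (∫ g, |yy P (Lam (k + 1) v) (k + 1 : ℕ) g v - yy P L (k + 1 : ℕ) g v| ∂(gam ι)) +
          ∫ g, ind (k / 3 ≤ yy P L k g v ∧ yy P L k g v ≤ 2 * (k : ℝ) / 3) ∂(gam ι) := by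
        have i12 : Integrable (fun g => 4 * |yy P (Lam k v) k g v - yy P L k g v| +
          4 * |yy P (Lam (k + 1) v) (k + 1 : ℕ) g v - yy P L (k + 1 : ℕ) g v|) (gam ι) :=
          (i1.const_mul 4).add (i2.const_mul 4)
        rw [integral_add i12 i3, integral_add (i1.const_mul 4) (i2.const_mul 4),
          integral_const_mul, integral_const_mul]
    _ ≤ _ := by
        have h3 := mid_bound P v hk0 L
        linarith

/-- a.s. eventual constancy -/
lemma ae_eventually_const {Lam : ℕ → ι → Finset ι} (hG : Good P Lam) (v : ι) :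
    ∀ᵐ g ∂(gam ι), ∀ᶠ k in atTop, (decP P Lam k v g ↔ decP P Lam (k + 1) v g) := by
  have hmeas : ∀ k, MeasurableSet {g | ¬ (decP P Lam k v g ↔ decP P Lam (k + 1) v g)} := by
    intro k
    have h1 := measurableSet_decP P Lam k v
    have h2 := measurableSet_decP P Lam (k + 1) v
    have : {g | ¬ (decP P Lam k v g ↔ decP P Lam (k + 1) v g)} =
        ({g | decP P Lam k v g} ∩ {g | decP P Lam (k + 1) v g}ᶜ) ∪
        ({g | decP P Lam k v g}ᶜ ∩ {g | decP P Lam (k + 1) v g}) := by
      ext g; simp only [Set.mem_ofPred_eq, mem_union, mem_inter_iff, mem_compl_iff]; tauto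
    rw [this]
    exact (h1.inter h2.compl).union (h1.compl.inter h2)
  set s : ℕ → Set (ι → ℝ) := fun k =>
    {g | ¬ (decP P Lam (k + 5) v g ↔ decP P Lam (k + 5 + 1) v g)} with hs
  have hb : ∀ k, (gam ι) (s k) ≤ ENNReal.ofReal
      (4 * (1 / 2) ^ (k + 5) + 4 * (1 / 2) ^ (k + 5 + 1) + 9 / ((k + 5 : ℕ) : ℝ) ^ 2) := by
    intro k
    have := disagree_bound P hG (k := k + 5) (by omega) v
    rw [integral_ind (hmeas (k + 5))] at this
    rw [← ofReal_measureReal (by simp)]
    exact ENNReal.ofReal_le_ofReal this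
  have hsum : Summable (fun k : ℕ => 4 * (1 / 2 : ℝ) ^ (k + 5) + 4 * (1 / 2) ^ (k + 5 + 1) +
      9 / ((k + 5 : ℕ) : ℝ) ^ 2) := by
    have g1 : Summable (fun k : ℕ => (1 / 2 : ℝ) ^ k) :=
      summable_geometric_of_lt_one (by norm_num) (by norm_num)
    have g2 : Summable (fun k : ℕ => 9 / ((k : ℕ) : ℝ) ^ 2) := by
      have := (Real.summable_one_div_nat_pow (p := 2)).2 (by norm_num)
      have := this.mul_left 9
      refine this.congr fun k => ?_
      ring
    have h1 := ((summable_nat_add_iff 5).2 g1).mul_left 4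
    have h2 := ((summable_nat_add_iff 6).2 g1).mul_left 4
    have h3 := (summable_nat_add_iff 5).2 g2
    exact (h1.add h2).add h3
  have hfin : ∑' k, (gam ι) (s k) ≠ ⊤ := by
    refine ne_top_of_le_ne_top ?_ (ENNReal.tsum_le_tsum hb)
    exact hsum.tsum_ofReal_ne_top
  have := ae_eventually_notMem hfin
  filter_upwards [this] with g hg
  rw [eventually_atTop] at hg ⊢
  obtain ⟨N, hN⟩ := hg
  refine ⟨N + 5, fun k hk => ?_⟩
  have := hN (k - 5) (by omega)
  simp only [hs, Set.mem_ofPred_eq, not_not] at this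
  have e : k - 5 + 5 = k := by omega
  rw [e] at this
  exact this

lemma ae_eventually_Phi {Lam : ℕ → ι → Finset ι} (hG : Good P Lam) (v : ι) :
    ∀ᵐ g ∂(gam ι), ∀ᶠ k in atTop, (decP P Lam k v g ↔ Phi P Lam g v = true) := by
  filter_upwards [ae_eventually_const P hG v] with g hg
  rw [eventually_atTop] at hg
  obtain ⟨N, hN⟩ := hg
  have hconst : ∀ k, N ≤ k → (decP P Lam k v g ↔ decP P Lam N v g) := by
    intro k hk
    induction k, hk using Nat.le_induction with
    | base => exact Iff.rfl
    | succ k hk ih => exact (hN k hk).symm.trans ih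
  have hPhi : Phi P Lam g v = true ↔ decP P Lam N v g := by
    rw [Phi_iff]
    constructor
    · intro h
      obtain ⟨k, hk, hd⟩ := (frequently_atTop.1 h) N
      exact (hconst k hk).1 hd
    · intro h
      refine frequently_atTop.2 fun m => ⟨max m N, le_max_left _ _, ?_⟩
      exact (hconst _ (le_max_right _ _)).2 h
  filter_upwards [eventually_ge_atTop N] with k hk
  rw [hPhi]; exact hconst k hk

/-- pattern of a configuration of reals -/
def patt (V S : Finset ι) (k : ℝ) (x : ι → ℝ) : Prop := ∀ v ∈ V, (k / 2 < x v ↔ v ∈ S)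

lemma measurableSet_patt (V S : Finset ι) (k : ℝ) : MeasurableSet {x : ι → ℝ | patt V S k x} := by
  unfold patt
  have : {x : ι → ℝ | ∀ v ∈ V, (k / 2 < x v ↔ v ∈ S)} = ⋂ v ∈ V, {x | (k / 2 < x v ↔ v ∈ S)} := by
    ext x; simp
  rw [this]
  refine Finset.measurableSet_biInter V fun v _ => ?_
  have hm : MeasurableSet {x : ι → ℝ | k / 2 < x v} :=
    measurableSet_lt measurable_const (measurable_pi_apply v)
  by_cases hv : v ∈ S
  · simpa [hv] using hm
  · simp only [hv, iff_false]
    exact hm.compl

/-- the finite-volume decoded pattern has the right law up to tails. -/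
lemma patt_law {V S L : Finset ι} (hV : V ⊆ L) (hS : S ⊆ V) {k : ℝ} (hk : 0 < k) :
    |∫ g, ind (patt V S k (yy P L k g)) ∂(gam ι) - P.p V S| ≤ V.card * (9 / k ^ 2) := by
  rw [integral_yy P hk.le L (fun x => ind (patt V S k x)) (measurable_ind (measurableSet_patt V S k))
    (fun g => ind_abs_le _)]
  rw [P.consistent V L hV S hS, Finset.sum_filter, ← Finset.sum_sub_distrib]
  have hterm : ∀ S' ∈ L.powerset, |P.p L S' * ∫ g, ind (patt V S k (sh k S' g)) ∂(gam ι) -
      (if S' ∩ V = S then P.p L S' else 0)| ≤ P.p L S' * (V.card * (9 / k ^ 2)) := by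
    intro S' _
    have e : P.p L S' * ∫ g, ind (patt V S k (sh k S' g)) ∂(gam ι) -
      (if S' ∩ V = S then P.p L S' else 0) =
      P.p L S' * (∫ g, ind (patt V S k (sh k S' g)) ∂(gam ι) - ind (S' ∩ V = S)) := by
      by_cases h : S' ∩ V = S
      · rw [ind_of h, if_pos h]; ring
      · rw [ind_of_not h, if_neg h]; ring
    rw [e, abs_mul, abs_of_nonneg (P.nonneg L S')]
    refine mul_le_mul_of_nonneg_left ?_ (P.nonneg L S')
    have i1 : Integrable (fun g : ι → ℝ => ind (patt V S k (sh k S' g))) (gam ι) :=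
      integrable_ind ((measurable_sh k S') (measurableSet_patt V S k)) _
    have e2 : ∫ g, ind (patt V S k (sh k S' g)) ∂(gam ι) - ind (S' ∩ V = S) =
        ∫ g, (ind (patt V S k (sh k S' g)) - ind (S' ∩ V = S)) ∂(gam ι) := by
      rw [integral_sub i1 (integrable_const _)]; simp
    rw [e2]
    have it : ∀ v ∈ V, Integrable (fun g : ι → ℝ => ind (k / 3 ≤ |g v|)) (gam ι) := fun v _ =>
      integrable_ind (measurableSet_le measurable_const (measurable_pi_apply v).norm) _
    calc _ ≤ ∫ g, |ind (patt V S k (sh k S' g)) - ind (S' ∩ V = S)| ∂(gam ι) :=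
          abs_integral_le_integral_abs
      _ ≤ ∫ g, ∑ v ∈ V, ind (k / 3 ≤ |g v|) ∂(gam ι) := by
          refine integral_mono (i1.sub (integrable_const _)).norm (integrable_finsetSum V it)
            fun g => ?_
          simp only [Real.norm_eq_abs]
          by_cases hall : ∀ v ∈ V, |g v| < k / 3
          · have hiff : patt V S k (sh k S' g) ↔ S' ∩ V = S := by
              have h1 : ∀ v ∈ V, (k / 2 < sh k S' g v ↔ v ∈ S') := by
                intro v hv
                have := abs_lt.1 (hall v hv)
                unfold sh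
                by_cases hvS : v ∈ S'
                · simp only [hvS, if_true, iff_true]; linarith [this.1]
                · simp only [hvS, if_false, add_zero, iff_false, not_lt]; linarith [this.2]
              unfold patt
              constructor
              · intro h
                ext v
                rw [Finset.mem_inter]
                constructor
                · rintro ⟨a, b⟩; exact (h v b).1 ((h1 v b).2 a)
                · intro hvS
                  have hvV := hS hvS
                  exact ⟨(h1 v hvV).1 ((h v hvV).2 hvS), hvV⟩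
              · intro h v hv
                rw [h1 v hv, ← h, Finset.mem_inter]
                tauto
            have : ind (patt V S k (sh k S' g)) = ind (S' ∩ V = S) := by
              rw [hiff]
            rw [this, sub_self, abs_zero]
            exact Finset.sum_nonneg fun v _ => ind_nonneg _
          · push Not at hall
            obtain ⟨v, hv, hle⟩ := hall
            have h1 : (1:ℝ) ≤ ∑ v ∈ V, ind (k / 3 ≤ |g v|) := by
              have := Finset.single_le_sum (f := fun v => ind (k / 3 ≤ |g v|))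
                (fun v _ => ind_nonneg _) hv
              rw [ind_of hle] at this
              exact this
            refine le_trans ?_ h1
            have a := ind_nonneg (patt V S k (sh k S' g))
            have b := ind_le_one (patt V S k (sh k S' g))
            have c := ind_nonneg (S' ∩ V = S)
            have d := ind_le_one (S' ∩ V = S)
            rw [abs_le]; constructor <;> linarith
      _ = ∑ v ∈ V, ∫ g, ind (k / 3 ≤ |g v|) ∂(gam ι) := integral_finsetSum V it
      _ ≤ ∑ v ∈ V, 9 / k ^ 2 := Finset.sum_le_sum fun v _ => tail_bound v hk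
      _ = V.card * (9 / k ^ 2) := by simp
  calc _ ≤ ∑ S' ∈ L.powerset, |P.p L S' * ∫ g, ind (patt V S k (sh k S' g)) ∂(gam ι) -
      (if S' ∩ V = S then P.p L S' else 0)| := Finset.abs_sum_le_sum_abs _ _
    _ ≤ ∑ S' ∈ L.powerset, P.p L S' * (V.card * (9 / k ^ 2)) := Finset.sum_le_sum hterm
    _ = V.card * (9 / k ^ 2) := by rw [← Finset.sum_mul, P.sum_one, one_mul]

/-- the decoded pattern at time `k` -/
lemma dec_law {Lam : ℕ → ι → Finset ι} (hG : Good P Lam) {V S : Finset ι} (hS : S ⊆ V) {k : ℕ}
    (hk : 2 ≤ k) :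
    |∫ g, ind (∀ v ∈ V, (decP P Lam k v g ↔ v ∈ S)) ∂(gam ι) - P.p V S| ≤
      V.card * (4 * (1 / 2) ^ k + 9 / (k : ℝ) ^ 2 + 9 / (k : ℝ) ^ 2) := by
  have hk0 : (0:ℝ) < k := by
    have : 0 < k := by omega
    exact_mod_cast this
  have hk2 : (2:ℝ) ≤ k := by exact_mod_cast hk
  have hev : ∀ᶠ L in (atTop : Filter (Finset ι)), ∀ v ∈ V,
      ∫ g, |yy P (Lam k v) k g v - yy P L k g v| ∂(gam ι) ≤ (1 / 2) ^ k := by
    exact (Filter.eventually_all_finset V).2 fun v _ => hG k v
  obtain ⟨L, hL1, hL2⟩ := (hev.and (eventually_ge_atTop V)).exists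
  have hVL : V ⊆ L := hL2
  have h1 := patt_law P hVL hS hk0
  have hdm : MeasurableSet {g | ∀ v ∈ V, (decP P Lam k v g ↔ v ∈ S)} := by
    have : {g | ∀ v ∈ V, (decP P Lam k v g ↔ v ∈ S)} =
        ⋂ v ∈ V, {g | (decP P Lam k v g ↔ v ∈ S)} := by
      ext x; simp
    rw [this]
    refine Finset.measurableSet_biInter V fun v _ => ?_
    have hm := measurableSet_decP P Lam k v
    by_cases hv : v ∈ S
    · simpa [hv] using hm
    · simp only [hv, iff_false]
      exact hm.compl
  have i1 := integrable_ind hdm (gam ι)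
  have i2 : Integrable (fun g => ind (patt V S k (yy P L k g))) (gam ι) :=
    integrable_ind ((measurable_yy P hk0.le L) (measurableSet_patt V S k)) _
  have j1 : ∀ v ∈ V, Integrable (fun g => 4 * |yy P (Lam k v) k g v - yy P L k g v| +
      ind (k / 3 ≤ yy P L k g v ∧ yy P L k g v ≤ 2 * (k : ℝ) / 3)) (gam ι) := fun v _ =>
    ((integrable_yy_diff P hk0.le (Lam k v) L v).const_mul 4).add (integrable_ind
      ((measurable_yy P hk0.le L) (measurableSet_mid v (k / 3) (2 * (k : ℝ) / 3))) _)
  have h2 : |∫ g, ind (∀ v ∈ V, (decP P Lam k v g ↔ v ∈ S)) ∂(gam ι) -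
      ∫ g, ind (patt V S k (yy P L k g)) ∂(gam ι)| ≤ V.card * (4 * (1 / 2) ^ k + 9 / (k : ℝ) ^ 2) := by
    rw [← integral_sub i1 i2]
    calc _ ≤ ∫ g, |ind (∀ v ∈ V, (decP P Lam k v g ↔ v ∈ S)) - ind (patt V S k (yy P L k g))|
            ∂(gam ι) := abs_integral_le_integral_abs
      _ ≤ ∫ g, ∑ v ∈ V, (4 * |yy P (Lam k v) k g v - yy P L k g v| +
            ind (k / 3 ≤ yy P L k g v ∧ yy P L k g v ≤ 2 * (k : ℝ) / 3)) ∂(gam ι) := by
          refine integral_mono (i1.sub i2).norm (integrable_finsetSum V j1) fun g => ?_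
          simp only [Real.norm_eq_abs]
          have hnn : ∀ v ∈ V, 0 ≤ 4 * |yy P (Lam k v) k g v - yy P L k g v| +
              ind (k / 3 ≤ yy P L k g v ∧ yy P L k g v ≤ 2 * (k : ℝ) / 3) := fun v _ => by
            have := ind_nonneg (k / 3 ≤ yy P L k g v ∧ yy P L k g v ≤ 2 * (k : ℝ) / 3)
            positivity
          by_cases hall : ∀ v ∈ V, 4 * |yy P (Lam k v) k g v - yy P L k g v| +
              ind (k / 3 ≤ yy P L k g v ∧ yy P L k g v ≤ 2 * (k : ℝ) / 3) < 1
          · have hiff : (∀ v ∈ V, (decP P Lam k v g ↔ v ∈ S)) ↔ patt V S k (yy P L k g) := by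
              unfold patt
              refine forall₂_congr fun v hv => ?_
              have := hall v hv
              have hI := ind_nonneg (k / 3 ≤ yy P L k g v ∧ yy P L k g v ≤ 2 * (k : ℝ) / 3)
              have a1 : |yy P (Lam k v) k g v - yy P L k g v| < 1 / 4 := by linarith
              have a3 : ¬ (k / 3 ≤ yy P L k g v ∧ yy P L k g v ≤ 2 * (k : ℝ) / 3) := by
                intro hc
                rw [ind_of hc] at this
                have := abs_nonneg (yy P (Lam k v) k g v - yy P L k g v)
                linarith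
              rw [abs_lt] at a1
              have : decP P Lam k v g ↔ (k : ℝ) / 2 < yy P L k g v := by
                unfold decP
                rcases lt_or_ge (yy P L k g v) (k / 3) with hc | hc
                · constructor <;> intro h <;> linarith [a1.1, a1.2]
                · have hc' : 2 * (k : ℝ) / 3 < yy P L k g v := by
                    by_contra hcc
                    push Not at hcc
                    exact a3 ⟨hc, hcc⟩
                  constructor <;> intro h <;> linarith [a1.1, a1.2]
              rw [this]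
            rw [hiff, sub_self, abs_zero]
            exact Finset.sum_nonneg hnn
          · push Not at hall
            obtain ⟨v, hv, hle⟩ := hall
            have h1 := hle.trans (Finset.single_le_sum (f := fun v =>
              4 * |yy P (Lam k v) k g v - yy P L k g v| +
              ind (k / 3 ≤ yy P L k g v ∧ yy P L k g v ≤ 2 * (k : ℝ) / 3)) hnn hv)
            refine le_trans ?_ h1
            have a := ind_nonneg (patt V S k (yy P L k g))
            have b := ind_le_one (patt V S k (yy P L k g))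
            have c := ind_nonneg (∀ v ∈ V, (decP P Lam k v g ↔ v ∈ S))
            have d := ind_le_one (∀ v ∈ V, (decP P Lam k v g ↔ v ∈ S))
            rw [abs_le]; constructor <;> linarith
      _ = ∑ v ∈ V, ∫ g, (4 * |yy P (Lam k v) k g v - yy P L k g v| +
            ind (k / 3 ≤ yy P L k g v ∧ yy P L k g v ≤ 2 * (k : ℝ) / 3)) ∂(gam ι) :=
          integral_finsetSum V j1
      _ ≤ ∑ v ∈ V, (4 * (1 / 2) ^ k + 9 / (k : ℝ) ^ 2) := by
          refine Finset.sum_le_sum fun v hv => ?_
          have i5 : Integrable (fun g => ind (k / 3 ≤ yy P L k g v ∧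
              yy P L k g v ≤ 2 * (k : ℝ) / 3)) (gam ι) := integrable_ind
            ((measurable_yy P hk0.le L) (measurableSet_mid v (k / 3) (2 * (k : ℝ) / 3))) _
          rw [integral_add ((integrable_yy_diff P hk0.le (Lam k v) L v).const_mul 4) i5,
            integral_const_mul]
          have := hL1 v hv
          have := mid_bound P v hk0 L
          linarith
      _ = V.card * (4 * (1 / 2) ^ k + 9 / (k : ℝ) ^ 2) := by
          rw [Finset.sum_const, nsmul_eq_mul]
  calc _ ≤ |∫ g, ind (∀ v ∈ V, (decP P Lam k v g ↔ v ∈ S)) ∂(gam ι) -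
      ∫ g, ind (patt V S k (yy P L k g)) ∂(gam ι)| +
      |∫ g, ind (patt V S k (yy P L k g)) ∂(gam ι) - P.p V S| := abs_sub_le _ _ _
    _ ≤ _ := by linarith

/-- **Main law theorem.** -/
theorem Phi_law {Lam : ℕ → ι → Finset ι} (hG : Good P Lam) {V S : Finset ι} (hS : S ⊆ V) :
    (gam ι).real {g | ∀ v ∈ V, (Phi P Lam g v = true ↔ v ∈ S)} = P.p V S := by
  have hdm : ∀ k, MeasurableSet {g | ∀ v ∈ V, (decP P Lam k v g ↔ v ∈ S)} := by
    intro k
    have : {g | ∀ v ∈ V, (decP P Lam k v g ↔ v ∈ S)} =
        ⋂ v ∈ V, {g | (decP P Lam k v g ↔ v ∈ S)} := by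
      ext x; simp
    rw [this]
    refine Finset.measurableSet_biInter V fun v _ => ?_
    have hm := measurableSet_decP P Lam k v
    by_cases hv : v ∈ S
    · simpa [hv] using hm
    · simp only [hv, iff_false]
      exact hm.compl
  have hPm : MeasurableSet {g | ∀ v ∈ V, (Phi P Lam g v = true ↔ v ∈ S)} := by
    have : {g | ∀ v ∈ V, (Phi P Lam g v = true ↔ v ∈ S)} =
        ⋂ v ∈ V, {g | (Phi P Lam g v = true ↔ v ∈ S)} := by
      ext x; simp
    rw [this]
    refine Finset.measurableSet_biInter V fun v _ => ?_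
    have hm : MeasurableSet {g | Phi P Lam g v = true} :=
      (measurable_pi_iff.1 (measurable_Phi P Lam) v) (measurableSet_singleton true)
    by_cases hv : v ∈ S
    · simpa [hv] using hm
    · simp only [hv, iff_false]
      exact hm.compl
  rw [← integral_ind hPm]
  have hae : ∀ᵐ g ∂(gam ι), ∀ v ∈ V, ∀ᶠ k in atTop, (decP P Lam k v g ↔ Phi P Lam g v = true) := by
    exact (Filter.eventually_all_finset V).2 fun v _ => ae_eventually_Phi P hG v
  have h1 : Tendsto (fun k : ℕ => ∫ g, ind (∀ v ∈ V, (decP P Lam k v g ↔ v ∈ S)) ∂(gam ι)) atTop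
      (𝓝 (∫ g, ind (∀ v ∈ V, (Phi P Lam g v = true ↔ v ∈ S)) ∂(gam ι))) := by
    refine tendsto_integral_of_dominated_convergence (fun _ => 1) (fun k =>
      (measurable_ind (hdm k)).aestronglyMeasurable) (integrable_const 1)
      (fun k => Eventually.of_forall fun g => by rw [Real.norm_eq_abs]; exact ind_abs_le _) ?_
    filter_upwards [hae] with g hg
    refine tendsto_const_nhds.congr' ?_
    have : ∀ᶠ k in atTop, ∀ v ∈ V, (decP P Lam k v g ↔ Phi P Lam g v = true) := by
      exact (Filter.eventually_all_finset V).2 hg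
    filter_upwards [this] with k hk
    congr 1
    refine propext (forall₂_congr fun v hv => ?_)
    rw [hk v hv]
  have h2 : Tendsto (fun k : ℕ => ∫ g, ind (∀ v ∈ V, (decP P Lam k v g ↔ v ∈ S)) ∂(gam ι)) atTop
      (𝓝 (P.p V S)) := by
    rw [tendsto_iff_norm_sub_tendsto_zero]
    have hlim : Tendsto (fun k : ℕ => (V.card : ℝ) * (4 * (1 / 2) ^ k + 9 / (k : ℝ) ^ 2 +
        9 / (k : ℝ) ^ 2)) atTop (𝓝 ((V.card : ℝ) * (4 * 0 + 0 + 0))) := by
      have g1 : Tendsto (fun k : ℕ => (1 / 2 : ℝ) ^ k) atTop (𝓝 0) :=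
        tendsto_pow_atTop_nhds_zero_of_lt_one (by norm_num) (by norm_num)
      have g2 : Tendsto (fun k : ℕ => 9 / (k : ℝ) ^ 2) atTop (𝓝 0) := by
        refine Tendsto.div_atTop tendsto_const_nhds ?_
        exact (tendsto_pow_atTop (by norm_num)).comp tendsto_natCast_atTop_atTop
      exact (((g1.const_mul 4).add g2).add g2).const_mul _
    simp only [mul_zero, add_zero] at hlim
    refine squeeze_zero' (Eventually.of_forall fun k => norm_nonneg _) ?_ hlim
    filter_upwards [eventually_ge_atTop 2] with k hk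
    rw [Real.norm_eq_abs]
    exact dec_law P hG hS hk
  exact tendsto_nhds_unique h1 h2

/-- canonical existence of good levels -/
theorem good_of_cauchy {C : ℝ} (hC0 : 0 ≤ C) (hC : ∀ L, CovBound C (P.p L) L) (k : ℕ) (v : ι) :
    ∃ M0 : Finset ι, ∀ L, M0 ⊆ L → ∀ L', M0 ⊆ L' →
      ∫ g, |yy P L k g v - yy P L' k g v| ∂(gam ι) ≤ (1 / 2) ^ k := by
  obtain ⟨M0, hM0⟩ := cauchy P hC0 hC (Nat.cast_nonneg k) v (ε := (1 / 2) ^ k) (by positivity)
  exact ⟨M0, fun L hL L' hL' => hM0 L L' hL hL'⟩

end Decode

end Crest.Agent.SRFlow
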