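import Mathlib
import Crest.Agent.SRDecode

set_option autoImplicit false
set_option linter.unusedSectionVars false
set_option linter.unusedVariables false

namespace Crest.Agent.SRFlow

open MeasureTheory ProbabilityTheory Set Filter Topology

variable {ι : Type*} [DecidableEq ι]

section Relabel

variable {q q' : Finset ι → ℝ} {L : Finset ι} (e : ι ≃ ι)

lemma sum_map_powerset (F : Finset ι → ℝ) :
    ∑ S ∈ (L.map e.toEmbedding).powerset, F S = ∑ S ∈ L.powerset, F (S.map e.toEmbedding) := by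
  refine (Finset.sum_nbij' (fun S => S.map e.toEmbedding) (fun S => S.map e.symm.toEmbedding)
    ?_ ?_ ?_ ?_ ?_).symm
  · intro S hS
    rw [Finset.mem_powerset] at hS ⊢
    exact Finset.map_subset_map.2 hS
  · intro S hS
    rw [Finset.mem_powerset] at hS ⊢
    intro i hi
    rw [Finset.mem_map] at hi
    obtain ⟨j, hj, rfl⟩ := hi
    have := hS hj
    rw [Finset.mem_map] at this
    obtain ⟨k, hk, rfl⟩ := this
    simpa using hk
  · intro S _
    ext i; simp
  · intro S _
    ext i; simp
  · intro S _; rfl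

lemma Zf_equiv (hq : ∀ S, S ⊆ L → q' (S.map e.toEmbedding) = q S) (x : ι → ℝ) :
    Zf q' (L.map e.toEmbedding) x = Zf q L (fun u => x (e u)) := by
  unfold Zf
  rw [sum_map_powerset]
  refine Finset.sum_congr rfl fun S hS => ?_
  rw [hq S (Finset.mem_powerset.1 hS), Finset.sum_map]
  rfl

lemma Nf_equiv (hq : ∀ S, S ⊆ L → q' (S.map e.toEmbedding) = q S) (x : ι → ℝ) (v : ι) :
    Nf q' (L.map e.toEmbedding) x {e v} = Nf q L (fun u => x (e u)) {v} := by
  unfold Nf
  rw [Finset.sum_filter, Finset.sum_filter, sum_map_powerset]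
  refine Finset.sum_congr rfl fun S hS => ?_
  rw [hq S (Finset.mem_powerset.1 hS), Finset.sum_map]
  simp

lemma gibbs_equiv (hq : ∀ S, S ⊆ L → q' (S.map e.toEmbedding) = q S) (x : ι → ℝ) (v : ι) :
    gibbs q' (L.map e.toEmbedding) x (e v) = gibbs q L (fun u => x (e u)) v := by
  unfold gibbs
  rw [Zf_equiv e hq, Nf_equiv e hq]

lemma eul_equiv (hq : ∀ S, S ⊆ L → q' (S.map e.toEmbedding) = q S) (h : ℝ) (k : ℕ) (x : ι → ℝ)
    (v : ι) : eul q' (L.map e.toEmbedding) h k x (e v) = eul q L h k (fun u => x (e u)) v := by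
  induction k generalizing v with
  | zero => rfl
  | succ k ih =>
    simp only [eul, eStep]
    rw [ih v, gibbs_equiv e hq]
    congr 2
    refine congrArg (fun y => gibbs q L y v) ?_
    ext u
    unfold fld
    rw [ih u]

lemma flow_equiv (hq : ∀ S, S ⊆ L → q' (S.map e.toEmbedding) = q S) (T : ℝ) (x : ι → ℝ)
    (v : ι) : flow q' (L.map e.toEmbedding) T x (e v) = flow q L T (fun u => x (e u)) v := by
  unfold flow
  congr 1
  ext n
  rw [eul_equiv e hq]

end Relabel

/-- the white noise is invariant under relabelling -/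
lemma gam_map_equiv (e : ι ≃ ι) : (gam ι).map (fun x u => x (e u)) = gam ι := by
  unfold gam
  exact Measure.map_infinitePi_infinitePi_of_inj (P := fun _ : ι => gaussianReal 0 1) e.injective

/-- two families related by a relabelling -/
def Related (P P' : FDD ι) (e : ι ≃ ι) : Prop :=
  ∀ L S, S ⊆ L → P'.p (L.map e.toEmbedding) (S.map e.toEmbedding) = P.p L S

lemma yy_equiv {P P' : FDD ι} {e : ι ≃ ι} (h : Related P P' e) (L : Finset ι) (s : ℝ)
    (x : ι → ℝ) (v : ι) :
    yy P' (L.map e.toEmbedding) s x (e v) = yy P L s (fun u => x (e u)) v := by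
  unfold yy
  exact flow_equiv e (fun S hS => h L S hS) s x v

lemma integral_yy_equiv {P P' : FDD ι} {e : ι ≃ ι} (h : Related P P' e) (L L' : Finset ι)
    {s : ℝ} (hs : 0 ≤ s) (v : ι) :
    ∫ g, |yy P' (L.map e.toEmbedding) s g (e v) - yy P' (L'.map e.toEmbedding) s g (e v)| ∂(gam ι)
      = ∫ g, |yy P L s g v - yy P L' s g v| ∂(gam ι) := by
  simp_rw [yy_equiv h]
  have hm : Measurable (fun (x : ι → ℝ) (u : ι) => x (e u)) := by fun_prop
  have hf : Measurable (fun g => |yy P L s g v - yy P L' s g v|) :=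
    ((measurable_pi_iff.1 (measurable_yy P hs L) v).sub
      (measurable_pi_iff.1 (measurable_yy P hs L') v)).norm
  have := integral_map (μ := gam ι) hm.aemeasurable (f := fun g => |yy P L s g v - yy P L' s g v|)
    hf.aestronglyMeasurable
  rw [gam_map_equiv e] at this
  exact this.symm

/-- equivariance of the factor map -/
lemma Phi_equiv {P P' : FDD ι} {e : ι ≃ ι} (h : Related P P' e) {Lam Lam' : ℕ → ι → Finset ι}
    (hLam : ∀ k v, Lam' k (e v) = (Lam k v).map e.toEmbedding) (x : ι → ℝ) (v : ι) :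
    Phi P' Lam' x (e v) = Phi P Lam (fun u => x (e u)) v := by
  have : (Phi P' Lam' x (e v) = true) ↔ (Phi P Lam (fun u => x (e u)) v = true) := by
    rw [Phi_iff, Phi_iff]
    unfold decP
    simp_rw [hLam, yy_equiv h]
  exact Bool.eq_iff_iff.2 this

/-- extension of `Good` along relabelling -/
lemma good_relabel {P P' : FDD ι} {e : ι ≃ ι} (h : Related P P' e) {k : ℕ} {v : ι}
    {M0 : Finset ι}
    (hM0 : ∀ L, M0 ⊆ L → ∫ g, |yy P M0 k g v - yy P L k g v| ∂(gam ι) ≤ (1 / 2) ^ k) :
    ∀ L, M0.map e.toEmbedding ⊆ L →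
      ∫ g, |yy P' (M0.map e.toEmbedding) k g (e v) - yy P' L k g (e v)| ∂(gam ι) ≤
        (1 / 2) ^ k := by
  intro L hL
  have eL : L = (L.map e.symm.toEmbedding).map e.toEmbedding := by
    ext i; simp
  have hsub : M0 ⊆ L.map e.symm.toEmbedding := by
    intro i hi
    have := hL (Finset.mem_map_of_mem e.toEmbedding hi)
    rw [Finset.mem_map]
    exact ⟨e i, this, by simp⟩
  rw [eL, integral_yy_equiv h _ _ (Nat.cast_nonneg k)]
  exact hM0 _ hsub

end Crest.Agent.SRFlow
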