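import Mathlib
import Crest.Agent.SRGibbs

set_option autoImplicit false
set_option linter.unusedSectionVars false
set_option linter.unusedVariables false

namespace Crest.Agent.SRFlow

variable {ι : Type*} [DecidableEq ι]

/-! ### the uniform law on a finite nonempty family of finite sets -/

/-- pattern probabilities of the uniform law on `TT`. -/
noncomputable def up (TT : Finset (Finset ι)) (L S : Finset ι) : ℝ :=
  ((TT.filter fun A => A ∩ L = S).card : ℝ) / TT.card

/-- containment probabilities. -/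
noncomputable def uc (TT : Finset (Finset ι)) (T : Finset ι) : ℝ :=
  ((TT.filter fun A => T ⊆ A).card : ℝ) / TT.card

/-- the family as an `FDD` -/
noncomputable def unifFDD (TT : Finset (Finset ι)) (h : TT.Nonempty) : FDD ι where
  p := up TT
  nonneg := fun L S => by unfold up; positivity
  sum_one := by
    intro L
    unfold up
    have hc : (0:ℝ) < TT.card := by exact_mod_cast h.card_pos
    rw [← Finset.sum_div, div_eq_one_iff_eq hc.ne']
    rw [← Nat.cast_sum]
    congr 1
    symm
    exact Finset.card_eq_sum_card_fiberwise (f := fun A => A ∩ L) (s := TT) (t := L.powerset)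
      (fun A _ => by simp)
  consistent := by
    intro M L hML S hS
    unfold up
    rw [← Finset.sum_div, ← Nat.cast_sum]
    congr 2
    have : TT.filter (fun A => A ∩ M = S) =
        (TT.filter (fun A => A ∩ M = S)).filter (fun A => A ∩ L ∈ L.powerset.filter
          (fun S' => S' ∩ M = S)) := by
      ext A
      simp only [Finset.mem_filter, Finset.mem_powerset]
      constructor
      · rintro ⟨h1, h2⟩
        refine ⟨⟨h1, h2⟩, Finset.inter_subset_right, ?_⟩
        rw [Finset.inter_assoc, Finset.inter_eq_right.2 hML, h2]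
      · rintro ⟨h1, _⟩; exact h1
    rw [Finset.card_eq_sum_card_fiberwise (f := fun A => A ∩ L) (s := TT.filter
      (fun A => A ∩ M = S)) (t := L.powerset.filter (fun S' => S' ∩ M = S)) (fun A hA => by
        have hA' := (Finset.mem_filter.1 hA).2
        simp only [Finset.coe_filter, Finset.mem_powerset, Set.mem_ofPred_eq]
        refine ⟨Finset.inter_subset_right, ?_⟩
        rw [Finset.inter_assoc, Finset.inter_eq_right.2 hML, hA'])]
    refine Finset.sum_congr rfl fun S' hS' => ?_
    congr 1
    ext A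
    simp only [Finset.mem_filter, Finset.mem_powerset] at hS' ⊢
    constructor
    · rintro ⟨⟨h1, h2⟩, h3⟩; exact ⟨h1, h3⟩
    · rintro ⟨h1, h3⟩
      refine ⟨⟨h1, ?_⟩, h3⟩
      rw [← hS'.2, ← h3, Finset.inter_assoc, Finset.inter_eq_right.2 hML]

/-- inclusion-exclusion -/
noncomputable def ie (c : Finset ι → ℝ) (L S : Finset ι) : ℝ :=
  ∑ U ∈ (L \ S).powerset, (-1) ^ U.card * c (S ∪ U)

lemma up_eq_ie (TT : Finset (Finset ι)) {L S : Finset ι} (hS : S ⊆ L) :
    up TT L S = ie (uc TT) L S := by
  unfold up ie uc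
  have h1 : ((TT.filter fun A => A ∩ L = S).card : ℝ) =
      ∑ A ∈ TT, (if S ⊆ A then (1:ℝ) else 0) * ∏ i ∈ L \ S, ((if i ∈ A then -1 else 0) + 1) := by
    rw [Finset.card_filter]
    push_cast
    refine Finset.sum_congr rfl fun A _ => ?_
    by_cases hSA : S ⊆ A
    · rw [if_pos hSA, one_mul]
      by_cases hAL : A ∩ L = S
      · rw [if_pos hAL, Finset.prod_eq_one]
        intro i hi
        rw [Finset.mem_sdiff] at hi
        have : i ∉ A := fun hc => hi.2 (by rw [← hAL]; exact Finset.mem_inter.2 ⟨hc, hi.1⟩)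
        simp [this]
      · rw [if_neg hAL]
        have : ∃ i ∈ L \ S, i ∈ A := by
          by_contra hcon
          push Not at hcon
          apply hAL
          ext i
          rw [Finset.mem_inter]
          constructor
          · rintro ⟨h1, h2⟩
            by_contra h3
            exact hcon i (Finset.mem_sdiff.2 ⟨h2, h3⟩) h1
          · intro h; exact ⟨hSA h, hS h⟩
        obtain ⟨i, hi, hiA⟩ := this
        rw [Finset.prod_eq_zero hi]
        simp [hiA]
    · rw [if_neg hSA, zero_mul, if_neg]
      intro hAL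
      apply hSA
      rw [← hAL]; exact Finset.inter_subset_left
  have h2 : ∀ T : Finset ι, ((TT.filter fun A => T ⊆ A).card : ℝ) =
      ∑ A ∈ TT, (if T ⊆ A then (1:ℝ) else 0) := by
    intro T
    rw [Finset.card_filter]; push_cast; rfl
  rw [h1]
  simp_rw [h2]
  rw [Finset.sum_div]
  have h3 : ∀ A ∈ TT, (if S ⊆ A then (1:ℝ) else 0) * ∏ i ∈ L \ S, ((if i ∈ A then -1 else 0) + 1)
      = ∑ U ∈ (L \ S).powerset, (-1) ^ U.card * (if S ∪ U ⊆ A then 1 else 0) := by
    intro A _
    rw [Finset.prod_add, Finset.mul_sum]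
    refine Finset.sum_congr rfl fun U _ => ?_
    rw [Finset.prod_const_one, mul_one]
    by_cases hU : U ⊆ A
    · have : ∏ i ∈ U, (if i ∈ A then (-1:ℝ) else 0) = (-1) ^ U.card := by
        rw [Finset.prod_congr rfl (fun i hi => if_pos (hU hi)), Finset.prod_const]
      rw [this]
      by_cases hSA : S ⊆ A
      · rw [if_pos hSA, if_pos (Finset.union_subset hSA hU)]; ring
      · rw [if_neg hSA, if_neg (fun hc => hSA (Finset.union_subset_left hc))]; ring
    · have : ∃ i ∈ U, i ∉ A := Finset.not_subset.1 hU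
      obtain ⟨i, hi, hiA⟩ := this
      rw [Finset.prod_eq_zero hi (if_neg hiA),
        if_neg (fun hc => hU (Finset.union_subset_right hc))]
      ring
  rw [← Finset.sum_div, Finset.sum_congr rfl h3, Finset.sum_comm, Finset.sum_div]
  refine Finset.sum_congr rfl fun U _ => ?_
  rw [← Finset.mul_sum]
  ring

lemma up_of_not_subset (TT : Finset (Finset ι)) {L S : Finset ι} (hS : ¬ S ⊆ L) :
    up TT L S = 0 := by
  unfold up
  rw [Finset.filter_eq_empty_iff.2]
  · simp
  · intro A _ h
    apply hS
    rw [← h]; exact Finset.inter_subset_right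

/-- negative correlation + constant size imply the covariance bound -/
theorem unif_covBound (TT : Finset (Finset ι)) (h : TT.Nonempty) (m : ℕ)
    (hcard : ∀ A ∈ TT, A.card = m)
    (hneg : ∀ w : ι → ℝ, (∀ e, 0 < w e) → ∀ e f, e ≠ f →
      (∑ A ∈ TT with e ∈ A ∧ f ∈ A, ∏ a ∈ A, w a) * (∑ A ∈ TT, ∏ a ∈ A, w a)
      ≤ (∑ A ∈ TT with e ∈ A, ∏ a ∈ A, w a) * (∑ A ∈ TT with f ∈ A, ∏ a ∈ A, w a))
    (L : Finset ι) : CovBound 2 (up TT L) L := by
  intro x v hv
  set w : ι → ℝ := fun e => if e ∈ L then Real.exp (x e) else 1 with hw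
  have hw0 : ∀ e, 0 < w e := fun e => by
    simp only [hw]; split_ifs
    · exact Real.exp_pos _
    · exact one_pos
  have hwA : ∀ A : Finset ι, ∏ a ∈ A, w a = Real.exp (∑ u ∈ A ∩ L, x u) := by
    intro A
    simp only [hw]
    rw [Finset.prod_ite, Finset.prod_const_one, mul_one, Real.exp_sum,
      Finset.filter_mem_eq_inter]
  set W : Finset ι → ℝ := fun A => ∏ a ∈ A, w a with hW
  have hW0 : ∀ A, 0 < W A := fun A => Finset.prod_pos fun a _ => hw0 a
  have hc : (0:ℝ) < TT.card := by exact_mod_cast h.card_pos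
  have hN : ∀ B : Finset ι, B ⊆ L → Nf (up TT L) L x B = (∑ A ∈ TT with B ⊆ A, W A) / TT.card := by
    intro B hB
    unfold Nf up
    rw [eq_div_iff hc.ne', Finset.sum_mul]
    have hmaps : ∀ A ∈ TT.filter (fun A => B ⊆ A), A ∩ L ∈ L.powerset.filter (fun S => B ⊆ S) := by
      intro A hA
      rw [Finset.mem_filter] at hA
      rw [Finset.mem_filter, Finset.mem_powerset]
      exact ⟨Finset.inter_subset_right, Finset.subset_inter hA.2 hB⟩
    rw [← Finset.sum_fiberwise_of_maps_to hmaps]
    refine Finset.sum_congr rfl fun S hS => ?_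
    rw [Finset.mem_filter, Finset.mem_powerset] at hS
    have e1 : (TT.filter (fun A => B ⊆ A)).filter (fun A => A ∩ L = S) =
        TT.filter (fun A => A ∩ L = S) := by
      ext A
      simp only [Finset.mem_filter]
      constructor
      · rintro ⟨⟨h1, h2⟩, h3⟩; exact ⟨h1, h3⟩
      · rintro ⟨h1, h3⟩
        refine ⟨⟨h1, ?_⟩, h3⟩
        exact (hS.2.trans (by rw [← h3])).trans Finset.inter_subset_left
    rw [e1]
    have e2 : ∀ A ∈ TT.filter (fun A => A ∩ L = S), W A = Real.exp (∑ u ∈ S, x u) := by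
      intro A hA
      rw [Finset.mem_filter] at hA
      simp only [hW]
      rw [hwA, hA.2]
    rw [Finset.sum_congr rfl e2, Finset.sum_const, nsmul_eq_mul]
    field_simp
  have hZ : Zf (up TT L) L x = (∑ A ∈ TT, W A) / TT.card := by
    have := hN ∅ (by simp)
    unfold Zf
    unfold Nf at this
    simpa using this
  have hwt : Wt (up TT L) L := (unifFDD TT h).wt L
  have hZpos := Zf_pos hwt x
  set Z : ℝ := ∑ A ∈ TT, W A with hZdef
  have hZ0 : 0 < Z := Finset.sum_pos (fun A _ => hW0 A) h
  set E : Finset ι := L ∪ TT.biUnion id with hE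
  set c1 : ι → ℝ := fun u => ∑ A ∈ TT with u ∈ A, W A with hc1
  set c2 : ι → ℝ := fun u => ∑ A ∈ TT with u ∈ A ∧ v ∈ A, W A with hc2
  have hcov : ∀ u ∈ L, cov (up TT L) L x u v = c2 u / Z - (c1 u / Z) * (c1 v / Z) := by
    intro u hu
    unfold cov gibbs
    rw [hN {u, v} (by
        intro i hi
        rw [Finset.mem_insert, Finset.mem_singleton] at hi
        rcases hi with rfl | rfl <;> assumption),
      hN {u} (by simpa using hu), hN {v} (by simpa using hv), hZ]
    simp only [Finset.singleton_subset_iff, Finset.insert_subset_iff, hc1, hc2]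
    field_simp
  have hneg' : ∀ u, u ≠ v → c2 u / Z - (c1 u / Z) * (c1 v / Z) ≤ 0 := by
    intro u huv
    have := hneg w hw0 u v huv
    have h2 : c2 u * Z ≤ c1 u * c1 v := this
    have h3 : c2 u / Z - (c1 u / Z) * (c1 v / Z) = (c2 u * Z - c1 u * c1 v) / Z ^ 2 := by
      field_simp
    rw [h3]
    exact div_nonpos_of_nonpos_of_nonneg (by linarith) (by positivity)
  have hsumE : ∑ u ∈ E, (c2 u / Z - (c1 u / Z) * (c1 v / Z)) = 0 := by
    have s1 : ∀ (f : Finset ι → ℝ), ∑ u ∈ E, ∑ A ∈ TT with u ∈ A, f A = m * ∑ A ∈ TT, f A := by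
      intro f
      have : ∀ u ∈ E, ∑ A ∈ TT with u ∈ A, f A = ∑ A ∈ TT, (if u ∈ A then f A else 0) :=
        fun u _ => Finset.sum_filter _ _
      rw [Finset.sum_congr rfl this, Finset.sum_comm, Finset.mul_sum]
      refine Finset.sum_congr rfl fun A hA => ?_
      rw [← Finset.sum_filter, Finset.sum_const, nsmul_eq_mul]
      congr 2
      rw [← hcard A hA]
      congr 1
      ext i
      simp only [Finset.mem_filter, hE, Finset.mem_union, Finset.mem_biUnion, id]
      constructor
      · rintro ⟨_, h⟩; exact h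
      · intro h; exact ⟨Or.inr ⟨A, hA, h⟩, h⟩
    have s2 : ∑ u ∈ E, c2 u = m * c1 v := by
      have := s1 (fun A => if v ∈ A then W A else 0)
      have e1 : ∀ u ∈ E, ∑ A ∈ TT with u ∈ A, (if v ∈ A then W A else 0) = c2 u := by
        intro u _
        rw [← Finset.sum_filter, Finset.filter_filter]
      rw [Finset.sum_congr rfl e1] at this
      rw [this, ← Finset.sum_filter]
    have s3 : ∑ u ∈ E, c1 u = m * Z := s1 W
    rw [Finset.sum_sub_distrib, ← Finset.sum_div, ← Finset.sum_mul, ← Finset.sum_div, s2, s3]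
    field_simp
    ring
  have hvE : v ∈ E := by
    rw [hE]; exact Finset.mem_union_left _ hv
  have hbound : ∑ u ∈ L.erase v, |cov (up TT L) L x u v| ≤ 1 := by
    calc ∑ u ∈ L.erase v, |cov (up TT L) L x u v|
        = ∑ u ∈ L.erase v, -(c2 u / Z - (c1 u / Z) * (c1 v / Z)) := by
          refine Finset.sum_congr rfl fun u hu => ?_
          rw [Finset.mem_erase] at hu
          rw [hcov u hu.2, abs_of_nonpos (hneg' u hu.1)]
      _ ≤ ∑ u ∈ E.erase v, -(c2 u / Z - (c1 u / Z) * (c1 v / Z)) := by
          refine Finset.sum_le_sum_of_subset_of_nonneg ?_ ?_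
          · intro u hu
            rw [Finset.mem_erase] at hu ⊢
            exact ⟨hu.1, Finset.mem_union_left _ hu.2⟩
          · intro u hu _
            rw [Finset.mem_erase] at hu
            linarith [hneg' u hu.1]
      _ = c2 v / Z - (c1 v / Z) * (c1 v / Z) := by
          rw [Finset.sum_neg_distrib]
          have := Finset.add_sum_erase E (fun u => c2 u / Z - (c1 u / Z) * (c1 v / Z)) hvE
          rw [hsumE] at this
          linarith
      _ = cov (up TT L) L x v v := (hcov v hv).symm
      _ ≤ 1 := (abs_le.1 (cov_abs_le_one hwt x v v)).2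
  rw [← Finset.add_sum_erase L _ hv]
  have := cov_abs_le_one hwt x v v
  linarith

end Crest.Agent.SRFlow
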