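import Mathlib
import Crest.Agent.SRUnif
import Crest.Agent.SREquiv
import Crest.Agent.USTNeg

set_option autoImplicit false
set_option linter.unusedSectionVars false
set_option linter.unusedVariables false

namespace Crest.Agent.SRFlow

open Crest.ProbabilityR.SpanningTrees Crest.Agent.UST Filter Topology

/-- finite connected piece -/
def Piece (G : SimpleGraph ℕ) (K : Finset ℕ) : Prop := (G.induce (K : Set ℕ)).Connected

lemma mem_trees {G : SimpleGraph ℕ} {K : Finset ℕ} {A : Finset (Sym2 ℕ)} :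
    A ∈ trees G K ↔ IsSpanningTreeOn G K A := by
  unfold trees
  simp only [Finset.mem_filter, Finset.mem_powerset]
  exact ⟨fun h => h.2, fun h => ⟨h.1, h⟩⟩

lemma mem_edgesIn {G : SimpleGraph ℕ} {K : Finset ℕ} {e : Sym2 ℕ} :
    e ∈ edgesIn G K ↔ (∀ a ∈ e, a ∈ K) ∧ e ∈ G.edgeSet := by
  unfold edgesIn
  simp only [Finset.mem_filter, Finset.mem_sym2_iff]

lemma edgesIn_mono {G : SimpleGraph ℕ} {K K' : Finset ℕ} (h : K ⊆ K') :
    edgesIn G K ⊆ edgesIn G K' := by
  intro e he
  rw [mem_edgesIn] at he ⊢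
  exact ⟨fun a ha => h (he.1 a ha), he.2⟩

lemma ust_eq_uc (G : SimpleGraph ℕ) (K : Finset ℕ) (F : Finset (Sym2 ℕ)) :
    ustContains G K F = uc (trees G K) F := by
  unfold ustContains uc trees
  classical
  simp only [Finset.filter_filter]
  congr!

lemma uc_nonneg {ι : Type*} [DecidableEq ι] (TT : Finset (Finset ι)) (T : Finset ι) :
    0 ≤ uc TT T := by unfold uc; positivity

lemma uc_le_one {ι : Type*} [DecidableEq ι] (TT : Finset (Finset ι)) (T : Finset ι) :
    uc TT T ≤ 1 := by
  unfold uc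
  refine div_le_one_of_le₀ ?_ (by positivity)
  exact_mod_cast Finset.card_le_card (Finset.filter_subset _ _)

/-- an exhaustion by finite connected pieces -/
structure Exh (G : SimpleGraph ℕ) (K : ℕ → Finset ℕ) : Prop where
  mono : Monotone K
  cover : ∀ v : ℕ, ∃ n, v ∈ K n
  conn : ∀ n, Piece G (K n)

lemma exists_exh {G : SimpleGraph ℕ} (hG : G.Connected) : ∃ K, Exh G K := by
  have hex : ∀ t : Finset ℕ, ∃ t' : Finset ℕ, insert 0 t ⊆ t' ∧ Piece G t' := fun t =>
    SimpleGraph.extend_finset_to_connected hG.preconnected (Finset.insert_nonempty 0 t)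
  choose f hf1 hf2 using hex
  set K : ℕ → Finset ℕ := fun n => Nat.rec (f ∅) (fun n s => f (insert n s)) n with hK
  have hKs : ∀ n, K (n + 1) = f (insert n (K n)) := fun n => rfl
  refine ⟨K, monotone_nat_of_le_succ fun n => ?_, fun v => ⟨v + 1, ?_⟩, fun n => ?_⟩
  · rw [hKs]
    exact (Finset.subset_insert _ _).trans ((Finset.subset_insert _ _).trans (hf1 _))
  · rw [hKs]
    exact hf1 _ (Finset.mem_insert_of_mem (Finset.mem_insert_self _ _))
  · cases n with
    | zero => exact hf2 _
    | succ n => exact hf2 _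

lemma Exh.cover_finset {G : SimpleGraph ℕ} {K : ℕ → Finset ℕ} (h : Exh G K) (S : Finset ℕ) :
    ∃ n, S ⊆ K n := by
  induction S using Finset.induction_on with
  | empty => exact ⟨0, by simp⟩
  | insert a s _ ih =>
    obtain ⟨n, hn⟩ := ih
    obtain ⟨m, hm⟩ := h.cover a
    refine ⟨max n m, ?_⟩
    rw [Finset.insert_subset_iff]
    exact ⟨h.mono (le_max_right _ _) hm, hn.trans (h.mono (le_max_left _ _))⟩

/-- vertices of a finite set of pairs -/
def verts (T : Finset (Sym2 ℕ)) : Finset ℕ := T.biUnion fun e => e.toFinset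

lemma mem_verts {T : Finset (Sym2 ℕ)} {e : Sym2 ℕ} (he : e ∈ T) {a : ℕ} (ha : a ∈ e) :
    a ∈ verts T := by
  unfold verts
  rw [Finset.mem_biUnion]
  exact ⟨e, he, by simpa using ha⟩

lemma Exh.cover_edges {G : SimpleGraph ℕ} {K : ℕ → Finset ℕ} (h : Exh G K)
    (T : Finset (Sym2 ℕ)) : ∃ n, ∀ m, n ≤ m → ∀ e ∈ T, e ∈ G.edgeSet → e ∈ edgesIn G (K m) := by
  obtain ⟨n, hn⟩ := h.cover_finset (verts T)
  refine ⟨n, fun m hm e he heG => ?_⟩
  rw [mem_edgesIn]
  exact ⟨fun a ha => h.mono hm (hn (mem_verts he ha)), heG⟩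

/-- condition for a piece to see all the edges of `T` -/
def Sees (G : SimpleGraph ℕ) (K : Finset ℕ) (T : Finset (Sym2 ℕ)) : Prop :=
  Piece G K ∧ ∀ e ∈ T, e ∈ G.edgeSet → e ∈ edgesIn G K

open Classical in
/-- value of a piece -/
noncomputable def cval (G : SimpleGraph ℕ) (T : Finset (Sym2 ℕ)) (K : Finset ℕ) : ℝ :=
  if Sees G K T then uc (trees G K) T else 1

lemma cval_nonneg (G : SimpleGraph ℕ) (T : Finset (Sym2 ℕ)) (K : Finset ℕ) : 0 ≤ cval G T K := by
  unfold cval; split_ifs
  · exact uc_nonneg _ _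
  · exact zero_le_one

/-- limiting containment probabilities -/
noncomputable def cG (G : SimpleGraph ℕ) (T : Finset (Sym2 ℕ)) : ℝ := ⨅ K : Finset ℕ, cval G T K

lemma cG_le (G : SimpleGraph ℕ) (T : Finset (Sym2 ℕ)) (K : Finset ℕ) : cG G T ≤ cval G T K :=
  ciInf_le ⟨0, by rintro _ ⟨K, rfl⟩; exact cval_nonneg G T K⟩ K

lemma uc_zero_of_not_edge {G : SimpleGraph ℕ} {K : Finset ℕ} {T : Finset (Sym2 ℕ)}
    (h : ¬ (↑T : Set (Sym2 ℕ)) ⊆ G.edgeSet) : uc (trees G K) T = 0 := by
  unfold uc
  rw [Finset.filter_eq_empty_iff.2]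
  · simp
  · intro A hA hTA
    apply h
    intro e he
    rw [mem_trees] at hA
    exact (mem_edgesIn.1 (hA.1 (hTA he))).2

theorem tendsto_cG {G : SimpleGraph ℕ} {K : ℕ → Finset ℕ} (h : Exh G K) (T : Finset (Sym2 ℕ)) :
    Tendsto (fun n => uc (trees G (K n)) T) atTop (𝓝 (cG G T)) := by
  obtain ⟨n0, hn0⟩ := h.cover_edges T
  have hsees : ∀ n, n0 ≤ n → Sees G (K n) T := fun n hn => ⟨h.conn n, hn0 n hn⟩
  have hval : ∀ n, n0 ≤ n → cval G T (K n) = uc (trees G (K n)) T := fun n hn => by
    unfold cval; rw [if_pos (hsees n hn)]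
  by_cases hT : (↑T : Set (Sym2 ℕ)) ⊆ G.edgeSet
  · -- genuine edges
    have hlow : ∀ n, n0 ≤ n → cG G T ≤ uc (trees G (K n)) T := fun n hn => by
      rw [← hval n hn]; exact cG_le G T (K n)
    rw [Metric.tendsto_atTop]
    intro ε hε
    obtain ⟨K', hK'⟩ := exists_lt_of_ciInf_lt (show cG G T < cG G T + ε by linarith)
    have hN : ∃ N, ∀ n, N ≤ n → uc (trees G (K n)) T < cG G T + ε := by
      by_cases hs : Sees G K' T
      · obtain ⟨m, hm⟩ := h.cover_finset K'
        refine ⟨m, fun n hn => lt_of_le_of_lt ?_ hK'⟩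
        unfold cval
        rw [if_pos hs, ← ust_eq_uc, ← ust_eq_uc]
        exact ust_mono G K' (K n) hs.1 (h.conn n) (hm.trans (h.mono hn)) T
          (fun e he => hs.2 e he (hT he))
      · refine ⟨0, fun n _ => lt_of_le_of_lt (uc_le_one _ _) ?_⟩
        unfold cval at hK'
        rw [if_neg hs] at hK'
        exact hK'
    obtain ⟨N, hN⟩ := hN
    refine ⟨max N n0, fun n hn => ?_⟩
    rw [Real.dist_eq, abs_lt]
    have h1 := hN n ((le_max_left _ _).trans hn)
    have h2 := hlow n ((le_max_right _ _).trans hn)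
    constructor <;> linarith
  · have hz : cG G T = 0 := by
      refine le_antisymm ?_ (le_ciInf fun K => cval_nonneg G T K)
      refine (cG_le G T (K n0)).trans ?_
      rw [hval n0 le_rfl, uc_zero_of_not_edge hT]
    rw [hz]
    simp_rw [uc_zero_of_not_edge hT]
    exact tendsto_const_nhds

open Classical in
/-- limiting pattern probabilities -/
noncomputable def pG (G : SimpleGraph ℕ) (L S : Finset (Sym2 ℕ)) : ℝ :=
  if S ⊆ L then ie (cG G) L S else 0

lemma tendsto_up {G : SimpleGraph ℕ} {K : ℕ → Finset ℕ} (h : Exh G K) (L S : Finset (Sym2 ℕ)) :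
    Tendsto (fun n => up (trees G (K n)) L S) atTop (𝓝 (pG G L S)) := by
  unfold pG
  by_cases hS : S ⊆ L
  · rw [if_pos hS]
    simp_rw [up_eq_ie _ hS]
    unfold ie
    refine tendsto_finsetSum _ fun U _ => ?_
    exact (tendsto_cG h _).const_mul _
  · rw [if_neg hS]
    simp_rw [up_of_not_subset _ hS]
    exact tendsto_const_nhds

/-- trivial family -/
noncomputable def trivFDD : FDD (Sym2 ℕ) where
  p := fun L S => if S = ∅ then 1 else 0
  nonneg := fun L S => by split_ifs <;> simp
  sum_one := fun L => by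
    rw [Finset.sum_ite_eq' L.powerset ∅]
    simp
  consistent := by
    intro M L hML S hS
    rw [Finset.sum_ite_eq']
    simp only [Finset.mem_filter, Finset.mem_powerset, Finset.empty_subset, Finset.empty_inter,
      true_and]
    by_cases h : S = ∅
    · simp [h]
    · simp only [h, if_false]
      rw [if_neg]
      exact fun hc => h hc.symm

/-- the FUSF family for a connected graph -/
noncomputable def pGFDD (G : SimpleGraph ℕ) (hG : G.Connected) : FDD (Sym2 ℕ) where
  p := pG G
  nonneg := by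
    intro L S
    obtain ⟨K, hK⟩ := exists_exh hG
    exact ge_of_tendsto' (tendsto_up hK L S) fun n => by unfold up; positivity
  sum_one := by
    intro L
    obtain ⟨K, hK⟩ := exists_exh hG
    have h1 : Tendsto (fun n => ∑ S ∈ L.powerset, up (trees G (K n)) L S) atTop
        (𝓝 (∑ S ∈ L.powerset, pG G L S)) := tendsto_finsetSum _ fun S _ => tendsto_up hK L S
    have h2 : ∀ n, ∑ S ∈ L.powerset, up (trees G (K n)) L S = 1 := fun n =>
      (unifFDD (trees G (K n)) (trees_nonempty G _ (hK.conn n))).sum_one L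
    simp_rw [h2] at h1
    exact tendsto_nhds_unique h1 tendsto_const_nhds
  consistent := by
    intro M L hML S hS
    obtain ⟨K, hK⟩ := exists_exh hG
    have h1 : Tendsto (fun n => ∑ S' ∈ L.powerset with S' ∩ M = S, up (trees G (K n)) L S') atTop
        (𝓝 (∑ S' ∈ L.powerset with S' ∩ M = S, pG G L S')) :=
      tendsto_finsetSum _ fun S _ => tendsto_up hK L S
    have h2 : ∀ n, ∑ S' ∈ L.powerset with S' ∩ M = S, up (trees G (K n)) L S' =
        up (trees G (K n)) M S := fun n =>
      ((unifFDD (trees G (K n)) (trees_nonempty G _ (hK.conn n))).consistent M L hML S hS).symm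
    simp_rw [h2] at h1
    exact tendsto_nhds_unique (tendsto_up hK M S) h1

open Classical in
/-- the FUSF family of an arbitrary graph (trivial if disconnected) -/
noncomputable def PG (G : SimpleGraph ℕ) : FDD (Sym2 ℕ) :=
  if h : G.Connected then pGFDD G h else trivFDD

lemma PG_of_conn {G : SimpleGraph ℕ} (hG : G.Connected) (L S : Finset (Sym2 ℕ)) :
    (PG G).p L S = pG G L S := by
  unfold PG; rw [dif_pos hG]; rfl

lemma PG_of_not_conn {G : SimpleGraph ℕ} (hG : ¬ G.Connected) (L S : Finset (Sym2 ℕ)) :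
    (PG G).p L S = if S = ∅ then 1 else 0 := by
  unfold PG; rw [dif_neg hG]; rfl

lemma PG_support {G : SimpleGraph ℕ} {L S : Finset (Sym2 ℕ)}
    (h : ¬ (↑S : Set (Sym2 ℕ)) ⊆ G.edgeSet) : (PG G).p L S = 0 := by
  by_cases hG : G.Connected
  · rw [PG_of_conn hG]
    obtain ⟨K, hK⟩ := exists_exh hG
    have h1 : ∀ n, up (trees G (K n)) L S = 0 := by
      intro n
      unfold up
      rw [Finset.filter_eq_empty_iff.2]
      · simp
      · intro A hA hAL
        apply h
        intro e he
        rw [mem_trees] at hA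
        rw [← hAL] at he
        exact (mem_edgesIn.1 (hA.1 (Finset.mem_inter.1 he).1)).2
    have h2 := tendsto_up hK L S
    simp_rw [h1] at h2
    exact (tendsto_nhds_unique h2 tendsto_const_nhds)
  · rw [PG_of_not_conn hG, if_neg]
    rintro rfl
    simp at h

/-- containment probability from the family -/
lemma PG_diag {G : SimpleGraph ℕ} (hG : G.Connected) (F : Finset (Sym2 ℕ)) :
    (PG G).p F F = cG G F := by
  rw [PG_of_conn hG]
  unfold pG ie
  simp

/-- covariance bound for the FUSF family -/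
theorem PG_covBound {G : SimpleGraph ℕ} (hG : G.Connected) (L : Finset (Sym2 ℕ)) :
    CovBound 2 ((PG G).p L) L := by
  intro x v hv
  obtain ⟨K, hK⟩ := exists_exh hG
  have hN : ∀ A, Tendsto (fun n => Nf (up (trees G (K n)) L) L x A) atTop
      (𝓝 (Nf ((PG G).p L) L x A)) := by
    intro A
    unfold Nf
    refine tendsto_finsetSum _ fun S _ => ?_
    rw [PG_of_conn hG]
    exact (tendsto_up hK L S).mul_const _
  have hZ : Tendsto (fun n => Zf (up (trees G (K n)) L) L x) atTop
      (𝓝 (Zf ((PG G).p L) L x)) := by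
    unfold Zf
    refine tendsto_finsetSum _ fun S _ => ?_
    rw [PG_of_conn hG]
    exact (tendsto_up hK L S).mul_const _
  have hZ0 := Zf_pos ((PG G).wt L) x
  have hcov : ∀ u, Tendsto (fun n => cov (up (trees G (K n)) L) L x u v) atTop
      (𝓝 (cov ((PG G).p L) L x u v)) := by
    intro u
    unfold cov gibbs
    exact ((hN _).div hZ hZ0.ne').sub (((hN _).div hZ hZ0.ne').mul ((hN _).div hZ hZ0.ne'))
  refine le_of_tendsto' (tendsto_finsetSum L fun u _ => (hcov u).abs) fun n => ?_
  exact unif_covBound (trees G (K n)) (trees_nonempty G _ (hK.conn n)) ((K n).card - 1)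
    (fun A hA => by have := trees_card G (K n) A hA; omega)
    (fun w hw e f hef => neg_corr G (K n) (hK.conn n) w hw e f hef) L x v hv

end Crest.Agent.SRFlow
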