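import Mathlib
import Crest.Agent.SRFusf

set_option autoImplicit false
set_option linter.unusedSectionVars false
set_option linter.unusedVariables false

namespace Crest.Agent.SRFlow

open Crest.ProbabilityR.SpanningTrees Crest.Agent.UST Filter Topology

/-- permutation of pairs induced by a permutation of vertices -/
def e2 (σ : Equiv.Perm ℕ) : Sym2 ℕ ≃ Sym2 ℕ where
  toFun := Sym2.map σ
  invFun := Sym2.map σ.symm
  left_inv := fun x => by rw [Sym2.map_map]; simp
  right_inv := fun x => by rw [Sym2.map_map]; simp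

@[simp] lemma e2_apply (σ : Equiv.Perm ℕ) (x : Sym2 ℕ) : e2 σ x = Sym2.map σ x := rfl

variable (σ : Equiv.Perm ℕ) (G : SimpleGraph ℕ)

lemma edge_comap (x : Sym2 ℕ) : x ∈ (G.comap σ).edgeSet ↔ e2 σ x ∈ G.edgeSet := by
  induction x with
  | _ a b => simp [SimpleGraph.mem_edgeSet]

lemma edgesIn_comap (K : Finset ℕ) (x : Sym2 ℕ) :
    x ∈ edgesIn (G.comap σ) K ↔ e2 σ x ∈ edgesIn G (K.map σ.toEmbedding) := by
  rw [mem_edgesIn, mem_edgesIn, edge_comap]
  induction x with
  | _ a b => simp

/-- induced graph isomorphism -/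
def isoInduce (G₁ G₂ : SimpleGraph ℕ) (h : ∀ a b, G₁.Adj a b ↔ G₂.Adj (σ a) (σ b))
    (K : Finset ℕ) :
    G₁.induce (K : Set ℕ) ≃g G₂.induce ((K.map σ.toEmbedding : Finset ℕ) : Set ℕ) where
  toFun := fun a => ⟨σ a.1, by simp⟩
  invFun := fun b => ⟨σ.symm b.1, by
    have := b.2
    simp only [Finset.coe_map, Equiv.coe_toEmbedding, Set.mem_image] at this
    obtain ⟨c, hc, hcb⟩ := this
    rw [← hcb]; simpa using hc⟩
  left_inv := fun a => by simp
  right_inv := fun a => by simp
  map_rel_iff' := by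
    intro a b
    simp [h]

lemma piece_comap (K : Finset ℕ) : Piece (G.comap σ) K ↔ Piece G (K.map σ.toEmbedding) := by
  unfold Piece
  exact (isoInduce σ (G.comap σ) G (fun a b => Iff.rfl) K).connected_iff

lemma connected_comap : (G.comap σ).Connected ↔ G.Connected := by
  have e : (G.comap σ) ≃g G := ⟨σ, fun {a b} => Iff.rfl⟩
  exact e.connected_iff

lemma isSpanning_comap (K : Finset ℕ) (A : Finset (Sym2 ℕ)) :
    IsSpanningTreeOn (G.comap σ) K A ↔
      IsSpanningTreeOn G (K.map σ.toEmbedding) (A.map (e2 σ).toEmbedding) := by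
  unfold IsSpanningTreeOn
  refine and_congr ?_ ?_
  · constructor
    · intro h x hx
      rw [Finset.mem_map] at hx
      obtain ⟨y, hy, rfl⟩ := hx
      exact (edgesIn_comap σ G K y).1 (h hy)
    · intro h x hx
      exact (edgesIn_comap σ G K x).2 (h (Finset.mem_map_of_mem _ hx))
  · refine SimpleGraph.Iso.isTree_iff (isoInduce σ _ _ (fun a b => ?_) K)
    simp only [SimpleGraph.fromEdgeSet_adj, Finset.mem_coe, Finset.mem_map, ne_eq,
      EmbeddingLike.apply_eq_iff_eq]
    refine and_congr_left fun _ => ?_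
    constructor
    · intro h; exact ⟨s(a, b), h, by simp⟩
    · rintro ⟨y, hy, hyab⟩
      have : y = s(a, b) := by
        apply (e2 σ).injective
        simpa using hyab
      rwa [← this]

lemma uc_comap (K : Finset ℕ) (T : Finset (Sym2 ℕ)) :
    uc (trees (G.comap σ) K) T =
      uc (trees G (K.map σ.toEmbedding)) (T.map (e2 σ).toEmbedding) := by
  have key : ∀ (T : Finset (Sym2 ℕ)),
      ((trees (G.comap σ) K).filter fun A => T ⊆ A).card =
      ((trees G (K.map σ.toEmbedding)).filter fun A => T.map (e2 σ).toEmbedding ⊆ A).card := by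
    intro T
    refine Finset.card_nbij' (fun A => A.map (e2 σ).toEmbedding)
      (fun A => A.map (e2 σ).symm.toEmbedding) ?_ ?_ ?_ ?_
    · intro A hA
      simp only [Finset.coe_filter, Set.mem_ofPred_eq, mem_trees] at hA ⊢
      exact ⟨(isSpanning_comap σ G K A).1 hA.1, Finset.map_subset_map.2 hA.2⟩
    · intro A hA
      simp only [Finset.coe_filter, Set.mem_ofPred_eq, mem_trees] at hA ⊢
      have eA : A = (A.map (e2 σ).symm.toEmbedding).map (e2 σ).toEmbedding := by
        ext i; simp only [Finset.mem_map_equiv, Equiv.symm_symm, Equiv.apply_symm_apply]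
      rw [eA] at hA
      exact ⟨(isSpanning_comap σ G K _).2 hA.1, Finset.map_subset_map.1 hA.2⟩
    · intro A _
      ext i; simp only [Finset.mem_map_equiv, Equiv.symm_symm, Equiv.symm_apply_apply]
    · intro A _
      ext i; simp only [Finset.mem_map_equiv, Equiv.symm_symm, Equiv.apply_symm_apply]
  unfold uc
  rw [key T]
  have h0 := key ∅
  simp only [Finset.empty_subset, Finset.filter_true, Finset.map_empty] at h0
  rw [h0]

lemma sees_comap (K : Finset ℕ) (T : Finset (Sym2 ℕ)) :
    Sees (G.comap σ) K T ↔ Sees G (K.map σ.toEmbedding) (T.map (e2 σ).toEmbedding) := by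
  unfold Sees
  refine and_congr (piece_comap σ G K) ?_
  constructor
  · intro h x hx hxG
    rw [Finset.mem_map] at hx
    obtain ⟨y, hy, rfl⟩ := hx
    exact (edgesIn_comap σ G K y).1 (h y hy ((edge_comap σ G y).2 hxG))
  · intro h x hx hxG
    exact (edgesIn_comap σ G K x).2 (h _ (Finset.mem_map_of_mem _ hx) ((edge_comap σ G x).1 hxG))

lemma cval_comap (K : Finset ℕ) (T : Finset (Sym2 ℕ)) :
    cval (G.comap σ) T K = cval G (T.map (e2 σ).toEmbedding) (K.map σ.toEmbedding) := by
  unfold cval
  by_cases h : Sees (G.comap σ) K T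
  · rw [if_pos h, if_pos ((sees_comap σ G K T).1 h), uc_comap]
  · rw [if_neg h, if_neg (fun hc => h ((sees_comap σ G K T).2 hc))]

lemma cG_comap (T : Finset (Sym2 ℕ)) : cG (G.comap σ) T = cG G (T.map (e2 σ).toEmbedding) := by
  unfold cG
  simp_rw [cval_comap]
  exact (Equiv.finsetCongr σ).iInf_comp (g := fun K => cval G (T.map (e2 σ).toEmbedding) K)

lemma ie_comap (c c' : Finset (Sym2 ℕ) → ℝ) (e : Sym2 ℕ ≃ Sym2 ℕ)
    (h : ∀ T, c' (T.map e.toEmbedding) = c T) (L S : Finset (Sym2 ℕ)) :
    ie c' (L.map e.toEmbedding) (S.map e.toEmbedding) = ie c L S := by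
  unfold ie
  have hsd : L.map e.toEmbedding \ S.map e.toEmbedding = (L \ S).map e.toEmbedding := by
    ext i; simp [Finset.mem_map_equiv]
  rw [hsd, sum_map_powerset]
  refine Finset.sum_congr rfl fun U _ => ?_
  rw [Finset.card_map, ← Finset.map_union, h]

theorem PG_related : Related (PG (G.comap σ)) (PG G) (e2 σ) := by
  intro L S hS
  by_cases hG : G.Connected
  · have hG' : (G.comap σ).Connected := (connected_comap σ G).2 hG
    rw [PG_of_conn hG, PG_of_conn hG']
    unfold pG
    rw [if_pos hS, if_pos (Finset.map_subset_map.2 hS)]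
    exact ie_comap _ _ _ (fun T => (cG_comap σ G T).symm) L S
  · have hG' : ¬ (G.comap σ).Connected := fun h => hG ((connected_comap σ G).1 h)
    rw [PG_of_not_conn hG, PG_of_not_conn hG']
    simp

end Crest.Agent.SRFlow
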