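import Mathlib
import Crest.Agent.SRFusfEquiv
import Crest.Prelude.Def_GraphTables

set_option autoImplicit false
set_option linter.unusedSectionVars false
set_option linter.unusedVariables false

namespace Crest.Agent.SRFlow

open Crest.ProbabilityR.SpanningTrees Crest.Agent.UST Filter Topology MeasureTheory
open Crest.ProbabilityR.GraphTables

/-- tables -/
abbrev Tab := ℕ → ℕ → Bool

lemma adj_table (A : Tab) (i j : ℕ) :
    (graphOfTable A).Adj i j ↔ i ≠ j ∧ (A i j = true ∨ A j i = true) := by
  unfold graphOfTable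
  rw [SimpleGraph.fromRel_adj]

lemma measurableSet_entry (i j : ℕ) : MeasurableSet {A : Tab | A i j = true} := by
  have h : Measurable fun A : Tab => A i j := by fun_prop
  exact h (measurableSet_singleton true)

lemma measurableSet_adj (i j : ℕ) : MeasurableSet {A : Tab | (graphOfTable A).Adj i j} := by
  simp_rw [adj_table]
  exact (MeasurableSet.const _).inter ((measurableSet_entry i j).union (measurableSet_entry j i))

/-- agreement below `N` -/
def Agree (N : ℕ) (G G' : SimpleGraph ℕ) : Prop := ∀ i j, i < N → j < N → (G.Adj i j ↔ G'.Adj i j)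

lemma measurable_of_finDep {α : Type*} [MeasurableSpace α] (N : ℕ) (f : SimpleGraph ℕ → α)
    (hf : ∀ G G', Agree N G G' → f G = f G') : Measurable (fun A : Tab => f (graphOfTable A)) := by
  set r : Tab → (Fin N → Fin N → Bool) := fun A i j => A i j with hr
  set x : (Fin N → Fin N → Bool) → Tab := fun B i j =>
    if h : i < N ∧ j < N then B ⟨i, h.1⟩ ⟨j, h.2⟩ else false with hx
  have e : (fun A : Tab => f (graphOfTable A)) = (fun B => f (graphOfTable (x B))) ∘ r := by
    ext A
    simp only [Function.comp]
    apply hf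
    intro i j hi hj
    rw [adj_table, adj_table]
    simp [hx, hr, hi, hj]
  rw [e]
  have hrm : Measurable r := by
    simp only [hr]
    fun_prop
  exact (measurable_of_finite _).comp hrm

/-- bound on vertices -/
def bnd (K : Finset ℕ) (T : Finset (Sym2 ℕ)) : ℕ := (K ∪ verts T).sup id + 1

lemma lt_bnd_K {K : Finset ℕ} {T : Finset (Sym2 ℕ)} {a : ℕ} (h : a ∈ K) : a < bnd K T := by
  unfold bnd
  have := Finset.le_sup (f := id) (Finset.mem_union_left (verts T) h)
  simp only [id] at this
  omega

lemma lt_bnd_T {K : Finset ℕ} {T : Finset (Sym2 ℕ)} {e : Sym2 ℕ} (he : e ∈ T) {a : ℕ}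
    (h : a ∈ e) : a < bnd K T := by
  unfold bnd
  have := Finset.le_sup (f := id) (Finset.mem_union_right K (mem_verts he h))
  simp only [id] at this
  omega

lemma agree_edge {N : ℕ} {G G' : SimpleGraph ℕ} (h : Agree N G G') {e : Sym2 ℕ}
    (he : ∀ a ∈ e, a < N) : e ∈ G.edgeSet ↔ e ∈ G'.edgeSet := by
  induction e with
  | _ a b =>
    rw [SimpleGraph.mem_edgeSet, SimpleGraph.mem_edgeSet]
    exact h a b (he a (by simp)) (he b (by simp))

lemma agree_edgesIn {N : ℕ} {G G' : SimpleGraph ℕ} (h : Agree N G G') {K : Finset ℕ}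
    (hK : ∀ a ∈ K, a < N) : edgesIn G K = edgesIn G' K := by
  ext e
  rw [mem_edgesIn, mem_edgesIn]
  refine and_congr_right fun he => agree_edge h fun a ha => hK a (he a ha)

lemma agree_induce {N : ℕ} {G G' : SimpleGraph ℕ} (h : Agree N G G') {K : Finset ℕ}
    (hK : ∀ a ∈ K, a < N) : G.induce (K : Set ℕ) = G'.induce (K : Set ℕ) := by
  ext a b
  simp only [SimpleGraph.comap_adj]
  exact h _ _ (hK _ a.2) (hK _ b.2)

lemma agree_trees {N : ℕ} {G G' : SimpleGraph ℕ} (h : Agree N G G') {K : Finset ℕ}
    (hK : ∀ a ∈ K, a < N) : trees G K = trees G' K := by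
  ext A
  rw [mem_trees, mem_trees]
  unfold IsSpanningTreeOn
  rw [agree_edgesIn h hK]

lemma agree_sees {G G' : SimpleGraph ℕ} {K : Finset ℕ} {T : Finset (Sym2 ℕ)}
    (h : Agree (bnd K T) G G') : Sees G K T ↔ Sees G' K T := by
  unfold Sees Piece
  rw [agree_induce h (fun a ha => lt_bnd_K ha), agree_edgesIn h (fun a ha => lt_bnd_K ha)]
  refine and_congr_right fun _ => forall₂_congr fun e he => ?_
  rw [agree_edge h fun a ha => lt_bnd_T he ha]

lemma measurable_cval (T : Finset (Sym2 ℕ)) (K : Finset ℕ) :
    Measurable (fun A : Tab => cval (graphOfTable A) T K) := by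
  refine measurable_of_finDep (bnd K T) (fun G => cval G T K) fun G G' h => ?_
  unfold cval
  rw [agree_trees h (fun a ha => lt_bnd_K ha)]
  by_cases hs : Sees G K T
  · rw [if_pos hs, if_pos ((agree_sees h).1 hs)]
  · rw [if_neg hs, if_neg (fun hc => hs ((agree_sees h).2 hc))]

lemma measurable_cG (T : Finset (Sym2 ℕ)) : Measurable (fun A : Tab => cG (graphOfTable A) T) := by
  unfold cG
  exact Measurable.iInf fun K => measurable_cval T K

lemma measurableSet_piece (K : Finset ℕ) : MeasurableSet {A : Tab | Piece (graphOfTable A) K} := by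
  have := measurable_of_finDep (α := Prop) (bnd K ∅) (fun G => Piece G K) fun G G' h => by
    unfold Piece
    rw [agree_induce h (fun a ha => lt_bnd_K ha)]
  exact measurableSet_setOfPred.2 this

lemma connected_iff_pieces (G : SimpleGraph ℕ) :
    G.Connected ↔ ∀ n, ∃ K : Finset ℕ, Finset.range (n + 1) ⊆ K ∧ Piece G K := by
  constructor
  · intro hG n
    exact SimpleGraph.extend_finset_to_connected hG.preconnected ⟨0, by simp⟩
  · intro h
    rw [SimpleGraph.connected_iff]
    refine ⟨fun a b => ?_, ⟨0⟩⟩
    obtain ⟨K, hK, hP⟩ := h (max a b)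
    have ha : a ∈ (K : Set ℕ) := hK (by simp)
    have hb : b ∈ (K : Set ℕ) := hK (by simp)
    have := hP.preconnected ⟨a, ha⟩ ⟨b, hb⟩
    have h2 := this.map (SimpleGraph.Embedding.induce (G := G) (K : Set ℕ)).toHom
    simpa using h2

lemma measurableSet_connected : MeasurableSet {A : Tab | (graphOfTable A).Connected} := by
  simp_rw [connected_iff_pieces]
  rw [Set.ofPred_forall]
  refine MeasurableSet.iInter fun n => ?_
  rw [Set.ofPred_exists]
  refine MeasurableSet.iUnion fun K => ?_
  exact (MeasurableSet.const _).inter (measurableSet_piece K)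

lemma measurable_pG (L S : Finset (Sym2 ℕ)) :
    Measurable (fun A : Tab => pG (graphOfTable A) L S) := by
  unfold pG
  by_cases h : S ⊆ L
  · simp only [h, if_true]
    unfold ie
    exact Finset.measurable_fun_sum _ fun U _ => (measurable_cG _).const_mul _
  · simp only [h, if_false]
    exact measurable_const

open Classical in
lemma measurable_PG (L S : Finset (Sym2 ℕ)) :
    Measurable (fun A : Tab => (PG (graphOfTable A)).p L S) := by
  have e : (fun A : Tab => (PG (graphOfTable A)).p L S) =
      fun A : Tab => if (graphOfTable A).Connected then pG (graphOfTable A) L S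
        else (if S = ∅ then 1 else 0) := by
    ext A
    by_cases h : (graphOfTable A).Connected
    · rw [if_pos h, PG_of_conn h]
    · rw [if_neg h, PG_of_not_conn h]
  rw [e]
  exact Measurable.ite measurableSet_connected (measurable_pG L S) measurable_const

/-- local finiteness -/
def LF (G : SimpleGraph ℕ) : Prop := ∀ v : ℕ, (G.neighborSet v).Finite

lemma LF_iff (G : SimpleGraph ℕ) : LF G ↔ ∀ v, ∃ N, ∀ w, N ≤ w → ¬ G.Adj v w := by
  unfold LF
  refine forall_congr' fun v => ?_
  constructor
  · intro h
    obtain ⟨N, hN⟩ := h.bddAbove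
    refine ⟨N + 1, fun w hw hadj => ?_⟩
    have := hN (show w ∈ G.neighborSet v from hadj)
    omega
  · rintro ⟨N, hN⟩
    refine (Set.finite_Iio N).subset fun w hw => ?_
    by_contra hcon
    exact hN w (by simpa using hcon) hw

lemma measurableSet_LF : MeasurableSet {A : Tab | LF (graphOfTable A)} := by
  simp_rw [LF_iff]
  rw [Set.ofPred_forall]
  refine MeasurableSet.iInter fun v => ?_
  rw [Set.ofPred_exists]
  refine MeasurableSet.iUnion fun N => ?_
  rw [Set.ofPred_forall]
  refine MeasurableSet.iInter fun w => ?_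
  by_cases h : N ≤ w
  · simp only [h, forall_const]
    exact (measurableSet_adj v w).compl
  · simp [h]

/-- selection from countably many measurable functions -/
lemma measurable_select {α β κ : Type*} [MeasurableSpace α] [MeasurableSpace β] [Countable κ]
    (F : κ → α → β) (hF : ∀ k, Measurable (F k)) (ℓ : α → κ)
    (hℓ : ∀ k, MeasurableSet {a | ℓ a = k}) : Measurable (fun a => F (ℓ a) a) := by
  intro s hs
  have : (fun a => F (ℓ a) a) ⁻¹' s = ⋃ k, ({a | ℓ a = k} ∩ (F k) ⁻¹' s) := by
    ext a
    simp
  rw [this]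
  exact MeasurableSet.iUnion fun k => (hℓ k).inter (hF k hs)

/-! ### parameter measurability of the flow -/

section Param

variable {ι : Type*} [DecidableEq ι] {α : Type*} [MeasurableSpace α]

lemma measurable_gibbs_param {q : α → Finset ι → ℝ} (hq : ∀ S, Measurable fun a => q a S)
    {x : α → ι → ℝ} (hx : Measurable x) (L : Finset ι) (v : ι) :
    Measurable (fun a => gibbs (q a) L (x a) v) := by
  have hx' := fun u => measurable_pi_iff.1 hx u
  unfold gibbs Nf Zf
  refine Measurable.div ?_ ?_
  · refine Finset.measurable_fun_sum _ fun S _ => (hq S).mul ?_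
    exact (Finset.measurable_fun_sum _ fun u _ => hx' u).exp
  · refine Finset.measurable_fun_sum _ fun S _ => (hq S).mul ?_
    exact (Finset.measurable_fun_sum _ fun u _ => hx' u).exp

lemma measurable_eul_param {q : α → Finset ι → ℝ} (hq : ∀ S, Measurable fun a => q a S)
    {x : α → ι → ℝ} (hx : Measurable x) (L : Finset ι) (h : ℝ) (k : ℕ) :
    Measurable (fun a => eul (q a) L h k (x a)) := by
  induction k with
  | zero => exact hx
  | succ k ih =>
    refine measurable_pi_lambda _ fun v => ?_
    have h1 := measurable_pi_iff.1 ih v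
    have h2 : Measurable (fun a => gibbs (q a) L (fld (k * h) (eul (q a) L h k (x a))) v) :=
      measurable_gibbs_param hq (measurable_fld_joint measurable_const ih) L v
    exact h1.add (h2.const_mul h)

lemma measurable_yy_param {P : α → FDD ι} (hP : ∀ L S, Measurable fun a => (P a).p L S)
    {x : α → ι → ℝ} (hx : Measurable x) (L : Finset ι) {T : ℝ} (hT : 0 ≤ T) (v : ι) :
    Measurable (fun a => yy (P a) L T (x a) v) := by
  refine measurable_of_tendsto_metrizable (f := fun (n : ℕ) a =>
    eul ((P a).p L) L (T / (n + 1 : ℕ)) (n + 1) (x a) v) (fun n => measurable_pi_iff.1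
      (measurable_eul_param (hP L) hx L _ _) v) ?_
  rw [tendsto_pi_nhds]
  exact fun a => flow_tendsto ((P a).wt L) hT (x a) v

end Param

end Crest.Agent.SRFlow
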