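import Mathlib
import Crest.Agent.SRFusfMeas

set_option autoImplicit false
set_option linter.unusedSectionVars false
set_option linter.unusedVariables false

namespace Crest.Agent.SRFlow

open Crest.ProbabilityR.SpanningTrees Crest.Agent.UST Filter Topology MeasureTheory
open Crest.ProbabilityR.GraphTables

/-- vertices within distance `n` of the pair `e` -/
def nb (G : SimpleGraph ℕ) (e : Sym2 ℕ) : ℕ → Set ℕ
  | 0 => {a | a ∈ e}
  | n + 1 => nb G e n ∪ {w | ∃ u ∈ nb G e n, G.Adj u w}

lemma nb_mono (G : SimpleGraph ℕ) (e : Sym2 ℕ) : Monotone (nb G e) :=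
  monotone_nat_of_le_succ fun n => Set.subset_union_left

lemma nb_finite {G : SimpleGraph ℕ} (h : LF G) (e : Sym2 ℕ) (n : ℕ) : (nb G e n).Finite := by
  induction n with
  | zero =>
    have : (nb G e 0) = (e.toFinset : Set ℕ) := by
      ext a; simp [nb]
    rw [this]; exact Finset.finite_toSet _
  | succ n ih =>
    refine ih.union ?_
    have : {w | ∃ u ∈ nb G e n, G.Adj u w} = ⋃ u ∈ nb G e n, G.neighborSet u := by
      ext w; simp
    rw [this]
    exact ih.biUnion fun u _ => h u

lemma nb_reach {G : SimpleGraph ℕ} {e : Sym2 ℕ} {a b : ℕ} (ha : a ∈ e) (p : G.Walk a b) :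
    b ∈ nb G e p.length := by
  have key : ∀ (m : ℕ) (a b : ℕ) (p : G.Walk a b), a ∈ nb G e m → b ∈ nb G e (m + p.length) := by
    intro m a b p
    induction p generalizing m with
    | nil => intro h; simpa using h
    | cons hadj p ih =>
      intro h
      have h2 := ih (m + 1) (Or.inr ⟨_, h, hadj⟩)
      simp only [SimpleGraph.Walk.length_cons]
      have : m + (p.length + 1) = m + 1 + p.length := by ring
      rw [this]; exact h2
  simpa using key 0 a b p ha

open Classical in
/-- edges within distance `n` of `e` -/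
noncomputable def lv (G : SimpleGraph ℕ) (e : Sym2 ℕ) (n : ℕ) : Finset (Sym2 ℕ) :=
  if h : {f ∈ G.edgeSet | ∀ a ∈ f, a ∈ nb G e n}.Finite then h.toFinset else ∅

lemma lv_set_finite {G : SimpleGraph ℕ} (h : LF G) (e : Sym2 ℕ) (n : ℕ) :
    {f ∈ G.edgeSet | ∀ a ∈ f, a ∈ nb G e n}.Finite := by
  have hf := nb_finite h e n
  refine (hf.toFinset.sym2.finite_toSet).subset fun f hfm => ?_
  rw [Finset.mem_coe, Finset.mem_sym2_iff]
  intro a ha
  rw [Set.Finite.mem_toFinset]
  exact hfm.2 a ha

lemma mem_lv {G : SimpleGraph ℕ} (h : LF G) (e : Sym2 ℕ) (n : ℕ) (f : Sym2 ℕ) :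
    f ∈ lv G e n ↔ f ∈ G.edgeSet ∧ ∀ a ∈ f, a ∈ nb G e n := by
  unfold lv
  rw [dif_pos (lv_set_finite h e n), Set.Finite.mem_toFinset]
  rfl

lemma lv_subset (G : SimpleGraph ℕ) (e : Sym2 ℕ) (n : ℕ) :
    (↑(lv G e n) : Set (Sym2 ℕ)) ⊆ G.edgeSet := by
  unfold lv
  split_ifs with h
  · intro f hf
    rw [Finset.mem_coe, Set.Finite.mem_toFinset] at hf
    exact hf.1
  · simp

lemma lv_mono {G : SimpleGraph ℕ} (h : LF G) (e : Sym2 ℕ) : Monotone (lv G e) := by
  intro m n hmn f hf
  rw [mem_lv h] at hf ⊢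
  exact ⟨hf.1, fun a ha => nb_mono G e hmn (hf.2 a ha)⟩

/-- levels exhaust the edge set -/
lemma lv_exhaust {G : SimpleGraph ℕ} (hG : G.Connected) (h : LF G) (e : Sym2 ℕ)
    (T : Finset (Sym2 ℕ)) : ∃ n, ∀ m, n ≤ m → ∀ f ∈ T, f ∈ G.edgeSet → f ∈ lv G e m := by
  obtain ⟨a, ha⟩ : ∃ a, a ∈ e := by
    induction e with
    | _ a b => exact ⟨a, by simp⟩
  have hv : ∀ b : ℕ, ∃ n, b ∈ nb G e n := fun b => by
    obtain ⟨p⟩ := hG.preconnected a b
    exact ⟨_, nb_reach ha p⟩
  choose N hN using hv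
  refine ⟨(verts T).sup N, fun m hm f hf hfG => ?_⟩
  rw [mem_lv h]
  refine ⟨hfG, fun b hb => ?_⟩
  exact nb_mono G e ((Finset.le_sup (mem_verts hf hb)).trans hm) (hN b)

/-! ### equivariance -/

lemma nb_comap (σ : Equiv.Perm ℕ) (G : SimpleGraph ℕ) (e : Sym2 ℕ) (n : ℕ) (a : ℕ) :
    a ∈ nb (G.comap σ) e n ↔ σ a ∈ nb G (e2 σ e) n := by
  induction n generalizing a with
  | zero =>
    simp only [nb, Set.mem_ofPred_eq, e2_apply]
    rw [Sym2.mem_map]
    constructor
    · intro h; exact ⟨a, h, rfl⟩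
    · rintro ⟨b, hb, hba⟩
      rw [← σ.injective hba]; exact hb
  | succ n ih =>
    simp only [nb, Set.mem_union, Set.mem_ofPred_eq, ih, SimpleGraph.comap_adj]
    refine or_congr_right ?_
    constructor
    · rintro ⟨u, hu, hadj⟩; exact ⟨σ u, hu, hadj⟩
    · rintro ⟨u, hu, hadj⟩
      exact ⟨σ.symm u, by simpa using hu, by simpa using hadj⟩

lemma LF_comap (σ : Equiv.Perm ℕ) (G : SimpleGraph ℕ) : LF (G.comap σ) ↔ LF G := by
  unfold LF
  have hns : ∀ v, (G.comap σ).neighborSet v = σ ⁻¹' (G.neighborSet (σ v)) := by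
    intro v; ext w; simp
  constructor
  · intro h v
    have := h (σ.symm v)
    rw [hns, Equiv.apply_symm_apply] at this
    have h2 := this.image σ
    rwa [Set.image_preimage_eq _ σ.surjective] at h2
  · intro h v
    rw [hns]
    exact (h (σ v)).preimage σ.injective.injOn

lemma lv_comap (σ : Equiv.Perm ℕ) {G : SimpleGraph ℕ} (h : LF G) (e : Sym2 ℕ) (n : ℕ) :
    lv G (e2 σ e) n = (lv (G.comap σ) e n).map (e2 σ).toEmbedding := by
  have h' : LF (G.comap σ) := (LF_comap σ G).2 h
  ext f
  rw [Finset.mem_map_equiv, mem_lv h, mem_lv h', edge_comap, Equiv.apply_symm_apply]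
  refine and_congr_right fun _ => ?_
  simp_rw [nb_comap]
  constructor
  · intro hf a ha
    apply hf
    have : f = e2 σ ((e2 σ).symm f) := (Equiv.apply_symm_apply _ _).symm
    rw [this, e2_apply, Sym2.mem_map]
    exact ⟨a, ha, rfl⟩
  · intro hf a ha
    have : f = e2 σ ((e2 σ).symm f) := (Equiv.apply_symm_apply _ _).symm
    rw [this, e2_apply, Sym2.mem_map] at ha
    obtain ⟨b, hb, rfl⟩ := ha
    exact hf b hb

/-! ### measurability of levels -/

lemma measurableSet_nb (e : Sym2 ℕ) (n : ℕ) (a : ℕ) :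
    MeasurableSet {A : Tab | a ∈ nb (graphOfTable A) e n} := by
  induction n generalizing a with
  | zero => exact MeasurableSet.const _
  | succ n ih =>
    have : {A : Tab | a ∈ nb (graphOfTable A) e (n + 1)} =
        {A : Tab | a ∈ nb (graphOfTable A) e n} ∪
        ⋃ u : ℕ, ({A : Tab | u ∈ nb (graphOfTable A) e n} ∩
          {A : Tab | (graphOfTable A).Adj u a}) := by
      ext A
      simp only [nb, Set.mem_ofPred_eq, Set.mem_union, Set.mem_iUnion, Set.mem_inter_iff]
    rw [this]
    exact (ih a).union (MeasurableSet.iUnion fun u => (ih u).inter (measurableSet_adj u a))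

lemma measurableSet_edge (f : Sym2 ℕ) : MeasurableSet {A : Tab | f ∈ (graphOfTable A).edgeSet} := by
  induction f with
  | _ a b =>
    simp_rw [SimpleGraph.mem_edgeSet]
    exact measurableSet_adj a b

/-- raw membership -/
def rawlv (G : SimpleGraph ℕ) (e : Sym2 ℕ) (n : ℕ) : Set (Sym2 ℕ) :=
  {f ∈ G.edgeSet | ∀ a ∈ f, a ∈ nb G e n}

lemma measurableSet_rawlv (e : Sym2 ℕ) (n : ℕ) (f : Sym2 ℕ) :
    MeasurableSet {A : Tab | f ∈ rawlv (graphOfTable A) e n} := by
  have : {A : Tab | f ∈ rawlv (graphOfTable A) e n} =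
      {A : Tab | f ∈ (graphOfTable A).edgeSet} ∩
      ⋂ a ∈ f.toFinset, {A : Tab | a ∈ nb (graphOfTable A) e n} := by
    ext A
    simp [rawlv]
  rw [this]
  exact (measurableSet_edge f).inter (Finset.measurableSet_biInter _ fun a _ =>
    measurableSet_nb e n a)

/-- measurability of equality with a fixed finite set, for a measurable random set. -/
lemma measurableSet_eq_finset {α β : Type*} [MeasurableSpace α] [Countable β] {W : α → Set β}
    (hW : ∀ b, MeasurableSet {a | b ∈ W a}) (T : Finset β) : MeasurableSet {a | W a = ↑T} := by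
  have : {a | W a = ↑T} = ⋂ b, {a | b ∈ W a ↔ b ∈ T} := by
    ext a
    simp only [Set.mem_ofPred_eq, Set.mem_iInter, Set.ext_iff, Finset.mem_coe]
  rw [this]
  refine MeasurableSet.iInter fun b => ?_
  by_cases hb : b ∈ T
  · simpa [hb] using hW b
  · simp only [hb, iff_false]
    exact (hW b).compl

lemma measurableSet_lv (e : Sym2 ℕ) (n : ℕ) (L : Finset (Sym2 ℕ)) :
    MeasurableSet {A : Tab | lv (graphOfTable A) e n = L} := by
  have hfin : MeasurableSet {A : Tab | (rawlv (graphOfTable A) e n).Finite} := by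
    have : {A : Tab | (rawlv (graphOfTable A) e n).Finite} =
        ⋃ T : Finset (Sym2 ℕ), {A : Tab | rawlv (graphOfTable A) e n = ↑T} := by
      ext A
      simp only [Set.mem_ofPred_eq, Set.mem_iUnion]
      constructor
      · intro h; exact ⟨h.toFinset, by simp⟩
      · rintro ⟨T, hT⟩; rw [hT]; exact T.finite_toSet
    rw [this]
    exact MeasurableSet.iUnion fun T => measurableSet_eq_finset (measurableSet_rawlv e n) T
  have heq := measurableSet_eq_finset (measurableSet_rawlv e n) L
  have : {A : Tab | lv (graphOfTable A) e n = L} =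
      {A : Tab | rawlv (graphOfTable A) e n = ↑L} ∪
      ({A : Tab | (rawlv (graphOfTable A) e n).Finite}ᶜ ∩ {A : Tab | L = ∅}) := by
    ext A
    simp only [Set.mem_ofPred_eq, Set.mem_union, Set.mem_inter_iff, Set.mem_compl_iff]
    unfold lv
    by_cases h : {f ∈ (graphOfTable A).edgeSet | ∀ a ∈ f, a ∈ nb (graphOfTable A) e n}.Finite
    · rw [dif_pos h]
      have h' : (rawlv (graphOfTable A) e n).Finite := h
      constructor
      · intro hL
        left
        rw [← hL]
        simp [rawlv]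
      · rintro (h1 | ⟨h1, _⟩)
        · rw [← Finset.coe_inj, ← h1]
          simp [rawlv]
        · exact absurd h' h1
    · rw [dif_neg h]
      have h' : ¬ (rawlv (graphOfTable A) e n).Finite := h
      constructor
      · intro hL; right; exact ⟨h', hL.symm⟩
      · rintro (h1 | ⟨_, h2⟩)
        · exact absurd (by rw [h1]; exact L.finite_toSet) h'
        · exact h2.symm
  rw [this]
  exact heq.union (hfin.compl.inter (MeasurableSet.const _))

end Crest.Agent.SRFlow
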