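import Mathlib
import Crest.Agent.SRFusfLevel

set_option autoImplicit false
set_option linter.unusedSectionVars false
set_option linter.unusedVariables false

namespace Crest.Agent.SRFlow

open Crest.ProbabilityR.SpanningTrees Crest.Agent.UST Filter Topology MeasureTheory
open Crest.ProbabilityR.GraphTables

section Support

variable {ι : Type*} [DecidableEq ι]

/-- support condition -/
def Supp (P : FDD ι) (E : Set ι) : Prop := ∀ L S : Finset ι, ¬ (↑S : Set ι) ⊆ E → P.p L S = 0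

open Classical in
/-- the part of `L` in `E` -/
noncomputable def cut (E : Set ι) (L : Finset ι) : Finset ι := L.filter (· ∈ E)

lemma mem_cut {E : Set ι} {L : Finset ι} {i : ι} : i ∈ cut E L ↔ i ∈ L ∧ i ∈ E := by
  unfold cut; simp

lemma cut_subset (E : Set ι) (L : Finset ι) : cut E L ⊆ L := fun i hi => (mem_cut.1 hi).1

lemma supp_p {P : FDD ι} {E : Set ι} (h : Supp P E) {L S : Finset ι} (hS : S ⊆ cut E L) :
    P.p (cut E L) S = P.p L S := by
  rw [P.consistent (cut E L) L (cut_subset E L) S hS]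
  rw [Finset.sum_eq_single S]
  · intro S' hS' hne
    rw [Finset.mem_filter, Finset.mem_powerset] at hS'
    apply h
    intro hE
    apply hne
    rw [← hS'.2]
    symm
    rw [Finset.inter_eq_left]
    intro i hi
    exact mem_cut.2 ⟨hS'.1 hi, hE hi⟩
  · intro hnot
    exfalso; apply hnot
    rw [Finset.mem_filter, Finset.mem_powerset]
    exact ⟨hS.trans (cut_subset E L), Finset.inter_eq_left.2 hS⟩

lemma supp_sum {P : FDD ι} {E : Set ι} (h : Supp P E) (L : Finset ι) (f : Finset ι → ℝ) :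
    ∑ S ∈ L.powerset, P.p L S * f S = ∑ S ∈ (cut E L).powerset, P.p (cut E L) S * f S := by
  rw [← Finset.sum_subset (Finset.powerset_mono.2 (cut_subset E L))]
  · refine Finset.sum_congr rfl fun S hS => ?_
    rw [supp_p h (Finset.mem_powerset.1 hS)]
  · intro S hS hS'
    rw [Finset.mem_powerset] at hS hS'
    have : ¬ (↑S : Set ι) ⊆ E := fun hE => hS' fun i hi => mem_cut.2 ⟨hS hi, hE hi⟩
    rw [h L S this, zero_mul]

lemma gibbs_cut {P : FDD ι} {E : Set ι} (h : Supp P E) (L : Finset ι) (x : ι → ℝ) (v : ι) :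
    gibbs (P.p L) L x v = gibbs (P.p (cut E L)) (cut E L) x v := by
  unfold gibbs Nf Zf
  rw [supp_sum h L (fun S => Real.exp (∑ u ∈ S, x u)), Finset.sum_filter, Finset.sum_filter]
  have e1 : ∀ (L : Finset ι), ∑ S ∈ L.powerset, (if {v} ⊆ S then
      P.p L S * Real.exp (∑ u ∈ S, x u) else 0) =
      ∑ S ∈ L.powerset, P.p L S * (if {v} ⊆ S then Real.exp (∑ u ∈ S, x u) else 0) := by
    intro L
    refine Finset.sum_congr rfl fun S _ => ?_
    split_ifs <;> simp
  rw [e1, e1, supp_sum h L (fun S => if {v} ⊆ S then Real.exp (∑ u ∈ S, x u) else 0)]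

lemma eul_cut {P : FDD ι} {E : Set ι} (h : Supp P E) (L : Finset ι) (η : ℝ) (k : ℕ)
    (x : ι → ℝ) : eul (P.p L) L η k x = eul (P.p (cut E L)) (cut E L) η k x := by
  induction k with
  | zero => rfl
  | succ k ih =>
    ext v
    simp only [eul, eStep]
    rw [ih, gibbs_cut h]

lemma yy_cut {P : FDD ι} {E : Set ι} (h : Supp P E) (L : Finset ι) (s : ℝ) (x : ι → ℝ) (v : ι) :
    yy P L s x v = yy P (cut E L) s x v := by
  unfold yy flow
  simp_rw [eul_cut h L]

lemma yy_same {P : FDD ι} {E : Set ι} (h : Supp P E) {L L' : Finset ι}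
    (hL : ∀ f, f ∈ E → (f ∈ L ↔ f ∈ L')) (s : ℝ) (x : ι → ℝ) (v : ι) :
    yy P L s x v = yy P L' s x v := by
  rw [yy_cut h L, yy_cut h L']
  have : cut E L = cut E L' := by
    ext f
    rw [mem_cut, mem_cut]
    constructor
    · rintro ⟨h1, h2⟩; exact ⟨(hL f h2).1 h1, h2⟩
    · rintro ⟨h1, h2⟩; exact ⟨(hL f h2).2 h1, h2⟩
  rw [this]

lemma eul_dep {q : Finset ι → ℝ} {L : Finset ι} {g g' : ι → ℝ} (hL : ∀ u ∈ L, g u = g' u)
    (η : ℝ) (k : ℕ) (v : ι) (hv : g v = g' v) : eul q L η k g v = eul q L η k g' v := by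
  induction k generalizing v with
  | zero => exact hv
  | succ k ih =>
    simp only [eul, eStep]
    rw [ih v hv]
    congr 2
    refine gibbs_congr (fun u hu => ?_) v
    unfold fld
    rw [ih u (hL u hu)]

lemma yy_dep {P : FDD ι} {L : Finset ι} {g g' : ι → ℝ} (hL : ∀ u ∈ L, g u = g' u)
    (s : ℝ) (v : ι) (hv : g v = g' v) : yy P L s g v = yy P L s g' v := by
  unfold yy flow
  simp_rw [eul_dep hL _ _ v hv]

lemma Phi_dep {P : FDD ι} {E : Set ι} {Lam : ℕ → ι → Finset ι}
    (hLam : ∀ k v, (↑(Lam k v) : Set ι) ⊆ E) {g g' : ι → ℝ} (hg : ∀ u ∈ E, g u = g' u)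
    {v : ι} (hv : v ∈ E) : Phi P Lam g v = Phi P Lam g' v := by
  have : (Phi P Lam g v = true) ↔ (Phi P Lam g' v = true) := by
    rw [Phi_iff, Phi_iff]
    unfold decP
    have : ∀ k : ℕ, yy P (Lam k v) k g v = yy P (Lam k v) k g' v := fun k =>
      yy_dep (fun u hu => hg u (hLam k v hu)) k v (hg v hv)
    simp_rw [this]
  exact Bool.eq_iff_iff.2 this

end Support

lemma PG_supp (G : SimpleGraph ℕ) : Supp (PG G) G.edgeSet := fun L S h => PG_support h

/-- discrepancy between levels -/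
noncomputable def JJ (G : SimpleGraph ℕ) (k : ℕ) (e : Sym2 ℕ) (n m : ℕ) : ℝ :=
  ∫ g, |yy (PG G) (lv G e n) k g e - yy (PG G) (lv G e m) k g e| ∂(gam (Sym2 ℕ))

/-- admissible level indices -/
def okIdx (G : SimpleGraph ℕ) (k : ℕ) (e : Sym2 ℕ) : Set ℕ :=
  {n | ∀ m, n ≤ m → JJ G k e n m ≤ (1 / 2) ^ (k + 1)}

/-- canonical level index -/
noncomputable def idx (G : SimpleGraph ℕ) (k : ℕ) (e : Sym2 ℕ) : ℕ := sInf (okIdx G k e)

/-- canonical levels -/
noncomputable def LamG (G : SimpleGraph ℕ) (k : ℕ) (e : Sym2 ℕ) : Finset (Sym2 ℕ) :=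
  lv G e (idx G k e)

lemma yy_lv_union {G : SimpleGraph ℕ} {e : Sym2 ℕ} {m : ℕ} {M0 : Finset (Sym2 ℕ)}
    (hm : ∀ f ∈ M0, f ∈ G.edgeSet → f ∈ lv G e m) (s : ℝ) (g : Sym2 ℕ → ℝ) :
    yy (PG G) (lv G e m) s g e = yy (PG G) (lv G e m ∪ M0) s g e := by
  refine yy_same (PG_supp G) (fun f hf => ?_) s g e
  rw [Finset.mem_union]
  constructor
  · intro h; exact Or.inl h
  · rintro (h | h)
    · exact h
    · exact hm f h hf

lemma cauchy_PG {G : SimpleGraph ℕ} (hG : G.Connected) (k : ℕ) (e : Sym2 ℕ) :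
    ∃ M0 : Finset (Sym2 ℕ), ∀ L L', M0 ⊆ L → M0 ⊆ L' →
      ∫ g, |yy (PG G) L k g e - yy (PG G) L' k g e| ∂(gam (Sym2 ℕ)) ≤ (1 / 2) ^ (k + 1) :=
  cauchy (PG G) (C := 2) (by norm_num) (fun L => PG_covBound hG L) (Nat.cast_nonneg k) e
    (by positivity)

lemma okIdx_nonempty {G : SimpleGraph ℕ} (hG : G.Connected) (h : LF G) (k : ℕ) (e : Sym2 ℕ) :
    (okIdx G k e).Nonempty := by
  obtain ⟨M0, hM0⟩ := cauchy_PG hG k e
  obtain ⟨n, hn⟩ := lv_exhaust hG h e M0
  refine ⟨n, fun m hm => ?_⟩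
  unfold JJ
  simp_rw [yy_lv_union (hn n le_rfl), yy_lv_union (hn m hm)]
  exact hM0 _ _ Finset.subset_union_right Finset.subset_union_right

theorem good_PG {G : SimpleGraph ℕ} (hG : G.Connected) (h : LF G) : Good (PG G) (LamG G) := by
  intro k v
  obtain ⟨M0, hM0⟩ := cauchy_PG hG k v
  obtain ⟨n, hn⟩ := lv_exhaust hG h v M0
  have hidx : idx G k v ∈ okIdx G k v := Nat.sInf_mem (okIdx_nonempty hG h k v)
  filter_upwards [eventually_ge_atTop M0] with L hL
  set m := max n (idx G k v) with hm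
  have h1 : ∫ g, |yy (PG G) (LamG G k v) k g v - yy (PG G) (lv G v m) k g v| ∂(gam (Sym2 ℕ)) ≤
      (1 / 2) ^ (k + 1) := hidx m (le_max_right _ _)
  have h2 : ∫ g, |yy (PG G) (lv G v m) k g v - yy (PG G) L k g v| ∂(gam (Sym2 ℕ)) ≤
      (1 / 2) ^ (k + 1) := by
    simp_rw [yy_lv_union (hn m (le_max_left _ _))]
    exact hM0 _ _ Finset.subset_union_right hL
  have i1 := integrable_yy_diff (PG G) (R := (k : ℝ)) (Nat.cast_nonneg k) (LamG G k v) L v
  have i2 := integrable_yy_diff (PG G) (R := (k : ℝ)) (Nat.cast_nonneg k) (LamG G k v)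
    (lv G v m) v
  have i3 := integrable_yy_diff (PG G) (R := (k : ℝ)) (Nat.cast_nonneg k) (lv G v m) L v
  calc _ ≤ ∫ g, (|yy (PG G) (LamG G k v) k g v - yy (PG G) (lv G v m) k g v| +
        |yy (PG G) (lv G v m) k g v - yy (PG G) L k g v|) ∂(gam (Sym2 ℕ)) :=
        integral_mono i1 (i2.add i3) fun g => abs_sub_le _ _ _
    _ = _ := integral_add i2 i3
    _ ≤ (1 / 2) ^ (k + 1) + (1 / 2) ^ (k + 1) := add_le_add h1 h2
    _ = (1 / 2) ^ k := by rw [pow_succ]; ring

/-! ### equivariance -/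

lemma JJ_comap (σ : Equiv.Perm ℕ) {G : SimpleGraph ℕ} (h : LF G) (k : ℕ) (e : Sym2 ℕ)
    (n m : ℕ) : JJ G k (e2 σ e) n m = JJ (G.comap σ) k e n m := by
  unfold JJ
  rw [lv_comap σ h, lv_comap σ h]
  exact integral_yy_equiv (PG_related σ G) _ _ (Nat.cast_nonneg k) e

lemma idx_comap (σ : Equiv.Perm ℕ) {G : SimpleGraph ℕ} (h : LF G) (k : ℕ) (e : Sym2 ℕ) :
    idx G k (e2 σ e) = idx (G.comap σ) k e := by
  unfold idx okIdx
  simp_rw [JJ_comap σ h]

lemma LamG_comap (σ : Equiv.Perm ℕ) {G : SimpleGraph ℕ} (h : LF G) (k : ℕ) (e : Sym2 ℕ) :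
    LamG G k (e2 σ e) = (LamG (G.comap σ) k e).map (e2 σ).toEmbedding := by
  unfold LamG
  rw [idx_comap σ h, lv_comap σ h]

theorem Phi_comap (σ : Equiv.Perm ℕ) {G : SimpleGraph ℕ} (h : LF G) (y : Sym2 ℕ → ℝ)
    (e : Sym2 ℕ) : Phi (PG G) (LamG G) y (e2 σ e) =
      Phi (PG (G.comap σ)) (LamG (G.comap σ)) (fun u => y (e2 σ u)) e :=
  Phi_equiv (PG_related σ G) (fun k v => LamG_comap σ h k v) y e

/-! ### measurability -/

lemma measurable_yy_sel (k : ℕ) (e : Sym2 ℕ) {β : Type*} [MeasurableSpace β]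
    (A : β → Tab) (hA : Measurable A) (g : β → Sym2 ℕ → ℝ) (hg : Measurable g)
    (ℓ : β → Finset (Sym2 ℕ)) (hℓ : ∀ L, MeasurableSet {b | ℓ b = L}) :
    Measurable (fun b => yy (PG (graphOfTable (A b))) (ℓ b) k (g b) e) := by
  refine measurable_select (fun L b => yy (PG (graphOfTable (A b))) L k (g b) e) (fun L => ?_) ℓ hℓ
  exact measurable_yy_param (P := fun b => PG (graphOfTable (A b)))
    (fun L S => (measurable_PG L S).comp hA) hg L (Nat.cast_nonneg k) e

lemma measurable_JJ (k : ℕ) (e : Sym2 ℕ) (n m : ℕ) :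
    Measurable (fun A : Tab => JJ (graphOfTable A) k e n m) := by
  unfold JJ
  have h1 : ∀ n, Measurable (fun b : Tab × (Sym2 ℕ → ℝ) =>
      yy (PG (graphOfTable b.1)) (lv (graphOfTable b.1) e n) k b.2 e) := fun n =>
    measurable_yy_sel k e Prod.fst measurable_fst Prod.snd measurable_snd
      (fun b => lv (graphOfTable b.1) e n) (fun L => measurable_fst (measurableSet_lv e n L))
  have : StronglyMeasurable (fun b : Tab × (Sym2 ℕ → ℝ) =>
      |yy (PG (graphOfTable b.1)) (lv (graphOfTable b.1) e n) k b.2 e -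
        yy (PG (graphOfTable b.1)) (lv (graphOfTable b.1) e m) k b.2 e|) :=
    ((h1 n).sub (h1 m)).norm.stronglyMeasurable
  exact (this.integral_prod_right' (ν := gam (Sym2 ℕ))).measurable

lemma measurableSet_okIdx (k : ℕ) (e : Sym2 ℕ) (n : ℕ) :
    MeasurableSet {A : Tab | n ∈ okIdx (graphOfTable A) k e} := by
  unfold okIdx
  simp only [Set.mem_ofPred_eq]
  rw [Set.ofPred_forall]
  refine MeasurableSet.iInter fun m => ?_
  by_cases h : n ≤ m
  · simp only [h, forall_const]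
    exact measurableSet_le (measurable_JJ k e n m) measurable_const
  · simp [h]

lemma measurableSet_sInf {α : Type*} [MeasurableSpace α] (S : α → Set ℕ)
    (hS : ∀ n, MeasurableSet {a | n ∈ S a}) (n : ℕ) : MeasurableSet {a | sInf (S a) = n} := by
  have : {a | sInf (S a) = n} =
      ({a | n ∈ S a} ∩ ⋂ j : ℕ, {a | j < n → j ∉ S a}) ∪
      ({a | n = 0} ∩ ⋂ j : ℕ, {a | j ∉ S a}) := by
    ext a
    simp only [Set.mem_ofPred_eq, Set.mem_union, Set.mem_inter_iff, Set.mem_iInter]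
    constructor
    · intro h
      by_cases hne : (S a).Nonempty
      · left
        rw [← h]
        exact ⟨Nat.sInf_mem hne, fun j hj => Nat.notMem_of_lt_sInf hj⟩
      · right
        rw [Set.not_nonempty_iff_eq_empty] at hne
        rw [hne] at h ⊢
        simp at h
        exact ⟨h.symm, by simp⟩
    · rintro (⟨h1, h2⟩ | ⟨h1, h2⟩)
      · refine le_antisymm (Nat.sInf_le h1) ?_
        by_contra hlt
        push Not at hlt
        exact h2 _ hlt (Nat.sInf_mem ⟨n, h1⟩)
      · have : S a = ∅ := by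
          ext j; simp [h2 j]
        rw [this]; simp [h1]
  rw [this]
  refine ((hS n).inter (MeasurableSet.iInter fun j => ?_)).union
    ((MeasurableSet.const _).inter (MeasurableSet.iInter fun j => (hS j).compl))
  by_cases hj : j < n
  · simp only [hj, forall_const]; exact (hS j).compl
  · simp [hj]

lemma measurableSet_LamG (k : ℕ) (e : Sym2 ℕ) (L : Finset (Sym2 ℕ)) :
    MeasurableSet {A : Tab | LamG (graphOfTable A) k e = L} := by
  have : {A : Tab | LamG (graphOfTable A) k e = L} =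
      ⋃ n : ℕ, ({A : Tab | idx (graphOfTable A) k e = n} ∩
        {A : Tab | lv (graphOfTable A) e n = L}) := by
    ext A
    simp [LamG]
  rw [this]
  exact MeasurableSet.iUnion fun n =>
    (measurableSet_sInf _ (measurableSet_okIdx k e) n).inter (measurableSet_lv e n L)

theorem measurableSet_Phi {β : Type*} [MeasurableSpace β]
    (A : β → Tab) (hA : Measurable A) (g : β → Sym2 ℕ → ℝ) (hg : Measurable g) (e : Sym2 ℕ) :
    MeasurableSet {b | Phi (PG (graphOfTable (A b))) (LamG (graphOfTable (A b))) (g b) e = true} := by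
  have hset : ∀ k : ℕ, MeasurableSet {b | decP (PG (graphOfTable (A b)))
      (LamG (graphOfTable (A b))) k e (g b)} := by
    intro k
    refine measurableSet_lt measurable_const ?_
    exact measurable_yy_sel k e A hA g hg (fun b => LamG (graphOfTable (A b)) k e)
      (fun L => hA (measurableSet_LamG k e L))
  have h := MeasurableSet.measurableSet_limsup hset
  have : {b | Phi (PG (graphOfTable (A b))) (LamG (graphOfTable (A b))) (g b) e = true} =
      limsup (fun k => {b | decP (PG (graphOfTable (A b)))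
      (LamG (graphOfTable (A b))) k e (g b)}) atTop := by
    ext b
    rw [mem_limsup_iff_frequently_mem]
    exact Phi_iff _ _ _ _
  rw [this]; exact h

end Crest.Agent.SRFlow
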