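import Mathlib
import Crest.Agent.SRFusfPhi
import Crest.Prelude.Def_Labels

set_option autoImplicit false
set_option linter.unusedSectionVars false
set_option linter.unusedVariables false

namespace Crest.Agent.SRFlow

open Crest.ProbabilityR.SpanningTrees Crest.Agent.UST Filter Topology MeasureTheory
open Crest.ProbabilityR.GraphTables Crest.ProbabilityR.Labels ProbabilityTheory

/-- canonical edge labels -/
structure LabData where
  lab : SimpleGraph ℕ → (ℕ → unitInterval) → (Sym2 ℕ → ℝ)
  meas : Measurable (fun p : Tab × (ℕ → unitInterval) => lab (graphOfTable p.1) p.2)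
  equiv : ∀ (σ : Equiv.Perm ℕ) (G : SimpleGraph ℕ) (x : ℕ → unitInterval),
    lab (G.comap σ) (x ∘ σ) = lab G x ∘ Sym2.map σ
  law : ∀ G : SimpleGraph ℕ, LF G → (labelMeasure ℕ).map (fun x => G.edgeSet.domRestrict (lab G x)) =
    Measure.infinitePi (fun _ : G.edgeSet => gaussianReal 0 1)

/-- nice graphs -/
def Nice (G : SimpleGraph ℕ) : Prop := G.Connected ∧ LF G

lemma nice_comap (σ : Equiv.Perm ℕ) (G : SimpleGraph ℕ) : Nice (G.comap σ) ↔ Nice G :=
  and_congr (connected_comap σ G) (LF_comap σ G)

open Classical in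
/-- the factor map of S0254 -/
noncomputable def factor (D : LabData) (G : SimpleGraph ℕ) (x : ℕ → unitInterval)
    (e : Sym2 ℕ) : Bool :=
  if Nice G then Phi (PG G) (LamG G) (D.lab G x) e else false

/-- every graph is the graph of its table -/
lemma graphOfTable_tableOf (G : SimpleGraph ℕ) : graphOfTable (tableOf G) = G := by
  ext i j
  rw [adj_table]
  simp only [tableOf, decide_eq_true_eq]
  constructor
  · rintro ⟨_, h | h⟩
    · exact h
    · exact h.symm
  · intro h
    exact ⟨h.ne, Or.inl h⟩

lemma LabData.meas_fixed (D : LabData) (G : SimpleGraph ℕ) : Measurable (D.lab G) := by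
  have := D.meas.comp (measurable_const (a := tableOf G) |>.prodMk measurable_id)
  rw [← graphOfTable_tableOf G]
  exact this

lemma measurable_factor (D : LabData) :
    Measurable (fun p : Tab × (ℕ → unitInterval) => factor D (graphOfTable p.1) p.2) := by
  refine measurable_pi_lambda _ fun e => measurable_to_bool ?_
  have hnice : MeasurableSet {p : Tab × (ℕ → unitInterval) | Nice (graphOfTable p.1)} :=
    measurable_fst (measurableSet_connected.inter measurableSet_LF)
  have hPhi := measurableSet_Phi (β := Tab × (ℕ → unitInterval)) Prod.fst measurable_fst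
    (fun p => D.lab (graphOfTable p.1) p.2) D.meas e
  have : (fun p : Tab × (ℕ → unitInterval) => factor D (graphOfTable p.1) p.2 e) ⁻¹' {true} =
      {p | Nice (graphOfTable p.1)} ∩ {p | Phi (PG (graphOfTable p.1)) (LamG (graphOfTable p.1))
        (D.lab (graphOfTable p.1) p.2) e = true} := by
    ext p
    simp only [Set.mem_preimage, Set.mem_singleton_iff, Set.mem_inter_iff, Set.mem_ofPred_eq]
    unfold factor
    by_cases h : Nice (graphOfTable p.1)
    · simp [h]
    · simp [h]
  rw [this]
  exact hnice.inter hPhi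

lemma factor_comap (D : LabData) (σ : Equiv.Perm ℕ) (G : SimpleGraph ℕ) (x : ℕ → unitInterval) :
    factor D (G.comap σ) (x ∘ σ) = factor D G x ∘ Sym2.map σ := by
  ext e
  simp only [Function.comp]
  unfold factor
  by_cases h : Nice G
  · rw [if_pos h, if_pos ((nice_comap σ G).2 h)]
    have := Phi_comap σ h.2 (D.lab G x) e
    rw [e2_apply] at this
    rw [this]
    congr 1
    have h2 := D.equiv σ G x
    exact h2
  · rw [if_neg h, if_neg (fun hc => h ((nice_comap σ G).1 hc))]

open Classical in
/-- extension by zero -/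
noncomputable def extE (E : Set (Sym2 ℕ)) (h : E → ℝ) : Sym2 ℕ → ℝ :=
  fun i => if hi : i ∈ E then h ⟨i, hi⟩ else 0

lemma measurable_extE (E : Set (Sym2 ℕ)) : Measurable (extE E) := by
  refine measurable_pi_lambda _ fun i => ?_
  unfold extE
  by_cases hi : i ∈ E
  · simp only [hi, dif_pos]
    exact measurable_pi_apply _
  · simp only [hi, dif_neg, not_false_eq_true]
    exact measurable_const

theorem factor_law (D : LabData) {G : SimpleGraph ℕ} (hG : Nice G) (F : Finset (Sym2 ℕ))
    (hF : (↑F : Set (Sym2 ℕ)) ⊆ G.edgeSet) :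
    ((labelMeasure ℕ).map (factor D G) {ω | ∀ e ∈ F, ω e = true}).toReal = cG G F := by
  set E := G.edgeSet with hE
  have hprob : IsProbabilityMeasure (labelMeasure ℕ) := by
    unfold labelMeasure; infer_instance
  have hfm : Measurable (factor D G) := by
    have := (measurable_factor D).comp (measurable_const (a := tableOf G) |>.prodMk measurable_id)
    rw [← graphOfTable_tableOf G]
    exact this
  have hms : MeasurableSet {ω : Sym2 ℕ → Bool | ∀ e ∈ F, ω e = true} := by
    have : {ω : Sym2 ℕ → Bool | ∀ e ∈ F, ω e = true} = ⋂ e ∈ F, {ω | ω e = true} := by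
      ext ω; simp
    rw [this]
    refine Finset.measurableSet_biInter F fun e _ => ?_
    exact (measurable_pi_apply e : Measurable fun ω : Sym2 ℕ → Bool => ω e)
      (measurableSet_singleton true)
  rw [Measure.map_apply hfm hms]
  set B : Set (Sym2 ℕ → ℝ) := {g | ∀ e ∈ F, Phi (PG G) (LamG G) g e = true} with hB
  have hBm : MeasurableSet B := (measurable_Phi (PG G) (LamG G)) hms
  have e1 : factor D G ⁻¹' {ω | ∀ e ∈ F, ω e = true} = {x | D.lab G x ∈ B} := by
    ext x
    simp only [Set.mem_preimage, Set.mem_ofPred_eq, hB]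
    unfold factor
    simp [hG]
  rw [e1]
  set B' : Set (E → ℝ) := extE E ⁻¹' B with hB'
  have hB'm : MeasurableSet B' := (measurable_extE E) hBm
  have hdep : ∀ g : Sym2 ℕ → ℝ, g ∈ B ↔ E.domRestrict g ∈ B' := by
    intro g
    simp only [hB', hB, Set.mem_preimage, Set.mem_ofPred_eq]
    refine forall₂_congr fun e he => ?_
    rw [Phi_dep (P := PG G) (E := E) (Lam := LamG G) (fun k v => lv_subset G v _)
      (g := g) (g' := extE E (E.domRestrict g)) (fun u hu => by simp only [extE, hu, dif_pos]; rfl) (hF he)]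
  have e2 : {x | D.lab G x ∈ B} = (fun x => E.domRestrict (D.lab G x)) ⁻¹' B' := by
    ext x
    exact hdep _
  have hrm : Measurable (E.domRestrict : (Sym2 ℕ → ℝ) → (E → ℝ)) := Set.measurable_restrict E
  have hcomp : Measurable (fun x => E.domRestrict (D.lab G x)) := hrm.comp (D.meas_fixed G)
  rw [e2, ← Measure.map_apply hcomp hB'm]
  have e3 : (labelMeasure ℕ).map (fun x => E.domRestrict (D.lab G x)) =
      (gam (Sym2 ℕ)).map E.domRestrict := by
    have h1 := D.law G hG.2
    unfold gam
    rw [Measure.infinitePi_map_restrict']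
    exact h1
  rw [e3, Measure.map_apply hrm hB'm]
  have e4 : (E.domRestrict : (Sym2 ℕ → ℝ) → (E → ℝ)) ⁻¹' B' = B := by
    ext g
    exact (hdep g).symm
  rw [e4]
  have h5 := Phi_law (PG G) (good_PG hG.1 hG.2) (Finset.Subset.refl F)
  rw [PG_diag hG.1] at h5
  rw [← h5]
  unfold Measure.real
  congr 2
  ext g
  simp only [hB, Set.mem_ofPred_eq]
  refine forall₂_congr fun e he => ?_
  simp [he]

theorem main254 (D : LabData) :
    ∃ Φ : SimpleGraph ℕ → (ℕ → unitInterval) → (Sym2 ℕ → Bool),
      Measurable (fun p : (ℕ → ℕ → Bool) × (ℕ → unitInterval) =>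
          Φ (Crest.ProbabilityR.GraphTables.graphOfTable p.1) p.2) ∧
      (∀ (σ : Equiv.Perm ℕ) (G : SimpleGraph ℕ) (x : ℕ → unitInterval),
          Φ (G.comap ⇑σ) (x ∘ ⇑σ) = Φ G x ∘ Sym2.map ⇑σ) ∧
      ∀ G : SimpleGraph ℕ, G.Connected → (∀ v : ℕ, (G.neighborSet v).Finite) →
        ∀ S : ℕ → Finset ℕ, Monotone S → (∀ v : ℕ, ∃ n, v ∈ S n) →
          (∀ n, (G.induce (S n : Set ℕ)).Connected) →
          ∀ F : Finset (Sym2 ℕ), (↑F : Set (Sym2 ℕ)) ⊆ G.edgeSet →
            Filter.Tendsto (fun n => Crest.ProbabilityR.SpanningTrees.ustContains G (S n) F) Filter.atTop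
              (nhds (((Crest.ProbabilityR.Labels.labelMeasure ℕ).map (Φ G) {ω | ∀ e ∈ F, ω e = true}).toReal)) := by
  refine ⟨factor D, measurable_factor D, factor_comap D, ?_⟩
  intro G hG hLF S hS1 hS2 hS3 F hF
  rw [factor_law D ⟨hG, hLF⟩ F hF]
  have := tendsto_cG (G := G) (K := S) ⟨hS1, hS2, hS3⟩ F
  simp_rw [ust_eq_uc]
  exact this

end Crest.Agent.SRFlow
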