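import Mathlib

set_option autoImplicit false
set_option linter.unusedSectionVars false
set_option linter.unusedVariables false

namespace Crest.Agent.SRFlow

open Complex Polynomial

/-- If `A + ζ B ≠ 0` for all `ζ` in the upper half plane then `Im (A conj B) ≥ 0`. -/
lemma im_mul_conj_nonneg {A B : ℂ} (h : ∀ ζ : ℂ, 0 < ζ.im → A + ζ * B ≠ 0) :
    0 ≤ (A * (starRingEnd ℂ) B).im := by
  by_contra hneg
  push Not at hneg
  have hB : B ≠ 0 := by
    rintro rfl
    simp at hneg
  apply h (-A / B)
  · have hn : 0 < normSq B := normSq_pos.2 hB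
    have : -A / B = -(A * (starRingEnd ℂ) B) / (normSq B : ℂ) := by
      rw [div_eq_div_iff hB (by exact_mod_cast hn.ne'), neg_mul, neg_mul, mul_assoc,
        mul_comm ((starRingEnd ℂ) B) B, mul_conj]
    rw [this, neg_div, neg_im, div_ofReal_im]
    have := div_neg_of_neg_of_pos hneg hn
    linarith
  · field_simp
    ring

lemma eval_pos {a : ℝ[X]} (ha : ∀ n, 0 ≤ a.coeff n) (ha1 : 0 < a.eval 1) {r : ℝ} (hr : 0 < r) :
    0 < a.eval r := by
  rw [eval_eq_sum_range] at ha1 ⊢
  have hex : ∃ i ∈ Finset.range (a.natDegree + 1), 0 < a.coeff i := by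
    by_contra hcon
    push Not at hcon
    have : ∑ i ∈ Finset.range (a.natDegree + 1), a.coeff i * 1 ^ i ≤ 0 := by
      refine Finset.sum_nonpos fun i hi => ?_
      simpa using hcon i hi
    linarith
  obtain ⟨i, hi, hpos⟩ := hex
  refine Finset.sum_pos' (fun j _ => mul_nonneg (ha j) (by positivity)) ⟨i, hi, ?_⟩
  positivity

lemma aeval_conj' (a : ℝ[X]) (t : ℂ) :
    aeval ((starRingEnd ℂ) t) a = (starRingEnd ℂ) (aeval t a) :=
  Polynomial.aeval_conj a t

lemma aeval_ofReal' (a : ℝ[X]) (r : ℝ) : aeval (r : ℂ) a = ((a.eval r : ℝ) : ℂ) := by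
  rw [← coe_algebraMap, aeval_algebraMap_apply]
  simp

/-- the Schwarz bound -/
theorem schwarz_bound {a b : ℝ[X]} (ha : ∀ n, 0 ≤ a.coeff n) (hb : ∀ n, 0 ≤ b.coeff n)
    (ha1 : 0 < a.eval 1) (hb1 : 0 < b.eval 1)
    (hst : ∀ t ζ : ℂ, 0 < t.im → 0 < ζ.im → aeval t a + ζ * aeval t b ≠ 0) :
    |a.derivative.eval 1 * b.eval 1 - a.eval 1 * b.derivative.eval 1| ≤
      4 * (a.eval 1 * b.eval 1) := by
  set A : ℂ → ℂ := fun t => aeval t a with hA
  set B : ℂ → ℂ := fun t => aeval t b with hB
  have hAd : Differentiable ℂ A := by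
    simp only [hA]; exact a.differentiable_aeval
  have hBd : Differentiable ℂ B := by
    simp only [hB]; exact b.differentiable_aeval
  have hIm : ∀ t : ℂ, 0 < t.im → 0 ≤ (A t * (starRingEnd ℂ) (B t)).im := fun t ht =>
    im_mul_conj_nonneg fun ζ hζ => hst t ζ ht hζ
  set U : Set ℂ := {t : ℂ | 0 < t.im} with hU
  have hUo : IsOpen U := isOpen_lt continuous_const continuous_im
  have hUc : IsPreconnected U := (convex_halfSpace_im_gt 0).isPreconnected
  have hden : ∀ t ∈ U, A t + I * B t ≠ 0 := fun t ht => hst t I ht (by simp)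
  -- case distinction
  by_cases hcase : ∃ t0 ∈ U, (A t0 * (starRingEnd ℂ) (B t0)).im = 0
  · -- proportional case
    obtain ⟨t0, ht0, him⟩ := hcase
    set F : ℂ → ℂ := fun t => (A t - I * B t) / (A t + I * B t) with hF
    have hFd : DifferentiableOn ℂ F U := by
      intro t ht
      refine DifferentiableAt.differentiableWithinAt ?_
      exact ((hAd t).sub ((hBd t).const_mul I)).div ((hAd t).add ((hBd t).const_mul I)) (hden t ht)
    have hns : ∀ t, normSq (A t + I * B t) - normSq (A t - I * B t) =
        4 * (A t * (starRingEnd ℂ) (B t)).im := by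
      intro t
      simp [normSq_apply]
      ring
    have hFle : ∀ t ∈ U, ‖F t‖ ≤ 1 := by
      intro t ht
      simp only [hF]
      rw [norm_div, div_le_one (norm_pos_iff.2 (hden t ht))]
      have h1 := hns t
      have h2 := hIm t ht
      rw [normSq_eq_norm_sq, normSq_eq_norm_sq] at h1
      have h3 : ‖A t - I * B t‖ ^ 2 ≤ ‖A t + I * B t‖ ^ 2 := by linarith
      exact (pow_le_pow_iff_left₀ (norm_nonneg _) (norm_nonneg _) two_ne_zero).1 h3
    have hF0 : ‖F t0‖ = 1 := by
      simp only [hF]
      rw [norm_div, div_eq_one_iff_eq (norm_pos_iff.2 (hden t0 ht0)).ne']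
      have h1 := hns t0
      rw [him, mul_zero, normSq_eq_norm_sq, normSq_eq_norm_sq] at h1
      have h3 : ‖A t0 - I * B t0‖ ^ 2 = ‖A t0 + I * B t0‖ ^ 2 := by linarith
      exact (pow_left_inj₀ (norm_nonneg _) (norm_nonneg _) two_ne_zero).1 h3
    have hmax : IsMaxOn (norm ∘ F) U t0 := by
      intro t ht
      simp only [Function.comp, Set.mem_ofPred_eq, hF0]
      exact hFle t ht
    have hconst := eqOn_of_isPreconnected_of_isMaxOn_norm hUc hUo hFd ht0 hmax
    set c := F t0 with hc
    have hlin : ∀ t ∈ U, A t - I * B t = c * (A t + I * B t) := by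
      intro t ht
      have := hconst ht
      simp only [Function.const, hF] at this
      rw [div_eq_iff (hden t ht)] at this
      exact this
    -- polynomial identity
    set p : ℂ[X] := (a.map (algebraMap ℝ ℂ)) - C I * (b.map (algebraMap ℝ ℂ)) -
      C c * ((a.map (algebraMap ℝ ℂ)) + C I * (b.map (algebraMap ℝ ℂ))) with hp
    have hpU : ∀ t ∈ U, p.eval t = 0 := by
      intro t ht
      simp only [hp, eval_sub, eval_add, eval_mul, eval_C, eval_map_algebraMap]
      have := hlin t ht
      simp only [hA, hB] at this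
      rw [this]; ring
    have hp0 : p = 0 := by
      apply Polynomial.eq_zero_of_infinite_isRoot
      have hinf : U.Infinite := by
        have : Set.Infinite (Set.range fun n : ℕ => ((n:ℂ) + I)) := by
          apply Set.infinite_range_of_injective
          intro m n h
          simpa using h
        refine this.mono ?_
        rintro _ ⟨n, rfl⟩
        simp [hU]
      exact hinf.mono fun t ht => hpU t ht
    have hall : ∀ t, A t - I * B t = c * (A t + I * B t) := by
      intro t
      have : p.eval t = 0 := by rw [hp0]; simp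
      simp only [hp, eval_sub, eval_add, eval_mul, eval_C, eval_map_algebraMap] at this
      simp only [hA, hB]
      linear_combination this
    have hprop : ∀ t, A t * B 1 = B t * A 1 := by
      intro t
      have h1 := hall t
      have h2 := hall 1
      have hA1 : A 1 ≠ 0 := by
        have := aeval_ofReal' a 1
        simp only [hA]
        rw [ofReal_one] at this
        rw [this]
        exact_mod_cast ha1.ne'
      have hB1 : B 1 ≠ 0 := by
        have := aeval_ofReal' b 1
        simp only [hB]
        rw [ofReal_one] at this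
        rw [this]
        exact_mod_cast hb1.ne'
      -- (1-c) A = I (1+c) B
      have e1 : (1 - c) * A t = I * (1 + c) * B t := by linear_combination h1
      have e2 : (1 - c) * A 1 = I * (1 + c) * B 1 := by linear_combination h2
      by_cases hcc : 1 - c = 0
      · have : c = 1 := by linear_combination -hcc
        rw [this] at e2
        simp at e2
        exact absurd e2 hB1
      · have : (1 - c) * (A t * B 1) = (1 - c) * (B t * A 1) := by
          linear_combination B 1 * e1 - B t * e2
        exact mul_left_cancel₀ hcc this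
    have hpoly : a * C (b.eval 1) = b * C (a.eval 1) := by
      have hinj : Function.Injective (algebraMap ℝ ℂ) := (algebraMap ℝ ℂ).injective
      apply Polynomial.map_injective _ hinj
      apply Polynomial.funext
      intro t
      have := hprop t
      have e1 := aeval_ofReal' a 1
      have e2 := aeval_ofReal' b 1
      rw [ofReal_one] at e1 e2
      simp only [hA, hB] at this
      rw [e1, e2] at this
      simp only [Polynomial.map_mul, eval_mul, Polynomial.map_C, eval_C, eval_map_algebraMap,
        coe_algebraMap]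
      exact this
    have hder := congrArg (fun p : ℝ[X] => p.derivative.eval 1) hpoly
    simp only [derivative_mul, derivative_C, mul_zero, add_zero, eval_mul, eval_C] at hder
    have : a.derivative.eval 1 * b.eval 1 - a.eval 1 * b.derivative.eval 1 = 0 := by
      rw [hder]; ring
    rw [this, abs_zero]
    positivity
  · push Not at hcase
    have hstrict : ∀ t ∈ U, 0 < (A t * (starRingEnd ℂ) (B t)).im := fun t ht =>
      lt_of_le_of_ne (hIm t ht) (hcase t ht).symm
    -- R = A / B maps the disc to the slit plane
    have hslit : ∀ t : ℂ, 0 < t.re → B t ≠ 0 ∧ A t / B t ∈ slitPlane := by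
      intro t ht
      have hdiv : ∀ {X Y : ℂ}, Y ≠ 0 → (X / Y).im = (X * (starRingEnd ℂ) Y).im / normSq Y := by
        intro X Y hY
        have hn : 0 < normSq Y := normSq_pos.2 hY
        have : X / Y = (X * (starRingEnd ℂ) Y) / (normSq Y : ℂ) := by
          rw [div_eq_div_iff hY (by exact_mod_cast hn.ne'), mul_assoc,
            mul_comm ((starRingEnd ℂ) Y) Y, mul_conj]
        rw [this, div_ofReal_im]
      rcases lt_trichotomy t.im 0 with him | him | him
      · -- lower half plane by conjugation
        have hc : 0 < ((starRingEnd ℂ) t).im := by simpa using him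
        have h1 := hstrict _ hc
        simp only [hA, hB] at h1
        rw [aeval_conj', aeval_conj', ← map_mul, conj_im] at h1
        have hBne : B t ≠ 0 := by
          intro h0
          simp only [hB] at h0
          rw [h0] at h1
          simp at h1
        refine ⟨hBne, ?_⟩
        rw [mem_slitPlane_iff]
        right
        rw [hdiv hBne]
        have hn : 0 < normSq (B t) := normSq_pos.2 hBne
        have : (A t * (starRingEnd ℂ) (B t)).im < 0 := by
          simp only [hA, hB]; linarith
        exact (div_neg_of_neg_of_pos this hn).ne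
      · -- real
        have htr : t = (t.re : ℂ) := by
          apply Complex.ext <;> simp [him]
        have e1 := aeval_ofReal' a t.re
        have e2 := aeval_ofReal' b t.re
        rw [← htr] at e1 e2
        have p1 := eval_pos ha ha1 ht
        have p2 := eval_pos hb hb1 ht
        refine ⟨?_, ?_⟩
        · simp only [hB]; rw [e2]; exact_mod_cast p2.ne'
        · simp only [hA, hB]
          rw [e1, e2, ← ofReal_div]
          exact ofReal_mem_slitPlane.2 (div_pos p1 p2)
      · have h1 := hstrict t him
        have hBne : B t ≠ 0 := by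
          intro h0
          rw [h0] at h1
          simp at h1
        refine ⟨hBne, ?_⟩
        rw [mem_slitPlane_iff]
        right
        rw [hdiv hBne]
        have hn : 0 < normSq (B t) := normSq_pos.2 hBne
        exact (div_pos h1 hn).ne'
    have hball : ∀ t ∈ Metric.ball (1:ℂ) 1, 0 < t.re := by
      intro t ht
      rw [Metric.mem_ball, dist_eq_norm] at ht
      have := (abs_re_le_norm (t - 1)).trans_lt ht
      rw [abs_lt] at this
      simp at this
      linarith [this.1]
    set R : ℂ → ℂ := fun t => A t / B t with hR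
    set G : ℂ → ℂ := fun t => exp (log (R t) / 2) with hG
    have hRd : ∀ t : ℂ, 0 < t.re → DifferentiableAt ℂ R t := fun t ht =>
      (hAd t).div (hBd t) (hslit t ht).1
    have hGd : ∀ t : ℂ, 0 < t.re → DifferentiableAt ℂ G t := fun t ht =>
      (((hRd t ht).clog (hslit t ht).2).div_const 2).cexp
    have hGre : ∀ t : ℂ, 0 < t.re → 0 < (G t).re := by
      intro t ht
      simp only [hG]
      rw [exp_re]
      refine mul_pos (Real.exp_pos _) ?_
      apply Real.cos_pos_of_mem_Ioo
      have h1 := (mem_slitPlane_iff_arg.1 (hslit t ht).2).1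
      have h2 : (log (R t) / 2).im = arg (R t) / 2 := by
        have : (2:ℂ) = ((2:ℝ):ℂ) := by norm_num
        rw [this, div_ofReal_im, log_im]
      rw [h2]
      have h3 := arg_le_pi (R t)
      have h4 := neg_pi_lt_arg (R t)
      have h5 : arg (R t) < Real.pi := lt_of_le_of_ne h3 h1
      constructor <;> linarith
    set ρ : ℝ := a.eval 1 / b.eval 1 with hρ
    have hρ0 : 0 < ρ := div_pos ha1 hb1
    have hR1 : R 1 = (ρ : ℂ) := by
      have e1 := aeval_ofReal' a 1
      have e2 := aeval_ofReal' b 1
      rw [ofReal_one] at e1 e2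
      simp only [hR, hA, hB, hρ]
      rw [e1, e2, ofReal_div]
    set γ : ℝ := Real.exp (Real.log ρ / 2) with hγ
    have hγ0 : 0 < γ := Real.exp_pos _
    have hG1 : G 1 = (γ : ℂ) := by
      simp only [hG, hR1, hγ]
      rw [← ofReal_log hρ0.le]
      push_cast
      rfl
    have hsum : ∀ t : ℂ, 0 < t.re → G t + γ ≠ 0 := by
      intro t ht h0
      have := congrArg Complex.re h0
      simp at this
      linarith [hGre t ht]
    set H : ℂ → ℂ := fun t => (G t - γ) / (G t + γ) with hH
    have hHd : DifferentiableOn ℂ H (Metric.ball 1 1) := fun t ht =>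
      (((hGd t (hball t ht)).sub_const _).div ((hGd t (hball t ht)).add_const _)
        (hsum t (hball t ht))).differentiableWithinAt
    have hH1 : H 1 = 0 := by simp only [hH, hG1]; simp
    have hmaps : Set.MapsTo H (Metric.ball 1 1) (Metric.ball (H 1) 1) := by
      intro t ht
      rw [hH1, Metric.mem_ball, dist_zero_right]
      simp only [hH]
      rw [norm_div, div_lt_one (norm_pos_iff.2 (hsum t (hball t ht)))]
      have h1 := hGre t (hball t ht)
      have : ‖G t - γ‖ ^ 2 < ‖G t + γ‖ ^ 2 := by
        rw [← normSq_eq_norm_sq, ← normSq_eq_norm_sq, normSq_apply, normSq_apply]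
        simp
        nlinarith
      exact lt_of_pow_lt_pow_left₀ 2 (norm_nonneg _) this
    have hSch := norm_deriv_le_div_of_mapsTo_ball hHd
      (hmaps.mono_right Metric.ball_subset_closedBall) one_pos
    -- derivative computation
    have h1re : (0:ℝ) < (1:ℂ).re := by simp
    have hA' : HasDerivAt A (aeval (1:ℂ) a.derivative) 1 := a.hasDerivAt_aeval 1
    have hB' : HasDerivAt B (aeval (1:ℂ) b.derivative) 1 := b.hasDerivAt_aeval 1
    have eA' : aeval (1:ℂ) a.derivative = ((a.derivative.eval 1 : ℝ) : ℂ) := by
      have := aeval_ofReal' a.derivative 1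
      rwa [ofReal_one] at this
    have eB' : aeval (1:ℂ) b.derivative = ((b.derivative.eval 1 : ℝ) : ℂ) := by
      have := aeval_ofReal' b.derivative 1
      rwa [ofReal_one] at this
    have eA : A 1 = ((a.eval 1 : ℝ) : ℂ) := by
      have := aeval_ofReal' a 1
      rwa [ofReal_one] at this
    have eB : B 1 = ((b.eval 1 : ℝ) : ℂ) := by
      have := aeval_ofReal' b 1
      rwa [ofReal_one] at this
    set R' : ℝ := (a.derivative.eval 1 * b.eval 1 - a.eval 1 * b.derivative.eval 1) /
      (b.eval 1) ^ 2 with hR'
    have hRder : HasDerivAt R (R' : ℂ) 1 := by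
      have := hA'.div hB' (hslit 1 h1re).1
      rw [eA', eB', eA, eB] at this
      have e : (R' : ℂ) = (((a.derivative.eval 1 : ℝ) : ℂ) * ((b.eval 1 : ℝ) : ℂ) -
          ((a.eval 1 : ℝ) : ℂ) * ((b.derivative.eval 1 : ℝ) : ℂ)) / ((b.eval 1 : ℝ) : ℂ) ^ 2 := by
        rw [hR']; push_cast; ring
      rw [e]
      exact this
    have hGder : HasDerivAt G (G 1 * ((R' : ℂ) / R 1 / 2)) 1 :=
      ((hRder.clog (hslit 1 h1re).2).div_const 2).cexp
    have hHder : HasDerivAt H ((R' : ℂ) / ρ / 4) 1 := by
      have := (hGder.sub_const (γ:ℂ)).div (hGder.add_const (γ:ℂ)) (hsum 1 h1re)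
      rw [hG1, hR1] at this
      have hγ' : (γ:ℂ) ≠ 0 := by exact_mod_cast hγ0.ne'
      have hρ' : (ρ:ℂ) ≠ 0 := by exact_mod_cast hρ0.ne'
      have e : (R' : ℂ) / ρ / 4 = ((γ : ℂ) * ((R' : ℂ) / ρ / 2) * ((γ : ℂ) + γ) -
          ((γ : ℂ) - γ) * ((γ : ℂ) * ((R' : ℂ) / ρ / 2))) / ((γ : ℂ) + γ) ^ 2 := by
        have : (γ : ℂ) + γ = 2 * γ := by ring
        rw [this]
        field_simp
        ring
      rw [e]
      exact this
    rw [hHder.deriv] at hSch
    have h2 : ‖(R' : ℂ) / ρ / 4‖ = |R'| / ρ / 4 := by
      rw [norm_div, norm_div, norm_real, norm_real, Real.norm_eq_abs, Real.norm_eq_abs,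
        abs_of_pos hρ0]
      simp
    rw [h2] at hSch
    have h3 : |R'| ≤ 4 * ρ := by
      have : |R'| / ρ / 4 ≤ 1 := by simpa using hSch
      rw [div_div, div_le_one (by positivity)] at this
      linarith
    have h4 : |a.derivative.eval 1 * b.eval 1 - a.eval 1 * b.derivative.eval 1| =
        |R'| * (b.eval 1) ^ 2 := by
      rw [hR', abs_div, abs_of_pos (pow_pos hb1 2)]
      field_simp
    rw [h4]
    calc |R'| * (b.eval 1) ^ 2 ≤ 4 * ρ * (b.eval 1) ^ 2 := by gcongr
      _ = 4 * (a.eval 1 * b.eval 1) := by rw [hρ]; field_simp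

end Crest.Agent.SRFlow
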