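import Mathlib
import Crest.Agent.SRGibbs
import Crest.Agent.SRSchwarz

set_option autoImplicit false
set_option linter.unusedSectionVars false
set_option linter.unusedVariables false

namespace Crest.Agent.SRFlow

open Complex Polynomial MeasureTheory

variable {ι : Type*} [DecidableEq ι]

/-- stability of the generating polynomial of the weights -/
def StableW (q : Finset ι → ℝ) (L : Finset ι) : Prop :=
  ∀ z : ι → ℂ, (∀ i ∈ L, 0 < (z i).im) → ∑ S ∈ L.powerset, (q S : ℂ) * ∏ i ∈ S, z i ≠ 0

variable {q : Finset ι → ℝ} {L : Finset ι}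

/-- tilted weights -/
noncomputable def cw (q : Finset ι → ℝ) (x : ι → ℝ) (S : Finset ι) : ℝ :=
  q S * Real.exp (∑ u ∈ S, x u)

lemma cw_nonneg (h : Wt q L) (x : ι → ℝ) (S : Finset ι) : 0 ≤ cw q x S := by
  unfold cw; have := h.nonneg S; positivity

lemma stable_tilt (hs : StableW q L) (x : ι → ℝ) (t : ι → ℂ) (ht : ∀ i ∈ L, 0 < (t i).im) :
    ∑ S ∈ L.powerset, (cw q x S : ℂ) * ∏ i ∈ S, t i ≠ 0 := by
  have := hs (fun i => (Real.exp (x i) : ℂ) * t i) (fun i hi => by
    rw [im_ofReal_mul]
    exact mul_pos (Real.exp_pos _) (ht i hi))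
  convert this using 1
  refine Finset.sum_congr rfl fun S _ => ?_
  unfold cw
  rw [Finset.prod_mul_distrib, Real.exp_sum]
  push_cast
  ring

/-- partial sum with `u` absent -/
noncomputable def cA (q : Finset ι → ℝ) (L : Finset ι) (x : ι → ℝ) (u : ι) (t : ι → ℂ) : ℂ :=
  ∑ S ∈ L.powerset with u ∉ S, (cw q x S : ℂ) * ∏ i ∈ S, t i

/-- partial sum with `u` present -/
noncomputable def cB (q : Finset ι → ℝ) (L : Finset ι) (x : ι → ℝ) (u : ι) (t : ι → ℂ) : ℂ :=
  ∑ S ∈ L.powerset with u ∈ S, (cw q x S : ℂ) * ∏ i ∈ S.erase u, t i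

lemma split_sum (x : ι → ℝ) (u : ι) (t : ι → ℂ) (ζ : ℂ) :
    ∑ S ∈ L.powerset, (cw q x S : ℂ) * ∏ i ∈ S, (Function.update t u ζ) i =
      cA q L x u t + ζ * cB q L x u t := by
  unfold cA cB
  rw [← Finset.sum_filter_add_sum_filter_not L.powerset (fun S => u ∉ S), Finset.mul_sum]
  congr 1
  · refine Finset.sum_congr rfl fun S hS => ?_
    rw [Finset.mem_filter] at hS
    congr 1
    refine Finset.prod_congr rfl fun i hi => ?_
    rw [Function.update_of_ne]
    rintro rfl; exact hS.2 hi
  · have : (L.powerset.filter fun S => ¬ u ∉ S) = L.powerset.filter fun S => u ∈ S := by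
      ext S; simp
    rw [this]
    refine Finset.sum_congr rfl fun S hS => ?_
    rw [Finset.mem_filter] at hS
    rw [← Finset.mul_prod_erase S _ hS.2, Function.update_self]
    have : ∏ i ∈ S.erase u, Function.update t u ζ i = ∏ i ∈ S.erase u, t i := by
      refine Finset.prod_congr rfl fun i hi => ?_
      rw [Function.update_of_ne (Finset.ne_of_mem_erase hi)]
    rw [this]; ring

lemma stable_split (hs : StableW q L) (x : ι → ℝ) (u : ι) (t : ι → ℂ)
    (ht : ∀ i ∈ L, i ≠ u → 0 < (t i).im) (ζ : ℂ) (hζ : 0 < ζ.im) :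
    cA q L x u t + ζ * cB q L x u t ≠ 0 := by
  rw [← split_sum]
  refine stable_tilt hs x _ fun i hi => ?_
  by_cases h : i = u
  · rw [h, Function.update_self]; exact hζ
  · rw [Function.update_of_ne h]; exact ht i hi h

/-- negative correlation of tilted stable weights -/
lemma neg_corr_stable (h : Wt q L) (hs : StableW q L) (x : ι → ℝ) {u v : ι} (hu : u ∈ L)
    (hv : v ∈ L) (huv : u ≠ v) :
    Nf q L x {u, v} * Zf q L x ≤ Nf q L x {u} * Nf q L x {v} := by
  set a : ℝ := ∑ S ∈ L.powerset with u ∉ S, (if v ∈ S then 0 else cw q x S) with ha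
  set c : ℝ := ∑ S ∈ L.powerset with u ∉ S, (if v ∈ S then cw q x S else 0) with hc
  set b : ℝ := ∑ S ∈ L.powerset with u ∈ S, (if v ∈ S then 0 else cw q x S) with hb
  set d : ℝ := ∑ S ∈ L.powerset with u ∈ S, (if v ∈ S then cw q x S else 0) with hd
  have hZ : Zf q L x = a + b + c + d := by
    have e1 : Zf q L x = ∑ S ∈ L.powerset, cw q x S := rfl
    rw [e1, ← Finset.sum_filter_add_sum_filter_not L.powerset (fun S => u ∉ S)]
    have : (L.powerset.filter fun S => ¬ u ∉ S) = L.powerset.filter fun S => u ∈ S := by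
      ext S; simp
    rw [this]
    have e2 : ∑ S ∈ L.powerset with u ∉ S, cw q x S = a + c := by
      rw [ha, hc, ← Finset.sum_add_distrib]
      refine Finset.sum_congr rfl fun S _ => ?_
      split_ifs <;> simp
    have e3 : ∑ S ∈ L.powerset with u ∈ S, cw q x S = b + d := by
      rw [hb, hd, ← Finset.sum_add_distrib]
      refine Finset.sum_congr rfl fun S _ => ?_
      split_ifs <;> simp
    rw [e2, e3]; ring
  have hNu : Nf q L x {u} = b + d := by
    have e1 : Nf q L x {u} = ∑ S ∈ L.powerset with u ∈ S, cw q x S := by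
      unfold Nf cw
      simp only [Finset.singleton_subset_iff]
    rw [e1, hb, hd, ← Finset.sum_add_distrib]
    refine Finset.sum_congr rfl fun S _ => ?_
    split_ifs <;> simp
  have hNuv : Nf q L x {u, v} = d := by
    rw [hd, ← Finset.sum_filter, Finset.filter_filter]
    unfold Nf cw
    simp only [Finset.insert_subset_iff, Finset.singleton_subset_iff]
  have hNv : Nf q L x {v} = c + d := by
    have e1 : Nf q L x {v} = ∑ S ∈ L.powerset, (if v ∈ S then cw q x S else 0) := by
      unfold Nf cw
      simp only [Finset.singleton_subset_iff]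
      rw [Finset.sum_filter]
    rw [e1, ← Finset.sum_filter_add_sum_filter_not L.powerset (fun S => u ∉ S)]
    have : (L.powerset.filter fun S => ¬ u ∉ S) = L.powerset.filter fun S => u ∈ S := by
      ext S; simp
    rw [this]
  -- limiting argument
  set t : ℝ → ι → ℂ := fun ε i => if i = v then I else 1 + ε * I with ht
  have key : ∀ ε : ℝ, 0 < ε →
      0 ≤ (cA q L x u (t ε) * (starRingEnd ℂ) (cB q L x u (t ε))).im := by
    intro ε hε
    refine im_mul_conj_nonneg fun ζ hζ => stable_split hs x u (t ε) (fun i _ _ => ?_) ζ hζ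
    simp only [ht]
    split_ifs <;> simp [hε]
  have hcont : Continuous fun ε : ℝ =>
      (cA q L x u (t ε) * (starRingEnd ℂ) (cB q L x u (t ε))).im := by
    have htc : ∀ i, Continuous fun ε : ℝ => t ε i := by
      intro i
      simp only [ht]
      split_ifs
      · exact continuous_const
      · fun_prop
    unfold cA cB
    refine continuous_im.comp (Continuous.mul ?_ (continuous_conj.comp ?_))
    · exact continuous_finsetSum _ fun S _ => continuous_const.mul
        (continuous_finsetProd _ fun i _ => htc i)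
    · exact continuous_finsetSum _ fun S _ => continuous_const.mul
        (continuous_finsetProd _ fun i _ => htc i)
  have key0 : 0 ≤ (cA q L x u (t 0) * (starRingEnd ℂ) (cB q L x u (t 0))).im := by
    have hmem : (0:ℝ) ∈ closure (Set.Ioi (0:ℝ)) := by simp
    have hcl : IsClosed {ε : ℝ | 0 ≤ (cA q L x u (t ε) *
        (starRingEnd ℂ) (cB q L x u (t ε))).im} := isClosed_le continuous_const hcont
    exact hcl.closure_subset_iff.2 (fun ε hε => key ε hε) hmem
  have hprod : ∀ S : Finset ι, ∏ i ∈ S, t 0 i = if v ∈ S then I else 1 := by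
    intro S
    simp only [ht, ofReal_zero, zero_mul, add_zero]
    rw [Finset.prod_ite_eq']
  have hA0 : cA q L x u (t 0) = (a : ℂ) + (c : ℂ) * I := by
    unfold cA
    rw [ha, hc, ofReal_sum, ofReal_sum, Finset.sum_mul, ← Finset.sum_add_distrib]
    refine Finset.sum_congr rfl fun S _ => ?_
    rw [hprod]
    split_ifs <;> simp
  have hB0 : cB q L x u (t 0) = (b : ℂ) + (d : ℂ) * I := by
    unfold cB
    rw [hb, hd, ofReal_sum, ofReal_sum, Finset.sum_mul, ← Finset.sum_add_distrib]
    refine Finset.sum_congr rfl fun S _ => ?_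
    rw [hprod]
    have : v ∈ S.erase u ↔ v ∈ S := by
      rw [Finset.mem_erase]; exact ⟨fun h => h.2, fun h => ⟨huv.symm, h⟩⟩
    simp only [this]
    split_ifs <;> simp
  rw [hA0, hB0] at key0
  have : (((a : ℂ) + (c : ℂ) * I) * (starRingEnd ℂ) ((b : ℂ) + (d : ℂ) * I)).im =
      b * c - a * d := by
    simp
    ring
  rw [this] at key0
  rw [hNuv, hZ, hNu, hNv]
  nlinarith

/-- polynomial with `v` absent -/
noncomputable def pA (q : Finset ι → ℝ) (L : Finset ι) (x : ι → ℝ) (v : ι) : ℝ[X] :=
  ∑ S ∈ L.powerset with v ∉ S, C (cw q x S) * X ^ S.card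

/-- polynomial with `v` present -/
noncomputable def pB (q : Finset ι → ℝ) (L : Finset ι) (x : ι → ℝ) (v : ι) : ℝ[X] :=
  ∑ S ∈ L.powerset with v ∈ S, C (cw q x S) * X ^ (S.erase v).card

lemma coeff_nonneg_aux (J : Finset (Finset ι)) (c : Finset ι → ℝ) (hc : ∀ S, 0 ≤ c S)
    (n : Finset ι → ℕ) (m : ℕ) : 0 ≤ (∑ S ∈ J, C (c S) * X ^ (n S) : ℝ[X]).coeff m := by
  rw [finsetSum_coeff]
  refine Finset.sum_nonneg fun S _ => ?_
  rw [coeff_C_mul_X_pow]
  split_ifs
  · exact hc S
  · exact le_rfl

/-- the full covariance bound for stable weights -/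
theorem stable_covBound (h : Wt q L) (hs : StableW q L) : CovBound 2 q L := by
  intro x v hv
  have hZ := Zf_pos h x
  set a := pA q L x v with ha
  set b := pB q L x v with hb
  have ha0 : ∀ n, 0 ≤ a.coeff n := coeff_nonneg_aux _ _ (cw_nonneg h x) _
  have hb0 : ∀ n, 0 ≤ b.coeff n := coeff_nonneg_aux _ _ (cw_nonneg h x) _
  have hea : a.eval 1 = ∑ S ∈ L.powerset with v ∉ S, cw q x S := by
    simp [ha, pA, eval_finsetSum]
  have heb : b.eval 1 = ∑ S ∈ L.powerset with v ∈ S, cw q x S := by
    simp [hb, pB, eval_finsetSum]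
  have hea' : a.derivative.eval 1 = ∑ S ∈ L.powerset with v ∉ S, cw q x S * S.card := by
    simp [ha, pA, eval_finsetSum, derivative_X_pow]
  have heb' : b.derivative.eval 1 = ∑ S ∈ L.powerset with v ∈ S, cw q x S * (S.erase v).card := by
    simp [hb, pB, eval_finsetSum, derivative_X_pow]
  have ea0 : 0 ≤ a.eval 1 := by
    rw [hea]; exact Finset.sum_nonneg fun S _ => cw_nonneg h x S
  have eb0 : 0 ≤ b.eval 1 := by
    rw [heb]; exact Finset.sum_nonneg fun S _ => cw_nonneg h x S
  have hfilt : (L.powerset.filter fun S => ¬ v ∉ S) = L.powerset.filter fun S => v ∈ S := by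
    ext S; simp
  have hZab : Zf q L x = a.eval 1 + b.eval 1 := by
    have e1 : Zf q L x = ∑ S ∈ L.powerset, cw q x S := rfl
    rw [e1, ← Finset.sum_filter_add_sum_filter_not L.powerset (fun S => v ∉ S), hfilt, hea, heb]
  have hNv : Nf q L x {v} = b.eval 1 := by
    rw [heb]
    unfold Nf cw
    simp only [Finset.singleton_subset_iff]
  have hcard : ∀ S ∈ L.powerset, ∑ u ∈ L.erase v, (if u ∈ S then (1:ℝ) else 0) =
      ((S.erase v).card : ℝ) := by
    intro S hS
    rw [← Finset.sum_filter, Finset.sum_const, nsmul_eq_mul, mul_one]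
    congr 2
    ext u
    simp only [Finset.mem_filter, Finset.mem_erase]
    have := Finset.mem_powerset.1 hS
    constructor
    · rintro ⟨⟨h1, h2⟩, h3⟩; exact ⟨h1, h3⟩
    · rintro ⟨h1, h3⟩; exact ⟨⟨h1, this h3⟩, h3⟩
  have hsumNuv : ∑ u ∈ L.erase v, Nf q L x {u, v} = b.derivative.eval 1 := by
    rw [heb']
    have e1 : ∀ u ∈ L.erase v, Nf q L x {u, v} =
        ∑ S ∈ L.powerset with v ∈ S, cw q x S * (if u ∈ S then 1 else 0) := by
      intro u _
      unfold Nf cw
      simp only [mul_ite, mul_one, mul_zero]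
      rw [← Finset.sum_filter, Finset.filter_filter]
      simp only [Finset.insert_subset_iff, Finset.singleton_subset_iff]
      refine Finset.sum_congr ?_ fun _ _ => rfl
      ext S; simp only [Finset.mem_filter]; tauto
    rw [Finset.sum_congr rfl e1, Finset.sum_comm]
    refine Finset.sum_congr rfl fun S hS => ?_
    rw [← Finset.mul_sum, hcard S (Finset.mem_filter.1 hS).1]
  have hsumNu : ∑ u ∈ L.erase v, Nf q L x {u} = a.derivative.eval 1 + b.derivative.eval 1 := by
    have e1 : ∀ u ∈ L.erase v, Nf q L x {u} =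
        ∑ S ∈ L.powerset, cw q x S * (if u ∈ S then 1 else 0) := by
      intro u _
      unfold Nf cw
      simp only [mul_ite, mul_one, mul_zero]
      rw [← Finset.sum_filter]
      simp only [Finset.singleton_subset_iff]
    rw [Finset.sum_congr rfl e1, Finset.sum_comm, hea', heb',
      ← Finset.sum_filter_add_sum_filter_not L.powerset (fun S => v ∉ S), hfilt]
    congr 1
    · refine Finset.sum_congr rfl fun S hS => ?_
      rw [← Finset.mul_sum, hcard S (Finset.mem_filter.1 hS).1,
        Finset.erase_eq_of_notMem (Finset.mem_filter.1 hS).2]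
    · refine Finset.sum_congr rfl fun S hS => ?_
      rw [← Finset.mul_sum, hcard S (Finset.mem_filter.1 hS).1]
  -- main estimate
  have hmain : |a.derivative.eval 1 * b.eval 1 - a.eval 1 * b.derivative.eval 1| ≤
      4 * (a.eval 1 * b.eval 1) := by
    rcases eq_or_lt_of_le ea0 with h0 | hapos
    · have hz : ∀ S ∈ L.powerset.filter (fun S => v ∉ S), cw q x S = 0 := by
        rw [hea] at h0
        exact (Finset.sum_eq_zero_iff_of_nonneg fun S _ => cw_nonneg h x S).1 h0.symm
      have hd0 : a.derivative.eval 1 = 0 := by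
        rw [hea']
        exact Finset.sum_eq_zero fun S hS => by rw [hz S hS, zero_mul]
      rw [hd0, ← h0]; simp
    · rcases eq_or_lt_of_le eb0 with h0 | hbpos
      · have hz : ∀ S ∈ L.powerset.filter (fun S => v ∈ S), cw q x S = 0 := by
          rw [heb] at h0
          exact (Finset.sum_eq_zero_iff_of_nonneg fun S _ => cw_nonneg h x S).1 h0.symm
        have hd0 : b.derivative.eval 1 = 0 := by
          rw [heb']
          exact Finset.sum_eq_zero fun S hS => by rw [hz S hS, zero_mul]
        rw [hd0, ← h0]; simp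
      · refine schwarz_bound ha0 hb0 hapos hbpos fun t ζ ht hζ => ?_
        have := stable_split hs x v (fun _ => t) (fun i _ _ => ht) ζ hζ
        convert this using 2
        · simp [ha, pA, cA, map_sum]
        · simp [hb, pB, cB, map_sum]
  have hcovZ : ∀ u, cov q L x u v * (Zf q L x) ^ 2 =
      Nf q L x {u, v} * Zf q L x - Nf q L x {u} * Nf q L x {v} := by
    intro u
    unfold cov gibbs
    field_simp
  have hcovle : ∀ u ∈ L.erase v, |cov q L x u v| * (Zf q L x) ^ 2 =
      Nf q L x {u} * Nf q L x {v} - Nf q L x {u, v} * Zf q L x := by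
    intro u hu
    rw [Finset.mem_erase] at hu
    have h1 := neg_corr_stable h hs x hu.2 hv hu.1
    have h2 : |cov q L x u v * (Zf q L x) ^ 2| =
        Nf q L x {u} * Nf q L x {v} - Nf q L x {u, v} * Zf q L x := by
      rw [hcovZ, abs_sub_comm, abs_of_nonneg (by linarith)]
    rw [← h2, abs_mul, abs_of_nonneg (sq_nonneg (Zf q L x))]
  have hoff : (∑ u ∈ L.erase v, |cov q L x u v|) * (Zf q L x) ^ 2 ≤ (Zf q L x) ^ 2 := by
    rw [Finset.sum_mul, Finset.sum_congr rfl hcovle, Finset.sum_sub_distrib, ← Finset.sum_mul,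
      ← Finset.sum_mul, hsumNu, hsumNuv, hNv, hZab]
    have h1 := (abs_le.1 hmain).2
    nlinarith [sq_nonneg (a.eval 1 - b.eval 1)]
  have hoff' : ∑ u ∈ L.erase v, |cov q L x u v| ≤ 1 := by
    have hZ2 : 0 < (Zf q L x) ^ 2 := by positivity
    nlinarith
  rw [← Finset.add_sum_erase L _ hv]
  have := cov_abs_le_one h x v v
  linarith

/-! ### weights of a law -/

section LawWeights

variable (ν : Measure (ι → Bool)) [IsProbabilityMeasure ν]

/-- the occupied set inside `L` -/
def occ (L : Finset ι) (ω : ι → Bool) : Finset ι := L.filter fun i => ω i = true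

lemma occ_subset (L : Finset ι) (ω : ι → Bool) : occ L ω ⊆ L := Finset.filter_subset _ _

lemma occ_eq_iff {L S : Finset ι} (hS : S ⊆ L) (ω : ι → Bool) :
    occ L ω = S ↔ ∀ i ∈ L, (ω i = true ↔ i ∈ S) := by
  unfold occ
  constructor
  · rintro rfl i hi
    simp [hi]
  · intro h
    ext i
    rw [Finset.mem_filter]
    constructor
    · rintro ⟨h1, h2⟩; exact (h i h1).1 h2
    · intro hi; exact ⟨hS hi, (h i (hS hi)).2 hi⟩

lemma lawWeights_eq {L S : Finset ι} (hS : S ⊆ L) :
    lawWeights ν L S = (ν (occ L ⁻¹' {S})).toReal := by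
  unfold lawWeights
  congr 2
  ext ω
  exact (occ_eq_iff hS ω).symm

lemma measurableSet_occ (L S : Finset ι) : MeasurableSet (occ L ⁻¹' {S} : Set (ι → Bool)) := by
  by_cases hS : S ⊆ L
  · have : (occ L ⁻¹' {S} : Set (ι → Bool)) = ⋂ i ∈ L, {ω | (ω i = true ↔ i ∈ S)} := by
      ext ω
      simp only [Set.mem_preimage, Set.mem_singleton_iff, occ_eq_iff hS, Set.mem_iInter]
      rfl
    rw [this]
    refine Finset.measurableSet_biInter L fun i _ => ?_
    have hm : MeasurableSet {ω : ι → Bool | ω i = true} :=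
      (measurable_pi_apply i : Measurable fun ω : ι → Bool => ω i) (measurableSet_singleton true)
    by_cases hi : i ∈ S
    · simpa [hi] using hm
    · simp only [hi, iff_false]
      exact hm.compl
  · have : (occ L ⁻¹' {S} : Set (ι → Bool)) = ∅ := by
      ext ω
      simp only [Set.mem_preimage, Set.mem_singleton_iff, Set.mem_empty_iff_false, iff_false]
      rintro rfl
      exact hS (occ_subset L ω)
    rw [this]; exact MeasurableSet.empty

lemma lawWeights_nonneg (L S : Finset ι) : 0 ≤ lawWeights ν L S := ENNReal.toReal_nonneg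

lemma sum_lawWeights (L : Finset ι) (J : Finset (Finset ι)) (hJ : ∀ S ∈ J, S ⊆ L) :
    ∑ S ∈ J, lawWeights ν L S = (ν (occ L ⁻¹' (J : Set (Finset ι)))).toReal := by
  rw [← sum_measure_preimage_singleton J fun S _ => measurableSet_occ L S,
    ENNReal.toReal_sum fun S _ => measure_ne_top _ _]
  exact Finset.sum_congr rfl fun S hS => lawWeights_eq ν (hJ S hS)

/-- the consistent family of a law -/
noncomputable def fddOf : FDD ι where
  p := lawWeights ν
  nonneg := lawWeights_nonneg ν
  sum_one := by
    intro L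
    rw [sum_lawWeights ν L L.powerset fun S hS => Finset.mem_powerset.1 hS]
    have : (occ L ⁻¹' (L.powerset : Set (Finset ι)) : Set (ι → Bool)) = Set.univ := by
      ext ω
      simp [occ_subset]
    rw [this, measure_univ]; simp
  consistent := by
    intro M L hML S hS
    rw [lawWeights_eq ν hS, sum_lawWeights ν L _ fun S hS => Finset.mem_powerset.1
      (Finset.mem_filter.1 hS).1]
    congr 2
    ext ω
    simp only [Set.mem_preimage, Set.mem_singleton_iff, Finset.coe_filter, Finset.mem_powerset,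
      Set.mem_ofPred_eq]
    have : occ L ω ∩ M = occ M ω := by
      unfold occ
      ext i
      simp only [Finset.mem_inter, Finset.mem_filter]
      constructor
      · rintro ⟨⟨h1, h2⟩, h3⟩; exact ⟨h3, h2⟩
      · rintro ⟨h1, h2⟩; exact ⟨⟨hML h1, h2⟩, h1⟩
    rw [this]
    exact ⟨fun h => ⟨occ_subset L ω, h⟩, fun h => h.2⟩

open Crest.ProbabilityR.StronglyRayleigh in
theorem sr_covBound (h : IsStronglyRayleigh ν) (L : Finset ι) :
    CovBound 2 (lawWeights ν L) L := by
  refine stable_covBound ((fddOf ν).wt L) fun z hz => ?_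
  have := h L z hz
  unfold genPoly at this
  exact this

end LawWeights

end Crest.Agent.SRFlow
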