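import Crest.Statements.S0255
import Crest.Agent.SREquiv
import Crest.Agent.SRCov

set_option autoImplicit false
open Crest Crest.ProbabilityR

namespace Crest.Agent.S0255

open MeasureTheory ProbabilityTheory Set Filter Topology Crest.Agent.SRFlow
open Crest.ProbabilityR.StronglyRayleigh

/-- pattern probabilities determine a law on configurations -/
lemma law_ext {ι : Type*} [DecidableEq ι] (μ ν : Measure (ι → Bool)) [IsProbabilityMeasure μ]
    [IsProbabilityMeasure ν]
    (h : ∀ V S : Finset ι, S ⊆ V → μ {ω | ∀ v ∈ V, (ω v = true ↔ v ∈ S)} =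
      ν {ω | ∀ v ∈ V, (ω v = true ↔ v ∈ S)}) : μ = ν := by
  have key : ∀ V : Finset ι, μ.map V.restrict = ν.map V.restrict := by
    intro V
    have hr : Measurable (V.restrict : (ι → Bool) → (V → Bool)) := Finset.measurable_restrict V
    refine Measure.ext_of_singleton fun s => ?_
    rw [Measure.map_apply hr (measurableSet_singleton s),
      Measure.map_apply hr (measurableSet_singleton s)]
    set S : Finset ι := V.filter fun i => ∃ hi : i ∈ V, s ⟨i, hi⟩ = true with hS
    have hSV : S ⊆ V := Finset.filter_subset _ _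
    have e : (V.restrict ⁻¹' {s} : Set (ι → Bool)) = {ω | ∀ v ∈ V, (ω v = true ↔ v ∈ S)} := by
      ext ω
      simp only [mem_preimage, mem_singleton_iff]
      constructor
      · intro hω v hv
        have := congrFun hω ⟨v, hv⟩
        simp only [Finset.restrict_def] at this
        rw [hS, Finset.mem_filter, this]
        constructor
        · intro h; exact ⟨hv, hv, h⟩
        · rintro ⟨_, _, h⟩; exact h
      · intro hω
        ext ⟨v, hv⟩
        have := hω v hv
        rw [hS, Finset.mem_filter] at this
        simp only [Finset.restrict_def]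
        rw [Bool.eq_iff_iff, this]
        constructor
        · rintro ⟨_, _, h⟩; exact h
        · intro h; exact ⟨hv, hv, h⟩
    rw [e]
    exact h V S hSV
  have hp1 : IsProjectiveLimit μ (fun V : Finset ι => ν.map V.restrict) := fun V => key V
  have hp2 : IsProjectiveLimit ν (fun V : Finset ι => ν.map V.restrict) := fun V => rfl
  exact hp1.unique hp2

theorem result (Γ : Type*) [Group Γ]
    [Countable Γ] (ν : MeasureTheory.Measure (Γ → Bool)) [MeasureTheory.IsProbabilityMeasure ν]
    (hsr : Crest.ProbabilityR.StronglyRayleigh.IsStronglyRayleigh ν)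
    (hinv : Crest.ProbabilityR.StronglyRayleigh.IsShiftInvariant ν) :
    ∃ Φ : (Γ → unitInterval) → (Γ → Bool), Measurable Φ ∧
      (∀ (g : Γ) (u : Γ → unitInterval),
        Φ (Crest.ProbabilityR.StronglyRayleigh.leftShift g u) =
          Crest.ProbabilityR.StronglyRayleigh.leftShift g (Φ u)) ∧
      (Crest.ProbabilityR.Labels.labelMeasure Γ).map Φ = ν := by
  classical
  set P : FDD Γ := fddOf ν with hP
  have hC : ∀ L, CovBound 2 (P.p L) L := fun L => sr_covBound ν hsr L
  have hrel : ∀ g : Γ, Related P P (Equiv.mulLeft g) := by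
    intro g L S hS
    show lawWeights ν _ _ = lawWeights ν _ _
    unfold lawWeights
    congr 1
    have hm : MeasurableSet {ω : Γ → Bool | ∀ i ∈ L, (ω i = true ↔ i ∈ S)} := by
      have : {ω : Γ → Bool | ∀ i ∈ L, (ω i = true ↔ i ∈ S)} = occ L ⁻¹' {S} := by
        ext ω; exact (occ_eq_iff hS ω).symm
      rw [this]; exact measurableSet_occ L S
    rw [← hinv g⁻¹ _ hm]
    congr 1
    ext ω
    have hls : ∀ i, leftShift g⁻¹ ω i = ω (g * i) := fun i => by
      show ω ((g⁻¹)⁻¹ * i) = _
      rw [inv_inv]
    constructor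
    · intro h i hi
      rw [hls]
      have := h (g * i) (by simpa using hi)
      simpa using this
    · intro h i hi
      rw [Finset.mem_map] at hi
      obtain ⟨j, hj, rfl⟩ := hi
      have := h j hj
      rw [hls] at this
      simpa using this
  choose M0 hM0 using fun k : ℕ => good_of_cauchy P (by norm_num : (0:ℝ) ≤ 2) hC k (1 : Γ)
  set Lam : ℕ → Γ → Finset Γ := fun k v => (M0 k).map (Equiv.mulLeft v).toEmbedding with hLam
  have hgood : Good P Lam := by
    intro k v
    filter_upwards [eventually_ge_atTop (Lam k v)] with L hL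
    have := good_relabel (hrel v) (k := k) (v := (1:Γ)) (M0 := M0 k)
      (fun L hL => hM0 k (M0 k) (Finset.Subset.refl _) L hL) L hL
    simpa using this
  obtain ⟨Q, hQm, hQ⟩ := Measure.exists_measurable_map_eq (gaussianReal 0 1)
  set Φ : (Γ → unitInterval) → (Γ → Bool) := fun u => Phi P Lam (fun v => Q (u v)) with hΦ
  have hQm' : Measurable (fun (u : Γ → unitInterval) (v : Γ) => Q (u v)) := by fun_prop
  have hΦm : Measurable Φ := (measurable_Phi P Lam).comp hQm'
  refine ⟨Φ, hΦm, ?_, ?_⟩
  · intro g u
    ext h
    have := Phi_equiv (hrel g) (Lam := Lam) (Lam' := Lam) (fun k v => by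
      simp only [hLam, Finset.map_map]
      congr 1
      ext i
      simp [mul_assoc]) (fun v => Q (u (g⁻¹ * v))) (g⁻¹ * h)
    simp only [Equiv.coe_mulLeft, mul_inv_cancel_left, inv_mul_cancel_left] at this
    simp only [hΦ, leftShift]
    exact this
  · have hprob : IsProbabilityMeasure (Crest.ProbabilityR.Labels.labelMeasure Γ) := by
      unfold Crest.ProbabilityR.Labels.labelMeasure; infer_instance
    have h1 : (Crest.ProbabilityR.Labels.labelMeasure Γ).map
        (fun (u : Γ → unitInterval) (v : Γ) => Q (u v)) = gam Γ := by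
      unfold Crest.ProbabilityR.Labels.labelMeasure gam
      rw [Measure.infinitePi_map_pi (fun _ : Γ => (volume : Measure unitInterval))
        (f := fun _ => Q) (fun _ => hQm)]
      simp_rw [hQ]
    have h2 : (Crest.ProbabilityR.Labels.labelMeasure Γ).map Φ = (gam Γ).map (Phi P Lam) := by
      rw [← h1, Measure.map_map (measurable_Phi P Lam) hQm']
      rfl
    rw [h2]
    have : IsProbabilityMeasure ((gam Γ).map (Phi P Lam)) :=
      Measure.isProbabilityMeasure_map (measurable_Phi P Lam).aemeasurable
    refine law_ext _ _ fun V S hS => ?_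
    have hm : MeasurableSet {ω : Γ → Bool | ∀ i ∈ V, (ω i = true ↔ i ∈ S)} := by
      have : {ω : Γ → Bool | ∀ i ∈ V, (ω i = true ↔ i ∈ S)} = occ V ⁻¹' {S} := by
        ext ω; exact (occ_eq_iff hS ω).symm
      rw [this]; exact measurableSet_occ V S
    rw [Measure.map_apply (measurable_Phi P Lam) hm]
    have h3 := Phi_law P hgood hS
    have h4 : (gam Γ) (Phi P Lam ⁻¹' {ω : Γ → Bool | ∀ i ∈ V, (ω i = true ↔ i ∈ S)}) =
        ENNReal.ofReal (P.p V S) := by
      rw [← h3, ofReal_measureReal]
      rfl
    rw [h4]
    show ENNReal.ofReal (lawWeights ν V S) = _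
    unfold lawWeights
    rw [ENNReal.ofReal_toReal (measure_ne_top _ _)]

end Crest.Agent.S0255
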