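import Crest.Agent.S0324Cover
set_option autoImplicit false
open MeasureTheory
open scoped ENNReal NNReal

namespace Crest.Agent.S0324Geo

lemma volume_stdTri_open :
    volume {p : E2 | 0 ≤ p 0 ∧ 0 < p 1 ∧ p 0 + p 1 ≤ 1} = ENNReal.ofReal (1/2) := by
  have hm : MeasurableSet {q : ℝ × ℝ | 0 ≤ q.1 ∧ 0 < q.2 ∧ q.1 + q.2 ≤ 1} := by
    measurability
  have : {p : E2 | 0 ≤ p 0 ∧ 0 < p 1 ∧ p 0 + p 1 ≤ 1}
      = {p : E2 | (p 0, p 1) ∈ {q : ℝ × ℝ | 0 ≤ q.1 ∧ 0 < q.2 ∧ q.1 + q.2 ≤ 1}} := by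
    rfl
  rw [this, volume_E2 _ hm, Measure.volume_eq_prod, Measure.prod_apply hm]
  have h1 : ∀ x : ℝ, volume (Prod.mk x ⁻¹' {q : ℝ × ℝ | 0 ≤ q.1 ∧ 0 < q.2 ∧ q.1 + q.2 ≤ 1})
      = (Set.Icc (0:ℝ) 1).indicator (fun x => ENNReal.ofReal (1 - x)) x := by
    intro x
    by_cases hx : x ∈ Set.Icc (0:ℝ) 1
    · rw [Set.indicator_of_mem hx]
      have : (Prod.mk x ⁻¹' {q : ℝ × ℝ | 0 ≤ q.1 ∧ 0 < q.2 ∧ q.1 + q.2 ≤ 1}) = Set.Ioc 0 (1 - x) := by
        ext y
        simp only [Set.mem_preimage, Set.mem_ofPred_eq, Set.mem_Ioc]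
        constructor
        · rintro ⟨_, h2, h3⟩; exact ⟨h2, by linarith⟩
        · rintro ⟨h2, h3⟩; exact ⟨hx.1, h2, by linarith⟩
      rw [this, Real.volume_Ioc, sub_zero]
    · rw [Set.indicator_of_notMem hx]
      have : (Prod.mk x ⁻¹' {q : ℝ × ℝ | 0 ≤ q.1 ∧ 0 < q.2 ∧ q.1 + q.2 ≤ 1}) = ∅ := by
        ext y
        simp only [Set.mem_preimage, Set.mem_ofPred_eq, Set.mem_empty_iff_false, iff_false]
        rintro ⟨h1, h2, h3⟩
        exact hx ⟨h1, by linarith⟩
      rw [this, measure_empty]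
  simp_rw [h1]
  rw [lintegral_indicator measurableSet_Icc]
  rw [← ofReal_integral_eq_lintegral_ofReal]
  · congr 1
    rw [integral_Icc_eq_integral_Ioc, ← intervalIntegral.integral_of_le (by norm_num)]
    rw [intervalIntegral.integral_sub (by simp) (by simp)]
    simp
    norm_num
  · apply ContinuousOn.integrableOn_Icc
    fun_prop
  · filter_upwards [ae_restrict_mem measurableSet_Icc] with x hx
    simpa using hx.2

/-- the linear map `pr v` -/
noncomputable def prL (v : E3) : E3 →ₗ[ℝ] E3 where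
  toFun y := pr v y
  map_add' x y := pr_add v x y
  map_smul' c x := pr_smul v c x

lemma pr_unit {v : E3} (hv : ‖v‖ = 1) (y : E3) : pr v y = y - inner ℝ y v • v := by
  simp [pr, hv]

lemma det3_pr {v : E3} (a b : E3) : det3 (pr v a) (pr v b) v = det3 a b v := by
  simp only [det3, pr, PiLp.sub_apply, PiLp.smul_apply, smul_eq_mul]
  ring

lemma proj_eq {v : E3} (hv : ‖v‖ = 1) (S : Set E3) :
    (fun y => y - inner ℝ y v • v) '' S = prL v '' S := by
  apply Set.image_congr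
  intro y _
  exact (pr_unit hv y).symm

/-- a face projects to a triangle of known area -/
lemma face_area {v : E3} (hv : ‖v‖ = 1) (K : Set E3) (P Q R : E3)
    (hP : P ∈ K) (hQ : Q ∈ K) (hR : R ∈ K) (hK : Convex ℝ K) :
    ENNReal.ofReal (|det3 (Q - P) (R - P) v| / 2) ≤ μHE[2] (prL v '' K) := by
  have hv0 : v ≠ 0 := by
    intro h; rw [h, norm_zero] at hv; norm_num at hv
  have h1 : convexHull ℝ {P, Q, R} ⊆ K := by
    apply convexHull_min _ hK
    intro x hx
    simp only [Set.mem_insert_iff, Set.mem_singleton_iff] at hx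
    rcases hx with rfl | rfl | rfl <;> assumption
  have h2 : prL v '' (convexHull ℝ {P, Q, R}) = convexHull ℝ {pr v P, pr v Q, pr v R} := by
    rw [LinearMap.image_convexHull]
    congr 1
    simp only [Set.image_insert_eq, Set.image_singleton]
    rfl
  calc ENNReal.ofReal (|det3 (Q - P) (R - P) v| / 2) = μHE[2] (prL v '' (convexHull ℝ {P, Q, R})) := by
        rw [h2, area_triangle, ← pr_sub, ← pr_sub, area2_pr hv0, hv, div_one]
    _ ≤ _ := measure_mono (Set.image_mono h1)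

/-- two triangles on opposite sides of a common edge -/
lemma quad_area_aux {v : E3} (hv : ‖v‖ = 1) (K : Set E3) (P Q R S : E3)
    (hP : P ∈ K) (hQ : Q ∈ K) (hR : R ∈ K) (hS : S ∈ K) (hK : Convex ℝ K)
    (h1 : 0 < det3 (Q - P) (R - P) v) (h2 : det3 (Q - P) (S - P) v < 0) :
    ENNReal.ofReal ((det3 (Q - P) (R - P) v - det3 (Q - P) (S - P) v) / 2) ≤ μHE[2] (prL v '' K) := by
  have hv0 : v ≠ 0 := by
    intro h; rw [h, norm_zero] at hv; norm_num at hv
  set T : Set E2 := {p : E2 | 0 ≤ p 0 ∧ 0 < p 1 ∧ p 0 + p 1 ≤ 1} with hT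
  set f1 : E2 → E3 := fun z => pr v P + lin2 (pr v (Q - P)) (pr v (R - P)) z with hf1
  set f2 : E2 → E3 := fun z => pr v P + lin2 (pr v (Q - P)) (pr v (S - P)) z with hf2
  have ha1 : μHE[2] (f1 '' T) = ENNReal.ofReal (det3 (Q - P) (R - P) v / 2) := by
    rw [hf1, area_image, volume_stdTri_open, area2_pr hv0, hv, div_one, abs_of_pos h1,
      ← ENNReal.ofReal_mul h1.le]
    congr 1; ring
  have ha2 : μHE[2] (f2 '' T) = ENNReal.ofReal (-det3 (Q - P) (S - P) v / 2) := by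
    rw [hf2, area_image, volume_stdTri_open, area2_pr hv0, hv, div_one, abs_of_neg h2,
      ← ENNReal.ofReal_mul (by linarith)]
    congr 1; ring
  -- the separating functional
  set φ : E3 → ℝ := fun x => det3 (Q - P) (x - P) v with hφ
  have hφ1 : ∀ z ∈ T, 0 < φ (f1 z) := by
    intro z hz
    have : φ (f1 z) = z 1 * det3 (Q - P) (R - P) v := by
      simp only [hφ, hf1, det3, pr, lin2_apply, PiLp.sub_apply, PiLp.smul_apply, PiLp.add_apply, smul_eq_mul]
      ring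
    rw [this]; exact mul_pos hz.2.1 h1
  have hφ2 : ∀ z ∈ T, φ (f2 z) < 0 := by
    intro z hz
    have : φ (f2 z) = z 1 * det3 (Q - P) (S - P) v := by
      simp only [hφ, hf2, det3, pr, lin2_apply, PiLp.sub_apply, PiLp.smul_apply, PiLp.add_apply, smul_eq_mul]
      ring
    rw [this]; exact mul_neg_of_pos_of_neg hz.2.1 h2
  have hsub1 : f1 '' T ⊆ prL v '' K := by
    rintro _ ⟨z, hz, rfl⟩
    refine ⟨P + z 0 • (Q - P) + z 1 • (R - P), ?_, ?_⟩
    · have := hK.sum_mem (t := Finset.univ) (w := ![1 - z 0 - z 1, z 0, z 1]) (z := ![P, Q, R])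
        (by intro i _; obtain ⟨a1, a2, a3⟩ := hz; fin_cases i <;> simp <;> linarith) (by simp [Fin.sum_univ_three]; ring)
        (by intro i _; fin_cases i <;> simp [hP, hQ, hR])
      convert this using 1
      simp [Fin.sum_univ_three]
      module
    · show pr v _ = _
      simp only [hf1, lin2_apply, pr_add, pr_smul]
      abel
  have hsub2 : f2 '' T ⊆ prL v '' K := by
    rintro _ ⟨z, hz, rfl⟩
    refine ⟨P + z 0 • (Q - P) + z 1 • (S - P), ?_, ?_⟩
    · have := hK.sum_mem (t := Finset.univ) (w := ![1 - z 0 - z 1, z 0, z 1]) (z := ![P, Q, S])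
        (by intro i _; obtain ⟨a1, a2, a3⟩ := hz; fin_cases i <;> simp <;> linarith) (by simp [Fin.sum_univ_three]; ring)
        (by intro i _; fin_cases i <;> simp [hP, hQ, hS])
      convert this using 1
      simp [Fin.sum_univ_three]
      module
    · show pr v _ = _
      simp only [hf2, lin2_apply, pr_add, pr_smul]
      abel
  have hcont : Continuous φ := by
    simp only [hφ, det3]
    fun_prop
  have hopen : MeasurableSet {x : E3 | 0 < φ x} := (isOpen_lt continuous_const hcont).measurableSet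
  have hle : μHE[2] (f1 '' T) + μHE[2] (f2 '' T) ≤ μHE[2] (prL v '' K) := by
    rw [← measure_inter_add_sdiff (prL v '' K) hopen]
    apply add_le_add
    · apply measure_mono
      rintro _ ⟨z, hz, rfl⟩
      exact ⟨hsub1 ⟨z, hz, rfl⟩, hφ1 z hz⟩
    · apply measure_mono
      rintro _ ⟨z, hz, rfl⟩
      refine ⟨hsub2 ⟨z, hz, rfl⟩, ?_⟩
      simp only [Set.mem_ofPred_eq, not_lt]
      exact (hφ2 z hz).le
  rw [ha1, ha2, ← ENNReal.ofReal_add (by linarith) (by linarith)] at hle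
  convert hle using 2
  ring

lemma det3_sub_right (a b c v : E3) : det3 a (b - c) v = det3 a b v - det3 a c v := by
  simp only [det3, PiLp.sub_apply]; ring

/-- projected area dominates half of the cross product of two "diagonals" -/
lemma quad_area {v : E3} (hv : ‖v‖ = 1) (K : Set E3) (P Q R S : E3)
    (hP : P ∈ K) (hQ : Q ∈ K) (hR : R ∈ K) (hS : S ∈ K) (hK : Convex ℝ K) :
    ENNReal.ofReal (|det3 (Q - P) (R - S) v| / 2) ≤ μHE[2] (prL v '' K) := by
  have e : det3 (Q - P) (R - S) v = det3 (Q - P) (R - P) v - det3 (Q - P) (S - P) v := by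
    rw [← det3_sub_right]; congr 1; abel
  have f1 := face_area hv K P Q R hP hQ hR hK
  have f2 := face_area hv K P Q S hP hQ hS hK
  rcases lt_trichotomy (det3 (Q - P) (R - P) v) 0 with h1 | h1 | h1 <;>
  rcases lt_trichotomy (det3 (Q - P) (S - P) v) 0 with h2 | h2 | h2
  · rcases le_total (det3 (Q - P) (R - P) v) (det3 (Q - P) (S - P) v) with h3 | h3
    · refine le_trans (ENNReal.ofReal_le_ofReal ?_) f1
      rw [e, abs_of_nonpos (by linarith), abs_of_neg h1]; linarith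
    · refine le_trans (ENNReal.ofReal_le_ofReal ?_) f2
      rw [e, abs_of_nonneg (by linarith), abs_of_neg h2]; linarith
  · refine le_trans (ENNReal.ofReal_le_ofReal ?_) f1
    rw [e, h2, sub_zero]
  · have := quad_area_aux hv K P Q S R hP hQ hS hR hK h2 h1
    refine le_trans (ENNReal.ofReal_le_ofReal ?_) this
    rw [e, abs_of_neg (by linarith)]; linarith
  · refine le_trans (ENNReal.ofReal_le_ofReal ?_) f2
    rw [e, h1, zero_sub, abs_neg]
  · refine le_trans (ENNReal.ofReal_le_ofReal ?_) f2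
    rw [e, h1, zero_sub, abs_neg]
  · refine le_trans (ENNReal.ofReal_le_ofReal ?_) f2
    rw [e, h1, zero_sub, abs_neg]
  · have := quad_area_aux hv K P Q R S hP hQ hR hS hK h1 h2
    refine le_trans (ENNReal.ofReal_le_ofReal ?_) this
    rw [e, abs_of_pos (by linarith)]
  · refine le_trans (ENNReal.ofReal_le_ofReal ?_) f1
    rw [e, h2, sub_zero]
  · rcases le_total (det3 (Q - P) (R - P) v) (det3 (Q - P) (S - P) v) with h3 | h3
    · refine le_trans (ENNReal.ofReal_le_ofReal ?_) f2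
      rw [e, abs_of_nonpos (by linarith), abs_of_pos h2]; linarith
    · refine le_trans (ENNReal.ofReal_le_ofReal ?_) f1
      rw [e, abs_of_nonneg (by linarith), abs_of_pos h1]; linarith

lemma norm_ineq (a b c r : ℝ) (hr : r^2 = 2) (hr0 : 0 < r) (h : a^2 + b^2 + c^2 = 1)
    (h1 : 2 * |c| < r) (h2 : r * |a + b| < r) (h3 : r * |a - b| < r)
    (h4 : |c - r * b| < r) (h5 : |c + r * b| < r) (h6 : |r * a + c| < r) (h7 : |-(r*a) + c| < r) : False := by
  have hab1 : |a + b| < 1 := by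
    by_contra hh; push Not at hh; nlinarith
  have hab2 : |a - b| < 1 := by
    by_contra hh; push Not at hh; nlinarith
  obtain ⟨p1, p2⟩ := abs_lt.mp hab1
  obtain ⟨p3, p4⟩ := abs_lt.mp hab2
  obtain ⟨q1, q2⟩ := abs_lt.mp h4
  obtain ⟨q3, q4⟩ := abs_lt.mp h5
  obtain ⟨q5, q6⟩ := abs_lt.mp h6
  obtain ⟨q7, q8⟩ := abs_lt.mp h7
  obtain ⟨α, hα⟩ : ∃ α, α = |a| := ⟨_, rfl⟩
  obtain ⟨β, hβ⟩ : ∃ β, β = |b| := ⟨_, rfl⟩
  obtain ⟨γ, hγ⟩ : ∃ γ, γ = |c| := ⟨_, rfl⟩
  have hα0 : 0 ≤ α := by rw [hα]; exact abs_nonneg _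
  have hβ0 : 0 ≤ β := by rw [hβ]; exact abs_nonneg _
  have hγ0 : 0 ≤ γ := by rw [hγ]; exact abs_nonneg _
  have hab : α + β < 1 := by
    rw [hα, hβ]
    rcases abs_cases a with ⟨ha, _⟩ | ⟨ha, _⟩ <;> rcases abs_cases b with ⟨hb, _⟩ | ⟨hb, _⟩ <;>
      rw [ha, hb] <;> linarith
  have hga : γ + r * α < r := by
    rw [hα, hγ]
    rcases abs_cases a with ⟨ha, _⟩ | ⟨ha, _⟩ <;> rcases abs_cases c with ⟨hb, _⟩ | ⟨hb, _⟩ <;>
      rw [ha, hb] <;> linarith
  have hgb : γ + r * β < r := by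
    rw [hβ, hγ]
    rcases abs_cases b with ⟨ha, _⟩ | ⟨ha, _⟩ <;> rcases abs_cases c with ⟨hb, _⟩ | ⟨hb, _⟩ <;>
      rw [ha, hb] <;> linarith
  have hsum : α^2 + β^2 + γ^2 = 1 := by
    rw [hα, hβ, hγ, sq_abs, sq_abs, sq_abs]; exact h
  have hγ1 : 2 * γ < r := by rw [hγ]; exact h1
  clear hα hβ hγ h h1 h2 h3 h4 h5 h6 h7 hab1 hab2 p1 p2 p3 p4 q1 q2 q3 q4 q5 q6 q7 q8
  -- wlog α ≥ β
  have key : ∀ α β : ℝ, 0 ≤ α → 0 ≤ β → β ≤ α → α + β < 1 → γ + r * α < r → α^2+β^2+γ^2 = 1 → False := by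
    intro α β hα hβ hle hab hga hs
    have hγ2 : γ^2 < 1/2 := by nlinarith
    rcases le_or_gt α (1/2) with h | h
    · nlinarith
    · -- α ∈ (1/2, 1 - γ/r)
      have e1 : β^2 < (1-α)^2 := by nlinarith
      have e2 : α^2 + (1-α)^2 + γ^2 ≤ 1 := by
        -- γ < r (1-α)
        have e3 : γ < r * (1 - α) := by linarith
        have e4 : γ^2 ≤ γ * (r * (1-α)) := by nlinarith
        have e5 : γ^2 ≤ 2 * (1-α)^2 := by
          have : γ^2 ≤ (r*(1-α))^2 := pow_le_pow_left₀ hγ0 e3.le 2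
          rw [mul_pow, hr] at this; exact this
        nlinarith
      linarith
  rcases le_total β α with h | h
  · exact key α β hα0 hβ0 h hab hga hsum
  · exact key β α hβ0 hα0 h (by linarith) hgb (by linarith)


lemma lt_of_ofReal {x y : ℝ} (hx : 0 ≤ x) (h : ENNReal.ofReal x < ENNReal.ofReal y) : x < y :=
  (ENNReal.ofReal_lt_ofReal_iff_of_nonneg hx).mp h

theorem min_proj {v : E3} (hv : ‖v‖ = 1) :
    ENNReal.ofReal (Real.sqrt 2) ≤ μHE[2] (prL v '' convexHull ℝ VS) := by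
  by_contra hcon
  push Not at hcon
  have hK := convex_convexHull ℝ VS
  have m1 : (!₂[1, 0, 0] : E3) ∈ convexHull ℝ VS := subset_convexHull _ _ (by simp [VS])
  have m2 : (!₂[-1, 0, 0] : E3) ∈ convexHull ℝ VS := subset_convexHull _ _ (by simp [VS])
  have m3 : (!₂[0, 1, Real.sqrt 2] : E3) ∈ convexHull ℝ VS := subset_convexHull _ _ (by simp [VS])
  have m4 : (!₂[0, -1, Real.sqrt 2] : E3) ∈ convexHull ℝ VS := subset_convexHull _ _ (by simp [VS])
  have q1 := lt_of_ofReal (by positivity) ((quad_area hv _ _ _ _ _ m1 m2 m3 m4 hK).trans_lt hcon)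
  have q2 := lt_of_ofReal (by positivity) ((quad_area hv _ _ _ _ _ m1 m3 m2 m4 hK).trans_lt hcon)
  have q3 := lt_of_ofReal (by positivity) ((quad_area hv _ _ _ _ _ m1 m4 m2 m3 hK).trans_lt hcon)
  have f1 := lt_of_ofReal (by positivity) ((face_area hv _ _ _ _ m1 m2 m3 hK).trans_lt hcon)
  have f2 := lt_of_ofReal (by positivity) ((face_area hv _ _ _ _ m1 m2 m4 hK).trans_lt hcon)
  have f3 := lt_of_ofReal (by positivity) ((face_area hv _ _ _ _ m1 m3 m4 hK).trans_lt hcon)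
  have f4 := lt_of_ofReal (by positivity) ((face_area hv _ _ _ _ m2 m3 m4 hK).trans_lt hcon)
  have hr0 := sqrt2_pos
  have hr := sqrt2_sq
  set r := Real.sqrt 2 with hrdef
  have hnorm : v 0 ^ 2 + v 1 ^ 2 + v 2 ^ 2 = 1 := by
    rw [← normsq3, hv]; norm_num
  have e1 : det3 (!₂[-1, 0, 0] - !₂[1, 0, 0]) (!₂[0, 1, r] - !₂[0, -1, r]) v = (-4) * v 2 := by
    simp [det3]; ring
  have e2 : det3 (!₂[0, 1, r] - !₂[1, 0, 0]) (!₂[-1, 0, 0] - !₂[0, -1, r]) v = (-2 * r) * (v 0 + v 1) := by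
    simp [det3]; ring
  have e3 : det3 (!₂[0, -1, r] - !₂[1, 0, 0]) (!₂[-1, 0, 0] - !₂[0, 1, r]) v = (2 * r) * (v 0 - v 1) := by
    simp [det3]; ring
  have e4 : det3 (!₂[-1, 0, 0] - !₂[1, 0, 0]) (!₂[0, 1, r] - !₂[1, 0, 0]) v = (-2) * (v 2 - r * v 1) := by
    simp [det3]; ring
  have e5 : det3 (!₂[-1, 0, 0] - !₂[1, 0, 0]) (!₂[0, -1, r] - !₂[1, 0, 0]) v = 2 * (v 2 + r * v 1) := by
    simp [det3]; ring
  have e6 : det3 (!₂[0, 1, r] - !₂[1, 0, 0]) (!₂[0, -1, r] - !₂[1, 0, 0]) v = 2 * (r * v 0 + v 2) := by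
    simp [det3]; ring
  have e7 : det3 (!₂[0, 1, r] - !₂[-1, 0, 0]) (!₂[0, -1, r] - !₂[-1, 0, 0]) v = (-2) * (-(r * v 0) + v 2) := by
    simp [det3]; ring
  rw [e1, abs_mul] at q1
  rw [e2, abs_mul] at q2
  rw [e3, abs_mul] at q3
  rw [e4, abs_mul] at f1
  rw [e5, abs_mul] at f2
  rw [e6, abs_mul] at f3
  rw [e7, abs_mul] at f4
  have ar1 : |(-2 * r)| = 2 * r := by rw [abs_mul, abs_of_pos hr0]; norm_num
  have ar2 : |(2 * r)| = 2 * r := by rw [abs_mul, abs_of_pos hr0]; norm_num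
  rw [ar1] at q2
  rw [ar2] at q3
  norm_num at q1 f1 f2 f3 f4
  exact norm_ineq (v 0) (v 1) (v 2) r hr hr0 hnorm (by linarith) (by linarith) (by linarith)
    (by linarith) (by linarith) (by linarith) (by linarith)


lemma finite_area {v : E3} (hv : v ≠ 0) (S : Set E3) (hS : Bornology.IsBounded S)
    (hp : ∀ x ∈ S, inner ℝ x v = 0) : μHE[2] S < ⊤ := by
  have : Fact (Module.finrank ℝ E3 = 2 + 1) := ⟨by simp⟩
  have hfin : Module.finrank ℝ (ℝ ∙ v)ᗮ = 2 := Submodule.finrank_orthogonal_span_singleton hv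
  set S' : Set (ℝ ∙ v)ᗮ := Subtype.val ⁻¹' S with hS'
  have hSS : S = Subtype.val '' S' := by
    ext x
    simp only [hS', Set.mem_image, Set.mem_preimage]
    constructor
    · intro hx
      refine ⟨⟨x, ?_⟩, hx, rfl⟩
      rw [Submodule.mem_orthogonal_singleton_iff_inner_left]
      exact hp x hx
    · rintro ⟨y, hy, rfl⟩; exact hy
  have hiso : Isometry (Subtype.val : (ℝ ∙ v)ᗮ → E3) := isometry_subtype_coe
  rw [hSS, hiso.euclideanHausdorffMeasure_image, ← hfin,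
    InnerProductSpace.euclideanHausdorffMeasure_eq_volume]
  apply Bornology.IsBounded.measure_lt_top
  rw [hS']
  exact (hiso.antilipschitz).isBounded_preimage hS

lemma bounded_K : Bornology.IsBounded (convexHull ℝ VS) := by
  rw [isBounded_convexHull]
  unfold VS
  exact (Set.toFinite _).isBounded

lemma finite_proj {v : E3} (hv : ‖v‖ = 1) {K : Set E3} (hK : Bornology.IsBounded K) :
    μHE[2] (prL v '' K) < ⊤ := by
  have hv0 : v ≠ 0 := by
    intro h; rw [h, norm_zero] at hv; norm_num at hv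
  apply finite_area hv0
  · exact (LinearMap.toContinuousLinearMap (prL v)).lipschitz.isBounded_image hK
  · rintro _ ⟨y, _, rfl⟩
    exact inner_pr hv0 y

lemma min_proj_real {v : E3} (hv : ‖v‖ = 1) :
    Real.sqrt 2 ≤ (μHE[2] (prL v '' convexHull ℝ VS)).toReal := by
  rw [← ENNReal.ofReal_le_iff_le_toReal (finite_proj hv bounded_K).ne]
  exact min_proj hv

/-- the normalising constant -/
noncomputable def hc : ℝ≥0 := Measure.addHaarScalarFactor (volume : Measure (EuclideanSpace ℝ (Fin 2))) μH[(2:ℕ)]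

lemma hc_ne : hc ≠ 0 := Measure.addHaarScalarFactor_volume_hausdorffMeasure_ne_zero 2

lemma muH_eq (S : Set E3) : (μHE[2] S).toReal = hc * (μH[(2:ℝ)] S).toReal := by
  rw [Measure.euclideanHausdorffMeasure_def, Measure.smul_apply]
  have h2 : (μH[((2:ℕ):ℝ)] : Measure E3) = μH[(2:ℝ)] := by norm_num
  rw [← hc, h2, ENNReal.smul_def, smul_eq_mul, ENNReal.toReal_mul]
  rfl


end Crest.Agent.S0324Geo
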