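import Mathlib
set_option autoImplicit false

namespace Crest.Agent.S0324Geo

lemma key_ineq (η Δ a b x y s : ℝ) (hη : η = 1/2000) (hΔ : Δ = 1/2000000) (hb : b = a + Δ)
    (ha1 : -1 ≤ a) (hb1 : b ≤ 1) (hx : |x| ≤ 1 - s) (hy : |y| ≤ s)
    (h1 : a * s + η * x * (1 - a^2) ≤ y) (h2 : y ≤ b * s + η * x * (1 - b^2))
    (hI : s ≤ 1/2 + 4*η*x*y + 4*η^2*(y^2-x^2) + 8*η^2*(y^4-x^4)) :
    s - η * x * (a + b) ≤ 1/2 + η^2 * (((a+b)/2)^2 + ((a+b)/2)^4) + 45 * η^3 := by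
  set m := (a+b)/2 with hm
  have hab : a + b = 2*m := by rw [hm]; ring
  have ham : a = m - Δ/2 := by rw [hm, hb]; ring
  have hbm : b = m + Δ/2 := by rw [hm, hb]; ring
  have hm1 : |m| ≤ 1 := by
    rw [abs_le]; constructor <;> [skip; skip] <;> rw [hm] <;> linarith
  have hηpos : 0 < η := by rw [hη]; norm_num
  have hηm : η * |x| * |m| ≤ η * |x| := by
    have := mul_le_mul_of_nonneg_left hm1 (mul_nonneg hηpos.le (abs_nonneg x))
    linarith
  have hxm : |η * x * m| ≤ η * |x| := by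
    rw [abs_mul, abs_mul, abs_of_pos hηpos]; exact hηm
  rw [hab]
  set S := s - η * x * (2*m) with hS
  by_contra hcon
  push Not at hcon
  have hm2 : 0 ≤ m^2 := sq_nonneg m
  have hm4 : 0 ≤ m^4 := by positivity
  have hη2 : 0 ≤ η^2 * (m^2 + m^4) := by positivity
  have hη3 : 0 ≤ 45 * η^3 := by positivity
  have hD0 : 0 < S - 1/2 := by linarith
  obtain ⟨D, hD⟩ : ∃ D, D = S - 1/2 := ⟨_, rfl⟩
  have hDpos : 0 < D := by rw [hD]; exact hD0
  have hs : s = 1/2 + D + 2 * (η * x * m) := by rw [hD, hS]; ring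
  obtain ⟨hxm1, hxm2⟩ := abs_le.mp hxm
  have hx0 : 0 ≤ |x| := abs_nonneg x
  -- step 1
  have hx501 : |x| ≤ 0.501 := by
    have : |x| ≤ 1/2 + 2 * (η * |x|) := by linarith
    rw [hη] at this
    linarith
  -- step 2
  have hy1 : a * S + η * x * (1 + a*b) ≤ y := by
    have : a * S + η * x * (1 + a*b) = a * s + η * x * (1 - a^2) := by
      rw [hS, ham, hbm]; ring
    linarith
  have hy2 : y ≤ b * S + η * x * (1 + a*b) := by
    have : b * S + η * x * (1 + a*b) = b * s + η * x * (1 - b^2) := by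
      rw [hS, ham, hbm]; ring
    linarith
  have hS' : S = 1/2 + D := by rw [hD]; ring
  have hSle : S ≤ 1.002 := by
    have : s ≤ 1 := by linarith
    have : S ≤ 1 + 2 * (η * |x|) := by rw [hS]; linarith
    rw [hη] at this
    linarith
  have hSpos : 0 ≤ S := by linarith
  obtain ⟨e, he⟩ : ∃ e, e = y - m * S - η * x * (1 + a*b) := ⟨_, rfl⟩
  have hΔS : Δ/2 * S ≤ 0.51 * Δ := by
    have hΔ0 : 0 < Δ := by rw [hΔ]; norm_num
    have := mul_le_mul_of_nonneg_left hSle hΔ0.le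
    linarith
  have he1 : e ≤ 0.51 * Δ := by
    have h20 : b * S = m * S + Δ/2 * S := by rw [hbm]; ring
    linarith
  have he2 : -(0.51 * Δ) ≤ e := by
    have h20 : a * S = m * S - Δ/2 * S := by rw [ham]; ring
    linarith
  have heabs : |e| ≤ 0.51 * Δ := abs_le.mpr ⟨he2, he1⟩
  have hab2 : a * b = m^2 - Δ^2/4 := by rw [ham, hbm]; ring
  have hm2le : m^2 ≤ 1 := (sq_le_one_iff_abs_le_one m).mpr hm1
  have hΔ2 : 0 ≤ Δ^2/4 := by positivity
  have hΔ2' : Δ^2/4 ≤ 1 := by rw [hΔ]; norm_num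
  have hab3 : 0 ≤ 1 + a*b := by rw [hab2]; linarith
  have hab4 : 1 + a*b ≤ 2 := by rw [hab2]; linarith
  obtain ⟨δ, hδ⟩ : ∃ δ, δ = y - m/2 := ⟨_, rfl⟩
  have hδ' : δ = m * D + e + η * x * (1 + a*b) := by rw [hδ, he, hS']; ring
  have hmD : |m * D| ≤ D := by
    rw [abs_mul, abs_of_pos hDpos]
    exact mul_le_of_le_one_left hDpos.le hm1
  have hxab : |η * x * (1+a*b)| ≤ η * |x| * 2 := by
    rw [abs_mul, abs_mul, abs_of_pos hηpos, abs_of_nonneg hab3]
    exact mul_le_mul_of_nonneg_left hab4 (by positivity)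
  have hδabs : |δ| ≤ D + 0.51 * Δ + 1.002 * η := by
    rw [hδ']
    have h3 : |m * D + e + η * x * (1+a*b)| ≤ |m*D| + |e| + |η * x * (1+a*b)| := abs_add_three _ _ _
    have h4 : η * |x| * 2 ≤ 1.002 * η := by
      have := mul_le_mul_of_nonneg_left hx501 hηpos.le
      linarith
    linarith
  -- step 3
  have hI' : D ≤ 4*η*(x*δ) + 4*η^2*(y^2-x^2) + 8*η^2*(y^4-x^4) := by
    have : 4*η*(x*δ) = 4*η*x*y - 2 * (η*x*m) := by rw [hδ]; ring
    rw [this]
    linarith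
  have hy1' : y^2 ≤ 1 := by
    have : |y| ≤ 1 := by linarith
    exact (sq_le_one_iff_abs_le_one y).mpr this
  have hy4' : y^4 ≤ 1 := by
    have : y^4 = (y^2)^2 := by ring
    rw [this]
    exact pow_le_one₀ (sq_nonneg y) hy1'
  have hx2 : 0 ≤ x^2 := sq_nonneg x
  have hx4 : 0 ≤ x^4 := by positivity
  have hxδ : x * δ ≤ 0.501 * |δ| := by
    calc x * δ ≤ |x * δ| := le_abs_self _
      _ = |x| * |δ| := abs_mul _ _
      _ ≤ 0.501 * |δ| := mul_le_mul_of_nonneg_right hx501 (abs_nonneg _)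
  have hDcrude : D ≤ 14.1 * η^2 := by
    have h5 : 4*η*(x*δ) ≤ 4*η*(0.501 * (D + 0.51 * Δ + 1.002 * η)) := by
      apply mul_le_mul_of_nonneg_left _ (by positivity)
      linarith
    have h6 : 4*η^2*(y^2-x^2) ≤ 4*η^2*1 := by
      apply mul_le_mul_of_nonneg_left _ (by positivity)
      linarith
    have h7 : 8*η^2*(y^4-x^4) ≤ 8*η^2*1 := by
      apply mul_le_mul_of_nonneg_left _ (by positivity)
      linarith
    rw [hη, hΔ] at h5
    rw [hη] at h6 h7 hI' ⊢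
    norm_num at h5 h6 h7 hI' ⊢
    linarith
  -- step 4
  have hδ1 : |δ| ≤ 1.01 * η := by
    rw [hη, hΔ] at hδabs
    rw [hη] at hDcrude ⊢
    norm_num at hδabs hDcrude ⊢
    linarith
  -- step 5
  obtain ⟨hδl, hδu⟩ := abs_le.mp hδ1
  obtain ⟨hml, hmu⟩ := abs_le.mp hm1
  have hyδ : y = m/2 + δ := by rw [hδ]; ring
  have hmδ : |m * δ| ≤ |δ| := by
    rw [abs_mul]; exact mul_le_of_le_one_left (abs_nonneg δ) hm1
  have hδ2 : δ^2 ≤ 0.001 * η := by
    have : δ^2 = |δ|^2 := (sq_abs δ).symm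
    rw [this]
    have h0 := abs_nonneg δ
    have : |δ|^2 ≤ (1.01*η) * (1.01 * η) := by
      rw [sq]; exact mul_le_mul hδ1 hδ1 h0 (by positivity)
    rw [hη] at this ⊢
    norm_num at this ⊢
    linarith
  have hY : y^2 ≤ m^2/4 + 1.012 * η := by
    have h21 : y^2 = m^2/4 + m * δ + δ^2 := by rw [hyδ]; ring
    have := (abs_le.mp hmδ).2
    linarith
  have hY' : y^2 + m^2/4 ≤ 0.51 := by
    have : (1.012:ℝ) * η ≤ 0.001 := by rw [hη]; norm_num
    linarith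
  have hY4 : y^4 ≤ m^4/16 + 0.52 * η := by
    have h8 : y^4 - m^4/16 = (y^2 - m^2/4) * (y^2 + m^2/4) := by ring
    have h9 : (y^2 - m^2/4) * (y^2 + m^2/4) ≤ (1.012 * η) * (y^2 + m^2/4) := by
      apply mul_le_mul_of_nonneg_right _ (by positivity)
      linarith
    have h10 : (1.012 * η) * (y^2 + m^2/4) ≤ (1.012 * η) * 0.51 := by
      apply mul_le_mul_of_nonneg_left hY' (by positivity)
    linarith
  have hx1 : 4*η*(x*δ) ≤ 4*η*(0.501 * (D + 0.51 * Δ)) + 4*η^2*(x^2*(1+m^2)) := by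
    have h11 : 4*η*(x*δ) = 4*η*(x*(m*D+e)) + 4*η^2*(x^2*(1+a*b)) := by rw [hδ']; ring
    rw [h11]
    have h12 : x*(m*D+e) ≤ 0.501 * (D + 0.51 * Δ) := by
      calc x * (m*D+e) ≤ |x * (m*D+e)| := le_abs_self _
        _ = |x| * |m*D+e| := abs_mul _ _
        _ ≤ 0.501 * (D + 0.51 * Δ) := by
            apply mul_le_mul hx501 _ (abs_nonneg _) (by norm_num)
            have := abs_add_le (m*D) e
            linarith
    have h13 : 4*η*(x*(m*D+e)) ≤ 4*η*(0.501 * (D + 0.51 * Δ)) :=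
      mul_le_mul_of_nonneg_left h12 (by positivity)
    have h14 : 4*η^2*(x^2*(1+a*b)) ≤ 4*η^2*(x^2*(1+m^2)) := by
      apply mul_le_mul_of_nonneg_left _ (by positivity)
      apply mul_le_mul_of_nonneg_left _ hx2
      rw [hab2]; linarith
    linarith
  have hfin : D ≤ 4*η*(0.501 * (D + 0.51 * Δ)) + η^2 * (m^2 + m^4) + 8.3 * η^3 := by
    have h15 : 4*η^2*(y^2-x^2) ≤ 4*η^2*(m^2/4 + 1.012 * η - x^2) := by
      apply mul_le_mul_of_nonneg_left _ (by positivity)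
      linarith
    have h16 : 8*η^2*(y^4-x^4) ≤ 8*η^2*(m^4/16 + 0.52 * η - x^4) := by
      apply mul_le_mul_of_nonneg_left _ (by positivity)
      linarith
    have h17 : 0 ≤ 8 * η^2 * (x^2 - m^2/4)^2 := by positivity
    have h22 : 8 * η^2 * (x^2 - m^2/4)^2 = 8*η^2*x^4 - 4 * η^2*(x^2 * m^2) + η^2 * m^4/2 := by ring
    have h23 : 4*η^2*(m^2/4 + 1.012 * η - x^2) = η^2 * m^2 + 4.048 * η^3 - 4*η^2*x^2 := by ring
    have h24 : 8*η^2*(m^4/16 + 0.52 * η - x^4) = η^2 * m^4/2 + 4.16*η^3 - 8*η^2*x^4 := by ring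
    have h25 : 4*η^2*(x^2*(1+m^2)) = 4*η^2*x^2 + 4*η^2*(x^2*m^2) := by ring
    have h26 : 0 ≤ η^3 := by positivity
    linarith
  have h18 : 4*η*(0.501 * (D + 0.51 * Δ)) ≤ 4*η*(0.501 * (14.1 * η^2 + 0.51 * Δ)) := by
    apply mul_le_mul_of_nonneg_left _ (by positivity)
    linarith
  have h19 : 4*η*(0.501 * (14.1 * η^2 + 0.51 * Δ)) + 8.3 * η^3 ≤ 45 * η^3 := by
    rw [hη, hΔ]; norm_num
  linarith

/-- nodes -/
noncomputable def uu (i : ℕ) : ℝ := -1 + i * (1/2000000)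

/-- heights -/
noncomputable def HH (i : ℕ) : ℝ :=
  1/2 + (1/2000)^2 * (((uu i + uu (i+1))/2)^2 + ((uu i + uu (i+1))/2)^4) + 45 * (1/2000)^3

/-- The interface. -/
noncomputable def II (x y : ℝ) : ℝ :=
  1/2 + 4*(1/2000)*x*y + 4*(1/2000)^2*(y^2-x^2) + 8*(1/2000)^2*(y^4-x^4)

lemma HH_pos (i : ℕ) : 0 < HH i := by
  unfold HH; positivity

lemma uu_succ (i : ℕ) : uu (i+1) = uu i + 1/2000000 := by
  unfold uu; push_cast; ring

lemma exists_wedge (x y s : ℝ) (hy : |y| ≤ s) :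
    ∃ i < 4000000, uu i * s + (1/2000) * x * (1 - (uu i)^2) ≤ y ∧
      y ≤ uu (i+1) * s + (1/2000) * x * (1 - (uu (i+1))^2) := by
  classical
  obtain ⟨hy1, hy2⟩ := abs_le.mp hy
  set F : ℕ → ℝ := fun i => uu i * s + (1/2000) * x * (1 - (uu i)^2) with hF
  have hF0 : F 0 ≤ y := by
    simp only [hF, uu]; norm_num; linarith
  have hFN : y ≤ F (3999999+1) := by
    simp only [hF, uu]; norm_num; linarith
  have hex : ∃ n, y ≤ F (n+1) := ⟨3999999, hFN⟩
  refine ⟨Nat.find hex, ?_, ?_, Nat.find_spec hex⟩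
  · have := Nat.find_min' hex hFN
    omega
  · rcases Nat.eq_zero_or_pos (Nat.find hex) with h0 | h0
    · rw [h0]; exact hF0
    · have := Nat.find_min hex (m := Nat.find hex - 1) (by omega)
      rw [Nat.sub_add_cancel h0] at this
      exact (not_le.mp this).le

lemma cover2d (x y s : ℝ) (hx : |x| ≤ 1 - s) (hy : |y| ≤ s) (hI : s ≤ II x y) :
    ∃ i < 4000000, ∃ α β : ℝ, 0 ≤ α ∧ 0 ≤ β ∧ α + β ≤ 1 ∧
      y = α * (HH i * uu i) + β * (HH i * uu (i+1)) + x * ((1/2000) * (1 + uu i * uu (i+1))) ∧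
      s = α * HH i + β * HH i + x * ((1/2000) * (uu i + uu (i+1))) := by
  obtain ⟨i, hi, h1, h2⟩ := exists_wedge x y s hy
  refine ⟨i, hi, ?_⟩
  have hiR : (i:ℝ) ≤ 3999999 := by
    have : i ≤ 3999999 := by omega
    exact_mod_cast this
  have hu : uu (i+1) = uu i + 1/2000000 := uu_succ i
  have ha1 : -1 ≤ uu i := by unfold uu; have : (0:ℝ) ≤ i := Nat.cast_nonneg i; linarith
  have hb1 : uu (i+1) ≤ 1 := by
    rw [hu]; unfold uu; linarith
  have hkey := key_ineq (1/2000) (1/2000000) (uu i) (uu (i+1)) x y s rfl rfl hu ha1 hb1 hx hy h1 h2 hI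
  have hH : s - (1/2000) * x * (uu i + uu (i+1)) ≤ HH i := by
    unfold HH; exact hkey
  have hHp := HH_pos i
  set H := HH i with hHdef
  set a := uu i with ha
  set b := uu (i+1) with hb
  have hba : b - a = 1/2000000 := by rw [hu]; ring
  refine ⟨(b * (s - (1/2000) * x * (a+b)) - (y - x * ((1/2000)*(1+a*b)))) / (H * (1/2000000)),
    ((y - x * ((1/2000)*(1+a*b))) - a * (s - (1/2000) * x * (a+b))) / (H * (1/2000000)), ?_, ?_, ?_, ?_, ?_⟩
  · apply div_nonneg _ (by positivity)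
    linarith
  · apply div_nonneg _ (by positivity)
    linarith
  · rw [← add_div, div_le_one (by positivity)]
    have : b * (s - (1/2000) * x * (a+b)) - (y - x * ((1/2000)*(1+a*b))) +
        ((y - x * ((1/2000)*(1+a*b))) - a * (s - (1/2000) * x * (a+b)))
        = (b - a) * (s - (1/2000) * x * (a+b)) := by ring
    rw [this, hba]
    linarith
  · field_simp
    rw [hu]
    ring
  · field_simp
    rw [hu]
    ring

/-- squared transversal speed -/
noncomputable def WW (i : ℕ) : ℝ :=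
  ((1/2000) * (1 + uu i * uu (i+1)))^2 + 2 * ((1/2000) * (uu i + uu (i+1)))^2

lemma inv_sqrt_le (W : ℝ) (h0 : 0 ≤ W) (h1 : W ≤ 1) :
    1 / Real.sqrt (1 + W) ≤ 1 - W/2 + 3*W^2/8 := by
  have hs : 0 < Real.sqrt (1+W) := Real.sqrt_pos.mpr (by linarith)
  rw [div_le_iff₀ hs]
  have hpos : 0 ≤ 1 - W/2 + 3*W^2/8 := by nlinarith
  have : (1:ℝ) ≤ ((1 - W/2 + 3*W^2/8) * Real.sqrt (1+W))^2 := by
    rw [mul_pow, Real.sq_sqrt (by linarith)]
    have : (1 - W/2 + 3*W^2/8)^2 * (1+W) = 1 + W^3 * (5/8 - 15/64*W + 9/64*W^2) := by ring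
    rw [this]
    have h3 : 0 ≤ W^3 * (5/8 - 15/64*W + 9/64*W^2) := by
      apply mul_nonneg (by positivity)
      nlinarith
    linarith
  nlinarith [mul_nonneg hpos hs.le]

lemma term_ineq (m η Δ W H : ℝ) (hη : η = 1/2000) (hΔ : Δ = 1/2000000) (hm : |m| ≤ 1)
    (hW : W = (η * (1 + (m^2 - Δ^2/4)))^2 + 2*(η*(2*m))^2)
    (hH : H = 1/2 + η^2*(m^2+m^4) + 45*η^3) :
    H^2 / Real.sqrt (1+W) ≤ 1/4 + η^2*(-1/8 - m^2/4 + 7*m^4/8) + 46*η^3 := by
  have hm2 : m^2 ≤ 1 := (sq_le_one_iff_abs_le_one m).mpr hm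
  have hm0 : 0 ≤ m^2 := sq_nonneg m
  have hη2 : η^2 = 1/4000000 := by rw [hη]; norm_num
  have hη3 : η^3 = 1/8000000000 := by rw [hη]; norm_num
  obtain ⟨t, ht⟩ : ∃ t, t = m^2 := ⟨_, rfl⟩
  have hm4 : m^4 = t^2 := by rw [ht]; ring
  have ht0 : 0 ≤ t := by rw [ht]; exact hm0
  have ht1 : t ≤ 1 := by rw [ht]; exact hm2
  obtain ⟨δ, hδ⟩ : ∃ δ, δ = Δ^2/4 := ⟨_, rfl⟩
  have hδ0 : 0 ≤ δ := by rw [hδ]; positivity
  have hδ1 : δ ≤ 1/10^12 := by rw [hδ, hΔ]; norm_num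
  have hW' : W = η^2 * ((1 + t - δ)^2 + 8 * t) := by
    rw [hW, ← ht, ← hδ]
    have : (η*(2*m))^2 = 4 * η^2 * m^2 := by ring
    rw [this, ← ht]; ring
  have hWlow : (1/4000000) * (1 + 10 * t + t^2 - 1/10^11) ≤ W := by
    rw [hW', hη2]
    apply mul_le_mul_of_nonneg_left _ (by norm_num)
    nlinarith
  have hWup : W ≤ 12/4000000 := by
    rw [hW', hη2]
    have : (1 + t - δ)^2 ≤ 4 := by nlinarith
    linarith
  have hW0 : 0 ≤ W := by rw [hW']; positivity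
  have h1 := inv_sqrt_le W hW0 (by linarith)
  have hHsq : H^2 ≤ 1/4 + (1/4000000) * (t + t^2) + 45 /8000000000 + 5 / 16000000000000 := by
    rw [hH, ← ht, hm4, hη2, hη3]
    have hp : (0:ℝ) ≤ 1/4000000 * (t+t^2) + 45/8000000000 := by positivity
    have hp2 : 1/4000000 * (t+t^2) + 45/8000000000 ≤ 2.03/4000000 := by nlinarith
    have : (1/2 + 1/4000000 * (t+t^2) + 45 * (1/8000000000))^2 = 1/4 + (1/4000000 * (t+t^2) + 45/8000000000)
      + (1/4000000 * (t+t^2) + 45/8000000000)^2 := by ring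
    rw [this]
    have h5 : (1/4000000 * (t+t^2) + 45/8000000000)^2 ≤ (2.03/4000000)^2 := by
      exact pow_le_pow_left₀ hp hp2 2
    have h6 : ((2.03:ℝ)/4000000)^2 ≤ 5 / 16000000000000 := by norm_num
    linarith
  have hinv : 1 / Real.sqrt (1+W) ≤ 1 - (1/8000000) * (1 + 10 * t + t^2) + 55/16000000000000 := by
    have hW2 : W^2 ≤ (12/4000000)^2 := pow_le_pow_left₀ hW0 hWup 2
    have h7 : (3:ℝ) * (12/4000000)^2/8 ≤ 54/16000000000000 := by norm_num
    have h8 : (1/4000000:ℝ) * (1/10^11)/2 ≤ 1/16000000000000 := by norm_num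
    have h9 : 3*W^2/8 ≤ 54/16000000000000 := by linarith
    have h10 : (1/8000000) * (1 + 10 * t + t^2) - (1/4000000:ℝ) * (1/10^11)/2 ≤ W/2 := by linarith
    linarith
  rw [div_eq_mul_one_div]
  have hq0 : 0 ≤ 1 - (1/8000000) * (1 + 10 * t + t^2) + 55/16000000000000 := by nlinarith
  calc H^2 * (1 / Real.sqrt (1+W)) ≤ (1/4 + (1/4000000) * (t + t^2) + 45 /8000000000 + 5 / 16000000000000)
        * (1 - (1/8000000) * (1 + 10 * t + t^2) + 55/16000000000000) := by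
        apply mul_le_mul hHsq hinv (by positivity) (by positivity)
    _ ≤ _ := by
        rw [← ht, hm4, hη2, hη3]
        have e1 : (1/4 + (1/4000000) * (t + t^2) + 45 /8000000000 + 5 / 16000000000000)
          * (1 - (1/8000000) * (1 + 10 * t + t^2) + 55/16000000000000)
          = (1/4 + (1/4000000) * (t + t^2) + 45 /8000000000 + 5 / 16000000000000)
            - (1/4) * ((1/8000000) * (1 + 10 * t + t^2))
            + (1/4 + (1/4000000) * (t + t^2) + 45 /8000000000 + 5 / 16000000000000) * (55/16000000000000)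
            - ((1/4000000) * (t + t^2) + 45 /8000000000 + 5 / 16000000000000) * ((1/8000000) * (1 + 10 * t + t^2)) := by ring
        rw [e1]
        have e2 : 0 ≤ ((1/4000000) * (t + t^2) + 45 /8000000000 + 5 / 16000000000000) * ((1/8000000) * (1 + 10 * t + t^2)) := by positivity
        have e3 : (1/4 + (1/4000000) * (t + t^2) + 45 /8000000000 + 5 / 16000000000000) * (55/16000000000000) ≤ 0.26 * (55/16000000000000) := by
          apply mul_le_mul_of_nonneg_right _ (by norm_num)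
          nlinarith
        linarith

lemma sum_closed (n : ℕ) (c A B C : ℝ) :
    ∑ i ∈ Finset.range n, (A + B * (-1 + (2*(i:ℝ)+1) * c)^2 + C * (-1 + (2*(i:ℝ)+1) * c)^4)
      = A * n + B * (n - 2*c*n^2 + c^2*(n*(4*n^2-1)/3))
        + C * (n - 4*c*n^2 + 6*c^2*(n*(4*n^2-1)/3) - 4*c^3*(n^2*(2*n^2-1)) + c^4*(n*(48*n^4-40*n^2+7)/15)) := by
  induction n with
  | zero => simp
  | succ k ih =>
    rw [Finset.sum_range_succ, ih]
    push_cast
    ring

lemma total_le : ∑ i ∈ Finset.range 4000000, (HH i)^2 * (1/2000000) / Real.sqrt (1 + WW i) ≤ 1/2 - 1/10^9 := by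
  have hterm : ∀ i ∈ Finset.range 4000000, (HH i)^2 * (1/2000000) / Real.sqrt (1 + WW i) ≤
      (1/2000000) * (1/4 + (1/2000)^2*(-1/8) + 46*(1/2000)^3) + (1/2000000) * (-(1/2000)^2/4) * (-1 + (2*(i:ℝ)+1) * (1/4000000))^2
        + (1/2000000) * ((1/2000)^2 * 7/8) * (-1 + (2*(i:ℝ)+1) * (1/4000000))^4 := by
    intro i hi
    rw [Finset.mem_range] at hi
    have hiR : (i:ℝ) ≤ 3999999 := by
      have : i ≤ 3999999 := by omega
      exact_mod_cast this
    have hi0 : (0:ℝ) ≤ i := Nat.cast_nonneg i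
    have hmi : (uu i + uu (i+1))/2 = -1 + (2*(i:ℝ)+1) * (1/4000000) := by
      rw [uu_succ]; unfold uu; ring
    have hmabs : |(-1 + (2*(i:ℝ)+1) * (1/4000000) : ℝ)| ≤ 1 := by
      rw [abs_le]; constructor <;> linarith
    have h := term_ineq (-1 + (2*(i:ℝ)+1) * (1/4000000)) (1/2000) (1/2000000) (WW i) (HH i) rfl rfl hmabs
      (by rw [← hmi]; unfold WW; rw [uu_succ]; ring) (by rw [← hmi]; unfold HH; ring)
    calc (HH i)^2 * (1/2000000) / Real.sqrt (1 + WW i) = (1/2000000) * ((HH i)^2 / Real.sqrt (1 + WW i)) := by ring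
      _ ≤ (1/2000000) * _ := mul_le_mul_of_nonneg_left h (by norm_num)
      _ = _ := by ring
  refine (Finset.sum_le_sum hterm).trans ?_
  rw [sum_closed]
  norm_num


end Crest.Agent.S0324Geo
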