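import Crest.Agent.S0324Geo
import Crest.Agent.S0324Ineq
set_option autoImplicit false
open MeasureTheory
open scoped ENNReal

namespace Crest.Agent.S0324Geo

lemma unit_norm {d : E3} (hd : d ≠ 0) : ‖(‖d‖⁻¹ • d)‖ = 1 := by
  rw [norm_smul, norm_inv, norm_norm, inv_mul_cancel₀ (norm_ne_zero_iff.mpr hd)]

lemma piece_perp {d : E3} (hd : d ≠ 0) (y : E3) : inner ℝ (pr d y) (‖d‖⁻¹ • d) = 0 := by
  rw [inner_smul_right, inner_pr hd, mul_zero]

lemma piece_area {d : E3} (hd : d ≠ 0) (c V1 V2 : E3) :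
    μHE[2] (convexHull ℝ {pr d c, pr d (c + V1), pr d (c + V2)}) =
      ENNReal.ofReal (|det3 V1 V2 d| / ‖d‖ / 2) := by
  rw [area_triangle, pr_add, pr_add, add_sub_cancel_left, add_sub_cancel_left, area2_pr hd]

lemma piece_cover {d : E3} (hd : d ≠ 0) (c V1 V2 x : E3) (α β t : ℝ) (hα : 0 ≤ α) (hβ : 0 ≤ β)
    (hαβ : α + β ≤ 1) (hx : x = c + α • V1 + β • V2 + t • d) :
    x ∈ {x : E3 | ∃ b ∈ convexHull ℝ {pr d c, pr d (c + V1), pr d (c + V2)}, ∃ t : ℝ,
      x = b + t • (‖d‖⁻¹ • d)} := by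
  have hd0 : ‖d‖ ≠ 0 := norm_ne_zero_iff.mpr hd
  refine ⟨pr d x, ?_, inner ℝ x d / ‖d‖, ?_⟩
  · rw [convexHull_triple]
    refine ⟨!₂[α, β], ⟨by simpa using hα, by simpa using hβ, by simpa using hαβ⟩, ?_⟩
    simp only [lin2_apply]
    rw [hx]
    simp only [pr_add, pr_smul, pr_self hd]
    simp
    module
  · rw [smul_smul, pr]
    have : inner ℝ x d / ‖d‖ * ‖d‖⁻¹ = inner ℝ x d / ‖d‖^2 := by
      field_simp
    rw [this]
    simp

/-- the vertex set -/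
noncomputable def VS : Set E3 :=
  {!₂[1, 0, 0], !₂[-1, 0, 0], !₂[0, 1, Real.sqrt 2], !₂[0, -1, Real.sqrt 2]}

lemma sqrt2_pos : 0 < Real.sqrt 2 := Real.sqrt_pos.mpr (by norm_num)

lemma convex_K : Convex ℝ {X : E3 | |X 0| + X 2 / Real.sqrt 2 ≤ 1 ∧ |X 1| ≤ X 2 / Real.sqrt 2} := by
  intro X hX Y hY a b ha hb hab
  obtain ⟨h1, h2⟩ := hX
  obtain ⟨h3, h4⟩ := hY
  constructor
  · have e1 : |(a • X + b • Y : E3) 0| ≤ a * |X 0| + b * |Y 0| := by
      simp only [PiLp.add_apply, PiLp.smul_apply, smul_eq_mul]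
      calc |a * X 0 + b * Y 0| ≤ |a * X 0| + |b * Y 0| := abs_add_le _ _
        _ = _ := by rw [abs_mul, abs_mul, abs_of_nonneg ha, abs_of_nonneg hb]
    have e2 : (a • X + b • Y : E3) 2 / Real.sqrt 2 = a * (X 2 / Real.sqrt 2) + b * (Y 2 / Real.sqrt 2) := by
      simp only [PiLp.add_apply, PiLp.smul_apply, smul_eq_mul]; ring
    rw [e2]
    have := mul_le_mul_of_nonneg_left h1 ha
    have := mul_le_mul_of_nonneg_left h3 hb
    linarith
  · have e1 : |(a • X + b • Y : E3) 1| ≤ a * |X 1| + b * |Y 1| := by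
      simp only [PiLp.add_apply, PiLp.smul_apply, smul_eq_mul]
      calc |a * X 1 + b * Y 1| ≤ |a * X 1| + |b * Y 1| := abs_add_le _ _
        _ = _ := by rw [abs_mul, abs_mul, abs_of_nonneg ha, abs_of_nonneg hb]
    have e2 : (a • X + b • Y : E3) 2 / Real.sqrt 2 = a * (X 2 / Real.sqrt 2) + b * (Y 2 / Real.sqrt 2) := by
      simp only [PiLp.add_apply, PiLp.smul_apply, smul_eq_mul]; ring
    rw [e2]
    have := mul_le_mul_of_nonneg_left h2 ha
    have := mul_le_mul_of_nonneg_left h4 hb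
    linarith

lemma mem_K {X : E3} (hX : X ∈ convexHull ℝ VS) :
    |X 0| ≤ 1 - X 2 / Real.sqrt 2 ∧ |X 1| ≤ X 2 / Real.sqrt 2 := by
  have h : convexHull ℝ VS ⊆ {X : E3 | |X 0| + X 2 / Real.sqrt 2 ≤ 1 ∧ |X 1| ≤ X 2 / Real.sqrt 2} := by
    apply convexHull_min _ convex_K
    intro Y hY
    have h2 := sqrt2_pos.ne'
    simp only [VS, Set.mem_insert_iff, Set.mem_singleton_iff] at hY
    rcases hY with rfl | rfl | rfl | rfl <;> simp [h2]
  obtain ⟨h1, h2⟩ := h hX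
  exact ⟨by linarith, h2⟩

/-- directions and spanning vectors of the bottom family -/
noncomputable def dB (i : ℕ) : E3 :=
  !₂[1, (1/2000) * (1 + uu i * uu (i+1)), Real.sqrt 2 * ((1/2000) * (uu i + uu (i+1)))]
noncomputable def VB (i : ℕ) (a : ℝ) : E3 := !₂[0, HH i * a, Real.sqrt 2 * HH i]
/-- top family -/
noncomputable def dT (i : ℕ) : E3 :=
  !₂[-((1/2000) * (1 + uu i * uu (i+1))), 1, -(Real.sqrt 2 * ((1/2000) * (uu i + uu (i+1))))]
noncomputable def VT (i : ℕ) (a : ℝ) : E3 := !₂[-(HH i * a), 0, -(Real.sqrt 2 * HH i)]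
noncomputable def cT : E3 := !₂[0, 0, Real.sqrt 2]

lemma sqrt2_sq : Real.sqrt 2 ^ 2 = 2 := Real.sq_sqrt (by norm_num)

lemma norm_dB (i : ℕ) : ‖dB i‖ = Real.sqrt (1 + WW i) := by
  have : ‖dB i‖ ^ 2 = 1 + WW i := by
    rw [normsq3]
    simp only [dB, WW]
    simp
    ring_nf
    rw [sqrt2_sq]; ring
  rw [← this, Real.sqrt_sq (norm_nonneg _)]

lemma norm_dT (i : ℕ) : ‖dT i‖ = Real.sqrt (1 + WW i) := by
  have : ‖dT i‖ ^ 2 = 1 + WW i := by
    rw [normsq3]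
    simp only [dT, WW]
    simp
    ring_nf
    rw [sqrt2_sq]; ring
  rw [← this, Real.sqrt_sq (norm_nonneg _)]

lemma WW_nonneg (i : ℕ) : 0 ≤ WW i := by unfold WW; positivity

lemma sqrtW_pos (i : ℕ) : 0 < Real.sqrt (1 + WW i) :=
  Real.sqrt_pos.mpr (by have := WW_nonneg i; linarith)

lemma dB_ne (i : ℕ) : dB i ≠ 0 := by
  rw [← norm_ne_zero_iff, norm_dB]; exact (sqrtW_pos i).ne'

lemma dT_ne (i : ℕ) : dT i ≠ 0 := by
  rw [← norm_ne_zero_iff, norm_dT]; exact (sqrtW_pos i).ne'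

lemma det_B (i : ℕ) : |det3 (VB i (uu i)) (VB i (uu (i+1))) (dB i)| = Real.sqrt 2 * (HH i)^2 * (1/2000000) := by
  have : det3 (VB i (uu i)) (VB i (uu (i+1))) (dB i) = -(Real.sqrt 2 * (HH i)^2 * (1/2000000)) := by
    simp only [det3, VB, dB]
    simp
    rw [uu_succ]; ring
  rw [this, abs_neg, abs_of_nonneg]
  have := sqrt2_pos
  positivity

lemma det_T (i : ℕ) : |det3 (VT i (uu i)) (VT i (uu (i+1))) (dT i)| = Real.sqrt 2 * (HH i)^2 * (1/2000000) := by
  have : det3 (VT i (uu i)) (VT i (uu (i+1))) (dT i) = Real.sqrt 2 * (HH i)^2 * (1/2000000) := by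
    simp only [det3, VT, dT]
    simp
    rw [uu_succ]; ring
  rw [this, abs_of_nonneg]
  have := sqrt2_pos
  positivity

/-- number of cylinders of each family -/
def NN : ℕ := 4000000

noncomputable def cU : Fin (NN + NN) → E3 :=
  Fin.addCases (fun i => ‖dB i‖⁻¹ • dB i) (fun i => ‖dT i‖⁻¹ • dT i)
noncomputable def cP : Fin (NN + NN) → E3 :=
  Fin.addCases (fun i => pr (dB i) 0) (fun i => pr (dT i) cT)
noncomputable def cQ : Fin (NN + NN) → E3 :=
  Fin.addCases (fun i => pr (dB i) (0 + VB i (uu i))) (fun i => pr (dT i) (cT + VT i (uu i)))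
noncomputable def cR : Fin (NN + NN) → E3 :=
  Fin.addCases (fun i => pr (dB i) (0 + VB i (uu (i+1)))) (fun i => pr (dT i) (cT + VT i (uu (i+1))))

lemma cU_norm (i : Fin (NN + NN)) : ‖cU i‖ = 1 := by
  refine Fin.addCases (fun j => ?_) (fun j => ?_) i
  · simp only [cU, Fin.addCases_left]; exact unit_norm (dB_ne _)
  · simp only [cU, Fin.addCases_right]; exact unit_norm (dT_ne _)

lemma c_perp (i : Fin (NN + NN)) :
    inner ℝ (cP i) (cU i) = 0 ∧ inner ℝ (cQ i) (cU i) = 0 ∧ inner ℝ (cR i) (cU i) = 0 := by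
  refine Fin.addCases (fun j => ?_) (fun j => ?_) i
  · simp only [cU, cP, cQ, cR, Fin.addCases_left]
    exact ⟨piece_perp (dB_ne _) _, piece_perp (dB_ne _) _, piece_perp (dB_ne _) _⟩
  · simp only [cU, cP, cQ, cR, Fin.addCases_right]
    exact ⟨piece_perp (dT_ne _) _, piece_perp (dT_ne _) _, piece_perp (dT_ne _) _⟩

/-- area of the `i`-th base -/
noncomputable def cA : Fin (NN + NN) → ℝ :=
  Fin.addCases (fun i => Real.sqrt 2 * (HH i)^2 * (1/2000000) / Real.sqrt (1 + WW i) / 2)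
    (fun i => Real.sqrt 2 * (HH i)^2 * (1/2000000) / Real.sqrt (1 + WW i) / 2)

lemma cA_nonneg (i : Fin (NN + NN)) : 0 ≤ cA i := by
  refine Fin.addCases (fun j => ?_) (fun j => ?_) i <;>
  · simp only [cA, Fin.addCases_left, Fin.addCases_right]
    have := sqrt2_pos
    positivity

lemma c_area (i : Fin (NN + NN)) : μHE[2] (convexHull ℝ {cP i, cQ i, cR i}) = ENNReal.ofReal (cA i) := by
  refine Fin.addCases (fun j => ?_) (fun j => ?_) i
  · simp only [cA, cP, cQ, cR, Fin.addCases_left]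
    rw [piece_area (dB_ne _), det_B, norm_dB]
  · simp only [cA, cP, cQ, cR, Fin.addCases_right]
    rw [piece_area (dT_ne _), det_T, norm_dT]

lemma cA_sum : ∑ i, cA i ≤ Real.sqrt 2 * (1/2 - 1/10^9) := by
  have h : ∑ i : Fin (NN + NN), cA i = Real.sqrt 2 *
      ∑ i ∈ Finset.range NN, (HH i)^2 * (1/2000000) / Real.sqrt (1 + WW i) := by
    rw [Fin.sum_univ_add]
    simp only [cA, Fin.addCases_left, Fin.addCases_right]
    rw [Finset.sum_range, Finset.mul_sum, ← Finset.sum_add_distrib]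
    apply Finset.sum_congr rfl
    intro i _
    ring
  rw [h]
  exact mul_le_mul_of_nonneg_left total_le sqrt2_pos.le

lemma c_cover : convexHull ℝ VS ⊆ ⋃ i, {x : E3 | ∃ b ∈ convexHull ℝ {cP i, cQ i, cR i}, ∃ t : ℝ,
    x = b + t • cU i} := by
  intro X hX
  obtain ⟨h1, h2⟩ := mem_K hX
  set s := X 2 / Real.sqrt 2 with hs
  have hX2 : X 2 = Real.sqrt 2 * s := by rw [hs]; field_simp
  rw [Set.mem_iUnion]
  rcases le_or_gt s (II (X 0) (X 1)) with hI | hI
  · obtain ⟨i, hi, α, β, hα, hβ, hαβ, e1, e2⟩ := cover2d (X 0) (X 1) s h1 h2 hI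
    refine ⟨Fin.castAdd NN ⟨i, hi⟩, ?_⟩
    simp only [cU, cP, cQ, cR, Fin.addCases_left]
    apply piece_cover (dB_ne _) _ _ _ _ α β (X 0) hα hβ hαβ
    ext k
    fin_cases k
    · simp [VB, dB]
    · simp [VB, dB]; linarith
    · simp [VB, dB]; rw [hX2, e2]; ring
  · have hI' : 1 - s ≤ II (X 1) (-(X 0)) := by
      unfold II at hI ⊢
      nlinarith
    obtain ⟨i, hi, α, β, hα, hβ, hαβ, e1, e2⟩ := cover2d (X 1) (-(X 0)) (1 - s) (by linarith)
      (by rw [abs_neg]; exact h1) hI'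
    refine ⟨Fin.natAdd NN ⟨i, hi⟩, ?_⟩
    simp only [cU, cP, cQ, cR, Fin.addCases_right]
    apply piece_cover (dT_ne _) _ _ _ _ α β (X 1) hα hβ hαβ
    ext k
    fin_cases k
    · simp [VT, dT, cT]; linarith
    · simp [VT, dT, cT]
    · simp [VT, dT, cT]; rw [hX2, show s = 1 - (1 - s) by ring, e2]; ring

end Crest.Agent.S0324Geo
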