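import Mathlib

set_option autoImplicit false
open MeasureTheory
open scoped ENNReal

namespace Crest.Agent.S0324Geo

/-- Euclidean 3-space. -/
abbrev E3 := EuclideanSpace ℝ (Fin 3)
/-- Euclidean plane. -/
abbrev E2 := EuclideanSpace ℝ (Fin 2)

/-- Area of the parallelogram spanned by `a` and `b`. -/
noncomputable def area2 (a b : E3) : ℝ := Real.sqrt (‖a‖ ^ 2 * ‖b‖ ^ 2 - inner ℝ a b ^ 2)

/-- The linear map `(x, y) ↦ x a + y b`. -/
noncomputable def lin2 (a b : E3) : E2 →ₗ[ℝ] E3 where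
  toFun p := p 0 • a + p 1 • b
  map_add' p q := by simp [add_smul]; abel
  map_smul' c p := by simp [mul_smul, smul_add]

@[simp] lemma lin2_apply (a b : E3) (p : E2) : lin2 a b p = p 0 • a + p 1 • b := rfl

lemma lin2_basis0 (a b : E3) : lin2 a b (EuclideanSpace.basisFun (Fin 2) ℝ 0) = a := by
  simp

lemma lin2_basis1 (a b : E3) : lin2 a b (EuclideanSpace.basisFun (Fin 2) ℝ 1) = b := by
  simp

lemma normDet_lin2 (a b : E3) : (lin2 a b).normDet = area2 a b := by
  have h := LinearMap.normDet_sq_eq_det_gram (lin2 a b) (EuclideanSpace.basisFun (Fin 2) ℝ)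
  have h2 : (Matrix.gram ℝ (fun i => lin2 a b (EuclideanSpace.basisFun (Fin 2) ℝ i))).det
      = ‖a‖ ^ 2 * ‖b‖ ^ 2 - inner ℝ a b ^ 2 := by
    rw [Matrix.det_fin_two]
    simp only [Matrix.gram_apply, lin2_basis0, lin2_basis1]
    rw [real_inner_self_eq_norm_sq, real_inner_self_eq_norm_sq, real_inner_comm b a]
    ring
  rw [h2] at h
  have h3 : (lin2 a b).normDet ^ 2 = ‖a‖ ^ 2 * ‖b‖ ^ 2 - inner ℝ a b ^ 2 := by
    simpa using h
  rw [area2, ← h3, Real.sqrt_sq (LinearMap.normDet_nonneg _)]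

/-- Area of an affine image of a planar set. -/
lemma area_image (c a b : E3) (s : Set E2) :
    μHE[2] ((fun p : E2 => c + lin2 a b p) '' s) = ENNReal.ofReal (area2 a b) * volume s := by
  have h := LinearMap.euclideanHausdorffMeasure_image_eq_normDet_mul_volume (lin2 a b) s
  rw [finrank_euclideanSpace_fin, normDet_lin2] at h
  rw [← h]
  have : (fun p : E2 => c + lin2 a b p) '' s = (fun x => c + x) '' (lin2 a b '' s) := by
    rw [Set.image_image]
  rw [this]
  have hiso : Isometry (fun x : E3 => c + x) := fun x y => by simp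
  exact hiso.euclideanHausdorffMeasure_image _


/-- transfer of volume on `E2` to `ℝ × ℝ` -/
lemma volume_E2 (s : Set (ℝ × ℝ)) (hs : MeasurableSet s) :
    volume {p : E2 | (p 0, p 1) ∈ s} = volume s := by
  have h1 := EuclideanSpace.volume_preserving_symm_measurableEquiv_toLp (Fin 2)
  have h2 := MeasureTheory.volume_preserving_finTwoArrow ℝ
  have h3 := h2.comp h1
  have := h3.measure_preimage hs.nullMeasurableSet
  rw [← this]
  rfl

lemma volume_unitSquare :
    volume {p : E2 | p 0 ∈ Set.Icc (0:ℝ) 1 ∧ p 1 ∈ Set.Icc (0:ℝ) 1} = 1 := by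
  have : {p : E2 | p 0 ∈ Set.Icc (0:ℝ) 1 ∧ p 1 ∈ Set.Icc (0:ℝ) 1}
      = {p : E2 | (p 0, p 1) ∈ (Set.Icc (0:ℝ) 1 ×ˢ Set.Icc (0:ℝ) 1)} := by
    ext p; rfl
  rw [this, volume_E2 _ (measurableSet_Icc.prod measurableSet_Icc), Measure.volume_eq_prod,
    Measure.prod_prod]
  simp

lemma volume_stdTri :
    volume {p : E2 | 0 ≤ p 0 ∧ 0 ≤ p 1 ∧ p 0 + p 1 ≤ 1} = ENNReal.ofReal (1/2) := by
  have hm : MeasurableSet {q : ℝ × ℝ | 0 ≤ q.1 ∧ 0 ≤ q.2 ∧ q.1 + q.2 ≤ 1} := by
    measurability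
  have : {p : E2 | 0 ≤ p 0 ∧ 0 ≤ p 1 ∧ p 0 + p 1 ≤ 1}
      = {p : E2 | (p 0, p 1) ∈ {q : ℝ × ℝ | 0 ≤ q.1 ∧ 0 ≤ q.2 ∧ q.1 + q.2 ≤ 1}} := by
    rfl
  rw [this, volume_E2 _ hm, Measure.volume_eq_prod, Measure.prod_apply hm]
  have h1 : ∀ x : ℝ, volume (Prod.mk x ⁻¹' {q : ℝ × ℝ | 0 ≤ q.1 ∧ 0 ≤ q.2 ∧ q.1 + q.2 ≤ 1})
      = (Set.Icc (0:ℝ) 1).indicator (fun x => ENNReal.ofReal (1 - x)) x := by
    intro x
    by_cases hx : x ∈ Set.Icc (0:ℝ) 1
    · rw [Set.indicator_of_mem hx]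
      have : (Prod.mk x ⁻¹' {q : ℝ × ℝ | 0 ≤ q.1 ∧ 0 ≤ q.2 ∧ q.1 + q.2 ≤ 1}) = Set.Icc 0 (1 - x) := by
        ext y
        simp only [Set.mem_preimage, Set.mem_ofPred_eq, Set.mem_Icc]
        constructor
        · rintro ⟨_, h2, h3⟩; exact ⟨h2, by linarith⟩
        · rintro ⟨h2, h3⟩; exact ⟨hx.1, h2, by linarith⟩
      rw [this, Real.volume_Icc, sub_zero]
    · rw [Set.indicator_of_notMem hx]
      have : (Prod.mk x ⁻¹' {q : ℝ × ℝ | 0 ≤ q.1 ∧ 0 ≤ q.2 ∧ q.1 + q.2 ≤ 1}) = ∅ := by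
        ext y
        simp only [Set.mem_preimage, Set.mem_ofPred_eq, Set.mem_empty_iff_false, iff_false]
        rintro ⟨h1, h2, h3⟩
        exact hx ⟨h1, by linarith⟩
      rw [this, measure_empty]
  simp_rw [h1]
  rw [lintegral_indicator measurableSet_Icc]
  rw [← ofReal_integral_eq_lintegral_ofReal]
  · congr 1
    rw [integral_Icc_eq_integral_Ioc, ← intervalIntegral.integral_of_le (by norm_num)]
    rw [intervalIntegral.integral_sub (by simp) (by simp)]
    simp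
    norm_num
  · apply ContinuousOn.integrableOn_Icc
    fun_prop
  · filter_upwards [ae_restrict_mem measurableSet_Icc] with x hx
    simpa using hx.2

/-- Area of a parallelogram. -/
lemma area_parallelogram (c a b : E3) :
    μHE[2] {x : E3 | ∃ s ∈ Set.Icc (0 : ℝ) 1, ∃ t ∈ Set.Icc (0 : ℝ) 1, x = c + s • a + t • b}
      = ENNReal.ofReal (area2 a b) := by
  have : {x : E3 | ∃ s ∈ Set.Icc (0 : ℝ) 1, ∃ t ∈ Set.Icc (0 : ℝ) 1, x = c + s • a + t • b}
      = (fun p : E2 => c + lin2 a b p) '' {p : E2 | p 0 ∈ Set.Icc (0:ℝ) 1 ∧ p 1 ∈ Set.Icc (0:ℝ) 1} := by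
    ext x
    simp only [Set.mem_ofPred_eq, Set.mem_image, lin2_apply]
    constructor
    · rintro ⟨s, hs, t, ht, rfl⟩
      refine ⟨!₂[s, t], ⟨by simpa using hs, by simpa using ht⟩, by simp [add_assoc]⟩
    · rintro ⟨p, ⟨h0, h1⟩, rfl⟩
      exact ⟨p 0, h0, p 1, h1, by simp [add_assoc]⟩
  rw [this, area_image, volume_unitSquare, mul_one]

lemma convexHull_triple (p q r : E3) :
    convexHull ℝ {p, q, r} = (fun z : E2 => p + lin2 (q - p) (r - p) z) ''
      {z : E2 | 0 ≤ z 0 ∧ 0 ≤ z 1 ∧ z 0 + z 1 ≤ 1} := by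
  ext x
  constructor
  · intro hx
    rw [convexHull_insert (by simp), convexHull_pair] at hx
    simp only [convexJoin_singleton_left, Set.mem_iUnion, exists_prop] at hx
    obtain ⟨y, hy, hx⟩ := hx
    obtain ⟨a, b, ha, hb, hab, rfl⟩ := hy
    obtain ⟨c, d, hc, hd, hcd, rfl⟩ := hx
    refine ⟨!₂[d * a, d * b], ⟨by simpa using mul_nonneg hd ha, by simpa using mul_nonneg hd hb, ?_⟩, ?_⟩
    · simp only [Matrix.cons_val_zero, Matrix.cons_val_one]
      have : d * a + d * b = d := by rw [← mul_add, hab, mul_one]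
      simp
      linarith
    · simp only [lin2_apply]
      have hc' : c = 1 - d := by linarith
      have ha' : a = 1 - b := by linarith
      subst hc'; subst ha'
      simp
      module
  · rintro ⟨z, ⟨h0, h1, h2⟩, rfl⟩
    have hp : p ∈ convexHull ℝ {p, q, r} := subset_convexHull _ _ (by simp)
    have hq : q ∈ convexHull ℝ {p, q, r} := subset_convexHull _ _ (by simp)
    have hr : r ∈ convexHull ℝ {p, q, r} := subset_convexHull _ _ (by simp)
    have hc := (convex_convexHull ℝ ({p, q, r} : Set E3))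
    have := hc.sum_mem (t := Finset.univ) (w := ![1 - z 0 - z 1, z 0, z 1]) (z := ![p, q, r])
      (by intro i _; fin_cases i <;> simp <;> linarith) (by simp [Fin.sum_univ_three]; ring)
      (by intro i _; fin_cases i <;> simp [hp, hq, hr])
    convert this using 1
    simp [Fin.sum_univ_three]
    module

/-- Area of a triangle. -/
lemma area_triangle (p q r : E3) :
    μHE[2] (convexHull ℝ {p, q, r}) = ENNReal.ofReal (area2 (q - p) (r - p) / 2) := by
  rw [convexHull_triple, area_image, volume_stdTri, ← ENNReal.ofReal_mul (show 0 ≤ area2 _ _ from Real.sqrt_nonneg _)]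
  congr 1
  ring



/-- Orthogonal projection along `d` (for `d ≠ 0`). -/
noncomputable def pr (d y : E3) : E3 := y - (inner ℝ y d / ‖d‖ ^ 2) • d

/-- Determinant of three vectors. -/
def det3 (a b d : E3) : ℝ :=
  a 0 * (b 1 * d 2 - b 2 * d 1) - a 1 * (b 0 * d 2 - b 2 * d 0) + a 2 * (b 0 * d 1 - b 1 * d 0)

lemma normsq3 (a : E3) : ‖a‖ ^ 2 = a 0 ^ 2 + a 1 ^ 2 + a 2 ^ 2 := by
  rw [EuclideanSpace.norm_sq_eq]
  simp [Fin.sum_univ_three]

lemma inner3 (a b : E3) : inner ℝ a b = a 0 * b 0 + a 1 * b 1 + a 2 * b 2 := by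
  simp [PiLp.inner_apply, Fin.sum_univ_three]
  ring

lemma gram3 (a b d : E3) :
    det3 a b d ^ 2 = ‖a‖^2*(‖b‖^2*‖d‖^2 - inner ℝ b d ^2) - inner ℝ a b * (inner ℝ a b * ‖d‖^2 - inner ℝ b d * inner ℝ a d)
      + inner ℝ a d * (inner ℝ a b * inner ℝ b d - ‖b‖^2 * inner ℝ a d) := by
  simp only [normsq3, inner3, det3]
  ring

lemma pr_add (d x y : E3) : pr d (x + y) = pr d x + pr d y := by
  simp only [pr, inner_add_left, add_div, add_smul]
  abel

lemma pr_smul (d : E3) (c : ℝ) (x : E3) : pr d (c • x) = c • pr d x := by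
  simp only [pr, inner_smul_left, smul_sub, smul_smul]
  congr 2
  simp
  ring

lemma pr_sub (d x y : E3) : pr d (x - y) = pr d x - pr d y := by
  have := pr_add d x (-y)
  have h2 := pr_smul d (-1) y
  simp only [neg_one_smul] at h2
  rw [sub_eq_add_neg, this, h2, sub_eq_add_neg]

lemma pr_self {d : E3} (hd : d ≠ 0) : pr d d = 0 := by
  have : ‖d‖ ^ 2 ≠ 0 := by positivity
  simp only [pr, real_inner_self_eq_norm_sq]
  rw [div_self this, one_smul, sub_self]

lemma inner_pr {d : E3} (hd : d ≠ 0) (y : E3) : inner ℝ (pr d y) d = 0 := by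
  have : ‖d‖ ^ 2 ≠ 0 := by positivity
  simp only [pr, inner_sub_left, inner_smul_left, real_inner_self_eq_norm_sq]
  simp
  field_simp
  simp

lemma area2_pr {d : E3} (hd : d ≠ 0) (a b : E3) :
    area2 (pr d a) (pr d b) = |det3 a b d| / ‖d‖ := by
  have hd0 : 0 < ‖d‖ := by positivity
  have h1 : inner ℝ (pr d a) (pr d b) = inner ℝ a b - inner ℝ a d * inner ℝ b d / ‖d‖^2 := by
    have : inner ℝ (pr d a) (pr d b) = inner ℝ (pr d a) b := by
      conv_lhs => rw [show pr d b = b - (inner ℝ b d / ‖d‖ ^ 2) • d from rfl]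
      rw [inner_sub_right, inner_smul_right, inner_pr hd]
      simp
    rw [this, show pr d a = a - (inner ℝ a d / ‖d‖ ^ 2) • d from rfl, inner_sub_left, inner_smul_left,
      real_inner_comm b d]
    simp
    ring
  have h2 : ∀ x : E3, ‖pr d x‖^2 = ‖x‖^2 - inner ℝ x d ^2 / ‖d‖^2 := by
    intro x
    have : inner ℝ (pr d x) (pr d x) = inner ℝ (pr d x) x := by
      conv_lhs => rw [show pr d x = x - (inner ℝ x d / ‖d‖ ^ 2) • d from rfl]
      conv_lhs => rw [show x - (inner ℝ x d / ‖d‖ ^ 2) • d = pr d x from rfl]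
      conv_lhs => enter [3]; rw [show pr d x = x - (inner ℝ x d / ‖d‖ ^ 2) • d from rfl]
      rw [inner_sub_right, inner_smul_right, inner_pr hd]
      simp
    rw [← real_inner_self_eq_norm_sq, this, show pr d x = x - (inner ℝ x d / ‖d‖ ^ 2) • d from rfl, inner_sub_left, inner_smul_left,
      real_inner_comm x d, real_inner_self_eq_norm_sq]
    simp
    ring
  rw [area2, h1, h2, h2]
  have h3 : (‖a‖^2 - inner ℝ a d ^2 / ‖d‖^2) * (‖b‖^2 - inner ℝ b d ^2 / ‖d‖^2) -
      (inner ℝ a b - inner ℝ a d * inner ℝ b d / ‖d‖^2)^2 = (|det3 a b d| / ‖d‖)^2 := by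
    rw [div_pow, sq_abs, gram3]
    field_simp
    ring
  rw [h3, Real.sqrt_sq (by positivity)]


end Crest.Agent.S0324Geo
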