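import Crest.Agent.S0324Proj
set_option autoImplicit false
open MeasureTheory
open scoped ENNReal NNReal

namespace Crest.Agent.S0324Geo

noncomputable def ex : E3 := !₂[1, 0, 0]

lemma ex_norm : ‖ex‖ = 1 := by
  have : ‖ex‖ ^ 2 = 1 := by rw [normsq3]; simp [ex]
  have h := norm_nonneg ex
  nlinarith

lemma ex_tri (G : ℝ) (hG : 0 ≤ G) :
    μHE[2] (convexHull ℝ ({0, !₂[0, 2*G, 0], !₂[0, 0, 1]} : Set E3)) = ENNReal.ofReal G := by
  rw [area_triangle, sub_zero, sub_zero]
  congr 1
  have : ‖(!₂[0, 2*G, 0] : E3)‖^2 * ‖(!₂[0, 0, 1] : E3)‖^2 - inner ℝ (!₂[0, 2*G, 0] : E3) (!₂[0, 0, 1] : E3) ^ 2 = (2*G)^2 := by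
    rw [normsq3, normsq3, inner3]; simp
  rw [area2, this, Real.sqrt_sq (by positivity)]
  ring

lemma tri_zero : μHE[2] (convexHull ℝ ({0, 0, 0} : Set E3)) = 0 := by
  rw [area_triangle]
  simp [area2]

/-- padded cover -/
lemma padded_cover (k : ℕ) (A : ℝ) (hA : Real.sqrt 2 * (1/2 - 1/10^9) ≤ A) :
    ∃ (u p q r : Fin (NN + NN + 1 + k) → E3),
        (∀ i, ‖u i‖ = 1) ∧
        (∀ i, inner ℝ (p i) (u i) = 0 ∧ inner ℝ (q i) (u i) = 0 ∧ inner ℝ (r i) (u i) = 0) ∧
        convexHull ℝ VS ⊆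
          ⋃ i, {x : E3 | ∃ b ∈ convexHull ℝ {p i, q i, r i}, ∃ t : ℝ, x = b + t • u i} ∧
        ∑ i, (μHE[2] (convexHull ℝ ({p i, q i, r i} : Set E3))).toReal = A := by
  set G := A - ∑ i, cA i with hG
  have hG0 : 0 ≤ G := by
    have := cA_sum
    linarith
  refine ⟨Fin.addCases (Fin.addCases cU (fun _ => ex)) (fun _ => ex),
    Fin.addCases (Fin.addCases cP (fun _ => 0)) (fun _ => 0),
    Fin.addCases (Fin.addCases cQ (fun _ => !₂[0, 2*G, 0])) (fun _ => 0),
    Fin.addCases (Fin.addCases cR (fun _ => !₂[0, 0, 1])) (fun _ => 0), ?_, ?_, ?_, ?_⟩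
  · intro i
    refine Fin.addCases (fun j => ?_) (fun j => ?_) i
    · simp only [Fin.addCases_left]
      refine Fin.addCases (fun j => ?_) (fun j => ?_) j
      · simp only [Fin.addCases_left]; exact cU_norm _
      · simp only [Fin.addCases_right]; exact ex_norm
    · simp only [Fin.addCases_right]; exact ex_norm
  · intro i
    refine Fin.addCases (fun j => ?_) (fun j => ?_) i
    · simp only [Fin.addCases_left]
      refine Fin.addCases (fun j => ?_) (fun j => ?_) j
      · simp only [Fin.addCases_left]; exact c_perp _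
      · simp only [Fin.addCases_right]
        refine ⟨by simp, ?_, ?_⟩ <;> rw [inner3] <;> simp [ex]
    · simp only [Fin.addCases_right]; simp
  · refine c_cover.trans ?_
    rw [Set.iUnion_subset_iff]
    intro i
    refine Set.subset_iUnion_of_subset (Fin.castAdd k (Fin.castAdd 1 i)) ?_
    simp only [Fin.addCases_left]
    exact subset_rfl
  · rw [Fin.sum_univ_add, Fin.sum_univ_add]
    simp only [Fin.addCases_left, Fin.addCases_right]
    have h1 : ∑ i, (μHE[2] (convexHull ℝ {cP i, cQ i, cR i})).toReal = ∑ i, cA i := by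
      apply Finset.sum_congr rfl
      intro i _
      rw [c_area, ENNReal.toReal_ofReal (cA_nonneg i)]
    rw [h1, ex_tri G hG0, tri_zero]
    simp [ENNReal.toReal_ofReal hG0]
    rw [hG]; ring

lemma proj_ex : μHE[2] (prL ex '' convexHull ℝ VS) = ENNReal.ofReal (Real.sqrt 2) := by
  have h1 : prL ex '' convexHull ℝ VS = convexHull ℝ {0, !₂[0, 1, Real.sqrt 2], !₂[0, -1, Real.sqrt 2]} := by
    rw [LinearMap.image_convexHull]
    congr 1
    unfold VS
    simp only [Set.image_insert_eq, Set.image_singleton]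
    have e : ∀ y : E3, prL ex y = !₂[0, y 1, y 2] := by
      intro y
      show pr ex y = _
      rw [pr_unit ex_norm]
      ext k
      fin_cases k <;> simp [ex, inner3]
    simp only [e]
    simp
    have : (!₂[0, 0, 0] : E3) = 0 := by ext k; fin_cases k <;> simp
    rw [this]
  rw [h1, area_triangle, sub_zero, sub_zero]
  congr 1
  have : ‖(!₂[0, 1, Real.sqrt 2] : E3)‖^2 * ‖(!₂[0, -1, Real.sqrt 2] : E3)‖^2 -
      inner ℝ (!₂[0, 1, Real.sqrt 2] : E3) (!₂[0, -1, Real.sqrt 2] : E3) ^ 2 = (2 * Real.sqrt 2)^2 := by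
    rw [normsq3, normsq3, inner3]; simp
    rw [mul_pow, sqrt2_sq]; norm_num
  rw [area2, this, Real.sqrt_sq (by positivity)]
  ring

end Crest.Agent.S0324Geo
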