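import Crest.Statements.S0325
import Crest.Agent.S0325Aux

set_option autoImplicit false
open MeasureTheory
open scoped ENNReal
open Crest Crest.GeometryTopology Crest.GeometryTopology.Convex

namespace Crest.Agent.S0325
open Crest.Agent.S0324Geo

/-- Let K be the regular tetrahedron with vertices (±1, 0, 0), (0, ±1, √2); areas are Lebesgue-normalised 2-dimensional Hausdorff measure. (1) The least area of an orthogonal projection of K onto a plane is √2: each map y ↦ y − ⟪y, v⟫ v with ‖v‖ = 1 sends K to a set of area ≥ √2, equal for some v. (2) For every 0 < ε ≤ 5·10⁻⁴, K is covered by 2⌈2/ε²⌉ cylinders Bᵢ + ℝ uᵢ, uᵢ a unit vector, Bᵢ a triangle (convex hull of three points) in uᵢ^⊥, of total area A with ‖A/√2 − 1/2 + 13 ε²/6000‖ ≤ 2 ε⁴. -/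
theorem result :
    ((∀ v : EuclideanSpace ℝ (Fin 3), ‖v‖ = 1 →
        ENNReal.ofReal (Real.sqrt 2) ≤ μHE[2] ((fun y => y - inner ℝ y v • v) '' convexHull ℝ {!₂[1, 0, 0], !₂[-1, 0, 0], !₂[0, 1, Real.sqrt 2], !₂[0, -1, Real.sqrt 2]})) ∧
      ∃ v : EuclideanSpace ℝ (Fin 3), ‖v‖ = 1 ∧
        μHE[2] ((fun y => y - inner ℝ y v • v) '' convexHull ℝ {!₂[1, 0, 0], !₂[-1, 0, 0], !₂[0, 1, Real.sqrt 2], !₂[0, -1, Real.sqrt 2]}) = ENNReal.ofReal (Real.sqrt 2)) ∧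
    ∀ ε : ℝ, 0 < ε → ε ≤ 1 / 2000 →
      ∃ (u p q r : Fin (2 * ⌈2 / ε ^ 2⌉₊) → EuclideanSpace ℝ (Fin 3)),
        (∀ i, ‖u i‖ = 1) ∧
        (∀ i, inner ℝ (p i) (u i) = 0 ∧ inner ℝ (q i) (u i) = 0 ∧ inner ℝ (r i) (u i) = 0) ∧
        convexHull ℝ {!₂[1, 0, 0], !₂[-1, 0, 0], !₂[0, 1, Real.sqrt 2], !₂[0, -1, Real.sqrt 2]} ⊆
          ⋃ i, {x : EuclideanSpace ℝ (Fin 3) | ∃ b ∈ convexHull ℝ {p i, q i, r i}, ∃ t : ℝ, x = b + t • u i} ∧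
        abs ((∑ i, (μHE[2] (convexHull ℝ ({p i, q i, r i} : Set (EuclideanSpace ℝ (Fin 3))))).toReal) / Real.sqrt 2 -
            (1 / 2 - 13 / 6000 * ε ^ 2)) ≤ 2 * ε ^ 4 := by
  have hVS : ({!₂[1, 0, 0], !₂[-1, 0, 0], !₂[0, 1, Real.sqrt 2], !₂[0, -1, Real.sqrt 2]} :
      Set (EuclideanSpace ℝ (Fin 3))) = VS := rfl
  rw [hVS]
  refine ⟨⟨fun v hv => ?_, ex, ex_norm, ?_⟩, ?_⟩
  · rw [proj_eq hv]; exact min_proj hv
  · rw [proj_eq ex_norm]; exact proj_ex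
  · intro ε hε hε2
    have hceil : 8000000 ≤ ⌈2 / ε ^ 2⌉₊ := by
      have h1 : (8000000:ℝ) ≤ 2 / ε ^ 2 := by
        rw [le_div_iff₀ (by positivity)]
        have : ε ^ 2 ≤ (1/2000)^2 := pow_le_pow_left₀ hε.le hε2 2
        linarith
      have h2 : (8000000:ℝ) ≤ (⌈2 / ε ^ 2⌉₊ : ℝ) := h1.trans (Nat.le_ceil _)
      exact_mod_cast h2
    have hM : NN + NN + 1 ≤ 2 * ⌈2 / ε ^ 2⌉₊ := by
      unfold NN; omega
    obtain ⟨k, hk⟩ := Nat.exists_eq_add_of_le hM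
    rw [hk]
    have hA : Real.sqrt 2 * (1/2 - 1/10^9) ≤ Real.sqrt 2 * (1 / 2 - 13 / 6000 * ε ^ 2) := by
      apply mul_le_mul_of_nonneg_left _ sqrt2_pos.le
      have : ε ^ 2 ≤ (1/2000)^2 := pow_le_pow_left₀ hε.le hε2 2
      norm_num at this ⊢
      linarith
    obtain ⟨u, p, q, r, h1, h2, h3, h4⟩ := padded_cover k _ hA
    refine ⟨u, p, q, r, h1, h2, h3, ?_⟩
    rw [h4, mul_div_cancel_left₀ _ sqrt2_pos.ne', sub_self, abs_zero]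
    positivity

end Crest.Agent.S0325
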