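import Crest.Agent.S0326Grid
set_option autoImplicit false
open MeasureTheory Filter Topology
open scoped ENNReal NNReal

namespace Crest.Agent.S0326Aux

lemma exists_K (C A0 : ℝ) (hA : 1 < A0) :
    ∃ K : ℕ, 0 < K ∧ (1 + 2*(1/(K:ℝ)))^2 * (1 + 2 * (2 * C + 2) / K)^2 ≤ A0 := by
  have h1 : Tendsto (fun K : ℕ => (1 + 2*(1/(K:ℝ)))^2 * (1 + 2 * (2 * C + 2) / K)^2) atTop (𝓝 ((1 + 2*0)^2 * (1 + 0)^2)) := by
    apply Tendsto.mul
    · exact ((tendsto_const_div_atTop_nhds_zero_nat (1:ℝ)).const_mul 2).const_add 1 |>.pow 2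
    · exact (tendsto_const_div_atTop_nhds_zero_nat (2 * (2 * C + 2))).const_add 1 |>.pow 2
  have h2 : ((1 + 2*0)^2 * (1 + 0)^2 : ℝ) < A0 := by norm_num; exact hA
  have h3 := (h1.eventually_le_const h2).and (eventually_gt_atTop 0)
  obtain ⟨K, hK1, hK2⟩ := h3.exists
  exact ⟨K, hK2, hK1⟩

theorem main_cover (D U : Set E2) (hD : IsCompact D) (hU : IsOpen U) (hDU : D ⊆ U) (V : E2 → E2)
    (hV : ContDiffOn ℝ 1 V U) (L : ℝ) (hL : 0 < L)
    (htr : ∀ p ∈ D, LinearMap.trace ℝ _ (fderiv ℝ V p).toLinearMap = 0)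
    (hdet : ∀ p ∈ D, -(L ^ 2)⁻¹ < LinearMap.det (fderiv ℝ V p).toLinearMap ∧
      LinearMap.det (fderiv ℝ V p).toLinearMap ≤ 0)
    (J : E2 → ℝ) (hJ : Continuous J) (hJ0 : ∀ g, 0 ≤ J g) (hJ1 : ∀ g, J g ≤ 1)
    (ε : ℝ) (hε : 0 < ε) :
    ∃ (ι : Type) (_ : Fintype ι) (c u v g : ι → E2),
      (∀ i, u i ≠ 0 ∧ ‖v i‖ = ‖u i‖ ∧ inner ℝ (u i) (v i) = 0) ∧
      (∀ x ∈ D, ∀ t : ℝ, |t| ≤ L →
        ∃ i, ∃ α ∈ Set.Icc (0:ℝ) 1, ∃ β ∈ Set.Icc (0:ℝ) 1, x + t • V x = c i + α • u i + β • v i + t • g i) ∧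
      ∑ i, ‖u i‖^2 * J (g i) ≤ (∫ x in D, J (V x)) + ε := by
  classical
  have hVc : ContinuousOn V D := (hV.continuousOn).mono hDU
  obtain ⟨Λ, κ₀, hΛ, hκ, hΛb, hκb⟩ := consts D U hD hU hDU V hV L hL (fun p hp => (hdet p hp).1)
  obtain ⟨C, hC⟩ : ∃ C, C = (1 + L * Λ) / κ₀ := ⟨_, rfl⟩
  have hC0 : 0 ≤ C := by rw [hC]; positivity
  obtain ⟨v0, hv0⟩ : ∃ v0, v0 = (volume D).toReal := ⟨_, rfl⟩
  have hv0n : 0 ≤ v0 := by rw [hv0]; exact ENNReal.toReal_nonneg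
  obtain ⟨I, hI⟩ : ∃ I, I = ∫ x in D, J (V x) := ⟨_, rfl⟩
  have hI0 : 0 ≤ I := by rw [hI]; exact integral_nonneg (fun x => hJ0 _)
  obtain ⟨η, hη⟩ : ∃ η, η = min 1 (ε/16) := ⟨_, rfl⟩
  have hη0 : 0 < η := by rw [hη]; positivity
  have hη1 : η ≤ 1 := by rw [hη]; exact min_le_left _ _
  have hη2 : η ≤ ε/16 := by rw [hη]; exact min_le_right _ _
  obtain ⟨ε1, hε1⟩ : ∃ ε1, ε1 = ε / (16 * (v0 + 1)) := ⟨_, rfl⟩
  have hε1p : 0 < ε1 := by rw [hε1]; positivity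
  have hε1v : ε1 * (v0 + 1) = ε / 16 := by rw [hε1]; field_simp
  obtain ⟨A0, hA0⟩ : ∃ A0, A0 = 1 + (ε/4) / (I + ε/4) := ⟨_, rfl⟩
  have hA0p : 1 < A0 := by rw [hA0]; have : 0 < (ε/4) / (I + ε/4) := by positivity
                           linarith
  have hA0e : A0 * (I + ε/4) = I + ε/2 := by
    rw [hA0]; have : I + ε/4 ≠ 0 := by positivity
    field_simp; ring
  obtain ⟨K, hK, hKA⟩ := exists_K C A0 hA0p
  have hKr : (0:ℝ) < K := by exact_mod_cast hK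
  obtain ⟨θ, hθ⟩ : ∃ θ : ℝ, θ = 1/(K:ℝ) := ⟨_, rfl⟩
  have hθ0 : 0 < θ := by rw [hθ]; positivity
  rw [← hθ] at hKA
  obtain ⟨ω, hω⟩ : ∃ ω : ℝ, ω = θ / (2 * L * K) := ⟨_, rfl⟩
  have hω0 : 0 < ω := by rw [hω]; positivity
  obtain ⟨r0, hr0, hstrict⟩ := unif_strict D U hD hU hDU V hV ω hω0
  -- uniform continuity of J on a big ball
  obtain ⟨R, hR⟩ := (hD.image_of_continuousOn hVc).isBounded.exists_norm_le
  have hJu : UniformContinuousOn J (Metric.closedBall (0:E2) (R+1)) :=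
    (isCompact_closedBall _ _).uniformContinuousOn_of_continuous hJ.continuousOn
  rw [Metric.uniformContinuousOn_iff] at hJu
  obtain ⟨ρ1, hρ1, hJρ⟩ := hJu ε1 hε1p
  -- uniform continuity of J ∘ V on D
  have hJV : UniformContinuousOn (fun x => J (V x)) D :=
    hD.uniformContinuousOn_of_continuous (hJ.comp_continuousOn hVc)
  rw [Metric.uniformContinuousOn_iff] at hJV
  obtain ⟨ρ2, hρ2, hJVρ⟩ := hJV ε1 hε1p
  -- measure of thickening
  have hth : ∀ᶠ r in 𝓝 (0:ℝ), (volume (Metric.cthickening (2*r) D)).toReal < (volume D).toReal + η := by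
    have h1 := tendsto_measure_cthickening_of_isCompact (μ := volume) hD
    have h2 : Tendsto (fun r : ℝ => 2 * r) (𝓝 0) (𝓝 0) := by
      have := (continuous_const_mul (2:ℝ)).tendsto 0
      simpa using this
    have h3 := h1.comp h2
    have h4 := (ENNReal.tendsto_toReal hD.measure_lt_top.ne).comp h3
    exact h4.eventually_lt_const (by linarith)
  rw [Metric.eventually_nhds_iff] at hth
  obtain ⟨r1, hr1, hth⟩ := hth
  -- choose r
  obtain ⟨r, hr, hr_r0, hr_ρ2, hr_r1, hr_ρ1, hr_1⟩ : ∃ r > 0, 2 * r < r0 ∧ 2 * r < ρ2 ∧ r < r1 ∧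
      Λ * (2 * r + 4 * C * (r / K)) < ρ1 ∧ Λ * (2 * r + 4 * C * (r / K)) < 1 := by
    obtain ⟨T, hT⟩ : ∃ T, T = Λ * (2 + 4 * C * (1 / K)) + 1 := ⟨_, rfl⟩
    have hT1 : 0 < T := by rw [hT]; positivity
    obtain ⟨m0, hm0, hm1, hm2, hm3, hm4, hm5⟩ : ∃ m0 > 0, m0 ≤ r0 / 2 ∧ m0 ≤ ρ2 / 2 ∧ m0 ≤ r1 ∧ m0 ≤ ρ1 / T ∧ m0 ≤ 1 / T := by
      refine ⟨min (r0/2) (min (ρ2/2) (min r1 (min (ρ1/T) (1/T)))), by positivity, ?_, ?_, ?_, ?_, ?_⟩
      · exact min_le_left _ _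
      · exact (min_le_right _ _).trans (min_le_left _ _)
      · exact (min_le_right _ _).trans ((min_le_right _ _).trans (min_le_left _ _))
      · exact (min_le_right _ _).trans ((min_le_right _ _).trans ((min_le_right _ _).trans (min_le_left _ _)))
      · exact (min_le_right _ _).trans ((min_le_right _ _).trans ((min_le_right _ _).trans (min_le_right _ _)))
    have hTr : ∀ r, Λ * (2 * r + 4 * C * (r / K)) = (T - 1) * r := by
      intro r; rw [hT]; ring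
    refine ⟨m0/2, by positivity, by linarith, by linarith, by linarith, ?_, ?_⟩
    · rw [hTr]
      rw [le_div_iff₀ hT1] at hm4
      nlinarith
    · rw [hTr]
      rw [le_div_iff₀ hT1] at hm5
      nlinarith
  have hthr := (hth (y := r) (by rw [dist_zero_right, Real.norm_eq_abs, abs_of_pos hr]; exact hr_r1)).le
  obtain ⟨F, hF1, hF2⟩ := cells_meeting D hD r hr
  -- choose points
  have hF1' : ∀ p : F, ∃ x ∈ D, x ∈ cell r p.1 := fun p => hF1 p.1 p.2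
  choose q hqD hqc using hF1'
  -- local covers
  have hloc : ∀ p : F, ∃ (ι : Type) (_ : Fintype ι) (c u v g : ι → E2),
      (∀ i, u i ≠ 0 ∧ ‖v i‖ = ‖u i‖ ∧ inner ℝ (u i) (v i) = 0) ∧
      (∀ x ∈ D, x ∈ cell r p.1 → ∀ t : ℝ, |t| ≤ L →
        ∃ i, ∃ α ∈ Set.Icc (0:ℝ) 1, ∃ β ∈ Set.Icc (0:ℝ) 1, x + t • V x = c i + α • u i + β • v i + t • g i) ∧
      (∀ i, ‖g i - V (q p)‖ ≤ Λ * (2 * r + 4 * C * (r / K))) ∧
      ∑ i, ‖u i‖^2 ≤ (1 + 2*θ)^2 * ((1 + 2 * (2 * C + 2) / K)^2 * r^2) := by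
    intro p
    obtain ⟨p0, hp0, happ⟩ := hstrict (q p) (hqD p)
    rw [hC]
    apply cell_cover V D (q p) (fderiv ℝ V p0) L Λ κ₀ θ ω r K (p.1.1 * r) (p.1.2 * r) hL hΛ hκ hθ0 hr hK
      (htr p0 hp0) (hdet p0 hp0).2 (hκb p0 hp0) (hΛb p0 hp0) (hqc p) (by rw [hω]; field_simp; exact le_rfl) hω0.le
    intro x hx hxc
    apply happ
    · rw [Metric.mem_ball]
      exact (cell_dist r p.1 x (q p) hxc (hqc p)).trans hr_r0
    · exact Metric.mem_ball_self hr0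
  choose ι hι c u v g h1 h2 h3 h4 using hloc
  refine ⟨Σ p : F, ι p, inferInstance, fun z => c z.1 z.2, fun z => u z.1 z.2, fun z => v z.1 z.2,
    fun z => g z.1 z.2, fun z => h1 z.1 z.2, ?_, ?_⟩
  · intro x hx t ht
    obtain ⟨p, hp, hxp⟩ := hF2 x hx
    obtain ⟨i, α, hα, β, hβ, heq⟩ := h2 ⟨p, hp⟩ x hx hxp t ht
    exact ⟨⟨⟨p, hp⟩, i⟩, α, hα, β, hβ, heq⟩
  · rw [Fintype.sum_sigma]
    -- bound each cell
    have hJg : ∀ (p : F) (i : ι p), J (g p i) ≤ J (V (q p)) + ε1 := by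
      intro p i
      have hVq : ‖V (q p)‖ ≤ R := hR _ ⟨q p, hqD p, rfl⟩
      have hd := h3 p i
      have hmem1 : g p i ∈ Metric.closedBall (0:E2) (R+1) := by
        rw [mem_closedBall_zero_iff]
        have : g p i = V (q p) + (g p i - V (q p)) := by abel
        rw [this]
        refine (norm_add_le _ _).trans ?_
        linarith
      have hmem2 : V (q p) ∈ Metric.closedBall (0:E2) (R+1) := by
        rw [mem_closedBall_zero_iff]; linarith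
      have := hJρ _ hmem1 _ hmem2 (by rw [dist_eq_norm]; exact hd.trans_lt hr_ρ1)
      rw [Real.dist_eq, abs_lt] at this
      linarith
    obtain ⟨A, hA⟩ : ∃ A, A = (1 + 2*θ)^2 * (1 + 2 * (2 * C + 2) / K)^2 := ⟨_, rfl⟩
    have hAA : A ≤ A0 := by rw [hA]; exact hKA
    have hA1 : 0 ≤ A := by rw [hA]; positivity
    have hcellsum : ∀ p : F, ∑ i, ‖u p i‖^2 * J (g p i) ≤ A * (J (V (q p)) * r^2 + ε1 * r^2) := by
      intro p
      calc ∑ i, ‖u p i‖^2 * J (g p i) ≤ ∑ i, ‖u p i‖^2 * (J (V (q p)) + ε1) := by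
            apply Finset.sum_le_sum
            intro i _
            exact mul_le_mul_of_nonneg_left (hJg p i) (by positivity)
        _ = (∑ i, ‖u p i‖^2) * (J (V (q p)) + ε1) := by rw [Finset.sum_mul]
        _ ≤ ((1 + 2*θ)^2 * ((1 + 2 * (2 * C + 2) / K)^2 * r^2)) * (J (V (q p)) + ε1) := by
            apply mul_le_mul_of_nonneg_right (h4 p)
            have := hJ0 (V (q p)); linarith
        _ = _ := by rw [hA]; ring
    -- the function a on ℤ × ℤ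
    set a : ℤ × ℤ → ℝ := fun p => if hp : p ∈ F then J (V (q ⟨p, hp⟩)) else 0 with ha
    have haF : ∀ p : F, a p.1 = J (V (q p)) := by
      intro p; simp only [ha]; rw [dif_pos p.2]
    have hfc : ContinuousOn (fun x => J (V x)) D := hJ.comp_continuousOn hVc
    obtain ⟨hcard, hsum⟩ := riemann_cells D hD r hr F hF1 hF2 (fun x => J (V x)) hfc a
      (fun p hp => by rw [haF ⟨p, hp⟩]; exact hJ0 _) (fun p hp => by rw [haF ⟨p, hp⟩]; exact hJ1 _) ε1 hε1p.le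
      (fun p hp x hx hxc => by
        rw [haF ⟨p, hp⟩]
        have := hJVρ _ (hqD ⟨p, hp⟩) _ hx ((cell_dist r p _ x (hqc ⟨p, hp⟩) hxc).trans hr_ρ2)
        rw [Real.dist_eq, abs_lt] at this
        linarith) η hthr
    rw [← hv0] at hcard hsum
    rw [← hI] at hsum ⊢
    have hcard1 : ε1 * ((F.card : ℝ) * r^2) ≤ ε/16 := by
      rw [← hε1v]
      exact mul_le_mul_of_nonneg_left (by linarith) hε1p.le
    have hε1v0 : ε1 * v0 ≤ ε/16 := by
      rw [← hε1v]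
      exact mul_le_mul_of_nonneg_left (by linarith) hε1p.le
    calc ∑ p : F, ∑ i, ‖u p i‖^2 * J (g p i) ≤ ∑ p : F, A * (J (V (q p)) * r^2 + ε1 * r^2) :=
          Finset.sum_le_sum (fun p _ => hcellsum p)
      _ = ∑ p : F, A * (a p.1 * r^2 + ε1 * r^2) := by
          apply Finset.sum_congr rfl; intro p _; rw [haF p]
      _ = ∑ p ∈ F, A * (a p * r^2 + ε1 * r^2) := by
          rw [← Finset.sum_coe_sort F (fun p => A * (a p * r^2 + ε1 * r^2))]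
      _ = A * ((∑ p ∈ F, a p * r^2) + ε1 * ((F.card : ℝ) * r^2)) := by
          rw [← Finset.mul_sum, Finset.sum_add_distrib, Finset.sum_const, nsmul_eq_mul]; ring
      _ ≤ A * (I + ε/4) := by
          apply mul_le_mul_of_nonneg_left _ hA1
          linarith
      _ ≤ A0 * (I + ε/4) := mul_le_mul_of_nonneg_right hAA (by positivity)
      _ = I + ε/2 := hA0e
      _ ≤ I + ε := by linarith

end Crest.Agent.S0326Aux
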