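import Crest.Agent.S0324Geo
set_option autoImplicit false
open MeasureTheory
open scoped ENNReal NNReal

namespace Crest.Agent.S0326Aux

/-- lattice covering lemma -/
lemma lattice_cover (κ₁ κ₂ : ℝ) (h0 : 0 ≤ κ₁ * κ₂) (h1 : κ₁ * κ₂ < 1) (X Y : ℝ) :
    ∃ m n : ℤ, 0 ≤ X - m - κ₁ * n ∧ X - m - κ₁ * n ≤ 1 ∧ 0 ≤ Y - n - κ₂ * m ∧ Y - n - κ₂ * m ≤ 1 := by
  set nn : ℤ → ℤ := fun m => ⌊Y - κ₂ * m⌋ with hnn
  set f : ℤ → ℝ := fun m => X - m - κ₁ * (nn m) with hf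
  have hpos : 0 < 1 - κ₁ * κ₂ := by linarith
  have hfl : ∀ m : ℤ, |κ₁ * ((Y - κ₂ * m) - nn m)| ≤ |κ₁| := by
    intro m
    rw [abs_mul]
    have h2 : |(Y - κ₂ * m) - nn m| ≤ 1 := by
      have := Int.floor_le (Y - κ₂ * m)
      have := Int.lt_floor_add_one (Y - κ₂ * m)
      rw [abs_le]; constructor <;> simp only [hnn] <;> linarith
    exact mul_le_of_le_one_right (abs_nonneg _) h2
  have hfeq : ∀ m : ℤ, f m = (X - κ₁ * Y) - (1 - κ₁ * κ₂) * m + κ₁ * ((Y - κ₂ * m) - nn m) := by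
    intro m; simp only [hf]; ring
  -- boundedness
  have hbdd : ∃ b : ℤ, ∀ z : ℤ, 0 ≤ f z → z ≤ b := by
    refine ⟨⌈(X - κ₁ * Y + |κ₁|) / (1 - κ₁ * κ₂)⌉, fun z hz => ?_⟩
    have h2 := (abs_le.mp (hfl z)).2
    rw [hfeq] at hz
    have h3 : (z:ℝ) ≤ (X - κ₁ * Y + |κ₁|) / (1 - κ₁ * κ₂) := by
      rw [le_div_iff₀ hpos]; linarith
    have h4 := h3.trans (Int.le_ceil _)
    exact_mod_cast h4
  have hne : ∃ z : ℤ, 0 ≤ f z := by
    refine ⟨⌊(X - κ₁ * Y - |κ₁|) / (1 - κ₁ * κ₂)⌋, ?_⟩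
    rw [hfeq]
    have h2 := (abs_le.mp (hfl ⌊(X - κ₁ * Y - |κ₁|) / (1 - κ₁ * κ₂)⌋)).1
    have h3 := Int.floor_le ((X - κ₁ * Y - |κ₁|) / (1 - κ₁ * κ₂))
    rw [le_div_iff₀ hpos] at h3
    linarith
  obtain ⟨m, hm, hmax⟩ := Int.exists_greatest_of_bdd hbdd hne
  have hm1 : f (m+1) < 0 := by
    by_contra hcon
    push Not at hcon
    have := hmax (m+1) hcon
    omega
  -- step inequality
  have hstep : f m - 1 ≤ f (m+1) := by
    have e : f (m+1) - f m + 1 = κ₁ * ((nn m : ℝ) - nn (m+1)) := by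
      simp only [hf]; push_cast; ring
    have hnonneg : 0 ≤ κ₁ * ((nn m : ℝ) - nn (m+1)) := by
      rcases le_total 0 κ₁ with hk | hk
      · rcases hk.eq_or_lt with hk0 | hk0
        · rw [← hk0]; simp
        · have hk2 : 0 ≤ κ₂ := by
            by_contra hc
            push Not at hc
            nlinarith
          have : nn (m+1) ≤ nn m := by
            apply Int.floor_le_floor
            push_cast; nlinarith
          have h5 : (nn (m+1) : ℝ) ≤ nn m := by exact_mod_cast this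
          exact mul_nonneg hk (by linarith)
      · rcases hk.eq_or_lt with hk0 | hk0
        · rw [hk0]; simp
        · have hk2 : κ₂ ≤ 0 := by
            by_contra hc
            push Not at hc
            nlinarith
          have : nn m ≤ nn (m+1) := by
            apply Int.floor_le_floor
            push_cast; nlinarith
          have h5 : (nn m : ℝ) ≤ nn (m+1) := by exact_mod_cast this
          exact mul_nonneg_of_nonpos_of_nonpos hk (by linarith)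
    linarith
  refine ⟨m, nn m, hm, by linarith, ?_, ?_⟩
  · have := Int.floor_le (Y - κ₂ * m)
    simp only [hnn]; linarith
  · have := Int.lt_floor_add_one (Y - κ₂ * m)
    simp only [hnn]; linarith

lemma lattice_bound (κ₁ κ₂ κ₀ Λ a b : ℝ) (hκ : 0 < κ₀) (h : κ₀ ≤ 1 - κ₁ * κ₂) (h1 : |κ₁| ≤ Λ) (h2 : |κ₂| ≤ Λ)
    (ha0 : 0 ≤ a + κ₁ * b) (ha1 : a + κ₁ * b ≤ 1) (hb0 : 0 ≤ b + κ₂ * a) (hb1 : b + κ₂ * a ≤ 1) :
    |a| ≤ (1 + Λ) / κ₀ ∧ |b| ≤ (1 + Λ) / κ₀ := by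
  have hΛ : 0 ≤ Λ := (abs_nonneg _).trans h1
  have key : ∀ κ₁ κ₂ a b : ℝ, κ₀ ≤ 1 - κ₁ * κ₂ → |κ₁| ≤ Λ → 0 ≤ a + κ₁ * b → a + κ₁ * b ≤ 1 →
      0 ≤ b + κ₂ * a → b + κ₂ * a ≤ 1 → |a| ≤ (1 + Λ) / κ₀ := by
    intro κ₁ κ₂ a b h h1 ha0 ha1 hb0 hb1
    rw [le_div_iff₀ hκ]
    have e : (1 - κ₁ * κ₂) * a = (a + κ₁ * b) - κ₁ * (b + κ₂ * a) := by ring
    have e2 : |(1 - κ₁ * κ₂) * a| ≤ 1 + Λ := by
      rw [e]
      calc |(a + κ₁ * b) - κ₁ * (b + κ₂ * a)| ≤ |a + κ₁ * b| + |κ₁ * (b + κ₂ * a)| := abs_sub _ _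
        _ ≤ 1 + Λ := by
          apply add_le_add
          · rw [abs_of_nonneg ha0]; exact ha1
          · rw [abs_mul, abs_of_nonneg hb0]
            calc |κ₁| * (b + κ₂ * a) ≤ Λ * 1 := mul_le_mul h1 hb1 hb0 hΛ
              _ = Λ := mul_one _
    rw [abs_mul, abs_of_pos (by linarith)] at e2
    nlinarith [abs_nonneg a]
  exact ⟨key κ₁ κ₂ a b h h1 ha0 ha1 hb0 hb1, key κ₂ κ₁ b a (by linarith) h2 hb0 hb1 ha0 ha1⟩


abbrev E2 := EuclideanSpace ℝ (Fin 2)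

noncomputable def b0 : E2 := EuclideanSpace.single 0 1
noncomputable def b1 : E2 := EuclideanSpace.single 1 1

lemma E2_decomp (x : E2) : x = x 0 • b0 + x 1 • b1 := by
  ext i; fin_cases i <;> simp [b0, b1]

lemma trace_eq (f : E2 →ₗ[ℝ] E2) : LinearMap.trace ℝ _ f = f b0 0 + f b1 1 := by
  rw [LinearMap.trace_eq_matrix_trace ℝ (EuclideanSpace.basisFun (Fin 2) ℝ).toBasis]
  simp [Matrix.trace, Fin.sum_univ_two, LinearMap.toMatrix_apply, b0, b1]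

lemma det_eq (f : E2 →ₗ[ℝ] E2) : LinearMap.det f = f b0 0 * f b1 1 - f b1 0 * f b0 1 := by
  rw [← LinearMap.det_toMatrix (EuclideanSpace.basisFun (Fin 2) ℝ).toBasis]
  rw [Matrix.det_fin_two]
  simp [LinearMap.toMatrix_apply, b0, b1]

lemma onb_zero_diag (f : E2 →ₗ[ℝ] E2) (htr : LinearMap.trace ℝ _ f = 0) :
    ∃ (c s β γ : ℝ), c^2 + s^2 = 1 ∧ f !₂[c, s] = γ • !₂[-s, c] ∧ f !₂[-s, c] = β • !₂[c, s] ∧
      LinearMap.det f = -(β * γ) := by
  rw [trace_eq] at htr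
  obtain ⟨p, hp⟩ : ∃ p, p = f b0 0 := ⟨_, rfl⟩
  obtain ⟨r, hr⟩ : ∃ r, r = f b0 1 := ⟨_, rfl⟩
  obtain ⟨q, hq⟩ : ∃ q, q = f b1 0 := ⟨_, rfl⟩
  have hs : f b1 1 = -p := by rw [hp]; linarith
  have hf0 : ∀ x : E2, f x 0 = p * x 0 + q * x 1 := by
    intro x
    conv_lhs => rw [E2_decomp x]
    rw [map_add, map_smul, map_smul, hp, hq]; simp; ring
  have hf1 : ∀ x : E2, f x 1 = r * x 0 - p * x 1 := by
    intro x
    conv_lhs => rw [E2_decomp x]
    rw [map_add, map_smul, map_smul]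
    simp only [PiLp.add_apply, PiLp.smul_apply, smul_eq_mul, hs, ← hr]
    ring
  -- find the angle
  have hcont : Continuous (fun θ : ℝ => p * (Real.cos θ ^2 - Real.sin θ^2) + (q + r) * (Real.cos θ * Real.sin θ)) := by
    fun_prop
  have hex : ∃ θ : ℝ, p * (Real.cos θ ^2 - Real.sin θ^2) + (q + r) * (Real.cos θ * Real.sin θ) = 0 := by
    have h := intermediate_value_uIcc (a := 0) (b := Real.pi/2) hcont.continuousOn
    have h0 : (0:ℝ) ∈ Set.uIcc ((fun θ : ℝ => p * (Real.cos θ ^2 - Real.sin θ^2) + (q + r) * (Real.cos θ * Real.sin θ)) 0)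
        ((fun θ : ℝ => p * (Real.cos θ ^2 - Real.sin θ^2) + (q + r) * (Real.cos θ * Real.sin θ)) (Real.pi/2)) := by
      simp only [Real.cos_zero, Real.sin_zero, Real.cos_pi_div_two, Real.sin_pi_div_two]
      rcases le_total 0 p with hp0 | hp0
      · rw [Set.mem_uIcc]; right; constructor <;> linarith
      · rw [Set.mem_uIcc]; left; constructor <;> linarith
    obtain ⟨θ, _, hθ⟩ := h h0
    exact ⟨θ, hθ⟩
  obtain ⟨θ, hθ⟩ := hex
  have h1 : Real.cos θ ^2 + Real.sin θ^2 = 1 := by rw [add_comm]; exact Real.sin_sq_add_cos_sq θ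
  set c := Real.cos θ with hc
  set s := Real.sin θ with hsn
  refine ⟨c, s, c*(-p*s+q*c) + s*(-r*s - p*c), -s*(p*c+q*s)+c*(r*c-p*s), h1, ?_, ?_, ?_⟩
  · ext i
    fin_cases i
    · have := hf0 !₂[c, s]
      simp at this ⊢
      rw [this]
      linear_combination (-c*(c^2+s^2-1) + c) * hθ * 0 + c * hθ - (p*c+q*s) * h1
    · have := hf1 !₂[c, s]
      simp at this ⊢
      rw [this]
      linear_combination s * hθ - (r*c-p*s) * h1
  · ext i
    fin_cases i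
    · have := hf0 !₂[-s, c]
      simp at this ⊢
      rw [this]
      linear_combination s * hθ - (-p*s+q*c) * h1
    · have := hf1 !₂[-s, c]
      simp at this ⊢
      rw [this]
      linear_combination -c * hθ - (-r*s-p*c) * h1
  · rw [det_eq, hs, ← hp, ← hq, ← hr]
    -- -p^2 - q r = -(βγ)
    have key : (c*(-p*s+q*c) + s*(-r*s - p*c)) * (-s*(p*c+q*s)+c*(r*c-p*s))
        = (p^2+q*r) * (c^2+s^2)^2 - (p * (c ^2 - s^2) + (q + r) * (c * s))^2 := by ring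
    rw [key, hθ, h1]
    ring



lemma rect_volume (a b c d : ℝ) :
    volume {x : E2 | (a ≤ x 0 ∧ x 0 < b) ∧ (c ≤ x 1 ∧ x 1 < d)} = ENNReal.ofReal (b - a) * ENNReal.ofReal (d - c) := by
  have : {x : E2 | (a ≤ x 0 ∧ x 0 < b) ∧ (c ≤ x 1 ∧ x 1 < d)}
      = {p : E2 | (p 0, p 1) ∈ (Set.Ico a b ×ˢ Set.Ico c d)} := by
    ext p; rfl
  rw [this, S0324Geo.volume_E2 _ (measurableSet_Ico.prod measurableSet_Ico), Measure.volume_eq_prod,
    Measure.prod_prod, Real.volume_Ico, Real.volume_Ico]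

lemma rect_measurable (a b c d : ℝ) :
    MeasurableSet {x : E2 | (a ≤ x 0 ∧ x 0 < b) ∧ (c ≤ x 1 ∧ x 1 < d)} := by
  have h0 : Measurable (fun x : E2 => x 0) := by fun_prop
  have h1 : Measurable (fun x : E2 => x 1) := by fun_prop
  exact ((measurableSet_le measurable_const h0).inter (measurableSet_lt h0 measurable_const)).inter
    ((measurableSet_le measurable_const h1).inter (measurableSet_lt h1 measurable_const))

/-- rotation coordinates -/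
noncomputable def rotL (c s : ℝ) : E2 →ₗ[ℝ] E2 where
  toFun x := !₂[c * x 0 + s * x 1, -s * x 0 + c * x 1]
  map_add' x y := by ext i; fin_cases i <;> simp <;> ring
  map_smul' k x := by ext i; fin_cases i <;> simp <;> ring

lemma rotL_apply (c s : ℝ) (x : E2) : rotL c s x = !₂[c * x 0 + s * x 1, -s * x 0 + c * x 1] := rfl

lemma inner2 (a b : E2) : inner ℝ a b = a 0 * b 0 + a 1 * b 1 := by
  simp [PiLp.inner_apply, Fin.sum_univ_two]
  ring

lemma normsq2 (a : E2) : ‖a‖ ^ 2 = a 0 ^ 2 + a 1 ^ 2 := by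
  rw [EuclideanSpace.norm_sq_eq]
  simp [Fin.sum_univ_two]

noncomputable def rotI (c s : ℝ) (h : c^2 + s^2 = 1) : E2 ≃ₗᵢ[ℝ] E2 :=
  (LinearMap.isometryOfInner (rotL c s) (by
    intro x y
    rw [inner2, inner2, rotL_apply, rotL_apply]
    simp
    linear_combination (x 0 * y 0 + x 1 * y 1) * h)).toLinearIsometryEquiv rfl

lemma rotI_apply (c s : ℝ) (h : c^2 + s^2 = 1) (x : E2) :
    rotI c s h x = !₂[c * x 0 + s * x 1, -s * x 0 + c * x 1] := rfl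

/-- rotated half-open squares -/
lemma rot_rect_volume (c s : ℝ) (h : c^2 + s^2 = 1) (a₁ b₁ a₂ b₂ : ℝ) :
    volume {x : E2 | (a₁ ≤ c * x 0 + s * x 1 ∧ c * x 0 + s * x 1 < b₁) ∧
      (a₂ ≤ -s * x 0 + c * x 1 ∧ -s * x 0 + c * x 1 < b₂)} = ENNReal.ofReal (b₁ - a₁) * ENNReal.ofReal (b₂ - a₂) := by
  rw [← rect_volume a₁ b₁ a₂ b₂]
  have h1 := (rotI c s h).measurePreserving.measure_preimage (rect_measurable a₁ b₁ a₂ b₂).nullMeasurableSet
  rw [← h1]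
  congr 1

lemma rot_rect_measurable (c s : ℝ) (a₁ b₁ a₂ b₂ : ℝ) :
    MeasurableSet {x : E2 | (a₁ ≤ c * x 0 + s * x 1 ∧ c * x 0 + s * x 1 < b₁) ∧
      (a₂ ≤ -s * x 0 + c * x 1 ∧ -s * x 0 + c * x 1 < b₂)} := by
  have h0 : Measurable (fun x : E2 => c * x 0 + s * x 1) := by fun_prop
  have h1 : Measurable (fun x : E2 => -s * x 0 + c * x 1) := by fun_prop
  exact ((measurableSet_le measurable_const h0).inter (measurableSet_lt h0 measurable_const)).inter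
    ((measurableSet_le measurable_const h1).inter (measurableSet_lt h1 measurable_const))

/-- Counting rotated lattice squares inside a rectangle. -/
lemma count_squares (c s : ℝ) (h : c^2 + s^2 = 1) (δ : ℝ) (hδ : 0 < δ) (q : E2)
    (a b a' b' : ℝ) (hab : a ≤ b) (hab' : a' ≤ b') (G : Finset (ℤ × ℤ))
    (hG : ∀ p ∈ G, ∀ x : E2, (p.1 * δ ≤ c * (x 0 - q 0) + s * (x 1 - q 1) ∧ c * (x 0 - q 0) + s * (x 1 - q 1) < (p.1+1) * δ) →
      (p.2 * δ ≤ -s * (x 0 - q 0) + c * (x 1 - q 1) ∧ -s * (x 0 - q 0) + c * (x 1 - q 1) < (p.2+1) * δ) →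
      (a ≤ x 0 ∧ x 0 < b) ∧ (a' ≤ x 1 ∧ x 1 < b')) :
    (G.card : ℝ) * δ^2 ≤ (b - a) * (b' - a') := by
  set A : ℤ × ℤ → Set E2 := fun p => {x : E2 |
    (c * q 0 + s * q 1 + p.1 * δ ≤ c * x 0 + s * x 1 ∧ c * x 0 + s * x 1 < c * q 0 + s * q 1 + (p.1+1) * δ) ∧
    (-s * q 0 + c * q 1 + p.2 * δ ≤ -s * x 0 + c * x 1 ∧ -s * x 0 + c * x 1 < -s * q 0 + c * q 1 + (p.2+1) * δ)} with hA
  have hAvol : ∀ p, volume (A p) = ENNReal.ofReal (δ^2) := by
    intro p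
    simp only [hA]
    rw [rot_rect_volume c s h, ← ENNReal.ofReal_mul (by nlinarith)]
    congr 1; ring
  have hAm : ∀ p, MeasurableSet (A p) := fun p => rot_rect_measurable c s _ _ _ _
  have hdisj : Set.PairwiseDisjoint (↑G : Set (ℤ × ℤ)) A := by
    intro p _ p' _ hne
    rw [Function.onFun, Set.disjoint_left]
    rintro x ⟨⟨h1, h2⟩, ⟨h3, h4⟩⟩ ⟨⟨h5, h6⟩, ⟨h7, h8⟩⟩
    apply hne
    have i1 : (p.1:ℝ) < p'.1 + 1 := by
      have : p.1 * δ < (p'.1+1) * δ := by linarith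
      exact lt_of_mul_lt_mul_right this hδ.le
    have i2 : (p'.1:ℝ) < p.1 + 1 := by
      have : p'.1 * δ < (p.1+1) * δ := by linarith
      exact lt_of_mul_lt_mul_right this hδ.le
    have i3 : (p.2:ℝ) < p'.2 + 1 := by
      have : p.2 * δ < (p'.2+1) * δ := by linarith
      exact lt_of_mul_lt_mul_right this hδ.le
    have i4 : (p'.2:ℝ) < p.2 + 1 := by
      have : p'.2 * δ < (p.2+1) * δ := by linarith
      exact lt_of_mul_lt_mul_right this hδ.le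
    have j1 : p.1 < p'.1 + 1 := by exact_mod_cast i1
    have j2 : p'.1 < p.1 + 1 := by exact_mod_cast i2
    have j3 : p.2 < p'.2 + 1 := by exact_mod_cast i3
    have j4 : p'.2 < p.2 + 1 := by exact_mod_cast i4
    ext <;> omega
  have hsub : (⋃ p ∈ G, A p) ⊆ {x : E2 | (a ≤ x 0 ∧ x 0 < b) ∧ (a' ≤ x 1 ∧ x 1 < b')} := by
    intro x hx
    simp only [Set.mem_iUnion, exists_prop] at hx
    obtain ⟨p, hp, ⟨h1, h2⟩, ⟨h3, h4⟩⟩ := hx
    exact hG p hp x ⟨by linarith, by linarith⟩ ⟨by linarith, by linarith⟩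
  have hle := measure_mono (μ := volume) hsub
  rw [measure_biUnion_finset hdisj (fun p _ => hAm p), rect_volume, Finset.sum_congr rfl (fun p _ => hAvol p)] at hle
  rw [Finset.sum_const, nsmul_eq_mul, ← ENNReal.ofReal_mul (by linarith)] at hle
  have h2 : ENNReal.ofReal ((G.card : ℝ) * δ^2) ≤ ENNReal.ofReal ((b - a) * (b' - a')) := by
    rw [ENNReal.ofReal_mul (by positivity), ENNReal.ofReal_natCast]; exact hle
  exact (ENNReal.ofReal_le_ofReal_iff (mul_nonneg (by linarith) (by linarith))).mp h2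

lemma abs_mul_lt_of_le_one {c ξ δ : ℝ} (hc : |c| ≤ 1) (hξ : |ξ| < δ) : |c * ξ| < δ := by
  rw [abs_mul]
  exact (mul_le_of_le_one_left (abs_nonneg _) hc).trans_lt hξ

lemma abs_mul_le_of_le_one {c ξ δ : ℝ} (hc : |c| ≤ 1) (hξ : |ξ| ≤ δ) : |c * ξ| ≤ δ := by
  rw [abs_mul]
  exact (mul_le_of_le_one_left (abs_nonneg _) hc).trans hξ

/-- The point-wise covering statement in the affine model with error. -/
lemma cell_point (c s β γ δ θ κ₀ Λ L t : ℝ) (h1 : c^2 + s^2 = 1) (hδ : 0 < δ) (hκ : 0 < κ₀) (hθ : 0 < θ)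
    (hβγ : 0 ≤ β * γ) (hdet : κ₀ ≤ 1 - L^2 * (β * γ)) (hβ : |β| ≤ Λ) (hγ : |γ| ≤ Λ) (hL : 0 < L) (ht : |t| ≤ L)
    (M : E2 →L[ℝ] E2) (hMe1 : M !₂[c, s] = γ • !₂[-s, c]) (hMe2 : M !₂[-s, c] = β • !₂[c, s])
    (x q Vx Vq : E2) (herr : L * ‖Vx - Vq - M (x - q)‖ ≤ θ * δ) :
    ∃ m n : ℤ, |(c * (x 0 - q 0) + s * (x 1 - q 1)) / δ - m| ≤ (1 + L * Λ) / κ₀ ∧
      |(-s * (x 0 - q 0) + c * (x 1 - q 1)) / δ - n| ≤ (1 + L * Λ) / κ₀ ∧
      ∃ α ∈ Set.Icc (0:ℝ) 1, ∃ α' ∈ Set.Icc (0:ℝ) 1,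
        x + t • Vx = ((q + (m * δ) • !₂[c, s] + (n * δ) • !₂[-s, c]) - (θ * δ) • !₂[c, s] - (θ * δ) • !₂[-s, c])
          + α • (((1 + 2*θ) * δ) • !₂[c, s]) + α' • (((1 + 2*θ) * δ) • !₂[-s, c])
          + t • (Vq + M ((q + (m * δ) • !₂[c, s] + (n * δ) • !₂[-s, c]) - q)) := by
  obtain ⟨X, hX⟩ : ∃ X, X = (c * (x 0 - q 0) + s * (x 1 - q 1)) / δ := ⟨_, rfl⟩
  obtain ⟨Y, hY⟩ : ∃ Y, Y = (-s * (x 0 - q 0) + c * (x 1 - q 1)) / δ := ⟨_, rfl⟩
  rw [← hX, ← hY]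
  have ht2 : t^2 ≤ L^2 := by
    rw [← sq_abs t]; exact pow_le_pow_left₀ (abs_nonneg t) ht 2
  have hk0 : 0 ≤ (t * β) * (t * γ) := by
    have : (t * β) * (t * γ) = t^2 * (β * γ) := by ring
    rw [this]; positivity
  have hk1 : κ₀ ≤ 1 - (t * β) * (t * γ) := by
    have : (t * β) * (t * γ) = t^2 * (β * γ) := by ring
    rw [this]
    have := mul_le_mul_of_nonneg_right ht2 hβγ
    linarith
  obtain ⟨m, n, i1, i2, i3, i4⟩ := lattice_cover (t * β) (t * γ) hk0 (by linarith) (X + (t*β) * Y) (Y + (t*γ) * X)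
  have hb1 : |t * β| ≤ L * Λ := by
    rw [abs_mul]; exact mul_le_mul ht hβ (abs_nonneg _) hL.le
  have hb2 : |t * γ| ≤ L * Λ := by
    rw [abs_mul]; exact mul_le_mul ht hγ (abs_nonneg _) hL.le
  obtain ⟨ha, hb⟩ := lattice_bound (t*β) (t*γ) κ₀ (L*Λ) (X - m) (Y - n) hκ hk1 hb1 hb2
    (by linarith) (by linarith) (by linarith) (by linarith)
  refine ⟨m, n, ha, hb, ?_⟩
  obtain ⟨E, hE⟩ : ∃ E : E2, E = t • (Vx - Vq - M (x - q)) := ⟨_, rfl⟩
  have hEn : ‖E‖ ≤ θ * δ := by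
    rw [hE, norm_smul, Real.norm_eq_abs]
    exact (mul_le_mul_of_nonneg_right ht (norm_nonneg _)).trans herr
  obtain ⟨E1, hE1⟩ : ∃ E1, E1 = c * E 0 + s * E 1 := ⟨_, rfl⟩
  obtain ⟨E2', hE2⟩ : ∃ E2', E2' = -s * E 0 + c * E 1 := ⟨_, rfl⟩
  have hEsq : E1^2 + E2'^2 = ‖E‖^2 := by
    rw [normsq2, hE1, hE2]; linear_combination (E 0 ^2 + E 1 ^2) * h1
  have hE1le : |E1| ≤ θ * δ := by
    apply le_trans _ hEn
    rw [← Real.sqrt_sq_eq_abs, ← Real.sqrt_sq (norm_nonneg E)]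
    exact Real.sqrt_le_sqrt (by nlinarith [sq_nonneg E2'])
  have hE2le : |E2'| ≤ θ * δ := by
    apply le_trans _ hEn
    rw [← Real.sqrt_sq_eq_abs, ← Real.sqrt_sq (norm_nonneg E)]
    exact Real.sqrt_le_sqrt (by nlinarith [sq_nonneg E1])
  have hE1d : |E1 / δ| ≤ θ := by
    rw [abs_div, abs_of_pos hδ, div_le_iff₀ hδ]; exact hE1le
  have hE2d : |E2' / δ| ≤ θ := by
    rw [abs_div, abs_of_pos hδ, div_le_iff₀ hδ]; exact hE2le
  obtain ⟨j1, j2⟩ := abs_le.mp hE1d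
  obtain ⟨j3, j4⟩ := abs_le.mp hE2d
  have hθ2 : 0 < 1 + 2*θ := by linarith
  refine ⟨(θ + ((X - m) + (t*β) * (Y - n)) + E1 / δ) / (1 + 2*θ), ⟨?_, ?_⟩,
    (θ + ((Y - n) + (t*γ) * (X - m)) + E2' / δ) / (1 + 2*θ), ⟨?_, ?_⟩, ?_⟩
  · apply div_nonneg _ hθ2.le; linarith
  · rw [div_le_one hθ2]; linarith
  · apply div_nonneg _ hθ2.le; linarith
  · rw [div_le_one hθ2]; linarith
  · -- the vector identity
    have hxq : x = q + (X * δ) • !₂[c, s] + (Y * δ) • !₂[-s, c] := by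
      ext i
      fin_cases i
      · simp
        rw [hX, hY]
        field_simp
        linear_combination (-(x 0 - q 0)) * h1
      · simp
        rw [hX, hY]
        field_simp
        linear_combination (-(x 1 - q 1)) * h1
    have hEe : E = E1 • !₂[c, s] + E2' • !₂[-s, c] := by
      ext i
      fin_cases i
      · simp
        rw [hE1, hE2]
        linear_combination (-(E 0)) * h1
      · simp
        rw [hE1, hE2]
        linear_combination (-(E 1)) * h1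
    have hVx : t • Vx = t • Vq + t • M (x - q) + E := by rw [hE]; module
    have hMxq : M (x - q) = (X * δ * γ) • !₂[-s, c] + (Y * δ * β) • !₂[c, s] := by
      have : x - q = (X * δ) • !₂[c, s] + (Y * δ) • !₂[-s, c] := by
        conv_lhs => rw [hxq]
        abel
      rw [this, map_add, map_smul, map_smul, hMe1, hMe2, smul_smul, smul_smul]
    have hMP : M ((q + (m * δ) • !₂[c, s] + (n * δ) • !₂[-s, c]) - q) =
        (m * δ * γ) • !₂[-s, c] + (n * δ * β) • !₂[c, s] := by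
      have : (q + (m * δ) • !₂[c, s] + (n * δ) • !₂[-s, c]) - q = (m * δ) • !₂[c, s] + (n * δ) • !₂[-s, c] := by abel
      rw [this, map_add, map_smul, map_smul, hMe1, hMe2, smul_smul, smul_smul]
    rw [hVx, hMxq, hMP, hEe]
    conv_lhs => rw [hxq]
    generalize (!₂[c, s] : E2) = e1
    generalize (!₂[-s, c] : E2) = e2
    match_scalars <;> field_simp <;> ring

end Crest.Agent.S0326Aux
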