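import Crest.Agent.S0326Aux
set_option autoImplicit false
open MeasureTheory
open scoped ENNReal NNReal

namespace Crest.Agent.S0326Aux

lemma abs_coord_le (x : E2) (i : Fin 2) : |x i| ≤ ‖x‖ := by
  have := PiLp.norm_apply_le x i
  simpa using this

lemma norm_le_abs_add (x : E2) : ‖x‖ ≤ |x 0| + |x 1| := by
  have h := normsq2 x
  have h0 := norm_nonneg x
  have h1 := abs_nonneg (x 0)
  have h2 := abs_nonneg (x 1)
  have e1 := sq_abs (x 0)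
  have e2 := sq_abs (x 1)
  apply le_of_sq_le_sq _ (by positivity)
  nlinarith [mul_nonneg h1 h2]

/-- Local covering lemma in one grid cell. -/
lemma cell_cover (V : E2 → E2) (D : Set E2) (q : E2) (M : E2 →L[ℝ] E2) (L Λ κ₀ θ ω r : ℝ) (K : ℕ)
    (a a' : ℝ)
    (hL : 0 < L) (hΛ : 0 ≤ Λ) (hκ : 0 < κ₀) (hθ : 0 < θ) (hr : 0 < r) (hK : 0 < K)
    (htr : LinearMap.trace ℝ _ M.toLinearMap = 0) (hdet0 : LinearMap.det M.toLinearMap ≤ 0)
    (hdet : κ₀ ≤ 1 + L^2 * LinearMap.det M.toLinearMap)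
    (hM : ‖M‖ ≤ Λ)
    (hq : (a ≤ q 0 ∧ q 0 < a + r) ∧ (a' ≤ q 1 ∧ q 1 < a' + r))
    (hω : 2 * L * ω * K ≤ θ) (hω0 : 0 ≤ ω)
    (herr : ∀ x ∈ D, (a ≤ x 0 ∧ x 0 < a + r) ∧ (a' ≤ x 1 ∧ x 1 < a' + r) → ‖V x - V q - M (x - q)‖ ≤ ω * ‖x - q‖) :
    ∃ (ι : Type) (_ : Fintype ι) (c u v g : ι → E2),
      (∀ i, u i ≠ 0 ∧ ‖v i‖ = ‖u i‖ ∧ inner ℝ (u i) (v i) = 0) ∧
      (∀ x ∈ D, (a ≤ x 0 ∧ x 0 < a + r) ∧ (a' ≤ x 1 ∧ x 1 < a' + r) → ∀ t : ℝ, |t| ≤ L →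
        ∃ i, ∃ α ∈ Set.Icc (0:ℝ) 1, ∃ β ∈ Set.Icc (0:ℝ) 1, x + t • V x = c i + α • u i + β • v i + t • g i) ∧
      (∀ i, ‖g i - V q‖ ≤ Λ * (2 * r + 4 * ((1 + L * Λ) / κ₀) * (r / K))) ∧
      ∑ i, ‖u i‖^2 ≤ (1 + 2*θ)^2 * ((1 + 2 * (2 * ((1 + L * Λ) / κ₀) + 2) / K)^2 * r^2) := by
  classical
  have hK' : (0:ℝ) < K := by exact_mod_cast hK
  obtain ⟨c, s, β, γ, h1, hMe1, hMe2, hdetβ⟩ := onb_zero_diag M.toLinearMap htr
  obtain ⟨δ, hδe⟩ : ∃ δ, δ = r / K := ⟨_, rfl⟩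
  have hδ : 0 < δ := by rw [hδe]; positivity
  have hrK : r = K * δ := by rw [hδe]; field_simp
  obtain ⟨C, hCe⟩ : ∃ C, C = (1 + L * Λ) / κ₀ := ⟨_, rfl⟩
  have hC : 0 ≤ C := by rw [hCe]; positivity
  rw [← hCe, ← hδe]
  obtain ⟨e1, he1⟩ : ∃ e1 : E2, e1 = !₂[c, s] := ⟨_, rfl⟩
  obtain ⟨e2, he2⟩ : ∃ e2 : E2, e2 = !₂[-s, c] := ⟨_, rfl⟩
  have e10 : e1 0 = c := by rw [he1]; simp
  have e11 : e1 1 = s := by rw [he1]; simp
  have e20 : e2 0 = -s := by rw [he2]; simp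
  have e21 : e2 1 = c := by rw [he2]; simp
  have ne1 : ‖e1‖ = 1 := by
    have : ‖e1‖^2 = 1 := by rw [normsq2, e10, e11]; exact h1
    have h0 := norm_nonneg e1
    nlinarith
  have ne2 : ‖e2‖ = 1 := by
    have : ‖e2‖^2 = 1 := by rw [normsq2, e20, e21]; linarith
    have h0 := norm_nonneg e2
    nlinarith
  have hβγ : 0 ≤ β * γ := by
    rw [hdetβ] at hdet0; linarith
  have hβ : |β| ≤ Λ := by
    have h2 : ‖M e2‖ ≤ Λ * ‖e2‖ := (M.le_opNorm e2).trans (mul_le_mul_of_nonneg_right hM (norm_nonneg _))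
    have h3 : M e2 = β • e1 := by rw [he2, he1]; exact hMe2
    rw [h3, norm_smul, ne1, ne2, mul_one, mul_one] at h2
    exact h2
  have hγ : |γ| ≤ Λ := by
    have h2 : ‖M e1‖ ≤ Λ * ‖e1‖ := (M.le_opNorm e1).trans (mul_le_mul_of_nonneg_right hM (norm_nonneg _))
    have h3 : M e1 = γ • e2 := by rw [he2, he1]; exact hMe1
    rw [h3, norm_smul, ne1, ne2, mul_one, mul_one] at h2
    exact h2
  -- lattice points
  obtain ⟨P, hP⟩ : ∃ P : ℤ × ℤ → E2, P = fun p => q + (p.1 * δ) • e1 + (p.2 * δ) • e2 := ⟨_, rfl⟩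
  obtain ⟨B, hB⟩ : ∃ B : ℤ, B = ⌈2 * (K:ℝ) + C⌉ := ⟨_, rfl⟩
  have hP0 : ∀ p, P p 0 = q 0 + p.1 * δ * c - p.2 * δ * s := by
    intro p; simp [hP, e10, e20]; ring
  have hP1 : ∀ p, P p 1 = q 1 + p.1 * δ * s + p.2 * δ * c := by
    intro p; simp [hP, e11, e21]
  have hcabs : |c| ≤ 1 := by rw [← sq_le_one_iff_abs_le_one]; nlinarith [sq_nonneg s]
  have hsabs : |s| ≤ 1 := by rw [← sq_le_one_iff_abs_le_one]; nlinarith [sq_nonneg c]
  obtain ⟨G, hG⟩ : ∃ G : Finset (ℤ × ℤ), G = ((Finset.Icc (-B) B) ×ˢ (Finset.Icc (-B) B)).filter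
    (fun p => (a - 2*C*δ ≤ P p 0 ∧ P p 0 ≤ a + r + 2*C*δ) ∧ (a' - 2*C*δ ≤ P p 1 ∧ P p 1 ≤ a' + r + 2*C*δ)) := ⟨_, rfl⟩
  -- counting
  have hcount : (G.card : ℝ) * δ^2 ≤ ((a + r + (2*C+2)*δ) - (a - (2*C+2)*δ)) * ((a' + r + (2*C+2)*δ) - (a' - (2*C+2)*δ)) := by
    have hCδ : 0 ≤ (2*C+2)*δ := by positivity
    apply count_squares c s h1 δ hδ q
    · linarith
    · linarith
    · intro p hp x ⟨h3, h4⟩ ⟨h5, h6⟩
      rw [hG, Finset.mem_filter] at hp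
      obtain ⟨_, ⟨p1, p2⟩, ⟨p3, p4⟩⟩ := hp
      rw [hP0] at p1 p2
      rw [hP1] at p3 p4
      obtain ⟨ξ, hξ⟩ : ∃ ξ, ξ = c * (x 0 - q 0) + s * (x 1 - q 1) - p.1 * δ := ⟨_, rfl⟩
      obtain ⟨ζ, hζ⟩ : ∃ ζ, ζ = -s * (x 0 - q 0) + c * (x 1 - q 1) - p.2 * δ := ⟨_, rfl⟩
      have hξ' : |ξ| < δ := by rw [abs_lt]; constructor <;> linarith
      have hζ' : |ζ| < δ := by rw [abs_lt]; constructor <;> linarith
      have hx0 : x 0 = q 0 + p.1 * δ * c - p.2 * δ * s + (c * ξ - s * ζ) := by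
        rw [hξ, hζ]; linear_combination (-(x 0 - q 0)) * h1
      have hx1 : x 1 = q 1 + p.1 * δ * s + p.2 * δ * c + (s * ξ + c * ζ) := by
        rw [hξ, hζ]; linear_combination (-(x 1 - q 1)) * h1
      obtain ⟨a1, a2⟩ := abs_lt.mp (abs_mul_lt_of_le_one hcabs hξ')
      obtain ⟨a3, a4⟩ := abs_lt.mp (abs_mul_lt_of_le_one hsabs hζ')
      obtain ⟨a5, a6⟩ := abs_lt.mp (abs_mul_lt_of_le_one hsabs hξ')
      obtain ⟨a7, a8⟩ := abs_lt.mp (abs_mul_lt_of_le_one hcabs hζ')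
      refine ⟨⟨?_, ?_⟩, ⟨?_, ?_⟩⟩ <;> linarith
  have hPq : ∀ p ∈ G, ‖P p - q‖ ≤ 2 * r + 4 * C * δ := by
    intro p hp
    rw [hG, Finset.mem_filter] at hp
    obtain ⟨_, ⟨p1, p2⟩, ⟨p3, p4⟩⟩ := hp
    have i0 : |(P p - q) 0| ≤ r + 2 * C * δ := by
      rw [PiLp.sub_apply, abs_le]; constructor <;> linarith [hq.1.1, hq.1.2]
    have i1 : |(P p - q) 1| ≤ r + 2 * C * δ := by
      rw [PiLp.sub_apply, abs_le]; constructor <;> linarith [hq.2.1, hq.2.2]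
    have := norm_le_abs_add (P p - q)
    linarith
  refine ⟨G, inferInstance, fun p => P p - (θ * δ) • e1 - (θ * δ) • e2, fun _ => ((1 + 2*θ) * δ) • e1,
    fun _ => ((1 + 2*θ) * δ) • e2, fun p => V q + M (P p - q), ?_, ?_, ?_, ?_⟩
  · intro i
    refine ⟨?_, ?_, ?_⟩
    · intro h
      have h' : ((1 + 2*θ) * δ) • e1 = 0 := h
      have : ‖((1 + 2*θ) * δ) • e1‖ = 0 := by rw [h', norm_zero]
      rw [norm_smul, ne1, mul_one, norm_eq_zero] at this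
      have : 0 < (1 + 2*θ) * δ := by positivity
      linarith
    · rw [norm_smul, norm_smul, ne1, ne2]
    · rw [inner_smul_left, inner_smul_right, inner2, e10, e20, e11, e21]
      have : c * -s + s * c = 0 := by ring
      rw [this]; simp
  · -- coverage
    intro x hx hxc t ht
    have hx0 : |x 0 - q 0| ≤ r := by
      rw [abs_le]; constructor <;> linarith [hq.1.1, hq.1.2, hxc.1.1, hxc.1.2]
    have hx1 : |x 1 - q 1| ≤ r := by
      rw [abs_le]; constructor <;> linarith [hq.2.1, hq.2.2, hxc.2.1, hxc.2.2]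
    have hxq : ‖x - q‖ ≤ 2 * r := by
      have := norm_le_abs_add (x - q)
      rw [PiLp.sub_apply, PiLp.sub_apply] at this
      linarith
    have herr' : L * ‖V x - V q - M (x - q)‖ ≤ θ * δ := by
      calc L * ‖V x - V q - M (x - q)‖ ≤ L * (ω * (2 * r)) := by
            apply mul_le_mul_of_nonneg_left _ hL.le
            exact (herr x hx hxc).trans (mul_le_mul_of_nonneg_left hxq hω0)
        _ = (2 * L * ω * K) * δ := by rw [hrK]; ring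
        _ ≤ θ * δ := mul_le_mul_of_nonneg_right hω hδ.le
    have hdet' : κ₀ ≤ 1 - L^2 * (β * γ) := by
      rw [hdetβ] at hdet; linarith
    obtain ⟨m, n, hm, hn, α, hα, α', hα', heq⟩ := cell_point c s β γ δ θ κ₀ Λ L t h1 hδ hκ hθ hβγ hdet' hβ hγ hL ht
      M hMe1 hMe2 x q (V x) (V q) herr'
    rw [← hCe] at hm hn
    rw [← he1, ← he2] at heq
    -- membership
    obtain ⟨X, hX⟩ : ∃ X, X = (c * (x 0 - q 0) + s * (x 1 - q 1)) / δ := ⟨_, rfl⟩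
    obtain ⟨Y, hY⟩ : ∃ Y, Y = (-s * (x 0 - q 0) + c * (x 1 - q 1)) / δ := ⟨_, rfl⟩
    rw [← hX] at hm
    rw [← hY] at hn
    have hXb : |X| ≤ 2 * K := by
      rw [hX, abs_div, abs_of_pos hδ, div_le_iff₀ hδ]
      have b1 := abs_mul_le_of_le_one hcabs hx0
      have b2 := abs_mul_le_of_le_one hsabs hx1
      have := abs_add_le (c * (x 0 - q 0)) (s * (x 1 - q 1))
      rw [hrK] at b1 b2
      linarith
    have hYb : |Y| ≤ 2 * K := by
      rw [hY, abs_div, abs_of_pos hδ, div_le_iff₀ hδ]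
      have hsabs' : |-s| ≤ 1 := by rw [abs_neg]; exact hsabs
      have b1 := abs_mul_le_of_le_one hsabs' hx0
      have b2 := abs_mul_le_of_le_one hcabs hx1
      have := abs_add_le (-s * (x 0 - q 0)) (c * (x 1 - q 1))
      rw [hrK] at b1 b2
      linarith
    obtain ⟨m1, m2⟩ := abs_le.mp hm
    obtain ⟨n1, n2⟩ := abs_le.mp hn
    obtain ⟨X1, X2⟩ := abs_le.mp hXb
    obtain ⟨Y1, Y2⟩ := abs_le.mp hYb
    have hBle := Int.le_ceil (2 * (K:ℝ) + C)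
    rw [← hB] at hBle
    have mB1 : m ≤ B := by
      have : (m:ℝ) ≤ B := by linarith
      exact_mod_cast this
    have mB2 : -B ≤ m := by
      have : (-B:ℝ) ≤ m := by linarith
      exact_mod_cast this
    have nB1 : n ≤ B := by
      have : (n:ℝ) ≤ B := by linarith
      exact_mod_cast this
    have nB2 : -B ≤ n := by
      have : (-B:ℝ) ≤ n := by linarith
      exact_mod_cast this
    have hXδ : X * δ = c * (x 0 - q 0) + s * (x 1 - q 1) := by rw [hX]; field_simp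
    have hYδ : Y * δ = -s * (x 0 - q 0) + c * (x 1 - q 1) := by rw [hY]; field_simp
    have hx0e : x 0 = P (m, n) 0 + (c * ((X - m) * δ) - s * ((Y - n) * δ)) := by
      rw [hP0]
      have : c * ((X - m) * δ) - s * ((Y - n) * δ) = c * (X * δ) - s * (Y * δ) - m * δ * c + n * δ * s := by ring
      rw [this, hXδ, hYδ]
      linear_combination (-(x 0 - q 0)) * h1
    have hx1e : x 1 = P (m, n) 1 + (s * ((X - m) * δ) + c * ((Y - n) * δ)) := by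
      rw [hP1]
      have : s * ((X - m) * δ) + c * ((Y - n) * δ) = s * (X * δ) + c * (Y * δ) - m * δ * s - n * δ * c := by ring
      rw [this, hXδ, hYδ]
      linear_combination (-(x 1 - q 1)) * h1
    have hmd : |(X - m) * δ| ≤ C * δ := by
      rw [abs_mul, abs_of_pos hδ]; exact mul_le_mul_of_nonneg_right hm hδ.le
    have hnd : |(Y - n) * δ| ≤ C * δ := by
      rw [abs_mul, abs_of_pos hδ]; exact mul_le_mul_of_nonneg_right hn hδ.le
    obtain ⟨a1, a2⟩ := abs_le.mp (abs_mul_le_of_le_one hcabs hmd)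
    obtain ⟨a3, a4⟩ := abs_le.mp (abs_mul_le_of_le_one hsabs hnd)
    obtain ⟨a5, a6⟩ := abs_le.mp (abs_mul_le_of_le_one hsabs hmd)
    obtain ⟨a7, a8⟩ := abs_le.mp (abs_mul_le_of_le_one hcabs hnd)
    have hmem : (m, n) ∈ G := by
      rw [hG, Finset.mem_filter, Finset.mem_product, Finset.mem_Icc, Finset.mem_Icc]
      refine ⟨⟨⟨mB2, mB1⟩, ⟨nB2, nB1⟩⟩, ⟨?_, ?_⟩, ⟨?_, ?_⟩⟩ <;>
      linarith [hxc.1.1, hxc.1.2, hxc.2.1, hxc.2.2]
    refine ⟨⟨(m, n), hmem⟩, α, hα, α', hα', ?_⟩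
    simp only [hP]
    exact heq
  · intro i
    have h2 : V q + M (P i.1 - q) - V q = M (P i.1 - q) := by abel
    simp only [h2]
    calc ‖M (P i.1 - q)‖ ≤ Λ * ‖P i.1 - q‖ := (M.le_opNorm _).trans (mul_le_mul_of_nonneg_right hM (norm_nonneg _))
      _ ≤ _ := mul_le_mul_of_nonneg_left (hPq i.1 i.2) hΛ
  · simp only [norm_smul, ne1, mul_one]
    rw [Finset.sum_const, Finset.card_univ, Fintype.card_coe, nsmul_eq_mul]
    have h2 : ‖(1 + 2*θ) * δ‖^2 = (1+2*θ)^2 * δ^2 := by rw [Real.norm_eq_abs, sq_abs]; ring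
    rw [h2]
    have h3 : (G.card : ℝ) * ((1+2*θ)^2 * δ^2) = (1+2*θ)^2 * ((G.card : ℝ) * δ^2) := by ring
    rw [h3]
    apply mul_le_mul_of_nonneg_left _ (by positivity)
    refine hcount.trans (le_of_eq ?_)
    rw [hδe]
    field_simp
    ring

end Crest.Agent.S0326Aux
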