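import Crest.Agent.S0326Cell
set_option autoImplicit false
open MeasureTheory Filter Topology
open scoped ENNReal NNReal

namespace Crest.Agent.S0326Aux

lemma unif_strict (D U : Set E2) (hD : IsCompact D) (hU : IsOpen U) (hDU : D ⊆ U) (V : E2 → E2)
    (hV : ContDiffOn ℝ 1 V U) (ω : ℝ) (hω : 0 < ω) :
    ∃ r0 > 0, ∀ q ∈ D, ∃ p ∈ D, ∀ x ∈ Metric.ball q r0, ∀ y ∈ Metric.ball q r0,
      ‖V x - V y - fderiv ℝ V p (x - y)‖ ≤ ω * ‖x - y‖ := by
  have h1 : ∀ p : D, ∃ s : Set E2, (p.1 ∈ s ∧ IsOpen s) ∧ ApproximatesLinearOn V (fderiv ℝ V p.1) s ⟨ω, hω.le⟩ := by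
    intro p
    have hcd : ContDiffAt ℝ 1 V p.1 := hV.contDiffAt (hU.mem_nhds (hDU p.2))
    have hs : HasStrictFDerivAt V (fderiv ℝ V p.1) p.1 := hcd.hasStrictFDerivAt (by norm_num)
    obtain ⟨s, hs1, hs2⟩ := hs.approximates_deriv_on_nhds (c := ⟨ω, hω.le⟩) (Or.inr (by
      show (0:ℝ) < ω; exact hω))
    exact ⟨interior s, ⟨mem_interior_iff_mem_nhds.mpr hs1, isOpen_interior⟩, hs2.mono_set interior_subset⟩
  choose s hs1 hs2 using h1
  obtain ⟨r0, hr0, hb⟩ := lebesgue_number_lemma_of_metric hD (fun i => (hs1 i).2) (c := s) (by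
    intro x hx
    rw [Set.mem_iUnion]
    exact ⟨⟨x, hx⟩, (hs1 ⟨x, hx⟩).1⟩)
  refine ⟨r0, hr0, fun q hq => ?_⟩
  obtain ⟨i, hi⟩ := hb q hq
  refine ⟨i.1, i.2, fun x hx y hy => ?_⟩
  exact (hs2 i) x (hi hx) y (hi hy)

lemma consts (D U : Set E2) (hD : IsCompact D) (hU : IsOpen U) (hDU : D ⊆ U) (V : E2 → E2)
    (hV : ContDiffOn ℝ 1 V U) (L : ℝ) (hL : 0 < L)
    (hdet : ∀ p ∈ D, -(L ^ 2)⁻¹ < LinearMap.det (fderiv ℝ V p).toLinearMap) :
    ∃ Λ κ₀ : ℝ, 0 ≤ Λ ∧ 0 < κ₀ ∧ (∀ p ∈ D, ‖fderiv ℝ V p‖ ≤ Λ) ∧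
      ∀ p ∈ D, κ₀ ≤ 1 + L^2 * LinearMap.det (fderiv ℝ V p).toLinearMap := by
  have hc : ContinuousOn (fderiv ℝ V) D := (hV.continuousOn_fderiv_of_isOpen hU le_rfl).mono hDU
  obtain ⟨Λ, hΛ⟩ := hD.exists_bound_of_continuousOn hc
  have hcd : ContinuousOn (fun p => 1 + L^2 * LinearMap.det (fderiv ℝ V p).toLinearMap) D := by
    have : ContinuousOn (fun p => (fderiv ℝ V p).det) D :=
      ContinuousLinearMap.continuous_det.comp_continuousOn hc
    exact continuousOn_const.add (continuousOn_const.mul this)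
  obtain ⟨κ₀, hκ₀, hκ⟩ := hD.exists_forall_le' hcd (a := 0) (fun p hp => by
    have h2 := hdet p hp
    have hL2 : 0 < L^2 := by positivity
    have h3 : L^2 * (-(L^2)⁻¹) < L^2 * LinearMap.det (fderiv ℝ V p).toLinearMap := mul_lt_mul_of_pos_left h2 hL2
    have h4 : L^2 * (-(L^2)⁻¹) = -1 := by field_simp
    linarith)
  refine ⟨max Λ 0, κ₀, le_max_right _ _, hκ₀, fun p hp => (hΛ p hp).trans (le_max_left _ _), hκ⟩

/-- grid cells -/
def cell (r : ℝ) (p : ℤ × ℤ) : Set E2 := {x | (p.1 * r ≤ x 0 ∧ x 0 < p.1 * r + r) ∧ (p.2 * r ≤ x 1 ∧ x 1 < p.2 * r + r)}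

lemma cell_vol (r : ℝ) (hr : 0 < r) (p : ℤ × ℤ) : volume (cell r p) = ENNReal.ofReal (r^2) := by
  rw [cell, rect_volume, ← ENNReal.ofReal_mul (by linarith)]
  congr 1; ring

lemma cell_meas (r : ℝ) (p : ℤ × ℤ) : MeasurableSet (cell r p) := rect_measurable _ _ _ _

lemma cell_floor (r : ℝ) (hr : 0 < r) (x : E2) : x ∈ cell r (⌊x 0 / r⌋, ⌊x 1 / r⌋) := by
  refine ⟨⟨?_, ?_⟩, ⟨?_, ?_⟩⟩
  · have := Int.floor_le (x 0 / r); rwa [le_div_iff₀ hr] at this
  · have := Int.lt_floor_add_one (x 0 / r); rw [div_lt_iff₀ hr] at this; simp only; linarith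
  · have := Int.floor_le (x 1 / r); rwa [le_div_iff₀ hr] at this
  · have := Int.lt_floor_add_one (x 1 / r); rw [div_lt_iff₀ hr] at this; simp only; linarith

lemma cell_disj (r : ℝ) (hr : 0 < r) (p p' : ℤ × ℤ) (hne : p ≠ p') : Disjoint (cell r p) (cell r p') := by
  rw [Set.disjoint_left]
  rintro x ⟨⟨h1, h2⟩, ⟨h3, h4⟩⟩ ⟨⟨h5, h6⟩, ⟨h7, h8⟩⟩
  apply hne
  have i1 : (p.1:ℝ) < p'.1 + 1 := by
    have : p.1 * r < (p'.1+1) * r := by linarith
    exact lt_of_mul_lt_mul_right this hr.le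
  have i2 : (p'.1:ℝ) < p.1 + 1 := by
    have : p'.1 * r < (p.1+1) * r := by linarith
    exact lt_of_mul_lt_mul_right this hr.le
  have i3 : (p.2:ℝ) < p'.2 + 1 := by
    have : p.2 * r < (p'.2+1) * r := by linarith
    exact lt_of_mul_lt_mul_right this hr.le
  have i4 : (p'.2:ℝ) < p.2 + 1 := by
    have : p'.2 * r < (p.2+1) * r := by linarith
    exact lt_of_mul_lt_mul_right this hr.le
  have j1 : p.1 < p'.1 + 1 := by exact_mod_cast i1
  have j2 : p'.1 < p.1 + 1 := by exact_mod_cast i2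
  have j3 : p.2 < p'.2 + 1 := by exact_mod_cast i3
  have j4 : p'.2 < p.2 + 1 := by exact_mod_cast i4
  ext <;> omega

lemma cell_dist (r : ℝ) (p : ℤ × ℤ) (x y : E2) (hx : x ∈ cell r p) (hy : y ∈ cell r p) : dist x y < 2 * r := by
  rw [dist_eq_norm]
  have h := norm_le_abs_add (x - y)
  rw [PiLp.sub_apply, PiLp.sub_apply] at h
  have h0 : |x 0 - y 0| < r := by
    rw [abs_lt]; constructor <;> linarith [hx.1.1, hx.1.2, hy.1.1, hy.1.2]
  have h1 : |x 1 - y 1| < r := by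
    rw [abs_lt]; constructor <;> linarith [hx.2.1, hx.2.2, hy.2.1, hy.2.2]
  linarith

/-- The finite set of cells meeting D, with total volume control -/
lemma cells_meeting (D : Set E2) (hD : IsCompact D) (r : ℝ) (hr : 0 < r) :
    ∃ F : Finset (ℤ × ℤ), (∀ p ∈ F, ∃ x ∈ D, x ∈ cell r p) ∧ (∀ x ∈ D, ∃ p ∈ F, x ∈ cell r p) := by
  classical
  obtain ⟨R, hR⟩ := hD.isBounded.exists_norm_le
  refine ⟨((Finset.Icc ⌊-R / r⌋ ⌊R / r⌋) ×ˢ (Finset.Icc ⌊-R / r⌋ ⌊R / r⌋)).filter (fun p => ∃ x ∈ D, x ∈ cell r p), ?_, ?_⟩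
  · intro p hp
    rw [Finset.mem_filter] at hp
    exact hp.2
  · intro x hx
    refine ⟨(⌊x 0 / r⌋, ⌊x 1 / r⌋), ?_, cell_floor r hr x⟩
    rw [Finset.mem_filter, Finset.mem_product, Finset.mem_Icc, Finset.mem_Icc]
    have h0 := abs_le.mp ((abs_coord_le x 0).trans (hR x hx))
    have h1 := abs_le.mp ((abs_coord_le x 1).trans (hR x hx))
    refine ⟨⟨⟨?_, ?_⟩, ⟨?_, ?_⟩⟩, x, hx, cell_floor r hr x⟩
    · exact Int.floor_le_floor (by gcongr; exact h0.1)
    · exact Int.floor_le_floor (by gcongr; exact h0.2)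
    · exact Int.floor_le_floor (by gcongr; exact h1.1)
    · exact Int.floor_le_floor (by gcongr; exact h1.2)

/-- Riemann sum estimate -/
lemma riemann_cells (D : Set E2) (hD : IsCompact D) (r : ℝ) (hr : 0 < r) (F : Finset (ℤ × ℤ))
    (hF1 : ∀ p ∈ F, ∃ x ∈ D, x ∈ cell r p) (hF2 : ∀ x ∈ D, ∃ p ∈ F, x ∈ cell r p)
    (f : E2 → ℝ) (hf : ContinuousOn f D) (a : ℤ × ℤ → ℝ) (ha0 : ∀ p ∈ F, 0 ≤ a p) (ha1 : ∀ p ∈ F, a p ≤ 1)
    (ε1 : ℝ) (hε1 : 0 ≤ ε1)
    (hfa : ∀ p ∈ F, ∀ x ∈ D, x ∈ cell r p → a p ≤ f x + ε1)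
    (η : ℝ) (hη : (volume (Metric.cthickening (2*r) D)).toReal ≤ (volume D).toReal + η) :
    (F.card : ℝ) * r^2 ≤ (volume D).toReal + η ∧
    ∑ p ∈ F, a p * r^2 ≤ (∫ x in D, f x) + ε1 * (volume D).toReal + η := by
  have hDm : MeasurableSet D := hD.measurableSet
  have hdisj : Set.PairwiseDisjoint (↑F : Set (ℤ × ℤ)) (cell r) := fun p _ p' _ hne => cell_disj r hr p p' hne
  have hUsub : (⋃ p ∈ F, cell r p) ⊆ Metric.cthickening (2*r) D := by
    intro x hx
    simp only [Set.mem_iUnion, exists_prop] at hx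
    obtain ⟨p, hp, hxp⟩ := hx
    obtain ⟨y, hy, hyp⟩ := hF1 p hp
    exact Metric.mem_cthickening_of_dist_le x y (2*r) D hy (cell_dist r p x y hxp hyp).le
  have hfin : volume (Metric.cthickening (2*r) D) ≠ ⊤ := (hD.cthickening).measure_lt_top.ne
  have hU : volume (⋃ p ∈ F, cell r p) = ENNReal.ofReal ((F.card : ℝ) * r^2) := by
    rw [measure_biUnion_finset hdisj (fun p _ => cell_meas r p), Finset.sum_congr rfl (fun p _ => cell_vol r hr p),
      Finset.sum_const, nsmul_eq_mul, ENNReal.ofReal_mul (by positivity), ENNReal.ofReal_natCast]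
  have hcard : (F.card : ℝ) * r^2 ≤ (volume D).toReal + η := by
    have h1 := ENNReal.toReal_mono hfin (measure_mono hUsub (μ := volume))
    rw [hU, ENNReal.toReal_ofReal (by positivity)] at h1
    exact h1.trans hη
  refine ⟨hcard, ?_⟩
  have hDU : D ⊆ ⋃ p ∈ F, cell r p := by
    intro x hx
    obtain ⟨p, hp, hxp⟩ := hF2 x hx
    simp only [Set.mem_iUnion, exists_prop]
    exact ⟨p, hp, hxp⟩
  have hfi : IntegrableOn f D := hf.integrableOn_compact hD
  -- split the integral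
  have hDeq : D = ⋃ p ∈ F, (cell r p ∩ D) := by
    rw [← Set.iUnion₂_inter]
    exact (Set.inter_eq_right.mpr hDU).symm
  have hint : ∫ x in D, f x = ∑ p ∈ F, ∫ x in cell r p ∩ D, f x := by
    conv_lhs => rw [hDeq]
    rw [integral_biUnion_finset F (fun p _ => (cell_meas r p).inter hDm)]
    · intro p hp p' hp' hne
      exact (hdisj hp hp' hne).mono Set.inter_subset_left Set.inter_subset_left
    · intro p hp
      exact hfi.mono_set Set.inter_subset_right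
  have hvD : (volume D).toReal = ∑ p ∈ F, (volume (cell r p ∩ D)).toReal := by
    conv_lhs => rw [hDeq]
    rw [measure_biUnion_finset (fun p hp p' hp' hne => (hdisj hp hp' hne).mono Set.inter_subset_left Set.inter_subset_left)
      (fun p _ => (cell_meas r p).inter hDm)]
    rw [ENNReal.toReal_sum]
    intro p _
    exact ((measure_mono Set.inter_subset_right).trans_lt hD.measure_lt_top).ne
  have hpiece : ∀ p ∈ F, a p * r^2 ≤ (∫ x in cell r p ∩ D, f x) + ε1 * (volume (cell r p ∩ D)).toReal +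
      (r^2 - (volume (cell r p ∩ D)).toReal) := by
    intro p hp
    have hvle : (volume (cell r p ∩ D)).toReal ≤ r^2 := by
      have := ENNReal.toReal_mono (by rw [cell_vol r hr]; exact ENNReal.ofReal_ne_top) (measure_mono Set.inter_subset_left : volume (cell r p ∩ D) ≤ volume (cell r p))
      rwa [cell_vol r hr, ENNReal.toReal_ofReal (by positivity)] at this
    have hvne : volume (cell r p ∩ D) ≠ ⊤ := ((measure_mono Set.inter_subset_right).trans_lt hD.measure_lt_top).ne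
    have h1 : ∫ x in cell r p ∩ D, (a p - ε1) ≤ ∫ x in cell r p ∩ D, f x := by
      apply setIntegral_mono_on _ (hfi.mono_set Set.inter_subset_right) ((cell_meas r p).inter hDm)
      · intro x hx
        have := hfa p hp x hx.2 hx.1
        linarith
      · exact integrableOn_const hvne
    rw [setIntegral_const, smul_eq_mul, Measure.real] at h1
    have h2 : a p * (r^2 - (volume (cell r p ∩ D)).toReal) ≤ 1 * (r^2 - (volume (cell r p ∩ D)).toReal) :=
      mul_le_mul_of_nonneg_right (ha1 p hp) (by linarith)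
    nlinarith
  calc ∑ p ∈ F, a p * r^2 ≤ ∑ p ∈ F, ((∫ x in cell r p ∩ D, f x) + ε1 * (volume (cell r p ∩ D)).toReal +
      (r^2 - (volume (cell r p ∩ D)).toReal)) := Finset.sum_le_sum hpiece
    _ = (∫ x in D, f x) + ε1 * (volume D).toReal + ((F.card:ℝ) * r^2 - (volume D).toReal) := by
      rw [Finset.sum_add_distrib, Finset.sum_add_distrib, ← Finset.mul_sum, Finset.sum_sub_distrib, ← hint, ← hvD,
        Finset.sum_const, nsmul_eq_mul]
    _ ≤ _ := by linarith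

end Crest.Agent.S0326Aux
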