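import Crest.Agent.S0327Aux
set_option autoImplicit false
open MeasureTheory
open scoped ENNReal NNReal Pointwise

namespace Crest.Agent.S0324Geo

/-- the linear map with columns `e1 e2 e3` -/
noncomputable def lin3 (e1 e2 e3 : E3) : E3 →ₗ[ℝ] E3 where
  toFun x := x 0 • e1 + x 1 • e2 + x 2 • e3
  map_add' x y := by simp [add_smul]; abel
  map_smul' c x := by simp [mul_smul, smul_add]

lemma lin3_apply (e1 e2 e3 x : E3) : lin3 e1 e2 e3 x = x 0 • e1 + x 1 • e2 + x 2 • e3 := rfl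

lemma exists_similarity (w : Fin 4 → E3) (ℓ : ℝ) (hℓ : 0 < ℓ)
    (hw : ∀ i j, i ≠ j → dist (w i) (w j) = ℓ) :
    ∃ (L : E3 ≃ₗᵢ[ℝ] E3) (t : E3), Set.range w = (fun x => t + (ℓ/2) • L x) '' VS := by
  have hd : ∀ i j, i ≠ j → inner ℝ (w i - w j) (w i - w j) = ℓ^2 := by
    intro i j hij
    rw [real_inner_self_eq_norm_sq, ← dist_eq_norm, hw i j hij]
  obtain ⟨p, hp⟩ : ∃ p, p = w 1 - w 0 := ⟨_, rfl⟩
  obtain ⟨q, hq⟩ : ∃ q, q = w 2 - w 0 := ⟨_, rfl⟩
  obtain ⟨r, hr⟩ : ∃ r, r = w 3 - w 0 := ⟨_, rfl⟩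
  have pp : inner ℝ p p = ℓ^2 := by rw [hp]; exact hd 1 0 (by decide)
  have qq : inner ℝ q q = ℓ^2 := by rw [hq]; exact hd 2 0 (by decide)
  have rr : inner ℝ r r = ℓ^2 := by rw [hr]; exact hd 3 0 (by decide)
  have pq' : inner ℝ (p - q) (p - q) = ℓ^2 := by
    have : p - q = w 1 - w 2 := by rw [hp, hq]; abel
    rw [this]; exact hd 1 2 (by decide)
  have pr' : inner ℝ (p - r) (p - r) = ℓ^2 := by
    have : p - r = w 1 - w 3 := by rw [hp, hr]; abel
    rw [this]; exact hd 1 3 (by decide)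
  have qr' : inner ℝ (q - r) (q - r) = ℓ^2 := by
    have : q - r = w 2 - w 3 := by rw [hq, hr]; abel
    rw [this]; exact hd 2 3 (by decide)
  have pq : inner ℝ p q = ℓ^2/2 := by
    rw [inner_sub_left, inner_sub_right, inner_sub_right, pp, qq, real_inner_comm p q] at pq'
    linarith
  have prr : inner ℝ p r = ℓ^2/2 := by
    rw [inner_sub_left, inner_sub_right, inner_sub_right, pp, rr, real_inner_comm p r] at pr'
    linarith
  have qr : inner ℝ q r = ℓ^2/2 := by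
    rw [inner_sub_left, inner_sub_right, inner_sub_right, qq, rr, real_inner_comm q r] at qr'
    linarith
  have qp : inner ℝ q p = ℓ^2/2 := by rw [real_inner_comm]; exact pq
  have rp : inner ℝ r p = ℓ^2/2 := by rw [real_inner_comm]; exact prr
  have rq : inner ℝ r q = ℓ^2/2 := by rw [real_inner_comm]; exact qr
  have h2 := sqrt2_pos
  have h2s := sqrt2_sq
  obtain ⟨e1, he1⟩ : ∃ e1 : E3, e1 = (-ℓ⁻¹) • p := ⟨_, rfl⟩
  obtain ⟨e2, he2⟩ : ∃ e2 : E3, e2 = ℓ⁻¹ • (q - r) := ⟨_, rfl⟩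
  obtain ⟨e3, he3⟩ : ∃ e3 : E3, e3 = (ℓ⁻¹ * (Real.sqrt 2)⁻¹) • (q + r - p) := ⟨_, rfl⟩
  have i11 : inner ℝ e1 e1 = 1 := by
    rw [he1, inner_smul_left, inner_smul_right, pp]; simp; field_simp
  have i22 : inner ℝ e2 e2 = 1 := by
    rw [he2, inner_smul_left, inner_smul_right, qr']; simp; field_simp
  have i33 : inner ℝ e3 e3 = 1 := by
    rw [he3, inner_smul_left, inner_smul_right]
    have : inner ℝ (q + r - p) (q + r - p) = 2 * ℓ^2 := by
      simp only [inner_sub_left, inner_sub_right, inner_add_left, inner_add_right, pp, qq, rr, pq, prr, qr, qp, rp, rq]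
      ring
    rw [this]; simp; field_simp; rw [h2s]
  have i12 : inner ℝ e1 e2 = 0 := by
    rw [he1, he2, inner_smul_left, inner_smul_right]
    simp only [inner_sub_right, pq, prr]; simp
  have i13 : inner ℝ e1 e3 = 0 := by
    rw [he1, he3, inner_smul_left, inner_smul_right]
    simp only [inner_sub_right, inner_add_right, pq, prr, pp]; simp
  have i23 : inner ℝ e2 e3 = 0 := by
    rw [he2, he3, inner_smul_left, inner_smul_right]
    simp only [inner_sub_left, inner_sub_right, inner_add_right, qq, qr, qp, rq, rr, rp]; simp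
  have i21 : inner ℝ e2 e1 = 0 := by rw [real_inner_comm]; exact i12
  have i31 : inner ℝ e3 e1 = 0 := by rw [real_inner_comm]; exact i13
  have i32 : inner ℝ e3 e2 = 0 := by rw [real_inner_comm]; exact i23
  let L0 : E3 →ₗᵢ[ℝ] E3 := LinearMap.isometryOfInner (lin3 e1 e2 e3) (by
    intro x y
    rw [lin3_apply, lin3_apply, inner3 x y]
    simp only [inner_add_left, inner_add_right, inner_smul_left, inner_smul_right, i11, i22, i33, i12, i13, i23, i21, i31, i32]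
    simp
    ring)
  let L : E3 ≃ₗᵢ[ℝ] E3 := L0.toLinearIsometryEquiv rfl
  have hL : ∀ x, L x = x 0 • e1 + x 1 • e2 + x 2 • e3 := fun x => rfl
  refine ⟨L, w 0 + (1/2 : ℝ) • p, ?_⟩
  have w1 : w 1 = w 0 + p := by rw [hp]; abel
  have w2 : w 2 = w 0 + q := by rw [hq]; abel
  have w3 : w 3 = w 0 + r := by rw [hr]; abel
  have f0 : w 0 + (1/2 : ℝ) • p + (ℓ/2) • L !₂[1, 0, 0] = w 0 := by
    simp only [hL, he1]
    simp
    match_scalars <;> field_simp <;> ring
  have f1 : w 0 + (1/2 : ℝ) • p + (ℓ/2) • L !₂[-1, 0, 0] = w 1 := by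
    simp only [hL, he1]
    simp
    rw [w1]
    match_scalars <;> field_simp <;> ring
  have f2 : w 0 + (1/2 : ℝ) • p + (ℓ/2) • L !₂[0, 1, Real.sqrt 2] = w 2 := by
    simp only [hL, he2, he3]
    simp
    rw [w2]
    match_scalars <;> field_simp <;> ring
  have f3 : w 0 + (1/2 : ℝ) • p + (ℓ/2) • L !₂[0, -1, Real.sqrt 2] = w 3 := by
    simp only [hL, he2, he3]
    simp
    rw [w3]
    match_scalars <;> field_simp <;> ring
  unfold VS
  rw [Set.image_insert_eq, Set.image_insert_eq, Set.image_insert_eq, Set.image_singleton, f0, f1, f2, f3]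
  ext x
  simp only [Set.mem_range, Set.mem_insert_iff, Set.mem_singleton_iff]
  constructor
  · rintro ⟨i, rfl⟩
    fin_cases i <;> simp
  · rintro (rfl | rfl | rfl | rfl)
    · exact ⟨0, rfl⟩
    · exact ⟨1, rfl⟩
    · exact ⟨2, rfl⟩
    · exact ⟨3, rfl⟩

/-- The similarity. -/
noncomputable def Phi (L : E3 ≃ₗᵢ[ℝ] E3) (t : E3) (ρ : ℝ) (x : E3) : E3 := t + ρ • L x

lemma Phi_convexHull (L : E3 ≃ₗᵢ[ℝ] E3) (t : E3) (ρ : ℝ) (S : Set E3) :
    convexHull ℝ (Phi L t ρ '' S) = Phi L t ρ '' convexHull ℝ S := by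
  let f : E3 →ᵃ[ℝ] E3 := (ρ • L.toLinearEquiv.toLinearMap).toAffineMap + AffineMap.const ℝ E3 t
  have hf : ∀ x, f x = Phi L t ρ x := by
    intro x
    simp only [f, Phi, AffineMap.coe_add, Pi.add_apply, LinearMap.coe_toAffineMap, LinearMap.smul_apply,
      AffineMap.const_apply]
    rw [add_comm]; rfl
  have h1 : Phi L t ρ '' S = f '' S := Set.image_congr (fun x _ => (hf x).symm)
  have h2 : Phi L t ρ '' convexHull ℝ S = f '' convexHull ℝ S := Set.image_congr (fun x _ => (hf x).symm)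
  rw [h1, h2]
  exact (AffineMap.image_convexHull f S).symm

lemma area_Phi (L : E3 ≃ₗᵢ[ℝ] E3) (t : E3) {ρ : ℝ} (hρ : 0 < ρ) (S : Set E3) :
    (μHE[2] (Phi L t ρ '' S)).toReal = ρ^2 * (μHE[2] S).toReal := by
  have h1 : Phi L t ρ '' S = (fun y => t + y) '' (ρ • (L '' S)) := by
    rw [← Set.image_smul, Set.image_image, Set.image_image]
    rfl
  have hiso : Isometry (fun x : E3 => t + x) := fun x y => by simp
  rw [h1, hiso.euclideanHausdorffMeasure_image,
    Measure.euclideanHausdorffMeasure_smul₀ 2 hρ.ne', L.isometry.euclideanHausdorffMeasure_image]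
  rw [ENNReal.smul_def, smul_eq_mul, ENNReal.toReal_mul]
  congr 1
  simp [abs_of_pos hρ]

lemma proj_Phi (L : E3 ≃ₗᵢ[ℝ] E3) (t : E3) {ρ : ℝ} (v : E3) (S : Set E3) :
    prL (L v) '' (Phi L t ρ '' S) = Phi L (pr (L v) t) ρ '' (prL v '' S) := by
  rw [Set.image_image, Set.image_image]
  apply Set.image_congr
  intro x _
  show pr (L v) (Phi L t ρ x) = Phi L (pr (L v) t) ρ (pr v x)
  unfold Phi
  rw [pr_add, pr_smul]
  congr 2
  unfold pr
  rw [map_sub, map_smul, L.inner_map_map, L.norm_map]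

lemma min_proj_gen (L : E3 ≃ₗᵢ[ℝ] E3) (t : E3) {ρ : ℝ} (hρ : 0 < ρ) {v : E3} (hv : ‖v‖ = 1) :
    ρ^2 * Real.sqrt 2 ≤ (μHE[2] (prL v '' (Phi L t ρ '' convexHull ℝ VS))).toReal := by
  obtain ⟨v', rfl⟩ := L.surjective v
  have hv' : ‖v'‖ = 1 := by rw [← L.norm_map]; exact hv
  rw [proj_Phi, area_Phi _ _ hρ]
  exact mul_le_mul_of_nonneg_left (min_proj_real hv') (by positivity)

lemma area2_map (L : E3 ≃ₗᵢ[ℝ] E3) (a b : E3) : area2 (L a) (L b) = area2 a b := by
  unfold area2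
  rw [L.norm_map, L.norm_map, L.inner_map_map]

/-- parallelogram cover of the general tetrahedron -/
theorem par_cover_Phi (L : E3 ≃ₗᵢ[ℝ] E3) (t : E3) {ρ : ℝ} (hρ : 0 < ρ) :
    ∃ (k : ℕ) (u c a b : Fin k → E3),
    (∀ i, ‖u i‖ = 1) ∧
    (∀ i, inner ℝ (c i) (u i) = 0 ∧ inner ℝ (a i) (u i) = 0 ∧ inner ℝ (b i) (u i) = 0) ∧
    (Phi L t ρ '' convexHull ℝ VS ⊆ ⋃ i, {x : E3 |
        ∃ s ∈ Set.Icc (0 : ℝ) 1, ∃ t ∈ Set.Icc (0 : ℝ) 1, ∃ τ : ℝ, x = c i + s • a i + t • b i + τ • u i}) ∧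
    ∑ i, area2 (a i) (b i) ≤ ρ^2 * (Real.sqrt 2 * (1/2 - 1/10^10)) := by
  obtain ⟨ι, hι, u, c, a, b, h1, h2, h3, h4⟩ := par_cover
  let e := Fintype.equivFin ι
  have hne : ∀ i, L (u i) ≠ 0 := by
    intro i h
    have := h1 i
    rw [← L.norm_map, h, norm_zero] at this
    norm_num at this
  refine ⟨Fintype.card ι, fun k => L (u (e.symm k)), fun k => pr (L (u (e.symm k))) (t + ρ • L (c (e.symm k))),
    fun k => ρ • L (a (e.symm k)), fun k => ρ • L (b (e.symm k)), ?_, ?_, ?_, ?_⟩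
  · intro k; rw [L.norm_map]; exact h1 _
  · intro k
    obtain ⟨p1, p2, p3⟩ := h2 (e.symm k)
    refine ⟨inner_pr (hne _) _, ?_, ?_⟩
    · rw [inner_smul_left, L.inner_map_map, p2, mul_zero]
    · rw [inner_smul_left, L.inner_map_map, p3, mul_zero]
  · rintro _ ⟨X, hX, rfl⟩
    have := h3 hX
    rw [Set.mem_iUnion] at this ⊢
    obtain ⟨i, s, hs, t', ht', τ, hX⟩ := this
    refine ⟨e i, s, hs, t', ht', ρ * τ + inner ℝ (t + ρ • L (c i)) (L (u i)), ?_⟩
    simp only [Equiv.symm_apply_apply]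
    rw [hX]
    unfold Phi
    have hn : ‖L (u i)‖ = 1 := by rw [L.norm_map]; exact h1 _
    rw [pr_unit hn]
    simp only [map_add, map_smul]
    module
  · have : ∑ k, area2 (ρ • L (a (e.symm k))) (ρ • L (b (e.symm k))) = ρ^2 * ∑ i, area2 (a i) (b i) := by
      rw [Finset.mul_sum]
      rw [← Equiv.sum_comp e.symm (fun i => ρ^2 * area2 (a i) (b i))]
      apply Finset.sum_congr rfl
      intro k _
      rw [area2_smul, area2_map]
    rw [this]
    exact mul_le_mul_of_nonneg_left h4 (by positivity)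

end Crest.Agent.S0324Geo
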