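import Crest.Statements.S0327
import Crest.Agent.S0327Aux2

set_option autoImplicit false
open MeasureTheory
open scoped ENNReal
open Crest Crest.GeometryTopology Crest.GeometryTopology.Convex

namespace Crest.Agent.S0327
open Crest.Agent.S0324Geo

/-- Let K ⊂ ℝ³ be a regular tetrahedron (convex hull of four points with equal pairwise distances ℓ > 0); areas are Lebesgue-normalised 2-dimensional Hausdorff measure, π_v y = y − ⟪y, v⟫ v. (1) Finitely many cylinders Bᵢ + ℝ uᵢ, ‖uᵢ‖ = 1, with parallelogram bases Bᵢ = cᵢ + [0,1]aᵢ + [0,1]bᵢ in uᵢ^⊥ cover K, ∑ᵢ area(Bᵢ) being below half of area(π_v K) by a positive margin for all unit v, and ∑ᵢ area(Bᵢ)/area(π_{uᵢ} K) < 1/2. (2) The same with bounded relatively open subsets of the uᵢ^⊥ as bases. -/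
theorem result
    (w : Fin 4 → EuclideanSpace ℝ (Fin 3)) (ℓ : ℝ) (hℓ : 0 < ℓ)
    (hw : ∀ i j, i ≠ j → dist (w i) (w j) = ℓ) :
    (∃ (k : ℕ) (u c a b : Fin k → EuclideanSpace ℝ (Fin 3)),
      (∀ i, ‖u i‖ = 1) ∧
      (∀ i, inner ℝ (c i) (u i) = 0 ∧ inner ℝ (a i) (u i) = 0 ∧ inner ℝ (b i) (u i) = 0) ∧
      convexHull ℝ (Set.range w) ⊆ ⋃ i, {x : EuclideanSpace ℝ (Fin 3) |
        ∃ s ∈ Set.Icc (0 : ℝ) 1, ∃ t ∈ Set.Icc (0 : ℝ) 1, ∃ τ : ℝ, x = c i + s • a i + t • b i + τ • u i} ∧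
      (∃ δ : ℝ, 0 < δ ∧ ∀ v : EuclideanSpace ℝ (Fin 3), ‖v‖ = 1 →
        (∑ i, (μHE[2] {x : EuclideanSpace ℝ (Fin 3) |
            ∃ s ∈ Set.Icc (0 : ℝ) 1, ∃ t ∈ Set.Icc (0 : ℝ) 1, x = c i + s • a i + t • b i}).toReal) + δ ≤
          (μHE[2] ((fun y => y - inner ℝ y v • v) '' convexHull ℝ (Set.range w))).toReal / 2) ∧
      ∑ i, (μHE[2] {x : EuclideanSpace ℝ (Fin 3) |
            ∃ s ∈ Set.Icc (0 : ℝ) 1, ∃ t ∈ Set.Icc (0 : ℝ) 1, x = c i + s • a i + t • b i}).toReal /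
          (μHE[2] ((fun y => y - inner ℝ y (u i) • u i) '' convexHull ℝ (Set.range w))).toReal < 1 / 2) ∧
    (∃ (k : ℕ) (u : Fin k → EuclideanSpace ℝ (Fin 3)) (B : Fin k → Set (EuclideanSpace ℝ (Fin 3))),
      (∀ i, ‖u i‖ = 1) ∧
      (∀ i, Bornology.IsBounded (B i) ∧ ∃ O : Set (EuclideanSpace ℝ (Fin 3)), IsOpen O ∧
        B i = O ∩ {x | inner ℝ x (u i) = 0}) ∧
      convexHull ℝ (Set.range w) ⊆
        ⋃ i, {x : EuclideanSpace ℝ (Fin 3) | ∃ y ∈ B i, ∃ τ : ℝ, x = y + τ • u i} ∧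
      (∃ δ : ℝ, 0 < δ ∧ ∀ v : EuclideanSpace ℝ (Fin 3), ‖v‖ = 1 →
        (∑ i, (μHE[2] (B i)).toReal) + δ ≤
          (μHE[2] ((fun y => y - inner ℝ y v • v) '' convexHull ℝ (Set.range w))).toReal / 2) ∧
      ∑ i, (μHE[2] (B i)).toReal /
          (μHE[2] ((fun y => y - inner ℝ y (u i) • u i) '' convexHull ℝ (Set.range w))).toReal < 1 / 2) := by
  obtain ⟨L, t, hrange⟩ := exists_similarity w ℓ hℓ hw
  obtain ⟨ρ, hρe⟩ : ∃ ρ, ρ = ℓ / 2 := ⟨_, rfl⟩
  have hρ : 0 < ρ := by rw [hρe]; positivity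
  have hK : convexHull ℝ (Set.range w) = Phi L t ρ '' convexHull ℝ VS := by
    rw [hrange, ← Phi_convexHull, hρe]; rfl
  have h2 := sqrt2_pos
  have hmin : ∀ v : EuclideanSpace ℝ (Fin 3), ‖v‖ = 1 → ρ^2 * Real.sqrt 2 ≤
      (μHE[2] ((fun y => y - inner ℝ y v • v) '' convexHull ℝ (Set.range w))).toReal := by
    intro v hv
    rw [proj_eq hv, hK]
    exact min_proj_gen L t hρ hv
  obtain ⟨k, u, c, a, b, h1, hp, hcov, harea⟩ := par_cover_Phi L t hρ
  have hpar : ∀ i, (μHE[2] {x : EuclideanSpace ℝ (Fin 3) |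
            ∃ s ∈ Set.Icc (0 : ℝ) 1, ∃ t ∈ Set.Icc (0 : ℝ) 1, x = c i + s • a i + t • b i}).toReal = area2 (a i) (b i) := by
    intro i
    rw [area_parallelogram, ENNReal.toReal_ofReal (show 0 ≤ area2 _ _ from Real.sqrt_nonneg _)]
  have hρs : 0 < ρ^2 * Real.sqrt 2 := by positivity
  -- generic conclusion
  have concl : ∀ (A : Fin k → ℝ), (∀ i, 0 ≤ A i) → ∑ i, A i ≤ ρ^2 * (Real.sqrt 2 * (1/2 - 1/10^11)) →
      (∃ δ : ℝ, 0 < δ ∧ ∀ v : EuclideanSpace ℝ (Fin 3), ‖v‖ = 1 →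
        (∑ i, A i) + δ ≤ (μHE[2] ((fun y => y - inner ℝ y v • v) '' convexHull ℝ (Set.range w))).toReal / 2) ∧
      ∑ i, A i / (μHE[2] ((fun y => y - inner ℝ y (u i) • u i) '' convexHull ℝ (Set.range w))).toReal < 1 / 2 := by
    intro A hA0 hA
    constructor
    · refine ⟨ρ^2 * Real.sqrt 2 * (1/10^11), by positivity, ?_⟩
      intro v hv
      have := hmin v hv
      linarith
    · calc ∑ i, A i / (μHE[2] ((fun y => y - inner ℝ y (u i) • u i) '' convexHull ℝ (Set.range w))).toReal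
          ≤ ∑ i, A i / (ρ^2 * Real.sqrt 2) := by
            apply Finset.sum_le_sum
            intro i _
            exact div_le_div_of_nonneg_left (hA0 i) hρs (hmin (u i) (h1 i))
        _ = (∑ i, A i) / (ρ^2 * Real.sqrt 2) := by rw [Finset.sum_div]
        _ < 1/2 := by
            rw [div_lt_iff₀ hρs]
            have : 0 < ρ^2 * Real.sqrt 2 * (1/10^11) := by positivity
            linarith
  have hpos : 0 < ρ^2 * Real.sqrt 2 * (1/10^11) := by positivity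
  refine ⟨⟨k, u, c, a, b, h1, hp, ?_, ?_⟩, ?_⟩
  · rw [hK]; exact hcov
  · simp only [hpar]
    apply concl
    · intro i; exact Real.sqrt_nonneg _
    · refine harea.trans ?_
      have : 0 < ρ^2 * Real.sqrt 2 := hρs
      nlinarith
  · -- open bases
    have hne : ∀ i, u i ≠ 0 := by
      intro i h; have := h1 i; rw [h, norm_zero] at this; norm_num at this
    obtain ⟨δ, hδ, hδk⟩ : ∃ δ : ℝ, 0 < δ ∧ k * δ ≤ ρ^2 * Real.sqrt 2 * (1/10^11) := by
      refine ⟨ρ^2 * Real.sqrt 2 * (1/10^11) / (k + 1), by positivity, ?_⟩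
      rw [mul_div_assoc', div_le_iff₀ (by positivity)]
      nlinarith
    have hT : ∀ i, ∃ B : Set E3, {x : E3 | ∃ s ∈ Set.Icc (0 : ℝ) 1, ∃ t ∈ Set.Icc (0 : ℝ) 1, x = c i + s • a i + t • b i} ⊆ B ∧
        Bornology.IsBounded B ∧ (∃ O : Set E3, IsOpen O ∧ B = O ∩ {x | inner ℝ x (u i) = 0}) ∧
        (μHE[2] B).toReal ≤ (μHE[2] {x : E3 | ∃ s ∈ Set.Icc (0 : ℝ) 1, ∃ t ∈ Set.Icc (0 : ℝ) 1, x = c i + s • a i + t • b i}).toReal + δ := by
      intro i
      apply open_enlarge (hne i) _ _ _ δ hδ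
      · apply (Metric.isBounded_closedBall (x := (0:E3)) (r := ‖c i‖ + ‖a i‖ + ‖b i‖)).subset
        rintro x ⟨s, hs, t, ht, rfl⟩
        rw [mem_closedBall_zero_iff]
        calc ‖c i + s • a i + t • b i‖ ≤ ‖c i‖ + ‖s • a i‖ + ‖t • b i‖ := norm_add₃_le
          _ ≤ ‖c i‖ + ‖a i‖ + ‖b i‖ := by
              rw [norm_smul, norm_smul, Real.norm_of_nonneg hs.1, Real.norm_of_nonneg ht.1]
              have := mul_le_of_le_one_left (norm_nonneg (a i)) hs.2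
              have := mul_le_of_le_one_left (norm_nonneg (b i)) ht.2
              linarith
      · rintro x ⟨s, hs, t, ht, rfl⟩
        obtain ⟨p1, p2, p3⟩ := hp i
        rw [inner_add_left, inner_add_left, inner_smul_left, inner_smul_left, p1, p2, p3]
        simp
    choose B hB1 hB2 hB3 hB4 using hT
    refine ⟨k, u, B, h1, fun i => ⟨hB2 i, hB3 i⟩, ?_, ?_⟩
    · rw [hK]
      refine hcov.trans ?_
      apply Set.iUnion_mono
      rintro i x ⟨s, hs, t, ht, τ, hx⟩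
      exact ⟨_, hB1 i ⟨s, hs, t, ht, rfl⟩, τ, hx⟩
    · apply concl
      · intro i; exact ENNReal.toReal_nonneg
      · calc ∑ i, (μHE[2] (B i)).toReal ≤ ∑ i, (area2 (a i) (b i) + δ) := by
              apply Finset.sum_le_sum
              intro i _
              rw [← hpar]; exact hB4 i
          _ = ∑ i, area2 (a i) (b i) + k * δ := by
              rw [Finset.sum_add_distrib]; simp
          _ ≤ _ := by nlinarith

end Crest.Agent.S0327
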