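import Crest.Agent.S0324Proj
set_option autoImplicit false
open MeasureTheory
open scoped ENNReal NNReal Pointwise

namespace Crest.Agent.S0324Geo

/-- cover of the standard triangle by small squares -/
lemma tri_cells (n : ℕ) (hn : 0 < n) (α β : ℝ) (hα : 0 ≤ α) (hβ : 0 ≤ β) (h : α + β ≤ 1) :
    ∃ (i : Fin (n+1)) (j : Fin (n+1-i)), ∃ s ∈ Set.Icc (0:ℝ) 1, ∃ t ∈ Set.Icc (0:ℝ) 1,
      α = (i:ℕ) / (n:ℝ) + s * (1/n) ∧ β = (j:ℕ) / (n:ℝ) + t * (1/n) := by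
  have hn' : (0:ℝ) < n := by exact_mod_cast hn
  have hα' : 0 ≤ n * α := by positivity
  have hβ' : 0 ≤ n * β := by positivity
  have h1 : (⌊n * α⌋₊ : ℝ) ≤ n * α := Nat.floor_le hα'
  have h2 : (⌊n * β⌋₊ : ℝ) ≤ n * β := Nat.floor_le hβ'
  have h3 : n * α < ⌊n * α⌋₊ + 1 := Nat.lt_floor_add_one _
  have h4 : n * β < ⌊n * β⌋₊ + 1 := Nat.lt_floor_add_one _
  have h5 : (⌊n * α⌋₊ : ℝ) + ⌊n * β⌋₊ ≤ n := by
    have : n * α + n * β ≤ n * 1 := by rw [← mul_add]; exact mul_le_mul_of_nonneg_left h hn'.le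
    linarith
  have h6 : ⌊n * α⌋₊ + ⌊n * β⌋₊ ≤ n := by exact_mod_cast h5
  refine ⟨⟨⌊n * α⌋₊, by omega⟩, ⟨⌊n * β⌋₊, by simp only; omega⟩, n * α - ⌊n * α⌋₊, ⟨by linarith, by linarith⟩,
    n * β - ⌊n * β⌋₊, ⟨by linarith, by linarith⟩, ?_, ?_⟩
  · simp only; field_simp; ring
  · simp only; field_simp; ring

lemma area2_smul (c : ℝ) (a b : E3) : area2 (c • a) (c • b) = c^2 * area2 a b := by
  unfold area2
  rw [norm_smul, norm_smul, inner_smul_left, inner_smul_right]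
  have : (‖c‖ * ‖a‖)^2 * (‖c‖ * ‖b‖)^2 - ((starRingEnd ℝ) c * (c * inner ℝ a b))^2
      = (c^2)^2 * (‖a‖^2 * ‖b‖^2 - inner ℝ a b ^2) := by
    simp [mul_pow]; ring
  rw [this, Real.sqrt_mul (by positivity), Real.sqrt_sq (by positivity)]

lemma sum_id (m : ℕ) : ∑ i ∈ Finset.range m, (i:ℝ) = m * (m-1)/2 := by
  induction m with
  | zero => simp
  | succ k ih => rw [Finset.sum_range_succ, ih]; push_cast; ring

lemma sum_cells (n : ℕ) : ∑ i : Fin (n+1), ((n + 1 - (i:ℕ) : ℕ) : ℝ) = (n+1)*(n+2)/2 := by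
  have h1 : ∀ i : Fin (n+1), ((n + 1 - (i:ℕ) : ℕ) : ℝ) = (n+1:ℝ) - ((i:ℕ):ℝ) := by
    intro i
    rw [Nat.cast_sub (by omega)]
    push_cast; ring
  rw [Finset.sum_congr rfl (fun i _ => h1 i), Finset.sum_sub_distrib]
  rw [← Finset.sum_range (fun i => (i:ℝ)), sum_id]
  simp
  ring

/-- From a cover by triangular cylinders to a cover by parallelogram cylinders. -/
theorem par_cover_gen {κ : Type} [Fintype κ] (K : Set E3) (U P Q R : κ → E3) (A : κ → ℝ)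
    (hU : ∀ i, ‖U i‖ = 1)
    (hperp : ∀ i, inner ℝ (P i) (U i) = 0 ∧ inner ℝ (Q i) (U i) = 0 ∧ inner ℝ (R i) (U i) = 0)
    (hcov : K ⊆ ⋃ i, {x : E3 | ∃ b ∈ convexHull ℝ {P i, Q i, R i}, ∃ t : ℝ, x = b + t • U i})
    (hA0 : ∀ i, 0 ≤ A i) (hA : ∀ i, μHE[2] (convexHull ℝ {P i, Q i, R i}) = ENNReal.ofReal (A i))
    (n : ℕ) (hn0 : 0 < n) :
    ∃ (ι : Type) (_ : Fintype ι) (u c a b : ι → E3),
    (∀ i, ‖u i‖ = 1) ∧
    (∀ i, inner ℝ (c i) (u i) = 0 ∧ inner ℝ (a i) (u i) = 0 ∧ inner ℝ (b i) (u i) = 0) ∧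
    (K ⊆ ⋃ i, {x : E3 |
        ∃ s ∈ Set.Icc (0 : ℝ) 1, ∃ t ∈ Set.Icc (0 : ℝ) 1, ∃ τ : ℝ, x = c i + s • a i + t • b i + τ • u i}) ∧
    ∑ i, area2 (a i) (b i) = (∑ k, A k) * (((n:ℝ)+1)*(n+2)/n^2) := by
  have hn0' : (0:ℝ) < n := by exact_mod_cast hn0
  refine ⟨(k : κ) × (i : Fin (n+1)) × Fin (n+1-i), inferInstance, fun x => U x.1,
    fun x => P x.1 + ((x.2.1 : ℕ) / (n:ℝ)) • (Q x.1 - P x.1) + ((x.2.2 : ℕ) / (n:ℝ)) • (R x.1 - P x.1),
    fun x => (1/(n:ℝ)) • (Q x.1 - P x.1), fun x => (1/(n:ℝ)) • (R x.1 - P x.1), ?_, ?_, ?_, ?_⟩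
  · intro x; exact hU _
  · intro x
    obtain ⟨h1, h2, h3⟩ := hperp x.1
    simp only [inner_add_left, inner_smul_left, inner_sub_left, h1, h2, h3]
    simp
  · intro X hX
    have := hcov hX
    rw [Set.mem_iUnion] at this ⊢
    obtain ⟨k, y, hy, t, hX⟩ := this
    rw [convexHull_triple] at hy
    obtain ⟨z, ⟨h0, h1, h2⟩, hz⟩ := hy
    obtain ⟨i, j, s, hs, t', ht', e1, e2⟩ := tri_cells n hn0 (z 0) (z 1) h0 h1 h2
    refine ⟨⟨k, i, j⟩, s, hs, t', ht', t, ?_⟩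
    rw [hX, ← hz]
    simp only [lin2_apply]
    rw [e1, e2]
    module
  · have h1 : ∀ k : κ, area2 (Q k - P k) (R k - P k) = 2 * A k := by
      intro k
      have h2 := hA k
      rw [area_triangle] at h2
      have h3 : area2 (Q k - P k) (R k - P k) / 2 = A k := by
        have h4 : 0 ≤ area2 (Q k - P k) (R k - P k) / 2 := by
          have : 0 ≤ area2 (Q k - P k) (R k - P k) := Real.sqrt_nonneg _
          positivity
        exact (ENNReal.ofReal_eq_ofReal_iff h4 (hA0 k)).mp h2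
      linarith
    rw [Fintype.sum_sigma]
    have h2 : ∀ k : κ, ∑ _y : (i : Fin (n+1)) × Fin (n+1-i),
        area2 ((1/(n:ℝ)) • (Q k - P k)) ((1/(n:ℝ)) • (R k - P k)) = A k * ((n+1)*(n+2)/n^2) := by
      intro k
      rw [area2_smul _, h1, Fintype.sum_sigma]
      simp only [Finset.sum_const, Finset.card_univ, Fintype.card_fin, nsmul_eq_mul]
      rw [← Finset.sum_mul, sum_cells]
      field_simp
    rw [Finset.sum_congr rfl (fun k _ => h2 k), ← Finset.sum_mul]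

theorem par_cover : ∃ (ι : Type) (_ : Fintype ι) (u c a b : ι → E3),
    (∀ i, ‖u i‖ = 1) ∧
    (∀ i, inner ℝ (c i) (u i) = 0 ∧ inner ℝ (a i) (u i) = 0 ∧ inner ℝ (b i) (u i) = 0) ∧
    (convexHull ℝ VS ⊆ ⋃ i, {x : E3 |
        ∃ s ∈ Set.Icc (0 : ℝ) 1, ∃ t ∈ Set.Icc (0 : ℝ) 1, ∃ τ : ℝ, x = c i + s • a i + t • b i + τ • u i}) ∧
    ∑ i, area2 (a i) (b i) ≤ Real.sqrt 2 * (1/2 - 1/10^10) := by
  obtain ⟨n, hn0, hn3⟩ : ∃ n : ℕ, 0 < n ∧ ((n:ℝ)+1)*(n+2)/n^2 ≤ 1 + 1/10^11 := by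
    refine ⟨10^12, by positivity, ?_⟩
    rw [div_le_iff₀ (by positivity)]
    norm_num
  obtain ⟨ι, hι, u, c, a, b, h1, h2, h3, h4⟩ := par_cover_gen (convexHull ℝ VS) cU cP cQ cR cA cU_norm
    c_perp c_cover cA_nonneg c_area n hn0
  refine ⟨ι, hι, u, c, a, b, h1, h2, h3, ?_⟩
  rw [h4]
  have h4 : 0 ≤ ∑ k, cA k := Finset.sum_nonneg (fun k _ => cA_nonneg k)
  calc (∑ k, cA k) * (((n:ℝ)+1)*(n+2)/n^2) ≤ (∑ k, cA k) * (1 + 1/10^11) :=
        mul_le_mul_of_nonneg_left hn3 h4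
    _ ≤ (Real.sqrt 2 * (1/2 - 1/10^9)) * (1 + 1/10^11) :=
        mul_le_mul_of_nonneg_right cA_sum (by norm_num)
    _ ≤ Real.sqrt 2 * (1/2 - 1/10^10) := by
        rw [mul_assoc]
        apply mul_le_mul_of_nonneg_left _ sqrt2_pos.le
        norm_num

/-- Open enlargement of a bounded planar set. -/
lemma open_enlarge {v : E3} (hv : v ≠ 0) (T : Set E3) (hT : Bornology.IsBounded T)
    (hp : ∀ x ∈ T, inner ℝ x v = 0) (δ : ℝ) (hδ : 0 < δ) :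
    ∃ B : Set E3, T ⊆ B ∧ Bornology.IsBounded B ∧ (∃ O : Set E3, IsOpen O ∧ B = O ∩ {x | inner ℝ x v = 0}) ∧
      (μHE[2] B).toReal ≤ (μHE[2] T).toReal + δ := by
  set W : Set E3 := {x | inner ℝ x v = 0} with hW
  have hWm : MeasurableSet W := by
    apply IsClosed.measurableSet
    exact isClosed_eq (by fun_prop) continuous_const
  set ν : Measure E3 := (μHE[2] : Measure E3).restrict W with hν
  have hfin : ∀ S : Set E3, Bornology.IsBounded S → ν S < ⊤ := by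
    intro S hS
    have : ν S ≤ ν (Metric.closedBall 0 (hS.subset_closedBall 0).choose) := measure_mono (hS.subset_closedBall 0).choose_spec
    refine this.trans_lt ?_
    rw [hν, Measure.restrict_apply Metric.isClosed_closedBall.measurableSet]
    exact finite_area hv _ (Metric.isBounded_closedBall.subset Set.inter_subset_left) (fun x hx => hx.2)
  have : IsLocallyFiniteMeasure ν := by
    constructor
    intro x
    exact ⟨Metric.ball x 1, Metric.ball_mem_nhds x one_pos, hfin _ Metric.isBounded_ball⟩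
  obtain ⟨R, hR⟩ := hT.subset_ball 0
  have hνT : ν T = μHE[2] T := by
    rw [hν]
    exact Measure.restrict_eq_self _ hp
  have hTfin : ν T ≠ ⊤ := (hfin T hT).ne
  obtain ⟨O, hTO, hO, hlt⟩ := Set.exists_isOpen_lt_add T hTfin (ε := ENNReal.ofReal δ) (by positivity)
  refine ⟨(O ∩ Metric.ball 0 R) ∩ W, ?_, ?_, ⟨O ∩ Metric.ball 0 R, hO.inter Metric.isOpen_ball, rfl⟩, ?_⟩
  · intro x hx; exact ⟨⟨hTO hx, hR hx⟩, hp x hx⟩
  · exact Metric.isBounded_ball.subset (fun x hx => hx.1.2)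
  · have h1 : μHE[2] ((O ∩ Metric.ball 0 R) ∩ W) ≤ ν O := by
      rw [hν, Measure.restrict_apply hO.measurableSet]
      exact measure_mono (fun x hx => ⟨hx.1.1, hx.2⟩)
    have h2 : μHE[2] ((O ∩ Metric.ball 0 R) ∩ W) ≤ μHE[2] T + ENNReal.ofReal δ := by
      rw [← hνT]; exact h1.trans hlt.le
    rw [hνT] at hTfin
    have h3 := ENNReal.toReal_mono (by simp [hTfin]) h2
    rw [ENNReal.toReal_add hTfin (by simp), ENNReal.toReal_ofReal hδ.le] at h3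
    exact h3

end Crest.Agent.S0324Geo
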