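import Crest.Agent.S0324Geo
set_option autoImplicit false
open MeasureTheory
open scoped ENNReal NNReal

namespace Crest.Agent.S0328Aux
open Crest.Agent.S0324Geo

lemma area2_nonneg (a b : E3) : 0 ≤ area2 a b := Real.sqrt_nonneg _

lemma area2_comb (x y z t : ℝ) (A B : E3) :
    area2 (x • A + y • B) (z • A + t • B) = |x * t - y * z| * area2 A B := by
  unfold area2
  have h1 : ‖x • A + y • B‖^2 = x^2 * ‖A‖^2 + 2 * x * y * inner ℝ A B + y^2 * ‖B‖^2 := by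
    rw [← real_inner_self_eq_norm_sq, ← real_inner_self_eq_norm_sq, ← real_inner_self_eq_norm_sq]
    simp only [inner_add_left, inner_add_right, real_inner_smul_left, real_inner_smul_right]
    rw [real_inner_comm A B]; ring
  have h2 : ‖z • A + t • B‖^2 = z^2 * ‖A‖^2 + 2 * z * t * inner ℝ A B + t^2 * ‖B‖^2 := by
    rw [← real_inner_self_eq_norm_sq, ← real_inner_self_eq_norm_sq, ← real_inner_self_eq_norm_sq]
    simp only [inner_add_left, inner_add_right, real_inner_smul_left, real_inner_smul_right]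
    rw [real_inner_comm A B]; ring
  have h3 : inner ℝ (x • A + y • B) (z • A + t • B) = x * z * ‖A‖^2 + (x * t + y * z) * inner ℝ A B + y * t * ‖B‖^2 := by
    rw [← real_inner_self_eq_norm_sq, ← real_inner_self_eq_norm_sq]
    simp only [inner_add_left, inner_add_right, real_inner_smul_left, real_inner_smul_right]
    rw [real_inner_comm A B]; ring
  rw [h1, h2, h3]
  have : (x^2 * ‖A‖^2 + 2 * x * y * inner ℝ A B + y^2 * ‖B‖^2) * (z^2 * ‖A‖^2 + 2 * z * t * inner ℝ A B + t^2 * ‖B‖^2)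
      - (x * z * ‖A‖^2 + (x * t + y * z) * inner ℝ A B + y * t * ‖B‖^2)^2
      = (x * t - y * z)^2 * (‖A‖^2 * ‖B‖^2 - inner ℝ A B ^2) := by ring
  rw [this, Real.sqrt_mul (sq_nonneg _), Real.sqrt_sq_eq_abs]

lemma affInd_of_area2 (p q r : E3) (h : area2 (q - p) (r - p) ≠ 0) : AffineIndependent ℝ ![p, q, r] := by
  rw [affineIndependent_iff_not_collinear_set]
  intro hc
  rw [collinear_iff_of_mem (p₀ := p) (by simp)] at hc
  obtain ⟨v, hv⟩ := hc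
  obtain ⟨r1, h1⟩ := hv q (by simp)
  obtain ⟨r2, h2⟩ := hv r (by simp)
  apply h
  have e1 : q - p = r1 • v + (0:ℝ) • v := by rw [h1]; simp
  have e2 : r - p = r2 • v + (0:ℝ) • v := by rw [h2]; simp
  rw [e1, e2, area2_comb]
  simp

lemma det3_perp (e a b w : E3) (he : ‖e‖ = 1) (ha : inner ℝ a e = 0) (hb : inner ℝ b e = 0) (hw : inner ℝ w e = 0) :
    det3 a b w = 0 := by
  have hn := normsq3 e
  rw [he] at hn
  rw [inner3] at ha hb hw
  have h0 : det3 a b w * e 0 = 0 := by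
    simp only [det3]
    linear_combination (b 1 * w 2 - b 2 * w 1) * ha + (w 1 * a 2 - w 2 * a 1) * hb + (a 1 * b 2 - a 2 * b 1) * hw
  have h1 : det3 a b w * e 1 = 0 := by
    simp only [det3]
    linear_combination (b 2 * w 0 - b 0 * w 2) * ha + (w 2 * a 0 - w 0 * a 2) * hb + (a 2 * b 0 - a 0 * b 2) * hw
  have h2 : det3 a b w * e 2 = 0 := by
    simp only [det3]
    linear_combination (b 0 * w 1 - b 1 * w 0) * ha + (w 0 * a 1 - w 1 * a 0) * hb + (a 0 * b 1 - a 1 * b 0) * hw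
  have : det3 a b w = det3 a b w * (e 0 ^2 + e 1^2 + e 2^2) := by rw [← hn]; ring
  rw [this]
  linear_combination e 0 * h0 + e 1 * h1 + e 2 * h2

lemma det_plane (e a b w : E3) (c : ℝ) (he : ‖e‖ = 1) (ha : inner ℝ a e = 0) (hb : inner ℝ b e = 0) (hw : inner ℝ w e = 0) :
    |det3 (a + c • b) b (e + w)| = area2 a b := by
  have h1 : det3 (a + c • b) b (e + w) = det3 a b e + det3 a b w := by
    simp [det3]; ring
  rw [h1, det3_perp e a b w he ha hb hw, add_zero, area2, ← Real.sqrt_sq_eq_abs, gram3, ha, hb, he]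
  congr 1
  ring

lemma tri_mem (p q r : E3) (x y : ℝ) (hx : 0 ≤ x) (hy : 0 ≤ y) (hxy : x + y ≤ 1) :
    p + x • (q - p) + y • (r - p) ∈ convexHull ℝ {p, q, r} := by
  rw [convexHull_triple]
  refine ⟨!₂[x, y], ⟨by simpa using hx, by simpa using hy, by simpa using hxy⟩, ?_⟩
  simp [add_assoc]

lemma mem_tri (p q r y : E3) (hy : y ∈ convexHull ℝ {p, q, r}) :
    ∃ s t : ℝ, 0 ≤ s ∧ 0 ≤ t ∧ s + t ≤ 1 ∧ y = p + s • (q - p) + t • (r - p) := by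
  rw [convexHull_triple] at hy
  obtain ⟨z, ⟨h0, h1, h2⟩, rfl⟩ := hy
  exact ⟨z 0, z 1, h0, h1, h2, by simp [add_assoc]⟩

lemma area_tri_toReal (p q r : E3) : (μHE[2] (convexHull ℝ {p, q, r})).toReal = area2 (q - p) (r - p) / 2 := by
  rw [area_triangle, ENNReal.toReal_ofReal]
  have := area2_nonneg (q - p) (r - p)
  positivity

lemma norm_axis (e w : E3) (he : ‖e‖ = 1) (hw : inner ℝ w e = 0) : ‖e + w‖ = Real.sqrt (1 + ‖w‖^2) := by
  have : ‖e + w‖^2 = 1 + ‖w‖^2 := by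
    rw [← real_inner_self_eq_norm_sq, ← real_inner_self_eq_norm_sq]
    simp only [inner_add_left, inner_add_right]
    rw [real_inner_comm w e, hw, real_inner_self_eq_norm_sq, he]
    ring
  rw [← this, Real.sqrt_sq (norm_nonneg _)]

/-- the per-piece estimate -/
lemma piece (e a b p₀ : E3) (he : ‖e‖ = 1) (ha : inner ℝ a e = 0) (hb : inner ℝ b e = 0)
    (κ : ℝ) (hκ : κ = area2 a b) (hκ0 : 0 < κ)
    (L Λ Rb ε u v c : ℝ) (hL : 0 < L) (hΛ : 0 < Λ) (hRb : 0 ≤ Rb) (hε : 0 < ε) (hε1 : ε ≤ 1)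
    (huv : u < v) (huc : u ≤ c) (hcv : c ≤ v)
    (w : ℝ → E3) (hw : inner ℝ (w c) e = 0) (f g R : ℝ → ℝ)
    (hfg : ∀ τ ∈ Set.Icc u v, w τ = w c + f τ • (a + c • b) + g τ • b)
    (hf : ∀ τ ∈ Set.Icc u v, |f τ| ≤ Λ * (v - u)) (hg : ∀ τ ∈ Set.Icc u v, |g τ| ≤ Λ * (v - u)^2)
    (hR0 : ∀ τ ∈ Set.Icc u v, 0 ≤ R τ) (hRR : ∀ τ ∈ Set.Icc u v, |R τ - R c| ≤ ε) (hRb' : R c ≤ Rb)
    (hsmall : L * Λ * (v - u) * (2 + 1/ε) ≤ ε) :
    ∃ p q r : E3, (inner ℝ p (e + w c) = 0 ∧ inner ℝ q (e + w c) = 0 ∧ inner ℝ r (e + w c) = 0) ∧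
      AffineIndependent ℝ ![p, q, r] ∧
      (∀ τ ∈ Set.Icc u v, ∀ ρ ∈ Set.Icc 0 (R τ), ∀ s : ℝ, |s| ≤ L →
        pr (e + w c) (p₀ + ρ • (a + τ • b) + s • (e + w τ)) ∈ convexHull ℝ {p, q, r}) ∧
      |(μHE[2] (convexHull ℝ {p, q, r})).toReal - κ * (R c ^2 / (2 * Real.sqrt (1 + ‖w c‖^2))) * (v - u)| ≤
        κ * (2 * Rb + 2 + (Rb + 2)^2) * ε * (v - u) ∧
      |(μHE[2] (pr (e + w c) '' {x : E3 | ∃ τ ∈ Set.Icc u v, ∃ ρ ∈ Set.Icc 0 (R τ), ∃ s : ℝ, |s| ≤ L ∧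
          x = p₀ + ρ • (a + τ • b) + s • (e + w τ)})).toReal - κ * (R c ^2 / (2 * Real.sqrt (1 + ‖w c‖^2))) * (v - u)| ≤
        κ * (2 * Rb + 2 + (Rb + 2)^2) * ε * (v - u) := by
  have hc : c ∈ Set.Icc u v := ⟨huc, hcv⟩
  have hRc : 0 ≤ R c := hR0 c hc
  obtain ⟨Δ, hΔ⟩ : ∃ Δ, Δ = v - u := ⟨_, rfl⟩
  have hΔ0 : 0 < Δ := by rw [hΔ]; linarith
  rw [← hΔ] at hf hg hsmall ⊢
  obtain ⟨S, hS⟩ : ∃ S, S = Real.sqrt (1 + ‖w c‖^2) := ⟨_, rfl⟩
  have hS1 : 1 ≤ S := by rw [hS, Real.one_le_sqrt]; nlinarith [sq_nonneg ‖w c‖]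
  have hdn : ‖e + w c‖ = S := by rw [hS]; exact norm_axis e (w c) he hw
  obtain ⟨d, hd⟩ : ∃ d, d = e + w c := ⟨_, rfl⟩
  have hd0 : d ≠ 0 := by
    intro h
    rw [← hd, h, norm_zero] at hdn
    linarith
  rw [← hd] at hdn
  rw [← hS]
  have harea : area2 (pr d (a + c • b)) (pr d b) = κ / S := by
    rw [area2_pr hd0, hdn, hd, det_plane e a b (w c) c he ha hb hw, hκ]
  -- parameters
  obtain ⟨ν, hν⟩ : ∃ ν, ν = L * Λ * Δ := ⟨_, rfl⟩
  have hν0 : 0 < ν := by rw [hν]; positivity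
  obtain ⟨m, hm⟩ : ∃ m, m = ν * (1 + 1/ε) := ⟨_, rfl⟩
  have hm0 : 0 < m := by rw [hm]; positivity
  have hmν : (m - ν) * (ε * Δ) = ν * Δ := by rw [hm]; field_simp; ring
  obtain ⟨W, hW⟩ : ∃ W, W = R c + ε + ν + m := ⟨_, rfl⟩
  have hW0 : 0 < W := by rw [hW]; positivity
  have hWle : W ≤ R c + 2 * ε := by
    have : ν + m = L * Λ * Δ * (2 + 1/ε) := by rw [hm, hν]; ring
    rw [hW]; linarith
  obtain ⟨ζ, hζ⟩ : ∃ ζ, ζ = ε * Δ := ⟨_, rfl⟩
  have hζ0 : 0 < ζ := by rw [hζ]; positivity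
  set pt : ℝ → ℝ → E3 := fun X Y => pr d (p₀ + X • (a + c • b) + Y • b) with hpt
  have hptdiff : ∀ X Y X' Y', pt X Y - pt X' Y' = (X - X') • pr d (a + c • b) + (Y - Y') • pr d b := by
    intro X Y X' Y'
    simp only [hpt, pr_add, pr_smul]
    module
  have hproj : ∀ τ ∈ Set.Icc u v, ∀ ρ s : ℝ, pr d (p₀ + ρ • (a + τ • b) + s • (e + w τ)) =
      pt (ρ + s * f τ) (ρ * (τ - c) + s * g τ) := by
    intro τ hτ ρ s
    have h1 : p₀ + ρ • (a + τ • b) + s • (e + w τ) =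
        (p₀ + (ρ + s * f τ) • (a + c • b) + (ρ * (τ - c) + s * g τ) • b) + s • d := by
      rw [hfg τ hτ, hd]; module
    rw [h1, pr_add, pr_smul, pr_self hd0, smul_zero, add_zero]
  obtain ⟨P0, hP0⟩ : ∃ P, P = pt (-m) 0 := ⟨_, rfl⟩
  obtain ⟨P1, hP1⟩ : ∃ P, P = pt (W - m) (W * (u - c - ζ)) := ⟨_, rfl⟩
  obtain ⟨P2, hP2⟩ : ∃ P, P = pt (W - m) (W * (v - c + ζ)) := ⟨_, rfl⟩
  have hd1 : P1 - P0 = W • pr d (a + c • b) + (W * (u - c - ζ)) • pr d b := by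
    rw [hP1, hP0, hptdiff]; congr 2 <;> ring
  have hd2 : P2 - P0 = W • pr d (a + c • b) + (W * (v - c + ζ)) • pr d b := by
    rw [hP2, hP0, hptdiff]; congr 2 <;> ring
  have hbig : area2 (P1 - P0) (P2 - P0) = W^2 * (Δ + 2 * ζ) * (κ / S) := by
    rw [hd1, hd2, area2_comb, harea]
    congr 1
    have : W * (W * (v - c + ζ)) - W * (u - c - ζ) * W = W^2 * (Δ + 2 * ζ) := by rw [hΔ]; ring
    rw [this, abs_of_pos (by positivity)]
  have hbig0 : 0 < area2 (P1 - P0) (P2 - P0) := by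
    rw [hbig]; positivity
  have hcover : ∀ τ ∈ Set.Icc u v, ∀ ρ ∈ Set.Icc 0 (R τ), ∀ s : ℝ, |s| ≤ L →
        pr d (p₀ + ρ • (a + τ • b) + s • (e + w τ)) ∈ convexHull ℝ {P0, P1, P2} := by
    intro τ hτ ρ hρ s hs
    rw [hproj τ hτ]
    have hsf : |s * f τ| ≤ ν := by
      rw [abs_mul, hν]
      calc |s| * |f τ| ≤ L * (Λ * Δ) := mul_le_mul hs (hf τ hτ) (abs_nonneg _) hL.le
        _ = _ := by ring
    have hsg : |s * g τ| ≤ ν * Δ := by
      rw [abs_mul, hν]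
      calc |s| * |g τ| ≤ L * (Λ * Δ^2) := mul_le_mul hs (hg τ hτ) (abs_nonneg _) hL.le
        _ = _ := by ring
    obtain ⟨f1, f2⟩ := abs_le.mp hsf
    obtain ⟨g1, g2⟩ := abs_le.mp hsg
    obtain ⟨X, hX⟩ : ∃ X, X = ρ + s * f τ := ⟨_, rfl⟩
    obtain ⟨Y, hY⟩ : ∃ Y, Y = ρ * (τ - c) + s * g τ := ⟨_, rfl⟩
    rw [← hX, ← hY]
    have hmν' : ν ≤ m := by
      rw [hm]; have : 0 < ν * (1/ε) := by positivity
      nlinarith
    have hXm : 0 ≤ X + m := by rw [hX]; linarith [hρ.1]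
    have hXm2 : ρ + (m - ν) ≤ X + m := by rw [hX]; linarith
    have hXW : X + m ≤ W := by
      have := (abs_le.mp (hRR τ hτ)).2
      rw [hX, hW]; linarith [hρ.2]
    have hcond1 : 0 ≤ (X + m) * (v - c + ζ) - Y := by
      have h1 : (ρ + (m - ν)) * (v - c + ζ) ≤ (X + m) * (v - c + ζ) :=
        mul_le_mul_of_nonneg_right hXm2 (by linarith)
      have h2 : (ρ + (m - ν)) * (v - c + ζ) = ρ * (v - c) + ρ * ζ + (m - ν) * (v - c) + ν * Δ := by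
        rw [← hmν, ← hζ]; ring
      have h3 : Y ≤ ρ * (v - c) + ν * Δ := by
        rw [hY]
        have : ρ * (τ - c) ≤ ρ * (v - c) := mul_le_mul_of_nonneg_left (by linarith [hτ.2]) hρ.1
        linarith
      have h4 : 0 ≤ ρ * ζ := mul_nonneg hρ.1 hζ0.le
      have h5 : 0 ≤ (m - ν) * (v - c) := mul_nonneg (by linarith) (by linarith)
      linarith
    have hcond2 : 0 ≤ Y - (X + m) * (u - c - ζ) := by
      have h1 : (ρ + (m - ν)) * (c - u + ζ) ≤ (X + m) * (c - u + ζ) :=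
        mul_le_mul_of_nonneg_right hXm2 (by linarith)
      have h2 : (ρ + (m - ν)) * (c - u + ζ) = ρ * (c - u) + ρ * ζ + (m - ν) * (c - u) + ν * Δ := by
        rw [← hmν, ← hζ]; ring
      have h3 : -(ρ * (c - u) + ν * Δ) ≤ Y := by
        rw [hY]
        have : ρ * (u - c) ≤ ρ * (τ - c) := mul_le_mul_of_nonneg_left (by linarith [hτ.1]) hρ.1
        linarith
      have h4 : 0 ≤ ρ * ζ := mul_nonneg hρ.1 hζ0.le
      have h5 : 0 ≤ (m - ν) * (c - u) := mul_nonneg (by linarith) (by linarith)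
      linarith
    have hden : 0 < W * (Δ + 2 * ζ) := by positivity
    have hmem := tri_mem P0 P1 P2 (((X + m) * (v - c + ζ) - Y) / (W * (Δ + 2 * ζ)))
      ((Y - (X + m) * (u - c - ζ)) / (W * (Δ + 2 * ζ))) (div_nonneg hcond1 hden.le) (div_nonneg hcond2 hden.le)
      (by
        rw [← add_div, div_le_one hden]
        have : (X + m) * (v - c + ζ) - Y + (Y - (X + m) * (u - c - ζ)) = (X + m) * (Δ + 2 * ζ) := by rw [hΔ]; ring
        rw [this]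
        exact mul_le_mul_of_nonneg_right hXW (by positivity))
    convert hmem using 1
    have hW' := hW0.ne'
    have hΔζ : Δ + 2 * ζ ≠ 0 := by positivity
    have e0 : pt X Y = P0 + (pt X Y - P0) := by abel
    rw [e0, hd1, hd2, hP0, hptdiff, add_assoc]
    congr 1
    have k1 : X - -m = ((X + m) * (v - c + ζ) - Y) / (W * (Δ + 2 * ζ)) * W +
        (Y - (X + m) * (u - c - ζ)) / (W * (Δ + 2 * ζ)) * W := by
      field_simp; rw [hΔ]; ring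
    have k2 : Y - 0 = ((X + m) * (v - c + ζ) - Y) / (W * (Δ + 2 * ζ)) * (W * (u - c - ζ)) +
        (Y - (X + m) * (u - c - ζ)) / (W * (Δ + 2 * ζ)) * (W * (v - c + ζ)) := by
      field_simp; rw [hΔ]; ring
    rw [k1, k2]
    module
  -- upper bound
  have hup : W^2 * (Δ + 2 * ζ) * (κ / S) / 2 ≤ κ * (R c ^2 / (2 * S)) * Δ + κ * (2 * Rb + 2 + (Rb + 2)^2) * ε * Δ := by
    have h1 : W^2 ≤ (R c + 2 * ε)^2 := pow_le_pow_left₀ hW0.le hWle 2
    have h2 : (R c + 2 * ε)^2 * (1 + 2 * ε) - R c ^2 ≤ 2 * (2 * Rb + 2 + (Rb + 2)^2) * ε := by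
      have h3 : (R c + 2 * ε)^2 ≤ (Rb + 2)^2 := pow_le_pow_left₀ (by positivity) (by linarith) 2
      have h4 : (R c + 2 * ε)^2 * (1 + 2 * ε) - R c ^2 = 4 * ε * R c + 4 * ε^2 + 2 * ε * (R c + 2 * ε)^2 := by ring
      rw [h4]
      have h5 : 4 * ε * R c ≤ 4 * ε * Rb := mul_le_mul_of_nonneg_left hRb' (by positivity)
      have h6 : 4 * ε^2 ≤ 4 * ε := by nlinarith
      have h7 : 2 * ε * (R c + 2 * ε)^2 ≤ 2 * ε * (Rb + 2)^2 := mul_le_mul_of_nonneg_left h3 (by positivity)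
      linarith
    have h5 : W^2 * (Δ + 2 * ζ) * (κ / S) / 2 = (W^2 * (1 + 2 * ε)) * (κ * Δ / (2 * S)) := by
      rw [hζ]; field_simp
    have h6 : κ * (R c ^2 / (2 * S)) * Δ = R c ^2 * (κ * Δ / (2 * S)) := by field_simp
    have h7 : κ * Δ / (2 * S) ≤ κ * Δ / 2 := by
      apply div_le_div_of_nonneg_left (by positivity) (by norm_num) (by linarith)
    have h8 : W^2 * (1 + 2 * ε) - R c ^2 ≤ 2 * (2 * Rb + 2 + (Rb + 2)^2) * ε := by
      have := mul_le_mul_of_nonneg_right h1 (show 0 ≤ 1 + 2 * ε by positivity)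
      linarith
    rw [h5, h6]
    have h9 : (W^2 * (1 + 2 * ε) - R c ^2) * (κ * Δ / (2 * S)) ≤ (2 * (2 * Rb + 2 + (Rb + 2)^2) * ε) * (κ * Δ / 2) := by
      calc (W^2 * (1 + 2 * ε) - R c ^2) * (κ * Δ / (2 * S)) ≤ (2 * (2 * Rb + 2 + (Rb + 2)^2) * ε) * (κ * Δ / (2 * S)) :=
            mul_le_mul_of_nonneg_right h8 (by positivity)
        _ ≤ _ := mul_le_mul_of_nonneg_left h7 (by positivity)
    linarith
  -- lower bound
  obtain ⟨Rm, hRm⟩ : ∃ Rm, Rm = max (R c - ε) 0 := ⟨_, rfl⟩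
  have hRm0 : 0 ≤ Rm := by rw [hRm]; exact le_max_right _ _
  have hRm1 : R c - ε ≤ Rm := by rw [hRm]; exact le_max_left _ _
  have hRmc : Rm ≤ R c := by rw [hRm]; exact max_le (by linarith) hRc
  have hRmτ : ∀ τ ∈ Set.Icc u v, Rm ≤ R τ := by
    intro τ hτ
    rw [hRm]
    exact max_le (by linarith [(abs_le.mp (hRR τ hτ)).1]) (hR0 τ hτ)
  obtain ⟨Q0, hQ0⟩ : ∃ P, P = pt 0 0 := ⟨_, rfl⟩
  obtain ⟨Q1, hQ1⟩ : ∃ P, P = pt Rm (Rm * (u - c)) := ⟨_, rfl⟩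
  obtain ⟨Q2, hQ2⟩ : ∃ P, P = pt Rm (Rm * (v - c)) := ⟨_, rfl⟩
  have hsd1 : Q1 - Q0 = Rm • pr d (a + c • b) + (Rm * (u - c)) • pr d b := by
    rw [hQ1, hQ0, hptdiff]; congr 2 <;> ring
  have hsd2 : Q2 - Q0 = Rm • pr d (a + c • b) + (Rm * (v - c)) • pr d b := by
    rw [hQ2, hQ0, hptdiff]; congr 2 <;> ring
  have hsm : area2 (Q1 - Q0) (Q2 - Q0) = Rm^2 * Δ * (κ / S) := by
    rw [hsd1, hsd2, area2_comb, harea]
    congr 1
    have : Rm * (Rm * (v - c)) - Rm * (u - c) * Rm = Rm^2 * Δ := by rw [hΔ]; ring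
    rw [this, abs_of_nonneg (by positivity)]
  have hlow : κ * (R c ^2 / (2 * S)) * Δ - κ * (2 * Rb + 2 + (Rb + 2)^2) * ε * Δ ≤ Rm^2 * Δ * (κ / S) / 2 := by
    have h1 : R c ^2 - Rm^2 ≤ 2 * Rb * ε := by
      have : R c ^2 - Rm^2 = (R c - Rm) * (R c + Rm) := by ring
      rw [this]
      calc (R c - Rm) * (R c + Rm) ≤ ε * (2 * Rb) := mul_le_mul (by linarith) (by linarith) (by linarith) hε.le
        _ = _ := by ring
    have h5 : Rm^2 * Δ * (κ / S) / 2 = Rm^2 * (κ * Δ / (2 * S)) := by field_simp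
    have h6 : κ * (R c ^2 / (2 * S)) * Δ = R c ^2 * (κ * Δ / (2 * S)) := by field_simp
    have h7 : κ * Δ / (2 * S) ≤ κ * Δ / 2 := by
      apply div_le_div_of_nonneg_left (by positivity) (by norm_num) (by linarith)
    rw [h5, h6]
    have h9 : (R c ^2 - Rm^2) * (κ * Δ / (2 * S)) ≤ (2 * Rb * ε) * (κ * Δ / 2) := by
      calc (R c ^2 - Rm^2) * (κ * Δ / (2 * S)) ≤ (2 * Rb * ε) * (κ * Δ / (2 * S)) :=
            mul_le_mul_of_nonneg_right h1 (by positivity)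
        _ ≤ _ := mul_le_mul_of_nonneg_left h7 (by positivity)
    have h10 : (2 * Rb * ε) * (κ * Δ / 2) ≤ κ * (2 * Rb + 2 + (Rb + 2)^2) * ε * Δ := by
      have : κ * (2 * Rb + 2 + (Rb + 2)^2) * ε * Δ - (2 * Rb * ε) * (κ * Δ / 2) = κ * (Rb + 2 + (Rb + 2)^2) * ε * Δ := by ring
      have h11 : 0 ≤ κ * (Rb + 2 + (Rb + 2)^2) * ε * Δ := by positivity
      linarith
    linarith
  have hsub1 : convexHull ℝ {Q0, Q1, Q2} ⊆ pr d '' {x : E3 | ∃ τ ∈ Set.Icc u v, ∃ ρ ∈ Set.Icc 0 (R τ), ∃ s : ℝ, |s| ≤ L ∧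
          x = p₀ + ρ • (a + τ • b) + s • (e + w τ)} := by
    intro y hy
    obtain ⟨x1, x2, h1, h2, h3, hy⟩ := mem_tri _ _ _ _ hy
    rcases eq_or_lt_of_le (show 0 ≤ x1 + x2 by linarith) with h0 | h0
    · -- trivial
      have e1 : x1 = 0 := by linarith
      have e2 : x2 = 0 := by linarith
      refine ⟨p₀ + (0:ℝ) • (a + c • b) + (0:ℝ) • (e + w c), ⟨c, hc, 0, ⟨le_rfl, hR0 c hc⟩, 0, by simpa using hL.le, rfl⟩, ?_⟩
      rw [hproj c hc, hy, e1, e2, hQ0]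
      simp
    · obtain ⟨τ, hτe⟩ : ∃ τ, τ = (x1 * u + x2 * v) / (x1 + x2) := ⟨_, rfl⟩
      have hτ : τ ∈ Set.Icc u v := by
        rw [hτe]
        constructor
        · rw [le_div_iff₀ h0]; nlinarith
        · rw [div_le_iff₀ h0]; nlinarith
      have hττ : (x1 + x2) * τ = x1 * u + x2 * v := by rw [hτe]; field_simp
      refine ⟨p₀ + (Rm * (x1 + x2)) • (a + τ • b) + (0:ℝ) • (e + w τ), ⟨τ, hτ, Rm * (x1 + x2),
        ⟨by positivity, ?_⟩, 0, by simpa using hL.le, rfl⟩, ?_⟩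
      · exact (mul_le_of_le_one_right hRm0 h3).trans (hRmτ τ hτ)
      · rw [hproj τ hτ, hy]
        have e0 : pt (Rm * (x1 + x2) + 0 * f τ) (Rm * (x1 + x2) * (τ - c) + 0 * g τ) =
            Q0 + (pt (Rm * (x1 + x2) + 0 * f τ) (Rm * (x1 + x2) * (τ - c) + 0 * g τ) - Q0) := by abel
        rw [e0, hsd1, hsd2, hQ0, hptdiff, add_assoc]
        congr 1
        have k2 : Rm * (x1 + x2) * (τ - c) + 0 * g τ - 0 = x1 * (Rm * (u - c)) + x2 * (Rm * (v - c)) := by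
          linear_combination Rm * hττ
        rw [k2]
        module
  have hsub2 : pr d '' {x : E3 | ∃ τ ∈ Set.Icc u v, ∃ ρ ∈ Set.Icc 0 (R τ), ∃ s : ℝ, |s| ≤ L ∧
          x = p₀ + ρ • (a + τ • b) + s • (e + w τ)} ⊆ convexHull ℝ {P0, P1, P2} := by
    rintro y ⟨x, ⟨τ, hτ, ρ, hρ, s, hs, rfl⟩, rfl⟩
    exact hcover τ hτ ρ hρ s hs
  have hm1 := measure_mono (μ := μHE[2]) hsub1
  have hm2 := measure_mono (μ := μHE[2]) hsub2
  have hfinP : μHE[2] (convexHull ℝ {P0, P1, P2}) ≠ ⊤ := by rw [area_triangle]; exact ENNReal.ofReal_ne_top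
  have hr1 := ENNReal.toReal_mono (ne_top_of_le_ne_top hfinP hm2) hm1
  have hr2 := ENNReal.toReal_mono hfinP hm2
  rw [area_tri_toReal, hsm] at hr1
  rw [area_tri_toReal, hbig] at hr2
  refine ⟨P0, P1, P2, ⟨?_, ?_, ?_⟩, affInd_of_area2 _ _ _ hbig0.ne', hd ▸ hcover, ?_, ?_⟩
  · rw [hP0, ← hd]; exact inner_pr hd0 _
  · rw [hP1, ← hd]; exact inner_pr hd0 _
  · rw [hP2, ← hd]; exact inner_pr hd0 _
  · rw [area_tri_toReal, hbig, abs_le]
    constructor <;> linarith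
  · rw [← hd, abs_le]
    constructor <;> linarith

end Crest.Agent.S0328Aux
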