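import Crest.Agent.S0324Geo
set_option autoImplicit false
open MeasureTheory
open scoped ENNReal NNReal

namespace Crest.Agent.S0328Aux
open Crest.Agent.S0324Geo

lemma w_decomp (a b : E3) (α β Λ : ℝ) (w : ℝ → E3) (lam : ℝ → ℝ)
    (hlam : ContinuousOn lam (Set.Icc α β)) (hΛ : ∀ t ∈ Set.Icc α β, |lam t| ≤ Λ)
    (hw' : ∀ t ∈ Set.Icc α β, HasDerivWithinAt w (lam t • (a + t • b)) (Set.Icc α β) t)
    (c : ℝ) (hc : c ∈ Set.Icc α β) :
    ∀ τ ∈ Set.Icc α β, w τ = w c + (∫ θ in c..τ, lam θ) • (a + c • b) + (∫ θ in c..τ, lam θ * (θ - c)) • b ∧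
      |∫ θ in c..τ, lam θ| ≤ Λ * |τ - c| ∧ |∫ θ in c..τ, lam θ * (θ - c)| ≤ Λ * |τ - c| * |τ - c| := by
  intro τ hτ
  have hsub : Set.uIcc c τ ⊆ Set.Icc α β := Set.uIcc_subset_Icc hc hτ
  have hi1 : IntervalIntegrable lam volume c τ := (hlam.mono hsub).intervalIntegrable
  have hi2 : IntervalIntegrable (fun θ => lam θ * (θ - c)) volume c τ :=
    ((hlam.mono hsub).mul (by fun_prop)).intervalIntegrable
  have hΛ0 : 0 ≤ Λ := (abs_nonneg _).trans (hΛ c hc)
  refine ⟨?_, ?_, ?_⟩
  · have hcont : ContinuousOn w (Set.uIcc c τ) := fun x hx => ((hw' x (hsub hx)).continuousWithinAt).mono hsub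
    have h1 : ∫ θ in c..τ, lam θ • (a + θ • b) = w τ - w c := by
      apply intervalIntegral.integral_eq_sub_of_hasDeriv_right hcont
      · intro x hx
        have hx' : x ∈ Set.Ioo α β := by
          constructor
          · exact lt_of_le_of_lt (le_min hc.1 hτ.1) hx.1
          · exact lt_of_lt_of_le hx.2 (max_le hc.2 hτ.2)
        have := (hw' x ⟨hx'.1.le, hx'.2.le⟩).hasDerivAt (Icc_mem_nhds hx'.1 hx'.2)
        exact this.hasDerivWithinAt
      · apply ContinuousOn.intervalIntegrable
        exact (hlam.mono hsub).smul (by fun_prop)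
    have h2 : ∫ θ in c..τ, lam θ • (a + θ • b) =
        (∫ θ in c..τ, lam θ) • (a + c • b) + (∫ θ in c..τ, lam θ * (θ - c)) • b := by
      rw [← intervalIntegral.integral_smul_const, ← intervalIntegral.integral_smul_const,
        ← intervalIntegral.integral_add]
      · congr 1; ext1 θ; module
      · exact ((hlam.mono hsub).smul continuousOn_const).intervalIntegrable
      · exact (((hlam.mono hsub).mul (by fun_prop)).smul continuousOn_const).intervalIntegrable
    rw [h2] at h1
    rw [add_assoc, h1]; abel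
  · have := intervalIntegral.norm_integral_le_of_norm_le_const (a := c) (b := τ) (f := lam) (C := Λ) (by
      intro x hx
      exact hΛ x (hsub (Set.uIoc_subset_uIcc hx)))
    exact this
  · have := intervalIntegral.norm_integral_le_of_norm_le_const (a := c) (b := τ) (f := fun θ => lam θ * (θ - c)) (C := Λ * |τ - c|) (by
      intro x hx
      rw [norm_mul]
      apply mul_le_mul (hΛ x (hsub (Set.uIoc_subset_uIcc hx))) _ (norm_nonneg _) hΛ0
      have := Set.abs_sub_left_of_mem_uIcc (Set.uIoc_subset_uIcc hx)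
      exact this)
    exact this

/-- Finding the piece of a partition containing a point. -/
lemma partition_find (N : ℕ) (t : Fin (N+1) → ℝ) (x : ℝ) (h0 : t 0 ≤ x) (h1 : x ≤ t (Fin.last N)) (hN : 0 < N) :
    ∃ i : Fin N, t i.castSucc ≤ x ∧ x ≤ t i.succ := by
  by_contra hcon
  push Not at hcon
  have : ∀ i : Fin (N+1), t i ≤ x := by
    intro i
    induction i using Fin.induction with
    | zero => exact h0
    | succ j ih => exact (hcon j ih).le
  obtain ⟨M, rfl⟩ : ∃ M, N = M + 1 := ⟨N - 1, by omega⟩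
  have h2 := hcon (Fin.last M) (this _)
  rw [Fin.succ_last] at h2
  linarith

lemma partition_integral (N : ℕ) (t : Fin (N+1) → ℝ) (F : ℝ → ℝ)
    (hF : ∀ i : Fin N, IntervalIntegrable F volume (t i.castSucc) (t i.succ)) :
    ∫ x in (t 0)..(t (Fin.last N)), F x = ∑ i : Fin N, ∫ x in (t i.castSucc)..(t i.succ), F x ∧
    IntervalIntegrable F volume (t 0) (t (Fin.last N)) := by
  induction N with
  | zero => simp
  | succ n ih =>
    obtain ⟨ih1, ih2⟩ := ih (fun i => t i.castSucc) (fun i => by
      have := hF i.castSucc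
      rw [← Fin.castSucc_succ] at this
      exact this)
    have h1 := hF (Fin.last n)
    rw [Fin.succ_last] at h1
    simp only [Fin.castSucc_zero] at ih1 ih2
    refine ⟨?_, ih2.trans h1⟩
    rw [Fin.sum_univ_castSucc, ← intervalIntegral.integral_add_adjacent_intervals ih2 h1, ih1]
    simp [Fin.succ_last]

lemma partition_sum (N : ℕ) (t : Fin (N+1) → ℝ) :
    ∑ i : Fin N, (t i.succ - t i.castSucc) = t (Fin.last N) - t 0 := by
  induction N with
  | zero => simp
  | succ n ih =>
    rw [Fin.sum_univ_castSucc]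
    have := ih (fun i => t i.castSucc)
    simp only [Fin.castSucc_zero] at this
    simp only [Fin.succ_last]
    have h2 : ∑ i : Fin n, (t i.castSucc.succ - t i.castSucc.castSucc) = ∑ i : Fin n, (t i.succ.castSucc - t i.castSucc.castSucc) := by
      rfl
    rw [h2, this]
    ring

end Crest.Agent.S0328Aux
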