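import Crest.Statements.S0328
import Crest.Agent.S0328Aux
import Crest.Agent.S0328Aux2

set_option autoImplicit false
open MeasureTheory
open scoped ENNReal
open Crest Crest.GeometryTopology Crest.GeometryTopology.Convex

namespace Crest.Agent.S0328
open Crest.Agent.S0324Geo Crest.Agent.S0328Aux

/-- Unit e; a, b, p₀ ∈ e^⊥, a, b independent; α < β; L > 0; R ≥ 0, λ both continuous on [α, β]; w(t) ∈ e^⊥, w′ = λ(t)(a + tb). S = {p₀ + ρ(a + t b) + s(e + w t) : α ≤ t ≤ β, 0 ≤ ρ ≤ R t, ‖s‖ ≤ L}; A = κ ∫_α^β R²/(2√(1 + ‖w‖²)), κ = area spanned by a, b. For η > 0 a δ > 0 makes each partition t₀ < … < t_N of [α, β] of mesh ≤ δ, tags cᵢ, admit N cylinders (axes e + w(cᵢ), nondegenerate triangle bases) covering S, total area within η of A; same for S's pieces tᵢ ≤ t ≤ tᵢ₊₁ projected along these axes. -/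
theorem result
    (e a b p₀ : EuclideanSpace ℝ (Fin 3)) (he : ‖e‖ = 1)
    (ha : inner ℝ a e = 0) (hb : inner ℝ b e = 0) (hp₀ : inner ℝ p₀ e = 0)
    (hab : LinearIndependent ℝ ![a, b]) (L : ℝ) (hL : 0 < L) (α β : ℝ) (hαβ : α < β)
    (R : ℝ → ℝ) (hR : ContinuousOn R (Set.Icc α β)) (hR0 : ∀ t ∈ Set.Icc α β, 0 ≤ R t)
    (w : ℝ → EuclideanSpace ℝ (Fin 3)) (hw : ∀ t ∈ Set.Icc α β, inner ℝ (w t) e = 0)
    (lam : ℝ → ℝ) (hlam : ContinuousOn lam (Set.Icc α β))
    (hw' : ∀ t ∈ Set.Icc α β, HasDerivWithinAt w (lam t • (a + t • b)) (Set.Icc α β) t)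
    (η : ℝ) (hη : 0 < η) :
    ∃ δ : ℝ, 0 < δ ∧ ∀ (N : ℕ) (t : Fin (N + 1) → ℝ) (c : Fin N → ℝ),
      StrictMono t → t 0 = α → t (Fin.last N) = β →
      (∀ i : Fin N, t i.succ - t i.castSucc ≤ δ) →
      (∀ i : Fin N, t i.castSucc ≤ c i ∧ c i ≤ t i.succ) →
      (∃ (p q r : Fin N → EuclideanSpace ℝ (Fin 3)),
        (∀ i, inner ℝ (p i) (e + w (c i)) = 0 ∧ inner ℝ (q i) (e + w (c i)) = 0 ∧
          inner ℝ (r i) (e + w (c i)) = 0) ∧
        (∀ i, AffineIndependent ℝ ![p i, q i, r i]) ∧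
        {x : EuclideanSpace ℝ (Fin 3) | ∃ τ ∈ Set.Icc α β, ∃ ρ ∈ Set.Icc 0 (R τ), ∃ s : ℝ, abs s ≤ L ∧
            x = p₀ + ρ • (a + τ • b) + s • (e + w τ)} ⊆
          ⋃ i, {x : EuclideanSpace ℝ (Fin 3) | ∃ y ∈ convexHull ℝ {p i, q i, r i}, ∃ σ : ℝ,
            x = y + σ • (e + w (c i))} ∧
        abs ((∑ i, (μHE[2] (convexHull ℝ ({p i, q i, r i} : Set (EuclideanSpace ℝ (Fin 3))))).toReal) -
            Real.sqrt (‖a‖ ^ 2 * ‖b‖ ^ 2 - inner ℝ a b ^ 2) *
              ∫ τ in α..β, R τ ^ 2 / (2 * Real.sqrt (1 + ‖w τ‖ ^ 2))) ≤ η) ∧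
      abs ((∑ i : Fin N, (μHE[2] ((fun y => y - (inner ℝ y (e + w (c i)) / ‖e + w (c i)‖ ^ 2) • (e + w (c i))) ''
            {x : EuclideanSpace ℝ (Fin 3) | ∃ τ ∈ Set.Icc (t i.castSucc) (t i.succ), ∃ ρ ∈ Set.Icc 0 (R τ),
              ∃ s : ℝ, abs s ≤ L ∧ x = p₀ + ρ • (a + τ • b) + s • (e + w τ)})).toReal) -
          Real.sqrt (‖a‖ ^ 2 * ‖b‖ ^ 2 - inner ℝ a b ^ 2) *
            ∫ τ in α..β, R τ ^ 2 / (2 * Real.sqrt (1 + ‖w τ‖ ^ 2))) ≤ η := by
  -- κ
  obtain ⟨κ, hκ⟩ : ∃ κ, κ = area2 a b := ⟨_, rfl⟩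
  have hκ' : Real.sqrt (‖a‖ ^ 2 * ‖b‖ ^ 2 - inner ℝ a b ^ 2) = κ := hκ.symm
  have hκ0 : 0 < κ := by
    rw [hκ, area2, Real.sqrt_pos]
    have h1 : |inner ℝ a b| < ‖a‖ * ‖b‖ := by
      apply lt_of_le_of_ne (abs_real_inner_le_norm a b)
      intro h
      rw [LinearIndependent.pair_iff] at hab
      have ha0 : a ≠ 0 := by
        intro h0
        have := hab 1 0 (by rw [h0]; simp)
        exact one_ne_zero this.1
      have hb0 : b ≠ 0 := by
        intro h0
        have := hab 0 1 (by rw [h0]; simp)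
        exact one_ne_zero this.2
      have h2 : ‖inner ℝ a b‖ = ‖a‖ * ‖b‖ := h
      rw [norm_inner_eq_norm_iff ha0 hb0] at h2
      obtain ⟨r, hr, hr2⟩ := h2
      have := hab r (-1) (by rw [hr2]; simp)
      norm_num at this
    have h2 : (inner ℝ a b)^2 < (‖a‖ * ‖b‖)^2 := by
      rw [← sq_abs]
      exact pow_lt_pow_left₀ h1 (abs_nonneg _) (by norm_num)
    have h3 : (‖a‖ * ‖b‖)^2 = ‖a‖^2 * ‖b‖^2 := by ring
    linarith
  rw [hκ']
  -- Λ and Rb
  obtain ⟨Λ, hΛ0, hΛ⟩ : ∃ Λ : ℝ, 0 < Λ ∧ ∀ t ∈ Set.Icc α β, |lam t| ≤ Λ := by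
    obtain ⟨C, hC⟩ := isCompact_Icc.exists_bound_of_continuousOn hlam
    exact ⟨max C 1, by positivity, fun t ht => (hC t ht).trans (le_max_left _ _)⟩
  obtain ⟨Rb, hRb0, hRb⟩ : ∃ Rb : ℝ, 0 ≤ Rb ∧ ∀ t ∈ Set.Icc α β, R t ≤ Rb := by
    obtain ⟨C, hC⟩ := isCompact_Icc.exists_bound_of_continuousOn hR
    exact ⟨max C 0, le_max_right _ _, fun t ht => (le_abs_self _).trans ((hC t ht).trans (le_max_left _ _))⟩
  have hwc : ContinuousOn w (Set.Icc α β) := fun x hx => (hw' x hx).continuousWithinAt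
  obtain ⟨F, hF⟩ : ∃ F : ℝ → ℝ, F = fun τ => R τ ^ 2 / (2 * Real.sqrt (1 + ‖w τ‖ ^ 2)) := ⟨_, rfl⟩
  have hFτ : ∀ τ, F τ = R τ ^ 2 / (2 * Real.sqrt (1 + ‖w τ‖ ^ 2)) := fun τ => by rw [hF]
  have hFc : ContinuousOn F (Set.Icc α β) := by
    rw [hF]
    apply ContinuousOn.div (hR.pow 2)
    · exact continuousOn_const.mul ((continuousOn_const.add (hwc.norm.pow 2)).sqrt)
    · intro x _
      have : 0 < Real.sqrt (1 + ‖w x‖^2) := Real.sqrt_pos.mpr (by positivity)
      positivity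
  rw [← hF]
  -- ε
  obtain ⟨CC, hCC⟩ : ∃ CC, CC = κ * (2 * Rb + 2 + (Rb + 2)^2) + κ := ⟨_, rfl⟩
  have hCC0 : 0 < CC := by rw [hCC]; positivity
  obtain ⟨ε, hε0, hε1, hεη⟩ : ∃ ε > 0, ε ≤ 1 ∧ CC * ε * (β - α) ≤ η := by
    have h1 : 0 < CC * (β - α) := mul_pos hCC0 (by linarith)
    refine ⟨min 1 (η / (CC * (β - α))), by positivity, min_le_left _ _, ?_⟩
    calc CC * min 1 (η / (CC * (β - α))) * (β - α) = (CC * (β - α)) * min 1 (η / (CC * (β - α))) := by ring
      _ ≤ (CC * (β - α)) * (η / (CC * (β - α))) := mul_le_mul_of_nonneg_left (min_le_right _ _) h1.le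
      _ = η := by
          have hba : β - α ≠ 0 := by linarith
          field_simp
  have hRu := isCompact_Icc.uniformContinuousOn_of_continuous hR
  have hFu := isCompact_Icc.uniformContinuousOn_of_continuous hFc
  rw [Metric.uniformContinuousOn_iff] at hRu hFu
  obtain ⟨δ1, hδ1, hRδ⟩ := hRu ε hε0
  obtain ⟨δ2, hδ2, hFδ⟩ := hFu ε hε0
  obtain ⟨δ, hδ0, hδδ1, hδδ2, hδs⟩ : ∃ δ > 0, δ < δ1 ∧ δ < δ2 ∧ L * Λ * δ * (2 + 1/ε) ≤ ε := by
    have hT : 0 < L * Λ * (2 + 1/ε) := by positivity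
    refine ⟨min (δ1/2) (min (δ2/2) (ε / (L * Λ * (2 + 1/ε)))), by positivity, ?_, ?_, ?_⟩
    · exact (min_le_left _ _).trans_lt (by linarith)
    · exact ((min_le_right _ _).trans (min_le_left _ _)).trans_lt (by linarith)
    · have h1 : min (δ1/2) (min (δ2/2) (ε / (L * Λ * (2 + 1/ε)))) ≤ ε / (L * Λ * (2 + 1/ε)) :=
        (min_le_right _ _).trans (min_le_right _ _)
      rw [le_div_iff₀ hT] at h1
      linarith
  refine ⟨δ, hδ0, ?_⟩
  intro N t c ht ht0 htN hmesh htag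
  have hN : 0 < N := by
    rcases Nat.eq_zero_or_pos N with h | h
    · exfalso
      subst h
      have : (0 : Fin (0+1)) = Fin.last 0 := rfl
      rw [← this, ht0] at htN
      linarith
    · exact h
  have htmem : ∀ j : Fin (N+1), t j ∈ Set.Icc α β := by
    intro j
    constructor
    · rw [← ht0]; exact ht.monotone (Fin.zero_le j)
    · rw [← htN]; exact ht.monotone (Fin.le_last j)
  have hlt : ∀ i : Fin N, t i.castSucc < t i.succ := fun i => ht (Fin.castSucc_lt_succ)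
  have hsubI : ∀ i : Fin N, Set.Icc (t i.castSucc) (t i.succ) ⊆ Set.Icc α β := by
    intro i x hx
    exact ⟨(htmem _).1.trans hx.1, hx.2.trans (htmem _).2⟩
  have hcI : ∀ i : Fin N, c i ∈ Set.Icc α β := fun i => hsubI i (htag i)
  have hpieces : ∀ i : Fin N, _ := fun i => piece e a b p₀ he ha hb κ hκ hκ0 L Λ Rb ε (t i.castSucc) (t i.succ) (c i)
    hL hΛ0 hRb0 hε0 hε1 (hlt i) (htag i).1 (htag i).2 w (hw _ (hcI i))
    (fun τ => ∫ θ in (c i)..τ, lam θ) (fun τ => ∫ θ in (c i)..τ, lam θ * (θ - c i)) R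
    (fun τ hτ => (w_decomp a b α β Λ w lam hlam hΛ hw' (c i) (hcI i) τ (hsubI i hτ)).1)
    (fun τ hτ => by
      have h1 := (w_decomp a b α β Λ w lam hlam hΛ hw' (c i) (hcI i) τ (hsubI i hτ)).2.1
      have h2 : |τ - c i| ≤ t i.succ - t i.castSucc := by
        rw [abs_le]; constructor <;> linarith [hτ.1, hτ.2, (htag i).1, (htag i).2]
      exact h1.trans (mul_le_mul_of_nonneg_left h2 hΛ0.le))
    (fun τ hτ => by
      have h1 := (w_decomp a b α β Λ w lam hlam hΛ hw' (c i) (hcI i) τ (hsubI i hτ)).2.2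
      have h2 : |τ - c i| ≤ t i.succ - t i.castSucc := by
        rw [abs_le]; constructor <;> linarith [hτ.1, hτ.2, (htag i).1, (htag i).2]
      refine h1.trans ?_
      rw [mul_assoc]
      apply mul_le_mul_of_nonneg_left _ hΛ0.le
      rw [sq]
      exact mul_le_mul h2 h2 (abs_nonneg _) (by linarith [hlt i]))
    (fun τ hτ => hR0 τ (hsubI i hτ))
    (fun τ hτ => by
      have := hRδ τ (hsubI i hτ) (c i) (hcI i) (by
        rw [Real.dist_eq]
        refine lt_of_le_of_lt ?_ hδδ1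
        refine le_trans ?_ (hmesh i)
        rw [abs_le]; constructor <;> linarith [hτ.1, hτ.2, (htag i).1, (htag i).2])
      rw [Real.dist_eq] at this
      exact this.le)
    (hRb _ (hcI i))
    (by
      refine le_trans ?_ hδs
      apply mul_le_mul_of_nonneg_right _ (by positivity)
      exact mul_le_mul_of_nonneg_left (hmesh i) (by positivity))
  choose p q r hperp hind hcov harea hproj using hpieces
  -- the integral
  have hFint : ∀ i : Fin N, IntervalIntegrable F volume (t i.castSucc) (t i.succ) := by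
    intro i
    apply (hFc.mono _).intervalIntegrable
    rw [Set.uIcc_of_le (hlt i).le]
    exact hsubI i
  have hint := (partition_integral N t F hFint).1
  rw [ht0, htN] at hint
  have hFi : ∀ i : Fin N, |F (c i) * (t i.succ - t i.castSucc) - ∫ τ in (t i.castSucc)..(t i.succ), F τ| ≤
      ε * (t i.succ - t i.castSucc) := by
    intro i
    have h1 : F (c i) * (t i.succ - t i.castSucc) - ∫ τ in (t i.castSucc)..(t i.succ), F τ =
        ∫ τ in (t i.castSucc)..(t i.succ), (F (c i) - F τ) := by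
      rw [intervalIntegral.integral_sub (by simp) (hFint i), intervalIntegral.integral_const, smul_eq_mul]
      ring
    rw [h1]
    have h2 := intervalIntegral.norm_integral_le_of_norm_le_const (a := t i.castSucc) (b := t i.succ)
      (f := fun τ => F (c i) - F τ) (C := ε) (by
        intro x hx
        rw [Set.uIoc_of_le (hlt i).le] at hx
        have hx' : x ∈ Set.Icc (t i.castSucc) (t i.succ) := ⟨hx.1.le, hx.2⟩
        have := hFδ (c i) (hcI i) x (hsubI i hx') (by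
          rw [Real.dist_eq]
          refine lt_of_le_of_lt ?_ hδδ2
          refine le_trans ?_ (hmesh i)
          rw [abs_le]; constructor <;> linarith [hx'.1, hx'.2, (htag i).1, (htag i).2])
        rw [Real.dist_eq] at this
        exact this.le)
    rw [abs_of_pos (by linarith [hlt i] : 0 < t i.succ - t i.castSucc)] at h2
    exact h2
  have hsumt := partition_sum N t
  rw [ht0, htN] at hsumt
  -- generic conclusion
  have concl : ∀ (A : Fin N → ℝ), (∀ i, |A i - κ * (R (c i) ^ 2 / (2 * Real.sqrt (1 + ‖w (c i)‖^2))) * (t i.succ - t i.castSucc)| ≤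
        κ * (2 * Rb + 2 + (Rb + 2)^2) * ε * (t i.succ - t i.castSucc)) →
      |(∑ i, A i) - κ * ∫ τ in α..β, F τ| ≤ η := by
    intro A hA
    rw [hint, Finset.mul_sum, ← Finset.sum_sub_distrib]
    calc |∑ i, (A i - κ * ∫ τ in (t i.castSucc)..(t i.succ), F τ)|
        ≤ ∑ i, |A i - κ * ∫ τ in (t i.castSucc)..(t i.succ), F τ| := Finset.abs_sum_le_sum_abs _ _
      _ ≤ ∑ i : Fin N, CC * ε * (t i.succ - t i.castSucc) := by
          apply Finset.sum_le_sum
          intro i _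
          have h1 := hA i
          have h2 := hFi i
          rw [← hFτ] at h1
          have h3 : A i - κ * ∫ τ in (t i.castSucc)..(t i.succ), F τ =
              (A i - κ * F (c i) * (t i.succ - t i.castSucc)) +
              κ * (F (c i) * (t i.succ - t i.castSucc) - ∫ τ in (t i.castSucc)..(t i.succ), F τ) := by ring
          rw [h3]
          refine (abs_add_le _ _).trans ?_
          rw [abs_mul κ, abs_of_pos hκ0]
          have h4 := mul_le_mul_of_nonneg_left h2 hκ0.le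
          rw [hCC]
          linarith
      _ = CC * ε * (β - α) := by rw [← Finset.mul_sum, hsumt]
      _ ≤ η := hεη
  refine ⟨⟨p, q, r, hperp, hind, ?_, ?_⟩, ?_⟩
  · rintro x ⟨τ, hτ, ρ, hρ, s, hs, rfl⟩
    obtain ⟨i, hi1, hi2⟩ := partition_find N t τ (by rw [ht0]; exact hτ.1) (by rw [htN]; exact hτ.2) hN
    rw [Set.mem_iUnion]
    refine ⟨i, _, hcov i τ ⟨hi1, hi2⟩ ρ hρ s hs,
      inner ℝ (p₀ + ρ • (a + τ • b) + s • (e + w τ)) (e + w (c i)) / ‖e + w (c i)‖ ^ 2, ?_⟩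
    rw [pr]; abel
  · exact concl _ harea
  · exact concl _ hproj

end Crest.Agent.S0328
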