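import Crest.Statements.S0329
import Crest.Agent.S0326Main
import Crest.Agent.S0327Aux

set_option autoImplicit false
open MeasureTheory
open scoped ENNReal
open Crest Crest.GeometryTopology Crest.GeometryTopology.Convex

namespace Crest.Agent.S0329

open Crest.Agent.S0324Geo

noncomputable def emb (h : ℝ) (v : EuclideanSpace ℝ (Fin 2)) : E3 := !₂[0, v 0, h * v 1]
noncomputable def dir (h : ℝ) (g : EuclideanSpace ℝ (Fin 2)) : E3 := !₂[1, g 0, h * g 1]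

lemma dir_ne (h : ℝ) (g : EuclideanSpace ℝ (Fin 2)) : dir h g ≠ 0 := by
  intro hz
  have : dir h g 0 = 0 := by rw [hz]; rfl
  simp [dir] at this

lemma dir_norm (h : ℝ) (g : EuclideanSpace ℝ (Fin 2)) : ‖dir h g‖ = Real.sqrt (1 + (g 0) ^ 2 + h ^ 2 * (g 1) ^ 2) := by
  have h1 := normsq3 (dir h g)
  have h2 : dir h g 0 ^ 2 + dir h g 1 ^ 2 + dir h g 2 ^ 2 = 1 + (g 0) ^ 2 + h ^ 2 * (g 1) ^ 2 := by
    simp [dir]; ring
  rw [h2] at h1
  rw [← h1, Real.sqrt_sq (norm_nonneg _)]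

lemma det_emb (h : ℝ) (a b g : EuclideanSpace ℝ (Fin 2)) :
    det3 (emb h a) (emb h b) (dir h g) = h * (a 0 * b 1 - a 1 * b 0) := by
  simp [det3, emb, dir]; ring

lemma absdet (h : ℝ) (hh : 0 < h) (a b g : EuclideanSpace ℝ (Fin 2)) (hab : ‖b‖ = ‖a‖) (hi : inner ℝ a b = 0) :
    |det3 (emb h a) (emb h b) (dir h g)| = h * ‖a‖^2 := by
  rw [det_emb, abs_mul, abs_of_pos hh]
  congr 1
  have h1 := S0326Aux.normsq2 a
  have h2 := S0326Aux.normsq2 b
  rw [S0326Aux.inner2] at hi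
  have h3 : (a 0 * b 1 - a 1 * b 0)^2 = (‖a‖^2)^2 := by
    have e : (a 0 * b 1 - a 1 * b 0)^2 = (a 0^2 + a 1^2) * (b 0^2 + b 1^2) - (a 0 * b 0 + a 1 * b 1)^2 := by ring
    rw [e, hi, ← h1, ← h2, hab]; ring
  rw [← Real.sqrt_sq_eq_abs, h3, Real.sqrt_sq (by positivity)]

/-- Let h, M > 0, D ⊂ ℝ² be compact with Lebesgue-null boundary, and V : ℝ² → ℝ² be C¹ on an open set containing D with tr DV(p) = 0 and −1/M² < det DV(p) < 0 for p ∈ D. For every ε > 0 the set of points (x, p₁ + x V₁(p), h (p₂ + x V₂(p))) ∈ ℝ³ with p ∈ D, −M ≤ x ≤ M is covered by finitely many cylinders Bᵢ + ℝ uᵢ, ‖uᵢ‖ = 1, with bases Bᵢ bounded relatively open subsets of the planes uᵢ^⊥ and ∑ᵢ area(Bᵢ) ≤ h ∫_D (1 + V₁² + h² V₂²)^(−1/2) + ε (areas: normalised 2-dimensional Hausdorff measure). -/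
theorem result
    (h M : ℝ) (hh : 0 < h) (hM : 0 < M) (D : Set (EuclideanSpace ℝ (Fin 2))) (hD : IsCompact D)
    (hbd : volume (frontier D) = 0)
    (V : EuclideanSpace ℝ (Fin 2) → EuclideanSpace ℝ (Fin 2)) (U : Set (EuclideanSpace ℝ (Fin 2)))
    (hU : IsOpen U) (hDU : D ⊆ U) (hV : ContDiffOn ℝ 1 V U)
    (htr : ∀ p ∈ D, LinearMap.trace ℝ _ (fderiv ℝ V p).toLinearMap = 0)
    (hdet : ∀ p ∈ D, -(M ^ 2)⁻¹ < LinearMap.det (fderiv ℝ V p).toLinearMap ∧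
      LinearMap.det (fderiv ℝ V p).toLinearMap < 0)
    (ε : ℝ) (hε : 0 < ε) :
    ∃ (k : ℕ) (u : Fin k → EuclideanSpace ℝ (Fin 3)) (B : Fin k → Set (EuclideanSpace ℝ (Fin 3))),
      (∀ i, ‖u i‖ = 1) ∧
      (∀ i, Bornology.IsBounded (B i) ∧ ∃ O : Set (EuclideanSpace ℝ (Fin 3)), IsOpen O ∧
        B i = O ∩ {x | inner ℝ x (u i) = 0}) ∧
      {z : EuclideanSpace ℝ (Fin 3) | ∃ p ∈ D, ∃ x : ℝ, abs x ≤ M ∧
          z = !₂[x, p 0 + x * V p 0, h * (p 1 + x * V p 1)]} ⊆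
        ⋃ i, {z : EuclideanSpace ℝ (Fin 3) | ∃ y ∈ B i, ∃ τ : ℝ, z = y + τ • u i} ∧
      ∑ i, (μHE[2] (B i)).toReal ≤
        h * (∫ p in D, 1 / Real.sqrt (1 + (V p 0) ^ 2 + h ^ 2 * (V p 1) ^ 2)) + ε := by
  obtain ⟨ι, hι, c, a, b, g, h1, h2, h3⟩ := S0326Aux.main_cover D U hD hU hDU V hV M hM htr
    (fun p hp => ⟨(hdet p hp).1, (hdet p hp).2.le⟩)
    (fun g => 1 / Real.sqrt (1 + (g 0) ^ 2 + h ^ 2 * (g 1) ^ 2))
    (by
      apply Continuous.div continuous_const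
      · fun_prop
      · intro g
        have : 0 < 1 + (g 0) ^ 2 + h ^ 2 * (g 1) ^ 2 := by positivity
        exact (Real.sqrt_pos.mpr this).ne')
    (fun g => by positivity)
    (fun g => by
      have h1 : (1:ℝ) ≤ Real.sqrt (1 + (g 0) ^ 2 + h ^ 2 * (g 1) ^ 2) := by
        rw [Real.one_le_sqrt]
        nlinarith [sq_nonneg (g 0), sq_nonneg (h * g 1)]
      rw [div_le_one (by linarith)]
      exact h1)
    (ε / (2 * h)) (by positivity)
  let e := Fintype.equivFin ι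
  obtain ⟨k, hk⟩ : ∃ k, k = Fintype.card ι := ⟨_, rfl⟩
  obtain ⟨δ, hδe⟩ : ∃ δ, δ = ε / (2 * ((k:ℝ) + 1)) := ⟨_, rfl⟩
  have hδ : 0 < δ := by rw [hδe]; positivity
  have hdn : ∀ i, 0 < ‖dir h (g i)‖ := fun i => norm_pos_iff.mpr (dir_ne h (g i))
  -- unit directions
  have hu1 : ∀ i, ‖(‖dir h (g i)‖)⁻¹ • dir h (g i)‖ = 1 := by
    intro i
    rw [norm_smul, norm_inv, norm_norm]
    exact inv_mul_cancel₀ (hdn i).ne'
  have hune : ∀ i, (‖dir h (g i)‖)⁻¹ • dir h (g i) ≠ 0 := by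
    intro i hz
    have := hu1 i
    rw [hz, norm_zero] at this
    norm_num at this
  have hperp : ∀ i (y : E3), inner ℝ (pr (dir h (g i)) y) ((‖dir h (g i)‖)⁻¹ • dir h (g i)) = 0 := by
    intro i y
    rw [inner_smul_right, inner_pr (dir_ne h (g i)), mul_zero]
  have hT : ∀ i, ∃ B : Set E3, {x : E3 | ∃ s ∈ Set.Icc (0 : ℝ) 1, ∃ t ∈ Set.Icc (0 : ℝ) 1,
        x = pr (dir h (g i)) (emb h (c i)) + s • pr (dir h (g i)) (emb h (a i)) + t • pr (dir h (g i)) (emb h (b i))} ⊆ B ∧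
      Bornology.IsBounded B ∧ (∃ O : Set E3, IsOpen O ∧ B = O ∩ {x | inner ℝ x ((‖dir h (g i)‖)⁻¹ • dir h (g i)) = 0}) ∧
      (μHE[2] B).toReal ≤ (μHE[2] {x : E3 | ∃ s ∈ Set.Icc (0 : ℝ) 1, ∃ t ∈ Set.Icc (0 : ℝ) 1,
        x = pr (dir h (g i)) (emb h (c i)) + s • pr (dir h (g i)) (emb h (a i)) + t • pr (dir h (g i)) (emb h (b i))}).toReal + δ := by
    intro i
    apply open_enlarge (hune i) _ _ _ δ hδ
    · apply (Metric.isBounded_closedBall (x := (0:E3)) (r := ‖pr (dir h (g i)) (emb h (c i))‖ +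
        ‖pr (dir h (g i)) (emb h (a i))‖ + ‖pr (dir h (g i)) (emb h (b i))‖)).subset
      rintro x ⟨s, hs, t, ht, rfl⟩
      rw [mem_closedBall_zero_iff]
      refine norm_add₃_le.trans ?_
      rw [norm_smul, norm_smul, Real.norm_of_nonneg hs.1, Real.norm_of_nonneg ht.1]
      have := mul_le_of_le_one_left (norm_nonneg (pr (dir h (g i)) (emb h (a i)))) hs.2
      have := mul_le_of_le_one_left (norm_nonneg (pr (dir h (g i)) (emb h (b i)))) ht.2
      linarith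
    · rintro x ⟨s, hs, t, ht, rfl⟩
      rw [inner_add_left, inner_add_left, real_inner_smul_left, real_inner_smul_left, hperp, hperp, hperp]
      simp
  choose B hB1 hB2 hB3 hB4 using hT
  have harea : ∀ i, (μHE[2] {x : E3 | ∃ s ∈ Set.Icc (0 : ℝ) 1, ∃ t ∈ Set.Icc (0 : ℝ) 1,
        x = pr (dir h (g i)) (emb h (c i)) + s • pr (dir h (g i)) (emb h (a i)) + t • pr (dir h (g i)) (emb h (b i))}).toReal
      = h * (‖a i‖^2 * (1 / Real.sqrt (1 + (g i 0) ^ 2 + h ^ 2 * (g i 1) ^ 2))) := by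
    intro i
    rw [area_parallelogram, ENNReal.toReal_ofReal (show 0 ≤ area2 _ _ from Real.sqrt_nonneg _),
      area2_pr (dir_ne h (g i)), absdet h hh _ _ _ (h1 i).2.1 (h1 i).2.2, dir_norm]
    ring
  refine ⟨Fintype.card ι, fun i => (‖dir h (g (e.symm i))‖)⁻¹ • dir h (g (e.symm i)), fun i => B (e.symm i),
    fun i => hu1 _, fun i => ⟨hB2 _, hB3 _⟩, ?_, ?_⟩
  · rintro z ⟨p, hp, x, hx, hz⟩
    obtain ⟨i, α, hα, β, hβ, heq⟩ := h2 p hp x hx
    rw [Set.mem_iUnion]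
    refine ⟨e i, ?_⟩
    simp only [Equiv.symm_apply_apply]
    have hz2 : z = emb h (c i) + α • emb h (a i) + β • emb h (b i) + x • dir h (g i) := by
      have e0 := congrArg (fun v : EuclideanSpace ℝ (Fin 2) => v 0) heq
      have e1 := congrArg (fun v : EuclideanSpace ℝ (Fin 2) => v 1) heq
      simp only [PiLp.add_apply, PiLp.smul_apply, smul_eq_mul] at e0 e1
      rw [hz, e0, e1]
      ext j
      fin_cases j <;> simp [emb, dir] <;> ring
    refine ⟨_, hB1 i ⟨α, hα, β, hβ, rfl⟩, inner ℝ z (dir h (g i)) / ‖dir h (g i)‖, ?_⟩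
    have hpz : pr (dir h (g i)) z = pr (dir h (g i)) (emb h (c i)) + α • pr (dir h (g i)) (emb h (a i)) +
        β • pr (dir h (g i)) (emb h (b i)) := by
      rw [hz2, pr_add, pr_add, pr_add, pr_smul, pr_smul, pr_smul, pr_self (dir_ne h (g i)), smul_zero, add_zero]
    rw [← hpz, pr, smul_smul]
    have : inner ℝ z (dir h (g i)) / ‖dir h (g i)‖ * ‖dir h (g i)‖⁻¹ = inner ℝ z (dir h (g i)) / ‖dir h (g i)‖ ^ 2 := by
      have := (hdn i).ne'
      field_simp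
    rw [this]
    abel
  · rw [Equiv.sum_comp e.symm (fun i => (μHE[2] (B i)).toReal)]
    calc ∑ i, (μHE[2] (B i)).toReal ≤ ∑ i, (h * (‖a i‖^2 * (1 / Real.sqrt (1 + (g i 0) ^ 2 + h ^ 2 * (g i 1) ^ 2))) + δ) := by
          apply Finset.sum_le_sum
          intro i _
          rw [← harea i]; exact hB4 i
      _ = h * ∑ i, (‖a i‖^2 * (1 / Real.sqrt (1 + (g i 0) ^ 2 + h ^ 2 * (g i 1) ^ 2))) + k * δ := by
          rw [Finset.sum_add_distrib, ← Finset.mul_sum, Finset.sum_const, Finset.card_univ, nsmul_eq_mul, hk]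
      _ ≤ h * ((∫ p in D, 1 / Real.sqrt (1 + (V p 0) ^ 2 + h ^ 2 * (V p 1) ^ 2)) + ε / (2 * h)) + ε / 2 := by
          apply add_le_add
          · exact mul_le_mul_of_nonneg_left h3 hh.le
          · rw [hδe, mul_div_assoc', div_le_div_iff₀ (by positivity) (by norm_num)]
            nlinarith
      _ = _ := by field_simp; ring

end Crest.Agent.S0329
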