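import Crest.Agent.S0423Aux4

/-!
Helper file for S0423: folds over multisets of coefficients, structure of a minimiser.
-/

set_option autoImplicit false
open MeasureTheory Set Filter Topology
open scoped BoundedContinuousFunction

namespace Crest.Agent.S0423

/-- the fold over a multiset of coefficients. -/
noncomputable def FF (K : ℝ →ᵇ ℝ) (S : Multiset ℝ) : ℝ →ᵇ ℝ := Multiset.foldr T K S

lemma FF_zero (K : ℝ →ᵇ ℝ) : FF K 0 = K := rfl

lemma FF_cons (K : ℝ →ᵇ ℝ) (p : ℝ) (S : Multiset ℝ) : FF K (p ::ₘ S) = T p (FF K S) :=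
  Multiset.foldr_cons _ _ _ _

lemma FF_T (K : ℝ →ᵇ ℝ) (p : ℝ) (S : Multiset ℝ) : FF (T p K) S = T p (FF K S) := by
  induction S using Multiset.induction_on with
  | empty => rfl
  | cons a s ih => rw [FF_cons, FF_cons, ih, T_comm]

lemma Pair.FF {K D : ℝ →ᵇ ℝ} (h : Pair K D) (S : Multiset ℝ) :
    Pair (FF K S) (Crest.Agent.S0423.FF D S) := by
  induction S using Multiset.induction_on with
  | empty => exact h
  | cons a s ih => rw [FF_cons, FF_cons]; exact ih.opT a

lemma Uni.FF {w κ : ℝ →ᵇ ℝ} (h : Uni w κ) (S : Multiset ℝ) :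
    Uni (Crest.Agent.S0423.FF w S) (Crest.Agent.S0423.FF κ S) := by
  induction S using Multiset.induction_on with
  | empty => exact h
  | cons a s ih => rw [FF_cons, FF_cons]; exact ih.opT a

lemma FF_minorant {K : ℝ →ᵇ ℝ} {α β t : ℝ} (h : ∀ y ≤ t, α + β * y ≤ K y) (S : Multiset ℝ)
    (hS : ∀ x ∈ S, x ≤ 0) : ∀ y ≤ t, α + β * (y + S.sum) ≤ FF K S y := by
  induction S using Multiset.induction_on with
  | empty => intro y hy; simpa [FF_zero] using h y hy
  | cons a s ih =>
    intro y hy
    have h1 := ih (fun x hx => hS x (Multiset.mem_cons_of_mem hx))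
    have h2 : ∀ y ≤ t, (α + β * s.sum) + β * y ≤ FF K s y := by
      intro z hz
      have := h1 z hz
      linarith
    have h3 := T_minorant (hS a (Multiset.mem_cons_self _ _)) h2 y hy
    rw [FF_cons, Multiset.sum_cons]
    linarith

lemma FF_all_zero (K : ℝ →ᵇ ℝ) (S : Multiset ℝ) (hS : ∀ x ∈ S, x = 0) : FF K S = K := by
  induction S using Multiset.induction_on with
  | empty => rfl
  | cons a s ih =>
    rw [FF_cons, hS a (Multiset.mem_cons_self _ _), T_zero]
    exact ih (fun x hx => hS x (Multiset.mem_cons_of_mem hx))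

lemma sum_nonpos_of {S : Multiset ℝ} (hS : ∀ x ∈ S, x ≤ 0) : S.sum ≤ 0 := by
  induction S using Multiset.induction_on with
  | empty => simp
  | cons a s ih =>
    rw [Multiset.sum_cons]
    have := ih (fun x hx => hS x (Multiset.mem_cons_of_mem hx))
    have := hS a (Multiset.mem_cons_self _ _)
    linarith

lemma sum_nonneg_of {S : Multiset ℝ} (hS : ∀ x ∈ S, 0 ≤ x) : 0 ≤ S.sum := by
  induction S using Multiset.induction_on with
  | empty => simp
  | cons a s ih =>
    rw [Multiset.sum_cons]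
    have := ih (fun x hx => hS x (Multiset.mem_cons_of_mem hx))
    have := hS a (Multiset.mem_cons_self _ _)
    linarith

lemma all_zero_of {S : Multiset ℝ} (hS : ∀ x ∈ S, x ≤ 0) (h0 : S.sum = 0) : ∀ x ∈ S, x = 0 := by
  intro x hx
  obtain ⟨s, rfl⟩ := Multiset.exists_cons_of_mem hx
  rw [Multiset.sum_cons] at h0
  have h1 := sum_nonpos_of (S := s) (fun y hy => hS y (Multiset.mem_cons_of_mem hy))
  have h2 := hS x hx
  linarith

lemma target_le_G : target ≤ G (4/3) := by
  rw [G_apply, if_neg (by norm_num)]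
  have h1 := target_lt
  have h2 := exp_E_lt
  norm_num at h1 h2 ⊢
  linarith

/-- the structural analysis of a minimiser -/
lemma minimiser_bound {C : ℝ} {M : Multiset ℝ} (hsum : M.sum = 0) (habs : (M.map abs).sum ≤ C)
    (hmin : ∀ M' : Multiset ℝ, M'.card = M.card → M'.sum = 0 → (M'.map abs).sum ≤ C →
      FF G M (4/3) ≤ FF G M' (4/3)) : target ≤ FF G M (4/3) := by
  by_cases h0 : ∀ x ∈ M, x ≤ 0
  · rw [FF_all_zero G M (all_zero_of h0 hsum)]
    exact target_le_G
  push Not at h0
  obtain ⟨p, hpM, hp⟩ := h0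
  obtain ⟨M1, rfl⟩ := Multiset.exists_cons_of_mem hpM
  by_cases h1 : ∀ x ∈ M1, x ≤ 0
  · -- exactly one positive coefficient
    obtain ⟨β, hβ⟩ := hasMinorant hp
    rw [FF_cons, ← FF_T, T_G hp]
    have h2 := FF_minorant hβ M1 h1 (4/3) le_rfl
    have h3 : M1.sum = -p := by
      rw [Multiset.sum_cons] at hsum; linarith
    rw [h3] at h2
    linarith
  · exfalso
    push Not at h1
    obtain ⟨p', hp'M, hp'⟩ := h1
    obtain ⟨M2, rfl⟩ := Multiset.exists_cons_of_mem hp'M
    -- order the two
    obtain ⟨p1, p2, hp1, hp12, hMeq⟩ : ∃ p1 p2 : ℝ, 0 < p1 ∧ p1 ≤ p2 ∧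
        p ::ₘ p' ::ₘ M2 = p1 ::ₘ p2 ::ₘ M2 := by
      rcases le_total p p' with h | h
      · exact ⟨p, p', hp, h, rfl⟩
      · exact ⟨p', p, hp', h, Multiset.cons_swap _ _ _⟩
    rw [hMeq] at hsum habs hmin
    have hp2 : 0 < p2 := lt_of_lt_of_le hp1 hp12
    have hneg : ∃ c ∈ M2, c < 0 := by
      by_contra hcon
      push Not at hcon
      have := sum_nonneg_of hcon
      rw [Multiset.sum_cons, Multiset.sum_cons] at hsum
      linarith
    obtain ⟨c, hcM, hc⟩ := hneg
    obtain ⟨M3, rfl⟩ := Multiset.exists_cons_of_mem hcM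
    obtain ⟨b, rfl⟩ : ∃ b, c = -b := ⟨-c, by ring⟩
    have hb : 0 < b := by linarith
    set ε := min p1 b / 2 with hε
    have hε0 : 0 < ε := by rw [hε]; have := lt_min hp1 hb; linarith
    have hε1 : ε < p1 := by
      rw [hε]; have := min_le_left p1 b; have := lt_min hp1 hb; linarith
    have hε2 : ε < b := by
      rw [hε]; have := min_le_right p1 b; have := lt_min hp1 hb; linarith
    have hr : 0 < p1 - ε := by linarith
    simp only [Multiset.sum_cons, Multiset.map_cons, abs_neg, abs_of_pos hp1, abs_of_pos hp2,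
      abs_of_pos hb] at hsum habs
    have hm1 := hmin ((p1 - ε) ::ₘ (p2 + ε) ::ₘ (-b) ::ₘ M3) (by simp)
      (by simp only [Multiset.sum_cons]; linarith)
      (by simp only [Multiset.map_cons, Multiset.sum_cons, abs_neg, abs_of_pos hr,
            abs_of_pos hb, abs_of_pos (show 0 < p2 + ε by linarith)]; linarith)
    have hm2 := hmin ((p1 - ε) ::ₘ p2 ::ₘ (-(b - ε)) ::ₘ M3) (by simp)
      (by simp only [Multiset.sum_cons]; linarith)
      (by simp only [Multiset.map_cons, Multiset.sum_cons, abs_neg, abs_of_pos hr,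
            abs_of_pos hp2, abs_of_pos (show 0 < b - ε by linarith)]; linarith)
    -- the unimodal function
    set w := T (p1 - ε) (T p1 (T p2 (FF f ((-b) ::ₘ M3)))) with hw
    set κ := T p1 (T p2 (FF (k (p1 - ε) hr) ((-b) ::ₘ M3))) with hκ
    have hwe : w = T p1 (T p2 (FF (h (p1 - ε) hr) ((-b) ::ₘ M3))) := by
      rw [hw, T_comm (p1 - ε) p1, T_comm (p1 - ε) p2, ← FF_T, T_f hr]
    have huni : Uni w κ := by
      rw [hwe]
      exact (((uni_h hr).FF _).opT p2).opT p1
    -- first move
    have i1 := pair_identity (pair_G_f.FF ((-b) ::ₘ M3)) (p := p1) (q := p2) (p' := p1 - ε)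
      (q' := p2 + ε) hp1.ne' hp2.ne' hr.ne' (by linarith) (by ring)
      (κ := T (p2 + ε) κ) (huni.pair.opT (p2 + ε)) (4/3)
    have hK1 : 0 ≤ T (p2 + ε) κ (4/3) := by
      by_contra hcon
      push Not at hcon
      rw [FF_cons, FF_cons, FF_cons G (p1 - ε), FF_cons G (p2 + ε)] at hm1
      have : 0 < p1 * p2 - (p1 - ε) * (p2 + ε) := by nlinarith
      have := mul_neg_of_pos_of_neg this hcon
      linarith
    -- second move
    have i2 := pair_identity (pair_G_f.FF (p2 ::ₘ M3)) (p := p1) (q := -b) (p' := p1 - ε)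
      (q' := -(b - ε)) hp1.ne' (by linarith) hr.ne' (by linarith) (by ring)
      (κ := T (-(b - ε)) κ) (by
        have e : T (p1 - ε) (T p1 (T (-b) (FF f (p2 ::ₘ M3)))) = w := by
          rw [hw, FF_cons, FF_cons, T_comm (-b) p2]
        rw [e]
        exact huni.pair.opT _) (4/3)
    have hK2 : T (-(b - ε)) κ (4/3) ≤ 0 := by
      by_contra hcon
      push Not at hcon
      have e1 : FF G (p1 ::ₘ p2 ::ₘ -b ::ₘ M3) = T p1 (T (-b) (FF G (p2 ::ₘ M3))) := by
        rw [FF_cons, FF_cons, FF_cons, FF_cons, T_comm (-b) p2]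
      have e2 : FF G ((p1 - ε) ::ₘ p2 ::ₘ (-(b - ε)) ::ₘ M3)
          = T (p1 - ε) (T (-(b - ε)) (FF G (p2 ::ₘ M3))) := by
        rw [FF_cons, FF_cons, FF_cons, FF_cons, T_comm (-(b - ε)) p2]
      rw [e1, e2] at hm2
      have : p1 * (-b) - (p1 - ε) * (-(b - ε)) < 0 := by nlinarith
      have := mul_neg_of_neg_of_pos this hcon
      linarith
    exact huni.contra (show 0 < p2 + ε by linarith) (show 0 < b - ε by linarith) hK1 hK2

/-- integral representation w.r.t. the product of exponential laws. -/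
lemma integral_pi_nu (N : ℕ) : ∀ (a : Fin N → ℝ) (K : ℝ →ᵇ ℝ) (y : ℝ),
    ∫ x, K (y + ∑ i, a i * x i) ∂(Measure.pi fun _ : Fin N => nu) =
      FF K (Finset.univ.val.map a) y := by
  induction N with
  | zero =>
    intro a K y
    simp [FF_zero]
  | succ N ih =>
    intro a K y
    have hmp := measurePreserving_piFinSuccAbove (fun _ : Fin (N+1) => nu) 0
    have h1 := hmp.symm.integral_comp'
      (g := fun x : Fin (N+1) → ℝ => K (y + ∑ i, a i * x i))
    rw [← h1]
    have hI : Integrable (fun z : ℝ × (Fin N → ℝ) =>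
        K (y + ∑ i, a i * ((MeasurableEquiv.piFinSuccAbove (fun _ : Fin (N+1) => ℝ) 0).symm z) i))
        (nu.prod (Measure.pi fun _ : Fin N => nu)) := by
      refine Integrable.of_bound (C := ‖K‖) ?_ ?_
      · refine (K.continuous.comp ?_).aestronglyMeasurable
        refine continuous_const.add (continuous_finsetSum _ fun i _ => continuous_const.mul ?_)
        refine Fin.cases ?_ (fun j => ?_) i
        · simpa [MeasurableEquiv.piFinSuccAbove] using continuous_fst
        · simp only [MeasurableEquiv.piFinSuccAbove, Fin.insertNthEquiv]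
          simp
          fun_prop
      · exact ae_of_all _ fun x => K.norm_coe_le_norm _
    have h2 := integral_prod _ hI
    refine Eq.trans h2 ?_
    have h3 : ∀ x0 : ℝ, ∫ x' : Fin N → ℝ, K (y + ∑ i, a i *
        ((MeasurableEquiv.piFinSuccAbove (fun _ : Fin (N+1) => ℝ) 0).symm (x0, x')) i)
        ∂(Measure.pi fun _ : Fin N => nu) = FF K (Finset.univ.val.map (fun j => a (Fin.succ j)))
          (y + a 0 * x0) := by
      intro x0
      rw [← ih]
      refine integral_congr_ae (ae_of_all _ fun x' => ?_)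
      simp only [Fin.sum_univ_succ]
      congr 1
      simp [MeasurableEquiv.piFinSuccAbove, Fin.insertNthEquiv, add_assoc]
    simp only [h3]
    rw [← T_apply, Fin.univ_val_map, Fin.univ_val_map, List.ofFn_succ]
    rw [← Multiset.cons_coe, FF_cons]

end Crest.Agent.S0423
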