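import Crest.Statements.S0423
import Crest.Agent.S0423Aux5

set_option autoImplicit false
open Crest Crest.AlgGeometry

namespace Crest.Agent.S0423

open MeasureTheory Set Filter Topology
open scoped BoundedContinuousFunction

/-- the weight as a bounded continuous function. -/
noncomputable def gB : ℝ →ᵇ ℝ := 1 - G

lemma gB_apply (y : ℝ) : gB y = truncExpWeight y := by
  unfold gB truncExpWeight
  simp only [BoundedContinuousFunction.coe_sub, BoundedContinuousFunction.coe_one, Pi.sub_apply,
    Pi.one_apply, G_apply]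
  split_ifs <;> ring

lemma T_one (p : ℝ) : T p 1 = 1 := by
  ext y; simp [T_apply]

lemma FF_gB (S : Multiset ℝ) : FF gB S = 1 - FF G S := by
  induction S using Multiset.induction_on with
  | empty => rfl
  | cons a s ih => rw [FF_cons, FF_cons, ih, T_linear_sub, T_one]

lemma integrable_exp_sum (N : ℕ) : Integrable (fun x : Fin N → ℝ => Real.exp (-∑ i, x i))
    (Measure.pi fun _ : Fin N => volume.restrict (Ioi (0:ℝ))) := by
  have h : (fun x : Fin N → ℝ => Real.exp (-∑ i, x i)) = fun x => ∏ i, Real.exp (-(x i)) := by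
    funext x
    rw [← Real.exp_sum, Finset.sum_neg_distrib]
  rw [h]
  exact Integrable.fintype_prod (f := fun _ : Fin N => fun x : ℝ => Real.exp (-x))
    (fun i => integrableOn_exp_neg_Ioi 0)

lemma integral_pi_exp (N : ℕ) : ∀ (a : Fin N → ℝ) (K : ℝ →ᵇ ℝ) (y : ℝ),
    ∫ x, K (y + ∑ i, a i * x i) * Real.exp (-∑ i, x i)
      ∂(Measure.pi fun _ : Fin N => volume.restrict (Ioi (0:ℝ))) =
      FF K (Finset.univ.val.map a) y := by
  induction N with
  | zero =>
    intro a K y
    have h1 : (Measure.pi fun _ : Fin 0 => volume.restrict (Ioi (0:ℝ))).real univ = 1 := by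
      rw [measureReal_def, Measure.pi_univ]
      simp
    simp [FF_zero, h1]
  | succ N ih =>
    intro a K y
    have hmp := measurePreserving_piFinSuccAbove
      (fun _ : Fin (N+1) => (volume.restrict (Ioi (0:ℝ)))) 0
    have h1 := hmp.symm.integral_comp'
      (g := fun x : Fin (N+1) → ℝ => K (y + ∑ i, a i * x i) * Real.exp (-∑ i, x i))
    rw [← h1]
    have e : ∀ z : ℝ × (Fin N → ℝ),
        K (y + ∑ i, a i * ((MeasurableEquiv.piFinSuccAbove (fun _ : Fin (N+1) => ℝ) 0).symm z) i) *
          Real.exp (-∑ i, ((MeasurableEquiv.piFinSuccAbove (fun _ : Fin (N+1) => ℝ) 0).symm z) i)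
        = K (y + a 0 * z.1 + ∑ i, a (Fin.succ i) * z.2 i) *
          (Real.exp (-z.1) * Real.exp (-∑ i, z.2 i)) := by
      intro z
      simp only [Fin.sum_univ_succ]
      rw [← Real.exp_add]
      simp [MeasurableEquiv.piFinSuccAbove, Fin.insertNthEquiv, add_assoc]
      left
      ring_nf
    have hI0 : Integrable (fun z : ℝ × (Fin N → ℝ) =>
        K (y + a 0 * z.1 + ∑ i, a (Fin.succ i) * z.2 i) *
          (Real.exp (-z.1) * Real.exp (-∑ i, z.2 i)))
        ((volume.restrict (Ioi (0:ℝ))).prod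
          (Measure.pi fun _ : Fin N => volume.restrict (Ioi (0:ℝ)))) := by
      have h1 : Integrable (fun z : ℝ × (Fin N → ℝ) => Real.exp (-z.1) * Real.exp (-∑ i, z.2 i))
          ((volume.restrict (Ioi (0:ℝ))).prod
            (Measure.pi fun _ : Fin N => volume.restrict (Ioi (0:ℝ)))) := by
        have ha : Integrable (fun x : ℝ => Real.exp (-x)) (volume.restrict (Ioi (0:ℝ))) :=
          integrableOn_exp_neg_Ioi 0
        exact ha.mul_prod (integrable_exp_sum N)
      refine h1.bdd_mul (c := ‖K‖) ?_ ?_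
      · exact (K.continuous.comp (by fun_prop)).aestronglyMeasurable
      · exact ae_of_all _ fun x => K.norm_coe_le_norm _
    have hcong : ∀ (μ : Measure (ℝ × (Fin N → ℝ))),
        ∫ z, K (y + ∑ i, a i *
          ((MeasurableEquiv.piFinSuccAbove (fun _ : Fin (N+1) => ℝ) 0).symm z) i) *
          Real.exp (-∑ i, ((MeasurableEquiv.piFinSuccAbove (fun _ : Fin (N+1) => ℝ) 0).symm z) i) ∂μ
        = ∫ z, K (y + a 0 * z.1 + ∑ i, a (Fin.succ i) * z.2 i) *
          (Real.exp (-z.1) * Real.exp (-∑ i, z.2 i)) ∂μ := by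
      intro μ
      exact integral_congr_ae (ae_of_all _ e)
    refine (hcong _).trans ?_
    rw [integral_prod _ hI0]
    have h3 : ∀ x0 : ℝ, ∫ x' : Fin N → ℝ, K (y + a 0 * x0 + ∑ i, a (Fin.succ i) * x' i) *
          (Real.exp (-x0) * Real.exp (-∑ i, x' i))
        ∂(Measure.pi fun _ : Fin N => volume.restrict (Ioi (0:ℝ))) =
          FF K (Finset.univ.val.map (fun j => a (Fin.succ j))) (y + a 0 * x0) *
            Real.exp (-x0) := by
      intro x0
      rw [← ih, ← integral_mul_const]
      refine integral_congr_ae (ae_of_all _ fun x' => ?_)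
      simp only
      ring
    simp only [h3]
    rw [← integral_nu (fun x => FF K (Finset.univ.val.map (fun j => a (Fin.succ j)))
      (y + a 0 * x)), ← T_apply, Fin.univ_val_map, Fin.univ_val_map, List.ofFn_succ]
    rw [← Multiset.cons_coe, FF_cons]

/-- the integral of the statement. -/
lemma stmt_integral (N : ℕ) (a : Fin N → ℝ) :
    ∫ x in Set.pi Set.univ (fun _ : Fin N => Set.Ioi (0 : ℝ)),
      truncExpWeight (4 / 3 + ∑ i, a i * x i) * Real.exp (-∑ i, x i)
      = 1 - FF G (Finset.univ.val.map a) (4/3) := by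
  have h1 : (volume : Measure (Fin N → ℝ)).restrict
      (Set.pi Set.univ (fun _ : Fin N => Set.Ioi (0 : ℝ))) =
      Measure.pi fun _ : Fin N => volume.restrict (Ioi (0:ℝ)) := by
    rw [volume_pi, Measure.restrict_pi_pi]
  rw [h1]
  have h2 := integral_pi_exp N a gB (4/3)
  simp only [gB_apply] at h2
  rw [h2, FF_gB]
  simp

lemma exists_rep (N : ℕ) (M : Multiset ℝ) (hM : M.card = N) :
    ∃ a : Fin N → ℝ, Finset.univ.val.map a = M := by
  subst hM
  induction M using Quotient.inductionOn with
  | h l =>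
    refine ⟨fun i => l.get (i.cast (by simp)), ?_⟩
    rw [Fin.univ_val_map]
    simp

lemma lower_bound (N : ℕ) (a : Fin N → ℝ) (ha : ∑ i, a i = 0) :
    target ≤ FF G (Finset.univ.val.map a) (4/3) := by
  set C := ∑ i, |a i| with hC
  -- compact set
  let S : Set (Fin N → ℝ) := {b | ∑ i, b i = 0 ∧ ∑ i, |b i| ≤ C}
  have hScl : IsClosed S := by
    have c1 : Continuous fun b : Fin N → ℝ => ∑ i, b i := by fun_prop
    have c2 : Continuous fun b : Fin N → ℝ => ∑ i, |b i| := by fun_prop
    exact IsClosed.inter (isClosed_eq c1 continuous_const) (isClosed_le c2 continuous_const)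
  have hSb : Bornology.IsBounded S := by
    refine (Metric.isBounded_closedBall (x := (0 : Fin N → ℝ)) (r := C)).subset ?_
    intro b hb
    rw [mem_closedBall_zero_iff, pi_norm_le_iff_of_nonneg (by
      rw [hC]; exact Finset.sum_nonneg fun i _ => abs_nonneg _)]
    intro i
    rw [Real.norm_eq_abs]
    exact (Finset.single_le_sum (f := fun i => |b i|) (fun j _ => abs_nonneg _)
      (Finset.mem_univ i)).trans hb.2
  have hScomp : IsCompact S := Metric.isCompact_of_isClosed_isBounded hScl hSb
  have hne : S.Nonempty := ⟨a, ha, le_rfl⟩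
  have hcont : Continuous fun b : Fin N → ℝ => FF G (Finset.univ.val.map b) (4/3) := by
    have : (fun b : Fin N → ℝ => FF G (Finset.univ.val.map b) (4/3)) =
        fun b => ∫ x, G (4/3 + ∑ i, b i * x i) ∂(Measure.pi fun _ : Fin N => nu) := by
      funext b; rw [integral_pi_nu]
    rw [this]
    refine continuous_of_dominated (bound := fun _ => ‖G‖) ?_ ?_ ?_ ?_
    · intro b; exact (G.continuous.comp (by fun_prop)).aestronglyMeasurable
    · intro b; exact ae_of_all _ fun x => G.norm_coe_le_norm _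
    · exact integrable_const _
    · refine ae_of_all _ fun x => ?_
      have hc : Continuous fun b : Fin N → ℝ => (4/3 + ∑ i, b i * x i) := by fun_prop
      exact G.continuous.comp hc
  obtain ⟨b, hbS, hbmin⟩ := hScomp.exists_isMinOn hne hcont.continuousOn
  have h1 : FF G (Finset.univ.val.map b) (4/3) ≤ FF G (Finset.univ.val.map a) (4/3) :=
    hbmin ⟨ha, le_rfl⟩
  refine le_trans ?_ h1
  refine minimiser_bound (C := C) ?_ ?_ ?_
  · exact hbS.1
  · rw [Multiset.map_map]; exact hbS.2
  · intro M' hcard hs habs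
    obtain ⟨b', hb'⟩ := exists_rep N M' (by rw [hcard]; simp)
    subst hb'
    refine hbmin ⟨hs, ?_⟩
    rw [Multiset.map_map] at habs
    exact habs

/-- sharpness -/
lemma H2_majorant (y : ℝ) : H 2 two_pos y ≤ target + (target / 2) * (y - (-(2/3)))
    + 9/4 * (y - (-(2/3))) ^ 2 + 0 := by
  have hr : rho 2 = 2/3 := by unfold rho; norm_num
  have htpos : 0 < target := by unfold target; positivity
  have htlt := target_lt
  rw [H_apply, hr]
  split_ifs with hy
  · -- y ≤ 0
    set v := (y - (-(2/3))) / 2 with hv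
    have h1 : Real.exp (y / 2) = Real.exp (-(1/3)) * Real.exp v := by
      rw [← Real.exp_add]; congr 1; rw [hv]; ring
    have h2 : Real.exp v ≤ 1 + v + v ^ 2 := by
      rcases le_total (-1) v with h3 | h3
      · have h4 : |v| ≤ 1 := by
          rw [abs_le]; refine ⟨h3, ?_⟩
          rw [hv]; linarith
        have := Real.abs_exp_sub_one_sub_id_le h4
        rw [abs_le] at this
        linarith [this.2]
      · have h4 : Real.exp v ≤ 1 := by rw [Real.exp_le_one_iff]; linarith
        nlinarith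
    have h3 : (2/3 : ℝ) ^ 2 * Real.exp (y / 2) = target * Real.exp v := by
      rw [h1]; unfold target; ring
    rw [h3]
    have h4 : target * Real.exp v ≤ target * (1 + v + v ^ 2) :=
      mul_le_mul_of_nonneg_left h2 htpos.le
    have h5 : y - (-(2/3)) = 2 * v := by rw [hv]; ring
    rw [h5]
    norm_num at htlt
    nlinarith [sq_nonneg v]
  · push Not at hy
    have h1 : 0 < Real.exp (-y) := Real.exp_pos _
    have h2 : 0 ≤ Real.exp (-y) * ((1 - (2/3 : ℝ) ^ 2) + y * (1 - 2/3)) := by positivity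
    have h3 : (2/3 : ℝ) ≤ y - (-(2/3)) := by linarith
    have h4 : (2/3 : ℝ) ^ 2 ≤ (y - (-(2/3))) ^ 2 := pow_le_pow_left₀ (by norm_num) h3 2
    have h5 : 0 ≤ (target / 2) * (y - (-(2/3))) := by positivity
    linarith

lemma FF_majorant {K : ℝ →ᵇ ℝ} {α β γ y0 δ c : ℝ}
    (h : ∀ y, K y ≤ α + β * (y - y0) + γ * (y - y0) ^ 2 + δ) (n : ℕ) :
    ∀ y, FF K (Multiset.replicate n c) y ≤
      α + β * (y - (y0 - n * c)) + γ * (y - (y0 - n * c)) ^ 2 + (δ + n * (γ * c ^ 2)) := by
  induction n with
  | zero => intro y; simpa [FF_zero] using h y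
  | succ n ih =>
    intro y
    rw [Multiset.replicate_succ, FF_cons]
    have := T_majorant (c := c) ih y
    refine this.trans (le_of_eq ?_)
    push_cast
    ring

lemma upper_seq (n : ℕ) (hn : 0 < n) :
    FF G (2 ::ₘ Multiset.replicate n (-(2 / (n:ℝ)))) (4/3) ≤ target + 9 / n := by
  rw [FF_cons, ← FF_T, T_G two_pos]
  have := FF_majorant (c := -(2 / (n:ℝ))) H2_majorant n (4/3)
  refine this.trans (le_of_eq ?_)
  have hn' : (n:ℝ) ≠ 0 := by positivity
  field_simp
  ring

theorem result :
    (∀ (N : ℕ) (a : Fin N → ℝ), 1 ≤ N → ∑ i, a i = 0 →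
      Real.exp (4 / 3) / (4 / 3) *
          ∫ x in Set.pi Set.univ (fun _ : Fin N => Set.Ioi (0 : ℝ)),
            Crest.AlgGeometry.truncExpWeight (4 / 3 + ∑ i, a i * x i) * Real.exp (-∑ i, x i)
        ≤ 3 / 4 * Real.exp (4 / 3) - Real.exp 1 / 3) ∧
    (∀ ε : ℝ, 0 < ε → ∃ (N : ℕ) (a : Fin N → ℝ), 1 ≤ N ∧ ∑ i, a i = 0 ∧
      3 / 4 * Real.exp (4 / 3) - Real.exp 1 / 3 - ε <
        Real.exp (4 / 3) / (4 / 3) *
          ∫ x in Set.pi Set.univ (fun _ : Fin N => Set.Ioi (0 : ℝ)),
            Crest.AlgGeometry.truncExpWeight (4 / 3 + ∑ i, a i * x i) * Real.exp (-∑ i, x i)) := by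
  have hval : Real.exp (4 / 3) / (4 / 3) * (1 - target) =
      3 / 4 * Real.exp (4 / 3) - Real.exp 1 / 3 := by
    have h1 : Real.exp (4/3) * Real.exp (-(1/3)) = Real.exp 1 := by
      rw [← Real.exp_add]; norm_num
    unfold target
    linear_combination (-(1/3)) * h1
  have hE : 0 < Real.exp (4/3) := Real.exp_pos _
  refine ⟨?_, ?_⟩
  · intro N a _ ha
    rw [stmt_integral, ← hval]
    have := lower_bound N a ha
    refine mul_le_mul_of_nonneg_left ?_ (by positivity)
    linarith
  · intro ε hε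
    obtain ⟨n, hn⟩ := exists_nat_gt (Real.exp (4/3) / (4/3) * 9 / ε)
    have hn0 : 0 < (n:ℝ) := lt_of_le_of_lt (by positivity) hn
    have hn1 : 0 < n := by exact_mod_cast hn0
    obtain ⟨a, ha⟩ := exists_rep (n + 1) (2 ::ₘ Multiset.replicate n (-(2 / (n:ℝ)))) (by simp)
    refine ⟨n + 1, a, by omega, ?_, ?_⟩
    · have : ∑ i, a i = (Finset.univ.val.map a).sum := rfl
      rw [this, ha, Multiset.sum_cons, Multiset.sum_replicate, nsmul_eq_mul]
      field_simp
      ring
    · rw [stmt_integral, ha, ← hval]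
      have h1 := upper_seq n hn1
      have h2 : Real.exp (4/3) / (4/3) * (9 / n) < ε := by
        rw [div_lt_iff₀ hε] at hn
        rw [← mul_div_assoc, div_lt_iff₀ hn0]
        linarith
      have h3 : Real.exp (4/3) / (4/3) * (1 - target) - ε <
          Real.exp (4/3) / (4/3) * (1 - target - 9 / n) := by
        rw [mul_sub (Real.exp (4/3) / (4/3)) (1 - target)]
        linarith
      refine h3.trans_le (mul_le_mul_of_nonneg_left ?_ (by positivity))
      linarith

end Crest.Agent.S0423
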