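import Mathlib

/-!
Helper file for S0423: the exponential law, the operators `T p K (y) = E[K (y + p X)]` on bounded
continuous functions, and their elementary calculus.
-/

set_option autoImplicit false
open MeasureTheory Set Filter Topology
open scoped BoundedContinuousFunction

namespace Crest.Agent.S0423

/-- the mean-one exponential law on ℝ -/
noncomputable def nu : Measure ℝ :=
  (volume.restrict (Ioi (0:ℝ))).withDensity (fun x => (Real.toNNReal (Real.exp (-x)) : ENNReal))

lemma integral_nu (φ : ℝ → ℝ) : ∫ x, φ x ∂nu = ∫ x in Ioi (0:ℝ), φ x * Real.exp (-x) := by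
  unfold nu
  rw [integral_withDensity_eq_integral_smul (by fun_prop)]
  refine integral_congr_ae (ae_of_all _ fun x => ?_)
  simp only [NNReal.smul_def, smul_eq_mul, Real.coe_toNNReal _ (Real.exp_pos _).le]
  ring

instance : IsProbabilityMeasure nu := by
  constructor
  unfold nu
  rw [withDensity_apply _ MeasurableSet.univ]
  simp only [Measure.restrict_univ]
  have h := integral_exp_neg_Ioi_zero
  have hint : IntegrableOn (fun x : ℝ => Real.exp (-x)) (Ioi 0) := integrableOn_exp_neg_Ioi 0
  have := ofReal_integral_eq_lintegral_ofReal hint (ae_of_all _ fun x => (Real.exp_pos _).le)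
  rw [h] at this
  simp only [ENNReal.ofReal_one] at this
  exact this.symm

lemma nu_ae_pos : ∀ᵐ x ∂nu, 0 < x := by
  have h1 : ∀ᵐ x ∂(volume.restrict (Ioi (0:ℝ))), 0 < x := by
    exact ae_restrict_mem measurableSet_Ioi
  exact (withDensity_absolutelyContinuous _ _).ae_le h1

/-- a nonneg. function, positive on a set of positive `ν` measure has positive integral;
here in the form: continuous nonneg function positive somewhere on `(0,∞)`. -/
lemma integral_nu_pos {φ : ℝ → ℝ} (hφ : Continuous φ) (h0 : ∀ x, 0 < x → 0 ≤ φ x)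
    (hint : Integrable φ nu) {x0 : ℝ} (hx0 : 0 < x0) (hpos : 0 < φ x0) : 0 < ∫ x, φ x ∂nu := by
  have hnn : 0 ≤ᵐ[nu] φ := by
    filter_upwards [nu_ae_pos] with x hx using h0 x hx
  rw [integral_pos_iff_support_of_nonneg_ae hnn hint]
  -- open set
  have hopen : IsOpen (Ioi 0 ∩ {x | 0 < φ x}) := isOpen_Ioi.inter (isOpen_lt continuous_const hφ)
  have hne : (Ioi 0 ∩ {x | 0 < φ x}).Nonempty := ⟨x0, hx0, hpos⟩
  have hvol : 0 < volume (Ioi (0:ℝ) ∩ {x | 0 < φ x}) := hopen.measure_pos volume hne
  have hsub : Ioi (0:ℝ) ∩ {x | 0 < φ x} ⊆ Function.support φ := fun x hx => ne_of_gt hx.2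
  refine lt_of_lt_of_le ?_ (measure_mono hsub)
  rw [pos_iff_ne_zero]
  intro hzero
  unfold nu at hzero
  rw [withDensity_apply_eq_zero (by fun_prop)] at hzero
  have : {x : ℝ | ((Real.toNNReal (Real.exp (-x)) : ENNReal)) ≠ 0} ∩ (Ioi 0 ∩ {x | 0 < φ x})
      = Ioi 0 ∩ {x | 0 < φ x} := by
    ext x
    simp only [mem_inter_iff, mem_ofPred_eq, ne_eq, ENNReal.coe_eq_zero, Real.toNNReal_eq_zero,
      not_le, Real.exp_pos, true_and]
  rw [this, Measure.restrict_apply hopen.measurableSet] at hzero
  have h2 : Ioi (0:ℝ) ∩ {x | 0 < φ x} ∩ Ioi 0 = Ioi 0 ∩ {x | 0 < φ x} := by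
    ext x; simp only [mem_inter_iff, mem_Ioi, mem_ofPred_eq]; tauto
  rw [h2] at hzero
  exact absurd hzero hvol.ne'

lemma integrable_bcf (K : ℝ →ᵇ ℝ) (y p : ℝ) : Integrable (fun x => K (y + p * x)) nu := by
  refine Integrable.of_bound (C := ‖K‖) ?_ ?_
  · exact (K.continuous.comp (by fun_prop)).aestronglyMeasurable
  · exact ae_of_all _ fun x => K.norm_coe_le_norm _

/-- the operator `T p K (y) = E[K (y + p X)]`. -/
noncomputable def T (p : ℝ) (K : ℝ →ᵇ ℝ) : ℝ →ᵇ ℝ :=
  BoundedContinuousFunction.ofNormedAddCommGroup (fun y => ∫ x, K (y + p * x) ∂nu)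
    (by
      refine continuous_of_dominated (bound := fun _ => ‖K‖) ?_ ?_ ?_ ?_
      · intro y; exact (K.continuous.comp (by fun_prop)).aestronglyMeasurable
      · intro y; exact ae_of_all _ fun x => K.norm_coe_le_norm _
      · exact integrable_const _
      · exact ae_of_all _ fun x => K.continuous.comp (by fun_prop))
    ‖K‖ (by
      intro y
      calc ‖∫ x, K (y + p * x) ∂nu‖ ≤ ∫ x, ‖K (y + p * x)‖ ∂nu := norm_integral_le_integral_norm _
        _ ≤ ∫ _x, ‖K‖ ∂nu := integral_mono (integrable_bcf K y p).norm (integrable_const _)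
            (fun x => K.norm_coe_le_norm _)
        _ = ‖K‖ := by simp)

lemma T_apply (p : ℝ) (K : ℝ →ᵇ ℝ) (y : ℝ) : T p K y = ∫ x, K (y + p * x) ∂nu := rfl

lemma T_zero (K : ℝ →ᵇ ℝ) : T 0 K = K := by
  ext y; simp [T_apply]

lemma T_comm (p q : ℝ) (K : ℝ →ᵇ ℝ) : T p (T q K) = T q (T p K) := by
  ext y
  simp only [T_apply]
  have hI : Integrable (Function.uncurry fun x z => K (y + p * x + q * z)) (nu.prod nu) := by
    refine Integrable.of_bound (C := ‖K‖) ?_ ?_
    · exact (K.continuous.comp (by fun_prop)).aestronglyMeasurable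
    · exact ae_of_all _ fun x => K.norm_coe_le_norm _
  rw [integral_integral_swap hI]
  refine integral_congr_ae (ae_of_all _ fun z => ?_)
  refine integral_congr_ae (ae_of_all _ fun x => ?_)
  simp only
  congr 1; ring

instance : LeftCommutative T := ⟨fun p q K => T_comm p q K⟩

lemma T_mono {p : ℝ} {K L : ℝ →ᵇ ℝ} (h : ∀ y, K y ≤ L y) (y : ℝ) : T p K y ≤ T p L y :=
  integral_mono (integrable_bcf K y p) (integrable_bcf L y p) (fun x => h _)

/-- `K` is an antiderivative of `D`. -/
def Pair (K D : ℝ →ᵇ ℝ) : Prop := ∀ y, HasDerivAt K (D y) y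

lemma Pair.opT {K D : ℝ →ᵇ ℝ} (h : Pair K D) (p : ℝ) : Pair (T p K) (T p D) := by
  intro y
  have := hasDerivAt_integral_of_dominated_loc_of_deriv_le (μ := nu) (𝕜 := ℝ)
    (F := fun y x => K (y + p * x)) (F' := fun y x => D (y + p * x)) (x₀ := y)
    (bound := fun _ => ‖D‖) (s := univ) univ_mem
    (Eventually.of_forall fun z => (K.continuous.comp (by fun_prop)).aestronglyMeasurable)
    (integrable_bcf K y p)
    ((D.continuous.comp (by fun_prop)).aestronglyMeasurable)
    (ae_of_all _ fun x z _ => D.norm_coe_le_norm _)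
    (integrable_const _)
    (ae_of_all _ fun x z _ => (h (z + p * x)).comp_add_const z (p * x))
  exact this.2

/-- integration by parts: `T p K = K + p T p D`. -/
lemma Pair.T_eq {K D : ℝ →ᵇ ℝ} (h : Pair K D) (p y : ℝ) :
    T p K y = K y + p * T p D y := by
  have hexp : IntegrableOn (fun x : ℝ => Real.exp (-x)) (Ioi 0) := integrableOn_exp_neg_Ioi 0
  have hi1 : IntegrableOn (fun x : ℝ => K (y + p * x) * Real.exp (-x)) (Ioi 0) := by
    refine hexp.bdd_mul (c := ‖K‖) ?_ ?_
    · exact (K.continuous.comp (by fun_prop)).aestronglyMeasurable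
    · exact ae_of_all _ fun x => K.norm_coe_le_norm _
  have hi2 : IntegrableOn (fun x : ℝ => p * D (y + p * x) * Real.exp (-x)) (Ioi 0) := by
    refine hexp.bdd_mul (c := |p| * ‖D‖) ?_ ?_
    · exact (continuous_const.mul (D.continuous.comp (by fun_prop))).aestronglyMeasurable
    · refine ae_of_all _ fun x => ?_
      rw [norm_mul]
      exact mul_le_mul_of_nonneg_left (D.norm_coe_le_norm _) (norm_nonneg _)
  have key : ∫ x in Ioi (0:ℝ), (K (y + p * x) * Real.exp (-x) - p * D (y + p * x) * Real.exp (-x))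
      = 0 - (-(K (y + p * 0) * Real.exp (-0))) := by
    refine integral_Ioi_of_hasDerivAt_of_tendsto (f := fun x => -(K (y + p * x) * Real.exp (-x)))
      ?_ ?_ (hi1.sub hi2) ?_
    · exact (Continuous.continuousWithinAt (by
        have := K.continuous
        fun_prop))
    · intro x _
      have h1 : HasDerivAt (fun x => K (y + p * x)) (D (y + p * x) * p) x := by
        have h2 : HasDerivAt (fun n : ℝ => y + p * n) p x := by
          simpa using ((hasDerivAt_id x).const_mul p).const_add y
        exact (h (y + p * x)).comp x h2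
      have h3 : HasDerivAt (fun x : ℝ => Real.exp (-x)) (-Real.exp (-x)) x := by
        have := (hasDerivAt_neg x).exp
        simpa using this
      have h4 := (h1.mul h3).neg
      refine h4.congr_deriv ?_
      ring
    · have h1 : Tendsto (fun x : ℝ => Real.exp (-x)) atTop (𝓝 0) :=
        Real.tendsto_exp_neg_atTop_nhds_zero
      rw [show (0:ℝ) = -0 by simp]
      refine Tendsto.neg ?_
      refine squeeze_zero_norm (a := fun x => ‖K‖ * Real.exp (-x)) (fun x => ?_) ?_
      · rw [norm_mul, Real.norm_eq_abs (Real.exp (-x)), abs_of_pos (Real.exp_pos _)]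
        exact mul_le_mul_of_nonneg_right (K.norm_coe_le_norm _) (Real.exp_pos _).le
      · simpa using h1.const_mul ‖K‖
  have hK : T p K y = ∫ x in Ioi (0:ℝ), K (y + p * x) * Real.exp (-x) := by
    rw [T_apply, integral_nu]
  have hD : p * T p D y = ∫ x in Ioi (0:ℝ), p * D (y + p * x) * Real.exp (-x) := by
    rw [T_apply, integral_nu, ← integral_const_mul]
    simp only [mul_assoc]
  rw [integral_sub hi1 hi2, ← hK, ← hD] at key
  simp at key
  linarith

/-- if `K` has an antiderivative, then `T p K` is differentiable, with derivative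
`(T p K - K)/p`. -/
lemma Pair.T_hasDerivAt {L K : ℝ →ᵇ ℝ} (h : Pair L K) {p : ℝ} (hp : p ≠ 0) (y : ℝ) :
    HasDerivAt (T p K) ((T p K y - K y) / p) y := by
  have h1 : ∀ z, T p K z = (T p L z - L z) / p := by
    intro z
    rw [h.T_eq p z]
    field_simp
    ring
  have h2 : (T p K : ℝ → ℝ) = fun z => (T p L z - L z) / p := funext h1
  have h3 : HasDerivAt (fun z => (T p L z - L z) / p) ((T p K y - K y) / p) y :=
    ((h.opT p y).sub (h y)).div_const p
  rw [← h2] at h3
  exact h3

/-- `(T p K - K)/p` as a bounded continuous function. -/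
noncomputable def dT (p : ℝ) (K : ℝ →ᵇ ℝ) : ℝ →ᵇ ℝ := (p⁻¹ : ℝ) • (T p K - K)

lemma dT_apply (p : ℝ) (K : ℝ →ᵇ ℝ) (y : ℝ) : dT p K y = (T p K y - K y) / p := by
  simp [dT, div_eq_inv_mul]

lemma Pair.pair_dT {L K : ℝ →ᵇ ℝ} (h : Pair L K) {p : ℝ} (hp : p ≠ 0) :
    Pair (T p K) (dT p K) := by
  intro y
  rw [dT_apply]
  exact h.T_hasDerivAt hp y

lemma T_linear_sub (p : ℝ) (K L : ℝ →ᵇ ℝ) : T p (K - L) = T p K - T p L := by
  ext y
  simp only [T_apply, BoundedContinuousFunction.sub_apply]
  exact integral_sub (integrable_bcf K y p) (integrable_bcf L y p)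

/-- if `H - q h = G` and `h = H'` then `T q G = H`. -/
lemma Pair.T_of_sub {H h : ℝ →ᵇ ℝ} (hp : Pair H h) {G : ℝ →ᵇ ℝ} {q : ℝ}
    (hG : ∀ y, G y = H y - q * h y) : T q G = H := by
  ext y
  have h1 : T q G y = T q H y - q * T q h y := by
    simp only [T_apply]
    rw [← integral_const_mul, ← integral_sub (integrable_bcf H y q)
      ((integrable_bcf h y q).const_mul q)]
    refine integral_congr_ae (ae_of_all _ fun x => ?_)
    simp only [hG]
  rw [h1, hp.T_eq q y]
  ring

/-- mean of `ν` is `1`. -/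
lemma integral_id_nu : ∫ x, x ∂nu = 1 := by
  rw [integral_nu]
  have := Real.integral_rpow_mul_exp_neg_mul_Ioi (a := 2) (r := 1) (by norm_num) (by norm_num)
  norm_num at this
  simpa using this

lemma integrable_id_nu : Integrable (fun x : ℝ => x) nu := by
  by_contra h
  have := integral_undef h
  rw [integral_id_nu] at this
  norm_num at this

/-- second moment of `ν` is `2`. -/
lemma integral_sq_nu : ∫ x, x ^ 2 ∂nu = 2 := by
  rw [integral_nu]
  have := Real.integral_rpow_mul_exp_neg_mul_Ioi (a := 3) (r := 1) (by norm_num) (by norm_num)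
  norm_num at this
  have h3 : Real.Gamma 3 = 2 := by
    have := Real.Gamma_nat_eq_factorial 2
    norm_num at this
    simpa using this
  simpa [h3] using this

lemma integrable_sq_nu : Integrable (fun x : ℝ => x ^ 2) nu := by
  by_contra h
  have := integral_undef h
  rw [integral_sq_nu] at this
  norm_num at this

/-- affine minorants are propagated by negative coefficients. -/
lemma T_minorant {K : ℝ →ᵇ ℝ} {α β t c : ℝ} (hc : c ≤ 0) (h : ∀ y ≤ t, α + β * y ≤ K y) :
    ∀ y ≤ t, α + β * (y + c) ≤ T c K y := by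
  intro y hy
  rw [T_apply]
  have h1 : ∫ x, (α + β * (y + c * x)) ∂nu = α + β * (y + c) := by
    have : (fun x : ℝ => α + β * (y + c * x)) = fun x => (α + β * y) + (β * c) * x := by
      funext x; ring
    rw [this, integral_add (integrable_const _) (integrable_id_nu.const_mul _),
      integral_const_mul, integral_id_nu]
    simp
    ring
  rw [← h1]
  refine integral_mono_ae ?_ (integrable_bcf K y c) ?_
  · have : (fun x : ℝ => α + β * (y + c * x)) = fun x => (α + β * y) + (β * c) * x := by
      funext x; ring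
    rw [this]
    exact (integrable_const _).add (integrable_id_nu.const_mul _)
  · filter_upwards [nu_ae_pos] with x hx
    refine h _ ?_
    nlinarith [mul_nonneg (neg_nonneg.mpr hc) hx.le]

/-- quadratic majorants are propagated. -/
lemma T_majorant {K : ℝ →ᵇ ℝ} {α β γ y0 c δ : ℝ}
    (h : ∀ y, K y ≤ α + β * (y - y0) + γ * (y - y0) ^ 2 + δ) (y : ℝ) :
    T c K y ≤ α + β * (y - (y0 - c)) + γ * (y - (y0 - c)) ^ 2 + (δ + γ * c ^ 2) := by
  rw [T_apply]
  have e : (fun x : ℝ => α + β * (y + c * x - y0) + γ * (y + c * x - y0) ^ 2 + δ)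
      = fun x => (α + β * (y - y0) + γ * (y - y0) ^ 2 + δ)
        + ((β * c + 2 * γ * c * (y - y0)) * x + (γ * c ^ 2) * x ^ 2) := by
    funext x; ring
  have hI : Integrable (fun x : ℝ => α + β * (y + c * x - y0) + γ * (y + c * x - y0) ^ 2 + δ)
      nu := by
    rw [e]
    exact (integrable_const _).add ((integrable_id_nu.const_mul _).add
      (integrable_sq_nu.const_mul _))
  have h1 : ∫ x, (α + β * (y + c * x - y0) + γ * (y + c * x - y0) ^ 2 + δ) ∂nu =
      α + β * (y - (y0 - c)) + γ * (y - (y0 - c)) ^ 2 + (δ + γ * c ^ 2) := by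
    have hq : Integrable (fun x : ℝ => (β * c + 2 * γ * c * (y - y0)) * x + (γ * c ^ 2) * x ^ 2)
        nu := (integrable_id_nu.const_mul _).add (integrable_sq_nu.const_mul _)
    rw [e, integral_add (integrable_const _) hq, integral_add (integrable_id_nu.const_mul _)
      (integrable_sq_nu.const_mul _), integral_const_mul, integral_const_mul, integral_id_nu,
      integral_sq_nu]
    simp
    ring
  rw [← h1]
  exact integral_mono (integrable_bcf K y c) hI (fun x => h _)

end Crest.Agent.S0423
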