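import Crest.Agent.S0423Aux1

/-!
Helper file for S0423: unimodality is preserved by the operators `T p`, and the exact identity for
changing a pair of coefficients with fixed sum.
-/

set_option autoImplicit false
open MeasureTheory Set Filter Topology
open scoped BoundedContinuousFunction

namespace Crest.Agent.S0423

/-- class of strictly positive densities-like functions `w` with derivative `κ`,
tending to zero at `+∞`, whose derivative is positive and then nonpositive. -/
structure Uni (w κ : ℝ →ᵇ ℝ) : Prop where
  pair : Pair w κ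
  pos : ∀ y, 0 < w y
  lim : Tendsto w atTop (𝓝 0)
  sign : ∀ x y, x ≤ y → κ x ≤ 0 → κ y ≤ 0

lemma Pair.unique {K D D' : ℝ →ᵇ ℝ} (h : Pair K D) (h' : Pair K D') : D = D' := by
  ext y; exact (h y).unique (h' y)

lemma T_pos {K : ℝ →ᵇ ℝ} {c : ℝ} {y : ℝ} (h : ∀ x, 0 < x → 0 < K (y + c * x)) : 0 < T c K y := by
  rw [T_apply]
  refine integral_nu_pos (x0 := 1) (K.continuous.comp (by fun_prop)) (fun x hx => (h x hx).le)
    (integrable_bcf K y c) one_pos (h 1 one_pos)

lemma T_nonpos {K : ℝ →ᵇ ℝ} {c : ℝ} {y : ℝ} (h : ∀ x, 0 < x → K (y + c * x) ≤ 0) :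
    T c K y ≤ 0 := by
  rw [T_apply]
  refine integral_nonpos_of_ae ?_
  filter_upwards [nu_ae_pos] with x hx using h x hx

lemma Uni.opT {w κ : ℝ →ᵇ ℝ} (h : Uni w κ) (c : ℝ) : Uni (T c w) (T c κ) := by
  rcases eq_or_ne c 0 with rfl | hc
  · rw [T_zero, T_zero]; exact h
  refine ⟨h.pair.opT c, fun y => T_pos fun x _ => h.pos _, ?_, ?_⟩
  · -- limit
    have h0 : (0:ℝ) = ∫ _x : ℝ, (0:ℝ) ∂nu := by simp
    rw [h0]
    have hT : (T c w : ℝ → ℝ) = fun y => ∫ x, w (y + c * x) ∂nu := rfl
    rw [hT]
    refine tendsto_integral_filter_of_dominated_convergence (fun _ => ‖w‖) ?_ ?_ ?_ ?_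
    · exact Eventually.of_forall fun y => (w.continuous.comp (by fun_prop)).aestronglyMeasurable
    · exact Eventually.of_forall fun y => ae_of_all _ fun x => w.norm_coe_le_norm _
    · exact integrable_const _
    · refine ae_of_all _ fun x => ?_
      exact h.lim.comp (tendsto_atTop_add_const_right _ _ tendsto_id)
  · intro x y hxy hx
    -- `R = T c κ` satisfies `R' = (R - κ)/c`
    have hR : ∀ z, HasDerivAt (T c κ) ((T c κ z - κ z) / c) z := fun z => h.pair.T_hasDerivAt hc z
    rcases lt_or_gt_of_ne hc with hneg | hpos
    · -- c < 0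
      have hκx : κ x ≤ 0 := by
        by_contra hcon
        push Not at hcon
        have : 0 < T c κ x := by
          refine T_pos fun z hz => ?_
          by_contra h2
          push Not at h2
          have := h.sign (x + c * z) x (by nlinarith) h2
          linarith
        linarith
      have hκ : ∀ z ∈ Icc x y, κ z ≤ 0 := fun z hz => h.sign x z hz.1 hκx
      have hanti : AntitoneOn (fun z => T c κ z * Real.exp (-(z / c))) (Icc x y) := by
        refine antitoneOn_of_hasDerivWithinAt_nonpos (f' := fun z => -(κ z) / c * Real.exp (-(z/c)))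
          (convex_Icc x y) ?_ ?_ ?_
        · have := (T c κ).continuous
          fun_prop
        · intro z hz
          have h1 := hR z
          have h2 : HasDerivAt (fun z : ℝ => Real.exp (-(z / c))) (Real.exp (-(z/c)) * (-(1/c))) z := by
            exact (((hasDerivAt_id z).div_const c).neg).exp
          have h3 := h1.mul h2
          refine (h3.congr_deriv ?_).hasDerivWithinAt
          field_simp
          ring
        · intro z hz
          rw [interior_Icc] at hz
          have h1 := hκ z ⟨hz.1.le, hz.2.le⟩
          have h2 : -(κ z) / c ≤ 0 := div_nonpos_of_nonneg_of_nonpos (by linarith) hneg.le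
          exact mul_nonpos_of_nonpos_of_nonneg h2 (Real.exp_pos _).le
      have h1 := hanti ⟨le_refl x, hxy⟩ ⟨hxy, le_refl y⟩ hxy
      simp only at h1
      have h2 : T c κ x * Real.exp (-(x / c)) ≤ 0 :=
        mul_nonpos_of_nonpos_of_nonneg hx (Real.exp_pos _).le
      by_contra h3
      push Not at h3
      have := mul_pos h3 (Real.exp_pos (-(y / c)))
      linarith
    · -- c > 0
      by_cases hκy : κ y ≤ 0
      · refine T_nonpos fun z hz => ?_
        exact h.sign y (y + c * z) (by nlinarith) hκy
      · push Not at hκy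
        have hκ : ∀ z ∈ Icc x y, 0 ≤ κ z := by
          intro z hz
          by_contra h2
          push Not at h2
          have := h.sign z y hz.2 h2.le
          linarith
        have hanti : AntitoneOn (fun z => T c κ z * Real.exp (-(z / c))) (Icc x y) := by
          refine antitoneOn_of_hasDerivWithinAt_nonpos
            (f' := fun z => -(κ z) / c * Real.exp (-(z/c))) (convex_Icc x y) ?_ ?_ ?_
          · have := (T c κ).continuous
            fun_prop
          · intro z hz
            have h1 := hR z
            have h2 : HasDerivAt (fun z : ℝ => Real.exp (-(z / c)))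
                (Real.exp (-(z/c)) * (-(1/c))) z := by
              exact (((hasDerivAt_id z).div_const c).neg).exp
            have h3 := h1.mul h2
            refine (h3.congr_deriv ?_).hasDerivWithinAt
            field_simp
            ring
          · intro z hz
            rw [interior_Icc] at hz
            have h1 := hκ z ⟨hz.1.le, hz.2.le⟩
            have h2 : -(κ z) / c ≤ 0 := div_nonpos_of_nonpos_of_nonneg (by linarith) hpos.le
            exact mul_nonpos_of_nonpos_of_nonneg h2 (Real.exp_pos _).le
        have h1 := hanti ⟨le_refl x, hxy⟩ ⟨hxy, le_refl y⟩ hxy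
        simp only at h1
        have h2 : T c κ x * Real.exp (-(x / c)) ≤ 0 :=
          mul_nonpos_of_nonpos_of_nonneg hx (Real.exp_pos _).le
        by_contra h3
        push Not at h3
        have := mul_pos h3 (Real.exp_pos (-(y / c)))
        linarith

/-- not eventually constant -/
lemma Uni.exists_neg {w κ : ℝ →ᵇ ℝ} (h : Uni w κ) (t : ℝ) : ∃ z, t < z ∧ κ z < 0 := by
  by_contra hcon
  push Not at hcon
  have hmono : MonotoneOn w (Ici t) := by
    refine monotoneOn_of_hasDerivWithinAt_nonneg (f' := κ) (convex_Ici t)
      w.continuous.continuousOn ?_ ?_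
    · intro z hz; exact (h.pair z).hasDerivWithinAt
    · intro z hz
      rw [interior_Ici] at hz
      exact hcon z hz
  have h1 : ∀ z ∈ Ici t, w t ≤ w z := fun z hz => hmono self_mem_Ici hz hz
  have h2 : w t ≤ 0 := by
    refine ge_of_tendsto h.lim ?_
    filter_upwards [eventually_ge_atTop t] with z hz using h1 z hz
  have := h.pos t
  linarith

/-- key contradiction. -/
lemma Uni.contra {w κ : ℝ →ᵇ ℝ} (h : Uni w κ) {t p b : ℝ} (hp : 0 < p) (hb : 0 < b)
    (h1 : 0 ≤ T p κ t) (h2 : T (-b) κ t ≤ 0) : False := by
  have hpos : 0 < κ t := by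
    by_contra hcon
    push Not at hcon
    obtain ⟨z, hz, hzneg⟩ := h.exists_neg t
    have : 0 < T p (-κ) t := by
      rw [T_apply]
      refine integral_nu_pos (x0 := (z - t) / p) ((-κ).continuous.comp (by fun_prop)) ?_
        (integrable_bcf (-κ) t p) (div_pos (by linarith) hp) ?_
      · intro x hx
        simp only [BoundedContinuousFunction.coe_neg, Pi.neg_apply, Left.nonneg_neg_iff]
        exact h.sign t _ (by nlinarith) hcon
      · have : t + p * ((z - t) / p) = z := by field_simp; ring
        rw [this]
        simp only [BoundedContinuousFunction.coe_neg, Pi.neg_apply, Left.neg_pos_iff]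
        exact hzneg
    have h3 : T p (-κ) t = - T p κ t := by
      simp only [T_apply, BoundedContinuousFunction.coe_neg, Pi.neg_apply, integral_neg]
    rw [h3] at this
    linarith
  have : 0 < T (-b) κ t := by
    refine T_pos fun x hx => ?_
    by_contra hcon
    push Not at hcon
    have := h.sign (t + -b * x) t (by nlinarith) hcon
    linarith
  linarith

/-- the exact pair identity. -/
lemma pair_identity {K D : ℝ →ᵇ ℝ} (h : Pair K D) {p q p' q' : ℝ} (hp : p ≠ 0) (hq : q ≠ 0)
    (hp' : p' ≠ 0) (hq' : q' ≠ 0) (hsum : p + q = p' + q') {κ : ℝ →ᵇ ℝ}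
    (hκ : Pair (T q' (T p' (T p (T q D)))) κ) (t : ℝ) :
    T p' (T q' K) t - T p (T q K) t = (p * q - p' * q') * κ t := by
  -- D-level objects
  set L := T q' (T p' (T p (T q D))) with hL
  -- pairs
  have e1 : T p (T p' (T q' K)) t = T p' (T q' K) t + p * T p (T p' (T q' D)) t :=
    ((h.opT q').opT p').T_eq p t
  have e2 : T q (T p (T p' (T q' K))) t = T p (T p' (T q' K)) t
      + q * T q (T p (T p' (T q' D))) t := (((h.opT q').opT p').opT p).T_eq q t
  have e3 : T p' (T p (T q K)) t = T p (T q K) t + p' * T p' (T p (T q D)) t :=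
    ((h.opT q).opT p).T_eq p' t
  have e4 : T q' (T p' (T p (T q K))) t = T p' (T p (T q K)) t
      + q' * T q' (T p' (T p (T q D))) t := (((h.opT q).opT p).opT p').T_eq q' t
  have c1 : T q (T p (T p' (T q' K))) = T q' (T p' (T p (T q K))) := by
    rw [T_comm q p, T_comm q p', T_comm q q', T_comm p p', T_comm p q', T_comm p' q']
  have c2 : T q (T p (T p' (T q' D))) = T q' (T p' (T p (T q D))) := by
    rw [T_comm q p, T_comm q p', T_comm q q', T_comm p p', T_comm p q', T_comm p' q']
  -- derivative of L
  have d1 : κ t = (L t - T p' (T p (T q D)) t) / q' := by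
    have := (((h.opT q).opT p).opT p').T_hasDerivAt hq' t
    exact (hκ t).unique this
  have d2 : κ t = (L t - T p (T p' (T q' D)) t) / q := by
    have := (((h.opT q').opT p').opT p).T_hasDerivAt hq t
    have h2 : T q (T p (T p' (T q' D))) = L := c2
    rw [h2] at this
    exact (hκ t).unique this
  have d1' : T p' (T p (T q D)) t = L t - q' * κ t := by
    rw [d1]; field_simp; ring
  have d2' : T p (T p' (T q' D)) t = L t - q * κ t := by
    rw [d2]; field_simp; ring
  rw [c1, e4, e3, c2, e1, d1', d2'] at e2
  rw [← hL] at e2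
  have : p' = p + q - q' := by linarith
  subst this
  linear_combination (-1) * e2

end Crest.Agent.S0423
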