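import Crest.Agent.S0423Aux2

/-!
Helper file for S0423: the explicit functions and the tangent line inequality.
-/

set_option autoImplicit false
open MeasureTheory Set Filter Topology
open scoped BoundedContinuousFunction

namespace Crest.Agent.S0423

lemma hasDerivAt_ite {u v u' v' : ℝ → ℝ} (hu : ∀ y, HasDerivAt u (u' y) y)
    (hv : ∀ y, HasDerivAt v (v' y) y) (h0 : u 0 = v 0) (h0' : u' 0 = v' 0) (y : ℝ) :
    HasDerivAt (fun y => if y ≤ 0 then u y else v y) (if y ≤ 0 then u' y else v' y) y := by
  rcases lt_trichotomy y 0 with hy | hy | hy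
  · rw [if_pos hy.le]
    refine (hu y).congr_of_eventuallyEq ?_
    filter_upwards [Iio_mem_nhds hy] with z hz
    rw [if_pos (le_of_lt hz)]
  · subst hy
    rw [if_pos le_rfl]
    have h1 : HasDerivWithinAt (fun y => if y ≤ 0 then u y else v y) (u' 0) (Iic 0) 0 := by
      refine (hu 0).hasDerivWithinAt.congr (fun z hz => ?_) ?_
      · rw [if_pos (mem_Iic.mp hz)]
      · rw [if_pos le_rfl]
    have h2 : HasDerivWithinAt (fun y => if y ≤ 0 then u y else v y) (u' 0) (Ici 0) 0 := by
      rw [h0']
      refine (hv 0).hasDerivWithinAt.congr (fun z hz => ?_) ?_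
      · rcases eq_or_lt_of_le (mem_Ici.mp hz) with h | h
        · subst h; rw [if_pos le_rfl, h0]
        · rw [if_neg (not_le.mpr h)]
      · rw [if_pos le_rfl, h0]
    have h3 := h1.union h2
    rw [Iic_union_Ici] at h3
    exact hasDerivWithinAt_univ.mp h3
  · rw [if_neg (not_le.mpr hy)]
    refine (hv y).congr_of_eventuallyEq ?_
    filter_upwards [Ioi_mem_nhds hy] with z hz
    rw [if_neg (not_le.mpr hz)]

lemma y_mul_exp_le (y : ℝ) (_hy : 0 ≤ y) : y * Real.exp (-y) ≤ 1 := by
  have h1 : y ≤ Real.exp y := by linarith [Real.add_one_le_exp y]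
  calc y * Real.exp (-y) ≤ Real.exp y * Real.exp (-y) :=
        mul_le_mul_of_nonneg_right h1 (Real.exp_pos _).le
    _ = 1 := by rw [← Real.exp_add]; simp

/-- the cdf of `Gamma(2,1)`. -/
noncomputable def G : ℝ →ᵇ ℝ :=
  BoundedContinuousFunction.ofNormedAddCommGroup
    (fun y => if y ≤ 0 then 0 else 1 - (1 + y) * Real.exp (-y))
    (by
      refine Continuous.if_le (by fun_prop) (by fun_prop) (by fun_prop) (by fun_prop) ?_
      intro x hx; simp [hx]) 3
    (by
      intro y
      rw [Real.norm_eq_abs, abs_le]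
      by_cases hy : y ≤ 0
      · simp [hy]
      · rw [if_neg hy]
        push Not at hy
        have h1 := y_mul_exp_le y hy.le
        have h2 : Real.exp (-y) ≤ 1 := by rw [Real.exp_le_one_iff]; linarith
        have h3 := Real.exp_pos (-y)
        have h4 : 0 ≤ y * Real.exp (-y) := by positivity
        constructor <;> nlinarith)

lemma G_apply (y : ℝ) : G y = if y ≤ 0 then 0 else 1 - (1 + y) * Real.exp (-y) := rfl

/-- the density of `Gamma(2,1)`. -/
noncomputable def f : ℝ →ᵇ ℝ :=
  BoundedContinuousFunction.ofNormedAddCommGroup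
    (fun y => if y ≤ 0 then 0 else y * Real.exp (-y))
    (by
      refine Continuous.if_le (by fun_prop) (by fun_prop) (by fun_prop) (by fun_prop) ?_
      intro x hx; simp [hx]) 1
    (by
      intro y
      rw [Real.norm_eq_abs, abs_le]
      by_cases hy : y ≤ 0
      · simp [hy]
      · rw [if_neg hy]
        push Not at hy
        have h1 := y_mul_exp_le y hy.le
        have h4 : 0 ≤ y * Real.exp (-y) := by positivity
        constructor <;> linarith)

lemma f_apply (y : ℝ) : f y = if y ≤ 0 then 0 else y * Real.exp (-y) := rfl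

lemma hasDerivAt_exp_neg' (y : ℝ) : HasDerivAt (fun y : ℝ => Real.exp (-y)) (-Real.exp (-y)) y := by
  have := (hasDerivAt_neg y).exp
  simpa using this

lemma pair_G_f : Pair G f := by
  intro y
  have := hasDerivAt_ite (u := fun _ => 0) (u' := fun _ => 0)
    (v := fun y => 1 - (1 + y) * Real.exp (-y)) (v' := fun y => y * Real.exp (-y))
    (fun y => hasDerivAt_const y (0:ℝ)) (fun y => by
      have h1 : HasDerivAt (fun y : ℝ => 1 + y) 1 y := (hasDerivAt_id y).const_add 1
      have h2 := (h1.mul (hasDerivAt_exp_neg' y)).const_sub 1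
      refine h2.congr_deriv ?_
      ring) (by simp) (by simp) y
  exact this

/-- `ρ = q/(1+q)`. -/
noncomputable def rho (q : ℝ) : ℝ := q / (1 + q)

lemma rho_pos {q : ℝ} (hq : 0 < q) : 0 < rho q := by unfold rho; positivity

lemma rho_lt_one {q : ℝ} (hq : 0 < q) : rho q < 1 := by
  unfold rho; rw [div_lt_one (by linarith)]; linarith

lemma q_mul {q : ℝ} (hq : 0 < q) : q * (1 - rho q) = rho q := by
  unfold rho; field_simp; ring

/-- explicit form of `T q G`. -/
noncomputable def H (q : ℝ) (hq : 0 < q) : ℝ →ᵇ ℝ :=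
  BoundedContinuousFunction.ofNormedAddCommGroup
    (fun y => if y ≤ 0 then rho q ^ 2 * Real.exp (y / q)
      else 1 - Real.exp (-y) * ((1 - rho q ^ 2) + y * (1 - rho q)))
    (by
      refine Continuous.if_le (by fun_prop) (by fun_prop) (by fun_prop) (by fun_prop) ?_
      intro x hx; simp [hx]) 3
    (by
      intro y
      have hr0 := rho_pos hq
      have hr1 := rho_lt_one hq
      rw [Real.norm_eq_abs, abs_le]
      by_cases hy : y ≤ 0
      · rw [if_pos hy]
        have h2 : Real.exp (y / q) ≤ 1 := by
          rw [Real.exp_le_one_iff]; exact div_nonpos_of_nonpos_of_nonneg hy hq.le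
        have h3 := Real.exp_pos (y / q)
        have h4 : rho q ^ 2 ≤ 1 := by nlinarith
        have h5 : 0 ≤ rho q ^ 2 * Real.exp (y / q) := by positivity
        constructor <;> nlinarith
      · rw [if_neg hy]
        push Not at hy
        have h1 := y_mul_exp_le y hy.le
        have h2 : Real.exp (-y) ≤ 1 := by rw [Real.exp_le_one_iff]; linarith
        have h3 := Real.exp_pos (-y)
        have h4 : 0 ≤ y * Real.exp (-y) := by positivity
        have h5 : 0 ≤ 1 - rho q ^ 2 := by nlinarith
        have h6 : 1 - rho q ^ 2 ≤ 1 := by nlinarith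
        have h7 : Real.exp (-y) * (1 - rho q ^ 2) ≤ 1 := by nlinarith
        have h8 : (y * Real.exp (-y)) * (1 - rho q) ≤ 1 := by nlinarith
        have h9 : 0 ≤ Real.exp (-y) * (1 - rho q ^ 2) := by positivity
        have h10 : 0 ≤ (y * Real.exp (-y)) * (1 - rho q) := by
          have : 0 ≤ 1 - rho q := by linarith
          positivity
        constructor <;> nlinarith)

lemma H_apply {q : ℝ} (hq : 0 < q) (y : ℝ) : H q hq y = if y ≤ 0 then rho q ^ 2 * Real.exp (y / q)
      else 1 - Real.exp (-y) * ((1 - rho q ^ 2) + y * (1 - rho q)) := rfl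

/-- explicit form of `T q f`. -/
noncomputable def h (q : ℝ) (hq : 0 < q) : ℝ →ᵇ ℝ :=
  BoundedContinuousFunction.ofNormedAddCommGroup
    (fun y => if y ≤ 0 then rho q * (1 - rho q) * Real.exp (y / q)
      else (1 - rho q) * Real.exp (-y) * (rho q + y))
    (by
      refine Continuous.if_le (by fun_prop) (by fun_prop) (by fun_prop) (by fun_prop) ?_
      intro x hx; simp [hx]; ring) 2
    (by
      intro y
      have hr0 := rho_pos hq
      have hr1 := rho_lt_one hq
      have hr2 : 0 < 1 - rho q := by linarith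
      rw [Real.norm_eq_abs, abs_le]
      by_cases hy : y ≤ 0
      · rw [if_pos hy]
        have h2 : Real.exp (y / q) ≤ 1 := by
          rw [Real.exp_le_one_iff]; exact div_nonpos_of_nonpos_of_nonneg hy hq.le
        have h3 := Real.exp_pos (y / q)
        have h4 : rho q * (1 - rho q) ≤ 1 := by nlinarith
        have h5 : 0 ≤ rho q * (1 - rho q) * Real.exp (y / q) := by positivity
        constructor <;> nlinarith [mul_pos hr0 hr2]
      · rw [if_neg hy]
        push Not at hy
        have h1 := y_mul_exp_le y hy.le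
        have h2 : Real.exp (-y) ≤ 1 := by rw [Real.exp_le_one_iff]; linarith
        have h3 := Real.exp_pos (-y)
        have h4 : 0 ≤ y * Real.exp (-y) := by positivity
        have h5 : 0 ≤ (1 - rho q) * Real.exp (-y) * (rho q + y) := by positivity
        have h6 : (1 - rho q) * Real.exp (-y) * rho q ≤ 1 := by
          have : (1 - rho q) * rho q ≤ 1 := by nlinarith
          nlinarith [mul_pos hr2 hr0]
        have h7 : (1 - rho q) * (y * Real.exp (-y)) ≤ 1 := by nlinarith
        constructor <;> nlinarith)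

lemma h_apply {q : ℝ} (hq : 0 < q) (y : ℝ) : h q hq y =
    if y ≤ 0 then rho q * (1 - rho q) * Real.exp (y / q)
      else (1 - rho q) * Real.exp (-y) * (rho q + y) := rfl

/-- derivative of `h`. -/
noncomputable def k (q : ℝ) (hq : 0 < q) : ℝ →ᵇ ℝ :=
  BoundedContinuousFunction.ofNormedAddCommGroup
    (fun y => if y ≤ 0 then (1 - rho q) ^ 2 * Real.exp (y / q)
      else (1 - rho q) * Real.exp (-y) * (1 - rho q - y))
    (by
      refine Continuous.if_le (by fun_prop) (by fun_prop) (by fun_prop) (by fun_prop) ?_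
      intro x hx; simp [hx]; ring) 2
    (by
      intro y
      have hr0 := rho_pos hq
      have hr1 := rho_lt_one hq
      have hr2 : 0 < 1 - rho q := by linarith
      rw [Real.norm_eq_abs, abs_le]
      by_cases hy : y ≤ 0
      · rw [if_pos hy]
        have h2 : Real.exp (y / q) ≤ 1 := by
          rw [Real.exp_le_one_iff]; exact div_nonpos_of_nonpos_of_nonneg hy hq.le
        have h3 := Real.exp_pos (y / q)
        have h4 : (1 - rho q) ^ 2 ≤ 1 := by nlinarith
        have h5 : 0 ≤ (1 - rho q) ^ 2 * Real.exp (y / q) := by positivity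
        constructor <;> nlinarith
      · rw [if_neg hy]
        push Not at hy
        have h1 := y_mul_exp_le y hy.le
        have h2 : Real.exp (-y) ≤ 1 := by rw [Real.exp_le_one_iff]; linarith
        have h3 := Real.exp_pos (-y)
        have h4 : 0 ≤ y * Real.exp (-y) := by positivity
        have h6 : (1 - rho q) * Real.exp (-y) * (1 - rho q) ≤ 1 := by
          have : (1 - rho q) ^ 2 ≤ 1 := by nlinarith
          nlinarith
        have h6' : 0 ≤ (1 - rho q) * Real.exp (-y) * (1 - rho q) := by positivity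
        have h7 : (1 - rho q) * (y * Real.exp (-y)) ≤ 1 := by nlinarith
        have h8 : 0 ≤ (1 - rho q) * (y * Real.exp (-y)) := by positivity
        constructor <;> nlinarith)

lemma k_apply {q : ℝ} (hq : 0 < q) (y : ℝ) : k q hq y =
    if y ≤ 0 then (1 - rho q) ^ 2 * Real.exp (y / q)
      else (1 - rho q) * Real.exp (-y) * (1 - rho q - y) := rfl

lemma hasDerivAt_exp_div (q : ℝ) (y : ℝ) :
    HasDerivAt (fun y : ℝ => Real.exp (y / q)) (Real.exp (y / q) * (1 / q)) y := by
  have := ((hasDerivAt_id y).div_const q).exp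
  simpa using this

lemma pair_H_h {q : ℝ} (hq : 0 < q) : Pair (H q hq) (h q hq) := by
  intro y
  have hr := q_mul hq
  have := hasDerivAt_ite (u := fun y => rho q ^ 2 * Real.exp (y / q))
    (u' := fun y => rho q * (1 - rho q) * Real.exp (y / q))
    (v := fun y => 1 - Real.exp (-y) * ((1 - rho q ^ 2) + y * (1 - rho q)))
    (v' := fun y => (1 - rho q) * Real.exp (-y) * (rho q + y))
    (fun y => by
      have h1 := (hasDerivAt_exp_div q y).const_mul (rho q ^ 2)
      refine h1.congr_deriv ?_
      have : rho q ^ 2 * (1 / q) = rho q * (1 - rho q) := by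
        nth_rewrite 1 [pow_two, ← hr]
        field_simp
      linear_combination Real.exp (y / q) * this)
    (fun y => by
      have h1 : HasDerivAt (fun y : ℝ => (1 - rho q ^ 2) + y * (1 - rho q)) (1 - rho q) y := by
        have := ((hasDerivAt_id y).mul_const (1 - rho q)).const_add (1 - rho q ^ 2)
        simpa using this
      have h2 := ((hasDerivAt_exp_neg' y).mul h1).const_sub 1
      refine h2.congr_deriv ?_
      ring) (by simp) (by simp; ring) y
  exact this

lemma pair_h_k {q : ℝ} (hq : 0 < q) : Pair (h q hq) (k q hq) := by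
  intro y
  have hr := q_mul hq
  have := hasDerivAt_ite (u := fun y => rho q * (1 - rho q) * Real.exp (y / q))
    (u' := fun y => (1 - rho q) ^ 2 * Real.exp (y / q))
    (v := fun y => (1 - rho q) * Real.exp (-y) * (rho q + y))
    (v' := fun y => (1 - rho q) * Real.exp (-y) * (1 - rho q - y))
    (fun y => by
      have h1 := (hasDerivAt_exp_div q y).const_mul (rho q * (1 - rho q))
      refine h1.congr_deriv ?_
      have : rho q * (1 - rho q) * (1 / q) = (1 - rho q) ^ 2 := by
        nth_rewrite 1 [← hr]
        field_simp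
      linear_combination Real.exp (y / q) * this)
    (fun y => by
      have h1 : HasDerivAt (fun y : ℝ => rho q + y) 1 y := (hasDerivAt_id y).const_add _
      have h2 := ((hasDerivAt_exp_neg' y).const_mul (1 - rho q)).mul h1
      refine h2.congr_deriv ?_
      ring) (by simp; ring) (by simp; ring) y
  exact this

lemma T_G {q : ℝ} (hq : 0 < q) : T q G = H q hq := by
  refine (pair_H_h hq).T_of_sub fun y => ?_
  have hr := q_mul hq
  rw [G_apply, H_apply, h_apply]
  by_cases hy : y ≤ 0
  · simp only [if_pos hy]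
    linear_combination rho q * Real.exp (y / q) * hr
  · simp only [if_neg hy]
    linear_combination Real.exp (-y) * (rho q + y) * hr

lemma T_f {q : ℝ} (hq : 0 < q) : T q f = h q hq := by
  refine (pair_h_k hq).T_of_sub fun y => ?_
  have hr := q_mul hq
  rw [f_apply, h_apply, k_apply]
  by_cases hy : y ≤ 0
  · simp only [if_pos hy]
    linear_combination (1 - rho q) * Real.exp (y / q) * hr
  · simp only [if_neg hy]
    linear_combination Real.exp (-y) * (1 - rho q - y) * hr

lemma uni_h {q : ℝ} (hq : 0 < q) : Uni (h q hq) (k q hq) := by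
  have hr0 := rho_pos hq
  have hr1 := rho_lt_one hq
  have hr2 : 0 < 1 - rho q := by linarith
  refine ⟨pair_h_k hq, fun y => ?_, ?_, ?_⟩
  · rw [h_apply]
    split_ifs with hy
    · positivity
    · push Not at hy; positivity
  · have h1 : Tendsto (fun y : ℝ => Real.exp (-y)) atTop (𝓝 0) :=
      Real.tendsto_exp_neg_atTop_nhds_zero
    have h2 : Tendsto (fun y : ℝ => y * Real.exp (-y)) atTop (𝓝 0) := by
      have := Real.tendsto_pow_mul_exp_neg_atTop_nhds_zero 1
      simpa using this
    have h3 : Tendsto (fun y : ℝ => (1 - rho q) * rho q * Real.exp (-y)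
        + (1 - rho q) * (y * Real.exp (-y))) atTop (𝓝 0) := by
      have := (h1.const_mul ((1 - rho q) * rho q)).add (h2.const_mul (1 - rho q))
      simpa using this
    refine h3.congr' ?_
    filter_upwards [eventually_gt_atTop (0:ℝ)] with y hy
    rw [h_apply, if_neg (not_le.mpr hy)]
    ring
  · intro x y hxy hx
    rw [k_apply] at hx ⊢
    split_ifs at hx with h1
    · have : 0 < (1 - rho q) ^ 2 * Real.exp (x / q) := by positivity
      linarith
    · push Not at h1
      rw [if_neg (by linarith)]
      have h3 : 1 - rho q - x ≤ 0 := by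
        by_contra hcon
        push Not at hcon
        have : 0 < (1 - rho q) * Real.exp (-x) * (1 - rho q - x) := by positivity
        linarith
      have h4 : 1 - rho q - y ≤ 0 := by linarith
      exact mul_nonpos_of_nonneg_of_nonpos (by positivity) h4

/-- monotonicity from the sign of the derivative -/
lemma Pair.mono_of_nonneg {K D : ℝ →ᵇ ℝ} (hp : Pair K D) {x y : ℝ} (hxy : x ≤ y)
    (hD : ∀ z, x ≤ z → z ≤ y → 0 ≤ D z) : K x ≤ K y := by
  have hmono : MonotoneOn K (Icc x y) := by
    refine monotoneOn_of_hasDerivWithinAt_nonneg (f' := D) (convex_Icc x y)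
      K.continuous.continuousOn ?_ ?_
    · intro z hz; exact (hp z).hasDerivWithinAt
    · intro z hz
      rw [interior_Icc] at hz
      exact hD z hz.1.le hz.2.le
  exact hmono ⟨le_rfl, hxy⟩ ⟨hxy, le_rfl⟩ hxy

lemma Pair.anti_of_nonpos {K D : ℝ →ᵇ ℝ} (hp : Pair K D) {x y : ℝ} (hxy : x ≤ y)
    (hD : ∀ z, x ≤ z → z ≤ y → D z ≤ 0) : K y ≤ K x := by
  have hmono : AntitoneOn K (Icc x y) := by
    refine antitoneOn_of_hasDerivWithinAt_nonpos (f' := D) (convex_Icc x y)
      K.continuous.continuousOn ?_ ?_
    · intro z hz; exact (hp z).hasDerivWithinAt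
    · intro z hz
      rw [interior_Icc] at hz
      exact hD z hz.1.le hz.2.le
  exact hmono ⟨le_rfl, hxy⟩ ⟨hxy, le_rfl⟩ hxy

/-- the function `H y - H y1 - h y1 (y - y1)` has derivative `h y - h y1`. -/
lemma delta_mono {K D : ℝ →ᵇ ℝ} (hp : Pair K D) (y1 : ℝ) {x y : ℝ} (hxy : x ≤ y)
    (hD : ∀ z, x ≤ z → z ≤ y → D y1 ≤ D z) : K x - D y1 * x ≤ K y - D y1 * y := by
  have hmono : MonotoneOn (fun z => K z - D y1 * z) (Icc x y) := by
    refine monotoneOn_of_hasDerivWithinAt_nonneg (f' := fun z => D z - D y1) (convex_Icc x y)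
      ?_ ?_ ?_
    · have := K.continuous
      fun_prop
    · intro z hz
      have h1 := (hp z).sub ((hasDerivAt_id z).const_mul (D y1))
      refine (h1.congr_deriv (by simp)).hasDerivWithinAt
    · intro z hz
      rw [interior_Icc] at hz
      have := hD z hz.1.le hz.2.le
      linarith
  exact hmono ⟨le_rfl, hxy⟩ ⟨hxy, le_rfl⟩ hxy

lemma delta_anti {K D : ℝ →ᵇ ℝ} (hp : Pair K D) (y1 : ℝ) {x y : ℝ} (hxy : x ≤ y)
    (hD : ∀ z, x ≤ z → z ≤ y → D z ≤ D y1) : K y - D y1 * y ≤ K x - D y1 * x := by
  have hmono : AntitoneOn (fun z => K z - D y1 * z) (Icc x y) := by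
    refine antitoneOn_of_hasDerivWithinAt_nonpos (f' := fun z => D z - D y1) (convex_Icc x y)
      ?_ ?_ ?_
    · have := K.continuous
      fun_prop
    · intro z hz
      have h1 := (hp z).sub ((hasDerivAt_id z).const_mul (D y1))
      refine (h1.congr_deriv (by simp)).hasDerivWithinAt
    · intro z hz
      rw [interior_Icc] at hz
      have := hD z hz.1.le hz.2.le
      linarith
  exact hmono ⟨le_rfl, hxy⟩ ⟨hxy, le_rfl⟩ hxy

lemma k_nonneg {q : ℝ} (hq : 0 < q) {z : ℝ} (hz : z ≤ 1 - rho q) : 0 ≤ k q hq z := by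
  have hr0 := rho_pos hq
  have hr1 := rho_lt_one hq
  have hr2 : 0 < 1 - rho q := by linarith
  rw [k_apply]
  split_ifs with h1
  · positivity
  · have : 0 ≤ 1 - rho q - z := by linarith
    positivity

lemma k_nonpos {q : ℝ} (hq : 0 < q) {z : ℝ} (hz : 1 - rho q ≤ z) : k q hq z ≤ 0 := by
  have hr0 := rho_pos hq
  have hr1 := rho_lt_one hq
  have hr2 : 0 < 1 - rho q := by linarith
  rw [k_apply, if_neg (by linarith)]
  exact mul_nonpos_of_nonneg_of_nonpos (by positivity) (by linarith)

/-- tangent line inequality for the sigmoid function `H`. -/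
lemma tangent {q : ℝ} (hq : 0 < q) {t y1 : ℝ} (hy1 : y1 ≤ 1 - rho q)
    (ht : H q hq y1 + h q hq y1 * (t - y1) ≤ H q hq t) (y : ℝ) (hy : y ≤ t) :
    H q hq y1 + h q hq y1 * (y - y1) ≤ H q hq y := by
  have hp := pair_H_h hq
  have hp2 := pair_h_k hq
  have hmono : ∀ x z, x ≤ z → z ≤ 1 - rho q → h q hq x ≤ h q hq z := by
    intro x z hxz hz
    exact hp2.mono_of_nonneg hxz fun w _ hw => k_nonneg hq (hw.trans hz)
  have hanti : ∀ x z, x ≤ z → 1 - rho q ≤ x → h q hq z ≤ h q hq x := by
    intro x z hxz hz
    exact hp2.anti_of_nonpos hxz fun w hw _ => k_nonpos hq (hz.trans hw)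
  -- region up to the inflection point
  have hA : ∀ z, z ≤ 1 - rho q → H q hq y1 + h q hq y1 * (z - y1) ≤ H q hq z := by
    intro z hz
    rcases le_total z y1 with h1 | h1
    · have := delta_anti hp y1 h1 (fun w _ hw => hmono w y1 hw hy1)
      linarith
    · have := delta_mono hp y1 h1 (fun w hw hw2 => hmono y1 w hw (hw2.trans hz))
      linarith
  rcases le_total y (1 - rho q) with h1 | h1
  · exact hA y h1
  · have hm := hA (1 - rho q) le_rfl
    rcases le_total (h q hq y1) (h q hq y) with h2 | h2
    · have := delta_mono hp y1 h1 (fun w hw hw2 => h2.trans (hanti w y hw2 hw))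
      linarith
    · have := delta_anti hp y1 hy (fun w hw _ => (hanti y w hw h1).trans h2)
      linarith

end Crest.Agent.S0423
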