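import Crest.Agent.S0423Aux3

/-!
Helper file for S0423: numerical estimates and the affine minorant of `H q`.
-/

set_option autoImplicit false
open MeasureTheory Set Filter Topology
open scoped BoundedContinuousFunction

namespace Crest.Agent.S0423

lemma exp_neg_one_lt : Real.exp (-1) < 0.36789 := by
  rw [Real.exp_neg, inv_lt_comm₀ (Real.exp_pos _) (by norm_num)]
  have := Real.exp_one_gt_d9
  norm_num at this ⊢
  linarith

lemma lt_exp_neg_one : 0.367879 < Real.exp (-1) := by
  rw [Real.exp_neg, lt_inv_comm₀ (by norm_num) (Real.exp_pos _)]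
  have := Real.exp_one_lt_d9
  norm_num at this ⊢
  linarith

lemma exp_neg_one_lt' : Real.exp (-1) < 0.3678795 := by
  rw [Real.exp_neg, inv_lt_comm₀ (Real.exp_pos _) (by norm_num)]
  have := Real.exp_one_gt_d9
  norm_num at this ⊢
  linarith

lemma exp_E_lt : Real.exp (-(4/3)) < 0.2636 := by
  have h : Real.exp (-(4/3)) ^ 3 = Real.exp (-1) ^ 4 := by
    rw [← Real.exp_nat_mul, ← Real.exp_nat_mul]; norm_num
  have h2 : Real.exp (-1) ^ 4 < 0.2636 ^ 3 := by
    have h3 : Real.exp (-1) ^ 4 < 0.3678795 ^ 4 :=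
      pow_lt_pow_left₀ exp_neg_one_lt' (Real.exp_pos _).le (by norm_num)
    refine h3.trans ?_
    norm_num
  rw [← h] at h2
  exact lt_of_pow_lt_pow_left₀ 3 (by norm_num) h2

lemma exp_third_lt : Real.exp (-(1/3)) < 0.7166 := by
  have h : Real.exp (-(1/3)) ^ 3 = Real.exp (-1) := by
    rw [← Real.exp_nat_mul]; norm_num
  have h2 : Real.exp (-1) < 0.7166 ^ 3 := exp_neg_one_lt'.trans (by norm_num)
  rw [← h] at h2
  exact lt_of_pow_lt_pow_left₀ 3 (by norm_num) h2

lemma lt_exp_quarter : 0.7788 < Real.exp (-(1/4)) := by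
  have h : Real.exp (-(1/4)) ^ 4 = Real.exp (-1) := by
    rw [← Real.exp_nat_mul]; norm_num
  have h2 : 0.7788 ^ 4 < Real.exp (-1) := lt_trans (by norm_num) lt_exp_neg_one
  rw [← h] at h2
  exact lt_of_pow_lt_pow_left₀ 4 (Real.exp_pos _).le h2

lemma exp_quarter_lt : Real.exp (-(1/4)) < 0.7789 := by
  have h : Real.exp (-(1/4)) ^ 4 = Real.exp (-1) := by
    rw [← Real.exp_nat_mul]; norm_num
  have h2 : Real.exp (-1) < 0.7789 ^ 4 := exp_neg_one_lt'.trans (by norm_num)
  rw [← h] at h2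
  exact lt_of_pow_lt_pow_left₀ 4 (by norm_num) h2

lemma lt_exp_half : 0.6065 < Real.exp (-(1/2)) := by
  have h : Real.exp (-(1/2)) ^ 2 = Real.exp (-1) := by
    rw [← Real.exp_nat_mul]; norm_num
  have h2 : 0.6065 ^ 2 < Real.exp (-1) := lt_trans (by norm_num) lt_exp_neg_one
  rw [← h] at h2
  exact lt_of_pow_lt_pow_left₀ 2 (Real.exp_pos _).le h2

lemma exp_half_lt : Real.exp (-(1/2)) < 0.6066 := by
  have h : Real.exp (-(1/2)) ^ 2 = Real.exp (-1) := by
    rw [← Real.exp_nat_mul]; norm_num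
  have h2 : Real.exp (-1) < 0.6066 ^ 2 := exp_neg_one_lt'.trans (by norm_num)
  rw [← h] at h2
  exact lt_of_pow_lt_pow_left₀ 2 (by norm_num) h2

/-- the sharp value. -/
noncomputable def target : ℝ := 4 / 9 * Real.exp (-(1/3))

lemma target_lt : target < 0.3185 := by
  unfold target
  have := exp_third_lt
  norm_num at this ⊢
  linarith

/-- the final form of the minorant statement -/
def HasMinorant (q : ℝ) (hq : 0 < q) : Prop :=
  ∃ β : ℝ, ∀ y ≤ 4 / 3, (target - β * (4 / 3 - q)) + β * y ≤ H q hq y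

lemma minorant_of_tangent {q : ℝ} (hq : 0 < q) {y1 : ℝ} (hy1 : y1 ≤ 1 - rho q)
    (ht : H q hq y1 + h q hq y1 * (4 / 3 - y1) ≤ H q hq (4 / 3))
    (hv : target ≤ H q hq y1 + h q hq y1 * (4 / 3 - q - y1)) : HasMinorant q hq := by
  refine ⟨h q hq y1, fun y hy => ?_⟩
  have := tangent hq hy1 ht y hy
  linarith

lemma H_t {q : ℝ} (hq : 0 < q) : H q hq (4/3) = 1 - Real.exp (-(4/3)) *
    ((1 - rho q ^ 2) + 4/3 * (1 - rho q)) := by
  rw [H_apply, if_neg (by norm_num)]

/-- case A: `ρ ≥ 4/7`. -/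
lemma caseA {q : ℝ} (hq : 0 < q) (hr : 4 / 7 ≤ rho q) : HasMinorant q hq := by
  have hr0 := rho_pos hq
  have hr1 := rho_lt_one hq
  have hqm := q_mul hq
  set r := rho q with hrdef
  have hq43 : 4 / 3 ≤ q := by
    have : 4/7 * (1 - r) ≤ r * (1 - r) := mul_le_mul_of_nonneg_right hr (by linarith)
    by_contra hcon
    push Not at hcon
    have : q * (1 - r) < 4/3 * (1 - r) := mul_lt_mul_of_pos_right hcon (by linarith)
    nlinarith
  have hy0 : 4/3 - q ≤ 0 := by linarith
  have hdiv : (4/3 - q) / q = 4 / (3 * r) - 7/3 := by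
    rw [← hqm]
    have h1r : (1 - r) ≠ 0 := by linarith
    have hq0 : q ≠ 0 := hq.ne'
    have : 4 / (3 * (q * (1 - r))) = 4 / 3 / q + 4/3 := by
      have hr' : r = q * (1 - r) := hqm.symm
      have h2 : 1 / (1 - r) = 1 + q := by
        rw [div_eq_iff h1r]
        linear_combination (-1) * hqm
      have h3 : 4 / (3 * (q * (1 - r))) = 4 / (3 * q) * (1 / (1 - r)) := by
        field_simp
      rw [h3, h2]
      field_simp
    rw [this, sub_div, div_self hq0]
    ring
  have hHy : H q hq (4/3 - q) = r ^ 2 * Real.exp (4 / (3 * r) - 7/3) := by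
    rw [H_apply, if_pos hy0, hdiv]
  have hhy : h q hq (4/3 - q) * q = H q hq (4/3 - q) := by
    rw [h_apply, if_pos hy0, H_apply, if_pos hy0, ← hrdef]
    linear_combination r * Real.exp ((4/3 - q) / q) * hqm
  -- set z
  have hz : 0 < 2 / (3 * r) := by positivity
  refine minorant_of_tangent hq (y1 := 4/3 - q) (by linarith) ?_ ?_
  · -- L(t) = 2 H(y1) ≤ H(t)
    have e1 : H q hq (4/3 - q) + h q hq (4/3 - q) * (4/3 - (4/3 - q)) = 2 * H q hq (4/3 - q) := by
      have : (4/3 - (4/3 - q)) = q := by ring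
      rw [this, hhy]; ring
    rw [e1, hHy, H_t, ← hrdef]
    have hE := exp_E_lt
    have hEpos := Real.exp_pos (-(4/3))
    rcases le_total (2/3) r with h23 | h23
    · -- r ≥ 2/3 : r² e^{..} ≤ e^{-1}
      have key : r ^ 2 * Real.exp (4 / (3 * r) - 7/3) ≤ Real.exp (-1) := by
        -- v = 1/r - 1 ∈ (0, 1/2]
        set v := 1 / r - 1 with hv
        have hv0 : 0 ≤ v := by
          rw [hv, sub_nonneg, le_div_iff₀ hr0]; linarith
        have hv1 : v ≤ 1/2 := by
          rw [hv, sub_le_iff_le_add, div_le_iff₀ hr0]; linarith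
        have h4 : 4 / (3 * r) - 7/3 = -1 + 4/3 * v := by
          rw [hv]; field_simp; ring
        have h5 : Real.exp (2/3 * v) ≤ 1 + v := by
          have h6 : 0 < 1 - 2/3 * v := by linarith
          have h7 : Real.exp (2/3 * v) ≤ 1 / (1 - 2/3 * v) := by
            have h8 : 1 - 2/3 * v ≤ Real.exp (-(2/3 * v)) := by
              have := Real.add_one_le_exp (-(2/3 * v)); linarith
            rw [Real.exp_neg] at h8
            rw [le_div_iff₀ h6]
            have h9 := Real.exp_pos (2/3 * v)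
            calc Real.exp (2/3 * v) * (1 - 2/3 * v)
                ≤ Real.exp (2/3 * v) * (Real.exp (2/3 * v))⁻¹ :=
                  mul_le_mul_of_nonneg_left h8 h9.le
              _ = 1 := mul_inv_cancel₀ h9.ne'
          refine h7.trans ?_
          rw [div_le_iff₀ h6]
          nlinarith
        have h10 : Real.exp (4/3 * v) ≤ (1 + v) ^ 2 := by
          have : Real.exp (4/3 * v) = Real.exp (2/3 * v) ^ 2 := by
            rw [← Real.exp_nat_mul]; congr 1; push_cast; ring
          rw [this]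
          exact pow_le_pow_left₀ (Real.exp_pos _).le h5 2
        have h11 : r * (1 + v) = 1 := by rw [hv]; field_simp; ring
        rw [h4, Real.exp_add]
        calc r ^ 2 * (Real.exp (-1) * Real.exp (4/3 * v))
            ≤ r ^ 2 * (Real.exp (-1) * (1 + v) ^ 2) := by
              have := Real.exp_pos (-1)
              gcongr
          _ = (r * (1 + v)) ^ 2 * Real.exp (-1) := by ring
          _ = Real.exp (-1) := by rw [h11]; ring
      have h1 := exp_neg_one_lt'
      have h2 : (1 - r ^ 2) + 4/3 * (1 - r) ≤ 1 := by nlinarith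
      have h3 : 0 ≤ (1 - r ^ 2) + 4/3 * (1 - r) := by nlinarith
      have h4 : Real.exp (-(4/3)) * ((1 - r ^ 2) + 4/3 * (1 - r)) ≤ 0.2636 := by
        nlinarith
      norm_num at h1 h4 ⊢
      linarith
    · -- 4/7 ≤ r ≤ 2/3
      have key : r ^ 2 * Real.exp (4 / (3 * r) - 7/3) ≤ 16/49 := by
        set s := 7/4 - 1 / r with hs
        have hs0 : 0 ≤ s := by
          rw [hs, sub_nonneg, div_le_iff₀ hr0]; linarith
        have hs1 : s ≤ 1/4 := by
          have : 3/2 ≤ 1 / r := by rw [le_div_iff₀ hr0]; linarith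
          rw [hs]; linarith
        have h4 : 4 / (3 * r) - 7/3 = -(4/3 * s) := by
          rw [hs]; field_simp; ring
        have h5 : Real.exp (-(2/3 * s)) ≤ 1 - 4/7 * s := by
          -- e^{-x} ≤ 1/(1+x+x²/2)
          have hx0 : 0 ≤ 2/3 * s := by linarith
          have h8 := Real.quadratic_le_exp_of_nonneg hx0
          have h9 := Real.exp_pos (2/3 * s)
          rw [Real.exp_neg, inv_le_comm₀ h9 (by linarith)]
          refine le_trans ?_ h8
          rw [inv_le_iff_one_le_mul₀ (by linarith)]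
          nlinarith [mul_nonneg hs0 hs0, mul_nonneg hs0 (sub_nonneg.mpr hs1)]
        have h10 : Real.exp (-(4/3 * s)) ≤ (1 - 4/7 * s) ^ 2 := by
          have : Real.exp (-(4/3 * s)) = Real.exp (-(2/3 * s)) ^ 2 := by
            rw [← Real.exp_nat_mul]; congr 1; push_cast; ring
          rw [this]
          exact pow_le_pow_left₀ (Real.exp_pos _).le h5 2
        have h11 : r * (1 - 4/7 * s) = 4/7 := by rw [hs]; field_simp; ring
        rw [h4]
        calc r ^ 2 * Real.exp (-(4/3 * s)) ≤ r ^ 2 * (1 - 4/7 * s) ^ 2 := by gcongr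
          _ = (r * (1 - 4/7 * s)) ^ 2 := by ring
          _ = 16/49 := by rw [h11]; norm_num
      have h2 : (1 - r ^ 2) + 4/3 * (1 - r) ≤ 61/49 := by nlinarith
      have h3 : 0 ≤ (1 - r ^ 2) + 4/3 * (1 - r) := by nlinarith
      have h4 : Real.exp (-(4/3)) * ((1 - r ^ 2) + 4/3 * (1 - r)) ≤ 0.2636 * (61/49) := by
        exact mul_le_mul hE.le h2 h3 (by norm_num)
      norm_num at h4 ⊢
      linarith
  · -- value
    have : (4/3 - q - (4/3 - q)) = 0 := by ring
    rw [this, mul_zero, add_zero, hHy]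
    unfold target
    set z := 2 / (3 * r) with hzdef
    have h4 : 4 / (3 * r) - 7/3 = 2 * (z - 1) + (-(1/3)) := by
      rw [hzdef]; field_simp; ring
    have h5 : z ≤ Real.exp (z - 1) := by
      have := Real.add_one_le_exp (z - 1); linarith
    have h6 : z ^ 2 ≤ Real.exp (2 * (z - 1)) := by
      have : Real.exp (2 * (z - 1)) = Real.exp (z - 1) ^ 2 := by
        rw [← Real.exp_nat_mul]; congr 1
      rw [this]
      exact pow_le_pow_left₀ hz.le h5 2
    have h7 : r ^ 2 * z ^ 2 = 4/9 := by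
      rw [hzdef]; field_simp; ring
    rw [h4, Real.exp_add]
    calc 4 / 9 * Real.exp (-(1/3)) = r ^ 2 * (z ^ 2 * Real.exp (-(1/3))) := by
          rw [← mul_assoc, h7]
      _ ≤ r ^ 2 * (Real.exp (2 * (z - 1)) * Real.exp (-(1/3))) := by
          have := Real.exp_pos (-(1/3))
          gcongr

/-- case B : `2/5 ≤ ρ ≤ 4/7`, tangent at `0`. -/
lemma caseB {q : ℝ} (hq : 0 < q) (hr : 2 / 5 ≤ rho q) (hr' : rho q ≤ 4 / 7) :
    HasMinorant q hq := by
  have hr0 := rho_pos hq
  have hr1 := rho_lt_one hq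
  have hqm := q_mul hq
  have hE := exp_E_lt
  have hEpos := Real.exp_pos (-(4/3))
  have hT := target_lt
  refine minorant_of_tangent hq (y1 := 0) (by linarith) ?_ ?_
  · rw [H_t, H_apply, h_apply, if_pos le_rfl, if_pos le_rfl]
    simp only [zero_div, Real.exp_zero, mul_one]
    set r := rho q
    have h3 : 0 ≤ (1 - r ^ 2) + 4/3 * (1 - r) := by nlinarith
    have h4 : Real.exp (-(4/3)) * ((1 - r ^ 2) + 4/3 * (1 - r)) ≤
        0.2636 * ((1 - r ^ 2) + 4/3 * (1 - r)) := mul_le_mul_of_nonneg_right hE.le h3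
    norm_num at h4 ⊢
    nlinarith
  · rw [H_apply, h_apply, if_pos le_rfl, if_pos le_rfl]
    simp only [zero_div, Real.exp_zero, mul_one]
    set r := rho q
    have h5 : r ^ 2 + r * (1 - r) * (4/3 - q - 0) = 4/3 * (r * (1 - r)) := by
      linear_combination (-r) * hqm
    rw [h5]
    norm_num at hT ⊢
    nlinarith

/-- case C : `1/4 ≤ ρ ≤ 2/5`, tangent at `1/4`. -/
lemma caseC {q : ℝ} (hq : 0 < q) (hr : 1 / 4 ≤ rho q) (hr' : rho q ≤ 2 / 5) :
    HasMinorant q hq := by
  have hr0 := rho_pos hq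
  have hr1 := rho_lt_one hq
  have hqm := q_mul hq
  have hE := exp_E_lt
  have hEpos := Real.exp_pos (-(4/3))
  have hT := target_lt
  have hc1 := lt_exp_quarter
  have hc2 := exp_quarter_lt
  refine minorant_of_tangent hq (y1 := 1/4) (by linarith) ?_ ?_
  · rw [H_t, H_apply, h_apply, if_neg (by norm_num), if_neg (by norm_num)]
    set r := rho q
    set c := Real.exp (-(1/4)) with hc
    set E := Real.exp (-(4/3)) with hEd
    have h1 : E * (7/3 + r) ≤ c * (47/48 - r/12) := by
      have a1 : E * (7/3 + r) ≤ 0.2636 * (7/3 + r) :=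
        mul_le_mul_of_nonneg_right hE.le (by linarith)
      have a2 : 0.7788 * (47/48 - r/12) ≤ c * (47/48 - r/12) :=
        mul_le_mul_of_nonneg_right hc1.le (by linarith)
      norm_num at a1 a2 ⊢
      linarith
    have h2 := mul_le_mul_of_nonneg_left h1 (show 0 ≤ 1 - r by linarith)
    nlinarith
  · rw [H_apply, h_apply, if_neg (by norm_num), if_neg (by norm_num)]
    set r := rho q
    set c := Real.exp (-(1/4)) with hc
    have h5 : 1 - c * (1 - r ^ 2 + 1 / 4 * (1 - r)) + (1 - r) * c * (r + 1 / 4) * (4 / 3 - q - 1 / 4)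
        = 1 - c * (47/48 - 13/16 * r + 13/12 * r ^ 2) := by
      linear_combination (-c * (r + 1/4)) * hqm
    rw [h5]
    have h6 : 0 ≤ 47/48 - 13/16 * r + 13/12 * r ^ 2 := by nlinarith
    have h7 : 47/48 - 13/16 * r + 13/12 * r ^ 2 ≤ 0.85 := by norm_num; nlinarith
    have h8 : c * (47/48 - 13/16 * r + 13/12 * r ^ 2) ≤ 0.7789 * 0.85 :=
      mul_le_mul hc2.le h7 h6 (by norm_num)
    norm_num at hT h8 ⊢
    linarith

/-- case D : `ρ ≤ 1/4`, tangent at `1/2`. -/
lemma caseD {q : ℝ} (hq : 0 < q) (hr' : rho q ≤ 1 / 4) :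
    HasMinorant q hq := by
  have hr0 := rho_pos hq
  have hr1 := rho_lt_one hq
  have hqm := q_mul hq
  have hE := exp_E_lt
  have hEpos := Real.exp_pos (-(4/3))
  have hT := target_lt
  have hc1 := lt_exp_half
  have hc2 := exp_half_lt
  refine minorant_of_tangent hq (y1 := 1/2) (by linarith) ?_ ?_
  · rw [H_t, H_apply, h_apply, if_neg (by norm_num), if_neg (by norm_num)]
    set r := rho q
    set c := Real.exp (-(1/2)) with hc
    set E := Real.exp (-(4/3)) with hEd
    have h1 : E * (7/3 + r) ≤ c * (13/12 + r/6) := by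
      have a1 : E * (7/3 + r) ≤ 0.2636 * (7/3 + r) :=
        mul_le_mul_of_nonneg_right hE.le (by linarith)
      have a2 : 0.6065 * (13/12 + r/6) ≤ c * (13/12 + r/6) :=
        mul_le_mul_of_nonneg_right hc1.le (by linarith)
      norm_num at a1 a2 ⊢
      linarith
    have h2 := mul_le_mul_of_nonneg_left h1 (show 0 ≤ 1 - r by linarith)
    nlinarith
  · rw [H_apply, h_apply, if_neg (by norm_num), if_neg (by norm_num)]
    set r := rho q
    set c := Real.exp (-(1/2)) with hc
    have h5 : 1 - c * (1 - r ^ 2 + 1 / 2 * (1 - r)) + (1 - r) * c * (r + 1 / 2) * (4 / 3 - q - 1 / 2)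
        = 1 - c * (13/12 - 5/12 * r + 5/6 * r ^ 2) := by
      linear_combination (-c * (r + 1/2)) * hqm
    rw [h5]
    have h6 : 0 ≤ 13/12 - 5/12 * r + 5/6 * r ^ 2 := by nlinarith
    have h7 : 13/12 - 5/12 * r + 5/6 * r ^ 2 ≤ 1.09 := by norm_num; nlinarith
    have h8 : c * (13/12 - 5/12 * r + 5/6 * r ^ 2) ≤ 0.6066 * 1.09 :=
      mul_le_mul hc2.le h7 h6 (by norm_num)
    norm_num at hT h8 ⊢
    linarith

lemma hasMinorant {q : ℝ} (hq : 0 < q) : HasMinorant q hq := by
  rcases le_total (4/7) (rho q) with h1 | h1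
  · exact caseA hq h1
  rcases le_total (2/5) (rho q) with h2 | h2
  · exact caseB hq h2 h1
  rcases le_total (1/4) (rho q) with h3 | h3
  · exact caseC hq h3 h2
  · exact caseD hq h3

end Crest.Agent.S0423
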