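import Mathlib

/-!
Switch chain (S0453): common definitions.
-/

set_option autoImplicit false

namespace Crest.Agent.SC

open Finset

/-- States: `Bool`-valued functions on unordered pairs (the diagonal slots are inert). -/
abbrev Gr (V : Type) := Sym2 V → Bool

section
variable {V : Type} [DecidableEq V]

/-- Columns `a`, `b` are oppositely mixed for the rows `u`, `w`. -/
def Alt (u w a b : V) (G : Gr V) : Prop :=
  G s(u, a) ≠ G s(w, a) ∧ G s(u, b) ≠ G s(w, b) ∧ G s(u, a) ≠ G s(u, b)

instance (u w a b : V) (G : Gr V) : Decidable (Alt u w a b G) := by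
  unfold Alt; infer_instance

/-- The switch on rows `u,w` and columns `a,b` (identity if not alternating). -/
def sw (u w a b : V) (G : Gr V) : Gr V :=
  if Alt u w a b G then
    fun e => if e = s(u, a) ∨ e = s(w, a) ∨ e = s(u, b) ∨ e = s(w, b) then !G e else G e
  else G

/-- Four pairwise distinct vertices. -/
def D4 (u w a b : V) : Prop := u ≠ w ∧ u ≠ a ∧ u ≠ b ∧ w ≠ a ∧ w ≠ b ∧ a ≠ b

instance (u w a b : V) : Decidable (D4 u w a b) := by unfold D4; infer_instance

end

section
variable {V : Type} [Fintype V] [DecidableEq V]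

/-- Energy of the rows `u,w`: sum over all columns `a,b` of `∑_G (f G - f (sw u w a b G))^2`. -/
noncomputable def En2 (u w : V) (f : Gr V → ℝ) : ℝ :=
  ∑ a, ∑ b, if D4 u w a b then ∑ G, (f G - f (sw u w a b G)) ^ 2 else 0

/-- Total energy: every unordered pair of states joined by a switch is counted 16 times. -/
noncomputable def En (f : Gr V → ℝ) : ℝ := ∑ u, ∑ w, En2 u w f

/-- Averaging over the classes of a relation. -/
noncomputable def avg {α : Type*} [Fintype α] (r : α → α → Prop) [DecidableRel r]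
    (f : α → ℝ) (x : α) : ℝ :=
  (∑ y ∈ univ.filter (fun y => r x y), f y) / ((univ.filter (fun y => r x y)).card : ℝ)

/-- `G'` is obtained from `G` by a trade between the rows `u` and `w`. -/
def Tr (u w : V) (G G' : Gr V) : Prop :=
  (∀ e : Sym2 V, (∀ z, z ≠ u → z ≠ w → e ≠ s(u, z) ∧ e ≠ s(w, z)) → G e = G' e) ∧
  (∀ z, z ≠ u → z ≠ w →
    (G s(u, z)).toNat + (G s(w, z)).toNat = (G' s(u, z)).toNat + (G' s(w, z)).toNat) ∧
  ∑ z ∈ univ.filter (fun z => z ≠ u ∧ z ≠ w), (G s(u, z)).toNat =
    ∑ z ∈ univ.filter (fun z => z ≠ u ∧ z ≠ w), (G' s(u, z)).toNat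

instance (u w : V) : DecidableRel (Tr u w) := fun G G' => by
  unfold Tr; infer_instance

end

section
variable {C : Type} [Fintype C] [DecidableEq C]

/-- Three-row column systems: a trade between the rows `i` and `j`. -/
def TrY (i j : Fin 3) (y y' : C → Fin 3 → Bool) : Prop :=
  (∀ c k, k ≠ i → k ≠ j → y c k = y' c k) ∧
  (∀ c, (y c i).toNat + (y c j).toNat = (y' c i).toNat + (y' c j).toNat) ∧
  ∑ c, (y c i).toNat = ∑ c, (y' c i).toNat

instance (i j : Fin 3) : DecidableRel (TrY (C := C) i j) := fun y y' => by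
  unfold TrY; infer_instance

end

end Crest.Agent.SC
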