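import Crest.Agent.S0453Conn
import Crest.Agent.SCDefs
set_option autoImplicit false
open Finset
open Crest Crest.LogicCS
open Crest.SwitchChain

namespace Crest.Agent.S0453

open Crest.Agent.SC

variable {n : ℕ}

/-- encoding of an edge set as a `Bool`-valued function on unordered pairs. -/
def enc (E : Finset (Edge n)) : Gr (Fin n) :=
  fun e => if h : ¬ e.IsDiag then decide ((⟨e, h⟩ : Edge n) ∈ E) else false

/-- decoding. -/
def dec (G : Gr (Fin n)) : Finset (Edge n) := univ.filter fun e => G e.1 = true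

lemma dec_enc (E : Finset (Edge n)) : dec (enc E) = E := by
  ext e
  unfold dec
  rw [mem_filter]
  unfold enc
  rw [dif_pos e.2]
  simp

lemma enc_mk (E : Finset (Edge n)) {a b : Fin n} (h : a ≠ b) :
    enc E s(a, b) = decide (mkE a b h ∈ E) := by
  unfold enc
  rw [dif_pos (by simpa using h)]
  rfl

lemma enc_inj {E E' : Finset (Edge n)} (h : enc E = enc E') : E = E' := by
  rw [← dec_enc E, h, dec_enc]

/-- the two matchings of the alternating 4-cycle `u a w b`. -/
def m1 (u w a b : Fin n) (h : D4 u w a b) : Finset (Edge n) :=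
  {mkE u a h.2.1, mkE w b h.2.2.2.2.1}

def m2 (u w a b : Fin n) (h : D4 u w a b) : Finset (Edge n) :=
  {mkE w a h.2.2.2.1, mkE u b h.2.2.1}

lemma m1_mem {u w a b : Fin n} (h : D4 u w a b) : m1 u w a b h ∈ pmSet {u, w, a, b} := by
  obtain ⟨huw, hua, hub, hwa, hwb, hab⟩ := h
  have := pm_mem hua huw hub hwa.symm hab hwb
  have h2 : ({u, a, w, b} : Finset (Fin n)) = {u, w, a, b} := by
    ext x; simp only [mem_insert, mem_singleton]; tauto
  rw [h2] at this
  exact this

lemma m2_mem {u w a b : Fin n} (h : D4 u w a b) : m2 u w a b h ∈ pmSet {u, w, a, b} := by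
  obtain ⟨huw, hua, hub, hwa, hwb, hab⟩ := h
  have := pm_mem hwa huw.symm hwb hua.symm hab hub
  have h2 : ({w, a, u, b} : Finset (Fin n)) = {u, w, a, b} := by
    ext x; simp only [mem_insert, mem_singleton]; tauto
  rw [h2] at this
  exact this

lemma m1_ne_m2 {u w a b : Fin n} (h : D4 u w a b) : m1 u w a b h ≠ m2 u w a b h := by
  obtain ⟨huw, hua, hub, hwa, hwb, hab⟩ := h
  intro h
  have : mkE u a hua ∈ m2 u w a b ⟨huw, hua, hub, hwa, hwb, hab⟩ := by
    rw [← h]; simp [m1]
  simp only [m2, mem_insert, mem_singleton, mkE_inj] at this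
  grind

/-- every ordered pair of distinct matchings is `(m1, m2)` for some 4 distinct vertices. -/
lemma exists_D4 {S : Finset (Fin n)} (hS : S.card = 4) {F F' : Finset (Edge n)}
    (hF : F ∈ pmSet S) (hF' : F' ∈ pmSet S) (hne : F ≠ F') :
    ∃ (u w a b : Fin n) (h : D4 u w a b), F = m1 u w a b h ∧ F' = m2 u w a b h := by
  obtain ⟨a, b, c, d, hab, hac, had, hbc, hbd, hcd, rfl⟩ := card_eq_four.mp hS
  rcases pm_char hab hac had hbc hbd hcd hF with rfl | rfl | rfl <;>
  rcases pm_char hab hac had hbc hbd hcd hF' with rfl | rfl | rfl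
  · exact absurd rfl hne
  · -- F = {ab, cd}, F' = {ac, bd}
    refine ⟨a, d, b, c, ⟨had, hab, hac, hbd.symm, hcd.symm, hbc⟩, ?_, ?_⟩
    · simp only [m1]; rw [mkE_comm hcd]
    · simp only [m2]; rw [mkE_comm hbd, pair_comm]
  · -- F = {ab, cd}, F' = {ad, bc}
    refine ⟨a, c, b, d, ⟨hac, hab, had, hbc.symm, hcd, hbd⟩, ?_, ?_⟩
    · simp only [m1]
    · simp only [m2]; rw [mkE_comm hbc, pair_comm]
  · -- F = {ac, bd}, F' = {ab, cd}
    refine ⟨a, d, c, b, ⟨had, hac, hab, hcd.symm, hbd.symm, hbc.symm⟩, ?_, ?_⟩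
    · simp only [m1]; rw [mkE_comm hbd]
    · simp only [m2]; rw [mkE_comm hcd, pair_comm]
  · exact absurd rfl hne
  · -- F = {ac, bd}, F' = {ad, bc}
    refine ⟨a, b, c, d, ⟨hab, hac, had, hbc, hbd, hcd⟩, ?_, ?_⟩
    · simp only [m1]
    · simp only [m2]; rw [pair_comm]
  · -- F = {ad, bc}, F' = {ab, cd}
    refine ⟨a, c, d, b, ⟨hac, had, hab, hcd, hbc.symm, hbd.symm⟩, ?_, ?_⟩
    · simp only [m1]; rw [mkE_comm hbc]
    · simp only [m2]; rw [pair_comm]
  · -- F = {ad, bc}, F' = {ac, bd}
    refine ⟨a, b, d, c, ⟨hab, had, hac, hbd, hbc, hcd.symm⟩, ?_, ?_⟩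
    · simp only [m1]
    · simp only [m2]; rw [pair_comm]
  · exact absurd rfl hne

/-- alternation in terms of edge sets. -/
lemma alt_enc {u w a b : Fin n} (h : D4 u w a b) (E : Finset (Edge n)) :
    Alt u w a b (enc E) ↔
      (m1 u w a b h ⊆ E ∧ Disjoint (m2 u w a b h) E) ∨
      (m2 u w a b h ⊆ E ∧ Disjoint (m1 u w a b h) E) := by
  obtain ⟨huw, hua, hub, hwa, hwb, hab⟩ := h
  unfold Alt
  rw [enc_mk E hua, enc_mk E hwa, enc_mk E hub, enc_mk E hwb]
  simp only [m1, m2, Finset.disjoint_left, Finset.insert_subset_iff, Finset.singleton_subset_iff,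
    mem_insert, mem_singleton, forall_eq_or_imp, forall_eq]
  by_cases h1 : mkE u a hua ∈ E <;> by_cases h2 : mkE w a hwa ∈ E <;>
    by_cases h3 : mkE u b hub ∈ E <;> by_cases h4 : mkE w b hwb ∈ E <;> simp [h1, h2, h3, h4]

lemma mem_edge4 {u w a b : Fin n} (h : D4 u w a b) (e : Edge n) :
    (e.1 = s(u, a) ∨ e.1 = s(w, a) ∨ e.1 = s(u, b) ∨ e.1 = s(w, b)) ↔
      (e ∈ m1 u w a b h ∨ e ∈ m2 u w a b h) := by
  have e1 : ∀ (x y : Fin n) (hxy : x ≠ y), e.1 = s(x, y) ↔ e = mkE x y hxy := by
    intro x y hxy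
    rw [Subtype.ext_iff]; rfl
  rw [e1 u a h.2.1, e1 w a h.2.2.2.1, e1 u b h.2.2.1, e1 w b h.2.2.2.2.1]
  simp only [m1, m2, mem_insert, mem_singleton]
  tauto

/-- the switch on encodings. -/
lemma sw_enc {u w a b : Fin n} (h : D4 u w a b) (E : Finset (Edge n)) :
    (sw u w a b (enc E) = enc (switchResult E (m1 u w a b h) (m2 u w a b h)) ∧
      switchResult E (m2 u w a b h) (m1 u w a b h) = E) ∨
    (sw u w a b (enc E) = enc (switchResult E (m2 u w a b h) (m1 u w a b h)) ∧
      switchResult E (m1 u w a b h) (m2 u w a b h) = E) := by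
  have hne : (m1 u w a b h).Nonempty := by simp [m1]
  have hne2 : (m2 u w a b h).Nonempty := by simp [m2]
  have gen : ∀ A B : Finset (Edge n), A ⊆ E → Disjoint B E →
      (∀ e : Edge n, (e.1 = s(u, a) ∨ e.1 = s(w, a) ∨ e.1 = s(u, b) ∨ e.1 = s(w, b)) ↔
      (e ∈ A ∨ e ∈ B)) → Alt u w a b (enc E) →
      sw u w a b (enc E) = enc (E \ A ∪ B) := by
    intro A B hA hB hAB halt
    unfold sw
    rw [if_pos halt]
    funext e
    by_cases hd : e.IsDiag
    · have e0 : ∀ X : Finset (Edge n), enc X e = false := by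
        intro X; unfold enc; rw [dif_neg (by simpa using hd)]
      rw [e0]
      have : ¬ (e = s(u, a) ∨ e = s(w, a) ∨ e = s(u, b) ∨ e = s(w, b)) := by
        rintro (rfl | rfl | rfl | rfl)
        · exact h.2.1 (by simpa using hd)
        · exact h.2.2.2.1 (by simpa using hd)
        · exact h.2.2.1 (by simpa using hd)
        · exact h.2.2.2.2.1 (by simpa using hd)
      rw [if_neg this, e0]
    · have e0 : ∀ X : Finset (Edge n), enc X e = decide ((⟨e, hd⟩ : Edge n) ∈ X) := by
        intro X; unfold enc; rw [dif_pos hd]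
      rw [e0, e0]
      have h1 := hAB ⟨e, hd⟩
      simp only at h1
      have hA' := @hA ⟨e, hd⟩
      have hB' : (⟨e, hd⟩ : Edge n) ∈ B → (⟨e, hd⟩ : Edge n) ∉ E :=
        fun hx => Finset.disjoint_left.mp hB hx
      by_cases h2 : e = s(u, a) ∨ e = s(w, a) ∨ e = s(u, b) ∨ e = s(w, b)
      · rw [if_pos h2]
        rcases h1.mp h2 with h3 | h3
        · have h4 := hA' h3
          have h5 : (⟨e, hd⟩ : Edge n) ∉ B := fun h => hB' h h4
          simp [h3, h4, h5]
        · have h4 := hB' h3
          simp [h3, h4]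
      · rw [if_neg h2]
        have h3 := mt h1.mpr h2
        simp only [not_or] at h3
        simp [h3.1, h3.2]
  by_cases halt : Alt u w a b (enc E)
  · rcases (alt_enc h E).mp halt with h1 | h1
    · left
      constructor
      · rw [gen _ _ h1.1 h1.2 (mem_edge4 h) halt]
        unfold switchResult
        rw [if_pos h1]
      · unfold switchResult
        rw [if_neg]
        rintro ⟨h2, -⟩
        obtain ⟨e, he⟩ := hne2
        exact Finset.disjoint_left.mp h1.2 he (h2 he)
    · right
      constructor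
      · rw [gen _ _ h1.1 h1.2 (fun e => by rw [mem_edge4 h]; tauto) halt]
        unfold switchResult
        rw [if_pos h1]
      · unfold switchResult
        rw [if_neg]
        rintro ⟨h2, -⟩
        obtain ⟨e, he⟩ := hne
        exact Finset.disjoint_left.mp h1.2 he (h2 he)
  · left
    have h2 := mt (alt_enc h E).mpr halt
    simp only [not_or] at h2
    constructor
    · unfold sw switchResult
      rw [if_neg halt, if_neg h2.1]
    · unfold switchResult
      rw [if_neg h2.2]


lemma sw_invol {V : Type} [DecidableEq V] {u w a b : V} (_h : D4 u w a b) (G : Gr V) :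
    sw u w a b (sw u w a b G) = G := by
  by_cases halt : Alt u w a b G
  · have h1 : sw u w a b G = fun e => if e = s(u, a) ∨ e = s(w, a) ∨ e = s(u, b) ∨ e = s(w, b)
        then !G e else G e := by
      unfold sw; rw [if_pos halt]
    have h2 : Alt u w a b (sw u w a b G) := by
      rw [h1]
      unfold Alt at halt ⊢
      obtain ⟨p, q, r⟩ := halt
      simp only [true_or, or_true, if_true]
      refine ⟨?_, ?_, ?_⟩
      · simpa using p
      · simpa using q
      · simpa using r
    rw [show sw u w a b (sw u w a b G) = fun e => if e = s(u, a) ∨ e = s(w, a) ∨ e = s(u, b) ∨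
        e = s(w, b) then !(sw u w a b G) e else (sw u w a b G) e by
          conv_lhs => unfold sw
          rw [if_pos (by unfold sw at h2; exact h2)]
          rfl]
    funext e
    rw [h1]
    by_cases he : e = s(u, a) ∨ e = s(w, a) ∨ e = s(u, b) ∨ e = s(w, b)
    · simp [he]
    · simp [he]
  · have h1 : sw u w a b G = G := by unfold sw; rw [if_neg halt]
    rw [h1, h1]

/-- encodings of realizations. -/
def encR (d : Fin n → ℕ) : Finset (Gr (Fin n)) := (realizations d).image enc

lemma sw_mem {d : Fin n → ℕ} {u w a b : Fin n} (h : D4 u w a b) {G : Gr (Fin n)}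
    (hG : G ∈ encR d) : sw u w a b G ∈ encR d := by
  unfold encR at *
  rw [mem_image] at *
  obtain ⟨E, hE, rfl⟩ := hG
  rcases sw_enc h E with h1 | h1
  · exact ⟨_, switch_mem hE (m1_mem h) (m2_mem h), h1.1.symm⟩
  · exact ⟨_, switch_mem hE (m2_mem h) (m1_mem h), h1.1.symm⟩

/-- extension of a function on realizations by zero. -/
noncomputable def ext (d : Fin n → ℕ) (f : Finset (Edge n) → ℝ) : Gr (Fin n) → ℝ :=
  fun G => if G ∈ encR d then f (dec G) else 0

lemma ext_enc {d : Fin n → ℕ} (f : Finset (Edge n) → ℝ) {E : Finset (Edge n)}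
    (hE : E ∈ realizations d) : ext d f (enc E) = f E := by
  have h1 : enc E ∈ encR d := mem_image_of_mem _ hE
  unfold ext
  rw [if_pos h1, dec_enc]

lemma ext_sum (d : Fin n → ℕ) (k : Gr (Fin n) → ℝ) (hk : ∀ G ∉ encR d, k G = 0) :
    ∑ G, k G = ∑ E ∈ realizations d, k (enc E) := by
  rw [← sum_subset (subset_univ (encR d)) (fun G _ hG => hk G hG)]
  unfold encR
  rw [sum_image]
  intro x _ y _ hxy
  exact enc_inj hxy

/-- sum over proposals on a fixed 4-set. -/
noncomputable def hS (f : Finset (Edge n) → ℝ) (E : Finset (Edge n)) (S : Finset (Fin n)) : ℝ :=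
  ∑ F ∈ pmSet S, ∑ F' ∈ (pmSet S).erase F, (f E - f (switchResult E F F')) ^ 2

lemma hS_nonneg (f : Finset (Edge n) → ℝ) (E : Finset (Edge n)) (S : Finset (Fin n)) :
    0 ≤ hS f E S := sum_nonneg fun _ _ => sum_nonneg fun _ _ => sq_nonneg _

lemma term_le (d : Fin n → ℕ) (f : Finset (Edge n) → ℝ) {E : Finset (Edge n)}
    (hE : E ∈ realizations d) {u w a b : Fin n} (h : D4 u w a b) :
    (ext d f (enc E) - ext d f (sw u w a b (enc E))) ^ 2 ≤ hS f E {u, w, a, b} := by
  have hle : ∀ A B : Finset (Edge n), A ∈ pmSet {u, w, a, b} → B ∈ pmSet {u, w, a, b} → B ≠ A →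
      (f E - f (switchResult E A B)) ^ 2 ≤ hS f E {u, w, a, b} := by
    intro A B hA hB hne
    unfold hS
    calc (f E - f (switchResult E A B)) ^ 2 ≤
        ∑ F' ∈ (pmSet {u, w, a, b}).erase A, (f E - f (switchResult E A F')) ^ 2 :=
          single_le_sum (f := fun F' => (f E - f (switchResult E A F')) ^ 2)
            (fun _ _ => sq_nonneg _) (mem_erase.mpr ⟨hne, hB⟩)
      _ ≤ _ := single_le_sum (f := fun F => ∑ F' ∈ (pmSet {u, w, a, b}).erase F,
            (f E - f (switchResult E F F')) ^ 2)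
            (fun _ _ => sum_nonneg fun _ _ => sq_nonneg _) hA
  rcases sw_enc h E with h1 | h1
  · rw [h1.1, ext_enc f hE, ext_enc f (switch_mem hE (m1_mem h) (m2_mem h))]
    exact hle _ _ (m1_mem h) (m2_mem h) (m1_ne_m2 h).symm
  · rw [h1.1, ext_enc f hE, ext_enc f (switch_mem hE (m2_mem h) (m1_mem h))]
    exact hle _ _ (m2_mem h) (m1_mem h) (m1_ne_m2 h)

/-- counting tuples. -/
lemma tuple_sum (H : Finset (Fin n) → ℝ) (hH : ∀ S, 0 ≤ H S) :
    ∑ u : Fin n, ∑ w : Fin n, ∑ a : Fin n, ∑ b : Fin n,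
      (if D4 u w a b then H {u, w, a, b} else 0) ≤
    64 * ∑ S ∈ (univ : Finset (Fin n)).powersetCard 4, H S := by
  classical
  let g : Fin n × Fin n × Fin n × Fin n → Finset (Fin n) := fun t => {t.1, t.2.1, t.2.2.1, t.2.2.2}
  let T : Finset (Fin n × Fin n × Fin n × Fin n) :=
    univ.filter fun t => D4 t.1 t.2.1 t.2.2.1 t.2.2.2
  have h1 : ∑ u : Fin n, ∑ w : Fin n, ∑ a : Fin n, ∑ b : Fin n,
      (if D4 u w a b then H {u, w, a, b} else 0) = ∑ t ∈ T, H (g t) := by
    simp only [T, g, sum_filter]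
    rw [Fintype.sum_prod_type]
    refine sum_congr rfl fun u _ => ?_
    rw [Fintype.sum_prod_type]
    refine sum_congr rfl fun w _ => ?_
    rw [Fintype.sum_prod_type]
  have hmaps : ∀ t ∈ T, g t ∈ (univ : Finset (Fin n)).powersetCard 4 := by
    intro t ht
    obtain ⟨huw, hua, hub, hwa, hwb, hab⟩ := (mem_filter.mp ht).2
    rw [mem_powersetCard]
    refine ⟨subset_univ _, ?_⟩
    rw [card_eq_four]
    exact ⟨_, _, _, _, huw, hua, hub, hwa, hwb, hab, rfl⟩
  rw [h1, ← sum_fiberwise_of_maps_to hmaps, mul_sum]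
  refine sum_le_sum fun S hS => ?_
  have h2 : ∑ t ∈ T.filter (fun t => g t = S), H (g t) =
      ((T.filter (fun t => g t = S)).card : ℝ) * H S := by
    rw [← nsmul_eq_mul, ← sum_const]
    refine sum_congr rfl fun t ht => ?_
    rw [(mem_filter.mp ht).2]
  rw [h2]
  refine mul_le_mul_of_nonneg_right ?_ (hH S)
  have h3 : (T.filter (fun t => g t = S)).card ≤ (S ×ˢ S ×ˢ S).card := by
    refine card_le_card_of_injOn (fun t => (t.1, t.2.1, t.2.2.1)) ?_ ?_
    · intro t ht
      rw [Finset.mem_coe, mem_filter] at ht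
      have h4 := ht.2
      simp only [g] at h4
      rw [Finset.mem_coe, mem_product, mem_product]
      rw [← h4]
      simp
    · intro t ht t' ht' heq
      rw [Finset.mem_coe, mem_filter] at ht ht'
      obtain ⟨u, w, a, b⟩ := t
      obtain ⟨u', w', a', b'⟩ := t'
      simp only [Prod.mk.injEq] at heq
      obtain ⟨rfl, rfl, rfl⟩ := heq
      have hD := (mem_filter.mp ht.1).2
      have hD' := (mem_filter.mp ht'.1).2
      have h5 : ({u, w, a, b} : Finset (Fin n)) = {u, w, a, b'} := ht.2.trans ht'.2.symm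
      have h6 : b ∈ ({u, w, a, b'} : Finset (Fin n)) := by rw [← h5]; simp
      simp only [mem_insert, mem_singleton] at h6
      obtain ⟨huw, hua, hub, hwa, hwb, hab⟩ := hD
      rcases h6 with h6 | h6 | h6 | h6
      · exact absurd h6.symm hub
      · exact absurd h6.symm hwb
      · exact absurd h6.symm hab
      · rw [h6]
  rw [card_product, card_product, (mem_powersetCard.mp hS).2] at h3
  exact_mod_cast h3

lemma En_le (d : Fin n → ℕ) (f : Finset (Edge n) → ℝ) :
    En (ext d f) ≤ 128 * dirForm d f := by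
  unfold En En2
  have h1 : ∀ u w a b : Fin n, (if D4 u w a b then
      ∑ G, (ext d f G - ext d f (sw u w a b G)) ^ 2 else 0) ≤
      if D4 u w a b then ∑ E ∈ realizations d, hS f E {u, w, a, b} else 0 := by
    intro u w a b
    split_ifs with h
    · rw [ext_sum d (fun G => (ext d f G - ext d f (sw u w a b G)) ^ 2)]
      · exact sum_le_sum fun E hE => term_le d f hE h
      · intro G hG
        have h2 : sw u w a b G ∉ encR d := by
          intro h3
          apply hG
          rw [← sw_invol h G]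
          exact sw_mem h h3
        unfold ext
        rw [if_neg hG, if_neg h2]
        ring
    · exact le_rfl
  calc _ ≤ ∑ u : Fin n, ∑ w : Fin n, ∑ a : Fin n, ∑ b : Fin n,
      (if D4 u w a b then ∑ E ∈ realizations d, hS f E {u, w, a, b} else 0) :=
        sum_le_sum fun u _ => sum_le_sum fun w _ => sum_le_sum fun a _ => sum_le_sum fun b _ =>
          h1 u w a b
    _ ≤ 64 * ∑ S ∈ (univ : Finset (Fin n)).powersetCard 4, ∑ E ∈ realizations d, hS f E S :=
        tuple_sum (fun S => ∑ E ∈ realizations d, hS f E S)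
          (fun S => sum_nonneg fun E _ => hS_nonneg f E S)
    _ = 128 * dirForm d f := by
        unfold dirForm propSum hS
        rw [sum_comm]
        ring

/-- The main reduction: the core spectral estimate implies the statement. -/
theorem final_of_core
    (core : ∀ {V : Type} [Fintype V] [DecidableEq V] (_ : 4 ≤ Fintype.card V) (f : Gr V → ℝ),
      ∃ g : Gr V → ℝ, (∀ u w a b, D4 u w a b → ∀ G, g (sw u w a b G) = g G) ∧
        ∑ G, (f G - g G) ^ 2 ≤ (Fintype.card V : ℝ) / 32 * En f)
    (n : ℕ) (hn : 4 ≤ n) (d : Fin n → ℕ) (hd : (realizations d).Nonempty) :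
    (∃ t : ℕ, t ≤ 2 * n ^ 8 ∧ ∀ G ∈ realizations d,
        tvDist (fun G' => (kernel n ^ t) G G') (unifOn (realizations d)) ≤ 1 / 4) ∧
      GapIneq d := by
  have hgap : GapIneq d := by
    apply gap_of_dirForm hn
    intro f
    obtain ⟨g, hg1, hg2⟩ := core (V := Fin n) (by simpa using hn) (ext d f)
    rw [Fintype.card_fin] at hg2
    obtain ⟨E0, hE0⟩ := hd
    have hconst : ∀ E ∈ realizations d, g (enc E) = g (enc E0) := by
      intro E hE
      refine connected (d := d) (fun X => g (enc X)) ?_ hE hE0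
      intro G hG S hS F hF F' hF'
      by_cases hne : F = F'
      · subst hne
        unfold switchResult
        split_ifs with h
        · congr 2
          exact sdiff_union_of_subset h.1
        · rfl
      obtain ⟨u, w, a, b, h, rfl, rfl⟩ := exists_D4 hS hF hF' hne
      rcases sw_enc h G with h1 | h1
      · rw [← h1.1]; exact hg1 u w a b h (enc G)
      · rw [h1.2]
    have hle1 : ∑ E ∈ realizations d, (f E - g (enc E0)) ^ 2 ≤ ∑ G, (ext d f G - g G) ^ 2 := by
      calc ∑ E ∈ realizations d, (f E - g (enc E0)) ^ 2 =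
          ∑ G ∈ encR d, (ext d f G - g G) ^ 2 := by
            unfold encR
            rw [sum_image (fun x _ y _ hxy => enc_inj hxy)]
            exact sum_congr rfl fun E hE => by rw [ext_enc f hE, hconst E hE]
        _ ≤ _ := sum_le_sum_of_subset_of_nonneg (subset_univ _) fun _ _ _ => sq_nonneg _
    have hle2 : ∑ E ∈ realizations d, (f E - g (enc E0)) ^ 2 ≤ (n : ℝ) / 32 * (128 * dirForm d f) :=
      (hle1.trans hg2).trans (mul_le_mul_of_nonneg_left (En_le d f) (by positivity))
    set c := g (enc E0)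
    set N : ℝ := ((realizations d).card : ℝ) with hN
    have hN0 : 0 ≤ N := by positivity
    have hvar : N * (∑ G ∈ realizations d, f G ^ 2) - (∑ G ∈ realizations d, f G) ^ 2 ≤
        N * ∑ E ∈ realizations d, (f E - c) ^ 2 := by
      have h1 : ∑ E ∈ realizations d, (f E - c) ^ 2 =
          ∑ G ∈ realizations d, f G ^ 2 - 2 * c * ∑ G ∈ realizations d, f G + N * c ^ 2 := by
        have : ∀ E, (f E - c) ^ 2 = f E ^ 2 - 2 * c * f E + c ^ 2 := fun E => by ring
        simp only [this, sum_add_distrib, sum_sub_distrib, ← mul_sum, sum_const, nsmul_eq_mul]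
        rw [← hN]
      rw [h1]
      nlinarith [sq_nonneg (N * c - ∑ G ∈ realizations d, f G)]
    have hdir : 0 ≤ dirForm d f := by
      unfold dirForm propSum
      have : 0 ≤ ∑ G ∈ realizations d, ∑ S ∈ (univ : Finset (Fin n)).powersetCard 4,
          ∑ F ∈ pmSet S, ∑ F' ∈ (pmSet S).erase F, (f G - f (switchResult G F F')) ^ 2 :=
        sum_nonneg fun _ _ => sum_nonneg fun _ _ => sum_nonneg fun _ _ => sum_nonneg fun _ _ =>
          sq_nonneg _
      linarith
    have hn' : (4 : ℝ) ≤ (n : ℝ) := by exact_mod_cast hn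
    calc _ ≤ N * ∑ E ∈ realizations d, (f E - c) ^ 2 := hvar
      _ ≤ N * ((n : ℝ) / 32 * (128 * dirForm d f)) := mul_le_mul_of_nonneg_left hle2 hN0
      _ = 4 * (n : ℝ) * (N * dirForm d f) := by ring
      _ ≤ 2 * (n : ℝ) ^ 2 * (N * dirForm d f) := by
          refine mul_le_mul_of_nonneg_right (by nlinarith) (mul_nonneg hN0 hdir)
      _ = _ := by ring
  exact ⟨tv_of_gap hn d hgap, hgap⟩

end Crest.Agent.S0453
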