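import Mathlib

/-!
Switch chain (S0453), part J: an inequality for functions on `k`-subsets (Johnson scheme).
-/

set_option autoImplicit false

namespace Crest.Agent.SC

open Finset

section johnson
variable {C : Type} [DecidableEq C]

lemma sum_filter_sep (D : Finset C) (j : ℕ) (x y : C) (hx : x ∈ D) (hy : y ∈ D.erase x)
    (f : Finset C → ℝ) :
    ∑ A ∈ (D.powersetCard (j + 1)).filter (fun A => x ∈ A ∧ y ∉ A), f A =
      ∑ B ∈ ((D.erase x).erase y).powersetCard j, f (insert x B) := by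
  have hyx : y ≠ x := Finset.ne_of_mem_erase hy
  have hyD : y ∈ D := Finset.mem_of_mem_erase hy
  refine Finset.sum_bij' (fun A _ => A.erase x) (fun B _ => insert x B) ?_ ?_ ?_ ?_ ?_
  · intro A hA
    rw [mem_filter, mem_powersetCard] at hA
    obtain ⟨⟨h1, h2⟩, h3, h4⟩ := hA
    rw [mem_powersetCard]
    refine ⟨fun z hz => ?_, ?_⟩
    · rw [mem_erase] at hz
      rw [mem_erase, mem_erase]
      exact ⟨fun h => h4 (h ▸ hz.2), hz.1, h1 hz.2⟩
    · rw [card_erase_of_mem h3, h2]; rfl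
  · intro B hB
    rw [mem_powersetCard] at hB
    obtain ⟨h1, h2⟩ := hB
    have hxB : x ∉ B := fun h => by
      have := h1 h
      rw [mem_erase, mem_erase] at this
      exact this.2.1 rfl
    have hyB : y ∉ B := fun h => by
      have := h1 h
      rw [mem_erase] at this
      exact this.1 rfl
    rw [mem_filter, mem_powersetCard]
    refine ⟨⟨fun z hz => ?_, ?_⟩, mem_insert_self _ _, ?_⟩
    · rw [mem_insert] at hz
      rcases hz with rfl | hz
      · exact hx
      · have := h1 hz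
        rw [mem_erase, mem_erase] at this
        exact this.2.2
    · rw [card_insert_of_notMem hxB, h2]
    · rw [mem_insert]
      rintro (h | h)
      · exact hyx h
      · exact hyB h
  · intro A hA
    rw [mem_filter] at hA
    exact insert_erase hA.2.1
  · intro B hB
    rw [mem_powersetCard] at hB
    have hxB : x ∉ B := fun h => by
      have := hB.1 h
      rw [mem_erase, mem_erase] at this
      exact this.2.1 rfl
    exact erase_insert hxB
  · intro A hA
    rw [mem_filter] at hA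
    show f A = f (insert x (A.erase x))
    rw [insert_erase hA.2.1]

lemma sum_swap (D : Finset C) (j : ℕ) (h : Finset C → C → C → ℝ) :
    ∑ A ∈ D.powersetCard (j + 1), ∑ x ∈ A, ∑ y ∈ D \ A, h A x y =
      ∑ x ∈ D, ∑ y ∈ D.erase x,
        ∑ A ∈ (D.powersetCard (j + 1)).filter (fun A => x ∈ A ∧ y ∉ A), h A x y := by
  have h1 : ∀ A ∈ D.powersetCard (j + 1), ∑ x ∈ A, ∑ y ∈ D \ A, h A x y =
      ∑ x ∈ D, ∑ y ∈ D.erase x, if x ∈ A ∧ y ∉ A then h A x y else 0 := by
    intro A hA
    rw [mem_powersetCard] at hA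
    have e1 : ∑ x ∈ A, ∑ y ∈ D \ A, h A x y =
        ∑ x ∈ D, if x ∈ A then ∑ y ∈ D \ A, h A x y else 0 := by
      rw [← sum_filter]
      congr 1
      rw [filter_mem_eq_inter, inter_eq_right.2 hA.1]
    rw [e1]
    refine sum_congr rfl fun x hx => ?_
    by_cases hxA : x ∈ A
    · rw [if_pos hxA]
      have e2 : D \ A = (D.erase x).filter (fun y => y ∉ A) := by
        ext y
        rw [mem_sdiff, mem_filter, mem_erase]
        constructor
        · rintro ⟨h1, h2⟩
          exact ⟨⟨fun h => h2 (h ▸ hxA), h1⟩, h2⟩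
        · rintro ⟨⟨_, h1⟩, h2⟩
          exact ⟨h1, h2⟩
      rw [e2, sum_filter]
      refine sum_congr rfl fun y _ => ?_
      by_cases hy : y ∉ A
      · rw [if_pos hy, if_pos ⟨hxA, hy⟩]
      · rw [if_neg hy, if_neg (fun h => hy h.2)]
    · rw [if_neg hxA]
      symm
      refine sum_eq_zero fun y _ => ?_
      rw [if_neg (fun h => hxA h.1)]
  rw [sum_congr rfl h1, sum_comm]
  refine sum_congr rfl fun x _ => ?_
  rw [sum_comm]
  refine sum_congr rfl fun y _ => ?_
  rw [sum_filter]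

/-- number of `j`-subsets containing one given element -/
lemma card_one (D : Finset C) (j : ℕ) (z : C) (hz : z ∈ D) :
    (((D.powersetCard j).filter (fun B => z ∈ B)).card : ℝ) =
      (D.card.choose j : ℝ) - ((D.card - 1).choose j : ℝ) := by
  have h1 := card_filter_add_card_filter_not (s := D.powersetCard j) (fun B => z ∈ B)
  have h2 : (D.powersetCard j).filter (fun B => ¬ z ∈ B) = (D.erase z).powersetCard j := by
    ext B
    rw [mem_filter, mem_powersetCard, mem_powersetCard, subset_erase]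
    tauto
  rw [h2, card_powersetCard, card_powersetCard, card_erase_of_mem hz] at h1
  have h3 : ((((D.powersetCard j).filter (fun B => z ∈ B)).card + (D.card - 1).choose j : ℕ) : ℝ) =
    (D.card.choose j : ℕ) := by rw [h1]
  push_cast at h3
  linarith

/-- number of `j`-subsets containing two given elements -/
lemma card_two (D : Finset C) (j : ℕ) (z w : C) (hz : z ∈ D) (hw : w ∈ D) (hzw : z ≠ w) :
    (((D.powersetCard j).filter (fun B => z ∈ B ∧ w ∈ B)).card : ℝ) =
      (D.card.choose j : ℝ) - 2 * ((D.card - 1).choose j : ℝ) + ((D.card - 2).choose j : ℝ) := by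
  have h1 := card_one D j z hz
  have h2 : ((D.powersetCard j).filter (fun B => z ∈ B)).card =
      ((D.powersetCard j).filter (fun B => z ∈ B ∧ w ∈ B)).card +
      (((D.erase w).powersetCard j).filter (fun B => z ∈ B)).card := by
    have e1 : ((D.erase w).powersetCard j).filter (fun B => z ∈ B) =
        ((D.powersetCard j).filter (fun B => z ∈ B)).filter (fun B => ¬ w ∈ B) := by
      ext B
      simp only [mem_filter, mem_powersetCard, subset_erase]
      tauto
    have e2 : (D.powersetCard j).filter (fun B => z ∈ B ∧ w ∈ B) =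
        ((D.powersetCard j).filter (fun B => z ∈ B)).filter (fun B => w ∈ B) := by
      rw [filter_filter]
    rw [e1, e2, card_filter_add_card_filter_not]
  have h3 := card_one (D.erase w) j z (mem_erase.2 ⟨hzw, hz⟩)
  rw [card_erase_of_mem hw] at h3
  have h4 : (D.card - 1 - 1) = D.card - 2 := by omega
  rw [h4] at h3
  have h5 : (((D.powersetCard j).filter (fun B => z ∈ B)).card : ℝ) =
      (((D.powersetCard j).filter (fun B => z ∈ B ∧ w ∈ B)).card : ℝ) +
      ((((D.erase w).powersetCard j).filter (fun B => z ∈ B)).card : ℝ) := by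
    rw [h2]; push_cast; rfl
  linarith

lemma sum_one (D : Finset C) (j : ℕ) (φ : C → ℝ) :
    ∑ B ∈ D.powersetCard j, ∑ z ∈ B, φ z =
      ((D.card.choose j : ℝ) - ((D.card - 1).choose j : ℝ)) * ∑ z ∈ D, φ z := by
  have h1 : ∀ B ∈ D.powersetCard j, ∑ z ∈ B, φ z = ∑ z ∈ D, if z ∈ B then φ z else 0 := by
    intro B hB
    rw [mem_powersetCard] at hB
    rw [← sum_filter]
    congr 1
    rw [filter_mem_eq_inter, inter_eq_right.2 hB.1]
  rw [sum_congr rfl h1, sum_comm, mul_sum]
  refine sum_congr rfl fun z hz => ?_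
  rw [← sum_filter, sum_const, nsmul_eq_mul, card_one D j z hz]

lemma sum_two (D : Finset C) (j : ℕ) (ψ : C → C → ℝ) (hψ : ∀ z, ψ z z = 0) :
    ∑ B ∈ D.powersetCard j, ∑ z ∈ B, ∑ w ∈ B, ψ z w =
      ((D.card.choose j : ℝ) - 2 * ((D.card - 1).choose j : ℝ) + ((D.card - 2).choose j : ℝ)) *
        ∑ z ∈ D, ∑ w ∈ D, ψ z w := by
  have h0 : ∀ B ∈ D.powersetCard j, ∀ φ : C → ℝ, ∑ z ∈ B, φ z = ∑ z ∈ D, if z ∈ B then φ z else 0 := by
    intro B hB φ
    rw [mem_powersetCard] at hB
    rw [← sum_filter]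
    congr 1
    rw [filter_mem_eq_inter, inter_eq_right.2 hB.1]
  have h1 : ∀ B ∈ D.powersetCard j, ∑ z ∈ B, ∑ w ∈ B, ψ z w =
      ∑ z ∈ D, ∑ w ∈ D, if z ∈ B ∧ w ∈ B then ψ z w else 0 := by
    intro B hB
    rw [h0 B hB]
    refine sum_congr rfl fun z _ => ?_
    by_cases hz : z ∈ B
    · rw [if_pos hz, h0 B hB]
      refine sum_congr rfl fun w _ => ?_
      by_cases hw : w ∈ B
      · rw [if_pos hw, if_pos ⟨hz, hw⟩]
      · rw [if_neg hw, if_neg (fun h => hw h.2)]
    · rw [if_neg hz]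
      symm
      exact sum_eq_zero fun w _ => if_neg (fun h => hz h.1)
  rw [sum_congr rfl h1, sum_comm, mul_sum]
  refine sum_congr rfl fun z hz => ?_
  rw [sum_comm, mul_sum]
  refine sum_congr rfl fun w hw => ?_
  rw [← sum_filter, sum_const, nsmul_eq_mul]
  by_cases hzw : z = w
  · subst hzw
    rw [hψ, mul_zero, mul_zero]
  · rw [card_two D j z w hz hw hzw]

lemma choose_ineq (m j : ℕ) (hm : 1 ≤ m) :
    2 * (((m - 1).choose j : ℝ) - ((m - 2).choose j : ℝ)) ≤ (m.choose j : ℝ) := by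
  rcases m with _ | _ | m
  · omega
  · have : (0:ℝ) ≤ ((0 + 1).choose j : ℝ) := Nat.cast_nonneg _
    simp
  · have e1 : m + 1 + 1 - 1 = m + 1 := rfl
    have e2 : m + 1 + 1 - 2 = m := rfl
    rw [e1, e2]
    rcases j with _ | j
    · simp
    · rw [Nat.choose_succ_succ (m + 1) j, Nat.choose_succ_succ m j]
      rcases j with _ | j
      · push_cast
        have a1 : (0:ℝ) ≤ (m.choose (0 + 1) : ℝ) := Nat.cast_nonneg _
        have a2 : (0:ℝ) ≤ (m : ℝ) := Nat.cast_nonneg _
        simp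
        linarith
      · rw [Nat.choose_succ_succ m j]
        push_cast
        have a1 : (0:ℝ) ≤ (m.choose (j + 1 + 1) : ℝ) := Nat.cast_nonneg _
        have a2 : (0:ℝ) ≤ (m.choose j : ℝ) := Nat.cast_nonneg _
        linarith

/-- the quadratic form of a symmetric kernel with zero row sums -/
lemma W_bound (D : Finset C) (j : ℕ) (hd : 3 ≤ D.card) (c : C → C → ℝ) (hc0 : ∀ x, c x x = 0)
    (hcs : ∀ x y, c x y = c y x) (hrow : ∀ x ∈ D, ∑ y ∈ D, c x y = 0) :
    ∑ A ∈ D.powersetCard (j + 1), (∑ x ∈ A, ∑ y ∈ D \ A, c x y) ^ 2 ≤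
      ((D.card - 2).choose j : ℝ) * ∑ x ∈ D, ∑ y ∈ D, c x y ^ 2 := by
  set W : Finset C → ℝ := fun A => ∑ x ∈ A, ∑ y ∈ D \ A, c x y with hW
  have hW2 : ∀ A ⊆ D, W A = -∑ z ∈ A, ∑ w ∈ A, c z w := by
    intro A hA
    rw [hW, ← sum_neg_distrib]
    refine sum_congr rfl fun z hz => ?_
    have h1 := hrow z (hA hz)
    rw [← sum_sdiff hA] at h1
    linarith
  have hw : ∀ x ∈ D, ∀ y ∈ D.erase x,
      ∑ A ∈ (D.powersetCard (j + 1)).filter (fun A => x ∈ A ∧ y ∉ A), W A =
        2 * (((D.card - 2 - 1).choose j : ℝ) - ((D.card - 2 - 2).choose j : ℝ)) * c x y := by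
    intro x hx y hy
    have hyx : y ≠ x := Finset.ne_of_mem_erase hy
    have hyD : y ∈ D := Finset.mem_of_mem_erase hy
    rw [sum_filter_sep D j x y hx hy]
    set D' := (D.erase x).erase y with hD'
    have hcard : D'.card = D.card - 2 := by
      rw [hD', card_erase_of_mem hy, card_erase_of_mem hx]; omega
    have hsplit : ∀ φ : C → ℝ, ∑ z ∈ D, φ z = φ x + (φ y + ∑ z ∈ D', φ z) := by
      intro φ
      rw [← add_sum_erase D φ hx, ← add_sum_erase (D.erase x) φ hy]
    have h1 : ∀ B ∈ D'.powersetCard j, W (insert x B) =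
        -(2 * ∑ z ∈ B, c x z + ∑ z ∈ B, ∑ w ∈ B, c z w) := by
      intro B hB
      rw [mem_powersetCard] at hB
      have hxB : x ∉ B := fun h => by
        have := hB.1 h
        rw [hD', mem_erase, mem_erase] at this
        exact this.2.1 rfl
      have hsub : insert x B ⊆ D := by
        intro z hz
        rw [mem_insert] at hz
        rcases hz with rfl | hz
        · exact hx
        · have := hB.1 hz
          rw [hD', mem_erase, mem_erase] at this
          exact this.2.2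
      rw [hW2 _ hsub, sum_insert hxB, sum_insert hxB, hc0]
      have e1 : ∑ z ∈ B, ∑ w ∈ insert x B, c z w = ∑ z ∈ B, (c x z + ∑ w ∈ B, c z w) := by
        refine sum_congr rfl fun z _ => ?_
        rw [sum_insert hxB, hcs z x]
      rw [e1, sum_add_distrib]
      ring
    rw [sum_congr rfl h1, sum_neg_distrib, sum_add_distrib, ← mul_sum, sum_one, sum_two _ _ _ hc0,
      hcard]
    have e2 : ∑ z ∈ D', c x z = - c x y := by
      have := hsplit (fun z => c x z)
      rw [hrow x hx, hc0] at this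
      linarith
    have e3 : ∑ z ∈ D', c y z = - c x y := by
      have := hsplit (fun z => c y z)
      rw [hrow y hyD, hc0, hcs y x] at this
      linarith
    have e4 : ∑ z ∈ D', ∑ w ∈ D', c z w = 2 * c x y := by
      have : ∀ z ∈ D', ∑ w ∈ D', c z w = - c x z - c y z := by
        intro z hz
        have hzD : z ∈ D := by
          rw [hD', mem_erase, mem_erase] at hz
          exact hz.2.2
        have := hsplit (fun w => c z w)
        rw [hrow z hzD, hcs z x, hcs z y] at this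
        linarith
      rw [sum_congr rfl this, sum_sub_distrib, sum_neg_distrib, e2, e3]
      ring
    rw [e2, e4]
    ring
  have h2 : ∑ A ∈ D.powersetCard (j + 1), W A ^ 2 =
      ∑ x ∈ D, ∑ y ∈ D.erase x,
        2 * (((D.card - 2 - 1).choose j : ℝ) - ((D.card - 2 - 2).choose j : ℝ)) * c x y ^ 2 := by
    have e1 : ∀ A ∈ D.powersetCard (j + 1), W A ^ 2 = ∑ x ∈ A, ∑ y ∈ D \ A, c x y * W A := by
      intro A _
      rw [pow_two]
      conv_lhs => rw [hW]
      simp only [sum_mul]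
      rfl
    rw [sum_congr rfl e1, sum_swap D j (fun A x y => c x y * W A)]
    refine sum_congr rfl fun x hx => sum_congr rfl fun y hy => ?_
    rw [← mul_sum, hw x hx y hy]
    ring
  have h3 : ∀ x ∈ D, ∑ y ∈ D.erase x, c x y ^ 2 = ∑ y ∈ D, c x y ^ 2 := by
    intro x hx
    rw [← add_sum_erase D _ hx, hc0]
    ring
  have h4 : ∑ A ∈ D.powersetCard (j + 1), W A ^ 2 =
      2 * (((D.card - 2 - 1).choose j : ℝ) - ((D.card - 2 - 2).choose j : ℝ)) *
        ∑ x ∈ D, ∑ y ∈ D, c x y ^ 2 := by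
    rw [h2, mul_sum]
    refine sum_congr rfl fun x hx => ?_
    rw [← mul_sum, h3 x hx]
  rw [h4]
  refine mul_le_mul_of_nonneg_right (choose_ineq (D.card - 2) j (by omega)) ?_
  exact sum_nonneg fun x _ => sum_nonneg fun y _ => sq_nonneg _

set_option maxHeartbeats 2000000 in
theorem johnson_pair (D : Finset C) (k : ℕ) (h1 : 1 ≤ k) (h2 : k + 1 ≤ D.card)
    (f : Finset C → ℝ) (hf : ∑ A ∈ D.powersetCard k, f A = 0) :
    ∑ x ∈ D, ∑ y ∈ D.erase x,
      (∑ A ∈ (D.powersetCard k).filter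
        (fun A => (x ∈ A ∧ y ∉ A) ∨ (x ∉ A ∧ y ∈ A)), f A) ^ 2 /
          (2 * ((D.card - 2).choose (k - 1) : ℝ)) ≤
      2 * ∑ A ∈ D.powersetCard k, f A ^ 2 +
        (1 - 2 / (D.card : ℝ)) * (1 / 2) * ∑ A ∈ D.powersetCard k, ∑ x ∈ A, ∑ y ∈ D \ A,
          (f A - f (insert y (A.erase x))) ^ 2 := by
  obtain ⟨j, rfl⟩ : ∃ j, k = j + 1 := ⟨k - 1, by omega⟩
  rw [Nat.add_sub_cancel]
  set d : ℝ := (D.card : ℝ) with hd
  set s : ℝ := ((D.card - 2).choose j : ℝ) with hs
  have hs0 : 0 < s := by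
    rw [hs]; exact_mod_cast Nat.choose_pos (by omega)
  set P := D.powersetCard (j + 1) with hP
  set u : C → C → ℝ := fun x y => ∑ A ∈ P.filter (fun A => x ∈ A ∧ y ∉ A), f A with hu
  set F : C → ℝ := fun x => ∑ A ∈ P.filter (fun A => x ∈ A), f A with hF
  set E : ℝ := ∑ A ∈ P, ∑ x ∈ A, ∑ y ∈ D \ A, (f A - f (insert y (A.erase x))) ^ 2 with hE
  have hE0 : 0 ≤ E := sum_nonneg fun A _ => sum_nonneg fun x _ => sum_nonneg fun y _ => sq_nonneg _
  have hcast : ((j + 1 : ℕ) : ℝ) + 1 ≤ d := by rw [hd]; exact_mod_cast h2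
  have hj0 : (0:ℝ) ≤ j := Nat.cast_nonneg _
  push_cast at hcast
  -- g in terms of u
  have hg : ∀ x y, ∑ A ∈ P.filter (fun A => (x ∈ A ∧ y ∉ A) ∨ (x ∉ A ∧ y ∈ A)), f A =
      u x y + u y x := by
    intro x y
    rw [filter_or, sum_union]
    · rw [hu]
      congr 1
      refine sum_congr ?_ fun _ _ => rfl
      ext A; simp only [mem_filter]; tauto
    · rw [disjoint_left]
      intro A hA hA'
      rw [mem_filter] at hA hA'
      exact hA'.2.1 hA.2.1
  have hFu : ∀ x y, F x - F y = u x y - u y x := by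
    intro x y
    have e1 : F x = u x y + ∑ A ∈ P.filter (fun A => x ∈ A ∧ y ∈ A), f A := by
      show (∑ A ∈ P.filter (fun A => x ∈ A), f A) =
        (∑ A ∈ P.filter (fun A => x ∈ A ∧ y ∉ A), f A) +
          ∑ A ∈ P.filter (fun A => x ∈ A ∧ y ∈ A), f A
      have := sum_filter_add_sum_filter_not (P.filter (fun A => x ∈ A)) (fun A => y ∉ A) f
      rw [filter_filter, filter_filter] at this
      rw [← this]
      congr 1
      refine sum_congr ?_ fun _ _ => rfl
      ext A; simp only [mem_filter, not_not]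
    have e2 : F y = u y x + ∑ A ∈ P.filter (fun A => x ∈ A ∧ y ∈ A), f A := by
      show (∑ A ∈ P.filter (fun A => y ∈ A), f A) =
        (∑ A ∈ P.filter (fun A => y ∈ A ∧ x ∉ A), f A) +
          ∑ A ∈ P.filter (fun A => x ∈ A ∧ y ∈ A), f A
      have := sum_filter_add_sum_filter_not (P.filter (fun A => y ∈ A)) (fun A => x ∉ A) f
      rw [filter_filter, filter_filter] at this
      rw [← this]
      congr 1
      refine sum_congr ?_ fun _ _ => rfl
      ext A; simp only [mem_filter, not_not]; tauto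
    rw [e1, e2]; ring
  -- sum of F is zero
  have hF0 : ∑ x ∈ D, F x = 0 := by
    rw [hF]
    simp only [sum_filter]
    rw [sum_comm]
    have : ∀ A ∈ P, ∑ x ∈ D, (if x ∈ A then f A else 0) = ((j + 1 : ℕ) : ℝ) * f A := by
      intro A hA
      rw [hP, mem_powersetCard] at hA
      rw [← sum_filter, sum_const, nsmul_eq_mul, filter_mem_eq_inter, inter_eq_right.2 hA.1, hA.2]
    rw [sum_congr rfl this, ← mul_sum, hf, mul_zero]
  -- row sums of u
  have hu1 : ∀ x ∈ D, ∑ y ∈ D.erase x, u x y = (d - (j + 1)) * F x := by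
    intro x hx
    rw [hu]
    simp only [sum_filter]
    rw [sum_comm, hF]
    simp only [sum_filter, mul_sum]
    refine sum_congr rfl fun A hA => ?_
    rw [hP, mem_powersetCard] at hA
    by_cases hxA : x ∈ A
    · rw [if_pos hxA]
      have e1 : ∀ y ∈ D.erase x, (if x ∈ A ∧ y ∉ A then f A else 0) =
          if y ∉ A then f A else 0 := by
        intro y _
        by_cases hy : y ∉ A
        · rw [if_pos hy, if_pos ⟨hxA, hy⟩]
        · rw [if_neg hy, if_neg (fun h => hy h.2)]
      rw [sum_congr rfl e1, ← sum_filter, sum_const, nsmul_eq_mul]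
      congr 1
      have e2 : (D.erase x).filter (fun y => y ∉ A) = D \ A := by
        ext y
        rw [mem_sdiff, mem_filter, mem_erase]
        constructor
        · rintro ⟨⟨_, h1⟩, h2⟩
          exact ⟨h1, h2⟩
        · rintro ⟨h1, h2⟩
          exact ⟨⟨fun h => h2 (h ▸ hxA), h1⟩, h2⟩
      rw [e2, card_sdiff_of_subset hA.1, hA.2, Nat.cast_sub (by omega)]
      push_cast
      rfl
    · rw [if_neg hxA, mul_zero]
      exact sum_eq_zero fun y _ => if_neg (fun h => hxA h.1)
  have hFrow : ∀ x ∈ D, ∑ y ∈ D.erase x, F y = - F x := by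
    intro x hx
    have := add_sum_erase D F hx
    rw [hF0] at this
    linarith
  have hcardE : ∀ x ∈ D, ((D.erase x).card : ℝ) = d - 1 := by
    intro x hx
    rw [card_erase_of_mem hx, Nat.cast_sub (by omega)]
    push_cast
    rfl
  have hg1 : ∀ x ∈ D, ∑ y ∈ D.erase x, (u x y + u y x) = (d - 2 * (j + 1)) * F x := by
    intro x hx
    have e1 : ∀ y ∈ D.erase x, u x y + u y x = 2 * u x y - (F x - F y) := by
      intro y _
      rw [hFu]; ring
    rw [sum_congr rfl e1, sum_sub_distrib, ← mul_sum, hu1 x hx, sum_sub_distrib, hFrow x hx,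
      sum_const, nsmul_eq_mul, hcardE x hx]
    ring
  -- square sums of F
  have hSp : ∑ x ∈ D, ∑ y ∈ D.erase x, (F x + F y) ^ 2 = 2 * (d - 2) * ∑ x ∈ D, F x ^ 2 := by
    have e1 : ∀ x ∈ D, ∑ y ∈ D.erase x, (F x + F y) ^ 2 =
        (d - 1) * F x ^ 2 - 2 * F x ^ 2 + (∑ y ∈ D, F y ^ 2 - F x ^ 2) := by
      intro x hx
      have e2 : ∀ y ∈ D.erase x, (F x + F y) ^ 2 = F x ^ 2 + 2 * F x * F y + F y ^ 2 := by
        intro y _; ring
      rw [sum_congr rfl e2, sum_add_distrib, sum_add_distrib, sum_const, nsmul_eq_mul,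
        hcardE x hx, ← mul_sum, hFrow x hx]
      have e3 := add_sum_erase D (fun y => F y ^ 2) hx
      rw [← e3]
      ring
    rw [sum_congr rfl e1, sum_add_distrib, sum_sub_distrib, sum_sub_distrib, ← mul_sum, ← mul_sum,
      sum_const, nsmul_eq_mul]
    rw [← hd]
    ring
  have hSm : ∑ x ∈ D, ∑ y ∈ D.erase x, (F x - F y) ^ 2 = 2 * d * ∑ x ∈ D, F x ^ 2 := by
    have e1 : ∀ x ∈ D, ∑ y ∈ D.erase x, (F x - F y) ^ 2 =
        (d - 1) * F x ^ 2 + 2 * F x ^ 2 + (∑ y ∈ D, F y ^ 2 - F x ^ 2) := by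
      intro x hx
      have e2 : ∀ y ∈ D.erase x, (F x - F y) ^ 2 = F x ^ 2 - 2 * F x * F y + F y ^ 2 := by
        intro y _; ring
      rw [sum_congr rfl e2, sum_add_distrib, sum_sub_distrib, sum_const, nsmul_eq_mul,
        hcardE x hx, ← mul_sum, hFrow x hx]
      have e3 := add_sum_erase D (fun y => F y ^ 2) hx
      rw [← e3]
      ring
    rw [sum_congr rfl e1, sum_add_distrib, sum_add_distrib, sum_sub_distrib, ← mul_sum, ← mul_sum,
      sum_const, nsmul_eq_mul]
    rw [← hd]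
    ring
  -- energy estimate for F
  have hEeq : E = ∑ x ∈ D, ∑ y ∈ D.erase x, ∑ B ∈ ((D.erase x).erase y).powersetCard j,
      (f (insert x B) - f (insert y B)) ^ 2 := by
    rw [hE, hP, sum_swap D j (fun A x y => (f A - f (insert y (A.erase x))) ^ 2)]
    refine sum_congr rfl fun x hx => sum_congr rfl fun y hy => ?_
    rw [sum_filter_sep D j x y hx hy (fun A => (f A - f (insert y (A.erase x))) ^ 2)]
    refine sum_congr rfl fun B hB => ?_
    rw [mem_powersetCard] at hB
    have hxB : x ∉ B := fun h => by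
      have := hB.1 h
      rw [mem_erase, mem_erase] at this
      exact this.2.1 rfl
    rw [erase_insert hxB]
  have hFE : 2 * d * ∑ x ∈ D, F x ^ 2 ≤ s * E := by
    rw [← hSm, hEeq, mul_sum]
    refine sum_le_sum fun x hx => ?_
    rw [mul_sum]
    refine sum_le_sum fun y hy => ?_
    have hyx : y ≠ x := Finset.ne_of_mem_erase hy
    have hyD : y ∈ D := Finset.mem_of_mem_erase hy
    have hxy : x ∈ D.erase y := mem_erase.2 ⟨hyx.symm, hx⟩
    have e1 : F x - F y = ∑ B ∈ ((D.erase x).erase y).powersetCard j,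
        (f (insert x B) - f (insert y B)) := by
      rw [hFu, hu]
      simp only
      rw [hP, sum_filter_sep D j x y hx hy, sum_filter_sep D j y x hyD hxy, sum_sub_distrib,
        erase_right_comm]
    rw [e1]
    refine (sq_sum_le_card_mul_sum_sq).trans (le_of_eq ?_)
    rw [card_powersetCard, card_erase_of_mem hy, card_erase_of_mem hx, hs]
    congr 3
  -- the case of two elements
  rcases Nat.lt_or_ge D.card 3 with h3 | h3
  · have hD2 : D.card = 2 := by omega
    have hj : j = 0 := by omega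
    have hd2 : d = 2 := by rw [hd, hD2]; norm_num
    have hz : ∀ x ∈ D, ∀ y ∈ D.erase x, u x y + u y x = 0 := by
      intro x hx y hy
      have hDe : D.erase x = {y} := by
        have : (D.erase x).card = 1 := by rw [card_erase_of_mem hx, hD2]
        obtain ⟨z, hz⟩ := card_eq_one.1 this
        rw [hz] at hy ⊢
        rw [mem_singleton] at hy
        rw [hy]
      have := hg1 x hx
      rw [hDe, sum_singleton, hd2, hj] at this
      rw [this]; push_cast; ring
    have e1 : ∑ x ∈ D, ∑ y ∈ D.erase x,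
      (∑ A ∈ P.filter (fun A => (x ∈ A ∧ y ∉ A) ∨ (x ∉ A ∧ y ∈ A)), f A) ^ 2 / (2 * s) = 0 := by
      refine sum_eq_zero fun x hx => sum_eq_zero fun y hy => ?_
      rw [hg, hz x hx y hy]
      simp
    rw [e1, hd2]
    have : 0 ≤ ∑ A ∈ P, f A ^ 2 := sum_nonneg fun _ _ => sq_nonneg _
    norm_num
    exact this
  -- main case
  have hd3 : 3 ≤ d := by rw [hd]; exact_mod_cast h3
  set a : ℝ := (d - 2 * (j + 1)) / (d - 2) with ha
  have hd20 : 0 < d - 2 := by linarith
  have had : a * (d - 2) = d - 2 * (j + 1) := by rw [ha]; field_simp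
  have ha1 : a ^ 2 ≤ 1 := by
    rw [sq_le_one_iff_abs_le_one, ha, abs_div, abs_of_pos hd20, div_le_one hd20, abs_le]
    constructor <;> linarith
  set c : C → C → ℝ := fun x y => if x = y then 0 else (u x y + u y x) - a * (F x + F y) with hc
  have hc0 : ∀ x, c x x = 0 := fun x => by rw [hc]; simp
  have hcs : ∀ x y, c x y = c y x := by
    intro x y
    rw [hc]
    by_cases h : x = y
    · subst h; rfl
    · simp only [if_neg h, if_neg (fun h' => h (Eq.symm h'))]
      ring
  have hcne : ∀ x, ∀ y ∈ D.erase x, c x y = (u x y + u y x) - a * (F x + F y) := by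
    intro x y hy
    have hyx : y ≠ x := Finset.ne_of_mem_erase hy
    rw [hc]
    simp only [if_neg (fun h : x = y => hyx h.symm)]
  have herase : ∀ (φ : C → C → ℝ), (∀ x, φ x x = 0) → ∀ x ∈ D,
      ∑ y ∈ D.erase x, φ x y = ∑ y ∈ D, φ x y := by
    intro φ hφ x hx
    rw [← add_sum_erase D _ hx, hφ]
    ring
  have hrow : ∀ x ∈ D, ∑ y ∈ D, c x y = 0 := by
    intro x hx
    rw [← herase c hc0 x hx, sum_congr rfl (hcne x), sum_sub_distrib, hg1 x hx, ← mul_sum,
      sum_add_distrib, hFrow x hx, sum_const, nsmul_eq_mul, hcardE x hx, ← had]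
    ring
  set Q : ℝ := ∑ x ∈ D, ∑ y ∈ D, c x y ^ 2 with hQ
  have hQ0 : 0 ≤ Q := sum_nonneg fun x _ => sum_nonneg fun y _ => sq_nonneg _
  -- cross term
  have hcross : ∑ x ∈ D, ∑ y ∈ D, c x y * (F x + F y) = 0 := by
    have e1 : ∀ x ∈ D, ∑ y ∈ D, c x y * (F x + F y) = ∑ y ∈ D, c x y * F y := by
      intro x hx
      have : ∑ y ∈ D, c x y * (F x + F y) = (∑ y ∈ D, c x y) * F x + ∑ y ∈ D, c x y * F y := by
        rw [sum_mul, ← sum_add_distrib]
        exact sum_congr rfl fun y _ => by ring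
      rw [this, hrow x hx]; ring
    rw [sum_congr rfl e1, sum_comm]
    refine sum_eq_zero fun y hy => ?_
    rw [← sum_mul]
    have : ∑ x ∈ D, c x y = 0 := by
      rw [← hrow y hy]
      exact sum_congr rfl fun x _ => hcs x y
    rw [this]; ring
  have hgsum : ∑ x ∈ D, ∑ y ∈ D.erase x, (u x y + u y x) ^ 2 =
      Q + a ^ 2 * (2 * (d - 2) * ∑ x ∈ D, F x ^ 2) := by
    have e1 : ∀ x ∈ D, ∑ y ∈ D.erase x, (u x y + u y x) ^ 2 =
        ∑ y ∈ D, c x y ^ 2 + 2 * a * ∑ y ∈ D, c x y * (F x + F y) +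
          a ^ 2 * ∑ y ∈ D.erase x, (F x + F y) ^ 2 := by
      intro x hx
      rw [← herase (fun x y => c x y ^ 2) (fun x => by simp [hc0]) x hx,
        ← herase (fun x y => c x y * (F x + F y)) (fun x => by simp [hc0]) x hx, mul_sum, mul_sum,
        ← sum_add_distrib, ← sum_add_distrib]
      refine sum_congr rfl fun y hy => ?_
      rw [hcne x y hy]
      ring
    rw [sum_congr rfl e1, sum_add_distrib, sum_add_distrib, ← mul_sum, ← mul_sum, hcross, hSp]
    ring
  -- pairing with f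
  set W : Finset C → ℝ := fun A => ∑ x ∈ A, ∑ y ∈ D \ A, c x y with hW
  have hfW : ∑ A ∈ P, f A * W A = ∑ x ∈ D, ∑ y ∈ D, c x y * u x y := by
    have e1 : ∀ A ∈ P, f A * W A = ∑ x ∈ A, ∑ y ∈ D \ A, c x y * f A := by
      intro A _
      rw [hW, mul_sum]
      refine sum_congr rfl fun x _ => ?_
      rw [mul_sum]
      exact sum_congr rfl fun y _ => by ring
    rw [sum_congr rfl e1, hP, sum_swap D j (fun A x y => c x y * f A)]
    refine sum_congr rfl fun x hx => ?_
    rw [← herase (fun x y => c x y * u x y) (fun x => by simp [hc0]) x hx]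
    refine sum_congr rfl fun y hy => ?_
    rw [← mul_sum]
  have hQfW : Q = 2 * ∑ A ∈ P, f A * W A := by
    have e1 : Q = ∑ x ∈ D, ∑ y ∈ D, (c x y * (u x y + u y x)) - a * 0 := by
      rw [← hcross, mul_sum, hQ, ← sum_sub_distrib]
      refine sum_congr rfl fun x hx => ?_
      rw [mul_sum, ← sum_sub_distrib,
        ← herase (fun x y => c x y ^ 2) (fun x => by simp [hc0]) x hx,
        ← herase (fun x y => c x y * (u x y + u y x) - a * (c x y * (F x + F y)))
          (fun x => by simp [hc0]) x hx]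
      refine sum_congr rfl fun y hy => ?_
      simp only [hcne x y hy]
      ring
    have e2 : ∑ x ∈ D, ∑ y ∈ D, c x y * u y x = ∑ x ∈ D, ∑ y ∈ D, c x y * u x y := by
      rw [sum_comm]
      refine sum_congr rfl fun x _ => sum_congr rfl fun y _ => ?_
      rw [hcs y x]
    rw [e1, hfW]
    simp only [mul_add, sum_add_distrib]
    rw [e2]
    ring
  have hWb : ∑ A ∈ P, W A ^ 2 ≤ s * Q := W_bound D j h3 c hc0 hcs hrow
  have hCS : (∑ A ∈ P, f A * W A) ^ 2 ≤ (∑ A ∈ P, f A ^ 2) * ∑ A ∈ P, W A ^ 2 :=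
    sum_mul_sq_le_sq_mul_sq P f W
  have hf20 : 0 ≤ ∑ A ∈ P, f A ^ 2 := sum_nonneg fun _ _ => sq_nonneg _
  have hQb : Q ≤ 4 * s * ∑ A ∈ P, f A ^ 2 := by
    rcases eq_or_lt_of_le hQ0 with h0 | h0
    · rw [← h0]; positivity
    · have e1 : Q * Q ≤ (4 * s * ∑ A ∈ P, f A ^ 2) * Q := by
        have : Q * Q = 4 * (∑ A ∈ P, f A * W A) ^ 2 := by
          rw [hQfW]; ring
        rw [this]
        have e2 := mul_le_mul_of_nonneg_left hWb hf20
        calc 4 * (∑ A ∈ P, f A * W A) ^ 2
            ≤ 4 * ((∑ A ∈ P, f A ^ 2) * ∑ A ∈ P, W A ^ 2) := by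
              exact mul_le_mul_of_nonneg_left hCS (by norm_num)
          _ ≤ 4 * ((∑ A ∈ P, f A ^ 2) * (s * Q)) := by
              exact mul_le_mul_of_nonneg_left e2 (by norm_num)
          _ = (4 * s * ∑ A ∈ P, f A ^ 2) * Q := by ring
      exact le_of_mul_le_mul_right e1 h0
  -- conclusion
  have hL : ∑ x ∈ D, ∑ y ∈ D.erase x,
      (∑ A ∈ P.filter (fun A => (x ∈ A ∧ y ∉ A) ∨ (x ∉ A ∧ y ∈ A)), f A) ^ 2 / (2 * s) =
      (Q + a ^ 2 * (2 * (d - 2) * ∑ x ∈ D, F x ^ 2)) / (2 * s) := by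
    rw [← hgsum, sum_div]
    refine sum_congr rfl fun x _ => ?_
    rw [sum_div]
    exact sum_congr rfl fun y _ => by rw [hg]
  rw [hL, div_le_iff₀ (by positivity)]
  have hd0 : 0 < d := by linarith
  have e5 : (1 - 2 / d) * (1 / 2) * E * (2 * s) = (d - 2) * (s * E) / d := by
    field_simp
  have e6 : 2 * (d - 2) * ∑ x ∈ D, F x ^ 2 ≤ (d - 2) * (s * E) / d := by
    rw [le_div_iff₀ hd0]
    calc 2 * (d - 2) * (∑ x ∈ D, F x ^ 2) * d = (d - 2) * (2 * d * ∑ x ∈ D, F x ^ 2) := by ring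
      _ ≤ (d - 2) * (s * E) := mul_le_mul_of_nonneg_left hFE hd20.le
  have e7 : 0 ≤ 2 * (d - 2) * ∑ x ∈ D, F x ^ 2 := by
    have : 0 ≤ ∑ x ∈ D, F x ^ 2 := sum_nonneg fun _ _ => sq_nonneg _
    positivity
  have e8 : a ^ 2 * (2 * (d - 2) * ∑ x ∈ D, F x ^ 2) ≤ 2 * (d - 2) * ∑ x ∈ D, F x ^ 2 :=
    mul_le_of_le_one_left e7 ha1
  have e9 : 2 * (∑ A ∈ P, f A ^ 2) * (2 * s) = 4 * s * ∑ A ∈ P, f A ^ 2 := by ring
  rw [add_mul, e5, e9]
  exact add_le_add hQb (e8.trans e6)

end johnson

end Crest.Agent.SC
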