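import Crest.Agent.SCTrade

/-!
Projections, and the abstract form of the estimate for two disjoint pairs of rows.
-/

set_option autoImplicit false
set_option linter.unusedSectionVars false
set_option linter.unusedVariables false

namespace Crest.Agent.SC

open Finset

local macro "nr6" : tactic =>
  `(tactic| (simp only [mul_sub, sub_mul, mul_add, add_mul, mul_one, one_mul, mul_assoc] <;>
    first | done | abel))

section proj
variable {α : Type*} [Fintype α]

/-- inner product -/
def ip (f g : α → ℝ) : ℝ := ∑ a, f a * g a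

theorem ip_add_right (f g h : α → ℝ) : ip f (g + h) = ip f g + ip f h := by
  simp only [ip, Pi.add_apply, mul_add, sum_add_distrib]

theorem ip_sub_right (f g h : α → ℝ) : ip f (g - h) = ip f g - ip f h := by
  simp only [ip, Pi.sub_apply, mul_sub, sum_sub_distrib]

theorem ip_sub_left (f g h : α → ℝ) : ip (f - g) h = ip f h - ip g h := by
  simp only [ip, Pi.sub_apply, sub_mul, sum_sub_distrib]

theorem ip_self_nonneg (f : α → ℝ) : 0 ≤ ip f f :=
  sum_nonneg (fun a _ => mul_self_nonneg _)

/-- orthogonal projections -/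
structure IsP (P : Module.End ℝ (α → ℝ)) : Prop where
  idem : P * P = P
  symm : ∀ f g, ip (P f) g = ip f (P g)

theorem isP_avg (r : α → α → Prop) [DecidableRel r] (hr : Equivalence r) : IsP (avgL r) where
  idem := LinearMap.ext (fun f => avg_idem r hr f)
  symm f g := avg_symm r hr f g

theorem IsP.one_sub {P : Module.End ℝ (α → ℝ)} (h : IsP P) : IsP (1 - P) where
  idem := by
    have : (1 - P) * (1 - P) = 1 - P - P + P * P := by nr6
    rw [this, h.idem]; abel
  symm f g := by
    simp only [LinearMap.sub_apply, Module.End.one_apply]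
    rw [ip_sub_left, ip_sub_right, h.symm]

theorem IsP.mul {P Q : Module.End ℝ (α → ℝ)} (hP : IsP P) (hQ : IsP Q) (h : P * Q = Q * P) :
    IsP (P * Q) where
  idem := by
    calc P * Q * (P * Q) = P * (Q * P) * Q := by nr6
      _ = (P * P) * (Q * Q) := by rw [← h]; nr6
      _ = P * Q := by rw [hP.idem, hQ.idem]
  symm f g := by
    rw [Module.End.mul_apply, hP.symm, hQ.symm, h, Module.End.mul_apply]

theorem IsP.sub {P Q : Module.End ℝ (α → ℝ)} (hP : IsP P) (hQ : IsP Q) (h1 : P * Q = Q)
    (h2 : Q * P = Q) : IsP (P - Q) where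
  idem := by
    have : (P - Q) * (P - Q) = P * P - P * Q - Q * P + Q * Q := by nr6
    rw [this, h1, h2, hP.idem, hQ.idem]; abel
  symm f g := by
    simp only [LinearMap.sub_apply]
    rw [ip_sub_left, ip_sub_right, hP.symm, hQ.symm]

theorem IsP.nonneg {P : Module.End ℝ (α → ℝ)} (h : IsP P) (f : α → ℝ) : 0 ≤ ip f (P f) := by
  have : ip f (P f) = ip (P f) (P f) := by
    rw [h.symm, ← Module.End.mul_apply, h.idem]
  rw [this]; exact ip_self_nonneg _

/-- commuting projections -/
theorem comm_nonneg {R R' : Module.End ℝ (α → ℝ)} (hR : IsP R) (hR' : IsP R')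
    (h : R * R' = R' * R) (f : α → ℝ) : 0 ≤ ip (f - R f) (f - R' f) := by
  have hc : (1 - R) * (1 - R') = (1 - R') * (1 - R) := by
    have e1 : (1 - R) * (1 - R') = 1 - R - R' + R * R' := by nr6
    have e2 : (1 - R') * (1 - R) = 1 - R - R' + R' * R := by nr6
    rw [e1, e2, h]
  have hP := (hR.one_sub.mul hR'.one_sub hc).nonneg f
  rw [Module.End.mul_apply, ← hR.one_sub.symm] at hP
  exact hP

theorem disj_abs {S S' E R R' : Module.End ℝ (α → ℝ)} (hS : IsP S) (hS' : IsP S') (hE : IsP E)
    (hR : IsP R) (hR' : IsP R') (hSE : S * E = E * S) (hS'E : S' * E = E * S')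
    (hSR' : S * R' = R' * S) (hS'R : S' * R = R * S') (hSS' : S * S' = S' * S)
    (hRE : R * E = R) (hER : E * R = R) (hR'E : R' * E = R') (hER' : E * R' = R')
    (hRS : R * S = R) (hSR : S * R = R) (f : α → ℝ) :
    ip f (f - E f) + ip (S (E f) - R f) (S' (E f) - R' f) ≤ ip (f - R f) (f - R' f) := by
  -- first nonnegative term
  have hA : IsP (E - R') := hE.sub hR' hER' hR'E
  have hcA : (1 - S) * (E - R') = (E - R') * (1 - S) := by
    have e1 : (1 - S) * (E - R') = E - R' - S * E + S * R' := by nr6
    have e2 : (E - R') * (1 - S) = E - R' - E * S + R' * S := by nr6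
    rw [e1, e2, hSE, hSR']
  have h1 := (hS.one_sub.mul hA hcA).nonneg f
  -- second nonnegative term
  have hU : IsP (S * E) := hS.mul hE hSE
  have hU' : IsP (S' * E) := hS'.mul hE hS'E
  have hUR : (S * E) * R = R := by rw [mul_assoc, hER, hSR]
  have hRU : R * (S * E) = R := by rw [← mul_assoc, hRS, hRE]
  have hB : IsP (S * E - R) := hU.sub hR hUR hRU
  have hUU' : (S * E) * (S' * E) = (S' * E) * (S * E) := by
    calc (S * E) * (S' * E) = S * (E * S') * E := by nr6
      _ = (S * S') * (E * E) := by rw [← hS'E]; nr6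
      _ = (S' * S) * (E * E) := by rw [hSS']
      _ = S' * (S * E) * E := by nr6
      _ = S' * (E * S) * E := by rw [hSE]
      _ = (S' * E) * (S * E) := by nr6
  have hRU' : R * (S' * E) = (S' * E) * R := by
    rw [← mul_assoc, ← hS'R, mul_assoc, hRE, mul_assoc, hER]
  have hcB : (S * E - R) * (1 - S' * E) = (1 - S' * E) * (S * E - R) := by
    have e1 : (S * E - R) * (1 - S' * E) = S * E - R - (S * E) * (S' * E) + R * (S' * E) := by
      nr6
    have e2 : (1 - S' * E) * (S * E - R) = S * E - R - (S' * E) * (S * E) + (S' * E) * R := by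
      nr6
    rw [e1, e2, hUU', hRU']
  have h2 := (hB.mul hU'.one_sub hcB).nonneg f
  -- the identity
  have hid : (1 - R) * (1 - R') = (1 - E) + (1 - S) * (E - R') + (S * E - R) * (1 - R') := by
    have e1 : (1 - S) * (E - R') = E - R' - S * E + S * R' := by nr6
    have e2 : (S * E - R) * (1 - R') = S * E - R - S * (E * R') + R * R' := by nr6
    rw [e1, e2, hER']; nr6
  have h3 : ip (f - R f) (f - R' f) = ip f (((1 - R) * (1 - R')) f) := by
    rw [Module.End.mul_apply, ← hR.one_sub.symm]; rfl
  rw [h3, hid]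
  simp only [LinearMap.add_apply]
  rw [ip_add_right, ip_add_right]
  have h4 : ip f (((S * E - R) * (1 - R')) f)
      = ip f (((S * E - R) * (1 - S' * E)) f) + ip (S (E f) - R f) (S' (E f) - R' f) := by
    have e3 : (S * E - R) * (1 - R') = (S * E - R) * (1 - S' * E)
        + (S * E - R) * (S' * E - R') := by nr6
    rw [e3, LinearMap.add_apply, ip_add_right]
    congr 1
    rw [Module.End.mul_apply, ← hB.symm]; rfl
  rw [h4]
  have h5 : ip f ((1 - E) f) = ip f (f - E f) := rfl
  rw [h5]
  linarith

end proj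

end Crest.Agent.SC
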