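import Mathlib

/-!
Spectral lemmas for symmetric operators on `α → ℝ`.
-/

set_option autoImplicit false

namespace Crest.Agent.SC

open Finset

variable {α : Type} [Fintype α] [DecidableEq α]

theorem exists_eigenbasis (T : (α → ℝ) →ₗ[ℝ] (α → ℝ))
    (hsymm : ∀ f g : α → ℝ, ∑ a, T f a * g a = ∑ a, f a * T g a) :
    ∃ (v : α → (α → ℝ)) (lam : α → ℝ), (∀ i, T (v i) = lam i • v i) ∧
      (∀ i j, ∑ a, v i a * v j a = if i = j then 1 else 0) ∧
      ∀ f : α → ℝ, f = ∑ i, (∑ a, v i a * f a) • v i := by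
  classical
  set M : Matrix α α ℝ := LinearMap.toMatrix' T with hM
  have hMv : ∀ f : α → ℝ, M.mulVec f = T f := by
    intro f
    rw [hM, ← Matrix.toLin'_apply, Matrix.toLin'_toMatrix']
  have hherm : M.IsHermitian := by
    ext i j
    have h := hsymm (Pi.single i 1) (Pi.single j 1)
    simp only [Pi.single_apply, mul_ite, mul_one, mul_zero, ite_mul, one_mul, zero_mul,
      Finset.sum_ite_eq', Finset.mem_univ, if_true] at h
    simp only [Matrix.conjTranspose_apply, star_trivial, hM, LinearMap.toMatrix'_apply]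
    exact h
  refine ⟨fun i => (hherm.eigenvectorBasis i).ofLp, hherm.eigenvalues, ?_, ?_, ?_⟩
  · intro i
    have := hherm.mulVec_eigenvectorBasis i
    rw [← hMv]
    exact this
  · intro i j
    have := (orthonormal_iff_ite.mp hherm.eigenvectorBasis.orthonormal) i j
    rw [EuclideanSpace.inner_eq_star_dotProduct] at this
    simp only [star_trivial, dotProduct] at this
    rw [← this]
    exact Finset.sum_congr rfl (fun a _ => mul_comm _ _)
  · intro f
    have h := hherm.eigenvectorBasis.sum_repr (WithLp.toLp 2 f)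
    have h2 := congrArg WithLp.ofLp h
    simp only [WithLp.ofLp_sum, WithLp.ofLp_smul] at h2
    conv_lhs => rw [← h2]
    refine Finset.sum_congr rfl (fun i _ => ?_)
    congr 1
    rw [OrthonormalBasis.repr_apply_apply, EuclideanSpace.inner_eq_star_dotProduct]
    simp only [star_trivial, dotProduct]
    exact Finset.sum_congr rfl (fun a _ => mul_comm _ _)

theorem sum_smul_apply' (v : α → (α → ℝ)) (c : α → ℝ) (a : α) :
    (∑ i, c i • v i) a = ∑ i, c i * v i a := by
  simp [Finset.sum_apply]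

/-- inner products in an eigenbasis -/
theorem inner_expand {v : α → (α → ℝ)}
    (ho : ∀ i j, ∑ a, v i a * v j a = if i = j then 1 else 0) (c d : α → ℝ) :
    ∑ a, (∑ i, c i • v i) a * (∑ i, d i • v i) a = ∑ i, c i * d i := by
  have : ∀ a, (∑ i, c i • v i) a * (∑ i, d i • v i) a
      = ∑ i, ∑ j, c i * d j * (v i a * v j a) := by
    intro a
    rw [sum_smul_apply', sum_smul_apply', Finset.sum_mul_sum]
    refine Finset.sum_congr rfl (fun i _ => Finset.sum_congr rfl (fun j _ => by ring))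
  simp_rw [this]
  rw [Finset.sum_comm]
  refine Finset.sum_congr rfl (fun i _ => ?_)
  rw [Finset.sum_comm]
  simp_rw [← Finset.mul_sum, ho]
  simp

theorem T_expand (T : (α → ℝ) →ₗ[ℝ] (α → ℝ)) {v : α → (α → ℝ)} {lam : α → ℝ}
    (he : ∀ i, T (v i) = lam i • v i) (c : α → ℝ) :
    T (∑ i, c i • v i) = ∑ i, (c i * lam i) • v i := by
  rw [map_sum]
  refine Finset.sum_congr rfl (fun i _ => ?_)
  rw [map_smul, he, smul_smul]

/-- If all eigenvalues are `0` or at least `c`, then `c ⟨T f, f⟩ ≤ ‖T f‖²`. -/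
theorem spec1 (T : (α → ℝ) →ₗ[ℝ] (α → ℝ))
    (hsymm : ∀ f g : α → ℝ, ∑ a, T f a * g a = ∑ a, f a * T g a) (c : ℝ)
    (h : ∀ (f : α → ℝ) (μ : ℝ), T f = μ • f → f ≠ 0 → μ = 0 ∨ (0 < μ ∧ c ≤ μ)) (f : α → ℝ) :
    c * ∑ a, T f a * f a ≤ ∑ a, (T f a) ^ 2 := by
  obtain ⟨v, lam, he, ho, hs⟩ := exists_eigenbasis T hsymm
  set cf : α → ℝ := fun i => ∑ a, v i a * f a with hcf
  have hf : f = ∑ i, cf i • v i := hs f
  have hTf : T f = ∑ i, (cf i * lam i) • v i := by
    conv_lhs => rw [hf]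
    exact T_expand T he cf
  have h1 : ∑ a, T f a * f a = ∑ i, (cf i * lam i) * cf i := by
    rw [hTf]
    conv_lhs => rw [hf]
    exact inner_expand ho _ _
  have h2 : ∑ a, (T f a) ^ 2 = ∑ i, (cf i * lam i) * (cf i * lam i) := by
    simp_rw [pow_two]
    rw [hTf]
    exact inner_expand ho _ _
  rw [h1, h2, Finset.mul_sum]
  refine Finset.sum_le_sum (fun i _ => ?_)
  have hv : v i ≠ 0 := by
    intro h0
    have := ho i i
    simp [h0] at this
  rcases h (v i) (lam i) (he i) hv with h0 | ⟨hp, h0⟩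
  · simp [h0]
  · nlinarith [mul_nonneg (sq_nonneg (cf i)) (mul_nonneg hp.le (sub_nonneg.mpr h0))]

/-- If `c ⟨T f, f⟩ ≤ ‖T f‖²` and `T ≥ 0` then `f` is close to the kernel. -/
theorem spec2 (T : (α → ℝ) →ₗ[ℝ] (α → ℝ))
    (hsymm : ∀ f g : α → ℝ, ∑ a, T f a * g a = ∑ a, f a * T g a) (c : ℝ)
    (hpos : ∀ f : α → ℝ, 0 ≤ ∑ a, T f a * f a)
    (h : ∀ f : α → ℝ, c * ∑ a, T f a * f a ≤ ∑ a, (T f a) ^ 2) (f : α → ℝ) :
    ∃ g : α → ℝ, T g = 0 ∧ c * ∑ a, (f a - g a) ^ 2 ≤ ∑ a, T f a * f a := by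
  obtain ⟨v, lam, he, ho, hs⟩ := exists_eigenbasis T hsymm
  set cf : α → ℝ := fun i => ∑ a, v i a * f a with hcf
  have hf : f = ∑ i, cf i • v i := hs f
  have hTf : T f = ∑ i, (cf i * lam i) • v i := by
    conv_lhs => rw [hf]
    exact T_expand T he cf
  have h1 : ∑ a, T f a * f a = ∑ i, (cf i * lam i) * cf i := by
    rw [hTf]
    conv_lhs => rw [hf]
    exact inner_expand ho _ _
  have hlam : ∀ i, 0 ≤ lam i ∧ c * lam i ≤ lam i ^ 2 := by
    intro i
    have e1 : ∑ a, T (v i) a * v i a = lam i := by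
      rw [he i]
      have := ho i i
      simp only [Pi.smul_apply, smul_eq_mul, mul_assoc]
      rw [← Finset.mul_sum, this]; simp
    have e2 : ∑ a, (T (v i) a) ^ 2 = lam i ^ 2 := by
      rw [he i]
      have := ho i i
      simp only [Pi.smul_apply, smul_eq_mul, mul_pow]
      rw [← Finset.mul_sum]
      simp_rw [pow_two (v i _)]
      rw [this]; simp
    refine ⟨by rw [← e1]; exact hpos _, ?_⟩
    have := h (v i)
    rwa [e1, e2] at this
  set cg : α → ℝ := fun i => if lam i = 0 then cf i else 0 with hcg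
  refine ⟨∑ i, cg i • v i, ?_, ?_⟩
  · rw [T_expand T he]
    refine Finset.sum_eq_zero (fun i _ => ?_)
    by_cases h0 : lam i = 0
    · simp [h0]
    · simp [hcg, h0]
  · have h3 : ∑ a, (f a - (∑ i, cg i • v i) a) ^ 2 = ∑ i, (cf i - cg i) * (cf i - cg i) := by
      have e : ∀ a, f a - (∑ i, cg i • v i) a = (∑ i, (cf i - cg i) • v i) a := by
        intro a
        have : (∑ i, (cf i - cg i) • v i) = (∑ i, cf i • v i) - ∑ i, cg i • v i := by
          rw [← Finset.sum_sub_distrib]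
          exact Finset.sum_congr rfl (fun i _ => sub_smul _ _ _)
        rw [this, ← hf]; rfl
      simp_rw [e, pow_two]
      exact inner_expand ho _ _
    rw [h3, h1, Finset.mul_sum]
    refine Finset.sum_le_sum (fun i _ => ?_)
    by_cases h0 : lam i = 0
    · simp [hcg, h0]
    · simp only [hcg, h0, if_false, sub_zero]
      obtain ⟨hp, hq⟩ := hlam i
      have hp' : 0 < lam i := lt_of_le_of_ne hp (Ne.symm h0)
      have : c ≤ lam i := by
        by_contra hlt
        push Not at hlt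
        nlinarith
      nlinarith [mul_self_nonneg (cf i)]

end Crest.Agent.SC
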