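import Crest.Agent.SCDefs

/-!
Averaging operators over the classes of an equivalence relation.
-/

set_option autoImplicit false

namespace Crest.Agent.SC

open Finset

variable {α : Type*} [Fintype α]

/-- class of `x` as a finset -/
abbrev cls (r : α → α → Prop) [DecidableRel r] (x : α) : Finset α :=
  univ.filter (fun y => r x y)

section basic
variable (r : α → α → Prop) [DecidableRel r]

theorem mem_cls {x y : α} : y ∈ cls r x ↔ r x y := by simp [cls]

theorem cls_card_pos (hr : Equivalence r) (x : α) : 0 < (cls r x).card :=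
  Finset.card_pos.mpr ⟨x, by simp [hr.refl x]⟩

theorem cls_card_ne (hr : Equivalence r) (x : α) : ((cls r x).card : ℝ) ≠ 0 :=
  Nat.cast_ne_zero.mpr (cls_card_pos r hr x).ne'

theorem cls_eq (hr : Equivalence r) {x y : α} (h : r x y) : cls r x = cls r y := by
  ext z
  simp only [cls, mem_filter, mem_univ, true_and]
  exact ⟨fun hz => hr.trans (hr.symm h) hz, fun hz => hr.trans h hz⟩

theorem avg_def (f : α → ℝ) (x : α) : avg r f x = (∑ y ∈ cls r x, f y) / ((cls r x).card : ℝ) := rfl

theorem avg_congr (hr : Equivalence r) (f : α → ℝ) {x y : α} (h : r x y) :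
    avg r f x = avg r f y := by
  rw [avg_def, avg_def, cls_eq r hr h]

theorem avg_add (f g : α → ℝ) : avg r (f + g) = avg r f + avg r g := by
  ext x; simp only [avg_def, Pi.add_apply, sum_add_distrib, add_div]

theorem avg_smul (c : ℝ) (f : α → ℝ) : avg r (c • f) = c • avg r f := by
  ext x; simp only [avg_def, Pi.smul_apply, smul_eq_mul, ← mul_sum, mul_div_assoc]

/-- `avg` as a linear map -/
noncomputable def avgL : (α → ℝ) →ₗ[ℝ] (α → ℝ) where
  toFun := avg r
  map_add' := avg_add r
  map_smul' := fun c f => avg_smul r c f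

@[simp] theorem avgL_apply (f : α → ℝ) : avgL r f = avg r f := rfl

theorem avg_sub (f g : α → ℝ) : avg r (f - g) = avg r f - avg r g := by
  have := map_sub (avgL r) f g
  simpa using this

theorem avg_zero : avg r (0 : α → ℝ) = 0 := by
  ext x; simp [avg_def]

/-- class functions can be pulled out -/
theorem avg_mul_left (c f : α → ℝ) (hc : ∀ x y, r x y → c x = c y) :
    avg r (fun y => c y * f y) = fun x => c x * avg r f x := by
  ext x
  simp only [avg_def]
  have : ∑ y ∈ cls r x, c y * f y = c x * ∑ y ∈ cls r x, f y := by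
    rw [mul_sum]
    exact sum_congr rfl (fun y hy => by rw [hc x y ((mem_cls r).mp hy)])
  rw [this, mul_div_assoc]

theorem avg_eq_self (hr : Equivalence r) (f : α → ℝ) (x : α) (h : ∀ y, r x y → f y = f x) :
    avg r f x = f x := by
  have : ∑ y ∈ cls r x, f y = ((cls r x).card : ℝ) * f x := by
    rw [sum_congr rfl (fun y hy => h y ((mem_cls r).mp hy))]; simp
  rw [avg_def, this, mul_div_assoc, mul_comm, div_mul_cancel₀ _ (cls_card_ne r hr x)]

/-- double counting -/
theorem sum_cls_comm (hr : Equivalence r) (F : α → α → ℝ) :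
    ∑ x, ∑ y ∈ cls r x, F x y = ∑ y, ∑ x ∈ cls r y, F x y := by
  simp only [cls, sum_filter]
  rw [sum_comm]
  refine sum_congr rfl (fun y _ => sum_congr rfl (fun x _ => ?_))
  by_cases h : r x y
  · simp [h, hr.symm h]
  · have h' : ¬ r y x := fun h' => h (hr.symm h')
    simp [h, h']

theorem avg_symm (hr : Equivalence r) (f g : α → ℝ) :
    ∑ x, avg r f x * g x = ∑ x, f x * avg r g x := by
  have h1 : ∀ x, avg r f x * g x = ∑ y ∈ cls r x, f y * g x / ((cls r x).card : ℝ) := by
    intro x
    rw [avg_def, ← sum_div, ← sum_mul]; ring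
  have h2 : ∀ x, f x * avg r g x = ∑ y ∈ cls r x, f x * g y / ((cls r x).card : ℝ) := by
    intro x
    rw [avg_def, ← sum_div, ← mul_sum]; ring
  simp_rw [h1, h2]
  rw [sum_cls_comm r hr]
  refine sum_congr rfl (fun y _ => sum_congr rfl (fun x hx => ?_))
  rw [cls_eq r hr ((mem_cls r).mp hx)]

theorem sum_avg (hr : Equivalence r) (f : α → ℝ) : ∑ x, avg r f x = ∑ x, f x := by
  have h := avg_symm r hr f (fun _ => 1)
  have h1 : avg r (fun _ => (1:ℝ)) = fun _ => 1 := by
    ext x; exact avg_eq_self r hr _ x (fun _ _ => rfl)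
  simpa [h1] using h

theorem avg_idem (hr : Equivalence r) (f : α → ℝ) : avg r (avg r f) = avg r f := by
  ext x
  exact avg_eq_self r hr _ x (fun y hy => (avg_congr r hr f hy).symm)

end basic

section two
variable (r s : α → α → Prop) [DecidableRel r] [DecidableRel s]

/-- coarse after fine, I -/
theorem avg_avg_of_le (hr : Equivalence r) (hs : Equivalence s) (h : ∀ x y, r x y → s x y)
    (f : α → ℝ) : avg r (avg s f) = avg s f := by
  ext x
  exact avg_eq_self r hr _ x (fun y hy => (avg_congr s hs f (h x y hy)).symm)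

/-- coarse after fine, II -/
theorem avg_avg_of_le' (hr : Equivalence r) (hs : Equivalence s) (h : ∀ x y, r x y → s x y)
    (f : α → ℝ) : avg s (avg r f) = avg s f := by
  ext x
  rw [avg_def, avg_def]
  congr 1
  have e1 : ∑ y ∈ cls s x, avg r f y = ∑ y, (if s x y then 1 else 0) * avg r f y := by
    simp [cls, sum_filter]
  have e2 : ∑ y ∈ cls s x, f y = ∑ y, (if s x y then 1 else 0) * f y := by
    simp [cls, sum_filter]
  rw [e1, e2]
  have := avg_symm r hr (fun y => if s x y then (1:ℝ) else 0) f
  rw [← this]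
  refine sum_congr rfl (fun y _ => ?_)
  congr 1
  refine avg_eq_self r hr _ y (fun z hz => ?_)
  have : s x z ↔ s x y := ⟨fun hh => hs.trans hh (hs.symm (h y z hz)), fun hh => hs.trans hh (h y z hz)⟩
  simp [this]

/-- commuting squares -/
theorem avg_comm (hr : Equivalence r) (hs : Equivalence s)
    (hc : ∀ x y z, r x y → s y z → ∃ w, s x w ∧ r w z)
    (hu : ∀ x y, r x y → s x y → x = y) (f : α → ℝ) :
    avg r (avg s f) = avg s (avg r f) := by
  classical
  -- the other completion
  have hc' : ∀ x y z, s x y → r y z → ∃ w, r x w ∧ s w z := by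
    intro x y z h1 h2
    obtain ⟨w, h3, h4⟩ := hc z y x (hr.symm h2) (hs.symm h1)
    exact ⟨w, hr.symm h4, hs.symm h3⟩
  -- class sizes
  have key : ∀ (r s : α → α → Prop) [DecidableRel r] [DecidableRel s], Equivalence r →
      Equivalence s → (∀ x y z, r x y → s y z → ∃ w, s x w ∧ r w z) →
      (∀ x y, r x y → s x y → x = y) → ∀ x y, r x y → (cls s x).card ≤ (cls s y).card := by
    intro r s _ _ hr hs hc hu x y hxy
    have hex : ∀ w ∈ cls s x, ∃ z, s y z ∧ r z w := by
      intro w hw
      exact hc y x w (hr.symm hxy) ((mem_cls s).mp hw)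
    choose! φ hφ using hex
    refine Finset.card_le_card_of_injOn φ (fun w hw => by
      simp only [coe_filter, Set.mem_ofPred_eq, mem_univ, true_and]
      exact (hφ w hw).1) ?_
    intro w hw w' hw' he
    have hw1 : w ∈ cls s x := hw
    have hw1' : w' ∈ cls s x := hw'
    have h1 := (hφ w hw1).2
    have h2 := (hφ w' hw1').2
    rw [← he] at h2
    exact hu w w' (hr.trans (hr.symm h1) h2)
      (hs.trans (hs.symm ((mem_cls s).mp hw1)) ((mem_cls s).mp hw1'))
  have hcard1 : ∀ x y, r x y → (cls s x).card = (cls s y).card := fun x y h =>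
    le_antisymm (key r s hr hs hc hu x y h) (key r s hr hs hc hu y x (hr.symm h))
  have hcard2 : ∀ x y, s x y → (cls r x).card = (cls r y).card := fun x y h =>
    le_antisymm (key s r hs hr hc' (fun x y h1 h2 => hu x y h2 h1) x y h)
      (key s r hs hr hc' (fun x y h1 h2 => hu x y h2 h1) y x (hs.symm h))
  ext x
  have e1 : avg r (avg s f) x =
      (∑ y ∈ cls r x, ∑ z ∈ cls s y, f z) / ((cls r x).card * (cls s x).card : ℝ) := by
    rw [avg_def]
    have : ∀ y ∈ cls r x, avg s f y = (∑ z ∈ cls s y, f z) / ((cls s x).card : ℝ) := by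
      intro y hy
      rw [avg_def, hcard1 x y ((mem_cls r).mp hy)]
    rw [sum_congr rfl this, ← sum_div, div_div, mul_comm]
  have e2 : avg s (avg r f) x =
      (∑ y ∈ cls s x, ∑ z ∈ cls r y, f z) / ((cls r x).card * (cls s x).card : ℝ) := by
    rw [avg_def]
    have : ∀ y ∈ cls s x, avg r f y = (∑ z ∈ cls r y, f z) / ((cls r x).card : ℝ) := by
      intro y hy
      rw [avg_def, hcard2 x y ((mem_cls s).mp hy)]
    rw [sum_congr rfl this, ← sum_div, div_div]
  rw [e1, e2]
  congr 1
  -- compare the double sums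
  have f1 : ∑ y ∈ cls r x, ∑ z ∈ cls s y, f z
      = ∑ z, ((univ.filter (fun y => r x y ∧ s y z)).card : ℝ) * f z := by
    simp only [cls, sum_filter]
    have : ∀ y, (if r x y then ∑ z, (if s y z then f z else 0) else 0)
        = ∑ z, (if r x y ∧ s y z then f z else 0) := by
      intro y
      by_cases h : r x y <;> simp [h]
    simp_rw [this]
    rw [sum_comm]
    refine sum_congr rfl (fun z _ => ?_)
    rw [← sum_filter, sum_const, nsmul_eq_mul]
  have f2 : ∑ y ∈ cls s x, ∑ z ∈ cls r y, f z
      = ∑ z, ((univ.filter (fun y => s x y ∧ r y z)).card : ℝ) * f z := by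
    simp only [cls, sum_filter]
    have : ∀ y, (if s x y then ∑ z, (if r y z then f z else 0) else 0)
        = ∑ z, (if s x y ∧ r y z then f z else 0) := by
      intro y
      by_cases h : s x y <;> simp [h]
    simp_rw [this]
    rw [sum_comm]
    refine sum_congr rfl (fun z _ => ?_)
    rw [← sum_filter, sum_const, nsmul_eq_mul]
  rw [f1, f2]
  refine sum_congr rfl (fun z _ => ?_)
  congr 2
  -- both cardinalities are 0 or 1
  have g1 : (univ.filter (fun y => r x y ∧ s y z)).card ≤ 1 := by
    refine Finset.card_le_one.mpr (fun a ha b hb => ?_)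
    simp only [mem_filter, mem_univ, true_and] at ha hb
    exact hu a b (hr.trans (hr.symm ha.1) hb.1) (hs.trans ha.2 (hs.symm hb.2))
  have g2 : (univ.filter (fun y => s x y ∧ r y z)).card ≤ 1 := by
    refine Finset.card_le_one.mpr (fun a ha b hb => ?_)
    simp only [mem_filter, mem_univ, true_and] at ha hb
    exact hu a b (hr.trans ha.2 (hr.symm hb.2)) (hs.trans (hs.symm ha.1) hb.1)
  have g3 : (univ.filter (fun y => r x y ∧ s y z)).Nonempty ↔
      (univ.filter (fun y => s x y ∧ r y z)).Nonempty := by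
    constructor
    · rintro ⟨y, hy⟩
      simp only [mem_filter, mem_univ, true_and] at hy
      obtain ⟨w, hw⟩ := hc x y z hy.1 hy.2
      exact ⟨w, by simp [hw]⟩
    · rintro ⟨y, hy⟩
      simp only [mem_filter, mem_univ, true_and] at hy
      obtain ⟨w, hw⟩ := hc' x y z hy.1 hy.2
      exact ⟨w, by simp [hw]⟩
  rw [← Finset.card_pos, ← Finset.card_pos] at g3
  omega

end two

end Crest.Agent.SC
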