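import Crest.Agent.SCDefs
import Crest.Agent.SCAvg

/-!
Trades between two rows, restricted trades, local relations, the switch relation.
-/

set_option autoImplicit false
set_option linter.unusedSectionVars false
set_option linter.unusedVariables false

namespace Crest.Agent.SC

open Finset

section trz
variable {V : Type} [DecidableEq V]

/-- trades between the rows `u`, `w` in the columns `Z` -/
def TrZ (Z : Finset V) (u w : V) (G G' : Gr V) : Prop :=
  (∀ e : Sym2 V, (∀ z ∈ Z, e ≠ s(u, z) ∧ e ≠ s(w, z)) → G e = G' e) ∧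
  (∀ z ∈ Z,
    (G s(u, z)).toNat + (G s(w, z)).toNat = (G' s(u, z)).toNat + (G' s(w, z)).toNat) ∧
  ∑ z ∈ Z, (G s(u, z)).toNat = ∑ z ∈ Z, (G' s(u, z)).toNat

/-- slots of a restricted trade -/
def Slots (Z : Finset V) (u w : V) (e : Sym2 V) : Prop := ∃ z ∈ Z, e = s(u, z) ∨ e = s(w, z)

theorem not_slots {Z : Finset V} {u w : V} {e : Sym2 V} :
    ¬ Slots Z u w e ↔ ∀ z ∈ Z, e ≠ s(u, z) ∧ e ≠ s(w, z) := by
  simp only [Slots, not_exists, not_and, not_or]

theorem slots_u {Z : Finset V} {u w z : V} (hz : z ∈ Z) : Slots Z u w s(u, z) :=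
  ⟨z, hz, Or.inl rfl⟩

theorem slots_w {Z : Finset V} {u w z : V} (hz : z ∈ Z) : Slots Z u w s(w, z) :=
  ⟨z, hz, Or.inr rfl⟩

theorem TrZ_equiv (Z : Finset V) (u w : V) : Equivalence (TrZ Z u w) where
  refl G := ⟨fun _ _ => rfl, fun _ _ => rfl, rfl⟩
  symm h := ⟨fun e he => (h.1 e he).symm, fun z hz => (h.2.1 z hz).symm, h.2.2.symm⟩
  trans h h' := ⟨fun e he => (h.1 e he).trans (h'.1 e he),
    fun z hz => (h.2.1 z hz).trans (h'.2.1 z hz), h.2.2.trans h'.2.2⟩

/-- relations that live on the slots `P` -/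
structure Loc (P : Sym2 V → Prop) (r : Gr V → Gr V → Prop) : Prop where
  off : ∀ G G', r G G' → ∀ e, ¬ P e → G e = G' e
  tr : ∀ G G' H H', r G G' → (∀ e, P e → G e = H e) → (∀ e, P e → G' e = H' e) →
    (∀ e, ¬ P e → H e = H' e) → r H H'

theorem TrZ_loc (Z : Finset V) (u w : V) : Loc (Slots Z u w) (TrZ Z u w) where
  off G G' h e he := h.1 e (not_slots.mp he)
  tr G G' H H' h h1 h2 h3 := by
    refine ⟨fun e he => h3 e (not_slots.mpr he), fun z hz => ?_, ?_⟩
    · rw [← h1 _ (slots_u hz), ← h1 _ (slots_w hz), ← h2 _ (slots_u hz), ← h2 _ (slots_w hz)]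
      exact h.2.1 z hz
    · rw [← sum_congr rfl (fun z hz => by rw [← h1 _ (slots_u hz)] :
          ∀ z ∈ Z, (G s(u, z)).toNat = (H s(u, z)).toNat),
        ← sum_congr rfl (fun z hz => by rw [← h2 _ (slots_u hz)] :
          ∀ z ∈ Z, (G' s(u, z)).toNat = (H' s(u, z)).toNat)]
      exact h.2.2

end trz

section com
variable {V : Type} [Fintype V] [DecidableEq V]

theorem avg_comm_loc {P Q : Sym2 V → Prop} {r s : Gr V → Gr V → Prop} [DecidableRel r]
    [DecidableRel s] (hr : Equivalence r) (hs : Equivalence s) (hP : Loc P r) (hQ : Loc Q s)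
    (hPQ : ∀ e, P e → ¬ Q e) (f : Gr V → ℝ) : avg r (avg s f) = avg s (avg r f) := by
  classical
  apply avg_comm r s hr hs
  · intro x y z hxy hyz
    refine ⟨fun e => if Q e then z e else x e, ?_, ?_⟩
    · refine hQ.tr y z _ _ hyz (fun e he => ?_) (fun e he => by simp [he])
        (fun e he => by simp [he])
      exact (hP.off x y hxy e (fun h => hPQ e h he)).symm
    · refine hP.tr x y _ _ hxy (fun e he => by simp [hPQ e he])
        (fun e he => hQ.off y z hyz e (hPQ e he)) (fun e he => ?_)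
      by_cases h : Q e
      · simp [h]
      · simp only [h, if_false]
        exact (hP.off x y hxy e he).trans (hQ.off y z hyz e h)
  · intro x y h1 h2
    funext e
    by_cases h : P e
    · exact hQ.off x y h2 e (hPQ e h)
    · exact hP.off x y h1 e h

/-- all columns -/
abbrev cols (u w : V) : Finset V := univ.filter (fun z => z ≠ u ∧ z ≠ w)

/-- all columns outside `p, q` -/
abbrev cols4 (u w p q : V) : Finset V :=
  univ.filter (fun z => z ≠ u ∧ z ≠ w ∧ z ≠ p ∧ z ≠ q)

theorem Tr_iff {u w : V} {G G' : Gr V} : Tr u w G G' ↔ TrZ (cols u w) u w G G' := by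
  simp [Tr, TrZ]

theorem Tr_eq (u w : V) : Tr u w = TrZ (cols u w) u w := by
  ext G G'; exact Tr_iff

theorem Tr_equiv (u w : V) : Equivalence (Tr u w) := by
  rw [Tr_eq]; exact TrZ_equiv _ _ _

theorem Tr_loc (u w : V) : Loc (Slots (cols u w) u w) (Tr u w) := by
  rw [Tr_eq]; exact TrZ_loc _ _ _

theorem Tr_swap {u w : V} {G G' : Gr V} (h : Tr u w G G') : Tr w u G G' := by
  obtain ⟨h1, h2, h3⟩ := h
  refine ⟨fun e he => h1 e (fun z hz hz' => (he z hz' hz).symm), fun z hz hz' => ?_, ?_⟩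
  · have := h2 z hz' hz; omega
  · have e1 : univ.filter (fun z => z ≠ w ∧ z ≠ u) = univ.filter (fun z => z ≠ u ∧ z ≠ w) := by
      ext z; simp [and_comm]
    rw [e1]
    have h4 : ∑ z ∈ univ.filter (fun z => z ≠ u ∧ z ≠ w),
        ((G s(u, z)).toNat + (G s(w, z)).toNat) =
        ∑ z ∈ univ.filter (fun z => z ≠ u ∧ z ≠ w),
        ((G' s(u, z)).toNat + (G' s(w, z)).toNat) :=
      sum_congr rfl (fun z hz => by
        simp only [mem_filter, mem_univ, true_and] at hz
        exact h2 z hz.1 hz.2)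
    rw [sum_add_distrib, sum_add_distrib] at h4
    omega

theorem Tr_swap_iff {u w : V} {G G' : Gr V} : Tr u w G G' ↔ Tr w u G G' :=
  ⟨Tr_swap, Tr_swap⟩

theorem avg_rel_congr {α : Type*} [Fintype α] {r s : α → α → Prop} [DecidableRel r]
    [DecidableRel s] (f : α → ℝ) (x : α) (h : ∀ y, r x y ↔ s x y) : avg r f x = avg s f x := by
  have : univ.filter (fun y => r x y) = univ.filter (fun y => s x y) := by
    ext y; simp [h]
  simp only [avg, this]

theorem avg_Tr_swap (u w : V) (f : Gr V → ℝ) : avg (Tr u w) f = avg (Tr w u) f := by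
  ext G
  exact avg_rel_congr f G (fun y => Tr_swap_iff)

end com

section switch
variable {V : Type} [DecidableEq V]

theorem D4.ne {u w a b : V} (h : D4 u w a b) :
    s(u, a) ≠ s(w, a) ∧ s(u, a) ≠ s(u, b) ∧ s(u, a) ≠ s(w, b) ∧
    s(w, a) ≠ s(u, b) ∧ s(w, a) ≠ s(w, b) ∧ s(u, b) ≠ s(w, b) := by
  obtain ⟨h1, h2, h3, h4, h5, h6⟩ := h
  simp only [ne_eq, Sym2.eq_iff, not_or, not_and]
  refine ⟨⟨?_, ?_⟩, ⟨?_, ?_⟩, ⟨?_, ?_⟩, ⟨?_, ?_⟩, ⟨?_, ?_⟩, ⟨?_, ?_⟩⟩ <;> tauto

theorem D4.swap {u w a b : V} (h : D4 u w a b) : D4 a b u w := by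
  obtain ⟨h1, h2, h3, h4, h5, h6⟩ := h
  exact ⟨h6, h2.symm, h4.symm, h3.symm, h5.symm, h1⟩

theorem Alt_iff {u w a b : V} {G : Gr V} : Alt u w a b G ↔
    (G s(u, a) = !G s(w, a)) ∧ (G s(u, b) = G s(w, a)) ∧ (G s(w, b) = !G s(w, a)) := by
  unfold Alt
  cases G s(u, a) <;> cases G s(w, a) <;> cases G s(u, b) <;> cases G s(w, b) <;> simp

theorem Alt_swap {u w a b : V} {G : Gr V} : Alt a b u w G ↔ Alt u w a b G := by
  unfold Alt
  rw [Sym2.eq_swap (a := a) (b := u), Sym2.eq_swap (a := b) (b := u),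
    Sym2.eq_swap (a := a) (b := w), Sym2.eq_swap (a := b) (b := w)]
  cases G s(u, a) <;> cases G s(w, a) <;> cases G s(u, b) <;> cases G s(w, b) <;> simp

theorem Alt_cols {u w a b : V} {G : Gr V} : Alt u w b a G ↔ Alt u w a b G := by
  unfold Alt
  cases G s(u, a) <;> cases G s(w, a) <;> cases G s(u, b) <;> cases G s(w, b) <;> simp

theorem sw_of_not {u w a b : V} {G : Gr V} (h : ¬ Alt u w a b G) : sw u w a b G = G := by
  simp [sw, h]

theorem sw_of {u w a b : V} {G : Gr V} (h : Alt u w a b G) : sw u w a b G =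
    fun e => if e = s(u, a) ∨ e = s(w, a) ∨ e = s(u, b) ∨ e = s(w, b) then !G e else G e := by
  simp [sw, h]

theorem sw_swap {u w a b : V} (G : Gr V) : sw a b u w G = sw u w a b G := by
  by_cases h : Alt u w a b G
  · rw [sw_of h, sw_of (Alt_swap.mpr h)]
    funext e
    rw [Sym2.eq_swap (a := a) (b := u), Sym2.eq_swap (a := b) (b := u),
      Sym2.eq_swap (a := a) (b := w), Sym2.eq_swap (a := b) (b := w)]
    congr 1
    simp only [eq_iff_iff]
    tauto
  · rw [sw_of_not h, sw_of_not (fun h' => h (Alt_swap.mp h'))]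

theorem sw_cols {u w a b : V} (G : Gr V) : sw u w b a G = sw u w a b G := by
  by_cases h : Alt u w a b G
  · rw [sw_of h, sw_of (Alt_cols.mpr h)]
    funext e
    congr 1
    simp only [eq_iff_iff]
    tauto
  · rw [sw_of_not h, sw_of_not (fun h' => h (Alt_cols.mp h'))]

theorem sw_ua {u w a b : V} {G : Gr V} (h : Alt u w a b G) :
    sw u w a b G s(u, a) = !G s(u, a) := by simp [sw_of h]
theorem sw_wa {u w a b : V} {G : Gr V} (h : Alt u w a b G) :
    sw u w a b G s(w, a) = !G s(w, a) := by simp [sw_of h]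
theorem sw_ub {u w a b : V} {G : Gr V} (h : Alt u w a b G) :
    sw u w a b G s(u, b) = !G s(u, b) := by simp [sw_of h]
theorem sw_wb {u w a b : V} {G : Gr V} (h : Alt u w a b G) :
    sw u w a b G s(w, b) = !G s(w, b) := by simp [sw_of h]
theorem sw_off {u w a b : V} {G : Gr V} {e : Sym2 V} (h1 : e ≠ s(u, a)) (h2 : e ≠ s(w, a))
    (h3 : e ≠ s(u, b)) (h4 : e ≠ s(w, b)) : sw u w a b G e = G e := by
  unfold sw
  split_ifs
  · simp [h1, h2, h3, h4]
  · rfl

theorem Alt_sw {u w a b : V} {G : Gr V} : Alt u w a b (sw u w a b G) ↔ Alt u w a b G := by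
  by_cases h : Alt u w a b G
  · simp only [h, iff_true]
    have h' := h
    unfold Alt at h ⊢
    rw [sw_ua h', sw_wa h', sw_ub h', sw_wb h']
    simpa using h
  · rw [sw_of_not h]

theorem sw_sw {u w a b : V} (G : Gr V) : sw u w a b (sw u w a b G) = G := by
  by_cases h : Alt u w a b G
  · rw [sw_of (Alt_sw.mpr h)]
    funext e
    rw [sw_of h]
    by_cases he : e = s(u, a) ∨ e = s(w, a) ∨ e = s(u, b) ∨ e = s(w, b)
    · simp [he]
    · simp [he]
  · rw [sw_of_not h, sw_of_not h]

/-- the switch relation -/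
def rSw (u w a b : V) (G G' : Gr V) : Prop := G' = G ∨ G' = sw u w a b G

theorem rSw_equiv (u w a b : V) : Equivalence (rSw u w a b) where
  refl _ := Or.inl rfl
  symm {x y} h := by
    rcases h with h | h
    · exact Or.inl h.symm
    · right; rw [h, sw_sw]
  trans {x y z} h h' := by
    rcases h with h | h <;> rcases h' with h' | h'
    · left; rw [h', h]
    · right; rw [h', h]
    · right; rw [h', h]
    · left; rw [h', h, sw_sw]

/-- block slots -/
def Blk (u w a b : V) (e : Sym2 V) : Prop :=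
  e = s(u, a) ∨ e = s(w, a) ∨ e = s(u, b) ∨ e = s(w, b)

theorem rSw_loc (u w a b : V) : Loc (Blk u w a b) (rSw u w a b) where
  off G G' h e he := by
    simp only [Blk, not_or] at he
    rcases h with h | h
    · rw [h]
    · rw [h, sw_off he.1 he.2.1 he.2.2.1 he.2.2.2]
  tr G G' H H' h h1 h2 h3 := by
    rcases h with h | h
    · left
      funext e
      by_cases he : Blk u w a b e
      · rw [← h1 e he, ← h2 e he, h]
      · exact (h3 e he).symm
    · right
      have e1 := h1 s(u, a) (Or.inl rfl)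
      have e2 := h1 s(w, a) (Or.inr (Or.inl rfl))
      have e3 := h1 s(u, b) (Or.inr (Or.inr (Or.inl rfl)))
      have e4 := h1 s(w, b) (Or.inr (Or.inr (Or.inr rfl)))
      have hA : Alt u w a b G ↔ Alt u w a b H := by
        unfold Alt; rw [e1, e2, e3, e4]
      funext e
      by_cases he : Blk u w a b e
      · rw [← h2 e he, h]
        by_cases hG : Alt u w a b G
        · rw [sw_of hG, sw_of (hA.mp hG)]
          have he' := he
          unfold Blk at he'
          simp only [he', if_true]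
          rw [h1 e he]
        · rw [sw_of_not hG, sw_of_not (fun h' => hG (hA.mpr h')), h1 e he]
      · have he' := he
        simp only [Blk, not_or] at he'
        rw [sw_off he'.1 he'.2.1 he'.2.2.1 he'.2.2.2]
        exact (h3 e he).symm

end switch

section switch2
variable {V : Type} [Fintype V] [DecidableEq V]

instance (u w a b : V) : DecidableRel (rSw u w a b) := fun G G' => by
  unfold rSw; infer_instance

theorem avg_rSw (u w a b : V) (f : Gr V → ℝ) (G : Gr V) :
    avg (rSw u w a b) f G = (f G + f (sw u w a b G)) / 2 := by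
  by_cases h : sw u w a b G = G
  · rw [h, avg_eq_self _ (rSw_equiv _ _ _ _) f G]
    · ring
    · intro y hy
      rcases hy with hy | hy
      · rw [hy]
      · rw [hy, h]
  · have hc : (univ.filter (fun y => rSw u w a b G y)) = {G, sw u w a b G} := by
      ext y
      rw [mem_filter, mem_insert, mem_singleton]
      simp only [mem_univ, true_and]
      exact Iff.rfl
    unfold avg
    rw [hc, sum_pair (Ne.symm h), card_pair (Ne.symm h)]
    norm_num

/-- sums over the four-element block -/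
theorem sum_cols (u w p q : V) (h : D4 u w p q) (F : V → ℕ) :
    ∑ z ∈ cols u w, F z = F p + F q + ∑ z ∈ cols4 u w p q, F z := by
  obtain ⟨h1, h2, h3, h4, h5, h6⟩ := h
  have e1 : cols u w = insert p (insert q (cols4 u w p q)) := by
    ext z
    simp only [cols, cols4, mem_filter, mem_univ, true_and, mem_insert]
    constructor
    · intro hz
      by_cases hp : z = p
      · simp [hp]
      · by_cases hq : z = q
        · simp [hq]
        · simp [hz, hp, hq]
    · rintro (rfl | rfl | hz)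
      · exact ⟨Ne.symm h2, Ne.symm h4⟩
      · exact ⟨Ne.symm h3, Ne.symm h5⟩
      · exact ⟨hz.1, hz.2.1⟩
  rw [e1, sum_insert, sum_insert, add_assoc]
  · simp
  · simp [h6]

theorem sw_Tr {u w a b : V} (h : D4 u w a b) (G : Gr V) : Tr u w G (sw u w a b G) := by
  by_cases hA : Alt u w a b G
  · have hA' := hA
    have hne := h.ne
    obtain ⟨h1, h2, h3, h4, h5, h6⟩ := h
    have e0 : ∀ z, z ≠ a → z ≠ b → z ≠ u → z ≠ w →
        sw u w a b G s(u, z) = G s(u, z) ∧ sw u w a b G s(w, z) = G s(w, z) := by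
      intro z ha hb hu hw
      constructor
      · apply sw_off <;> simp only [ne_eq, Sym2.eq_iff, not_or, not_and] <;>
          constructor <;> tauto
      · apply sw_off <;> simp only [ne_eq, Sym2.eq_iff, not_or, not_and] <;>
          constructor <;> tauto
    rw [Alt_iff] at hA
    refine ⟨fun e he => ?_, fun z hz hz' => ?_, ?_⟩
    · have ha := he a h2.symm h4.symm
      have hb := he b h3.symm h5.symm
      exact (sw_off ha.1 ha.2 hb.1 hb.2).symm
    · by_cases ha : z = a
      · subst ha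
        rw [sw_ua hA', sw_wa hA', hA.1]
        cases G s(w, z) <;> simp
      · by_cases hb : z = b
        · subst hb
          rw [sw_ub hA', sw_wb hA', hA.2.1, hA.2.2]
          cases G s(w, a) <;> simp
        · rw [(e0 z ha hb hz hz').1, (e0 z ha hb hz hz').2]
    · change ∑ z ∈ cols u w, _ = ∑ z ∈ cols u w, _
      rw [sum_cols u w a b ⟨h1, h2, h3, h4, h5, h6⟩, sum_cols u w a b ⟨h1, h2, h3, h4, h5, h6⟩]
      have : ∀ z ∈ cols4 u w a b, (G s(u, z)).toNat = (sw u w a b G s(u, z)).toNat := by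
        intro z hz
        simp only [cols4, mem_filter, mem_univ, true_and] at hz
        rw [(e0 z hz.2.2.1 hz.2.2.2 hz.1 hz.2.1).1]
      rw [sum_congr rfl this, sw_ua hA', sw_ub hA', hA.1, hA.2.1]
      cases G s(w, a) <;> simp
  · rw [sw_of_not hA]
    exact (Tr_equiv u w).refl G

theorem rSw_le_Tr {u w a b : V} (h : D4 u w a b) {G G' : Gr V} (hr : rSw u w a b G G') :
    Tr u w G G' := by
  rcases hr with hr | hr
  · rw [hr]; exact (Tr_equiv u w).refl G
  · rw [hr]; exact sw_Tr h G

theorem rSw_le_Tr' {u w a b : V} (h : D4 u w a b) {G G' : Gr V} (hr : rSw u w a b G G') :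
    Tr a b G G' := by
  rcases hr with hr | hr
  · rw [hr]; exact (Tr_equiv a b).refl G
  · rw [hr, ← sw_swap]; exact sw_Tr h.swap G

end switch2

end Crest.Agent.SC
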