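import Crest.Agent.SCStar
import Crest.Agent.SCTrade
import Crest.Agent.SCProj
import Crest.Agent.SCSpec

/-!
Overlapping pairs: transfer to three-row column systems and the triple inequality.
-/

set_option autoImplicit false
set_option linter.unusedSectionVars false
set_option linter.unusedVariables false

namespace Crest.Agent.SC

open Finset

section transfer
variable {V : Type} [Fintype V] [DecidableEq V] (t : Fin 3 → V)

/-- columns of the three-row system. -/
abbrev Col : Type := Option {z : V // ∀ k, z ≠ t k}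

/-- slots. -/
def sl (c : Col t) (k : Fin 3) : Sym2 V :=
  match c with
  | none => s(t (k + 1), t (k + 2))
  | some z => s(t k, z.1)

/-- flip for the internal column. -/
def fl (c : Col t) (b : Bool) : Bool := if c = none then !b else b

lemma fl_fl (c : Col t) (b : Bool) : fl t c (fl t c b) = b := by
  unfold fl; split_ifs <;> simp

lemma sl_none {i j k : Fin 3} (hij : i ≠ j) (hik : i ≠ k) (hjk : j ≠ k) :
    sl t none k = s(t i, t j) := by
  have : (k + 1 = i ∧ k + 2 = j) ∨ (k + 1 = j ∧ k + 2 = i) := by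
    revert i j k; decide
  unfold sl
  rcases this with ⟨h1, h2⟩ | ⟨h1, h2⟩
  · simp only [h1, h2]
  · simp only [h1, h2]; exact Sym2.eq_swap

lemma sl_inj (ht : Function.Injective t) {c c' : Col t} {k k' : Fin 3}
    (h : sl t c k = sl t c' k') : c = c' ∧ k = k' := by
  have hk : ∀ k : Fin 3, k + 1 ≠ k + 2 := by decide
  rcases c with _ | z <;> rcases c' with _ | z'
  · simp only [sl, Sym2.eq_iff] at h
    refine ⟨rfl, ?_⟩
    have : ∀ k k' : Fin 3, ((k + 1 = k' + 1 ∧ k + 2 = k' + 2) ∨ (k + 1 = k' + 2 ∧ k + 2 = k' + 1)) →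
        k = k' := by decide
    apply this
    rcases h with ⟨h1, h2⟩ | ⟨h1, h2⟩
    · exact Or.inl ⟨ht h1, ht h2⟩
    · exact Or.inr ⟨ht h1, ht h2⟩
  · exfalso
    simp only [sl, Sym2.eq_iff] at h
    rcases h with ⟨h1, h2⟩ | ⟨h1, h2⟩
    · exact z'.2 _ h2.symm
    · exact z'.2 _ h1.symm
  · exfalso
    simp only [sl, Sym2.eq_iff] at h
    rcases h with ⟨h1, h2⟩ | ⟨h1, h2⟩
    · exact z.2 _ h2
    · exact z.2 _ h2
  · simp only [sl, Sym2.eq_iff] at h
    rcases h with ⟨h1, h2⟩ | ⟨h1, h2⟩
    · exact ⟨by rw [Subtype.ext h2], ht h1⟩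
    · exact absurd h2 (z.2 _)

/-- is `e` a slot -/
def IsSl (e : Sym2 V) : Prop := ∃ p : Col t × Fin 3, sl t p.1 p.2 = e

open Classical in
/-- insertion of a column system. -/
noncomputable def ins (G0 : Gr V) (y : Col t → Fin 3 → Bool) : Gr V := fun e =>
  if h : IsSl t e then fl t (Classical.choose h).1 (y (Classical.choose h).1 (Classical.choose h).2)
  else G0 e

/-- restriction to the column system. -/
def res (G : Gr V) : Col t → Fin 3 → Bool := fun c k => fl t c (G (sl t c k))

lemma ins_sl (ht : Function.Injective t) (G0 : Gr V) (y : Col t → Fin 3 → Bool) (c : Col t)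
    (k : Fin 3) : ins t G0 y (sl t c k) = fl t c (y c k) := by
  have h : IsSl t (sl t c k) := ⟨(c, k), rfl⟩
  unfold ins
  rw [dif_pos h]
  have h2 := Classical.choose_spec h
  obtain ⟨h3, h4⟩ := sl_inj t ht h2
  rw [h3, h4]

lemma ins_off (G0 : Gr V) (y : Col t → Fin 3 → Bool) {e : Sym2 V} (he : ¬ IsSl t e) :
    ins t G0 y e = G0 e := by
  unfold ins; rw [dif_neg he]

lemma res_ins (ht : Function.Injective t) (G0 : Gr V) (y : Col t → Fin 3 → Bool) :
    res t (ins t G0 y) = y := by
  funext c k
  unfold res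
  rw [ins_sl t ht, fl_fl]

lemma ins_res (ht : Function.Injective t) (G0 G : Gr V) (h : ∀ e, ¬ IsSl t e → G e = G0 e) :
    ins t G0 (res t G) = G := by
  funext e
  by_cases he : IsSl t e
  · obtain ⟨⟨c, k⟩, rfl⟩ := he
    simp only
    rw [ins_sl t ht]
    unfold res
    rw [fl_fl]
  · rw [ins_off t _ _ he, h e he]

lemma sum_col (g : Col t → ℕ) : ∑ c, g c = g none + ∑ z : {z : V // ∀ k, z ≠ t k}, g (some z) :=
  Fintype.sum_option g

/-- splitting the sum over the columns of rows `t i`, `t j`. -/
lemma sum_split (ht : Function.Injective t) {i j k : Fin 3} (hij : i ≠ j) (hik : i ≠ k)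
    (hjk : j ≠ k) (g : V → ℕ) :
    ∑ z ∈ univ.filter (fun z => z ≠ t i ∧ z ≠ t j), g z =
      g (t k) + ∑ z : {z : V // ∀ k, z ≠ t k}, g z.1 := by
  have h1 : univ.filter (fun z => z ≠ t i ∧ z ≠ t j) =
      insert (t k) (univ.filter (fun z => ∀ k, z ≠ t k)) := by
    ext z
    simp only [mem_filter, mem_univ, true_and, mem_insert]
    constructor
    · rintro ⟨h1, h2⟩
      by_cases h3 : z = t k
      · exact Or.inl h3
      · right
        intro m
        rcases three hij hik hjk m with rfl | rfl | rfl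
        · exact h1
        · exact h2
        · exact h3
    · rintro (rfl | h)
      · exact ⟨fun h => hik (ht h).symm, fun h => hjk (ht h).symm⟩
      · exact ⟨h i, h j⟩
  rw [h1, sum_insert]
  · congr 1
    exact sum_subtype _ (by intro x; simp) g
  · simp only [mem_filter, mem_univ, true_and, not_forall, not_not]
    exact ⟨k, rfl⟩

lemma tr_iff (ht : Function.Injective t) {i j : Fin 3} (hij : i ≠ j) (G G' : Gr V) :
    Tr (t i) (t j) G G' ↔ (∀ e, ¬ IsSl t e → G e = G' e) ∧ TrY i j (res t G) (res t G') := by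
  obtain ⟨k, hik, hjk⟩ := third i j hij
  have sk : sl t none k = s(t i, t j) := sl_none t hij hik hjk
  have si : sl t none i = s(t j, t k) := sl_none t hjk hij.symm hik.symm
  have sj : sl t none j = s(t i, t k) := sl_none t hik hij hjk.symm
  have hnot : ∀ a b : Bool, ((!a).toNat + (!b).toNat) + (a.toNat + b.toNat) = 2 := by decide
  have hn1 : ∀ a : Bool, (!a).toNat + a.toNat = 1 := by decide
  have rn : ∀ (H : Gr V) (m : Fin 3), res t H none m = !H (sl t none m) := by
    intro H m; simp [res, fl]
  have rs : ∀ (H : Gr V) (z : {z : V // ∀ k, z ≠ t k}) (m : Fin 3),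
      res t H (some z) m = H s(t m, z.1) := by
    intro H z m; simp [res, fl, sl]
  constructor
  · rintro ⟨h1, h2, h3⟩
    refine ⟨?_, ?_, ?_, ?_⟩
    · intro e he
      apply h1
      intro z hz hz'
      constructor
      · rintro rfl
        apply he
        by_cases hzk : z = t k
        · subst hzk; exact ⟨(none, j), sj⟩
        · refine ⟨(some ⟨z, ?_⟩, i), rfl⟩
          intro m
          rcases three hij hik hjk m with rfl | rfl | rfl
          · exact hz
          · exact hz'
          · exact hzk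
      · rintro rfl
        apply he
        by_cases hzk : z = t k
        · subst hzk; exact ⟨(none, i), si⟩
        · refine ⟨(some ⟨z, ?_⟩, j), rfl⟩
          intro m
          rcases three hij hik hjk m with rfl | rfl | rfl
          · exact hz
          · exact hz'
          · exact hzk
    · intro c m hm hm'
      have hmk : m = k := by
        rcases three hij hik hjk m with h | h | h
        · exact absurd h hm
        · exact absurd h hm'
        · exact h
      subst hmk
      rcases c with _ | z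
      · rw [rn, rn, sk, h1]
        intro z hz hz'
        constructor
        · intro h
          rw [Sym2.eq_iff] at h
          rcases h with ⟨-, h⟩ | ⟨h, -⟩
          · exact hz' h.symm
          · exact hz h.symm
        · intro h
          rw [Sym2.eq_iff] at h
          rcases h with ⟨h, -⟩ | ⟨h, -⟩
          · exact hij (ht h)
          · exact hz h.symm
      · rw [rs, rs, h1]
        intro z' hz hz'
        constructor
        · intro h
          rw [Sym2.eq_iff] at h
          rcases h with ⟨h, -⟩ | ⟨h, h'⟩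
          · exact hik (ht h).symm
          · exact z.2 i h'
        · intro h
          rw [Sym2.eq_iff] at h
          rcases h with ⟨h, -⟩ | ⟨h, h'⟩
          · exact hjk (ht h).symm
          · exact z.2 j h'
    · intro c
      rcases c with _ | z
      · rw [rn, rn, rn, rn, si, sj]
        have h4 := h2 (t k) (fun h => hik (ht h).symm) (fun h => hjk (ht h).symm)
        have h5 := hnot (G s(t j, t k)) (G s(t i, t k))
        have h6 := hnot (G' s(t j, t k)) (G' s(t i, t k))
        omega
      · rw [rs, rs, rs, rs]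
        exact h2 z.1 (z.2 i) (z.2 j)
    · rw [sum_col, sum_col]
      rw [sum_split t ht hij hik hjk, sum_split t ht hij hik hjk] at h3
      simp only [rn, rs, si]
      have h4 := h2 (t k) (fun h => hik (ht h).symm) (fun h => hjk (ht h).symm)
      have h5 := hn1 (G s(t j, t k))
      have h6 := hn1 (G' s(t j, t k))
      omega
  · rintro ⟨h0, h1, h2, h3⟩
    have h4 : (G s(t i, t k)).toNat + (G s(t j, t k)).toNat =
        (G' s(t i, t k)).toNat + (G' s(t j, t k)).toNat := by
      have := h2 none
      rw [rn, rn, rn, rn, si, sj] at this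
      have h5 := hnot (G s(t j, t k)) (G s(t i, t k))
      have h6 := hnot (G' s(t j, t k)) (G' s(t i, t k))
      omega
    refine ⟨?_, ?_, ?_⟩
    · intro e he
      by_cases hs : IsSl t e
      · obtain ⟨⟨c, m⟩, rfl⟩ := hs
        simp only at he ⊢
        rcases three hij hik hjk m with rfl | rfl | rfl
        · exfalso
          rcases c with _ | z
          · rw [si] at he
            exact (he (t k) (fun h => hik (ht h).symm) (fun h => hjk (ht h).symm)).2 rfl
          · exact (he z.1 (z.2 _) (z.2 _)).1 rfl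
        · exfalso
          rcases c with _ | z
          · rw [sj] at he
            exact (he (t k) (fun h => hik (ht h).symm) (fun h => hjk (ht h).symm)).1 rfl
          · exact (he z.1 (z.2 _) (z.2 _)).2 rfl
        · have := h1 c m hik.symm hjk.symm
          unfold res at this
          have h5 := congrArg (fl t c) this
          rwa [fl_fl, fl_fl] at h5
      · exact h0 e hs
    · intro z hz hz'
      by_cases hzk : z = t k
      · subst hzk; exact h4
      · have hzall : ∀ m, z ≠ t m := by
          intro m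
          rcases three hij hik hjk m with rfl | rfl | rfl
          · exact hz
          · exact hz'
          · exact hzk
        have := h2 (some ⟨z, hzall⟩)
        rwa [rs, rs, rs, rs] at this
    · rw [sum_split t ht hij hik hjk, sum_split t ht hij hik hjk]
      rw [sum_col, sum_col] at h3
      simp only [rn, rs, si] at h3
      have h5 := hn1 (G s(t j, t k))
      have h6 := hn1 (G' s(t j, t k))
      omega


lemma avg_ins (ht : Function.Injective t) {i j : Fin 3} (hij : i ≠ j) (G0 : Gr V) (f : Gr V → ℝ)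
    (y : Col t → Fin 3 → Bool) :
    avg (TrY i j) (fun y => f (ins t G0 y)) y = avg (Tr (t i) (t j)) f (ins t G0 y) := by
  classical
  have himg : cls (Tr (t i) (t j)) (ins t G0 y) = (cls (TrY i j) y).image (ins t G0) := by
    ext G'
    rw [mem_cls, mem_image, tr_iff t ht hij, res_ins t ht]
    constructor
    · rintro ⟨h1, h2⟩
      refine ⟨res t G', (mem_cls _).mpr h2, ?_⟩
      apply ins_res t ht
      intro e he
      rw [← h1 e he, ins_off t _ _ he]
    · rintro ⟨y', hy', rfl⟩
      rw [mem_cls] at hy'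
      rw [res_ins t ht]
      exact ⟨fun e he => by rw [ins_off t _ _ he, ins_off t _ _ he], hy'⟩
  have hinj : Function.Injective (ins t G0) := by
    intro y1 y2 h
    rw [← res_ins t ht G0 y1, h, res_ins t ht]
  rw [avg_def, avg_def, himg, sum_image (fun x _ y _ h => hinj h), card_image_of_injective _ hinj]

lemma triple_const (ht : Function.Injective t) (f : Gr V → ℝ) (lam : ℝ) (hlam : 2 < lam)
    (h : ∀ G, avg (Tr (t 0) (t 1)) f G + avg (Tr (t 0) (t 2)) f G + avg (Tr (t 1) (t 2)) f G =
      lam * f G) {i j : Fin 3} (hij : (i = 0 ∧ j = 1) ∨ (i = 0 ∧ j = 2) ∨ (i = 1 ∧ j = 2))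
    {G G' : Gr V} (hT : Tr (t i) (t j) G G') : f G = f G' := by
  have hne : i ≠ j := by
    rcases hij with ⟨rfl, rfl⟩ | ⟨rfl, rfl⟩ | ⟨rfl, rfl⟩ <;> decide
  have key := starY (fun y => f (ins t G y)) lam hlam (by
    intro y
    rw [avg_ins t ht (by decide), avg_ins t ht (by decide), avg_ins t ht (by decide)]
    exact h _)
  obtain ⟨h1, h2⟩ := (tr_iff t ht hne G G').mp hT
  have e1 : ins t G (res t G) = G := ins_res t ht G G (fun _ _ => rfl)
  have e2 : ins t G (res t G') = G' := ins_res t ht G G' (fun e he => (h1 e he).symm)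
  have h3 := key (res t G) (res t G') (by
    rcases hij with ⟨rfl, rfl⟩ | ⟨rfl, rfl⟩ | ⟨rfl, rfl⟩
    · exact Or.inl h2
    · exact Or.inr (Or.inl h2)
    · exact Or.inr (Or.inr h2))
  rwa [e1, e2] at h3

end transfer

section triple
variable {V : Type} [Fintype V] [DecidableEq V]

/-- `f - avg f` -/
noncomputable def Aop (a b : V) (f : Gr V → ℝ) : Gr V → ℝ := fun G => f G - avg (Tr a b) f G

lemma Aop_comm (a b : V) (f : Gr V → ℝ) : Aop a b f = Aop b a f := by
  unfold Aop; rw [avg_Tr_swap]

/-- the triple inequality -/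
theorem triple_ineq {a b c : V} (hab : a ≠ b) (hac : a ≠ c) (hbc : b ≠ c) (f : Gr V → ℝ) :
    0 ≤ ∑ G, Aop a b f G * Aop a c f G + ∑ G, Aop b a f G * Aop b c f G +
      ∑ G, Aop c a f G * Aop c b f G := by
  let t : Fin 3 → V := ![a, b, c]
  have ht : Function.Injective t := by
    intro i j hij
    fin_cases i <;> fin_cases j <;> simp_all [t]
  let P1 := avgL (Tr a b)
  let P2 := avgL (Tr a c)
  let P3 := avgL (Tr b c)
  have hP1 : IsP P1 := isP_avg _ (Tr_equiv a b)
  have hP2 : IsP P2 := isP_avg _ (Tr_equiv a c)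
  have hP3 : IsP P3 := isP_avg _ (Tr_equiv b c)
  let T : Module.End ℝ (Gr V → ℝ) := (1 - P1) + (1 - P2) + (1 - P3)
  have hTapp : ∀ g : Gr V → ℝ, ∀ G, T g G = Aop a b g G + Aop a c g G + Aop b c g G := by
    intro g G; rfl
  have hsymm : ∀ f g : Gr V → ℝ, ∑ x, T f x * g x = ∑ x, f x * T g x := by
    intro f g
    have e1 := hP1.one_sub.symm f g
    have e2 := hP2.one_sub.symm f g
    have e3 := hP3.one_sub.symm f g
    unfold ip at e1 e2 e3
    have l : ∑ x, T f x * g x = ∑ x, (1 - P1) f x * g x + ∑ x, (1 - P2) f x * g x +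
        ∑ x, (1 - P3) f x * g x := by
      rw [← sum_add_distrib, ← sum_add_distrib]
      refine sum_congr rfl fun x _ => ?_
      have : T f x = (1 - P1) f x + (1 - P2) f x + (1 - P3) f x := rfl
      rw [this]; ring
    have r : ∑ x, f x * T g x = ∑ x, f x * (1 - P1) g x + ∑ x, f x * (1 - P2) g x +
        ∑ x, f x * (1 - P3) g x := by
      rw [← sum_add_distrib, ← sum_add_distrib]
      refine sum_congr rfl fun x _ => ?_
      have : T g x = (1 - P1) g x + (1 - P2) g x + (1 - P3) g x := rfl
      rw [this]; ring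
    rw [l, r, e1, e2, e3]
  have hip : ∀ (P : Module.End ℝ (Gr V → ℝ)), IsP P → ∀ g : Gr V → ℝ,
      ∑ x, P g x * g x = ∑ x, P g x * P g x := by
    intro P hP g
    have h1 : ip (P g) g = ip (P g) (P g) := by
      have h2 : ip (P g) (P g) = ip g (P (P g)) := hP.symm g (P g)
      rw [h2, ← Module.End.mul_apply, hP.idem, ← hP.symm]
    exact h1
  have hTT : ∀ g : Gr V → ℝ, ∑ x, T g x * g x = ∑ x, Aop a b g x * Aop a b g x +
      ∑ x, Aop a c g x * Aop a c g x + ∑ x, Aop b c g x * Aop b c g x := by
    intro g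
    have e1 := hip (1 - P1) hP1.one_sub g
    have e2 := hip (1 - P2) hP2.one_sub g
    have e3 := hip (1 - P3) hP3.one_sub g
    have l : ∑ x, T g x * g x = ∑ x, (1 - P1) g x * g x + ∑ x, (1 - P2) g x * g x +
        ∑ x, (1 - P3) g x * g x := by
      rw [← sum_add_distrib, ← sum_add_distrib]
      refine sum_congr rfl fun x _ => ?_
      have : T g x = (1 - P1) g x + (1 - P2) g x + (1 - P3) g x := rfl
      rw [this]; ring
    rw [l, e1, e2, e3]
    rfl
  have heig : ∀ (g : Gr V → ℝ) (μ : ℝ), T g = μ • g → g ≠ 0 → μ = 0 ∨ (0 < μ ∧ 1 ≤ μ) := by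
    intro g μ hg hne
    have hpos : 0 < ∑ x, g x * g x := by
      obtain ⟨x, hx⟩ : ∃ x, g x ≠ 0 := by
        by_contra hcon
        push Not at hcon
        exact hne (funext hcon)
      calc 0 < g x * g x := mul_self_pos.mpr hx
        _ ≤ _ := single_le_sum (f := fun x => g x * g x) (fun y _ => mul_self_nonneg _) (mem_univ x)
    have h1 : μ * ∑ x, g x * g x = ∑ x, Aop a b g x * Aop a b g x +
      ∑ x, Aop a c g x * Aop a c g x + ∑ x, Aop b c g x * Aop b c g x := by
      rw [← hTT g, hg, mul_sum]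
      refine sum_congr rfl fun x _ => ?_
      simp only [Pi.smul_apply, smul_eq_mul]; ring
    have hμ : 0 ≤ μ := by
      have : 0 ≤ μ * ∑ x, g x * g x := by
        rw [h1]
        have s1 : ∀ h : Gr V → ℝ, 0 ≤ ∑ x, h x * h x := fun h => sum_nonneg fun x _ =>
          mul_self_nonneg _
        have := s1 (Aop a b g)
        have := s1 (Aop a c g)
        have := s1 (Aop b c g)
        linarith
      by_contra hlt
      push Not at hlt
      nlinarith
    by_cases hμ0 : μ = 0
    · exact Or.inl hμ0
    right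
    refine ⟨lt_of_le_of_ne hμ (Ne.symm hμ0), ?_⟩
    by_contra hlt
    push Not at hlt
    apply hμ0
    have heq : ∀ G, avg (Tr (t 0) (t 1)) g G + avg (Tr (t 0) (t 2)) g G +
        avg (Tr (t 1) (t 2)) g G = (3 - μ) * g G := by
      intro G
      have h2 := congrFun hg G
      rw [hTapp] at h2
      simp only [Pi.smul_apply, smul_eq_mul, Aop] at h2
      change avg (Tr a b) g G + avg (Tr a c) g G + avg (Tr b c) g G = (3 - μ) * g G
      linarith
    have hc := fun {i j : Fin 3} (hij) {G G' : Gr V} => triple_const t ht g (3 - μ) (by linarith)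
      heq (i := i) (j := j) hij (G := G) (G' := G')
    have z1 : Aop a b g = 0 := by
      funext G
      have := avg_eq_self _ (Tr_equiv a b) g G (fun y hy =>
        (hc (i := 0) (j := 1) (Or.inl ⟨rfl, rfl⟩) hy).symm)
      simp only [Aop, this, Pi.zero_apply, sub_self]
    have z2 : Aop a c g = 0 := by
      funext G
      have := avg_eq_self _ (Tr_equiv a c) g G (fun y hy =>
        (hc (i := 0) (j := 2) (Or.inr (Or.inl ⟨rfl, rfl⟩)) hy).symm)
      simp only [Aop, this, Pi.zero_apply, sub_self]
    have z3 : Aop b c g = 0 := by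
      funext G
      have := avg_eq_self _ (Tr_equiv b c) g G (fun y hy =>
        (hc (i := 1) (j := 2) (Or.inr (Or.inr ⟨rfl, rfl⟩)) hy).symm)
      simp only [Aop, this, Pi.zero_apply, sub_self]
    rw [z1, z2, z3] at h1
    simp only [Pi.zero_apply, mul_zero, sum_const_zero, add_zero] at h1
    rcases mul_eq_zero.mp h1 with h | h
    · exact h
    · exact absurd h hpos.ne'
  have hmain := spec1 T hsymm 1 heig f
  rw [one_mul, hTT f] at hmain
  have hsq : ∑ x, (T f x) ^ 2 = ∑ x, Aop a b f x * Aop a b f x +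
      ∑ x, Aop a c f x * Aop a c f x + ∑ x, Aop b c f x * Aop b c f x +
      2 * (∑ x, Aop a b f x * Aop a c f x + ∑ x, Aop a b f x * Aop b c f x +
        ∑ x, Aop a c f x * Aop b c f x) := by
    rw [← sum_add_distrib, ← sum_add_distrib, ← sum_add_distrib, ← sum_add_distrib, mul_sum,
      ← sum_add_distrib]
    refine sum_congr rfl fun x _ => ?_
    rw [hTapp]; ring
  rw [hsq] at hmain
  rw [Aop_comm b a, Aop_comm c a, Aop_comm c b]
  linarith

theorem overlap_nonneg (f : Gr V → ℝ) :
    0 ≤ ∑ a, ∑ b, ∑ c, if (a ≠ b ∧ a ≠ c ∧ b ≠ c) then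
      ∑ G, (f G - avg (Tr a b) f G) * (f G - avg (Tr a c) f G) else 0 := by
  let g : V → V → V → ℝ := fun a b c => if (a ≠ b ∧ a ≠ c ∧ b ≠ c) then
      ∑ G, Aop a b f G * Aop a c f G else 0
  have h1 : ∑ a, ∑ b, ∑ c, g a b c = ∑ a, ∑ b, ∑ c, g b a c := sum_comm
  have h2 : ∑ a, ∑ b, ∑ c, g a b c = ∑ a, ∑ b, ∑ c, g c a b := by
    calc ∑ a, ∑ b, ∑ c, g a b c = ∑ b, ∑ a, ∑ c, g a b c := sum_comm
      _ = ∑ b, ∑ c, ∑ a, g a b c := sum_congr rfl fun b _ => sum_comm
  have h3 : 0 ≤ ∑ a, ∑ b, ∑ c, (g a b c + g b a c + g c a b) := by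
    refine sum_nonneg fun a _ => sum_nonneg fun b _ => sum_nonneg fun c _ => ?_
    by_cases h : a ≠ b ∧ a ≠ c ∧ b ≠ c
    · have hb : b ≠ a ∧ b ≠ c ∧ a ≠ c := ⟨h.1.symm, h.2.2, h.2.1⟩
      have hc : c ≠ a ∧ c ≠ b ∧ a ≠ b := ⟨h.2.1.symm, h.2.2.symm, h.1⟩
      simp only [g]
      rw [if_pos h, if_pos hb, if_pos hc]
      exact triple_ineq h.1 h.2.1 h.2.2 f
    · have hb : ¬ (b ≠ a ∧ b ≠ c ∧ a ≠ c) := fun h' => h ⟨h'.1.symm, h'.2.2, h'.2.1⟩
      have hc : ¬ (c ≠ a ∧ c ≠ b ∧ a ≠ b) := fun h' => h ⟨h'.2.2, h'.1.symm, h'.2.1.symm⟩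
      simp only [g]
      rw [if_neg h, if_neg hb, if_neg hc]
      norm_num
  simp only [sum_add_distrib] at h3
  rw [← h1, ← h2] at h3
  have h4 : 0 ≤ ∑ a, ∑ b, ∑ c, g a b c := by linarith
  exact h4

end triple

end Crest.Agent.SC
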