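import Crest.Agent.SCCore
import Crest.Agent.SCOver
import Crest.Agent.SCJohnson

set_option autoImplicit false

namespace Crest.Agent.SC

open Finset

theorem core {V : Type} [Fintype V] [DecidableEq V] (hV : 4 ≤ Fintype.card V) (f : Gr V → ℝ) :
    ∃ g : Gr V → ℝ, (∀ u w a b : V, D4 u w a b → ∀ G : Gr V, g (sw u w a b G) = g G) ∧
      ∑ G, (f G - g G) ^ 2 ≤ (Fintype.card V : ℝ) / 32 * En f :=
  core_of (fun f => overlap_nonneg f) (fun D k h1 h2 f hf => johnson_pair D k h1 h2 f hf) hV f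

end Crest.Agent.SC
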