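import Crest.Agent.S0453TV
set_option autoImplicit false
open Finset
open Crest Crest.LogicCS
open Crest.SwitchChain

namespace Crest.Agent.S0453

variable {n : ℕ}

/-- number of edges of `G' \ G` at `v`. -/
def bl (G G' : Finset (Edge n)) (v : Fin n) : ℕ := ((G' \ G).filter fun e => v ∈ e.1).card

lemma bl_eq {d : Fin n → ℕ} {G G' : Finset (Edge n)} (hG : G ∈ realizations d)
    (hG' : G' ∈ realizations d) (v : Fin n) : bl G G' v = bl G' G v := by
  have h1 : deg G v = d v := by
    unfold realizations at hG; simp only [mem_filter, mem_univ, true_and] at hG; exact hG v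
  have h2 : deg G' v = d v := by
    unfold realizations at hG'; simp only [mem_filter, mem_univ, true_and] at hG'; exact hG' v
  unfold bl
  have e1 : ∀ A B : Finset (Edge n), ((A \ B).filter fun e => v ∈ e.1) =
      (A.filter fun e => v ∈ e.1) \ (B.filter fun e => v ∈ e.1) := by
    intro A B
    ext x
    simp only [mem_filter, mem_sdiff]
    tauto
  rw [e1, e1]
  have h3 : (G.filter fun e => v ∈ e.1).card = (G'.filter fun e => v ∈ e.1).card := by
    unfold deg at h1 h2; rw [h1, h2]
  exact (card_sdiff_comm h3).symm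

/-- size of symmetric difference. -/
def sd (G G' : Finset (Edge n)) : ℕ := (G \ G').card + (G' \ G).card

lemma sd_comm (G G' : Finset (Edge n)) : sd G G' = sd G' G := by
  unfold sd; ring

lemma mem4_comm1 (x y z w : Fin n) : ({x, z, y, w} : Finset (Fin n)) = {x, y, z, w} := by
  ext t; simp only [mem_insert, mem_singleton]; tauto

/-- the two matchings `{xy, zw}` and `{xz, yw}`. -/
lemma pm_pair {x y z w : Fin n} (hxy : x ≠ y) (hxz : x ≠ z) (hxw : x ≠ w) (hyz : y ≠ z)
    (hyw : y ≠ w) (hzw : z ≠ w) :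
    ({mkE x y hxy, mkE z w hzw} : Finset (Edge n)) ∈ pmSet {x, y, z, w} ∧
    ({mkE x z hxz, mkE y w hyw} : Finset (Edge n)) ∈ pmSet {x, y, z, w} := by
  refine ⟨pm_mem hxy hxz hxw hyz hyw hzw, ?_⟩
  have := pm_mem hxz hxy hxw hyz.symm hzw hyw
  rwa [mem4_comm1] at this

/-- Removing `xy, zw` and adding `xz, yw` improves. -/
lemma improve {G G' : Finset (Edge n)} {x y z w : Fin n} (hxy : x ≠ y) (hxz : x ≠ z)
    (hxw : x ≠ w) (hyw : y ≠ w) (hzw : z ≠ w)
    (h1 : mkE x y hxy ∈ G \ G') (h2 : mkE x z hxz ∈ G' \ G) (h3 : mkE y w hyw ∈ G' \ G)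
    (h4 : mkE z w hzw ∈ G) :
    sd (switchResult G {mkE x y hxy, mkE z w hzw} {mkE x z hxz, mkE y w hyw}) G' < sd G G' := by
  have n1 : mkE x z hxz ≠ mkE y w hyw := by
    rw [Ne, mkE_inj]; tauto
  simp only [mem_sdiff] at h1 h2 h3
  have hsub : ({mkE x y hxy, mkE z w hzw} : Finset (Edge n)) ⊆ G := by
    intro e he
    simp only [mem_insert, mem_singleton] at he
    rcases he with rfl | rfl
    · exact h1.1
    · exact h4
  have hdis : Disjoint ({mkE x z hxz, mkE y w hyw} : Finset (Edge n)) G := by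
    rw [Finset.disjoint_left]
    intro e he
    simp only [mem_insert, mem_singleton] at he
    rcases he with rfl | rfl
    · exact h2.2
    · exact h3.2
  unfold switchResult
  rw [if_pos ⟨hsub, hdis⟩]
  unfold sd
  have c1 : ((G \ {mkE x y hxy, mkE z w hzw} ∪ {mkE x z hxz, mkE y w hyw}) \ G').card + 1 ≤
      (G \ G').card := by
    have : ((G \ {mkE x y hxy, mkE z w hzw} ∪ {mkE x z hxz, mkE y w hyw}) \ G') ⊆
        (G \ G').erase (mkE x y hxy) := by
      intro e he
      simp only [mem_sdiff, mem_union, mem_insert, mem_singleton, not_or, mem_erase] at he ⊢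
      obtain ⟨he1, he2⟩ := he
      rcases he1 with he1 | rfl | rfl
      · exact ⟨he1.2.1, he1.1, he2⟩
      · exact absurd h2.1 he2
      · exact absurd h3.1 he2
    have h5 := card_le_card this
    rw [card_erase_of_mem (by simp only [mem_sdiff]; exact h1)] at h5
    have : 0 < (G \ G').card := card_pos.mpr ⟨mkE x y hxy, by simp only [mem_sdiff]; exact h1⟩
    omega
  have c2 : (G' \ (G \ {mkE x y hxy, mkE z w hzw} ∪ {mkE x z hxz, mkE y w hyw})).card + 1 ≤
      (G' \ G).card := by
    have : (G' \ (G \ {mkE x y hxy, mkE z w hzw} ∪ {mkE x z hxz, mkE y w hyw})) ⊆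
        insert (mkE z w hzw) (((G' \ G).erase (mkE x z hxz)).erase (mkE y w hyw)) := by
      intro e he
      simp only [mem_sdiff, mem_union, mem_insert, mem_singleton, not_or, mem_erase, not_and,
        not_not] at he ⊢
      obtain ⟨he1, he2, he3, he4⟩ := he
      by_cases hzw' : e = mkE z w hzw
      · left; exact hzw'
      right
      refine ⟨he4, he3, he1, ?_⟩
      intro heG
      apply hzw'
      apply he2 heG
      rintro rfl
      exact h1.2 he1
    have h5 := (card_le_card this).trans (card_insert_le _ _)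
    rw [card_erase_of_mem, card_erase_of_mem] at h5
    · have : 2 ≤ (G' \ G).card := by
        have h6 : ({mkE x z hxz, mkE y w hyw} : Finset (Edge n)) ⊆ G' \ G := by
          intro e he
          simp only [mem_insert, mem_singleton, mem_sdiff] at he ⊢
          rcases he with rfl | rfl
          · exact h2
          · exact h3
        have := card_le_card h6
        rwa [card_pair n1] at this
      omega
    · simp only [mem_sdiff]; exact h2
    · simp only [mem_sdiff, mem_erase]; exact ⟨n1.symm, h3⟩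
  omega


/-- second improving switch: remove `e1, e2` (both red) and add `e3` (blue), `e4`. -/
lemma improve2 {A B : Finset (Edge n)} {e1 e2 e3 e4 : Edge n} (h12 : e1 ≠ e2)
    (h1 : e1 ∈ A \ B) (h2 : e2 ∈ A \ B) (h3 : e3 ∈ B \ A) (h4 : e4 ∉ A) :
    sd (switchResult A {e1, e2} {e3, e4}) B < sd A B := by
  simp only [mem_sdiff] at h1 h2 h3
  have hsub : ({e1, e2} : Finset (Edge n)) ⊆ A := by
    intro e he
    simp only [mem_insert, mem_singleton] at he
    rcases he with rfl | rfl
    · exact h1.1
    · exact h2.1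
  have hdis : Disjoint ({e3, e4} : Finset (Edge n)) A := by
    rw [Finset.disjoint_left]
    intro e he
    simp only [mem_insert, mem_singleton] at he
    rcases he with rfl | rfl
    · exact h3.2
    · exact h4
  unfold switchResult
  rw [if_pos ⟨hsub, hdis⟩]
  unfold sd
  have c1 : ((A \ {e1, e2} ∪ {e3, e4}) \ B).card + 1 ≤ (A \ B).card := by
    have : ((A \ {e1, e2} ∪ {e3, e4}) \ B) ⊆ insert e4 (((A \ B).erase e1).erase e2) := by
      intro e he
      simp only [mem_sdiff, mem_union, mem_insert, mem_singleton, not_or, mem_erase] at he ⊢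
      obtain ⟨he1, he2⟩ := he
      rcases he1 with he1 | rfl | rfl
      · exact Or.inr ⟨he1.2.2, he1.2.1, he1.1, he2⟩
      · exact absurd h3.1 he2
      · exact Or.inl rfl
    have h5 := (card_le_card this).trans (card_insert_le _ _)
    rw [card_erase_of_mem, card_erase_of_mem] at h5
    · have : 2 ≤ (A \ B).card := by
        have h6 : ({e1, e2} : Finset (Edge n)) ⊆ A \ B := by
          intro e he
          simp only [mem_insert, mem_singleton, mem_sdiff] at he ⊢
          rcases he with rfl | rfl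
          · exact h1
          · exact h2
        have := card_le_card h6
        rwa [card_pair h12] at this
      omega
    · simp only [mem_sdiff]; exact h1
    · simp only [mem_sdiff, mem_erase]; exact ⟨h12.symm, h2⟩
  have c2 : (B \ (A \ {e1, e2} ∪ {e3, e4})).card + 1 ≤ (B \ A).card := by
    have : (B \ (A \ {e1, e2} ∪ {e3, e4})) ⊆ (B \ A).erase e3 := by
      intro e he
      simp only [mem_sdiff, mem_union, mem_insert, mem_singleton, not_or, mem_erase, not_and,
        not_not] at he ⊢
      obtain ⟨he1, he2, he3, he4⟩ := he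
      refine ⟨he3, he1, ?_⟩
      intro heA
      rcases Classical.em (e = e1) with rfl | hne
      · exact h1.2 he1
      · have := he2 heA hne
        subst this
        exact h2.2 he1
    have h5 := card_le_card this
    rw [card_erase_of_mem (by simp only [mem_sdiff]; exact h3)] at h5
    have : 0 < (B \ A).card := card_pos.mpr ⟨e3, by simp only [mem_sdiff]; exact h3⟩
    omega
  omega

/-- neighbours of `v` along `D`. -/
def nb (D : Finset (Edge n)) (v : Fin n) : Finset (Fin n) :=
  univ.filter fun w => ∃ h : v ≠ w, mkE v w h ∈ D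

lemma mem_nb {D : Finset (Edge n)} {v w : Fin n} : w ∈ nb D v ↔ ∃ h : v ≠ w, mkE v w h ∈ D := by
  unfold nb; simp

lemma card_nb (D : Finset (Edge n)) (v : Fin n) :
    (D.filter fun e => v ∈ e.1).card = (nb D v).card := by
  symm
  refine card_bij (fun w hw => mkE v w (mem_nb.mp hw).fst) ?_ ?_ ?_
  · intro w hw
    rw [mem_filter]
    exact ⟨(mem_nb.mp hw).snd, by simp [mem_mkE]⟩
  · intro w hw w' hw' h
    rw [mkE_inj] at h
    rcases h with ⟨-, h⟩ | ⟨h1, h2⟩
    · exact h
    · exact absurd h1 (mem_nb.mp hw').fst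
  · intro e he
    rw [mem_filter] at he
    obtain ⟨w, hw, rfl⟩ := exists_mkE_of_mem he.2
    exact ⟨w, mem_nb.mpr ⟨hw, he.1⟩, rfl⟩

/-- if every blue neighbour `w ≠ z` of `y` is blue-adjacent to `z`, then `bl z ≥ bl y + 1`. -/
lemma bl_lt {G G' : Finset (Edge n)} {x y z : Fin n} (hxy : x ≠ y) (hxz : x ≠ z) (hyz : y ≠ z)
    (h1 : mkE x y hxy ∉ G' \ G) (h2 : mkE x z hxz ∈ G' \ G)
    (h : ∀ w (hyw : y ≠ w) (hzw : z ≠ w), mkE y w hyw ∈ G' \ G → mkE z w hzw ∈ G' \ G) :
    bl G G' y < bl G G' z := by
  unfold bl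
  rw [card_nb, card_nb]
  set D := G' \ G
  have hxNy : x ∉ nb D y := by
    rw [mem_nb]
    rintro ⟨h3, h4⟩
    rw [mkE_comm] at h4
    exact h1 h4
  have hyNy : y ∉ nb D y := by
    rw [mem_nb]; rintro ⟨h3, -⟩; exact h3 rfl
  have hxNz : x ∈ nb D z := by
    rw [mem_nb]
    exact ⟨hxz.symm, by rw [mkE_comm]; exact h2⟩
  have hsub : ∀ w ∈ nb D y, w ≠ z → w ∈ nb D z := by
    intro w hw hwz
    rw [mem_nb] at hw ⊢
    obtain ⟨h3, h4⟩ := hw
    exact ⟨hwz.symm, h w h3 hwz.symm h4⟩
  by_cases hz : z ∈ nb D y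
  · have hyNz : y ∈ nb D z := by
      rw [mem_nb] at hz ⊢
      obtain ⟨h3, h4⟩ := hz
      exact ⟨h3.symm, by rw [mkE_comm]; exact h4⟩
    have h5 : insert x (insert y ((nb D y).erase z)) ⊆ nb D z := by
      intro w hw
      simp only [mem_insert, mem_erase] at hw
      rcases hw with rfl | rfl | ⟨h6, h7⟩
      · exact hxNz
      · exact hyNz
      · exact hsub w h7 h6
    have h6 := card_le_card h5
    rw [card_insert_of_notMem, card_insert_of_notMem, card_erase_of_mem hz] at h6
    · have : 0 < (nb D y).card := card_pos.mpr ⟨z, hz⟩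
      omega
    · simp only [mem_erase, not_and]; intro _; exact hyNy
    · simp only [mem_insert, mem_erase, not_or, not_and]
      exact ⟨hxy, fun _ => hxNy⟩
  · have h5 : insert x (nb D y) ⊆ nb D z := by
      intro w hw
      simp only [mem_insert] at hw
      rcases hw with rfl | hw
      · exact hxNz
      · exact hsub w hw (fun h => hz (h ▸ hw))
    have h6 := card_le_card h5
    rw [card_insert_of_notMem hxNy] at h6
    omega

lemma connected_aux {d : Fin n → ℕ} {β : Type*} (f : Finset (Edge n) → β)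
    (hf : ∀ G ∈ realizations d, ∀ S : Finset (Fin n), S.card = 4 → ∀ F ∈ pmSet S,
      ∀ F' ∈ pmSet S, f (switchResult G F F') = f G) :
    ∀ (m : ℕ) (G G' : Finset (Edge n)), G ∈ realizations d → G' ∈ realizations d →
      sd G G' = m → f G = f G' := by
  intro m
  induction m using Nat.strong_induction_on with
  | _ m ih =>
  -- key step with a color-ordered pair
  have key : ∀ (G G' : Finset (Edge n)) (x y z : Fin n) (hxy : x ≠ y) (hxz : x ≠ z),
      G ∈ realizations d → G' ∈ realizations d → sd G G' = m →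
      mkE x y hxy ∈ G \ G' → mkE x z hxz ∈ G' \ G → bl G G' z ≤ bl G G' y → f G = f G' := by
    intro G G' x y z hxy hxz hG hG' hm h1 h2 hb
    have hyz : y ≠ z := by
      rintro rfl
      exact (mem_sdiff.mp h1).2 (mem_sdiff.mp h2).1
    by_contra hne
    have : bl G G' y < bl G G' z := by
      refine bl_lt hxy hxz hyz (fun h => (mem_sdiff.mp h1).2 (mem_sdiff.mp h).1) h2 ?_
      intro w hyw hzw h3
      by_contra h4
      have hxw : x ≠ w := by
        rintro rfl
        rw [mkE_comm] at h3
        exact (mem_sdiff.mp h1).2 (mem_sdiff.mp h3).1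
      obtain ⟨p1, p2⟩ := pm_pair hxy hxz hxw hyz hyw hzw
      have hS4 : ({x, y, z, w} : Finset (Fin n)).card = 4 :=
        card_eq_four.mpr ⟨x, y, z, w, hxy, hxz, hxw, hyz, hyw, hzw, rfl⟩
      by_cases h5 : mkE z w hzw ∈ G
      · have h6 := improve hxy hxz hxw hyw hzw h1 h2 h3 h5
        have h7 := ih _ (hm ▸ h6) _ G' (switch_mem hG p1 p2) hG' rfl
        rw [hf G hG _ hS4 _ p1 _ p2] at h7
        exact hne h7
      · have h5' : mkE z w hzw ∉ G' := by
          intro h; exact h4 (mem_sdiff.mpr ⟨h, h5⟩)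
        -- switch in `G'`: the roles: remove `xz, yw`, add `xy, zw`
        have h6 : sd G (switchResult G' {mkE x z hxz, mkE y w hyw} {mkE x y hxy, mkE z w hzw}) <
            sd G G' := by
          rw [sd_comm, sd_comm G G']
          refine improve2 ?_ h2 h3 h1 h5'
          rw [Ne, mkE_inj]; tauto
        have h7 := ih _ (hm ▸ h6) G _ hG (switch_mem hG' p2 p1) rfl
        rw [hf G' hG' _ hS4 _ p2 _ p1] at h7
        exact hne h7
    omega
  intro G G' hG hG' hm
  by_cases hGG : G = G'
  · rw [hGG]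
  -- there is a vertex with a red and a blue edge
  have hex : ∃ (x y z : Fin n) (hxy : x ≠ y) (hxz : x ≠ z), mkE x y hxy ∈ G \ G' ∧
      mkE x z hxz ∈ G' \ G := by
    have hpos : ∀ (A B : Finset (Edge n)) (x y : Fin n) (hxy : x ≠ y), mkE x y hxy ∈ A \ B →
        0 < bl B A x := by
      intro A B x y hxy h
      exact card_pos.mpr ⟨_, mem_filter.mpr ⟨h, by simp [mem_mkE]⟩⟩
    have hget : ∀ (A B : Finset (Edge n)) (x : Fin n), 0 < bl B A x →
        ∃ (y : Fin n) (h : x ≠ y), mkE x y h ∈ A \ B := by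
      intro A B x h
      obtain ⟨e, he⟩ := card_pos.mp h
      rw [mem_filter] at he
      obtain ⟨y, hy, rfl⟩ := exists_mkE_of_mem he.2
      exact ⟨y, hy, he.1⟩
    by_cases hr : (G \ G').Nonempty
    · obtain ⟨e, he⟩ := hr
      obtain ⟨x, y, hxy, rfl⟩ := exists_mkE e
      have h1 := hpos _ _ x y hxy he
      rw [bl_eq hG' hG] at h1
      obtain ⟨z, hxz, hz⟩ := hget _ _ x h1
      exact ⟨x, y, z, hxy, hxz, he, hz⟩
    · have hb : (G' \ G).Nonempty := by
        by_contra hb
        rw [not_nonempty_iff_eq_empty, sdiff_eq_empty_iff_subset] at hr hb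
        exact hGG (subset_antisymm hr hb)
      obtain ⟨e, he⟩ := hb
      obtain ⟨x, z, hxz, rfl⟩ := exists_mkE e
      have h1 := hpos _ _ x z hxz he
      rw [bl_eq hG hG'] at h1
      obtain ⟨y, hxy, hy⟩ := hget _ _ x h1
      exact ⟨x, y, z, hxy, hxz, hy, he⟩
  obtain ⟨x, y, z, hxy, hxz, h1, h2⟩ := hex
  by_cases hb : bl G G' z ≤ bl G G' y
  · exact key G G' x y z hxy hxz hG hG' hm h1 h2 hb
  · refine (key G' G x z y hxz hxy hG' hG (by rw [sd_comm]; exact hm) h2 h1 ?_).symm
    rw [bl_eq hG' hG y, bl_eq hG' hG z]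
    omega

/-- Connectivity of the realizations under switches, in functional form. -/
theorem connected {d : Fin n → ℕ} {β : Type*} (f : Finset (Edge n) → β)
    (hf : ∀ G ∈ realizations d, ∀ S : Finset (Fin n), S.card = 4 → ∀ F ∈ pmSet S,
      ∀ F' ∈ pmSet S, f (switchResult G F F') = f G) {G G' : Finset (Edge n)} (hG : G ∈ realizations d)
    (hG' : G' ∈ realizations d) : f G = f G' :=
  connected_aux f hf _ G G' hG hG' rfl

end Crest.Agent.S0453
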