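import Crest.Statements.S0453
set_option autoImplicit false
open Finset
open Crest Crest.LogicCS
open Crest.SwitchChain

namespace Crest.Agent.S0453

variable {n : ℕ}

/-! ### Perfect matchings on a 4-set and switches -/

lemma mem_pmSet {S : Finset (Fin n)} {F : Finset (Edge n)} :
    F ∈ pmSet S ↔ F.card = 2 ∧ (∀ e ∈ F, ∀ v : Fin n, v ∈ e.1 → v ∈ S) ∧
      ∀ v ∈ S, (F.filter fun e => v ∈ e.1).card = 1 := by
  unfold pmSet
  simp only [mem_filter, mem_powersetCard, subset_univ, true_and]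

/-- The edge `{a,b}`. -/
def mkE (a b : Fin n) (h : a ≠ b) : Edge n := ⟨s(a, b), by simpa using h⟩

lemma mem_mkE {a b v : Fin n} (h : a ≠ b) : v ∈ (mkE a b h).1 ↔ v = a ∨ v = b := by
  simp [mkE]

lemma mkE_comm {a b : Fin n} (h : a ≠ b) : mkE a b h = mkE b a h.symm := by
  apply Subtype.ext
  simp [mkE, Sym2.eq_swap]

lemma mkE_inj {a b c d : Fin n} (h : a ≠ b) (h' : c ≠ d) :
    mkE a b h = mkE c d h' ↔ (a = c ∧ b = d) ∨ (a = d ∧ b = c) := by
  rw [Subtype.ext_iff]
  simp [mkE]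

lemma exists_mkE (e : Edge n) : ∃ (a b : Fin n) (h : a ≠ b), e = mkE a b h := by
  obtain ⟨e, he⟩ := e
  induction e using Sym2.ind with
  | _ a b =>
    refine ⟨a, b, by simpa using he, rfl⟩

/-- every edge containing `v` is `mkE v w`. -/
lemma exists_mkE_of_mem {e : Edge n} {v : Fin n} (hv : v ∈ e.1) :
    ∃ (w : Fin n) (h : v ≠ w), e = mkE v w h := by
  obtain ⟨a, b, h, rfl⟩ := exists_mkE e
  rw [mem_mkE] at hv
  rcases hv with rfl | rfl
  · exact ⟨b, h, rfl⟩
  · exact ⟨a, h.symm, mkE_comm h⟩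

lemma pm_mem {a b c d : Fin n} (hab : a ≠ b) (hac : a ≠ c) (had : a ≠ d) (hbc : b ≠ c)
    (hbd : b ≠ d) (hcd : c ≠ d) :
    ({mkE a b hab, mkE c d hcd} : Finset (Edge n)) ∈ pmSet {a, b, c, d} := by
  rw [mem_pmSet]
  have hne : mkE a b hab ≠ mkE c d hcd := by
    rw [Ne, mkE_inj]; rintro (⟨h, -⟩ | ⟨h, -⟩)
    · exact hac h
    · exact had h
  refine ⟨card_pair hne, ?_, ?_⟩
  · intro e he v hv
    simp only [mem_insert, mem_singleton] at he ⊢
    rcases he with rfl | rfl <;> rw [mem_mkE] at hv <;> tauto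
  · intro v hv
    simp only [mem_insert, mem_singleton] at hv
    rw [filter_insert, filter_singleton]
    simp only [mem_mkE]
    rcases hv with rfl | rfl | rfl | rfl
    · simp [hac, had]
    · simp [hbc, hbd, hab.symm]
    · simp [hac.symm, hbc.symm]
    · simp [had.symm, hbd.symm]


lemma pm_aux {a b c d : Fin n} (hab : a ≠ b) (hcd : c ≠ d)
    {F : Finset (Edge n)} (hF : F.card = 2)
    (hS : ∀ e ∈ F, ∀ v : Fin n, v ∈ e.1 → v = a ∨ v = b ∨ v = c ∨ v = d)
    (ha : (F.filter fun e => a ∈ e.1).card = 1) (hb : (F.filter fun e => b ∈ e.1).card = 1)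
    (he : mkE a b hab ∈ F) : F = {mkE a b hab, mkE c d hcd} := by
  obtain ⟨x, y, hxy, rfl⟩ := card_eq_two.mp hF
  have key : ∀ e' ∈ ({x, y} : Finset (Edge n)), e' ≠ mkE a b hab → e' = mkE c d hcd := by
    intro e' he' hne
    have h1 : a ∉ e'.1 := by
      intro h
      have := card_le_one.mp ha.le e' (by simp only [mem_filter]; exact ⟨he', h⟩) (mkE a b hab)
        (by simp only [mem_filter]; exact ⟨he, by simp [mem_mkE]⟩)
      exact hne this
    have h2 : b ∉ e'.1 := by
      intro h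
      have := card_le_one.mp hb.le e' (by simp only [mem_filter]; exact ⟨he', h⟩) (mkE a b hab)
        (by simp only [mem_filter]; exact ⟨he, by simp [mem_mkE]⟩)
      exact hne this
    obtain ⟨u, v, huv, rfl⟩ := exists_mkE e'
    have hu := hS _ he' u (by simp [mem_mkE])
    have hv := hS _ he' v (by simp [mem_mkE])
    simp only [mem_mkE, not_or] at h1 h2
    rw [mkE_inj]
    grind
  simp only [mem_insert, mem_singleton] at he key
  rcases he with he | he
  · have := key y (Or.inr rfl) (by rw [he]; exact hxy.symm)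
    rw [this, he]
  · have := key x (Or.inl rfl) (by rw [he]; exact hxy)
    rw [this, he, pair_comm]

lemma pm_char {a b c d : Fin n} (hab : a ≠ b) (hac : a ≠ c) (had : a ≠ d) (hbc : b ≠ c)
    (hbd : b ≠ d) (hcd : c ≠ d) {F : Finset (Edge n)} (hF : F ∈ pmSet {a, b, c, d}) :
    F = {mkE a b hab, mkE c d hcd} ∨ F = {mkE a c hac, mkE b d hbd} ∨
      F = {mkE a d had, mkE b c hbc} := by
  rw [mem_pmSet] at hF
  obtain ⟨h2, hS, hd⟩ := hF
  simp only [mem_insert, mem_singleton] at hS hd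
  have ha := hd a (by simp)
  obtain ⟨e, he⟩ := card_eq_one.mp ha
  have he' : e ∈ F.filter fun e => a ∈ e.1 := by rw [he]; simp
  rw [mem_filter] at he'
  obtain ⟨w, haw, rfl⟩ := exists_mkE_of_mem he'.2
  have hw := hS _ he'.1 w (by simp [mem_mkE])
  rcases hw with rfl | rfl | rfl | rfl
  · exact absurd rfl haw
  · left
    exact pm_aux hab hcd h2 hS ha (hd _ (by simp)) he'.1
  · right; left
    refine pm_aux hac hbd h2 ?_ ha (hd _ (by simp)) he'.1
    intro e he v hv; have := hS e he v hv; tauto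
  · right; right
    refine pm_aux had hbc h2 ?_ ha (hd _ (by simp)) he'.1
    intro e he v hv; have := hS e he v hv; tauto

lemma pm_ne1 {a b c d : Fin n} (hab : a ≠ b) (hac : a ≠ c) (hbc : b ≠ c)
    (hbd : b ≠ d) (hcd : c ≠ d) (had : a ≠ d) :
    ({mkE a b hab, mkE c d hcd} : Finset (Edge n)) ≠ {mkE a c hac, mkE b d hbd} := by
  intro h
  have : mkE a b hab ∈ ({mkE a c hac, mkE b d hbd} : Finset (Edge n)) := by rw [← h]; simp
  simp only [mem_insert, mem_singleton, mkE_inj] at this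
  grind

lemma pmSet_eq {a b c d : Fin n} (hab : a ≠ b) (hac : a ≠ c) (had : a ≠ d) (hbc : b ≠ c)
    (hbd : b ≠ d) (hcd : c ≠ d) :
    pmSet {a, b, c, d} = {{mkE a b hab, mkE c d hcd}, {mkE a c hac, mkE b d hbd},
      {mkE a d had, mkE b c hbc}} := by
  ext F
  simp only [mem_insert, mem_singleton]
  constructor
  · exact pm_char hab hac had hbc hbd hcd
  · rintro (rfl | rfl | rfl)
    · exact pm_mem hab hac had hbc hbd hcd
    · have := pm_mem hac hab had hbc.symm hcd hbd
      have h2 : ({a, c, b, d} : Finset (Fin n)) = {a, b, c, d} := by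
        ext x; simp only [mem_insert, mem_singleton]; tauto
      rwa [h2] at this
    · have := pm_mem had hab hac hbd.symm hcd.symm hbc
      have h2 : ({a, d, b, c} : Finset (Fin n)) = {a, b, c, d} := by
        ext x; simp only [mem_insert, mem_singleton]; tauto
      rwa [h2] at this

lemma card_pmSet {S : Finset (Fin n)} (hS : S.card = 4) : (pmSet S).card = 3 := by
  obtain ⟨a, b, c, d, hab, hac, had, hbc, hbd, hcd, rfl⟩ := card_eq_four.mp hS
  rw [pmSet_eq hab hac had hbc hbd hcd]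
  rw [card_eq_three]
  refine ⟨_, _, _, ?_, ?_, ?_, rfl⟩
  · exact pm_ne1 hab hac hbc hbd hcd had
  · have := pm_ne1 hab had hbd hbc hcd.symm hac
    intro h
    apply this
    rw [mkE_comm hcd] at h
    exact h
  · have := pm_ne1 hac had hcd hbc.symm hbd.symm hab
    intro h
    apply this
    rw [mkE_comm hbd, mkE_comm hbc] at h
    exact h


/-! ### switches preserve degrees, symmetry -/

lemma deg_pm {S : Finset (Fin n)} {F : Finset (Edge n)} (hF : F ∈ pmSet S) (v : Fin n) :
    (F.filter fun e => v ∈ e.1).card = if v ∈ S then 1 else 0 := by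
  rw [mem_pmSet] at hF
  split_ifs with hv
  · exact hF.2.2 v hv
  · rw [card_eq_zero, filter_eq_empty_iff]
    intro e he hve
    exact hv (hF.2.1 e he v hve)

lemma deg_switch {S : Finset (Fin n)} {F F' E : Finset (Edge n)} (hF : F ∈ pmSet S)
    (hF' : F' ∈ pmSet S) (v : Fin n) : deg (switchResult E F F') v = deg E v := by
  unfold switchResult
  split_ifs with h
  · obtain ⟨h1, h2⟩ := h
    unfold deg
    have hdisj : Disjoint ((E \ F).filter fun e => v ∈ e.1) (F'.filter fun e => v ∈ e.1) := by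
      apply disjoint_filter_filter
      rw [Finset.disjoint_left] at h2 ⊢
      intro x hx hx'
      exact h2 hx' (mem_sdiff.mp hx).1
    rw [filter_union, card_union_of_disjoint hdisj, deg_pm hF' v, ← deg_pm hF v]
    have h3 : (E.filter fun e => v ∈ e.1) =
        ((E \ F).filter fun e => v ∈ e.1) ∪ (F.filter fun e => v ∈ e.1) := by
      rw [← filter_union, sdiff_union_of_subset h1]
    rw [h3, card_union_of_disjoint]
    apply disjoint_filter_filter
    exact sdiff_disjoint
  · rfl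

lemma switch_mem {d : Fin n → ℕ} {S : Finset (Fin n)} {F F' E : Finset (Edge n)}
    (hE : E ∈ realizations d) (hF : F ∈ pmSet S) (hF' : F' ∈ pmSet S) :
    switchResult E F F' ∈ realizations d := by
  unfold realizations at *
  simp only [mem_filter, mem_univ, true_and] at *
  intro v
  rw [deg_switch hF hF' v, hE v]

lemma switch_symm {E E' F F' : Finset (Edge n)} (hne : E ≠ E') (h : switchResult E F F' = E') :
    switchResult E' F' F = E := by
  unfold switchResult at h ⊢
  split_ifs at h with h1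
  · obtain ⟨h1, h2⟩ := h1
    subst h
    have h3 : F' ⊆ E \ F ∪ F' := subset_union_right
    have h4 : Disjoint F (E \ F ∪ F') := by
      rw [disjoint_union_right]
      refine ⟨disjoint_sdiff, ?_⟩
      exact (h2.mono_right h1).symm
    rw [if_pos ⟨h3, h4⟩]
    ext x
    simp only [mem_union, mem_sdiff]
    have : x ∈ F' → x ∉ E := fun hx => Finset.disjoint_left.mp h2 hx
    have := @h1 x
    tauto
  · exact absurd h hne

lemma proposalCount_symm (E E' : Finset (Edge n)) : proposalCount E E' = proposalCount E' E := by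
  by_cases hne : E = E'
  · rw [hne]
  unfold proposalCount
  refine sum_congr rfl fun S _ => ?_
  have e1 : ∀ (A B : Finset (Edge n)), (∑ F ∈ pmSet S, ∑ F' ∈ (pmSet S).erase F,
      if switchResult A F F' = B then 1 else 0) =
      ∑ F ∈ pmSet S, ∑ F' ∈ pmSet S, if (F' ≠ F ∧ switchResult A F F' = B) then 1 else 0 := by
    intro A B
    refine sum_congr rfl fun F hF => ?_
    rw [← sum_filter, ← sum_filter]
    congr 1
    ext x
    simp only [mem_filter, mem_erase]
    tauto
  rw [e1, e1, sum_comm]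
  refine sum_congr rfl fun F' _ => sum_congr rfl fun F _ => ?_
  have : (F' ≠ F ∧ switchResult E F F' = E') ↔ (F ≠ F' ∧ switchResult E' F' F = E) := by
    constructor
    · rintro ⟨h1, h2⟩
      exact ⟨h1.symm, switch_symm hne h2⟩
    · rintro ⟨h1, h2⟩
      exact ⟨h1.symm, switch_symm (Ne.symm hne) h2⟩
  simp only [this]

lemma kernel_symm (E E' : Finset (Edge n)) : kernel n E E' = kernel n E' E := by
  unfold kernel
  rw [proposalCount_symm]
  by_cases h : E = E'
  · simp [h]
  · simp [h, Ne.symm h]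

lemma kernel_nonneg (E E' : Finset (Edge n)) : 0 ≤ kernel n E E' := by
  unfold kernel
  split_ifs <;> positivity

/-- Sum of a function against proposalCount. -/
lemma sum_proposalCount_mul {d : Fin n → ℕ} {E : Finset (Edge n)} (hE : E ∈ realizations d)
    (f : Finset (Edge n) → ℝ) :
    ∑ E' ∈ realizations d, (proposalCount E E' : ℝ) * f E' =
      ∑ S ∈ (univ : Finset (Fin n)).powersetCard 4,
        ∑ F ∈ pmSet S, ∑ F' ∈ (pmSet S).erase F, f (switchResult E F F') := by
  unfold proposalCount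
  simp only [Nat.cast_sum, sum_mul]
  rw [sum_comm]
  refine sum_congr rfl fun S hS => ?_
  rw [sum_comm]
  refine sum_congr rfl fun F hF => ?_
  rw [sum_comm]
  refine sum_congr rfl fun F' hF' => ?_
  rw [sum_eq_single (switchResult E F F')]
  · simp
  · intro b _ hb
    simp [Ne.symm hb]
  · intro h
    exact absurd (switch_mem hE hF (mem_of_mem_erase hF')) h

lemma card_prop {S : Finset (Fin n)} (hS : S.card = 4) :
    ∑ F ∈ pmSet S, ∑ F' ∈ (pmSet S).erase F, (1 : ℝ) = 6 := by
  have : ∀ F ∈ pmSet S, ∑ F' ∈ (pmSet S).erase F, (1 : ℝ) = 2 := by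
    intro F hF
    rw [sum_const, card_erase_of_mem hF, card_pmSet hS]
    norm_num
  rw [sum_congr rfl this, sum_const, card_pmSet hS]
  norm_num

lemma choose4_pos (hn : 4 ≤ n) : (0 : ℝ) < (n.choose 4 : ℝ) := by
  exact_mod_cast Nat.choose_pos hn

lemma kernel_row_sum (hn : 4 ≤ n) {d : Fin n → ℕ} {E : Finset (Edge n)}
    (hE : E ∈ realizations d) : ∑ E' ∈ realizations d, kernel n E E' = 1 := by
  unfold kernel
  rw [sum_add_distrib]
  have h1 : ∑ E' ∈ realizations d, (if E = E' then (1 : ℝ) / 2 else 0) = 1 / 2 := by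
    rw [sum_ite_eq]
    simp [hE]
  have h2 : ∑ E' ∈ realizations d, (proposalCount E E' : ℝ) / (12 * (n.choose 4 : ℝ)) = 1 / 2 := by
    rw [← sum_div]
    have := sum_proposalCount_mul hE (fun _ => (1 : ℝ))
    simp only [mul_one] at this
    rw [this]
    have h3 : ∀ S ∈ (univ : Finset (Fin n)).powersetCard 4,
        ∑ F ∈ pmSet S, ∑ F' ∈ (pmSet S).erase F, (1 : ℝ) = 6 := fun S hS =>
      card_prop (mem_powersetCard.mp hS).2
    rw [sum_congr rfl h3, sum_const, card_powersetCard, card_univ, Fintype.card_fin]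
    have := choose4_pos hn
    rw [nsmul_eq_mul]
    field_simp
    norm_num
  rw [h1, h2]
  norm_num

lemma kernel_eq_zero {d : Fin n → ℕ} {E E' : Finset (Edge n)} (hE : E ∈ realizations d)
    (hE' : E' ∉ realizations d) : kernel n E E' = 0 := by
  unfold kernel
  have h1 : E ≠ E' := fun h => hE' (h ▸ hE)
  have h2 : proposalCount E E' = 0 := by
    unfold proposalCount
    refine sum_eq_zero fun S _ => sum_eq_zero fun F hF => sum_eq_zero fun F' hF' => ?_
    rw [if_neg]
    intro h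
    exact hE' (h ▸ switch_mem hE hF (mem_of_mem_erase hF'))
  simp [h1, h2]


/-! ### Dirichlet form -/

/-- Sum over all proposals. -/
noncomputable def propSum (n : ℕ) (g : Finset (Edge n) → Finset (Edge n) → ℝ) : ℝ :=
  ∑ S ∈ (univ : Finset (Fin n)).powersetCard 4, ∑ F ∈ pmSet S, ∑ F' ∈ (pmSet S).erase F, g F F'

lemma propSum_add (g h : Finset (Edge n) → Finset (Edge n) → ℝ) :
    propSum n (fun F F' => g F F' + h F F') = propSum n g + propSum n h := by
  unfold propSum
  simp only [sum_add_distrib]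

lemma propSum_mul (c : ℝ) (g : Finset (Edge n) → Finset (Edge n) → ℝ) :
    propSum n (fun F F' => c * g F F') = c * propSum n g := by
  unfold propSum
  simp only [mul_sum]

lemma propSum_sub (g h : Finset (Edge n) → Finset (Edge n) → ℝ) :
    propSum n (fun F F' => g F F' - h F F') = propSum n g - propSum n h := by
  unfold propSum
  simp only [sum_sub_distrib]

lemma propSum_const (c : ℝ) : propSum n (fun _ _ => c) = 6 * (n.choose 4 : ℝ) * c := by
  unfold propSum
  have h4 : ∀ S ∈ (univ : Finset (Fin n)).powersetCard 4,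
      ∑ F ∈ pmSet S, ∑ F' ∈ (pmSet S).erase F, c = 6 * c := by
    intro S hS
    rw [← card_prop (mem_powersetCard.mp hS).2]
    simp only [sum_mul, one_mul]
  rw [sum_congr rfl h4, sum_const, card_powersetCard, card_univ, Fintype.card_fin, nsmul_eq_mul]
  ring

/-- Dirichlet form of the switch graph (each unordered switch counted once). -/
noncomputable def dirForm (d : Fin n → ℕ) (f : Finset (Edge n) → ℝ) : ℝ :=
  (∑ G ∈ realizations d, propSum n (fun F F' => (f G - f (switchResult G F F')) ^ 2)) / 2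

lemma sum_count_mul {d : Fin n → ℕ} {E : Finset (Edge n)} (hE : E ∈ realizations d)
    (f : Finset (Edge n) → ℝ) :
    ∑ E' ∈ realizations d, (proposalCount E E' : ℝ) * f E' =
      propSum n (fun F F' => f (switchResult E F F')) := sum_proposalCount_mul hE f

lemma kernel_mul_sum {d : Fin n → ℕ} {E : Finset (Edge n)} (hE : E ∈ realizations d)
    (f : Finset (Edge n) → ℝ) :
    ∑ E' ∈ realizations d, kernel n E E' * f E' =
      f E / 2 + propSum n (fun F F' => f (switchResult E F F')) / (12 * (n.choose 4 : ℝ)) := by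
  rw [← sum_count_mul hE]
  unfold kernel
  simp only [add_mul, sum_add_distrib]
  congr 1
  · rw [sum_eq_single E]
    · simp; ring
    · intro b _ hb; simp [Ne.symm hb]
    · intro h; exact absurd hE h
  · rw [sum_div]
    refine sum_congr rfl fun x _ => by ring

/-- `∑ f (f - P f) = dirForm / (12 C(n,4))`. -/
lemma form_eq (hn : 4 ≤ n) (d : Fin n → ℕ) (f : Finset (Edge n) → ℝ) :
    ∑ G ∈ realizations d, f G * (f G - ∑ G' ∈ realizations d, kernel n G G' * f G') =
      dirForm d f / (12 * (n.choose 4 : ℝ)) := by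
  have hc := choose4_pos hn
  have h1 : ∑ G ∈ realizations d, propSum n (fun F F' => (f (switchResult G F F')) ^ 2) =
      ∑ G ∈ realizations d, propSum n (fun _ _ => (f G) ^ 2) := by
    have e1 : ∀ G ∈ realizations d, propSum n (fun F F' => (f (switchResult G F F')) ^ 2) =
      ∑ G' ∈ realizations d, (proposalCount G G' : ℝ) * (f G') ^ 2 := fun G hG =>
        (sum_count_mul hG (fun x => f x ^ 2)).symm
    have e2 : ∀ G ∈ realizations d, propSum n (fun _ _ => (f G) ^ 2) =
      ∑ G' ∈ realizations d, (proposalCount G G' : ℝ) * (f G) ^ 2 := fun G hG =>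
        (sum_count_mul hG (fun _ => f G ^ 2)).symm
    rw [sum_congr rfl e1, sum_congr rfl e2, sum_comm]
    refine sum_congr rfl fun G _ => sum_congr rfl fun G' _ => ?_
    rw [proposalCount_symm]
  have h2 : ∀ G ∈ realizations d, f G * (f G - ∑ G' ∈ realizations d, kernel n G G' * f G') =
      (6 * (n.choose 4 : ℝ) * f G ^ 2 - f G * propSum n (fun F F' => f (switchResult G F F'))) /
        (12 * (n.choose 4 : ℝ)) := by
    intro G hG
    rw [kernel_mul_sum hG]
    field_simp
    ring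
  rw [sum_congr rfl h2, ← sum_div]
  congr 1
  unfold dirForm
  have h5 : ∀ G : Finset (Edge n), propSum n (fun F F' => (f G - f (switchResult G F F')) ^ 2) =
      6 * (n.choose 4 : ℝ) * f G ^ 2 - 2 * (f G * propSum n (fun F F' => f (switchResult G F F')))
        + propSum n (fun F F' => (f (switchResult G F F')) ^ 2) := by
    intro G
    rw [← propSum_const, ← propSum_mul, ← propSum_mul, ← propSum_sub, ← propSum_add]
    congr 1
    ext F F'
    ring
  rw [sum_congr rfl fun G _ => h5 G, sum_add_distrib, h1]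
  simp only [propSum_const]
  rw [← sum_add_distrib, sum_div]
  refine sum_congr rfl fun G _ => by ring

/-! ### L2 decay and total variation -/

section decay

variable {ι : Type*} [DecidableEq ι]

/-- one step of L2 decay for a lazy symmetric stochastic kernel on a finite set `Ω`. -/
lemma step_decay (Ω : Finset ι) (P : ι → ι → ℝ) (hsymm : ∀ x y, P x y = P y x)
    (hlazy : ∀ x ∈ Ω, 1 / 2 ≤ P x x) (hnn : ∀ x y, 0 ≤ P x y)
    (hrow : ∀ x ∈ Ω, ∑ y ∈ Ω, P x y = 1) (K : ℝ) (hK : 0 < K) (u : ι → ℝ)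
    (hgap : ∑ x ∈ Ω, u x ^ 2 ≤ K * ∑ x ∈ Ω, u x * (u x - ∑ y ∈ Ω, P x y * u y)) :
    ∑ x ∈ Ω, (∑ y ∈ Ω, P x y * u y) ^ 2 ≤ (1 - 1 / K) * ∑ x ∈ Ω, u x ^ 2 := by
  set Q : ι → ι → ℝ := fun x y => 2 * P x y - if x = y then 1 else 0 with hQ
  have hQnn : ∀ x ∈ Ω, ∀ y ∈ Ω, 0 ≤ Q x y := by
    intro x hx y _
    simp only [hQ]
    split_ifs with h
    · subst h; have := hlazy x hx; linarith
    · have := hnn x y; linarith
  have hQrow : ∀ x ∈ Ω, ∑ y ∈ Ω, Q x y = 1 := by
    intro x hx
    simp only [hQ, sum_sub_distrib, ← mul_sum, hrow x hx, sum_ite_eq, if_pos hx]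
    norm_num
  have hQsymm : ∀ x y, Q x y = Q y x := by
    intro x y
    simp only [hQ, hsymm x y]
    by_cases h : x = y
    · simp [h]
    · simp [h, Ne.symm h]
  have hQu : ∀ x ∈ Ω, ∑ y ∈ Ω, Q x y * u y = 2 * ∑ y ∈ Ω, P x y * u y - u x := by
    intro x hx
    simp only [hQ, sub_mul, sum_sub_distrib, mul_assoc, ← mul_sum, ite_mul, one_mul, zero_mul,
      sum_ite_eq, if_pos hx]
  have hJ : ∀ x ∈ Ω, (∑ y ∈ Ω, Q x y * u y) ^ 2 ≤ ∑ y ∈ Ω, Q x y * u y ^ 2 := by
    intro x hx
    have h := sum_mul_sq_le_sq_mul_sq Ω (fun y => Real.sqrt (Q x y))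
      (fun y => Real.sqrt (Q x y) * u y)
    have e1 : ∑ y ∈ Ω, Real.sqrt (Q x y) * (Real.sqrt (Q x y) * u y) = ∑ y ∈ Ω, Q x y * u y := by
      refine sum_congr rfl fun y hy => ?_
      rw [← mul_assoc, Real.mul_self_sqrt (hQnn x hx y hy)]
    have e2 : ∑ y ∈ Ω, Real.sqrt (Q x y) ^ 2 = 1 := by
      rw [← hQrow x hx]
      exact sum_congr rfl fun y hy => Real.sq_sqrt (hQnn x hx y hy)
    have e3 : ∑ y ∈ Ω, (Real.sqrt (Q x y) * u y) ^ 2 = ∑ y ∈ Ω, Q x y * u y ^ 2 := by
      refine sum_congr rfl fun y hy => ?_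
      rw [mul_pow, Real.sq_sqrt (hQnn x hx y hy)]
    rw [e1, e2, e3, one_mul] at h
    exact h
  have hQ2 : ∑ x ∈ Ω, (∑ y ∈ Ω, Q x y * u y) ^ 2 ≤ ∑ x ∈ Ω, u x ^ 2 := by
    calc ∑ x ∈ Ω, (∑ y ∈ Ω, Q x y * u y) ^ 2 ≤ ∑ x ∈ Ω, ∑ y ∈ Ω, Q x y * u y ^ 2 :=
          sum_le_sum hJ
      _ = ∑ y ∈ Ω, u y ^ 2 := by
          rw [sum_comm]
          refine sum_congr rfl fun y hy => ?_
          rw [← sum_mul]
          have : ∑ x ∈ Ω, Q x y = 1 := by
            rw [← hQrow y hy]
            exact sum_congr rfl fun x _ => hQsymm x y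
          rw [this, one_mul]
  have hQ3 : ∑ x ∈ Ω, (2 * ∑ y ∈ Ω, P x y * u y - u x) ^ 2 ≤ ∑ x ∈ Ω, u x ^ 2 := by
    refine le_trans (le_of_eq ?_) hQ2
    exact sum_congr rfl fun x hx => by rw [hQu x hx]
  have hexp : ∑ x ∈ Ω, (2 * ∑ y ∈ Ω, P x y * u y - u x) ^ 2 =
      4 * ∑ x ∈ Ω, (∑ y ∈ Ω, P x y * u y) ^ 2 - 4 * ∑ x ∈ Ω, u x * (∑ y ∈ Ω, P x y * u y) +
        ∑ x ∈ Ω, u x ^ 2 := by
    rw [mul_sum, mul_sum, ← sum_sub_distrib, ← sum_add_distrib]
    exact sum_congr rfl fun x _ => by ring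
  have hg : ∑ x ∈ Ω, u x * (u x - ∑ y ∈ Ω, P x y * u y) =
      ∑ x ∈ Ω, u x ^ 2 - ∑ x ∈ Ω, u x * (∑ y ∈ Ω, P x y * u y) := by
    rw [← sum_sub_distrib]
    exact sum_congr rfl fun x _ => by ring
  rw [hg] at hgap
  rw [hexp] at hQ3
  have hfin : ∑ x ∈ Ω, u x * (∑ y ∈ Ω, P x y * u y) ≤ (1 - 1 / K) * ∑ x ∈ Ω, u x ^ 2 := by
    have : (∑ x ∈ Ω, u x ^ 2) / K ≤ ∑ x ∈ Ω, u x ^ 2 - ∑ x ∈ Ω, u x * (∑ y ∈ Ω, P x y * u y) := by
      rw [div_le_iff₀ hK]
      linarith
    have h2 : (1 - 1 / K) * ∑ x ∈ Ω, u x ^ 2 = ∑ x ∈ Ω, u x ^ 2 - (∑ x ∈ Ω, u x ^ 2) / K := by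
      ring
    rw [h2]; linarith
  linarith

end decay


/-- The Poincaré inequality in the form of the statement. -/
def GapIneq (d : Fin n → ℕ) : Prop :=
  ∀ f : Finset (Crest.SwitchChain.Edge n) → ℝ,
        ((Crest.SwitchChain.realizations d).card : ℝ) *
              (∑ G ∈ Crest.SwitchChain.realizations d, f G ^ 2) -
            (∑ G ∈ Crest.SwitchChain.realizations d, f G) ^ 2 ≤
          24 * (n : ℝ) ^ 2 * (n.choose 4 : ℝ) * (Crest.SwitchChain.realizations d).card *
            ∑ G ∈ Crest.SwitchChain.realizations d,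
              f G * (f G - ∑ G' ∈ Crest.SwitchChain.realizations d,
                Crest.SwitchChain.kernel n G G' * f G')

lemma gap_of_dirForm (hn : 4 ≤ n) (d : Fin n → ℕ)
    (h : ∀ f : Finset (Edge n) → ℝ,
      ((realizations d).card : ℝ) * (∑ G ∈ realizations d, f G ^ 2) -
        (∑ G ∈ realizations d, f G) ^ 2 ≤
      2 * (n : ℝ) ^ 2 * (realizations d).card * dirForm d f) : GapIneq d := by
  intro f
  rw [form_eq hn]
  refine (h f).trans (le_of_eq ?_)
  have := choose4_pos hn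
  field_simp
  ring

lemma pow_supp {d : Fin n → ℕ} {G : Finset (Edge n)} (hG : G ∈ realizations d) (t : ℕ) :
    ∀ E ∉ realizations d, (kernel n ^ t) G E = 0 := by
  induction t with
  | zero =>
    intro E hE
    rw [pow_zero, Matrix.one_apply_ne]
    rintro rfl; exact hE hG
  | succ t ih =>
    intro E hE
    rw [pow_succ, Matrix.mul_apply]
    refine sum_eq_zero fun E' _ => ?_
    by_cases hE' : E' ∈ realizations d
    · rw [kernel_eq_zero hE' hE, mul_zero]
    · rw [ih E' hE', zero_mul]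

lemma pow_succ_apply {d : Fin n → ℕ} {G : Finset (Edge n)} (hG : G ∈ realizations d) (t : ℕ)
    (E : Finset (Edge n)) :
    (kernel n ^ (t + 1)) G E = ∑ E' ∈ realizations d, kernel n E E' * (kernel n ^ t) G E' := by
  rw [pow_succ, Matrix.mul_apply, ← sum_subset (subset_univ (realizations d))]
  · exact sum_congr rfl fun E' _ => by rw [mul_comm, kernel_symm]
  · intro E' _ hE'
    rw [pow_supp hG t E' hE', zero_mul]

lemma pow_sum {d : Fin n → ℕ} (hn : 4 ≤ n) {G : Finset (Edge n)} (hG : G ∈ realizations d)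
    (t : ℕ) : ∑ E ∈ realizations d, (kernel n ^ t) G E = 1 := by
  induction t with
  | zero =>
    rw [sum_eq_single G]
    · simp
    · intro b _ hb; rw [pow_zero, Matrix.one_apply_ne hb.symm]
    · intro h; exact absurd hG h
  | succ t ih =>
    simp only [pow_succ_apply hG]
    rw [sum_comm, ← ih]
    refine sum_congr rfl fun E' hE' => ?_
    rw [← sum_mul]
    have : ∑ E ∈ realizations d, kernel n E E' = 1 := by
      rw [← kernel_row_sum hn hE']
      exact sum_congr rfl fun E _ => kernel_symm E E'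
    rw [this, one_mul]

lemma card_real_le (d : Fin n → ℕ) : ((realizations d).card : ℝ) ≤ Real.exp ((n : ℝ) ^ 2) := by
  have h1 : (realizations d).card ≤ 2 ^ (n ^ 2) := by
    calc (realizations d).card ≤ Fintype.card (Finset (Edge n)) := card_le_univ _
      _ = 2 ^ Fintype.card (Edge n) := Fintype.card_finset
      _ ≤ 2 ^ (n ^ 2) := by
        refine Nat.pow_le_pow_right (by norm_num) ?_
        calc Fintype.card (Edge n) ≤ Fintype.card (Sym2 (Fin n)) :=
              Fintype.card_subtype_le _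
          _ = (n + 1).choose 2 := by rw [Sym2.card, Fintype.card_fin]
          _ ≤ n ^ 2 := by
            rcases n with _ | m
            · simp
            · rw [Nat.choose_two_right]
              apply Nat.div_le_of_le_mul
              simp only [Nat.add_sub_cancel]
              nlinarith
  have h2 : (2 : ℝ) ^ (n ^ 2) ≤ Real.exp ((n : ℝ) ^ 2) := by
    have h3 : (2 : ℝ) ≤ Real.exp 1 := by
      have := Real.add_one_le_exp (1 : ℝ); linarith
    calc (2 : ℝ) ^ (n ^ 2) ≤ (Real.exp 1) ^ (n ^ 2) := pow_le_pow_left₀ (by norm_num) h3 _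
      _ = Real.exp ((n : ℝ) ^ 2) := by rw [← Real.exp_nat_mul]; push_cast; rw [mul_one]
  exact le_trans (by exact_mod_cast h1) h2

theorem tv_of_gap (hn : 4 ≤ n) (d : Fin n → ℕ) (hP : GapIneq d) :
    ∃ t : ℕ, t ≤ 2 * n ^ 8 ∧ ∀ G ∈ realizations d,
        tvDist (fun G' => (kernel n ^ t) G G') (unifOn (realizations d)) ≤ 1 / 4 := by
  refine ⟨2 * n ^ 8, le_rfl, fun G hG => ?_⟩
  set Ω := realizations d with hΩ
  have hN : (0 : ℝ) < (Ω.card : ℝ) := by exact_mod_cast card_pos.mpr ⟨G, hG⟩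
  set N : ℝ := (Ω.card : ℝ) with hNdef
  have hc := choose4_pos hn
  have hn' : (4 : ℝ) ≤ (n : ℝ) := by exact_mod_cast hn
  have hc1 : (1 : ℝ) ≤ (n.choose 4 : ℝ) := by exact_mod_cast Nat.choose_pos hn
  set K : ℝ := 24 * (n : ℝ) ^ 2 * (n.choose 4 : ℝ) with hK
  have hK1 : 1 ≤ K := by
    rw [hK]
    have : (1 : ℝ) ≤ 24 * (n : ℝ) ^ 2 := by nlinarith
    nlinarith
  have hK0 : 0 < K := by linarith
  have hKn : K ≤ (n : ℝ) ^ 6 := by
    have h1 : (n.choose 4 : ℝ) ≤ (n : ℝ) ^ 4 / 24 := by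
      have := Nat.choose_le_pow_div (α := ℝ) 4 n
      simpa [Nat.factorial] using this
    rw [hK]
    have : (0 : ℝ) ≤ 24 * (n : ℝ) ^ 2 := by positivity
    nlinarith [mul_le_mul_of_nonneg_left h1 this]
  -- deviation
  let u : ℕ → Finset (Edge n) → ℝ := fun t E => (kernel n ^ t) G E - 1 / N
  have hu_step : ∀ t, ∀ E ∈ Ω, ∑ E' ∈ Ω, kernel n E E' * u t E' = u (t + 1) E := by
    intro t E hE
    simp only [u, mul_sub, sum_sub_distrib, ← sum_mul]
    rw [kernel_row_sum hn hE, pow_succ_apply hG, one_mul]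
  have hu_sum : ∀ t, ∑ E ∈ Ω, u t E = 0 := by
    intro t
    simp only [u, sum_sub_distrib]
    rw [pow_sum hn hG, sum_const, nsmul_eq_mul]
    field_simp
    rw [← hNdef]; ring
  have hlazy : ∀ x ∈ Ω, 1 / 2 ≤ kernel n x x := by
    intro x _
    unfold kernel
    simp only [if_true]
    have : (0 : ℝ) ≤ (proposalCount x x : ℝ) / (12 * (n.choose 4 : ℝ)) := by positivity
    linarith
  have hdecay : ∀ t, ∑ E ∈ Ω, u (t + 1) E ^ 2 ≤ (1 - 1 / K) * ∑ E ∈ Ω, u t E ^ 2 := by
    intro t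
    have h1 := hP (u t)
    rw [← hΩ, hu_sum t, ← hNdef, ← hK] at h1
    have h2 : ∑ x ∈ Ω, u t x ^ 2 ≤ K * ∑ x ∈ Ω, u t x * (u t x - ∑ y ∈ Ω, kernel n x y * u t y) := by
      have h3 : N * ∑ x ∈ Ω, u t x ^ 2 ≤
          N * (K * ∑ x ∈ Ω, u t x * (u t x - ∑ y ∈ Ω, kernel n x y * u t y)) := by
        calc N * ∑ x ∈ Ω, u t x ^ 2 = N * ∑ x ∈ Ω, u t x ^ 2 - 0 ^ 2 := by ring
          _ ≤ _ := h1
          _ = _ := by ring
      exact le_of_mul_le_mul_left h3 hN
    have h4 := step_decay Ω (kernel n) kernel_symm hlazy kernel_nonneg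
      (fun x hx => kernel_row_sum hn hx) K hK0 (u t) h2
    refine le_trans (le_of_eq ?_) h4
    exact sum_congr rfl fun x hx => by rw [hu_step t x hx]
  have h1K : 0 ≤ 1 - 1 / K := by
    rw [sub_nonneg, div_le_one hK0]; exact hK1
  have hu0 : ∑ E ∈ Ω, u 0 E ^ 2 ≤ 1 := by
    have h1 : ∀ E, u 0 E ^ 2 = (if G = E then 1 - 2 / N else 0) + 1 / N ^ 2 := by
      intro E
      simp only [u, pow_zero, Matrix.one_apply]
      split_ifs
      · ring
      · ring
    rw [sum_congr rfl fun E _ => h1 E, sum_add_distrib, sum_ite_eq, if_pos hG, sum_const,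
      nsmul_eq_mul, ← hNdef]
    have : N * (1 / N ^ 2) = 1 / N := by field_simp
    rw [this]
    have : (0 : ℝ) < 1 / N := by positivity
    have h2 : 2 / N = 2 * (1 / N) := by ring
    rw [h2]; linarith
  have hut : ∀ t, ∑ E ∈ Ω, u t E ^ 2 ≤ (1 - 1 / K) ^ t := by
    intro t
    induction t with
    | zero => simpa using hu0
    | succ t ih =>
      calc _ ≤ (1 - 1 / K) * ∑ E ∈ Ω, u t E ^ 2 := hdecay t
        _ ≤ (1 - 1 / K) * (1 - 1 / K) ^ t := mul_le_mul_of_nonneg_left ih h1K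
        _ = _ := by rw [pow_succ]; ring
  set T : ℕ := 2 * n ^ 8 with hT
  have hexp : (1 - 1 / K) ^ T ≤ Real.exp (-(2 * (n : ℝ) ^ 2)) := by
    calc (1 - 1 / K) ^ T ≤ (Real.exp (-(1 / K))) ^ T := by
          refine pow_le_pow_left₀ h1K ?_ _
          have := Real.add_one_le_exp (-(1 / K)); linarith
      _ = Real.exp (T * -(1 / K)) := by rw [← Real.exp_nat_mul]
      _ ≤ Real.exp (-(2 * (n : ℝ) ^ 2)) := by
          apply Real.exp_le_exp.mpr
          have h1 : 2 * (n : ℝ) ^ 2 ≤ (T : ℝ) * (1 / K) := by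
            rw [mul_one_div, le_div_iff₀ hK0, hT]
            push_cast
            have : (0 : ℝ) ≤ 2 * (n : ℝ) ^ 2 := by positivity
            nlinarith [mul_le_mul_of_nonneg_left hKn this]
          linarith
  have hsq : (∑ E ∈ Ω, |u T E|) ^ 2 ≤ 1 / 4 := by
    have h1 : (∑ E ∈ Ω, |u T E|) ^ 2 ≤ N * ∑ E ∈ Ω, u T E ^ 2 := by
      have := sq_sum_le_card_mul_sum_sq (s := Ω) (f := fun E => |u T E|)
      simpa only [sq_abs] using this
    have h2 : N * ∑ E ∈ Ω, u T E ^ 2 ≤ Real.exp ((n : ℝ) ^ 2) * Real.exp (-(2 * (n : ℝ) ^ 2)) := by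
      refine mul_le_mul (card_real_le d) ((hut T).trans hexp) ?_ (Real.exp_pos _).le
      exact sum_nonneg fun _ _ => sq_nonneg _
    rw [← Real.exp_add] at h2
    have h3 : Real.exp ((n : ℝ) ^ 2 + -(2 * (n : ℝ) ^ 2)) ≤ 1 / 4 := by
      have h4 : (n : ℝ) ^ 2 + -(2 * (n : ℝ) ^ 2) = -((n : ℝ) ^ 2) := by ring
      rw [h4, Real.exp_neg, ← one_div]
      have h5 : (4 : ℝ) ≤ Real.exp ((n : ℝ) ^ 2) := by
        have := Real.add_one_le_exp ((n : ℝ) ^ 2)
        nlinarith
      exact one_div_le_one_div_of_le (by norm_num) h5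
    linarith
  have habs : ∑ E ∈ Ω, |u T E| ≤ 1 / 2 := by
    have h0 : 0 ≤ ∑ E ∈ Ω, |u T E| := sum_nonneg fun _ _ => abs_nonneg _
    nlinarith
  unfold tvDist
  have : ∑ a, |(kernel n ^ T) G a - unifOn Ω a| = ∑ E ∈ Ω, |u T E| := by
    rw [← sum_subset (subset_univ Ω)]
    · refine sum_congr rfl fun E hE => ?_
      simp only [u, unifOn, if_pos hE]
      rfl
    · intro E _ hE
      simp only [unifOn, if_neg hE, pow_supp hG T E hE, sub_zero, abs_zero]
  rw [this]
  linarith

end Crest.Agent.S0453
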