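import Crest.Agent.S499Defs

set_option autoImplicit false

open MeasureTheory ProbabilityTheory Crest.StreamLearn Metric Filter
open scoped ENNReal Pointwise

namespace Crest.Agent.S499

namespace P2

lemma toSphere_univ {d : ℕ} : (volume : Measure (E d)).toSphere Set.univ =
      (d : ℝ≥0∞) * (volume : Measure (E d)) (ball 0 1) := by
  rw [Measure.toSphere_apply_univ]
  simp

lemma toSphere_univ_ne_zero {d : ℕ} (hd : 1 ≤ d) :
    (volume : Measure (E d)).toSphere Set.univ ≠ 0 := by
  rw [toSphere_univ]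
  refine mul_ne_zero ?_ ?_
  · simp; omega
  · exact (measure_ball_pos _ _ one_pos).ne'

lemma toSphere_univ_ne_top {d : ℕ} : (volume : Measure (E d)).toSphere Set.univ ≠ ⊤ := by
  rw [toSphere_univ]
  exact ENNReal.mul_ne_top (by simp) measure_ball_lt_top.ne

end P2

theorem prob_sphere {d : ℕ} (hd : 1 ≤ d) : IsProbabilityMeasure (sphereUniform d) := by
  constructor
  unfold sphereUniform
  rw [Measure.smul_apply, smul_eq_mul]
  exact ENNReal.inv_mul_cancel (P2.toSphere_univ_ne_zero hd) P2.toSphere_univ_ne_top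

namespace P2

lemma cone_cover {d : ℕ} (u : E d) (hu : ‖u‖ = 1) (R : ℝ) (hR : 0 < R) (A : Set (Sphere d))
    (hA : ∀ s ∈ A, dist (s : E d) u ≤ R) :
    (Set.Ioo (0 : ℝ) 1 • ((↑) '' A : Set (E d))) ⊆
      ⋃ i ∈ Finset.range (⌊1 / R⌋₊ + 1), closedBall (((i : ℝ) * R) • u) (2 * R) := by
  intro y hy
  obtain ⟨t, ht, z, ⟨s, hs, rfl⟩, rfl⟩ := Set.mem_smul.1 hy
  simp only [Set.mem_iUnion, Finset.mem_range, exists_prop]
  refine ⟨⌊t / R⌋₊, ?_, ?_⟩
  · have : ⌊t / R⌋₊ ≤ ⌊1 / R⌋₊ := Nat.floor_le_floor (by gcongr; exact ht.2.le)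
    omega
  · rw [mem_closedBall, dist_eq_norm]
    have h1 : t • (s : E d) - ((⌊t / R⌋₊ : ℝ) * R) • u =
        t • ((s : E d) - u) + (t - (⌊t / R⌋₊ : ℝ) * R) • u := by
      rw [smul_sub, sub_smul]; abel
    rw [h1]
    have h2 : ‖t • ((s : E d) - u)‖ ≤ R := by
      rw [norm_smul, Real.norm_eq_abs, abs_of_pos ht.1, ← dist_eq_norm]
      calc t * dist (s : E d) u ≤ 1 * R := by
            gcongr
            · exact ht.2.le
            · exact hA s hs
        _ = R := one_mul R
    have h3 : ‖(t - (⌊t / R⌋₊ : ℝ) * R) • u‖ ≤ R := by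
      rw [norm_smul, hu, mul_one, Real.norm_eq_abs, abs_le]
      have h4 : (⌊t / R⌋₊ : ℝ) ≤ t / R := Nat.floor_le (div_pos ht.1 hR).le
      have h5 : t / R < (⌊t / R⌋₊ : ℝ) + 1 := Nat.lt_floor_add_one _
      rw [le_div_iff₀ hR] at h4
      rw [div_lt_iff₀ hR] at h5
      constructor <;> nlinarith
    calc _ ≤ ‖t • ((s : E d) - u)‖ + ‖(t - (⌊t / R⌋₊ : ℝ) * R) • u‖ := norm_add_le _ _
      _ ≤ 2 * R := by linarith

lemma cone_vol {d : ℕ} (hd : 1 ≤ d) (u : E d) (hu : ‖u‖ = 1) (R : ℝ) (hR : 0 < R)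
    (A : Set (Sphere d)) (hAm : MeasurableSet A)
    (hA : ∀ s ∈ A, dist (s : E d) u ≤ R) :
    sphereUniform d A ≤ ENNReal.ofReal ((1 / R + 1) * (2 * R) ^ d) := by
  have hv : (volume : Measure (E d)) (Set.Ioo (0 : ℝ) 1 • ((↑) '' A : Set (E d))) ≤
      ENNReal.ofReal ((1 / R + 1) * (2 * R) ^ d) * (volume : Measure (E d)) (ball 0 1) := by
    calc (volume : Measure (E d)) (Set.Ioo (0 : ℝ) 1 • ((↑) '' A : Set (E d)))
        ≤ (volume : Measure (E d)) (⋃ i ∈ Finset.range (⌊1 / R⌋₊ + 1),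
            closedBall (((i : ℝ) * R) • u) (2 * R)) := measure_mono (cone_cover u hu R hR A hA)
      _ ≤ ∑ i ∈ Finset.range (⌊1 / R⌋₊ + 1),
            (volume : Measure (E d)) (closedBall (((i : ℝ) * R) • u) (2 * R)) :=
          measure_biUnion_finset_le _ _
      _ = ((⌊1 / R⌋₊ + 1 : ℕ) : ℝ≥0∞) * (ENNReal.ofReal ((2 * R) ^ d) *
            (volume : Measure (E d)) (ball 0 1)) := by
          have hb : ∀ i : ℕ, (volume : Measure (E d)) (closedBall (((i : ℝ) * R) • u) (2 * R)) =
              ENNReal.ofReal ((2 * R) ^ d) * (volume : Measure (E d)) (ball 0 1) := by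
            intro i
            have := Measure.addHaar_closedBall (volume : Measure (E d)) (((i : ℝ) * R) • u)
              (by positivity : 0 ≤ 2 * R)
            simpa using this
          simp only [hb]
          simp
      _ ≤ _ := by
          rw [ENNReal.ofReal_mul (by positivity), ← mul_assoc]
          gcongr
          rw [← ENNReal.ofReal_natCast]
          apply ENNReal.ofReal_le_ofReal
          push_cast
          have := Nat.floor_le (by positivity : 0 ≤ 1 / R)
          linarith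
  unfold sphereUniform
  rw [Measure.smul_apply, smul_eq_mul, Measure.toSphere_apply' _ hAm]
  calc ((volume : Measure (E d)).toSphere Set.univ)⁻¹ * _
      ≤ ((volume : Measure (E d)).toSphere Set.univ)⁻¹ *
        ((Module.finrank ℝ (E d) : ℝ≥0∞) * (ENNReal.ofReal ((1 / R + 1) * (2 * R) ^ d) *
          (volume : Measure (E d)) (ball 0 1))) := by gcongr
    _ = ((volume : Measure (E d)).toSphere Set.univ)⁻¹ *
        (volume : Measure (E d)).toSphere Set.univ * ENNReal.ofReal ((1 / R + 1) * (2 * R) ^ d) := by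
        rw [toSphere_univ]
        simp only [finrank_euclideanSpace, Fintype.card_fin]
        ring
    _ = _ := by
        rw [ENNReal.inv_mul_cancel (toSphere_univ_ne_zero hd) toSphere_univ_ne_top, one_mul]

end P2

/-- PART 2. -/
theorem sphere_ball {d : ℕ} (hd : 1 ≤ d) (x : E d) (r : ℝ) (hr : 0 < r) :
    sphereUniform d {s : Sphere d | dist (s : E d) x ≤ r} ≤
      ENNReal.ofReal (3 * 4 ^ d * r ^ (d - 1)) := by
  have hprob := prob_sphere hd
  obtain ⟨k, rfl⟩ : ∃ k, d = k + 1 := ⟨d - 1, by omega⟩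
  simp only [Nat.add_sub_cancel]
  rcases Set.eq_empty_or_nonempty {s : Sphere (k + 1) | dist (s : E (k + 1)) x ≤ r} with h | ⟨u, hu⟩
  · rw [h]; simp
  rw [Set.mem_ofPred_eq] at hu
  have hA : ∀ s ∈ {s : Sphere (k + 1) | dist (s : E (k + 1)) x ≤ r},
      dist (s : E (k + 1)) u ≤ 2 * r := by
    intro s hs
    rw [Set.mem_ofPred_eq] at hs
    have := dist_triangle_right (s : E (k + 1)) u x
    linarith
  have hm : MeasurableSet {s : Sphere (k + 1) | dist (s : E (k + 1)) x ≤ r} := by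
    apply IsClosed.measurableSet
    exact isClosed_le (by fun_prop) (by fun_prop)
  rcases le_or_gt (2 * r) 1 with h1 | h1
  · have := P2.cone_vol hd u (mem_sphere_zero_iff_norm.1 u.2) (2 * r) (by positivity) _ hm hA
    refine this.trans (ENNReal.ofReal_le_ofReal ?_)
    have h2 : 1 / (2 * r) + 1 ≤ 1 / r := by
      rw [div_add_one (by positivity), div_le_div_iff₀ (by positivity) hr]
      nlinarith
    calc (1 / (2 * r) + 1) * (2 * (2 * r)) ^ (k + 1) ≤ 1 / r * (2 * (2 * r)) ^ (k + 1) := by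
          gcongr
      _ = 4 ^ (k + 1) * r ^ k := by
          rw [show 2 * (2 * r) = 4 * r by ring, mul_pow, pow_succ r]
          field_simp
      _ ≤ 3 * 4 ^ (k + 1) * r ^ k := by
          have : 0 ≤ 4 ^ (k + 1) * r ^ k := by positivity
          linarith
  · refine le_trans prob_le_one ?_
    rw [← ENNReal.ofReal_one]
    apply ENNReal.ofReal_le_ofReal
    have h3 : (1 / 2 : ℝ) ^ k ≤ r ^ k := by
      gcongr
      linarith
    calc (1 : ℝ) ≤ 3 * 4 ^ (k + 1) * (1 / 2) ^ k := by
          have : (4 : ℝ) ^ (k + 1) * (1 / 2) ^ k = 4 * 2 ^ k := by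
            rw [pow_succ, mul_right_comm, ← mul_pow]; norm_num; ring
          rw [mul_assoc, this]
          have : (1 : ℝ) ≤ 2 ^ k := one_le_pow₀ (by norm_num)
          linarith
      _ ≤ _ := by gcongr

end Crest.Agent.S499
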