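import Crest.Agent.S499P8

/-!
S0499, part 9a: value functions of an abstract one-pass process.
-/

set_option autoImplicit false

open MeasureTheory ProbabilityTheory Crest.StreamLearn Metric Filter
open scoped ENNReal

namespace Crest.Agent.S499

section abstract

variable {d : ℕ} {ι : Type}

/-- final status after `n` steps -/
def runN (step : ℕ → ι → E d → ℝ → ι) : (n : ℕ) → ℕ → ι → (Fin n → E d) → (Fin n → ℝ) → ι
  | 0, _, st, _, _ => st
  | n + 1, t, st, a, y =>
      runN step n (t + 1) (step t st (a 0) (y 0)) (fun i => a i.succ) (fun i => y i.succ)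

/-- value functions -/
noncomputable def U (step : ℕ → ι → E d → ℝ → ι) (F : ι → E d → ℝ≥0∞) :
    ℕ → ℕ → ι → E d → ℝ≥0∞
  | 0, _, st, x => F st x
  | n + 1, t, st, x => ∫⁻ a, U step F n (t + 1) (step t st a (inner ℝ a x)) x ∂(stdGaussian (E d))

lemma foldl_eq_runN (step : ℕ → ι → E d → ℝ → ι) (n : ℕ) : ∀ (t : ℕ) (st : ι) (a : Fin n → E d)
    (y : Fin n → ℝ),
    (List.finRange n).foldl (fun st i => step (t + i.val) st (a i) (y i)) st =
      runN step n t st a y := by
  induction n with
  | zero => intro t st a y; simp [runN]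
  | succ n ih =>
    intro t st a y
    rw [List.finRange_succ, List.foldl_cons, List.foldl_map, runN, ← ih]
    simp only [Fin.val_succ, Fin.val_zero, add_zero]
    congr 1
    funext st i
    rw [show t + (i.val + 1) = t + 1 + i.val by ring]

variable [Countable ι] [MeasurableSpace ι] [MeasurableSingletonClass ι]

lemma meas_choose {X β : Type*} [MeasurableSpace X] [MeasurableSpace β] {φ : X → ι}
    (hφ : Measurable φ) {G : ι → X → β} (hG : ∀ w, Measurable (G w)) :
    Measurable fun x => G (φ x) x := by
  intro s hs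
  have : (fun x => G (φ x) x) ⁻¹' s = ⋃ w, (φ ⁻¹' {w} ∩ G w ⁻¹' s) := by
    ext x; simp
  rw [this]
  exact MeasurableSet.iUnion fun w => (hφ (measurableSet_singleton w)).inter (hG w hs)

variable {step : ℕ → ι → E d → ℝ → ι}
  (hstep : ∀ t w, Measurable fun q : E d × ℝ => step t w q.1 q.2)
  {F : ι → E d → ℝ≥0∞} (hF : ∀ w, Measurable (F w))

include hstep

lemma runN_meas (n : ℕ) : ∀ (t : ℕ) (st : ι),
    Measurable fun q : (Fin n → E d) × (Fin n → ℝ) => runN step n t st q.1 q.2 := by
  induction n with
  | zero => intro t st; simp only [runN]; exact measurable_const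
  | succ n ih =>
    intro t st
    simp only [runN]
    have h1 : Measurable fun q : (Fin (n + 1) → E d) × (Fin (n + 1) → ℝ) =>
        step t st (q.1 0) (q.2 0) := by
      have h2 : Measurable fun q : (Fin (n + 1) → E d) × (Fin (n + 1) → ℝ) => (q.1 0, q.2 0) := by
        fun_prop
      exact (hstep t st).comp h2
    refine meas_choose (φ := fun q : (Fin (n + 1) → E d) × (Fin (n + 1) → ℝ) =>
        step t st (q.1 0) (q.2 0))
      (G := fun w q => runN step n (t + 1) w (fun i => q.1 i.succ) (fun i => q.2 i.succ)) h1 ?_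
    intro w
    have h3 : Measurable fun q : (Fin (n + 1) → E d) × (Fin (n + 1) → ℝ) =>
        ((fun i : Fin n => q.1 i.succ), (fun i : Fin n => q.2 i.succ)) := by
      fun_prop
    exact (ih (t + 1) w).comp h3

include hF

lemma U_meas (n : ℕ) : ∀ (t : ℕ) (st : ι), Measurable (U step F n t st) := by
  induction n with
  | zero => intro t st; exact hF st
  | succ n ih =>
    intro t st
    have h1 : Measurable fun q : E d × E d => U step F n (t + 1) (step t st q.2 (inner ℝ q.2 q.1)) q.1 := by
      refine meas_choose (φ := fun q : E d × E d => step t st q.2 (inner ℝ q.2 q.1))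
        (G := fun w q => U step F n (t + 1) w q.1) ?_ ?_
      · have h2 : Measurable fun q : E d × E d => (q.2, (inner ℝ q.2 q.1 : ℝ)) := by fun_prop
        exact (hstep t st).comp h2
      · intro w
        exact (ih (t + 1) w).comp measurable_fst
    exact h1.lintegral_prod_right'

omit hstep hF [Countable ι] [MeasurableSpace ι] [MeasurableSingletonClass ι] in
lemma U_le_one (hF1 : ∀ w x, F w x ≤ 1) (n : ℕ) : ∀ (t : ℕ) (st : ι) (x : E d),
    U step F n t st x ≤ 1 := by
  induction n with
  | zero => intro t st x; exact hF1 st x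
  | succ n ih =>
    intro t st x
    simp only [U]
    refine (lintegral_mono fun a => ih _ _ _).trans ?_
    simp

omit hstep hF [Countable ι] [MeasurableSpace ι] [MeasurableSingletonClass ι] in
lemma U_stop {T : ℕ} (hT : ∀ t, T ≤ t → ∀ st a y, step t st a y = st) (n : ℕ) :
    ∀ (t : ℕ), T ≤ t → ∀ (st : ι) (x : E d), U step F n t st x = F st x := by
  induction n with
  | zero => intro t _ st x; rfl
  | succ n ih =>
    intro t ht st x
    simp only [U, hT t ht, ih (t + 1) (by omega)]
    simp

omit hF in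
lemma U_comp (m n : ℕ) : ∀ (t : ℕ) (st : ι) (x : E d),
    U step F (m + n) t st x =
      ∫⁻ a, U step F n (t + m) (runN step m t st a (meas a x)) x ∂(gam d m) := by
  induction m with
  | zero =>
    intro t st x
    simp [runN]
  | succ m ih =>
    intro t st x
    rw [show m + 1 + n = (m + n) + 1 by ring]
    simp only [U, ih]
    -- the joint integrand
    set g : E d × (Fin m → E d) → ℝ≥0∞ := fun q =>
      U step F n (t + 1 + m) (runN step m (t + 1) (step t st q.1 (inner ℝ q.1 x)) q.2 (meas q.2 x)) x
      with hg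
    have hgm : Measurable g := by
      refine meas_choose (φ := fun q : E d × (Fin m → E d) =>
        runN step m (t + 1) (step t st q.1 (inner ℝ q.1 x)) q.2 (meas q.2 x))
        (G := fun w q => U step F n (t + 1 + m) w x) ?_ (fun w => measurable_const)
      refine meas_choose (φ := fun q : E d × (Fin m → E d) => step t st q.1 (inner ℝ q.1 x))
        (G := fun w q => runN step m (t + 1) w q.2 (meas q.2 x)) ?_ ?_
      · have h2 : Measurable fun q : E d × (Fin m → E d) => (q.1, (inner ℝ q.1 x : ℝ)) := by fun_prop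
        exact (hstep t st).comp h2
      · intro w
        have h2 : Measurable fun q : E d × (Fin m → E d) => (q.2, meas q.2 x) := by
          unfold meas
          fun_prop
        exact (runN_meas hstep m (t + 1) w).comp h2
    have h1 := measurePreserving_piFinSuccAbove (fun _ : Fin (m + 1) => stdGaussian (E d)) 0
    have h2 : ∫⁻ q, g q ∂((stdGaussian (E d)).prod (gam d m)) =
        ∫⁻ a : Fin (m + 1) → E d, g (a 0, fun i => a i.succ) ∂(gam d (m + 1)) := by
      have h3 := h1.lintegral_comp hgm
      rw [← h3]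
      rfl
    rw [lintegral_prod _ hgm.aemeasurable] at h2
    rw [show (fun a => ∫⁻ (a_1 : Fin m → E d),
      U step F n (t + 1 + m) (runN step m (t + 1) (step t st a (inner ℝ a x)) a_1 (meas a_1 x)) x
        ∂gam d m) = fun a => ∫⁻ b, g (a, b) ∂(gam d m) from rfl, h2]
    refine lintegral_congr fun a => ?_
    simp only [hg, runN]
    rw [show t + (m + 1) = t + 1 + m by ring]
    rfl

/-- the Frostman class is preserved by the backward value recursion -/
theorem frost_iter {p k α : ℕ} (hp : 1 ≤ p) (hk : 1 ≤ k) (hα : 2 * p + k + 1 ≤ α)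
    (H : ℝ≥0∞) (hH1 : 1 ≤ H) (hHt : H ≠ ⊤)
    (W : ℕ → ι → Finset ι) (hW : ∀ t st a y, runN step (2 * p) t st a y ∈ W t st)
    (hWc : ∀ t st, ((W t st).card : ℝ≥0∞) ≤ H ^ k) (hF1 : ∀ w x, F w x ≤ 1)
    (σ : Measure (E d)) [IsProbabilityMeasure σ] (C : ℝ≥0∞) (hC0 : C ≠ 0) (hC : C ≠ ⊤)
    (hν : ∀ w, Frost α C (σ.withDensity (F w))) (j : ℕ) :
    ∀ (t : ℕ) (st : ι), Frost α
      (((2 ^ (k + 1) * 4 ^ α * ENNReal.ofReal (Real.exp (Real.pi * d)) + 1) * H) ^ j * C)
      (σ.withDensity (U step F (2 * p * j) t st)) := by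
  set Γ : ℝ≥0∞ := (2 ^ (k + 1) * 4 ^ α * ENNReal.ofReal (Real.exp (Real.pi * d)) + 1) * H with hΓ
  have hH0 : H ≠ 0 := by
    intro h
    rw [h] at hH1
    simp at hH1
  have hΓ0 : Γ ≠ 0 := mul_ne_zero (by simp) hH0
  have hΓt : Γ ≠ ⊤ := by
    refine ENNReal.mul_ne_top (ENNReal.add_ne_top.2 ⟨ENNReal.mul_ne_top (ENNReal.mul_ne_top ?_ ?_)
      ENNReal.ofReal_ne_top, ENNReal.one_ne_top⟩) hHt <;>
      exact ENNReal.pow_ne_top (by norm_num)
  induction j with
  | zero =>
    intro t st
    have : U step F (2 * p * 0) t st = F st := by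
      funext x
      rfl
    rw [this, pow_zero, one_mul]
    exact hν st
  | succ j ih =>
    intro t st z ρ hρ
    set ν : ι → Measure (E d) := fun w => σ.withDensity (U step F (2 * p * j) (t + 2 * p) w) with hνdef
    have : ∀ w, IsFiniteMeasure (ν w) := by
      intro w
      refine isFiniteMeasure_withDensity ?_
      refine ne_top_of_le_ne_top (b := 1) (by simp) ?_
      refine (lintegral_mono fun x => U_le_one hF1 _ _ _ x).trans ?_
      simp
    have hfm : ∀ w ∈ W t st, MeasurableSet {q : (Fin (2 * p) → E d) × (Fin (2 * p) → ℝ) |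
        runN step (2 * p) t st q.1 q.2 = w} := fun w _ =>
      (runN_meas hstep (2 * p) t st) (measurableSet_singleton w)
    have h1 := one_step (d := d) hp hk hα (W t st) H (hWc t st) hH1 hHt
      (fun a y => runN step (2 * p) t st a y) hfm ν (Γ ^ j * C)
      (mul_ne_zero (pow_ne_zero _ hΓ0) hC0) (ENNReal.mul_ne_top (ENNReal.pow_ne_top hΓt) hC)
      (fun w _ => ih (t + 2 * p) w) z ρ hρ
    rw [← hΓ] at h1
    have h2 : Γ * (Γ ^ j * C) * ENNReal.ofReal ρ ^ α = Γ ^ (j + 1) * C * ENNReal.ofReal ρ ^ α := by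
      ring
    rw [h2] at h1
    refine le_trans (le_of_eq ?_) h1
    rw [withDensity_apply _ measurableSet_closedBall]
    -- joint integrand
    set g : (Fin (2 * p) → E d) → E d → ℝ≥0∞ := fun a x =>
      U step F (2 * p * j) (t + 2 * p) (runN step (2 * p) t st a (meas a x)) x with hg
    have hrunm : Measurable fun q : (Fin (2 * p) → E d) × E d =>
        runN step (2 * p) t st q.1 (meas q.1 q.2) := by
      have h2 : Measurable fun q : (Fin (2 * p) → E d) × E d => (q.1, meas q.1 q.2) := by
        unfold meas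
        fun_prop
      exact (runN_meas hstep (2 * p) t st).comp h2
    have hgm : Measurable (Function.uncurry g) := by
      refine meas_choose (φ := fun q : (Fin (2 * p) → E d) × E d =>
        runN step (2 * p) t st q.1 (meas q.1 q.2))
        (G := fun w q => U step F (2 * p * j) (t + 2 * p) w q.2) hrunm (fun w => ?_)
      exact (U_meas hstep hF _ _ w).comp measurable_snd
    have h3 : ∀ x, U step F (2 * p * (j + 1)) t st x = ∫⁻ a, g a x ∂(gam d (2 * p)) := by
      intro x
      rw [show 2 * p * (j + 1) = 2 * p + 2 * p * j by ring]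
      exact U_comp hstep _ _ _ _ _
    simp only [h3]
    rw [← lintegral_lintegral_swap hgm.aemeasurable]
    refine lintegral_congr fun a => ?_
    have hSm : ∀ w, MeasurableSet {x : E d | runN step (2 * p) t st a (meas a x) = w} := by
      intro w
      have h4 : Measurable fun x : E d => (a, x) := by fun_prop
      exact (hrunm.comp h4) (measurableSet_singleton w)
    have h4 : ∀ x, g a x = ∑ w ∈ W t st, {x : E d | runN step (2 * p) t st a (meas a x) = w}.indicator
        (U step F (2 * p * j) (t + 2 * p) w) x := by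
      intro x
      rw [Finset.sum_eq_single (runN step (2 * p) t st a (meas a x))]
      · rw [Set.indicator_of_mem (by rfl)]
      · intro w _ hw
        rw [Set.indicator_of_notMem]
        exact fun h => hw h.symm
      · intro h
        exact absurd (hW _ _ _ _) h
    simp only [h4]
    rw [lintegral_finsetSum (W t st) fun w _ => (U_meas hstep hF _ _ w).indicator (hSm w)]
    refine Finset.sum_congr rfl fun w _ => ?_
    rw [lintegral_indicator (hSm w), Measure.restrict_restrict (hSm w), hνdef,
      withDensity_apply _ (measurableSet_closedBall.inter (hSm w)), Set.inter_comm]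

/-- the success probability of the abstract process -/
theorem final_abstract {p k α : ℕ} (hp : 1 ≤ p) (hk : 1 ≤ k) (hα : 2 * p + k + 1 ≤ α)
    (H : ℝ≥0∞) (hH1 : 1 ≤ H) (hHt : H ≠ ⊤)
    (W : ℕ → ι → Finset ι) (hW : ∀ t st a y, runN step (2 * p) t st a y ∈ W t st)
    (hWc : ∀ t st, ((W t st).card : ℝ≥0∞) ≤ H ^ k) (hF1 : ∀ w x, F w x ≤ 1)
    (σ : Measure (E d)) [IsProbabilityMeasure σ] (hσ : ∀ᵐ x ∂σ, x ∈ closedBall (0 : E d) 1)
    (C : ℝ≥0∞) (hC0 : C ≠ 0) (hC : C ≠ ⊤)
    (hν : ∀ w, Frost α C (σ.withDensity (F w))) (K T : ℕ) (hK : T ≤ 2 * p * K)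
    (hT : ∀ t, T ≤ t → ∀ st a y, step t st a y = st) (st : ι) :
    ∫⁻ x, ∫⁻ a, F (runN step T 0 st a (meas a x)) x ∂(gam d T) ∂σ ≤
      ((2 ^ (k + 1) * 4 ^ α * ENNReal.ofReal (Real.exp (Real.pi * d)) + 1) * H) ^ K * C := by
  have h1 : ∀ x, ∫⁻ a, F (runN step T 0 st a (meas a x)) x ∂(gam d T) = U step F (2 * p * K) 0 st x := by
    intro x
    obtain ⟨n, hn⟩ := Nat.exists_eq_add_of_le hK
    rw [hn, U_comp hstep]
    refine lintegral_congr fun a => ?_
    rw [U_stop hT _ _ (by omega)]
  simp only [h1]
  have h2 := frost_iter hstep hF hp hk hα H hH1 hHt W hW hWc hF1 σ C hC0 hC hν K 0 st 0 1 one_pos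
  rw [withDensity_apply _ measurableSet_closedBall, Measure.restrict_eq_self_of_ae_mem hσ] at h2
  simpa using h2

end abstract

end Crest.Agent.S499
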