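import Crest.Agent.S499P1
import Crest.Agent.S499P2
import Crest.Agent.S499P9a

/-!
S0499, part 9b: the learner.
-/

set_option autoImplicit false

open MeasureTheory ProbabilityTheory Crest.StreamLearn Metric Filter
open scoped ENNReal

namespace Crest.Agent.S499

section learner

variable {d T M : ℕ} (L : RLearner d T M)

/-- one update of the status -/
noncomputable def upd (ω : L.Ω) (t : ℕ) (st : L.St × Option ℕ) (a : E d) (y : ℝ) :
    L.St × Option ℕ :=
  if h : t < T then
    (if st.2.isSome then st else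
      if (L.trans ⟨t, h⟩ ω st.1 a y).2
      then ((L.trans ⟨t, h⟩ ω st.1 a y).1, some (t + 1))
      else ((L.trans ⟨t, h⟩ ω st.1 a y).1, none))
  else st

/-- the initial status -/
noncomputable def ini (ω : L.Ω) : L.St × Option ℕ := (L.init ω, if L.stopFirst ω then some 0 else none)

lemma run_eq (ω : L.Ω) (s : E d) (xs : Fin T → E d) :
    L.run ω s xs = runN (upd L ω) T 0 (ini L ω) xs (meas xs s) := by
  rw [← foldl_eq_runN]
  unfold RLearner.run ini
  congr 1
  funext st t
  simp [upd, meas, t.2]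

lemma upd_stop (ω : L.Ω) (t : ℕ) (ht : T ≤ t) (st : L.St × Option ℕ) (a : E d) (y : ℝ) :
    upd L ω t st a y = st := by
  unfold upd
  rw [dif_neg (by omega)]

lemma upd_snd (ω : L.Ω) (t : ℕ) (st : L.St × Option ℕ) (a : E d) (y : ℝ) :
    (upd L ω t st a y).2 = st.2 ∨ (upd L ω t st a y).2 = none ∨ (upd L ω t st a y).2 = some (t + 1) := by
  unfold upd
  split_ifs <;> simp

lemma runN_snd (ω : L.Ω) (n : ℕ) : ∀ (t : ℕ) (st : L.St × Option ℕ) (a : Fin n → E d) (y : Fin n → ℝ),
    (runN (upd L ω) n t st a y).2 ∈ insert st.2 (insert none ((Finset.Ioc t (t + n)).image some)) := by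
  induction n with
  | zero => intro t st a y; simp [runN]
  | succ n ih =>
    intro t st a y
    have h1 := ih (t + 1) (upd L ω t st (a 0) (y 0)) (fun i => a i.succ) (fun i => y i.succ)
    have h2 := upd_snd L ω t st (a 0) (y 0)
    simp only [runN]
    simp only [Finset.mem_insert, Finset.mem_image, Finset.mem_Ioc] at h1 ⊢
    rcases h1 with h1 | h1 | ⟨i, hi, h1⟩
    · rw [h1]
      rcases h2 with h2 | h2 | h2
      · left; exact h2
      · right; left; exact h2
      · right; right; exact ⟨t + 1, by omega, h2.symm⟩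
    · right; left; exact h1
    · right; right; exact ⟨i, by omega, h1⟩

/-- reachable statuses -/
noncomputable def reach (n t : ℕ) (st : L.St × Option ℕ) : Finset (L.St × Option ℕ) :=
  letI := L.fin
  Finset.univ ×ˢ (insert st.2 (insert none ((Finset.Ioc t (t + n)).image some)))

lemma mem_reach (ω : L.Ω) (n t : ℕ) (st : L.St × Option ℕ) (a : Fin n → E d) (y : Fin n → ℝ) :
    runN (upd L ω) n t st a y ∈ reach L n t st := by
  unfold reach
  let _ := L.fin
  rw [Finset.mem_product]
  exact ⟨Finset.mem_univ _, runN_snd L ω n t st a y⟩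

lemma card_reach (n t : ℕ) (st : L.St × Option ℕ) : (reach L n t st).card ≤ 2 ^ M * (n + 2) := by
  unfold reach
  let _ := L.fin
  rw [Finset.card_product]
  refine Nat.mul_le_mul L.card_le ?_
  refine (Finset.card_insert_le _ _).trans ?_
  have h1 := Finset.card_insert_le (none : Option ℕ) ((Finset.Ioc t (t + n)).image some)
  have h2 : ((Finset.Ioc t (t + n)).image (some : ℕ → Option ℕ)).card ≤ n :=
    Finset.card_image_le.trans (by simp)
  omega

attribute [local instance] RLearner.mΩ RLearner.prob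

local instance instStat : MeasurableSpace (L.St × Option ℕ) := ⊤

local instance instStat' : MeasurableSingletonClass (L.St × Option ℕ) := ⟨fun _ => trivial⟩

local instance instCount : Countable (L.St × Option ℕ) := by
  have := L.fin
  infer_instance

lemma upd_meas (t : ℕ) (st : L.St × Option ℕ) :
    Measurable fun p : L.Ω × (E d × ℝ) => upd L p.1 t st p.2.1 p.2.2 := by
  unfold upd
  by_cases h : t < T
  · simp only [dif_pos h]
    by_cases h2 : st.2.isSome = true
    · simp only [h2, if_true]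
      exact measurable_const
    · simp only [if_neg h2]
      have hm1 : ∀ o : Option ℕ, Measurable fun p : L.Ω × (E d × ℝ) =>
          (((L.trans ⟨t, h⟩ p.1 st.1 p.2.1 p.2.2).1, o) : L.St × Option ℕ) := by
        intro o s _
        exact (L.trans_measurable ⟨t, h⟩ st.1).1 (t := {q | (q, o) ∈ s}) trivial
      refine Measurable.ite ?_ (hm1 _) (hm1 _)
      exact (L.trans_measurable ⟨t, h⟩ st.1).2 (t := {true}) trivial
  · simp only [dif_neg h]
    exact measurable_const

lemma upd_meas' (ω : L.Ω) (t : ℕ) (st : L.St × Option ℕ) :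
    Measurable fun q : E d × ℝ => upd L ω t st q.1 q.2 :=
  (upd_meas L t st).comp (measurable_prodMk_left (x := ω))

lemma runN_joint {X : Type*} [MeasurableSpace X] (φ : X → L.Ω) (hφ : Measurable φ) (n : ℕ) :
    ∀ (t : ℕ) (st : L.St × Option ℕ) (a : X → Fin n → E d) (y : X → Fin n → ℝ), Measurable a →
      Measurable y → Measurable fun x => runN (upd L (φ x)) n t st (a x) (y x) := by
  induction n with
  | zero => intro t st a y _ _; simp only [runN]; exact measurable_const
  | succ n ih =>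
    intro t st a y ha hy
    simp only [runN]
    refine meas_choose (φ := fun x => upd L (φ x) t st (a x 0) (y x 0))
      (G := fun w x => runN (upd L (φ x)) n (t + 1) w (fun i => a x i.succ) (fun i => y x i.succ))
      ?_ ?_
    · have h2 : Measurable fun x => (φ x, (a x 0, y x 0)) := by fun_prop
      exact (upd_meas L t st).comp h2
    · intro w
      exact ih (t + 1) w _ _ (by fun_prop) (by fun_prop)

lemma ini_meas : Measurable (ini L) := by
  intro s _
  have h0 : MeasurableSet (L.stopFirst ⁻¹' {true}) := L.stopFirst_measurable (t := {true}) trivial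
  have h1 : MeasurableSet (L.init ⁻¹' {q | (q, some 0) ∈ s}) :=
    L.init_measurable (t := {q | (q, some 0) ∈ s}) trivial
  have h3 : MeasurableSet (L.init ⁻¹' {q | (q, none) ∈ s}) :=
    L.init_measurable (t := {q | (q, none) ∈ s}) trivial
  have h2 : (ini L) ⁻¹' s = (L.stopFirst ⁻¹' {true} ∩ L.init ⁻¹' {q | (q, some 0) ∈ s}) ∪
      ((L.stopFirst ⁻¹' {true})ᶜ ∩ L.init ⁻¹' {q | (q, none) ∈ s}) := by
    ext ω
    by_cases h : L.stopFirst ω = true <;> simp [ini, h]
  rw [h2]
  exact (h0.inter h1).union (h0.compl.inter h3)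

lemma run_meas {X : Type*} [MeasurableSpace X] (φ : X → L.Ω) (hφ : Measurable φ)
    (s : X → E d) (hs : Measurable s) (xs : X → Fin T → E d) (hxs : Measurable xs) :
    Measurable fun x => L.run (φ x) (s x) (xs x) := by
  simp only [run_eq]
  refine meas_choose (φ := fun x => ini L (φ x))
    (G := fun w x => runN (upd L (φ x)) T 0 w (xs x) (meas (xs x) (s x))) ((ini_meas L).comp hφ) ?_
  intro w
  refine runN_joint L φ hφ T 0 w xs _ hxs ?_
  unfold meas
  fun_prop

/-- the success event is measurable -/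
lemma success_meas (ε : ℝ) : MeasurableSet {p : Sphere d × (L.Ω × (Fin T → E d)) |
      Real.arccos (inner ℝ (L.output p.2.1 p.1 p.2.2) (p.1 : E d)) ≤ ε} := by
  refine measurableSet_le ?_ measurable_const
  unfold RLearner.output
  have h1 : Measurable fun p : Sphere d × (L.Ω × (Fin T → E d)) => L.run p.2.1 p.1 p.2.2 :=
    run_meas L _ (by fun_prop) _ (by fun_prop) _ (by fun_prop)
  refine meas_choose (φ := fun p : Sphere d × (L.Ω × (Fin T → E d)) => L.run p.2.1 p.1 p.2.2)
    (G := fun w p => Real.arccos (inner ℝ (L.out (w.2.getD T) p.2.1 w.1) (p.1 : E d))) h1 ?_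
  intro w
  have h2 : Measurable fun p : Sphere d × (L.Ω × (Fin T → E d)) => L.out (w.2.getD T) p.2.1 w.1 :=
    (L.out_measurable (w.2.getD T) w.1).comp (by fun_prop)
  exact Real.continuous_arccos.measurable.comp (h2.inner (by fun_prop))

/-- Fubini reduction to a fixed seed -/
lemma success_le (hd : 1 ≤ d) (ε : ℝ) (B : ℝ) (hB : 0 ≤ B)
    (h : ∀ ω : L.Ω, ∫⁻ s : Sphere d, ∫⁻ xs : Fin T → E d,
      {p : Sphere d × (L.Ω × (Fin T → E d)) |
        Real.arccos (inner ℝ (L.output p.2.1 p.1 p.2.2) (p.1 : E d)) ≤ ε}.indicator 1 (s, (ω, xs))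
        ∂(gam d T) ∂(sphereUniform d) ≤ ENNReal.ofReal B) :
    L.successProb ε ≤ B := by
  have := prob_sphere hd
  set S : Set (Sphere d × (L.Ω × (Fin T → E d))) := {p : Sphere d × (L.Ω × (Fin T → E d)) |
        Real.arccos (inner ℝ (L.output p.2.1 p.1 p.2.2) (p.1 : E d)) ≤ ε} with hS
  have hSm : MeasurableSet S := success_meas L ε
  unfold RLearner.successProb
  refine ENNReal.toReal_le_of_le_ofReal hB ?_
  change ((sphereUniform d).prod (L.ρ.prod (gam d T))) S ≤ _
  have hm : Measurable (S.indicator (1 : Sphere d × (L.Ω × (Fin T → E d)) → ℝ≥0∞)) :=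
    measurable_one.indicator hSm
  rw [← lintegral_indicator_one hSm, lintegral_prod _ hm.aemeasurable]
  have h1 : ∀ s : Sphere d, ∫⁻ q, S.indicator (1 : Sphere d × (L.Ω × (Fin T → E d)) → ℝ≥0∞) (s, q)
      ∂(L.ρ.prod (gam d T)) = ∫⁻ ω, ∫⁻ xs, S.indicator 1 (s, (ω, xs)) ∂(gam d T) ∂L.ρ := by
    intro s
    have hm2 : Measurable fun q => S.indicator (1 : Sphere d × (L.Ω × (Fin T → E d)) → ℝ≥0∞) (s, q) :=
      hm.comp measurable_prodMk_left
    rw [lintegral_prod _ hm2.aemeasurable]
  simp only [h1]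
  rw [lintegral_lintegral_swap]
  · refine (lintegral_mono h).trans ?_
    simp
  · have h2 : Measurable fun q : (Sphere d × L.Ω) × (Fin T → E d) =>
        S.indicator (1 : Sphere d × (L.Ω × (Fin T → E d)) → ℝ≥0∞) (q.1.1, (q.1.2, q.2)) :=
      hm.comp (by fun_prop)
    exact h2.lintegral_prod_right'.aemeasurable

/-- few samples: success probability at most `13/20` -/
lemma success_base (hd : 1 ≤ d) (hT : 4 * T ≤ d) (ε : ℝ) (hε : ε ≤ 1 / 10) :
    L.successProb ε ≤ 13 / 20 := by
  have := prob_sphere hd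
  refine success_le L hd ε _ (by norm_num) fun ω => ?_
  have hm : Measurable ({p : Sphere d × (L.Ω × (Fin T → E d)) |
        Real.arccos (inner ℝ (L.output p.2.1 p.1 p.2.2) (p.1 : E d)) ≤ ε}.indicator
        (1 : Sphere d × (L.Ω × (Fin T → E d)) → ℝ≥0∞)) :=
    measurable_one.indicator (success_meas L ε)
  rw [lintegral_lintegral_swap]
  · refine (lintegral_mono (g := fun _ => ENNReal.ofReal (13 / 20)) fun xs => ?_).trans (by simp)
    have hG : MeasurableSet {s : Sphere d |
        Real.arccos (inner ℝ (L.out ((runN (upd L ω) T 0 (ini L ω) xs (meas xs s)).2.getD T) ω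
          (runN (upd L ω) T 0 (ini L ω) xs (meas xs s)).1) (s : E d)) ≤ 1 / 10} := by
      have h1 : Measurable fun s : Sphere d => (s, (ω, xs)) := by fun_prop
      have h2 := h1 (success_meas L (1 / 10))
      simp only [RLearner.output, run_eq] at h2
      exact h2
    have h1 := base_case hd hT xs (fun y => L.out ((runN (upd L ω) T 0 (ini L ω) xs y).2.getD T) ω
          (runN (upd L ω) T 0 (ini L ω) xs y).1) (fun y => L.out_unit _ _ _) hG
    refine le_trans ?_ h1
    rw [← lintegral_indicator_one hG]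
    refine lintegral_mono fun s => ?_
    by_cases hs : (s, (ω, xs)) ∈ {p : Sphere d × (L.Ω × (Fin T → E d)) |
        Real.arccos (inner ℝ (L.output p.2.1 p.1 p.2.2) (p.1 : E d)) ≤ ε}
    · rw [Set.indicator_of_mem hs, Set.indicator_of_mem]
      · simp
      · have h2 : Real.arccos (inner ℝ (L.output ω s xs) (s : E d)) ≤ ε := hs
        unfold RLearner.output at h2
        rw [run_eq] at h2
        exact h2.trans hε
    · rw [Set.indicator_of_notMem hs]
      simp
  · have h2 : Measurable fun q : Sphere d × (Fin T → E d) =>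
        {p : Sphere d × (L.Ω × (Fin T → E d)) |
        Real.arccos (inner ℝ (L.output p.2.1 p.1 p.2.2) (p.1 : E d)) ≤ ε}.indicator
        (1 : Sphere d × (L.Ω × (Fin T → E d)) → ℝ≥0∞) (q.1, (ω, q.2)) :=
      hm.comp (by fun_prop)
    exact h2.aemeasurable

/-- the terminal value functions are Frostman -/
lemma cap_frost {d α : ℕ} (hd : 1 ≤ d) (hα : α ≤ d - 1) (u : E d) (hu : ‖u‖ = 1) (ε : ℝ)
    (hε : 0 < ε) (hε1 : ε ≤ 1 / 10) :
    Frost α (ENNReal.ofReal (3 * 4 ^ d * ε ^ (d - 1 - α)))
      (((sphereUniform d).map Subtype.val).withDensity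
        ({x : E d | Real.arccos (inner ℝ u x) ≤ ε}.indicator 1)) := by
  have hcm : MeasurableSet {x : E d | Real.arccos (inner ℝ u x) ≤ ε} := by
    refine measurableSet_le ?_ measurable_const
    exact Real.continuous_arccos.measurable.comp (by fun_prop)
  intro x r hr
  rw [withDensity_indicator_one hcm, Measure.restrict_apply measurableSet_closedBall,
    Measure.map_apply measurable_subtype_coe (measurableSet_closedBall.inter hcm)]
  have hcap : ∀ s : Sphere d, Real.arccos (inner ℝ u (s : E d)) ≤ ε → dist (s : E d) u ≤ ε := by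
    intro s h
    have hs : ‖(s : E d)‖ = 1 := mem_sphere_zero_iff_norm.1 s.2
    have h1 : Real.cos ε ≤ inner ℝ u (s : E d) := by
      have h2 := Real.cos_le_cos_of_nonneg_of_le_pi (Real.arccos_nonneg _)
        (by have := Real.pi_gt_three; linarith) h
      have h3 : |inner ℝ u (s : E d)| ≤ 1 := by
        have := abs_real_inner_le_norm u (s : E d)
        rwa [hu, hs, one_mul] at this
      rwa [Real.cos_arccos (abs_le.1 h3).1 (abs_le.1 h3).2] at h2
    have h4 := Real.one_sub_sq_div_two_le_cos (x := ε)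
    have h5 : ‖(s : E d) - u‖ ^ 2 = 2 - 2 * inner ℝ u (s : E d) := by
      rw [norm_sub_sq_real, hu, hs, real_inner_comm]; ring
    have h6 : ‖(s : E d) - u‖ ^ 2 ≤ ε ^ 2 := by rw [h5]; linarith
    rw [dist_eq_norm]
    exact (abs_le_of_sq_le_sq' h6 hε.le).2
  have key : ∀ (v : E d) (ρ : ℝ), 0 < ρ → (∀ s : Sphere d, (s : E d) ∈ closedBall x r ∩
      {x : E d | Real.arccos (inner ℝ u x) ≤ ε} → dist (s : E d) v ≤ ρ) →
      ρ ^ (d - 1) ≤ ε ^ (d - 1 - α) * r ^ α →
      (sphereUniform d) (Subtype.val ⁻¹' (closedBall x r ∩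
        {x : E d | Real.arccos (inner ℝ u x) ≤ ε})) ≤
      ENNReal.ofReal (3 * 4 ^ d * ε ^ (d - 1 - α)) * ENNReal.ofReal r ^ α := by
    intro v ρ hρ hsub hρr
    refine (measure_mono (t := {s : Sphere d | dist (s : E d) v ≤ ρ}) fun s hs => hsub s hs).trans ?_
    refine (sphere_ball hd v ρ hρ).trans ?_
    rw [← ENNReal.ofReal_pow hr.le, ← ENNReal.ofReal_mul (by positivity)]
    refine ENNReal.ofReal_le_ofReal ?_
    calc (3 : ℝ) * 4 ^ d * ρ ^ (d - 1) ≤ 3 * 4 ^ d * (ε ^ (d - 1 - α) * r ^ α) := by gcongr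
      _ = _ := by ring
  have hsplit : ∀ t : ℝ, t ^ (d - 1) = t ^ (d - 1 - α) * t ^ α := by
    intro t
    rw [← pow_add]
    congr 1
    omega
  rcases le_total r ε with hrε | hrε
  · refine key x r hr (fun s hs => hs.1) ?_
    rw [hsplit]
    gcongr
  · refine key u ε hε (fun s hs => hcap s hs.2) ?_
    rw [hsplit]
    gcongr

lemma two_pow_le_exp (n : ℕ) : (2 : ℝ) ^ n ≤ Real.exp n := by
  have h := Real.exp_one_gt_d9
  calc (2 : ℝ) ^ n ≤ (Real.exp 1) ^ n := by gcongr; linarith
    _ = Real.exp n := by rw [← Real.exp_nat_mul]; simp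

lemma gamma_le (d k α h : ℕ) :
    (2 ^ (k + 1) * 4 ^ α * ENNReal.ofReal (Real.exp (Real.pi * d)) + 1) * (2 : ℝ≥0∞) ^ h ≤
      ENNReal.ofReal (Real.exp ((k + 1) + 2 * α + 4 * d + 1 + h)) := by
  have h1 : (2 ^ (k + 1) * 4 ^ α * ENNReal.ofReal (Real.exp (Real.pi * d)) + 1) * (2 : ℝ≥0∞) ^ h =
      ENNReal.ofReal ((2 ^ (k + 1) * 4 ^ α * Real.exp (Real.pi * d) + 1) * 2 ^ h) := by
    rw [ENNReal.ofReal_mul (by positivity), ENNReal.ofReal_add (by positivity) (by positivity),
      ENNReal.ofReal_mul (by positivity), ENNReal.ofReal_mul (by positivity),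
      ENNReal.ofReal_pow (by positivity), ENNReal.ofReal_pow (by positivity),
      ENNReal.ofReal_pow (by positivity)]
    simp
  rw [h1]
  refine ENNReal.ofReal_le_ofReal ?_
  have h2 : (1 : ℝ) ≤ 2 ^ (k + 1) * 4 ^ α * Real.exp (Real.pi * d) := by
    have a1 : (1 : ℝ) ≤ 2 ^ (k + 1) := one_le_pow₀ (by norm_num)
    have a2 : (1 : ℝ) ≤ 4 ^ α := one_le_pow₀ (by norm_num)
    have a3 : (1 : ℝ) ≤ Real.exp (Real.pi * d) := Real.one_le_exp (by positivity)
    have a4 : (1 : ℝ) ≤ 2 ^ (k + 1) * 4 ^ α := by nlinarith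
    nlinarith
  have h3 : (4 : ℝ) ^ α ≤ Real.exp (2 * α) := by
    have := two_pow_le_exp (2 * α)
    rw [pow_mul] at this
    push_cast at this
    norm_num at this
    exact this
  have h4 : Real.exp (Real.pi * d) ≤ Real.exp (4 * d) := by
    refine Real.exp_le_exp.2 ?_
    gcongr
    exact Real.pi_le_four
  have h5 : (2 : ℝ) ≤ Real.exp 1 := by
    have := two_pow_le_exp 1
    simpa using this
  calc (2 ^ (k + 1) * 4 ^ α * Real.exp (Real.pi * d) + 1) * 2 ^ h
      ≤ (2 * (2 ^ (k + 1) * 4 ^ α * Real.exp (Real.pi * d))) * 2 ^ h := by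
        gcongr
        linarith
    _ ≤ (Real.exp 1 * (Real.exp ((k + 1 : ℕ) : ℝ) * Real.exp (2 * α) * Real.exp (4 * d))) *
        Real.exp h := by
        gcongr
        · exact two_pow_le_exp _
        · exact two_pow_le_exp _
    _ = Real.exp ((k + 1) + 2 * α + 4 * d + 1 + h) := by
        rw [← Real.exp_add, ← Real.exp_add, ← Real.exp_add, ← Real.exp_add]
        congr 1
        push_cast
        ring

/-- the bound by windows -/
lemma success_window (hd : 1 ≤ d) {p k α h K : ℕ} (hp : 1 ≤ p) (hk : 1 ≤ k)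
    (hα : 2 * p + k + 1 ≤ α) (hα' : α ≤ d - 1) (hh : M + 2 * p + 2 ≤ h * k) (hK : T ≤ 2 * p * K)
    (ε : ℝ) (hε : 0 < ε) (hε1 : ε ≤ 1 / 10) :
    L.successProb ε ≤ Real.exp ((k + 1) + 2 * α + 4 * d + 1 + h) ^ K *
      (3 * 4 ^ d * ε ^ (d - 1 - α)) := by
  have := prob_sphere hd
  refine success_le L hd ε _ (by positivity) fun ω => ?_
  set σ : Measure (E d) := (sphereUniform d).map Subtype.val with hσ
  have hσp : IsProbabilityMeasure σ := Measure.isProbabilityMeasure_map (by fun_prop)
  set F : L.St × Option ℕ → E d → ℝ≥0∞ := fun w =>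
    {x : E d | Real.arccos (inner ℝ (L.out (w.2.getD T) ω w.1) x) ≤ ε}.indicator 1 with hF
  have hFm : ∀ w, Measurable (F w) := by
    intro w
    refine measurable_one.indicator (measurableSet_le ?_ measurable_const)
    exact Real.continuous_arccos.measurable.comp (by fun_prop)
  have hF1 : ∀ w x, F w x ≤ 1 := by
    intro w x
    exact Set.indicator_le_self' (by simp) x |>.trans (by simp)
  have hae : ∀ᵐ x ∂σ, x ∈ closedBall (0 : E d) 1 := by
    rw [hσ]
    refine (ae_map_iff measurable_subtype_coe.aemeasurable measurableSet_closedBall).2 ?_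
    refine Eventually.of_forall fun s => ?_
    exact sphere_subset_closedBall s.2
  have hWc : ∀ t st, ((reach L (2 * p) t st).card : ℝ≥0∞) ≤ ((2 : ℝ≥0∞) ^ h) ^ k := by
    intro t st
    have h1 := card_reach L (2 * p) t st
    have h2 : 2 * p + 2 ≤ 2 ^ (2 * p + 2) := (Nat.lt_two_pow_self).le
    have h3 : (reach L (2 * p) t st).card ≤ 2 ^ (h * k) := by
      calc (reach L (2 * p) t st).card ≤ 2 ^ M * (2 * p + 2) := h1
        _ ≤ 2 ^ M * 2 ^ (2 * p + 2) := by gcongr
        _ = 2 ^ (M + (2 * p + 2)) := (pow_add _ _ _).symm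
        _ ≤ 2 ^ (h * k) := Nat.pow_le_pow_right (by norm_num) (by omega)
    rw [← pow_mul]
    exact_mod_cast h3
  have h1 := final_abstract (upd_meas' L ω) hFm hp hk hα ((2 : ℝ≥0∞) ^ h)
    (one_le_pow₀ (by norm_num)) (ENNReal.pow_ne_top (by norm_num)) (reach L (2 * p))
    (fun t st a y => mem_reach L ω (2 * p) t st a y) hWc hF1 σ hae
    (ENNReal.ofReal (3 * 4 ^ d * ε ^ (d - 1 - α)))
    (by
      have : 0 < 3 * 4 ^ d * ε ^ (d - 1 - α) := by positivity
      simpa using this)
    ENNReal.ofReal_ne_top (fun w => cap_frost hd hα' _ (L.out_unit _ _ _) ε hε hε1) K T hK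
    (fun t ht st a y => upd_stop L ω t ht st a y) (ini L ω)
  have hjm : Measurable fun q : E d × (Fin T → E d) =>
      F (runN (upd L ω) T 0 (ini L ω) q.2 (meas q.2 q.1)) q.1 := by
    refine meas_choose (φ := fun q : E d × (Fin T → E d) =>
      runN (upd L ω) T 0 (ini L ω) q.2 (meas q.2 q.1)) (G := fun w q => F w q.1) ?_ ?_
    · have h2 : Measurable fun q : E d × (Fin T → E d) => (q.2, meas q.2 q.1) := by
        unfold meas
        fun_prop
      exact (runN_meas (upd_meas' L ω) T 0 (ini L ω)).comp h2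
    · intro w
      exact (hFm w).comp measurable_fst
  rw [hσ, lintegral_map hjm.lintegral_prod_right' measurable_subtype_coe] at h1
  refine le_trans (le_of_eq ?_) (h1.trans ?_)
  · refine lintegral_congr fun s => lintegral_congr fun xs => ?_
    by_cases hs : (s, (ω, xs)) ∈ {p : Sphere d × (L.Ω × (Fin T → E d)) |
        Real.arccos (inner ℝ (L.output p.2.1 p.1 p.2.2) (p.1 : E d)) ≤ ε}
    · rw [Set.indicator_of_mem hs, hF]
      have h2 : Real.arccos (inner ℝ (L.output ω s xs) (s : E d)) ≤ ε := hs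
      unfold RLearner.output at h2
      rw [run_eq] at h2
      simp only
      rw [Set.indicator_of_mem (by exact h2)]
      rfl
    · rw [Set.indicator_of_notMem hs, hF]
      have h2 : ¬ Real.arccos (inner ℝ (L.output ω s xs) (s : E d)) ≤ ε := hs
      unfold RLearner.output at h2
      rw [run_eq] at h2
      simp only
      rw [Set.indicator_of_notMem (by exact h2)]
  · have h3 : ENNReal.ofReal (Real.exp ((k + 1) + 2 * α + 4 * d + 1 + h) ^ K *
        (3 * 4 ^ d * ε ^ (d - 1 - α))) =
        ENNReal.ofReal (Real.exp ((k + 1) + 2 * α + 4 * d + 1 + h)) ^ K *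
          ENNReal.ofReal (3 * 4 ^ d * ε ^ (d - 1 - α)) := by
      rw [ENNReal.ofReal_mul (by positivity), ENNReal.ofReal_pow (by positivity)]
    rw [h3]
    gcongr
    exact gamma_le d k α h

/-- the final numerics -/
theorem final {A : ℝ} (hA : 0 < A) (hd : 64 ≤ d) (hM : (M : ℝ) ≤ A * (d : ℝ) ^ 2) (ε : ℝ)
    (hε : 0 < ε) (hε1 : ε ≤ 1 / 10) (hL : 2 / 3 ≤ L.successProb ε) :
    1 / (40 * (16 * A + 60)) * d * Real.log (1 / ε) ≤ T := by
  have hd0 : (64 : ℝ) ≤ d := by exact_mod_cast hd
  have hT : d < 4 * T := by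
    by_contra hcon
    have := success_base L (by omega) (by omega) ε hε1
    linarith
  have hTr : (d : ℝ) < 4 * T := by exact_mod_cast hT
  set p : ℕ := d / 16 with hp
  set k : ℕ := d / 8 with hk
  set α : ℕ := 2 * p + k + 1 with hα
  set h : ℕ := (M + 2 * p + 2) / k + 1 with hh
  set K : ℕ := T / (2 * p) + 1 with hK
  have hk1 : 1 ≤ k := by omega
  have hp1 : 1 ≤ p := by omega
  have h1 := success_window L (by omega) (p := p) (k := k) (α := α) (h := h) (K := K) hp1 hk1
    le_rfl (by omega)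
    (by
      have := Nat.lt_div_mul_add (a := M + 2 * p + 2) (b := k) (by omega)
      rw [hh, add_mul]
      omega)
    (by
      have := Nat.lt_div_mul_add (a := T) (b := 2 * p) (by omega)
      rw [hK, mul_add, mul_comm (2 * p)]
      omega) ε hε hε1
  -- convert to exponentials
  set Lg := Real.log (1 / ε) with hLg
  have hεe : ε = Real.exp (-Lg) := by
    rw [hLg, one_div, Real.log_inv, neg_neg, Real.exp_log hε]
  have hLg0 : 0 ≤ Lg := by
    rw [hLg]
    refine Real.log_nonneg ?_
    rw [le_div_iff₀ hε]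
    linarith
  have h3 : (3 : ℝ) * 4 ^ d * ε ^ (d - 1 - α) ≤ Real.exp (2 + 2 * d - Lg * (d - 1 - α : ℕ)) := by
    have a1 : (3 : ℝ) ≤ Real.exp 2 := by
      have := two_pow_le_exp 2
      push_cast at this
      linarith
    have a2 : (4 : ℝ) ^ d ≤ Real.exp (2 * d) := by
      have := two_pow_le_exp (2 * d)
      rw [pow_mul] at this
      push_cast at this
      norm_num at this
      exact this
    have a3 : ε ^ (d - 1 - α) = Real.exp (-(Lg * (d - 1 - α : ℕ))) := by
      conv_lhs => rw [hεe]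
      rw [← Real.exp_nat_mul]
      congr 1
      ring_nf
    rw [a3]
    calc (3 : ℝ) * 4 ^ d * Real.exp (-(Lg * (d - 1 - α : ℕ)))
        ≤ Real.exp 2 * Real.exp (2 * d) * Real.exp (-(Lg * (d - 1 - α : ℕ))) := by gcongr
      _ = _ := by
        rw [← Real.exp_add, ← Real.exp_add, sub_eq_add_neg]
  have h4 : Real.exp (-1) ≤ Real.exp (((k + 1) + 2 * α + 4 * d + 1 + h) * K +
      (2 + 2 * d - Lg * (d - 1 - α : ℕ))) := by
    have b1 : Real.exp (-1) ≤ 2 / 3 := by
      have := Real.exp_neg_one_lt_d9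
      linarith
    refine b1.trans (hL.trans (h1.trans ?_))
    have b2 : Real.exp (((k + 1) + 2 * α + 4 * d + 1 + h) * K +
        (2 + 2 * d - Lg * (d - 1 - α : ℕ))) = Real.exp ((k + 1) + 2 * α + 4 * d + 1 + h) ^ K *
          Real.exp (2 + 2 * d - Lg * (d - 1 - α : ℕ)) := by
      rw [Real.exp_add (((k + 1) + 2 * α + 4 * d + 1 + h) * K), ← Real.exp_nat_mul,
        mul_comm (K : ℝ)]
    rw [b2]
    gcongr
  rw [Real.exp_le_exp] at h4
  -- bounds on the parameters
  have hkr : (d : ℝ) / 16 ≤ k := by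
    have : d ≤ 16 * k := by omega
    have : (d : ℝ) ≤ 16 * k := by exact_mod_cast this
    linarith
  have hkr0 : (0 : ℝ) < k := by exact_mod_cast hk1
  have hhr : (h : ℝ) ≤ (16 * A + 50) * d := by
    have c1 : (h : ℝ) ≤ ((M + 2 * p + 2 : ℕ) : ℝ) / k + 1 := by
      rw [hh]
      push_cast
      have := Nat.cast_div_le (α := ℝ) (m := M + 2 * p + 2) (n := k)
      push_cast at this
      linarith
    have c2 : ((M + 2 * p + 2 : ℕ) : ℝ) ≤ A * d ^ 2 + d := by
      have : 2 * p + 2 ≤ d := by omega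
      have : ((2 * p + 2 : ℕ) : ℝ) ≤ d := by exact_mod_cast this
      push_cast at this ⊢
      linarith
    have c3 : ((M + 2 * p + 2 : ℕ) : ℝ) / k ≤ 16 * A * d + 16 := by
      rw [div_le_iff₀ hkr0]
      calc ((M + 2 * p + 2 : ℕ) : ℝ) ≤ A * d ^ 2 + d := c2
        _ = (16 * A * d + 16) * (d / 16) := by ring
        _ ≤ (16 * A * d + 16) * k := by gcongr
    have c4 : 16 * A * d + 17 ≤ (16 * A + 50) * d := by nlinarith
    linarith
  have hB : ((k + 1) + 2 * α + 4 * d + 1 + h : ℝ) ≤ (16 * A + 58) * d := by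
    have : k + 1 + 2 * α + 1 ≤ 2 * d := by omega
    have : ((k + 1 + 2 * α + 1 : ℕ) : ℝ) ≤ ((2 * d : ℕ) : ℝ) := by exact_mod_cast this
    push_cast at this
    nlinarith
  have hKr : (K : ℝ) * d ≤ 20 * T := by
    have c1 : (K : ℝ) ≤ (T : ℝ) / (2 * p) + 1 := by
      rw [hK]
      push_cast
      have := Nat.cast_div_le (α := ℝ) (m := T) (n := 2 * p)
      push_cast at this
      linarith
    have c2 : (d : ℝ) / 16 ≤ 2 * p := by
      have : d ≤ 16 * (2 * p) := by omega
      have : (d : ℝ) ≤ 16 * (2 * p) := by exact_mod_cast this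
      linarith
    have c3 : (0 : ℝ) < 2 * p := by
      have : (0 : ℝ) < p := by exact_mod_cast hp1
      linarith
    have c4 : (T : ℝ) / (2 * p) * d ≤ 16 * T := by
      rw [div_mul_eq_mul_div, div_le_iff₀ c3]
      have : (T : ℝ) * (d / 16) ≤ T * (2 * p) := by gcongr
      linarith
    calc (K : ℝ) * d ≤ ((T : ℝ) / (2 * p) + 1) * d := by gcongr
      _ = (T : ℝ) / (2 * p) * d + d := by ring
      _ ≤ 16 * T + 4 * T := by linarith
      _ = 20 * T := by ring
  have hdα : (d : ℝ) / 2 ≤ ((d - 1 - α : ℕ) : ℝ) := by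
    have : d ≤ 2 * (d - 1 - α) := by omega
    have : (d : ℝ) ≤ 2 * ((d - 1 - α : ℕ) : ℝ) := by exact_mod_cast this
    linarith
  have h5 : ((k + 1) + 2 * α + 4 * d + 1 + h : ℝ) * K ≤ (16 * A + 58) * (20 * T) := by
    calc ((k + 1) + 2 * α + 4 * d + 1 + h : ℝ) * K ≤ ((16 * A + 58) * d) * K := by gcongr
      _ = (16 * A + 58) * (K * d) := by ring
      _ ≤ _ := by gcongr
  have h6 : Lg * (d / 2) ≤ Lg * ((d - 1 - α : ℕ) : ℝ) := by gcongr
  have h7 : Lg * (d / 2) ≤ (16 * A + 60) * (20 * T) := by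
    have : (3 : ℝ) + 2 * d ≤ 2 * (20 * T) := by linarith
    nlinarith
  rw [one_div, inv_mul_eq_div, div_mul_eq_mul_div, div_le_iff₀ (by positivity)]
  nlinarith

end learner

end Crest.Agent.S499
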