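import Mathlib
import Crest.Prelude.Def_StreamLearn

/-!
Definitions for S0499 (memory-sample lower bound for linear regression).
-/

set_option autoImplicit false

open MeasureTheory ProbabilityTheory Crest.StreamLearn Metric
open scoped ENNReal

namespace Crest.Agent.S499

/-- the measurement vector `(⟪a j, x⟫)_j` -/
noncomputable def meas {d m : ℕ} (a : Fin m → E d) (x : E d) : Fin m → ℝ := fun j => inner ℝ (a j) x

/-- distance from `x` to the subspace `V` -/
noncomputable def dV {d : ℕ} (V : Submodule ℝ (E d)) (x : E d) : ℝ := ‖x - V.starProjection x‖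

/-- `m` independent standard Gaussian vectors -/
noncomputable abbrev gam (d m : ℕ) : Measure (Fin m → E d) :=
  Measure.pi fun _ : Fin m => stdGaussian (E d)

/-- Frostman condition for a measure on `ℝ^d` -/
def Frost {d : ℕ} (α : ℕ) (C : ℝ≥0∞) (ν : Measure (E d)) : Prop :=
  ∀ (x : E d) (r : ℝ), 0 < r → ν (closedBall x r) ≤ C * ENNReal.ofReal r ^ α

/-- membership in `D` depends only on the inner products with vectors of `V` -/
def Cyl {d : ℕ} (V : Submodule ℝ (E d)) (D : Set (E d)) : Prop :=
  ∀ g h : E d, (∀ v ∈ V, inner ℝ v g = inner ℝ v h) → (g ∈ D ↔ h ∈ D)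

end Crest.Agent.S499
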