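import Crest.Agent.S499Defs

set_option autoImplicit false

open MeasureTheory ProbabilityTheory Crest.StreamLearn Metric Filter
open scoped ENNReal Pointwise

namespace Crest.Agent.S499

namespace P1

/-- a linear isometry acting on the sphere -/
noncomputable def rotS {d : ℕ} (R : E d ≃ₗᵢ[ℝ] E d) (s : Sphere d) : Sphere d :=
  ⟨R (s : E d), by
    have h := s.2
    rw [mem_sphere_zero_iff_norm] at h ⊢
    rw [R.norm_map]; exact h⟩

@[simp] lemma rotS_coe {d : ℕ} (R : E d ≃ₗᵢ[ℝ] E d) (s : Sphere d) :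
    ((rotS R s : Sphere d) : E d) = R (s : E d) := rfl

lemma continuous_rotS {d : ℕ} (R : E d ≃ₗᵢ[ℝ] E d) : Continuous (rotS R) := by
  unfold rotS
  exact Continuous.subtype_mk (R.continuous.comp continuous_subtype_val) _

lemma rotS_preimage_cone {d : ℕ} (R : E d ≃ₗᵢ[ℝ] E d) (s : Set (Sphere d)) :
    (Set.Ioo (0 : ℝ) 1 • ((fun x : Sphere d => (x : E d)) '' (rotS R ⁻¹' s))) =
      R ⁻¹' (Set.Ioo (0 : ℝ) 1 • ((fun x : Sphere d => (x : E d)) '' s)) := by
  ext x
  simp only [Set.mem_smul, Set.mem_image, Set.mem_preimage, Subtype.exists]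
  constructor
  · rintro ⟨t, ht, y, ⟨z, hz, hzs, rfl⟩, rfl⟩
    refine ⟨t, ht, R z, ⟨R z, ?_, hzs, rfl⟩, by simp⟩
    rw [mem_sphere_zero_iff_norm, R.norm_map]; exact mem_sphere_zero_iff_norm.1 hz
  · rintro ⟨t, ht, y, ⟨z, hz, hzs, rfl⟩, hx⟩
    refine ⟨t, ht, R.symm z, ⟨R.symm z, ?_, ?_, rfl⟩, ?_⟩
    · rw [mem_sphere_zero_iff_norm, R.symm.norm_map]; exact mem_sphere_zero_iff_norm.1 hz
    · have : rotS R ⟨R.symm z, by
          rw [mem_sphere_zero_iff_norm, R.symm.norm_map]
          exact mem_sphere_zero_iff_norm.1 hz⟩ = ⟨z, hz⟩ := by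
        apply Subtype.ext; simp
      rw [this]; exact hzs
    · have := congrArg R.symm hx
      simpa using this

lemma toSphere_rotS {d : ℕ} (R : E d ≃ₗᵢ[ℝ] E d) (s : Set (Sphere d)) (hs : MeasurableSet s) :
    (volume : Measure (E d)).toSphere (rotS R ⁻¹' s) = (volume : Measure (E d)).toSphere s := by
  rw [Measure.toSphere_apply' _ hs, Measure.toSphere_apply' _ ((continuous_rotS R).measurable hs)]
  congr 1
  have h := rotS_preimage_cone R s
  rw [show ((fun x : Sphere d => (x : E d)) '' (rotS R ⁻¹' s)) =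
    ((↑) '' (rotS R ⁻¹' s) : Set (E d)) from rfl] at h
  rw [h]
  have hR := R.measurePreserving
  exact hR.measure_preimage_equiv (f := R.toHomeomorph.toMeasurableEquiv) _

lemma sphereUniform_rotS {d : ℕ} (R : E d ≃ₗᵢ[ℝ] E d) :
    MeasurePreserving (rotS R) (sphereUniform d) (sphereUniform d) := by
  refine ⟨(continuous_rotS R).measurable, ?_⟩
  ext s hs
  rw [Measure.map_apply (continuous_rotS R).measurable hs]
  unfold sphereUniform
  rw [Measure.smul_apply, Measure.smul_apply, toSphere_rotS R s hs]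

lemma prob {d : ℕ} (hd : 1 ≤ d) : IsProbabilityMeasure (sphereUniform d) := by
  constructor
  unfold sphereUniform
  rw [Measure.smul_apply, smul_eq_mul]
  have h : (volume : Measure (E d)).toSphere Set.univ =
      (d : ℝ≥0∞) * (volume : Measure (E d)) (ball 0 1) := by
    rw [Measure.toSphere_apply_univ]
    simp
  apply ENNReal.inv_mul_cancel
  · rw [h]
    refine mul_ne_zero ?_ ?_
    · simp; omega
    · exact (measure_ball_pos _ _ one_pos).ne'
  · rw [h]
    exact ENNReal.mul_ne_top (by simp) measure_ball_lt_top.ne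

/-- the second moment of a coordinate -/
noncomputable def mom {d : ℕ} (e : E d) : ℝ≥0∞ :=
  ∫⁻ s : Sphere d, ENNReal.ofReal (inner ℝ e (s : E d) ^ 2) ∂(sphereUniform d)

lemma mom_rot {d : ℕ} (R : E d ≃ₗᵢ[ℝ] E d) (e : E d) : mom (R e) = mom e := by
  unfold mom
  have h := (sphereUniform_rotS R.symm).lintegral_comp
    (f := fun s : Sphere d => ENNReal.ofReal (inner ℝ e (s : E d) ^ 2)) (by fun_prop)
  rw [← h]
  refine lintegral_congr fun s => ?_
  rw [rotS_coe]
  congr 2
  rw [← R.inner_map_map e (R.symm s), R.apply_symm_apply]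

lemma mom_eq {d : ℕ} (e e' : E d) (h : ‖e‖ = ‖e'‖) : mom e = mom e' := by
  rw [← Submodule.reflection_sub h, mom_rot]

lemma sum_mom {d : ℕ} (hd : 1 ≤ d) {e : E d} (he : ‖e‖ = 1) : (d : ℝ≥0∞) * mom e = 1 := by
  have := prob hd
  let b := EuclideanSpace.basisFun (Fin d) ℝ
  have h1 : ∑ i : Fin d, mom (b i) = 1 := by
    unfold mom
    rw [← lintegral_finsetSum _ (fun i _ => by fun_prop)]
    have : ∀ s : Sphere d, ∑ i : Fin d, ENNReal.ofReal (inner ℝ (b i) (s : E d) ^ 2) = 1 := by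
      intro s
      rw [← ENNReal.ofReal_sum_of_nonneg (fun i _ => sq_nonneg _)]
      have h2 := b.sum_sq_norm_inner_right (s : E d)
      have h3 : ‖(s : E d)‖ = 1 := mem_sphere_zero_iff_norm.1 s.2
      simp only [Real.norm_eq_abs, sq_abs, h3] at h2
      rw [h2]; simp
    simp only [this]
    simp
  have h4 : ∀ i : Fin d, mom (b i) = mom e := fun i => mom_eq _ _ (by rw [he]; exact b.norm_eq_one i)
  simp only [h4] at h1
  simpa using h1

lemma mom_proj {d : ℕ} (hd : 1 ≤ d) (V : Submodule ℝ (E d))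
    (hV : 4 * Module.finrank ℝ V ≤ d) :
    4 * ∫⁻ s : Sphere d, ENNReal.ofReal (‖V.starProjection (s : E d)‖ ^ 2) ∂(sphereUniform d) ≤ 1 := by
  have := prob hd
  let b := stdOrthonormalBasis ℝ V
  have h0 : ∀ s : Sphere d, ENNReal.ofReal (‖V.starProjection (s : E d)‖ ^ 2) =
      ∑ i, ENNReal.ofReal (inner ℝ ((b i : V) : E d) (s : E d) ^ 2) := by
    intro s
    rw [← ENNReal.ofReal_sum_of_nonneg (fun i _ => sq_nonneg _)]
    congr 1
    have h2 := b.sum_sq_norm_inner_right (V.orthogonalProjectionOnto (s : E d))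
    rw [Submodule.starProjection_apply, Submodule.norm_coe, ← h2]
    refine Finset.sum_congr rfl fun i _ => ?_
    rw [Real.norm_eq_abs, sq_abs]
    congr 1
    rw [Submodule.inner_orthogonalProjectionOnto_eq_of_mem_left]
  simp only [h0]
  rw [lintegral_finsetSum _ (fun i _ => by fun_prop)]
  have h1 : ∀ i, (d : ℝ≥0∞) * ∫⁻ s : Sphere d, ENNReal.ofReal (inner ℝ ((b i : V) : E d) (s : E d) ^ 2)
      ∂(sphereUniform d) = 1 := fun i => sum_mom hd (by
        rw [Submodule.norm_coe]
        exact b.norm_eq_one i)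
  have hd0 : (d : ℝ≥0∞) ≠ 0 := by simp; omega
  have h2 : ∀ i, ∫⁻ s : Sphere d, ENNReal.ofReal (inner ℝ ((b i : V) : E d) (s : E d) ^ 2)
      ∂(sphereUniform d) = (d : ℝ≥0∞)⁻¹ := fun i => by
        refine ENNReal.eq_inv_of_mul_eq_one_left ?_
        rw [mul_comm]
        exact h1 i
  simp only [h2]
  simp only [Finset.sum_const, Finset.card_univ, Fintype.card_fin, nsmul_eq_mul]
  calc 4 * ((Module.finrank ℝ V : ℝ≥0∞) * (d : ℝ≥0∞)⁻¹)
      = ((4 * Module.finrank ℝ V : ℕ) : ℝ≥0∞) * (d : ℝ≥0∞)⁻¹ := by push_cast; ring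
    _ ≤ (d : ℝ≥0∞) * (d : ℝ≥0∞)⁻¹ := by gcongr
    _ = 1 := ENNReal.mul_inv_cancel hd0 (by simp)

lemma near {d : ℕ} {o s : E d} (ho : ‖o‖ = 1) (hs : ‖s‖ = 1)
    (h : Real.arccos (inner ℝ o s) ≤ 1 / 10) : ‖o - s‖ ≤ 1 / 10 := by
  have h1 : Real.cos (1 / 10) ≤ inner ℝ o s := by
    have h2 := Real.cos_le_cos_of_nonneg_of_le_pi (Real.arccos_nonneg _)
      (by have := Real.pi_gt_three; linarith) h
    have h3 : |inner ℝ o s| ≤ 1 := by
      have := abs_real_inner_le_norm o s
      rwa [ho, hs, one_mul] at this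
    rwa [Real.cos_arccos (abs_le.1 h3).1 (abs_le.1 h3).2] at h2
  have h4 := Real.one_sub_sq_div_two_le_cos (x := 1 / 10)
  have h5 : ‖o - s‖ ^ 2 = 2 - 2 * inner ℝ o s := by
    rw [norm_sub_sq_real, ho, hs]; ring
  have h6 : ‖o - s‖ ^ 2 ≤ (1 / 10) ^ 2 := by rw [h5]; linarith
  exact (abs_le_of_sq_le_sq' h6 (by norm_num)).2

end P1

/-- PART 1 (base case) -/
theorem base_case {d T : ℕ} (hd : 1 ≤ d) (hT : 4 * T ≤ d) (a : Fin T → E d)
    (out : (Fin T → ℝ) → E d) (hout : ∀ y, ‖out y‖ = 1)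
    (hG : MeasurableSet {s : Sphere d | Real.arccos (inner ℝ (out (meas a s)) (s : E d)) ≤ 1 / 10}) :
    sphereUniform d {s : Sphere d | Real.arccos (inner ℝ (out (meas a s)) (s : E d)) ≤ 1 / 10} ≤
      ENNReal.ofReal (13 / 20) := by
  have := P1.prob hd
  set G := {s : Sphere d | Real.arccos (inner ℝ (out (meas a s)) (s : E d)) ≤ 1 / 10} with hGdef
  set V : Submodule ℝ (E d) := Submodule.span ℝ (Set.range a) with hV
  have hfr : 4 * Module.finrank ℝ V ≤ d := by
    have : Module.finrank ℝ V ≤ T := by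
      have := finrank_range_le_card (R := ℝ) a
      simpa [Set.finrank] using this
    omega
  set R := V.reflection with hR
  have hmp := P1.sphereUniform_rotS R
  have hmeas : ∀ s : Sphere d, meas a (P1.rotS R s : E d) = meas a (s : E d) := by
    intro s
    funext j
    unfold meas
    have h1 : R (a j) = a j :=
      Submodule.reflection_mem_subspace_eq_self (Submodule.subset_span ⟨j, rfl⟩)
    rw [P1.rotS_coe]
    conv_lhs => rw [← h1]
    exact R.inner_map_map _ _
  set B := {s : Sphere d | ENNReal.ofReal (99 / 100) ≤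
    ENNReal.ofReal (‖V.starProjection (s : E d)‖ ^ 2)} with hB
  have hsub : G ∩ P1.rotS R ⁻¹' G ⊆ B := by
    rintro s ⟨h1, h2⟩
    simp only [hGdef, Set.mem_preimage, Set.mem_ofPred_eq] at h1 h2
    rw [hmeas s] at h2
    have hs : ‖(s : E d)‖ = 1 := mem_sphere_zero_iff_norm.1 s.2
    have hs' : ‖R (s : E d)‖ = 1 := by rw [R.norm_map]; exact hs
    have n1 := P1.near (hout _) hs h1
    have n2 := P1.near (hout _) hs' h2
    have n3 : ‖R (s : E d) - s‖ ≤ 1 / 5 := by
      have := norm_sub_le_norm_sub_add_norm_sub (R (s : E d)) (out (meas a (s : E d))) (s : E d)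
      rw [norm_sub_rev (R (s : E d)) (out _)] at this
      linarith
    have n4 : R (s : E d) - s = -((2 : ℝ) • ((s : E d) - V.starProjection (s : E d))) := by
      rw [hR, Submodule.reflection_apply, two_smul, two_smul]; abel
    rw [n4, norm_neg, norm_smul] at n3
    have n5 : ‖(s : E d) - V.starProjection (s : E d)‖ ≤ 1 / 10 := by
      simp only [Real.norm_ofNat] at n3; linarith
    have n6 : ‖(s : E d)‖ ^ 2 = ‖V.starProjection (s : E d)‖ ^ 2 +
        ‖(s : E d) - V.starProjection (s : E d)‖ ^ 2 := by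
      have := V.norm_sq_eq_add_norm_sq_starProjection (s : E d)
      rw [this, Submodule.starProjection_orthogonal_val]
    rw [hs] at n6
    have n7 : ‖(s : E d) - V.starProjection (s : E d)‖ ^ 2 ≤ (1 / 10) ^ 2 := by gcongr
    apply ENNReal.ofReal_le_ofReal
    nlinarith
  have hmom := P1.mom_proj hd V
  have hmark : ENNReal.ofReal (99 / 100) * sphereUniform d B ≤
      ∫⁻ s : Sphere d, ENNReal.ofReal (‖V.starProjection (s : E d)‖ ^ 2) ∂(sphereUniform d) :=
    mul_meas_ge_le_lintegral (by fun_prop) _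
  have hBle : (sphereUniform d).real B ≤ 25 / 99 := by
    have h1 : 4 * (ENNReal.ofReal (99 / 100) * sphereUniform d B) ≤ 1 :=
      le_trans (mul_le_mul_right hmark 4) (hmom hfr)
    have h2 := ENNReal.toReal_mono ENNReal.one_ne_top h1
    rw [ENNReal.toReal_mul, ENNReal.toReal_mul, ENNReal.toReal_ofReal (by norm_num)] at h2
    simp only [ENNReal.toReal_ofNat, ENNReal.toReal_one] at h2
    unfold Measure.real
    linarith
  have hpre : (sphereUniform d).real (P1.rotS R ⁻¹' G) = (sphereUniform d).real G := by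
    unfold Measure.real
    rw [hmp.measure_preimage hG.nullMeasurableSet]
  have hunion : (sphereUniform d).real (G ∪ P1.rotS R ⁻¹' G) +
      (sphereUniform d).real (G ∩ P1.rotS R ⁻¹' G) =
      (sphereUniform d).real G + (sphereUniform d).real (P1.rotS R ⁻¹' G) :=
    measureReal_union_add_inter (hmp.measurable hG)
  have hu1 : (sphereUniform d).real (G ∪ P1.rotS R ⁻¹' G) ≤ 1 := measureReal_le_one
  have hi : (sphereUniform d).real (G ∩ P1.rotS R ⁻¹' G) ≤ (sphereUniform d).real B :=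
    measureReal_mono hsub
  have hfin : (sphereUniform d).real G ≤ 13 / 20 := by linarith
  rw [← ENNReal.ofReal_toReal (measure_ne_top (sphereUniform d) G)]
  exact ENNReal.ofReal_le_ofReal hfin

end Crest.Agent.S499
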