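import Crest.Agent.S499Defs

set_option autoImplicit false

open MeasureTheory ProbabilityTheory Crest.StreamLearn Metric Filter
open scoped ENNReal RealInnerProductSpace

namespace Crest.Agent.S499

/-- Resampling the component of a Gaussian vector along a unit vector. -/
theorem resample {d : ℕ} (e : E d) (he : ‖e‖ = 1) :
    ((gaussianReal 0 1).prod (stdGaussian (E d))).map
      (fun p : ℝ × E d => p.2 - (inner ℝ p.2 e : ℝ) • e + p.1 • e) = stdGaussian (E d) := by
  have hmeas : Measurable (fun p : ℝ × E d => p.2 - (inner ℝ p.2 e : ℝ) • e + p.1 • e) := by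
    apply Continuous.measurable
    fun_prop
  have : IsProbabilityMeasure (((gaussianReal 0 1).prod (stdGaussian (E d))).map
      (fun p : ℝ × E d => p.2 - (inner ℝ p.2 e : ℝ) • e + p.1 • e)) :=
    Measure.isProbabilityMeasure_map hmeas.aemeasurable
  apply Measure.ext_of_charFun
  ext ξ
  rw [charFun_apply, integral_map hmeas.aemeasurable (by fun_prop)]
  have hee : (inner ℝ e e : ℝ) = 1 := by rw [real_inner_self_eq_norm_sq, he]; norm_num
  have hfun : ∀ p : ℝ × E d,
      Complex.exp (((inner ℝ (p.2 - (inner ℝ p.2 e : ℝ) • e + p.1 • e) ξ : ℝ) : ℂ) * Complex.I)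
      = Complex.exp (((inner ℝ e ξ : ℝ) : ℂ) * (p.1 : ℂ) * Complex.I) *
        Complex.exp (((inner ℝ p.2 (ξ - (inner ℝ e ξ : ℝ) • e) : ℝ) : ℂ) * Complex.I) := by
    intro p
    rw [← Complex.exp_add]
    congr 1
    rw [inner_add_left, inner_sub_left, inner_smul_left, inner_smul_left, inner_sub_right,
      inner_smul_right]
    simp only [RCLike.conj_to_real]
    push_cast
    ring
  calc ∫ p, Complex.exp (((inner ℝ (p.2 - (inner ℝ p.2 e : ℝ) • e + p.1 • e) ξ : ℝ) : ℂ) * Complex.I)
        ∂((gaussianReal 0 1).prod (stdGaussian (E d)))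
      = ∫ p : ℝ × E d, Complex.exp (((inner ℝ e ξ : ℝ) : ℂ) * (p.1 : ℂ) * Complex.I) *
        Complex.exp (((inner ℝ p.2 (ξ - (inner ℝ e ξ : ℝ) • e) : ℝ) : ℂ) * Complex.I)
        ∂((gaussianReal 0 1).prod (stdGaussian (E d))) := by
        congr 1
        ext p
        exact hfun p
    _ = (∫ t, Complex.exp (((inner ℝ e ξ : ℝ) : ℂ) * (t : ℂ) * Complex.I) ∂(gaussianReal 0 1)) *
        (∫ g, Complex.exp (((inner ℝ g (ξ - (inner ℝ e ξ : ℝ) • e) : ℝ) : ℂ) * Complex.I)
          ∂(stdGaussian (E d))) := by
        rw [integral_prod_mul (f := fun t : ℝ => Complex.exp (((inner ℝ e ξ : ℝ) : ℂ) * (t : ℂ) * Complex.I))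
          (g := fun g : E d => Complex.exp (((inner ℝ g (ξ - (inner ℝ e ξ : ℝ) • e) : ℝ) : ℂ) * Complex.I))]
    _ = charFun (gaussianReal 0 1) (inner ℝ e ξ : ℝ) *
        charFun (stdGaussian (E d)) (ξ - (inner ℝ e ξ : ℝ) • e) := by
        rw [charFun_apply_real, charFun_apply]
    _ = charFun (stdGaussian (E d)) ξ := by
        rw [charFun_gaussianReal, charFun_stdGaussian, charFun_stdGaussian, ← Complex.exp_add]
        congr 1
        have h1 : ‖ξ - (inner ℝ e ξ : ℝ) • e‖ ^ 2 = ‖ξ‖ ^ 2 - (inner ℝ e ξ : ℝ) ^ 2 := by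
          rw [← real_inner_self_eq_norm_sq, ← real_inner_self_eq_norm_sq, inner_sub_left,
            inner_sub_right, inner_sub_right, inner_smul_left, inner_smul_left, inner_smul_right,
            inner_smul_right, hee, real_inner_comm ξ e]
          simp only [RCLike.conj_to_real]
          ring
        have h2 : ((‖ξ - (inner ℝ e ξ : ℝ) • e‖ : ℝ) : ℂ) ^ 2 = ((‖ξ‖ : ℝ) : ℂ) ^ 2 - ((inner ℝ e ξ : ℝ) : ℂ) ^ 2 := by
          exact_mod_cast h1
        rw [h2]
        push_cast
        ring

/-- small ball estimate for the Gaussian on the line -/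
theorem gaussian_slab (a c r : ℝ) (hc : 0 < c) (hr : 0 < r) :
    gaussianReal 0 1 {t : ℝ | |a + t * c| ≤ r} ≤ ENNReal.ofReal r / ENNReal.ofReal c := by
  have hset : {t : ℝ | |a + t * c| ≤ r} ⊆ Set.Icc ((-r - a) / c) ((r - a) / c) := by
    intro t ht
    have h := abs_le.mp (show |a + t * c| ≤ r from ht)
    constructor
    · rw [div_le_iff₀ hc]; linarith [h.1]
    · rw [le_div_iff₀ hc]; linarith [h.2]
  refine (measure_mono hset).trans ?_
  rw [gaussianReal_apply 0 one_ne_zero]
  calc ∫⁻ x in Set.Icc ((-r - a) / c) ((r - a) / c), gaussianPDF 0 1 x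
      ≤ ∫⁻ x in Set.Icc ((-r - a) / c) ((r - a) / c), ENNReal.ofReal (1/2) := by
        apply lintegral_mono
        intro x
        unfold gaussianPDF
        apply ENNReal.ofReal_le_ofReal
        rw [gaussianPDFReal]
        have h2 : (2:ℝ) ≤ √(2 * Real.pi * (1 : NNReal)) := by
          apply Real.le_sqrt_of_sq_le
          have := Real.pi_gt_three
          push_cast
          nlinarith
        have h3 : (√(2 * Real.pi * (1 : NNReal)))⁻¹ ≤ 1/2 := by
          rw [one_div]
          exact inv_anti₀ (by norm_num) h2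
        have h4 : Real.exp (-(x - 0) ^ 2 / (2 * (1 : NNReal))) ≤ 1 := by
          apply Real.exp_le_one_iff.mpr
          apply div_nonpos_of_nonpos_of_nonneg
          · nlinarith [sq_nonneg (x - 0)]
          · positivity
        calc (√(2 * Real.pi * (1 : NNReal)))⁻¹ * Real.exp (-(x - 0) ^ 2 / (2 * (1 : NNReal)))
            ≤ (1/2) * 1 := by
              apply mul_le_mul h3 h4 (Real.exp_pos _).le (by norm_num)
          _ = 1/2 := by norm_num
    _ = ENNReal.ofReal (1/2) * ENNReal.ofReal ((r - a) / c - (-r - a) / c) := by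
        rw [setLIntegral_const, Real.volume_Icc]
    _ = ENNReal.ofReal (r / c) := by
        rw [← ENNReal.ofReal_mul (by norm_num)]
        congr 1
        field_simp
        ring
    _ = ENNReal.ofReal r / ENNReal.ofReal c := ENNReal.ofReal_div_of_pos hc

theorem gauss_step {d : ℕ} (V : Submodule ℝ (E d)) (D : Set (E d)) (hD : MeasurableSet D)
    (hcyl : Cyl V D) (u : E d) (r : ℝ) (hr : 0 < r) :
    stdGaussian (E d) (D ∩ {g | |inner ℝ g u| ≤ r}) ≤
      stdGaussian (E d) D * (ENNReal.ofReal r / ENNReal.ofReal (dV V u)) := by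
  classical
  rcases (show 0 ≤ dV V u from norm_nonneg _).eq_or_lt with h0 | hpos
  · rw [← h0, ENNReal.ofReal_zero, ENNReal.div_zero (by simpa using hr)]
    by_cases hD0 : stdGaussian (E d) D = 0
    · have : stdGaussian (E d) (D ∩ {g | |inner ℝ g u| ≤ r}) = 0 :=
        measure_mono_null Set.inter_subset_left hD0
      rw [this]
      exact bot_le
    · rw [ENNReal.mul_top hD0]
      exact le_top
  · set δ := dV V u with hδ
    set w : E d := u - V.starProjection u with hw
    have hwn : ‖w‖ = δ := rfl
    set e : E d := δ⁻¹ • w with he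
    have hen : ‖e‖ = 1 := by
      rw [he, norm_smul, hwn, Real.norm_eq_abs, abs_of_pos (inv_pos.mpr hpos), inv_mul_cancel₀ hpos.ne']
    have hwV : ∀ v ∈ V, (inner ℝ v w : ℝ) = 0 := by
      intro v hv
      have := Submodule.sub_starProjection_mem_orthogonal (K := V) u
      exact (Submodule.mem_orthogonal V _).mp this v hv
    have heV : ∀ v ∈ V, (inner ℝ v e : ℝ) = 0 := by
      intro v hv
      rw [he, inner_smul_right, hwV v hv, mul_zero]
    have heu : (inner ℝ e u : ℝ) = δ := by
      have h1 : u = w + V.starProjection u := by rw [hw]; abel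
      have h2 : (inner ℝ w u : ℝ) = δ ^ 2 := by
        conv_lhs => rw [h1]
        rw [inner_add_right]
        have h3 : (inner ℝ w (V.starProjection u) : ℝ) = 0 := by
          rw [real_inner_comm]
          exact hwV _ (Submodule.starProjection_apply_mem V u)
        have h4 : (inner ℝ w (w + V.starProjection u) : ℝ) = δ ^ 2 := by
          rw [inner_add_right, h3, real_inner_self_eq_norm_sq, hwn, add_zero]
        first
          | (rw [h3, real_inner_self_eq_norm_sq, hwn, add_zero])
          | (simpa [inner_add_right, h3] using h4)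
      rw [he, inner_smul_left, h2]
      simp only [RCLike.conj_to_real]
      field_simp
    have hmeas : Measurable (fun p : ℝ × E d => p.2 - (inner ℝ p.2 e : ℝ) • e + p.1 • e) := by
      apply Continuous.measurable
      fun_prop
    have hSm : MeasurableSet (D ∩ {g : E d | |inner ℝ g u| ≤ r}) := by
      apply hD.inter
      apply IsClosed.measurableSet
      exact isClosed_le (by fun_prop) continuous_const
    calc stdGaussian (E d) (D ∩ {g | |inner ℝ g u| ≤ r})
        = ((gaussianReal 0 1).prod (stdGaussian (E d))).map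
          (fun p : ℝ × E d => p.2 - (inner ℝ p.2 e : ℝ) • e + p.1 • e)
            (D ∩ {g | |inner ℝ g u| ≤ r}) := by rw [resample e hen]
      _ = ∫⁻ g, gaussianReal 0 1 ((fun t : ℝ => (t, g)) ⁻¹'
            ((fun p : ℝ × E d => p.2 - (inner ℝ p.2 e : ℝ) • e + p.1 • e) ⁻¹'
              (D ∩ {g | |inner ℝ g u| ≤ r}))) ∂(stdGaussian (E d)) := by
          rw [Measure.map_apply hmeas hSm, Measure.prod_apply_symm (hmeas hSm)]
      _ ≤ ∫⁻ g, D.indicator (fun _ => ENNReal.ofReal r / ENNReal.ofReal δ) g
            ∂(stdGaussian (E d)) := by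
          apply lintegral_mono
          intro g
          by_cases hg : g ∈ D
          · rw [Set.indicator_of_mem hg]
            refine le_trans (measure_mono ?_)
              (gaussian_slab (inner ℝ (g - (inner ℝ g e : ℝ) • e) u) δ r hpos hr)
            intro t ht
            have h2 : |(inner ℝ (g - (inner ℝ g e : ℝ) • e + t • e) u : ℝ)| ≤ r := ht.2
            rw [inner_add_left, inner_smul_left, heu] at h2
            simpa using h2
          · rw [Set.indicator_of_notMem hg]
            have hemp : ((fun t : ℝ => (t, g)) ⁻¹'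
              ((fun p : ℝ × E d => p.2 - (inner ℝ p.2 e : ℝ) • e + p.1 • e) ⁻¹'
                (D ∩ {g | |inner ℝ g u| ≤ r}))) = ∅ := by
              ext t
              simp only [Set.mem_preimage, Set.mem_empty_iff_false, iff_false]
              intro ht
              apply hg
              refine (hcyl _ _ ?_).mp ht.1
              intro v hv
              simp only [inner_add_right, inner_sub_right, inner_smul_right, heV v hv]
              ring
            show gaussianReal 0 1 _ ≤ 0
            rw [hemp, measure_empty]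
      _ = stdGaussian (E d) D * (ENNReal.ofReal r / ENNReal.ofReal δ) := by
          rw [lintegral_indicator_const hD, mul_comm]

end Crest.Agent.S499
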