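import Crest.Agent.S499Defs

set_option autoImplicit false

open MeasureTheory ProbabilityTheory Crest.StreamLearn Metric Filter
open scoped ENNReal

namespace Crest.Agent.S499

theorem dV_continuous {d : ℕ} (V : Submodule ℝ (E d)) : Continuous (dV V) := by
  unfold dV
  exact (continuous_id.sub V.starProjection.continuous).norm

theorem dist_level {d k α : ℕ} (ν : Measure (E d)) (C : ℝ≥0∞)
    (hν : Frost α C ν) (hC : C ≠ ⊤) (V : Submodule ℝ (E d)) (hV : Module.finrank ℝ V ≤ k)
    (z x0 : E d) (ρ : ℝ) (hρ : 0 < ρ) (hx0 : x0 ∈ closedBall z ρ) (t : ℝ) (ht : 0 < t) :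
    ν (closedBall z ρ ∩ {x | dV V (x - x0) ≤ t}) ≤
      ENNReal.ofReal ((2 * ρ + t) / t) ^ k * (C * ENNReal.ofReal (2 * t) ^ α) := by
  classical
  set B := closedBall z ρ with hB
  set ν' := ν.restrict B with hν'
  have hfin : ν B < ⊤ := by
    refine lt_of_le_of_lt (hν z ρ hρ) ?_
    exact ENNReal.mul_lt_top (lt_top_iff_ne_top.mpr hC) (ENNReal.pow_lt_top ENNReal.ofReal_lt_top)
  have : IsFiniteMeasure ν' := ⟨by rw [hν', Measure.restrict_apply_univ]; exact hfin⟩
  set R := 2 * ρ + t with hR
  have hRpos : 0 < R := by positivity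
  let μV : Measure V := volume
  -- the set
  let S : Set (V × E d) := {p | ‖p.1‖ ≤ R ∧ ‖p.2 - x0 - (p.1 : E d)‖ ≤ 2 * t}
  have hS : MeasurableSet S := by
    apply IsClosed.measurableSet
    have e1 : IsClosed {p : V × E d | ‖p.1‖ ≤ R} :=
      isClosed_le (continuous_fst.norm) continuous_const
    have e2 : IsClosed {p : V × E d | ‖p.2 - x0 - (p.1 : E d)‖ ≤ 2 * t} :=
      isClosed_le (((continuous_snd.sub continuous_const).sub
        (continuous_subtype_val.comp continuous_fst)).norm) continuous_const
    exact e1.inter e2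
  have h1 : (μV.prod ν') S ≤ μV (closedBall 0 R) * (C * ENNReal.ofReal (2 * t) ^ α) := by
    rw [Measure.prod_apply hS]
    calc ∫⁻ v, ν' (Prod.mk v ⁻¹' S) ∂μV
        ≤ ∫⁻ v, (closedBall (0 : V) R).indicator (fun _ => C * ENNReal.ofReal (2 * t) ^ α) v ∂μV := by
          apply lintegral_mono
          intro v
          by_cases hv : ‖v‖ ≤ R
          · have : v ∈ closedBall (0 : V) R := by simpa using hv
            rw [Set.indicator_of_mem this]
            calc ν' (Prod.mk v ⁻¹' S) ≤ ν' (closedBall (x0 + (v : E d)) (2 * t)) := by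
                  apply measure_mono
                  intro x hx
                  have hx2 : ‖x - x0 - (v : E d)‖ ≤ 2 * t := hx.2
                  rw [mem_closedBall, dist_eq_norm]
                  rwa [← sub_sub]
              _ ≤ ν (closedBall (x0 + (v : E d)) (2 * t)) := Measure.restrict_apply_le _ _
              _ ≤ _ := hν _ _ (by positivity)
          · have hemp : Prod.mk v ⁻¹' S = (∅ : Set (E d)) := by
              ext x
              simp only [Set.mem_preimage, Set.mem_empty_iff_false, iff_false]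
              intro hx
              exact hv hx.1
            simp only []
            rw [hemp, measure_empty]
            exact bot_le
      _ = μV (closedBall 0 R) * (C * ENNReal.ofReal (2 * t) ^ α) := by
          rw [lintegral_indicator_const isClosed_closedBall.measurableSet, mul_comm]
  have hN : MeasurableSet {x : E d | dV V (x - x0) ≤ t} := by
    apply IsClosed.measurableSet
    exact isClosed_le ((dV_continuous V).comp (by fun_prop)) continuous_const
  have h2 : μV (closedBall 0 t) * ν (B ∩ {x | dV V (x - x0) ≤ t}) ≤ (μV.prod ν') S := by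
    rw [Measure.prod_apply_symm hS]
    have hBm : MeasurableSet B := isClosed_closedBall.measurableSet
    calc μV (closedBall 0 t) * ν (B ∩ {x | dV V (x - x0) ≤ t})
        = ∫⁻ x, ({x | dV V (x - x0) ≤ t}).indicator (fun _ => μV (closedBall 0 t)) x ∂ν' := by
          rw [lintegral_indicator_const hN, hν', Measure.restrict_apply hN, Set.inter_comm]
      _ ≤ ∫⁻ x, μV ((fun v => (v, x)) ⁻¹' S) ∂ν' := by
          apply lintegral_mono_ae
          rw [hν']
          filter_upwards [ae_restrict_mem hBm] with x hx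
          by_cases hxt : dV V (x - x0) ≤ t
          · rw [Set.indicator_of_mem (show x ∈ {x | dV V (x - x0) ≤ t} from hxt)]
            set w : V := V.orthogonalProjectionOnto (x - x0) with hw
            have hwv : (w : E d) = V.starProjection (x - x0) := by
              rw [hw, Submodule.starProjection_apply]
            have hcong : μV (closedBall (0 : V) t) = μV (closedBall w t) := by
              rw [Measure.addHaar_closedBall _ _ ht.le, Measure.addHaar_closedBall _ _ ht.le]
            rw [hcong]
            apply measure_mono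
            intro v hv
            rw [mem_closedBall, dist_eq_norm] at hv
            have hxx : ‖x - x0‖ ≤ 2 * ρ := by
              rw [← dist_eq_norm]
              calc dist x x0 ≤ dist x z + dist z x0 := dist_triangle _ _ _
                _ ≤ ρ + ρ := add_le_add hx (by rw [dist_comm]; exact hx0)
                _ = 2 * ρ := by ring
            refine ⟨?_, ?_⟩
            · show ‖v‖ ≤ R
              have : ‖w‖ ≤ 2 * ρ := by
                refine le_trans ?_ hxx
                rw [Submodule.coe_norm, hwv]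
                exact Submodule.norm_starProjection_apply_le V (x - x0)
              calc ‖v‖ = ‖(v - w) + w‖ := by rw [sub_add_cancel]
                _ ≤ ‖v - w‖ + ‖w‖ := norm_add_le _ _
                _ ≤ t + 2 * ρ := add_le_add hv this
                _ = R := by rw [hR]; ring
            · show ‖x - x0 - (v : E d)‖ ≤ 2 * t
              have hvw : ‖(w : E d) - (v : E d)‖ ≤ t := by
                rw [← Submodule.coe_sub, ← Submodule.coe_norm, norm_sub_rev]; exact hv
              calc ‖x - x0 - (v : E d)‖ = ‖(x - x0 - V.starProjection (x - x0)) + ((w : E d) - v)‖ := by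
                    rw [hwv]; congr 1; abel
                _ ≤ ‖x - x0 - V.starProjection (x - x0)‖ + ‖(w : E d) - v‖ := norm_add_le _ _
                _ ≤ t + t := add_le_add hxt hvw
                _ = 2 * t := by ring
          · rw [Set.indicator_of_notMem (show x ∉ {x | dV V (x - x0) ≤ t} from hxt)]
            exact bot_le
  -- combine
  have h3 := h2.trans h1
  rw [Measure.addHaar_closedBall _ _ ht.le, Measure.addHaar_closedBall _ _ hRpos.le] at h3
  set b := μV (ball 0 1) with hb
  have hb0 : b ≠ 0 := (measure_ball_pos μV 0 one_pos).ne'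
  have hbt : b ≠ ⊤ := measure_ball_lt_top.ne
  set r := Module.finrank ℝ V with hr
  set N := ν (B ∩ {x | dV V (x - x0) ≤ t}) with hNd
  set Q := C * ENNReal.ofReal (2 * t) ^ α with hQ
  have h4 : ENNReal.ofReal (t ^ r) * N ≤ ENNReal.ofReal (R ^ r) * Q := by
    have h5 : b * (ENNReal.ofReal (t ^ r) * N) ≤ b * (ENNReal.ofReal (R ^ r) * Q) := by
      calc b * (ENNReal.ofReal (t ^ r) * N) = ENNReal.ofReal (t ^ r) * b * N := by ring
        _ ≤ ENNReal.ofReal (R ^ r) * b * Q := h3
        _ = b * (ENNReal.ofReal (R ^ r) * Q) := by ring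
    exact (ENNReal.mul_le_mul_iff_right hb0 hbt).mp h5
  have htr : (0:ℝ) < t ^ r := by positivity
  have h6 : N ≤ ENNReal.ofReal ((R / t) ^ r) * Q := by
    have : N = ENNReal.ofReal ((t ^ r)⁻¹) * (ENNReal.ofReal (t ^ r) * N) := by
      rw [← mul_assoc, ← ENNReal.ofReal_mul (by positivity), inv_mul_cancel₀ htr.ne', ENNReal.ofReal_one, one_mul]
    rw [this]
    calc ENNReal.ofReal ((t ^ r)⁻¹) * (ENNReal.ofReal (t ^ r) * N)
        ≤ ENNReal.ofReal ((t ^ r)⁻¹) * (ENNReal.ofReal (R ^ r) * Q) := by gcongr
      _ = ENNReal.ofReal ((R / t) ^ r) * Q := by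
          rw [← mul_assoc, ← ENNReal.ofReal_mul (by positivity)]
          congr 2
          rw [div_pow, div_eq_mul_inv, mul_comm]
  refine h6.trans ?_
  gcongr
  rw [ENNReal.ofReal_pow (by positivity)]
  apply pow_le_pow_right₀ _ hV
  rw [← ENNReal.ofReal_one]
  apply ENNReal.ofReal_le_ofReal
  rw [le_div_iff₀ ht]
  rw [hR]; linarith

theorem dist_integral {d k m α : ℕ} (hm : 1 ≤ m) (hα : m + k + 1 ≤ α) (ν : Measure (E d)) (C : ℝ≥0∞)
    (hν : Frost α C ν) (V : Submodule ℝ (E d)) (hV : Module.finrank ℝ V ≤ k) (z x0 : E d)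
    (ρ : ℝ) (hρ : 0 < ρ) (hx0 : x0 ∈ closedBall z ρ) :
    ∫⁻ x in closedBall z ρ, (ENNReal.ofReal (dV V (x - x0)))⁻¹ ^ m ∂ν ≤
      2 ^ (k + 1) * 4 ^ α * C * ENNReal.ofReal ρ ^ (α - m) := by
  classical
  by_cases hC : C = ⊤
  · subst hC
    have : (2 : ℝ≥0∞) ^ (k + 1) * 4 ^ α * ⊤ * ENNReal.ofReal ρ ^ (α - m) = ⊤ := by
      rw [ENNReal.mul_top (by positivity)]
      apply ENNReal.top_mul
      apply pow_ne_zero
      simpa using hρ
    rw [this]
    exact le_top
  set B := closedBall z ρ with hB
  have hBm : MeasurableSet B := isClosed_closedBall.measurableSet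
  have hN : ∀ t : ℝ, MeasurableSet {x : E d | dV V (x - x0) ≤ t} := by
    intro t
    apply IsClosed.measurableSet
    exact isClosed_le ((dV_continuous V).comp (by fun_prop)) continuous_const
  let t : ℕ → ℝ := fun j => 2 * ρ / 2 ^ j
  have htpos : ∀ j, 0 < t j := fun j => by positivity
  let c : ℕ → ℝ≥0∞ := fun j => ENNReal.ofReal (2 ^ (j + 1) / (2 * ρ)) ^ m
  -- pointwise bound
  have hpt : ∀ x ∈ B, (ENNReal.ofReal (dV V (x - x0)))⁻¹ ^ m ≤
      ∑' j, ({x | dV V (x - x0) ≤ t j}).indicator (fun _ => c j) x := by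
    intro x hx
    set D := dV V (x - x0) with hD
    have hD0 : 0 ≤ D := norm_nonneg _
    have hxx : ‖x - x0‖ ≤ 2 * ρ := by
      rw [← dist_eq_norm]
      calc dist x x0 ≤ dist x z + dist z x0 := dist_triangle _ _ _
        _ ≤ ρ + ρ := add_le_add hx (by rw [dist_comm]; exact hx0)
        _ = 2 * ρ := by ring
    have hD2 : D ≤ 2 * ρ := by
      refine le_trans ?_ hxx
      rw [hD]
      unfold dV
      have := Submodule.norm_starProjection_apply_le Vᗮ (x - x0)
      rwa [Submodule.starProjection_orthogonal_val] at this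
    rcases hD0.eq_or_lt with h0 | hpos
    · -- D = 0
      have hall : ∀ j, ({x | dV V (x - x0) ≤ t j}).indicator (fun _ => c j) x = c j := by
        intro j
        apply Set.indicator_of_mem
        show D ≤ t j
        rw [← h0]; exact (htpos j).le
      simp_rw [hall]
      have htop : ∑' j, c j = ⊤ := by
        rw [eq_top_iff]
        have hge : ∀ j, c 0 ≤ c j := by
          intro j
          show ENNReal.ofReal (2 ^ (0 + 1) / (2 * ρ)) ^ m ≤ ENNReal.ofReal (2 ^ (j + 1) / (2 * ρ)) ^ m
          gcongr
          · norm_num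
          · omega
        calc (⊤ : ℝ≥0∞) = ∑' _ : ℕ, c 0 := by
              rw [ENNReal.tsum_const_eq_top_of_ne_zero]
              apply pow_ne_zero
              have : (0:ℝ) < 2 ^ (0 + 1) / (2 * ρ) := by positivity
              simpa using this
          _ ≤ ∑' j, c j := ENNReal.tsum_le_tsum hge
      rw [htop]
      exact le_top
    · -- D > 0: choose j
      have hex : ∃ j : ℕ, D ≤ t j ∧ t (j + 1) < D := by
        have hlim : ∃ n : ℕ, t n < D := by
          obtain ⟨n, hn⟩ := exists_pow_lt_of_lt_one (show (0:ℝ) < D / (2 * ρ) by positivity) (show (1/2 : ℝ) < 1 by norm_num)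
          refine ⟨n, ?_⟩
          show 2 * ρ / 2 ^ n < D
          rw [div_pow, one_pow, lt_div_iff₀ (by positivity)] at hn
          calc 2 * ρ / 2 ^ n = 1 / 2 ^ n * (2 * ρ) := by ring
            _ < D := hn
        have hn0 := Nat.find_spec hlim
        have hnpos : Nat.find hlim ≠ 0 := by
          intro h
          rw [h] at hn0
          have : t 0 = 2 * ρ := by simp [t]
          rw [this] at hn0
          linarith
        refine ⟨Nat.find hlim - 1, ?_, ?_⟩
        · have := Nat.find_min hlim (show Nat.find hlim - 1 < Nat.find hlim by omega)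
          exact not_lt.mp this
        · have : Nat.find hlim - 1 + 1 = Nat.find hlim := by omega
          rw [this]
          exact hn0
      obtain ⟨j, hj1, hj2⟩ := hex
      calc (ENNReal.ofReal D)⁻¹ ^ m ≤ c j := by
            show _ ≤ ENNReal.ofReal (2 ^ (j + 1) / (2 * ρ)) ^ m
            gcongr
            rw [← ENNReal.ofReal_inv_of_pos hpos]
            apply ENNReal.ofReal_le_ofReal
            rw [inv_le_comm₀ hpos (by positivity)]
            rw [inv_div]
            exact hj2.le
        _ = ({x | dV V (x - x0) ≤ t j}).indicator (fun _ => c j) x := by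
            rw [Set.indicator_of_mem (show x ∈ {x | dV V (x - x0) ≤ t j} from hj1)]
        _ ≤ _ := ENNReal.le_tsum j
  calc ∫⁻ x in B, (ENNReal.ofReal (dV V (x - x0)))⁻¹ ^ m ∂ν
      ≤ ∫⁻ x in B, ∑' j, ({x | dV V (x - x0) ≤ t j}).indicator (fun _ => c j) x ∂ν := by
        apply setLIntegral_mono' hBm
        exact hpt
    _ = ∑' j, ∫⁻ x in B, ({x | dV V (x - x0) ≤ t j}).indicator (fun _ => c j) x ∂ν := by
        rw [lintegral_tsum]
        intro j
        exact (measurable_const.indicator (hN _)).aemeasurable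
    _ = ∑' j, c j * ν (B ∩ {x | dV V (x - x0) ≤ t j}) := by
        congr 1
        ext j
        rw [lintegral_indicator_const (hN _), Measure.restrict_apply (hN _), Set.inter_comm]
    _ ≤ ∑' j : ℕ, (2 ^ k * 4 ^ α * C * ENNReal.ofReal ρ ^ (α - m)) * (2⁻¹ : ℝ≥0∞) ^ j := by
        apply ENNReal.tsum_le_tsum
        intro j
        have hlev := dist_level ν C hν hC V hV z x0 ρ hρ hx0 (t j) (htpos j)
        calc c j * ν (B ∩ {x | dV V (x - x0) ≤ t j})
            ≤ c j * (ENNReal.ofReal ((2 * ρ + t j) / t j) ^ k * (C * ENNReal.ofReal (2 * t j) ^ α)) := by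
              gcongr
          _ ≤ c j * (ENNReal.ofReal (2 ^ (j + 1)) ^ k * (C * ENNReal.ofReal (2 * t j) ^ α)) := by
              gcongr
              rw [div_le_iff₀ (htpos j)]
              show 2 * ρ + 2 * ρ / 2 ^ j ≤ 2 ^ (j + 1) * (2 * ρ / 2 ^ j)
              have h2j : (1:ℝ) ≤ 2 ^ j := one_le_pow₀ (by norm_num)
              have : 2 * ρ / 2 ^ j ≤ 2 * ρ := div_le_self (by positivity) h2j
              calc 2 * ρ + 2 * ρ / 2 ^ j ≤ 2 * ρ + 2 * ρ := by linarith
                _ = 2 ^ (j + 1) * (2 * ρ / 2 ^ j) := by field_simp; ring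
          _ = C * ENNReal.ofReal ((2 ^ (j + 1) / (2 * ρ)) ^ m * (2 ^ (j + 1)) ^ k * (2 * t j) ^ α) := by
              have g1 : (0:ℝ) ≤ 2 ^ (j + 1) / (2 * ρ) := by positivity
              have g2 : (0:ℝ) ≤ 2 ^ (j + 1) := by positivity
              have g3 : (0:ℝ) ≤ 2 * t j := by have := htpos j; positivity
              show ENNReal.ofReal (2 ^ (j + 1) / (2 * ρ)) ^ m * _ = _
              rw [← ENNReal.ofReal_pow g1, ← ENNReal.ofReal_pow g2, ← ENNReal.ofReal_pow g3,
                ENNReal.ofReal_mul (mul_nonneg (pow_nonneg g1 _) (pow_nonneg g2 _)),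
                ENNReal.ofReal_mul (pow_nonneg g1 _)]
              ring
          _ ≤ C * ENNReal.ofReal (2 ^ k * 4 ^ α * ρ ^ (α - m) * (2⁻¹) ^ j) := by
              apply mul_le_mul_right
              apply ENNReal.ofReal_le_ofReal
              show (2 ^ (j + 1) / (2 * ρ)) ^ m * (2 ^ (j + 1)) ^ k * (2 * (2 * ρ / 2 ^ j)) ^ α ≤ _
              obtain ⟨e, he⟩ : ∃ e, α = m + k + 1 + e := ⟨α - (m + k + 1), by omega⟩
              subst he
              have h1 : m + k + 1 + e - m = k + 1 + e := by omega
              rw [h1]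
              have h2j : (1:ℝ) ≤ 2 ^ j := one_le_pow₀ (by norm_num)
              have key : ((2:ℝ) ^ (j + 1) / (2 * ρ)) ^ m * (2 ^ (j + 1)) ^ k * (2 * (2 * ρ / 2 ^ j)) ^ (m + k + 1 + e)
                  = 2 ^ k * 4 ^ (m + k + 1 + e) * ρ ^ (k + 1 + e) * (2⁻¹) ^ j * ((2 ^ j)⁻¹) ^ e := by
                have e1 : ((2:ℝ) ^ (j + 1) / (2 * ρ)) = 2 ^ j / ρ := by field_simp; ring
                have e2 : (2 * (2 * ρ / 2 ^ j) : ℝ) = 4 * ρ / 2 ^ j := by ring
                rw [e1, e2, pow_succ (2:ℝ) j, mul_pow, div_pow, div_pow, mul_pow]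
                have hj0 : (2:ℝ) ^ j ≠ 0 := by positivity
                have e3 : ((2:ℝ)⁻¹) ^ j = (2 ^ j)⁻¹ := inv_pow _ _
                rw [e3]
                generalize (2:ℝ) ^ j = u at *
                rw [pow_add ρ, pow_add ρ, pow_add u, pow_add u, pow_add u, pow_add ρ (k+1), pow_add ρ k]
                rw [pow_add ρ m k]
                field_simp
                rw [← mul_pow, mul_one_div_cancel hj0, one_pow]
              rw [key]
              have : ((2:ℝ) ^ j)⁻¹ ^ e ≤ 1 := by
                apply pow_le_one₀ (by positivity)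
                exact inv_le_one_of_one_le₀ h2j
              exact mul_le_of_le_one_right (by positivity) this
          _ = (2 ^ k * 4 ^ α * C * ENNReal.ofReal ρ ^ (α - m)) * (2⁻¹ : ℝ≥0∞) ^ j := by
              rw [ENNReal.ofReal_mul (by positivity), ENNReal.ofReal_mul (by positivity),
                ENNReal.ofReal_mul (by positivity), ENNReal.ofReal_pow (by positivity),
                ENNReal.ofReal_pow (by positivity), ENNReal.ofReal_pow (by positivity),
                ENNReal.ofReal_pow (by positivity), ENNReal.ofReal_inv_of_pos (by norm_num)]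
              rw [ENNReal.ofReal_ofNat, ENNReal.ofReal_ofNat]
              ring
    _ = (2 ^ k * 4 ^ α * C * ENNReal.ofReal ρ ^ (α - m)) * 2 := by
        rw [ENNReal.tsum_mul_left, ENNReal.tsum_geometric, ENNReal.one_sub_inv_two, inv_inv]
    _ = 2 ^ (k + 1) * 4 ^ α * C * ENNReal.ofReal ρ ^ (α - m) := by
        rw [pow_succ]; ring

end Crest.Agent.S499
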