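import Crest.Agent.S499P3

/-!
S0499, part 5: the recursion for the `k`-th moment.
-/

set_option autoImplicit false

open MeasureTheory ProbabilityTheory Crest.StreamLearn Metric Filter
open scoped ENNReal

namespace Crest.Agent.S499

lemma measurableSet_slab {d : ℕ} (u : E d) (r : ℝ) : MeasurableSet {g : E d | |inner ℝ g u| ≤ r} :=
  measurableSet_le (by fun_prop) measurable_const

/-- joint measurability of the small-difference relation -/
lemma measurableSet_rel {d m : ℕ} (x0 : E d) (r : ℝ) :
    MeasurableSet {q : (Fin m → E d) × E d | ∀ i, |inner ℝ (q.1 i) (q.2 - x0)| ≤ r} := by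
  have : {q : (Fin m → E d) × E d | ∀ i, |inner ℝ (q.1 i) (q.2 - x0)| ≤ r} =
      ⋂ i, {q : (Fin m → E d) × E d | |inner ℝ (q.1 i) (q.2 - x0)| ≤ r} := by
    ext q; simp
  rw [this]
  refine MeasurableSet.iInter fun i => measurableSet_le ?_ measurable_const
  fun_prop

lemma Cyl.inter {d : ℕ} {V : Submodule ℝ (E d)} {D : Set (E d)} (h : Cyl V D) (u : E d) (r : ℝ) :
    Cyl (V ⊔ Submodule.span ℝ {u}) (D ∩ {g | |inner ℝ g u| ≤ r}) := by
  intro g g' hg
  have h1 : ∀ v ∈ V, inner ℝ v g = inner ℝ v g' := fun v hv => hg v (Submodule.mem_sup_left hv)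
  have h2 : inner ℝ u g = inner ℝ u g' :=
    hg u (Submodule.mem_sup_right (Submodule.mem_span_singleton_self u))
  simp only [Set.mem_inter_iff, Set.mem_ofPred_eq]
  rw [h g g' h1, real_inner_comm, h2, real_inner_comm]

/-- PART 5 (recursion) -/
theorem gram_rec {d m k : ℕ} (ν : Measure (E d)) [IsFiniteMeasure ν] (x0 : E d) (r : ℝ) (hr : 0 < r)
    (K : ℝ≥0∞) (hK : ∀ V : Submodule ℝ (E d), Module.finrank ℝ V ≤ k →
      ∫⁻ x, (ENNReal.ofReal (dV V (x - x0)))⁻¹ ^ m ∂ν ≤ K) (j : ℕ) :
    ∀ (V : Submodule ℝ (E d)), Module.finrank ℝ V + j ≤ k + 1 → ∀ (D : Set (E d)), MeasurableSet D →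
      Cyl V D →
      ∫⁻ a in {a : Fin m → E d | ∀ i, a i ∈ D},
        (ν {x | ∀ i, |inner ℝ (a i) (x - x0)| ≤ r}) ^ j ∂(gam d m) ≤
      (stdGaussian (E d) D) ^ m * (ENNReal.ofReal r ^ m * K) ^ j := by
  induction j with
  | zero =>
    intro V _ D hD _
    simp only [pow_zero, lintegral_const, one_mul, mul_one, Measure.restrict_apply_univ]
    have h1 : {a : Fin m → E d | ∀ i, a i ∈ D} = Set.pi Set.univ fun _ => D := by
      ext a; simp
    rw [h1, Measure.pi_pi]
    simp
  | succ j ih =>
    intro V hV D hD hcyl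
    set S : (Fin m → E d) → Set (E d) := fun a => {x | ∀ i, |inner ℝ (a i) (x - x0)| ≤ r} with hS
    have hrel := measurableSet_rel (m := m) x0 r
    have hSm : ∀ a, MeasurableSet (S a) := fun a =>
      (measurable_prodMk_left (x := a)) hrel
    have hνS : Measurable fun a : Fin m → E d => ν (S a) := measurable_measure_prodMk_left hrel
    have hDm : MeasurableSet {a : Fin m → E d | ∀ i, a i ∈ D} := by
      have : {a : Fin m → E d | ∀ i, a i ∈ D} = ⋂ i, {a : Fin m → E d | a i ∈ D} := by ext; simp
      rw [this]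
      exact MeasurableSet.iInter fun i => (measurable_pi_apply i) hD
    -- expand one factor
    have h1 : ∀ a, (ν (S a)) ^ (j + 1) =
        ∫⁻ x, (S a).indicator 1 x * (ν (S a)) ^ j ∂ν := by
      intro a
      rw [lintegral_mul_const _ (measurable_one.indicator (hSm a)), lintegral_indicator_one (hSm a),
        pow_succ, mul_comm]
    change ∫⁻ a in {a : Fin m → E d | ∀ i, a i ∈ D}, (ν (S a)) ^ (j + 1) ∂(gam d m) ≤ _
    rw [lintegral_congr h1, lintegral_lintegral_swap]
    · -- for fixed `x`
      have h2 : ∀ x, ∫⁻ a in {a : Fin m → E d | ∀ i, a i ∈ D},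
          (S a).indicator 1 x * (ν (S a)) ^ j ∂(gam d m) ≤
          (stdGaussian (E d) D * (ENNReal.ofReal r / ENNReal.ofReal (dV V (x - x0)))) ^ m *
            (ENNReal.ofReal r ^ m * K) ^ j := by
        intro x
        have h3 : ∫⁻ a in {a : Fin m → E d | ∀ i, a i ∈ D},
            (S a).indicator 1 x * (ν (S a)) ^ j ∂(gam d m) =
            ∫⁻ a in {a : Fin m → E d | ∀ i, a i ∈ D ∩ {g | |inner ℝ g (x - x0)| ≤ r}},
              (ν (S a)) ^ j ∂(gam d m) := by
          have hDx : MeasurableSet {a : Fin m → E d | ∀ i, |inner ℝ (a i) (x - x0)| ≤ r} :=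
            (measurable_prodMk_right (y := x)) hrel
          have h4 : ∀ a, (S a).indicator (1 : E d → ℝ≥0∞) x * (ν (S a)) ^ j =
              {a : Fin m → E d | ∀ i, |inner ℝ (a i) (x - x0)| ≤ r}.indicator
                (fun a => (ν (S a)) ^ j) a := by
            intro a
            by_cases hx : x ∈ S a
            · rw [Set.indicator_of_mem hx, Set.indicator_of_mem (by exact hx)]
              simp
            · rw [Set.indicator_of_notMem hx, Set.indicator_of_notMem (by exact hx)]
              simp
          simp only [h4]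
          rw [lintegral_indicator hDx, Measure.restrict_restrict hDx]
          congr 2
          ext a
          simp only [Set.mem_inter_iff, Set.mem_ofPred_eq]
          constructor
          · rintro ⟨h5, h6⟩ i
            exact ⟨h6 i, h5 i⟩
          · intro h5
            exact ⟨fun i => (h5 i).2, fun i => (h5 i).1⟩
        rw [h3]
        refine (ih (V ⊔ Submodule.span ℝ {x - x0}) ?_ _ (hD.inter (measurableSet_slab _ _))
          (hcyl.inter _ _)).trans ?_
        · have h5 := Submodule.finrank_add_le_finrank_add_finrank V (Submodule.span ℝ {x - x0})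
          have h6 : Module.finrank ℝ (Submodule.span ℝ {x - x0}) ≤ 1 := by
            simpa using finrank_span_le_card (R := ℝ) ({x - x0} : Set (E d))
          omega
        · gcongr
          exact gauss_step V D hD hcyl (x - x0) r hr
      refine (lintegral_mono h2).trans ?_
      have h7 : ∀ x, (stdGaussian (E d) D * (ENNReal.ofReal r / ENNReal.ofReal (dV V (x - x0)))) ^ m *
            (ENNReal.ofReal r ^ m * K) ^ j =
          (stdGaussian (E d) D) ^ m * (ENNReal.ofReal r ^ m) * (ENNReal.ofReal r ^ m * K) ^ j *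
            (ENNReal.ofReal (dV V (x - x0)))⁻¹ ^ m := by
        intro x
        rw [div_eq_mul_inv, mul_pow, mul_pow]
        ring
      simp only [h7]
      rw [lintegral_const_mul _ (by unfold dV; fun_prop)]
      calc (stdGaussian (E d) D) ^ m * (ENNReal.ofReal r ^ m) * (ENNReal.ofReal r ^ m * K) ^ j *
            ∫⁻ x, (ENNReal.ofReal (dV V (x - x0)))⁻¹ ^ m ∂ν
          ≤ (stdGaussian (E d) D) ^ m * (ENNReal.ofReal r ^ m) * (ENNReal.ofReal r ^ m * K) ^ j * K := by
            gcongr
            exact hK V (by omega)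
        _ = _ := by ring
    · refine AEMeasurable.mul ?_ ?_
      · refine Measurable.aemeasurable ?_
        have h8 : (fun q : (Fin m → E d) × E d => (S q.1).indicator (1 : E d → ℝ≥0∞) q.2) =
            {q : (Fin m → E d) × E d | ∀ i, |inner ℝ (q.1 i) (q.2 - x0)| ≤ r}.indicator 1 := by
          funext q
          by_cases hq : q ∈ {q : (Fin m → E d) × E d | ∀ i, |inner ℝ (q.1 i) (q.2 - x0)| ≤ r}
          · rw [Set.indicator_of_mem hq, Set.indicator_of_mem (by exact hq)]
            rfl
          · rw [Set.indicator_of_notMem hq, Set.indicator_of_notMem (by exact hq)]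
        have h9 : Measurable ({q : (Fin m → E d) × E d | ∀ i, |inner ℝ (q.1 i) (q.2 - x0)| ≤ r}.indicator
            (1 : (Fin m → E d) × E d → ℝ≥0∞)) := measurable_one.indicator hrel
        rw [← h8] at h9
        exact h9
      · exact ((hνS.pow_const j).comp measurable_fst).aemeasurable

end Crest.Agent.S499
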