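import Crest.Agent.S499Defs

/-!
Part 6 of S0499: truncation of the density of a measure by its `k`-th moment.
-/

set_option autoImplicit false

open MeasureTheory ProbabilityTheory Crest.StreamLearn Metric Filter
open scoped ENNReal

namespace Crest.Agent.S499

private lemma pointwise_trunc {k : ℕ} (hk : 1 ≤ k) (h f : ℝ≥0∞) (h0 : h ≠ 0) (h1 : h ≠ ⊤) :
    f ≤ h + h⁻¹ ^ (k - 1) * f ^ k := by
  rcases le_total f h with hf | hf
  · exact le_trans hf le_self_add
  · refine le_trans ?_ le_add_self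
    obtain ⟨j, rfl⟩ : ∃ j, k = j + 1 := ⟨k - 1, by omega⟩
    rw [Nat.add_sub_cancel, pow_succ, ← mul_assoc, ← mul_pow]
    have h2 : 1 ≤ h⁻¹ * f := by
      calc (1 : ℝ≥0∞) = h⁻¹ * h := (ENNReal.inv_mul_cancel h0 h1).symm
        _ ≤ h⁻¹ * f := by gcongr
    calc f = 1 * f := (one_mul f).symm
      _ ≤ (h⁻¹ * f) ^ j * f := by
        gcongr
        exact one_le_pow₀ h2

private lemma volume_ball_pi {m : ℕ} (y : Fin m → ℝ) (η : ℝ) (hη : 0 < η) :
    volume (closedBall y η) = ENNReal.ofReal (2 * η) ^ m := by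
  rw [Real.volume_pi_closedBall y hη.le, Fintype.card_fin, ENNReal.ofReal_pow (by positivity)]

private lemma swap_int {m : ℕ} (μ : Measure (Fin m → ℝ)) [IsFiniteMeasure μ]
    (U : Set (Fin m → ℝ)) (hU : MeasurableSet U) (η : ℝ) :
    ∫⁻ y in U, μ (closedBall y η) = ∫⁻ x, volume (U ∩ closedBall x η) ∂μ := by
  set S : Set ((Fin m → ℝ) × (Fin m → ℝ)) := {p | p.1 ∈ U ∧ dist p.2 p.1 ≤ η} with hS
  have hSm : MeasurableSet S := by
    have h1 : MeasurableSet {p : (Fin m → ℝ) × (Fin m → ℝ) | p.1 ∈ U} := measurable_fst hU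
    have h2 : MeasurableSet {p : (Fin m → ℝ) × (Fin m → ℝ) | dist p.2 p.1 ≤ η} :=
      measurableSet_le (measurable_snd.dist measurable_fst) measurable_const
    exact h1.inter h2
  have h3 : (volume.prod μ) S = ∫⁻ y in U, μ (closedBall y η) := by
    rw [Measure.prod_apply hSm, ← lintegral_indicator hU]
    refine lintegral_congr fun y => ?_
    by_cases hy : y ∈ U
    · rw [Set.indicator_of_mem hy]
      congr 1
      ext x
      simp [hS, hy, mem_closedBall]
    · rw [Set.indicator_of_notMem hy]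
      have : Prod.mk y ⁻¹' S = ∅ := by
        ext x
        simp [hS, hy]
      rw [this, measure_empty]
  have h4 : (volume.prod μ) S = ∫⁻ x, volume (U ∩ closedBall x η) ∂μ := by
    rw [Measure.prod_apply_symm hSm]
    refine lintegral_congr fun x => ?_
    congr 1
    ext y
    simp [hS, mem_closedBall, dist_comm]
  rw [← h3, h4]

private lemma swap_int_div {m : ℕ} (μ : Measure (Fin m → ℝ)) [IsFiniteMeasure μ]
    (U : Set (Fin m → ℝ)) (hU : MeasurableSet U) (η : ℝ) (D : ℝ≥0∞) (hD : D ≠ 0) :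
    ∫⁻ y in U, μ (closedBall y η) / D = ∫⁻ x, volume (U ∩ closedBall x η) / D ∂μ := by
  simp only [div_eq_mul_inv]
  rw [lintegral_mul_const' _ _ (ENNReal.inv_ne_top.2 hD),
    lintegral_mul_const' _ _ (ENNReal.inv_ne_top.2 hD), swap_int μ U hU]

theorem trunc_bound {m k : ℕ} (hk : 1 ≤ k) (μ : Measure (Fin m → ℝ)) [IsFiniteMeasure μ]
    (A : Set (Fin m → ℝ)) (hA : MeasurableSet A) (h : ℝ≥0∞) (h0 : h ≠ 0) (h1 : h ≠ ⊤) :
    μ A ≤ h * volume A + h⁻¹ ^ (k - 1) * liminf (fun n : ℕ =>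
      ∫⁻ y, (μ (closedBall y (1 / ((n : ℝ) + 1))) /
        ENNReal.ofReal (2 * (1 / ((n : ℝ) + 1))) ^ m) ^ k) atTop := by
  set b : ℕ → ℝ≥0∞ := fun n => ∫⁻ y, (μ (closedBall y (1 / ((n : ℝ) + 1))) /
        ENNReal.ofReal (2 * (1 / ((n : ℝ) + 1))) ^ m) ^ k with hb
  have hc : h⁻¹ ^ (k - 1) ≠ ⊤ := ENNReal.pow_ne_top (ENNReal.inv_ne_top.2 h0)
  have hη : ∀ n : ℕ, (0 : ℝ) < 1 / ((n : ℝ) + 1) := fun n => by positivity
  have hD0 : ∀ n : ℕ, ENNReal.ofReal (2 * (1 / ((n : ℝ) + 1))) ^ m ≠ 0 := fun n => by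
    have := hη n
    exact pow_ne_zero _ (by rw [Ne, ENNReal.ofReal_eq_zero, not_le]; positivity)
  have hDT : ∀ n : ℕ, ENNReal.ofReal (2 * (1 / ((n : ℝ) + 1))) ^ m ≠ ⊤ := fun n =>
    ENNReal.pow_ne_top ENNReal.ofReal_ne_top
  -- main estimate for open sets
  have key : ∀ U : Set (Fin m → ℝ), IsOpen U → μ U ≤ h * volume U + h⁻¹ ^ (k - 1) * liminf b atTop := by
    intro U hU
    have hUm := hU.measurableSet
    -- Fatou
    have f1 : μ U ≤ liminf (fun n : ℕ => ∫⁻ y in U, (μ (closedBall y (1 / ((n : ℝ) + 1))) /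
        ENNReal.ofReal (2 * (1 / ((n : ℝ) + 1))) ^ m)) atTop := by
      have e1 : ∀ n : ℕ, ∫⁻ y in U, (μ (closedBall y (1 / ((n : ℝ) + 1))) /
          ENNReal.ofReal (2 * (1 / ((n : ℝ) + 1))) ^ m) =
          ∫⁻ x, volume (U ∩ closedBall x (1 / ((n : ℝ) + 1))) /
            ENNReal.ofReal (2 * (1 / ((n : ℝ) + 1))) ^ m ∂μ := by
        intro n
        exact swap_int_div μ U hUm _ _ (hD0 n)
      simp only [e1]
      have hmeas : ∀ n : ℕ, Measurable (fun x => volume (U ∩ closedBall x (1 / ((n : ℝ) + 1))) /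
            ENNReal.ofReal (2 * (1 / ((n : ℝ) + 1))) ^ m) := by
        intro n
        refine Measurable.div_const ?_ _
        set S : Set ((Fin m → ℝ) × (Fin m → ℝ)) :=
          {p | p.2 ∈ U ∧ dist p.2 p.1 ≤ 1 / ((n : ℝ) + 1)} with hS
        have hSm : MeasurableSet S := by
          have h1 : MeasurableSet {p : (Fin m → ℝ) × (Fin m → ℝ) | p.2 ∈ U} := measurable_snd hUm
          have h2 : MeasurableSet {p : (Fin m → ℝ) × (Fin m → ℝ) |
              dist p.2 p.1 ≤ 1 / ((n : ℝ) + 1)} :=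
            measurableSet_le (measurable_snd.dist measurable_fst) measurable_const
          exact h1.inter h2
        have := measurable_measure_prodMk_left (ν := (volume : Measure (Fin m → ℝ))) hSm
        exact this
      refine le_trans ?_ (lintegral_liminf_le hmeas)
      rw [← lintegral_indicator_one hUm]
      refine lintegral_mono fun x => ?_
      by_cases hx : x ∈ U
      · rw [Set.indicator_of_mem hx]
        obtain ⟨ε, hε, hεU⟩ := Metric.isOpen_iff.1 hU x hx
        have hev : ∀ᶠ n : ℕ in atTop, volume (U ∩ closedBall x (1 / ((n : ℝ) + 1))) /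
            ENNReal.ofReal (2 * (1 / ((n : ℝ) + 1))) ^ m = 1 := by
          have h2 : ∀ᶠ n : ℕ in atTop, 1 / ((n : ℝ) + 1) < ε :=
            (tendsto_one_div_add_atTop_nhds_zero_nat).eventually (gt_mem_nhds hε)
          filter_upwards [h2] with n hn
          have h3 : U ∩ closedBall x (1 / ((n : ℝ) + 1)) = closedBall x (1 / ((n : ℝ) + 1)) := by
            rw [Set.inter_eq_right]
            exact (closedBall_subset_ball hn).trans hεU
          rw [h3, volume_ball_pi x _ (hη n)]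
          exact ENNReal.div_self (hD0 n) (hDT n)
        have h4 : liminf (fun n : ℕ => volume (U ∩ closedBall x (1 / ((n : ℝ) + 1))) /
            ENNReal.ofReal (2 * (1 / ((n : ℝ) + 1))) ^ m) atTop = 1 := by
          rw [liminf_congr hev]
          simp
        rw [h4]
        simp
      · rw [Set.indicator_of_notMem hx]
        exact zero_le
    -- pointwise truncation
    have f2 : ∀ n : ℕ, ∫⁻ y in U, (μ (closedBall y (1 / ((n : ℝ) + 1))) /
        ENNReal.ofReal (2 * (1 / ((n : ℝ) + 1))) ^ m) ≤ h * volume U + h⁻¹ ^ (k - 1) * b n := by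
      intro n
      calc _ ≤ ∫⁻ y in U, (h + h⁻¹ ^ (k - 1) * (μ (closedBall y (1 / ((n : ℝ) + 1))) /
            ENNReal.ofReal (2 * (1 / ((n : ℝ) + 1))) ^ m) ^ k) :=
            lintegral_mono fun y => pointwise_trunc hk h _ h0 h1
        _ = h * volume U + ∫⁻ y in U, h⁻¹ ^ (k - 1) * (μ (closedBall y (1 / ((n : ℝ) + 1))) /
            ENNReal.ofReal (2 * (1 / ((n : ℝ) + 1))) ^ m) ^ k := by
            rw [lintegral_add_left measurable_const, setLIntegral_const]
        _ ≤ h * volume U + ∫⁻ y, h⁻¹ ^ (k - 1) * (μ (closedBall y (1 / ((n : ℝ) + 1))) /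
            ENNReal.ofReal (2 * (1 / ((n : ℝ) + 1))) ^ m) ^ k := by
            gcongr
            exact Measure.restrict_le_self
        _ = h * volume U + h⁻¹ ^ (k - 1) * b n := by
            rw [lintegral_const_mul' _ _ hc]
    refine le_trans f1 (le_trans (liminf_le_liminf (Eventually.of_forall f2)) ?_)
    have f3 : liminf (fun n => h * volume U + h⁻¹ ^ (k - 1) * b n) atTop =
        h * volume U + liminf (fun n => h⁻¹ ^ (k - 1) * b n) atTop :=
      liminf_const_add atTop (fun n => h⁻¹ ^ (k - 1) * b n) (h * volume U)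
        (by isBoundedDefault) (by isBoundedDefault)
    rw [f3, ENNReal.liminf_const_mul_of_ne_top hc]
  -- outer regularity
  by_cases hvol : volume A = ⊤
  · rw [hvol, ENNReal.mul_top h0, top_add]
    exact le_top
  · refine ENNReal.le_of_forall_pos_le_add fun ε hε _ => ?_
    have hε' : (ε : ℝ≥0∞) / h ≠ 0 := by
      rw [Ne, ENNReal.div_eq_zero_iff]
      push Not
      exact ⟨by exact_mod_cast hε.ne', h1⟩
    obtain ⟨U, hAU, hU, hlt⟩ := A.exists_isOpen_lt_add hvol hε'
    calc μ A ≤ μ U := measure_mono hAU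
      _ ≤ h * volume U + h⁻¹ ^ (k - 1) * liminf b atTop := key U hU
      _ ≤ h * (volume A + ε / h) + h⁻¹ ^ (k - 1) * liminf b atTop := by gcongr
      _ = h * volume A + h⁻¹ ^ (k - 1) * liminf b atTop + ε := by
        rw [mul_add, ENNReal.mul_div_cancel h0 h1]
        ring

end Crest.Agent.S499
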