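import Crest.Agent.S499Defs

/-!
Part 7 of S0499: expected volume of a Gaussian image of a ball.
-/

set_option autoImplicit false

open MeasureTheory ProbabilityTheory Crest.StreamLearn Metric Filter
open scoped ENNReal

namespace Crest.Agent.S499

/-- the measurement map as a linear map -/
private noncomputable def measL {d m : ℕ} (a : Fin m → E d) : E d →ₗ[ℝ] (Fin m → ℝ) :=
  LinearMap.pi fun j => (innerSL ℝ (a j)).toLinearMap

private lemma measL_apply {d m : ℕ} (a : Fin m → E d) (x : E d) : measL a x = meas a x := by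
  funext j
  simp [measL, meas]

/-- Hadamard inequality in an inner product space -/
private lemma hadamard {F : Type*} [NormedAddCommGroup F] [InnerProductSpace ℝ F] {n : ℕ}
    (b : OrthonormalBasis (Fin n) ℝ F) (v : Fin n → F) :
    |b.toBasis.det v| ≤ ∏ i, ‖v i‖ := by
  have hf : Module.finrank ℝ F = n := by
    rw [Module.finrank_eq_card_basis b.toBasis, Fintype.card_fin]
  have : Fact (Module.finrank ℝ F = n) := ⟨hf⟩
  have h := (b.toBasis.orientation).abs_volumeForm_apply_le v
  rwa [Orientation.volumeForm_robust' _ b] at h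

private lemma measL_inner_zero {d m : ℕ} (a : Fin m → E d) (x y : E d)
    (h : ∀ v ∈ Submodule.span ℝ (Set.range a), inner ℝ v x = inner ℝ v y) :
    measL a x = measL a y := by
  funext j
  rw [measL_apply, measL_apply]
  exact h _ (Submodule.subset_span ⟨j, rfl⟩)

open Pointwise in
private lemma vol_pointwise {d m : ℕ} (a : Fin m → E d) (z : E d) (ρ : ℝ) :
    volume (meas a '' closedBall z ρ) ≤
      ENNReal.ofReal (∏ j, ‖a j‖) * volume (closedBall (0 : EuclideanSpace ℝ (Fin m)) ρ) := by
  have himg : meas a '' closedBall z ρ = measL a '' closedBall z ρ := by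
    ext y
    simp [measL_apply]
  rw [himg]
  set V := Submodule.span ℝ (Set.range a) with hV
  by_cases hfr : Module.finrank ℝ V = m
  · -- orthonormal basis of V
    let b : OrthonormalBasis (Fin m) ℝ V :=
      (stdOrthonormalBasis ℝ V).reindex (finCongr hfr)
    let v : Fin m → V := fun j => ⟨a j, Submodule.subset_span ⟨j, rfl⟩⟩
    let N : Matrix (Fin m) (Fin m) ℝ := fun j i => inner ℝ (v j) (b i)
    have hN : ∀ t : EuclideanSpace ℝ (Fin m), Matrix.toLin' N (WithLp.ofLp t) =
        measL a ((b.repr.symm t : V) : E d) := by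
      intro t
      funext j
      rw [Matrix.toLin'_apply, measL_apply]
      simp only [Matrix.mulVec, dotProduct, meas, N]
      have h1 : (b.repr.symm t : V) = ∑ i, t i • b i := by
        rw [b.sum_repr_symm]
      rw [h1]
      have h2 : inner ℝ (a j) ((∑ i, t i • b i : V) : E d) = inner ℝ (v j) (∑ i, t i • b i) := rfl
      rw [h2, inner_sum]
      refine Finset.sum_congr rfl fun i _ => ?_
      rw [mul_comm]
      exact (real_inner_smul_right (v j) (b i) (t i)).symm
    have hdet : |LinearMap.det (Matrix.toLin' N)| ≤ ∏ j, ‖a j‖ := by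
      have h1 : LinearMap.det (Matrix.toLin' N) = b.toBasis.det v := by
        rw [LinearMap.det_toLin', Module.Basis.det_apply, ← Matrix.det_transpose]
        congr 1
        ext i j
        rw [Matrix.transpose_apply, Module.Basis.toMatrix_apply, OrthonormalBasis.coe_toBasis_repr_apply,
          OrthonormalBasis.repr_apply_apply]
        exact real_inner_comm _ _
      rw [h1]
      exact hadamard b v
    -- the image
    have hsub : measL a '' closedBall z ρ ⊆
        (fun y => measL a z + y) '' (Matrix.toLin' N ''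
          (WithLp.ofLp '' closedBall (0 : EuclideanSpace ℝ (Fin m)) ρ)) := by
      rintro _ ⟨x, hx, rfl⟩
      set t : EuclideanSpace ℝ (Fin m) := b.repr (V.orthogonalProjectionOnto (x - z)) with ht
      refine ⟨measL a (x - z), ⟨WithLp.ofLp t, ⟨t, ?_, rfl⟩, ?_⟩, ?_⟩
      · rw [mem_closedBall, dist_zero_right, ht, LinearIsometryEquiv.norm_map]
        refine le_trans (Submodule.norm_orthogonalProjectionOnto_apply_le V _) ?_
        rwa [mem_closedBall, dist_eq_norm] at hx
      · rw [hN, ht, LinearIsometryEquiv.symm_apply_apply]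
        refine measL_inner_zero a _ _ fun w hw => ?_
        have h3 : inner ℝ w (V.starProjection (x - z)) = inner ℝ w (x - z) := by
          rw [← sub_eq_zero, ← inner_sub_right]
          have h4 := V.sub_starProjection_mem_orthogonal (x - z)
          have h5 := (Submodule.mem_orthogonal V _).1 h4 w hw
          rw [← neg_eq_zero, ← inner_neg_right, neg_sub]
          exact h5
        exact h3
      · simp
    refine le_trans (measure_mono hsub) ?_
    rw [show (fun y => measL a z + y) '' (Matrix.toLin' N ''
          (WithLp.ofLp '' closedBall (0 : EuclideanSpace ℝ (Fin m)) ρ)) =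
        (measL a z) +ᵥ (Matrix.toLin' N ''
          (WithLp.ofLp '' closedBall (0 : EuclideanSpace ℝ (Fin m)) ρ)) from rfl,
      measure_vadd, Measure.addHaar_image_linearMap]
    have h6 : volume (WithLp.ofLp '' closedBall (0 : EuclideanSpace ℝ (Fin m)) ρ) =
        volume (closedBall (0 : EuclideanSpace ℝ (Fin m)) ρ) := by
      have h7 : WithLp.ofLp '' closedBall (0 : EuclideanSpace ℝ (Fin m)) ρ =
          (WithLp.toLp 2) ⁻¹' closedBall (0 : EuclideanSpace ℝ (Fin m)) ρ := by
        ext y
        constructor
        · rintro ⟨x, hx, rfl⟩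
          simpa using hx
        · intro hy
          exact ⟨WithLp.toLp 2 y, hy, rfl⟩
      rw [h7]
      exact (PiLp.volume_preserving_toLp (Fin m)).measure_preimage
        measurableSet_closedBall.nullMeasurableSet
    rw [h6]
    gcongr
  · -- degenerate case
    have hne : LinearMap.range (measL a) ≠ ⊤ := by
      intro htop
      apply hfr
      refine le_antisymm ?_ ?_
      · have := finrank_range_le_card (R := ℝ) a
        rw [Fintype.card_fin] at this
        exact this
      · -- surjective implies injective transpose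
        have hker : LinearMap.range (measL a) = LinearMap.range ((measL a) ∘ₗ V.subtype) := by
          apply le_antisymm
          · rintro _ ⟨x, rfl⟩
            refine ⟨V.orthogonalProjectionOnto x, ?_⟩
            refine measL_inner_zero a _ _ fun w hw => ?_
            have h4 := V.sub_starProjection_mem_orthogonal x
            have h5 := (Submodule.mem_orthogonal V _).1 h4 w hw
            have h3 : inner ℝ w (V.starProjection x) = inner ℝ w x := by
              rw [← sub_eq_zero, ← inner_sub_right, ← neg_eq_zero, ← inner_neg_right, neg_sub]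
              exact h5
            exact h3
          · rintro _ ⟨x, rfl⟩
            exact ⟨x, rfl⟩
        have h1 := LinearMap.finrank_range_le ((measL a) ∘ₗ V.subtype)
        rw [← hker, htop, finrank_top, Module.finrank_fin_fun] at h1
        exact h1
    have h1 := Measure.addHaar_submodule (volume : Measure (Fin m → ℝ)) _ hne
    have h2 : volume (measL a '' closedBall z ρ) = 0 := by
      refine measure_mono_null ?_ h1
      rintro _ ⟨x, _, rfl⟩
      exact ⟨x, rfl⟩
    rw [h2]
    exact zero_le

private lemma integrable_norm_sq_std (d : ℕ) :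
    Integrable (fun x : E d => ‖x‖ ^ 2) (stdGaussian (E d)) := by
  have h : MemLp (id : E d → E d) 2 (stdGaussian (E d)) := IsGaussian.memLp_two_id
  exact h.integrable_norm_pow (by norm_num)

private lemma integral_norm_sq_std (d : ℕ) :
    ∫ x : E d, ‖x‖ ^ 2 ∂(stdGaussian (E d)) = d := by
  have h1 : ∀ x : E d, ‖x‖ ^ 2 = ∑ i, (innerSL ℝ (EuclideanSpace.basisFun (Fin d) ℝ i) x) ^ 2 := by
    intro x
    rw [EuclideanSpace.real_norm_sq_eq]
    refine Finset.sum_congr rfl fun i _ => ?_
    simp [EuclideanSpace.inner_single_left]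
  simp only [h1]
  have h2 : ∀ i : Fin d, ∫ x : E d, (innerSL ℝ (EuclideanSpace.basisFun (Fin d) ℝ i) x) ^ 2
      ∂(stdGaussian (E d)) = 1 := by
    intro i
    have h3 := variance_dual_stdGaussian (E := E d)
      (innerSL ℝ (EuclideanSpace.basisFun (Fin d) ℝ i))
    rw [variance_of_integral_eq_zero (by fun_prop) (integral_strongDual_stdGaussian _)] at h3
    rw [h3, innerSL_apply_norm]
    simp
  rw [integral_finsetSum]
  · simp only [h2]
    simp
  · intro i _
    have h : MemLp (id : E d → E d) 2 (stdGaussian (E d)) := IsGaussian.memLp_two_id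
    have h4 := (innerSL ℝ (EuclideanSpace.basisFun (Fin d) ℝ i)).comp_memLp' h
    exact h4.integrable_sq

private lemma integral_norm_std_sq_le (d : ℕ) :
    (∫ x : E d, ‖x‖ ∂(stdGaussian (E d))) ^ 2 ≤ d := by
  rw [← integral_norm_sq_std d]
  have hi : Integrable (fun x : E d => ‖x‖) (stdGaussian (E d)) :=
    (IsGaussian.integrable_id (μ := stdGaussian (E d))).norm
  set c := ∫ x : E d, ‖x‖ ∂(stdGaussian (E d)) with hc
  have h1 : 0 ≤ ∫ x : E d, (‖x‖ - c) ^ 2 ∂(stdGaussian (E d)) :=
    integral_nonneg fun x => sq_nonneg _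
  have h2 : ∫ x : E d, (‖x‖ - c) ^ 2 ∂(stdGaussian (E d)) =
      ∫ x : E d, ‖x‖ ^ 2 ∂(stdGaussian (E d)) - 2 * c * c + c ^ 2 := by
    have h3 : ∀ x : E d, (‖x‖ - c) ^ 2 = ‖x‖ ^ 2 - 2 * c * ‖x‖ + c ^ 2 := fun x => by ring
    simp only [h3]
    rw [integral_add, integral_sub, integral_const_mul, ← hc]
    · simp
    · exact integrable_norm_sq_std d
    · exact hi.const_mul _
    · exact (integrable_norm_sq_std d).sub (hi.const_mul _)
    · exact integrable_const _
  rw [h2] at h1
  nlinarith

theorem vol_image {d p : ℕ} (z : E d) (ρ : ℝ) (hρ : 0 ≤ ρ) :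
    ∫⁻ a, volume (meas a '' closedBall z ρ) ∂(gam d (2 * p)) ≤
      ENNReal.ofReal (ρ ^ (2 * p) * Real.exp (Real.pi * d)) := by
  -- volume of the Euclidean ball
  have hball : volume (closedBall (0 : EuclideanSpace ℝ (Fin (2 * p))) ρ) =
      ENNReal.ofReal (ρ ^ (2 * p) * (Real.pi ^ p / (p.factorial : ℝ))) := by
    rcases Nat.eq_zero_or_pos p with h0 | hp
    · subst h0
      have h1 : closedBall (0 : EuclideanSpace ℝ (Fin (2 * 0))) ρ = Set.univ := by
        ext x
        simp only [mem_closedBall, Set.mem_univ, iff_true]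
        have : x = 0 := PiLp.ext fun i => absurd i.2 (by simp)
        rw [this, dist_self]
        exact hρ
      rw [h1]
      have h2 := (PiLp.volume_preserving_toLp (Fin (2 * 0))).measure_preimage
        (MeasurableSet.univ (α := EuclideanSpace ℝ (Fin (2 * 0)))).nullMeasurableSet
      rw [← h2, Set.preimage_univ]
      simp [volume_pi]
    · haveI : Nontrivial (EuclideanSpace ℝ (Fin (2 * p))) := by
        haveI : Nonempty (Fin (2 * p)) := ⟨⟨0, by omega⟩⟩
        infer_instance
      rw [InnerProductSpace.volume_closedBall_of_dim_even (k := p) (by simp) 0 ρ,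
        finrank_euclideanSpace_fin, ENNReal.ofReal_mul (by positivity), ENNReal.ofReal_pow hρ]
  -- integral of the product of norms
  have hprod : ∫⁻ a : Fin (2 * p) → E d, ENNReal.ofReal (∏ j, ‖a j‖) ∂(gam d (2 * p)) =
      ENNReal.ofReal ((∫ x : E d, ‖x‖ ∂(stdGaussian (E d))) ^ (2 * p)) := by
    have hi : Integrable (fun x : E d => ‖x‖) (stdGaussian (E d)) :=
      (IsGaussian.integrable_id (μ := stdGaussian (E d))).norm
    rw [← ofReal_integral_eq_lintegral_ofReal]
    · congr 1
      rw [integral_fintype_prod_eq_prod (𝕜 := ℝ) (fun _ (x : E d) => ‖x‖)]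
      simp
    · exact Integrable.fintype_prod (f := fun _ (x : E d) => ‖x‖) fun _ => hi
    · exact Filter.Eventually.of_forall fun a => Finset.prod_nonneg fun j _ => norm_nonneg _
  calc ∫⁻ a, volume (meas a '' closedBall z ρ) ∂(gam d (2 * p))
      ≤ ∫⁻ a : Fin (2 * p) → E d, ENNReal.ofReal (∏ j, ‖a j‖) *
          volume (closedBall (0 : EuclideanSpace ℝ (Fin (2 * p))) ρ) ∂(gam d (2 * p)) :=
        lintegral_mono fun a => vol_pointwise a z ρ
    _ = ENNReal.ofReal ((∫ x : E d, ‖x‖ ∂(stdGaussian (E d))) ^ (2 * p)) *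
          ENNReal.ofReal (ρ ^ (2 * p) * (Real.pi ^ p / (p.factorial : ℝ))) := by
        rw [lintegral_mul_const' _ _ (by rw [hball]; exact ENNReal.ofReal_ne_top), hprod, hball]
    _ ≤ ENNReal.ofReal (ρ ^ (2 * p) * Real.exp (Real.pi * d)) := by
        rw [← ENNReal.ofReal_mul (by positivity)]
        apply ENNReal.ofReal_le_ofReal
        have h1 : (∫ x : E d, ‖x‖ ∂(stdGaussian (E d))) ^ (2 * p) ≤ (d : ℝ) ^ p := by
          rw [pow_mul]
          exact pow_le_pow_left₀ (sq_nonneg _) (integral_norm_std_sq_le d) p
        have h2 : (Real.pi * d) ^ p / (p.factorial : ℝ) ≤ Real.exp (Real.pi * d) :=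
          Real.pow_div_factorial_le_exp _ (by positivity) p
        calc (∫ x : E d, ‖x‖ ∂(stdGaussian (E d))) ^ (2 * p) *
              (ρ ^ (2 * p) * (Real.pi ^ p / (p.factorial : ℝ)))
            ≤ (d : ℝ) ^ p * (ρ ^ (2 * p) * (Real.pi ^ p / (p.factorial : ℝ))) := by gcongr
          _ = ρ ^ (2 * p) * ((Real.pi * d) ^ p / (p.factorial : ℝ)) := by
              rw [mul_pow]; ring
          _ ≤ ρ ^ (2 * p) * Real.exp (Real.pi * d) := by gcongr

end Crest.Agent.S499
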