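import Crest.Agent.S499P4
import Crest.Agent.S499P5
import Crest.Agent.S499P6
import Crest.Agent.S499P7

/-!
S0499, part 8: one window of the memory-sample argument.
-/

set_option autoImplicit false

open MeasureTheory ProbabilityTheory Crest.StreamLearn Metric Filter
open scoped ENNReal

namespace Crest.Agent.S499

lemma continuous_meas {d m : ℕ} (a : Fin m → E d) : Continuous (meas a) := by
  unfold meas
  fun_prop

lemma measurable_meas {d m : ℕ} (a : Fin m → E d) : Measurable (meas a) :=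
  (continuous_meas a).measurable

lemma measurable_meas' {d m : ℕ} :
    Measurable (fun q : (Fin m → E d) × E d => meas q.1 q.2) := by
  unfold meas
  fun_prop

/-- the moment estimate -/
lemma moment {d m k α : ℕ} (hm : 1 ≤ m) (hk : 1 ≤ k) (hα : m + k + 1 ≤ α)
    (ν : Measure (E d)) [IsFiniteMeasure ν] (C : ℝ≥0∞) (hν : Frost α C ν) (z : E d) (ρ : ℝ)
    (hρ : 0 < ρ) (η : ℝ) (hη : 0 < η) :
    ∫⁻ a, (∫⁻ y : Fin m → ℝ, (((ν.restrict (closedBall z ρ)).map (meas a)) (closedBall y η) /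
        ENNReal.ofReal (2 * η) ^ m) ^ k) ∂(gam d m) ≤
      C * ENNReal.ofReal ρ ^ α * (2 ^ (k + 1) * 4 ^ α * C * ENNReal.ofReal ρ ^ (α - m)) ^ (k - 1) := by
  set B := closedBall z ρ with hB
  set ν' := ν.restrict B with hν'
  set K : ℝ≥0∞ := 2 ^ (k + 1) * 4 ^ α * C * ENNReal.ofReal ρ ^ (α - m) with hKdef
  set c : ℝ≥0∞ := ENNReal.ofReal (2 * η) with hc
  have hc0 : c ≠ 0 := by rw [hc]; simpa using hη
  have hct : c ≠ ⊤ := ENNReal.ofReal_ne_top
  have hcm0 : c ^ m ≠ 0 := pow_ne_zero _ hc0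
  have hcmt : c ^ m ≠ ⊤ := ENNReal.pow_ne_top hct
  -- the relation sets
  have hrel : MeasurableSet {q : ((Fin m → E d) × (Fin m → ℝ)) × E d |
      meas q.1.1 q.2 ∈ closedBall q.1.2 η} := by
    have : {q : ((Fin m → E d) × (Fin m → ℝ)) × E d | meas q.1.1 q.2 ∈ closedBall q.1.2 η} =
        {q | dist (meas q.1.1 q.2) q.1.2 ≤ η} := rfl
    rw [this]
    refine measurableSet_le ?_ measurable_const
    have h1 : Measurable fun q : ((Fin m → E d) × (Fin m → ℝ)) × E d => meas q.1.1 q.2 := by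
      unfold meas; fun_prop
    exact h1.dist (by fun_prop)
  have hrel2 : MeasurableSet {q : ((Fin m → E d) × E d) × E d |
      ∀ i, |inner ℝ (q.1.1 i) (q.2 - q.1.2)| ≤ 2 * η} := by
    have : {q : ((Fin m → E d) × E d) × E d |
      ∀ i, |inner ℝ (q.1.1 i) (q.2 - q.1.2)| ≤ 2 * η} =
        ⋂ i, {q : ((Fin m → E d) × E d) × E d | |inner ℝ (q.1.1 i) (q.2 - q.1.2)| ≤ 2 * η} := by
      ext q; simp
    rw [this]
    refine MeasurableSet.iInter fun i => measurableSet_le ?_ measurable_const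
    fun_prop
  set G : (Fin m → E d) → E d → ℝ≥0∞ := fun a x0 =>
    (ν' {x | ∀ i, |inner ℝ (a i) (x - x0)| ≤ 2 * η}) ^ (k - 1) with hG
  have hGm : Measurable (Function.uncurry G) :=
    (measurable_measure_prodMk_left (ν := ν') hrel2).pow_const _
  have hmeas : ∀ a : Fin m → E d, Measurable (meas a) := measurable_meas
  -- pointwise bound
  have hpt : ∀ a : Fin m → E d, ∫⁻ y : Fin m → ℝ, ((ν'.map (meas a)) (closedBall y η) /
        c ^ m) ^ k ≤ ((c ^ m)⁻¹) ^ k * (c ^ m * ∫⁻ x0, G a x0 ∂ν') := by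
    intro a
    have hSm : ∀ y, MeasurableSet {x | meas a x ∈ closedBall y η} := fun y =>
      (hmeas a) measurableSet_closedBall
    have h1 : ∀ y, (ν'.map (meas a)) (closedBall y η) = ν' {x | meas a x ∈ closedBall y η} := by
      intro y
      rw [Measure.map_apply (hmeas a) measurableSet_closedBall]
      rfl
    have hΦm : Measurable fun y : Fin m → ℝ => ν' {x | meas a x ∈ closedBall y η} := by
      have h2 : MeasurableSet {q : (Fin m → ℝ) × E d | meas a q.2 ∈ closedBall q.1 η} := by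
        have h3 : Measurable fun q : (Fin m → ℝ) × E d => ((a, q.1), q.2) := by fun_prop
        exact h3 hrel
      exact measurable_measure_prodMk_left h2
    have h2 : ∀ y, ((ν'.map (meas a)) (closedBall y η) / c ^ m) ^ k =
        ((c ^ m)⁻¹) ^ k * (ν' {x | meas a x ∈ closedBall y η}) ^ k := by
      intro y
      rw [h1, div_eq_mul_inv, mul_pow, mul_comm]
    simp only [h2]
    rw [lintegral_const_mul _ (hΦm.pow_const _)]
    gcongr
    -- expand one factor
    have h3 : ∀ y, (ν' {x | meas a x ∈ closedBall y η}) ^ k ≤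
        ∫⁻ x0, {x | meas a x ∈ closedBall y η}.indicator 1 x0 * G a x0 ∂ν' := by
      intro y
      have h4 : (ν' {x | meas a x ∈ closedBall y η}) ^ k =
          ∫⁻ x0, {x | meas a x ∈ closedBall y η}.indicator 1 x0 *
            (ν' {x | meas a x ∈ closedBall y η}) ^ (k - 1) ∂ν' := by
        rw [lintegral_mul_const _ (measurable_one.indicator (hSm y)),
          lintegral_indicator_one (hSm y), ← pow_succ', Nat.sub_add_cancel hk]
      rw [h4]
      refine lintegral_mono fun x0 => ?_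
      by_cases hx0 : x0 ∈ {x | meas a x ∈ closedBall y η}
      · refine mul_le_mul_right ?_ _
        refine pow_le_pow_left₀ (by positivity) (measure_mono ?_) _
        intro x hx i
        have h5 : dist (meas a x) (meas a x0) ≤ 2 * η := by
          have h6 : dist (meas a x) y ≤ η := hx
          have h7 : dist (meas a x0) y ≤ η := hx0
          have h8 := dist_triangle_right (meas a x) (meas a x0) y
          linarith
        have h6 := (dist_le_pi_dist (meas a x) (meas a x0) i).trans h5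
        rw [Real.dist_eq] at h6
        rw [inner_sub_right]
        exact h6
      · rw [Set.indicator_of_notMem hx0]
        simp
    refine (lintegral_mono h3).trans ?_
    have hind : Measurable (fun q : (Fin m → ℝ) × E d =>
        {x | meas a x ∈ closedBall q.1 η}.indicator (1 : E d → ℝ≥0∞) q.2) := by
      have h2 : MeasurableSet {q : (Fin m → ℝ) × E d | meas a q.2 ∈ closedBall q.1 η} := by
        have h3 : Measurable fun q : (Fin m → ℝ) × E d => ((a, q.1), q.2) := by fun_prop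
        exact h3 hrel
      have h9 : Measurable ({q : (Fin m → ℝ) × E d | meas a q.2 ∈ closedBall q.1 η}.indicator
          (1 : (Fin m → ℝ) × E d → ℝ≥0∞)) := measurable_one.indicator h2
      have h8 : (fun q : (Fin m → ℝ) × E d =>
        {x | meas a x ∈ closedBall q.1 η}.indicator (1 : E d → ℝ≥0∞) q.2) =
          {q : (Fin m → ℝ) × E d | meas a q.2 ∈ closedBall q.1 η}.indicator 1 := by
        funext q
        by_cases hq : q ∈ {q : (Fin m → ℝ) × E d | meas a q.2 ∈ closedBall q.1 η}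
        · rw [Set.indicator_of_mem hq, Set.indicator_of_mem (by exact hq)]
          rfl
        · rw [Set.indicator_of_notMem hq, Set.indicator_of_notMem (by exact hq)]
      rw [h8]
      exact h9
    rw [lintegral_lintegral_swap]
    · have hGa : Measurable (G a) := hGm.of_uncurry_left
      rw [← lintegral_const_mul _ hGa]
      refine lintegral_mono fun x0 => ?_
      have h11 : (fun y : Fin m → ℝ =>
          {x | meas a x ∈ closedBall y η}.indicator (1 : E d → ℝ≥0∞) x0) =
          (closedBall (meas a x0) η).indicator 1 := by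
        funext y
        by_cases hq : y ∈ closedBall (meas a x0) η
        · rw [Set.indicator_of_mem hq, Set.indicator_of_mem (by
            rw [Set.mem_ofPred_eq, mem_closedBall_comm]; exact hq)]
          rfl
        · rw [Set.indicator_of_notMem hq, Set.indicator_of_notMem (by
            rw [Set.mem_ofPred_eq, mem_closedBall_comm]; exact hq)]
      have h10 : Measurable fun y : Fin m → ℝ =>
          {x | meas a x ∈ closedBall y η}.indicator (1 : E d → ℝ≥0∞) x0 := by
        rw [h11]; exact measurable_one.indicator measurableSet_closedBall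
      rw [lintegral_mul_const _ h10]
      gcongr
      rw [h11, lintegral_indicator_one measurableSet_closedBall, Real.volume_pi_closedBall _ hη.le,
        Fintype.card_fin, ENNReal.ofReal_pow (by positivity)]
    · refine AEMeasurable.mul hind.aemeasurable ?_
      exact ((hGm.of_uncurry_left (x := a)).comp measurable_snd).aemeasurable
  refine (lintegral_mono hpt).trans ?_
  have hGint : Measurable fun a => ∫⁻ x0, G a x0 ∂ν' := hGm.lintegral_prod_right'
  rw [lintegral_const_mul _ (hGint.const_mul _), lintegral_const_mul _ hGint,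
    lintegral_lintegral_swap hGm.aemeasurable]
  -- bound for fixed `x0`
  have hx0 : ∀ x0 ∈ B, ∫⁻ a, G a x0 ∂(gam d m) ≤ (c ^ m * K) ^ (k - 1) := by
    intro x0 hx0
    have h1 := gram_rec (m := m) (k := k) ν' x0 (2 * η) (by positivity) K (fun V hV => by
      rw [hν']
      exact dist_integral hm hα ν C hν V hV z x0 ρ hρ hx0) (k - 1) ⊥ (by simp; omega)
      Set.univ MeasurableSet.univ (by intro g h _; simp)
    simp only [Set.mem_univ, implies_true, Set.ofPred_true, Measure.restrict_univ, measure_univ,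
      one_pow, one_mul] at h1
    exact h1
  have h2 : ∫⁻ x0, ∫⁻ a, G a x0 ∂(gam d m) ∂ν' ≤ (c ^ m * K) ^ (k - 1) * (C * ENNReal.ofReal ρ ^ α) := by
    refine (setLIntegral_mono' measurableSet_closedBall hx0).trans ?_
    rw [lintegral_const, Measure.restrict_apply_univ]
    gcongr
    exact hν z ρ hρ
  calc ((c ^ m)⁻¹) ^ k * (c ^ m * ∫⁻ x0, ∫⁻ a, G a x0 ∂(gam d m) ∂ν')
      ≤ ((c ^ m)⁻¹) ^ k * (c ^ m * ((c ^ m * K) ^ (k - 1) * (C * ENNReal.ofReal ρ ^ α))) := by
        gcongr
    _ = ((c ^ m)⁻¹) ^ k * (c ^ m) ^ k * (C * ENNReal.ofReal ρ ^ α * K ^ (k - 1)) := by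
        obtain ⟨k', rfl⟩ : ∃ k', k = k' + 1 := ⟨k - 1, by omega⟩
        simp only [Nat.add_sub_cancel]
        ring
    _ = C * ENNReal.ofReal ρ ^ α * K ^ (k - 1) := by
        rw [← mul_pow, ENNReal.inv_mul_cancel hcm0 hcmt, one_pow, one_mul]

lemma one_step_aux {d m k α : ℕ} (hm1 : 1 ≤ m) (hk : 1 ≤ k) (hα : m + k + 1 ≤ α) {ι : Type}
    (W : Finset ι) (H : ℝ≥0∞) (hH : (W.card : ℝ≥0∞) ≤ H ^ k) (hH1 : 1 ≤ H) (hHt : H ≠ ⊤)
    (f : (Fin m → E d) → (Fin m → ℝ) → ι)
    (hfm : ∀ w ∈ W, MeasurableSet {q : (Fin m → E d) × (Fin m → ℝ) | f q.1 q.2 = w})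
    (ν : ι → Measure (E d)) [∀ w, IsFiniteMeasure (ν w)] (C : ℝ≥0∞) (hC0 : C ≠ 0) (hC : C ≠ ⊤)
    (hν : ∀ w ∈ W, Frost α C (ν w)) (z : E d) (ρ : ℝ) (hρ : 0 < ρ)
    (hvol : ∫⁻ a, volume (meas a '' closedBall z ρ) ∂(gam d m) ≤
      ENNReal.ofReal (ρ ^ m * Real.exp (Real.pi * d))) :
    ∫⁻ a, ∑ w ∈ W, ν w (closedBall z ρ ∩ {x | f a (meas a x) = w}) ∂(gam d m) ≤
      (2 ^ (k + 1) * 4 ^ α * ENNReal.ofReal (Real.exp (Real.pi * d)) + 1) * H * C *
        ENNReal.ofReal ρ ^ α := by
  classical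
  set B := closedBall z ρ with hB
  set K : ℝ≥0∞ := 2 ^ (k + 1) * 4 ^ α * C * ENNReal.ofReal ρ ^ (α - m) with hKdef
  have hρ0 : ENNReal.ofReal ρ ≠ 0 := by simpa using hρ
  have hρt : ENNReal.ofReal ρ ≠ ⊤ := ENNReal.ofReal_ne_top
  have hK0 : K ≠ 0 := by
    refine mul_ne_zero (mul_ne_zero (mul_ne_zero ?_ ?_) hC0) (pow_ne_zero _ hρ0) <;>
      exact pow_ne_zero _ (by norm_num)
  have hKt : K ≠ ⊤ := by
    refine ENNReal.mul_ne_top (ENNReal.mul_ne_top (ENNReal.mul_ne_top ?_ ?_) hC)
      (ENNReal.pow_ne_top hρt) <;>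
      exact ENNReal.pow_ne_top (by norm_num)
  have hH0 : H ≠ 0 := by
    intro h
    rw [h] at hH1
    simp at hH1
  have hHK0 : H * K ≠ 0 := mul_ne_zero hH0 hK0
  have hHKt : H * K ≠ ⊤ := ENNReal.mul_ne_top hHt hKt
  -- the moments
  set η : ℕ → ℝ := fun n => 1 / ((n : ℝ) + 1) with hη
  have hη0 : ∀ n, 0 < η n := fun n => by rw [hη]; positivity
  set J : ι → ℕ → (Fin m → E d) → ℝ≥0∞ := fun w n a =>
    ∫⁻ y : Fin m → ℝ, ((((ν w).restrict B).map (meas a)) (closedBall y (η n)) /
        ENNReal.ofReal (2 * η n) ^ m) ^ k with hJ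
  have hJm : ∀ w n, Measurable (J w n) := by
    intro w n
    have hrel : MeasurableSet {q : ((Fin m → E d) × (Fin m → ℝ)) × E d |
        meas q.1.1 q.2 ∈ closedBall q.1.2 (η n)} := by
      have : {q : ((Fin m → E d) × (Fin m → ℝ)) × E d | meas q.1.1 q.2 ∈ closedBall q.1.2 (η n)} =
          {q | dist (meas q.1.1 q.2) q.1.2 ≤ η n} := rfl
      rw [this]
      refine measurableSet_le ?_ measurable_const
      have h1 : Measurable fun q : ((Fin m → E d) × (Fin m → ℝ)) × E d => meas q.1.1 q.2 := by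
        unfold meas; fun_prop
      exact h1.dist (by fun_prop)
    have h1 : Measurable fun q : (Fin m → E d) × (Fin m → ℝ) =>
        ((((ν w).restrict B).map (meas q.1)) (closedBall q.2 (η n)) /
        ENNReal.ofReal (2 * η n) ^ m) ^ k := by
      refine Measurable.pow_const ?_ _
      refine Measurable.div_const ?_ _
      have h2 : (fun q : (Fin m → E d) × (Fin m → ℝ) =>
          (((ν w).restrict B).map (meas q.1)) (closedBall q.2 (η n))) =
          fun q => ((ν w).restrict B) {x | meas q.1 x ∈ closedBall q.2 (η n)} := by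
        funext q
        rw [Measure.map_apply (measurable_meas _) measurableSet_closedBall]
        rfl
      rw [h2]
      exact measurable_measure_prodMk_left hrel
    exact h1.lintegral_prod_right'
  have hJint : ∀ w ∈ W, ∀ n, ∫⁻ a, J w n a ∂(gam d m) ≤ C * ENNReal.ofReal ρ ^ α * K ^ (k - 1) :=
    fun w hw n => moment hm1 hk hα (ν w) C (hν w hw) z ρ hρ (η n) (hη0 n)
  -- the pointwise bound
  have hpt : ∀ a, ∑ w ∈ W, ν w (B ∩ {x | f a (meas a x) = w}) ≤
      (H * K) * volume (meas a '' B) + (H * K)⁻¹ ^ (k - 1) * ∑ w ∈ W, liminf (fun n => J w n a) atTop := by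
    intro a
    have hcomp : IsCompact (meas a '' B) :=
      (isCompact_closedBall z ρ).image (continuous_meas a)
    have hTm : MeasurableSet (meas a '' B) := hcomp.isClosed.measurableSet
    set A : ι → Set (Fin m → ℝ) := fun w => {y | f a y = w} ∩ (meas a '' B) with hA
    have hAm : ∀ w ∈ W, MeasurableSet (A w) := fun w hw =>
      (((measurable_prodMk_left (x := a)) (hfm w hw))).inter hTm
    have h1 : ∀ w ∈ W, ν w (B ∩ {x | f a (meas a x) = w}) ≤
        (H * K) * volume (A w) + (H * K)⁻¹ ^ (k - 1) * liminf (fun n => J w n a) atTop := by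
      intro w hw
      have h2 : ν w (B ∩ {x | f a (meas a x) = w}) = (((ν w).restrict B).map (meas a)) (A w) := by
        rw [Measure.map_apply (measurable_meas _) (hAm w hw),
          Measure.restrict_apply ((measurable_meas _) (hAm w hw))]
        congr 1
        ext x
        constructor
        · rintro ⟨hx1, hx2⟩
          exact ⟨⟨hx2, x, hx1, rfl⟩, hx1⟩
        · rintro ⟨⟨hx2, _⟩, hx1⟩
          exact ⟨hx1, hx2⟩
      rw [h2]
      exact trunc_bound hk _ (A w) (hAm w hw) (H * K) hHK0 hHKt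
    refine (Finset.sum_le_sum h1).trans ?_
    rw [Finset.sum_add_distrib, ← Finset.mul_sum, ← Finset.mul_sum]
    gcongr
    rw [← measure_biUnion_finset]
    · refine measure_mono ?_
      intro y hy
      simp only [Set.mem_iUnion] at hy
      obtain ⟨w, _, hy⟩ := hy
      exact hy.2
    · intro w _ w' _ hne
      refine Set.disjoint_left.mpr ?_
      rintro y ⟨hy1, _⟩ ⟨hy2, _⟩
      exact hne (hy1.symm.trans hy2)
    · exact hAm
  refine (lintegral_mono hpt).trans ?_
  have hLm : ∀ w, Measurable fun a => liminf (fun n => J w n a) atTop := fun w =>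
    Measurable.liminf (hJm w)
  rw [lintegral_add_right _ ((Finset.measurable_fun_sum W fun w _ => hLm w).const_mul _)]
  rw [lintegral_const_mul _ (Finset.measurable_fun_sum W fun w _ => hLm w),
    lintegral_finsetSum W fun w _ => hLm w]
  have h3 : ∀ w ∈ W, ∫⁻ a, liminf (fun n => J w n a) atTop ∂(gam d m) ≤
      C * ENNReal.ofReal ρ ^ α * K ^ (k - 1) := by
    intro w hw
    refine (lintegral_liminf_le (hJm w)).trans ?_
    refine (liminf_le_liminf (Eventually.of_forall (hJint w hw))).trans ?_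
    simp
  have h4 : ∫⁻ a, (H * K) * volume (meas a '' B) ∂(gam d m) ≤
      2 ^ (k + 1) * 4 ^ α * ENNReal.ofReal (Real.exp (Real.pi * d)) * H * C * ENNReal.ofReal ρ ^ α := by
    rw [lintegral_const_mul' _ _ hHKt]
    refine (mul_le_mul_right hvol _).trans ?_
    rw [ENNReal.ofReal_mul (by positivity), ENNReal.ofReal_pow hρ.le]
    have h5 : ENNReal.ofReal ρ ^ α = ENNReal.ofReal ρ ^ (α - m) * ENNReal.ofReal ρ ^ m := by
      rw [← pow_add]; congr 1; omega
    rw [h5, hKdef]
    apply le_of_eq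
    ring
  have h6 : (H * K)⁻¹ ^ (k - 1) * ∑ w ∈ W, ∫⁻ a, liminf (fun n => J w n a) atTop ∂(gam d m) ≤
      H * C * ENNReal.ofReal ρ ^ α := by
    calc (H * K)⁻¹ ^ (k - 1) * ∑ w ∈ W, ∫⁻ a, liminf (fun n => J w n a) atTop ∂(gam d m)
        ≤ (H * K)⁻¹ ^ (k - 1) * ∑ w ∈ W, C * ENNReal.ofReal ρ ^ α * K ^ (k - 1) := by
          gcongr with w hw
          exact h3 w hw
      _ = (H * K)⁻¹ ^ (k - 1) * ((W.card : ℝ≥0∞) * (C * ENNReal.ofReal ρ ^ α * K ^ (k - 1))) := by
          rw [Finset.sum_const, nsmul_eq_mul]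
      _ ≤ (H * K)⁻¹ ^ (k - 1) * (H ^ k * (C * ENNReal.ofReal ρ ^ α * K ^ (k - 1))) := by
          gcongr
      _ = ((H * K)⁻¹ ^ (k - 1) * (H * K) ^ (k - 1)) * (H * C * ENNReal.ofReal ρ ^ α) := by
          obtain ⟨k', rfl⟩ : ∃ k', k = k' + 1 := ⟨k - 1, by omega⟩
          simp only [Nat.add_sub_cancel]
          ring
      _ = H * C * ENNReal.ofReal ρ ^ α := by
          rw [← mul_pow, ENNReal.inv_mul_cancel hHK0 hHKt, one_pow, one_mul]
  calc _ ≤ 2 ^ (k + 1) * 4 ^ α * ENNReal.ofReal (Real.exp (Real.pi * d)) * H * C *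
        ENNReal.ofReal ρ ^ α + H * C * ENNReal.ofReal ρ ^ α := add_le_add h4 h6
    _ = _ := by ring

/-- PART 8 (one window) -/
theorem one_step {d p k α : ℕ} (hp : 1 ≤ p) (hk : 1 ≤ k) (hα : 2 * p + k + 1 ≤ α) {ι : Type}
    (W : Finset ι) (H : ℝ≥0∞) (hH : (W.card : ℝ≥0∞) ≤ H ^ k) (hH1 : 1 ≤ H) (hHt : H ≠ ⊤)
    (f : (Fin (2 * p) → E d) → (Fin (2 * p) → ℝ) → ι)
    (hfm : ∀ w ∈ W, MeasurableSet {q : (Fin (2 * p) → E d) × (Fin (2 * p) → ℝ) | f q.1 q.2 = w})
    (ν : ι → Measure (E d)) [∀ w, IsFiniteMeasure (ν w)] (C : ℝ≥0∞) (hC0 : C ≠ 0) (hC : C ≠ ⊤)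
    (hν : ∀ w ∈ W, Frost α C (ν w)) (z : E d) (ρ : ℝ) (hρ : 0 < ρ) :
    ∫⁻ a, ∑ w ∈ W, ν w (closedBall z ρ ∩ {x | f a (meas a x) = w}) ∂(gam d (2 * p)) ≤
      (2 ^ (k + 1) * 4 ^ α * ENNReal.ofReal (Real.exp (Real.pi * d)) + 1) * H * C *
        ENNReal.ofReal ρ ^ α :=
  one_step_aux (by omega) hk hα W H hH hH1 hHt f hfm ν C hC0 hC hν z ρ hρ (vol_image z ρ hρ.le)

end Crest.Agent.S499
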