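import Crest.Agent.SCClass

/-!
The bound for the defects, class by class.
-/

set_option autoImplicit false
set_option linter.unusedSectionVars false
set_option linter.unusedVariables false

namespace Crest.Agent.SC

open Finset

/-- the Johnson pair inequality -/
def JPair (C : Type) [DecidableEq C] : Prop :=
  ∀ (D : Finset C) (k : ℕ), 1 ≤ k → k + 1 ≤ D.card → ∀ f : Finset C → ℝ,
    ∑ A ∈ D.powersetCard k, f A = 0 →
    ∑ x ∈ D, ∑ y ∈ D.erase x,
      (∑ A ∈ (D.powersetCard k).filter (fun A => (x ∈ A ∧ y ∉ A) ∨ (x ∉ A ∧ y ∈ A)), f A) ^ 2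
        / (2 * ((D.card - 2).choose (k - 1) : ℝ)) ≤
    2 * ∑ A ∈ D.powersetCard k, f A ^ 2 +
      (1 - 2 / (D.card : ℝ)) * (1 / 2) *
        ∑ A ∈ D.powersetCard k, ∑ x ∈ A, ∑ y ∈ D \ A, (f A - f (insert y (A.erase x))) ^ 2

theorem sum_le_of_cls {α : Type*} [Fintype α] (r : α → α → Prop) [DecidableRel r]
    (hr : Equivalence r) (X Y : α → ℝ)
    (h : ∀ x, ∑ y ∈ cls r x, X y ≤ ∑ y ∈ cls r x, Y y) : ∑ x, X x ≤ ∑ x, Y x := by
  rw [← sum_avg r hr X, ← sum_avg r hr Y]
  refine sum_le_sum (fun x _ => ?_)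
  rw [avg_def, avg_def]
  have hp : (0 : ℝ) < ((cls r x).card : ℝ) := by exact_mod_cast cls_card_pos r hr x
  exact div_le_div_of_nonneg_right (h x) hp.le

variable {V : Type} [Fintype V] [DecidableEq V]

theorem mem_DD {u w : V} {G : Gr V} {z : V} :
    z ∈ DD u w G ↔ (z ≠ u ∧ z ≠ w) ∧ G s(u, z) ≠ G s(w, z) := by
  simp [DD, cols]

theorem D4_of_DD {u w p q : V} {G : Gr V} (huw : u ≠ w) (hp : p ∈ DD u w G)
    (hq : q ∈ DD u w G) (hpq : p ≠ q) : D4 u w p q := by
  rw [mem_DD] at hp hq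
  exact ⟨huw, hp.1.1.symm, hq.1.1.symm, hp.1.2.symm, hq.1.2.symm, hpq⟩

/-- the class of `rU` at an alternating state -/
theorem rU_Alt_iff {u w p q : V} (hD : D4 u w p q) {H G' : Gr V} (hA : Alt u w p q H) :
    rU u w p q H G' ↔ Tr u w H G' ∧ Alt u w p q G' := by
  unfold rU
  refine and_congr_right (fun hT => ?_)
  have c1 := hT.2.1 p hD.2.1.symm hD.2.2.2.1.symm
  have c2 := hT.2.1 q hD.2.2.1.symm hD.2.2.2.2.1.symm
  have key : ∀ a b c d a' b' c' d' : Bool, (a ≠ b ∧ c ≠ d ∧ a ≠ c) →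
      a.toNat + b.toNat = a'.toNat + b'.toNat → c.toNat + d.toNat = c'.toNat + d'.toNat →
      (a.toNat + c.toNat = a'.toNat + c'.toNat ↔ (a' ≠ b' ∧ c' ≠ d' ∧ a' ≠ c')) := by
    decide
  exact key _ _ _ _ _ _ _ _ hA c1 c2

theorem sum_rU_psi {u w p q : V} (huw : u ≠ w) {G H : Gr V} (hp : p ∈ DD u w G)
    (hq : q ∈ DD u w G) (hpq : p ≠ q) (hH : Tr u w G H) (hA : Alt u w p q H) (F : Gr V → ℝ) :
    ∑ G' ∈ cls (rU u w p q) H, F G' =
      ∑ B ∈ EE (DD u w G) (AA u (DD u w G) G).card p q, F (psi u w (DD u w G) G B) := by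
  have hD := D4_of_DD huw hp hq hpq
  have e1 : ∑ G' ∈ cls (rU u w p q) H, F G' =
      ∑ G' ∈ cls (Tr u w) G, if Alt u w p q G' then F G' else 0 := by
    rw [← sum_filter]
    refine sum_congr ?_ (fun _ _ => rfl)
    ext G'
    rw [mem_cls, mem_filter, mem_cls, rU_Alt_iff hD hA]
    constructor
    · rintro ⟨h1, h2⟩
      exact ⟨(Tr_equiv u w).trans hH h1, h2⟩
    · rintro ⟨h1, h2⟩
      exact ⟨(Tr_equiv u w).trans ((Tr_equiv u w).symm hH) h1, h2⟩
  rw [e1, sum_cls_psi huw G, EE, sum_filter]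
  refine sum_congr rfl (fun B hB => ?_)
  have := Alt_psi huw G B hp hq
  by_cases h : Alt u w p q (psi u w (DD u w G) G B)
  · rw [if_pos h, if_pos (this.mp h)]
  · rw [if_neg h, if_neg (fun h' => h (this.mpr h'))]

theorem cls_bound (J : JPair V) {u w : V} (huw : u ≠ w) (f : Gr V → ℝ) (G : Gr V) :
    ∑ G' ∈ cls (Tr u w) G, (∑ p, ∑ q, if D4 u w p q then
      (if Alt u w p q G' then (avg (rU u w p q) f G' - avg (Tr u w) f G') ^ 2 else 0) else 0) ≤
    ∑ G' ∈ cls (Tr u w) G, (2 * (f G' - avg (Tr u w) f G') ^ 2 +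
      (1 - 2 / (Fintype.card V : ℝ)) * (1 / 4) *
        ∑ p, ∑ q, if D4 u w p q then (f G' - f (sw u w p q G')) ^ 2 else 0) := by
  classical
  set D := DD u w G with hDdef
  set k := (AA u D G).card with hk
  set P := D.powersetCard k with hP
  set ψ := psi u w D G with hψ
  set m := avg (Tr u w) f G with hm
  set h : Finset V → ℝ := fun B => f (ψ B) - m with hh
  rw [sum_cls_psi huw G, sum_cls_psi huw G]
  -- basic facts
  have hTr : ∀ B ∈ P, Tr u w G (ψ B) := by
    intro B hB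
    rw [hP, mem_powersetCard] at hB
    exact Tr_psi huw G hB.1 hB.2
  have havg : ∀ B ∈ P, avg (Tr u w) f (ψ B) = m := by
    intro B hB
    exact (avg_congr _ (Tr_equiv u w) f (hTr B hB)).symm
  have hPne : (P.card : ℝ) ≠ 0 := by
    have := card_cls_psi huw G
    rw [← hDdef, ← hk, ← hP] at this
    rw [← this]; exact cls_card_ne _ (Tr_equiv u w) G
  have hsum0 : ∑ B ∈ P, h B = 0 := by
    have e1 : m * (P.card : ℝ) = ∑ B ∈ P, f (ψ B) := by
      rw [hm, avg_def, sum_cls_psi huw G, card_cls_psi huw G]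
      exact div_mul_cancel₀ _ hPne
    simp only [hh, sum_sub_distrib, sum_const, nsmul_eq_mul]
    rw [← e1]; ring
  -- the averages at alternating states
  have hU : ∀ B ∈ P, ∀ p q, p ∈ D → q ∈ D → p ≠ q → Alt u w p q (ψ B) →
      avg (rU u w p q) f (ψ B) - m = (∑ B' ∈ EE D k p q, h B') / ((EE D k p q).card : ℝ) := by
    intro B hB p q hp hq hpq hA
    have e1 := sum_rU_psi huw hp hq hpq (hTr B hB) hA f
    have e2 := sum_rU_psi huw hp hq hpq (hTr B hB) hA (fun _ => 1)
    simp only [sum_const, nsmul_eq_mul, mul_one] at e2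
    have hne : ((EE D k p q).card : ℝ) ≠ 0 := by
      rw [← e2]; exact cls_card_ne _ (rU_equiv _ _ _ _) _
    rw [avg_def, e1, e2]
    change (∑ B ∈ EE D k p q, f (ψ B)) / ((EE D k p q).card : ℝ) - m = _
    simp only [hh, sum_sub_distrib, sum_const, nsmul_eq_mul]
    field_simp
  -- left-hand side
  have hL : ∑ B ∈ P, (∑ p, ∑ q, if D4 u w p q then
      (if Alt u w p q (ψ B) then (avg (rU u w p q) f (ψ B) - avg (Tr u w) f (ψ B)) ^ 2 else 0)
        else 0) = ∑ p ∈ D, ∑ q ∈ D.erase p,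
          (∑ B ∈ EE D k p q, h B) ^ 2 / ((EE D k p q).card : ℝ) := by
    rw [sum_comm]
    have e0 : ∀ p, ∑ B ∈ P, (∑ q, if D4 u w p q then
      (if Alt u w p q (ψ B) then (avg (rU u w p q) f (ψ B) - avg (Tr u w) f (ψ B)) ^ 2 else 0)
        else 0) = if p ∈ D then ∑ q ∈ D.erase p,
          (∑ B ∈ EE D k p q, h B) ^ 2 / ((EE D k p q).card : ℝ) else 0 := by
      intro p
      rw [sum_comm]
      by_cases hp : p ∈ D
      · rw [if_pos hp]
        have e1 : ∀ q, ∑ B ∈ P, (if D4 u w p q then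
          (if Alt u w p q (ψ B) then (avg (rU u w p q) f (ψ B) - avg (Tr u w) f (ψ B)) ^ 2 else 0)
          else 0) = if q ∈ D.erase p then
            (∑ B ∈ EE D k p q, h B) ^ 2 / ((EE D k p q).card : ℝ) else 0 := by
          intro q
          by_cases hq : q ∈ D.erase p
          · rw [if_pos hq]
            rw [mem_erase] at hq
            have hD4 := D4_of_DD huw hp hq.2 hq.1.symm
            have e2 : ∀ B ∈ P, (if D4 u w p q then
              (if Alt u w p q (ψ B) then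
                (avg (rU u w p q) f (ψ B) - avg (Tr u w) f (ψ B)) ^ 2 else 0) else 0) =
                if ((p ∈ B ∧ q ∉ B) ∨ (p ∉ B ∧ q ∈ B)) then
                  ((∑ B' ∈ EE D k p q, h B') / ((EE D k p q).card : ℝ)) ^ 2 else 0 := by
              intro B hB
              rw [if_pos hD4]
              by_cases hA : Alt u w p q (ψ B)
              · rw [if_pos hA, if_pos ((Alt_psi huw G B hp hq.2).mp hA), havg B hB,
                  hU B hB p q hp hq.2 hq.1.symm hA]
              · rw [if_neg hA, if_neg (fun h' => hA ((Alt_psi huw G B hp hq.2).mpr h'))]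
            rw [sum_congr rfl e2, ← sum_filter, sum_const, nsmul_eq_mul]
            change ((EE D k p q).card : ℝ) * _ = _
            by_cases hz : ((EE D k p q).card : ℝ) = 0
            · rw [hz]; simp
            · field_simp
          · rw [if_neg hq]
            refine sum_eq_zero (fun B hB => ?_)
            by_cases hD4 : D4 u w p q
            · rw [if_pos hD4, if_neg]
              refine not_Alt_of (hTr B hB) hD4 (fun hh => hq ?_)
              rw [mem_erase]
              exact ⟨hD4.2.2.2.2.2.symm, hh.2⟩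
            · rw [if_neg hD4]
        rw [sum_congr rfl (fun q _ => e1 q), ← sum_filter]
        refine sum_congr ?_ (fun _ _ => rfl)
        ext q; simp
      · rw [if_neg hp]
        refine sum_eq_zero (fun q _ => sum_eq_zero (fun B hB => ?_))
        by_cases hD4 : D4 u w p q
        · rw [if_pos hD4, if_neg]
          exact not_Alt_of (hTr B hB) hD4 (fun hh => hp hh.1)
        · rw [if_neg hD4]
    rw [sum_congr rfl (fun p _ => e0 p), ← sum_filter]
    refine sum_congr ?_ (fun _ _ => rfl)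
    ext q; simp
  -- energy
  have hE : ∀ B ∈ P, (∑ p, ∑ q, if D4 u w p q then (f (ψ B) - f (sw u w p q (ψ B))) ^ 2 else 0) =
      2 * ∑ x ∈ B, ∑ y ∈ D \ B, (h B - h (insert y (B.erase x))) ^ 2 := by
    intro B hB
    have hBP := hB
    rw [hP, mem_powersetCard] at hB
    have e1 : ∀ p q, (if D4 u w p q then (f (ψ B) - f (sw u w p q (ψ B))) ^ 2 else 0) =
        (if p ∈ B ∧ q ∈ D \ B then (h B - h (insert q (B.erase p))) ^ 2 else 0) +
        (if q ∈ B ∧ p ∈ D \ B then (h B - h (insert p (B.erase q))) ^ 2 else 0) := by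
      intro p q
      by_cases h1 : p ∈ B ∧ q ∈ D \ B
      · have hq := mem_sdiff.mp h1.2
        have hpq : p ≠ q := fun h => hq.2 (h ▸ h1.1)
        have hD4 := D4_of_DD huw (hB.1 h1.1) hq.1 hpq
        rw [if_pos hD4, if_pos h1, if_neg (fun h2 => hq.2 h2.1), add_zero]
        rw [hψ, sw_psi huw G hB.1 h1.1 hq.1 hq.2]
        simp only [hh]; ring
      · rw [if_neg h1, zero_add]
        by_cases h2 : q ∈ B ∧ p ∈ D \ B
        · have hp := mem_sdiff.mp h2.2
          have hpq : p ≠ q := fun h => hp.2 (h ▸ h2.1)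
          have hD4 := D4_of_DD huw hp.1 (hB.1 h2.1) hpq
          rw [if_pos hD4, if_pos h2]
          rw [hψ, ← sw_cols, sw_psi huw G hB.1 h2.1 hp.1 hp.2]
          simp only [hh]; ring
        · rw [if_neg h2]
          by_cases hD4 : D4 u w p q
          · rw [if_pos hD4]
            have hnA : ¬ Alt u w p q (ψ B) := by
              by_cases hpq : p ∈ D ∧ q ∈ D
              · rw [hψ, Alt_psi huw G B hpq.1 hpq.2]
                intro h3
                rcases h3 with h3 | h3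
                · exact h1 ⟨h3.1, mem_sdiff.mpr ⟨hpq.2, h3.2⟩⟩
                · exact h2 ⟨h3.2, mem_sdiff.mpr ⟨hpq.1, h3.1⟩⟩
              · exact not_Alt_of (hTr B hBP) hD4 hpq
            rw [sw_of_not hnA]; ring
          · rw [if_neg hD4]
    have e2 : ∀ S : V → V → ℝ, ∑ p, ∑ q, (if p ∈ B ∧ q ∈ D \ B then S p q else 0) =
        ∑ x ∈ B, ∑ y ∈ D \ B, S x y := by
      intro S
      have : ∀ p, ∑ q, (if p ∈ B ∧ q ∈ D \ B then S p q else 0) =
          if p ∈ B then ∑ y ∈ D \ B, S p y else 0 := by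
        intro p
        by_cases hp : p ∈ B
        · simp only [hp, true_and, if_true]
          rw [← sum_filter]
          refine sum_congr ?_ (fun _ _ => rfl)
          ext q; simp
        · simp [hp]
      rw [sum_congr rfl (fun p _ => this p), ← sum_filter]
      refine sum_congr ?_ (fun _ _ => rfl)
      ext q; simp
    have e3 := e2 (fun x y => (h B - h (insert y (B.erase x))) ^ 2)
    have e4 : ∑ p, ∑ q, (if q ∈ B ∧ p ∈ D \ B then (h B - h (insert p (B.erase q))) ^ 2 else 0) =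
        ∑ x ∈ B, ∑ y ∈ D \ B, (h B - h (insert y (B.erase x))) ^ 2 := by
      rw [← e3, sum_comm]
    simp_rw [e1, sum_add_distrib]
    rw [e3, e4]; ring
  rw [hL, sum_congr rfl (fun B hB => by rw [havg B hB, hE B hB] :
    ∀ B ∈ P, (2 * (f (ψ B) - avg (Tr u w) f (ψ B)) ^ 2 +
      (1 - 2 / (Fintype.card V : ℝ)) * (1 / 4) *
        ∑ p, ∑ q, if D4 u w p q then (f (ψ B) - f (sw u w p q (ψ B))) ^ 2 else 0) =
      2 * (f (ψ B) - m) ^ 2 + (1 - 2 / (Fintype.card V : ℝ)) * (1 / 4) *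
        (2 * ∑ x ∈ B, ∑ y ∈ D \ B, (h B - h (insert y (B.erase x))) ^ 2))]
  have hR : ∑ B ∈ P, (2 * (f (ψ B) - m) ^ 2 + (1 - 2 / (Fintype.card V : ℝ)) * (1 / 4) *
        (2 * ∑ x ∈ B, ∑ y ∈ D \ B, (h B - h (insert y (B.erase x))) ^ 2)) =
      2 * ∑ B ∈ P, h B ^ 2 + (1 - 2 / (Fintype.card V : ℝ)) * (1 / 2) *
        ∑ B ∈ P, ∑ x ∈ B, ∑ y ∈ D \ B, (h B - h (insert y (B.erase x))) ^ 2 := by
    rw [sum_add_distrib, mul_sum, mul_sum]
    congr 1
    refine sum_congr rfl (fun B _ => ?_)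
    ring
  rw [hR]
  have hEn : 0 ≤ ∑ B ∈ P, ∑ x ∈ B, ∑ y ∈ D \ B, (h B - h (insert y (B.erase x))) ^ 2 :=
    sum_nonneg (fun B _ => sum_nonneg (fun x _ => sum_nonneg (fun y _ => sq_nonneg _)))
  have hh2 : 0 ≤ ∑ B ∈ P, h B ^ 2 := sum_nonneg (fun B _ => sq_nonneg _)
  by_cases hkd : 1 ≤ k ∧ k + 1 ≤ D.card
  · have hJ := J D k hkd.1 hkd.2 h hsum0
    have e5 : ∑ p ∈ D, ∑ q ∈ D.erase p, (∑ B ∈ EE D k p q, h B) ^ 2 / ((EE D k p q).card : ℝ) =
        ∑ x ∈ D, ∑ y ∈ D.erase x,
      (∑ A ∈ (D.powersetCard k).filter (fun A => (x ∈ A ∧ y ∉ A) ∨ (x ∉ A ∧ y ∈ A)), h A) ^ 2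
        / (2 * ((D.card - 2).choose (k - 1) : ℝ)) := by
      refine sum_congr rfl (fun p hp => sum_congr rfl (fun q hq => ?_))
      rw [mem_erase] at hq
      rw [card_EE D k hkd.1 hp hq.2 hq.1.symm]
      push_cast; rfl
    rw [e5]
    refine hJ.trans ?_
    have hd2 : 2 ≤ D.card := by omega
    have hdn : D.card ≤ Fintype.card V := card_le_univ D
    have e6 : 2 / (Fintype.card V : ℝ) ≤ 2 / (D.card : ℝ) := by
      apply div_le_div_of_nonneg_left (by norm_num)
      · have : 0 < D.card := by omega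
        exact_mod_cast this
      · exact_mod_cast hdn
    have e7 : (1 - 2 / (D.card : ℝ)) * (1 / 2) *
        ∑ A ∈ D.powersetCard k, ∑ x ∈ A, ∑ y ∈ D \ A, (h A - h (insert y (A.erase x))) ^ 2 ≤
        (1 - 2 / (Fintype.card V : ℝ)) * (1 / 2) *
        ∑ B ∈ P, ∑ x ∈ B, ∑ y ∈ D \ B, (h B - h (insert y (B.erase x))) ^ 2 := by
      apply mul_le_mul_of_nonneg_right _ hEn
      linarith
    linarith
  · -- trivial classes
    have e8 : ∀ p ∈ D, ∀ q ∈ D.erase p, EE D k p q = ∅ := by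
      intro p hp q hq
      rw [mem_erase] at hq
      rw [EE, filter_eq_empty_iff]
      intro B hB
      rw [mem_powersetCard] at hB
      have hcases : k = 0 ∨ D.card ≤ k := by omega
      rcases hcases with h0 | h0
      · rw [h0, card_eq_zero] at hB
        rw [hB.2]; simp
      · have : B = D := eq_of_subset_of_card_le hB.1 (by rw [hB.2]; exact h0)
        rw [this]; simp [hp, hq.2]
    have e9 : ∑ p ∈ D, ∑ q ∈ D.erase p,
        (∑ B ∈ EE D k p q, h B) ^ 2 / ((EE D k p q).card : ℝ) = 0 := by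
      refine sum_eq_zero (fun p hp => sum_eq_zero (fun q hq => ?_))
      rw [e8 p hp q hq]; simp
    rw [e9]
    have hn : 2 / (Fintype.card V : ℝ) ≤ 1 := by
      rw [div_le_one]
      · have : 2 ≤ Fintype.card V := by
          have := Finset.card_le_univ ({u, w} : Finset V)
          rw [card_pair huw] at this
          exact this
        exact_mod_cast this
      · have : 0 < Fintype.card V := Fintype.card_pos_iff.mpr ⟨u⟩
        exact_mod_cast this
    have : 0 ≤ (1 - 2 / (Fintype.card V : ℝ)) * (1 / 2) *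
        ∑ B ∈ P, ∑ x ∈ B, ∑ y ∈ D \ B, (h B - h (insert y (B.erase x))) ^ 2 := by
      apply mul_nonneg _ hEn
      apply mul_nonneg _ (by norm_num)
      linarith
    linarith

theorem N_bound (J : JPair V) {u w : V} (huw : u ≠ w) (f : Gr V → ℝ) :
    ∑ p, ∑ q, (if D4 u w p q then Nf u w p q f else 0) ≤
      2 * ∑ G, (f G - avg (Tr u w) f G) ^ 2 +
        (1 - 2 / (Fintype.card V : ℝ)) * (1 / 4) * En2 u w f := by
  have h := sum_le_of_cls (Tr u w) (Tr_equiv u w) _ _ (cls_bound J huw f)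
  have e1 : ∑ G, (∑ p, ∑ q, if D4 u w p q then
      (if Alt u w p q G then (avg (rU u w p q) f G - avg (Tr u w) f G) ^ 2 else 0) else 0) =
      ∑ p, ∑ q, (if D4 u w p q then Nf u w p q f else 0) := by
    rw [sum_comm]
    refine sum_congr rfl (fun p _ => ?_)
    rw [sum_comm]
    refine sum_congr rfl (fun q _ => ?_)
    by_cases hD : D4 u w p q
    · simp only [hD, if_true]; rfl
    · simp [hD]
  have e2 : ∑ G, (2 * (f G - avg (Tr u w) f G) ^ 2 +
      (1 - 2 / (Fintype.card V : ℝ)) * (1 / 4) *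
        ∑ p, ∑ q, if D4 u w p q then (f G - f (sw u w p q G)) ^ 2 else 0) =
      2 * ∑ G, (f G - avg (Tr u w) f G) ^ 2 +
        (1 - 2 / (Fintype.card V : ℝ)) * (1 / 4) * En2 u w f := by
    rw [sum_add_distrib, ← mul_sum, ← mul_sum]
    congr 2
    unfold En2
    rw [sum_comm]
    refine sum_congr rfl (fun p _ => ?_)
    rw [sum_comm]
    refine sum_congr rfl (fun q _ => ?_)
    by_cases hD : D4 u w p q
    · simp only [hD, if_true]
    · simp [hD]
  rw [e1, e2] at h
  exact h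

end Crest.Agent.SC
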