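import Crest.Agent.SCDisj

/-!
Parametrisation of the trade classes by subsets, and the bound for the defects.
-/

set_option autoImplicit false
set_option linter.unusedSectionVars false
set_option linter.unusedVariables false

namespace Crest.Agent.SC

open Finset

section card
variable {C : Type} [DecidableEq C]

/-- subsets containing exactly one of `x`, `y` -/
abbrev EE (D : Finset C) (k : ℕ) (x y : C) : Finset (Finset C) :=
  (D.powersetCard k).filter (fun A => (x ∈ A ∧ y ∉ A) ∨ (x ∉ A ∧ y ∈ A))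

theorem card_half (D : Finset C) (k : ℕ) (hk : 1 ≤ k) {x y : C} (hx : x ∈ D) (hy : y ∈ D)
    (hxy : x ≠ y) : ((D.powersetCard k).filter (fun A => x ∈ A ∧ y ∉ A)).card =
      (D.card - 2).choose (k - 1) := by
  have h1 : ((D.erase x).erase y).card = D.card - 2 := by
    rw [card_erase_of_mem (mem_erase.mpr ⟨hxy.symm, hy⟩), card_erase_of_mem hx]; rfl
  rw [← h1, ← card_powersetCard]
  refine card_bij' (fun A _ => A.erase x) (fun B _ => insert x B) ?_ ?_ ?_ ?_
  · intro A hA
    rw [mem_filter, mem_powersetCard] at hA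
    rw [mem_powersetCard]
    obtain ⟨⟨h2, h3⟩, h4, h5⟩ := hA
    refine ⟨?_, ?_⟩
    · intro z hz
      simp only [mem_erase] at hz ⊢
      exact ⟨fun h => h5 (h ▸ hz.2), hz.1, h2 hz.2⟩
    · rw [card_erase_of_mem h4, h3]
  · intro B hB
    rw [mem_powersetCard] at hB
    rw [mem_filter, mem_powersetCard]
    obtain ⟨h2, h3⟩ := hB
    have hxB : x ∉ B := fun h => by
      have := h2 h; simp at this
    have hyB : y ∉ B := fun h => by
      have := h2 h; simp at this
    refine ⟨⟨?_, ?_⟩, mem_insert_self _ _, ?_⟩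
    · intro z hz
      rcases mem_insert.mp hz with rfl | hz
      · exact hx
      · have := h2 hz
        simp only [mem_erase] at this
        exact this.2.2
    · rw [card_insert_of_notMem hxB, h3]; omega
    · simp [hxy.symm, hyB]
  · intro A hA
    rw [mem_filter] at hA
    exact insert_erase hA.2.1
  · intro B hB
    rw [mem_powersetCard] at hB
    have hxB : x ∉ B := fun h => by
      have := hB.1 h; simp at this
    exact erase_insert hxB

theorem card_EE (D : Finset C) (k : ℕ) (hk : 1 ≤ k) {x y : C} (hx : x ∈ D) (hy : y ∈ D)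
    (hxy : x ≠ y) : (EE D k x y).card = 2 * (D.card - 2).choose (k - 1) := by
  have : EE D k x y = (D.powersetCard k).filter (fun A => x ∈ A ∧ y ∉ A) ∪
      (D.powersetCard k).filter (fun A => y ∈ A ∧ x ∉ A) := by
    ext A; simp only [mem_filter, mem_union]; tauto
  rw [this, card_union_of_disjoint, card_half D k hk hx hy hxy, card_half D k hk hy hx hxy.symm]
  · ring
  · rw [Finset.disjoint_left]
    intro A h1 h2
    simp only [mem_filter] at h1 h2
    exact h2.2.2 h1.2.1

end card

section cls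
variable {V : Type} [Fintype V] [DecidableEq V]

/-- mixed columns -/
def DD (u w : V) (G : Gr V) : Finset V := (cols u w).filter (fun z => G s(u, z) ≠ G s(w, z))

theorem DD_sub (u w : V) (G : Gr V) : DD u w G ⊆ cols u w := by
  unfold DD; exact filter_subset _ _

/-- the columns of `D` owned by `u` -/
def AA (u : V) (D : Finset V) (G : Gr V) : Finset V := D.filter (fun z => G s(u, z) = true)

/-- the state of the class of `G` with `u`-columns `B` -/
def psi (u w : V) (D : Finset V) (G : Gr V) (B : Finset V) : Gr V := fun e =>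
  if (∃ z ∈ D, e = s(u, z) ∨ e = s(w, z)) then
    decide (∃ z ∈ D, (e = s(u, z) ∧ z ∈ B) ∨ (e = s(w, z) ∧ z ∉ B)) else G e

theorem psi_u {u w : V} (huw : u ≠ w) {D : Finset V} (hD : D ⊆ cols u w) (G : Gr V)
    (B : Finset V) {z : V} (hz : z ∈ D) : psi u w D G B s(u, z) = decide (z ∈ B) := by
  have h1 : ∃ z' ∈ D, s(u, z) = s(u, z') ∨ s(u, z) = s(w, z') := ⟨z, hz, Or.inl rfl⟩
  unfold psi
  rw [if_pos h1]
  have hzc := hD hz
  simp only [cols, mem_filter, mem_univ, true_and] at hzc
  congr 1
  simp only [eq_iff_iff]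
  constructor
  · rintro ⟨z', hz', h | h⟩
    · have := h.1
      simp only [Sym2.eq_iff] at this
      rcases this with h2 | h2
      · rw [h2.2]; exact h.2
      · exact absurd h2.2 hzc.1
    · have := h.1
      simp only [Sym2.eq_iff] at this
      rcases this with h2 | h2
      · exact absurd h2.1 huw
      · exact absurd h2.2 hzc.2
  · intro h
    exact ⟨z, hz, Or.inl ⟨rfl, h⟩⟩

theorem psi_w {u w : V} (huw : u ≠ w) {D : Finset V} (hD : D ⊆ cols u w) (G : Gr V)
    (B : Finset V) {z : V} (hz : z ∈ D) : psi u w D G B s(w, z) = decide (z ∉ B) := by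
  have h1 : ∃ z' ∈ D, s(w, z) = s(u, z') ∨ s(w, z) = s(w, z') := ⟨z, hz, Or.inr rfl⟩
  unfold psi
  rw [if_pos h1]
  have hzc := hD hz
  simp only [cols, mem_filter, mem_univ, true_and] at hzc
  congr 1
  simp only [eq_iff_iff]
  constructor
  · rintro ⟨z', hz', h | h⟩
    · have := h.1
      simp only [Sym2.eq_iff] at this
      rcases this with h2 | h2
      · exact absurd h2.1.symm huw
      · exact absurd h2.2 hzc.1
    · have := h.1
      simp only [Sym2.eq_iff] at this
      rcases this with h2 | h2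
      · rw [h2.2]; exact h.2
      · exact absurd h2.2 hzc.2
  · intro h
    exact ⟨z, hz, Or.inr ⟨rfl, h⟩⟩

theorem psi_off {u w : V} {D : Finset V} (G : Gr V) (B : Finset V) {e : Sym2 V}
    (he : ¬ ∃ z ∈ D, e = s(u, z) ∨ e = s(w, z)) : psi u w D G B e = G e := by
  unfold psi; rw [if_neg he]

theorem toNat_sum_card (D : Finset V) (u : V) (G : Gr V) :
    ∑ z ∈ D, (G s(u, z)).toNat = (AA u D G).card := by
  unfold AA
  rw [card_filter]
  refine sum_congr rfl (fun z _ => ?_)
  cases G s(u, z) <;> simp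

theorem mem_DD_iff {u w : V} {G G' : Gr V} (hT : Tr u w G G') :
    DD u w G' = DD u w G := by
  ext z
  simp only [DD, mem_filter, cols, mem_univ, true_and]
  constructor
  · rintro ⟨⟨h1, h2⟩, h3⟩
    have := hT.2.1 z h1 h2
    refine ⟨⟨h1, h2⟩, ?_⟩
    have key : ∀ a b c d : Bool, a.toNat + b.toNat = c.toNat + d.toNat → c ≠ d → a ≠ b := by
      decide
    exact key _ _ _ _ this h3
  · rintro ⟨⟨h1, h2⟩, h3⟩
    have := hT.2.1 z h1 h2
    refine ⟨⟨h1, h2⟩, ?_⟩
    have key : ∀ a b c d : Bool, a.toNat + b.toNat = c.toNat + d.toNat → a ≠ b → c ≠ d := by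
      decide
    exact key _ _ _ _ this h3

/-- equality of non-mixed columns -/
theorem eq_of_not_mixed {u w : V} {G G' : Gr V} (hT : Tr u w G G') {z : V} (hz : z ∈ cols u w)
    (h : z ∉ DD u w G) : G s(u, z) = G' s(u, z) ∧ G s(w, z) = G' s(w, z) := by
  simp only [DD, mem_filter, not_and, not_not] at h
  simp only [cols, mem_filter, mem_univ, true_and] at hz h
  have h1 := h hz
  have := hT.2.1 z hz.1 hz.2
  have key : ∀ a b c d : Bool, a.toNat + b.toNat = c.toNat + d.toNat → a = b → a = c ∧ b = d := by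
    decide
  exact key _ _ _ _ this h1

theorem sum_split_DD (u w : V) (G0 G : Gr V) : ∑ z ∈ cols u w, (G s(u, z)).toNat =
    (AA u (DD u w G0) G).card + ∑ z ∈ (cols u w) \ (DD u w G0), (G s(u, z)).toNat := by
  rw [← toNat_sum_card, ← sum_sdiff (DD_sub u w G0), add_comm]

theorem card_AA {u w : V} {G G' : Gr V} (hT : Tr u w G G') :
    (AA u (DD u w G) G').card = (AA u (DD u w G) G).card := by
  have h := hT.2.2
  change ∑ z ∈ cols u w, _ = ∑ z ∈ cols u w, _ at h
  rw [sum_split_DD u w G G, sum_split_DD u w G G'] at h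
  have h2 : ∑ z ∈ (cols u w) \ (DD u w G), (G s(u, z)).toNat =
      ∑ z ∈ (cols u w) \ (DD u w G), (G' s(u, z)).toNat := by
    refine sum_congr rfl (fun z hz => ?_)
    rw [mem_sdiff] at hz
    rw [(eq_of_not_mixed hT hz.1 hz.2).1]
  omega

theorem AA_psi {u w : V} (huw : u ≠ w) (G : Gr V) {B : Finset V} (hB : B ⊆ DD u w G) :
    AA u (DD u w G) (psi u w (DD u w G) G B) = B := by
  ext z
  simp only [AA, mem_filter]
  constructor
  · rintro ⟨h1, h2⟩
    rw [psi_u huw (DD_sub u w G) G B h1] at h2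
    exact of_decide_eq_true h2
  · intro h
    refine ⟨hB h, ?_⟩
    rw [psi_u huw (DD_sub u w G) G B (hB h)]
    exact decide_eq_true h

theorem Tr_psi {u w : V} (huw : u ≠ w) (G : Gr V) {B : Finset V} (hB : B ⊆ DD u w G)
    (hc : B.card = (AA u (DD u w G) G).card) : Tr u w G (psi u w (DD u w G) G B) := by
  have hsub : DD u w G ⊆ cols u w := DD_sub u w G
  have hoff : ∀ z ∈ cols u w, z ∉ DD u w G →
      psi u w (DD u w G) G B s(u, z) = G s(u, z) ∧ psi u w (DD u w G) G B s(w, z) = G s(w, z) := by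
    intro z hz hz'
    have hzc := hz
    simp only [cols, mem_filter, mem_univ, true_and] at hzc
    constructor
    · refine psi_off G B ?_
      rintro ⟨z', h1, h2 | h2⟩
      · simp only [Sym2.eq_iff] at h2
        rcases h2 with h2 | h2
        · rw [h2.2] at hz'; exact hz' h1
        · exact hzc.1 h2.2
      · simp only [Sym2.eq_iff] at h2
        rcases h2 with h2 | h2
        · exact huw h2.1
        · exact hzc.2 h2.2
    · refine psi_off G B ?_
      rintro ⟨z', h1, h2 | h2⟩
      · simp only [Sym2.eq_iff] at h2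
        rcases h2 with h2 | h2
        · exact huw h2.1.symm
        · exact hzc.1 h2.2
      · simp only [Sym2.eq_iff] at h2
        rcases h2 with h2 | h2
        · rw [h2.2] at hz'; exact hz' h1
        · exact hzc.2 h2.2
  refine ⟨fun e he => ?_, fun z hz hz' => ?_, ?_⟩
  · refine (psi_off G B ?_).symm
    rintro ⟨z, h1, h2⟩
    have h3 := hsub h1
    simp only [cols, mem_filter, mem_univ, true_and] at h3
    have := he z h3.1 h3.2
    rcases h2 with h2 | h2
    · exact this.1 h2
    · exact this.2 h2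
  · have hzc : z ∈ cols u w := by simp [cols, hz, hz']
    by_cases hD : z ∈ DD u w G
    · rw [psi_u huw hsub G B hD, psi_w huw hsub G B hD]
      have h1 : G s(u, z) ≠ G s(w, z) := (mem_filter.mp hD).2
      have key : ∀ a b : Bool, a ≠ b → a.toNat + b.toNat = 1 := by decide
      rw [key _ _ h1]
      by_cases hzB : z ∈ B <;> simp [hzB]
    · rw [(hoff z hzc hD).1, (hoff z hzc hD).2]
  · change ∑ z ∈ cols u w, _ = ∑ z ∈ cols u w, _
    rw [sum_split_DD u w G G, sum_split_DD u w G (psi u w (DD u w G) G B), AA_psi huw G hB, hc]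
    congr 1
    refine sum_congr rfl (fun z hz => ?_)
    rw [mem_sdiff] at hz
    rw [(hoff z hz.1 hz.2).1]

theorem psi_AA {u w : V} (huw : u ≠ w) {G G' : Gr V} (hT : Tr u w G G') :
    psi u w (DD u w G) G (AA u (DD u w G) G') = G' := by
  have hsub : DD u w G ⊆ cols u w := DD_sub u w G
  funext e
  by_cases he : ∃ z ∈ DD u w G, e = s(u, z) ∨ e = s(w, z)
  · obtain ⟨z, hz, he⟩ := he
    have hmix : G' s(u, z) ≠ G' s(w, z) := by
      have : z ∈ DD u w G' := by rw [mem_DD_iff hT]; exact hz
      exact (mem_filter.mp this).2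
    rcases he with rfl | rfl
    · rw [psi_u huw hsub G _ hz]
      cases h : G' s(u, z) <;> simp [AA, hz, h]
    · rw [psi_w huw hsub G _ hz]
      cases h : G' s(u, z)
      · rw [h] at hmix
        have : G' s(w, z) = true := by
          cases h' : G' s(w, z)
          · exact absurd h'.symm hmix
          · rfl
        simp [AA, h, this]
      · rw [h] at hmix
        have : G' s(w, z) = false := by
          cases h' : G' s(w, z)
          · rfl
          · exact absurd h'.symm hmix
        simp [AA, h, this, hz]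
  · rw [psi_off G _ he]
    by_cases hs : Slots (cols u w) u w e
    · obtain ⟨z, hz, hez⟩ := hs
      have hzD : z ∉ DD u w G := fun h => he ⟨z, h, hez⟩
      have := eq_of_not_mixed hT hz hzD
      rcases hez with rfl | rfl
      · exact this.1
      · exact this.2
    · exact (Tr_loc u w).off _ _ hT e hs

/-- sums over a trade class -/
theorem sum_cls_psi {u w : V} (huw : u ≠ w) (G : Gr V) (F : Gr V → ℝ) :
    ∑ G' ∈ cls (Tr u w) G, F G' =
      ∑ B ∈ (DD u w G).powersetCard (AA u (DD u w G) G).card, F (psi u w (DD u w G) G B) := by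
  refine sum_nbij' (fun G' => AA u (DD u w G) G') (fun B => psi u w (DD u w G) G B) ?_ ?_ ?_ ?_ ?_
  · intro G' hG'
    rw [mem_powersetCard]
    exact ⟨filter_subset _ _, card_AA ((mem_cls _).mp hG')⟩
  · intro B hB
    rw [mem_powersetCard] at hB
    rw [mem_cls]
    exact Tr_psi huw G hB.1 hB.2
  · intro G' hG'
    exact psi_AA huw ((mem_cls _).mp hG')
  · intro B hB
    rw [mem_powersetCard] at hB
    exact AA_psi huw G hB.1
  · intro G' hG'
    rw [psi_AA huw ((mem_cls _).mp hG')]

theorem card_cls_psi {u w : V} (huw : u ≠ w) (G : Gr V) :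
    ((cls (Tr u w) G).card : ℝ) =
      (((DD u w G).powersetCard (AA u (DD u w G) G).card).card : ℝ) := by
  have := sum_cls_psi huw G (fun _ => 1)
  simpa using this

/-- `Alt` in the parametrisation -/
theorem Alt_psi {u w : V} (huw : u ≠ w) (G : Gr V) (B : Finset V) {p q : V}
    (hp : p ∈ DD u w G) (hq : q ∈ DD u w G) :
    Alt u w p q (psi u w (DD u w G) G B) ↔ ((p ∈ B ∧ q ∉ B) ∨ (p ∉ B ∧ q ∈ B)) := by
  have hsub : DD u w G ⊆ cols u w := DD_sub u w G
  unfold Alt
  rw [psi_u huw hsub G B hp, psi_w huw hsub G B hp, psi_u huw hsub G B hq, psi_w huw hsub G B hq]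
  by_cases h1 : p ∈ B <;> by_cases h2 : q ∈ B <;> simp [h1, h2]

theorem not_Alt_of {u w : V} {G G' : Gr V} (hT : Tr u w G G') {p q : V} (hD : D4 u w p q)
    (h : ¬ (p ∈ DD u w G ∧ q ∈ DD u w G)) : ¬ Alt u w p q G' := by
  intro hA
  apply h
  rw [← mem_DD_iff hT]
  obtain ⟨h1, h2, h3, h4, h5, h6⟩ := hD
  exact ⟨mem_filter.mpr ⟨by simp [cols, h2.symm, h4.symm], hA.1⟩,
    mem_filter.mpr ⟨by simp [cols, h3.symm, h5.symm], hA.2.1⟩⟩

/-- the switch in the parametrisation -/
theorem sw_psi {u w : V} (huw : u ≠ w) (G : Gr V) {B : Finset V} (hB : B ⊆ DD u w G) {p q : V}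
    (hp : p ∈ B) (hq : q ∈ DD u w G) (hqB : q ∉ B) :
    sw u w p q (psi u w (DD u w G) G B) = psi u w (DD u w G) G (insert q (B.erase p)) := by
  have hsub : DD u w G ⊆ cols u w := DD_sub u w G
  have hpD := hB hp
  have hpq : p ≠ q := fun h => hqB (h ▸ hp)
  have hpc := hsub hpD
  have hqc := hsub hq
  simp only [cols, mem_filter, mem_univ, true_and] at hpc hqc
  have hA : Alt u w p q (psi u w (DD u w G) G B) := (Alt_psi huw G B hpD hq).mpr (Or.inl ⟨hp, hqB⟩)
  funext e
  by_cases he : ∃ z ∈ DD u w G, e = s(u, z) ∨ e = s(w, z)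
  · obtain ⟨z, hz, he⟩ := he
    have hzc := hsub hz
    simp only [cols, mem_filter, mem_univ, true_and] at hzc
    by_cases zp : z = p
    · subst zp
      rcases he with rfl | rfl
      · rw [sw_ua hA, psi_u huw hsub G _ hz, psi_u huw hsub G _ hz]
        simp [hp, hpq]
      · rw [sw_wa hA, psi_w huw hsub G _ hz, psi_w huw hsub G _ hz]
        simp [hp, hpq]
    · by_cases zq : z = q
      · subst zq
        rcases he with rfl | rfl
        · rw [sw_ub hA, psi_u huw hsub G _ hz, psi_u huw hsub G _ hz]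
          simp [hqB]
        · rw [sw_wb hA, psi_w huw hsub G _ hz, psi_w huw hsub G _ hz]
          simp [hqB]
      · have hne : ∀ c, c = u ∨ c = w → s(c, z) ≠ s(u, p) ∧ s(c, z) ≠ s(w, p) ∧
            s(c, z) ≠ s(u, q) ∧ s(c, z) ≠ s(w, q) := by
          intro c hc
          simp only [ne_eq, Sym2.eq_iff, not_or, not_and]
          rcases hc with rfl | rfl <;> refine ⟨⟨?_, ?_⟩, ⟨?_, ?_⟩, ⟨?_, ?_⟩, ⟨?_, ?_⟩⟩ <;> tauto
        rcases he with rfl | rfl
        · have h4 := hne u (Or.inl rfl)
          rw [sw_off h4.1 h4.2.1 h4.2.2.1 h4.2.2.2, psi_u huw hsub G _ hz, psi_u huw hsub G _ hz]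
          simp [zp, zq]
        · have h4 := hne w (Or.inr rfl)
          rw [sw_off h4.1 h4.2.1 h4.2.2.1 h4.2.2.2, psi_w huw hsub G _ hz, psi_w huw hsub G _ hz]
          simp [zp, zq]
  · rw [psi_off G _ he]
    push Not at he
    rw [sw_off (he p hpD).1 (he p hpD).2 (he q hq).1 (he q hq).2, psi_off G _ (by push Not; exact he)]

end cls

end Crest.Agent.SC
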