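import Crest.Agent.SCTrade
import Crest.Agent.SCSpec

/-!
Two rows: switches generate trades, and the spectral gap of the two-row switch chain.
-/

set_option autoImplicit false
set_option linter.unusedSectionVars false
set_option linter.unusedVariables false

namespace Crest.Agent.SC

open Finset

variable {V : Type} [Fintype V] [DecidableEq V]

theorem bool_col : ∀ a b c d : Bool, a ≠ b → c ≠ d → ¬ (a ≠ b ∧ c ≠ d ∧ a ≠ c) → a = c ∧ b = d := by
  decide

theorem toNat_inj6 : ∀ a b : Bool, a.toNat = b.toNat → a = b := by decide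

theorem bool_col2 : ∀ a b c d : Bool, (a ≠ b ∧ c ≠ d ∧ a ≠ c) → (!a) = c ∧ (!b) = d ∧ (!c) = a ∧
    (!d) = b := by
  decide

/-- the switch permutes mixed columns -/
theorem sw_col {u w a b : V} (h : D4 u w a b) (G : Gr V) (z : V) (hzu : z ≠ u) (hzw : z ≠ w)
    (hm : G s(u, a) ≠ G s(w, a) ∧ G s(u, b) ≠ G s(w, b)) :
    sw u w a b G s(u, z) = G s(u, Equiv.swap a b z) ∧
    sw u w a b G s(w, z) = G s(w, Equiv.swap a b z) := by
  have h0 := h
  obtain ⟨h1, h2, h3, h4, h5, h6⟩ := h
  by_cases hA : Alt u w a b G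
  · obtain ⟨k1, k2, k3, k4⟩ := bool_col2 _ _ _ _ hA
    by_cases za : z = a
    · subst za
      rw [Equiv.swap_apply_left, sw_ua hA, sw_wa hA]
      exact ⟨k1, k2⟩
    · by_cases zb : z = b
      · subst zb
        rw [Equiv.swap_apply_right, sw_ub hA, sw_wb hA]
        exact ⟨k3, k4⟩
      · rw [Equiv.swap_apply_of_ne_of_ne za zb]
        constructor
        · apply sw_off <;> simp only [ne_eq, Sym2.eq_iff, not_or, not_and] <;>
            constructor <;> tauto
        · apply sw_off <;> simp only [ne_eq, Sym2.eq_iff, not_or, not_and] <;>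
            constructor <;> tauto
  · obtain ⟨k1, k2⟩ := bool_col _ _ _ _ hm.1 hm.2 hA
    rw [sw_of_not hA]
    by_cases za : z = a
    · subst za
      rw [Equiv.swap_apply_left]
      exact ⟨k1, k2⟩
    · by_cases zb : z = b
      · subst zb
        rw [Equiv.swap_apply_right]
        exact ⟨k1.symm, k2.symm⟩
      · rw [Equiv.swap_apply_of_ne_of_ne za zb]
        exact ⟨rfl, rfl⟩

theorem sw_not_mixed {u w a b : V} {G : Gr V}
    (hm : ¬ (G s(u, a) ≠ G s(w, a) ∧ G s(u, b) ≠ G s(w, b))) : sw u w a b G = G := by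
  apply sw_of_not
  intro hA
  exact hm ⟨hA.1, hA.2.1⟩

/-- mixedness is preserved -/
theorem sw_mixed {u w a b : V} (h : D4 u w a b) (G : Gr V) (z : V) (hzu : z ≠ u) (hzw : z ≠ w) :
    (sw u w a b G s(u, z) ≠ sw u w a b G s(w, z)) ↔ (G s(u, z) ≠ G s(w, z)) := by
  have hT := (sw_Tr h G).2.1 z hzu hzw
  have key : ∀ a b c d : Bool, a.toNat + b.toNat = c.toNat + d.toNat → (c ≠ d ↔ a ≠ b) := by
    decide
  exact key _ _ _ _ hT

theorem sw_off' {u w a b : V} (h : D4 u w a b) (G : Gr V) (e : Sym2 V)
    (he : ¬ Slots (cols u w) u w e) : sw u w a b G e = G e :=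
  ((Tr_loc u w).off _ _ (sw_Tr h G) e he).symm

theorem swap_ne {x y c z : V} (hx : x ≠ c) (hy : y ≠ c) (hz : z ≠ c) : Equiv.swap x y z ≠ c := by
  intro h
  by_cases zx : z = x
  · subst zx; rw [Equiv.swap_apply_left] at h; exact hy h
  · by_cases zy : z = y
    · subst zy; rw [Equiv.swap_apply_right] at h; exact hx h
    · rw [Equiv.swap_apply_of_ne_of_ne zx zy] at h; exact hz h

theorem D4_swap {u w x y a b : V} (h : D4 u w x y) (h' : D4 u w a b) :
    D4 u w (Equiv.swap x y a) (Equiv.swap x y b) := by
  obtain ⟨h1, h2, h3, h4, h5, h6⟩ := h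
  obtain ⟨g1, g2, g3, g4, g5, g6⟩ := h'
  exact ⟨h1, (swap_ne h2.symm h3.symm g2.symm).symm, (swap_ne h2.symm h3.symm g3.symm).symm,
    (swap_ne h4.symm h5.symm g4.symm).symm, (swap_ne h4.symm h5.symm g5.symm).symm,
    fun h => g6 ((Equiv.swap x y).injective h)⟩

theorem sw_conj {u w x y a b : V} (h : D4 u w x y) (h' : D4 u w a b) (G : Gr V)
    (hA : Alt u w x y G) :
    sw u w (Equiv.swap x y a) (Equiv.swap x y b) (sw u w x y G) = sw u w x y (sw u w a b G) := by
  have h'' := D4_swap h h'
  obtain ⟨h1, h2, h3, h4, h5, h6⟩ := h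
  have h0 : D4 u w x y := ⟨h1, h2, h3, h4, h5, h6⟩
  obtain ⟨g1, g2, g3, g4, g5, g6⟩ := h'
  have g0 : D4 u w a b := ⟨g1, g2, g3, g4, g5, g6⟩
  have hm : G s(u, x) ≠ G s(w, x) ∧ G s(u, y) ≠ G s(w, y) := ⟨hA.1, hA.2.1⟩
  -- mixedness of `σ z`
  have hmix : ∀ z, z ≠ u → z ≠ w →
      ((G s(u, Equiv.swap x y z) ≠ G s(w, Equiv.swap x y z)) ↔ (G s(u, z) ≠ G s(w, z))) := by
    intro z hz hz'
    by_cases zx : z = x
    · subst zx; rw [Equiv.swap_apply_left]; exact iff_of_true hm.2 hm.1
    · by_cases zy : z = y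
      · subst zy; rw [Equiv.swap_apply_right]; exact iff_of_true hm.1 hm.2
      · rw [Equiv.swap_apply_of_ne_of_ne zx zy]
  set a' := Equiv.swap x y a with ha'
  set b' := Equiv.swap x y b with hb'
  by_cases hab : G s(u, a) ≠ G s(w, a) ∧ G s(u, b) ≠ G s(w, b)
  · have hab' : G s(u, a') ≠ G s(w, a') ∧ G s(u, b') ≠ G s(w, b') :=
      ⟨(hmix a g2.symm g4.symm).mpr hab.1, (hmix b g3.symm g5.symm).mpr hab.2⟩
    have hab1 : sw u w x y G s(u, a') ≠ sw u w x y G s(w, a') ∧
        sw u w x y G s(u, b') ≠ sw u w x y G s(w, b') :=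
      ⟨(sw_mixed h0 G a' h''.2.1.symm h''.2.2.2.1.symm).mpr hab'.1,
        (sw_mixed h0 G b' h''.2.2.1.symm h''.2.2.2.2.1.symm).mpr hab'.2⟩
    have hxy1 : sw u w a b G s(u, x) ≠ sw u w a b G s(w, x) ∧
        sw u w a b G s(u, y) ≠ sw u w a b G s(w, y) :=
      ⟨(sw_mixed g0 G x h2.symm h4.symm).mpr hm.1, (sw_mixed g0 G y h3.symm h5.symm).mpr hm.2⟩
    have hperm : ∀ z, Equiv.swap x y (Equiv.swap a' b' z) = Equiv.swap a b (Equiv.swap x y z) := by
      intro z
      have := Equiv.swap_apply_apply (Equiv.swap x y) a b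
      rw [← ha', ← hb'] at this
      rw [this]
      simp
    funext e
    by_cases he : Slots (cols u w) u w e
    · obtain ⟨z, hz, he⟩ := he
      simp only [cols, mem_filter, mem_univ, true_and] at hz
      have z1 : Equiv.swap a' b' z ≠ u := swap_ne h''.2.1.symm h''.2.2.1.symm hz.1
      have z2 : Equiv.swap a' b' z ≠ w := swap_ne h''.2.2.2.1.symm h''.2.2.2.2.1.symm hz.2
      have z3 : Equiv.swap x y z ≠ u := swap_ne h2.symm h3.symm hz.1
      have z4 : Equiv.swap x y z ≠ w := swap_ne h4.symm h5.symm hz.2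
      have p1 := sw_col h'' (sw u w x y G) z hz.1 hz.2 hab1
      have p2 := sw_col h0 G (Equiv.swap a' b' z) z1 z2 hm
      have p3 := sw_col h0 (sw u w a b G) z hz.1 hz.2 hxy1
      have p4 := sw_col g0 G (Equiv.swap x y z) z3 z4 hab
      rcases he with rfl | rfl
      · rw [p1.1, p2.1, p3.1, p4.1, hperm]
      · rw [p1.2, p2.2, p3.2, p4.2, hperm]
    · rw [sw_off' h'' _ e he, sw_off' h0 _ e he, sw_off' h0 _ e he, sw_off' g0 _ e he]
  · rw [sw_not_mixed hab]
    apply sw_not_mixed
    rw [sw_mixed h0 G a' h''.2.1.symm h''.2.2.2.1.symm,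
      sw_mixed h0 G b' h''.2.2.1.symm h''.2.2.2.2.1.symm,
      hmix a g2.symm g4.symm, hmix b g3.symm g5.symm]
    exact hab

/-- switches generate trades -/
theorem inv_of_sw {β : Type*} (u w : V) (huw : u ≠ w) (g : Gr V → β)
    (hg : ∀ a b, D4 u w a b → ∀ G, g (sw u w a b G) = g G) :
    ∀ G G', Tr u w G G' → g G = g G' := by
  classical
  have main : ∀ (n : ℕ) (G G' : Gr V),
      ((cols u w).filter (fun z => G s(u, z) ≠ G' s(u, z))).card ≤ n → Tr u w G G' →
      g G = g G' := by
    intro n
    induction n with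
    | zero =>
      intro G G' hn hT
      have h0 : ∀ z ∈ cols u w, G s(u, z) = G' s(u, z) := by
        intro z hz
        by_contra hne
        have : z ∈ (cols u w).filter (fun z => G s(u, z) ≠ G' s(u, z)) :=
          mem_filter.mpr ⟨hz, hne⟩
        rw [Finset.card_eq_zero.mp (Nat.le_zero.mp hn)] at this
        simp at this
      congr 1
      funext e
      by_cases he : Slots (cols u w) u w e
      · obtain ⟨z, hz, he⟩ := he
        have e1 := h0 z hz
        simp only [cols, mem_filter, mem_univ, true_and] at hz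
        have e2 := hT.2.1 z hz.1 hz.2
        rcases he with rfl | rfl
        · exact e1
        · rw [e1] at e2
          have : (G s(w, z)).toNat = (G' s(w, z)).toNat := by omega
          exact toNat_inj6 _ _ this
      · exact (Tr_loc u w).off _ _ hT e he
    | succ n ih =>
      intro G G' hn hT
      by_cases hall : ∀ z ∈ cols u w, G s(u, z) = G' s(u, z)
      · apply ih G G' _ hT
        have : (cols u w).filter (fun z => G s(u, z) ≠ G' s(u, z)) = ∅ := by
          rw [filter_eq_empty_iff]
          intro z hz; simpa using hall z hz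
        rw [this]; simp
      · push Not at hall
        obtain ⟨z0, hz0, hz0'⟩ := hall
        have hsum : ∑ z ∈ cols u w, (G s(u, z)).toNat = ∑ z ∈ cols u w, (G' s(u, z)).toNat :=
          hT.2.2
        -- a column lost by `u`
        have hex : ∀ (A B : Gr V), (∑ z ∈ cols u w, (A s(u, z)).toNat =
            ∑ z ∈ cols u w, (B s(u, z)).toNat) → A s(u, z0) ≠ B s(u, z0) →
            ∃ a ∈ cols u w, A s(u, a) = true ∧ B s(u, a) = false := by
          intro A B hs hne
          by_contra hcon
          push Not at hcon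
          have hle : ∀ z ∈ cols u w, (A s(u, z)).toNat ≤ (B s(u, z)).toNat := by
            intro z hz
            have := hcon z hz
            cases hA : A s(u, z) <;> cases hB : B s(u, z) <;> simp_all
          have heq := (Finset.sum_eq_sum_iff_of_le hle).mp hs z0 hz0
          exact hne (toNat_inj6 _ _ heq)
        obtain ⟨a, ha, ha1, ha2⟩ := hex G G' hsum hz0'
        obtain ⟨b, hb, hb1, hb2⟩ := hex G' G hsum.symm hz0'.symm
        simp only [cols, mem_filter, mem_univ, true_and] at ha hb
        have hab : a ≠ b := by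
          rintro rfl; rw [ha1] at hb2; exact absurd hb2 (by simp)
        have hD : D4 u w a b := ⟨huw, ha.1.symm, hb.1.symm, ha.2.symm, hb.2.symm, hab⟩
        have ca := hT.2.1 a ha.1 ha.2
        have cb := hT.2.1 b hb.1 hb.2
        rw [ha1, ha2] at ca
        rw [hb1, hb2] at cb
        have wa : G s(w, a) = false := by
          cases h1 : G s(w, a)
          · rfl
          · rw [h1] at ca
            cases h2 : G' s(w, a) <;> rw [h2] at ca <;> simp at ca
        have wb : G s(w, b) = true := by
          cases h1 : G s(w, b)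
          · rw [h1] at cb
            cases h2 : G' s(w, b) <;> rw [h2] at cb <;> simp at cb
          · rfl
        have hA : Alt u w a b G := by
          unfold Alt; rw [ha1, hb2, wa, wb]; simp
        rw [← hg a b hD G]
        refine ih _ _ ?_ ((Tr_equiv u w).trans ((Tr_equiv u w).symm (sw_Tr hD G)) hT)
        -- the difference set shrinks
        have hsub : (cols u w).filter (fun z => sw u w a b G s(u, z) ≠ G' s(u, z)) ⊂
            (cols u w).filter (fun z => G s(u, z) ≠ G' s(u, z)) := by
          rw [Finset.ssubset_iff_of_subset]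
          · refine ⟨a, ?_, ?_⟩
            · simp [ha1, ha2, ha.1, ha.2]
            · simp only [mem_filter, not_and, not_not]
              intro _
              rw [sw_ua hA, ha1, ha2]; rfl
          · intro z hz
            simp only [cols, mem_filter, mem_univ, true_and] at hz ⊢
            refine ⟨hz.1, ?_⟩
            by_cases za : z = a
            · subst za; rw [ha1, ha2]; simp
            · by_cases zb : z = b
              · subst zb; rw [hb1, hb2]; simp
              · have := (sw_col hD G z hz.1.1 hz.1.2 ⟨hA.1, hA.2.1⟩).1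
                rw [Equiv.swap_apply_of_ne_of_ne za zb] at this
                rw [← this]; exact hz.2
        have := Finset.card_lt_card hsub
        omega
  intro G G' hT
  exact main _ G G' le_rfl hT


/-- the generator of the two-row switch chain -/
noncomputable def L2 (u w : V) : (Gr V → ℝ) →ₗ[ℝ] (Gr V → ℝ) where
  toFun f := fun G => ∑ a, ∑ b, if D4 u w a b then f G - f (sw u w a b G) else 0
  map_add' f g := by
    ext G
    simp only [Pi.add_apply]
    rw [← sum_add_distrib]
    refine sum_congr rfl (fun a _ => ?_)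
    rw [← sum_add_distrib]
    refine sum_congr rfl (fun b _ => ?_)
    split_ifs <;> ring
  map_smul' c f := by
    ext G
    simp only [Pi.smul_apply, smul_eq_mul, RingHom.id_apply]
    rw [mul_sum]
    refine sum_congr rfl (fun a _ => ?_)
    rw [mul_sum]
    refine sum_congr rfl (fun b _ => ?_)
    split_ifs <;> ring

theorem L2_apply (u w : V) (f : Gr V → ℝ) (G : Gr V) :
    L2 u w f G = ∑ a, ∑ b, if D4 u w a b then f G - f (sw u w a b G) else 0 := rfl

theorem sum_sw6 (u w p q : V) (F : Gr V → ℝ) : ∑ G, F (sw u w p q G) = ∑ G, F G := by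
  refine Fintype.sum_bijective (sw u w p q) ?_ _ _ (fun _ => rfl)
  exact Function.Involutive.bijective (fun G => sw_sw G)

theorem L2_form (u w : V) (f g : Gr V → ℝ) : ∑ G, L2 u w f G * g G =
    ∑ a, ∑ b, if D4 u w a b then 1 / 2 *
      ∑ G, (f G - f (sw u w a b G)) * (g G - g (sw u w a b G)) else 0 := by
  simp only [L2_apply, sum_mul]
  rw [sum_comm]
  refine sum_congr rfl (fun a _ => ?_)
  rw [sum_comm]
  refine sum_congr rfl (fun b _ => ?_)
  by_cases h : D4 u w a b
  · simp only [h, if_true]
    have h1 : ∑ G, f (sw u w a b G) * g (sw u w a b G) = ∑ G, f G * g G :=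
      sum_sw6 u w a b (fun G => f G * g G)
    have h2 : ∑ G, f G * g (sw u w a b G) = ∑ G, f (sw u w a b G) * g G := by
      rw [← sum_sw6 u w a b (fun G => f G * g (sw u w a b G))]
      exact sum_congr rfl (fun G _ => by rw [sw_sw])
    have h3 : ∑ G, (f G - f (sw u w a b G)) * (g G - g (sw u w a b G)) =
        ∑ G, f G * g G - ∑ G, f G * g (sw u w a b G) - ∑ G, f (sw u w a b G) * g G +
          ∑ G, f (sw u w a b G) * g (sw u w a b G) := by
      rw [← sum_sub_distrib, ← sum_sub_distrib, ← sum_add_distrib]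
      exact sum_congr rfl (fun G _ => by ring)
    have h4 : ∑ G, (f G - f (sw u w a b G)) * g G =
        ∑ G, f G * g G - ∑ G, f (sw u w a b G) * g G := by
      rw [← sum_sub_distrib]
      exact sum_congr rfl (fun G _ => by ring)
    rw [h3, h4, h1, h2]; ring
  · simp [h]

theorem L2_symm (u w : V) (f g : Gr V → ℝ) :
    ∑ G, L2 u w f G * g G = ∑ G, f G * L2 u w g G := by
  have : ∑ G, f G * L2 u w g G = ∑ G, L2 u w g G * f G := sum_congr rfl (fun G _ => mul_comm _ _)
  rw [this, L2_form, L2_form]
  refine sum_congr rfl (fun a _ => sum_congr rfl (fun b _ => ?_))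
  split_ifs
  · congr 1
    exact sum_congr rfl (fun G _ => mul_comm _ _)
  · rfl

theorem L2_En2 (u w : V) (f : Gr V → ℝ) : ∑ G, L2 u w f G * f G = 1 / 2 * En2 u w f := by
  rw [L2_form, En2, mul_sum]
  refine sum_congr rfl (fun a _ => ?_)
  rw [mul_sum]
  refine sum_congr rfl (fun b _ => ?_)
  split_ifs
  · congr 1
    exact sum_congr rfl (fun G _ => by ring)
  · simp

theorem En2_nonneg (u w : V) (f : Gr V → ℝ) : 0 ≤ En2 u w f := by
  unfold En2
  refine sum_nonneg (fun a _ => sum_nonneg (fun b _ => ?_))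
  split_ifs
  · exact sum_nonneg (fun G _ => sq_nonneg _)
  · exact le_rfl

theorem L2_eig (u w : V) (f : Gr V → ℝ) (μ : ℝ) (hf : L2 u w f = μ • f) (hne : f ≠ 0) :
    μ = 0 ∨ (0 < μ ∧ 4 ≤ μ) := by
  classical
  by_cases hall : ∀ a b, D4 u w a b → ∀ G, f (sw u w a b G) = f G
  · left
    by_contra hμ
    apply hne
    ext G
    have h1 := congrFun hf G
    rw [L2_apply, sum_eq_zero, Pi.smul_apply, smul_eq_mul] at h1
    · simpa [hμ] using h1.symm
    · intro a _
      refine sum_eq_zero (fun b _ => ?_)
      split_ifs with h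
      · rw [hall a b h]; ring
      · rfl
  · right
    push Not at hall
    obtain ⟨a0, b0, h0, G0, hG0⟩ := hall
    -- maximise the gradient
    let T : Finset (V × V × Gr V) := univ.filter (fun t => D4 u w t.1 t.2.1)
    have hT : T.Nonempty := ⟨(a0, b0, G0), by simp [T, h0]⟩
    obtain ⟨⟨x, y, H⟩, hmem, hmax⟩ :=
      T.exists_max_image (fun t => f t.2.2 - f (sw u w t.1 t.2.1 t.2.2)) hT
    have hxy : D4 u w x y := by simpa [T] using hmem
    set m := f H - f (sw u w x y H) with hm
    have hle : ∀ a b, D4 u w a b → ∀ G, f G - f (sw u w a b G) ≤ m := by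
      intro a b hab G
      exact hmax (a, b, G) (by simp [T, hab])
    have hpos : 0 < m := by
      have k1 := hle a0 b0 h0 G0
      have k2 := hle a0 b0 h0 (sw u w a0 b0 G0)
      rw [sw_sw] at k2
      rcases lt_or_gt_of_ne hG0 with h | h <;> linarith
    have hA : Alt u w x y H := by
      by_contra hA
      rw [hm, sw_of_not hA] at hpos
      simp at hpos
    -- the eigenvalue equation at `H` and `sw H`
    set σ := Equiv.swap x y with hσ
    have e1 : μ * f H = ∑ a, ∑ b, if D4 u w a b then f H - f (sw u w a b H) else 0 := by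
      have := congrFun hf H
      rw [L2_apply] at this
      rw [this]; rfl
    have e2 : μ * f (sw u w x y H) = ∑ a, ∑ b, if D4 u w a b then
        f (sw u w x y H) - f (sw u w x y (sw u w a b H)) else 0 := by
      have h1 := congrFun hf (sw u w x y H)
      rw [L2_apply] at h1
      have h2 : μ * f (sw u w x y H) = (μ • f) (sw u w x y H) := rfl
      rw [h2, ← h1]
      rw [← Equiv.sum_comp σ]
      refine sum_congr rfl (fun a _ => ?_)
      rw [← Equiv.sum_comp σ]
      refine sum_congr rfl (fun b _ => ?_)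
      by_cases hab : D4 u w a b
      · have hab' : D4 u w (σ a) (σ b) := D4_swap hxy hab
        rw [if_pos hab, if_pos hab', sw_conj hxy hab H hA]
      · have hab' : ¬ D4 u w (σ a) (σ b) := by
          intro h'
          have := D4_swap hxy h'
          rw [Equiv.swap_apply_self, Equiv.swap_apply_self] at this
          exact hab this
        rw [if_neg hab, if_neg hab']
    have e3 : μ * m = ∑ a, ∑ b, if D4 u w a b then
        m - (f (sw u w a b H) - f (sw u w x y (sw u w a b H))) else 0 := by
      rw [hm, mul_sub, e1, e2, ← sum_sub_distrib]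
      refine sum_congr rfl (fun a _ => ?_)
      rw [← sum_sub_distrib]
      refine sum_congr rfl (fun b _ => ?_)
      split_ifs <;> ring
    have hnn : ∀ a b, 0 ≤ (if D4 u w a b then
        m - (f (sw u w a b H) - f (sw u w x y (sw u w a b H))) else 0) := by
      intro a b
      split_ifs
      · have := hle x y hxy (sw u w a b H); linarith
      · exact le_rfl
    have hyx : D4 u w y x := ⟨hxy.1, hxy.2.2.1, hxy.2.1, hxy.2.2.2.2.1, hxy.2.2.2.1,
      hxy.2.2.2.2.2.symm⟩
    have e4 : 4 * m ≤ μ * m := by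
      rw [e3]
      have k1 : ∑ a, (∑ b, if D4 u w a b then
          m - (f (sw u w a b H) - f (sw u w x y (sw u w a b H))) else 0) ≥
          ∑ a ∈ {x, y}, (∑ b, if D4 u w a b then
          m - (f (sw u w a b H) - f (sw u w x y (sw u w a b H))) else 0) :=
        sum_le_sum_of_subset_of_nonneg (subset_univ _)
          (fun a _ _ => sum_nonneg (fun b _ => hnn a b))
      rw [sum_pair hxy.2.2.2.2.2] at k1
      have k2 : (if D4 u w x y then
          m - (f (sw u w x y H) - f (sw u w x y (sw u w x y H))) else 0) ≤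
          ∑ b, if D4 u w x b then
          m - (f (sw u w x b H) - f (sw u w x y (sw u w x b H))) else 0 :=
        single_le_sum (f := fun b => if D4 u w x b then
          m - (f (sw u w x b H) - f (sw u w x y (sw u w x b H))) else 0)
          (fun b _ => hnn x b) (mem_univ y)
      have k3 : (if D4 u w y x then
          m - (f (sw u w y x H) - f (sw u w x y (sw u w y x H))) else 0) ≤
          ∑ b, if D4 u w y b then
          m - (f (sw u w y b H) - f (sw u w x y (sw u w y b H))) else 0 :=
        single_le_sum (f := fun b => if D4 u w y b then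
          m - (f (sw u w y b H) - f (sw u w x y (sw u w y b H))) else 0)
          (fun b _ => hnn y b) (mem_univ x)
      rw [if_pos hxy, sw_sw] at k2
      rw [if_pos hyx, sw_cols, sw_sw] at k3
      linarith
    have h4 : 4 ≤ μ := le_of_mul_le_mul_right e4 hpos
    exact ⟨by linarith, h4⟩

/-- spectral gap of the two-row switch chain -/
theorem gap2 (u w : V) (huw : u ≠ w) (f : Gr V → ℝ) :
    8 * ∑ G, (f G - avg (Tr u w) f G) ^ 2 ≤ En2 u w f := by
  classical
  obtain ⟨g, hg, hle⟩ := spec2 (L2 u w) (L2_symm u w) 4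
    (fun f => by rw [L2_En2]; have := En2_nonneg u w f; linarith)
    (fun f => spec1 (L2 u w) (L2_symm u w) 4 (fun f μ h1 h2 => L2_eig u w f μ h1 h2) f) f
  rw [L2_En2] at hle
  -- `g` is invariant
  have hg0 : En2 u w g = 0 := by
    have := L2_En2 u w g
    rw [hg] at this
    simp at this
    linarith
  have hinv : ∀ a b, D4 u w a b → ∀ G, g (sw u w a b G) = g G := by
    intro a b hab G
    unfold En2 at hg0
    rw [sum_eq_zero_iff_of_nonneg] at hg0
    · have h1 := hg0 a (mem_univ _)
      rw [sum_eq_zero_iff_of_nonneg] at h1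
      · have h2 := h1 b (mem_univ _)
        rw [if_pos hab, sum_eq_zero_iff_of_nonneg (fun _ _ => sq_nonneg _)] at h2
        have h3 := h2 G (mem_univ _)
        have h4 := pow_eq_zero_iff (two_ne_zero) |>.mp h3
        linarith
      · intro b _
        split_ifs
        · exact sum_nonneg (fun G _ => sq_nonneg _)
        · exact le_rfl
    · intro a _
      refine sum_nonneg (fun b _ => ?_)
      split_ifs
      · exact sum_nonneg (fun G _ => sq_nonneg _)
      · exact le_rfl
  have hgT := inv_of_sw u w huw g hinv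
  have hgavg : avg (Tr u w) g = g := by
    ext G
    exact avg_eq_self _ (Tr_equiv u w) g G (fun y hy => (hgT G y hy).symm)
  -- projection
  set h := f - g with hh
  have e1 : ∀ G, f G - avg (Tr u w) f G = h G - avg (Tr u w) h G := by
    intro G
    rw [hh, avg_sub, hgavg]
    simp only [Pi.sub_apply]; ring
  have e2 : ∑ G, (h G - avg (Tr u w) h G) ^ 2 ≤ ∑ G, h G ^ 2 := by
    have k1 : ∑ G, avg (Tr u w) h G * h G = ∑ G, avg (Tr u w) h G ^ 2 := by
      have := avg_symm (Tr u w) (Tr_equiv u w) h (avg (Tr u w) h)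
      rw [avg_idem _ (Tr_equiv u w)] at this
      simp_rw [pow_two]
      rw [this]
      exact sum_congr rfl (fun G _ => mul_comm _ _)
    have k2 : ∑ G, (h G - avg (Tr u w) h G) ^ 2 = ∑ G, h G ^ 2 -
        2 * ∑ G, avg (Tr u w) h G * h G + ∑ G, avg (Tr u w) h G ^ 2 := by
      rw [mul_sum, ← sum_sub_distrib, ← sum_add_distrib]
      exact sum_congr rfl (fun G _ => by ring)
    have k3 : 0 ≤ ∑ G, avg (Tr u w) h G ^ 2 := sum_nonneg (fun G _ => sq_nonneg _)
    rw [k2, k1]; linarith
  have e3 : ∑ G, h G ^ 2 = ∑ G, (f G - g G) ^ 2 := rfl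
  rw [sum_congr rfl (fun G _ => by rw [e1 G])]
  rw [e3] at e2
  linarith

end Crest.Agent.SC
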