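import Crest.Agent.SCBound
import Crest.Agent.SCGap

/-!
Assembly of the core inequality.
-/

set_option autoImplicit false
set_option linter.unusedSectionVars false
set_option linter.unusedVariables false

namespace Crest.Agent.SC

open Finset

variable {V : Type} [Fintype V] [DecidableEq V]

/-- the overlap sum -/
def Overlap (V : Type) [Fintype V] [DecidableEq V] : Prop := ∀ f : Gr V → ℝ,
  0 ≤ ∑ a, ∑ b, ∑ c, if (a ≠ b ∧ a ≠ c ∧ b ≠ c) then
    ∑ G, (f G - avg (Tr a b) f G) * (f G - avg (Tr a c) f G) else 0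

/-- `1 - R_{uw}` (and `0` on the diagonal) -/
noncomputable def AL (u w : V) : Module.End ℝ (Gr V → ℝ) :=
  if u = w then 0 else 1 - avgL (Tr u w)

theorem AL_self (u : V) : AL u u = 0 := by simp [AL]

theorem AL_ne {u w : V} (h : u ≠ w) (f : Gr V → ℝ) (G : Gr V) :
    AL u w f G = f G - avg (Tr u w) f G := by
  simp [AL, h]

theorem AL_swap (u w : V) : AL u w = AL w u := by
  by_cases h : u = w
  · rw [h]
  · refine LinearMap.ext (fun f => ?_)
    ext G
    rw [AL_ne h, AL_ne (Ne.symm h), avg_Tr_swap]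

theorem AL_P (u w : V) : IsP (AL u w) := by
  unfold AL
  split_ifs
  · exact ⟨by simp, fun f g => by simp [ip]⟩
  · exact (isP_avg _ (Tr_equiv u w)).one_sub

/-- the full operator -/
noncomputable def HH : Module.End ℝ (Gr V → ℝ) := ∑ u, ∑ w, AL u w

theorem HH_apply (f : Gr V → ℝ) : (HH (V := V)) f = ∑ u, ∑ w, AL u w f := by
  simp [HH, LinearMap.sum_apply]

theorem ip_sum_left {ι : Type*} (s : Finset ι) (F : ι → (Gr V → ℝ)) (g : Gr V → ℝ) :
    ip (∑ i ∈ s, F i) g = ∑ i ∈ s, ip (F i) g := by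
  unfold ip
  rw [sum_comm]
  refine sum_congr rfl (fun G _ => ?_)
  rw [Finset.sum_apply, sum_mul]

theorem ip_sum_right {ι : Type*} (s : Finset ι) (F : ι → (Gr V → ℝ)) (g : Gr V → ℝ) :
    ip g (∑ i ∈ s, F i) = ∑ i ∈ s, ip g (F i) := by
  unfold ip
  rw [sum_comm]
  refine sum_congr rfl (fun G _ => ?_)
  rw [Finset.sum_apply, mul_sum]

theorem ip_comm' (f g : Gr V → ℝ) : ip f g = ip g f := by
  unfold ip; exact sum_congr rfl (fun _ _ => mul_comm _ _)

/-- splitting pairs relative to a given pair -/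
theorem split_pairs (u w : V) (huw : u ≠ w) (g : V → V → ℝ) (h0 : ∀ x, g x x = 0) :
    ∑ x, ∑ y, g x y = g u w + g w u +
      ∑ y, (if y ≠ u ∧ y ≠ w then g u y + g w y + g y u + g y w else 0) +
      ∑ x, ∑ y, (if D4 u w x y then g x y else 0) := by
  have e : ∀ x y, g x y =
      (if x = u then (if y = w then g u w else 0) else 0) +
      (if x = w then (if y = u then g w u else 0) else 0) +
      (if x = u then (if y ≠ u ∧ y ≠ w then g u y else 0) else 0) +
      (if x = w then (if y ≠ u ∧ y ≠ w then g w y else 0) else 0) +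
      (if y = u then (if x ≠ u ∧ x ≠ w then g x u else 0) else 0) +
      (if y = w then (if x ≠ u ∧ x ≠ w then g x w else 0) else 0) +
      (if D4 u w x y then g x y else 0) := by
    intro x y
    by_cases hxu : x = u
    · subst hxu
      by_cases hyu : y = x
      · subst hyu; simp [D4, huw, huw.symm, h0]
      · by_cases hyw : y = w
        · subst hyw; simp [D4, huw, huw.symm]
        · simp [D4, huw, hyu, hyw]
    · by_cases hxw : x = w
      · subst hxw
        by_cases hyu : y = u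
        · subst hyu; simp [D4, huw, huw.symm]
        · by_cases hyw : y = x
          · subst hyw; simp [D4, huw, huw.symm, h0]
          · simp [D4, huw, huw.symm, hyu, hyw]
      · by_cases hyu : y = u
        · subst hyu; simp [D4, huw, hxu, hxw]
        · by_cases hyw : y = w
          · subst hyw; simp [D4, huw, hxu, hxw, huw.symm]
          · by_cases hxy : x = y
            · subst hxy; simp [D4, hxu, hxw, h0]
            · have : D4 u w x y := ⟨huw, Ne.symm hxu, Ne.symm hyu, Ne.symm hxw, Ne.symm hyw, hxy⟩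
              simp [this, hxu, hxw, hyu, hyw]
  rw [sum_congr rfl (fun x _ => sum_congr rfl (fun y _ => e x y))]
  simp only [sum_add_distrib]
  have s1 : ∑ x, ∑ y, (if x = u then (if y = w then g u w else 0) else 0) = g u w := by
    simp
  have s2 : ∑ x, ∑ y, (if x = w then (if y = u then g w u else 0) else 0) = g w u := by
    simp
  have s3 : ∀ c : V, ∑ x, ∑ y, (if x = c then (if y ≠ u ∧ y ≠ w then g c y else 0) else 0) =
      ∑ y, (if y ≠ u ∧ y ≠ w then g c y else 0) := by
    intro c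
    rw [sum_comm]
    refine sum_congr rfl (fun y _ => ?_)
    simp
  have s4 : ∀ c : V, ∑ x, ∑ y, (if y = c then (if x ≠ u ∧ x ≠ w then g x c else 0) else 0) =
      ∑ y, (if y ≠ u ∧ y ≠ w then g y c else 0) := by
    intro c
    refine sum_congr rfl (fun y _ => ?_)
    simp
  rw [s1, s2, s3, s3, s4, s4]
  have s5 : ∑ y, (if y ≠ u ∧ y ≠ w then g u y + g w y + g y u + g y w else 0) =
      ∑ y, (if y ≠ u ∧ y ≠ w then g u y else 0) + ∑ y, (if y ≠ u ∧ y ≠ w then g w y else 0) +
      ∑ y, (if y ≠ u ∧ y ≠ w then g y u else 0) + ∑ y, (if y ≠ u ∧ y ≠ w then g y w else 0) := by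
    rw [← sum_add_distrib, ← sum_add_distrib, ← sum_add_distrib]
    refine sum_congr rfl (fun y _ => ?_)
    split_ifs <;> ring
  rw [s5]; ring

/-- variance of a pair -/
noncomputable def VV (u w : V) (f : Gr V → ℝ) : ℝ := ip (AL u w f) (AL u w f)

theorem VV_eq {u w : V} (h : u ≠ w) (f : Gr V → ℝ) :
    VV u w f = ∑ G, (f G - avg (Tr u w) f G) ^ 2 := by
  unfold VV ip
  refine sum_congr rfl (fun G _ => ?_)
  rw [AL_ne h]; ring

theorem VV_self (u : V) (f : Gr V → ℝ) : VV u u f = 0 := by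
  simp [VV, AL_self, ip]

theorem En2_self (u : V) (f : Gr V → ℝ) : En2 u u f = 0 := by
  simp [En2, D4]

theorem norm_HH (hO : Overlap V) (J : JPair V) (f : Gr V → ℝ) :
    1 / (2 * (Fintype.card V : ℝ)) * En f ≤ ip ((HH (V := V)) f) ((HH (V := V)) f) := by
  classical
  set g : V → V → V → V → ℝ := fun u w x y => ip (AL u w f) (AL x y f) with hg
  have gcomm : ∀ u w x y, g u w x y = g x y u w := fun u w x y => ip_comm' _ _
  have gs1 : ∀ u w x y, g u w x y = g w u x y := fun u w x y => by simp only [hg]; rw [AL_swap u w]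
  have gs2 : ∀ u w x y, g u w x y = g u w y x := fun u w x y => by simp only [hg]; rw [AL_swap x y]
  have g01 : ∀ u x y, g u u x y = 0 := fun u x y => by simp [hg, AL_self, ip]
  have g02 : ∀ u w x, g u w x x = 0 := fun u w x => by simp [hg, AL_self, ip]
  have e0 : ip ((HH (V := V)) f) ((HH (V := V)) f) = ∑ u, ∑ w, ∑ x, ∑ y, g u w x y := by
    rw [HH_apply, ip_sum_left]
    refine sum_congr rfl (fun u _ => ?_)
    rw [ip_sum_left]
    refine sum_congr rfl (fun w _ => ?_)
    rw [ip_sum_right]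
    refine sum_congr rfl (fun x _ => ?_)
    rw [ip_sum_right]
  -- the decomposition
  have e1 : ∀ u w, ∑ x, ∑ y, g u w x y = 2 * VV u w f +
      2 * (∑ y, if (u ≠ w ∧ u ≠ y ∧ w ≠ y) then g u w u y else 0) +
      2 * (∑ y, if (w ≠ u ∧ w ≠ y ∧ u ≠ y) then g w u w y else 0) +
      ∑ x, ∑ y, (if D4 u w x y then g u w x y else 0) := by
    intro u w
    by_cases huw : u = w
    · subst huw
      rw [VV_self]
      simp [g01, D4]
    · rw [split_pairs u w huw (g u w) (g02 u w)]
      have k1 : g u w u w = VV u w f := rfl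
      have k2 : g u w w u = VV u w f := by rw [gs2]; rfl
      rw [k1, k2]
      have k3 : ∑ y, (if y ≠ u ∧ y ≠ w then g u w u y + g u w w y + g u w y u + g u w y w else 0) =
          2 * (∑ y, if (u ≠ w ∧ u ≠ y ∧ w ≠ y) then g u w u y else 0) +
          2 * (∑ y, if (w ≠ u ∧ w ≠ y ∧ u ≠ y) then g w u w y else 0) := by
        rw [mul_sum, mul_sum, ← sum_add_distrib]
        refine sum_congr rfl (fun y _ => ?_)
        by_cases hy : y ≠ u ∧ y ≠ w
        · rw [if_pos hy, if_pos ⟨huw, hy.1.symm, hy.2.symm⟩,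
            if_pos ⟨Ne.symm huw, hy.2.symm, hy.1.symm⟩, gs2 u w y u, gs2 u w y w, gs1 u w w y]
          ring
        · rw [if_neg hy, if_neg (fun h => hy ⟨h.2.1.symm, h.2.2.symm⟩),
            if_neg (fun h => hy ⟨h.2.2.symm, h.2.1.symm⟩)]
          ring
      rw [k3]; ring
  -- overlap
  have e2 : ∑ u, ∑ w, ∑ y, (if (u ≠ w ∧ u ≠ y ∧ w ≠ y) then g u w u y else 0) =
      ∑ a, ∑ b, ∑ c, if (a ≠ b ∧ a ≠ c ∧ b ≠ c) then
        ∑ G, (f G - avg (Tr a b) f G) * (f G - avg (Tr a c) f G) else 0 := by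
    refine sum_congr rfl (fun a _ => sum_congr rfl (fun b _ => sum_congr rfl (fun c _ => ?_)))
    by_cases h : a ≠ b ∧ a ≠ c ∧ b ≠ c
    · rw [if_pos h, if_pos h]
      simp only [hg, ip]
      refine sum_congr rfl (fun G _ => ?_)
      rw [AL_ne h.1, AL_ne h.2.1]
    · rw [if_neg h, if_neg h]
  have e3 : ∑ u, ∑ w, ∑ y, (if (w ≠ u ∧ w ≠ y ∧ u ≠ y) then g w u w y else 0) =
      ∑ u, ∑ w, ∑ y, (if (u ≠ w ∧ u ≠ y ∧ w ≠ y) then g u w u y else 0) := by
    rw [sum_comm]
  have e4 := hO f
  rw [← e2] at e4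
  -- disjoint pairs
  have e5 : 1 / 4 * En f - ∑ u, ∑ w, ∑ x, ∑ y, (if D4 u w x y then Nf u w x y f else 0) ≤
      ∑ u, ∑ w, ∑ x, ∑ y, (if D4 u w x y then g u w x y else 0) := by
    have k1 : ∑ u, ∑ w, ∑ x, ∑ y, (if D4 u w x y then Nf u w x y f else 0) =
        ∑ u, ∑ w, ∑ x, ∑ y, (if D4 u w x y then Nf x y u w f else 0) := by
      have r1 : ∀ (F : V → V → V → V → ℝ), ∑ u, ∑ w, ∑ x, ∑ y, F u w x y =
          ∑ u, ∑ w, ∑ x, ∑ y, F x y u w := by
        intro F
        have : ∀ (F : V → V → V → V → ℝ), ∑ u, ∑ w, ∑ x, ∑ y, F u w x y =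
          ∑ p : V × V, ∑ q : V × V, F p.1 p.2 q.1 q.2 := by
          intro F
          rw [Fintype.sum_prod_type]
          refine sum_congr rfl (fun u _ => sum_congr rfl (fun w _ => ?_))
          rw [Fintype.sum_prod_type]
        rw [this, this, sum_comm]
      rw [r1]
      refine sum_congr rfl (fun u _ => sum_congr rfl (fun w _ => sum_congr rfl (fun x _ =>
        sum_congr rfl (fun y _ => ?_))))
      by_cases hD : D4 u w x y
      · rw [if_pos hD, if_pos hD.swap]
      · rw [if_neg hD, if_neg (fun h => hD h.swap)]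
    have k2 : 1 / 4 * En f - 1 / 2 * (∑ u, ∑ w, ∑ x, ∑ y, (if D4 u w x y then Nf u w x y f else 0))
        - 1 / 2 * (∑ u, ∑ w, ∑ x, ∑ y, (if D4 u w x y then Nf x y u w f else 0)) ≤
        ∑ u, ∑ w, ∑ x, ∑ y, (if D4 u w x y then g u w x y else 0) := by
      unfold En En2
      simp only [mul_sum]
      simp only [← sum_sub_distrib]
      refine sum_le_sum (fun u _ => sum_le_sum (fun w _ => sum_le_sum (fun x _ =>
        sum_le_sum (fun y _ => ?_))))
      by_cases hD : D4 u w x y
      · simp only [hD, if_true]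
        have h1 := disj_est hD f
        have h2 : g u w x y = ∑ G, (f G - avg (Tr u w) f G) * (f G - avg (Tr x y) f G) := by
          simp only [hg, ip]
          refine sum_congr rfl (fun G _ => ?_)
          rw [AL_ne hD.1, AL_ne hD.2.2.2.2.2]
        rw [h2]
        exact h1
      · simp [hD]
    rw [← k1] at k2
    linarith
  -- the defect bound
  have e6 : ∑ u, ∑ w, ∑ x, ∑ y, (if D4 u w x y then Nf u w x y f else 0) ≤
      2 * ∑ u, ∑ w, VV u w f + (1 - 2 / (Fintype.card V : ℝ)) * (1 / 4) * En f := by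
    unfold En
    rw [mul_sum, mul_sum, ← sum_add_distrib]
    refine sum_le_sum (fun u _ => ?_)
    rw [mul_sum, mul_sum, ← sum_add_distrib]
    refine sum_le_sum (fun w _ => ?_)
    by_cases huw : u = w
    · subst huw
      rw [VV_self, En2_self]
      simp [D4]
    · rw [VV_eq huw]
      exact N_bound J huw f
  have e7 : ∑ u, ∑ w, ∑ x, ∑ y, g u w x y = 2 * ∑ u, ∑ w, VV u w f +
      2 * (∑ u, ∑ w, ∑ y, (if (u ≠ w ∧ u ≠ y ∧ w ≠ y) then g u w u y else 0)) +
      2 * (∑ u, ∑ w, ∑ y, (if (w ≠ u ∧ w ≠ y ∧ u ≠ y) then g w u w y else 0)) +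
      ∑ u, ∑ w, ∑ x, ∑ y, (if D4 u w x y then g u w x y else 0) := by
    rw [mul_sum, mul_sum, mul_sum, ← sum_add_distrib, ← sum_add_distrib, ← sum_add_distrib]
    refine sum_congr rfl (fun u _ => ?_)
    rw [mul_sum, mul_sum, mul_sum, ← sum_add_distrib, ← sum_add_distrib, ← sum_add_distrib]
    exact sum_congr rfl (fun w _ => e1 u w)
  rw [e0, e7, e3]
  have e8 : 1 / 4 * En f - (1 - 2 / (Fintype.card V : ℝ)) * (1 / 4) * En f =
      1 / (2 * (Fintype.card V : ℝ)) * En f := by
    by_cases hn : (Fintype.card V : ℝ) = 0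
    · rw [hn]; ring
    · field_simp; ring
  linarith

theorem core_of (hO : Overlap V) (J : JPair V) (hV : 4 ≤ Fintype.card V) (f : Gr V → ℝ) :
    ∃ g : Gr V → ℝ, (∀ u w a b : V, D4 u w a b → ∀ G : Gr V, g (sw u w a b G) = g G) ∧
      ∑ G, (f G - g G) ^ 2 ≤ (Fintype.card V : ℝ) / 32 * En f := by
  classical
  have hn : (0 : ℝ) < (Fintype.card V : ℝ) := by
    have : 0 < Fintype.card V := by omega
    exact_mod_cast this
  -- form of HH
  have hform : ∀ f : Gr V → ℝ, ip ((HH (V := V)) f) f = ∑ u, ∑ w, VV u w f := by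
    intro f
    rw [HH_apply, ip_sum_left]
    refine sum_congr rfl (fun u _ => ?_)
    rw [ip_sum_left]
    refine sum_congr rfl (fun w _ => ?_)
    unfold VV
    rw [(AL_P u w).symm f (AL u w f), ← Module.End.mul_apply, (AL_P u w).idem, (AL_P u w).symm]
  have hVn : ∀ (f : Gr V → ℝ) u w, 0 ≤ VV u w f := fun f u w => ip_self_nonneg _
  have hVE : ∀ f : Gr V → ℝ, 8 * ∑ u, ∑ w, VV u w f ≤ En f := by
    intro f
    unfold En
    rw [mul_sum]
    refine sum_le_sum (fun u _ => ?_)
    rw [mul_sum]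
    refine sum_le_sum (fun w _ => ?_)
    by_cases huw : u = w
    · subst huw; rw [VV_self, En2_self]; simp
    · rw [VV_eq huw]; exact gap2 u w huw f
  have hsymm : ∀ f g : Gr V → ℝ, ∑ G, (HH (V := V)) f G * g G = ∑ G, f G * (HH (V := V)) g G := by
    intro f g
    change ip ((HH (V := V)) f) g = ip f ((HH (V := V)) g)
    rw [HH_apply, HH_apply, ip_sum_left, ip_sum_right]
    refine sum_congr rfl (fun u _ => ?_)
    rw [ip_sum_left, ip_sum_right]
    exact sum_congr rfl (fun w _ => (AL_P u w).symm f g)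
  obtain ⟨g, hg, hle⟩ := spec2 (HH (V := V)) hsymm (4 / (Fintype.card V : ℝ))
    (fun f => by
      change 0 ≤ ip ((HH (V := V)) f) f
      rw [hform]
      exact sum_nonneg (fun u _ => sum_nonneg (fun w _ => hVn f u w)))
    (fun f => by
      have h1 := norm_HH hO J f
      have h2 := hVE f
      have h3 : ∑ G, ((HH (V := V)) f G) ^ 2 = ip ((HH (V := V)) f) ((HH (V := V)) f) := by
        unfold ip; exact sum_congr rfl (fun G _ => pow_two _)
      have h4 : ∑ G, (HH (V := V)) f G * f G = ∑ u, ∑ w, VV u w f := hform f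
      rw [h3, h4]
      refine le_trans ?_ h1
      have h5 : 4 / (Fintype.card V : ℝ) * ∑ u, ∑ w, VV u w f =
          1 / (2 * (Fintype.card V : ℝ)) * (8 * ∑ u, ∑ w, VV u w f) := by
        field_simp; ring
      rw [h5]
      exact mul_le_mul_of_nonneg_left h2 (by positivity)) f
  refine ⟨g, ?_, ?_⟩
  · -- invariance
    have h0 : ∑ u, ∑ w, VV u w g = 0 := by
      rw [← hform g, hg]; simp [ip]
    intro u w a b hD G
    have h1 : VV u w g = 0 := by
      rw [sum_eq_zero_iff_of_nonneg (fun u _ => sum_nonneg (fun w _ => hVn g u w))] at h0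
      have h2 := h0 u (mem_univ _)
      rw [sum_eq_zero_iff_of_nonneg (fun w _ => hVn g u w)] at h2
      exact h2 w (mem_univ _)
    rw [VV_eq hD.1, sum_eq_zero_iff_of_nonneg (fun _ _ => sq_nonneg _)] at h1
    have h2 : ∀ G, g G = avg (Tr u w) g G := by
      intro G
      have := h1 G (mem_univ _)
      have := pow_eq_zero_iff (two_ne_zero) |>.mp this
      linarith
    rw [h2 G, h2 (sw u w a b G)]
    exact (avg_congr _ (Tr_equiv u w) g (sw_Tr hD G)).symm
  · have h4 : ∑ G, (HH (V := V)) f G * f G = ∑ u, ∑ w, VV u w f := hform f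
    rw [h4] at hle
    have h2 := hVE f
    have h5 : ∑ G, (f G - g G) ^ 2 ≤ (Fintype.card V : ℝ) / 4 * ∑ u, ∑ w, VV u w f := by
      have := mul_le_mul_of_nonneg_left hle (by positivity : (0 : ℝ) ≤ (Fintype.card V : ℝ) / 4)
      have e : (Fintype.card V : ℝ) / 4 * (4 / (Fintype.card V : ℝ) * ∑ G, (f G - g G) ^ 2) =
          ∑ G, (f G - g G) ^ 2 := by field_simp
      rw [e] at this
      exact this
    have h6 : (Fintype.card V : ℝ) / 4 * ∑ u, ∑ w, VV u w f ≤ (Fintype.card V : ℝ) / 32 * En f := by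
      have := mul_le_mul_of_nonneg_left h2 (by positivity : (0 : ℝ) ≤ (Fintype.card V : ℝ) / 32)
      linarith
    linarith

end Crest.Agent.SC
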