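import Crest.Agent.SCProj

/-!
The estimate for two disjoint pairs of rows.
-/

set_option autoImplicit false
set_option linter.unusedSectionVars false
set_option linter.unusedVariables false

namespace Crest.Agent.SC

open Finset

variable {V : Type} [Fintype V] [DecidableEq V]

/-- the number of edges in the block -/
def blk (u w p q : V) (G : Gr V) : ℕ :=
  (G s(u, p)).toNat + (G s(w, p)).toNat + ((G s(u, q)).toNat + (G s(w, q)).toNat)

theorem blk_swap (u w p q : V) (G : Gr V) : blk p q u w G = blk u w p q G := by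
  unfold blk
  rw [Sym2.eq_swap (a := p) (b := u), Sym2.eq_swap (a := q) (b := u),
    Sym2.eq_swap (a := p) (b := w), Sym2.eq_swap (a := q) (b := w)]
  omega

theorem blk_Tr {u w p q : V} (h : D4 u w p q) {G G' : Gr V} (hT : Tr u w G G') :
    blk u w p q G = blk u w p q G' := by
  obtain ⟨h1, h2, h3, h4, h5, h6⟩ := h
  unfold blk
  rw [hT.2.1 p h2.symm h4.symm, hT.2.1 q h3.symm h5.symm]

theorem blk_Tr' {u w p q : V} (h : D4 u w p q) {G G' : Gr V} (hT : Tr p q G G') :
    blk u w p q G = blk u w p q G' := by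
  rw [← blk_swap u w p q G, ← blk_swap u w p q G']
  exact blk_Tr h.swap hT

theorem Alt_blk {u w p q : V} {G : Gr V} (h : Alt u w p q G) : blk u w p q G = 2 := by
  rw [Alt_iff] at h
  unfold blk
  rw [h.1, h.2.1, h.2.2]
  cases G s(w, p) <;> rfl

/-- trades in the columns outside the block are trades -/
theorem TrZ4_iff {u w p q : V} (h : D4 u w p q) {G G' : Gr V} :
    TrZ (cols4 u w p q) u w G G' ↔ Tr u w G G' ∧ (G s(u, p) = G' s(u, p)) ∧
      (G s(w, p) = G' s(w, p)) ∧ (G s(u, q) = G' s(u, q)) ∧ (G s(w, q) = G' s(w, q)) := by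
  have h0 := h
  obtain ⟨h1, h2, h3, h4, h5, h6⟩ := h
  have hp : ∀ c, c = u ∨ c = w → ∀ z ∈ cols4 u w p q, s(c, p) ≠ s(u, z) ∧ s(c, p) ≠ s(w, z) := by
    intro c hc z hz
    simp only [cols4, mem_filter, mem_univ, true_and] at hz
    simp only [ne_eq, Sym2.eq_iff, not_or, not_and]
    rcases hc with rfl | rfl <;> refine ⟨⟨?_, ?_⟩, ⟨?_, ?_⟩⟩ <;> tauto
  have hq : ∀ c, c = u ∨ c = w → ∀ z ∈ cols4 u w p q, s(c, q) ≠ s(u, z) ∧ s(c, q) ≠ s(w, z) := by
    intro c hc z hz
    simp only [cols4, mem_filter, mem_univ, true_and] at hz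
    simp only [ne_eq, Sym2.eq_iff, not_or, not_and]
    rcases hc with rfl | rfl <;> refine ⟨⟨?_, ?_⟩, ⟨?_, ?_⟩⟩ <;> tauto
  constructor
  · rintro ⟨a1, a2, a3⟩
    have e1 : G s(u, p) = G' s(u, p) := a1 _ (hp u (Or.inl rfl))
    have e2 : G s(w, p) = G' s(w, p) := a1 _ (hp w (Or.inr rfl))
    have e3 : G s(u, q) = G' s(u, q) := a1 _ (hq u (Or.inl rfl))
    have e4 : G s(w, q) = G' s(w, q) := a1 _ (hq w (Or.inr rfl))
    refine ⟨⟨fun e he => a1 e (fun z hz => ?_), fun z hz hz' => ?_, ?_⟩, e1, e2, e3, e4⟩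
    · simp only [cols4, mem_filter, mem_univ, true_and] at hz
      exact he z hz.1 hz.2.1
    · by_cases zp : z = p
      · rw [zp, e1, e2]
      · by_cases zq : z = q
        · rw [zq, e3, e4]
        · exact a2 z (by simp only [cols4, mem_filter, mem_univ, true_and]; tauto)
    · change ∑ z ∈ cols u w, _ = ∑ z ∈ cols u w, _
      rw [sum_cols u w p q h0, sum_cols u w p q h0, a3, e1, e3]
  · rintro ⟨⟨a1, a2, a3⟩, e1, e2, e3, e4⟩
    refine ⟨fun e he => ?_, fun z hz => ?_, ?_⟩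
    · by_cases hb : e = s(u, p) ∨ e = s(w, p) ∨ e = s(u, q) ∨ e = s(w, q)
      · rcases hb with rfl | rfl | rfl | rfl
        · exact e1
        · exact e2
        · exact e3
        · exact e4
      · push Not at hb
        refine a1 e (fun z hz hz' => ?_)
        by_cases zp : z = p
        · subst zp; exact ⟨hb.1, hb.2.1⟩
        · by_cases zq : z = q
          · subst zq; exact ⟨hb.2.2.1, hb.2.2.2⟩
          · exact he z (by simp only [cols4, mem_filter, mem_univ, true_and]; tauto)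
    · simp only [cols4, mem_filter, mem_univ, true_and] at hz
      exact a2 z hz.1 hz.2.1
    · change ∑ z ∈ cols u w, _ = ∑ z ∈ cols u w, _ at a3
      rw [sum_cols u w p q h0, sum_cols u w p q h0, e1, e3] at a3
      omega

/-- the restricted averaging relation -/
abbrev rS (u w p q : V) : Gr V → Gr V → Prop := TrZ (cols4 u w p q) u w

instance (Z : Finset V) (u w : V) : DecidableRel (TrZ Z u w) := fun G G' => by
  unfold TrZ; infer_instance

/-- trades preserving the number of edges from `u` into `{p,q}` -/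
def rU (u w p q : V) (G G' : Gr V) : Prop :=
  Tr u w G G' ∧ (G s(u, p)).toNat + (G s(u, q)).toNat = (G' s(u, p)).toNat + (G' s(u, q)).toNat

instance (u w p q : V) : DecidableRel (rU u w p q) := fun G G' => by
  unfold rU; infer_instance

theorem rU_equiv (u w p q : V) : Equivalence (rU u w p q) where
  refl G := ⟨(Tr_equiv u w).refl G, rfl⟩
  symm h := ⟨(Tr_equiv u w).symm h.1, h.2.symm⟩
  trans h h' := ⟨(Tr_equiv u w).trans h.1 h'.1, h.2.trans h'.2⟩

theorem rS_equiv (u w p q : V) : Equivalence (rS u w p q) := TrZ_equiv _ _ _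

theorem rS_le_Tr {u w p q : V} (h : D4 u w p q) {G G' : Gr V} (hS : rS u w p q G G') :
    Tr u w G G' := ((TrZ4_iff h).mp hS).1

theorem rS_le_rU {u w p q : V} (h : D4 u w p q) {G G' : Gr V} (hS : rS u w p q G G') :
    rU u w p q G G' := by
  obtain ⟨h1, h2, h3, h4, h5⟩ := (TrZ4_iff h).mp hS
  exact ⟨h1, by rw [h2, h4]⟩

theorem rSw_le_rU {u w p q : V} (h : D4 u w p q) {G G' : Gr V} (hS : rSw u w p q G G') :
    rU u w p q G G' := by
  refine ⟨rSw_le_Tr h hS, ?_⟩
  rcases hS with hS | hS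
  · rw [hS]
  · by_cases hA : Alt u w p q G
    · rw [hS, sw_ua hA, sw_ub hA]
      rw [Alt_iff] at hA
      rw [hA.1, hA.2.1]
      cases G s(w, p) <;> rfl
    · rw [hS, sw_of_not hA]

theorem bool_block1 : ∀ a b c d a' b' c' d' : Bool,
    a.toNat + b.toNat = a'.toNat + b'.toNat → c.toNat + d.toNat = c'.toNat + d'.toNat →
    a.toNat + c.toNat = a'.toNat + c'.toNat →
    (a = a' ∧ b = b' ∧ c = c' ∧ d = d') ∨
    ((a = !b) ∧ (c = b) ∧ (d = !b) ∧ (!a) = a' ∧ (!b) = b' ∧ (!c) = c' ∧ (!d) = d') := by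
  decide

theorem rU_gen {u w p q : V} (h : D4 u w p q) {G G' : Gr V} (hU : rU u w p q G G') :
    rS u w p q G G' ∨ (Alt u w p q G ∧ rS u w p q (sw u w p q G) G') := by
  have h0 := h
  obtain ⟨h1, h2, h3, h4, h5, h6⟩ := h
  obtain ⟨hT, hs⟩ := hU
  have c1 := hT.2.1 p h2.symm h4.symm
  have c2 := hT.2.1 q h3.symm h5.symm
  rcases bool_block1 _ _ _ _ _ _ _ _ c1 c2 hs with ⟨e1, e2, e3, e4⟩ | ⟨a1, a2, a3, e1, e2, e3, e4⟩
  · left
    exact (TrZ4_iff h0).mpr ⟨hT, e1, e2, e3, e4⟩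
  · right
    have hA : Alt u w p q G := Alt_iff.mpr ⟨a1, a2, a3⟩
    refine ⟨hA, (TrZ4_iff h0).mpr ⟨?_, ?_, ?_, ?_, ?_⟩⟩
    · exact (Tr_equiv u w).trans ((Tr_equiv u w).symm (sw_Tr h0 G)) hT
    · rw [sw_ua hA]; exact e1
    · rw [sw_wa hA]; exact e2
    · rw [sw_ub hA]; exact e3
    · rw [sw_wb hA]; exact e4

theorem slots4_blk {u w p q : V} (h : D4 u w p q) (e : Sym2 V)
    (he : Slots (cols4 u w p q) u w e) : ¬ Blk u w p q e := by
  obtain ⟨h1, h2, h3, h4, h5, h6⟩ := h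
  obtain ⟨z, hz, he⟩ := he
  simp only [cols4, mem_filter, mem_univ, true_and] at hz
  rcases he with rfl | rfl <;> simp only [Blk, Sym2.eq_iff, not_or, not_and] <;>
    refine ⟨⟨?_, ?_⟩, ⟨?_, ?_⟩, ⟨?_, ?_⟩, ⟨?_, ?_⟩⟩ <;> tauto

theorem slots4_blk' {u w p q : V} (h : D4 u w p q) (e : Sym2 V)
    (he : Slots (cols4 p q u w) p q e) : ¬ Blk u w p q e := by
  obtain ⟨h1, h2, h3, h4, h5, h6⟩ := h
  obtain ⟨z, hz, he⟩ := he
  simp only [cols4, mem_filter, mem_univ, true_and] at hz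
  rcases he with rfl | rfl <;> simp only [Blk, Sym2.eq_iff, not_or, not_and] <;>
    refine ⟨⟨?_, ?_⟩, ⟨?_, ?_⟩, ⟨?_, ?_⟩, ⟨?_, ?_⟩⟩ <;> tauto

theorem slots4_slots {u w p q : V} (h : D4 u w p q) (e : Sym2 V)
    (he : Slots (cols4 u w p q) u w e) : ¬ Slots (cols p q) p q e := by
  obtain ⟨h1, h2, h3, h4, h5, h6⟩ := h
  obtain ⟨z, hz, he⟩ := he
  simp only [cols4, mem_filter, mem_univ, true_and] at hz
  rw [not_slots]
  intro c hc
  simp only [cols, mem_filter, mem_univ, true_and] at hc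
  rcases he with rfl | rfl <;> simp only [ne_eq, Sym2.eq_iff, not_or, not_and] <;>
    refine ⟨⟨?_, ?_⟩, ⟨?_, ?_⟩⟩ <;> tauto

theorem slots4_slots4 {u w p q : V} (h : D4 u w p q) (e : Sym2 V)
    (he : Slots (cols4 u w p q) u w e) : ¬ Slots (cols4 p q u w) p q e := by
  intro h'
  refine slots4_slots h e he ?_
  obtain ⟨z, hz, hz'⟩ := h'
  refine ⟨z, ?_, hz'⟩
  simp only [cols4, cols, mem_filter, mem_univ, true_and] at hz ⊢
  exact ⟨hz.1, hz.2.1⟩

/-- averaging over `rU` is a composition -/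
theorem avg_rU {u w p q : V} (h : D4 u w p q) (f : Gr V → ℝ) :
    avg (rS u w p q) (avg (rSw u w p q) f) = avg (rU u w p q) f := by
  have hc : ∀ f : Gr V → ℝ, avg (rS u w p q) (avg (rSw u w p q) f) =
      avg (rSw u w p q) (avg (rS u w p q) f) :=
    avg_comm_loc (rS_equiv _ _ _ _) (rSw_equiv _ _ _ _) (TrZ_loc _ _ _) (rSw_loc _ _ _ _)
      (slots4_blk h)
  set g := avg (rS u w p q) (avg (rSw u w p q) f) with hg
  have e1 : avg (rU u w p q) g = avg (rU u w p q) f := by
    rw [hg, avg_avg_of_le' _ _ (rS_equiv _ _ _ _) (rU_equiv _ _ _ _) (fun _ _ => rS_le_rU h),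
      avg_avg_of_le' _ _ (rSw_equiv _ _ _ _) (rU_equiv _ _ _ _) (fun _ _ => rSw_le_rU h)]
  rw [← e1]
  ext G
  symm
  refine avg_eq_self _ (rU_equiv _ _ _ _) g G (fun G' hG' => ?_)
  have i1 : ∀ A B, rS u w p q A B → g A = g B := fun A B hAB =>
    avg_congr _ (rS_equiv _ _ _ _) _ hAB
  have i2 : ∀ A B, rSw u w p q A B → g A = g B := fun A B hAB => by
    rw [hg, hc]; exact avg_congr _ (rSw_equiv _ _ _ _) _ hAB
  rcases rU_gen h hG' with h1 | ⟨h1, h2⟩
  · exact (i1 _ _ h1).symm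
  · rw [i2 G (sw u w p q G) (Or.inr rfl), i1 _ _ h2]

/-- the defect -/
noncomputable def Nf (u w p q : V) (f : Gr V → ℝ) : ℝ :=
  ∑ G, if Alt u w p q G then (avg (rU u w p q) f G - avg (Tr u w) f G) ^ 2 else 0

/-! ### the sector `blk ≠ 2` -/

/-- trades with a block of size different from 2 -/
def rT (u w p q : V) (G G' : Gr V) : Prop := G = G' ∨ (blk u w p q G ≠ 2 ∧ Tr u w G G')

instance (u w p q : V) : DecidableRel (rT u w p q) := fun G G' => by
  unfold rT; infer_instance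

theorem rT_equiv {u w p q : V} (h : D4 u w p q) : Equivalence (rT u w p q) where
  refl _ := Or.inl rfl
  symm {x y} hxy := by
    rcases hxy with rfl | ⟨h1, h2⟩
    · exact Or.inl rfl
    · exact Or.inr ⟨by rw [← blk_Tr h h2]; exact h1, (Tr_equiv u w).symm h2⟩
  trans {x y z} hxy hyz := by
    rcases hxy with rfl | ⟨h1, h2⟩
    · exact hyz
    · rcases hyz with rfl | ⟨h3, h4⟩
      · exact Or.inr ⟨h1, h2⟩
      · exact Or.inr ⟨h1, (Tr_equiv u w).trans h2 h4⟩

theorem bool_block2 : ∀ a b c d a' b' c' d' : Bool,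
    a.toNat + b.toNat + (c.toNat + d.toNat) ≠ 2 →
    a.toNat + b.toNat + (c.toNat + d.toNat) = a'.toNat + b'.toNat + (c'.toNat + d'.toNat) →
    ∃ a'' b'' c'' d'' : Bool, a''.toNat + c''.toNat = a.toNat + c.toNat ∧
      b''.toNat + d''.toNat = b.toNat + d.toNat ∧ a''.toNat + b''.toNat = a'.toNat + b'.toNat ∧
      c''.toNat + d''.toNat = c'.toNat + d'.toNat := by
  decide

theorem bool_block3 : ∀ a b c d a' b' c' d' : Bool,
    a.toNat + b.toNat + (c.toNat + d.toNat) ≠ 2 →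
    a.toNat + b.toNat = a'.toNat + b'.toNat → c.toNat + d.toNat = c'.toNat + d'.toNat →
    a.toNat + c.toNat = a'.toNat + c'.toNat → b.toNat + d.toNat = b'.toNat + d'.toNat →
    a = a' ∧ b = b' ∧ c = c' ∧ d = d' := by
  decide

theorem rT_hc {u w p q : V} (h : D4 u w p q) (x y z : Gr V) (hxy : rT u w p q x y)
    (hyz : rT p q u w y z) : ∃ v, rT p q u w x v ∧ rT u w p q v z := by
  classical
  have h0 := h
  have hne := h.ne
  rcases hxy with rfl | ⟨hb1, hx⟩
  · exact ⟨z, hyz, Or.inl rfl⟩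
  rcases hyz with rfl | ⟨hb2, hy⟩
  · exact ⟨x, Or.inl rfl, Or.inr ⟨hb1, hx⟩⟩
  obtain ⟨h1, h2, h3, h4, h5, h6⟩ := h
  have hbx : blk u w p q x = blk u w p q z := (blk_Tr h0 hx).trans (blk_Tr' h0 hy)
  obtain ⟨a, b, c, d, hr1, hr2, hc1, hc2⟩ :=
    bool_block2 (x s(u, p)) (x s(w, p)) (x s(u, q)) (x s(w, q))
      (z s(u, p)) (z s(w, p)) (z s(u, q)) (z s(w, q)) hb1 hbx
  set v : Gr V := fun e => if e = s(u, p) then a else if e = s(w, p) then b else
    if e = s(u, q) then c else if e = s(w, q) then d else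
    if Slots (cols p q) p q e then z e else x e with hv
  have v1 : v s(u, p) = a := by simp [hv]
  have v2 : v s(w, p) = b := by simp [hv, hne.1.symm]
  have v3 : v s(u, q) = c := by simp [hv, hne.2.1.symm, hne.2.2.2.1.symm]
  have v4 : v s(w, q) = d := by
    simp [hv, hne.2.2.1.symm, hne.2.2.2.2.1.symm, hne.2.2.2.2.2.symm]
  have v5 : ∀ e, ¬ Blk u w p q e → Slots (cols p q) p q e → v e = z e := by
    intro e he he'
    simp only [Blk, not_or] at he
    simp [hv, he.1, he.2.1, he.2.2.1, he.2.2.2, he']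
  have v6 : ∀ e, ¬ Blk u w p q e → ¬ Slots (cols p q) p q e → v e = x e := by
    intro e he he'
    simp only [Blk, not_or] at he
    simp [hv, he.1, he.2.1, he.2.2.1, he.2.2.2, he']
  -- values on the columns outside the block
  have u1 : ∀ t, t ≠ u → t ≠ w → t ≠ p → t ≠ q →
      v s(u, t) = x s(u, t) ∧ v s(w, t) = x s(w, t) ∧ y s(u, t) = z s(u, t) ∧
        y s(w, t) = z s(w, t) := by
    intro t t1 t2 t3 t4
    have m : t ∈ cols4 u w p q := by simp only [cols4, mem_filter, mem_univ, true_and]; tauto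
    refine ⟨v6 _ (slots4_blk h0 _ (slots_u m)) (slots4_slots h0 _ (slots_u m)),
      v6 _ (slots4_blk h0 _ (slots_w m)) (slots4_slots h0 _ (slots_w m)),
      (Tr_loc p q).off _ _ hy _ (slots4_slots h0 _ (slots_u m)),
      (Tr_loc p q).off _ _ hy _ (slots4_slots h0 _ (slots_w m))⟩
  have u2 : ∀ t, t ≠ u → t ≠ w → t ≠ p → t ≠ q →
      v s(p, t) = z s(p, t) ∧ v s(q, t) = z s(q, t) ∧ x s(p, t) = y s(p, t) ∧
        x s(q, t) = y s(q, t) := by
    intro t t1 t2 t3 t4
    have m : t ∈ cols4 p q u w := by simp only [cols4, mem_filter, mem_univ, true_and]; tauto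
    have m' : t ∈ cols p q := by simp only [cols, mem_filter, mem_univ, true_and]; tauto
    refine ⟨v5 _ (slots4_blk' h0 _ (slots_u m)) (slots_u m'),
      v5 _ (slots4_blk' h0 _ (slots_w m)) (slots_w m'),
      (Tr_loc u w).off _ _ hx _ (slots4_slots h0.swap _ (slots_u m)),
      (Tr_loc u w).off _ _ hx _ (slots4_slots h0.swap _ (slots_w m))⟩
  have sw1 : s(p, u) = s(u, p) := Sym2.eq_swap
  have sw2 : s(q, u) = s(u, q) := Sym2.eq_swap
  have sw3 : s(p, w) = s(w, p) := Sym2.eq_swap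
  have sw4 : s(q, w) = s(w, q) := Sym2.eq_swap
  -- relations of `x → y → z`
  have cx1 := hx.2.1 p h2.symm h4.symm
  have cx2 := hx.2.1 q h3.symm h5.symm
  have cx3 := hx.2.2
  change ∑ t ∈ cols u w, _ = ∑ t ∈ cols u w, _ at cx3
  rw [sum_cols u w p q h0, sum_cols u w p q h0] at cx3
  have cy1 := hy.2.1 u h2 h3
  have cy2 := hy.2.1 w h4 h5
  have cy3 := hy.2.2
  change ∑ t ∈ cols p q, _ = ∑ t ∈ cols p q, _ at cy3
  rw [sum_cols p q u w h0.swap, sum_cols p q u w h0.swap] at cy3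
  rw [sw1, sw2] at cy1
  rw [sw3, sw4] at cy2
  rw [sw1, sw3] at cy3
  refine ⟨v, Or.inr ⟨?_, ⟨fun e he => ?_, fun t ht ht' => ?_, ?_⟩⟩,
    Or.inr ⟨?_, ⟨fun e he => ?_, fun t ht ht' => ?_, ?_⟩⟩⟩
  · rw [blk_swap]; exact hb1
  · -- off
    have hs : ¬ Slots (cols p q) p q e := by
      rw [not_slots]; intro z' hz'
      simp only [cols, mem_filter, mem_univ, true_and] at hz'
      exact he z' hz'.1 hz'.2
    have hbk : ¬ Blk u w p q e := by
      simp only [Blk, not_or]
      have q1 := he u h2 h3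
      have q2 := he w h4 h5
      rw [sw1, sw2] at q1
      rw [sw3, sw4] at q2
      exact ⟨q1.1, q2.1, q1.2, q2.2⟩
    exact (v6 e hbk hs).symm
  · -- columns
    by_cases t1 : t = u
    · subst t1
      rw [sw1, sw2, v1, v3]; exact hr1.symm
    · by_cases t2 : t = w
      · subst t2
        rw [sw3, sw4, v2, v4]; exact hr2.symm
      · obtain ⟨r1, r2, r3, r4⟩ := u2 t t1 t2 ht ht'
        rw [r1, r2, r3, r4]
        exact hy.2.1 t ht ht'
  · change ∑ t ∈ cols p q, _ = ∑ t ∈ cols p q, _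
    rw [sum_cols p q u w h0.swap, sum_cols p q u w h0.swap, sw1, sw3, v1, v2]
    have k1 : ∀ t ∈ cols4 p q u w, (v s(p, t)).toNat = (z s(p, t)).toNat := by
      intro t ht
      simp only [cols4, mem_filter, mem_univ, true_and] at ht
      rw [(u2 t ht.2.2.1 ht.2.2.2 ht.1 ht.2.1).1]
    have k2 : ∀ t ∈ cols4 p q u w, (x s(p, t)).toNat = (y s(p, t)).toNat := by
      intro t ht
      simp only [cols4, mem_filter, mem_univ, true_and] at ht
      rw [(u2 t ht.2.2.1 ht.2.2.2 ht.1 ht.2.1).2.2.1]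
    rw [sum_congr rfl k1, sum_congr rfl k2]
    omega
  · -- block of v
    unfold blk at hb1 ⊢
    rw [v1, v2, v3, v4]
    omega
  · -- off
    have hbk : ¬ Blk u w p q e := by
      simp only [Blk, not_or]
      have q1 := he p h2.symm h4.symm
      have q2 := he q h3.symm h5.symm
      exact ⟨q1.1, q1.2, q2.1, q2.2⟩
    by_cases hs : Slots (cols p q) p q e
    · exact v5 e hbk hs
    · rw [v6 e hbk hs]
      exact (hx.1 e he).trans ((Tr_loc p q).off _ _ hy _ hs)
  · by_cases t1 : t = p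
    · subst t1
      rw [v1, v2]; exact hc1
    · by_cases t2 : t = q
      · subst t2
        rw [v3, v4]; exact hc2
      · obtain ⟨r1, r2, r3, r4⟩ := u1 t ht ht' t1 t2
        rw [r1, r2, ← r3, ← r4]
        exact hx.2.1 t ht ht'
  · change ∑ t ∈ cols u w, _ = ∑ t ∈ cols u w, _
    rw [sum_cols u w p q h0, sum_cols u w p q h0, v1, v3]
    have k1 : ∀ t ∈ cols4 u w p q, (v s(u, t)).toNat = (x s(u, t)).toNat := by
      intro t ht
      simp only [cols4, mem_filter, mem_univ, true_and] at ht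
      rw [(u1 t ht.1 ht.2.1 ht.2.2.1 ht.2.2.2).1]
    have k2 : ∀ t ∈ cols4 u w p q, (z s(u, t)).toNat = (y s(u, t)).toNat := by
      intro t ht
      simp only [cols4, mem_filter, mem_univ, true_and] at ht
      rw [(u1 t ht.1 ht.2.1 ht.2.2.1 ht.2.2.2).2.2.1]
    rw [sum_congr rfl k1, sum_congr rfl k2]
    omega

theorem rT_hu {u w p q : V} (h : D4 u w p q) (x y : Gr V) (h1 : rT u w p q x y)
    (h2 : rT p q u w x y) : x = y := by
  rcases h1 with h1 | ⟨hb, h1⟩
  · exact h1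
  rcases h2 with h2 | ⟨_, h2⟩
  · exact h2
  have h0 := h
  obtain ⟨n1, n2, n3, n4, n5, n6⟩ := h
  have c1 := h1.2.1 p n2.symm n4.symm
  have c2 := h1.2.1 q n3.symm n5.symm
  have c3 := h2.2.1 u n2 n3
  have c4 := h2.2.1 w n4 n5
  rw [Sym2.eq_swap (a := p) (b := u), Sym2.eq_swap (a := q) (b := u)] at c3
  rw [Sym2.eq_swap (a := p) (b := w), Sym2.eq_swap (a := q) (b := w)] at c4
  obtain ⟨e1, e2, e3, e4⟩ := bool_block3 _ _ _ _ _ _ _ _ hb c1 c2 c3 c4
  funext e
  by_cases hbk : Blk u w p q e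
  · rcases hbk with rfl | rfl | rfl | rfl
    · exact e1
    · exact e2
    · exact e3
    · exact e4
  · by_cases hs : Slots (cols u w) u w e
    · have hs4 : Slots (cols4 u w p q) u w e := by
        obtain ⟨z, hz, he⟩ := hs
        simp only [cols, mem_filter, mem_univ, true_and] at hz
        refine ⟨z, ?_, he⟩
        simp only [cols4, mem_filter, mem_univ, true_and]
        refine ⟨hz.1, hz.2, ?_, ?_⟩
        · rintro rfl
          simp only [Blk, not_or] at hbk
          rcases he with he | he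
          · exact hbk.1 he
          · exact hbk.2.1 he
        · rintro rfl
          simp only [Blk, not_or] at hbk
          rcases he with he | he
          · exact hbk.2.2.1 he
          · exact hbk.2.2.2 he
      exact (Tr_loc p q).off _ _ h2 _ (slots4_slots h0 _ hs4)
    · exact (Tr_loc u w).off _ _ h1 _ hs


theorem avg_rT {u w p q : V} (h : D4 u w p q) (f : Gr V → ℝ) (G : Gr V) :
    avg (rT u w p q) f G = if blk u w p q G = 2 then f G else avg (Tr u w) f G := by
  by_cases hb : blk u w p q G = 2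
  · rw [if_pos hb]
    refine avg_eq_self _ (rT_equiv h) f G (fun y hy => ?_)
    rcases hy with rfl | ⟨h1, _⟩
    · rfl
    · exact absurd hb h1
  · rw [if_neg hb]
    refine avg_rel_congr f G (fun y => ⟨fun hy => ?_, fun hy => Or.inr ⟨hb, hy⟩⟩)
    rcases hy with rfl | ⟨_, h2⟩
    · exact (Tr_equiv u w).refl _
    · exact h2

theorem partA {u w p q : V} (h : D4 u w p q) (f : Gr V → ℝ) :
    0 ≤ ∑ G, if blk u w p q G = 2 then 0 else
      (f G - avg (Tr u w) f G) * (f G - avg (Tr p q) f G) := by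
  have hc : avgL (rT u w p q) * avgL (rT p q u w) = avgL (rT p q u w) * avgL (rT u w p q) := by
    refine LinearMap.ext (fun g => ?_)
    exact avg_comm _ _ (rT_equiv h) (rT_equiv h.swap) (rT_hc h) (rT_hu h) g
  have := comm_nonneg (isP_avg _ (rT_equiv h)) (isP_avg _ (rT_equiv h.swap)) hc f
  refine this.trans (le_of_eq ?_)
  unfold ip
  refine sum_congr rfl (fun G _ => ?_)
  simp only [Pi.sub_apply, avgL_apply]
  rw [avg_rT h, avg_rT h.swap, blk_swap u w p q G]
  by_cases hb : blk u w p q G = 2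
  · simp [hb]
  · simp [hb]

theorem sum_sw (u w p q : V) (F : Gr V → ℝ) : ∑ G, F (sw u w p q G) = ∑ G, F G := by
  refine Fintype.sum_bijective (sw u w p q) ?_ _ _ (fun _ => rfl)
  exact Function.Involutive.bijective (fun G => sw_sw G)

theorem ip_sw (u w p q : V) (f : Gr V → ℝ) :
    ip f (f - avg (rSw u w p q) f) = 1 / 4 * ∑ G, (f G - f (sw u w p q G)) ^ 2 := by
  have h1 : ∑ G, f (sw u w p q G) ^ 2 = ∑ G, f G ^ 2 := sum_sw u w p q (fun G => f G ^ 2)
  have h2 : ip f (f - avg (rSw u w p q) f) =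
      1 / 2 * ∑ G, f G ^ 2 - 1 / 2 * ∑ G, f G * f (sw u w p q G) := by
    unfold ip
    rw [mul_sum, mul_sum, ← sum_sub_distrib]
    refine sum_congr rfl (fun G _ => ?_)
    rw [Pi.sub_apply, avg_rSw]; ring
  have h3 : ∑ G, (f G - f (sw u w p q G)) ^ 2 =
      ∑ G, f G ^ 2 + ∑ G, f (sw u w p q G) ^ 2 - 2 * ∑ G, f G * f (sw u w p q G) := by
    rw [mul_sum, ← sum_add_distrib, ← sum_sub_distrib]
    exact sum_congr rfl (fun G _ => by ring)
  rw [h2, h3, h1]; ring

theorem bool_block4 : ∀ a b c d : Bool, a.toNat + b.toNat + (c.toNat + d.toNat) = 2 →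
    (a = b ∧ c = d) ∨ (a = c ∧ b = d) ∨ ((a = !b) ∧ (c = b) ∧ (d = !b)) := by
  decide

/-- columns with equal entries are not changed: `rU` and `Tr` have the same class -/
theorem rU_Tr_of_eq {u w p q : V} (h : D4 u w p q) {G : Gr V} (h1 : G s(u, p) = G s(w, p))
    (h2 : G s(u, q) = G s(w, q)) (f : Gr V → ℝ) : avg (rU u w p q) f G = avg (Tr u w) f G := by
  obtain ⟨n1, n2, n3, n4, n5, n6⟩ := h
  refine avg_rel_congr f G (fun y => ⟨fun hy => hy.1, fun hy => ⟨hy, ?_⟩⟩)
  have c1 := hy.2.1 p n2.symm n4.symm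
  have c2 := hy.2.1 q n3.symm n5.symm
  have key : ∀ a b c d : Bool, a.toNat + a.toNat = b.toNat + c.toNat → a = b := by decide
  rw [← h1] at c1
  rw [← h2] at c2
  rw [key _ _ _ true c1, key _ _ _ true c2]

theorem disj_est {u w p q : V} (h : D4 u w p q) (f : Gr V → ℝ) :
    1 / 4 * ∑ G, (f G - f (sw u w p q G)) ^ 2 - 1 / 2 * Nf u w p q f - 1 / 2 * Nf p q u w f ≤
      ∑ G, (f G - avg (Tr u w) f G) * (f G - avg (Tr p q) f G) := by
  classical
  set c : Gr V → ℝ := fun G => if blk u w p q G = 2 then 1 else 0 with hcdef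
  have hcT : ∀ G G', Tr u w G G' → c G = c G' := fun G G' hT => by
    simp only [hcdef, blk_Tr h hT]
  have hcT' : ∀ G G', Tr p q G G' → c G = c G' := fun G G' hT => by
    simp only [hcdef, blk_Tr' h hT]
  have hcc : ∀ G, c G * c G = c G := fun G => by
    simp only [hcdef]; split_ifs <;> norm_num
  set f2 : Gr V → ℝ := fun G => c G * f G with hf2
  -- commutation relations
  have hE : Equivalence (rSw u w p q) := rSw_equiv _ _ _ _
  have hSE : avgL (rS u w p q) * avgL (rSw u w p q) = avgL (rSw u w p q) * avgL (rS u w p q) :=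
    LinearMap.ext (fun g => avg_comm_loc (rS_equiv _ _ _ _) (rSw_equiv _ _ _ _)
      (TrZ_loc _ _ _) (rSw_loc _ _ _ _) (slots4_blk h) g)
  have hS'E : avgL (rS p q u w) * avgL (rSw u w p q) = avgL (rSw u w p q) * avgL (rS p q u w) :=
    LinearMap.ext (fun g => avg_comm_loc (rS_equiv _ _ _ _) (rSw_equiv _ _ _ _)
      (TrZ_loc _ _ _) (rSw_loc _ _ _ _) (slots4_blk' h) g)
  have hSR' : avgL (rS u w p q) * avgL (Tr p q) = avgL (Tr p q) * avgL (rS u w p q) :=
    LinearMap.ext (fun g => avg_comm_loc (rS_equiv _ _ _ _) (Tr_equiv _ _)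
      (TrZ_loc _ _ _) (Tr_loc _ _) (slots4_slots h) g)
  have hS'R : avgL (rS p q u w) * avgL (Tr u w) = avgL (Tr u w) * avgL (rS p q u w) :=
    LinearMap.ext (fun g => avg_comm_loc (rS_equiv _ _ _ _) (Tr_equiv _ _)
      (TrZ_loc _ _ _) (Tr_loc _ _) (slots4_slots h.swap) g)
  have hSS' : avgL (rS u w p q) * avgL (rS p q u w) = avgL (rS p q u w) * avgL (rS u w p q) :=
    LinearMap.ext (fun g => avg_comm_loc (rS_equiv _ _ _ _) (rS_equiv _ _ _ _)
      (TrZ_loc _ _ _) (TrZ_loc _ _ _) (slots4_slots4 h) g)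
  have hRE : avgL (Tr u w) * avgL (rSw u w p q) = avgL (Tr u w) :=
    LinearMap.ext (fun g => avg_avg_of_le' _ _ hE (Tr_equiv _ _) (fun _ _ => rSw_le_Tr h) g)
  have hER : avgL (rSw u w p q) * avgL (Tr u w) = avgL (Tr u w) :=
    LinearMap.ext (fun g => avg_avg_of_le _ _ hE (Tr_equiv _ _) (fun _ _ => rSw_le_Tr h) g)
  have hR'E : avgL (Tr p q) * avgL (rSw u w p q) = avgL (Tr p q) :=
    LinearMap.ext (fun g => avg_avg_of_le' _ _ hE (Tr_equiv _ _) (fun _ _ => rSw_le_Tr' h) g)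
  have hER' : avgL (rSw u w p q) * avgL (Tr p q) = avgL (Tr p q) :=
    LinearMap.ext (fun g => avg_avg_of_le _ _ hE (Tr_equiv _ _) (fun _ _ => rSw_le_Tr' h) g)
  have hRS : avgL (Tr u w) * avgL (rS u w p q) = avgL (Tr u w) :=
    LinearMap.ext (fun g => avg_avg_of_le' _ _ (rS_equiv _ _ _ _) (Tr_equiv _ _)
      (fun _ _ => rS_le_Tr h) g)
  have hSR : avgL (rS u w p q) * avgL (Tr u w) = avgL (Tr u w) :=
    LinearMap.ext (fun g => avg_avg_of_le _ _ (rS_equiv _ _ _ _) (Tr_equiv _ _)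
      (fun _ _ => rS_le_Tr h) g)
  have key := disj_abs (isP_avg _ (rS_equiv u w p q)) (isP_avg _ (rS_equiv p q u w))
    (isP_avg _ hE) (isP_avg _ (Tr_equiv u w)) (isP_avg _ (Tr_equiv p q))
    hSE hS'E hSR' hS'R hSS' hRE hER hR'E hER' hRS hSR f2
  simp only [avgL_apply] at key
  -- evaluate the operators on `f2`
  have eR : avg (Tr u w) f2 = fun G => c G * avg (Tr u w) f G := avg_mul_left _ c f hcT
  have eR' : avg (Tr p q) f2 = fun G => c G * avg (Tr p q) f G := avg_mul_left _ c f hcT'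
  have eU : avg (rS u w p q) (avg (rSw u w p q) f2) = fun G => c G * avg (rU u w p q) f G := by
    rw [avg_rU h]
    exact avg_mul_left _ c f (fun G G' hU => hcT G G' hU.1)
  have eSw : avg (rSw u w p q) f2 = avg (rSw p q u w) f2 := by
    ext G; rw [avg_rSw, avg_rSw, sw_swap]
  have eU' : avg (rS p q u w) (avg (rSw u w p q) f2) = fun G => c G * avg (rU p q u w) f G := by
    rw [eSw, avg_rU h.swap]
    exact avg_mul_left _ c f (fun G G' hU => hcT' G G' hU.1)
  rw [eU, eU', eR, eR', ip_sw] at key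
  -- the first term
  have t1 : ∑ G, (f2 G - f2 (sw u w p q G)) ^ 2 = ∑ G, (f G - f (sw u w p q G)) ^ 2 := by
    refine sum_congr rfl (fun G _ => ?_)
    by_cases hA : Alt u w p q G
    · have c1 : c G = 1 := by simp only [hcdef, Alt_blk hA, if_true]
      have c2 : c (sw u w p q G) = 1 := by simp only [hcdef, Alt_blk (Alt_sw.mpr hA), if_true]
      simp only [hf2, c1, c2, one_mul]
    · rw [sw_of_not hA]; ring
  rw [t1] at key
  -- the right-hand side
  have t2 : ip (f2 - fun G => c G * avg (Tr u w) f G) (f2 - fun G => c G * avg (Tr p q) f G) +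
      (∑ G, if blk u w p q G = 2 then 0 else
        (f G - avg (Tr u w) f G) * (f G - avg (Tr p q) f G)) =
      ∑ G, (f G - avg (Tr u w) f G) * (f G - avg (Tr p q) f G) := by
    unfold ip
    rw [← sum_add_distrib]
    refine sum_congr rfl (fun G _ => ?_)
    simp only [Pi.sub_apply, hf2, hcdef]
    by_cases hb : blk u w p q G = 2
    · simp [hb]
    · simp [hb]
  have hA := partA h f
  -- the cross term
  have t3 : - (1 / 2 * Nf u w p q f) - 1 / 2 * Nf p q u w f ≤
      ip ((fun G => c G * avg (rU u w p q) f G) - fun G => c G * avg (Tr u w) f G)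
        ((fun G => c G * avg (rU p q u w) f G) - fun G => c G * avg (Tr p q) f G) := by
    unfold ip Nf
    rw [mul_sum, mul_sum, ← sum_neg_distrib, ← sum_sub_distrib]
    refine sum_le_sum (fun G _ => ?_)
    simp only [Pi.sub_apply]
    by_cases hAlt : Alt u w p q G
    · have c1 : c G = 1 := by simp only [hcdef, Alt_blk hAlt, if_true]
      rw [if_pos hAlt, if_pos (Alt_swap.mpr hAlt), c1]
      nlinarith [sq_nonneg ((avg (rU u w p q) f G - avg (Tr u w) f G) +
        (avg (rU p q u w) f G - avg (Tr p q) f G))]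
    · rw [if_neg hAlt, if_neg (fun h' => hAlt (Alt_swap.mp h'))]
      by_cases hb : blk u w p q G = 2
      · have hb' := hb
        unfold blk at hb'
        rcases bool_block4 _ _ _ _ hb' with ⟨b1, b2⟩ | ⟨b1, b2⟩ | b3
        · rw [rU_Tr_of_eq h b1 b2]; simp
        · have b1' : G s(p, u) = G s(q, u) := by
            rw [Sym2.eq_swap (a := p), Sym2.eq_swap (a := q)]; exact b1
          have b2' : G s(p, w) = G s(q, w) := by
            rw [Sym2.eq_swap (a := p), Sym2.eq_swap (a := q)]; exact b2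
          rw [rU_Tr_of_eq h.swap b1' b2']; simp
        · exact absurd (Alt_iff.mpr b3) hAlt
      · have c0 : c G = 0 := by simp only [hcdef, hb, if_false]
        rw [c0]; simp
  linarith

end Crest.Agent.SC
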