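import Crest.Agent.SCDefs
import Crest.Agent.SCAvg
set_option autoImplicit false

namespace Crest.Agent.SC

open Finset

/-! ### Averaging over subsets: the coupling lemma -/

section coupling
variable {C : Type} [DecidableEq C]

/-- double counting: `∑_{U'} Ψ U' (s+1) = ∑_U ∑_{z ∈ S \ U} Ψ (insert z U)`. -/
lemma dc_up (S : Finset C) (s : ℕ) (Ψ : Finset C → ℝ) :
    ∑ U ∈ S.powersetCard s, ∑ z ∈ S \ U, Ψ (insert z U) =
      (s + 1) * ∑ U ∈ S.powersetCard (s + 1), Ψ U := by
  rw [sum_sigma', mul_sum]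
  have : ∀ U ∈ S.powersetCard (s + 1), ((s : ℝ) + 1) * Ψ U = ∑ z ∈ U, Ψ U := by
    intro U hU
    rw [sum_const, (mem_powersetCard.mp hU).2, nsmul_eq_mul]
    push_cast; ring
  rw [sum_congr rfl this, sum_sigma']
  refine sum_bij' (fun x _ => ⟨insert x.2 x.1, x.2⟩) (fun x _ => ⟨x.1.erase x.2, x.2⟩) ?_ ?_ ?_ ?_ ?_
  · rintro ⟨U, z⟩ h
    simp only [mem_sigma, mem_powersetCard, mem_sdiff] at h ⊢
    obtain ⟨⟨h1, h2⟩, h3, h4⟩ := h
    refine ⟨⟨?_, ?_⟩, mem_insert_self _ _⟩
    · intro x hx
      rcases mem_insert.mp hx with rfl | hx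
      · exact h3
      · exact h1 hx
    · rw [card_insert_of_notMem h4, h2]
  · rintro ⟨U, z⟩ h
    simp only [mem_sigma, mem_powersetCard, mem_sdiff] at h ⊢
    obtain ⟨⟨h1, h2⟩, h3⟩ := h
    refine ⟨⟨(erase_subset _ _).trans h1, ?_⟩, h1 h3, notMem_erase _ _⟩
    rw [card_erase_of_mem h3, h2]; rfl
  · rintro ⟨U, z⟩ h
    simp only [mem_sigma, mem_powersetCard, mem_sdiff] at h
    simp only [erase_insert h.2.2]
  · rintro ⟨U, z⟩ h
    simp only [mem_sigma, mem_powersetCard] at h
    simp only [insert_erase h.2]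
  · rintro ⟨U, z⟩ h
    rfl

/-- double counting downwards. -/
lemma dc_down (S : Finset C) (s : ℕ) (hs : s + 1 ≤ S.card) (Ψ : Finset C → ℝ) :
    ∑ U ∈ S.powersetCard (s + 1), ∑ z ∈ U, Ψ (U.erase z) =
      ((S.card : ℝ) - s) * ∑ U ∈ S.powersetCard s, Ψ U := by
  rw [sum_sigma', mul_sum]
  have : ∀ U ∈ S.powersetCard s, ((S.card : ℝ) - s) * Ψ U = ∑ z ∈ S \ U, Ψ U := by
    intro U hU
    rw [mem_powersetCard] at hU
    rw [sum_const, card_sdiff_of_subset hU.1, hU.2, nsmul_eq_mul, Nat.cast_sub (by omega)]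
  rw [sum_congr rfl this, sum_sigma']
  refine sum_bij' (fun x _ => ⟨x.1.erase x.2, x.2⟩) (fun x _ => ⟨insert x.2 x.1, x.2⟩) ?_ ?_ ?_ ?_ ?_
  · rintro ⟨U, z⟩ h
    simp only [mem_sigma, mem_powersetCard, mem_sdiff] at h ⊢
    obtain ⟨⟨h1, h2⟩, h3⟩ := h
    refine ⟨⟨(erase_subset _ _).trans h1, ?_⟩, h1 h3, notMem_erase _ _⟩
    rw [card_erase_of_mem h3, h2]; rfl
  · rintro ⟨U, z⟩ h
    simp only [mem_sigma, mem_powersetCard, mem_sdiff] at h ⊢
    obtain ⟨⟨h1, h2⟩, h3, h4⟩ := h
    refine ⟨⟨?_, ?_⟩, mem_insert_self _ _⟩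
    · intro x hx
      rcases mem_insert.mp hx with rfl | hx
      · exact h3
      · exact h1 hx
    · rw [card_insert_of_notMem h4, h2]
  · rintro ⟨U, z⟩ h
    simp only [mem_sigma, mem_powersetCard] at h
    simp only [insert_erase h.2]
  · rintro ⟨U, z⟩ h
    simp only [mem_sigma, mem_powersetCard, mem_sdiff] at h
    simp only [erase_insert h.2.2]
  · rintro ⟨U, z⟩ h
    rfl

/-- splitting subsets of `insert j (insert k S)`. -/
lemma split_sum (S : Finset C) {j k : C} (hj : j ∉ S) (hk : k ∉ S) (hjk : j ≠ k) (s : ℕ)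
    (Ψ : Finset C → ℝ) :
    ∑ U ∈ (insert j (insert k S)).powersetCard (s + 1), Ψ U =
      ∑ U ∈ S.powersetCard (s + 1), Ψ U + ∑ U ∈ S.powersetCard s, Ψ (insert k U) +
      ∑ U ∈ (insert k S).powersetCard s, Ψ (insert j U) := by
  have hj' : j ∉ insert k S := by simp [hj, hjk]
  have gen : ∀ (T : Finset C) (x : C), x ∉ T → ∀ (t : ℕ) (Θ : Finset C → ℝ),
      ∑ U ∈ (insert x T).powersetCard (t + 1), Θ U =
        ∑ U ∈ T.powersetCard (t + 1), Θ U + ∑ U ∈ T.powersetCard t, Θ (insert x U) := by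
    intro T x hx t Θ
    rw [powersetCard_succ_insert hx, sum_union, sum_image]
    · intro U hU U' hU' h
      have h1 : x ∉ U := fun h => hx ((mem_powersetCard.mp hU).1 h)
      have h2 : x ∉ U' := fun h => hx ((mem_powersetCard.mp hU').1 h)
      rw [← erase_insert h1, ← erase_insert h2]
      exact congrArg (fun V => V.erase x) h
    · rw [Finset.disjoint_left]
      intro U hU hU'
      rw [mem_image] at hU'
      obtain ⟨V, -, rfl⟩ := hU'
      exact hx ((mem_powersetCard.mp hU).1 (mem_insert_self _ _))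
  rw [gen _ j hj', gen _ k hk]

/-- local weight. -/
noncomputable def Wt (S : Finset C) (j k : C) (s : ℕ) (Ψ : Finset C → ℝ) (U : Finset C) : ℝ :=
  Ψ (insert j U) + Ψ (insert k U) + (∑ z ∈ S \ U, Ψ (insert z U)) / ((s : ℝ) + 1) +
    (∑ z ∈ U, Ψ (insert j (insert k (U.erase z)))) / ((S.card : ℝ) - s + 1)

lemma tot (S : Finset C) {j k : C} (hj : j ∉ S) (hk : k ∉ S) (hjk : j ≠ k) (s : ℕ)
    (hs : s ≤ S.card) (Ψ : Finset C → ℝ) :
    ∑ U ∈ (insert j (insert k S)).powersetCard (s + 1), Ψ U =
      ∑ U ∈ S.powersetCard s, Wt S j k s Ψ U := by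
  rw [split_sum S hj hk hjk]
  unfold Wt
  simp only [sum_add_distrib, ← sum_div]
  rw [dc_up]
  have hs1 : (s : ℝ) + 1 ≠ 0 := by positivity
  have e1 : ((s : ℝ) + 1) * (∑ U ∈ S.powersetCard (s + 1), Ψ U) / ((s : ℝ) + 1) =
      ∑ U ∈ S.powersetCard (s + 1), Ψ U := by field_simp
  rw [e1]
  have e2 : ∑ U ∈ (insert k S).powersetCard s, Ψ (insert j U) =
      ∑ U ∈ S.powersetCard s, Ψ (insert j U) +
      (∑ U ∈ S.powersetCard s, ∑ z ∈ U, Ψ (insert j (insert k (U.erase z)))) /
        ((S.card : ℝ) - s + 1) := by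
    rcases s with _ | t
    · simp
    · rw [powersetCard_succ_insert hk, sum_union, sum_image]
      · congr 1
        rw [dc_down S t hs (fun V => Ψ (insert j (insert k V)))]
        push_cast
        have : (S.card : ℝ) - (t + 1) + 1 = (S.card : ℝ) - t := by ring
        rw [this]
        have h2 : (S.card : ℝ) - t ≠ 0 := by
          have : ((t + 1 : ℕ) : ℝ) ≤ (S.card : ℝ) := by exact_mod_cast hs
          push_cast at this
          intro h; linarith
        field_simp
      · intro U hU U' hU' h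
        have h1 : k ∉ U := fun h => hk ((mem_powersetCard.mp hU).1 h)
        have h2 : k ∉ U' := fun h => hk ((mem_powersetCard.mp hU').1 h)
        rw [← erase_insert h1, ← erase_insert h2]
        exact congrArg (fun V => V.erase k) h
      · rw [Finset.disjoint_left]
        intro U hU hU'
        rw [mem_image] at hU'
        obtain ⟨V, -, rfl⟩ := hU'
        exact hk ((mem_powersetCard.mp hU).1 (mem_insert_self _ _))
  rw [e2]
  ring

lemma avg_couple (S : Finset C) {j k : C} (hj : j ∉ S) (hk : k ∉ S) (hjk : j ≠ k) (s : ℕ)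
    (hs : s ≤ S.card) (Φ Φ' : Finset C → ℝ) (b : ℝ)
    (h1 : ∀ U ∈ S.powersetCard s, |Φ' (insert j U) - Φ U| ≤ b)
    (h2 : ∀ U ∈ S.powersetCard s, |Φ' (insert k U) - Φ U| ≤ b)
    (h3 : ∀ U ∈ S.powersetCard s, ∀ z ∈ S \ U, |Φ' (insert z U) - Φ U| ≤ b)
    (h4 : ∀ U ∈ S.powersetCard s, ∀ z ∈ U,
      |Φ' (insert j (insert k (U.erase z))) - Φ U| ≤ b) :
    |(∑ U ∈ (insert j (insert k S)).powersetCard (s + 1), Φ' U) /
        (((insert j (insert k S)).powersetCard (s + 1)).card : ℝ) -
      (∑ U ∈ S.powersetCard s, Φ U) / ((S.powersetCard s).card : ℝ)| ≤ b := by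
  have hs' : (s : ℝ) ≤ (S.card : ℝ) := by exact_mod_cast hs
  set N : ℝ := (S.card : ℝ) with hN
  set c : ℝ := 2 + (N - s) / (s + 1) + s / (N - s + 1) with hc
  have hd1 : (0 : ℝ) < (s : ℝ) + 1 := by positivity
  have hd2 : (0 : ℝ) < N - s + 1 := by linarith
  have hcpos : 0 < c := by
    rw [hc]
    have : 0 ≤ (N - s) / ((s : ℝ) + 1) := div_nonneg (by linarith) hd1.le
    have : 0 ≤ (s : ℝ) / (N - s + 1) := div_nonneg (by positivity) hd2.le
    linarith
  have hPne : (S.powersetCard s).Nonempty := powersetCard_nonempty.mpr hs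
  have hP : (0 : ℝ) < ((S.powersetCard s).card : ℝ) := by exact_mod_cast card_pos.mpr hPne
  have hcU : ∀ U ∈ S.powersetCard s, (((S \ U).card : ℕ) : ℝ) = N - s := by
    intro U hU
    rw [mem_powersetCard] at hU
    rw [card_sdiff_of_subset hU.1, hU.2, Nat.cast_sub hs]
  -- total card
  have hcard : (((insert j (insert k S)).powersetCard (s + 1)).card : ℝ) =
      c * ((S.powersetCard s).card : ℝ) := by
    have := tot S hj hk hjk s hs (fun _ => (1 : ℝ))
    rw [sum_const, nsmul_eq_mul, mul_one] at this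
    rw [this]
    have e : ∀ U ∈ S.powersetCard s, Wt S j k s (fun _ => (1 : ℝ)) U = c := by
      intro U hU
      unfold Wt
      rw [sum_const, sum_const, nsmul_eq_mul, nsmul_eq_mul, hcU U hU, (mem_powersetCard.mp hU).2,
        mul_one, mul_one]
      rw [hc]; ring
    rw [sum_congr rfl e, sum_const, nsmul_eq_mul]
    ring
  have hloc : ∀ U ∈ S.powersetCard s, |Wt S j k s Φ' U - c * Φ U| ≤ c * b := by
    intro U hU
    have e : Wt S j k s Φ' U - c * Φ U = (Φ' (insert j U) - Φ U) + (Φ' (insert k U) - Φ U) +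
        (∑ z ∈ S \ U, (Φ' (insert z U) - Φ U)) / ((s : ℝ) + 1) +
        (∑ z ∈ U, (Φ' (insert j (insert k (U.erase z))) - Φ U)) / (N - s + 1) := by
      unfold Wt
      simp only [sum_sub_distrib, sum_const, nsmul_eq_mul]
      rw [hcU U hU, (mem_powersetCard.mp hU).2, hc]
      ring
    rw [e]
    have b3 : |(∑ z ∈ S \ U, (Φ' (insert z U) - Φ U)) / ((s : ℝ) + 1)| ≤ (N - s) / (s + 1) * b := by
      rw [abs_div, abs_of_pos hd1, div_mul_eq_mul_div]
      apply div_le_div_of_nonneg_right _ hd1.le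
      calc _ ≤ ∑ z ∈ S \ U, |Φ' (insert z U) - Φ U| := abs_sum_le_sum_abs _ _
        _ ≤ ∑ z ∈ S \ U, b := sum_le_sum fun z hz => h3 U hU z hz
        _ = (N - s) * b := by rw [sum_const, nsmul_eq_mul, hcU U hU]
    have b4 : |(∑ z ∈ U, (Φ' (insert j (insert k (U.erase z))) - Φ U)) / (N - s + 1)| ≤
        s / (N - s + 1) * b := by
      rw [abs_div, abs_of_pos hd2, div_mul_eq_mul_div]
      apply div_le_div_of_nonneg_right _ hd2.le
      calc _ ≤ ∑ z ∈ U, |Φ' (insert j (insert k (U.erase z))) - Φ U| := abs_sum_le_sum_abs _ _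
        _ ≤ ∑ z ∈ U, b := sum_le_sum fun z hz => h4 U hU z hz
        _ = s * b := by rw [sum_const, nsmul_eq_mul, (mem_powersetCard.mp hU).2]
    have b1 := h1 U hU
    have b2 := h2 U hU
    have := abs_add_le ((Φ' (insert j U) - Φ U) + (Φ' (insert k U) - Φ U) +
      (∑ z ∈ S \ U, (Φ' (insert z U) - Φ U)) / ((s : ℝ) + 1))
      ((∑ z ∈ U, (Φ' (insert j (insert k (U.erase z))) - Φ U)) / (N - s + 1))
    have := abs_add_le ((Φ' (insert j U) - Φ U) + (Φ' (insert k U) - Φ U))
      ((∑ z ∈ S \ U, (Φ' (insert z U) - Φ U)) / ((s : ℝ) + 1))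
    have := abs_add_le (Φ' (insert j U) - Φ U) (Φ' (insert k U) - Φ U)
    have : c * b = b + b + (N - s) / (s + 1) * b + s / (N - s + 1) * b := by rw [hc]; ring
    linarith
  rw [hcard, tot S hj hk hjk s hs]
  have e2 : (∑ U ∈ S.powersetCard s, Wt S j k s Φ' U) / (c * ((S.powersetCard s).card : ℝ)) -
      (∑ U ∈ S.powersetCard s, Φ U) / ((S.powersetCard s).card : ℝ) =
      (∑ U ∈ S.powersetCard s, (Wt S j k s Φ' U - c * Φ U)) /
        (c * ((S.powersetCard s).card : ℝ)) := by
    rw [sum_sub_distrib, ← mul_sum]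
    field_simp
  rw [e2, abs_div, abs_of_pos (mul_pos hcpos hP), div_le_iff₀ (mul_pos hcpos hP)]
  calc _ ≤ ∑ U ∈ S.powersetCard s, |Wt S j k s Φ' U - c * Φ U| := abs_sum_le_sum_abs _ _
    _ ≤ ∑ U ∈ S.powersetCard s, c * b := sum_le_sum hloc
    _ = b * (c * ((S.powersetCard s).card : ℝ)) := by
        rw [sum_const, nsmul_eq_mul]; ring

end coupling


section star
set_option linter.unusedSectionVars false
variable {C : Type} [Fintype C] [DecidableEq C]

theorem TrY_equiv (i j : Fin 3) : Equivalence (TrY (C := C) i j) where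
  refl y := ⟨fun _ _ _ _ => rfl, fun _ => rfl, rfl⟩
  symm := by
    rintro y y' ⟨h1, h2, h3⟩
    exact ⟨fun c k hk hk' => (h1 c k hk hk').symm, fun c => (h2 c).symm, h3.symm⟩
  trans := by
    rintro y y' y'' ⟨h1, h2, h3⟩ ⟨g1, g2, g3⟩
    exact ⟨fun c k hk hk' => (h1 c k hk hk').trans (g1 c k hk hk'), fun c => (h2 c).trans (g2 c),
      h3.trans g3⟩

theorem TrY_comm {i j : Fin 3} {y y' : C → Fin 3 → Bool} (h : TrY i j y y') : TrY j i y y' := by
  obtain ⟨h1, h2, h3⟩ := h
  refine ⟨fun c k hk hk' => h1 c k hk' hk, fun c => by rw [add_comm, h2 c, add_comm], ?_⟩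
  have : ∑ c, ((y c i).toNat + (y c j).toNat) = ∑ c, ((y' c i).toNat + (y' c j).toNat) :=
    sum_congr rfl fun c _ => h2 c
  rw [sum_add_distrib, sum_add_distrib, h3] at this
  exact Nat.add_left_cancel this

theorem TrY_comm_iff {i j : Fin 3} {y y' : C → Fin 3 → Bool} : TrY i j y y' ↔ TrY j i y y' :=
  ⟨TrY_comm, TrY_comm⟩

theorem avg_TrY_comm (i j : Fin 3) (f : (C → Fin 3 → Bool) → ℝ) (y : C → Fin 3 → Bool) :
    avg (TrY i j) f y = avg (TrY j i) f y := by
  have : cls (TrY i j) y = cls (TrY j i) y := by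
    ext z; rw [mem_cls, mem_cls]; exact TrY_comm_iff
  rw [avg_def, avg_def, this]

/-- the eigenvalue equation for any labelling of the three rows. -/
def Eig (f : (C → Fin 3 → Bool) → ℝ) (lam : ℝ) : Prop :=
  ∀ p q r : Fin 3, p ≠ q → p ≠ r → q ≠ r → ∀ y,
    avg (TrY p q) f y + avg (TrY p r) f y + avg (TrY q r) f y = lam * f y

theorem eig_of (f : (C → Fin 3 → Bool) → ℝ) (lam : ℝ)
    (h : ∀ y, avg (TrY 0 1) f y + avg (TrY 0 2) f y + avg (TrY 1 2) f y = lam * f y) :
    Eig f lam := by
  intro p q r hpq hpr hqr y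
  rw [← h y]
  have e10 := avg_TrY_comm 1 0 f y
  have e20 := avg_TrY_comm 2 0 f y
  have e21 := avg_TrY_comm 2 1 f y
  fin_cases p <;> fin_cases q <;> fin_cases r <;>
    first
      | exact absurd rfl hpq
      | exact absurd rfl hpr
      | exact absurd rfl hqr
      | (simp only [Fin.zero_eta, Fin.mk_one, Fin.reduceFinMk] at * <;> linarith)

/-- column weight -/
def wt (y : C → Fin 3 → Bool) (c : C) : ℕ := ∑ i, (y c i).toNat

lemma three {p q r : Fin 3} (hpq : p ≠ q) (hpr : p ≠ r) (hqr : q ≠ r) (i : Fin 3) :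
    i = p ∨ i = q ∨ i = r := by
  omega

lemma sum3 {p q r : Fin 3} (hpq : p ≠ q) (hpr : p ≠ r) (hqr : q ≠ r) (g : Fin 3 → ℕ) :
    ∑ i, g i = g p + g q + g r := by
  have : (univ : Finset (Fin 3)) = {p, q, r} := by
    ext i
    simp only [mem_univ, mem_insert, mem_singleton, true_iff]
    exact three hpq hpr hqr i
  rw [this, sum_insert (by simp [hpq, hpr]), sum_insert (by simp [hqr]), sum_singleton]
  ring

lemma wt_TrY {i j : Fin 3} (hij : i ≠ j) {y y' : C → Fin 3 → Bool} (h : TrY i j y y') (c : C) :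
    wt y c = wt y' c := by
  obtain ⟨k, hik, hjk⟩ : ∃ k : Fin 3, i ≠ k ∧ j ≠ k := by
    clear h; revert i j; decide
  unfold wt
  rw [sum3 hij hik hjk, sum3 hij hik hjk, h.2.1 c, h.1 c k hik.symm hjk.symm]

/-- permuting columns -/
lemma TrY_perm (σ : Equiv.Perm C) {i j : Fin 3} {y y' : C → Fin 3 → Bool} :
    TrY i j (fun c => y (σ c)) (fun c => y' (σ c)) ↔ TrY i j y y' := by
  unfold TrY
  have e : ∀ z : C → Fin 3 → Bool, ∑ c, (z (σ c) i).toNat = ∑ c, (z c i).toNat := fun z =>
    Equiv.sum_comp σ (fun c => (z c i).toNat)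
  rw [e, e]
  constructor
  · rintro ⟨h1, h2, h3⟩
    refine ⟨fun c k hk hk' => ?_, fun c => ?_, h3⟩
    · have := h1 (σ.symm c) k hk hk'; simpa using this
    · have := h2 (σ.symm c); simpa using this
  · rintro ⟨h1, h2, h3⟩
    exact ⟨fun c k hk hk' => h1 _ k hk hk', fun c => h2 _, h3⟩

lemma avg_perm (σ : Equiv.Perm C) (i j : Fin 3) (f : (C → Fin 3 → Bool) → ℝ)
    (y : C → Fin 3 → Bool) :
    avg (TrY i j) f (fun c => y (σ c)) =
      (∑ z ∈ cls (TrY i j) y, f (fun c => z (σ c))) / ((cls (TrY i j) y).card : ℝ) := by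
  rw [avg_def]
  have himg : cls (TrY i j) (fun c => y (σ c)) =
      (cls (TrY i j) y).image (fun z c => z (σ c)) := by
    ext z
    rw [mem_image, mem_cls]
    constructor
    · intro h
      refine ⟨fun c => z (σ.symm c), ?_, ?_⟩
      · rw [mem_cls]
        have : z = fun c => (fun c' => z (σ.symm c')) (σ c) := by
          funext c; simp
        rw [this] at h
        exact (TrY_perm σ).mp h
      · funext c; simp
    · rintro ⟨z', hz', rfl⟩
      rw [mem_cls] at hz'
      exact (TrY_perm σ).mpr hz'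
  have hinj : ∀ z z' : C → Fin 3 → Bool, (fun c => z (σ c)) = (fun c => z' (σ c)) → z = z' := by
    intro z z' h
    funext c
    have := congrFun h (σ.symm c)
    simpa using this
  rw [himg, sum_image (fun x _ y _ h => hinj x y h), card_image_of_injective _ (fun x y h => hinj x y h)]

lemma two_diff : ∀ u v : Fin 3 → Bool, ∑ i, (u i).toNat = ∑ i, (v i).toNat → u ≠ v →
    ∃ p q r : Fin 3, p ≠ q ∧ p ≠ r ∧ q ≠ r ∧ u r = v r ∧ u p ≠ v p ∧ u q ≠ v q ∧ u p ≠ u q := by
  decide

lemma avg_diff_le (i j : Fin 3) (f : (C → Fin 3 → Bool) → ℝ) (y : C → Fin 3 → Bool)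
    (σ : Equiv.Perm C) (A : ℝ) (hA : ∀ z, TrY i j y z → |f (fun c => z (σ c)) - f z| ≤ A) :
    |avg (TrY i j) f (fun c => y (σ c)) - avg (TrY i j) f y| ≤ A := by
  rw [avg_perm, avg_def, ← sub_div, ← sum_sub_distrib, abs_div]
  have hpos : (0 : ℝ) < ((cls (TrY i j) y).card : ℝ) := by
    exact_mod_cast cls_card_pos _ (TrY_equiv i j) y
  rw [abs_of_pos hpos, div_le_iff₀ hpos]
  calc _ ≤ ∑ z ∈ cls (TrY i j) y, |f (fun c => z (σ c)) - f z| := abs_sum_le_sum_abs _ _
    _ ≤ ∑ z ∈ cls (TrY i j) y, A := sum_le_sum fun z hz => hA z ((mem_cls _).mp hz)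
    _ = A * ((cls (TrY i j) y).card : ℝ) := by rw [sum_const, nsmul_eq_mul]; ring

lemma swap_cases (j k c : C) : (c = j ∧ Equiv.swap j k c = k) ∨ (c = k ∧ Equiv.swap j k c = j) ∨
    (c ≠ j ∧ c ≠ k ∧ Equiv.swap j k c = c) := by
  by_cases h1 : c = j
  · left; exact ⟨h1, by rw [h1, Equiv.swap_apply_left]⟩
  · by_cases h2 : c = k
    · right; left; exact ⟨h2, by rw [h2, Equiv.swap_apply_right]⟩
    · right; right; exact ⟨h1, h2, Equiv.swap_apply_of_ne_of_ne h1 h2⟩

/-- stage a : invariance under swaps of columns of equal weight. -/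
theorem stage_a (f : (C → Fin 3 → Bool) → ℝ) (lam : ℝ) (hlam : 2 < lam) (h : Eig f lam)
    (y : C → Fin 3 → Bool) (j k : C) (hw : wt y j = wt y k) :
    f (fun c => y (Equiv.swap j k c)) = f y := by
  classical
  -- maximal difference
  let D : Finset ((C → Fin 3 → Bool) × C × C) := univ.filter fun t => wt t.1 t.2.1 = wt t.1 t.2.2
  let φ : (C → Fin 3 → Bool) × C × C → ℝ := fun t =>
    |f (fun c => t.1 (Equiv.swap t.2.1 t.2.2 c)) - f t.1|
  have hD : D.Nonempty := ⟨(y, j, k), by simp [D, hw]⟩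
  obtain ⟨t, htD, htmax⟩ := exists_max_image D φ hD
  obtain ⟨y0, j0, k0⟩ := t
  have hw0 : wt y0 j0 = wt y0 k0 := by simpa [D] using htD
  have hmax : ∀ (z : C → Fin 3 → Bool) (a b : C), wt z a = wt z b →
      |f (fun c => z (Equiv.swap a b c)) - f z| ≤ φ (y0, j0, k0) := by
    intro z a b hab
    exact htmax (z, a, b) (by simp [D, hab])
  have hA : φ (y0, j0, k0) = |f (fun c => y0 (Equiv.swap j0 k0 c)) - f y0| := rfl
  set A := φ (y0, j0, k0)
  have hA0 : 0 ≤ A := abs_nonneg _
  suffices hAz : A ≤ 0 by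
    have h1 := (hmax y j k hw).trans hAz
    have := abs_nonpos_iff.mp h1
    linarith
  by_cases heq : y0 j0 = y0 k0
  · have : (fun c => y0 (Equiv.swap j0 k0 c)) = y0 := by
      funext c
      rcases swap_cases j0 k0 c with ⟨h1, h2⟩ | ⟨h1, h2⟩ | ⟨-, -, h2⟩
      · rw [h2, h1, heq]
      · rw [h2, h1, heq]
      · rw [h2]
    rw [hA, this]; simp
  -- rows where the columns differ
  obtain ⟨p, q, r, hpq, hpr, hqr, hr, hp, hq, hpq'⟩ := two_diff (y0 j0) (y0 k0) hw0 heq
  have hTr : TrY p q y0 (fun c => y0 (Equiv.swap j0 k0 c)) := by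
    have hb : ∀ a b a' b' : Bool, a ≠ a' → b ≠ b' → a ≠ b →
        a.toNat + b.toNat = a'.toNat + b'.toNat := by decide
    refine ⟨fun c i hi hi' => ?_, fun c => ?_, ?_⟩
    · have hir : i = r := by
        rcases three hpq hpr hqr i with h | h | h
        · exact absurd h hi
        · exact absurd h hi'
        · exact h
      subst hir
      show y0 c i = y0 (Equiv.swap j0 k0 c) i
      rcases swap_cases j0 k0 c with ⟨h1, h2⟩ | ⟨h1, h2⟩ | ⟨-, -, h2⟩
      · rw [h2, h1, hr]
      · rw [h2, h1, hr]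
      · rw [h2]
    · show (y0 c p).toNat + (y0 c q).toNat = (y0 (Equiv.swap j0 k0 c) p).toNat +
        (y0 (Equiv.swap j0 k0 c) q).toNat
      rcases swap_cases j0 k0 c with ⟨h1, h2⟩ | ⟨h1, h2⟩ | ⟨-, -, h2⟩
      · rw [h2, h1]; exact hb _ _ _ _ hp hq hpq'
      · rw [h2, h1]; exact (hb _ _ _ _ hp hq hpq').symm
      · rw [h2]
    · exact (Equiv.sum_comp (Equiv.swap j0 k0) (fun c => (y0 c p).toNat)).symm
  have e0 := avg_congr _ (TrY_equiv p q) f hTr
  have e1 := avg_diff_le p r f y0 (Equiv.swap j0 k0) A (fun z hz => hmax z j0 k0 (by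
    rw [← wt_TrY hpr hz, ← wt_TrY hpr hz, hw0]))
  have e2 := avg_diff_le q r f y0 (Equiv.swap j0 k0) A (fun z hz => hmax z j0 k0 (by
    rw [← wt_TrY hqr hz, ← wt_TrY hqr hz, hw0]))
  have h1 := h p q r hpq hpr hqr y0
  have h2 := h p q r hpq hpr hqr (fun c => y0 (Equiv.swap j0 k0 c))
  have h3 : lam * (f (fun c => y0 (Equiv.swap j0 k0 c)) - f y0) =
      (avg (TrY p r) f (fun c => y0 (Equiv.swap j0 k0 c)) - avg (TrY p r) f y0) +
      (avg (TrY q r) f (fun c => y0 (Equiv.swap j0 k0 c)) - avg (TrY q r) f y0) := by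
    linarith
  have h4 : lam * A ≤ 2 * A := by
    calc lam * A = |lam * (f (fun c => y0 (Equiv.swap j0 k0 c)) - f y0)| := by
          rw [abs_mul, abs_of_pos (by linarith), hA]
      _ ≤ |avg (TrY p r) f (fun c => y0 (Equiv.swap j0 k0 c)) - avg (TrY p r) f y0| +
          |avg (TrY q r) f (fun c => y0 (Equiv.swap j0 k0 c)) - avg (TrY q r) f y0| := by
            rw [h3]; exact abs_add_le _ _
      _ ≤ 2 * A := by linarith
  nlinarith


/-- free columns for the rows `q`, `r`. -/
def Sf (q r : Fin 3) (y : C → Fin 3 → Bool) : Finset C := univ.filter fun c => y c q ≠ y c r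

/-- set the rows `q, r` on `S` according to `U`. -/
def put (q r : Fin 3) (S U : Finset C) (y : C → Fin 3 → Bool) : C → Fin 3 → Bool :=
  fun c i => if c ∈ S then (if i = q then decide (c ∈ U) else if i = r then decide (c ∉ U)
    else y c i) else y c i

/-- number of ones of row `q` among free columns. -/
def sf (q r : Fin 3) (y : C → Fin 3 → Bool) : ℕ := ((Sf q r y).filter fun c => y c q = true).card

lemma mem_Sf {q r : Fin 3} {y : C → Fin 3 → Bool} {c : C} : c ∈ Sf q r y ↔ y c q ≠ y c r := by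
  unfold Sf; simp

lemma put_inj {q r : Fin 3} {S U U' : Finset C} {y : C → Fin 3 → Bool} (hU : U ⊆ S) (hU' : U' ⊆ S)
    (h : put q r S U y = put q r S U' y) : U = U' := by
  ext c
  by_cases hc : c ∈ S
  · have := congrFun (congrFun h c) q
    simp only [put, hc, if_true, decide_eq_decide] at this
    exact this
  · exact ⟨fun h => absurd (hU h) hc, fun h => absurd (hU' h) hc⟩

lemma sum_row (S : Finset C) (g : C → Bool) :
    ∑ c ∈ S, (g c).toNat = (S.filter fun c => g c = true).card := by
  rw [card_filter]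
  refine sum_congr rfl fun c _ => ?_
  cases g c <;> simp

lemma cls_image {q r : Fin 3} (hqr : q ≠ r) (y : C → Fin 3 → Bool) :
    cls (TrY q r) y =
      ((Sf q r y).powersetCard (sf q r y)).image fun U => put q r (Sf q r y) U y := by
  have hsplit : ∀ g : C → Bool, ∑ c, (g c).toNat =
      ∑ c ∈ Sf q r y, (g c).toNat + ∑ c ∈ univ \ Sf q r y, (g c).toNat := by
    intro g
    rw [add_comm, sum_sdiff (subset_univ _)]
  ext z
  rw [mem_cls, mem_image]
  constructor
  · rintro ⟨h1, h2, h3⟩
    have hoff : ∀ c, c ∉ Sf q r y → z c q = y c q ∧ z c r = y c r := by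
      intro c hc
      rw [mem_Sf, not_not] at hc
      have := h2 c
      rw [← hc] at this ⊢
      revert this
      cases y c q <;> cases z c q <;> cases z c r <;> simp
    have hon : ∀ c, c ∈ Sf q r y → z c r = !z c q := by
      intro c hc
      rw [mem_Sf] at hc
      have := h2 c
      revert this hc
      cases y c q <;> cases y c r <;> cases z c q <;> cases z c r <;> simp
    refine ⟨(Sf q r y).filter fun c => z c q = true, ?_, ?_⟩
    · rw [mem_powersetCard]
      refine ⟨filter_subset _ _, ?_⟩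
      unfold sf
      rw [← sum_row, ← sum_row]
      rw [hsplit (fun c => y c q), hsplit (fun c => z c q)] at h3
      have h4 : ∑ c ∈ univ \ Sf q r y, (y c q).toNat = ∑ c ∈ univ \ Sf q r y, (z c q).toNat := by
        refine sum_congr rfl fun c hc => ?_
        rw [mem_sdiff] at hc
        rw [(hoff c hc.2).1]
      omega
    · funext c i
      unfold put
      by_cases hc : c ∈ Sf q r y
      · rw [if_pos hc]
        by_cases hiq : i = q
        · subst hiq
          simp [hc]
        · rw [if_neg hiq]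
          by_cases hir : i = r
          · subst hir
            rw [if_pos rfl, hon c hc]
            simp [hc]
          · rw [if_neg hir]
            exact h1 c i hiq hir
      · rw [if_neg hc]
        by_cases hiq : i = q
        · subst hiq; exact (hoff c hc).1.symm
        · by_cases hir : i = r
          · subst hir; exact (hoff c hc).2.symm
          · exact h1 c i hiq hir
  · rintro ⟨U, hU, rfl⟩
    rw [mem_powersetCard] at hU
    refine ⟨fun c k hk hk' => ?_, fun c => ?_, ?_⟩
    · unfold put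
      split_ifs <;> rfl
    · unfold put
      by_cases hc : c ∈ Sf q r y
      · have hc' := mem_Sf.mp hc
        simp only [hc, if_true, if_neg hqr.symm]
        by_cases hcU : c ∈ U
        · simp only [hcU]
          revert hc'
          cases y c q <;> cases y c r <;> simp
        · simp only [hcU]
          revert hc'
          cases y c q <;> cases y c r <;> simp
      · simp only [hc, if_false]
    · rw [hsplit (fun c => y c q), hsplit (fun c => put q r (Sf q r y) U y c q)]
      congr 1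
      · rw [sum_row, sum_row]
        have : (Sf q r y).filter (fun c => put q r (Sf q r y) U y c q = true) = U := by
          ext c
          rw [mem_filter]
          constructor
          · rintro ⟨h1, h2⟩
            simpa [put, h1] using h2
          · intro h
            exact ⟨hU.1 h, by simp [put, hU.1 h, h]⟩
        rw [this, hU.2]
        rfl
      · refine sum_congr rfl fun c hc => ?_
        rw [mem_sdiff] at hc
        simp [put, hc.2]

lemma avg_put {q r : Fin 3} (hqr : q ≠ r) (f : (C → Fin 3 → Bool) → ℝ) (y : C → Fin 3 → Bool) :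
    avg (TrY q r) f y = (∑ U ∈ (Sf q r y).powersetCard (sf q r y), f (put q r (Sf q r y) U y)) /
      (((Sf q r y).powersetCard (sf q r y)).card : ℝ) := by
  have hinj : Set.InjOn (fun U => put q r (Sf q r y) U y)
      ((Sf q r y).powersetCard (sf q r y) : Set (Finset C)) := by
    intro U hU U' hU' h
    rw [mem_coe, mem_powersetCard] at hU hU'
    exact put_inj hU.1 hU'.1 h
  rw [avg_def, cls_image hqr, sum_image hinj, card_image_of_injOn hinj]


/-- the vector `e_p` -/
def ev (p : Fin 3) : Fin 3 → Bool := fun i => decide (i = p)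
/-- the vector `1 - e_p` -/
def cv (p : Fin 3) : Fin 3 → Bool := fun i => decide (i ≠ p)

/-- the b-move: column `j` becomes `e_q`, column `k` becomes `1 - e_q`. -/
def bmv (q : Fin 3) (j k : C) (y : C → Fin 3 → Bool) : C → Fin 3 → Bool :=
  fun c => if c = j then ev q else if c = k then cv q else y c

lemma bmv_TrY {p q : Fin 3} (hpq : p ≠ q) {j k : C} (hjk : j ≠ k) {y : C → Fin 3 → Bool}
    (hj : y j = ev p) (hk : y k = cv p) : TrY p q y (bmv q j k y) := by
  refine ⟨fun c i hi hi' => ?_, fun c => ?_, ?_⟩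
  · unfold bmv
    split_ifs with h1 h2
    · rw [h1, hj]; simp [ev, hi, hi']
    · rw [h2, hk]; simp [cv, hi, hi']
    · rfl
  · unfold bmv
    split_ifs with h1 h2
    · rw [h1, hj]; simp [ev, hpq, hpq.symm]
    · rw [h2, hk]; simp [cv, hpq, hpq.symm]
    · rfl
  · have : ∀ c, bmv q j k y c p = y (Equiv.swap j k c) p := by
      intro c
      unfold bmv
      rcases swap_cases j k c with ⟨h1, h2⟩ | ⟨h1, h2⟩ | ⟨h0, h1, h2⟩
      · rw [if_pos h1, h2, hk]; simp [ev, cv, hpq]
      · have : c ≠ j := by rw [h1]; exact hjk.symm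
        rw [if_neg this, if_pos h1, h2, hj]; simp [ev, cv, hpq]
      · rw [if_neg h0, if_neg h1, h2]
    simp only [this]
    exact (Equiv.sum_comp (Equiv.swap j k) (fun c => (y c p).toNat)).symm

/-- exchanging the roles of two free columns of equal weight. -/
lemma f_put_swap (f : (C → Fin 3 → Bool) → ℝ)
    (ha : ∀ (y : C → Fin 3 → Bool) (j k : C), wt y j = wt y k →
      f (fun c => y (Equiv.swap j k c)) = f y)
    {p q r : Fin 3} (hpq : p ≠ q) (hpr : p ≠ r) (hqr : q ≠ r) (T V V' : Finset C)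
    (y : C → Fin 3 → Bool) {a b : C} (haT : a ∈ T) (hbT : b ∈ T)
    (h1 : a ∈ V ↔ b ∈ V') (h2 : b ∈ V ↔ a ∈ V')
    (h3 : ∀ c, c ≠ a → c ≠ b → (c ∈ V ↔ c ∈ V')) (hp : y a p = y b p) :
    f (put q r T V y) = f (put q r T V' y) := by
  have hcol : ∀ (W : Finset C) (c : C), c ∈ T → put q r T W y c =
      fun i => if i = q then decide (c ∈ W) else if i = r then decide (c ∉ W) else y c p := by
    intro W c hc
    funext i
    simp only [put, hc, if_true]
    rcases three hpq hpr hqr i with rfl | rfl | rfl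
    · simp
    · simp
    · simp [hqr.symm]
  have hwt : ∀ (W : Finset C) (c : C), c ∈ T → wt (put q r T W y) c = 1 + (y c p).toNat := by
    intro W c hc
    unfold wt
    rw [hcol W c hc, sum3 hpq hpr hqr]
    by_cases h : c ∈ W
    · simp [h, hpq, hpr, hqr.symm]; ring
    · simp [h, hpq, hpr, hqr.symm]; ring
  have e : put q r T V y = fun c => put q r T V' y (Equiv.swap a b c) := by
    funext c
    rcases swap_cases a b c with ⟨g1, g2⟩ | ⟨g1, g2⟩ | ⟨g0, g1, g2⟩
    · rw [g2, g1, hcol V a haT, hcol V' b hbT]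
      simp only [h1, hp]
    · rw [g2, g1, hcol V b hbT, hcol V' a haT]
      simp only [h2, hp]
    · rw [g2]
      unfold put
      simp only [h3 c g0 g1]
  rw [e]
  apply ha
  rw [hwt V' a haT, hwt V' b hbT, hp]

/-- comparison of averages under a b-move. -/
lemma avg_bmove (f : (C → Fin 3 → Bool) → ℝ)
    (ha : ∀ (y : C → Fin 3 → Bool) (j k : C), wt y j = wt y k →
      f (fun c => y (Equiv.swap j k c)) = f y) (B : ℝ)
    (hB : ∀ (y : C → Fin 3 → Bool) (p q : Fin 3) (j k : C), p ≠ q → j ≠ k → y j = ev p →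
      y k = cv p → |f (bmv q j k y) - f y| ≤ B)
    {p q r : Fin 3} (hpq : p ≠ q) (hpr : p ≠ r) (hqr : q ≠ r) {j k : C} (hjk : j ≠ k)
    {y : C → Fin 3 → Bool} (hj : y j = ev p) (hk : y k = cv p) :
    |avg (TrY q r) f (bmv q j k y) - avg (TrY q r) f y| ≤ B := by
  set y' := bmv q j k y with hy'
  set S := Sf q r y with hS
  have hj' : y' j = ev q := by rw [hy']; simp [bmv]
  have hk' : y' k = cv q := by rw [hy']; simp [bmv, hjk.symm]
  have hc' : ∀ c, c ≠ j → c ≠ k → y' c = y c := by
    intro c h1 h2; rw [hy']; simp [bmv, h1, h2]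
  have hjS : j ∉ S := by
    rw [hS, mem_Sf, hj]; simp [ev, hpq.symm, hpr.symm]
  have hkS : k ∉ S := by
    rw [hS, mem_Sf, hk]; simp [cv, hpq.symm, hpr.symm]
  have hS' : Sf q r y' = insert j (insert k S) := by
    ext c
    rw [mem_Sf, mem_insert, mem_insert, hS, mem_Sf]
    by_cases h1 : c = j
    · subst h1; rw [hj']; simp [ev, hqr.symm]
    · by_cases h2 : c = k
      · subst h2; rw [hk']; simp [cv, hqr.symm]
      · rw [hc' c h1 h2]; simp [h1, h2]
  have hs' : sf q r y' = sf q r y + 1 := by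
    unfold sf
    rw [hS', filter_insert, filter_insert, hj', hk']
    simp only [ev, cv, decide_true, if_true, ne_eq, not_true_eq_false, decide_false]
    simp only [Bool.false_eq_true, if_false]
    rw [card_insert_of_notMem]
    · congr 2
      apply filter_congr
      intro c hc
      have h1 : c ≠ j := fun h => hjS (h ▸ hc)
      have h2 : c ≠ k := fun h => hkS (h ▸ hc)
      rw [hc' c h1 h2]
    · rw [mem_filter]; rintro ⟨h1, -⟩; exact hjS h1
  rw [avg_put hqr, avg_put hqr, hS', hs', ← hS]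
  have hsS : sf q r y ≤ S.card := card_filter_le _ _
  -- membership helper
  have mS : ∀ c ∈ S, c ≠ j ∧ c ≠ k := fun c hc => ⟨fun h => hjS (h ▸ hc), fun h => hkS (h ▸ hc)⟩
  have i3 := three hpq hpr hqr
  -- the two basic comparisons
  have H1 : ∀ U ∈ S.powersetCard (sf q r y),
      |f (put q r (insert j (insert k S)) (insert j U) y') - f (put q r S U y)| ≤ B := by
    intro U hU
    have hUS := (mem_powersetCard.mp hU).1
    have hkU : k ∉ U := fun h => hkS (hUS h)
    have hjU : j ∉ U := fun h => hjS (hUS h)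
    have e : put q r (insert j (insert k S)) (insert j U) y' = bmv q j k (put q r S U y) := by
      funext c i
      unfold bmv
      by_cases h1 : c = j
      · subst h1
        simp only [put, hj', mem_insert_self, if_true]
        rcases i3 i with rfl | rfl | rfl
        · simp [ev, hpq, hpr]
        · simp [ev]
        · simp [ev, hqr.symm]
      · by_cases h2 : c = k
        · subst h2
          simp only [put, hk', mem_insert, h1, hkU, false_or, true_or, if_true, if_false, or_false]
          rcases i3 i with rfl | rfl | rfl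
          · simp [cv, hpq, hpr]
          · simp [cv]
          · simp [cv, hqr.symm]
        · simp only [put, hc' c h1 h2, mem_insert, h1, h2, false_or, if_false]
    rw [e]
    refine hB _ p q j k hpq hjk ?_ ?_
    · funext i; simp only [put, hjS, if_false, hj]
    · funext i; simp only [put, hkS, if_false, hk]
  have H2 : ∀ U ∈ S.powersetCard (sf q r y),
      |f (put q r (insert j (insert k S)) (insert k U) y') - f (put q r S U y)| ≤ B := by
    intro U hU
    have hUS := (mem_powersetCard.mp hU).1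
    have hkU : k ∉ U := fun h => hkS (hUS h)
    have hjU : j ∉ U := fun h => hjS (hUS h)
    have e : put q r (insert j (insert k S)) (insert k U) y' = bmv r j k (put q r S U y) := by
      funext c i
      unfold bmv
      by_cases h1 : c = j
      · subst h1
        simp only [put, hj', mem_insert, hjk, hjU, false_or, true_or, if_true, or_false]
        rcases i3 i with rfl | rfl | rfl
        · simp [ev, hpq, hpr]
        · simp [ev, hqr]
        · simp [ev, hqr.symm]
      · by_cases h2 : c = k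
        · subst h2
          simp only [put, hk', mem_insert, h1, false_or, true_or, if_true, if_false]
          rcases i3 i with rfl | rfl | rfl
          · simp [cv, hpq, hpr]
          · simp [cv, hqr]
          · simp [cv, hqr.symm]
        · simp only [put, hc' c h1 h2, mem_insert, h1, h2, false_or, if_false]
    rw [e]
    refine hB _ p r j k hpr hjk ?_ ?_
    · funext i; simp only [put, hjS, if_false, hj]
    · funext i; simp only [put, hkS, if_false, hk]
  have hjT : j ∈ insert j (insert k S) := mem_insert_self _ _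
  have hkT : k ∈ insert j (insert k S) := by simp
  have hpj : y' j p = false := by rw [hj']; simp [ev, hpq]
  have hpk : y' k p = true := by rw [hk']; simp [cv, hpq]
  refine avg_couple S hjS hkS hjk _ hsS (fun U => f (put q r S U y))
    (fun U => f (put q r (insert j (insert k S)) U y')) B H1 H2 ?_ ?_
  · intro U hU z hz
    have hUS := (mem_powersetCard.mp hU).1
    have hkU : k ∉ U := fun h => hkS (hUS h)
    have hjU : j ∉ U := fun h => hjS (hUS h)
    rw [mem_sdiff] at hz
    obtain ⟨hzj, hzk⟩ := mS z hz.1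
    have hzT : z ∈ insert j (insert k S) := by simp [hz.1]
    cases hzp : y z p
    · have e : f (put q r (insert j (insert k S)) (insert z U) y') =
          f (put q r (insert j (insert k S)) (insert j U) y') := by
        refine f_put_swap f ha hpq hpr hqr _ _ _ y' hjT hzT ?_ ?_ ?_ ?_
        · simp [hzj, hzj.symm, hz.2, hjU]
        · simp
        · intro c h1 h2; simp [h1, h2]
        · rw [hpj, hc' z hzj hzk, hzp]
      rw [e]; exact H1 U hU
    · have e : f (put q r (insert j (insert k S)) (insert z U) y') =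
          f (put q r (insert j (insert k S)) (insert k U) y') := by
        refine f_put_swap f ha hpq hpr hqr _ _ _ y' hkT hzT ?_ ?_ ?_ ?_
        · simp [hzk, hzk.symm, hz.2, hkU]
        · simp
        · intro c h1 h2; simp [h1, h2]
        · rw [hpk, hc' z hzj hzk, hzp]
      rw [e]; exact H2 U hU
  · intro U hU z hz
    have hUS := (mem_powersetCard.mp hU).1
    have hkU : k ∉ U := fun h => hkS (hUS h)
    have hjU : j ∉ U := fun h => hjS (hUS h)
    obtain ⟨hzj, hzk⟩ := mS z (hUS hz)
    have hzT : z ∈ insert j (insert k S) := by simp [hUS hz]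
    cases hzp : y z p
    · have e : f (put q r (insert j (insert k S)) (insert j (insert k (U.erase z))) y') =
          f (put q r (insert j (insert k S)) (insert k U) y') := by
        refine f_put_swap f ha hpq hpr hqr _ _ _ y' hjT hzT ?_ ?_ ?_ ?_
        · simp [hz]
        · simp [hzj, hzk, hjk, hjU]
        · intro c h1 h2; simp [h1, h2]
        · rw [hpj, hc' z hzj hzk, hzp]
      rw [e]; exact H2 U hU
    · have e : f (put q r (insert j (insert k S)) (insert j (insert k (U.erase z))) y') =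
          f (put q r (insert j (insert k S)) (insert j U) y') := by
        refine f_put_swap f ha hpq hpr hqr _ _ _ y' hkT hzT ?_ ?_ ?_ ?_
        · simp [hz]
        · simp [hzj, hzk, hjk.symm, hkU]
        · intro c h1 h2; simp [h1, h2]
        · rw [hpk, hc' z hzj hzk, hzp]
      rw [e]; exact H1 U hU

lemma third : ∀ p q : Fin 3, p ≠ q → ∃ r : Fin 3, p ≠ r ∧ q ≠ r := by decide

/-- stage b : invariance under b-moves. -/
theorem stage_b (f : (C → Fin 3 → Bool) → ℝ) (lam : ℝ) (hlam : 2 < lam) (h : Eig f lam)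
    (y : C → Fin 3 → Bool) (p q : Fin 3) (j k : C) (hpq : p ≠ q) (hjk : j ≠ k) (hj : y j = ev p)
    (hk : y k = cv p) : f (bmv q j k y) = f y := by
  classical
  have ha := stage_a f lam hlam h
  let D : Finset ((C → Fin 3 → Bool) × (Fin 3 × Fin 3) × (C × C)) := univ.filter fun t =>
    t.2.1.1 ≠ t.2.1.2 ∧ t.2.2.1 ≠ t.2.2.2 ∧ t.1 t.2.2.1 = ev t.2.1.1 ∧ t.1 t.2.2.2 = cv t.2.1.1
  let φ : (C → Fin 3 → Bool) × (Fin 3 × Fin 3) × (C × C) → ℝ := fun t =>
    |f (bmv t.2.1.2 t.2.2.1 t.2.2.2 t.1) - f t.1|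
  have hD : D.Nonempty := ⟨(y, (p, q), (j, k)), by simp [D, hpq, hjk, hj, hk]⟩
  obtain ⟨t, htD, htmax⟩ := exists_max_image D φ hD
  obtain ⟨y0, ⟨p0, q0⟩, ⟨j0, k0⟩⟩ := t
  obtain ⟨hpq0, hjk0, hj0, hk0⟩ : p0 ≠ q0 ∧ j0 ≠ k0 ∧ y0 j0 = ev p0 ∧ y0 k0 = cv p0 := by
    simpa [D] using htD
  have hA : φ (y0, (p0, q0), (j0, k0)) = |f (bmv q0 j0 k0 y0) - f y0| := rfl
  have hmax : ∀ (y : C → Fin 3 → Bool) (p q : Fin 3) (j k : C), p ≠ q → j ≠ k → y j = ev p →
      y k = cv p → |f (bmv q j k y) - f y| ≤ φ (y0, (p0, q0), (j0, k0)) := by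
    intro z a b c d h1 h2 h3 h4
    exact htmax (z, (a, b), (c, d)) (by simp [D, h1, h2, h3, h4])
  set A := φ (y0, (p0, q0), (j0, k0))
  have hA0 : 0 ≤ A := abs_nonneg _
  suffices hAz : A ≤ 0 by
    have h1 := (hmax y p q j k hpq hjk hj hk).trans hAz
    have := abs_nonpos_iff.mp h1
    linarith
  obtain ⟨r0, hpr0, hqr0⟩ := third p0 q0 hpq0
  have hTr := bmv_TrY hpq0 hjk0 hj0 hk0
  have e0 := avg_congr _ (TrY_equiv p0 q0) f hTr
  have e2 := avg_bmove f ha A hmax hpq0 hpr0 hqr0 hjk0 hj0 hk0
  -- reverse move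
  have hj1 : bmv q0 j0 k0 y0 j0 = ev q0 := by simp [bmv]
  have hk1 : bmv q0 j0 k0 y0 k0 = cv q0 := by simp [bmv, hjk0.symm]
  have hback : bmv p0 j0 k0 (bmv q0 j0 k0 y0) = y0 := by
    funext c
    unfold bmv
    by_cases h1 : c = j0
    · rw [if_pos h1, h1, hj0]
    · by_cases h2 : c = k0
      · rw [if_neg h1, if_pos h2, h2, hk0]
      · simp [h1, h2]
  have e1 := avg_bmove f ha A hmax hpq0.symm hqr0 hpr0 hjk0 hj1 hk1
  rw [hback, abs_sub_comm] at e1
  have h1 := h p0 q0 r0 hpq0 hpr0 hqr0 y0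
  have h2 := h p0 q0 r0 hpq0 hpr0 hqr0 (bmv q0 j0 k0 y0)
  have h3 : lam * (f (bmv q0 j0 k0 y0) - f y0) =
      (avg (TrY p0 r0) f (bmv q0 j0 k0 y0) - avg (TrY p0 r0) f y0) +
      (avg (TrY q0 r0) f (bmv q0 j0 k0 y0) - avg (TrY q0 r0) f y0) := by
    linarith
  have h4 : lam * A ≤ 2 * A := by
    calc lam * A = |lam * (f (bmv q0 j0 k0 y0) - f y0)| := by
          rw [abs_mul, abs_of_pos (by linarith), hA]
      _ ≤ |avg (TrY p0 r0) f (bmv q0 j0 k0 y0) - avg (TrY p0 r0) f y0| +
          |avg (TrY q0 r0) f (bmv q0 j0 k0 y0) - avg (TrY q0 r0) f y0| := by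
            rw [h3]; exact abs_add_le _ _
      _ ≤ 2 * A := by linarith
  nlinarith


/-- exchange within a class. -/
lemma f_exchange (f : (C → Fin 3 → Bool) → ℝ)
    (ha : ∀ (y : C → Fin 3 → Bool) (j k : C), wt y j = wt y k →
      f (fun c => y (Equiv.swap j k c)) = f y)
    (hb : ∀ (y : C → Fin 3 → Bool) (p q : Fin 3) (j k : C), p ≠ q → j ≠ k → y j = ev p →
      y k = cv p → f (bmv q j k y) = f y)
    {p q r : Fin 3} (hpq : p ≠ q) (hpr : p ≠ r) (hqr : q ≠ r) (y : C → Fin 3 → Bool)
    (S U : Finset C) (z z' : C) (hz : z ∈ U) (hzS : z ∈ S) (hz' : z' ∈ S) (hz'U : z' ∉ U) :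
    f (put q r S (insert z' (U.erase z)) y) = f (put q r S U y) := by
  have hne : z ≠ z' := fun h => hz'U (h ▸ hz)
  have i3 := three hpq hpr hqr
  by_cases hp : y z p = y z' p
  · refine f_put_swap f ha hpq hpr hqr S _ _ y hzS hz' ?_ ?_ ?_ hp
    · simp [hne, hz'U]
    · simp [hz]
    · intro c h1 h2; simp [h1, h2]
  · cases hzp : y z p
    · -- `z` has weight one, `z'` weight two
      have hzp' : y z' p = true := by
        rw [hzp] at hp; cases h : y z' p
        · exact absurd h.symm hp
        · rfl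
      have e : put q r S (insert z' (U.erase z)) y = bmv r z z' (put q r S U y) := by
        funext c i
        unfold bmv
        by_cases h1 : c = z
        · subst h1
          simp only [put, hzS, if_true, mem_insert, hne, mem_erase, ne_eq, not_true_eq_false,
            false_and, or_false]
          rcases i3 i with rfl | rfl | rfl
          · simp [ev, hpq, hpr, hzp]
          · simp [ev, hqr]
          · simp [ev, hqr.symm]
        · by_cases h2 : c = z'
          · subst h2
            simp only [put, hz', if_true, mem_insert, true_or]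
            rcases i3 i with rfl | rfl | rfl
            · simp [cv, hpq, hpr, hzp', h1]
            · simp [cv, hqr, h1]
            · simp [cv, hqr.symm, h1]
          · simp only [put, mem_insert, mem_erase, h1, h2, false_or, ne_eq, not_false_eq_true,
              true_and, if_false]
      rw [e]
      refine hb _ q r z z' hqr hne ?_ ?_
      · funext i
        simp only [put, hzS, if_true, hz]
        rcases i3 i with rfl | rfl | rfl
        · simp [ev, hpq, hpr, hzp]
        · simp [ev]
        · simp [ev, hqr.symm]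
      · funext i
        simp only [put, hz', if_true, hz'U]
        rcases i3 i with rfl | rfl | rfl
        · simp [cv, hpq, hpr, hzp']
        · simp [cv]
        · simp [cv, hqr.symm]
    · have hzp' : y z' p = false := by
        rw [hzp] at hp; cases h : y z' p
        · rfl
        · exact absurd h.symm hp
      have e : put q r S (insert z' (U.erase z)) y = bmv q z' z (put q r S U y) := by
        funext c i
        unfold bmv
        by_cases h1 : c = z'
        · subst h1
          simp only [put, hz', if_true, mem_insert, true_or]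
          rcases i3 i with rfl | rfl | rfl
          · simp [ev, hpq, hpr, hzp']
          · simp [ev]
          · simp [ev, hqr.symm]
        · by_cases h2 : c = z
          · subst h2
            simp only [put, hzS, if_true, mem_insert, h1, mem_erase, ne_eq, not_true_eq_false,
              false_and, or_false]
            rcases i3 i with rfl | rfl | rfl
            · simp [cv, hpq, hpr, hzp]
            · simp [cv]
            · simp [cv, hqr.symm]
          · simp only [put, mem_insert, mem_erase, h1, h2, false_or, ne_eq, not_false_eq_true,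
              true_and, if_false]
      rw [e]
      refine hb _ r q z' z hqr.symm hne.symm ?_ ?_
      · funext i
        simp only [put, hz', if_true, hz'U]
        rcases i3 i with rfl | rfl | rfl
        · simp [ev, hpq, hpr, hzp']
        · simp [ev, hqr]
        · simp [ev, hqr.symm]
      · funext i
        simp only [put, hzS, if_true, hz]
        rcases i3 i with rfl | rfl | rfl
        · simp [cv, hpq, hpr, hzp]
        · simp [cv, hqr]
        · simp [cv, hqr.symm]

/-- `f` is constant on all subsets of the same size. -/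
lemma f_const_put (f : (C → Fin 3 → Bool) → ℝ)
    (ha : ∀ (y : C → Fin 3 → Bool) (j k : C), wt y j = wt y k →
      f (fun c => y (Equiv.swap j k c)) = f y)
    (hb : ∀ (y : C → Fin 3 → Bool) (p q : Fin 3) (j k : C), p ≠ q → j ≠ k → y j = ev p →
      y k = cv p → f (bmv q j k y) = f y)
    {p q r : Fin 3} (hpq : p ≠ q) (hpr : p ≠ r) (hqr : q ≠ r) (y : C → Fin 3 → Bool)
    (S : Finset C) (s : ℕ) : ∀ (m : ℕ) (U V : Finset C), U ∈ S.powersetCard s →
      V ∈ S.powersetCard s → (U \ V).card = m → f (put q r S U y) = f (put q r S V y) := by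
  intro m
  induction m with
  | zero =>
    intro U V hU hV h
    rw [card_eq_zero, sdiff_eq_empty_iff_subset] at h
    rw [mem_powersetCard] at hU hV
    have : U = V := eq_of_subset_of_card_le h (by rw [hU.2, hV.2])
    rw [this]
  | succ m ih =>
    intro U V hU hV h
    have hUV : (U \ V).Nonempty := card_pos.mp (by omega)
    obtain ⟨z, hz⟩ := hUV
    have hU' := mem_powersetCard.mp hU
    have hV' := mem_powersetCard.mp hV
    have h2 : (V \ U).card = m + 1 := by
      rw [← h]; exact (card_sdiff_comm (hU'.2.trans hV'.2.symm)).symm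
    obtain ⟨z', hz'⟩ : (V \ U).Nonempty := card_pos.mp (by omega)
    rw [mem_sdiff] at hz hz'
    have hne : z ≠ z' := fun h => hz'.2 (h ▸ hz.1)
    rw [← f_exchange f ha hb hpq hpr hqr y S U z z' hz.1 (hU'.1 hz.1) (hV'.1 hz'.1) hz'.2]
    apply ih _ V _ hV
    · have : (insert z' (U.erase z)) \ V = (U \ V).erase z := by
        ext c
        simp only [mem_sdiff, mem_insert, mem_erase]
        constructor
        · rintro ⟨rfl | ⟨h1, h2⟩, h3⟩
          · exact absurd hz'.1 h3
          · exact ⟨h1, h2, h3⟩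
        · rintro ⟨h1, h2, h3⟩
          exact ⟨Or.inr ⟨h1, h2⟩, h3⟩
      rw [this, card_erase_of_mem (mem_sdiff.mpr hz), h]; rfl
    · rw [mem_powersetCard]
      constructor
      · intro c hc
        rw [mem_insert, mem_erase] at hc
        rcases hc with rfl | ⟨-, hc⟩
        · exact hV'.1 hz'.1
        · exact hU'.1 hc
      · rw [card_insert_of_notMem, card_erase_of_mem hz.1, hU'.2]
        · have : 0 < s := by rw [← hU'.2]; exact card_pos.mpr ⟨z, hz.1⟩
          omega
        · rw [mem_erase]; rintro ⟨-, h⟩; exact hz'.2 h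

theorem starY_gen (f : (C → Fin 3 → Bool) → ℝ) (lam : ℝ) (hlam : 2 < lam) (h : Eig f lam)
    {q r : Fin 3} (hqr : q ≠ r) (y y' : C → Fin 3 → Bool) (hT : TrY q r y y') : f y = f y' := by
  obtain ⟨p, hqp, hrp⟩ := third q r hqr
  have ha := stage_a f lam hlam h
  have hb := stage_b f lam hlam h
  have h1 : y ∈ cls (TrY q r) y := (mem_cls _).mpr ((TrY_equiv q r).refl y)
  have h2 : y' ∈ cls (TrY q r) y := (mem_cls _).mpr hT
  rw [cls_image hqr, mem_image] at h1 h2
  obtain ⟨U, hU, hU'⟩ := h1
  obtain ⟨V, hV, hV'⟩ := h2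
  have := f_const_put f ha hb hqp.symm hrp.symm hqr y (Sf q r y) (sf q r y) _ U V hU hV rfl
  rw [hU', hV'] at this
  exact this

/-- PART STAR. -/
theorem starY (f : (C → Fin 3 → Bool) → ℝ) (lam : ℝ) (hlam : 2 < lam)
    (h : ∀ y, avg (TrY 0 1) f y + avg (TrY 0 2) f y + avg (TrY 1 2) f y = lam * f y) :
    ∀ y y', (TrY 0 1 y y' ∨ TrY 0 2 y y' ∨ TrY 1 2 y y') → f y = f y' := by
  have hE := eig_of f lam h
  rintro y y' (hT | hT | hT)
  · exact starY_gen f lam hlam hE (by decide) y y' hT
  · exact starY_gen f lam hlam hE (by decide) y y' hT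
  · exact starY_gen f lam hlam hE (by decide) y y' hT

end star

end Crest.Agent.SC
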