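import Mathlib
import Crest.Agent.SnakyBase

set_option autoImplicit false

namespace Crest.Agent.Snaky
open Crest.CombinatoricsR.PolyominoGame

theorem S_mono_of_mem {a b : ℕ} (h : ∀ i, a.testBit i = true → b.testBit i = true) : S a ⊆ S b := by
  rintro c ⟨i, hi, rfl⟩
  exact ⟨i, h i hi, rfl⟩

theorem W_mono {k M Z Z' : ℕ} (h : S Z ⊆ S Z') (hW : W k M Z) : W k M Z' :=
  fun F hF => hW F (hF.mono_right h)

/-- strategy forests (first child / next sibling) -/
inductive T : Type
  | nil : T
  | leaf (s o : ℕ) (next : T) : T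
  | node (m : ℕ) (kids next : T) : T
  | ref (j : ℕ) (next : T) : T

/-- force the evaluation of `x` -/
def frc (x : ℕ) (f : ℕ → Bool) : Bool :=
  Nat.rec (motive := fun _ => Bool) (f 0) (fun n _ => f (n+1)) x

theorem frc_eq (x : ℕ) (f : ℕ → Bool) : frc x f = f x := by
  cases x <;> rfl

def ALL : ℕ := 2^1024 - 1

def bAnd (a b : Bool) : Bool := Bool.rec false b a

theorem bAnd_iff {a b : Bool} : bAnd a b = true ↔ a = true ∧ b = true := by
  cases a <;> simp [bAnd]

/-- environment entries `(k, M, Z)` -/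
abbrev Env := List (ℕ × ℕ × ℕ)

def EnvOK : Env → Prop
  | [] => True
  | e :: es => W e.1 e.2.1 e.2.2 ∧ EnvOK es

def look : Env → ℕ → (ℕ × ℕ × ℕ → Bool) → Bool
  | [], _, _ => false
  | e :: _, 0, f => f e
  | _ :: es, j+1, f => look es j f

theorem look_sound : ∀ {env : Env} {j : ℕ} {f : ℕ × ℕ × ℕ → Bool}, EnvOK env → look env j f = true →
    ∃ e : ℕ × ℕ × ℕ, W e.1 e.2.1 e.2.2 ∧ f e = true
  | [], _, _, _, h => by simp [look] at h
  | e :: es, 0, f, hE, h => ⟨e, hE.1, h⟩
  | e :: es, j+1, f, hE, h => look_sound (env := es) (j := j) hE.2 h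

/-- evaluation of forests, in continuation passing style.  Arguments: number of remaining Maker
claims, Maker's cells, running intersection and union of the zones. -/
noncomputable def evalF (env : Env) (t : T) : ℕ → ℕ → ℕ → ℕ → (ℕ → ℕ → Bool) → Bool :=
  T.rec (motive := fun _ => ℕ → ℕ → ℕ → ℕ → (ℕ → ℕ → Bool) → Bool)
    (fun _ _ i u c => c i u)
    (fun s o _ ih k M i u c =>
      Nat.rec (motive := fun _ => Bool) false (fun _ _ =>
        frc ((base o) <<< s) fun E => frc (E ^^^ (E &&& M)) fun d =>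
        bAnd (Nat.ble (s % 32) 27) (bAnd (Nat.ble 1 d) (bAnd (Nat.beq (d &&& (d - 1)) 0)
          (frc (i &&& d) fun i' => frc (u ||| d) fun u' => ih k M i' u' c)))) k)
    (fun m _ _ ihk ihn k M i u c =>
      Nat.rec (motive := fun _ => Bool) false (fun k' _ =>
        frc (1 <<< m) fun b => bAnd (Nat.beq (M &&& b) 0)
          (frc (M ||| b) fun M' => ihk k' M' ALL b (fun i2 u2 =>
            bAnd (Nat.beq i2 0) (bAnd (Nat.ble u2 ALL)
              (frc (i &&& u2) fun i' => frc (u ||| u2) fun u' => ihn k M i' u' c))))) k)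
    (fun j _ ih k M i u c =>
      look env j fun e => bAnd (Nat.beq e.1 k) (bAnd (Nat.beq e.2.1 M)
        (frc (i &&& e.2.2) fun i' => frc (u ||| e.2.2) fun u' => ih k M i' u' c)))
    t

theorem shiftLeft_one (m : ℕ) : 1 <<< m = 2 ^ m := by
  rw [Nat.shiftLeft_eq, one_mul]

theorem W_leaf {k s o M : ℕ} (hs : s % 32 ≤ 27)
    (h0 : 1 ≤ (base o <<< s) ^^^ ((base o <<< s) &&& M))
    (hd : ((base o <<< s) ^^^ ((base o <<< s) &&& M)) &&& (((base o <<< s) ^^^ ((base o <<< s) &&& M)) - 1) = 0) :
    W (k+1) M ((base o <<< s) ^^^ ((base o <<< s) &&& M)) := by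
  set E := base o <<< s with hE
  set d := E ^^^ (E &&& M) with hdd
  obtain ⟨m, hd⟩ := Nat.ne_zero_and_sub_one_eq_zero_iff_isPowerOfTwo.1 ⟨by omega, hd⟩
  intro F hF
  rw [hd, S_two_pow] at hF
  have hcF : cell m ∉ F := by
    intro h
    exact Set.disjoint_left.1 hF h rfl
  have hbit : ∀ i, d.testBit i = (E.testBit i && !(M.testBit i)) := by
    intro i
    rw [hdd, Nat.testBit_xor, Nat.testBit_and]
    cases E.testBit i <;> cases M.testBit i <;> rfl
  have hcM : cell m ∉ S M := by
    intro h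
    rw [mem_S] at h
    have h1 : d.testBit m = true := by rw [hd]; simp
    rw [hbit, h] at h1
    simp at h1
  refine ⟨cell m, hcM, hcF, Or.inl ?_⟩
  have h2 : insert (cell m) (S M) = S (M ||| d) := by
    rw [S_or, hd, S_two_pow, Set.union_comm, Set.singleton_union]
  rw [h2]
  apply containsCopy_of_base (o := o) (s := s) hs
  rw [← hE]
  apply Nat.eq_of_testBit_eq
  intro i
  rw [Nat.testBit_and, Nat.testBit_or, hbit]
  cases E.testBit i <;> cases M.testBit i <;> rfl


theorem testBit_of_mem_ALL {u j : ℕ} (h : u ≤ ALL) (hj : u.testBit j = true) : ALL.testBit j = true := by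
  have hlt : u < 2^1024 := by
    have : ALL < 2^1024 := by unfold ALL; exact Nat.sub_lt (by positivity) (by norm_num)
    omega
  have hj' : j < 1024 := by
    by_contra hcon
    push Not at hcon
    have : u.testBit j = false := Nat.testBit_lt_two_pow (lt_of_lt_of_le hlt (Nat.pow_le_pow_right (by norm_num) hcon))
    rw [this] at hj
    exact Bool.noConfusion hj
  unfold ALL
  rw [Nat.testBit_two_pow_sub_one]
  simpa using hj'

theorem disjoint_insert {F : Set Cell} {Z : Set Cell} {r : Cell} (h : Disjoint F Z) (hr : r ∉ Z) :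
    Disjoint (insert r F) Z := by
  rw [Set.disjoint_left]
  rintro x (rfl | hx) hZ
  · exact hr hZ
  · exact Set.disjoint_left.1 h hx hZ

/-- specification of the result of evaluating a forest -/
def Spec (k M i u i' u' : ℕ) : Prop :=
  S u ⊆ S u' ∧
      (∀ F r, Disjoint F (S u') → r ∈ S i → r ∉ S i' → Wins k (S M) (insert r F)) ∧
      (i' = i ∨ ∃ Z, S Z ⊆ S u' ∧ W k M Z)

theorem Spec_refl (k M i u : ℕ) : Spec k M i u i u :=
  ⟨subset_rfl, fun _ _ _ h1 h2 => absurd h1 h2, Or.inl rfl⟩

theorem Spec_cons {k M i u i' u' d : ℕ} (hd : W k M d) (h : Spec k M (i &&& d) (u ||| d) i' u') :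
    Spec k M i u i' u' := by
  obtain ⟨h1, h2, _⟩ := h
  rw [S_or] at h1
  refine ⟨fun x hx => h1 (Or.inl hx), ?_, Or.inr ⟨d, fun x hx => h1 (Or.inr hx), hd⟩⟩
  intro F r hF hr hr'
  by_cases hrd : r ∈ S d
  · exact h2 F r hF (by rw [S_and]; exact ⟨hr, hrd⟩) hr'
  · exact hd _ (disjoint_insert (hF.mono_right (fun x hx => h1 (Or.inr hx))) hrd)

theorem W_node {k m M u2 : ℕ} (hM : M &&& (1 <<< m) = 0) (hu : u2 ≤ ALL)
    (h : Spec k (M ||| (1 <<< m)) ALL (1 <<< m) 0 u2) : W (k+1) M u2 := by
  obtain ⟨h1, h2, h3⟩ := h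
  rw [shiftLeft_one] at *
  rw [S_or, S_two_pow] at h2
  rw [S_two_pow] at h1
  have hm : cell m ∈ S u2 := h1 rfl
  have hcM : cell m ∉ S M := by
    intro hc
    have : cell m ∈ S (M &&& 2^m) := by
      rw [S_and, S_two_pow]; exact ⟨hc, rfl⟩
    rw [hM, S_zero] at this
    exact this
  intro F hF
  refine ⟨cell m, hcM, fun hc => Set.disjoint_left.1 hF hc hm, Or.inr ?_⟩
  intro r hr hrF
  rw [show insert (cell m) (S M) = S M ∪ {cell m} by rw [Set.union_comm, Set.singleton_union]]
  by_cases hA : r ∈ S ALL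
  · exact h2 F r hF hA (by rw [S_zero]; exact fun h => h)
  · rcases h3 with h3 | ⟨Z, hZ, hW⟩
    · exact absurd h3 (by unfold ALL; exact (Nat.sub_pos_of_lt (by norm_num)).ne)
    · have hW' := hW (insert r F) (disjoint_insert (hF.mono_right hZ) (fun hrZ => ?_))
      · rwa [S_or, S_two_pow] at hW'
      · apply hA
        obtain ⟨j, hj, rfl⟩ := hZ hrZ
        exact ⟨j, testBit_of_mem_ALL hu hj, rfl⟩

theorem beq_eq {a b : ℕ} (h : Nat.beq a b = true) : a = b := Nat.eq_of_beq_eq_true h

/-- specification of forest evaluation -/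
theorem evalF_sound (env : Env) (hE : EnvOK env) : ∀ (t : T) (k M i u : ℕ) (c : ℕ → ℕ → Bool),
    evalF env t k M i u c = true → ∃ i' u', c i' u' = true ∧ Spec k M i u i' u' := by
  intro t
  induction t with
  | nil => intro k M i u c h; exact ⟨i, u, h, Spec_refl k M i u⟩
  | leaf s o next ih =>
    intro k M i u c h
    cases k with
    | zero => exact absurd h Bool.false_ne_true
    | succ k =>
      change frc ((base o) <<< s) (fun E => frc (E ^^^ (E &&& M)) fun d =>
        bAnd (Nat.ble (s % 32) 27) (bAnd (Nat.ble 1 d) (bAnd (Nat.beq (d &&& (d - 1)) 0)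
          (frc (i &&& d) fun i' => frc (u ||| d) fun u' => evalF env next (k+1) M i' u' c)))) = true at h
      simp only [frc_eq, bAnd_iff] at h
      obtain ⟨h1, h2, h2', h3⟩ := h
      obtain ⟨i', u', hc, hS⟩ := ih _ _ _ _ _ h3
      exact ⟨i', u', hc, Spec_cons (W_leaf (Nat.le_of_ble_eq_true h1) (Nat.le_of_ble_eq_true h2) (beq_eq h2')) hS⟩
  | node m kids next ihk ihn =>
    intro k M i u c h
    cases k with
    | zero => exact absurd h Bool.false_ne_true
    | succ k =>
      change frc (1 <<< m) (fun b => bAnd (Nat.beq (M &&& b) 0)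
          (frc (M ||| b) fun M' => evalF env kids k M' ALL b (fun i2 u2 =>
            bAnd (Nat.beq i2 0) (bAnd (Nat.ble u2 ALL)
              (frc (i &&& u2) fun i' => frc (u ||| u2) fun u' => evalF env next (k+1) M i' u' c))))) = true at h
      simp only [frc_eq, bAnd_iff] at h
      obtain ⟨h1, h2⟩ := h
      obtain ⟨i2, u2, hc, hS⟩ := ihk _ _ _ _ _ h2
      simp only [bAnd_iff] at hc
      obtain ⟨h3, h4, h5⟩ := hc
      have h3' := beq_eq h3
      subst h3'
      obtain ⟨i', u', hc', hS'⟩ := ihn _ _ _ _ _ h5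
      exact ⟨i', u', hc', Spec_cons (W_node (beq_eq h1) (Nat.le_of_ble_eq_true h4) hS) hS'⟩
  | ref j next ih =>
    intro k M i u c h
    change look env j (fun e => bAnd (Nat.beq e.1 k) (bAnd (Nat.beq e.2.1 M)
        (frc (i &&& e.2.2) fun i' => frc (u ||| e.2.2) fun u' => evalF env next k M i' u' c))) = true at h
    obtain ⟨e, hW, h⟩ := look_sound hE h
    simp only [frc_eq, bAnd_iff] at h
    obtain ⟨h1, h2, h3⟩ := h
    obtain ⟨i', u', hc, hS⟩ := ih _ _ _ _ _ h3
    have h1' := beq_eq h1
    have h2' := beq_eq h2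
    subst h1'; subst h2'
    exact ⟨i', u', hc, Spec_cons hW hS⟩

/-- force the evaluation of `x` -/
noncomputable def frcT (x : ℕ) (f : ℕ → T) : T :=
  Nat.rec (motive := fun _ => T) (f 0) (fun n _ => f (n+1)) x

noncomputable def ifT (b : Bool) (x y : T) : T := Bool.rec (motive := fun _ => T) y x b

/-- pop one forest from the stack -/
noncomputable def pop (st : List T) (f : T → List T → T) : T :=
  List.rec (motive := fun _ => T) T.nil (fun t st' _ => f t st') st

/-- push machine building a forest out of a stream of 16 bit tokens (in reverse order) -/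
noncomputable def parse (n : ℕ) : ℕ → List T → T :=
  Nat.rec (motive := fun _ => ℕ → List T → T) (fun _ st => pop st fun t _ => t)
    (fun _ ih c st => frcT (c % 65536) fun tok => frcT (c >>> 16) fun c' =>
      ifT (Nat.ble 1024 tok)
        (ifT (Nat.ble 2048 tok)
          (ifT (Nat.ble 16384 tok)
            (pop st fun next st' => ih c' (T.ref (tok - 16384) next :: st'))
            (pop st fun next st' => frcT (tok % 1024) fun s => frcT ((tok - 2048) / 1024) fun o =>
              ih c' (T.leaf s o next :: st')))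
          (ih c' (T.nil :: st)))
        (pop st fun kids st1 => pop st1 fun next st' => ih c' (T.node tok kids next :: st'))) n

/-- the check of a block -/
noncomputable def check (env : Env) (n c k M Z : ℕ) : Bool :=
  evalF env (parse n c []) k M ALL 0 (fun i u => bAnd (Nat.beq u Z) (Nat.ble i u))

theorem check_sound {env : Env} {n c k M Z : ℕ} (hE : EnvOK env) (h : check env n c k M Z = true)
    (hZ : Z < ALL) : W k M Z := by
  obtain ⟨i', u', hc, -, -, h3⟩ := evalF_sound env hE _ _ _ _ _ _ h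
  rw [bAnd_iff] at hc
  have hu := beq_eq hc.1
  have hi := Nat.le_of_ble_eq_true hc.2
  subst hu
  rcases h3 with h3 | ⟨Z, hZ', hW⟩
  · omega
  · exact W_mono hZ' hW

end Crest.Agent.Snaky
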