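import Mathlib
import Crest.Agent.SnakyEval

set_option autoImplicit false

namespace Crest.Agent.Snaky
open Crest.CombinatoricsR.PolyominoGame

/-- maps of the board preserving copies of Snaky -/
def Good (φ : Cell ≃ Cell) : Prop := ∀ X : Set Cell, ContainsCopy X → ContainsCopy (φ '' X)

theorem Good.trans {φ ψ : Cell ≃ Cell} (h1 : Good φ) (h2 : Good ψ) : Good (φ.trans ψ) := by
  intro X hX
  have := h2 _ (h1 _ hX)
  rwa [← Set.image_comp] at this

theorem Good_refl : Good (Equiv.refl _) := by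
  intro X hX; simpa using hX

/-- translation -/
def trl (a b : ℤ) : Cell ≃ Cell where
  toFun c := (c.1 + a, c.2 + b)
  invFun c := (c.1 - a, c.2 - b)
  left_inv c := by ext <;> simp
  right_inv c := by ext <;> simp

/-- `x ↦ a - x` -/
def flx (a : ℤ) : Cell ≃ Cell where
  toFun c := (a - c.1, c.2)
  invFun c := (a - c.1, c.2)
  left_inv c := by ext <;> simp
  right_inv c := by ext <;> simp

def fly (a : ℤ) : Cell ≃ Cell where
  toFun c := (c.1, a - c.2)
  invFun c := (c.1, a - c.2)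
  left_inv c := by ext <;> simp
  right_inv c := by ext <;> simp

theorem neg_cases {ε : ℤ} (h : ε = 1 ∨ ε = -1) : -ε = 1 ∨ -ε = -1 := by
  rcases h with rfl | rfl <;> simp

theorem Good_trl (a b : ℤ) : Good (trl a b) := by
  rintro X ⟨t, ε₁, ε₂, h1, h2, h3⟩
  refine ⟨(t.1 + a, t.2 + b), ε₁, ε₂, h1, h2, ?_⟩
  refine h3.imp ?_ ?_ <;>
  · intro h p hp
    exact ⟨_, h p hp, by ext <;> simp [trl] <;> ring⟩

theorem Good_flx (a : ℤ) : Good (flx a) := by
  rintro X ⟨t, ε₁, ε₂, h1, h2, h3⟩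
  refine ⟨(a - t.1, t.2), -ε₁, ε₂, neg_cases h1, h2, ?_⟩
  refine h3.imp ?_ ?_ <;>
  · intro h p hp
    exact ⟨_, h p hp, by ext <;> simp [flx]; ring⟩

theorem Good_fly (a : ℤ) : Good (fly a) := by
  rintro X ⟨t, ε₁, ε₂, h1, h2, h3⟩
  refine ⟨(t.1, a - t.2), ε₁, -ε₂, h1, neg_cases h2, ?_⟩
  refine h3.imp ?_ ?_ <;>
  · intro h p hp
    exact ⟨_, h p hp, by ext <;> simp [fly]; ring⟩

theorem Good_swap : Good (Equiv.prodComm ℤ ℤ) := by
  rintro X ⟨t, ε₁, ε₂, h1, h2, h3⟩
  refine ⟨(t.2, t.1), ε₂, ε₁, h2, h1, ?_⟩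
  rcases h3 with h3 | h3
  · exact Or.inr fun p hp => ⟨_, h3 p hp, rfl⟩
  · exact Or.inl fun p hp => ⟨_, h3 p hp, rfl⟩

theorem Wins_image {φ : Cell ≃ Cell} (hφ : Good φ) : ∀ (k : ℕ) (M F : Set Cell), Wins k M F →
    Wins k (φ '' M) (φ '' F)
  | 0, M, F, h => hφ _ h
  | k+1, M, F, h => by
    obtain ⟨m, h1, h2, h3⟩ := h
    refine ⟨φ m, ?_, ?_, ?_⟩
    · rwa [φ.injective.mem_set_image]
    · rwa [φ.injective.mem_set_image]
    · rw [← Set.image_insert_eq]
      refine h3.imp (hφ _) ?_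
      intro h r hr hrF
      obtain ⟨r, rfl⟩ := φ.surjective r
      rw [φ.injective.mem_set_image] at hr hrF
      rw [← Set.image_insert_eq]
      exact Wins_image hφ k _ _ (h r hr hrF)

theorem W_image {φ : Cell ≃ Cell} (hφ : Good φ) {k M Z M' Z' : ℕ} (hM : φ '' S M = S M')
    (hZ : φ '' S Z ⊆ S Z') (h : W k M Z) : W k M' Z' := by
  intro F hF
  have h1 := Wins_image hφ k _ _ (h (φ ⁻¹' F) (by
    rw [Set.disjoint_left]
    intro c hc hcZ
    exact Set.disjoint_left.1 hF hc (hZ ⟨c, hcZ, rfl⟩)))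
  rwa [hM, Set.image_preimage_eq _ φ.surjective] at h1

/-! ### linear maps on bitboards -/

structure Lin (f : ℕ → ℕ) : Prop where
  zero : f 0 = 0
  xor : ∀ a b, f (a ^^^ b) = f a ^^^ f b

/-- force the evaluation of `x` -/
noncomputable def frcN (x : ℕ) (f : ℕ → ℕ) : ℕ :=
  Nat.rec (motive := fun _ => ℕ) (f 0) (fun n _ => f (n+1)) x

theorem frcN_eq (x : ℕ) (f : ℕ → ℕ) : frcN x f = f x := by
  cases x <;> rfl

/-- exchange the bits `i`, `i + s` for all bits `i` of the mask `m` -/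
noncomputable def stp (s m n : ℕ) : ℕ := frcN n fun n => ((n >>> s) &&& m) ^^^ ((n &&& m) <<< s)

/-- delta swap -/
noncomputable def dsw (s m n : ℕ) : ℕ :=
  frcN n fun n => frcN (((n >>> s) ^^^ n) &&& m) fun t => n ^^^ (t ^^^ (t <<< s))

theorem Lin_stp (s m : ℕ) : Lin (stp s m) := by
  constructor
  · simp [stp, frcN_eq]
  · intro a b
    simp only [stp, frcN_eq]
    apply Nat.eq_of_testBit_eq
    intro i
    simp only [Nat.testBit_xor, Nat.testBit_and, Nat.testBit_shiftRight, Nat.testBit_shiftLeft]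
    cases a.testBit (s + i) <;> cases b.testBit (s + i) <;> cases m.testBit i <;>
      cases decide (i ≥ s) <;> cases a.testBit (i - s) <;> cases b.testBit (i - s) <;>
      cases m.testBit (i - s) <;> rfl

theorem Lin_dsw (s m : ℕ) : Lin (dsw s m) := by
  constructor
  · simp [dsw, frcN_eq]
  · intro a b
    simp only [dsw, frcN_eq]
    apply Nat.eq_of_testBit_eq
    intro i
    simp only [Nat.testBit_xor, Nat.testBit_and, Nat.testBit_shiftRight, Nat.testBit_shiftLeft]
    cases a.testBit (s + i) <;> cases b.testBit (s + i) <;> cases m.testBit i <;>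
      cases a.testBit i <;> cases b.testBit i <;>
      cases decide (i ≥ s) <;> simp <;> cases a.testBit (s + (i - s)) <;> cases b.testBit (s + (i - s)) <;>
      cases a.testBit (i - s) <;> cases b.testBit (i - s) <;>
      cases m.testBit (i - s) <;> rfl

theorem Lin.comp {f g : ℕ → ℕ} (hf : Lin f) (hg : Lin g) : Lin (fun n => f (g n)) :=
  ⟨by simp only [hg.zero, hf.zero], fun a b => by simp only [hg.xor, hf.xor]⟩

end Crest.Agent.Snaky
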