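import Mathlib
import Crest.Agent.SnakySym

set_option autoImplicit false

namespace Crest.Agent.Snaky
open Crest.CombinatoricsR.PolyominoGame

noncomputable def flipXN (n : ℕ) : ℕ :=
  stp 16 0xffff0000ffff0000ffff0000ffff0000ffff0000ffff0000ffff0000ffff0000ffff0000ffff0000ffff0000ffff0000ffff0000ffff0000ffff0000ffff0000ffff0000ffff0000ffff0000ffff0000ffff0000ffff0000ffff0000ffff0000ffff0000ffff0000ffff0000ffff0000ffff0000ffff0000ffff0000ffff
    (stp 8 0xff00ff00ff00ff00ff00ff00ff00ff00ff00ff00ff00ff00ff00ff00ff00ff00ff00ff00ff00ff00ff00ff00ff00ff00ff00ff00ff00ff00ff00ff00ff00ff00ff00ff00ff00ff00ff00ff00ff00ff00ff00ff00ff00ff00ff00ff00ff00ff00ff00ff00ff00ff00ff00ff00ff00ff00ff00ff00ff00ff00ff00ff00ff00ff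
    (stp 4 0xf0f0f0f0f0f0f0f0f0f0f0f0f0f0f0f0f0f0f0f0f0f0f0f0f0f0f0f0f0f0f0f0f0f0f0f0f0f0f0f0f0f0f0f0f0f0f0f0f0f0f0f0f0f0f0f0f0f0f0f0f0f0f0f0f0f0f0f0f0f0f0f0f0f0f0f0f0f0f0f0f0f0f0f0f0f0f0f0f0f0f0f0f0f0f0f0f0f0f0f0f0f0f0f0f0f0f0f0f0f0f0f0f0f0f0f0f0f0f0f0f0f0f0f0f0f0f0f
    (stp 2 0x3333333333333333333333333333333333333333333333333333333333333333333333333333333333333333333333333333333333333333333333333333333333333333333333333333333333333333333333333333333333333333333333333333333333333333333333333333333333333333333333333333333333333333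
    (stp 1 0x5555555555555555555555555555555555555555555555555555555555555555555555555555555555555555555555555555555555555555555555555555555555555555555555555555555555555555555555555555555555555555555555555555555555555555555555555555555555555555555555555555555555555555
    (n)))))

noncomputable def flipYN (n : ℕ) : ℕ :=
  stp 512 0xffffffffffffffffffffffffffffffffffffffffffffffffffffffffffffffffffffffffffffffffffffffffffffffffffffffffffffffffffffffffffffffff
    (stp 256 0xffffffffffffffffffffffffffffffffffffffffffffffffffffffffffffffff0000000000000000000000000000000000000000000000000000000000000000ffffffffffffffffffffffffffffffffffffffffffffffffffffffffffffffff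
    (stp 128 0xffffffffffffffffffffffffffffffff00000000000000000000000000000000ffffffffffffffffffffffffffffffff00000000000000000000000000000000ffffffffffffffffffffffffffffffff00000000000000000000000000000000ffffffffffffffffffffffffffffffff
    (stp 64 0xffffffffffffffff0000000000000000ffffffffffffffff0000000000000000ffffffffffffffff0000000000000000ffffffffffffffff0000000000000000ffffffffffffffff0000000000000000ffffffffffffffff0000000000000000ffffffffffffffff0000000000000000ffffffffffffffff
    (stp 32 0xffffffff00000000ffffffff00000000ffffffff00000000ffffffff00000000ffffffff00000000ffffffff00000000ffffffff00000000ffffffff00000000ffffffff00000000ffffffff00000000ffffffff00000000ffffffff00000000ffffffff00000000ffffffff00000000ffffffff00000000ffffffff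
    (n)))))

noncomputable def swapN (n : ℕ) : ℕ :=
  dsw 496 0xffff0000ffff0000ffff0000ffff0000ffff0000ffff0000ffff0000ffff0000ffff0000ffff0000ffff0000ffff0000ffff0000ffff0000ffff0000ffff0000
    (dsw 248 0xff00ff00ff00ff00ff00ff00ff00ff00ff00ff00ff00ff00ff00ff00ff00ff000000000000000000000000000000000000000000000000000000000000000000ff00ff00ff00ff00ff00ff00ff00ff00ff00ff00ff00ff00ff00ff00ff00ff00
    (dsw 124 0xf0f0f0f0f0f0f0f0f0f0f0f0f0f0f0f000000000000000000000000000000000f0f0f0f0f0f0f0f0f0f0f0f0f0f0f0f000000000000000000000000000000000f0f0f0f0f0f0f0f0f0f0f0f0f0f0f0f000000000000000000000000000000000f0f0f0f0f0f0f0f0f0f0f0f0f0f0f0f0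
    (dsw 62 0xcccccccccccccccc0000000000000000cccccccccccccccc0000000000000000cccccccccccccccc0000000000000000cccccccccccccccc0000000000000000cccccccccccccccc0000000000000000cccccccccccccccc0000000000000000cccccccccccccccc0000000000000000cccccccccccccccc
    (dsw 31 0xaaaaaaaa00000000aaaaaaaa00000000aaaaaaaa00000000aaaaaaaa00000000aaaaaaaa00000000aaaaaaaa00000000aaaaaaaa00000000aaaaaaaa00000000aaaaaaaa00000000aaaaaaaa00000000aaaaaaaa00000000aaaaaaaa00000000aaaaaaaa00000000aaaaaaaa00000000aaaaaaaa00000000aaaaaaaa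
    (n)))))

def REP : ℕ := 0x100000001000000010000000100000001000000010000000100000001000000010000000100000001000000010000000100000001000000010000000100000001000000010000000100000001000000010000000100000001000000010000000100000001000000010000000100000001000000010000000100000001

theorem Lin_id : Lin (fun n => n) := ⟨rfl, fun _ _ => rfl⟩

theorem Lin_flipXN : Lin flipXN := by
  unfold flipXN
  exact (Lin_stp _ _).comp ((Lin_stp _ _).comp ((Lin_stp _ _).comp ((Lin_stp _ _).comp (Lin_stp _ _))))

theorem Lin_flipYN : Lin flipYN := by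
  unfold flipYN
  exact (Lin_stp _ _).comp ((Lin_stp _ _).comp ((Lin_stp _ _).comp ((Lin_stp _ _).comp (Lin_stp _ _))))

theorem Lin_swapN : Lin swapN := by
  unfold swapN
  exact (Lin_dsw _ _).comp ((Lin_dsw _ _).comp ((Lin_dsw _ _).comp ((Lin_dsw _ _).comp (Lin_dsw _ _))))

noncomputable def allLt (n : ℕ) (p : ℕ → Bool) : Bool :=
  Nat.rec (motive := fun _ => Bool) true (fun k ih => bAnd (p k) ih) n

theorem allLt_iff {n : ℕ} {p : ℕ → Bool} : allLt n p = true → ∀ i < n, p i = true := by
  induction n with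
  | zero => intro _ i hi; omega
  | succ k ih =>
    intro h i hi
    change bAnd (p k) (allLt k p) = true at h
    rw [bAnd_iff] at h
    rcases Nat.lt_succ_iff_lt_or_eq.1 hi with h1 | h1
    · exact ih h.2 i h1
    · rw [h1]; exact h.1

theorem flipXN_chk : ∀ j < 16, allLt 64 (fun i => frc (i + 64 * j) fun i => Nat.beq (flipXN (Nat.pow 2 i)) (Nat.pow 2 ((31 - i % 32) + 32 * (i / 32)))) = true := by
  intro j hj
  interval_cases j <;> decide +kernel

theorem flipXN_basis : ∀ i < 1024, flipXN (2^i) = 2^((31 - i % 32) + 32 * (i / 32)) := by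
  intro i hi
  have h1 := allLt_iff (flipXN_chk (i / 64) (by omega)) (i % 64) (Nat.mod_lt _ (by norm_num))
  rw [frc_eq, Nat.mod_add_div] at h1
  have h2 := beq_eq h1
  rw [Nat.pow_eq, Nat.pow_eq] at h2
  exact h2

theorem flipYN_chk : ∀ j < 16, allLt 64 (fun i => frc (i + 64 * j) fun i => Nat.beq (flipYN (Nat.pow 2 i)) (Nat.pow 2 (i % 32 + 32 * (31 - i / 32)))) = true := by
  intro j hj
  interval_cases j <;> decide +kernel

theorem flipYN_basis : ∀ i < 1024, flipYN (2^i) = 2^(i % 32 + 32 * (31 - i / 32)) := by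
  intro i hi
  have h1 := allLt_iff (flipYN_chk (i / 64) (by omega)) (i % 64) (Nat.mod_lt _ (by norm_num))
  rw [frc_eq, Nat.mod_add_div] at h1
  have h2 := beq_eq h1
  rw [Nat.pow_eq, Nat.pow_eq] at h2
  exact h2

theorem swapN_chk : ∀ j < 16, allLt 64 (fun i => frc (i + 64 * j) fun i => Nat.beq (swapN (Nat.pow 2 i)) (Nat.pow 2 (i / 32 + 32 * (i % 32)))) = true := by
  intro j hj
  interval_cases j <;> decide +kernel

theorem swapN_basis : ∀ i < 1024, swapN (2^i) = 2^(i / 32 + 32 * (i % 32)) := by
  intro i hi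
  have h1 := allLt_iff (swapN_chk (i / 64) (by omega)) (i % 64) (Nat.mod_lt _ (by norm_num))
  rw [frc_eq, Nat.mod_add_div] at h1
  have h2 := beq_eq h1
  rw [Nat.pow_eq, Nat.pow_eq] at h2
  exact h2

theorem S_xor_two_pow {j b : ℕ} (h : b.testBit j = false) : S (2^j ^^^ b) = insert (cell j) (S b) := by
  ext c; constructor
  · rintro ⟨i, hi, rfl⟩
    rw [Nat.testBit_xor, Nat.testBit_two_pow] at hi
    by_cases hij : j = i
    · subst hij; exact Or.inl rfl
    · right; rw [mem_S]; simpa [hij] using hi
  · rintro (rfl | ⟨i, hi, rfl⟩)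
    · rw [mem_S, Nat.testBit_xor, Nat.testBit_two_pow, h]; simp
    · rw [mem_S, Nat.testBit_xor, Nat.testBit_two_pow, hi]
      have : j ≠ i := by rintro rfl; rw [h] at hi; exact Bool.noConfusion hi
      simp [this]

theorem S_of_basis {f : ℕ → ℕ} (hf : Lin f) {π : ℕ → ℕ} (hπ : ∀ i < 1024, f (2^i) = 2^(π i))
    {φ : Cell ≃ Cell} (hφ : ∀ i < 1024, cell (π i) = φ (cell i)) :
    ∀ n < 2^1024, S (f n) = φ '' S n := by
  intro n
  induction n using Nat.strong_induction_on with
  | _ n ih =>
    intro hn
    rcases Nat.eq_zero_or_pos n with h0 | h0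
    · subst h0; rw [hf.zero, S_zero, Set.image_empty]
    set i := Nat.log2 n with hi
    have h1 : n.testBit i = true := Nat.testBit_log2 (by omega)
    have hi' : i < 1024 := by
      rw [hi, Nat.log2_lt (by omega)]; exact hn
    set n' := 2^i ^^^ n with hn'
    have h2 : n'.testBit i = false := by
      rw [hn', Nat.testBit_xor, h1]; simp
    have h3 : n = 2^i ^^^ n' := by
      rw [hn', ← Nat.xor_assoc, Nat.xor_self, Nat.zero_xor]
    have h4 : n' < 2^i := by
      apply Nat.lt_pow_two_of_testBit
      intro j hj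
      rcases Nat.lt_or_eq_of_le hj with hj | hj
      · rw [hn', Nat.testBit_xor, Nat.testBit_two_pow]
        have : n.testBit j = false := Nat.testBit_lt_two_pow (by
          have : n < 2^(i+1) := Nat.lt_log2_self
          exact lt_of_lt_of_le this (Nat.pow_le_pow_right (by norm_num) hj))
        rw [this]
        have : i ≠ j := by omega
        simp [this]
      · rw [← hj]; exact h2
    have h5 : n' < n := lt_of_lt_of_le h4 (Nat.log2_self_le (by omega))
    have h6 := ih n' h5 (by omega)
    rw [h3, hf.xor, hπ i hi', S_xor_two_pow h2, Set.image_insert_eq, ← hφ i hi', ← h6]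
    apply S_xor_two_pow
    by_contra hc
    rw [Bool.not_eq_false, ← mem_S, h6, hφ i hi', φ.injective.mem_set_image, mem_S, h2] at hc
    exact Bool.noConfusion hc

theorem S_flipXN {n : ℕ} (hn : n < 2^1024) : S (flipXN n) = flx 31 '' S n := by
  refine S_of_basis Lin_flipXN flipXN_basis ?_ n hn
  intro i hi
  simp only [cell, flx, Equiv.coe_fn_mk]
  ext <;> simp <;> omega

theorem S_flipYN {n : ℕ} (hn : n < 2^1024) : S (flipYN n) = fly 31 '' S n := by
  refine S_of_basis Lin_flipYN flipYN_basis ?_ n hn
  intro i hi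
  simp only [cell, fly, Equiv.coe_fn_mk]
  ext <;> simp <;> omega

theorem S_swapN {n : ℕ} (hn : n < 2^1024) : S (swapN n) = Equiv.prodComm ℤ ℤ '' S n := by
  refine S_of_basis Lin_swapN swapN_basis ?_ n hn
  intro i hi
  simp only [cell, Equiv.prodComm_apply]
  ext <;> simp <;> omega

end Crest.Agent.Snaky
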