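import Mathlib
import Crest.Agent.SnakyImg

set_option autoImplicit false

namespace Crest.Agent.Snaky
open Crest.CombinatoricsR.PolyominoGame

/-- the first `a` columns -/
def cm (a : ℕ) : ℕ := (2^a - 1) * REP

def cmRec : ℕ → ℕ
  | 0 => 0
  | a+1 => cmRec a ||| (REP <<< a)

theorem cm_eq : ∀ a ≤ 32, cm a = cmRec a := by
  intro a ha
  interval_cases a <;> decide +kernel

theorem REP_bit : ∀ y < 32, REP.testBit (32 * y) = true := by
  intro y hy
  interval_cases y <;> decide +kernel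

theorem cmRec_testBit : ∀ a i : ℕ, i < 1024 → i % 32 < a → (cmRec a).testBit i = true
  | 0, i, _, h => by omega
  | a+1, i, hi, h => by
    rw [cmRec, Nat.testBit_or]
    by_cases h1 : i % 32 < a
    · rw [cmRec_testBit a i hi h1]; rfl
    · have h2 : i - a = 32 * (i / 32) := by omega
      rw [Nat.testBit_shiftLeft, h2, REP_bit _ (by omega)]
      have h3 : i ≥ a := by omega
      simp [h3]

theorem cm_testBit {a i : ℕ} (ha : a ≤ 32) (hi : i < 1024) (h : i % 32 < a) : (cm a).testBit i = true := by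
  rw [cm_eq a ha]; exact cmRec_testBit a i hi h

theorem lt_of_testBit {n i : ℕ} (hn : n ≤ ALL) (h : n.testBit i = true) : i < 1024 := by
  have hlt : n < 2^1024 := by
    have : ALL < 2^1024 := by unfold ALL; exact Nat.sub_lt (by positivity) (by norm_num)
    omega
  by_contra hcon
  push Not at hcon
  have : n.testBit i = false := Nat.testBit_lt_two_pow (lt_of_lt_of_le hlt (Nat.pow_le_pow_right (by norm_num) hcon))
  rw [this] at h
  exact Bool.noConfusion h

theorem S_shl {n a : ℕ} (hn : n ≤ ALL) (ha : a ≤ 32) (h : n &&& (cm a <<< (32 - a)) = 0) :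
    S (n <<< a) = trl a 0 '' S n := by
  have key : ∀ i, n.testBit i = true → cell (i + a) = trl a 0 (cell i) := by
    intro i hi
    have hi' := lt_of_testBit hn hi
    have h1 : i % 32 < 32 - a := by
      by_contra hc
      have h2 : (cm a).testBit (i - (32 - a)) = true := by
        apply cm_testBit ha (by omega)
        omega
      have h3 : (n &&& (cm a <<< (32 - a))).testBit i = true := by
        rw [Nat.testBit_and, hi, Nat.testBit_shiftLeft, h2]
        have h3 : i ≥ 32 - a := by omega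
        simp [h3]
      rw [h] at h3
      simp at h3
    have h2 : (i + a) % 32 = i % 32 + a := by omega
    have h3 : (i + a) / 32 = i / 32 := by omega
    simp only [cell, trl, Equiv.coe_fn_mk, h2, h3]
    push_cast
    simp
  ext c; constructor
  · rintro ⟨j, hj, rfl⟩
    rw [Nat.testBit_shiftLeft] at hj
    simp only [ge_iff_le, Bool.and_eq_true, decide_eq_true_eq] at hj
    refine ⟨cell (j - a), mem_S.2 hj.2, ?_⟩
    rw [← key _ hj.2]
    congr 1; omega
  · rintro ⟨_, ⟨i, hi, rfl⟩, rfl⟩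
    rw [← key i hi, mem_S, Nat.testBit_shiftLeft]
    simp [hi]

theorem S_shr {n a : ℕ} (hn : n ≤ ALL) (ha : a ≤ 32) (h : n &&& cm a = 0) :
    S (n >>> a) = trl (-(a:ℤ)) 0 '' S n := by
  have key : ∀ i, n.testBit i = true → a ≤ i % 32 ∧ cell (i - a) = trl (-(a:ℤ)) 0 (cell i) := by
    intro i hi
    have hi' := lt_of_testBit hn hi
    have h1 : a ≤ i % 32 := by
      by_contra hc
      have h2 : (cm a).testBit i = true := cm_testBit ha hi' (by omega)
      have h3 : (n &&& cm a).testBit i = true := by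
        rw [Nat.testBit_and, hi, h2]; rfl
      rw [h] at h3
      simp at h3
    refine ⟨h1, ?_⟩
    have h2 : (i - a) % 32 = i % 32 - a := by omega
    have h3 : (i - a) / 32 = i / 32 := by omega
    simp only [cell, trl, Equiv.coe_fn_mk, h2, h3]
    rw [Nat.cast_sub h1]
    ext <;> simp; ring
  ext c; constructor
  · rintro ⟨j, hj, rfl⟩
    rw [Nat.testBit_shiftRight] at hj
    refine ⟨cell (a + j), mem_S.2 hj, ?_⟩
    rw [← (key _ hj).2]
    congr 1; omega
  · rintro ⟨_, ⟨i, hi, rfl⟩, rfl⟩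
    rw [← (key i hi).2, mem_S, Nat.testBit_shiftRight]
    have := (key i hi).1
    rw [show a + (i - a) = i by omega, hi]

theorem S_shly (n a : ℕ) : S (n <<< (32 * a)) = trl 0 a '' S n := by
  have key : ∀ i, cell (i + 32 * a) = trl 0 a (cell i) := by
    intro i
    have h2 : (i + 32 * a) % 32 = i % 32 := by omega
    have h3 : (i + 32 * a) / 32 = i / 32 + a := by omega
    simp only [cell, trl, Equiv.coe_fn_mk, h2, h3]
    push_cast
    simp
  ext c; constructor
  · rintro ⟨j, hj, rfl⟩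
    rw [Nat.testBit_shiftLeft] at hj
    simp only [ge_iff_le, Bool.and_eq_true, decide_eq_true_eq] at hj
    refine ⟨cell (j - 32 * a), mem_S.2 hj.2, ?_⟩
    rw [← key]
    congr 1; omega
  · rintro ⟨_, ⟨i, hi, rfl⟩, rfl⟩
    rw [← key i, mem_S, Nat.testBit_shiftLeft]
    simp [hi]

theorem S_shry {n a : ℕ} (h : n % 2^(32 * a) = 0) : S (n >>> (32 * a)) = trl 0 (-(a:ℤ)) '' S n := by
  have key : ∀ i, n.testBit i = true → 32 * a ≤ i ∧ cell (i - 32 * a) = trl 0 (-(a:ℤ)) (cell i) := by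
    intro i hi
    have h1 : 32 * a ≤ i := by
      by_contra hc
      have h2 : (n % 2^(32 * a)).testBit i = true := by
        rw [Nat.testBit_mod_two_pow, hi]
        simp; omega
      rw [h] at h2
      simp at h2
    refine ⟨h1, ?_⟩
    have h2 : (i - 32 * a) % 32 = i % 32 := by omega
    have h3 : (i - 32 * a) / 32 = i / 32 - a := by omega
    have h4 : a ≤ i / 32 := by omega
    simp only [cell, trl, Equiv.coe_fn_mk, h2, h3]
    rw [Nat.cast_sub h4]
    ext <;> simp; ring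
  ext c; constructor
  · rintro ⟨j, hj, rfl⟩
    rw [Nat.testBit_shiftRight] at hj
    refine ⟨cell (32 * a + j), mem_S.2 hj, ?_⟩
    rw [← (key _ hj).2]
    congr 1; omega
  · rintro ⟨_, ⟨i, hi, rfl⟩, rfl⟩
    rw [← (key i hi).2, mem_S, Nat.testBit_shiftRight]
    have := (key i hi).1
    rw [show 32 * a + (i - 32 * a) = i by omega, hi]

noncomputable def ifN (b : Bool) (x y : ℕ) : ℕ := Bool.rec (motive := fun _ => ℕ) y x b

/-- the dihedral part -/
noncomputable def d4N (fx fy sw : Bool) (n : ℕ) : ℕ :=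
  frcN (ifN fx (flipXN n) n) fun n => frcN (ifN fy (flipYN n) n) fun n => ifN sw (swapN n) n

def d4E (fx fy sw : Bool) : Cell ≃ Cell :=
  ((if fx then flx 31 else Equiv.refl _).trans (if fy then fly 31 else Equiv.refl _)).trans
    (if sw then Equiv.prodComm ℤ ℤ else Equiv.refl _)

theorem Good_d4E (fx fy sw : Bool) : Good (d4E fx fy sw) := by
  unfold d4E
  refine Good.trans (Good.trans ?_ ?_) ?_
  · split_ifs; exacts [Good_flx _, Good_refl]
  · split_ifs; exacts [Good_fly _, Good_refl]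
  · split_ifs; exacts [Good_swap, Good_refl]

theorem S_lt_of_forall {n : ℕ} (h : ∀ i, n.testBit i = true → i < 1024) : n < 2^1024 := by
  apply Nat.lt_pow_two_of_testBit
  intro i hi
  by_contra hc
  rw [Bool.not_eq_false] at hc
  have := h i hc
  omega

theorem le_ALL_iff {n : ℕ} : n ≤ ALL ↔ n < 2^1024 := by
  unfold ALL
  have : 0 < 2^1024 := by positivity
  omega

theorem cell_lt {i : ℕ} (h : i < 1024) : 0 ≤ (cell i).1 ∧ (cell i).1 ≤ 31 ∧ 0 ≤ (cell i).2 ∧ (cell i).2 ≤ 31 := by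
  simp only [cell]; omega

theorem lt_of_cell {i : ℕ} (h : (cell i).2 ≤ 31) : i < 1024 := by
  simp only [cell] at h; omega

theorem flipXN_lt {n : ℕ} (hn : n < 2^1024) : flipXN n < 2^1024 := by
  apply S_lt_of_forall
  intro i hi
  have h1 := mem_S.2 hi
  rw [S_flipXN hn] at h1
  obtain ⟨_, ⟨j, hj, rfl⟩, h⟩ := h1
  have := cell_lt (lt_of_testBit (le_ALL_iff.2 hn) hj)
  apply lt_of_cell
  rw [← h]; simp [flx]; omega

theorem flipYN_lt {n : ℕ} (hn : n < 2^1024) : flipYN n < 2^1024 := by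
  apply S_lt_of_forall
  intro i hi
  have h1 := mem_S.2 hi
  rw [S_flipYN hn] at h1
  obtain ⟨_, ⟨j, hj, rfl⟩, h⟩ := h1
  have := cell_lt (lt_of_testBit (le_ALL_iff.2 hn) hj)
  apply lt_of_cell
  rw [← h]; simp [fly]; omega

theorem swapN_lt {n : ℕ} (hn : n < 2^1024) : swapN n < 2^1024 := by
  apply S_lt_of_forall
  intro i hi
  have h1 := mem_S.2 hi
  rw [S_swapN hn] at h1
  obtain ⟨_, ⟨j, hj, rfl⟩, h⟩ := h1
  have := cell_lt (lt_of_testBit (le_ALL_iff.2 hn) hj)
  apply lt_of_cell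
  rw [← h]; simp; omega

theorem S_d4N {fx fy sw : Bool} {n : ℕ} (hn : n < 2^1024) :
    S (d4N fx fy sw n) = d4E fx fy sw '' S n ∧ d4N fx fy sw n < 2^1024 := by
  simp only [d4N, frcN_eq, d4E, Equiv.coe_trans, Set.image_comp]
  have h1 : S (ifN fx (flipXN n) n) = (if fx = true then flx 31 else Equiv.refl _ : Cell ≃ Cell) '' S n ∧
      ifN fx (flipXN n) n < 2^1024 := by
    cases fx
    · exact ⟨by simp [ifN], hn⟩
    · exact ⟨by simpa [ifN] using S_flipXN hn, flipXN_lt hn⟩
  obtain ⟨h1, h1'⟩ := h1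
  rw [← h1]
  set n1 := ifN fx (flipXN n) n
  have h2 : S (ifN fy (flipYN n1) n1) = (if fy = true then fly 31 else Equiv.refl _ : Cell ≃ Cell) '' S n1 ∧
      ifN fy (flipYN n1) n1 < 2^1024 := by
    cases fy
    · exact ⟨by simp [ifN], h1'⟩
    · exact ⟨by simpa [ifN] using S_flipYN h1', flipYN_lt h1'⟩
  obtain ⟨h2, h2'⟩ := h2
  rw [← h2]
  set n2 := ifN fy (flipYN n1) n1
  cases sw
  · exact ⟨by simp [ifN], h2'⟩
  · exact ⟨by simpa [ifN] using S_swapN h2', swapN_lt h2'⟩

/-- check that `n'` is the image of `n` -/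
noncomputable def imgChk (fx fy sw : Bool) (a b c d : ℕ) (n n' : ℕ) : Bool :=
  bAnd (Nat.ble n ALL) (frc (d4N fx fy sw n) fun n1 =>
    bAnd (Nat.beq (n1 &&& (cm a <<< (32 - a))) 0) (frc (n1 <<< a) fun n2 =>
      bAnd (Nat.ble n2 ALL) (bAnd (Nat.beq (n2 &&& cm b) 0) (frc (n2 >>> b) fun n3 =>
        frc (n3 <<< (32 * c)) fun n4 => bAnd (Nat.beq (n4 % 2^(32 * d)) 0)
          (Nat.beq (n4 >>> (32 * d)) n')))))

def imgE (fx fy sw : Bool) (a b c d : ℕ) : Cell ≃ Cell :=
  ((((d4E fx fy sw).trans (trl a 0)).trans (trl (-(b:ℤ)) 0)).trans (trl 0 c)).trans (trl 0 (-(d:ℤ)))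

theorem Good_imgE (fx fy sw : Bool) (a b c d : ℕ) : Good (imgE fx fy sw a b c d) := by
  unfold imgE
  exact ((((Good_d4E _ _ _).trans (Good_trl _ _)).trans (Good_trl _ _)).trans (Good_trl _ _)).trans (Good_trl _ _)

theorem S_img {fx fy sw : Bool} {a b c d n n' : ℕ} (ha : a ≤ 32) (hb : b ≤ 32)
    (h : imgChk fx fy sw a b c d n n' = true) : imgE fx fy sw a b c d '' S n = S n' := by
  simp only [imgChk, bAnd_iff, frc_eq] at h
  obtain ⟨h0, h1, h2, h3, h4, h5⟩ := h
  have h0' := le_ALL_iff.1 (Nat.le_of_ble_eq_true h0)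
  have hd := S_d4N (fx := fx) (fy := fy) (sw := sw) h0'
  simp only [imgE, Equiv.coe_trans, Set.image_comp]
  rw [← hd.1, ← S_shl (le_ALL_iff.2 hd.2) ha (beq_eq h1), ← S_shr (Nat.le_of_ble_eq_true h2) hb (beq_eq h3),
    ← S_shly, ← S_shry (beq_eq h4), beq_eq h5]

theorem W_img {k M Z M' Z' : ℕ} (fx fy sw : Bool) (a b c d : ℕ) (h : W k M Z)
    (h1 : bAnd (Nat.ble a 32) (bAnd (Nat.ble b 32) (bAnd (imgChk fx fy sw a b c d M M')
      (imgChk fx fy sw a b c d Z Z'))) = true) : W k M' Z' := by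
  simp only [bAnd_iff] at h1
  obtain ⟨h1, h2, h3, h4⟩ := h1
  exact W_image (Good_imgE fx fy sw a b c d) (S_img (Nat.le_of_ble_eq_true h1) (Nat.le_of_ble_eq_true h2) h3)
    (S_img (Nat.le_of_ble_eq_true h1) (Nat.le_of_ble_eq_true h2) h4).le h

/-- the check of a block, with all side conditions -/
theorem cs {env : Env} {n c k M Z : ℕ} (hE : EnvOK env)
    (h : bAnd (Nat.ble (Z + 1) ALL) (check env n c k M Z) = true) : W k M Z := by
  rw [bAnd_iff] at h
  exact check_sound hE h.2 (Nat.le_of_ble_eq_true h.1)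

theorem en : EnvOK [] := trivial

theorem ec {k M Z : ℕ} {es : Env} (h : W k M Z) (hs : EnvOK es) : EnvOK ((k, M, Z) :: es) := ⟨h, hs⟩

end Crest.Agent.Snaky
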