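import Mathlib

set_option autoImplicit false

/-! S0222 tools: number of cycles, centraliser bound. -/

namespace Crest.Agent.T22

open Equiv Equiv.Perm

variable {α : Type*} [Fintype α] [DecidableEq α]

/-- number of cycles, fixed points included -/
def ncyc (g : Perm α) : ℕ := g.cycleType.card + (Fintype.card α - g.cycleType.sum)

theorem card_centralizer_le (g : Perm α) :
    Nat.card (Subgroup.centralizer {g}) ≤ (Fintype.card α) ^ (ncyc g) := by
  classical
  set m := Fintype.card α with hm
  rw [nat_card_centralizer g, ncyc, pow_add, mul_comm ((Fintype.card α) ^ g.cycleType.card),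
    mul_assoc]
  refine Nat.mul_le_mul ?_ ?_
  · refine (Nat.factorial_le_pow _).trans ?_
    exact Nat.pow_le_pow_left (Nat.sub_le _ _) _
  · have h1 : g.cycleType.prod = ∏ n ∈ g.cycleType.toFinset, n ^ g.cycleType.count n := by
      rw [Finset.prod_multiset_count]
    rw [h1, ← Finset.prod_mul_distrib]
    have h2 : (g.cycleType).card = ∑ n ∈ g.cycleType.toFinset, g.cycleType.count n := by
      rw [Multiset.toFinset_sum_count_eq]
    rw [h2, ← Finset.prod_pow_eq_pow_sum]
    refine Finset.prod_le_prod' fun n hn => ?_
    have h3 : n * g.cycleType.count n ≤ Fintype.card α := by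
      have h4 : g.cycleType.count n * n ≤ g.cycleType.sum := by
        have h5 : Multiset.replicate (g.cycleType.count n) n ≤ g.cycleType :=
          Multiset.le_count_iff_replicate_le.mp le_rfl
        obtain ⟨t, ht⟩ := Multiset.le_iff_exists_add.mp h5
        have h6 : g.cycleType.sum = (Multiset.replicate (g.cycleType.count n) n).sum + t.sum := by
          conv_lhs => rw [ht]
          rw [Multiset.sum_add]
        rw [h6, Multiset.sum_replicate, smul_eq_mul]
        exact Nat.le_add_right _ _
      have h7 : g.cycleType.sum ≤ Fintype.card α := by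
        rw [sum_cycleType]
        exact Finset.card_le_univ _
      calc n * g.cycleType.count n = g.cycleType.count n * n := mul_comm _ _
        _ ≤ _ := h4.trans h7
    calc n ^ g.cycleType.count n * (g.cycleType.count n).factorial
        ≤ n ^ g.cycleType.count n * (g.cycleType.count n) ^ (g.cycleType.count n) :=
          Nat.mul_le_mul_left _ (Nat.factorial_le_pow _)
      _ = (n * g.cycleType.count n) ^ g.cycleType.count n := (mul_pow _ _ _).symm
      _ ≤ _ := Nat.pow_le_pow_left h3 _

noncomputable def cls (g : Perm α) (a : α) : {a // g a = a} ⊕ g.cycleFactorsFinset :=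
  if h : g a = a then Sum.inl ⟨a, h⟩
  else Sum.inr ⟨cycleOf g a, cycleOf_mem_cycleFactorsFinset_iff.mpr (mem_support.mpr h)⟩

theorem cls_eq_iff (g : Perm α) (a b : α) : cls g a = cls g b ↔ SameCycle g a b := by
  unfold cls
  by_cases ha : g a = a <;> by_cases hb : g b = b
  · simp only [ha, hb, dite_true, Sum.inl.injEq, Subtype.mk.injEq]
    constructor
    · rintro rfl; exact SameCycle.refl _ _
    · intro h; exact h.eq_of_left ha
  · simp only [ha, hb, dite_true, dite_false, reduceCtorEq, false_iff]
    intro h
    exact hb (by rw [← h.eq_of_left ha]; exact ha)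
  · simp only [ha, hb, dite_true, dite_false, reduceCtorEq, false_iff]
    intro h
    exact ha (by rw [← h.symm.eq_of_left hb]; exact hb)
  · simp only [ha, hb, dite_false, Sum.inr.injEq, Subtype.mk.injEq]
    exact (sameCycle_iff_cycleOf_eq_of_mem_support (mem_support.mpr ha) (mem_support.mpr hb)).symm

theorem cls_surj (g : Perm α) : Function.Surjective (cls g) := by
  rintro (⟨a, ha⟩ | ⟨c, hc⟩)
  · exact ⟨a, by simp [cls, ha]⟩
  · have hcyc := (mem_cycleFactorsFinset_iff.mp hc).1
    obtain ⟨a, ha⟩ := hcyc.nonempty_support
    have h1 : c = cycleOf g a := cycle_is_cycleOf ha hc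
    have h2 : a ∈ g.support := mem_cycleFactorsFinset_support_le hc ha
    refine ⟨a, ?_⟩
    have h3 : g a ≠ a := mem_support.mp h2
    simp only [cls, h3, dite_false, Sum.inr.injEq, Subtype.mk.injEq]
    exact h1.symm

theorem card_target (g : Perm α) :
    Fintype.card ({a // g a = a} ⊕ g.cycleFactorsFinset) = ncyc g := by
  classical
  rw [Fintype.card_sum, ncyc, add_comm]
  congr 1
  · rw [Fintype.card_coe, cycleType_def, Multiset.card_map]
    rfl
  · rw [sum_cycleType]
    have h := Finset.card_compl g.support
    rw [← h, Fintype.card_subtype]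
    congr 1
    ext a
    simp

/-- functions invariant under `g` -/
noncomputable def invEquiv (g : Perm α) (β : Type*) :
    {x : α → β // ∀ a, x (g a) = x a} ≃ (({a // g a = a} ⊕ g.cycleFactorsFinset) → β) where
  toFun x := fun t => x.1 (Function.surjInv (cls_surj g) t)
  invFun y := ⟨fun a => y (cls g a), fun a => by
    have : cls g (g a) = cls g a := (cls_eq_iff g _ _).mpr (sameCycle_apply_left.mpr (SameCycle.refl _ _))
    exact congrArg y this⟩
  left_inv x := by
    ext a
    have h1 : cls g (Function.surjInv (cls_surj g) (cls g a)) = cls g a :=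
      Function.surjInv_eq (cls_surj g) _
    have h2 : SameCycle g (Function.surjInv (cls_surj g) (cls g a)) a := (cls_eq_iff g _ _).mp h1
    obtain ⟨k, hk⟩ := h2
    have h3 : ∀ (k : ℤ) (b : α), x.1 ((g ^ k) b) = x.1 b := by
      intro k b
      induction k using Int.induction_on generalizing b with
      | zero => simp
      | succ i ih =>
        rw [zpow_add, zpow_one, Perm.mul_apply, ih, x.2]
      | pred i ih =>
        rw [zpow_sub, zpow_one, Perm.mul_apply, ih]
        have := x.2 (g⁻¹ b)
        rw [show g (g⁻¹ b) = b from g.apply_symm_apply b] at this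
        exact this.symm
    change x.1 (Function.surjInv (cls_surj g) (cls g a)) = x.1 a
    conv_rhs => rw [← hk, h3]
  right_inv y := by
    ext t
    change y (cls g (Function.surjInv (cls_surj g) t)) = y t
    rw [Function.surjInv_eq (cls_surj g)]

theorem card_inv (g : Perm α) (z : ℕ) :
    Fintype.card {x : α → Fin z // ∀ a, x (g a) = x a} = z ^ ncyc g := by
  classical
  rw [Fintype.card_congr (invEquiv g (Fin z)), Fintype.card_fun, Fintype.card_fin, card_target]

end Crest.Agent.T22
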