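import Crest.Agent.T22Cent

/-! S0222 tools: the partition function bound. -/

set_option autoImplicit false
set_option linter.unusedSectionVars false
namespace Crest.Agent.T22

open Equiv Equiv.Perm Finset

variable {α : Type*} [Fintype α] [DecidableEq α] {β : Type*} [Fintype β] [DecidableEq β]

/-- trace -/
def trm (M : β → β → ℝ) : ℝ := ∑ p, M p p
/-- square of the Hilbert-Schmidt norm -/
def hs2 (M : β → β → ℝ) : ℝ := ∑ p, ∑ q, M p q ^ 2
def mmul (M N : β → β → ℝ) : β → β → ℝ := fun p q => ∑ r, M p r * N r q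

theorem hs2_nonneg (M : β → β → ℝ) : 0 ≤ hs2 M :=
  Finset.sum_nonneg fun _ _ => Finset.sum_nonneg fun _ _ => sq_nonneg _

theorem hs2_mmul_le (M N : β → β → ℝ) : hs2 (mmul M N) ≤ hs2 M * hs2 N := by
  unfold hs2 mmul
  have h1 : ∀ p q, (∑ r, M p r * N r q) ^ 2 ≤ (∑ r, M p r ^ 2) * ∑ r, N r q ^ 2 := fun p q =>
    Finset.sum_mul_sq_le_sq_mul_sq _ _ _
  calc ∑ p, ∑ q, (∑ r, M p r * N r q) ^ 2
      ≤ ∑ p, ∑ q, (∑ r, M p r ^ 2) * ∑ r, N r q ^ 2 :=
        Finset.sum_le_sum fun p _ => Finset.sum_le_sum fun q _ => h1 p q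
    _ = (∑ p, ∑ r, M p r ^ 2) * ∑ q, ∑ r, N r q ^ 2 := by
        rw [Finset.sum_mul_sum]
    _ = _ := by
        congr 1
        exact Finset.sum_comm

theorem trm_mmul_le (M N : β → β → ℝ) : trm (mmul M N) ≤ Real.sqrt (hs2 M) * Real.sqrt (hs2 N) := by
  unfold trm mmul
  rw [← Real.sqrt_mul (hs2_nonneg M)]
  apply Real.le_sqrt_of_sq_le
  have h := Finset.sum_mul_sq_le_sq_mul_sq (Finset.univ ×ˢ Finset.univ : Finset (β × β))
    (fun t => M t.1 t.2) (fun t => N t.2 t.1)
  rw [Finset.sum_product, Finset.sum_product, Finset.sum_product] at h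
  refine h.trans (le_of_eq ?_)
  unfold hs2
  congr 1
  exact Finset.sum_comm

theorem trm_le (M : β → β → ℝ) : trm M ≤ Real.sqrt (Fintype.card β) * Real.sqrt (hs2 M) := by
  unfold trm
  rw [← Real.sqrt_mul (Nat.cast_nonneg _)]
  apply Real.le_sqrt_of_sq_le
  have h := Finset.sum_mul_sq_le_sq_mul_sq (Finset.univ : Finset β) (fun _ => (1 : ℝ)) (fun p => M p p)
  simp only [one_mul, one_pow, Finset.sum_const, Finset.card_univ, nsmul_eq_mul, mul_one] at h
  refine h.trans (mul_le_mul_of_nonneg_left ?_ (Nat.cast_nonneg _))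
  unfold hs2
  refine Finset.sum_le_sum fun p _ => ?_
  exact Finset.single_le_sum (f := fun q => M p q ^ 2) (fun q _ => sq_nonneg _) (Finset.mem_univ p)

/-- the partition function -/
def Sg (g : Perm α) (M : α → β → β → ℝ) : ℝ := ∑ x : α → β, ∏ a, M a (x a) (x (g a))

noncomputable def Bg (g : Perm α) (M : α → β → β → ℝ) : ℝ :=
  ∏ a, if g a = a then trm (M a) else Real.sqrt (hs2 (M a))

theorem Sg_one (M : α → β → β → ℝ) : Sg (1 : Perm α) M = Bg 1 M := by
  unfold Sg Bg trm
  simp only [Perm.coe_one, id_eq, if_true]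
  rw [Finset.prod_univ_sum]
  rw [Fintype.piFinset_univ]

theorem sum_update (a : α) (G : (α → β) → ℝ) :
    ∑ x : α → β, ∑ p : β, G (Function.update x a p) = (Fintype.card β : ℝ) * ∑ x, G x := by
  classical
  rw [← Finset.sum_product' (s := (Finset.univ : Finset (α → β))) (t := (Finset.univ : Finset β))
    (f := fun x p => G (Function.update x a p))]
  have h : ∑ t : (α → β) × β, G (Function.update t.1 a t.2) = ∑ t : (α → β) × β, G t.1 := by
    refine Finset.sum_bij' (fun t _ => (Function.update t.1 a t.2, t.1 a))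
      (fun t _ => (Function.update t.1 a t.2, t.1 a)) (by simp) (by simp) ?_ ?_ ?_
    · rintro ⟨x, p⟩ _
      simp
    · rintro ⟨x, p⟩ _
      simp
    · rintro ⟨x, p⟩ _
      rfl
  rw [Finset.univ_product_univ, h, ← Finset.univ_product_univ, Finset.sum_product, Finset.mul_sum]
  refine Finset.sum_congr rfl fun x _ => ?_
  change ∑ _y : β, G x = _
  rw [Finset.sum_const, Finset.card_univ, nsmul_eq_mul]

/-- contraction step -/
noncomputable def Mstep (g : Perm α) (a : α) (M : α → β → β → ℝ) : α → β → β → ℝ :=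
  fun d => if d = a then (fun p q => if p = q then (1 / (Fintype.card β : ℝ)) else 0)
    else if d = g⁻¹ a then mmul (M (g⁻¹ a)) (M a) else M d

theorem Sg_step [Nonempty β] (g : Perm α) (a : α) (ha : g a ≠ a) (M : α → β → β → ℝ) :
    Sg g M = Sg (swap a (g a) * g) (Mstep g a M) := by
  classical
  set b := g⁻¹ a with hb
  have hgb : g b = a := by rw [hb]; exact g.apply_symm_apply a
  have hba : b ≠ a := by
    intro h
    rw [h] at hgb
    exact ha hgb
  set c := g a with hc
  have hz : (Fintype.card β : ℝ) ≠ 0 := by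
    have : 0 < Fintype.card β := Fintype.card_pos
    positivity
  set R : (α → β) → ℝ := fun x => ∏ d ∈ (Finset.univ.erase a).erase b, M d (x d) (x (g d)) with hR
  have hF : ∀ x : α → β, ∏ d, M d (x d) (x (g d)) = M b (x b) (x a) * M a (x a) (x c) * R x := by
    intro x
    rw [← Finset.mul_prod_erase Finset.univ _ (Finset.mem_univ a),
      ← Finset.mul_prod_erase (Finset.univ.erase a) _
        (Finset.mem_erase.mpr ⟨hba, Finset.mem_univ b⟩)]
    rw [hgb]
    ring
  have hF' : ∀ x : α → β, ∏ d, Mstep g a M d (x d) (x ((swap a (g a) * g) d))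
      = (1 / (Fintype.card β : ℝ)) * (∑ p, M b (x b) p * M a p (x c)) * R x := by
    intro x
    rw [← Finset.mul_prod_erase Finset.univ _ (Finset.mem_univ a),
      ← Finset.mul_prod_erase (Finset.univ.erase a) _
        (Finset.mem_erase.mpr ⟨hba, Finset.mem_univ b⟩)]
    have e1 : (swap a (g a) * g) a = a := by simp
    have e2 : (swap a (g a) * g) b = c := by
      rw [Perm.mul_apply, hgb, swap_apply_left]
    rw [e1, e2]
    have e3 : Mstep g a M a (x a) (x a) = 1 / (Fintype.card β : ℝ) := by
      simp [Mstep]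
    have e4 : Mstep g a M b (x b) (x c) = ∑ p, M b (x b) p * M a p (x c) := by
      have h6 : Mstep g a M b = mmul (M b) (M a) := by
        funext p q
        simp only [Mstep, hba, if_false]
        rw [if_pos hb]
      rw [h6]
      rfl
    rw [e3, e4, ← mul_assoc]
    congr 1
    rw [hR]
    refine Finset.prod_congr rfl fun d hd => ?_
    rw [Finset.mem_erase, Finset.mem_erase] at hd
    obtain ⟨hdb, hda, -⟩ := hd
    have e5 : (swap a (g a) * g) d = g d := by
      rw [Perm.mul_apply]
      apply swap_apply_of_ne_of_ne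
      · intro h
        exact hdb (by rw [hb, ← h]; exact (g.symm_apply_apply d).symm)
      · intro h
        exact hda (g.injective h)
    rw [e5]
    simp only [Mstep, hda, if_false]
    rw [if_neg]
    rw [← hb]
    exact hdb
  have hRu : ∀ (x : α → β) (p : β), R (Function.update x a p) = R x := by
    intro x p
    rw [hR]
    refine Finset.prod_congr rfl fun d hd => ?_
    rw [Finset.mem_erase, Finset.mem_erase] at hd
    obtain ⟨hdb, hda, -⟩ := hd
    have h1 : g d ≠ a := by
      intro h
      exact hdb (by rw [hb, ← h]; exact (g.symm_apply_apply d).symm)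
    rw [Function.update_of_ne hda, Function.update_of_ne h1]
  have hca : c ≠ a := ha
  unfold Sg
  rw [Finset.sum_congr rfl (fun x _ => hF' x)]
  have h1 : ∀ x : α → β, (1 / (Fintype.card β : ℝ)) * (∑ p, M b (x b) p * M a p (x c)) * R x
      = (1 / (Fintype.card β : ℝ)) * ∑ p, ∏ d, M d ((Function.update x a p) d) ((Function.update x a p) (g d)) := by
    intro x
    rw [mul_assoc]
    congr 1
    rw [Finset.sum_mul]
    refine Finset.sum_congr rfl fun p _ => ?_
    rw [hF, hRu, Function.update_self, Function.update_of_ne hba, Function.update_of_ne hca]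
  rw [Finset.sum_congr rfl (fun x _ => h1 x), ← Finset.mul_sum,
    sum_update a (fun x => ∏ d, M d (x d) (x (g d)))]
  field_simp

theorem Bg_step [Nonempty β] (g : Perm α) (a : α) (ha : g a ≠ a) (M : α → β → β → ℝ)
    (hM : ∀ d p q, 0 ≤ M d p q) :
    Bg (swap a (g a) * g) (Mstep g a M) ≤ Bg g M := by
  classical
  set b := g⁻¹ a with hb
  have hgb : g b = a := by rw [hb]; exact g.apply_symm_apply a
  have hba : b ≠ a := by
    intro h
    rw [h] at hgb
    exact ha hgb
  set c := g a with hc
  have hz : (Fintype.card β : ℝ) ≠ 0 := by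
    have : 0 < Fintype.card β := Fintype.card_pos
    positivity
  unfold Bg
  rw [← Finset.mul_prod_erase Finset.univ _ (Finset.mem_univ a),
      ← Finset.mul_prod_erase (Finset.univ.erase a) _
        (Finset.mem_erase.mpr ⟨hba, Finset.mem_univ b⟩)]
  rw [← Finset.mul_prod_erase Finset.univ (fun d => if g d = d then trm (M d) else Real.sqrt (hs2 (M d)))
      (Finset.mem_univ a),
      ← Finset.mul_prod_erase (Finset.univ.erase a)
        (fun d => if g d = d then trm (M d) else Real.sqrt (hs2 (M d)))
        (Finset.mem_erase.mpr ⟨hba, Finset.mem_univ b⟩)]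
  have e1 : (swap a (g a) * g) a = a := by simp
  have e2 : (swap a (g a) * g) b = c := by
    rw [Perm.mul_apply, hgb, swap_apply_left]
  have hgbb : g b ≠ b := by rw [hgb]; exact hba.symm
  have hP : ∏ d ∈ (Finset.univ.erase a).erase b,
      (if (swap a c * g) d = d then trm (Mstep g a M d) else Real.sqrt (hs2 (Mstep g a M d)))
      = ∏ d ∈ (Finset.univ.erase a).erase b,
      (if g d = d then trm (M d) else Real.sqrt (hs2 (M d))) := by
    refine Finset.prod_congr rfl fun d hd => ?_
    rw [Finset.mem_erase, Finset.mem_erase] at hd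
    obtain ⟨hdb, hda, -⟩ := hd
    have e5 : (swap a c * g) d = g d := by
      rw [Perm.mul_apply]
      apply swap_apply_of_ne_of_ne
      · intro h
        exact hdb (by rw [hb, ← h]; exact (g.symm_apply_apply d).symm)
      · intro h
        exact hda (g.injective h)
    have e6 : Mstep g a M d = M d := by
      funext p q
      simp only [Mstep, hda, if_false]
      rw [if_neg]
      rw [← hb]
      exact hdb
    rw [e5, e6]
  have hPn : 0 ≤ ∏ d ∈ (Finset.univ.erase a).erase b,
      (if g d = d then trm (M d) else Real.sqrt (hs2 (M d))) := by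
    refine Finset.prod_nonneg fun d _ => ?_
    split_ifs
    · exact Finset.sum_nonneg fun p _ => hM d p p
    · exact Real.sqrt_nonneg _
  rw [hP, if_neg ha, if_neg hgbb, ← mul_assoc, ← mul_assoc]
  refine mul_le_mul_of_nonneg_right ?_ hPn
  have e3 : (if (swap a c * g) a = a then trm (Mstep g a M a) else Real.sqrt (hs2 (Mstep g a M a))) = 1 := by
    rw [if_pos e1]
    simp only [trm, Mstep, if_true]
    rw [Finset.sum_const, Finset.card_univ, nsmul_eq_mul]
    field_simp
  have e4 : Mstep g a M b = mmul (M b) (M a) := by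
    funext p q
    simp only [Mstep, hba, if_false]
    rw [if_pos hb]
  rw [e3, one_mul, e4]
  split_ifs with h
  · exact (trm_mmul_le _ _).trans (le_of_eq (mul_comm _ _))
  · rw [← Real.sqrt_mul (hs2_nonneg _)]
    refine Real.sqrt_le_sqrt ((hs2_mmul_le _ _).trans (le_of_eq (mul_comm _ _)))

theorem Sg_le_Bg [Nonempty β] (g : Perm α) (M : α → β → β → ℝ) (hM : ∀ d p q, 0 ≤ M d p q) :
    Sg g M ≤ Bg g M := by
  classical
  induction' hn : g.support.card using Nat.strong_induction_on with n ih generalizing g M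
  by_cases h1 : g = 1
  · subst h1
    exact le_of_eq (Sg_one M)
  · have h2 : ∃ a, g a ≠ a := by
      by_contra hcon
      push Not at hcon
      exact h1 (Equiv.ext hcon)
    obtain ⟨a, ha⟩ := h2
    rw [Sg_step g a ha M]
    refine (ih _ ?_ _ _ ?_ rfl).trans (Bg_step g a ha M hM)
    · rw [← hn]
      exact card_support_swap_mul ha
    · intro d p q
      unfold Mstep
      by_cases hda : d = a
      · rw [if_pos hda]
        split_ifs
        · positivity
        · exact le_rfl
      · rw [if_neg hda]
        by_cases hdb : d = g⁻¹ a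
        · rw [if_pos hdb]
          exact Finset.sum_nonneg fun r _ => mul_nonneg (hM _ _ _) (hM _ _ _)
        · rw [if_neg hdb]
          exact hM _ _ _

end Crest.Agent.T22
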