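import Crest.Agent.T22L2

/-! S0222 tools: `sum_h z^{#cycles (c1 h c2 h^-1)} <= m! multichoose(z^2,m) z^{(fix1+fix2)/2}`. -/

set_option autoImplicit false
set_option linter.unusedSectionVars false
namespace Crest.Agent.T22

open Equiv Equiv.Perm Finset MeasureTheory

/-! ### 1. orthogonality of the phases -/

theorem orth1 (q : ℕ) (hq : q ≠ 0) (a b : ℕ) (ha : a < q) (hb : b < q) (ζ : ℂ)
    (hζ : IsPrimitiveRoot ζ q) :
    ∑ j : Fin q, (ζ ^ (j : ℕ)) ^ a * (starRingEnd ℂ) ((ζ ^ (j : ℕ)) ^ b)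
      = if a = b then (q : ℂ) else 0 := by
  have hn : ‖ζ‖ = 1 := Complex.norm_eq_one_of_pow_eq_one hζ.pow_eq_one hq
  have hζ0 : ζ ≠ 0 := by
    intro h; rw [h, norm_zero] at hn; exact zero_ne_one hn
  have hconj : (starRingEnd ℂ) ζ = ζ⁻¹ := by
    rw [Complex.inv_def, Complex.normSq_eq_norm_sq, hn]; simp
  have h1 : ∀ j : Fin q, (ζ ^ (j : ℕ)) ^ a * (starRingEnd ℂ) ((ζ ^ (j : ℕ)) ^ b)
      = (ζ ^ a * (ζ ^ b)⁻¹) ^ (j : ℕ) := by
    intro j
    rw [map_pow, map_pow, hconj, mul_pow, inv_pow, inv_pow, inv_pow, ← pow_mul, ← pow_mul,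
      ← pow_mul, ← pow_mul, mul_comm a, mul_comm b]
  rw [Finset.sum_congr rfl fun j _ => h1 j]
  rw [Fin.sum_univ_eq_sum_range (fun j => (ζ ^ a * (ζ ^ b)⁻¹) ^ j) q]
  split_ifs with hab
  · rw [hab, mul_inv_cancel₀ (pow_ne_zero _ hζ0)]
    simp
  · set w := ζ ^ a * (ζ ^ b)⁻¹ with hw
    have hw1 : w ≠ 1 := by
      intro h
      have : ζ ^ a = ζ ^ b := by
        rw [hw, mul_inv_eq_one₀ (pow_ne_zero _ hζ0)] at h
        exact h
      exact hab (hζ.pow_inj ha hb this)
    have hwq : w ^ q = 1 := by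
      rw [hw, mul_pow, inv_pow, ← pow_mul, ← pow_mul, mul_comm a, mul_comm b, pow_mul, pow_mul,
        hζ.pow_eq_one]
      simp
    have h2 := geom_sum_mul w q
    rw [hwq, sub_self] at h2
    rcases mul_eq_zero.mp h2 with h3 | h3
    · exact h3
    · exact absurd (sub_eq_zero.mp h3) hw1

section
variable {γ : Type*} [Fintype γ] [DecidableEq γ]

theorem orthN (m q : ℕ) (hq : q ≠ 0) (hmq : m < q) (ζ : ℂ) (hζ : IsPrimitiveRoot ζ q)
    (s t : Sym γ m) :
    ∑ k : γ → Fin q, (∏ c, (ζ ^ (k c : ℕ)) ^ (s.1.count c)) *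
        (starRingEnd ℂ) (∏ c, (ζ ^ (k c : ℕ)) ^ (t.1.count c))
      = if s = t then (q : ℂ) ^ (Fintype.card γ) else 0 := by
  have hle : ∀ (s : Sym γ m) c, s.1.count c < q := fun s c =>
    lt_of_le_of_lt ((Multiset.count_le_card c s.1).trans (le_of_eq s.2)) hmq
  have h1 : ∀ k : γ → Fin q, (∏ c, (ζ ^ (k c : ℕ)) ^ (s.1.count c)) *
        (starRingEnd ℂ) (∏ c, (ζ ^ (k c : ℕ)) ^ (t.1.count c))
      = ∏ c, ((ζ ^ (k c : ℕ)) ^ (s.1.count c) * (starRingEnd ℂ) ((ζ ^ (k c : ℕ)) ^ (t.1.count c))) := by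
    intro k
    rw [map_prod, ← Finset.prod_mul_distrib]
  rw [Finset.sum_congr rfl fun k _ => h1 k]
  have h2 := Finset.prod_univ_sum (fun _ : γ => (Finset.univ : Finset (Fin q)))
    (fun c j => (ζ ^ (j : ℕ)) ^ (s.1.count c) * (starRingEnd ℂ) ((ζ ^ (j : ℕ)) ^ (t.1.count c)))
  rw [Fintype.piFinset_univ] at h2
  rw [← h2]
  rw [Finset.prod_congr rfl fun c _ => orth1 q hq _ _ (hle s c) (hle t c) ζ hζ]
  split_ifs with hst
  · subst hst
    simp
  · have : ∃ c, s.1.count c ≠ t.1.count c := by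
      by_contra hcon
      push Not at hcon
      exact hst (Subtype.ext (Multiset.ext.mpr hcon))
    obtain ⟨c, hc⟩ := this
    exact Finset.prod_eq_zero (Finset.mem_univ c) (if_neg hc)

theorem parseval {X : Type*} [Fintype X] (m q : ℕ) (hq : q ≠ 0) (hmq : m < q) (ζ : ℂ)
    (hζ : IsPrimitiveRoot ζ q) (r : X → ℝ) (τ : X → Sym γ m) :
    ∑ k : γ → Fin q, ‖∑ x, (r x : ℂ) * ∏ c, (ζ ^ (k c : ℕ)) ^ ((τ x).1.count c)‖ ^ 2
      = (q : ℝ) ^ (Fintype.card γ) * ∑ s, (∑ x ∈ Finset.univ.filter (fun x => τ x = s), r x) ^ 2 := by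
  have hcast : ∀ z : ℂ, ((‖z‖ ^ 2 : ℝ) : ℂ) = z * (starRingEnd ℂ) z := by
    intro z
    rw [Complex.mul_conj, Complex.normSq_eq_norm_sq]
  have key : ((∑ k : γ → Fin q, ‖∑ x, (r x : ℂ) * ∏ c, (ζ ^ (k c : ℕ)) ^ ((τ x).1.count c)‖ ^ 2 : ℝ) : ℂ)
      = (((q : ℝ) ^ (Fintype.card γ) *
          ∑ s, (∑ x ∈ Finset.univ.filter (fun x => τ x = s), r x) ^ 2 : ℝ) : ℂ) := by
    rw [Complex.ofReal_sum]
    rw [Finset.sum_congr rfl fun k _ => hcast _]
    have h1 : ∀ k : γ → Fin q,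
        (∑ x, (r x : ℂ) * ∏ c, (ζ ^ (k c : ℕ)) ^ ((τ x).1.count c)) *
          (starRingEnd ℂ) (∑ x, (r x : ℂ) * ∏ c, (ζ ^ (k c : ℕ)) ^ ((τ x).1.count c))
        = ∑ x, ∑ y, (r x : ℂ) * (r y : ℂ) * ((∏ c, (ζ ^ (k c : ℕ)) ^ ((τ x).1.count c)) *
            (starRingEnd ℂ) (∏ c, (ζ ^ (k c : ℕ)) ^ ((τ y).1.count c))) := by
      intro k
      rw [map_sum, Finset.sum_mul_sum]
      refine Finset.sum_congr rfl fun x _ => Finset.sum_congr rfl fun y _ => ?_
      rw [map_mul, Complex.conj_ofReal]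
      ring
    rw [Finset.sum_congr rfl fun k _ => h1 k, Finset.sum_comm]
    have h2 : ∀ x : X, (∑ k : γ → Fin q, ∑ y, (r x : ℂ) * (r y : ℂ) *
          ((∏ c, (ζ ^ (k c : ℕ)) ^ ((τ x).1.count c)) *
            (starRingEnd ℂ) (∏ c, (ζ ^ (k c : ℕ)) ^ ((τ y).1.count c))))
        = ∑ y, (r x : ℂ) * (r y : ℂ) * (if τ x = τ y then (q : ℂ) ^ (Fintype.card γ) else 0) := by
      intro x
      rw [Finset.sum_comm]
      refine Finset.sum_congr rfl fun y _ => ?_
      rw [← Finset.mul_sum, orthN m q hq hmq ζ hζ]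
    rw [Finset.sum_congr rfl fun x _ => h2 x]
    have h3 : ∀ s : Sym γ m, (∑ x ∈ Finset.univ.filter (fun x => τ x = s), r x) ^ 2
        = ∑ x ∈ Finset.univ.filter (fun x => τ x = s), ∑ y, if τ x = τ y then r x * r y else 0 := by
      intro s
      rw [sq, Finset.sum_mul_sum]
      refine Finset.sum_congr rfl fun x hx => ?_
      rw [(Finset.mem_filter.mp hx).2, Finset.sum_filter]
      refine Finset.sum_congr rfl fun y _ => ?_
      by_cases h : τ y = s
      · rw [if_pos h, if_pos h.symm]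
      · rw [if_neg h, if_neg (fun h' => h h'.symm)]
    rw [Finset.sum_congr rfl fun s _ => h3 s]
    rw [Finset.sum_fiberwise (Finset.univ : Finset X) τ (fun x => ∑ y, if τ x = τ y then r x * r y else 0)]
    push_cast
    rw [Finset.mul_sum]
    refine Finset.sum_congr rfl fun x _ => ?_
    rw [Finset.mul_sum]
    refine Finset.sum_congr rfl fun y _ => ?_
    split_ifs
    · push_cast; ring
    · simp
  exact_mod_cast key

end

variable {α : Type*} [Fintype α] [DecidableEq α] {β : Type*} [Fintype β] [DecidableEq β]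

theorem Sg_le_simple [Nonempty β] (g : Perm α) (M : β → β → ℝ) (hM : ∀ p q, 0 ≤ M p q) :
    Sg g (fun _ => M) ≤ Real.sqrt (Fintype.card β) ^ nfix g * Real.sqrt (hs2 M) ^ (Fintype.card α) := by
  refine (Sg_le_Bg g (fun _ => M) (fun _ => hM)).trans ?_
  unfold Bg
  have h6 : 0 ≤ trm M := Finset.sum_nonneg fun p _ => hM p p
  calc ∏ a, (if g a = a then trm M else Real.sqrt (hs2 M))
      ≤ ∏ a, ((if g a = a then Real.sqrt (Fintype.card β) else 1) * Real.sqrt (hs2 M)) := by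
        refine Finset.prod_le_prod (fun a _ => ?_) (fun a _ => ?_)
        · split_ifs
          · exact h6
          · exact Real.sqrt_nonneg _
        · split_ifs
          · exact trm_le M
          · rw [one_mul]
    _ = _ := by
        rw [Finset.prod_mul_distrib, ← Finset.prod_filter, Finset.prod_const, Finset.prod_const,
          nfix, Fintype.card_subtype, Finset.card_univ]

/-- sum of squares of the coefficients -/
theorem AA_sq_le [Nonempty β] (g : Perm α) (t : β × β → ℝ) (ht : ∀ c, 0 ≤ t c) :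
    ∑ s : Sym (β × β) (Fintype.card α), (AA g s : ℝ) ^ 2 * ∏ c, t c ^ (s.1.count c)
      ≤ (Fintype.card β : ℝ) ^ nfix g * (∑ c, t c) ^ (Fintype.card α) := by
  classical
  set m := Fintype.card α with hm
  set q := m + 1 with hq
  have hq0 : q ≠ 0 := Nat.succ_ne_zero m
  obtain ⟨ζ, hζ⟩ : ∃ ζ : ℂ, IsPrimitiveRoot ζ q := ⟨_, Complex.isPrimitiveRoot_exp q hq0⟩
  have hn : ‖ζ‖ = 1 := Complex.norm_eq_one_of_pow_eq_one hζ.pow_eq_one hq0
  set R : β × β → ℝ := fun c => Real.sqrt (t c) with hR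
  have hR0 : ∀ c, 0 ≤ R c := fun c => Real.sqrt_nonneg _
  set r : (α → β) → ℝ := fun x => ∏ a, R (x a, x (g a)) with hr
  have hr0 : ∀ x, 0 ≤ r x := fun x => Finset.prod_nonneg fun a _ => hR0 _
  set τ : (α → β) → Sym (β × β) m := fun x => tp (fun a => (x a, x (g a))) with hτ
  have hP := parseval (γ := β × β) m q hq0 (Nat.lt_succ_self m) ζ hζ r τ
  have h1 : ∀ s : Sym (β × β) m, (∑ x ∈ Finset.univ.filter (fun x => τ x = s), r x) ^ 2
      = (AA g s : ℝ) ^ 2 * ∏ c, t c ^ (s.1.count c) := by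
    intro s
    have h2 : ∀ x ∈ Finset.univ.filter (fun x => τ x = s), r x = ∏ c, R c ^ (s.1.count c) := by
      intro x hx
      have hx2 := (Finset.mem_filter.mp hx).2
      have h4 := prod_tp (fun a => (x a, x (g a))) R
      rw [hr]
      simp only
      rw [h4]
      rw [hτ] at hx2
      simp only at hx2
      rw [hx2]
    rw [Finset.sum_congr rfl h2, Finset.sum_const, nsmul_eq_mul, mul_pow, AA, Fintype.card_subtype,
      ← Finset.prod_pow]
    congr 1
    refine Finset.prod_congr rfl fun c _ => ?_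
    rw [← pow_mul, mul_comm, pow_mul, hR]
    simp only
    rw [Real.sq_sqrt (ht c)]
  rw [Finset.sum_congr rfl fun s _ => h1 s] at hP
  have hSg : ∑ x, r x = Sg g (fun _ => fun p q => R (p, q)) := rfl
  have hB : ∑ x, r x ≤ Real.sqrt (Fintype.card β) ^ nfix g * Real.sqrt (∑ c, t c) ^ m := by
    rw [hSg]
    refine (Sg_le_simple g _ fun p q => hR0 _).trans (le_of_eq ?_)
    have h5 : hs2 (fun p q => R (p, q)) = ∑ c, t c := by
      unfold hs2
      rw [← Finset.sum_product' (s := (Finset.univ : Finset β)) (t := (Finset.univ : Finset β))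
        (f := fun p q => R (p, q) ^ 2), Finset.univ_product_univ]
      refine Finset.sum_congr rfl fun c _ => ?_
      rw [hR]
      exact Real.sq_sqrt (ht c)
    rw [h5]
  have hsum0 : 0 ≤ ∑ c, t c := Finset.sum_nonneg fun c _ => ht c
  have hnorm : ∀ k : β × β → Fin q,
      ‖∑ x, (r x : ℂ) * ∏ c, (ζ ^ (k c : ℕ)) ^ ((τ x).1.count c)‖ ^ 2
        ≤ (Fintype.card β : ℝ) ^ nfix g * (∑ c, t c) ^ m := by
    intro k
    have h6 : ‖∑ x, (r x : ℂ) * ∏ c, (ζ ^ (k c : ℕ)) ^ ((τ x).1.count c)‖ ≤ ∑ x, r x := by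
      refine (norm_sum_le _ _).trans (le_of_eq ?_)
      refine Finset.sum_congr rfl fun x _ => ?_
      rw [norm_mul, norm_prod, Complex.norm_real, Real.norm_of_nonneg (hr0 x)]
      rw [Finset.prod_eq_one fun c _ => ?_, mul_one]
      rw [norm_pow, norm_pow, hn, one_pow, one_pow]
    calc _ ≤ (Real.sqrt (Fintype.card β) ^ nfix g * Real.sqrt (∑ c, t c) ^ m) ^ 2 :=
          pow_le_pow_left₀ (norm_nonneg _) (h6.trans hB) 2
      _ = _ := by
          rw [mul_pow, ← pow_mul, ← pow_mul, mul_comm (nfix g), mul_comm m, pow_mul, pow_mul,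
            Real.sq_sqrt (Nat.cast_nonneg _), Real.sq_sqrt hsum0]
  have h7 : ∑ k : β × β → Fin q, ‖∑ x, (r x : ℂ) * ∏ c, (ζ ^ (k c : ℕ)) ^ ((τ x).1.count c)‖ ^ 2
      ≤ (q : ℝ) ^ (Fintype.card (β × β)) * ((Fintype.card β : ℝ) ^ nfix g * (∑ c, t c) ^ m) := by
    refine (Finset.sum_le_sum fun k _ => hnorm k).trans (le_of_eq ?_)
    rw [Finset.sum_const, nsmul_eq_mul, Finset.card_univ, Fintype.card_fun, Fintype.card_fin]
    push_cast
    ring
  rw [hP] at h7
  exact le_of_mul_le_mul_left h7 (by positivity)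

/-! ### 2. exponential integral -/

theorem gam_integrable (n : ℕ) :
    Integrable (fun x : ℝ => Real.exp (-x) * |x| ^ n) (volume.restrict (Set.Ioi 0)) := by
  have h := Real.GammaIntegral_convergent (s := (n : ℝ) + 1) (by positivity)
  refine (integrableOn_congr_fun ?_ measurableSet_Ioi).mp h
  intro x hx
  simp only [add_sub_cancel_right, Real.rpow_natCast]
  rw [abs_of_pos hx]

theorem gam_int (n : ℕ) :
    ∫ x in Set.Ioi (0 : ℝ), Real.exp (-x) * |x| ^ n = (n.factorial : ℝ) := by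
  rw [← Real.Gamma_nat_eq_factorial, Real.Gamma_eq_integral (by positivity)]
  refine setIntegral_congr_fun measurableSet_Ioi ?_
  intro x hx
  simp only [add_sub_cancel_right, Real.rpow_natCast]
  rw [abs_of_pos hx]

section
variable {γ : Type*} [Fintype γ] [DecidableEq γ]

theorem EE_integrable (N : γ → ℕ) :
    Integrable (fun t : γ → ℝ => ∏ c, (Real.exp (-(t c)) * |t c| ^ N c))
      (Measure.pi fun _ => volume.restrict (Set.Ioi 0)) :=
  Integrable.fintype_prod fun c => gam_integrable (N c)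

theorem EE_int (N : γ → ℕ) :
    ∫ t : γ → ℝ, ∏ c, (Real.exp (-(t c)) * |t c| ^ N c)
      ∂(Measure.pi fun _ => volume.restrict (Set.Ioi 0)) = ∏ c, ((N c).factorial : ℝ) := by
  rw [integral_fintype_prod_eq_prod (fun c (x : ℝ) => Real.exp (-x) * |x| ^ N c)]
  exact Finset.prod_congr rfl fun c _ => gam_int (N c)

theorem countPerms_mul (m : ℕ) (s : Sym γ m) :
    (∏ c, (s.1.count c).factorial) * s.1.countPerms = m.factorial := by
  have h1 : s.1.countPerms = Nat.multinomial Finset.univ (fun c => s.1.count c) := by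
    unfold Multiset.countPerms
    rw [Finsupp.multinomial_eq_of_support_subset (s := Finset.univ) (Finset.subset_univ _)]
    rfl
  rw [h1, Nat.multinomial_spec]
  congr 1
  have h := Multiset.toFinset_sum_count_eq s.1
  rw [s.2] at h
  refine Eq.trans ?_ h
  symm
  apply Finset.sum_subset (Finset.subset_univ _)
  intro c _ hc
  rw [Multiset.mem_toFinset] at hc
  exact Multiset.count_eq_zero_of_notMem hc

theorem sum_pow_sym (m : ℕ) (t : γ → ℝ) :
    (∑ c, t c) ^ m = ∑ s : Sym γ m, (s.1.countPerms : ℝ) * ∏ c, t c ^ (s.1.count c) := by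
  rw [Finset.sum_pow, Finset.sym_univ]
  refine Finset.sum_congr rfl fun s _ => ?_
  congr 1
  rw [Finset.prod_multiset_map_count]
  apply Finset.prod_subset (Finset.subset_univ _)
  intro c _ hc
  rw [Multiset.mem_toFinset] at hc
  rw [Multiset.count_eq_zero_of_notMem hc, pow_zero]

/-- integration of a polynomial inequality -/
theorem int_ineq (m : ℕ) (A : Sym γ m → ℝ) (C : ℝ)
    (h : ∀ t : γ → ℝ, (∀ c, 0 ≤ t c) →
      ∑ s : Sym γ m, A s * ∏ c, t c ^ (s.1.count c) ≤ C * (∑ c, t c) ^ m) :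
    ∑ s : Sym γ m, A s * ((∏ c, (s.1.count c).factorial : ℕ) : ℝ)
      ≤ C * ((m.factorial : ℝ) * (Nat.multichoose (Fintype.card γ) m : ℝ)) := by
  set μ : Measure (γ → ℝ) := Measure.pi fun _ => volume.restrict (Set.Ioi 0) with hμ
  have e1 : ∀ B : Sym γ m → ℝ, ∫ t : γ → ℝ, ∑ s : Sym γ m, B s *
      ∏ c, (Real.exp (-(t c)) * |t c| ^ s.1.count c) ∂μ
      = ∑ s : Sym γ m, B s * ((∏ c, (s.1.count c).factorial : ℕ) : ℝ) := by
    intro B
    rw [integral_finsetSum _ fun s _ => (EE_integrable _).const_mul _]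
    refine Finset.sum_congr rfl fun s _ => ?_
    rw [integral_const_mul, EE_int]
    push_cast
    rfl
  have e2 : ∀ B : Sym γ m → ℝ, Integrable (fun t : γ → ℝ => ∑ s : Sym γ m, B s *
      ∏ c, (Real.exp (-(t c)) * |t c| ^ s.1.count c)) μ := fun B =>
    integrable_finsetSum _ fun s _ => (EE_integrable _).const_mul _
  have e3 := integral_mono (μ := μ) (e2 A) (e2 fun s => C * (s.1.countPerms : ℝ)) (by
    intro t
    simp only
    have h1 := h (fun c => |t c|) fun c => abs_nonneg _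
    rw [sum_pow_sym, Finset.mul_sum] at h1
    have h2 : ∀ B : Sym γ m → ℝ, ∑ s : Sym γ m, B s *
        ∏ c, (Real.exp (-(t c)) * |t c| ^ s.1.count c)
        = (∏ c, Real.exp (-(t c))) * ∑ s : Sym γ m, B s * ∏ c, |t c| ^ s.1.count c := by
      intro B
      rw [Finset.mul_sum]
      refine Finset.sum_congr rfl fun s _ => ?_
      rw [Finset.prod_mul_distrib]
      ring
    rw [h2, h2]
    refine mul_le_mul_of_nonneg_left ?_ (Finset.prod_nonneg fun c _ => (Real.exp_pos _).le)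
    refine h1.trans (le_of_eq ?_)
    refine Finset.sum_congr rfl fun s _ => ?_
    ring)
  rw [e1, e1] at e3
  refine e3.trans (le_of_eq ?_)
  have e4 : ∀ s : Sym γ m, C * (s.1.countPerms : ℝ) * ((∏ c, (s.1.count c).factorial : ℕ) : ℝ)
      = C * (m.factorial : ℝ) := by
    intro s
    have := countPerms_mul m s
    rw [← this]
    push_cast
    ring
  rw [Finset.sum_congr rfl fun s _ => e4 s, Finset.sum_const, Finset.card_univ,
    Sym.card_sym_eq_multichoose, nsmul_eq_mul]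
  ring

end

theorem AA_sq_fact [Nonempty β] (g : Perm α) :
    ∑ s : Sym (β × β) (Fintype.card α), (AA g s : ℝ) ^ 2 * ((∏ c, (s.1.count c).factorial : ℕ) : ℝ)
      ≤ (Fintype.card β : ℝ) ^ nfix g * (((Fintype.card α).factorial : ℝ) *
        (Nat.multichoose (Fintype.card β * Fintype.card β) (Fintype.card α) : ℝ)) := by
  have h := int_ineq (γ := β × β) (Fintype.card α) (fun s => (AA g s : ℝ) ^ 2)
    ((Fintype.card β : ℝ) ^ nfix g) (fun t ht => AA_sq_le g t ht)
  rwa [Fintype.card_prod] at h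

theorem card_swap_eq (g : Perm α) (s : Sym (β × β) (Fintype.card α)) :
    Fintype.card {v : α → β // tp (fun b => (v (g b), v b)) = s} = AA g⁻¹ s := by
  unfold AA
  refine Fintype.card_congr ?_
  refine Equiv.subtypeEquiv (Equiv.arrowCongr g.symm (Equiv.refl β)) ?_
  intro v
  have h2 : tp (fun a => (((Equiv.arrowCongr g.symm (Equiv.refl β)) v) a,
      ((Equiv.arrowCongr g.symm (Equiv.refl β)) v) (g⁻¹ a)))
      = tp (fun b => (v (g b), v b)) := by
    have h3 : (fun a => (((Equiv.arrowCongr g.symm (Equiv.refl β)) v) a,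
      ((Equiv.arrowCongr g.symm (Equiv.refl β)) v) (g⁻¹ a))) = fun b => (v (g b), v b) := by
      funext a
      simp [Equiv.arrowCongr]
    rw [h3]
  rw [h2]

theorem nfix_inv (g : Perm α) : nfix g⁻¹ = nfix g := by
  unfold nfix
  refine Fintype.card_congr (Equiv.subtypeEquivRight fun a => ?_)
  constructor
  · intro h
    exact ((Perm.inv_eq_iff_eq).mp h).symm
  · intro h
    exact (Perm.inv_eq_iff_eq).mpr h.symm

/-- KEY, without the `e^m` loss -/
theorem cyc_avg2 (c1 c2 : Perm α) (z : ℕ) (hz : 0 < z) :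
    ∑ h : Perm α, (z : ℝ) ^ ncyc (c1 * h * c2 * h⁻¹)
      ≤ ((Fintype.card α).factorial : ℝ) * (Nat.multichoose (z * z) (Fintype.card α) : ℝ)
        * Real.sqrt z ^ (nfix c1 + nfix c2) := by
  classical
  have : Nonempty (Fin z) := ⟨⟨0, hz⟩⟩
  have h0 : ∑ h : Perm α, (z : ℝ) ^ ncyc (c1 * h * c2 * h⁻¹)
      ≤ ∑ s : Sym (Fin z × Fin z) (Fintype.card α),
        (AA (β := Fin z) c1 s : ℝ) *
          (Fintype.card {v : α → Fin z // tp (fun b => (v (c2 b), v b)) = s} : ℝ)
          * ((∏ c, (s.1.count c).factorial : ℕ) : ℝ) := by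
    have := sum_h c1 c2 z
    exact_mod_cast this
  refine h0.trans ?_
  set F : Sym (Fin z × Fin z) (Fintype.card α) → ℝ :=
    fun s => ((∏ c, (s.1.count c).factorial : ℕ) : ℝ) with hF
  have hF0 : ∀ s, 0 ≤ F s := fun s => Nat.cast_nonneg _
  have h1 : ∑ s : Sym (Fin z × Fin z) (Fintype.card α),
        (AA (β := Fin z) c1 s : ℝ) *
          (Fintype.card {v : α → Fin z // tp (fun b => (v (c2 b), v b)) = s} : ℝ)
          * ((∏ c, (s.1.count c).factorial : ℕ) : ℝ)
      = ∑ s : Sym (Fin z × Fin z) (Fintype.card α),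
        ((AA (β := Fin z) c1 s : ℝ) * Real.sqrt (F s)) *
          ((AA (β := Fin z) c2⁻¹ s : ℝ) * Real.sqrt (F s)) := by
    refine Finset.sum_congr rfl fun s _ => ?_
    rw [card_swap_eq]
    have : F s = Real.sqrt (F s) * Real.sqrt (F s) := (Real.mul_self_sqrt (hF0 s)).symm
    change _ * _ * F s = _
    conv_lhs => rw [this]
    ring
  rw [h1]
  have h2 := Real.sum_mul_le_sqrt_mul_sqrt (Finset.univ : Finset (Sym (Fin z × Fin z) (Fintype.card α)))
    (fun s => (AA (β := Fin z) c1 s : ℝ) * Real.sqrt (F s))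
    (fun s => (AA (β := Fin z) c2⁻¹ s : ℝ) * Real.sqrt (F s))
  refine h2.trans ?_
  have h3 : ∀ c : Perm α, Real.sqrt (∑ s : Sym (Fin z × Fin z) (Fintype.card α),
      ((AA (β := Fin z) c s : ℝ) * Real.sqrt (F s)) ^ 2)
      ≤ Real.sqrt z ^ nfix c * Real.sqrt (((Fintype.card α).factorial : ℝ) *
        (Nat.multichoose (z * z) (Fintype.card α) : ℝ)) := by
    intro c
    apply Real.sqrt_le_iff.mpr
    refine ⟨by positivity, ?_⟩
    have h4 : ∀ s : Sym (Fin z × Fin z) (Fintype.card α),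
        ((AA (β := Fin z) c s : ℝ) * Real.sqrt (F s)) ^ 2 = (AA (β := Fin z) c s : ℝ) ^ 2 * F s := by
      intro s
      rw [mul_pow, Real.sq_sqrt (hF0 s)]
    rw [Finset.sum_congr rfl fun s _ => h4 s]
    refine (AA_sq_fact (β := Fin z) c).trans (le_of_eq ?_)
    rw [Fintype.card_fin, mul_pow, Real.sq_sqrt (by positivity), ← pow_mul, mul_comm (nfix c) 2,
      pow_mul, Real.sq_sqrt (Nat.cast_nonneg _)]
  refine (mul_le_mul (h3 c1) (h3 c2⁻¹) (Real.sqrt_nonneg _) (by positivity)).trans (le_of_eq ?_)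
  rw [nfix_inv, pow_add]
  have h5 : Real.sqrt (((Fintype.card α).factorial : ℝ) *
        (Nat.multichoose (z * z) (Fintype.card α) : ℝ)) * Real.sqrt (((Fintype.card α).factorial : ℝ) *
        (Nat.multichoose (z * z) (Fintype.card α) : ℝ)) = ((Fintype.card α).factorial : ℝ) *
        (Nat.multichoose (z * z) (Fintype.card α) : ℝ) := Real.mul_self_sqrt (by positivity)
  calc _ = (Real.sqrt (((Fintype.card α).factorial : ℝ) *
        (Nat.multichoose (z * z) (Fintype.card α) : ℝ)) * Real.sqrt (((Fintype.card α).factorial : ℝ) *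
        (Nat.multichoose (z * z) (Fintype.card α) : ℝ))) *
        (Real.sqrt z ^ nfix c1 * Real.sqrt z ^ nfix c2) := by ring
    _ = _ := by rw [h5]

end Crest.Agent.T22
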