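import Mathlib

/-! S0222: an elementary bound for Jucys-Murphy type elements on representations of the symmetric
group without invariants of a large Young subgroup (Okounkov-Vershik trick). -/

set_option autoImplicit false
set_option linter.unusedSectionVars false

namespace Crest.Agent.T22

open Equiv Finset Module
open scoped InnerProductSpace

variable {α : Type*} [DecidableEq α]
variable {V : Type*} [NormedAddCommGroup V] [InnerProductSpace ℝ V]

/-- the element `∑_{y ∈ A} (x y)` acting in a representation -/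
noncomputable def JMop (ρ : Equiv.Perm α →* (V →ₗ[ℝ] V)) (A : Finset α) (x : α) : V →ₗ[ℝ] V :=
  ∑ y ∈ A, ρ (swap x y)

theorem JMop_apply (ρ : Equiv.Perm α →* (V →ₗ[ℝ] V)) (A : Finset α) (x : α) (v : V) :
    JMop ρ A x v = ∑ y ∈ A, ρ (swap x y) v := by
  simp [JMop, LinearMap.sum_apply]

theorem swap_conj3 (g : Equiv.Perm α) (a b : α) :
    swap (g a) (g b) = g * (swap a b * g⁻¹) := by
  rw [Equiv.swap_apply_apply, mul_assoc]

theorem rho_inv_apply (ρ : Equiv.Perm α →* (V →ₗ[ℝ] V)) (g : Equiv.Perm α) (v : V) :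
    ρ g⁻¹ (ρ g v) = v := by
  have h : ρ g⁻¹ * ρ g = 1 := by rw [← map_mul]; simp
  exact congrArg (fun f : V →ₗ[ℝ] V => f v) h

theorem rho_swap_swap (ρ : Equiv.Perm α →* (V →ₗ[ℝ] V)) (x y : α) (v : V) :
    ρ (swap x y) (ρ (swap x y) v) = v := by
  have h := rho_inv_apply ρ (swap x y) v
  rwa [swap_inv] at h

theorem rho_adj (ρ : Equiv.Perm α →* (V →ₗ[ℝ] V))
    (hρ : ∀ g v w, ⟪ρ g v, ρ g w⟫_ℝ = ⟪v, w⟫_ℝ) (x y : α) (v w : V) :
    ⟪ρ (swap x y) v, w⟫_ℝ = ⟪v, ρ (swap x y) w⟫_ℝ := by
  rw [← hρ (swap x y) v (ρ (swap x y) w), rho_swap_swap]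

theorem JMop_symm (ρ : Equiv.Perm α →* (V →ₗ[ℝ] V))
    (hρ : ∀ g v w, ⟪ρ g v, ρ g w⟫_ℝ = ⟪v, w⟫_ℝ) (A : Finset α) (x : α) :
    (JMop ρ A x).IsSymmetric := by
  intro v w
  rw [JMop_apply, JMop_apply, sum_inner, inner_sum]
  exact Finset.sum_congr rfl (fun y _ => rho_adj ρ hρ x y v w)

theorem norm_rho (ρ : Equiv.Perm α →* (V →ₗ[ℝ] V))
    (hρ : ∀ g v w, ⟪ρ g v, ρ g w⟫_ℝ = ⟪v, w⟫_ℝ) (g : Equiv.Perm α) (v : V) : ‖ρ g v‖ = ‖v‖ := by
  have h := hρ g v v
  rw [real_inner_self_eq_norm_sq, real_inner_self_eq_norm_sq] at h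
  exact (sq_eq_sq₀ (norm_nonneg _) (norm_nonneg _)).mp h

theorem inner_rho_le (ρ : Equiv.Perm α →* (V →ₗ[ℝ] V))
    (hρ : ∀ g v w, ⟪ρ g v, ρ g w⟫_ℝ = ⟪v, w⟫_ℝ) (g : Equiv.Perm α) (v : V) :
    ⟪ρ g v, v⟫_ℝ ≤ ‖v‖ ^ 2 := by
  have h := real_inner_le_norm (ρ g v) v
  rw [norm_rho ρ hρ] at h
  rw [sq]; exact h

theorem JMop_trivial_bound (ρ : Equiv.Perm α →* (V →ₗ[ℝ] V))
    (hρ : ∀ g v w, ⟪ρ g v, ρ g w⟫_ℝ = ⟪v, w⟫_ℝ) (A : Finset α) (x : α) (v : V) :
    ⟪JMop ρ A x v, v⟫_ℝ ≤ (A.card : ℝ) * ‖v‖ ^ 2 := by
  rw [JMop_apply, sum_inner]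
  calc ∑ y ∈ A, ⟪ρ (swap x y) v, v⟫_ℝ ≤ ∑ _y ∈ A, ‖v‖ ^ 2 :=
        Finset.sum_le_sum (fun y _ => inner_rho_le ρ hρ _ v)
    _ = (A.card : ℝ) * ‖v‖ ^ 2 := by rw [Finset.sum_const, nsmul_eq_mul]

/-- `ρ g` commutes with `JMop A x` when `g` fixes `x` and preserves `A`. -/
theorem JMop_comm (ρ : Equiv.Perm α →* (V →ₗ[ℝ] V)) (A : Finset α) (x : α) (g : Equiv.Perm α)
    (hx : g x = x) (hA : ∀ y, y ∈ A ↔ g y ∈ A) (v : V) :
    ρ g (JMop ρ A x v) = JMop ρ A x (ρ g v) := by
  rw [JMop_apply, JMop_apply, map_sum]
  apply Finset.sum_bij (fun y _ => g y)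
  · intro y hy; exact (hA y).mp hy
  · intro y _ z _ h; exact g.injective h
  · intro z hz
    refine ⟨g⁻¹ z, ?_, by simp⟩
    rw [hA]; simpa using hz
  · intro y _
    have h : g * swap x y = swap x (g y) * g := by
      rw [Equiv.mul_swap_eq_swap_mul, hx]
    have h2 := congrArg ρ h
    rw [map_mul, map_mul] at h2
    exact congrArg (fun f : V →ₗ[ℝ] V => f v) h2

variable [FiniteDimensional ℝ V]

/-- quadratic form bound from eigenvalue bound -/
theorem quad_le_of_eig (T : V →ₗ[ℝ] V) (hT : T.IsSymmetric) (c : ℝ)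
    (h : ∀ a : ℝ, ∀ v : V, v ≠ 0 → T v = a • v → a ≤ c) (v : V) :
    ⟪T v, v⟫_ℝ ≤ c * ‖v‖ ^ 2 := by
  obtain ⟨n, hn⟩ : ∃ n, finrank ℝ V = n := ⟨_, rfl⟩
  let b := hT.eigenvectorBasis hn
  have hb : ∀ i, T (b i) = (hT.eigenvalues hn i) • b i := fun i =>
    hT.apply_eigenvectorBasis hn i
  have hc : ∀ i, hT.eigenvalues hn i ≤ c := by
    intro i
    apply h _ (b i) _ (hb i)
    intro h0
    have := b.orthonormal.norm_eq_one i
    rw [h0, norm_zero] at this
    norm_num at this
  have e1 : ⟪T v, v⟫_ℝ = ∑ i, hT.eigenvalues hn i * ⟪v, b i⟫_ℝ ^ 2 := by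
    rw [← b.sum_inner_mul_inner (T v) v]
    apply Finset.sum_congr rfl
    intro i _
    rw [hT v (b i), hb i, inner_smul_right, real_inner_comm v (b i)]
    ring
  have e2 : ‖v‖ ^ 2 = ∑ i, ⟪v, b i⟫_ℝ ^ 2 := by
    rw [← real_inner_self_eq_norm_sq, ← b.sum_inner_mul_inner v v]
    apply Finset.sum_congr rfl
    intro i _
    rw [real_inner_comm v (b i)]
    ring
  rw [e1, e2, Finset.mul_sum]
  apply Finset.sum_le_sum
  intro i _
  exact mul_le_mul_of_nonneg_right (hc i) (sq_nonneg _)

/-- If no nonzero vector is invariant under a Young subgroup `S_{p+1}`, then the Jucys-Murphy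
elements are bounded above by `p - 1`. -/
theorem JMop_le (ρ : Equiv.Perm α →* (V →ₗ[ℝ] V))
    (hρ : ∀ g v w, ⟪ρ g v, ρ g w⟫_ℝ = ⟪v, w⟫_ℝ) (p : ℕ) (hp : 1 ≤ p)
    (hV : ∀ B : Finset α, B.card = p + 1 → ∀ v : V,
      (∀ x ∈ B, ∀ y ∈ B, ρ (swap x y) v = v) → v = 0) :
    ∀ (n : ℕ) (A : Finset α), A.card = n → ∀ x, x ∉ A → ∀ v : V,
      ⟪JMop ρ A x v, v⟫_ℝ ≤ ((p : ℝ) - 1) * ‖v‖ ^ 2 := by
  intro n
  induction n with
  | zero =>
    intro A hA x hx v
    refine (JMop_trivial_bound ρ hρ A x v).trans ?_
    rw [hA]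
    have : (0 : ℝ) ≤ (p : ℝ) - 1 := by
      have : (1 : ℝ) ≤ p := by exact_mod_cast hp
      linarith
    have h2 := sq_nonneg ‖v‖
    simp only [Nat.cast_zero, zero_mul]
    positivity
  | succ n ih =>
    intro A hA x hx
    by_cases hsmall : A.card ≤ p - 1
    · intro v
      refine (JMop_trivial_bound ρ hρ A x v).trans ?_
      apply mul_le_mul_of_nonneg_right _ (sq_nonneg _)
      have : ((A.card : ℕ) : ℝ) ≤ ((p - 1 : ℕ) : ℝ) := by exact_mod_cast hsmall
      rw [Nat.cast_sub hp] at this
      simpa using this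
    · have hAne : A.Nonempty := by
        rw [← Finset.card_pos]; omega
      obtain ⟨y, hy⟩ := hAne
      have hxy : x ≠ y := fun h => hx (h ▸ hy)
      set A' := A.erase y with hA'
      have hcard' : A'.card = n := by rw [hA', Finset.card_erase_of_mem hy, hA]; simp
      have hyA' : y ∉ A' := Finset.notMem_erase y A
      have hxA' : x ∉ A' := fun h => hx (Finset.mem_of_mem_erase h)
      have hS := ih A' hcard' y hyA'
      apply quad_le_of_eig _ (JMop_symm ρ hρ A x)
      intro a v0 hv0 hTv0
      by_contra hlt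
      rw [not_le] at hlt
      -- the relation between the two elements
      have hrel : ∀ w : V, JMop ρ A x w
          = ρ (swap x y) (JMop ρ A' y (ρ (swap x y) w)) + ρ (swap x y) w := by
        intro w
        rw [JMop_apply, JMop_apply, map_sum, ← Finset.sum_erase_add _ _ hy]
        congr 1
        apply Finset.sum_congr rfl
        intro z hz
        have hzy : z ≠ y := Finset.ne_of_mem_erase hz
        have hzx : z ≠ x := fun h => hx (h ▸ Finset.mem_of_mem_erase hz)
        have h : swap x z = swap x y * (swap y z * swap x y) := by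
          have := swap_conj3 (swap x y) y z
          rw [swap_apply_right, Equiv.swap_apply_of_ne_of_ne hzx hzy, swap_inv] at this
          exact this
        rw [h, map_mul, map_mul]
        rfl
      -- E = eigenspace
      set T := JMop ρ A x with hT
      set E := Module.End.eigenspace T a with hE
      have hmemE : ∀ w, w ∈ E ↔ T w = a • w := fun w => Module.End.mem_eigenspace_iff
      -- perms of A preserve E
      have hinvE : ∀ z z', z ∈ A → z' ∈ A → ∀ w ∈ E, ρ (swap z z') w ∈ E := by
        intro z z' hz hz' w hw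
        rw [hmemE] at hw ⊢
        have h := JMop_comm ρ A x (swap z z')
          (Equiv.swap_apply_of_ne_of_ne (fun h => hx (h ▸ hz)) (fun h => hx (h ▸ hz')))
          (by
            intro u
            by_cases h1 : u = z
            · subst h1; simp [hz, hz']
            · by_cases h2 : u = z'
              · subst h2; simp [hz, hz']
              · rw [Equiv.swap_apply_of_ne_of_ne h1 h2]) w
        rw [← hT] at h
        rw [← h, hw, map_smul]
      set S := JMop ρ A' y with hSdef
      have hSE : ∀ w ∈ E, S w ∈ E := by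
        intro w hw
        rw [hSdef, JMop_apply]
        exact Submodule.sum_mem _ (fun z hz => hinvE y z hy (Finset.mem_of_mem_erase hz) w hw)
      have hSsym : S.IsSymmetric := JMop_symm ρ hρ A' y
      -- eigenvectors of S in E are fixed by the swap
      have hfix : ∀ b : ℝ, ∀ w : V, w ∈ E → w ≠ 0 → S w = b • w → ρ (swap x y) w = w := by
        intro b w hwE hw0 hSw
        rw [hmemE] at hwE
        set s := ρ (swap x y) with hs
        have hss : ∀ u, s (s u) = u := fun u => rho_swap_swap ρ x y u
        have hrelw := hrel w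
        rw [hwE] at hrelw
        -- a w = s (S (s w)) + s w  ⇒ S (s w) = a s w - w
        have h1 : S (s w) = a • s w - w := by
          have := congrArg s hrelw
          rw [map_smul, map_add, hss, hss] at this
          rw [this]; abel
        set u := (a - b) • s w - w with hu
        have hSu : S u = a • u := by
          rw [hu, map_sub, map_smul, h1, hSw, smul_sub, smul_sub, smul_smul, smul_smul, sub_smul]
          rw [mul_comm a (a - b)]
          module
        by_cases hu0 : u = 0
        · -- (a-b) s w = w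
          have h2 : (a - b) • s w = w := by rw [hu, sub_eq_zero] at hu0; exact hu0
          have h3 : |a - b| * ‖w‖ = ‖w‖ := by
            have := congrArg norm h2
            rw [norm_smul, norm_rho ρ hρ, Real.norm_eq_abs] at this
            exact this
          have hwpos : 0 < ‖w‖ := norm_pos_iff.mpr hw0
          have h4 : |a - b| = 1 := by
            field_simp at h3
            exact h3
          rcases abs_eq (by norm_num : (0:ℝ) ≤ 1) |>.mp h4 with h5 | h5
          · rw [h5, one_smul] at h2; exact h2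
          · exfalso
            -- b = a + 1
            have hb : b = a + 1 := by linarith
            have h6 := hS w
            rw [hSw, inner_smul_left, real_inner_self_eq_norm_sq] at h6
            simp only [conj_trivial] at h6
            have h7 : b ≤ (p : ℝ) - 1 := by
              have : 0 < ‖w‖ ^ 2 := by positivity
              exact le_of_mul_le_mul_right h6 this
            linarith
        · exfalso
          have h6 := hS u
          rw [hSu, inner_smul_left, real_inner_self_eq_norm_sq] at h6
          simp only [conj_trivial] at h6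
          have hupos : 0 < ‖u‖ ^ 2 := by
            have : 0 < ‖u‖ := norm_pos_iff.mpr hu0
            positivity
          have h7 : a ≤ (p : ℝ) - 1 := le_of_mul_le_mul_right h6 hupos
          linarith
      -- hence the swap is the identity on E
      have hfixE : ∀ w ∈ E, ρ (swap x y) w = w := by
        intro w hw
        have hSr : (S.restrict hSE).IsSymmetric := hSsym.restrict_invariant hSE
        obtain ⟨k, hk⟩ : ∃ k, finrank ℝ E = k := ⟨_, rfl⟩
        let bb := hSr.eigenvectorBasis hk
        have hbb : ∀ i, ρ (swap x y) ((bb i : E) : V) = ((bb i : E) : V) := by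
          intro i
          apply hfix (hSr.eigenvalues hk i) _ (bb i).2
          · intro h0
            have h1 := bb.orthonormal.norm_eq_one i
            have h2 : ‖((bb i : E) : V)‖ = 1 := h1
            rw [h0, norm_zero] at h2
            norm_num at h2
          · have h1 := hSr.apply_eigenvectorBasis hk i
            have h2 := congrArg (fun e : E => (e : V)) h1
            simpa [LinearMap.restrict_apply] using h2
        have hw' : w = ∑ i, ⟪(bb i : E), (⟨w, hw⟩ : E)⟫_ℝ • ((bb i : E) : V) := by
          have h1 := (bb.sum_repr' (⟨w, hw⟩ : E)).symm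
          have h2 := congrArg (fun e : E => (e : V)) h1
          simpa using h2
        rw [hw', map_sum]
        apply Finset.sum_congr rfl
        intro i _
        rw [map_smul, hbb i]
      -- the vector v0 is invariant under all swaps inside insert x A
      have hv0E : v0 ∈ E := (hmemE v0).mpr hTv0
      have hxz : ∀ z ∈ A, ∀ w ∈ E, ρ (swap x z) w = w := by
        intro z hz w hw
        by_cases hzy : z = y
        · rw [hzy]; exact hfixE w hw
        · have hzx : z ≠ x := fun h => hx (h ▸ hz)
          have h : swap x z = swap y z * (swap x y * swap y z) := by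
            have := swap_conj3 (swap y z) x y
            rw [Equiv.swap_apply_of_ne_of_ne hxy (Ne.symm hzx), swap_apply_left, swap_inv] at this
            exact this
          have h2 : ρ (swap x z) w = ρ (swap y z) (ρ (swap x y) (ρ (swap y z) w)) := by
            rw [h, map_mul, map_mul]; rfl
          rw [h2, hfixE _ (hinvE y z hy hz w hw), rho_swap_swap]
      have hall : ∀ z ∈ insert x A, ∀ z' ∈ insert x A, ρ (swap z z') v0 = v0 := by
        intro z hz z' hz'
        rw [Finset.mem_insert] at hz hz'
        rcases hz with hz | hz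
        · rcases hz' with hz' | hz'
          · rw [hz, hz', Equiv.swap_self]
            have : (Equiv.refl α) = (1 : Equiv.Perm α) := rfl
            rw [this, map_one]; rfl
          · rw [hz]; exact hxz z' hz' v0 hv0E
        · rcases hz' with hz' | hz'
          · rw [hz', Equiv.swap_comm]; exact hxz z hz v0 hv0E
          · by_cases hzz : z = z'
            · rw [hzz, Equiv.swap_self]
              have : (Equiv.refl α) = (1 : Equiv.Perm α) := rfl
              rw [this, map_one]; rfl
            · have hz'x : z' ≠ x := fun h => hx (h ▸ hz')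
              have h : swap z z' = swap x z * (swap x z' * swap x z) := by
                have := swap_conj3 (swap x z) x z'
                rw [swap_apply_left, Equiv.swap_apply_of_ne_of_ne hz'x (Ne.symm hzz),
                  swap_inv] at this
                exact this
              have h2 : ρ (swap z z') v0 = ρ (swap x z) (ρ (swap x z') (ρ (swap x z) v0)) := by
                rw [h, map_mul, map_mul]; rfl
              rw [h2, hxz z hz v0 hv0E, hxz z' hz' v0 hv0E, hxz z hz v0 hv0E]
      have hcardI : p + 1 ≤ (insert x A).card := by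
        rw [Finset.card_insert_of_notMem hx]; omega
      obtain ⟨B, hBsub, hBcard⟩ := Finset.exists_subset_card_eq hcardI
      exact hv0 (hV B hBcard v0 (fun z hz z' hz' => hall z (hBsub hz) z' (hBsub hz')))

end Crest.Agent.T22
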