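import Mathlib
import Crest.Agent.T22JM
import Crest.Agent.T22HDef

/-! S0222: contraction by one round of random disjoint transpositions on high levels. -/

set_option autoImplicit false
set_option linter.unusedSectionVars false

namespace Crest.Agent.T22

open Equiv Finset Module
open scoped InnerProductSpace

variable {α : Type*} [DecidableEq α] [Fintype α]
variable {V : Type*} [NormedAddCommGroup V] [InnerProductSpace ℝ V] [FiniteDimensional ℝ V]

/-- sum over ordered pairs of distinct points of a set -/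
theorem sum_offDiag_inner_le (ρ : Equiv.Perm α →* (V →ₗ[ℝ] V))
    (hρ : ∀ g v w, ⟪ρ g v, ρ g w⟫_ℝ = ⟪v, w⟫_ℝ) (q : ℕ)
    (hV : ∀ B : Finset α, B.card = q + 1 → ∀ v : V,
      (∀ x ∈ B, ∀ y ∈ B, ρ (swap x y) v = v) → v = 0) (S : Finset α) (v : V) :
    ∑ c ∈ S.offDiag, ⟪ρ (swap c.1 c.2) v, v⟫_ℝ
      ≤ (S.offDiag.card : ℝ) * (min 1 (((q : ℝ) - 1) / ((S.card : ℝ) - 1))) * ‖v‖ ^ 2 := by
  have hn : 0 ≤ ‖v‖ ^ 2 := sq_nonneg _
  have triv : ∑ c ∈ S.offDiag, ⟪ρ (swap c.1 c.2) v, v⟫_ℝ ≤ (S.offDiag.card : ℝ) * ‖v‖ ^ 2 := by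
    calc ∑ c ∈ S.offDiag, ⟪ρ (swap c.1 c.2) v, v⟫_ℝ ≤ ∑ _c ∈ S.offDiag, ‖v‖ ^ 2 :=
          Finset.sum_le_sum (fun c _ => inner_rho_le ρ hρ _ v)
      _ = _ := by rw [Finset.sum_const, nsmul_eq_mul]
  by_cases hS : S.card ≤ 1
  · -- no pairs
    have h0 : S.offDiag = ∅ := by
      rw [Finset.card_le_one] at hS
      apply Finset.eq_empty_of_forall_notMem
      intro c hc
      rw [Finset.mem_offDiag] at hc
      exact hc.2.2 (hS _ hc.1 _ hc.2.1)
    rw [h0]; simp
  · push Not at hS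
    have hS1 : (0 : ℝ) < (S.card : ℝ) - 1 := by
      have : (1 : ℝ) < S.card := by exact_mod_cast hS
      linarith
    have hcard : (S.offDiag.card : ℝ) = (S.card : ℝ) * ((S.card : ℝ) - 1) := by
      rw [Finset.offDiag_card, Nat.cast_sub (Nat.le_mul_self _), Nat.cast_mul]
      ring
    rcases Nat.eq_zero_or_pos q with hq | hq
    · -- q = 0 : V is trivial
      subst hq
      have hv0 : v = 0 := by
        obtain ⟨a, ha⟩ : S.Nonempty := Finset.card_pos.mp (by omega)
        apply hV {a} (by simp) v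
        intro x hx y hy
        rw [Finset.mem_singleton] at hx hy
        rw [hx, hy, Equiv.swap_self]
        have : (Equiv.refl α) = (1 : Equiv.Perm α) := rfl
        rw [this, map_one]; rfl
      rw [hv0]; simp
    · have main : ∑ c ∈ S.offDiag, ⟪ρ (swap c.1 c.2) v, v⟫_ℝ
          ≤ (S.card : ℝ) * (((q : ℝ) - 1) * ‖v‖ ^ 2) := by
        have h1 : ∑ c ∈ S.offDiag, ⟪ρ (swap c.1 c.2) v, v⟫_ℝ
            = ∑ a ∈ S, ⟪JMop ρ (S.erase a) a v, v⟫_ℝ := by
          have h2 : ∀ a ∈ S, ⟪JMop ρ (S.erase a) a v, v⟫_ℝ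
              = ∑ b ∈ S.erase a, ⟪ρ (swap a b) v, v⟫_ℝ := by
            intro a _
            rw [JMop_apply, sum_inner]
          rw [Finset.sum_congr rfl h2, Finset.sum_sigma']
          symm
          apply Finset.sum_bij' (fun (x : (_ : α) × α) _ => ((x.1, x.2) : α × α))
            (fun c _ => (⟨c.1, c.2⟩ : (_ : α) × α))
          · intro x hx
            rw [Finset.mem_sigma, Finset.mem_erase] at hx
            rw [Finset.mem_offDiag]
            exact ⟨hx.1, hx.2.2, Ne.symm hx.2.1⟩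
          · intro c hc
            rw [Finset.mem_offDiag] at hc
            rw [Finset.mem_sigma, Finset.mem_erase]
            exact ⟨hc.1, Ne.symm hc.2.2, hc.2.1⟩
          · intro x _; rfl
          · intro c _; rfl
          · intro x _; rfl
        rw [h1]
        calc ∑ a ∈ S, ⟪JMop ρ (S.erase a) a v, v⟫_ℝ ≤ ∑ _a ∈ S, ((q : ℝ) - 1) * ‖v‖ ^ 2 :=
              Finset.sum_le_sum (fun a _ =>
                JMop_le ρ hρ q hq hV _ (S.erase a) rfl a (Finset.notMem_erase a S) v)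
          _ = _ := by rw [Finset.sum_const, nsmul_eq_mul]
      rcases min_cases (1 : ℝ) (((q : ℝ) - 1) / ((S.card : ℝ) - 1)) with ⟨h, _⟩ | ⟨h, _⟩
      · rw [h, mul_one]; exact triv
      · rw [h, hcard]
        refine main.trans (le_of_eq ?_)
        field_simp

/-- abstract version of `EKf` -/
noncomputable def EKv (ρ : Equiv.Perm α →* (V →ₗ[ℝ] V)) : (p : ℕ) → (Fin p → α × α) → V → V
  | 0, _, v => v
  | p + 1, k, v => (1 / 2 : ℝ) • (EKv ρ p (Fin.init k) v
      + ρ (swap (k (Fin.last p)).1 (k (Fin.last p)).2) (EKv ρ p (Fin.init k) v))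

theorem norm_half_add (ρ : Equiv.Perm α →* (V →ₗ[ℝ] V))
    (hρ : ∀ g v w, ⟪ρ g v, ρ g w⟫_ℝ = ⟪v, w⟫_ℝ) (g : Equiv.Perm α) (u : V) :
    ‖(1 / 2 : ℝ) • (u + ρ g u)‖ ^ 2 = (‖u‖ ^ 2 + ⟪ρ g u, u⟫_ℝ) / 2 := by
  rw [norm_smul, mul_pow, ← real_inner_self_eq_norm_sq (u + ρ g u), inner_add_left,
    inner_add_right, inner_add_right, hρ, real_inner_comm (ρ g u) u, real_inner_self_eq_norm_sq]
  norm_num
  ring

/-- the contraction factor of the `i`-th pair -/
noncomputable def hfac (m q i : ℕ) : ℝ :=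
  (1 + min 1 (((q : ℝ) - 1) / ((m : ℝ) - 2 * i - 1))) / 2

theorem EKv_contract (ρ : Equiv.Perm α →* (V →ₗ[ℝ] V))
    (hρ : ∀ g v w, ⟪ρ g v, ρ g w⟫_ℝ = ⟪v, w⟫_ℝ) (q : ℕ)
    (hV : ∀ B : Finset α, B.card = q + 1 → ∀ v : V,
      (∀ x ∈ B, ∀ y ∈ B, ρ (swap x y) v = v) → v = 0) (v : V) (p : ℕ)
    (hfac0 : ∀ i < p, 0 ≤ hfac (Fintype.card α) q i) :
    ∑ k ∈ djSet α p, ‖EKv ρ p k v‖ ^ 2
      ≤ ((djSet α p).card : ℝ) * (∏ i ∈ Finset.range p, hfac (Fintype.card α) q i) * ‖v‖ ^ 2 := by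
  induction p with
  | zero =>
    have h : ∀ k ∈ djSet α 0, ‖EKv ρ 0 k v‖ ^ 2 = ‖v‖ ^ 2 := fun k _ => rfl
    rw [Finset.sum_congr rfl h, Finset.sum_const, nsmul_eq_mul]
    simp
  | succ p ih =>
    have ih' := ih (fun i hi => hfac0 i (by omega))
    rw [sum_djSet_succ]
    have hcard : ((djSet α (p + 1)).card : ℝ) = ∑ k ∈ djSet α p, (((usedPts k)ᶜ.offDiag).card : ℝ) := by
      have := sum_djSet_succ (α := α) (p := p) (fun _ => (1 : ℝ))
      simpa using this
    have hcard2 : ((djSet α (p + 1)).card : ℝ) = ((djSet α p).card : ℝ) *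
        (((Fintype.card α : ℝ) - 2 * p) * ((Fintype.card α : ℝ) - 2 * p - 1)) := by
      rw [hcard, Finset.sum_congr rfl (fun k hk => card_offDiag_compl k ((mem_djSet k).mp hk)),
        Finset.sum_const, nsmul_eq_mul]
    set N : ℝ := ((Fintype.card α : ℝ) - 2 * p) * ((Fintype.card α : ℝ) - 2 * p - 1) with hN
    have hstep : ∀ k ∈ djSet α p, ∑ c ∈ (usedPts k)ᶜ.offDiag, ‖EKv ρ (p + 1) (Fin.snoc k c) v‖ ^ 2
        ≤ N * hfac (Fintype.card α) q p * ‖EKv ρ p k v‖ ^ 2 := by
      intro k hk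
      have hk' := (mem_djSet k).mp hk
      have e1 : ∀ c ∈ (usedPts k)ᶜ.offDiag, ‖EKv ρ (p + 1) (Fin.snoc k c) v‖ ^ 2
          = (‖EKv ρ p k v‖ ^ 2 + ⟪ρ (swap c.1 c.2) (EKv ρ p k v), EKv ρ p k v⟫_ℝ) / 2 := by
        intro c _
        rw [← norm_half_add ρ hρ]
        simp only [EKv, Fin.init_snoc, Fin.snoc_last]
      rw [Finset.sum_congr rfl e1, ← Finset.sum_div, Finset.sum_add_distrib, Finset.sum_const,
        nsmul_eq_mul, card_offDiag_compl k hk', ← hN]
      have h2 := sum_offDiag_inner_le ρ hρ q hV (usedPts k)ᶜ (EKv ρ p k v)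
      rw [card_offDiag_compl k hk', ← hN] at h2
      have h3 : (((usedPts k)ᶜ.card : ℕ) : ℝ) - 1 = (Fintype.card α : ℝ) - 2 * p - 1 := by
        have h1 : (usedPts k).card ≤ Fintype.card α := Finset.card_le_univ _
        rw [Finset.card_compl, Nat.cast_sub h1, card_usedPts k hk']
        push_cast; ring
      rw [h3] at h2
      unfold hfac
      linarith
    calc ∑ k ∈ djSet α p, ∑ c ∈ (usedPts k)ᶜ.offDiag, ‖EKv ρ (p + 1) (Fin.snoc k c) v‖ ^ 2
        ≤ ∑ k ∈ djSet α p, N * hfac (Fintype.card α) q p * ‖EKv ρ p k v‖ ^ 2 :=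
          Finset.sum_le_sum hstep
      _ = N * hfac (Fintype.card α) q p * ∑ k ∈ djSet α p, ‖EKv ρ p k v‖ ^ 2 := by
          rw [Finset.mul_sum]
      _ ≤ N * hfac (Fintype.card α) q p * (((djSet α p).card : ℝ)
            * (∏ i ∈ Finset.range p, hfac (Fintype.card α) q i) * ‖v‖ ^ 2) := by
          rcases (djSet α p).eq_empty_or_nonempty with he | ⟨k, hk⟩
          · rw [he]; simp
          · apply mul_le_mul_of_nonneg_left ih'
            apply mul_nonneg _ (hfac0 p (by omega))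
            rw [hN, ← card_offDiag_compl k ((mem_djSet k).mp hk)]
            positivity
      _ = _ := by
          rw [hcard2, Finset.prod_range_succ]
          ring

/-! ### functions on the group -/

/-- left translation on functions on the group -/
noncomputable def lTr (a : Equiv.Perm α) :
    EuclideanSpace ℝ (Equiv.Perm α) →ₗ[ℝ] EuclideanSpace ℝ (Equiv.Perm α) where
  toFun f := WithLp.toLp 2 (fun g => f (a⁻¹ * g))
  map_add' f f' := by ext g; simp
  map_smul' c f := by ext g; simp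

theorem lTr_apply (a : Equiv.Perm α) (f : EuclideanSpace ℝ (Equiv.Perm α)) (g : Equiv.Perm α) :
    lTr a f g = f (a⁻¹ * g) := rfl

/-- the indicator of `g (x i) = y i` for all `i` -/
noncomputable def indE {l : ℕ} (x y : Fin l ↪ α) (g : Equiv.Perm α) : ℝ :=
  if ∀ i, g (x i) = y i then 1 else 0

/-- functions orthogonal to all functions of `j` cards -/
def perpV (α : Type*) [DecidableEq α] [Fintype α] (j : ℕ) :
    Submodule ℝ (EuclideanSpace ℝ (Equiv.Perm α)) where
  carrier := {f | ∀ x y : Fin j ↪ α, ∑ g, f g * indE x y g = 0}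
  add_mem' := by
    intro f f' hf hf' x y
    have h1 := hf x y
    have h2 := hf' x y
    simp only [PiLp.add_apply, add_mul, Finset.sum_add_distrib, h1, h2, add_zero]
  zero_mem' := by intro x y; simp
  smul_mem' := by
    intro c f hf x y
    have h1 := hf x y
    simp only [PiLp.smul_apply, smul_eq_mul, mul_assoc, ← Finset.mul_sum, h1, mul_zero]

theorem mem_perpV {j : ℕ} (f : EuclideanSpace ℝ (Equiv.Perm α)) :
    f ∈ perpV α j ↔ ∀ x y : Fin j ↪ α, ∑ g, f g * indE x y g = 0 := Iff.rfl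

theorem indE_mul_left {l : ℕ} (x y : Fin l ↪ α) (a g : Equiv.Perm α) :
    indE x y (a * g) = indE x (y.trans a⁻¹.toEmbedding) g := by
  unfold indE
  congr 1
  apply propext
  apply forall_congr'
  intro i
  simp only [Equiv.Perm.coe_mul, Function.comp_apply, Function.Embedding.trans_apply,
    Equiv.coe_toEmbedding]
  rw [Equiv.Perm.eq_inv_iff_eq]

theorem lTr_mem {j : ℕ} (a : Equiv.Perm α) (f : EuclideanSpace ℝ (Equiv.Perm α))
    (hf : f ∈ perpV α j) : lTr a f ∈ perpV α j := by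
  rw [mem_perpV] at hf ⊢
  intro x y
  have h := hf x (y.trans (a⁻¹).toEmbedding)
  rw [← h]
  rw [← Equiv.sum_comp (Equiv.mulLeft a)]
  apply Finset.sum_congr rfl
  intro g _
  rw [lTr_apply, Equiv.coe_mulLeft, inv_mul_cancel_left, indE_mul_left]

/-- left translation on `perpV` as a representation -/
noncomputable def rhoV (α : Type*) [DecidableEq α] [Fintype α] (j : ℕ) :
    Equiv.Perm α →* (perpV α j →ₗ[ℝ] perpV α j) where
  toFun a := (lTr a).restrict (fun f hf => lTr_mem a f hf)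
  map_one' := by
    ext f g
    simp [LinearMap.restrict_apply, lTr_apply]
  map_mul' := by
    intro a b
    ext f g
    simp [LinearMap.restrict_apply, lTr_apply, mul_assoc]

theorem rhoV_apply (j : ℕ) (a : Equiv.Perm α) (f : perpV α j) (g : Equiv.Perm α) :
    (rhoV α j a f : EuclideanSpace ℝ (Equiv.Perm α)) g
      = (f : EuclideanSpace ℝ (Equiv.Perm α)) (a⁻¹ * g) := rfl

theorem rhoV_inner (j : ℕ) (a : Equiv.Perm α) (f f' : perpV α j) :
    ⟪rhoV α j a f, rhoV α j a f'⟫_ℝ = ⟪f, f'⟫_ℝ := by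
  rw [Submodule.coe_inner, Submodule.coe_inner, PiLp.inner_apply, PiLp.inner_apply]
  rw [← Equiv.sum_comp (Equiv.mulLeft a)]
  apply Finset.sum_congr rfl
  intro g _
  rw [rhoV_apply, rhoV_apply, Equiv.coe_mulLeft, inv_mul_cancel_left]

/-- invariance under swaps in `B` gives invariance under permutations fixing `Bᶜ` -/
theorem inv_of_swaps (B : Finset α) (f : Equiv.Perm α → ℝ)
    (h : ∀ x ∈ B, ∀ y ∈ B, ∀ g, f (swap x y * g) = f g) (σ : Equiv.Perm α)
    (hσ : ∀ b, b ∉ B → σ b = b) (g : Equiv.Perm α) : f (σ * g) = f g := by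
  have key : ∀ τ : Equiv.Perm {x // x ∈ B}, ∀ g, f (Equiv.Perm.ofSubtype τ * g) = f g := by
    intro τ
    induction τ using Equiv.Perm.swap_induction_on with
    | one => intro g; simp
    | swap_mul τ x y _ ih =>
      intro g
      rw [map_mul, mul_assoc, Equiv.Perm.ofSubtype_swap_eq, h x x.2 y y.2, ih]
  have h1 : ∀ b, b ∈ B ↔ σ b ∈ B := by
    intro b
    constructor
    · intro hb
      by_contra hc
      have h2 := hσ (σ b) hc
      have h3 := σ.injective h2
      rw [h3] at hc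
      exact hc hb
    · intro hb
      by_contra hc
      rw [hσ b hc] at hb
      exact hc hb
  have h2 : Equiv.Perm.ofSubtype (σ.subtypePerm (fun b => (h1 b).symm)) = σ :=
    Equiv.Perm.ofSubtype_subtypePerm (fun b => (h1 b).symm) (fun x hx => by
      by_contra hc
      exact hx (hσ x hc))
  rw [← h2]
  exact key _ g

theorem perpV_no_inv (j : ℕ) (B : Finset α) (hB : B.card + j = Fintype.card α) (v : perpV α j)
    (hv : ∀ x ∈ B, ∀ y ∈ B, rhoV α j (swap x y) v = v) : v = 0 := by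
  obtain ⟨f, hf⟩ := v
  have hf' := (mem_perpV f).mp hf
  have hinv : ∀ x ∈ B, ∀ y ∈ B, ∀ g, f (swap x y * g) = f g := by
    intro x hx y hy g
    have h1 := hv x hx y hy
    have h2 := congrArg (fun w : perpV α j => (w : EuclideanSpace ℝ (Equiv.Perm α)) g) h1
    simp only [rhoV_apply, swap_inv] at h2
    exact h2
  have hcard : (Bᶜ).card = j := by
    rw [Finset.card_compl]; omega
  let e := (Bᶜ).equivFinOfCardEq hcard
  let y : Fin j ↪ α := ⟨fun i => ((e.symm i : {x // x ∈ Bᶜ}) : α), fun a b hab => by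
    exact e.symm.injective (Subtype.ext hab)⟩
  have hy : ∀ b, b ∉ B → ∃ i, y i = b := by
    intro b hb
    refine ⟨e ⟨b, Finset.mem_compl.mpr hb⟩, ?_⟩
    show ((e.symm (e ⟨b, Finset.mem_compl.mpr hb⟩) : {x // x ∈ Bᶜ}) : α) = b
    rw [Equiv.symm_apply_apply]
  apply Subtype.ext
  ext g0
  show f g0 = 0
  let x : Fin j ↪ α := y.trans g0⁻¹.toEmbedding
  have h0 := hf' x y
  have hterm : ∀ g, f g * indE x y g = f g0 * indE x y g := by
    intro g
    unfold indE
    split_ifs with hg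
    · congr 1
      have h1 : g = (g * g0⁻¹) * g0 := by group
      rw [h1]
      apply inv_of_swaps B f hinv
      intro b hb
      obtain ⟨i, hi⟩ := hy b hb
      have h2 := hg i
      rw [← hi]
      exact h2
    · simp
  rw [Finset.sum_congr rfl (fun g _ => hterm g), ← Finset.mul_sum] at h0
  have hpos : 0 < ∑ g, indE x y g := by
    apply Finset.sum_pos'
    · intro g _; unfold indE; split_ifs <;> norm_num
    · refine ⟨g0, Finset.mem_univ _, ?_⟩
      unfold indE
      rw [if_pos]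
      · norm_num
      · intro i
        show g0 (g0⁻¹ (y i)) = y i
        simp
  rcases mul_eq_zero.mp h0 with h | h
  · exact h
  · exact absurd h (ne_of_gt hpos)

theorem EKv_rhoV (j p : ℕ) (k : Fin p → α × α) (v : perpV α j) (g : Equiv.Perm α) :
    ((EKv (rhoV α j) p k v : perpV α j) : EuclideanSpace ℝ (Equiv.Perm α)) g
      = EKf p k (fun g => (v : EuclideanSpace ℝ (Equiv.Perm α)) g) g := by
  induction p generalizing g with
  | zero => rfl
  | succ p ih =>
    have h1 := ih (Fin.init k) g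
    have h2 := ih (Fin.init k) (swap (k (Fin.last p)).1 (k (Fin.last p)).2 * g)
    simp only [EKv, EKf]
    rw [Submodule.coe_smul, PiLp.smul_apply, Submodule.coe_add, PiLp.add_apply, rhoV_apply,
      swap_inv, h1, h2, smul_eq_mul]
    ring

theorem hfac_nonneg (m q i : ℕ) (h : 2 * i + 2 ≤ m) : 0 ≤ hfac m q i := by
  unfold hfac
  have h1 : (1 : ℝ) ≤ (m : ℝ) - 2 * i - 1 := by
    have : (2 * (i : ℝ) + 2) ≤ m := by exact_mod_cast h
    linarith
  have h2 : (-1 : ℝ) ≤ ((q : ℝ) - 1) / ((m : ℝ) - 2 * i - 1) := by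
    rw [le_div_iff₀ (by linarith)]
    have : (0 : ℝ) ≤ q := Nat.cast_nonneg q
    linarith
  have h3 : (-1 : ℝ) ≤ min 1 (((q : ℝ) - 1) / ((m : ℝ) - 2 * i - 1)) := le_min (by norm_num) h2
  linarith

/-- **One-round contraction on high levels.**  -/
theorem EKf_contract (l p : ℕ) (hl : 1 ≤ l) (hlm : l ≤ Fintype.card α)
    (hp : 2 * p ≤ Fintype.card α) (f : Equiv.Perm α → ℝ)
    (hf : ∀ x y : Fin (l - 1) ↪ α, ∑ g, f g * indE x y g = 0) :
    ∑ k ∈ djSet α p, ∑ g, EKf p k f g ^ 2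
      ≤ ((djSet α p).card : ℝ)
        * (∏ i ∈ Finset.range p, hfac (Fintype.card α) (Fintype.card α - l) i) * ∑ g, f g ^ 2 := by
  let v : perpV α (l - 1) := ⟨WithLp.toLp 2 f, by rw [mem_perpV]; exact hf⟩
  have hmain := EKv_contract (rhoV α (l - 1)) (rhoV_inner (l - 1)) (Fintype.card α - l)
    (fun B hB w hw => perpV_no_inv (l - 1) B (by omega) w hw) v p
    (fun i hi => hfac_nonneg _ _ _ (by omega))
  have hnorm : ∀ w : perpV α (l - 1), ‖w‖ ^ 2
      = ∑ g, ((w : EuclideanSpace ℝ (Equiv.Perm α)) g) ^ 2 := by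
    intro w
    show ‖(w : EuclideanSpace ℝ (Equiv.Perm α))‖ ^ 2 = _
    rw [EuclideanSpace.norm_sq_eq]
    simp
  rw [hnorm v] at hmain
  simp only [hnorm, EKv_rhoV] at hmain
  exact hmain

end Crest.Agent.T22
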