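import Mathlib
import Crest.Agent.T22H
import Crest.Agent.ThConv

/-! S0222: part (H) in the form used by the assembly. -/

set_option autoImplicit false

namespace Crest.Agent.T22

open Equiv Finset

variable {α : Type*} [DecidableEq α] [Fintype α]

theorem djSet_nonempty (p : ℕ) (hp : 2 * p ≤ Fintype.card α) : (djSet α p).Nonempty := by
  have h : Fintype.card (Fin p ⊕ Fin p) ≤ Fintype.card α := by simp; omega
  obtain ⟨e⟩ := Function.Embedding.nonempty_of_card_le h
  refine ⟨fun i => (e (Sum.inl i), e (Sum.inr i)), ?_⟩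
  rw [mem_djSet]
  unfold DjK
  have : (Sum.elim (fun i => e (Sum.inl i)) (fun i => e (Sum.inr i)) : Fin p ⊕ Fin p → α) = e := by
    funext x
    cases x <;> rfl
  simp only
  rw [this]
  exact e.injective

/-- the factor of helper1's numerics -/
noncomputable def cHf (m l : ℕ) : ℝ :=
  ∏ i ∈ Finset.range (m / 4), (1 + min 1 (((m : ℝ) - l - 1) / ((m : ℝ) - 2 * i - 1))) / 2

/-- **(H)** contraction on high levels. -/
theorem H_contract (zeta : Equiv.Perm α → ℝ)
    (hK : ∀ f : Equiv.Perm α → ℝ, ((djSet α (Fintype.card α / 4)).card : ℝ)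
        * (∑ g, f g * Crest.Agent.ThS.cv zeta f g)
      ≤ ∑ k ∈ djSet α (Fintype.card α / 4), ∑ g, EKf (Fintype.card α / 4) k f g ^ 2)
    (l : ℕ) (hl : 1 ≤ l) (hlm : l ≤ Fintype.card α) (f : Equiv.Perm α → ℝ)
    (hf : ∀ x y : Fin (l - 1) ↪ α, ∑ g, f g * indE x y g = 0) :
    ∑ g, f g * Crest.Agent.ThS.cv zeta f g ≤ cHf (Fintype.card α) l * ∑ g, f g ^ 2 := by
  have hp : 2 * (Fintype.card α / 4) ≤ Fintype.card α := by omega
  have h1 := (hK f).trans (EKf_contract l (Fintype.card α / 4) hl hlm hp f hf)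
  have hpos : 0 < ((djSet α (Fintype.card α / 4)).card : ℝ) := by
    exact_mod_cast Finset.card_pos.mpr (djSet_nonempty _ hp)
  have h2 : (∏ i ∈ Finset.range (Fintype.card α / 4),
      hfac (Fintype.card α) (Fintype.card α - l) i) = cHf (Fintype.card α) l := by
    unfold cHf hfac
    apply Finset.prod_congr rfl
    intro i _
    rw [Nat.cast_sub hlm]
  rw [h2, mul_assoc] at h1
  exact le_of_mul_le_mul_left h1 hpos

end Crest.Agent.T22
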