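import Crest.Agent.T22Conj
import Crest.Agent.ThConv

/-! S0222 tools: L2 norm of the product of two conjugation-averaged laws. -/

set_option autoImplicit false
set_option linter.unusedSectionVars false
namespace Crest.Agent.T22

open Equiv Equiv.Perm Finset Crest.Agent.ThS

variable {α : Type*} [Fintype α] [DecidableEq α]

/-- conjugation average -/
noncomputable def cav (ν : Perm α → ℝ) : Perm α → ℝ := fun g =>
  (∑ h : Perm α, ν (h⁻¹ * g * h)) / ((Fintype.card α).factorial : ℝ)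

theorem cav_nonneg {ν : Perm α → ℝ} (h0 : ∀ g, 0 ≤ ν g) (g : Perm α) : 0 ≤ cav ν g :=
  div_nonneg (Finset.sum_nonneg fun _ _ => h0 _) (Nat.cast_nonneg _)

theorem cav_conj (ν : Perm α → ℝ) (g k : Perm α) : cav ν (k * g * k⁻¹) = cav ν g := by
  unfold cav
  congr 1
  rw [← Equiv.sum_comp (Equiv.mulLeft k)]
  refine Finset.sum_congr rfl fun h _ => ?_
  congr 1
  simp only [Equiv.coe_mulLeft]
  group

theorem sum_cav (ν : Perm α → ℝ) (F : Perm α → ℝ) :
    ∑ g, cav ν g * F g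
      = (∑ h : Perm α, ∑ c, ν c * F (h * c * h⁻¹)) / ((Fintype.card α).factorial : ℝ) := by
  unfold cav
  simp_rw [div_mul_eq_mul_div]
  rw [← Finset.sum_div]
  congr 1
  simp_rw [Finset.sum_mul]
  rw [Finset.sum_comm]
  refine Finset.sum_congr rfl fun h _ => ?_
  rw [← Equiv.sum_comp (MulAut.conj h).toEquiv]
  refine Finset.sum_congr rfl fun c _ => ?_
  simp only [MulEquiv.toEquiv_eq_coe, MulEquiv.coe_toEquiv, MulAut.conj_apply]
  congr 2
  group

theorem sum_cav_one (ν : Perm α → ℝ) : ∑ g, cav ν g = ∑ g, ν g := by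
  have h := sum_cav ν (fun _ => 1)
  simp only [mul_one] at h
  rw [h, Finset.sum_const, Finset.card_univ, nsmul_eq_mul, Fintype.card_perm]
  have : ((Fintype.card α).factorial : ℝ) ≠ 0 := by positivity
  field_simp

theorem sum_cv_mul {G : Type*} [Group G] [Fintype G] [DecidableEq G] (p q F : G → ℝ) :
    ∑ g, cv p q g * F g = ∑ a, p a * ∑ b, q b * F (a * b) := by
  unfold cv
  simp_rw [Finset.sum_mul]
  rw [Finset.sum_comm]
  refine Finset.sum_congr rfl fun a _ => ?_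
  rw [Finset.mul_sum, ← Equiv.sum_comp (Equiv.mulLeft a)]
  refine Finset.sum_congr rfl fun b _ => ?_
  simp only [Equiv.coe_mulLeft, inv_mul_cancel_left]
  ring

theorem cv_conj_inv {p q : Perm α → ℝ} (hp : ∀ g k, p (k * g * k⁻¹) = p g)
    (hq : ∀ g k, q (k * g * k⁻¹) = q g) (g k : Perm α) : cv p q (k * g * k⁻¹) = cv p q g := by
  unfold cv
  rw [← Equiv.sum_comp (MulAut.conj k).toEquiv]
  refine Finset.sum_congr rfl fun a _ => ?_
  simp only [MulEquiv.toEquiv_eq_coe, MulEquiv.coe_toEquiv, MulAut.conj_apply]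
  rw [hp]
  congr 1
  rw [← hq (a⁻¹ * g) k]
  congr 1
  group

/-- `E z^{#cycles}` under the product of two conjugation averages -/
theorem cyc_cav (ν1 ν2 : Perm α → ℝ) (h1 : ∀ g, 0 ≤ ν1 g) (h2 : ∀ g, 0 ≤ ν2 g) (z : ℕ)
    (hz : 0 < z) (hm : 0 < Fintype.card α) :
    ∑ g, cv (cav ν1) (cav ν2) g * (z : ℝ) ^ ncyc g
      ≤ (Nat.multichoose (z * z) (Fintype.card α) : ℝ) * Real.exp 1 ^ (Fintype.card α)
        * (∑ c, ν1 c * Real.sqrt z ^ nfix c) * (∑ c, ν2 c * Real.sqrt z ^ nfix c) := by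
  set m := Fintype.card α with hmdef
  have hf : (0 : ℝ) < (m.factorial : ℝ) := by positivity
  rw [sum_cv_mul]
  have e1 : ∀ a : Perm α, ∑ b, cav ν2 b * (z : ℝ) ^ ncyc (a * b)
      = (∑ h : Perm α, ∑ c, ν2 c * (z : ℝ) ^ ncyc (a * (h * c * h⁻¹))) / (m.factorial : ℝ) := fun a =>
    sum_cav ν2 (fun b => (z : ℝ) ^ ncyc (a * b))
  simp_rw [e1]
  rw [sum_cav ν1 (fun a => (∑ h : Perm α, ∑ c, ν2 c * (z : ℝ) ^ ncyc (a * (h * c * h⁻¹))) / (m.factorial : ℝ))]
  -- for fixed `k`, the inner sum does not depend on `k`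
  have e2 : ∀ k c1 : Perm α, ∑ h : Perm α, ∑ c, ν2 c * (z : ℝ) ^ ncyc (k * c1 * k⁻¹ * (h * c * h⁻¹))
      = ∑ c, ν2 c * ∑ h : Perm α, (z : ℝ) ^ ncyc (c1 * h * c * h⁻¹) := by
    intro k c1
    rw [Finset.sum_comm]
    refine Finset.sum_congr rfl fun c _ => ?_
    rw [Finset.mul_sum, ← Equiv.sum_comp (Equiv.mulLeft k)]
    refine Finset.sum_congr rfl fun h _ => ?_
    congr 2
    simp only [Equiv.coe_mulLeft]
    rw [← ncyc_conj (c1 * h * c * h⁻¹) k]
    congr 1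
    group
  simp_rw [e2]
  rw [Finset.sum_const, Finset.card_univ, Fintype.card_perm, nsmul_eq_mul, ← hmdef]
  rw [mul_div_cancel_left₀ _ hf.ne']
  have e3 : ∀ c1 c : Perm α, ∑ h : Perm α, (z : ℝ) ^ ncyc (c1 * h * c * h⁻¹)
      ≤ (Nat.multichoose (z * z) m : ℝ) * Real.exp 1 ^ m * (m.factorial : ℝ)
        * (Real.sqrt z ^ nfix c1 * Real.sqrt z ^ nfix c) := by
    intro c1 c
    refine (cyc_avg c1 c z hz hm).trans ?_
    rw [pow_add, ← hmdef, mul_assoc (Nat.multichoose (z * z) m : ℝ) (Real.exp 1 ^ m)]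
    refine mul_le_mul_of_nonneg_right ?_ (by positivity)
    exact mul_le_mul_of_nonneg_left (pow_self_le m) (Nat.cast_nonneg _)
  have e4 : ∀ c1 : Perm α, ν1 c1 * ((∑ c, ν2 c * ∑ h : Perm α, (z : ℝ) ^ ncyc (c1 * h * c * h⁻¹)) / (m.factorial : ℝ))
      ≤ (ν1 c1 * Real.sqrt z ^ nfix c1) * ((Nat.multichoose (z * z) m : ℝ) * Real.exp 1 ^ m
        * ∑ c, ν2 c * Real.sqrt z ^ nfix c) := by
    intro c1
    rw [mul_assoc]
    refine mul_le_mul_of_nonneg_left ?_ (h1 c1)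
    rw [div_le_iff₀ hf]
    calc ∑ c, ν2 c * ∑ h : Perm α, (z : ℝ) ^ ncyc (c1 * h * c * h⁻¹)
        ≤ ∑ c, ν2 c * ((Nat.multichoose (z * z) m : ℝ) * Real.exp 1 ^ m * (m.factorial : ℝ)
        * (Real.sqrt z ^ nfix c1 * Real.sqrt z ^ nfix c)) :=
          Finset.sum_le_sum fun c _ => mul_le_mul_of_nonneg_left (e3 c1 c) (h2 c)
      _ = _ := by
          rw [Finset.mul_sum, Finset.mul_sum, Finset.sum_mul]
          refine Finset.sum_congr rfl fun c _ => ?_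
          ring
  refine (Finset.sum_le_sum fun c1 _ => e4 c1).trans (le_of_eq ?_)
  rw [← Finset.sum_mul]
  ring

/-- L2 norm of the product of two conjugation averages -/
theorem l2_cav (ν1 ν2 : Perm α → ℝ) (h1 : ∀ g, 0 ≤ ν1 g) (h2 : ∀ g, 0 ≤ ν2 g) (z : ℕ)
    (hz : 0 < z) (hm : 0 < Fintype.card α) (hzm : Fintype.card α ≤ z * z) :
    ((Fintype.card α).factorial : ℝ) * ∑ g, cv (cav ν1) (cav ν2) g ^ 2
      ≤ ((Nat.multichoose (z * z) (Fintype.card α) : ℝ) * Real.exp 1 ^ (Fintype.card α)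
        * (∑ c, ν1 c * Real.sqrt z ^ nfix c) * (∑ c, ν2 c * Real.sqrt z ^ nfix c)) ^ 2 := by
  have hn : ∀ g, 0 ≤ cv (cav ν1) (cav ν2) g := cv_nonneg (cav_nonneg h1) (cav_nonneg h2)
  refine (conj_l2 _ hn (cv_conj_inv (cav_conj ν1) (cav_conj ν2))).trans ?_
  refine pow_le_pow_left₀ (Finset.sum_nonneg fun g _ => mul_nonneg (hn g) (Real.sqrt_nonneg _)) ?_ 2
  refine le_trans (Finset.sum_le_sum fun g _ => ?_) (cyc_cav ν1 ν2 h1 h2 z hz hm)
  exact mul_le_mul_of_nonneg_left (sqrt_zc_le g z hzm) (hn g)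

end Crest.Agent.T22
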