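import Mathlib

/-! S0222, levels: abstract linear algebra (no spectral theorem). -/

set_option autoImplicit false
set_option linter.unusedSectionVars false

namespace Crest.Agent.T22

open Finset

section abstractPart

variable {E : Type*} [NormedAddCommGroup E] [InnerProductSpace ℝ E] [FiniteDimensional ℝ E]

local notation "⟪" x ", " y "⟫" => inner ℝ x y

/-- key inequality: if `Q = ∑ P i` commutes with every (symmetric, idempotent) `P i` then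
`Q^2 ≥ Q`. -/
theorem Q_sq_ge {ι : Type*} (s : Finset ι) (P : ι → E →ₗ[ℝ] E)
    (hs : ∀ i ∈ s, ∀ u v : E, ⟪P i u, v⟫ = ⟪u, P i v⟫)
    (hid : ∀ i ∈ s, ∀ v : E, P i (P i v) = P i v)
    (Q : E →ₗ[ℝ] E) (hQ : ∀ v, Q v = ∑ i ∈ s, P i v)
    (hc : ∀ i ∈ s, ∀ v : E, P i (Q v) = Q (P i v)) (a : E) :
    ⟪Q a, a⟫ ≤ ⟪Q a, Q a⟫ := by
  have h1 : ∀ v : E, ⟪Q v, v⟫ = ∑ i ∈ s, ⟪P i v, P i v⟫ := by
    intro v
    conv_lhs => rw [hQ v, sum_inner]
    apply Finset.sum_congr rfl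
    intro i hi
    conv_lhs => rw [← hid i hi v]
    exact hs i hi _ _
  have h2 : ⟪Q a, Q a⟫ = ∑ i ∈ s, ⟪Q (P i a), P i a⟫ := by
    conv_lhs => enter [3]; rw [hQ a]
    rw [inner_sum]
    apply Finset.sum_congr rfl
    intro i hi
    conv_lhs => rw [← hid i hi a]
    rw [← hs i hi, hc i hi]
  rw [h1 a, h2]
  apply Finset.sum_le_sum
  intro i hi
  rw [h1 (P i a)]
  calc ⟪P i a, P i a⟫ = ⟪P i (P i a), P i (P i a)⟫ := by rw [hid i hi]
    _ ≤ ∑ j ∈ s, ⟪P j (P i a), P j (P i a)⟫ :=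
        Finset.single_le_sum (f := fun j => ⟪P j (P i a), P j (P i a)⟫)
          (fun j _ => real_inner_self_nonneg) hi

theorem Q_symm {ι : Type*} (s : Finset ι) (P : ι → E →ₗ[ℝ] E)
    (hs : ∀ i ∈ s, ∀ u v : E, ⟪P i u, v⟫ = ⟪u, P i v⟫)
    (Q : E →ₗ[ℝ] E) (hQ : ∀ v, Q v = ∑ i ∈ s, P i v) (u v : E) : ⟪Q u, v⟫ = ⟪u, Q v⟫ := by
  rw [hQ, hQ, sum_inner, inner_sum]
  exact Finset.sum_congr rfl (fun i hi => hs i hi u v)

/-- the `LV` inequality -/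
theorem lv_abs {ι : Type*} (s : Finset ι) (P : ι → E →ₗ[ℝ] E)
    (hs : ∀ i ∈ s, ∀ u v : E, ⟪P i u, v⟫ = ⟪u, P i v⟫)
    (hid : ∀ i ∈ s, ∀ v : E, P i (P i v) = P i v)
    (Q : E →ₗ[ℝ] E) (hQ : ∀ v, Q v = ∑ i ∈ s, P i v)
    (hc : ∀ i ∈ s, ∀ v : E, P i (Q v) = Q (P i v))
    (V : Submodule ℝ E) (hV : ∀ v ∈ V, ∃ u, v = Q u) (hV' : ∀ u, Q u ∈ V) (f : E) :
    ‖V.starProjection f‖ ^ 2 ≤ ∑ i ∈ s, ‖P i f‖ ^ 2 := by
  set w := V.starProjection f with hw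
  obtain ⟨u, hu⟩ := hV w (V.starProjection_apply_mem f)
  have hsQ := Q_symm s P hs Q hQ
  have hQw : Q w = Q f := by
    have h0 : ∀ x, ⟪f - w, Q x⟫ = 0 := fun x => V.starProjection_inner_eq_zero f (Q x) (hV' x)
    have h1 : ⟪Q (f - w), Q (f - w)⟫ = 0 := by
      rw [hsQ]
      exact h0 _
    have h2 : Q (f - w) = 0 := inner_self_eq_zero.mp h1
    rw [map_sub, sub_eq_zero] at h2
    exact h2.symm
  have h3 : ⟪Q w, w⟫ = ∑ i ∈ s, ‖P i f‖ ^ 2 := by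
    have : ⟪Q w, w⟫ = ⟪Q f, f⟫ := by
      calc ⟪Q w, w⟫ = ⟪Q f, w⟫ := by rw [hQw]
        _ = ⟪f, Q w⟫ := hsQ f w
        _ = ⟪f, Q f⟫ := by rw [hQw]
        _ = ⟪Q f, f⟫ := real_inner_comm _ _
    rw [this, hQ f, sum_inner]
    apply Finset.sum_congr rfl
    intro i hi
    rw [← real_inner_self_eq_norm_sq]
    conv_lhs => rw [← hid i hi f]
    exact hs i hi _ _
  rw [← h3, ← real_inner_self_eq_norm_sq]
  -- ‖w‖² = ⟪Q u, Q u⟫ ≤ ⟪Q Q u, Q u⟫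
  rw [hu]
  have h4 : ⟪Q u, Q u⟫ = ∑ i ∈ s, ⟪Q (P i u), P i u⟫ := by
    conv_lhs => enter [3]; rw [hQ u]
    rw [inner_sum]
    apply Finset.sum_congr rfl
    intro i hi
    conv_lhs => rw [← hid i hi u]
    rw [← hs i hi, hc i hi]
  have h5 : ⟪Q (Q u), Q u⟫ = ∑ i ∈ s, ⟪Q (P i u), Q (P i u)⟫ := by
    conv_lhs => enter [3]; rw [hQ u]
    rw [inner_sum]
    apply Finset.sum_congr rfl
    intro i hi
    conv_lhs => rw [← hid i hi u]
    rw [← hs i hi, hc i hi, hc i hi, hsQ]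
  rw [h4, h5]
  apply Finset.sum_le_sum
  intro i hi
  exact Q_sq_ge s P hs hid Q hQ hc (P i u)

/-- positive operator with `⟪Z f, f⟫ ≤ c ‖f‖²` on an invariant subspace -/
theorem norm_sq_Z_le (Z : E →ₗ[ℝ] E) (hs : ∀ u v : E, ⟪Z u, v⟫ = ⟪u, Z v⟫)
    (hp : ∀ u : E, 0 ≤ ⟪Z u, u⟫) (U : Submodule ℝ E) (hU : ∀ u ∈ U, Z u ∈ U)
    (c : ℝ) (hc0 : 0 ≤ c) (hc : ∀ u ∈ U, ⟪Z u, u⟫ ≤ c * ‖u‖ ^ 2) (f : E) (hf : f ∈ U) :
    ‖Z f‖ ^ 2 ≤ c ^ 2 * ‖f‖ ^ 2 := by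
  have main : ∀ d : ℝ, 0 < d → (∀ u ∈ U, ⟪Z u, u⟫ ≤ d * ‖u‖ ^ 2) →
      ‖Z f‖ ^ 2 ≤ d ^ 2 * ‖f‖ ^ 2 := by
    intro d hd hd'
    have h1 := hp (d • f - Z f)
    have h2 : ⟪Z (d • f - Z f), d • f - Z f⟫
        = d ^ 2 * ⟪Z f, f⟫ - 2 * d * ‖Z f‖ ^ 2 + ⟪Z (Z f), Z f⟫ := by
      rw [map_sub, map_smul, inner_sub_left, inner_sub_right, inner_sub_right, inner_smul_left,
        inner_smul_right, inner_smul_left, inner_smul_right]
      have e1 : ⟪Z f, Z f⟫ = ‖Z f‖ ^ 2 := real_inner_self_eq_norm_sq _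
      have e2 : ⟪Z (Z f), f⟫ = ‖Z f‖ ^ 2 := by rw [hs, e1]
      rw [e1, e2]
      simp only [conj_trivial]
      ring
    rw [h2] at h1
    have h3 := hd' f hf
    have h4 := hd' (Z f) (hU f hf)
    have h5 : d * ‖Z f‖ ^ 2 ≤ d * (d ^ 2 * ‖f‖ ^ 2) := by nlinarith [sq_nonneg d]
    exact le_of_mul_le_mul_left h5 hd
  by_cases hc1 : 0 < c
  · exact main c hc1 hc
  · have hc2 : c = 0 := le_antisymm (not_lt.mp hc1) hc0
    subst hc2
    have h6 : ∀ d : ℝ, 0 < d → ‖Z f‖ ^ 2 ≤ d ^ 2 * ‖f‖ ^ 2 := by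
      intro d hd
      apply main d hd
      intro u hu
      refine (hc u hu).trans ?_
      have : 0 ≤ d * ‖u‖ ^ 2 := by positivity
      linarith
    have h7 : ‖Z f‖ ^ 2 ≤ 0 := by
      by_contra hcon
      push Not at hcon
      have hfp : 0 < ‖f‖ ^ 2 := by
        by_contra h8
        have h9 := h6 1 one_pos
        linarith
      have h10 := h6 (Real.sqrt (‖Z f‖ ^ 2 / (2 * ‖f‖ ^ 2))) (Real.sqrt_pos.mpr (by positivity))
      rw [Real.sq_sqrt (by positivity)] at h10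
      have h11 : ‖Z f‖ ^ 2 / (2 * ‖f‖ ^ 2) * ‖f‖ ^ 2 = ‖Z f‖ ^ 2 / 2 := by
        have hne : ‖f‖ ^ 2 ≠ 0 := hfp.ne'
        generalize ‖f‖ ^ 2 = t at hne
        field_simp
      rw [h11] at h10
      linarith
    simpa using h7

theorem norm_sq_Z_pow_le (Z : E →ₗ[ℝ] E) (hs : ∀ u v : E, ⟪Z u, v⟫ = ⟪u, Z v⟫)
    (hp : ∀ u : E, 0 ≤ ⟪Z u, u⟫) (U : Submodule ℝ E) (hU : ∀ u ∈ U, Z u ∈ U)
    (c : ℝ) (hc0 : 0 ≤ c) (hc : ∀ u ∈ U, ⟪Z u, u⟫ ≤ c * ‖u‖ ^ 2) (k : ℕ) (f : E) (hf : f ∈ U) :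
    (Z ^ k) f ∈ U ∧ ‖(Z ^ k) f‖ ^ 2 ≤ c ^ (2 * k) * ‖f‖ ^ 2 := by
  induction k with
  | zero => simpa using hf
  | succ k ih =>
    obtain ⟨h1, h2⟩ := ih
    rw [pow_succ', Module.End.mul_apply]
    refine ⟨hU _ h1, (norm_sq_Z_le Z hs hp U hU c hc0 hc _ h1).trans ?_⟩
    calc c ^ 2 * ‖(Z ^ k) f‖ ^ 2 ≤ c ^ 2 * (c ^ (2 * k) * ‖f‖ ^ 2) :=
          mul_le_mul_of_nonneg_left h2 (sq_nonneg c)
      _ = c ^ (2 * (k + 1)) * ‖f‖ ^ 2 := by ring

/-- telescoping of an increasing chain of subspaces -/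
theorem chain_norm_sq (V : ℕ → Submodule ℝ E) (hm : ∀ l, V l ≤ V (l + 1)) (m : ℕ) (f : E) :
    ‖(V m).starProjection f‖ ^ 2 = ‖(V 0).starProjection f‖ ^ 2
      + ∑ l ∈ Finset.Icc 1 m, ‖(V l).starProjection f - (V (l - 1)).starProjection f‖ ^ 2 := by
  induction m with
  | zero => simp
  | succ m ih =>
    rw [Finset.sum_Icc_succ_top (by omega), ← add_assoc, ← ih, Nat.add_sub_cancel]
    have h1 : (V m).starProjection ((V (m + 1)).starProjection f) = (V m).starProjection f := by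
      have := Submodule.starProjection_comp_starProjection_of_le (hm m)
      exact congrArg (fun T : E →L[ℝ] E => T f) this
    have h2 := (V m).sub_starProjection_mem_orthogonal ((V (m + 1)).starProjection f)
    rw [h1] at h2
    have h3 : ⟪(V m).starProjection f, (V (m + 1)).starProjection f - (V m).starProjection f⟫ = 0 :=
      (Submodule.mem_orthogonal _ _).mp h2 _ ((V m).starProjection_apply_mem f)
    have h4 : (V (m + 1)).starProjection f = (V m).starProjection f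
        + ((V (m + 1)).starProjection f - (V m).starProjection f) := by abel
    conv_lhs => rw [h4]
    rw [← real_inner_self_eq_norm_sq, inner_add_left, inner_add_right, inner_add_right, h3,
      real_inner_comm ((V m).starProjection f) ((V (m + 1)).starProjection f
        - (V m).starProjection f), h3]
    rw [real_inner_self_eq_norm_sq, real_inner_self_eq_norm_sq]
    ring

theorem starProjection_comm (Z : E →ₗ[ℝ] E) (hs : ∀ u v : E, ⟪Z u, v⟫ = ⟪u, Z v⟫)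
    (V : Submodule ℝ E) (hV : ∀ v ∈ V, Z v ∈ V) (f : E) :
    V.starProjection (Z f) = Z (V.starProjection f) := by
  apply Submodule.eq_starProjection_of_mem_orthogonal
  · exact hV _ (V.starProjection_apply_mem f)
  · rw [← map_sub, Submodule.mem_orthogonal]
    intro u hu
    rw [← hs]
    exact (Submodule.mem_orthogonal _ _).mp (V.sub_starProjection_mem_orthogonal f) _ (hV u hu)

end abstractPart

end Crest.Agent.T22
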