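import Crest.Agent.ThConv
import Crest.Agent.T22LevA

/-! S0222, levels: the spaces `Vle l` of functions on `Perm α`, projections, splitting. -/

set_option autoImplicit false
set_option linter.unusedSectionVars false

namespace Crest.Agent.T22

open Finset Equiv Crest.Agent.ThS

variable {α : Type*} [Fintype α] [DecidableEq α]

/-- indicator of `g x = y` -/
noncomputable def ind {l : ℕ} (x y : Fin l ↪ α) : Perm α → ℝ :=
  fun g => if ∀ i, g (x i) = y i then 1 else 0

/-- permutations fixing `A` pointwise -/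
def fixS (A : Finset α) : Finset (Perm α) := univ.filter (fun s => ∀ a ∈ A, s a = a)

theorem mem_fixS {A : Finset α} {s : Perm α} : s ∈ fixS A ↔ ∀ a ∈ A, s a = a := by
  simp [fixS]

theorem one_mem_fixS (A : Finset α) : (1 : Perm α) ∈ fixS A := by
  rw [mem_fixS]; intro a _; rfl

theorem inv_mem_fixS {A : Finset α} {s : Perm α} (h : s ∈ fixS A) : s⁻¹ ∈ fixS A := by
  rw [mem_fixS] at h ⊢
  intro a ha
  rw [Perm.inv_eq_iff_eq, h a ha]

theorem mul_mem_fixS {A : Finset α} {s t : Perm α} (hs : s ∈ fixS A) (ht : t ∈ fixS A) :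
    s * t ∈ fixS A := by
  rw [mem_fixS] at hs ht ⊢
  intro a ha
  rw [Perm.mul_apply, ht a ha, hs a ha]

theorem fixS_nonempty (A : Finset α) : (fixS A).Nonempty := ⟨1, one_mem_fixS A⟩

theorem fixS_card_pos (A : Finset α) : 0 < ((fixS A).card : ℝ) := by
  exact_mod_cast (fixS_nonempty A).card_pos

/-- uniform law on the permutations fixing `A` pointwise -/
noncomputable def uA (A : Finset α) : Perm α → ℝ := unif (fixS A)

theorem uA_inv (A : Finset α) (g : Perm α) : uA A g⁻¹ = uA A g := by
  unfold uA unif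
  have : g⁻¹ ∈ fixS A ↔ g ∈ fixS A :=
    ⟨fun h => by simpa using inv_mem_fixS h, fun h => inv_mem_fixS h⟩
  simp only [this]

theorem sum_uA (A : Finset α) : ∑ g, uA A g = 1 := by
  unfold uA unif
  rw [Finset.sum_ite_mem, Finset.univ_inter, Finset.sum_const, nsmul_eq_mul]
  field_simp [(fixS_card_pos A).ne']

/-- a function supported on `fixS B` is absorbed by `uA B` -/
theorem cv_uA_of_supp (p : Perm α → ℝ) (B : Finset α) (hp : ∀ g, g ∉ fixS B → p g = 0) :
    cv p (uA B) = fun g => (∑ h, p h) * uA B g := by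
  funext g
  unfold cv
  rw [Finset.sum_mul]
  apply Finset.sum_congr rfl
  intro h _
  by_cases hh : h ∈ fixS B
  · congr 1
    unfold uA unif
    have : h⁻¹ * g ∈ fixS B ↔ g ∈ fixS B := by
      constructor
      · intro h1
        have := mul_mem_fixS hh h1
        simpa using this
      · intro h1
        exact mul_mem_fixS (inv_mem_fixS hh) h1
    simp only [this]
  · rw [hp h hh]; simp

theorem uA_absorb {A B : Finset α} (h : B ⊆ A) : cv (uA A) (uA B) = uA B := by
  rw [cv_uA_of_supp]
  · funext g; rw [sum_uA, one_mul]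
  · intro g hg
    unfold uA unif
    rw [if_neg]
    intro h1
    apply hg
    rw [mem_fixS] at h1 ⊢
    exact fun a ha => h1 a (h ha)

theorem uA_conj (A : Finset α) (k g : Perm α) :
    uA A (k * g * k⁻¹) = uA (A.map k⁻¹.toEmbedding) g := by
  have h1 : ∀ g : Perm α, k * g * k⁻¹ ∈ fixS A ↔ g ∈ fixS (A.map k⁻¹.toEmbedding) := by
    intro g
    rw [mem_fixS, mem_fixS]
    simp only [Finset.mem_map, Equiv.coe_toEmbedding, forall_exists_index, and_imp,
      forall_apply_eq_imp_iff₂, Perm.mul_apply]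
    constructor
    · intro h a ha
      have := h a ha
      rw [← Perm.eq_inv_iff_eq] at this
      exact this
    · intro h a ha
      rw [h a ha]
      simp
  have h2 : (fixS (A.map k⁻¹.toEmbedding)).card = (fixS A).card := by
    apply Finset.card_bij (fun g _ => k * g * k⁻¹)
    · intro g hg; exact (h1 g).mpr hg
    · intro a _ b _ hab
      simpa using hab
    · intro b hb
      refine ⟨k⁻¹ * b * k, ?_, ?_⟩
      · rw [← h1]
        have : k * (k⁻¹ * b * k) * k⁻¹ = b := by group
        rw [this]; exact hb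
      · group
  unfold uA unif
  simp only [h1 g, h2]

/-- convolution with a class function is central -/
theorem cv_comm_class (q f : Perm α → ℝ) (hq : ∀ k g, q (k * g * k⁻¹) = q g) : cv q f = cv f q := by
  funext g
  unfold cv
  -- ∑ h, q h * f (h⁻¹ g) = ∑ h, f h * q (h⁻¹ g)
  rw [← Equiv.sum_comp ((Equiv.inv (Perm α)).trans (Equiv.mulLeft g))]
  apply Finset.sum_congr rfl
  intro h _
  simp only [Equiv.trans_apply, Equiv.inv_apply, Equiv.coe_mulLeft, mul_inv_rev, inv_inv]
  rw [mul_assoc h, inv_mul_cancel, mul_one, mul_comm]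
  congr 1
  have := hq h⁻¹ (g * h⁻¹)
  rw [← this]
  congr 1
  group

theorem sum_cv_right_mul (p f h : Perm α → ℝ) (hp : ∀ g, p g⁻¹ = p g) :
    ∑ g, cv f p g * h g = ∑ g, f g * cv h p g := by
  unfold cv
  simp_rw [Finset.sum_mul, Finset.mul_sum]
  rw [Finset.sum_comm]
  apply Finset.sum_congr rfl
  intro a _
  apply Finset.sum_congr rfl
  intro b _
  have : p (a⁻¹ * b) = p (b⁻¹ * a) := by
    rw [← hp (a⁻¹ * b), mul_inv_rev, inv_inv]
  rw [this]
  ring

theorem cv_eq_sum' (p f : Perm α → ℝ) (g : Perm α) : cv p f g = ∑ k, p (g * k⁻¹) * f k := by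
  unfold cv
  rw [← Equiv.sum_comp ((Equiv.inv (Perm α)).trans (Equiv.mulLeft g))]
  apply Finset.sum_congr rfl
  intro h _
  simp

theorem sum_cv_left_mul (p f h : Perm α → ℝ) (hp : ∀ g, p g⁻¹ = p g) :
    ∑ g, cv p f g * h g = ∑ g, f g * cv p h g := by
  simp_rw [cv_eq_sum', Finset.sum_mul, Finset.mul_sum]
  rw [Finset.sum_comm]
  apply Finset.sum_congr rfl
  intro a _
  apply Finset.sum_congr rfl
  intro b _
  have : p (b * a⁻¹) = p (a * b⁻¹) := by
    rw [← hp (b * a⁻¹), mul_inv_rev, inv_inv]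
  rw [this]
  ring

theorem cv_add_left (p q f : Perm α → ℝ) : cv (p + q) f = cv p f + cv q f := by
  funext g
  simp only [cv, Pi.add_apply, add_mul, Finset.sum_add_distrib]

theorem cv_add_right (f p q : Perm α → ℝ) : cv f (p + q) = cv f p + cv f q := by
  funext g
  simp only [cv, Pi.add_apply, mul_add, Finset.sum_add_distrib]

theorem cv_smul_left (c : ℝ) (p f : Perm α → ℝ) : cv (c • p) f = c • cv p f := by
  funext g
  simp only [cv, Pi.smul_apply, smul_eq_mul, Finset.mul_sum, mul_assoc]

theorem cv_smul_right (c : ℝ) (p f : Perm α → ℝ) : cv p (c • f) = c • cv p f := by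
  funext g
  simp only [cv, Pi.smul_apply, smul_eq_mul, Finset.mul_sum]
  apply Finset.sum_congr rfl
  intro h _
  ring

/-- the Euclidean space of functions on `Perm α` -/
abbrev EG (α : Type*) [Fintype α] [DecidableEq α] := EuclideanSpace ℝ (Perm α)

noncomputable def toE (f : Perm α → ℝ) : EG α := WithLp.toLp 2 f

theorem toE_apply (f : Perm α → ℝ) (g : Perm α) : (toE f) g = f g := rfl

theorem toE_fun (f : EG α) : toE (fun g => f g) = f := rfl

theorem inner_EG (f h : EG α) : inner ℝ f h = ∑ g, f g * h g := by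
  rw [PiLp.inner_apply]
  apply Finset.sum_congr rfl
  intro g _
  simp [mul_comm]

theorem norm_sq_EG (f : EG α) : ‖f‖ ^ 2 = ∑ g, f g ^ 2 := by
  rw [← real_inner_self_eq_norm_sq, inner_EG]
  exact Finset.sum_congr rfl (fun g _ => (sq (f g)).symm)

/-- left convolution -/
noncomputable def lcv (p : Perm α → ℝ) : EG α →ₗ[ℝ] EG α where
  toFun f := toE (cv p (fun g => f g))
  map_add' f h := by
    have := cv_add_right p (fun g => f g) (fun g => h g)
    show toE (cv p (fun g => (f + h) g)) = _
    have e : (fun g => (f + h) g) = (fun g => f g) + (fun g => h g) := rfl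
    rw [e, this]
    rfl
  map_smul' c f := by
    have := cv_smul_right c p (fun g => f g)
    have e : (fun g => (c • f) g) = c • (fun g => f g) := rfl
    show toE (cv p (fun g => (c • f) g)) = _
    rw [e, this]
    rfl

/-- right convolution -/
noncomputable def rcv (p : Perm α → ℝ) : EG α →ₗ[ℝ] EG α where
  toFun f := toE (cv (fun g => f g) p)
  map_add' f h := by
    have := cv_add_left (fun g => f g) (fun g => h g) p
    show toE (cv (fun g => (f + h) g) p) = _
    have e : (fun g => (f + h) g) = (fun g => f g) + (fun g => h g) := rfl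
    rw [e, this]
    rfl
  map_smul' c f := by
    have := cv_smul_left c (fun g => f g) p
    have e : (fun g => (c • f) g) = c • (fun g => f g) := rfl
    show toE (cv (fun g => (c • f) g) p) = _
    rw [e, this]
    rfl

theorem lcv_apply (p : Perm α → ℝ) (f : EG α) : lcv p f = toE (cv p (fun g => f g)) := rfl
theorem rcv_apply (p : Perm α → ℝ) (f : EG α) : rcv p f = toE (cv (fun g => f g) p) := rfl
theorem lcv_toE (p f : Perm α → ℝ) : lcv p (toE f) = toE (cv p f) := rfl
theorem rcv_toE (p f : Perm α → ℝ) : rcv p (toE f) = toE (cv f p) := rfl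

theorem lcv_rcv (p q : Perm α → ℝ) (f : EG α) : lcv p (rcv q f) = rcv q (lcv p f) := by
  rw [rcv_apply, lcv_toE, lcv_apply, rcv_toE, cv_assoc]

theorem rcv_rcv (p q : Perm α → ℝ) (f : EG α) : rcv p (rcv q f) = rcv (cv q p) f := by
  rw [rcv_apply q, rcv_toE, rcv_apply, cv_assoc]

theorem lcv_symm (p : Perm α → ℝ) (hp : ∀ g, p g⁻¹ = p g) (f h : EG α) :
    inner ℝ (lcv p f) h = inner ℝ f (lcv p h) := by
  rw [inner_EG, inner_EG]
  exact sum_cv_left_mul p (fun g => f g) (fun g => h g) hp

theorem rcv_symm (p : Perm α → ℝ) (hp : ∀ g, p g⁻¹ = p g) (f h : EG α) :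
    inner ℝ (rcv p f) h = inner ℝ f (rcv p h) := by
  rw [inner_EG, inner_EG]
  exact sum_cv_right_mul p (fun g => f g) (fun g => h g) hp

/-- `P_A` -/
noncomputable def PA (A : Finset α) : EG α →ₗ[ℝ] EG α := rcv (uA A)

theorem PA_symm (A : Finset α) (f h : EG α) : inner ℝ (PA A f) h = inner ℝ f (PA A h) :=
  rcv_symm _ (uA_inv A) f h

theorem PA_idem (A : Finset α) (f : EG α) : PA A (PA A f) = PA A f := by
  unfold PA
  rw [rcv_rcv, uA_absorb (subset_refl A)]

/-- the class function `q_l` -/
noncomputable def qf (α : Type*) [Fintype α] [DecidableEq α] (l : ℕ) : Perm α → ℝ :=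
  fun g => ∑ A ∈ powersetCard l (univ : Finset α), uA A g

theorem qf_conj (l : ℕ) (k g : Perm α) : qf α l (k * g * k⁻¹) = qf α l g := by
  unfold qf
  simp_rw [uA_conj]
  apply Finset.sum_bij (fun A _ => A.map k⁻¹.toEmbedding)
  · intro A hA
    rw [Finset.mem_powersetCard] at hA ⊢
    exact ⟨Finset.subset_univ _, by rw [Finset.card_map]; exact hA.2⟩
  · intro A _ B _ h
    exact Finset.map_injective _ h
  · intro B hB
    rw [Finset.mem_powersetCard] at hB
    refine ⟨B.map k.toEmbedding, ?_, ?_⟩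
    · rw [Finset.mem_powersetCard]
      exact ⟨Finset.subset_univ _, by rw [Finset.card_map]; exact hB.2⟩
    · rw [Finset.map_map]
      have : k.toEmbedding.trans k⁻¹.toEmbedding = Function.Embedding.refl α := by
        ext a; simp
      rw [this, Finset.map_refl]
  · intro A _; rfl

theorem rcv_sum_qf (l : ℕ) (f : EG α) :
    rcv (qf α l) f = ∑ A ∈ powersetCard l (univ : Finset α), PA A f := by
  unfold PA
  ext g
  have h1 : ((∑ A ∈ powersetCard l (univ : Finset α), rcv (uA A) f : EG α)) g
      = ∑ A ∈ powersetCard l (univ : Finset α), (rcv (uA A) f) g := by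
    simp
  rw [h1]
  show cv (fun g => f g) (qf α l) g
    = ∑ A ∈ powersetCard l (univ : Finset α), cv (fun g => f g) (uA A) g
  unfold cv qf
  rw [Finset.sum_comm]
  apply Finset.sum_congr rfl
  intro h _
  rw [Finset.mul_sum]

theorem PA_Q_comm (A : Finset α) (l : ℕ) (f : EG α) :
    PA A (rcv (qf α l) f) = rcv (qf α l) (PA A f) := by
  unfold PA
  rw [rcv_rcv, rcv_rcv, cv_comm_class (qf α l) (uA A) (qf_conj l)]

/-- functions depending on `g` restricted to `l` points (span) -/
noncomputable def Vle (α : Type*) [Fintype α] [DecidableEq α] (l : ℕ) : Submodule ℝ (EG α) :=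
  Submodule.span ℝ (Set.range (fun p : (Fin l ↪ α) × (Fin l ↪ α) => toE (ind p.1 p.2)))

theorem mem_Vle_orth (l : ℕ) (f : EG α) :
    f ∈ (Vle α l)ᗮ ↔ ∀ x y : Fin l ↪ α, ∑ g, f g * ind x y g = 0 := by
  unfold Vle
  rw [Submodule.mem_orthogonal']
  constructor
  · intro h x y
    have := h (toE (ind x y)) (Submodule.subset_span ⟨(x, y), rfl⟩)
    rw [inner_EG] at this
    exact this
  · intro h u hu
    induction hu using Submodule.span_induction with
    | mem u hu =>
      obtain ⟨p, rfl⟩ := hu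
      rw [inner_EG]
      exact h p.1 p.2
    | zero => simp
    | add u v _ _ hu hv => rw [inner_add_right, hu, hv, add_zero]
    | smul c u _ hu => rw [inner_smul_right, hu, mul_zero]

theorem PA_ind {l : ℕ} (x y : Fin l ↪ α) :
    PA (univ.map x) (toE (ind x y)) = toE (ind x y) := by
  unfold PA
  rw [rcv_toE]
  congr 1
  funext g
  have h1 : ∀ h : Perm α, ind x y h * uA (univ.map x) (h⁻¹ * g)
      = ind x y g * uA (univ.map x) (h⁻¹ * g) := by
    intro h
    by_cases hh : h⁻¹ * g ∈ fixS (univ.map x)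
    · congr 1
      unfold ind
      have : ∀ i, g (x i) = h (x i) := by
        intro i
        rw [mem_fixS] at hh
        have := hh (x i) (by simp)
        rw [Perm.mul_apply, Perm.inv_eq_iff_eq] at this
        exact this
      simp only [this]
    · unfold uA unif
      rw [if_neg hh]; simp
  unfold cv
  rw [Finset.sum_congr rfl (fun h _ => h1 h), ← Finset.mul_sum]
  have h2 : ∑ h : Perm α, uA (univ.map x) (h⁻¹ * g) = 1 := by
    rw [← sum_uA (univ.map x)]
    exact Equiv.sum_comp ((Equiv.inv (Perm α)).trans (Equiv.mulRight g)) (uA (univ.map x))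
  rw [h2, mul_one]

/-- the value of `P_A f` as a sum over the permutations agreeing on `A` -/
theorem PA_apply_eq {l : ℕ} (x : Fin l ↪ α) (f : EG α) (g : Perm α) :
    (PA (univ.map x) f) g = (1 / ((fixS (univ.map x)).card : ℝ))
      * ∑ h, f h * ind x (x.trans g.toEmbedding) h := by
  show cv (fun g => f g) (uA (univ.map x)) g = _
  unfold cv
  rw [Finset.mul_sum]
  apply Finset.sum_congr rfl
  intro h _
  have : (h⁻¹ * g ∈ fixS (univ.map x)) ↔ (∀ i, h (x i) = (x.trans g.toEmbedding) i) := by
    rw [mem_fixS]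
    simp only [Finset.mem_map, Finset.mem_univ, true_and, forall_exists_index,
      forall_apply_eq_imp_iff, Perm.mul_apply, Perm.inv_eq_iff_eq]
    constructor
    · intro h1 i; exact (h1 i).symm
    · intro h1 i; exact (h1 i).symm
  unfold uA unif ind
  simp only [this]
  split_ifs <;> ring

theorem exists_emb {l : ℕ} {A : Finset α} (hA : A.card = l) : ∃ x : Fin l ↪ α, univ.map x = A := by
  refine ⟨(A.equivFinOfCardEq hA).symm.toEmbedding.trans (Function.Embedding.subtype _), ?_⟩
  ext a
  simp only [Finset.mem_map, Finset.mem_univ, true_and, Function.Embedding.trans_apply,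
    Equiv.coe_toEmbedding, Function.Embedding.subtype_apply]
  constructor
  · rintro ⟨i, rfl⟩
    exact ((A.equivFinOfCardEq hA).symm i).2
  · intro ha
    exact ⟨(A.equivFinOfCardEq hA) ⟨a, ha⟩, by simp⟩

theorem mem_Vle_orth' (l : ℕ) (f : EG α) :
    f ∈ (Vle α l)ᗮ ↔ ∀ A : Finset α, A.card = l → PA A f = 0 := by
  rw [mem_Vle_orth]
  constructor
  · intro h A hA
    obtain ⟨x, rfl⟩ := exists_emb hA
    ext g
    rw [PA_apply_eq, h x (x.trans g.toEmbedding), mul_zero]
    rfl
  · intro h x y
    have h1 := h (univ.map x) (by simp)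
    have h2 : inner ℝ f (toE (ind x y)) = 0 := by
      rw [← PA_ind, ← PA_symm, h1, inner_zero_left]
    rw [inner_EG] at h2
    exact h2

theorem PA_mem_Vle (A : Finset α) (f : EG α) : PA A f ∈ Vle α A.card := by
  rw [← Submodule.orthogonal_orthogonal (Vle α A.card), Submodule.mem_orthogonal]
  intro u hu
  rw [mem_Vle_orth'] at hu
  rw [← PA_symm, hu A rfl, inner_zero_left]

theorem Q_mem_Vle (l : ℕ) (f : EG α) : rcv (qf α l) f ∈ Vle α l := by
  rw [rcv_sum_qf]
  apply Submodule.sum_mem
  intro A hA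
  have := (Finset.mem_powersetCard.mp hA).2
  have h2 := PA_mem_Vle A f
  rw [this] at h2
  exact h2

theorem qf_inv (l : ℕ) (g : Perm α) : qf α l g⁻¹ = qf α l g := by
  unfold qf
  simp_rw [uA_inv]

theorem Vle_le_range (l : ℕ) (v : EG α) (hv : v ∈ Vle α l) : ∃ u, v = rcv (qf α l) u := by
  have h1 : (LinearMap.range (rcv (qf α l) : EG α →ₗ[ℝ] EG α))ᗮ ≤ (Vle α l)ᗮ := by
    intro f hf
    rw [mem_Vle_orth']
    intro A hA
    have h2 : inner ℝ (rcv (qf α l) f) f = 0 := by
      rw [rcv_symm _ (qf_inv l)]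
      exact (Submodule.mem_orthogonal' _ _).mp hf _ (LinearMap.mem_range_self _ _)
    rw [rcv_sum_qf, sum_inner] at h2
    have h3 : ∀ B ∈ powersetCard l (univ : Finset α), inner ℝ (PA B f) f = ‖PA B f‖ ^ 2 := by
      intro B _
      rw [← real_inner_self_eq_norm_sq]
      conv_lhs => rw [← PA_idem]
      rw [PA_symm]
    rw [Finset.sum_congr rfl h3] at h2
    have h4 := (Finset.sum_eq_zero_iff_of_nonneg (fun B _ => sq_nonneg ‖PA B f‖)).mp h2 A
      (Finset.mem_powersetCard.mpr ⟨Finset.subset_univ _, hA⟩)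
    simpa using h4
  have h2 := Submodule.orthogonal_le h1
  rw [Submodule.orthogonal_orthogonal, Submodule.orthogonal_orthogonal] at h2
  obtain ⟨u, hu⟩ := h2 hv
  exact ⟨u, hu.symm⟩

/-- LV -/
theorem LV (l : ℕ) (f : EG α) :
    ‖(Vle α l).starProjection f‖ ^ 2 ≤ ∑ A ∈ powersetCard l (univ : Finset α), ‖PA A f‖ ^ 2 :=
  lv_abs (powersetCard l (univ : Finset α)) PA (fun A _ => PA_symm A) (fun A _ => PA_idem A)
    (rcv (qf α l)) (rcv_sum_qf l) (fun A _ f => PA_Q_comm A l f) (Vle α l)
    (fun v hv => Vle_le_range l v hv) (Q_mem_Vle l) f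

end Crest.Agent.T22
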