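import Mathlib

/-! S0222, section 4.5: pure real analysis for the random walk theorem. -/

namespace Crest.Agent.T22Num

open Finset Real Filter
open scoped Nat Topology

noncomputable def cLy (m l : ℕ) (y : ℝ) : ℝ :=
  ((m.choose l : ℝ))⁻¹ * (y⁻¹) ^ l * Real.exp (y * (m : ℝ) ^ (-0.27 : ℝ) * m) *
    (Real.sqrt (1 + 2 * ((l : ℝ) / ((m : ℝ) - l)) * y + y ^ 2)) ^ m

noncomputable def cH (m l : ℕ) : ℝ :=
  ∏ i ∈ Finset.range (m / 4), (1 + min 1 (((m : ℝ) - l - 1) / ((m : ℝ) - 2 * i - 1))) / 2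

/-! ### eventual bounds -/

lemma ev_theta (c : ℝ) (hc : 0 < c) : ∀ᶠ m : ℕ in atTop, (m : ℝ) ^ (-0.27 : ℝ) ≤ c := by
  have h : Tendsto (fun m : ℕ => (m : ℝ) ^ (-0.27 : ℝ)) atTop (𝓝 0) :=
    (tendsto_rpow_neg_atTop (y := 0.27) (by norm_num)).comp tendsto_natCast_atTop_atTop
  exact (h.eventually (eventually_le_nhds hc))

lemma ev_log (c : ℝ) (hc : 0 < c) : ∀ᶠ m : ℕ in atTop, Real.log ((m : ℝ) + 1) ≤ c * m := by
  have h1 : ∀ᶠ x : ℝ in atTop, Real.log x ≤ (c / 2) * x := by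
    have := Real.isLittleO_log_id_atTop.bound (show (0:ℝ) < c / 2 by positivity)
    filter_upwards [this, eventually_ge_atTop (1 : ℝ)] with x hx hx1
    have h2 : ‖Real.log x‖ = Real.log x := by
      rw [Real.norm_eq_abs, abs_of_nonneg (Real.log_nonneg hx1)]
    rw [h2] at hx
    simpa [abs_of_nonneg (show (0:ℝ) ≤ x by linarith)] using hx
  have h2 : Tendsto (fun m : ℕ => (m : ℝ) + 1) atTop atTop :=
    tendsto_atTop_add_const_right _ _ tendsto_natCast_atTop_atTop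
  filter_upwards [h2.eventually h1, eventually_ge_atTop 1] with m hm hm1
  have : (1:ℝ) ≤ m := by exact_mod_cast hm1
  nlinarith

lemma ev_ge (c : ℝ) : ∀ᶠ m : ℕ in atTop, c ≤ (m : ℝ) :=
  tendsto_natCast_atTop_atTop.eventually (eventually_ge_atTop c)

/-! ### the product `cH` -/

lemma log_sub_ge (a : ℝ) (ha : 2 < a) : 2 / a ≤ Real.log a - Real.log (a - 2) := by
  have h := Real.one_sub_inv_le_log_of_pos (x := a / (a - 2)) (by
    apply div_pos <;> linarith)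
  rw [Real.log_div (by linarith) (by linarith)] at h
  have h2 : 1 - (a / (a - 2))⁻¹ = 2 / a := by
    rw [inv_div]
    field_simp
    ring
  rw [h2] at h
  exact h

lemma cH_prod (m q : ℝ) (hq0 : 0 ≤ q) (p : ℕ) (hp : 2 * (p : ℝ) < m) :
    ∏ i ∈ Finset.range p, (1 + min 1 ((q - 1) / (m - 2 * (i : ℝ) - 1))) / 2 ≤
      Real.exp (-(p : ℝ) / 2 + (q / 4) * (Real.log m - Real.log (m - 2 * p))) := by
  induction p with
  | zero => simp
  | succ p ih =>
    push_cast at hp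
    have ih' := ih (by linarith)
    rw [Finset.prod_range_succ]
    have hpm : 2 < m - 2 * (p : ℝ) := by linarith
    have hfac : (1 + min 1 ((q - 1) / (m - 2 * (p : ℝ) - 1))) / 2 ≤
        Real.exp (-1 / 2 + (q / 4) * (Real.log (m - 2 * p) - Real.log (m - 2 * p - 2))) := by
      have h1 : min 1 ((q - 1) / (m - 2 * (p : ℝ) - 1)) ≤ q / (m - 2 * p) := by
        rcases le_or_gt q (m - 2 * p) with h | h
        · refine (min_le_right _ _).trans ?_
          rw [div_le_div_iff₀ (by linarith) (by linarith)]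
          nlinarith
        · refine (min_le_left _ _).trans ?_
          rw [le_div_iff₀ (by linarith)]
          linarith
      have h2 := log_sub_ge (m - 2 * p) hpm
      have h3 : q / (m - 2 * p) / 2 ≤
          (q / 4) * (Real.log (m - 2 * p) - Real.log (m - 2 * p - 2)) := by
        have h4 : q / (m - 2 * p) / 2 = (q / 4) * (2 / (m - 2 * p)) := by
          field_simp
          ring
        rw [h4]
        exact mul_le_mul_of_nonneg_left h2 (by positivity)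
      have h5 := Real.add_one_le_exp ((min 1 ((q - 1) / (m - 2 * (p : ℝ) - 1)) - 1) / 2)
      calc (1 + min 1 ((q - 1) / (m - 2 * (p : ℝ) - 1))) / 2
          = (min 1 ((q - 1) / (m - 2 * (p : ℝ) - 1)) - 1) / 2 + 1 := by ring
        _ ≤ Real.exp ((min 1 ((q - 1) / (m - 2 * (p : ℝ) - 1)) - 1) / 2) := h5
        _ ≤ _ := by
          apply Real.exp_le_exp.mpr
          linarith
    have hfac0 : 0 ≤ (1 + min 1 ((q - 1) / (m - 2 * (p : ℝ) - 1))) / 2 := by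
      have : -1 ≤ (q - 1) / (m - 2 * (p : ℝ) - 1) := by
        rw [le_div_iff₀ (by linarith)]
        linarith
      have : -1 ≤ min 1 ((q - 1) / (m - 2 * (p : ℝ) - 1)) := le_min (by norm_num) this
      linarith
    calc (∏ i ∈ Finset.range p, (1 + min 1 ((q - 1) / (m - 2 * (i : ℝ) - 1))) / 2) *
          ((1 + min 1 ((q - 1) / (m - 2 * (p : ℝ) - 1))) / 2)
        ≤ Real.exp (-(p : ℝ) / 2 + (q / 4) * (Real.log m - Real.log (m - 2 * p))) *
          Real.exp (-1 / 2 + (q / 4) * (Real.log (m - 2 * p) - Real.log (m - 2 * p - 2))) :=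
          mul_le_mul ih' hfac hfac0 (Real.exp_pos _).le
      _ = _ := by
        rw [← Real.exp_add]
        congr 1
        push_cast
        rw [show m - 2 * ((p : ℝ) + 1) = m - 2 * p - 2 by ring]
        ring

lemma cH_nonneg (m l : ℕ) (hl : l ≤ m) : 0 ≤ cH m l := by
  unfold cH
  apply Finset.prod_nonneg
  intro i hi
  rw [Finset.mem_range] at hi
  have h4 : 4 * i + 4 ≤ m := by omega
  have h4' : 4 * (i : ℝ) + 4 ≤ m := by exact_mod_cast h4
  have hl' : (l : ℝ) ≤ m := by exact_mod_cast hl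
  have hi0 : (0 : ℝ) ≤ i := by positivity
  have : -1 ≤ ((m : ℝ) - l - 1) / ((m : ℝ) - 2 * i - 1) := by
    rw [le_div_iff₀ (by linarith)]
    linarith
  have : -1 ≤ min 1 (((m : ℝ) - l - 1) / ((m : ℝ) - 2 * i - 1)) := le_min (by norm_num) this
  linarith

lemma cH_le (m l : ℕ) (hm : 1 ≤ m) (hl : l ≤ m) (hl2 : 0.455 * (m : ℝ) ≤ l) :
    cH m l ≤ Real.exp (0.375 - 0.03055 * m) := by
  have hm' : (1 : ℝ) ≤ m := by exact_mod_cast hm
  have hl' : (l : ℝ) ≤ m := by exact_mod_cast hl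
  have hp4 : 4 * (m / 4) ≤ m := by omega
  have hp4' : 4 * ((m / 4 : ℕ) : ℝ) ≤ m := by exact_mod_cast hp4
  have hp5 : m ≤ 4 * (m / 4) + 3 := by omega
  have hp5' : (m : ℝ) ≤ 4 * ((m / 4 : ℕ) : ℝ) + 3 := by exact_mod_cast hp5
  have h := cH_prod (m : ℝ) ((m : ℝ) - l) (by linarith) (m / 4) (by linarith)
  have h2 : cH m l ≤ Real.exp (-((m / 4 : ℕ) : ℝ) / 2 + (((m : ℝ) - l) / 4) *
      (Real.log m - Real.log (m - 2 * ((m / 4 : ℕ) : ℝ)))) := h
  refine h2.trans (Real.exp_le_exp.mpr ?_)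
  have h3 : Real.log m - Real.log (m - 2 * ((m / 4 : ℕ) : ℝ)) ≤ Real.log 2 := by
    have h4 : Real.log m ≤ Real.log (2 * (m - 2 * ((m / 4 : ℕ) : ℝ))) := by
      apply Real.log_le_log (by linarith)
      linarith
    rw [Real.log_mul (by norm_num) (by linarith)] at h4
    linarith
  have h5 : Real.log 2 ≤ 0.6931471808 := Real.log_two_lt_d9.le
  have h6 : (((m : ℝ) - l) / 4) * (Real.log m - Real.log (m - 2 * ((m / 4 : ℕ) : ℝ))) ≤
      (0.545 * m / 4) * 0.6931471808 := by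
    apply mul_le_mul
    · linarith
    · linarith
    · have h7 : Real.log (m - 2 * ((m / 4 : ℕ) : ℝ)) ≤ Real.log m := by
        apply Real.log_le_log (by linarith)
        have : (0:ℝ) ≤ ((m / 4 : ℕ) : ℝ) := by positivity
        linarith
      linarith
    · positivity
  nlinarith

lemma nH : ∀ᶠ m : ℕ in atTop, ∀ l : ℕ, l ≤ m → 0.455 * (m : ℝ) ≤ l →
    (cH m l) ^ 116 * Real.exp (3.2 * m) ≤ 1 / (m : ℝ) ^ 2 := by
  filter_upwards [ev_log 0.01 (by norm_num), ev_ge 1000] with m h1 h2 l hl hl2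
  have hm1 : 1 ≤ m := by
    have : (1 : ℝ) ≤ m := by linarith
    exact_mod_cast this
  have h3 := cH_le m l hm1 hl hl2
  have h4 : (cH m l) ^ 116 ≤ Real.exp (116 * (0.375 - 0.03055 * m)) := by
    calc (cH m l) ^ 116 ≤ (Real.exp (0.375 - 0.03055 * m)) ^ 116 :=
          pow_le_pow_left₀ (cH_nonneg m l hl) h3 _
      _ = _ := by rw [← Real.exp_nat_mul]; norm_num
  have hmpos : (0:ℝ) < m := by linarith
  have h5 : 1 / (m : ℝ) ^ 2 = Real.exp (-(2 * Real.log m)) := by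
    rw [Real.exp_neg, ← Real.log_rpow hmpos, Real.exp_log (by positivity)]
    simp
  calc (cH m l) ^ 116 * Real.exp (3.2 * m)
      ≤ Real.exp (116 * (0.375 - 0.03055 * m)) * Real.exp (3.2 * m) :=
        mul_le_mul_of_nonneg_right h4 (Real.exp_pos _).le
    _ = Real.exp (116 * (0.375 - 0.03055 * m) + 3.2 * m) := by rw [Real.exp_add]
    _ ≤ Real.exp (-(2 * Real.log m)) := by
        apply Real.exp_le_exp.mpr
        have h6 : Real.log m ≤ Real.log ((m : ℝ) + 1) := Real.log_le_log hmpos (by linarith)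
        nlinarith
    _ = _ := h5.symm

/-! ### binomial bounds -/

lemma choose_ge (m l : ℕ) (hl : 1 ≤ l) (hlm : l ≤ m) :
    ((m : ℝ) / l) ^ l ≤ (m.choose l : ℝ) := by
  have key : ∀ l : ℕ, ∀ m : ℕ, l ≤ m → (m : ℝ) ^ l ≤ (m.choose l : ℝ) * (l : ℝ) ^ l := by
    intro l
    induction l with
    | zero => intro m _; simp
    | succ l ih =>
      intro m hm
      obtain ⟨m', rfl⟩ : ∃ m', m = m' + 1 := ⟨m - 1, by omega⟩
      have hlm' : l ≤ m' := by omega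
      rcases Nat.eq_zero_or_pos l with rfl | hl0
      · simp
      have h1 := ih m' hlm'
      have h2 : ((m' + 1 : ℕ) : ℝ) * (m'.choose l : ℝ) = ((m' + 1).choose (l + 1) : ℝ) * ((l + 1 : ℕ) : ℝ) := by
        exact_mod_cast Nat.add_one_mul_choose_eq m' l
      have hl0' : (0:ℝ) < l := by exact_mod_cast hl0
      have hm0' : (0:ℝ) < m' := by
        have : 0 < m' := by omega
        exact_mod_cast this
      -- (m'+1)^l * l^l ≤ m'^l * (l+1)^l
      have h3 : ((m' : ℝ) + 1) ^ l * (l : ℝ) ^ l ≤ (m' : ℝ) ^ l * ((l : ℝ) + 1) ^ l := by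
        rw [← mul_pow, ← mul_pow]
        apply pow_le_pow_left₀ (by positivity)
        have : (l : ℝ) ≤ m' := by exact_mod_cast hlm'
        nlinarith
      have hll : (0:ℝ) < (l:ℝ)^l := by positivity
      -- goal: (m'+1)^(l+1) ≤ C(m'+1,l+1) (l+1)^(l+1)
      have h4 : ((m' : ℝ) + 1) ^ l ≤ (m'.choose l : ℝ) * ((l : ℝ) + 1) ^ l := by
        have h5 : ((m' : ℝ) + 1) ^ l * (l : ℝ) ^ l ≤ ((m'.choose l : ℝ) * ((l : ℝ) + 1) ^ l) * (l : ℝ) ^ l := by
          calc _ ≤ (m' : ℝ) ^ l * ((l : ℝ) + 1) ^ l := h3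
            _ ≤ ((m'.choose l : ℝ) * (l : ℝ) ^ l) * ((l : ℝ) + 1) ^ l :=
              mul_le_mul_of_nonneg_right h1 (by positivity)
            _ = _ := by ring
        exact le_of_mul_le_mul_right h5 hll
      push_cast at h2 ⊢
      calc ((m' : ℝ) + 1) ^ (l + 1) = ((m' : ℝ) + 1) * ((m' : ℝ) + 1) ^ l := by ring
        _ ≤ ((m' : ℝ) + 1) * ((m'.choose l : ℝ) * ((l : ℝ) + 1) ^ l) :=
          mul_le_mul_of_nonneg_left h4 (by positivity)
        _ = (((m' : ℝ) + 1) * (m'.choose l : ℝ)) * ((l : ℝ) + 1) ^ l := by ring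
        _ = _ := by rw [h2]; ring
  have hl0 : (0:ℝ) < l := by exact_mod_cast hl
  rw [div_pow, div_le_iff₀ (by positivity)]
  exact key l m hlm

lemma choose_le (m l : ℕ) (hl : 1 ≤ l) :
    (m.choose l : ℝ) ≤ (Real.exp 1 * ((m : ℝ) / l)) ^ l := by
  have hl0 : (0:ℝ) < l := by exact_mod_cast hl
  have h1 : (m.choose l : ℝ) ≤ (m : ℝ) ^ l / (l ! : ℝ) := Nat.choose_le_pow_div l m
  have h2 : (l : ℝ) ^ l / (l ! : ℝ) ≤ Real.exp l := Real.pow_div_factorial_le_exp (x := (l:ℝ)) hl0.le l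
  have h3 : Real.exp (l : ℝ) = (Real.exp 1) ^ l := by
    rw [← Real.exp_nat_mul]; simp
  calc (m.choose l : ℝ) ≤ (m : ℝ) ^ l / (l ! : ℝ) := h1
    _ = ((m : ℝ) / l) ^ l * ((l : ℝ) ^ l / (l ! : ℝ)) := by
      rw [div_pow]
      field_simp
    _ ≤ ((m : ℝ) / l) ^ l * Real.exp l := by gcongr
    _ = _ := by rw [h3, mul_pow]; ring

lemma choose_sq_fact_le (m l : ℕ) (hl : 1 ≤ l) :
    (m.choose l : ℝ) ^ 2 * (l ! : ℝ) ≤ (Real.exp 1 * ((m : ℝ) ^ 2 / l)) ^ l := by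
  have hl0 : (0:ℝ) < l := by exact_mod_cast hl
  have h1 : (m.choose l : ℝ) ≤ (m : ℝ) ^ l / (l ! : ℝ) := Nat.choose_le_pow_div l m
  have h2 : (l : ℝ) ^ l / (l ! : ℝ) ≤ Real.exp l := Real.pow_div_factorial_le_exp (x := (l:ℝ)) hl0.le l
  have h3 : Real.exp (l : ℝ) = (Real.exp 1) ^ l := by
    rw [← Real.exp_nat_mul]; simp
  have hf : (0:ℝ) < (l ! : ℝ) := by exact_mod_cast Nat.factorial_pos l
  calc (m.choose l : ℝ) ^ 2 * (l ! : ℝ) ≤ ((m : ℝ) ^ l / (l ! : ℝ)) ^ 2 * (l ! : ℝ) := by gcongr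
    _ = ((m : ℝ) ^ 2 / l) ^ l * ((l : ℝ) ^ l / (l ! : ℝ)) := by
      rw [div_pow, div_pow]
      field_simp
      ring
    _ ≤ ((m : ℝ) ^ 2 / l) ^ l * Real.exp l := by gcongr
    _ = _ := by rw [h3, mul_pow]; ring


lemma mode_step (m l : ℕ) (hlm : l ≤ m) (k : ℕ) (hk : k ≤ m) :
    (l : ℝ) ^ k * ((m : ℝ) - l) ^ (m - k) * (m.choose k : ℝ) ≤
      (l : ℝ) ^ l * ((m : ℝ) - l) ^ (m - l) * (m.choose l : ℝ) := by
  have hml : (0:ℝ) ≤ (m : ℝ) - l := by
    have : (l : ℝ) ≤ m := by exact_mod_cast hlm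
    linarith
  set a : ℕ → ℝ := fun k => (l : ℝ) ^ k * ((m : ℝ) - l) ^ (m - k) * (m.choose k : ℝ) with ha
  have hrel : ∀ k, k < m → (m.choose (k + 1) : ℝ) * (k + 1) = (m.choose k : ℝ) * ((m : ℝ) - k) := by
    intro k hk
    have h := Nat.choose_succ_right_eq m k
    have h2 : ((m.choose (k + 1) * (k + 1) : ℕ) : ℝ) = ((m.choose k * (m - k) : ℕ) : ℝ) := by
      exact_mod_cast h
    push_cast [Nat.cast_sub hk.le] at h2
    exact h2
  have hup : ∀ k, k + 1 ≤ l → a k ≤ a (k + 1) := by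
    intro k hk1
    have hkm : k < m := by omega
    have h1 := hrel k hkm
    have h2 : m - k = (m - (k + 1)) + 1 := by omega
    have hk' : (k : ℝ) + 1 ≤ l := by exact_mod_cast hk1
    have hlm' : (l : ℝ) ≤ m := by exact_mod_cast hlm
    have hpos : (0 : ℝ) < (k : ℝ) + 1 := by positivity
    have key : a k * ((k : ℝ) + 1) ≤ a (k + 1) * ((k : ℝ) + 1) := by
      have e1 : a (k + 1) * ((k : ℝ) + 1) =
          ((l : ℝ) ^ k * ((m : ℝ) - l) ^ (m - (k + 1)) * (m.choose k : ℝ)) * ((l : ℝ) * ((m : ℝ) - k)) := by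
        simp only [ha]
        calc (l : ℝ) ^ (k + 1) * ((m : ℝ) - l) ^ (m - (k + 1)) * (m.choose (k + 1) : ℝ) * ((k : ℝ) + 1)
            = (l : ℝ) ^ (k + 1) * ((m : ℝ) - l) ^ (m - (k + 1)) * ((m.choose (k + 1) : ℝ) * ((k : ℝ) + 1)) := by ring
          _ = _ := by rw [h1]; ring
      have e2 : a k * ((k : ℝ) + 1) =
          ((l : ℝ) ^ k * ((m : ℝ) - l) ^ (m - (k + 1)) * (m.choose k : ℝ)) * (((m : ℝ) - l) * ((k : ℝ) + 1)) := by
        simp only [ha]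
        rw [h2, pow_succ]
        ring
      rw [e1, e2]
      apply mul_le_mul_of_nonneg_left _ (by positivity)
      nlinarith
    exact le_of_mul_le_mul_right key hpos
  have hdown : ∀ k, l ≤ k → k + 1 ≤ m → a (k + 1) ≤ a k := by
    intro k hlk hk1
    have hkm : k < m := by omega
    have h1 := hrel k hkm
    have h2 : m - k = (m - (k + 1)) + 1 := by omega
    have hk' : (l : ℝ) ≤ k := by exact_mod_cast hlk
    have hlm' : (l : ℝ) ≤ m := by exact_mod_cast hlm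
    have hpos : (0 : ℝ) < (k : ℝ) + 1 := by positivity
    have key : a (k + 1) * ((k : ℝ) + 1) ≤ a k * ((k : ℝ) + 1) := by
      have e1 : a (k + 1) * ((k : ℝ) + 1) =
          ((l : ℝ) ^ k * ((m : ℝ) - l) ^ (m - (k + 1)) * (m.choose k : ℝ)) * ((l : ℝ) * ((m : ℝ) - k)) := by
        simp only [ha]
        calc (l : ℝ) ^ (k + 1) * ((m : ℝ) - l) ^ (m - (k + 1)) * (m.choose (k + 1) : ℝ) * ((k : ℝ) + 1)
            = (l : ℝ) ^ (k + 1) * ((m : ℝ) - l) ^ (m - (k + 1)) * ((m.choose (k + 1) : ℝ) * ((k : ℝ) + 1)) := by ring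
          _ = _ := by rw [h1]; ring
      have e2 : a k * ((k : ℝ) + 1) =
          ((l : ℝ) ^ k * ((m : ℝ) - l) ^ (m - (k + 1)) * (m.choose k : ℝ)) * (((m : ℝ) - l) * ((k : ℝ) + 1)) := by
        simp only [ha]
        rw [h2, pow_succ]
        ring
      rw [e1, e2]
      apply mul_le_mul_of_nonneg_left _ (by positivity)
      nlinarith
    exact le_of_mul_le_mul_right key hpos
  change a k ≤ a l
  rcases le_total k l with h | h
  · -- k ≤ l
    have : ∀ j, k ≤ j → j ≤ l → a k ≤ a j := by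
      intro j hj
      induction j, hj using Nat.le_induction with
      | base => intro _; exact le_refl _
      | succ j hj ih => intro hj2; exact (ih (by omega)).trans (hup j hj2)
    exact this l h le_rfl
  · have : ∀ j, l ≤ j → j ≤ m → a j ≤ a l := by
      intro j hj
      induction j, hj using Nat.le_induction with
      | base => intro _; exact le_refl _
      | succ j hj ih => intro hj2; exact (hdown j hj hj2).trans (ih (by omega))
    exact this k h hk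

lemma mode (m l : ℕ) (hlm : l ≤ m) :
    (m : ℝ) ^ m ≤ ((m : ℝ) + 1) * ((l : ℝ) ^ l * ((m : ℝ) - l) ^ (m - l) * (m.choose l : ℝ)) := by
  have h1 : (m : ℝ) ^ m = ∑ k ∈ Finset.range (m + 1), (l : ℝ) ^ k * ((m : ℝ) - l) ^ (m - k) * (m.choose k : ℝ) := by
    rw [← add_pow]
    congr 1
    ring
  rw [h1]
  calc _ ≤ ∑ k ∈ Finset.range (m + 1), (l : ℝ) ^ l * ((m : ℝ) - l) ^ (m - l) * (m.choose l : ℝ) := by
        apply Finset.sum_le_sum
        intro k hk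
        exact mode_step m l hlm k (by rw [Finset.mem_range] at hk; omega)
    _ = _ := by
      rw [Finset.sum_const, Finset.card_range, nsmul_eq_mul]
      push_cast
      ring

lemma sqrt_one_add_pow_le (z : ℝ) (m : ℕ) :
    (Real.sqrt (1 + z)) ^ m ≤ Real.exp (m * (z / 2)) := by
  have h1 : Real.sqrt (1 + z) ≤ Real.exp (z / 2) := by
    rw [Real.sqrt_le_left (Real.exp_pos _).le, ← Real.exp_nat_mul]
    have := Real.add_one_le_exp z
    push_cast
    rw [show 2 * (z / 2) = z by ring]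
    linarith
  calc (Real.sqrt (1 + z)) ^ m ≤ (Real.exp (z / 2)) ^ m := pow_le_pow_left₀ (Real.sqrt_nonneg _) h1 m
    _ = _ := by rw [← Real.exp_nat_mul]

lemma cLy_nonneg (m l : ℕ) (y : ℝ) (hy : 0 ≤ y) : 0 ≤ cLy m l y := by
  unfold cLy
  positivity

/-- middle regime -/
lemma cLy_mid (m l : ℕ) (hl : 1 ≤ l) (hlm : l < m) :
    cLy m l ((l : ℝ) / ((m : ℝ) - l)) ≤ ((m : ℝ) + 1) *
      Real.exp (((l : ℝ) / ((m : ℝ) - l)) * (m : ℝ) ^ (-0.27 : ℝ) * m) *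
      Real.exp (-(((l : ℝ) / m) * (1 - 2 * ((l : ℝ) / m)) * m)) := by
  have hl0 : (0:ℝ) < l := by exact_mod_cast hl
  have hlm' : (l : ℝ) < m := by exact_mod_cast hlm
  have hml : (0:ℝ) < (m : ℝ) - l := by linarith
  have hm0 : (0:ℝ) < m := by linarith
  have hC : (0:ℝ) < (m.choose l : ℝ) := by exact_mod_cast Nat.choose_pos hlm.le
  have h1 : ((m.choose l : ℝ))⁻¹ * (((l : ℝ) / ((m : ℝ) - l))⁻¹) ^ l ≤
      ((m : ℝ) + 1) * (((m : ℝ) - l) / m) ^ m := by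
    have hmode := mode m l hlm.le
    have e1 : ((m : ℝ) - l) ^ m = ((m : ℝ) - l) ^ l * ((m : ℝ) - l) ^ (m - l) := by
      rw [← pow_add]; congr 1; omega
    rw [inv_div, div_pow, div_pow, inv_mul_eq_div, div_div, ← mul_div_assoc,
      div_le_div_iff₀ (by positivity) (by positivity), e1]
    calc ((m : ℝ) - l) ^ l * (m : ℝ) ^ m ≤ ((m : ℝ) - l) ^ l *
          (((m : ℝ) + 1) * ((l : ℝ) ^ l * ((m : ℝ) - l) ^ (m - l) * (m.choose l : ℝ))) :=
          mul_le_mul_of_nonneg_left hmode (by positivity)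
      _ = _ := by ring
  set p : ℝ := (l : ℝ) / m with hp
  set b : ℝ := (l : ℝ) / ((m : ℝ) - l) with hb
  have h2 : (((m : ℝ) - l) / m) ^ m * (Real.sqrt (1 + 2 * b * b + b ^ 2)) ^ m ≤
      Real.exp (-(p * (1 - 2 * p) * m)) := by
    rw [← mul_pow]
    have e2 : ((m : ℝ) - l) / m = 1 - p := by
      rw [hp]; field_simp
    have hp1 : 0 ≤ 1 - p := by rw [← e2]; positivity
    have e3 : (1 - p) * b = p := by
      rw [← e2, hp, hb]; field_simp
    have e4 : (((m : ℝ) - l) / m) * Real.sqrt (1 + 2 * b * b + b ^ 2) =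
        Real.sqrt (1 + (-2 * p + 4 * p ^ 2)) := by
      rw [e2]
      rw [← Real.sqrt_sq hp1, ← Real.sqrt_mul (by positivity)]
      congr 1
      have : (1 - p) ^ 2 * (1 + 2 * b * b + b ^ 2) = (1 - p) ^ 2 + 3 * ((1 - p) * b) ^ 2 := by ring
      rw [this, e3]
      ring
    rw [e4]
    have h3 := sqrt_one_add_pow_le (-2 * p + 4 * p ^ 2) m
    refine h3.trans (le_of_eq ?_)
    congr 1
    ring
  unfold cLy
  rw [← hb]
  calc ((m.choose l : ℝ))⁻¹ * (b⁻¹) ^ l * Real.exp (b * (m : ℝ) ^ (-0.27 : ℝ) * m) *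
      (Real.sqrt (1 + 2 * b * b + b ^ 2)) ^ m
      ≤ (((m : ℝ) + 1) * (((m : ℝ) - l) / m) ^ m) * Real.exp (b * (m : ℝ) ^ (-0.27 : ℝ) * m) *
      (Real.sqrt (1 + 2 * b * b + b ^ 2)) ^ m := by
        apply mul_le_mul_of_nonneg_right _ (by positivity)
        apply mul_le_mul_of_nonneg_right h1 (Real.exp_pos _).le
    _ = ((m : ℝ) + 1) * Real.exp (b * (m : ℝ) ^ (-0.27 : ℝ) * m) *
      ((((m : ℝ) - l) / m) ^ m * (Real.sqrt (1 + 2 * b * b + b ^ 2)) ^ m) := by ring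
    _ ≤ _ := by
        apply mul_le_mul_of_nonneg_left h2 (by positivity)

lemma nB : ∀ᶠ m : ℕ in atTop, ∀ l : ℕ, 0.03 * (m : ℝ) ≤ l → (l : ℝ) ≤ 0.455 * m →
    (cLy m l ((l : ℝ) / ((m : ℝ) - l))) ^ 116 * Real.exp (3.2 * m) ≤ 1 / (m : ℝ) ^ 2 := by
  filter_upwards [ev_log 0.0001 (by norm_num), ev_ge 1000, ev_theta 0.0001 (by norm_num)]
    with m h1 h2 h3 l hl hl2
  have hmpos : (0:ℝ) < m := by linarith
  have hl0 : (0:ℝ) < l := by linarith
  have hl1 : 1 ≤ l := by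
    have : 0 < l := by exact_mod_cast hl0
    omega
  have hlm : l < m := by
    have : (l : ℝ) < m := by linarith
    exact_mod_cast this
  have hml : (0:ℝ) < (m : ℝ) - l := by linarith
  set p : ℝ := (l : ℝ) / m with hp
  set b : ℝ := (l : ℝ) / ((m : ℝ) - l) with hb
  have hb0 : 0 < b := by positivity
  have hb1 : b ≤ 1 := by
    rw [hb, div_le_one hml]; linarith
  have hp1 : 0.03 ≤ p := by rw [hp, le_div_iff₀ hmpos]; exact hl
  have hp2 : p ≤ 0.455 := by rw [hp, div_le_iff₀ hmpos]; exact hl2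
  have h4 := cLy_mid m l hl1 hlm
  rw [← hb, ← hp] at h4
  have h5 : cLy m l b ≤ Real.exp (Real.log ((m : ℝ) + 1) + 0.0001 * m - 0.0282 * m) := by
    refine h4.trans ?_
    have e1 : Real.exp (b * (m : ℝ) ^ (-0.27 : ℝ) * m) ≤ Real.exp (0.0001 * m) := by
      apply Real.exp_le_exp.mpr
      have : b * (m : ℝ) ^ (-0.27 : ℝ) ≤ 1 * 0.0001 := by
        apply mul_le_mul hb1 h3 (by positivity) (by norm_num)
      nlinarith
    have e2 : Real.exp (-(p * (1 - 2 * p) * m)) ≤ Real.exp (-(0.0282 * m)) := by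
      apply Real.exp_le_exp.mpr
      have : 0.0282 ≤ p * (1 - 2 * p) := by nlinarith
      nlinarith
    have e3 : (m : ℝ) + 1 = Real.exp (Real.log ((m : ℝ) + 1)) := by
      rw [Real.exp_log (by positivity)]
    calc ((m : ℝ) + 1) * Real.exp (b * (m : ℝ) ^ (-0.27 : ℝ) * m) * Real.exp (-(p * (1 - 2 * p) * m))
        ≤ ((m : ℝ) + 1) * Real.exp (0.0001 * m) * Real.exp (-(0.0282 * m)) := by gcongr
      _ = Real.exp (Real.log ((m : ℝ) + 1)) * Real.exp (0.0001 * m) * Real.exp (-(0.0282 * m)) := by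
          rw [← e3]
      _ = _ := by
          rw [← Real.exp_add, ← Real.exp_add]
          congr 1
  have h6 : (cLy m l b) ^ 116 ≤
      Real.exp (116 * (Real.log ((m : ℝ) + 1) + 0.0001 * m - 0.0282 * m)) := by
    calc (cLy m l b) ^ 116 ≤ (Real.exp (Real.log ((m : ℝ) + 1) + 0.0001 * m - 0.0282 * m)) ^ 116 :=
          pow_le_pow_left₀ (cLy_nonneg m l b hb0.le) h5 _
      _ = _ := by rw [← Real.exp_nat_mul]; norm_num
  have h7 : 1 / (m : ℝ) ^ 2 = Real.exp (-(2 * Real.log m)) := by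
    rw [Real.exp_neg, ← Real.log_rpow hmpos, Real.exp_log (by positivity)]
    simp
  calc (cLy m l b) ^ 116 * Real.exp (3.2 * m)
      ≤ Real.exp (116 * (Real.log ((m : ℝ) + 1) + 0.0001 * m - 0.0282 * m)) * Real.exp (3.2 * m) :=
        mul_le_mul_of_nonneg_right h6 (Real.exp_pos _).le
    _ = Real.exp (116 * (Real.log ((m : ℝ) + 1) + 0.0001 * m - 0.0282 * m) + 3.2 * m) := by
        rw [Real.exp_add]
    _ ≤ Real.exp (-(2 * Real.log m)) := by
        apply Real.exp_le_exp.mpr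
        have h8 : Real.log m ≤ Real.log ((m : ℝ) + 1) := Real.log_le_log hmpos (by linarith)
        nlinarith
    _ = _ := h7.symm


/-- generic bound for small `l` -/
lemma cLy_small (m l : ℕ) (hl : 1 ≤ l) (hlm : l < m) (κ : ℝ) (hκ : (m : ℝ) ≤ κ * ((m : ℝ) - l))
    (y : ℝ) (hy : 0 < y) :
    cLy m l y ≤ (((l : ℝ) / m) * y⁻¹ * Real.exp (y * (m : ℝ) ^ (-0.27 : ℝ) * (m / l) +
      κ * y + y ^ 2 * (m / l) / 2)) ^ l := by
  have hl0 : (0:ℝ) < l := by exact_mod_cast hl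
  have hlm' : (l : ℝ) < m := by exact_mod_cast hlm
  have hml : (0:ℝ) < (m : ℝ) - l := by linarith
  have hm0 : (0:ℝ) < m := by linarith
  have hC : (0:ℝ) < (m.choose l : ℝ) := by exact_mod_cast Nat.choose_pos (by omega)
  have h1 : ((m.choose l : ℝ))⁻¹ ≤ ((l : ℝ) / m) ^ l := by
    have := choose_ge m l hl (by omega)
    rw [inv_le_comm₀ hC (by positivity), ← inv_pow, inv_div]
    exact this
  have h2 := sqrt_one_add_pow_le (2 * ((l : ℝ) / ((m : ℝ) - l)) * y + y ^ 2) m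
  have h3 : (m : ℝ) * ((2 * ((l : ℝ) / ((m : ℝ) - l)) * y + y ^ 2) / 2) ≤
      l * (κ * y + y ^ 2 * (m / l) / 2) := by
    have e1 : (m : ℝ) * ((l : ℝ) / ((m : ℝ) - l)) ≤ κ * l := by
      rw [← mul_div_assoc, div_le_iff₀ hml]
      nlinarith
    have e2 : (l : ℝ) * (y ^ 2 * (m / l) / 2) = m * y ^ 2 / 2 := by
      field_simp
    calc (m : ℝ) * ((2 * ((l : ℝ) / ((m : ℝ) - l)) * y + y ^ 2) / 2)
        = (m : ℝ) * ((l : ℝ) / ((m : ℝ) - l)) * y + m * y ^ 2 / 2 := by ring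
      _ ≤ (κ * l) * y + m * y ^ 2 / 2 := by gcongr
      _ = _ := by rw [← e2]; ring
  unfold cLy
  rw [← add_assoc 1 _ _] at h2
  calc ((m.choose l : ℝ))⁻¹ * (y⁻¹) ^ l * Real.exp (y * (m : ℝ) ^ (-0.27 : ℝ) * m) *
      (Real.sqrt (1 + 2 * ((l : ℝ) / ((m : ℝ) - l)) * y + y ^ 2)) ^ m
      ≤ ((l : ℝ) / m) ^ l * (y⁻¹) ^ l * Real.exp (y * (m : ℝ) ^ (-0.27 : ℝ) * m) *
      Real.exp (l * (κ * y + y ^ 2 * (m / l) / 2)) := by
        apply mul_le_mul _ (h2.trans (Real.exp_le_exp.mpr h3)) (by positivity) (by positivity)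
        apply mul_le_mul_of_nonneg_right _ (Real.exp_pos _).le
        apply mul_le_mul_of_nonneg_right h1 (by positivity)
    _ = _ := by
        rw [mul_assoc, ← Real.exp_add, mul_pow, mul_pow, ← Real.exp_nat_mul]
        congr 2
        field_simp
        ring

lemma rpow_aux (m : ℝ) (hm : 1 ≤ m) (a b : ℝ) (h : a ≤ b) : m ^ a ≤ m ^ b :=
  Real.rpow_le_rpow_of_exponent_le hm h

lemma exp7 (p E : ℝ) (hE1 : 1 ≤ E) (hE : E < 2.7182818286) (hp0 : 0 ≤ p) (hp : p ≤ 0.03) :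
    p ^ 56 * E ^ 188 ≤ E⁻¹ := by
  have h1 : p ^ 2 * E ^ 7 ≤ 1 := by
    calc p ^ 2 * E ^ 7 ≤ 0.03 ^ 2 * 2.7182818286 ^ 7 := by gcongr
      _ ≤ 1 := by norm_num
  have h2 : (p ^ 2 * E ^ 7) ^ 28 ≤ 1 := pow_le_one₀ (by positivity) h1
  have h3 : (p ^ 2 * E ^ 7) ^ 28 = p ^ 56 * E ^ 196 := by
    rw [mul_pow, ← pow_mul, ← pow_mul]
  rw [h3] at h2
  have hE0 : 0 < E := by linarith
  rw [← one_div, le_div_iff₀ hE0]
  calc p ^ 56 * E ^ 188 * E = p ^ 56 * E ^ 189 := by rw [mul_assoc, ← pow_succ]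
    _ ≤ p ^ 56 * E ^ 196 := by
      have h4 : E ^ 189 ≤ E ^ 196 := pow_le_pow_right₀ hE1 (by norm_num)
      have h5 : 0 ≤ p ^ 56 := pow_nonneg hp0 _
      exact mul_le_mul_of_nonneg_left h4 h5
    _ ≤ 1 := h2

/-- regime C: `m^0.95 ≤ l ≤ 0.03 m` -/
lemma nC : ∀ᶠ m : ℕ in atTop, ∀ l : ℕ, (m : ℝ) ^ (0.95 : ℝ) ≤ l → (l : ℝ) ≤ 0.03 * m →
    (cLy m l (Real.sqrt ((l : ℝ) / m))) ^ 116 * ((m.choose l : ℝ) ^ 2 * Real.exp (100 * l)) ≤
      1 / (m : ℝ) ^ 2 := by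
  have hev : ∀ᶠ m : ℕ in atTop, (m : ℝ) ^ (-0.24 : ℝ) ≤ 0.05 := by
    have h : Tendsto (fun m : ℕ => (m : ℝ) ^ (-0.24 : ℝ)) atTop (𝓝 0) :=
      (tendsto_rpow_neg_atTop (y := 0.24) (by norm_num)).comp tendsto_natCast_atTop_atTop
    exact (h.eventually (eventually_le_nhds (by norm_num)))
  filter_upwards [hev, ev_ge 1000] with m h1 h2 l hl hl2
  have hmpos : (0:ℝ) < m := by linarith
  have hm1 : (1:ℝ) ≤ m := by linarith
  have hl0 : (0:ℝ) < l := lt_of_lt_of_le (by positivity) hl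
  have hl1 : 1 ≤ l := by
    have : 0 < l := by exact_mod_cast hl0
    omega
  have hlm : l < m := by
    have : (l : ℝ) < m := by linarith
    exact_mod_cast this
  set p : ℝ := (l : ℝ) / m with hp
  have hp0 : 0 < p := by positivity
  have hp2 : p ≤ 0.03 := by rw [hp, div_le_iff₀ hmpos]; exact hl2
  have hpinv : (m : ℝ) / l = p⁻¹ := by rw [hp, inv_div]
  set y : ℝ := Real.sqrt p with hy
  have hy0 : 0 < y := Real.sqrt_pos.mpr hp0
  have hysq : y ^ 2 = p := Real.sq_sqrt hp0.le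
  have hy2 : y ≤ 0.1733 := by
    rw [hy, Real.sqrt_le_left (by norm_num)]
    norm_num; linarith
  have h3 := cLy_small m l hl1 hlm 1.04 (by linarith) y hy0
  rw [hpinv, ← hp] at h3
  -- p ≥ m^(-0.05)
  have hp3 : (m : ℝ) ^ (-0.05 : ℝ) ≤ p := by
    rw [hp, le_div_iff₀ hmpos]
    calc (m : ℝ) ^ (-0.05 : ℝ) * m = (m : ℝ) ^ (-0.05 : ℝ) * (m : ℝ) ^ (1 : ℝ) := by rw [Real.rpow_one]
      _ = (m : ℝ) ^ (0.95 : ℝ) := by rw [← Real.rpow_add hmpos]; norm_num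
      _ ≤ l := hl
  have hy3 : (m : ℝ) ^ (-0.025 : ℝ) ≤ y := by
    rw [hy]
    apply Real.le_sqrt_of_sq_le
    calc ((m : ℝ) ^ (-0.025 : ℝ)) ^ 2 = (m : ℝ) ^ (-0.05 : ℝ) := by
          rw [← Real.rpow_natCast, ← Real.rpow_mul hmpos.le]; norm_num
      _ ≤ p := hp3
  have h4 : y * (m : ℝ) ^ (-0.27 : ℝ) * p⁻¹ ≤ 0.05 := by
    have e1 : y * p⁻¹ = y⁻¹ := by
      rw [← hysq]; field_simp
    have e2 : y⁻¹ ≤ (m : ℝ) ^ (0.025 : ℝ) := by
      rw [inv_le_comm₀ hy0 (by positivity), ← Real.rpow_neg hmpos.le]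
      exact hy3
    calc y * (m : ℝ) ^ (-0.27 : ℝ) * p⁻¹ = (y * p⁻¹) * (m : ℝ) ^ (-0.27 : ℝ) := by ring
      _ ≤ (m : ℝ) ^ (0.025 : ℝ) * (m : ℝ) ^ (-0.27 : ℝ) := by
          rw [e1]; gcongr
      _ = (m : ℝ) ^ (-0.245 : ℝ) := by rw [← Real.rpow_add hmpos]; norm_num
      _ ≤ (m : ℝ) ^ (-0.24 : ℝ) := rpow_aux _ hm1 _ _ (by norm_num)
      _ ≤ 0.05 := h1
  have h5 : y * (m : ℝ) ^ (-0.27 : ℝ) * p⁻¹ + 1.04 * y + y ^ 2 * p⁻¹ / 2 ≤ 0.74 := by
    have e1 : y ^ 2 * p⁻¹ = 1 := by rw [hysq]; field_simp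
    rw [e1]
    linarith
  have h6 : cLy m l y ≤ (y * Real.exp 0.74) ^ l := by
    refine h3.trans ?_
    have e1 : p * y⁻¹ = y := by rw [← hysq]; field_simp
    rw [e1]
    apply pow_le_pow_left₀ (by positivity)
    apply mul_le_mul_of_nonneg_left (Real.exp_le_exp.mpr h5) hy0.le
  have h7 : (cLy m l y) ^ 116 ≤ (p ^ 58 * Real.exp 1 ^ 86) ^ l := by
    calc (cLy m l y) ^ 116 ≤ ((y * Real.exp 0.74) ^ l) ^ 116 :=
          pow_le_pow_left₀ (cLy_nonneg m l y hy0.le) h6 _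
      _ = ((y * Real.exp 0.74) ^ 116) ^ l := pow_right_comm _ _ _
      _ ≤ _ := by
        apply pow_le_pow_left₀ (by positivity)
        rw [mul_pow]
        have e1 : y ^ 116 = p ^ 58 := by rw [← hysq, ← pow_mul]
        rw [e1]
        apply mul_le_mul_of_nonneg_left _ (by positivity)
        rw [← Real.exp_nat_mul, ← Real.exp_nat_mul]
        apply Real.exp_le_exp.mpr
        norm_num
  have h8 : (m.choose l : ℝ) ^ 2 * Real.exp (100 * l) ≤ (Real.exp 1 ^ 102 * (p⁻¹) ^ 2) ^ l := by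
    have e1 := choose_le m l hl1
    rw [hpinv] at e1
    have e2 : Real.exp (100 * (l : ℝ)) = (Real.exp 1 ^ 100) ^ l := by
      rw [← Real.exp_nat_mul, ← Real.exp_nat_mul]
      congr 1
      push_cast
      ring
    calc (m.choose l : ℝ) ^ 2 * Real.exp (100 * l)
        ≤ ((Real.exp 1 * p⁻¹) ^ l) ^ 2 * (Real.exp 1 ^ 100) ^ l := by
          rw [e2]; gcongr
      _ = ((Real.exp 1 * p⁻¹) ^ 2) ^ l * (Real.exp 1 ^ 100) ^ l := by rw [pow_right_comm]
      _ = _ := by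
          rw [← mul_pow]
          congr 1
          rw [mul_pow, show (102 : ℕ) = 2 + 100 by norm_num, pow_add]
          ring
  have hE1 : (1:ℝ) ≤ Real.exp 1 := Real.one_le_exp (by norm_num)
  have hE : Real.exp 1 < 2.7182818286 := Real.exp_one_lt_d9
  have h9 : (cLy m l y) ^ 116 * ((m.choose l : ℝ) ^ 2 * Real.exp (100 * l)) ≤
      ((Real.exp 1)⁻¹) ^ l := by
    generalize Real.exp 1 = E at *
    calc (cLy m l y) ^ 116 * ((m.choose l : ℝ) ^ 2 * Real.exp (100 * l))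
        ≤ (p ^ 58 * E ^ 86) ^ l * (E ^ 102 * (p⁻¹) ^ 2) ^ l := by
          apply mul_le_mul h7 h8 (by positivity) (by positivity)
      _ = (p ^ 56 * E ^ 188) ^ l := by
          rw [← mul_pow]
          refine congrArg (fun z => z ^ l) ?_
          have e1 : p ^ 58 = p ^ 56 * p ^ 2 := by rw [← pow_add]
          have e2 : E ^ 188 = E ^ 86 * E ^ 102 := by rw [← pow_add]
          have e3 : p ^ 2 * (p⁻¹) ^ 2 = 1 := by
            rw [← mul_pow, mul_inv_cancel₀ hp0.ne', one_pow]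
          calc p ^ 58 * E ^ 86 * (E ^ 102 * (p⁻¹) ^ 2)
              = p ^ 56 * p ^ 2 * E ^ 86 * (E ^ 102 * (p⁻¹) ^ 2) := by rw [e1]
            _ = p ^ 56 * (E ^ 86 * E ^ 102) * (p ^ 2 * (p⁻¹) ^ 2) := by
                generalize p ^ 56 = A
                generalize E ^ 86 = B
                generalize E ^ 102 = D
                ring
            _ = _ := by rw [e3, ← e2, mul_one]
      _ ≤ _ := by
          apply pow_le_pow_left₀ (by positivity)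
          exact exp7 p E hE1 hE hp0.le hp2
  refine h9.trans ?_
  have h10 : (l : ℝ) ^ 3 / (3 ! : ℝ) ≤ Real.exp l := Real.pow_div_factorial_le_exp (x := (l:ℝ)) hl0.le 3
  have h11 : ((Real.exp 1)⁻¹) ^ l = (Real.exp l)⁻¹ := by
    rw [inv_pow, ← Real.exp_nat_mul]; simp
  rw [h11, ← one_div]
  apply one_div_le_one_div_of_le (by positivity)
  refine le_trans ?_ h10
  have h12 : (6:ℝ) * (m : ℝ) ^ 2 ≤ (l : ℝ) ^ 3 := by
    calc (6:ℝ) * (m : ℝ) ^ 2 ≤ (m : ℝ) ^ (0.85 : ℝ) * (m : ℝ) ^ 2 := by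
          apply mul_le_mul_of_nonneg_right _ (by positivity)
          calc (6 : ℝ) ≤ (1000 : ℝ) ^ ((1:ℝ) / 3) := by
                have : (1000 : ℝ) = 10 ^ (3 : ℝ) := by norm_num
                rw [this, ← Real.rpow_mul (by norm_num)]
                norm_num
            _ ≤ (m : ℝ) ^ ((1:ℝ) / 3) := Real.rpow_le_rpow (by norm_num) h2 (by norm_num)
            _ ≤ _ := rpow_aux _ hm1 _ _ (by norm_num)
      _ = ((m : ℝ) ^ (0.95 : ℝ)) ^ 3 := by
          rw [← Real.rpow_natCast, ← Real.rpow_natCast, ← Real.rpow_mul hmpos.le, ← Real.rpow_add hmpos]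
          norm_num
      _ ≤ _ := by gcongr
  have : ((3 ! : ℕ) : ℝ) = 6 := by norm_num [Nat.factorial]
  rw [this, le_div_iff₀ (by norm_num)]
  linarith

/-- regime D: `l ≤ m^0.95`, with `y = p^{3/4}` -/
lemma nD : ∀ᶠ m : ℕ in atTop, ∀ l : ℕ, 1 ≤ l → (l : ℝ) ≤ (m : ℝ) ^ (0.95 : ℝ) →
    (cLy m l (((l : ℝ) / m) ^ (0.75 : ℝ))) ^ 116 * ((m.choose l : ℝ) ^ 2 * (l ! : ℝ)) ≤
      (Real.exp 465 * (m : ℝ) ^ (-0.4 : ℝ)) ^ l := by
  have hev : ∀ᶠ m : ℕ in atTop, (m : ℝ) ^ (-0.05 : ℝ) ≤ 0.5 := by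
    have h : Tendsto (fun m : ℕ => (m : ℝ) ^ (-0.05 : ℝ)) atTop (𝓝 0) :=
      (tendsto_rpow_neg_atTop (y := 0.05) (by norm_num)).comp tendsto_natCast_atTop_atTop
    exact (h.eventually (eventually_le_nhds (by norm_num)))
  filter_upwards [hev, ev_ge 1000] with m h1 h2 l hl hl2
  have hmpos : (0:ℝ) < m := by linarith
  have hm1 : (1:ℝ) ≤ m := by linarith
  have hl0 : (0:ℝ) < l := by exact_mod_cast hl
  set p : ℝ := (l : ℝ) / m with hp
  have hp0 : 0 < p := by positivity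
  have hp3 : p ≤ (m : ℝ) ^ (-0.05 : ℝ) := by
    rw [hp, div_le_iff₀ hmpos]
    calc (l : ℝ) ≤ (m : ℝ) ^ (0.95 : ℝ) := hl2
      _ = (m : ℝ) ^ (-0.05 : ℝ) * (m : ℝ) ^ (1 : ℝ) := by rw [← Real.rpow_add hmpos]; norm_num
      _ = _ := by rw [Real.rpow_one]
  have hp2 : p ≤ 0.5 := hp3.trans h1
  have hlm' : (l : ℝ) ≤ 0.5 * m := by
    rw [hp, div_le_iff₀ hmpos] at hp2; exact hp2
  have hlm : l < m := by
    have : (l : ℝ) < m := by linarith
    exact_mod_cast this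
  have hpinv : (m : ℝ) / l = p⁻¹ := by rw [hp, inv_div]
  set y : ℝ := p ^ (0.75 : ℝ) with hy
  have hy0 : 0 < y := Real.rpow_pos_of_pos hp0 _
  have hy1 : y ≤ 1 := Real.rpow_le_one hp0.le (by linarith) (by norm_num)
  have h3 := cLy_small m l hl hlm 2 (by linarith) y hy0
  rw [hpinv, ← hp] at h3
  have h4 : y * (m : ℝ) ^ (-0.27 : ℝ) * p⁻¹ ≤ 1 := by
    have e1 : y * p⁻¹ = p ^ (-0.25 : ℝ) := by
      rw [hy, ← Real.rpow_neg_one, ← Real.rpow_add hp0]; norm_num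
    have e2 : p ^ (-0.25 : ℝ) ≤ (m : ℝ) ^ (0.25 : ℝ) := by
      have : (m : ℝ)⁻¹ ≤ p := by
        rw [hp, ← one_div]
        apply div_le_div_of_nonneg_right _ hmpos.le
        exact_mod_cast hl
      calc p ^ (-0.25 : ℝ) ≤ ((m : ℝ)⁻¹) ^ (-0.25 : ℝ) :=
            Real.rpow_le_rpow_of_nonpos (by positivity) this (by norm_num)
        _ = _ := by
            rw [Real.inv_rpow hmpos.le, ← Real.rpow_neg hmpos.le]
            norm_num
    calc y * (m : ℝ) ^ (-0.27 : ℝ) * p⁻¹ = (y * p⁻¹) * (m : ℝ) ^ (-0.27 : ℝ) := by ring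
      _ ≤ (m : ℝ) ^ (0.25 : ℝ) * (m : ℝ) ^ (-0.27 : ℝ) := by
          rw [e1]; gcongr
      _ = (m : ℝ) ^ (-0.02 : ℝ) := by rw [← Real.rpow_add hmpos]; norm_num
      _ ≤ 1 := Real.rpow_le_one_of_one_le_of_nonpos hm1 (by norm_num)
  have h5 : y * (m : ℝ) ^ (-0.27 : ℝ) * p⁻¹ + 2 * y + y ^ 2 * p⁻¹ / 2 ≤ 4 := by
    have e1 : y ^ 2 * p⁻¹ ≤ 1 := by
      have : y ^ 2 * p⁻¹ = p ^ (0.5 : ℝ) := by
        rw [hy, ← Real.rpow_natCast, ← Real.rpow_mul hp0.le, ← Real.rpow_neg_one, ← Real.rpow_add hp0]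
        norm_num
      rw [this]
      exact Real.rpow_le_one hp0.le (by linarith) (by norm_num)
    linarith
  have h6 : cLy m l y ≤ (p ^ (0.25 : ℝ) * Real.exp 4) ^ l := by
    refine h3.trans ?_
    have e1 : p * y⁻¹ = p ^ (0.25 : ℝ) := by
      rw [hy, ← Real.rpow_neg hp0.le]
      nth_rewrite 1 [← Real.rpow_one p]
      rw [← Real.rpow_add hp0]
      norm_num
    rw [e1]
    apply pow_le_pow_left₀ (by positivity)
    apply mul_le_mul_of_nonneg_left (Real.exp_le_exp.mpr h5) (by positivity)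
  have h7 : (cLy m l y) ^ 116 ≤ (p ^ (29:ℝ) * Real.exp 464) ^ l := by
    calc (cLy m l y) ^ 116 ≤ ((p ^ (0.25 : ℝ) * Real.exp 4) ^ l) ^ 116 :=
          pow_le_pow_left₀ (cLy_nonneg m l y hy0.le) h6 _
      _ = ((p ^ (0.25 : ℝ) * Real.exp 4) ^ 116) ^ l := pow_right_comm _ _ _
      _ = _ := by
        congr 1
        rw [mul_pow, ← Real.exp_nat_mul, ← Real.rpow_natCast, ← Real.rpow_mul hp0.le]
        norm_num
  have h8 : (m.choose l : ℝ) ^ 2 * (l ! : ℝ) ≤ (Real.exp 1 * (m * p⁻¹)) ^ l := by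
    have e1 := choose_sq_fact_le m l hl
    have e2 : (m : ℝ) ^ 2 / l = m * p⁻¹ := by rw [← hpinv]; ring
    rw [e2] at e1
    exact e1
  calc (cLy m l y) ^ 116 * ((m.choose l : ℝ) ^ 2 * (l ! : ℝ))
      ≤ (p ^ (29:ℝ) * Real.exp 464) ^ l * (Real.exp 1 * (m * p⁻¹)) ^ l := by
        apply mul_le_mul h7 h8 (by positivity) (by positivity)
    _ = (Real.exp 465 * (m * p ^ (28:ℝ))) ^ l := by
        rw [← mul_pow]
        congr 1
        have e1 : p ^ (28:ℝ) = p ^ (29:ℝ) * p⁻¹ := by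
          rw [← Real.rpow_neg_one, ← Real.rpow_add hp0]; norm_num
        have e2 : Real.exp 465 = Real.exp 464 * Real.exp 1 := by
          rw [← Real.exp_add]; norm_num
        rw [e1, e2]
        ring
    _ ≤ _ := by
        apply pow_le_pow_left₀ (by positivity)
        apply mul_le_mul_of_nonneg_left _ (Real.exp_pos _).le
        calc (m : ℝ) * p ^ (28:ℝ) ≤ m * ((m : ℝ) ^ (-0.05 : ℝ)) ^ (28:ℝ) := by
              apply mul_le_mul_of_nonneg_left _ hmpos.le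
              exact Real.rpow_le_rpow hp0.le hp3 (by norm_num)
          _ = (m : ℝ) ^ (1:ℝ) * (m : ℝ) ^ (-1.4 : ℝ) := by
              rw [← Real.rpow_mul hmpos.le, Real.rpow_one]; norm_num
          _ = _ := by rw [← Real.rpow_add hmpos]; norm_num

lemma geom_half (ρ : ℝ) (h0 : 0 ≤ ρ) (h1 : ρ ≤ 1 / 2) (m : ℕ) :
    ∑ l ∈ Finset.Icc 1 m, ρ ^ l ≤ 2 * ρ - 2 * ρ * ρ ^ m := by
  induction m with
  | zero => simp
  | succ m ih =>
    rw [Finset.sum_Icc_succ_top (by omega)]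
    have h2 : 0 ≤ ρ ^ (m + 1) := by positivity
    have h3 : ρ ^ (m + 1) = ρ * ρ ^ m := by ring
    nlinarith

theorem num (ε : ℝ) (hε : 0 < ε) : ∃ M : ℕ, ∀ m : ℕ, M ≤ m → ∀ T X : ℕ → ℝ,
    (∀ l, 0 ≤ X l) →
    (∀ l, 1 ≤ l → 2 * l ≤ m → ∀ y : ℝ, 0 < y → T l ≤ (cLy m l y) ^ 116 * X l) →
    (∀ l, l ≤ m → 0.455 * (m : ℝ) ≤ l → T l ≤ (cH m l) ^ 116 * X l) →
    (∀ l, 1 ≤ l → l ≤ m → X l ≤ Real.exp (3.2 * m)) →
    (∀ l : ℕ, (m : ℝ) ^ (0.95 : ℝ) ≤ l → (l : ℝ) ≤ 0.03 * m →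
      X l ≤ (m.choose l : ℝ) ^ 2 * Real.exp (100 * l)) →
    (∀ l, 1 ≤ l → l ≤ m → X l ≤ (m.choose l : ℝ) ^ 2 * (l ! : ℝ)) →
    ∑ l ∈ Finset.Icc 1 m, T l ≤ ε := by
  have hρ : Tendsto (fun m : ℕ => Real.exp 465 * (m : ℝ) ^ (-0.4 : ℝ)) atTop (𝓝 0) := by
    have h : Tendsto (fun m : ℕ => (m : ℝ) ^ (-0.4 : ℝ)) atTop (𝓝 0) :=
      (tendsto_rpow_neg_atTop (y := 0.4) (by norm_num)).comp tendsto_natCast_atTop_atTop
    simpa using h.const_mul (Real.exp 465)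
  have hρ1 : ∀ᶠ m : ℕ in atTop, Real.exp 465 * (m : ℝ) ^ (-0.4 : ℝ) ≤ min (1 / 2) (ε / 4) :=
    hρ.eventually (eventually_le_nhds (by positivity))
  have hall : ∀ᶠ m : ℕ in atTop, ∀ T X : ℕ → ℝ,
    (∀ l, 0 ≤ X l) →
    (∀ l, 1 ≤ l → 2 * l ≤ m → ∀ y : ℝ, 0 < y → T l ≤ (cLy m l y) ^ 116 * X l) →
    (∀ l, l ≤ m → 0.455 * (m : ℝ) ≤ l → T l ≤ (cH m l) ^ 116 * X l) →
    (∀ l, 1 ≤ l → l ≤ m → X l ≤ Real.exp (3.2 * m)) →
    (∀ l : ℕ, (m : ℝ) ^ (0.95 : ℝ) ≤ l → (l : ℝ) ≤ 0.03 * m →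
      X l ≤ (m.choose l : ℝ) ^ 2 * Real.exp (100 * l)) →
    (∀ l, 1 ≤ l → l ≤ m → X l ≤ (m.choose l : ℝ) ^ 2 * (l ! : ℝ)) →
    ∑ l ∈ Finset.Icc 1 m, T l ≤ ε := by
    filter_upwards [nH, nB, nC, nD, hρ1, ev_ge (2 / ε), ev_ge 1000] with m hH hB hC hD hr hge hge2
      T X hX hTL hTH hi hii hiii
    have hmpos : (0:ℝ) < m := by linarith
    set ρ : ℝ := Real.exp 465 * (m : ℝ) ^ (-0.4 : ℝ) with hρdef
    have hρ0 : 0 ≤ ρ := by positivity
    have key : ∀ l ∈ Finset.Icc 1 m, T l ≤ 1 / (m : ℝ) ^ 2 + ρ ^ l := by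
      intro l hl
      rw [Finset.mem_Icc] at hl
      have hl0 : (0:ℝ) < l := by exact_mod_cast hl.1
      have hq : 0 ≤ 1 / (m : ℝ) ^ 2 := by positivity
      have hq2 : 0 ≤ ρ ^ l := by positivity
      rcases le_or_gt (0.455 * (m : ℝ)) l with h | h
      · have h1 := hTH l hl.2 h
        have h2 := hi l hl.1 hl.2
        have h3 := hH l hl.2 h
        have h4 : (cH m l) ^ 116 * X l ≤ (cH m l) ^ 116 * Real.exp (3.2 * m) :=
          mul_le_mul_of_nonneg_left h2 (pow_nonneg (cH_nonneg m l hl.2) _)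
        linarith
      have h2l : 2 * l ≤ m := by
        have : 2 * (l : ℝ) ≤ m := by linarith
        exact_mod_cast this
      have hml : (0:ℝ) < (m : ℝ) - l := by linarith
      rcases le_or_gt (0.03 * (m : ℝ)) l with h' | h'
      · have hb0 : (0:ℝ) < (l : ℝ) / ((m : ℝ) - l) := by positivity
        have h1 := hTL l hl.1 h2l _ hb0
        have h2 := hi l hl.1 hl.2
        have h3 := hB l h' h.le
        have h4 := mul_le_mul_of_nonneg_left h2 (pow_nonneg (cLy_nonneg m l _ hb0.le) 116)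
        linarith
      rcases le_or_gt ((m : ℝ) ^ (0.95 : ℝ)) l with h'' | h''
      · have hb0 : (0:ℝ) < Real.sqrt ((l : ℝ) / m) := by positivity
        have h1 := hTL l hl.1 h2l _ hb0
        have h2 := hii l h'' h'.le
        have h3 := hC l h'' h'.le
        have h4 := mul_le_mul_of_nonneg_left h2 (pow_nonneg (cLy_nonneg m l _ hb0.le) 116)
        linarith
      · have hb0 : (0:ℝ) < ((l : ℝ) / m) ^ (0.75 : ℝ) := by positivity
        have h1 := hTL l hl.1 h2l _ hb0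
        have h2 := hiii l hl.1 hl.2
        have h3 := hD l hl.1 h''.le
        have h4 := mul_le_mul_of_nonneg_left h2 (pow_nonneg (cLy_nonneg m l _ hb0.le) 116)
        linarith
    have h1 : ρ ≤ 1 / 2 := hr.trans (min_le_left _ _)
    have h2 : ρ ≤ ε / 4 := hr.trans (min_le_right _ _)
    have h3 := geom_half ρ hρ0 h1 m
    have h4 : 0 ≤ 2 * ρ * ρ ^ m := by positivity
    calc ∑ l ∈ Finset.Icc 1 m, T l ≤ ∑ l ∈ Finset.Icc 1 m, (1 / (m : ℝ) ^ 2 + ρ ^ l) :=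
          Finset.sum_le_sum key
      _ = (m : ℝ) * (1 / (m : ℝ) ^ 2) + ∑ l ∈ Finset.Icc 1 m, ρ ^ l := by
          rw [Finset.sum_add_distrib, Finset.sum_const, Nat.card_Icc, nsmul_eq_mul]
          simp
      _ ≤ ε / 2 + 2 * ρ := by
          have h5 : (m : ℝ) * (1 / (m : ℝ) ^ 2) = 1 / m := by field_simp
          have h6 : 1 / (m : ℝ) ≤ ε / 2 := by
            rw [div_le_div_iff₀ hmpos (by norm_num)]
            have hge' := (div_le_iff₀ hε).mp hge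
            linarith
          linarith
      _ ≤ ε := by linarith
  obtain ⟨M, hM⟩ := Filter.eventually_atTop.mp hall
  exact ⟨M, fun m hm => hM m hm⟩

end Crest.Agent.T22Num
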