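import Crest.Agent.T22Defs
import Crest.Agent.T22Num
import Crest.Agent.T22Lstar
import Crest.Agent.T22HFin
import Crest.Agent.T22Lev

/-! S0222: assembly of the random walk theorem from its parts (abstract form). -/

set_option autoImplicit false

namespace Crest.Agent.T22

open Finset Crest.Agent.ThS Crest.Agent.T22Num
open scoped Nat

theorem cHf_eq (m l : ℕ) : cHf m l = cH m l := rfl

/-- the abstract assembly at one `m` -/
theorem RW_core (m : ℕ) (zeta : Equiv.Perm (Fin m) → ℝ) (hz : RWHyp m zeta) (lhs ε : ℝ)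
    (T X : ℕ → ℝ)
    (P : ℕ → (Equiv.Perm (Fin m) → ℝ) → Prop)
    (hPperp : ∀ l f, P l f → ∀ x y : Fin (l - 1) ↪ Fin m, ∑ g, f g * indE x y g = 0)
    (hL : ∀ l, 1 ≤ l → 2 * l ≤ m → ∀ f, P l f → ∑ g, f g * cv zeta f g ≤
      (∑ g, zeta g * ((∑ X ∈ powersetCard l (univ : Finset (Fin m)),
        1 / (((m - l).choose (X.map g.toEmbedding \ X).card : ℕ) : ℝ))
          / ((m).choose l : ℝ))) * ∑ g, f g ^ 2)
    (hsplit : lhs ≤ ∑ l ∈ Finset.Icc 1 m, T l)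
    (hT : ∀ l c, 1 ≤ l → l ≤ m → 0 ≤ c →
      (∀ f, P l f → ∑ g, f g * cv zeta f g ≤ c * ∑ g, f g ^ 2) → T l ≤ c ^ 116 * X l)
    (hX0 : ∀ l, 0 ≤ X l)
    (hX1 : ∀ l, 1 ≤ l → l ≤ m → X l ≤ Real.exp (3.2 * m))
    (hX2 : ∀ l : ℕ, (m : ℝ) ^ (0.95 : ℝ) ≤ l → (l : ℝ) ≤ 0.03 * m →
      X l ≤ (m.choose l : ℝ) ^ 2 * Real.exp (100 * l))
    (hX3 : ∀ l, 1 ≤ l → l ≤ m → X l ≤ (m.choose l : ℝ) ^ 2 * (l ! : ℝ))
    (hm : 1 ≤ m)
    (hnum : ∀ T X : ℕ → ℝ,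
    (∀ l, 0 ≤ X l) →
    (∀ l, 1 ≤ l → 2 * l ≤ m → ∀ y : ℝ, 0 < y → T l ≤ (cLy m l y) ^ 116 * X l) →
    (∀ l, l ≤ m → 0.455 * (m : ℝ) ≤ l → T l ≤ (cH m l) ^ 116 * X l) →
    (∀ l, 1 ≤ l → l ≤ m → X l ≤ Real.exp (3.2 * m)) →
    (∀ l : ℕ, (m : ℝ) ^ (0.95 : ℝ) ≤ l → (l : ℝ) ≤ 0.03 * m →
      X l ≤ (m.choose l : ℝ) ^ 2 * Real.exp (100 * l)) →
    (∀ l, 1 ≤ l → l ≤ m → X l ≤ (m.choose l : ℝ) ^ 2 * (l ! : ℝ)) →
    ∑ l ∈ Finset.Icc 1 m, T l ≤ ε) : lhs ≤ ε := by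
  have hm0 : (0 : ℝ) < m := by exact_mod_cast hm
  refine hsplit.trans (hnum T X hX0 ?_ ?_ hX1 hX2 hX3)
  · intro l hl hl2 y hy
    apply hT l (cLy m l y) hl (by omega) (cLy_nonneg m l y hy.le)
    intro f hf
    refine (hL l hl hl2 f hf).trans ?_
    apply mul_le_mul_of_nonneg_right _ (Finset.sum_nonneg (fun g _ => sq_nonneg _))
    have h1 := cL_le zeta hz.nonneg ((m : ℝ) ^ (-(0.27 : ℝ))) (by
      intro x hx
      have := hz.F x hx
      rw [Fintype.card_fin]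
      exact this) l hl (by rw [Fintype.card_fin]; exact hl2) y hy
    rw [Fintype.card_fin] at h1
    refine h1.trans (le_of_eq ?_)
    unfold cLy
    rw [one_div, one_div, inv_pow]
  · intro l hlm hl2
    have hl : 1 ≤ l := by
      have : (0:ℝ) < l := lt_of_lt_of_le (by positivity) hl2
      have : 0 < l := by exact_mod_cast this
      omega
    apply hT l (cH m l) hl hlm (cH_nonneg m l hlm)
    intro f hf
    have hK' : ∀ c : ℕ, c = m → ∀ f : Equiv.Perm (Fin m) → ℝ,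
        ((djSet (Fin m) (c / 4)).card : ℝ) * (∑ g, f g * cv zeta f g)
          ≤ ∑ k ∈ djSet (Fin m) (c / 4), ∑ g, EKf (c / 4) k f g ^ 2 := by
      intro c hc f
      subst hc
      exact hz.K f
    have h1 := H_contract zeta (hK' _ (Fintype.card_fin m)) l hl
      (by rw [Fintype.card_fin]; exact hlm) f (hPperp l f hf)
    rw [Fintype.card_fin, cHf_eq] at h1
    exact h1

end Crest.Agent.T22
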