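import Mathlib

/-! S0222, part (L): nonvanishing of the antisymmetrisation of a "new" function on tuples. -/

set_option autoImplicit false
set_option linter.unusedSectionVars false

namespace Crest.Agent.T22

open Finset Equiv

section

variable {ι α : Type*} [Fintype ι] [DecidableEq ι] [Fintype α] [DecidableEq α]

/-- pair correlation -/
noncomputable def Phi (F : (ι → α) → ℝ) (u v : ι → α) : ℝ :=
  ∑ h : Perm α, F (h ∘ u) * F (h ∘ v)

theorem Phi_perm (F : (ι → α) → ℝ) (u v : ι → α) (p : Perm α) :
    Phi F (p ∘ u) (p ∘ v) = Phi F u v := by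
  unfold Phi
  exact Equiv.sum_comp (Equiv.mulRight p) (fun h : Perm α => F (h ∘ u) * F (h ∘ v))

theorem Phi_noninj (F : (ι → α) → ℝ) (hinj : ∀ y, F y ≠ 0 → Function.Injective y)
    (u v : ι → α) (hv : ¬ Function.Injective v) : Phi F u v = 0 := by
  unfold Phi
  refine Finset.sum_eq_zero fun h _ => ?_
  have : F (h ∘ v) = 0 := by
    by_contra hne
    exact hv (Function.Injective.of_comp (hinj _ hne))
  rw [this, mul_zero]

theorem Phi_new (F : (ι → α) → ℝ)
    (hnew : ∀ (i : ι) (y : ι → α), ∑ b, F (Function.update y i b) = 0)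
    (u v : ι → α) (i : ι) : ∑ w, Phi F u (Function.update v i w) = 0 := by
  unfold Phi
  rw [Finset.sum_comm]
  refine Finset.sum_eq_zero fun h _ => ?_
  rw [← Finset.mul_sum]
  have h1 : ∑ w, F (h ∘ Function.update v i w) = ∑ b, F (Function.update (h ∘ v) i b) := by
    rw [← Equiv.sum_comp h (fun b => F (Function.update (h ∘ v) i b))]
    refine Finset.sum_congr rfl fun w _ => ?_
    congr 1
    funext j
    by_cases hj : j = i
    · subst hj; simp
    · simp [hj]
  rw [h1, hnew, mul_zero]

/-- completions of `v` inside `range u` -/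
noncomputable def CompS (F : (ι → α) → ℝ) (u v : ι → α) : ℝ :=
  ∑ π : Perm ι, if (∀ i, v i ∈ Set.range u → u (π i) = v i) then Phi F u (u ∘ π) else 0

/-- number of coordinates outside -/
noncomputable def outc (u v : ι → α) : ℕ := by
  classical
  exact (Finset.univ.filter (fun i => v i ∉ Set.range u)).card

theorem Phi_rec (F : (ι → α) → ℝ) (hinj : ∀ y, F y ≠ 0 → Function.Injective y)
    (hnew : ∀ (i : ι) (y : ι → α), ∑ b, F (Function.update y i b) = 0)
    (u v : ι → α) (hu : Function.Injective u) (hv : Function.Injective v) (i : ι)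
    (hi : v i ∉ Set.range u) :
    ((Fintype.card α : ℝ) - Fintype.card ι - outc u v + 1) * Phi F u v
      + ∑ j, Phi F u (Function.update v i (u j)) = 0 := by
  classical
  have h0 := Phi_new F hnew u v i
  -- split
  have h1 : ∑ w, Phi F u (Function.update v i w)
      = ∑ w ∈ Finset.univ.filter (fun w => w ∈ Set.range u), Phi F u (Function.update v i w)
        + ∑ w ∈ Finset.univ.filter (fun w => w ∉ Set.range u), Phi F u (Function.update v i w) :=
    (Finset.sum_filter_add_sum_filter_not _ _ _).symm
  have h2 : ∑ w ∈ Finset.univ.filter (fun w => w ∈ Set.range u), Phi F u (Function.update v i w)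
      = ∑ j, Phi F u (Function.update v i (u j)) := by
    have himg : Finset.univ.filter (fun w => w ∈ Set.range u) = Finset.univ.image u := by
      ext w; simp
    rw [himg, Finset.sum_image (fun _ _ _ _ h => hu h)]
  -- outside part
  have h3 : ∑ w ∈ Finset.univ.filter (fun w => w ∉ Set.range u), Phi F u (Function.update v i w)
      = ∑ w ∈ Finset.univ.filter (fun w => w ∉ Set.range u ∧ ∀ j, j ≠ i → v j ≠ w), Phi F u v := by
    rw [← Finset.sum_filter_add_sum_filter_not
      (Finset.univ.filter (fun w => w ∉ Set.range u)) (fun w => ∀ j, j ≠ i → v j ≠ w)]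
    rw [Finset.filter_filter, Finset.filter_filter]
    have hz : ∑ w ∈ Finset.univ.filter (fun w => w ∉ Set.range u ∧ ¬ ∀ j, j ≠ i → v j ≠ w),
        Phi F u (Function.update v i w) = 0 := by
      refine Finset.sum_eq_zero fun w hw => ?_
      rw [Finset.mem_filter] at hw
      obtain ⟨_, _, hw2⟩ := hw
      push Not at hw2
      obtain ⟨j, hj, hjw⟩ := hw2
      apply Phi_noninj F hinj
      intro hI
      have : Function.update v i w j = Function.update v i w i := by
        simp [hj, hjw]
      exact hj (hI this)
    rw [hz, add_zero]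
    refine Finset.sum_congr rfl fun w hw => ?_
    rw [Finset.mem_filter] at hw
    obtain ⟨_, hw1, hw2⟩ := hw
    have e1 : (Equiv.swap (v i) w) ∘ u = u := by
      funext k
      simp only [Function.comp_apply]
      apply Equiv.swap_apply_of_ne_of_ne
      · intro h; exact hi ⟨k, h⟩
      · intro h; exact hw1 ⟨k, h⟩
    have e2 : (Equiv.swap (v i) w) ∘ v = Function.update v i w := by
      funext k
      by_cases hk : k = i
      · subst hk; simp
      · simp only [Function.comp_apply, Function.update_of_ne hk]
        apply Equiv.swap_apply_of_ne_of_ne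
        · intro h; exact hk (hv h)
        · exact hw2 k hk
    conv_rhs => rw [← Phi_perm F u v (Equiv.swap (v i) w), e1, e2]
  have hcard : ((Finset.univ.filter (fun w => w ∉ Set.range u ∧ ∀ j, j ≠ i → v j ≠ w)).card : ℝ)
      = (Fintype.card α : ℝ) - Fintype.card ι - outc u v + 1 := by
    -- complement = image u ∪ image v (outside coordinates ≠ i)
    set O : Finset ι := (Finset.univ.filter (fun k => v k ∉ Set.range u)) with hO
    have hiO : i ∈ O := by rw [hO, Finset.mem_filter]; exact ⟨Finset.mem_univ _, hi⟩
    have hcompl : Finset.univ.filter (fun w => w ∉ Set.range u ∧ ∀ j, j ≠ i → v j ≠ w)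
        = (Finset.univ.image u ∪ (O.erase i).image v)ᶜ := by
      ext w
      simp only [Finset.mem_filter, Finset.mem_univ, true_and, Finset.mem_compl, Finset.mem_union,
        Finset.mem_image, Finset.mem_erase, not_or, not_exists, not_and, Set.mem_range]
      constructor
      · rintro ⟨h1, h2⟩
        exact ⟨h1, fun k hk => h2 k hk.1⟩
      · rintro ⟨h1, h2⟩
        refine ⟨h1, fun j hj hjw => ?_⟩
        have : j ∈ O := by
          rw [hO, Finset.mem_filter]
          refine ⟨Finset.mem_univ _, ?_⟩
          rintro ⟨k, hk⟩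
          exact h1 k (hk.trans hjw)
        exact h2 j ⟨hj, this⟩ hjw
    rw [hcompl, Finset.card_compl]
    have hdisj : Disjoint (Finset.univ.image u) ((O.erase i).image v) := by
      rw [Finset.disjoint_left]
      intro w hw1 hw2
      rw [Finset.mem_image] at hw1 hw2
      obtain ⟨k, _, hk⟩ := hw1
      obtain ⟨j, hj, hjw⟩ := hw2
      rw [Finset.mem_erase, hO, Finset.mem_filter] at hj
      exact hj.2.2 ⟨k, hk.trans hjw.symm⟩
    have hc1 : (Finset.univ.image u ∪ (O.erase i).image v).card = Fintype.card ι + (O.card - 1) := by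
      rw [Finset.card_union_of_disjoint hdisj, Finset.card_image_of_injective _ hu,
        Finset.card_image_of_injective _ hv, Finset.card_erase_of_mem hiO, Finset.card_univ]
    have hle : (Finset.univ.image u ∪ (O.erase i).image v).card ≤ Fintype.card α :=
      Finset.card_le_univ _
    have hOpos : 1 ≤ O.card := Finset.card_pos.mpr ⟨i, hiO⟩
    rw [Nat.cast_sub hle, hc1]
    have hoc : outc u v = O.card := by
      unfold outc; rfl
    rw [hoc]
    push_cast [Nat.cast_sub hOpos]
    ring
  rw [h1, h2, h3, Finset.sum_const, nsmul_eq_mul, hcard] at h0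
  linarith


theorem CompS_step (F : (ι → α) → ℝ) (u v : ι → α) (hu : Function.Injective u)
    (i : ι) (hi : v i ∉ Set.range u) :
    ∑ j, CompS F u (Function.update v i (u j)) = CompS F u v := by
  classical
  unfold CompS
  rw [Finset.sum_comm]
  refine Finset.sum_congr rfl fun π _ => ?_
  have h1 : ∀ j, (if (∀ k, Function.update v i (u j) k ∈ Set.range u →
        u (π k) = Function.update v i (u j) k) then Phi F u (u ∘ π) else 0)
      = if j = π i then (if (∀ k, v k ∈ Set.range u → u (π k) = v k) then Phi F u (u ∘ π) else 0)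
        else 0 := by
    intro j
    by_cases hj : j = π i
    · rw [if_pos hj]
      congr 1
      apply propext
      constructor
      · intro h k hk
        have hki : k ≠ i := fun h' => hi (h' ▸ hk)
        have := h k
        rw [Function.update_of_ne hki] at this
        exact this hk
      · intro h k
        by_cases hki : k = i
        · subst hki
          intro _
          rw [Function.update_self, hj]
        · rw [Function.update_of_ne hki]
          exact h k
    · rw [if_neg hj, if_neg]
      intro h
      have := h i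
      rw [Function.update_self] at this
      exact hj (hu (this ⟨j, rfl⟩)).symm
  rw [Finset.sum_congr rfl (fun j _ => h1 j), Finset.sum_ite_eq' Finset.univ (π i)]
  simp

theorem outc_update (u v : ι → α) (i : ι) (hi : v i ∉ Set.range u) (j : ι) :
    outc u (Function.update v i (u j)) + 1 = outc u v := by
  classical
  unfold outc
  have h1 : Finset.univ.filter (fun k => Function.update v i (u j) k ∉ Set.range u)
      = (Finset.univ.filter (fun k => v k ∉ Set.range u)).erase i := by
    ext k
    by_cases hk : k = i
    · subst hk; simp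
    · simp [hk]
  rw [h1, Finset.card_erase_of_mem (by simp only [Finset.mem_filter, Finset.mem_univ, true_and]; exact hi)]
  have : 1 ≤ (Finset.univ.filter (fun k => v k ∉ Set.range u)).card :=
    Finset.card_pos.mpr ⟨i, by simp only [Finset.mem_filter, Finset.mem_univ, true_and]; exact hi⟩
  omega

/-- the constants -/
noncomputable def CC (m l : ℕ) : ℕ → ℝ
  | 0 => 1
  | k + 1 => CC m l k / ((m : ℝ) - l - k)

theorem CC_pos {m l : ℕ} : ∀ k : ℕ, l + k ≤ m → 0 < CC m l k
  | 0, _ => one_pos
  | k + 1, h => by
    have h1 := CC_pos (m := m) (l := l) k (by omega)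
    have h2 : (0 : ℝ) < (m : ℝ) - l - k := by
      have : ((l + (k + 1) : ℕ) : ℝ) ≤ m := by exact_mod_cast h
      push_cast at this
      linarith
    exact div_pos h1 h2

theorem Phi_expand (F : (ι → α) → ℝ) (hinj : ∀ y, F y ≠ 0 → Function.Injective y)
    (hnew : ∀ (i : ι) (y : ι → α), ∑ b, F (Function.update y i b) = 0)
    (u : ι → α) (hu : Function.Injective u) (hm : 2 * Fintype.card ι ≤ Fintype.card α) :
    ∀ (k : ℕ) (v : ι → α), Function.Injective v → outc u v = k →
      Phi F u v = (-1) ^ k * CC (Fintype.card α) (Fintype.card ι) k * CompS F u v := by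
  classical
  intro k
  induction k with
  | zero =>
    intro v hv hk
    have hall : ∀ i, v i ∈ Set.range u := by
      intro i
      by_contra hi
      unfold outc at hk
      rw [Finset.card_eq_zero] at hk
      have : i ∈ Finset.univ.filter (fun i => v i ∉ Set.range u) := by
        simp only [Finset.mem_filter, Finset.mem_univ, true_and]; exact hi
      rw [hk] at this
      exact absurd this (Finset.notMem_empty _)
    choose p hp using hall
    have hpinj : Function.Injective p := by
      intro a b hab
      apply hv
      rw [← hp a, ← hp b, hab]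
    set π0 : Perm ι := Equiv.ofBijective p (Finite.injective_iff_bijective.mp hpinj) with hπ0
    have hπ0a : ∀ i, u (π0 i) = v i := fun i => hp i
    have huv : u ∘ π0 = v := by funext i; exact hπ0a i
    unfold CompS CC
    rw [Finset.sum_eq_single π0]
    · rw [if_pos (fun i _ => hπ0a i), huv]; ring
    · intro π _ hne
      rw [if_neg]
      intro h
      apply hne
      ext i
      have := h i ⟨p i, hp i⟩
      rw [← hπ0a i] at this
      exact hu this
    · intro h; exact absurd (Finset.mem_univ _) h
  | succ k ih =>
    intro v hv hk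
    have hex : ∃ i, v i ∉ Set.range u := by
      unfold outc at hk
      have : (Finset.univ.filter (fun i => v i ∉ Set.range u)).Nonempty := by
        rw [← Finset.card_pos]; omega
      obtain ⟨i, hi⟩ := this
      exact ⟨i, (Finset.mem_filter.mp hi).2⟩
    obtain ⟨i, hi⟩ := hex
    have hrec := Phi_rec F hinj hnew u v hu hv i hi
    have hkle : k + 1 ≤ Fintype.card ι := by
      rw [← hk]
      unfold outc
      exact Finset.card_le_univ _
    have hsum : ∑ j, Phi F u (Function.update v i (u j))
        = (-1) ^ k * CC (Fintype.card α) (Fintype.card ι) k * CompS F u v := by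
      rw [← CompS_step F u v hu i hi, Finset.mul_sum]
      refine Finset.sum_congr rfl fun j _ => ?_
      by_cases hI : Function.Injective (Function.update v i (u j))
      · apply ih _ hI
        have := outc_update u v i hi j
        omega
      · rw [Phi_noninj F hinj u _ hI]
        -- completions are empty
        have : CompS F u (Function.update v i (u j)) = 0 := by
          unfold CompS
          refine Finset.sum_eq_zero fun π _ => ?_
          rw [if_neg]
          intro h
          apply hI
          intro a b hab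
          by_cases ha : a = i
          · by_cases hb : b = i
            · rw [ha, hb]
            · subst ha
              have h1 := h a (by rw [Function.update_self]; exact ⟨j, rfl⟩)
              have h2 := h b (by rw [← hab, Function.update_self]; exact ⟨j, rfl⟩)
              rw [← hab, ← h1] at h2
              exact (π.injective (hu h2)).symm
          · by_cases hb : b = i
            · subst hb
              have h1 := h b (by rw [Function.update_self]; exact ⟨j, rfl⟩)
              have h2 := h a (by rw [hab, Function.update_self]; exact ⟨j, rfl⟩)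
              rw [hab, ← h1] at h2
              exact π.injective (hu h2)
            · rw [Function.update_of_ne ha, Function.update_of_ne hb] at hab
              exact hv hab
        rw [this, mul_zero]
    rw [hsum, hk] at hrec
    have hden : (0 : ℝ) < (Fintype.card α : ℝ) - Fintype.card ι - k := by
      have : (((Fintype.card ι) + (k + 1) : ℕ) : ℝ) ≤ Fintype.card α := by
        exact_mod_cast (by omega : Fintype.card ι + (k + 1) ≤ Fintype.card α)
      push_cast at this
      linarith
    have hden' : ((Fintype.card α : ℝ) - Fintype.card ι - k) ≠ 0 := hden.ne'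
    have e : ((Fintype.card α : ℝ) - Fintype.card ι - ((k + 1 : ℕ) : ℝ) + 1)
        = (Fintype.card α : ℝ) - Fintype.card ι - k := by push_cast; ring
    rw [e] at hrec
    have : Phi F u v = -((-1) ^ k * CC (Fintype.card α) (Fintype.card ι) k * CompS F u v)
        / ((Fintype.card α : ℝ) - Fintype.card ι - k) := by
      rw [eq_div_iff hden']
      linarith
    rw [this]
    show _ = (-1) ^ (k + 1) * (CC (Fintype.card α) (Fintype.card ι) k
      / ((Fintype.card α : ℝ) - Fintype.card ι - k)) * CompS F u v
    rw [pow_succ]
    ring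


/-- replace the coordinates in `S` -/
def mix (S : Finset ι) (a b : ι → α) : ι → α := fun i => if i ∈ S then b i else a i

theorem mix_range (a b : ι → α) (hab : ∀ i j, a i ≠ b j) (S : Finset ι) (i : ι) :
    mix S a b i ∈ Set.range a ↔ i ∉ S := by
  unfold mix
  constructor
  · intro h hi
    rw [if_pos hi] at h
    obtain ⟨j, hj⟩ := h
    exact hab j i hj
  · intro hi
    rw [if_neg hi]
    exact ⟨i, rfl⟩

theorem mix_inj (a b : ι → α) (ha : Function.Injective a) (hb : Function.Injective b)
    (hab : ∀ i j, a i ≠ b j) (S : Finset ι) : Function.Injective (mix S a b) := by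
  intro i j hij
  unfold mix at hij
  by_cases hi : i ∈ S
  · by_cases hj : j ∈ S
    · rw [if_pos hi, if_pos hj] at hij; exact hb hij
    · rw [if_pos hi, if_neg hj] at hij; exact absurd hij.symm (hab j i)
  · by_cases hj : j ∈ S
    · rw [if_neg hi, if_pos hj] at hij; exact absurd hij (hab i j)
    · rw [if_neg hi, if_neg hj] at hij; exact ha hij

/-- group positivity -/
theorem CompS_nonneg (F : (ι → α) → ℝ) (u : ι → α) (hu : Function.Injective u) (S : Finset ι) :
    0 ≤ ∑ π : Perm ι, if (∀ i, i ∉ S → π i = i) then Phi F u (u ∘ π) else 0 := by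
  classical
  set H : Finset (Perm ι) := Finset.univ.filter (fun π => ∀ i, i ∉ S → π i = i) with hH
  have hmul : ∀ {p q : Perm ι}, p ∈ H → q ∈ H → p * q ∈ H := by
    intro p q hp hq
    rw [hH, Finset.mem_filter] at hp hq ⊢
    refine ⟨Finset.mem_univ _, fun i hi => ?_⟩
    rw [Perm.mul_apply, hq.2 i hi, hp.2 i hi]
  have hinv : ∀ {p : Perm ι}, p ∈ H → p⁻¹ ∈ H := by
    intro p hp
    rw [hH, Finset.mem_filter] at hp ⊢
    refine ⟨Finset.mem_univ _, fun i hi => ?_⟩
    rw [Perm.inv_eq_iff_eq, hp.2 i hi]
  have h1 : (∑ π : Perm ι, if (∀ i, i ∉ S → π i = i) then Phi F u (u ∘ π) else 0)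
      = ∑ π ∈ H, Phi F u (u ∘ π) := by
    rw [hH, Finset.sum_filter]
  rw [h1]
  -- for ρ ∈ H, the sum is invariant
  have h2 : ∀ ρ ∈ H, ∑ π ∈ H, Phi F (u ∘ ρ) (u ∘ π) = ∑ π ∈ H, Phi F u (u ∘ π) := by
    intro ρ hρ
    -- extend ρ to a permutation of α
    obtain ⟨p, hp⟩ : ∃ p : Perm α, ∀ i, p (u i) = u (ρ i) := by
      refine ⟨(Perm.viaFintypeEmbedding ρ ⟨u, hu⟩), fun i => ?_⟩
      exact Perm.viaFintypeEmbedding_apply_image ρ ⟨u, hu⟩ i
    have hp' : p ∘ u = u ∘ ρ := by funext i; exact hp i
    calc ∑ π ∈ H, Phi F (u ∘ ρ) (u ∘ π) = ∑ π ∈ H, Phi F (u ∘ ρ) (u ∘ (ρ * π : Perm ι)) := by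
          refine Finset.sum_bij' (fun π _ => ρ⁻¹ * π) (fun π _ => ρ * π)
            (fun π hπ => hmul (hinv hρ) hπ) (fun π hπ => hmul hρ hπ) ?_ ?_ ?_
          · intro π _; simp
          · intro π _; simp
          · intro π _; simp
      _ = ∑ π ∈ H, Phi F (p ∘ u) (p ∘ (u ∘ π)) := by
          refine Finset.sum_congr rfl fun π _ => ?_
          congr 1
          · exact hp'.symm
          · funext i
            simp only [Function.comp_apply, Perm.mul_apply, hp]
      _ = ∑ π ∈ H, Phi F u (u ∘ π) := Finset.sum_congr rfl fun π _ => Phi_perm F u (u ∘ π) p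
  have h3 : (H.card : ℝ) * ∑ π ∈ H, Phi F u (u ∘ π)
      = ∑ h : Perm α, (∑ π ∈ H, F (h ∘ u ∘ π)) ^ 2 := by
    calc (H.card : ℝ) * ∑ π ∈ H, Phi F u (u ∘ π) = ∑ ρ ∈ H, ∑ π ∈ H, Phi F (u ∘ ρ) (u ∘ π) := by
          rw [Finset.sum_congr rfl h2, Finset.sum_const, nsmul_eq_mul]
      _ = ∑ h : Perm α, (∑ π ∈ H, F (h ∘ u ∘ π)) ^ 2 := by
          unfold Phi
          simp_rw [pow_two, Finset.sum_mul_sum]
          rw [Finset.sum_comm]
          rw [Finset.sum_congr rfl (fun π _ => Finset.sum_comm)]
          rw [Finset.sum_comm]
          refine Finset.sum_congr rfl fun h _ => ?_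
          rw [Finset.sum_comm]
  have hpos : (0 : ℝ) < H.card := by
    have : (1 : Perm ι) ∈ H := by
      rw [hH, Finset.mem_filter]; exact ⟨Finset.mem_univ _, fun i _ => rfl⟩
    exact_mod_cast Finset.card_pos.mpr ⟨1, this⟩
  have h4 : 0 ≤ (H.card : ℝ) * ∑ π ∈ H, Phi F u (u ∘ π) := by
    rw [h3]; exact Finset.sum_nonneg fun _ _ => sq_nonneg _
  exact nonneg_of_mul_nonneg_right h4 hpos

/-- NONVANISHING: some left translate of `F` has nonzero antisymmetrisation at `a`. -/
theorem exists_anti_ne (F : (ι → α) → ℝ) (hinj : ∀ y, F y ≠ 0 → Function.Injective y)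
    (hnew : ∀ (i : ι) (y : ι → α), ∑ b, F (Function.update y i b) = 0)
    (hF : ∃ y, F y ≠ 0)
    (a b : ι → α) (ha : Function.Injective a) (hb : Function.Injective b)
    (hab : ∀ i j, a i ≠ b j) :
    ∃ h : Perm α, ∑ S : Finset ι, (-1 : ℝ) ^ S.card * F (h ∘ mix S a b) ≠ 0 := by
  classical
  have hcard : 2 * Fintype.card ι ≤ Fintype.card α := by
    have hs : Function.Injective (Sum.elim a b) := by
      intro x y hxy
      rcases x with x | x <;> rcases y with y | y <;> simp only [Sum.elim_inl, Sum.elim_inr] at hxy
      · rw [ha hxy]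
      · exact absurd hxy (hab x y)
      · exact absurd hxy.symm (hab y x)
      · rw [hb hxy]
    have := Fintype.card_le_of_injective _ hs
    rw [Fintype.card_sum] at this
    omega
  by_contra hcon
  push Not at hcon
  have h1 : ∑ S : Finset ι, (-1 : ℝ) ^ S.card * Phi F a (mix S a b) = 0 := by
    unfold Phi
    simp_rw [Finset.mul_sum]
    rw [Finset.sum_comm]
    refine Finset.sum_eq_zero fun h _ => ?_
    have := hcon h
    calc ∑ S : Finset ι, (-1 : ℝ) ^ S.card * (F (h ∘ a) * F (h ∘ mix S a b))
        = F (h ∘ a) * ∑ S : Finset ι, (-1 : ℝ) ^ S.card * F (h ∘ mix S a b) := by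
          rw [Finset.mul_sum]
          refine Finset.sum_congr rfl fun S _ => by ring
      _ = 0 := by rw [this, mul_zero]
  have h2 : ∀ S : Finset ι, (-1 : ℝ) ^ S.card * Phi F a (mix S a b)
      = CC (Fintype.card α) (Fintype.card ι) S.card
        * ∑ π : Perm ι, if (∀ i, i ∉ S → π i = i) then Phi F a (a ∘ π) else 0 := by
    intro S
    have hout : outc a (mix S a b) = S.card := by
      unfold outc
      congr 1
      ext i
      simp only [Finset.mem_filter, Finset.mem_univ, true_and]
      rw [mix_range a b hab S i]
      simp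
    rw [Phi_expand F hinj hnew a ha hcard S.card (mix S a b) (mix_inj a b ha hb hab S) hout]
    have hcomp : CompS F a (mix S a b)
        = ∑ π : Perm ι, if (∀ i, i ∉ S → π i = i) then Phi F a (a ∘ π) else 0 := by
      unfold CompS
      refine Finset.sum_congr rfl fun π _ => ?_
      congr 1
      apply propext
      constructor
      · intro h i hi
        have := h i ((mix_range a b hab S i).mpr hi)
        unfold mix at this
        rw [if_neg hi] at this
        exact ha this
      · intro h i hi
        have hi' := (mix_range a b hab S i).mp hi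
        unfold mix
        rw [if_neg hi', h i hi']
    rw [hcomp, ← mul_assoc, ← mul_assoc, ← pow_add, ← two_mul, pow_mul]
    simp
  rw [Finset.sum_congr rfl (fun S _ => h2 S)] at h1
  -- the term S = ∅ is positive
  have hnn : ∀ S : Finset ι, 0 ≤ CC (Fintype.card α) (Fintype.card ι) S.card
        * ∑ π : Perm ι, if (∀ i, i ∉ S → π i = i) then Phi F a (a ∘ π) else 0 := by
    intro S
    refine mul_nonneg (CC_pos _ ?_).le (CompS_nonneg F a ha S)
    have : S.card ≤ Fintype.card ι := Finset.card_le_univ _
    omega
  have h0 := (Finset.sum_eq_zero_iff_of_nonneg (fun S _ => hnn S)).mp h1 ∅ (Finset.mem_univ _)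
  have e0 : (∑ π : Perm ι, if (∀ i, i ∉ (∅ : Finset ι) → π i = i) then Phi F a (a ∘ π) else 0)
      = Phi F a a := by
    rw [Finset.sum_eq_single 1]
    · rw [if_pos (fun (i : ι) _ => Perm.one_apply i)]; rfl
    · intro π _ hne
      rw [if_neg]
      intro h
      exact hne (Equiv.ext fun i => h i (Finset.notMem_empty _))
    · intro h; exact absurd (Finset.mem_univ _) h
  rw [e0, Finset.card_empty] at h0
  have h00 : Phi F a a = 0 := by
    unfold CC at h0
    linarith
  obtain ⟨y, hy⟩ := hF
  have hyi := hinj y hy
  obtain ⟨h, hh⟩ : ∃ h : Perm α, h ∘ a = y := by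
    -- extend the partial bijection
    obtain ⟨h, hh⟩ : ∃ h : Perm α, ∀ i, h (a i) = y i := by
      let e : {x // x ∈ Set.range a} ≃ {x // x ∈ Set.range y} :=
        (Equiv.ofInjective a ha).symm.trans (Equiv.ofInjective y hyi)
      refine ⟨e.extendSubtype, fun i => ?_⟩
      rw [Equiv.extendSubtype_apply_of_mem e (a i) ⟨i, rfl⟩]
      have : (⟨a i, ⟨i, rfl⟩⟩ : {x // x ∈ Set.range a}) = Equiv.ofInjective a ha i := rfl
      simp only [e, Equiv.trans_apply, this, Equiv.symm_apply_apply]
      rfl
    exact ⟨h, funext hh⟩
  have hpos : 0 < Phi F a a := by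
    unfold Phi
    refine Finset.sum_pos' (fun h _ => mul_self_nonneg _) ⟨h, Finset.mem_univ _, ?_⟩
    rw [hh]
    exact mul_self_pos.mpr hy
  exact absurd h00 hpos.ne'

end

end Crest.Agent.T22
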