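import Crest.Agent.T22TrA

/-! S0222, part (L): the transversal bound for one family of pairs. -/

set_option autoImplicit false
set_option linter.unusedSectionVars false

namespace Crest.Agent.T22

open Finset Equiv

section

variable {ι α : Type*} [Fintype ι] [DecidableEq ι] [Fintype α] [DecidableEq α]

/-- switch the two copies for the indices in `S` -/
def sgS (S : Finset ι) : Perm (ι ⊕ ι) where
  toFun s := match s with
    | Sum.inl i => if i ∈ S then Sum.inr i else Sum.inl i
    | Sum.inr i => if i ∈ S then Sum.inl i else Sum.inr i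
  invFun s := match s with
    | Sum.inl i => if i ∈ S then Sum.inr i else Sum.inl i
    | Sum.inr i => if i ∈ S then Sum.inl i else Sum.inr i
  left_inv s := by
    rcases s with i | i <;> by_cases h : i ∈ S <;> simp [h]
  right_inv s := by
    rcases s with i | i <;> by_cases h : i ∈ S <;> simp [h]

theorem sgS_mul (S T : Finset ι) : sgS S * sgS T = sgS (symmDiff S T) := by
  ext s
  rcases s with i | i <;> by_cases h : i ∈ S <;> by_cases h' : i ∈ T <;>
    simp [sgS, Perm.mul_apply, h, h', Finset.mem_symmDiff]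

/-- the pairs as an embedding -/
def prEmb (a b : ι → α) (ha : Function.Injective a) (hb : Function.Injective b)
    (hab : ∀ i j, a i ≠ b j) : ι ⊕ ι ↪ α where
  toFun := Sum.elim a b
  inj' := by
    intro x y hxy
    rcases x with x | x <;> rcases y with y | y <;> simp only [Sum.elim_inl, Sum.elim_inr] at hxy
    · rw [ha hxy]
    · exact absurd hxy (hab x y)
    · exact absurd hxy.symm (hab y x)
    · rw [hb hxy]

/-- product of the swaps `(a i, b i)`, `i ∈ S` -/
noncomputable def sw (e : ι ⊕ ι ↪ α) (S : Finset ι) : Perm α := (sgS S).viaFintypeEmbedding e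

theorem sw_apply (e : ι ⊕ ι ↪ α) (S : Finset ι) (s : ι ⊕ ι) : sw e S (e s) = e (sgS S s) :=
  Perm.viaFintypeEmbedding_apply_image _ _ _

theorem sw_notMem (e : ι ⊕ ι ↪ α) (S : Finset ι) (x : α) (hx : x ∉ Set.range e) : sw e S x = x :=
  Perm.viaFintypeEmbedding_apply_notMem_range _ _ hx

theorem sw_mul (e : ι ⊕ ι ↪ α) (S T : Finset ι) : sw e S * sw e T = sw e (symmDiff S T) := by
  ext x
  rw [Perm.mul_apply]
  by_cases hx : x ∈ Set.range e
  · obtain ⟨s, rfl⟩ := hx
    rw [sw_apply, sw_apply, sw_apply, ← sgS_mul]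
    rfl
  · rw [sw_notMem e T x hx, sw_notMem e S x hx, sw_notMem e _ x hx]

theorem sw_self (e : ι ⊕ ι ↪ α) (S : Finset ι) (x : α) : sw e S (sw e S x) = x := by
  rw [← Perm.mul_apply, sw_mul, symmDiff_self]
  by_cases hx : x ∈ Set.range e
  · obtain ⟨s, rfl⟩ := hx
    rw [sw_apply]
    rcases s with i | i <;> simp [sgS]
  · rw [sw_notMem e _ x hx]

theorem sign_symmDiff (S T : Finset ι) :
    (-1 : ℝ) ^ (symmDiff S T).card = (-1) ^ S.card * (-1) ^ T.card := by
  have h1 : (symmDiff S T).card + 2 * (S ∩ T).card = S.card + T.card := by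
    have e1 : symmDiff S T = (S \ T) ∪ (T \ S) := rfl
    have e2 : Disjoint (S \ T) (T \ S) := by
      rw [Finset.disjoint_left]
      intro x hx hx'
      rw [Finset.mem_sdiff] at hx hx'
      exact hx'.2 hx.1
    rw [e1, Finset.card_union_of_disjoint e2]
    have h3 := Finset.card_sdiff_add_card_inter S T
    have h4 := Finset.card_sdiff_add_card_inter T S
    rw [Finset.inter_comm T S] at h4
    omega
  rw [← pow_add, ← h1, pow_add, pow_mul]
  simp

/-- antisymmetrisation of `F` -/
noncomputable def anti (e : ι ⊕ ι ↪ α) (F : (ι → α) → ℝ) (y : ι → α) : ℝ :=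
  ∑ S : Finset ι, (-1 : ℝ) ^ S.card * F (sw e S ∘ y)

theorem anti_sw (e : ι ⊕ ι ↪ α) (F : (ι → α) → ℝ) (T : Finset ι) (y : ι → α) :
    anti e F (sw e T ∘ y) = (-1) ^ T.card * anti e F y := by
  unfold anti
  rw [Finset.mul_sum]
  have hT : Function.Involutive (fun S : Finset ι => symmDiff S T) := fun S => by
    show symmDiff (symmDiff S T) T = S
    rw [symmDiff_assoc, symmDiff_self]
    simp
  rw [← Equiv.sum_comp hT.toPerm]
  refine Finset.sum_congr rfl fun S _ => ?_
  show (-1 : ℝ) ^ (symmDiff S T).card * F (sw e (symmDiff S T) ∘ sw e T ∘ y)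
    = (-1) ^ T.card * ((-1) ^ S.card * F (sw e S ∘ y))
  have h1 : (sw e (symmDiff S T) ∘ sw e T ∘ y) = sw e S ∘ y := by
    funext i
    simp only [Function.comp_apply]
    rw [← sw_mul, Perm.mul_apply, sw_self]
  rw [h1, sign_symmDiff]
  ring

theorem mix_eq_sw (e : ι ⊕ ι ↪ α) (S : Finset ι) :
    mix S (fun i => e (Sum.inl i)) (fun i => e (Sum.inr i)) = sw e S ∘ (fun i => e (Sum.inl i)) := by
  funext i
  simp only [Function.comp_apply, sw_apply]
  unfold mix
  by_cases h : i ∈ S <;> simp [sgS, h]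

/-- the tuple `i ↦ a i` or `b i` -/
def tv (e : ι ⊕ ι ↪ α) (S : Finset ι) : ι → α :=
  mix S (fun i => e (Sum.inl i)) (fun i => e (Sum.inr i))

theorem tv_inj (e : ι ⊕ ι ↪ α) (S : Finset ι) : Function.Injective (tv e S) := by
  apply mix_inj
  · intro i j h; exact Sum.inl_injective (e.injective h)
  · intro i j h; exact Sum.inr_injective (e.injective h)
  · intro i j h; exact absurd (e.injective h) (by simp)

theorem tv_mem (e : ι ⊕ ι ↪ α) (S : Finset ι) (i : ι) :
    tv e S i = e (Sum.inl i) ∨ tv e S i = e (Sum.inr i) := by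
  unfold tv mix
  by_cases h : i ∈ S
  · right; simp [h]
  · left; simp [h]

/-- support of antisymmetric functions -/
theorem supp_anti (e : ι ⊕ ι ↪ α) (G : (ι → α) → ℝ)
    (hG : ∀ (T : Finset ι) (y : ι → α), G (sw e T ∘ y) = (-1) ^ T.card * G y)
    (y : ι → α) (hy : G y ≠ 0) : ∃ (S : Finset ι) (π : Perm ι), y = tv e S ∘ π := by
  classical
  have h1 : ∀ i, ∃ k, y k = e (Sum.inl i) ∨ y k = e (Sum.inr i) := by
    intro i
    by_contra hcon
    push Not at hcon
    have h2 : sw e {i} ∘ y = y := by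
      funext k
      simp only [Function.comp_apply]
      by_cases hx : y k ∈ Set.range e
      · obtain ⟨s, hs⟩ := hx
        rw [← hs, sw_apply]
        congr 1
        rcases s with j | j
        · have : j ≠ i := fun h => (hcon k).1 (by rw [← hs, h])
          simp [sgS, this]
        · have : j ≠ i := fun h => (hcon k).2 (by rw [← hs, h])
          simp [sgS, this]
      · exact sw_notMem e _ _ hx
    have h3 := hG {i} y
    rw [h2, Finset.card_singleton, pow_one] at h3
    apply hy
    linarith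
  choose k hk using h1
  have hkinj : Function.Injective k := by
    intro i j hij
    have hi := hk i
    have hj := hk j
    rw [← hij] at hj
    rcases hi with hi | hi <;> rcases hj with hj | hj <;> rw [hi] at hj <;>
      have := e.injective hj <;> simp_all
  set κ : Perm ι := Equiv.ofBijective k (Finite.injective_iff_bijective.mp hkinj) with hκ
  refine ⟨Finset.univ.filter (fun i => y (k i) = e (Sum.inr i)), κ⁻¹, ?_⟩
  funext j
  obtain ⟨i, rfl⟩ := κ.surjective j
  have hki : κ⁻¹ (κ i) = i := κ.symm_apply_apply i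
  rw [Function.comp_apply, hki]
  show y (k i) = _
  unfold tv mix
  by_cases h : y (k i) = e (Sum.inr i)
  · rw [if_pos (by simp [h])]; exact h
  · rw [if_neg (by simp [h])]
    rcases hk i with h' | h'
    · exact h'
    · exact absurd h' h

/-- `g⁻¹` maps the transversal `S` to a transversal -/
def Tr (e : ι ⊕ ι ↪ α) (g : Perm α) (S : Finset ι) : Prop :=
  ∃ (S' : Finset ι) (π : Perm ι), (fun i => g⁻¹ (tv e S i)) = tv e S' ∘ π

theorem param_inj (e : ι ⊕ ι ↪ α) :
    Function.Injective (fun p : Finset ι × Perm ι => tv e p.1 ∘ p.2) := by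
  rintro ⟨S, π⟩ ⟨S', π'⟩ h
  have hcol : ∀ i, tv e S (π i) = tv e S' (π' i) := fun i => congrFun h i
  have hππ : π = π' := by
    ext i
    have := hcol i
    rcases tv_mem e S (π i) with h1 | h1 <;> rcases tv_mem e S' (π' i) with h2 | h2 <;>
      rw [h1, h2] at this <;> have := e.injective this <;> simp_all
  subst hππ
  have hSS : S = S' := by
    ext j
    have := hcol (π⁻¹ j)
    have hpj : π (π⁻¹ j) = j := π.apply_symm_apply j
    rw [hpj] at this
    unfold tv mix at this
    by_cases h1 : j ∈ S <;> by_cases h2 : j ∈ S' <;> simp_all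
  rw [hSS]

theorem sum_supp (e : ι ⊕ ι ↪ α) (Ψ : (ι → α) → ℝ)
    (hΨ : ∀ y, Ψ y ≠ 0 → ∃ (S : Finset ι) (π : Perm ι), y = tv e S ∘ π) :
    ∑ y, Ψ y = ∑ S : Finset ι, ∑ π : Perm ι, Ψ (tv e S ∘ π) := by
  classical
  rw [← Finset.sum_product' (s := (Finset.univ : Finset (Finset ι)))
    (t := (Finset.univ : Finset (Perm ι))) (f := fun S π => Ψ (tv e S ∘ π))]
  rw [← Finset.sum_image (s := (Finset.univ ×ˢ Finset.univ : Finset (Finset ι × Perm ι)))
    (g := fun p : Finset ι × Perm ι => tv e p.1 ∘ p.2) (f := Ψ)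
    (fun x _ y _ h => param_inj e h)]
  symm
  apply Finset.sum_subset (Finset.subset_univ _)
  intro y _ hy
  by_contra hne
  obtain ⟨S, π, rfl⟩ := hΨ y hne
  exact hy (Finset.mem_image.mpr ⟨(S, π), by simp, rfl⟩)

open Classical in
/-- bound of an eigenvalue with an antisymmetric eigenfunction -/
theorem eig_le (e : ι ⊕ ι ↪ α) (G : (ι → α) → ℝ)
    (hG : ∀ (T : Finset ι) (y : ι → α), G (sw e T ∘ y) = (-1) ^ T.card * G y)
    (hne : ∃ y, G y ≠ 0) (ζ : Perm α → ℝ) (hζ : ∀ g, 0 ≤ ζ g) (c : ℝ)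
    (heig : ∀ y, ∑ g, ζ g * G (fun i => g⁻¹ (y i)) = c * G y) :
    c * 2 ^ (Fintype.card ι) ≤ ∑ g, ζ g * ((Finset.univ.filter (fun S : Finset ι => Tr e g S)).card : ℝ) := by
  set φ : Perm ι → ℝ := fun τ => G (tv e ∅ ∘ τ) with hφ
  have hval : ∀ (S : Finset ι) (τ : Perm ι), G (tv e S ∘ τ) = (-1) ^ S.card * φ τ := by
    intro S τ
    have h1 : tv e S ∘ τ = sw e S ∘ (tv e ∅ ∘ τ) := by
      funext i
      have h2 : tv e ∅ = fun i => e (Sum.inl i) := by
        funext i; simp [tv, mix]
      rw [h2]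
      have h3 := congrFun (mix_eq_sw e S) (τ i)
      exact h3
    rw [h1, hG]
  set N2 : ℝ := ∑ τ, φ τ ^ 2 with hN2
  have hsum1 : ∑ y, G y ^ 2 = 2 ^ (Fintype.card ι) * N2 := by
    rw [sum_supp e (fun y => G y ^ 2) (fun y hy => supp_anti e G hG y (fun h => hy (by rw [h]; ring)))]
    have h1 : ∀ S : Finset ι, ∑ π : Perm ι, G (tv e S ∘ π) ^ 2 = N2 := by
      intro S
      refine Finset.sum_congr rfl fun τ _ => ?_
      rw [hval, mul_pow, ← pow_mul, mul_comm, mul_comm S.card, pow_mul]
      simp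
    rw [Finset.sum_congr rfl (fun S _ => h1 S), Finset.sum_const, Finset.card_univ,
      Fintype.card_finset, nsmul_eq_mul]
    push_cast
    ring
  have hN2pos : 0 < N2 := by
    obtain ⟨y, hy⟩ := hne
    have h1 : 0 < ∑ y, G y ^ 2 :=
      Finset.sum_pos' (fun _ _ => sq_nonneg _) ⟨y, Finset.mem_univ _, by positivity⟩
    rw [hsum1] at h1
    exact (pos_iff_pos_of_mul_pos h1).mp (by positivity)
  have hcross : ∀ g : Perm α, ∑ y, G y * G (fun i => g⁻¹ (y i))
      ≤ ((Finset.univ.filter (fun S : Finset ι => Tr e g S)).card : ℝ) * N2 := by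
    intro g
    rw [sum_supp e (fun y => G y * G (fun i => g⁻¹ (y i)))
      (fun y hy => supp_anti e G hG y (fun h => hy (by
        show G y * G (fun i => g⁻¹ (y i)) = 0
        rw [h, zero_mul])))]
    have h1 : ∀ S : Finset ι, ∑ π : Perm ι, G (tv e S ∘ π) * G (fun i => g⁻¹ ((tv e S ∘ π) i))
        ≤ if Tr e g S then N2 else 0 := by
      intro S
      by_cases hT : Tr e g S
      · rw [if_pos hT]
        obtain ⟨S', π, hπ⟩ := hT
        have h2 : ∀ τ : Perm ι, G (fun i => g⁻¹ ((tv e S ∘ τ) i)) = (-1) ^ S'.card * φ (π * τ) := by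
          intro τ
          have h3 : (fun i => g⁻¹ ((tv e S ∘ τ) i)) = tv e S' ∘ ((π * τ : Perm ι)) := by
            funext i
            have := congrFun hπ (τ i)
            simpa using this
          rw [h3, hval]
        have h4 : ∀ τ : Perm ι, G (tv e S ∘ τ) * G (fun i => g⁻¹ ((tv e S ∘ τ) i))
            ≤ (φ τ ^ 2 + φ (π * τ) ^ 2) / 2 := by
          intro τ
          rw [h2, hval]
          have hs : ((-1 : ℝ) ^ S.card) = 1 ∨ ((-1 : ℝ) ^ S.card) = -1 := neg_one_pow_eq_or ℝ _
          have hs' : ((-1 : ℝ) ^ S'.card) = 1 ∨ ((-1 : ℝ) ^ S'.card) = -1 := neg_one_pow_eq_or ℝ _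
          rcases hs with hs | hs <;> rcases hs' with hs' | hs' <;> rw [hs, hs'] <;>
            nlinarith [sq_nonneg (φ τ - φ (π * τ)), sq_nonneg (φ τ + φ (π * τ))]
        refine (Finset.sum_le_sum fun τ _ => h4 τ).trans (le_of_eq ?_)
        rw [← Finset.sum_div, Finset.sum_add_distrib]
        have h5 : ∑ τ : Perm ι, φ (π * τ) ^ 2 = N2 :=
          Equiv.sum_comp (Equiv.mulLeft π) (fun τ => φ τ ^ 2)
        rw [h5]
        ring
      · rw [if_neg hT]
        refine le_of_eq (Finset.sum_eq_zero fun τ _ => ?_)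
        have : G (fun i => g⁻¹ ((tv e S ∘ τ) i)) = 0 := by
          by_contra h
          obtain ⟨S', π', hπ'⟩ := supp_anti e G hG _ h
          apply hT
          refine ⟨S', π' * τ⁻¹, ?_⟩
          funext i
          have := congrFun hπ' (τ⁻¹ i)
          simpa using this
        rw [this, mul_zero]
    refine (Finset.sum_le_sum fun S _ => h1 S).trans (le_of_eq ?_)
    rw [← Finset.sum_filter, Finset.sum_const, nsmul_eq_mul]
  have htot : c * (2 ^ (Fintype.card ι) * N2)
      = ∑ g, ζ g * ∑ y, G y * G (fun i => g⁻¹ (y i)) := by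
    rw [← hsum1, Finset.mul_sum]
    simp_rw [Finset.mul_sum]
    rw [Finset.sum_comm]
    refine Finset.sum_congr rfl fun y _ => ?_
    calc c * G y ^ 2 = G y * (c * G y) := by ring
      _ = G y * ∑ g, ζ g * G (fun i => g⁻¹ (y i)) := by rw [heig]
      _ = ∑ g, ζ g * (G y * G (fun i => g⁻¹ (y i))) := by
          rw [Finset.mul_sum]
          refine Finset.sum_congr rfl fun g _ => by ring
  have hfin : c * (2 ^ (Fintype.card ι) * N2)
      ≤ (∑ g, ζ g * ((Finset.univ.filter (fun S : Finset ι => Tr e g S)).card : ℝ)) * N2 := by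
    rw [htot, Finset.sum_mul]
    refine Finset.sum_le_sum fun g _ => ?_
    rw [mul_assoc]
    exact mul_le_mul_of_nonneg_left (hcross g) (hζ g)
  have : c * 2 ^ (Fintype.card ι) * N2
      ≤ (∑ g, ζ g * ((Finset.univ.filter (fun S : Finset ι => Tr e g S)).card : ℝ)) * N2 := by
    linarith
  exact le_of_mul_le_mul_right this hN2pos

end

end Crest.Agent.T22
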