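import Crest.Agent.T22TrB

/-! S0222, part (L): averaging over the families of pairs. -/

set_option autoImplicit false
set_option linter.unusedSectionVars false

namespace Crest.Agent.T22

open Finset Equiv

section

variable {ι α : Type*} [Fintype ι] [DecidableEq ι] [Fintype α] [DecidableEq α]

open Classical in
theorem each_pair (F : (ι → α) → ℝ) (hinj : ∀ y, F y ≠ 0 → Function.Injective y)
    (hnew : ∀ (i : ι) (y : ι → α), ∑ b, F (Function.update y i b) = 0)
    (hF : ∃ y, F y ≠ 0) (ζ : Perm α → ℝ) (hζ : ∀ g, 0 ≤ ζ g)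
    (hcl : ∀ g k, ζ (k * g * k⁻¹) = ζ g) (c : ℝ)
    (heig : ∀ y, ∑ g, ζ g * F (fun i => g⁻¹ (y i)) = c * F y) (e : ι ⊕ ι ↪ α) :
    c * 2 ^ (Fintype.card ι)
      ≤ ∑ g, ζ g * ((Finset.univ.filter (fun S : Finset ι => Tr e g S)).card : ℝ) := by
  have ha : Function.Injective (fun i => e (Sum.inl i)) := fun i j h => Sum.inl_injective (e.injective h)
  have hb : Function.Injective (fun i => e (Sum.inr i)) := fun i j h => Sum.inr_injective (e.injective h)
  have hab : ∀ i j, (fun i => e (Sum.inl i)) i ≠ (fun i => e (Sum.inr i)) j := fun i j h =>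
    absurd (e.injective h) (by simp)
  obtain ⟨h, hh⟩ := exists_anti_ne F hinj hnew hF _ _ ha hb hab
  refine eig_le e (anti e (fun y => F (h ∘ y))) (fun T y => anti_sw e _ T y)
    ⟨(fun i => e (Sum.inl i)), ?_⟩ ζ hζ c ?_
  · unfold anti
    intro h0
    apply hh
    rw [← h0]
    refine Finset.sum_congr rfl fun S _ => ?_
    rw [mix_eq_sw]
  · intro y
    unfold anti
    simp_rw [Finset.mul_sum]
    rw [Finset.sum_comm]
    refine Finset.sum_congr rfl fun S _ => ?_
    set p : Perm α := h * sw e S with hp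
    have h1 : ∑ g, ζ g * ((-1 : ℝ) ^ S.card * F (h ∘ (sw e S) ∘ (fun i => g⁻¹ (y i))))
        = (-1 : ℝ) ^ S.card * ∑ g, ζ g * F (fun i => g⁻¹ ((p ∘ y) i)) := by
      rw [Finset.mul_sum, ← Equiv.sum_comp (MulAut.conj p⁻¹).toEquiv]
      refine Finset.sum_congr rfl fun g _ => ?_
      have e1 : (MulAut.conj p⁻¹).toEquiv g = p⁻¹ * g * p⁻¹⁻¹ := rfl
      rw [e1, hcl]
      have e2 : (h ∘ (sw e S) ∘ (fun i => (p⁻¹ * g * p⁻¹⁻¹)⁻¹ (y i)))
          = (fun i => g⁻¹ ((p ∘ y) i)) := by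
        funext i
        show h (sw e S ((p⁻¹ * g * p⁻¹⁻¹)⁻¹ (y i))) = g⁻¹ (p (y i))
        have e3 : (p⁻¹ * g * p⁻¹⁻¹)⁻¹ = p⁻¹ * g⁻¹ * p := by group
        rw [e3]
        show (h * sw e S) ((p⁻¹ * g⁻¹ * p) (y i)) = g⁻¹ (p (y i))
        rw [← hp, ← Perm.mul_apply, ← Perm.mul_apply]
        congr 1
        group
      rw [e2]
      ring
    rw [h1, heig]
    show (-1 : ℝ) ^ S.card * (c * F (p ∘ y)) = c * ((-1 : ℝ) ^ S.card * F (h ∘ (sw e S) ∘ y))
    have e4 : p ∘ y = h ∘ (sw e S) ∘ y := rfl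
    rw [e4]
    ring

/-- twist of an embedding -/
def twE (S : Finset ι) (e : ι ⊕ ι ↪ α) : ι ⊕ ι ↪ α := (sgS S).toEmbedding.trans e

theorem sgS_sgS (S : Finset ι) (s : ι ⊕ ι) : sgS S (sgS S s) = s := by
  rcases s with i | i <;> by_cases h : i ∈ S <;> simp [sgS, h]

theorem twE_twE (S : Finset ι) (e : ι ⊕ ι ↪ α) : twE S (twE S e) = e := by
  ext s
  show e (sgS S (sgS S s)) = e s
  rw [sgS_sgS]

theorem tv_twE (S T : Finset ι) (e : ι ⊕ ι ↪ α) : tv (twE S e) T = tv e (symmDiff S T) := by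
  funext i
  unfold tv mix twE
  by_cases h : i ∈ S <;> by_cases h' : i ∈ T <;>
    simp [sgS, h, h', Finset.mem_symmDiff]

theorem Tr_twE (S : Finset ι) (e : ι ⊕ ι ↪ α) (g : Perm α) : Tr (twE S e) g ∅ ↔ Tr e g S := by
  unfold Tr
  have hse : symmDiff S ∅ = S := by ext x; simp [Finset.mem_symmDiff]
  constructor
  · rintro ⟨S', π, h⟩
    refine ⟨symmDiff S S', π, ?_⟩
    rw [tv_twE, tv_twE, hse] at h
    exact h
  · rintro ⟨S', π, h⟩
    refine ⟨symmDiff S S', π, ?_⟩
    rw [tv_twE, tv_twE]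
    have : symmDiff S (symmDiff S S') = S' := by
      rw [← symmDiff_assoc, symmDiff_self]; simp
    rw [this, hse]
    exact h

open Classical in
theorem sum_Tr (g : Perm α) :
    ∑ e : ι ⊕ ι ↪ α, ((Finset.univ.filter (fun S : Finset ι => Tr e g S)).card : ℝ)
      = 2 ^ (Fintype.card ι) * ((Finset.univ.filter (fun e : ι ⊕ ι ↪ α => Tr e g ∅)).card : ℝ) := by
  have h1 : ∀ e : ι ⊕ ι ↪ α, ((Finset.univ.filter (fun S : Finset ι => Tr e g S)).card : ℝ)
      = ∑ S : Finset ι, if Tr e g S then (1 : ℝ) else 0 := by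
    intro e
    rw [Finset.sum_boole]
  rw [Finset.sum_congr rfl (fun e _ => h1 e), Finset.sum_comm]
  have h2 : ∀ S : Finset ι, (∑ e : ι ⊕ ι ↪ α, if Tr e g S then (1 : ℝ) else 0)
      = ((Finset.univ.filter (fun e : ι ⊕ ι ↪ α => Tr e g ∅)).card : ℝ) := by
    intro S
    have hinv : Function.Involutive (twE S : (ι ⊕ ι ↪ α) → (ι ⊕ ι ↪ α)) := fun e => twE_twE S e
    rw [← Finset.sum_boole, ← Equiv.sum_comp hinv.toPerm (fun e => if Tr e g ∅ then (1 : ℝ) else 0)]
    refine Finset.sum_congr rfl fun e _ => ?_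
    show _ = if Tr (twE S e) g ∅ then (1 : ℝ) else 0
    simp only [Tr_twE]
  rw [Finset.sum_congr rfl (fun S _ => h2 S), Finset.sum_const, Finset.card_univ,
    Fintype.card_finset, nsmul_eq_mul]
  push_cast
  ring

/-- image of the first tuple, and its preimage under `g` -/
def XX (a : ι ↪ α) : Finset α := Finset.univ.map a
def YY (g : Perm α) (a : ι ↪ α) : Finset α := (XX a).map g⁻¹.toEmbedding

theorem card_XX (a : ι ↪ α) : (XX a).card = Fintype.card ι := by
  unfold XX; rw [Finset.card_map, Finset.card_univ]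
theorem card_YY (g : Perm α) (a : ι ↪ α) : (YY g a).card = Fintype.card ι := by
  unfold YY; rw [Finset.card_map, card_XX]

theorem mem_XX (a : ι ↪ α) (x : α) : x ∈ XX a ↔ ∃ i, a i = x := by
  unfold XX; simp

/-- first half of an embedding of pairs -/
def e1 (e : ι ⊕ ι ↪ α) : ι ↪ α := ⟨fun i => e (Sum.inl i), fun i j h => Sum.inl_injective (e.injective h)⟩

theorem Tr_mem (e : ι ⊕ ι ↪ α) (g : Perm α) (h : Tr e g ∅) (i : ι) :
    e (Sum.inr i) ∈ YY g (e1 e) ↔ e (Sum.inl i) ∉ YY g (e1 e) := by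
  obtain ⟨S', π, hh⟩ := h
  have hY : ∀ x, x ∈ YY g (e1 e) ↔ ∃ j, tv e S' j = x := by
    intro x
    unfold YY
    rw [Finset.mem_map]
    constructor
    · rintro ⟨y, hy, rfl⟩
      rw [mem_XX] at hy
      obtain ⟨k, rfl⟩ := hy
      refine ⟨π k, ?_⟩
      have := congrFun hh k
      have h2 : tv e ∅ k = e (Sum.inl k) := by simp [tv, mix]
      simp only [h2, Function.comp_apply] at this
      exact this.symm
    · rintro ⟨j, rfl⟩
      refine ⟨e (Sum.inl (π⁻¹ j)), (mem_XX _ _).mpr ⟨π⁻¹ j, rfl⟩, ?_⟩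
      have := congrFun hh (π⁻¹ j)
      have h2 : tv e ∅ (π⁻¹ j) = e (Sum.inl (π⁻¹ j)) := by simp [tv, mix]
      have h3 : π (π⁻¹ j) = j := π.apply_symm_apply j
      simp only [h2, Function.comp_apply, h3] at this
      exact this
  rw [hY, hY]
  constructor
  · rintro ⟨j, hj⟩ ⟨k, hk⟩
    have hj' := tv_mem e S' j
    have hk' := tv_mem e S' k
    rw [hj] at hj'
    rw [hk] at hk'
    have j1 : j = i := by
      rcases hj' with h | h <;> have := e.injective h <;> simp_all
    have k1 : k = i := by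
      rcases hk' with h | h <;> have := e.injective h <;> simp_all
    rw [j1] at hj
    rw [k1, hj] at hk
    exact absurd (e.injective hk) (by simp)
  · intro hn
    refine ⟨i, ?_⟩
    rcases tv_mem e S' i with h | h
    · exact absurd ⟨i, h⟩ hn
    · exact h

/-- count of the second tuples -/
theorem card_fib (g : Perm α) (a : ι ↪ α) :
    Fintype.card ({i // a i ∉ YY g a} ↪ {x // x ∈ YY g a \ XX a})
      * Fintype.card ({i // ¬ a i ∉ YY g a} ↪ {x // x ∉ XX a ∪ YY g a})
      = (XX a \ YY g a).card.factorial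
        * (Fintype.card α - Fintype.card ι - (XX a \ YY g a).card).descFactorial
            (Fintype.card ι - (XX a \ YY g a).card) := by
  have hk1 : Fintype.card {i // a i ∉ YY g a} = (XX a \ YY g a).card := by
    rw [Fintype.card_subtype]
    have : XX a \ YY g a = (Finset.univ.filter (fun i => a i ∉ YY g a)).map a := by
      ext x
      simp only [Finset.mem_sdiff, mem_XX, Finset.mem_map, Finset.mem_filter, Finset.mem_univ,
        true_and]
      constructor
      · rintro ⟨⟨i, rfl⟩, h⟩; exact ⟨i, h, rfl⟩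
      · rintro ⟨i, h, rfl⟩; exact ⟨⟨i, rfl⟩, h⟩
    rw [this, Finset.card_map]
  have hk2 : Fintype.card {x // x ∈ YY g a \ XX a} = (XX a \ YY g a).card := by
    rw [Fintype.card_coe]
    have h1 := Finset.card_sdiff_add_card_inter (XX a) (YY g a)
    have h2 := Finset.card_sdiff_add_card_inter (YY g a) (XX a)
    rw [Finset.inter_comm (YY g a) (XX a), card_YY] at h2
    rw [card_XX] at h1
    omega
  have hk3 : Fintype.card {i // ¬ a i ∉ YY g a} = Fintype.card ι - (XX a \ YY g a).card := by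
    rw [Fintype.card_subtype_compl, hk1]
  have hk4 : Fintype.card {x // x ∉ XX a ∪ YY g a}
      = Fintype.card α - Fintype.card ι - (XX a \ YY g a).card := by
    have h0 : Fintype.card {x // x ∉ XX a ∪ YY g a} = ((XX a ∪ YY g a)ᶜ).card := by
      rw [Fintype.card_subtype]
      congr 1
      ext x; simp
    rw [h0, Finset.card_compl]
    have h1 : (XX a ∪ YY g a).card = (XX a \ YY g a).card + (YY g a).card := by
      rw [← Finset.card_sdiff_add_card]
    rw [h1, card_YY]
    omega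
  rw [Fintype.card_embedding_eq, Fintype.card_embedding_eq, hk1, hk2, hk3, hk4,
    Nat.descFactorial_self]

open Classical in
theorem card_Tr_le (g : Perm α) :
    (Finset.univ.filter (fun e : ι ⊕ ι ↪ α => Tr e g ∅)).card
      ≤ ∑ a : ι ↪ α, (XX a \ YY g a).card.factorial
        * (Fintype.card α - Fintype.card ι - (XX a \ YY g a).card).descFactorial
            (Fintype.card ι - (XX a \ YY g a).card) := by
  have h1 : ∑ a : ι ↪ α, (XX a \ YY g a).card.factorial
        * (Fintype.card α - Fintype.card ι - (XX a \ YY g a).card).descFactorial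
            (Fintype.card ι - (XX a \ YY g a).card)
      = Fintype.card (Σ a : ι ↪ α, ({i // a i ∉ YY g a} ↪ {x // x ∈ YY g a \ XX a})
        × ({i // ¬ a i ∉ YY g a} ↪ {x // x ∉ XX a ∪ YY g a})) := by
    rw [Fintype.card_sigma]
    refine Finset.sum_congr rfl fun a _ => ?_
    rw [Fintype.card_prod, card_fib]
  rw [h1, ← Fintype.card_subtype]
  have hinl : ∀ (e : ι ⊕ ι ↪ α) (i : ι), e (Sum.inr i) ∉ XX (e1 e) := by
    intro e i h
    rw [mem_XX] at h
    obtain ⟨j, hj⟩ := h
    exact absurd (e.injective hj) (by simp)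
  let f : {e : ι ⊕ ι ↪ α // Tr e g ∅} → (Σ a : ι ↪ α, ({i // a i ∉ YY g a} ↪ {x // x ∈ YY g a \ XX a})
        × ({i // ¬ a i ∉ YY g a} ↪ {x // x ∉ XX a ∪ YY g a})) := fun e =>
    ⟨e1 e.1, ⟨fun i => ⟨e.1 (Sum.inr i.1), by
        rw [Finset.mem_sdiff]
        exact ⟨(Tr_mem e.1 g e.2 i.1).mpr i.2, hinl e.1 i.1⟩⟩, fun i j h => by
          apply Subtype.ext
          exact Sum.inr_injective (e.1.injective (congrArg Subtype.val h))⟩,
      ⟨fun i => ⟨e.1 (Sum.inr i.1), by
        rw [Finset.mem_union, not_or]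
        refine ⟨hinl e.1 i.1, fun h => ?_⟩
        exact i.2 ((Tr_mem e.1 g e.2 i.1).mp h)⟩, fun i j h => by
          apply Subtype.ext
          exact Sum.inr_injective (e.1.injective (congrArg Subtype.val h))⟩⟩
  apply Fintype.card_le_of_injective f
  rintro ⟨e, he⟩ ⟨e', he'⟩ h
  apply Subtype.ext
  have h2 : e1 e = e1 e' := congrArg Sigma.fst h
  have h3 : ∀ i, e (Sum.inr i) = e' (Sum.inr i) := by
    intro i
    by_cases hi : e1 e i ∉ YY g (e1 e)
    · -- transport
      have key : ∀ (a a' : ι ↪ α) (u : ({i // a i ∉ YY g a} ↪ {x // x ∈ YY g a \ XX a})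
          × ({i // ¬ a i ∉ YY g a} ↪ {x // x ∉ XX a ∪ YY g a}))
          (u' : ({i // a' i ∉ YY g a'} ↪ {x // x ∈ YY g a' \ XX a'})
          × ({i // ¬ a' i ∉ YY g a'} ↪ {x // x ∉ XX a' ∪ YY g a'})),
          (⟨a, u⟩ : Σ a : ι ↪ α, ({i // a i ∉ YY g a} ↪ {x // x ∈ YY g a \ XX a})
          × ({i // ¬ a i ∉ YY g a} ↪ {x // x ∉ XX a ∪ YY g a})) = ⟨a', u'⟩ →
          ∀ (hi : a i ∉ YY g a) (hi' : a' i ∉ YY g a'), (u.1 ⟨i, hi⟩).1 = (u'.1 ⟨i, hi'⟩).1 := by
        intro a a' u u' huu hi hi'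
        cases huu
        rfl
      have hi' : e1 e' i ∉ YY g (e1 e') := by rw [← h2]; exact hi
      exact key _ _ _ _ h hi hi'
    · have key : ∀ (a a' : ι ↪ α) (u : ({i // a i ∉ YY g a} ↪ {x // x ∈ YY g a \ XX a})
          × ({i // ¬ a i ∉ YY g a} ↪ {x // x ∉ XX a ∪ YY g a}))
          (u' : ({i // a' i ∉ YY g a'} ↪ {x // x ∈ YY g a' \ XX a'})
          × ({i // ¬ a' i ∉ YY g a'} ↪ {x // x ∉ XX a' ∪ YY g a'})),
          (⟨a, u⟩ : Σ a : ι ↪ α, ({i // a i ∉ YY g a} ↪ {x // x ∈ YY g a \ XX a})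
          × ({i // ¬ a i ∉ YY g a} ↪ {x // x ∉ XX a ∪ YY g a})) = ⟨a', u'⟩ →
          ∀ (hi : ¬ a i ∉ YY g a) (hi' : ¬ a' i ∉ YY g a'), (u.2 ⟨i, hi⟩).1 = (u'.2 ⟨i, hi'⟩).1 := by
        intro a a' u u' huu hi hi'
        cases huu
        rfl
      have hi' : ¬ e1 e' i ∉ YY g (e1 e') := by rw [← h2]; exact hi
      exact key _ _ _ _ h hi hi'
  ext s
  rcases s with i | i
  · exact DFunLike.congr_fun h2 i
  · exact h3 i


theorem nat_id (n l k : ℕ) (hk : k ≤ l) :
    n.choose k * (k.factorial * (n - k).descFactorial (l - k)) = n.descFactorial l := by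
  have h1 := Nat.descFactorial_eq_factorial_mul_choose n k
  have h2 := Nat.descFactorial_mul_descFactorial (n := n) hk
  rw [← h2, h1]
  ring

theorem card_fibre_XX (X : Finset α) (hX : X.card = Fintype.card ι) :
    (Finset.univ.filter (fun a : ι ↪ α => XX a = X)).card ≤ (Fintype.card ι).factorial := by
  classical
  rw [← Fintype.card_subtype]
  have h1 : Fintype.card (ι ↪ {x // x ∈ X}) = (Fintype.card ι).factorial := by
    rw [Fintype.card_embedding_eq, Fintype.card_coe, hX, Nat.descFactorial_self]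
  rw [← h1]
  let f : {a : ι ↪ α // XX a = X} → (ι ↪ {x // x ∈ X}) := fun a =>
    ⟨fun i => ⟨a.1 i, (Finset.ext_iff.mp a.2 (a.1 i)).mp ((mem_XX a.1 _).mpr ⟨i, rfl⟩)⟩, fun i j h =>
      a.1.injective (congrArg Subtype.val h)⟩
  apply Fintype.card_le_of_injective f
  rintro ⟨a, ha⟩ ⟨a', ha'⟩ h
  apply Subtype.ext
  ext i
  exact congrArg Subtype.val (DFunLike.congr_fun h i)

theorem card_sdiff_shift (g : Perm α) (X : Finset α) :
    (X \ X.map g⁻¹.toEmbedding).card = (X.map g.toEmbedding \ X).card := by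
  have h : (X \ X.map g⁻¹.toEmbedding).map g.toEmbedding = X.map g.toEmbedding \ X := by
    ext x
    simp only [Finset.mem_map, Finset.mem_sdiff, Equiv.coe_toEmbedding]
    constructor
    · rintro ⟨y, ⟨hy, hn⟩, rfl⟩
      refine ⟨⟨y, hy, rfl⟩, fun hx => hn ⟨g y, hx, ?_⟩⟩
      exact g.symm_apply_apply y
    · rintro ⟨⟨y, hy, rfl⟩, hn⟩
      refine ⟨y, ⟨hy, ?_⟩, rfl⟩
      rintro ⟨z, hz, hzy⟩
      apply hn
      have : g y = z := by rw [← hzy]; exact g.apply_symm_apply z
      rw [this]; exact hz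
  rw [← h, Finset.card_map]

/-- CORE of (L) -/
theorem L_core (F : (ι → α) → ℝ) (hinj : ∀ y, F y ≠ 0 → Function.Injective y)
    (hnew : ∀ (i : ι) (y : ι → α), ∑ b, F (Function.update y i b) = 0)
    (hF : ∃ y, F y ≠ 0) (ζ : Perm α → ℝ) (hζ : ∀ g, 0 ≤ ζ g)
    (hcl : ∀ g k, ζ (k * g * k⁻¹) = ζ g) (c : ℝ)
    (heig : ∀ y, ∑ g, ζ g * F (fun i => g⁻¹ (y i)) = c * F y)
    (hm : 2 * Fintype.card ι ≤ Fintype.card α) :
    c ≤ ∑ g, ζ g * ((∑ X ∈ powersetCard (Fintype.card ι) (univ : Finset α),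
        1 / (((Fintype.card α - Fintype.card ι).choose (X.map g.toEmbedding \ X).card : ℕ) : ℝ))
          / ((Fintype.card α).choose (Fintype.card ι) : ℝ)) := by
  classical
  set m := Fintype.card α with hmdef
  set l := Fintype.card ι with hldef
  have hE : Fintype.card (ι ⊕ ι ↪ α) = m.descFactorial (2 * l) := by
    rw [Fintype.card_embedding_eq, Fintype.card_sum, ← two_mul]
  have hEid : (m - l).descFactorial l * m.descFactorial l = m.descFactorial (2 * l) := by
    have := Nat.descFactorial_mul_descFactorial (n := m) (k := l) (m := 2 * l) (by omega)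
    have e : 2 * l - l = l := by omega
    rw [e] at this
    exact this
  -- step 2
  have h2 : c * 2 ^ l * (Fintype.card (ι ⊕ ι ↪ α) : ℝ)
      ≤ ∑ g, ζ g * (2 ^ l * ((Finset.univ.filter (fun e : ι ⊕ ι ↪ α => Tr e g ∅)).card : ℝ)) := by
    calc c * 2 ^ l * (Fintype.card (ι ⊕ ι ↪ α) : ℝ)
        = ∑ _e : ι ⊕ ι ↪ α, c * 2 ^ l := by
          rw [Finset.sum_const, Finset.card_univ, nsmul_eq_mul]; ring
      _ ≤ ∑ e : ι ⊕ ι ↪ α, ∑ g, ζ g
            * ((Finset.univ.filter (fun S : Finset ι => Tr e g S)).card : ℝ) :=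
          Finset.sum_le_sum fun e _ => each_pair F hinj hnew hF ζ hζ hcl c heig e
      _ = ∑ g, ζ g * (2 ^ l * ((Finset.univ.filter (fun e : ι ⊕ ι ↪ α => Tr e g ∅)).card : ℝ)) := by
          rw [Finset.sum_comm]
          refine Finset.sum_congr rfl fun g _ => ?_
          rw [← Finset.mul_sum, sum_Tr]
  have hml : ((m - l).descFactorial l : ℝ) ≠ 0 := by
    have : 0 < (m - l).descFactorial l := Nat.descFactorial_pos.mpr (by omega)
    exact_mod_cast this.ne'
  -- pointwise ratio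
  have hratio : ∀ (g : Perm α) (a : ι ↪ α),
      (((XX a \ YY g a).card.factorial
        * (m - l - (XX a \ YY g a).card).descFactorial (l - (XX a \ YY g a).card) : ℕ) : ℝ)
      = ((m - l).descFactorial l : ℝ)
        * (1 / (((m - l).choose (XX a \ YY g a).card : ℕ) : ℝ)) := by
    intro g a
    have hk : (XX a \ YY g a).card ≤ l := by
      have := Finset.card_le_card (Finset.sdiff_subset (s := XX a) (t := YY g a))
      rw [card_XX] at this
      exact this
    have hid := nat_id (m - l) l _ hk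
    have hc : (0 : ℝ) < (((m - l).choose (XX a \ YY g a).card : ℕ) : ℝ) := by
      exact_mod_cast Nat.choose_pos (by omega)
    rw [← hid]
    push_cast
    field_simp
  have h3 : ∀ g : Perm α, ((Finset.univ.filter (fun e : ι ⊕ ι ↪ α => Tr e g ∅)).card : ℝ)
      ≤ ((m - l).descFactorial l : ℝ) * (l.factorial *
        ∑ X ∈ powersetCard l (univ : Finset α),
          1 / (((m - l).choose (X.map g.toEmbedding \ X).card : ℕ) : ℝ)) := by
    intro g
    have h4 : ((Finset.univ.filter (fun e : ι ⊕ ι ↪ α => Tr e g ∅)).card : ℝ)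
        ≤ ∑ a : ι ↪ α, ((m - l).descFactorial l : ℝ)
          * (1 / (((m - l).choose (XX a \ YY g a).card : ℕ) : ℝ)) := by
      have h5 := card_Tr_le (ι := ι) g
      have h6 : ((Finset.univ.filter (fun e : ι ⊕ ι ↪ α => Tr e g ∅)).card : ℝ)
          ≤ ((∑ a : ι ↪ α, (XX a \ YY g a).card.factorial
            * (m - l - (XX a \ YY g a).card).descFactorial (l - (XX a \ YY g a).card) : ℕ) : ℝ) := by
        exact_mod_cast h5
      refine h6.trans (le_of_eq ?_)
      rw [Nat.cast_sum]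
      exact Finset.sum_congr rfl fun a _ => hratio g a
    refine h4.trans ?_
    rw [← Finset.mul_sum]
    refine mul_le_mul_of_nonneg_left ?_ (Nat.cast_nonneg _)
    -- fibre over the image
    have h7 : ∀ a : ι ↪ α, (1 / (((m - l).choose (XX a \ YY g a).card : ℕ) : ℝ))
        = 1 / (((m - l).choose ((XX a).map g.toEmbedding \ XX a).card : ℕ) : ℝ) := by
      intro a
      unfold YY
      rw [card_sdiff_shift]
    rw [Finset.sum_congr rfl (fun a _ => h7 a)]
    have h8 : ∀ a ∈ (Finset.univ : Finset (ι ↪ α)), XX a ∈ powersetCard l (univ : Finset α) := by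
      intro a _
      rw [Finset.mem_powersetCard]
      exact ⟨Finset.subset_univ _, card_XX a⟩
    rw [← Finset.sum_fiberwise_of_maps_to h8, Finset.mul_sum]
    refine Finset.sum_le_sum fun X hX => ?_
    rw [Finset.sum_congr rfl (g := fun _ =>
      1 / (((m - l).choose (X.map g.toEmbedding \ X).card : ℕ) : ℝ))
      (fun a ha => by rw [(Finset.mem_filter.mp ha).2])]
    rw [Finset.sum_const, nsmul_eq_mul]
    refine mul_le_mul_of_nonneg_right ?_ (by positivity)
    exact_mod_cast card_fibre_XX X (Finset.mem_powersetCard.mp hX).2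
  -- conclusion
  have hchl : (m.descFactorial l : ℝ) = l.factorial * (m.choose l : ℝ) := by
    rw [Nat.descFactorial_eq_factorial_mul_choose]; push_cast; ring
  have hlf : (0 : ℝ) < (l.factorial : ℝ) := by positivity
  have hch : (0 : ℝ) < (m.choose l : ℝ) := by exact_mod_cast Nat.choose_pos (by omega)
  have hD : (0 : ℝ) < ((m - l).descFactorial l : ℝ) := lt_of_le_of_ne (Nat.cast_nonneg _) (Ne.symm hml)
  have h9 : c * (2 ^ l * ((m - l).descFactorial l : ℝ) * l.factorial * (m.choose l : ℝ))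
      ≤ (∑ g, ζ g * ((∑ X ∈ powersetCard l (univ : Finset α),
        1 / (((m - l).choose (X.map g.toEmbedding \ X).card : ℕ) : ℝ)) / (m.choose l : ℝ)))
        * (2 ^ l * ((m - l).descFactorial l : ℝ) * l.factorial * (m.choose l : ℝ)) := by
    have hl' : c * (2 ^ l * ((m - l).descFactorial l : ℝ) * l.factorial * (m.choose l : ℝ))
        = c * 2 ^ l * (Fintype.card (ι ⊕ ι ↪ α) : ℝ) := by
      rw [hE, ← hEid]
      push_cast
      rw [hchl]
      ring
    rw [hl']
    refine h2.trans ?_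
    rw [Finset.sum_mul]
    refine Finset.sum_le_sum fun g _ => ?_
    have := mul_le_mul_of_nonneg_left (h3 g) (mul_nonneg (hζ g) (by positivity : (0 : ℝ) ≤ 2 ^ l))
    calc ζ g * (2 ^ l * ((Finset.univ.filter (fun e : ι ⊕ ι ↪ α => Tr e g ∅)).card : ℝ))
        = ζ g * 2 ^ l * ((Finset.univ.filter (fun e : ι ⊕ ι ↪ α => Tr e g ∅)).card : ℝ) := by ring
      _ ≤ _ := this
      _ = _ := by field_simp
  exact le_of_mul_le_mul_right h9 (by positivity)

end

end Crest.Agent.T22
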