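import Crest.Agent.T22Gam

/-! S0222 tools, section 4.2: cycle moments of `ζ * ζ` and elementary bounds. -/

set_option autoImplicit false
set_option linter.unusedSectionVars false
namespace Crest.Agent.T22

open Equiv Equiv.Perm Finset Crest.Agent.ThS

variable {α : Type*} [Fintype α] [DecidableEq α]

/-- average over conjugations -/
theorem sum_cls_avg (ζ : Perm α → ℝ) (hc : ∀ g k, ζ (k * g * k⁻¹) = ζ g) (F : Perm α → ℝ) :
    ((Fintype.card α).factorial : ℝ) * ∑ g, ζ g * F g = ∑ c, ζ c * ∑ h : Perm α, F (h * c * h⁻¹) := by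
  have h1 : ∀ h : Perm α, ∑ g, ζ g * F g = ∑ c, ζ c * F (h * c * h⁻¹) := by
    intro h
    rw [← Equiv.sum_comp (MulAut.conj h).toEquiv (fun g => ζ g * F g)]
    refine Finset.sum_congr rfl fun c _ => ?_
    simp only [MulEquiv.toEquiv_eq_coe, MulEquiv.coe_toEquiv, MulAut.conj_apply]
    rw [hc]
  have h2 : ∑ h : Perm α, ∑ c, ζ c * F (h * c * h⁻¹)
      = ((Fintype.card α).factorial : ℝ) * ∑ g, ζ g * F g := by
    rw [Finset.sum_congr rfl fun h _ => (h1 h).symm, Finset.sum_const, Finset.card_univ,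
      Fintype.card_perm, nsmul_eq_mul]
  rw [← h2, Finset.sum_comm]
  refine Finset.sum_congr rfl fun c _ => ?_
  rw [Finset.mul_sum]

theorem cyc_cls (ζ : Perm α → ℝ) (h0 : ∀ g, 0 ≤ ζ g) (hc : ∀ g k, ζ (k * g * k⁻¹) = ζ g) (z : ℕ)
    (hz : 0 < z) :
    ∑ g, cv ζ ζ g * (z : ℝ) ^ ncyc g
      ≤ (Nat.multichoose (z * z) (Fintype.card α) : ℝ) * (∑ c, ζ c * Real.sqrt z ^ nfix c) ^ 2 := by
  set m := Fintype.card α with hmdef
  have hf : (0 : ℝ) < (m.factorial : ℝ) := by positivity
  rw [sum_cv_mul]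
  have e1 : ∀ a : Perm α, ζ a * ∑ b, ζ b * (z : ℝ) ^ ncyc (a * b)
      ≤ (ζ a * Real.sqrt z ^ nfix a) *
        ((Nat.multichoose (z * z) m : ℝ) * ∑ c, ζ c * Real.sqrt z ^ nfix c) := by
    intro a
    rw [mul_assoc]
    refine mul_le_mul_of_nonneg_left ?_ (h0 a)
    refine le_of_mul_le_mul_left ?_ hf
    rw [sum_cls_avg ζ hc]
    calc ∑ c, ζ c * ∑ h : Perm α, (z : ℝ) ^ ncyc (a * (h * c * h⁻¹))
        ≤ ∑ c, ζ c * ((m.factorial : ℝ) * (Nat.multichoose (z * z) m : ℝ)
          * Real.sqrt z ^ (nfix a + nfix c)) := by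
          refine Finset.sum_le_sum fun c _ => mul_le_mul_of_nonneg_left ?_ (h0 c)
          refine le_trans (le_of_eq ?_) (cyc_avg2 a c z hz)
          refine Finset.sum_congr rfl fun h _ => ?_
          rw [show a * (h * c * h⁻¹) = a * h * c * h⁻¹ by simp only [mul_assoc]]
      _ = _ := by
          simp_rw [pow_add, Finset.mul_sum]
          refine Finset.sum_congr rfl fun c _ => ?_
          ring
  refine (Finset.sum_le_sum fun a _ => e1 a).trans (le_of_eq ?_)
  rw [← Finset.sum_mul]
  ring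

/-- L2 norm of `ζ * ζ` -/
theorem l2_cls (ζ : Perm α → ℝ) (h0 : ∀ g, 0 ≤ ζ g) (hc : ∀ g k, ζ (k * g * k⁻¹) = ζ g) (z : ℕ)
    (hz : 0 < z) (hzm : Fintype.card α ≤ z * z) :
    ((Fintype.card α).factorial : ℝ) * ∑ g, cv ζ ζ g ^ 2
      ≤ ((Nat.multichoose (z * z) (Fintype.card α) : ℝ) *
        (∑ c, ζ c * Real.sqrt z ^ nfix c) ^ 2) ^ 2 := by
  have hn : ∀ g, 0 ≤ cv ζ ζ g := cv_nonneg h0 h0
  refine (conj_l2 _ hn (cv_conj_inv hc hc)).trans ?_
  refine pow_le_pow_left₀ (Finset.sum_nonneg fun g _ => mul_nonneg (hn g) (Real.sqrt_nonneg _)) ?_ 2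
  refine le_trans (Finset.sum_le_sum fun g _ => ?_) (cyc_cls ζ h0 hc z hz)
  exact mul_le_mul_of_nonneg_left (sqrt_zc_le g z hzm) (hn g)

/-! ### multichoose -/

theorem multichoose_gen (t : ℝ) (h0 : 0 ≤ t) (h1 : t ≤ 1) : ∀ N m : ℕ,
    (Nat.multichoose N m : ℝ) * t ^ m * (1 - t) ^ N ≤ 1 := by
  intro N
  induction N with
  | zero =>
    intro m
    cases m with
    | zero => simp
    | succ m => simp [Nat.multichoose]
  | succ N ih =>
    intro m
    induction m with
    | zero =>
      simp only [Nat.multichoose_zero_right, Nat.cast_one, pow_zero, mul_one, one_mul]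
      exact pow_le_one₀ (by linarith) (by linarith)
    | succ m ihm =>
      rw [Nat.multichoose_succ_succ]
      push_cast
      have e : ((Nat.multichoose N (m + 1) : ℝ) + (Nat.multichoose (N + 1) m : ℝ)) * t ^ (m + 1)
          * (1 - t) ^ (N + 1)
          = (1 - t) * ((Nat.multichoose N (m + 1) : ℝ) * t ^ (m + 1) * (1 - t) ^ N)
            + t * ((Nat.multichoose (N + 1) m : ℝ) * t ^ m * (1 - t) ^ (N + 1)) := by ring
      rw [e]
      nlinarith [ih (m + 1), ihm]

theorem multichoose_two (N m : ℕ) : (Nat.multichoose N m : ℝ) ≤ 2 ^ (N + m) := by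
  have h := multichoose_gen (1 / 2) (by norm_num) (by norm_num) N m
  have e : (Nat.multichoose N m : ℝ) * (1 / 2) ^ m * (1 - 1 / 2) ^ N
      = (Nat.multichoose N m : ℝ) / 2 ^ (N + m) := by
    rw [pow_add, show (1 - 1 / 2 : ℝ) = 1 / 2 by norm_num, one_div, inv_pow, inv_pow]
    field_simp
  rw [e, div_le_one (by positivity)] at h
  exact h

/-- `multichoose N m ≤ exp l (2m/l)^N` -/
theorem multichoose_exp (N m : ℕ) (p : ℝ) (hp : 0 < p) (hp1 : p ≤ 1) :
    (Nat.multichoose N m : ℝ) ≤ Real.exp (p * m) * (2 / p) ^ N := by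
  have h := multichoose_gen (Real.exp (-p)) (Real.exp_pos _).le
    (Real.exp_le_one_iff.mpr (by linarith)) N m
  have h2 : p / 2 ≤ 1 - Real.exp (-p) := by
    have h3 : Real.exp (-p) * (1 + p) ≤ 1 := by
      have := Real.add_one_le_exp p
      calc Real.exp (-p) * (1 + p) ≤ Real.exp (-p) * Real.exp p :=
            mul_le_mul_of_nonneg_left (by linarith) (Real.exp_pos _).le
        _ = 1 := by rw [← Real.exp_add]; simp
    have h4 : 0 < Real.exp (-p) := Real.exp_pos _
    nlinarith
  have h5 : (Nat.multichoose N m : ℝ) * Real.exp (-p) ^ m * (p / 2) ^ N ≤ 1 := by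
    refine le_trans ?_ h
    refine mul_le_mul_of_nonneg_left ?_ (by positivity)
    exact pow_le_pow_left₀ (by positivity) h2 N
  have h6 : Real.exp (-p) ^ m = (Real.exp (p * m))⁻¹ := by
    rw [← Real.exp_nat_mul, ← Real.exp_neg]
    congr 1
    ring
  rw [h6] at h5
  have h7 : (2 / p) ^ N = ((p / 2) ^ N)⁻¹ := by
    rw [← inv_pow, inv_div]
  rw [h7, ← div_eq_mul_inv, le_div_iff₀ (by positivity)]
  have h8 : (Nat.multichoose N m : ℝ) * (Real.exp (p * m))⁻¹ * (p / 2) ^ N
      = (Nat.multichoose N m : ℝ) * (p / 2) ^ N / Real.exp (p * m) := by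
    rw [div_eq_mul_inv]; ring
  rw [h8, div_le_one (Real.exp_pos _)] at h5
  exact h5

/-! ### random `l`-subsets -/

theorem card_super_le (S : Finset α) (l : ℕ) (hl : l ≤ Fintype.card α) :
    (((powersetCard l (univ : Finset α)).filter (fun X => S ⊆ X)).card : ℝ)
      ≤ ((Fintype.card α).choose l : ℝ) * ((l : ℝ) / (Fintype.card α : ℝ)) ^ S.card := by
  classical
  set m := Fintype.card α with hm
  have hch : ∀ s : ℕ, s ≤ l → (((m - s).choose (l - s) : ℕ) : ℝ)
      ≤ (m.choose l : ℝ) * ((l : ℝ) / (m : ℝ)) ^ s := by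
    intro s
    induction s with
    | zero => intro _; simp
    | succ s ih =>
      intro hs
      have h1 := ih (by omega)
      have hm0 : 0 < m - s := by omega
      have h2 : (m - s) * ((m - (s + 1)).choose (l - (s + 1))) = (m - s).choose (l - s) * (l - s) := by
        obtain ⟨a, ha⟩ : ∃ a, m - s = a + 1 := ⟨m - s - 1, by omega⟩
        obtain ⟨b, hb⟩ : ∃ b, l - s = b + 1 := ⟨l - s - 1, by omega⟩
        have ha' : m - (s + 1) = a := by omega
        have hb' : l - (s + 1) = b := by omega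
        rw [ha', hb', ha, hb]
        exact Nat.add_one_mul_choose_eq a b
      have h3 : ((m - s : ℕ) : ℝ) * (((m - (s + 1)).choose (l - (s + 1)) : ℕ) : ℝ)
          = (((m - s).choose (l - s) : ℕ) : ℝ) * ((l - s : ℕ) : ℝ) := by exact_mod_cast h2
      have hmR : (0 : ℝ) < ((m - s : ℕ) : ℝ) := by exact_mod_cast hm0
      have hmp : (0 : ℝ) < (m : ℝ) := by exact_mod_cast (show 0 < m by omega)
      have h4 : ((l - s : ℕ) : ℝ) / ((m - s : ℕ) : ℝ) ≤ (l : ℝ) / (m : ℝ) := by
        rw [div_le_div_iff₀ hmR hmp, Nat.cast_sub (by omega), Nat.cast_sub (by omega)]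
        have : (l : ℝ) ≤ m := by exact_mod_cast hl
        have hs0 : (0 : ℝ) ≤ s := Nat.cast_nonneg s
        nlinarith
      have h5 : (((m - (s + 1)).choose (l - (s + 1)) : ℕ) : ℝ)
          = (((m - s).choose (l - s) : ℕ) : ℝ) * (((l - s : ℕ) : ℝ) / ((m - s : ℕ) : ℝ)) := by
        field_simp
        linarith [h3]
      rw [h5, pow_succ, ← mul_assoc]
      exact mul_le_mul h1 h4 (by positivity) (by positivity)
  by_cases hs : S.card ≤ l
  · refine le_trans ?_ (hch S.card hs)
    have h6 : ((powersetCard l (univ : Finset α)).filter (fun X => S ⊆ X)).card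
        ≤ (powersetCard (l - S.card) Sᶜ).card := by
      refine Finset.card_le_card_of_injOn (fun X => X \ S) ?_ ?_
      · intro X hX
        have hX2 := Finset.mem_filter.mp hX
        have hX3 := (mem_powersetCard.mp hX2.1).2
        rw [Finset.mem_coe, mem_powersetCard]
        refine ⟨?_, ?_⟩
        · intro a ha
          rw [Finset.mem_compl]
          exact (Finset.mem_sdiff.mp ha).2
        · rw [Finset.card_sdiff_of_subset hX2.2, hX3]
      · intro X hX Y hY h
        have hX2 := (Finset.mem_filter.mp hX).2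
        have hY2 := (Finset.mem_filter.mp hY).2
        rw [← Finset.sdiff_union_of_subset hX2, ← Finset.sdiff_union_of_subset hY2]
        simp only at h
        rw [h]
    rw [card_powersetCard, Finset.card_compl] at h6
    exact_mod_cast h6
  · have h7 : (powersetCard l (univ : Finset α)).filter (fun X => S ⊆ X) = ∅ := by
      rw [Finset.filter_eq_empty_iff]
      intro X hX hSX
      have := Finset.card_le_card hSX
      rw [(mem_powersetCard.mp hX).2] at this
      exact hs this
    rw [h7]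
    simp
    positivity

theorem sum_pow_inter_le (R : Finset α) (l : ℕ) (hl : l ≤ Fintype.card α) (z : ℝ) (hz : 1 ≤ z) :
    ∑ X ∈ powersetCard l (univ : Finset α), z ^ (X ∩ R).card
      ≤ ((Fintype.card α).choose l : ℝ) * (1 + (z - 1) * ((l : ℝ) / (Fintype.card α : ℝ))) ^ R.card := by
  classical
  have h1 : ∀ X : Finset α, z ^ (X ∩ R).card
      = ∑ S ∈ R.powerset, if S ⊆ X then (z - 1) ^ S.card else 0 := by
    intro X
    rw [← Finset.sum_filter]
    have h2 : R.powerset.filter (fun S => S ⊆ X) = (X ∩ R).powerset := by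
      ext S
      simp only [Finset.mem_filter, Finset.mem_powerset, Finset.subset_inter_iff]
      tauto
    rw [h2]
    have h3 := Finset.sum_pow_mul_eq_add_pow (z - 1) (1 : ℝ) (X ∩ R)
    simp only [one_pow, mul_one, sub_add_cancel] at h3
    exact h3.symm
  rw [Finset.sum_congr rfl fun X _ => h1 X, Finset.sum_comm]
  have h4 : ∀ S ∈ R.powerset, (∑ X ∈ powersetCard l (univ : Finset α),
      if S ⊆ X then (z - 1) ^ S.card else 0)
      ≤ ((Fintype.card α).choose l : ℝ) *
        (((z - 1) * ((l : ℝ) / (Fintype.card α : ℝ))) ^ S.card * 1 ^ (R.card - S.card)) := by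
    intro S _
    rw [← Finset.sum_filter, Finset.sum_const, nsmul_eq_mul, one_pow, mul_one, mul_pow]
    have := mul_le_mul_of_nonneg_right (card_super_le S l hl)
      (pow_nonneg (show (0 : ℝ) ≤ z - 1 by linarith) S.card)
    refine this.trans (le_of_eq ?_)
    ring
  refine (Finset.sum_le_sum h4).trans (le_of_eq ?_)
  rw [← Finset.mul_sum, Finset.sum_pow_mul_eq_add_pow, add_comm]

/-- one representative per cycle -/
noncomputable def reps (g : Perm α) : Finset α :=
  univ.image (Function.surjInv (cls_surj g))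

theorem card_reps_le (g : Perm α) : (reps g).card ≤ ncyc g := by
  unfold reps
  refine Finset.card_image_le.trans ?_
  rw [Finset.card_univ, card_target]

theorem cin_aux (g : Perm α) (X : Finset α) :
    Fintype.card {t : {a // g a = a} ⊕ g.cycleFactorsFinset // ∀ a, cls g a = t → a ∈ X}
      ≤ (X ∩ reps g).card := by
  classical
  rw [Fintype.card_subtype]
  refine Finset.card_le_card_of_injOn (Function.surjInv (cls_surj g)) ?_ ?_
  · intro t ht
    have ht2 := (Finset.mem_filter.mp ht).2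
    rw [Finset.mem_coe, Finset.mem_inter]
    refine ⟨ht2 _ (Function.surjInv_eq (cls_surj g) t), ?_⟩
    unfold reps
    exact Finset.mem_image_of_mem _ (Finset.mem_univ _)
  · intro t _ t' _ h
    exact Function.injective_surjInv (cls_surj g) h

theorem sum_cin_le (g : Perm α) (l : ℕ) (hl : l ≤ Fintype.card α) (z : ℝ) (hz : 1 ≤ z) :
    ∑ X ∈ powersetCard l (univ : Finset α),
      z ^ (Fintype.card {t : {a // g a = a} ⊕ g.cycleFactorsFinset // ∀ a, cls g a = t → a ∈ X})
      ≤ ((Fintype.card α).choose l : ℝ) * (1 + (z - 1) * ((l : ℝ) / (Fintype.card α : ℝ))) ^ ncyc g := by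
  classical
  refine le_trans (Finset.sum_le_sum fun X _ => pow_le_pow_right₀ hz (cin_aux g X)) ?_
  refine (sum_pow_inter_le (reps g) l hl z hz).trans ?_
  refine mul_le_mul_of_nonneg_left ?_ (Nat.cast_nonneg _)
  refine pow_le_pow_right₀ ?_ (card_reps_le g)
  have : (0 : ℝ) ≤ (z - 1) * ((l : ℝ) / (Fintype.card α : ℝ)) :=
    mul_nonneg (by linarith) (by positivity)
  linarith

end Crest.Agent.T22
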