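import Mathlib

/-!
S0241: geometry of regular trees: parents, children, isomorphisms with prescribed geodesic.
-/

set_option autoImplicit false

namespace Crest.Agent.T41

open SimpleGraph

universe u v
variable {V : Type u} {W : Type v}

section basic
variable {G : SimpleGraph V} (hT : G.IsTree)
include hT

/-- every vertex different from the root has a neighbour closer to the root -/
theorem exists_parent (o x : V) (h : x ≠ o) : ∃ y, G.Adj x y ∧ G.dist o x = G.dist o y + 1 := by
  obtain ⟨p, hp, hl⟩ := hT.connected.exists_path_of_dist x o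
  cases p with
  | nil => exact absurd rfl h
  | @cons _ y _ hadj q =>
    refine ⟨y, hadj, ?_⟩
    rw [Walk.length_cons] at hl
    have h1 : G.dist y o ≤ q.length := dist_le q
    rw [G.dist_comm (u := o) (v := x), G.dist_comm (u := o) (v := y)]
    have h2 := hT.dist_eq_dist_add_one_of_adj o hadj
    rw [G.dist_comm (u := o) (v := x), G.dist_comm (u := o) (v := y)] at h2
    omega

theorem parent_unique (o x y z : V) (h1 : G.Adj x y) (h2 : G.Adj x z)
    (hy : G.dist o x = G.dist o y + 1) (hz : G.dist o x = G.dist o z + 1) : y = z := by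
  obtain ⟨p, hp, hl⟩ := hT.connected.exists_path_of_dist o y
  obtain ⟨q, hq, hl'⟩ := hT.connected.exists_path_of_dist o z
  have hp' : (p.concat h1.symm).IsPath :=
    Walk.isPath_of_length_eq_dist _ (by rw [Walk.length_concat, hl, hy])
  have hq' : (q.concat h2.symm).IsPath :=
    Walk.isPath_of_length_eq_dist _ (by rw [Walk.length_concat, hl', hz])
  have := (hT.existsUnique_path o x).unique hp' hq'
  have h3 := congrArg (fun w => w.penultimate) this
  simpa using h3

/-- parent towards `o` (junk value `o` at `o`) -/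
noncomputable def par (o x : V) : V := by
  classical
  exact if h : x = o then o else Classical.choose (exists_parent hT o x h)

theorem par_adj (o x : V) (h : x ≠ o) : G.Adj x (par hT o x) := by
  unfold par; rw [dif_neg h]; exact (Classical.choose_spec (exists_parent hT o x h)).1

theorem par_dist (o x : V) (h : x ≠ o) : G.dist o x = G.dist o (par hT o x) + 1 := by
  unfold par; rw [dif_neg h]; exact (Classical.choose_spec (exists_parent hT o x h)).2

theorem par_eq (o x y : V) (h1 : G.Adj x y) (hy : G.dist o x = G.dist o y + 1) :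
    par hT o x = y := by
  have h : x ≠ o := by
    rintro rfl
    simp at hy
  exact parent_unique hT o x _ _ (par_adj hT o x h) h1 (par_dist hT o x h) hy

theorem adj_iff_par (o x y : V) :
    G.Adj x y ↔ (x ≠ o ∧ par hT o x = y) ∨ (y ≠ o ∧ par hT o y = x) := by
  constructor
  · intro h
    rcases hT.dist_eq_dist_add_one_of_adj o h with h1 | h1
    · left
      refine ⟨?_, par_eq hT o x y h h1⟩
      rintro rfl; simp at h1
    · right
      refine ⟨?_, par_eq hT o y x h.symm h1⟩
      rintro rfl; simp at h1
  · rintro (⟨h1, rfl⟩ | ⟨h1, rfl⟩)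
    · exact par_adj hT o x h1
    · exact (par_adj hT o y h1).symm

end basic

/-- children of `x` with respect to the root `o` -/
def chil (G : SimpleGraph V) (o x : V) : Set V := {y | G.Adj x y ∧ G.dist o y = G.dist o x + 1}

theorem mem_chil_iff {G : SimpleGraph V} (hT : G.IsTree) (o x y : V) :
    y ∈ chil G o x ↔ y ≠ o ∧ par hT o y = x := by
  constructor
  · rintro ⟨h1, h2⟩
    have : y ≠ o := by rintro rfl; simp at h2
    exact ⟨this, par_eq hT o y x h1.symm h2⟩
  · rintro ⟨h1, rfl⟩
    exact ⟨(par_adj hT o y h1).symm, par_dist hT o y h1⟩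

theorem neighborSet_root {G : SimpleGraph V} (o : V) :
    chil G o o = G.neighborSet o := by
  ext y
  constructor
  · rintro ⟨h1, _⟩; exact h1
  · intro h
    refine ⟨h, ?_⟩
    rw [dist_self, zero_add]
    exact dist_eq_one_iff_adj.2 h

theorem neighborSet_eq {G : SimpleGraph V} (hT : G.IsTree) (o x : V) (h : x ≠ o) :
    G.neighborSet x = insert (par hT o x) (chil G o x) := by
  ext y
  constructor
  · intro hy
    rcases (adj_iff_par hT o x y).1 hy with ⟨_, h2⟩ | ⟨h1, h2⟩
    · left; exact h2.symm
    · right; exact (mem_chil_iff hT o x y).2 ⟨h1, h2⟩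
  · rintro (rfl | hy)
    · exact par_adj hT o x h
    · exact hy.1

theorem par_notMem_chil {G : SimpleGraph V} (hT : G.IsTree) (o x : V) (h : x ≠ o) :
    par hT o x ∉ chil G o x := by
  rintro ⟨_, h2⟩
  have := par_dist hT o x h
  omega

theorem chil_ncard {G : SimpleGraph V} [G.LocallyFinite] (hT : G.IsTree) (d : ℕ)
    (hreg : G.IsRegularOfDegree d) (o x : V) :
    (x = o → (chil G o x).ncard = d) ∧ (x ≠ o → (chil G o x).ncard = d - 1) := by
  classical
  have hcard : ∀ x, (G.neighborSet x).encard = d := by
    intro x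
    have h1 : (G.neighborSet x).encard = (Fintype.card (G.neighborSet x) : ℕ) := by
      rw [Set.encard_eq_coe_toFinset_card, Set.toFinset_card]
    rw [h1, G.card_neighborSet_eq_degree, hreg x]
  refine ⟨fun h => ?_, fun h => ?_⟩
  · subst h
    rw [neighborSet_root, Set.ncard, hcard]; simp
  · have h1 := hcard x
    rw [neighborSet_eq hT o x h, Set.encard_insert_of_notMem (par_notMem_chil hT o x h)] at h1
    have hfin : (chil G o x).Finite := by
      apply Set.Finite.subset (Set.toFinite (G.neighborSet x))
      intro y hy; exact hy.1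
    rw [← hfin.cast_ncard_eq] at h1
    norm_cast at h1
    omega

theorem chil_finite {G : SimpleGraph V} [G.LocallyFinite] (o x : V) : (chil G o x).Finite := by
  apply Set.Finite.subset (Set.toFinite (G.neighborSet x))
  intro y hy; exact hy.1

/-! ### ancestors -/
section anc
variable {G : SimpleGraph V} (hT : G.IsTree)
include hT

theorem par_iter_dist (o x : V) (i : ℕ) (hi : i ≤ G.dist o x) :
    G.dist o ((par hT o)^[i] x) = G.dist o x - i := by
  induction i with
  | zero => simp
  | succ i ih =>
    have h1 := ih (by omega)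
    rw [Function.iterate_succ_apply']
    have h2 : (par hT o)^[i] x ≠ o := by
      intro h
      rw [h] at h1; simp at h1; omega
    have := par_dist hT o _ h2
    omega

theorem par_iter_eq_root (o x : V) : (par hT o)^[G.dist o x] x = o := by
  have := par_iter_dist hT o x _ le_rfl
  rw [Nat.sub_self] at this
  exact (hT.connected.dist_eq_zero_iff.1 this).symm

end anc

/-! ### isomorphisms -/

theorem exists_bijOn_of_encard {α : Type u} {β : Type v} [Nonempty β] (s : Set α) (t : Set β)
    (hs : s.Finite) (ht : t.Finite) (h : s.ncard = t.ncard) (a : α) (b : β) (hab : a ∈ s ↔ b ∈ t) :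
    ∃ f : α → β, Set.BijOn f s t ∧ (a ∈ s → f a = b) := by
  classical
  by_cases ha : a ∈ s
  · have hb := hab.1 ha
    have h1 : (s \ {a}).ncard = (t \ {b}).ncard := by
      rw [Set.ncard_sdiff_singleton_of_mem ha, Set.ncard_sdiff_singleton_of_mem hb, h]
    obtain ⟨g⟩ : Nonempty ((s \ {a} : Set α) ≃ (t \ {b} : Set β)) := by
      have := (hs.subset (Set.sdiff_subset : s \ {a} ⊆ s)).to_subtype
      have := (ht.subset (Set.sdiff_subset : t \ {b} ⊆ t)).to_subtype
      exact Finite.card_eq.1 (by rw [Nat.card_coe_set_eq, Nat.card_coe_set_eq, h1])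
    refine ⟨fun x => if hx : x ∈ s \ {a} then (g ⟨x, hx⟩ : β) else b, ?_, fun _ => ?_⟩
    · refine ⟨?_, ?_, ?_⟩
      · intro x hx
        by_cases hxa : x ∈ s \ {a}
        · simp only [hxa, dif_pos]
          exact (g ⟨x, hxa⟩).2.1
        · simp only [hxa, dif_neg, not_false_iff]; exact hb
      · intro x hx y hy hxy
        by_cases hxa : x ∈ s \ {a} <;> by_cases hya : y ∈ s \ {a}
        · simp only [hxa, hya, dif_pos] at hxy
          have := g.injective (Subtype.ext hxy)
          simpa using this
        · simp only [hxa, hya, dif_pos, dif_neg, not_false_iff] at hxy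
          exact absurd hxy (fun hh => (g ⟨x, hxa⟩).2.2 hh)
        · simp only [hxa, hya, dif_pos, dif_neg, not_false_iff] at hxy
          exact absurd hxy.symm (fun hh => (g ⟨y, hya⟩).2.2 hh)
        · have hx' : x = a := by by_contra hc; exact hxa ⟨hx, hc⟩
          have hy' : y = a := by by_contra hc; exact hya ⟨hy, hc⟩
          rw [hx', hy']
      · intro y hy
        by_cases hyb : y = b
        · refine ⟨a, ha, ?_⟩
          simp [hyb]
        · refine ⟨(g.symm ⟨y, hy, hyb⟩ : α), (g.symm ⟨y, hy, hyb⟩).2.1, ?_⟩
          have : ((g.symm ⟨y, hy, hyb⟩ : (s \ {a} : Set α)) : α) ∈ s \ {a} :=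
            (g.symm ⟨y, hy, hyb⟩).2
          simp only [this, dif_pos]
          simp
    · simp
  · have hb : b ∉ t := fun hb => ha (hab.2 hb)
    obtain ⟨g⟩ : Nonempty (s ≃ t) := by
      have := hs.to_subtype
      have := ht.to_subtype
      exact Finite.card_eq.1 (by rw [Nat.card_coe_set_eq, Nat.card_coe_set_eq, h])
    refine ⟨fun x => if hx : x ∈ s then (g ⟨x, hx⟩ : β) else b, ?_, fun h => absurd h ha⟩
    refine ⟨?_, ?_, ?_⟩
    · intro x hx
      simp only [hx, dif_pos]; exact (g ⟨x, hx⟩).2
    · intro x hx y hy hxy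
      simp only [hx, hy, dif_pos] at hxy
      have := g.injective (Subtype.ext hxy)
      simpa using this
    · intro y hy
      refine ⟨(g.symm ⟨y, hy⟩ : α), (g.symm ⟨y, hy⟩).2, ?_⟩
      have : ((g.symm ⟨y, hy⟩ : s) : α) ∈ s := (g.symm ⟨y, hy⟩).2
      simp only [this, dif_pos]
      simp

section iso
variable {G : SimpleGraph V} {H : SimpleGraph W} (hT : G.IsTree) (hH : H.IsTree)

/-- recursive extension of child bijections `E` -/
noncomputable def ext (o : V) (o' : W) (E : V → W → V → W) (x : V) : W := by
  classical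
  exact if h : x = o then o' else E (par hT o x) (ext o o' E (par hT o x)) x
termination_by G.dist o x
decreasing_by
  rw [par_dist hT o x h]; omega

theorem ext_root (o : V) (o' : W) (E : V → W → V → W) : ext hT o o' E o = o' := by
  rw [ext]; simp

theorem ext_ne (o : V) (o' : W) (E : V → W → V → W) (x : V) (h : x ≠ o) :
    ext hT o o' E x = E (par hT o x) (ext hT o o' E (par hT o x)) x := by
  rw [ext]; simp [h]

/-- hypotheses for the extension: child bijections with values of compatible depth -/
structure Good (hT : G.IsTree) (hH : H.IsTree) (o : V) (o' : W) (E : V → W → V → W) : Prop where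
  bij : ∀ x y, G.dist o x = H.dist o' y → Set.BijOn (E x y) (chil G o x) (chil H o' y)

variable {o : V} {o' : W} {E : V → W → V → W}

theorem ext_dist (hE : Good hT hH o o' E) (x : V) :
    H.dist o' (ext hT o o' E x) = G.dist o x := by
  by_cases h : x = o
  · subst h; rw [ext_root]; simp
  · have h1 := par_dist hT o x h
    have ih := ext_dist hE (par hT o x)
    rw [ext_ne hT o o' E x h]
    have h2 := (hE.bij (par hT o x) _ ih.symm).mapsTo
      ((mem_chil_iff hT o _ x).2 ⟨h, rfl⟩)
    rw [h2.2, ih, h1]
termination_by G.dist o x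
decreasing_by
  rw [par_dist hT o x h]; omega

theorem ext_mem (hE : Good hT hH o o' E) (x : V) (h : x ≠ o) :
    ext hT o o' E x ∈ chil H o' (ext hT o o' E (par hT o x)) := by
  rw [ext_ne hT o o' E x h]
  exact (hE.bij (par hT o x) _ (ext_dist hT hH hE _).symm).mapsTo
      ((mem_chil_iff hT o _ x).2 ⟨h, rfl⟩)

theorem ext_ne_root (hE : Good hT hH o o' E) (x : V) (h : x ≠ o) :
    ext hT o o' E x ≠ o' := ((mem_chil_iff hH _ _ _).1 (ext_mem hT hH hE x h)).1

theorem par_ext (hE : Good hT hH o o' E) (x : V) (h : x ≠ o) :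
    par hH o' (ext hT o o' E x) = ext hT o o' E (par hT o x) :=
  ((mem_chil_iff hH _ _ _).1 (ext_mem hT hH hE x h)).2

theorem ext_inj (hE : Good hT hH o o' E) (x y : V)
    (hxy : ext hT o o' E x = ext hT o o' E y) : x = y := by
  by_cases h : x = o
  · subst h
    by_contra hc
    have h1 := ext_ne_root hT hH hE y (fun hh => hc hh.symm)
    rw [← hxy, ext_root] at h1
    exact h1 rfl
  · by_cases h' : y = o
    · subst h'
      have h1 := ext_ne_root hT hH hE x h
      rw [hxy, ext_root] at h1
      exact absurd rfl h1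
    · have h1 : ext hT o o' E (par hT o x) = ext hT o o' E (par hT o y) := by
        rw [← par_ext hT hH hE x h, ← par_ext hT hH hE y h', hxy]
      have h2 := ext_inj hE (par hT o x) (par hT o y) h1
      rw [ext_ne hT o o' E x h, ext_ne hT o o' E y h', ← h2] at hxy
      exact (hE.bij (par hT o x) _ (ext_dist hT hH hE _).symm).injOn
        ((mem_chil_iff hT o _ x).2 ⟨h, rfl⟩) ((mem_chil_iff hT o _ y).2 ⟨h', h2.symm⟩) hxy
termination_by G.dist o x
decreasing_by
  rw [par_dist hT o x h]; omega

theorem ext_surj (hE : Good hT hH o o' E) (y : W) : ∃ x, ext hT o o' E x = y := by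
  by_cases h : y = o'
  · exact ⟨o, by rw [ext_root, h]⟩
  · obtain ⟨w, hw⟩ := ext_surj hE (par hH o' y)
    have h1 : y ∈ chil H o' (ext hT o o' E w) := by
      rw [hw]; exact (mem_chil_iff hH _ _ _).2 ⟨h, rfl⟩
    obtain ⟨x, hx, hxy⟩ := (hE.bij w _ (ext_dist hT hH hE _).symm).surjOn h1
    obtain ⟨h2, h3⟩ := (mem_chil_iff hT o _ x).1 hx
    refine ⟨x, ?_⟩
    rw [ext_ne hT o o' E x h2, h3, hxy]
termination_by H.dist o' y
decreasing_by
  rw [par_dist hH o' y h]; omega

/-- the isomorphism defined by child bijections -/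
noncomputable def extIso (hE : Good hT hH o o' E) : G ≃g H where
  toEquiv := Equiv.ofBijective (ext hT o o' E)
    ⟨fun x y h => ext_inj hT hH hE x y h, fun y => ext_surj hT hH hE y⟩
  map_rel_iff' := by
    intro x y
    change H.Adj (ext hT o o' E x) (ext hT o o' E y) ↔ G.Adj x y
    rw [adj_iff_par hT o x y, adj_iff_par hH o' (ext hT o o' E x) (ext hT o o' E y)]
    constructor
    · rintro (⟨h1, h2⟩ | ⟨h1, h2⟩)
      · left
        have hx : x ≠ o := by rintro rfl; exact h1 (ext_root hT _ o' E)
        rw [par_ext hT hH hE x hx] at h2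
        exact ⟨hx, ext_inj hT hH hE _ _ h2⟩
      · right
        have hx : y ≠ o := by rintro rfl; exact h1 (ext_root hT _ o' E)
        rw [par_ext hT hH hE y hx] at h2
        exact ⟨hx, ext_inj hT hH hE _ _ h2⟩
    · rintro (⟨h1, h2⟩ | ⟨h1, h2⟩)
      · left
        exact ⟨ext_ne_root hT hH hE x h1, by rw [par_ext hT hH hE x h1, h2]⟩
      · right
        exact ⟨ext_ne_root hT hH hE y h1, by rw [par_ext hT hH hE y h1, h2]⟩

theorem extIso_apply (hE : Good hT hH o o' E) (x : V) :
    extIso hT hH hE x = ext hT o o' E x := rfl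

end iso

/-- The vertex at distance `i` from the root on the geodesic from `o` to `u`. -/
noncomputable def geo {G : SimpleGraph V} (hT : G.IsTree) (o u : V) (i : ℕ) : V :=
  (par hT o)^[G.dist o u - i] u

theorem geo_zero {G : SimpleGraph V} (hT : G.IsTree) (o u : V) : geo hT o u 0 = o := by
  unfold geo; rw [Nat.sub_zero]; exact par_iter_eq_root hT o u

theorem geo_last {G : SimpleGraph V} (hT : G.IsTree) (o u : V) :
    geo hT o u (G.dist o u) = u := by
  unfold geo; simp

theorem geo_dist {G : SimpleGraph V} (hT : G.IsTree) (o u : V) (i : ℕ) (hi : i ≤ G.dist o u) :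
    G.dist o (geo hT o u i) = i := by
  unfold geo; rw [par_iter_dist hT o u _ (by omega)]; omega

theorem par_geo_succ {G : SimpleGraph V} (hT : G.IsTree) (o u : V) (i : ℕ)
    (hi : i < G.dist o u) : par hT o (geo hT o u (i + 1)) = geo hT o u i := by
  unfold geo
  rw [← Function.iterate_succ_apply' (par hT o)]
  congr 1; congr 1; omega

theorem geo_mem_chil {G : SimpleGraph V} (hT : G.IsTree) (o u : V) (i : ℕ)
    (hi : i < G.dist o u) : geo hT o u (i + 1) ∈ chil G o (geo hT o u i) := by
  refine (mem_chil_iff hT o _ _).2 ⟨?_, par_geo_succ hT o u i hi⟩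
  intro h
  have h1 := geo_dist hT o u (i + 1) hi
  rw [h] at h1; simp at h1

/-- **Isomorphisms of regular trees**: any two `d`-regular trees are isomorphic, by an isomorphism
with prescribed image of two vertices at the same distance. -/
theorem exists_iso {G : SimpleGraph V} {H : SimpleGraph W} [G.LocallyFinite] [H.LocallyFinite]
    (hT : G.IsTree) (hH : H.IsTree) (d : ℕ) (hG : G.IsRegularOfDegree d)
    (hH' : H.IsRegularOfDegree d) (o u : V) (o' u' : W) (h : G.dist o u = H.dist o' u') :
    ∃ g : G ≃g H, g o = o' ∧ g u = u' := by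
  classical
  have key : ∀ (x : V) (y : W), ∃ f : V → W, G.dist o x = H.dist o' y →
      (Set.BijOn f (chil G o x) (chil H o' y) ∧
        ∀ i < G.dist o u, x = geo hT o u i → y = geo hH o' u' i →
          f (geo hT o u (i + 1)) = geo hH o' u' (i + 1)) := by
    intro x y
    by_cases hxy : G.dist o x = H.dist o' y
    swap
    · exact ⟨fun _ => o', fun h => absurd h hxy⟩
    have : Nonempty W := ⟨o'⟩
    have hroot : x = o ↔ y = o' := by
      constructor
      · rintro rfl
        rw [dist_self] at hxy
        exact (hH.connected.dist_eq_zero_iff.1 hxy.symm).symm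
      · rintro rfl
        rw [dist_self] at hxy
        exact (hT.connected.dist_eq_zero_iff.1 hxy).symm
    have hcard : (chil G o x).ncard = (chil H o' y).ncard := by
      by_cases hx : x = o
      · rw [(chil_ncard hT d hG o x).1 hx, (chil_ncard hH d hH' o' y).1 (hroot.1 hx)]
      · rw [(chil_ncard hT d hG o x).2 hx,
          (chil_ncard hH d hH' o' y).2 (fun hy => hx (hroot.2 hy))]
    by_cases hi : ∃ i < G.dist o u, x = geo hT o u i ∧ y = geo hH o' u' i
    · obtain ⟨i, hi, rfl, rfl⟩ := hi
      have ha := geo_mem_chil hT o u i hi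
      have hb := geo_mem_chil hH o' u' i (h ▸ hi)
      obtain ⟨f, hf, hfa⟩ := exists_bijOn_of_encard (chil G o (geo hT o u i))
        (chil H o' (geo hH o' u' i)) (chil_finite o _) (chil_finite o' _) hcard
        (geo hT o u (i + 1)) (geo hH o' u' (i + 1)) ⟨fun _ => hb, fun _ => ha⟩
      refine ⟨f, fun _ => ⟨hf, fun j hj h1 _ => ?_⟩⟩
      have : j = i := by
        have h3 := geo_dist hT o u i hi.le
        have h4 := geo_dist hT o u j hj.le
        rw [← h1] at h4; omega
      subst this
      exact hfa ha
    · obtain ⟨f, hf, _⟩ := exists_bijOn_of_encard (chil G o x)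
        (chil H o' y) (chil_finite o _) (chil_finite o' _) hcard x y
        (by
          have h1 : x ∉ chil G o x := fun hh => G.loopless.irrefl _ hh.1
          have h2 : y ∉ chil H o' y := fun hh => H.loopless.irrefl _ hh.1
          exact ⟨fun hh => absurd hh h1, fun hh => absurd hh h2⟩)
      exact ⟨f, fun _ => ⟨hf, fun j hj h1 h2 => absurd ⟨j, hj, h1, h2⟩ hi⟩⟩
  choose E hE using key
  have hgood : Good hT hH o o' E := ⟨fun x y hxy => (hE x y hxy).1⟩
  refine ⟨extIso hT hH hgood, ?_, ?_⟩
  · rw [extIso_apply, ext_root]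
  · rw [extIso_apply]
    have main : ∀ i ≤ G.dist o u, ext hT o o' E (geo hT o u i) = geo hH o' u' i := by
      intro i
      induction i with
      | zero => intro _; rw [geo_zero, geo_zero, ext_root]
      | succ i ih =>
        intro hi
        have ih := ih (by omega)
        have hc := geo_mem_chil hT o u i (by omega)
        obtain ⟨h1, h2⟩ := (mem_chil_iff hT o _ _).1 hc
        rw [ext_ne hT o o' E _ h1, h2, ih]
        refine (hE _ _ ?_).2 i (by omega) rfl rfl
        rw [geo_dist hT o u i (by omega), geo_dist hH o' u' i (by omega)]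
    have := main _ le_rfl
    rw [geo_last] at this
    rw [this, h, geo_last]

end Crest.Agent.T41
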