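import Mathlib
import Crest.Prelude.Def_TreeIsing
import Crest.Agent.T41Aut

/-!
S0241: definitions for the proof (docs S0241_PROOF, S0241_LEAN).
-/

set_option autoImplicit false

namespace Crest.Agent.T41

open MeasureTheory SimpleGraph

universe u

noncomputable section

/-! ### real functions -/

/-- `a ⊕ b` -/
def op (a b : ℝ) : ℝ := (a + b) / (1 + a * b)

/-- strength of the update at time `s` -/
def gam (s : ℝ) : ℝ := min (√s) (1 / 2)

/-- quantile map: the solution `z` of `z + a (z^2 - z) = ξ` -/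
def Qf (a ξ : ℝ) : ℝ := 2 * ξ / ((1 - a) + √((1 - a) ^ 2 + 4 * a * ξ))

/-- `g_θ(b)` -/
def gg (θ b : ℝ) : ℝ := (1 - b ^ 2) / (1 - θ ^ 2 * b ^ 2)

/-- cavity field `b_{y|p}` in terms of the means at `y` and `p` -/
def BB (θ my mp : ℝ) : ℝ :=
  2 * (my - θ * mp) / ((1 - θ ^ 2) + √((1 - θ ^ 2) ^ 2 - 4 * θ * (mp - θ * my) * (my - θ * mp)))

/-- one factor `θ g(b_{y|p})` of the covariance -/
def kap (θ my mp : ℝ) : ℝ := θ * gg θ (BB θ my mp)

/-- critical value -/
def thc (d : ℕ) : ℝ := (√((d : ℝ) - 1))⁻¹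

/-- `- log (√(d-1) θ g(b))` -/
def ell (d : ℕ) (θ my mp : ℝ) : ℝ := -Real.log (√((d : ℝ) - 1) * kap θ my mp)

/-- size of the sphere of radius `k` -/
def cS (d k : ℕ) : ℝ := if k = 0 then 1 else d * ((d : ℝ) - 1) ^ (k - 1)

/-- covariance `M_{x_0 x_k}` along a geodesic -/
def Mseq (θ : ℝ) (m : ℕ → ℝ) (k : ℕ) : ℝ :=
  (1 - m 0 ^ 2) * ∏ i ∈ Finset.range k, kap θ (m (i + 1)) (m i)

/-- the sum `S` of (A1) along a geodesic ray -/
def SS (d : ℕ) (θ θ' : ℝ) {Ω : Type*} [MeasurableSpace Ω] (P : Measure Ω)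
    (m m' : ℕ → Ω → ℝ) : ℝ :=
  ∑' k, cS d k * ∫ ω, ((Mseq θ (fun i => m i ω) k - Mseq θ' (fun i => m' i ω) k) ^ 2
    + (Mseq θ' (fun i => m' i ω) k) ^ 2 * (m k ω - m' k ω) ^ 2) ∂P

/-! ### finite Ising measures -/
section ising
variable {V : Type u}

open Classical in
/-- spin of `v` in the configuration with plus set `S` -/
def sp (S : Finset V) (v : V) : ℝ := if v ∈ S then 1 else -1

open Classical in
/-- weight of the configuration `S` in the volume `Λ` with tilts `t = tanh h` -/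
def wtI (G : SimpleGraph V) (θ : ℝ) (Λ : Finset V) (t : V → ℝ) (S : Finset V) : ℝ :=
  Crest.ProbabilityR.TreeIsing.isingWeight G θ Λ (fun v => decide (v ∈ S)) *
    ∏ v ∈ Λ, (1 + sp S v * t v)

/-- partition function -/
def Zt (G : SimpleGraph V) (θ : ℝ) (Λ : Finset V) (t : V → ℝ) : ℝ :=
  ∑ S ∈ Λ.powerset, wtI G θ Λ t S

open Classical in
/-- mean of the spin at `v` (`0` if `v ∉ Λ`) -/
def mean (G : SimpleGraph V) (θ : ℝ) (Λ : Finset V) (t : V → ℝ) (v : V) : ℝ :=
  if v ∈ Λ then (∑ S ∈ Λ.powerset, sp S v * wtI G θ Λ t S) / Zt G θ Λ t else 0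

open Classical in
/-- covariance of the spins at `v` and `u` (`0` if one of them is not in `Λ`) -/
def cov (G : SimpleGraph V) (θ : ℝ) (Λ : Finset V) (t : V → ℝ) (v u : V) : ℝ :=
  if v ∈ Λ ∧ u ∈ Λ then (∑ S ∈ Λ.powerset, sp S v * sp S u * wtI G θ Λ t S) / Zt G θ Λ t
    - mean G θ Λ t v * mean G θ Λ t u else 0

/-- the covariance in terms of the mean field `m`: product along the geodesic from `v` to `u` -/
def Mker {G : SimpleGraph V} (hT : G.IsTree) (θ : ℝ) (m : V → ℝ) (v u : V) : ℝ :=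
  Mseq θ (fun i => m (geo hT v u i)) (G.dist v u)

open Classical in
/-- `Y_i(y|p)` in terms of the mean field `m` -/
def Yk (G : SimpleGraph V) [G.LocallyFinite] (θ : ℝ) (m : V → ℝ) : ℕ → V → V → ℝ
  | 0, _, _ => 1
  | i + 1, y, p => ∑ c ∈ (G.neighborFinset y).erase p, (kap θ (m c) (m y)) ^ 2 * Yk G θ m i c y

open Classical in
/-- closed balls -/
def ball (G : SimpleGraph V) (v : V) (R : ℕ) : Finset V :=
  if h : {x | G.dist v x ≤ R}.Finite then h.toFinset else ∅

end ising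

/-! ### labels -/

abbrev Y01 := unitInterval × unitInterval

/-- labels: `ω v j = (clock, randomness)` -/
abbrev Lab (V : Type u) := V → ℕ → Y01

/-- law of the labels of one vertex -/
def muE : Measure (ℕ → Y01) := Measure.infinitePi (fun _ : ℕ => (volume : Measure Y01))

/-- law of the labels -/
def PP (V : Type u) : Measure (Lab V) := Measure.infinitePi (fun _ : V => muE)

/-! ### the process -/
section process
variable {V : Type u}

/-- time of the site `(v,j)` -/
def tm (ω : Lab V) (i : V × ℕ) : ℝ := i.2 + 2 * ((ω i.1 i.2).1 : ℝ)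

/-- the site `(v,j)` is active -/
def act (ω : Lab V) (i : V × ℕ) : Prop := ((ω i.1 i.2).1 : ℝ) < 1 / 2

open Classical in
/-- iterates for the contributions of the sites; `φ v s h ξ` is the contribution of an update of
`v` at time `s` in state `h` with randomness `ξ` -/
def cN {M : Type*} [AddCommMonoid M] (φ : V → ℝ → (V → M) → unitInterval → M)
    (A : Finset (V × ℕ)) (ω : Lab V) : ℕ → V × ℕ → M
  | 0, _ => 0
  | n + 1, i => φ i.1 (tm ω i)
      (fun v => ∑ k ∈ A with (k.1 = v ∧ act ω k ∧ tm ω k < tm ω i), cN φ A ω n k) (ω i.1 i.2).2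

open Classical in
/-- the state at time `T` of the process with site set `A` -/
def st {M : Type*} [AddCommMonoid M] (φ : V → ℝ → (V → M) → unitInterval → M)
    (A : Finset (V × ℕ)) (ω : Lab V) (T : ℝ) : V → M :=
  fun v => ∑ k ∈ A with (k.1 = v ∧ act ω k ∧ tm ω k < T), cN φ A ω A.card k

/-- update rule of the Ising process -/
def phiI (G : SimpleGraph V) (θ : ℝ) (Λ : Finset V) (v : V) (s : ℝ) (h : V → ℝ)
    (ξ : unitInterval) : ℝ :=
  Real.artanh (gam s * (2 * Qf (gam s * mean G θ Λ (fun w => Real.tanh (h w)) v) ξ - 1))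

open Classical in
/-- the field at time `T` in the volume `Λ` -/
def hh (G : SimpleGraph V) (θ : ℝ) (Λ : Finset V) (T : ℝ) (ω : Lab V) : V → ℝ :=
  st (phiI G θ Λ) (Λ ×ˢ Finset.range ⌈T⌉₊) ω T

/-- the mean field at time `T` in the volume `Λ` -/
def mm (G : SimpleGraph V) (θ : ℝ) (Λ : Finset V) (T : ℝ) (ω : Lab V) : V → ℝ :=
  mean G θ Λ (fun w => Real.tanh (hh G θ Λ T ω w))

/-- infinite-volume mean field -/
def mI (G : SimpleGraph V) (θ : ℝ) (T : ℝ) (ω : Lab V) (v : V) : ℝ :=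
  Filter.limsup (fun R : ℕ => mm G θ (ball G v R) T ω v) Filter.atTop

end process

/-! ### static recursion -/

/-- law of `t = tanh h(T)` at a single vertex -/
def nu (T : ℝ) : Measure ℝ :=
  (PP Unit).map (fun ω => mm (⊥ : SimpleGraph Unit) 0 {()} T ω ())

/-- data `(b, (Y_i)_i)` -/
abbrev Dat := ℝ × (ℕ → ℝ)

def opD (p q : Dat) : Dat := (op p.1 q.1, p.2 + q.2)

/-- law of `opD p q` under the density `1 + p.1 q.1` -/
def conv (μ₁ μ₂ : Measure Dat) : Measure Dat :=
  ((μ₁.prod μ₂).withDensity (fun p => ENNReal.ofReal (1 + p.1.1 * p.2.1))).map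
    (fun p => opD p.1 p.2)

/-- passing to the parent: `(b,Y) ↦ (θ b, Z)`, `Z_0 = 0`, `Z_{i+1} = θ² g(b)² Y_i` -/
def thD (θ : ℝ) (p : Dat) : Dat :=
  (θ * p.1, fun i => if i = 0 then 0 else (θ * gg θ p.1) ^ 2 * p.2 (i - 1))

/-- law of the data of a single site, `ν` = law of `t` -/
def siteD (ν : Measure ℝ) : Measure Dat := ν.map (fun t => (t, fun i => if i = 0 then 1 else 0))

/-- attach `k` children with data law `μ` to a site -/
def attach (θ : ℝ) (ν : Measure ℝ) (μ : Measure Dat) (k : ℕ) : Measure Dat :=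
  (fun μ' => conv μ' (μ.map (thD θ)))^[k] (siteD ν)

/-- law of the data of a branch of depth `n` -/
def rho (d : ℕ) (θ : ℝ) (ν : Measure ℝ) : ℕ → Measure Dat
  | 0 => siteD ν
  | n + 1 => attach θ ν (rho d θ ν n) (d - 1)

end

end Crest.Agent.T41
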