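import Crest.Agent.T41Aut

/-!
S0241: more geometry of trees: non-backtracking paths, descendants, counting, automorphisms.
-/

set_option autoImplicit false

namespace Crest.Agent.T41

open SimpleGraph

universe u
variable {V : Type u} {G : SimpleGraph V}

/-- `x 0, ..., x n` is a non-backtracking path -/
structure NB (G : SimpleGraph V) (x : ℕ → V) (n : ℕ) : Prop where
  adj : ∀ i < n, G.Adj (x i) (x (i + 1))
  nb : ∀ i, i + 2 ≤ n → x i ≠ x (i + 2)

theorem NB.mono {x : ℕ → V} {n m : ℕ} (h : NB G x n) (hm : m ≤ n) : NB G x m :=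
  ⟨fun i hi => h.adj i (by omega), fun i hi => h.nb i (by omega)⟩

theorem NB.shift {x : ℕ → V} {n : ℕ} (h : NB G x n) (k m : ℕ) (hm : k + m ≤ n) :
    NB G (fun i => x (k + i)) m :=
  ⟨fun i hi => h.adj (k + i) (by omega), fun i hi => h.nb (k + i) (by omega)⟩

theorem NB.rev {x : ℕ → V} {n : ℕ} (h : NB G x n) : NB G (fun i => x (n - i)) n := by
  refine ⟨fun i hi => ?_, fun i hi => ?_⟩
  · have := h.adj (n - (i + 1)) (by omega)
    rw [show n - (i + 1) + 1 = n - i by omega] at this
    exact this.symm
  · have := h.nb (n - (i + 2)) (by omega)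
    rw [show n - (i + 2) + 2 = n - i by omega] at this
    exact this.symm

theorem NB.vshape (hT : G.IsTree) {x : ℕ → V} {n : ℕ} (h : NB G x n) (w : V) :
    ∃ l ≤ n, (∀ i ≤ l, G.dist w (x 0) = i + G.dist w (x i)) ∧
      ∀ i, l ≤ i → i ≤ n → G.dist w (x i) = G.dist w (x l) + (i - l) := by
  induction n with
  | zero =>
    refine ⟨0, le_rfl, fun i hi => ?_, fun i h1 h2 => ?_⟩
    · have : i = 0 := by omega
      subst this; simp
    · have : i = 0 := by omega
      subst this; simp
  | succ n ih =>
    obtain ⟨l, hl, h1, h2⟩ := ih (h.mono (by omega))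
    have hstep := hT.dist_eq_dist_add_one_of_adj w (h.adj n (by omega))
    rcases Nat.lt_or_ge l n with hln | hln
    · -- already increasing
      refine ⟨l, by omega, h1, fun i hi1 hi2 => ?_⟩
      rcases Nat.lt_or_ge i (n + 1) with hi | hi
      · exact h2 i hi1 (by omega)
      have hi : i = n + 1 := by omega
      subst hi
      have h3 := h2 n (by omega) le_rfl
      have h4 := h2 (n - 1) (by omega) (by omega)
      rcases hstep with h5 | h5
      · exfalso
        have ha := h.adj (n - 1) (by omega)
        rw [show n - 1 + 1 = n by omega] at ha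
        have := parent_unique hT w (x n) (x (n - 1)) (x (n + 1)) ha.symm (h.adj n (by omega))
          (by omega) h5
        have hb := h.nb (n - 1) (by omega)
        rw [show n - 1 + 2 = n + 1 by omega] at hb
        exact hb this
      · omega
    · have hln : l = n := by omega
      subst hln
      rcases hstep with h5 | h5
      · refine ⟨l + 1, le_rfl, fun i hi => ?_, fun i hi1 hi2 => ?_⟩
        · rcases Nat.lt_or_ge i (l + 1) with hi' | hi'
          · exact h1 i (by omega)
          · have hi : i = l + 1 := by omega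
            subst hi
            have := h1 l le_rfl
            omega
        · have hi : i = l + 1 := by omega
          subst hi; omega
      · refine ⟨l, by omega, h1, fun i hi1 hi2 => ?_⟩
        rcases Nat.lt_or_ge i (l + 1) with hi' | hi'
        · exact h2 i hi1 (by omega)
        · have hi : i = l + 1 := by omega
          subst hi; omega

theorem NB.dist0 (hT : G.IsTree) {x : ℕ → V} {n : ℕ} (h : NB G x n) (i : ℕ) (hi : i ≤ n) :
    G.dist (x 0) (x i) = i := by
  obtain ⟨l, hl, h1, h2⟩ := h.vshape hT (x 0)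
  have h3 := h1 l le_rfl
  rw [dist_self] at h3
  have hl0 : l = 0 := by omega
  subst hl0
  have := h2 i (Nat.zero_le _) hi
  rw [dist_self] at this
  omega

theorem NB.dist (hT : G.IsTree) {x : ℕ → V} {n : ℕ} (h : NB G x n) (i j : ℕ) (hij : i ≤ j)
    (hj : j ≤ n) : G.dist (x i) (x j) = j - i := by
  have := (h.shift i (j - i) (by omega)).dist0 hT (j - i) le_rfl
  simpa [show i + (j - i) = j by omega] using this

theorem nb_geo (hT : G.IsTree) (o w : V) : NB G (geo hT o w) (G.dist o w) := by
  refine ⟨fun i hi => (geo_mem_chil hT o w i hi).1, fun i hi heq => ?_⟩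
  have h1 := geo_dist hT o w i (by omega)
  have h2 := geo_dist hT o w (i + 2) hi
  rw [← heq] at h2
  omega

/-- the first step of the path is the parent seen from the last vertex -/
theorem NB.par_succ (hT : G.IsTree) {x : ℕ → V} {n : ℕ} (h : NB G x n) (i : ℕ) (hi : i < n) :
    par hT (x 0) (x (i + 1)) = x i := by
  apply T41.par_eq
  · exact (h.adj i hi).symm
  · rw [h.dist0 hT (i + 1) (by omega), h.dist0 hT i (by omega)]

/-! ### descendants -/

/-- the vertices at distance `i` from `z` behind `z` as seen from `o` -/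
def descS (G : SimpleGraph V) (o z : V) (i : ℕ) : Set V :=
  {w | G.dist o w = G.dist o z + i ∧ G.dist z w = i}

theorem descS_zero (hT : G.IsTree) (o z : V) : descS G o z 0 = {z} := by
  ext w
  simp only [descS, Set.mem_ofPred_eq, add_zero, Set.mem_singleton_iff]
  constructor
  · rintro ⟨_, h⟩
    exact (hT.connected.dist_eq_zero_iff.1 h).symm
  · rintro rfl; simp

theorem descS_succ (hT : G.IsTree) (o z : V) (i : ℕ) :
    descS G o z (i + 1) = ⋃ c ∈ chil G o z, descS G o c i := by
  ext w
  simp only [Set.mem_iUnion, exists_prop]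
  constructor
  · rintro ⟨h1, h2⟩
    have hzw : z ≠ w := by rintro rfl; simp at h2
    have hadj := par_adj hT w z hzw
    have hd := par_dist hT w z hzw
    refine ⟨par hT w z, ⟨hadj, ?_⟩, ?_⟩
    · rw [G.dist_comm (u := w) (v := z), G.dist_comm (u := w) (v := par hT w z)] at hd
      have ht := hT.connected.dist_triangle (u := o) (v := par hT w z) (w := w)
      rcases hT.dist_eq_dist_add_one_of_adj o hadj with h3 | h3 <;> omega
    · rw [G.dist_comm (u := w) (v := z), G.dist_comm (u := w) (v := par hT w z)] at hd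
      have ht := hT.connected.dist_triangle (u := o) (v := par hT w z) (w := w)
      rcases hT.dist_eq_dist_add_one_of_adj o hadj with h3 | h3
      · omega
      · exact ⟨by omega, by omega⟩
  · rintro ⟨c, ⟨hc1, hc2⟩, h1, h2⟩
    have h3 : G.dist z c = 1 := dist_eq_one_iff_adj.2 hc1
    have ht := hT.connected.dist_triangle (u := z) (v := c) (w := w)
    have ht' := hT.connected.dist_triangle (u := o) (v := z) (w := w)
    exact ⟨by omega, by omega⟩

theorem descS_disjoint (hT : G.IsTree) (o z : V) (i : ℕ) {c c' : V} (hc : c ∈ chil G o z)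
    (hc' : c' ∈ chil G o z) (hne : c ≠ c') : Disjoint (descS G o c i) (descS G o c' i) := by
  rw [Set.disjoint_left]
  rintro w ⟨h1, h2⟩ ⟨h3, h4⟩
  apply hne
  have ht := hT.connected.dist_triangle (u := o) (v := z) (w := w)
  have ht2 := hT.connected.dist_triangle (u := z) (v := c) (w := w)
  have h5 : G.dist z c = 1 := dist_eq_one_iff_adj.2 hc.1
  have hzw : G.dist z w = i + 1 := by
    have := hc.2
    omega
  have e1 := G.dist_comm (u := w) (v := z)
  have e2 := G.dist_comm (u := w) (v := c)
  have e3 := G.dist_comm (u := w) (v := c')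
  exact parent_unique hT w z c c' hc.1 hc'.1 (by omega) (by omega)

theorem descS_finite [G.LocallyFinite] (hT : G.IsTree) (o z : V) (i : ℕ) :
    (descS G o z i).Finite := by
  induction i generalizing z with
  | zero => rw [descS_zero hT]; exact Set.finite_singleton z
  | succ i ih =>
    rw [descS_succ hT]
    exact (chil_finite o z).biUnion fun c _ => ih c

theorem ncard_biUnion_of_const {α : Type u} (s : Set α) (hs : s.Finite) (f : α → Set V)
    (hf : ∀ a ∈ s, (f a).Finite) (hd : ∀ a ∈ s, ∀ b ∈ s, a ≠ b → Disjoint (f a) (f b)) (m : ℕ)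
    (hm : ∀ a ∈ s, (f a).ncard = m) : (⋃ a ∈ s, f a).ncard = s.ncard * m := by
  classical
  induction s, hs using Set.Finite.induction_on with
  | empty => simp
  | @insert a s ha hs ih =>
    rw [Set.biUnion_insert, Set.ncard_union_eq _ (hf a (Set.mem_insert _ _))
        (hs.biUnion fun b hb => hf b (Set.mem_insert_of_mem _ hb)), hm a (Set.mem_insert _ _),
      ih (fun b hb => hf b (Set.mem_insert_of_mem _ hb))
        (fun b hb c hc => hd b (Set.mem_insert_of_mem _ hb) c (Set.mem_insert_of_mem _ hc))
        (fun b hb => hm b (Set.mem_insert_of_mem _ hb)), Set.ncard_insert_of_notMem ha hs]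
    · ring
    · rw [Set.disjoint_iUnion₂_right]
      intro b hb
      exact hd a (Set.mem_insert _ _) b (Set.mem_insert_of_mem _ hb)
        (fun h => ha (h ▸ hb))

theorem descS_ncard [G.LocallyFinite] (hT : G.IsTree) (d : ℕ) (hreg : G.IsRegularOfDegree d)
    (o z : V) (h : z ≠ o) (i : ℕ) : (descS G o z i).ncard = (d - 1) ^ i := by
  induction i generalizing z with
  | zero => rw [descS_zero hT]; simp
  | succ i ih =>
    rw [descS_succ hT, ncard_biUnion_of_const _ (chil_finite o z) _
      (fun c _ => descS_finite hT o c i)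
      (fun a ha b hb hab => descS_disjoint hT o z i ha hb hab) ((d - 1) ^ i)
      (fun c hc => ih c ((mem_chil_iff hT o z c).1 hc).1), (chil_ncard hT d hreg o z).2 h]
    ring

theorem descS_root (o : V) (i : ℕ) : descS G o o i = {w | G.dist o w = i} := by
  ext w; simp [descS]

theorem sphere_ncard [G.LocallyFinite] (hT : G.IsTree) (d : ℕ) (hreg : G.IsRegularOfDegree d)
    (o : V) (i : ℕ) : {w | G.dist o w = i + 1}.ncard = d * (d - 1) ^ i := by
  rw [← descS_root, descS_succ hT, ncard_biUnion_of_const _ (chil_finite o o) _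
      (fun c _ => descS_finite hT o c i)
      (fun a ha b hb hab => descS_disjoint hT o o i ha hb hab) ((d - 1) ^ i)
      (fun c hc => descS_ncard hT d hreg o c ((mem_chil_iff hT o o c).1 hc).1 i),
      (chil_ncard hT d hreg o o).1 rfl]

/-! ### automorphisms -/

theorem iso_dist {W : Type*} {H : SimpleGraph W} (g : G ≃g H) (hT : G.IsTree) (hH : H.IsTree)
    (x y : V) : H.dist (g x) (g y) = G.dist x y := by
  apply le_antisymm
  · obtain ⟨p, hp⟩ := hT.connected.exists_walk_length_eq_dist x y
    rw [← hp, ← Walk.length_map g.toHom p]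
    exact dist_le _
  · obtain ⟨p, hp⟩ := hH.connected.exists_walk_length_eq_dist (g x) (g y)
    rw [← hp]
    have h1 := dist_le (p.map g.symm.toHom)
    rw [Walk.length_map] at h1
    have e1 : g.symm.toHom (g x) = x := g.symm_apply_apply x
    have e2 : g.symm.toHom (g y) = y := g.symm_apply_apply y
    rw [e1, e2] at h1
    exact h1

theorem exists_aut [G.LocallyFinite] (hT : G.IsTree) (d : ℕ) (hreg : G.IsRegularOfDegree d)
    (o u o' u' : V) (h : G.dist o u = G.dist o' u') : ∃ g : G ≃g G, g o = o' ∧ g u = u' :=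
  exists_iso hT hT d hreg hreg o u o' u' h

/-- automorphisms act transitively on non-backtracking paths of given length -/
theorem exists_aut_path [G.LocallyFinite] (hT : G.IsTree) (d : ℕ) (hreg : G.IsRegularOfDegree d)
    {x y : ℕ → V} {n : ℕ} (hx : NB G x n) (hy : NB G y n) :
    ∃ g : G ≃g G, ∀ i ≤ n, g (x i) = y i := by
  obtain ⟨g, h1, h2⟩ := exists_aut hT d hreg (x 0) (x n) (y 0) (y n)
    (by rw [hx.dist0 hT n le_rfl, hy.dist0 hT n le_rfl])
  refine ⟨g, ?_⟩
  have key : ∀ j ≤ n, g (x (n - j)) = y (n - j) := by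
    intro j
    induction j with
    | zero => intro _; simpa using h2
    | succ j ih =>
      intro hj
      have ih := ih (by omega)
      have e : n - j = n - (j + 1) + 1 := by omega
      have a1 := hx.adj (n - (j + 1)) (by omega)
      have a2 := hy.adj (n - (j + 1)) (by omega)
      rw [← e] at a1 a2
      refine parent_unique hT (y 0) (y (n - j)) _ _ ?_ a2.symm ?_ ?_
      · rw [← ih]; exact g.map_adj_iff.2 a1.symm
      · rw [← ih, ← h1, iso_dist g hT hT, iso_dist g hT hT, hx.dist0 hT _ (by omega),
          hx.dist0 hT _ (by omega)]; omega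
      · rw [hy.dist0 hT _ (by omega), hy.dist0 hT _ (by omega)]; omega
  intro i hi
  have := key (n - i) (by omega)
  rwa [show n - (n - i) = i by omega] at this

/-- automorphisms fixing the edge `(p,y)` and moving `z` to `z'`, both behind `y` -/
theorem exists_aut_branch [G.LocallyFinite] (hT : G.IsTree) (d : ℕ)
    (hreg : G.IsRegularOfDegree d) {p y z z' : V} (hpy : G.Adj p y) (l : ℕ)
    (hz : z ∈ descS G p y l) (hz' : z' ∈ descS G p y l) :
    ∃ g : G ≃g G, g p = p ∧ g y = y ∧ g z = z' := by
  have h1 : G.dist p y = 1 := dist_eq_one_iff_adj.2 hpy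
  obtain ⟨g, hg1, hg2⟩ := exists_aut hT d hreg p z p z' (by rw [hz.1, hz'.1])
  refine ⟨g, hg1, ?_, hg2⟩
  have h2 : G.Adj p (g y) := by rw [← hg1]; exact g.map_adj_iff.2 hpy
  have e1 : G.dist z' (g y) = l := by
    rw [← hg2, iso_dist g hT hT, G.dist_comm]; exact hz.2
  have e2 : G.dist z' y = l := by rw [G.dist_comm]; exact hz'.2
  have e3 : G.dist z' p = l + 1 := by rw [G.dist_comm, hz'.1, h1]; omega
  exact parent_unique hT z' p (g y) y h2 hpy (by omega) (by omega)

theorem descS_image {g : G ≃g G} (hT : G.IsTree) (o z : V) (i : ℕ) :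
    g '' descS G o z i = descS G (g o) (g z) i := by
  ext w
  constructor
  · rintro ⟨x, ⟨h1, h2⟩, rfl⟩
    exact ⟨by rw [iso_dist g hT hT, iso_dist g hT hT, h1], by rw [iso_dist g hT hT, h2]⟩
  · rintro ⟨h1, h2⟩
    refine ⟨g.symm w, ⟨?_, ?_⟩, g.apply_symm_apply w⟩
    · rw [← iso_dist g hT hT, ← iso_dist g hT hT o z, g.apply_symm_apply, h1]
    · rw [← iso_dist g hT hT, g.apply_symm_apply, h2]

end Crest.Agent.T41
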