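import Mathlib
import Crest.Prelude.Def_TreeIsing
import Crest.Agent.T41Defs
import Crest.Agent.T41Geo

/-!
S0241, section 0: finite Ising algebra on a tree.
Everything is written with `t v = tanh (field at v)`.
-/

set_option autoImplicit false

namespace Crest.Agent.T41

open Finset
open Crest.ProbabilityR.TreeIsing
open scoped Classical

noncomputable section

universe u
variable {V : Type u}

/-- spin value -/
def spb (b : Bool) : ℝ := if b then 1 else -1

theorem spb_sq (b : Bool) : spb b * spb b = 1 := by cases b <;> simp [spb]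

theorem abs_spb (b : Bool) : |spb b| = 1 := by cases b <;> simp [spb]

/-- configuration with plus set `A` -/
def cfg (A : Finset V) : V → Bool := fun v => decide (v ∈ A)

/-- edge factor in terms of spins -/
theorem ew_eq (θ : ℝ) (η : V → Bool) (x y : V) :
    (if (Sym2.map η s(x, y)).IsDiag then (1 + θ) / 2 else (1 - θ) / 2) =
      (1 + θ * spb (η x) * spb (η y)) / 2 := by
  rw [Sym2.map_mk]
  cases h1 : η x <;> cases h2 : η y <;> simp [spb, Sym2.mk_isDiag_iff] <;> ring

/-- one edge between two parts -/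
structure OneEdge (G : SimpleGraph V) (A B : Finset V) (y p : V) : Prop where
  disj : Disjoint A B
  hy : y ∈ A
  hp : p ∈ B
  adj : G.Adj y p
  only : ∀ x ∈ A, ∀ z ∈ B, G.Adj x z → x = y ∧ z = p

theorem iw_split {G : SimpleGraph V} {A B : Finset V} {y p : V} (h : OneEdge G A B y p)
    (θ : ℝ) (η : V → Bool) :
    isingWeight G θ (A ∪ B) η =
      isingWeight G θ A η * isingWeight G θ B η * (1 + θ * spb (η y) * spb (η p)) := by
  have hne : y ≠ p := h.adj.ne
  have hset : ((A ∪ B).sym2.filter (fun e => e ∈ G.edgeSet)) =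
      ((A.sym2.filter (fun e => e ∈ G.edgeSet)) ∪ (B.sym2.filter (fun e => e ∈ G.edgeSet))) ∪
        {s(y, p)} := by
    ext e
    induction e with
    | h a b =>
      simp only [mem_filter, Finset.mk_mem_sym2_iff, mem_union, SimpleGraph.mem_edgeSet,
        mem_singleton]
      constructor
      · rintro ⟨⟨ha | ha, hb | hb⟩, hab⟩
        · left; left; exact ⟨⟨ha, hb⟩, hab⟩
        · right
          obtain ⟨rfl, rfl⟩ := h.only a ha b hb hab
          rfl
        · right
          obtain ⟨rfl, rfl⟩ := h.only b hb a ha hab.symm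
          exact Sym2.eq_swap
        · left; right; exact ⟨⟨ha, hb⟩, hab⟩
      · rintro ((⟨⟨ha, hb⟩, hab⟩ | ⟨⟨ha, hb⟩, hab⟩) | he)
        · exact ⟨⟨Or.inl ha, Or.inl hb⟩, hab⟩
        · exact ⟨⟨Or.inr ha, Or.inr hb⟩, hab⟩
        · rw [Sym2.eq_iff] at he
          rcases he with ⟨rfl, rfl⟩ | ⟨rfl, rfl⟩
          · exact ⟨⟨Or.inl h.hy, Or.inr h.hp⟩, h.adj⟩
          · exact ⟨⟨Or.inr h.hp, Or.inl h.hy⟩, h.adj.symm⟩
  have hd1 : Disjoint (A.sym2.filter (fun e => e ∈ G.edgeSet))
      (B.sym2.filter (fun e => e ∈ G.edgeSet)) := by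
    rw [Finset.disjoint_left]
    intro e
    induction e with
    | h a b =>
      simp only [mem_filter, Finset.mk_mem_sym2_iff]
      rintro ⟨⟨ha, _⟩, _⟩ ⟨⟨ha', _⟩, _⟩
      exact (Finset.disjoint_left.1 h.disj ha ha')
  have hpA : p ∉ A := fun h' => Finset.disjoint_left.1 h.disj h' h.hp
  have hyB : y ∉ B := fun h' => Finset.disjoint_left.1 h.disj h.hy h'
  have hd2 : Disjoint ((A.sym2.filter (fun e => e ∈ G.edgeSet)) ∪
      (B.sym2.filter (fun e => e ∈ G.edgeSet))) {s(y, p)} := by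
    rw [Finset.disjoint_singleton_right]
    simp only [mem_filter, Finset.mk_mem_sym2_iff, mem_union]
    rintro (⟨⟨_, hb⟩, _⟩ | ⟨⟨hb, _⟩, _⟩)
    · exact hpA hb
    · exact hyB hb
  unfold isingWeight
  have key2 : ∀ (S : Finset V), (@Finset.filter _ (fun e => e ∈ G.edgeSet)
      (@SimpleGraph.decidableMemEdgeSet V G (Classical.decRel G.Adj)) S.sym2) =
      (S.sym2.filter (fun e => e ∈ G.edgeSet)) := by
    intro S
    ext e; simp
  simp only [key2]
  rw [hset, Finset.prod_union hd2, Finset.prod_union hd1, Finset.prod_singleton, ew_eq]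
  ring

/-- no edge between two parts -/
theorem iw_union_noedge {G : SimpleGraph V} {A B : Finset V} (hd : Disjoint A B)
    (h : ∀ x ∈ A, ∀ z ∈ B, ¬ G.Adj x z)
    (θ : ℝ) (η : V → Bool) :
    isingWeight G θ (A ∪ B) η = 2 * isingWeight G θ A η * isingWeight G θ B η := by
  have hset : ((A ∪ B).sym2.filter (fun e => e ∈ G.edgeSet)) =
      ((A.sym2.filter (fun e => e ∈ G.edgeSet)) ∪ (B.sym2.filter (fun e => e ∈ G.edgeSet))) := by
    ext e
    induction e with
    | h a b =>
      simp only [mem_filter, Finset.mk_mem_sym2_iff, mem_union, SimpleGraph.mem_edgeSet]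
      constructor
      · rintro ⟨⟨ha | ha, hb | hb⟩, hab⟩
        · left; exact ⟨⟨ha, hb⟩, hab⟩
        · exact absurd hab (h a ha b hb)
        · exact absurd hab.symm (h b hb a ha)
        · right; exact ⟨⟨ha, hb⟩, hab⟩
      · rintro (⟨⟨ha, hb⟩, hab⟩ | ⟨⟨ha, hb⟩, hab⟩)
        · exact ⟨⟨Or.inl ha, Or.inl hb⟩, hab⟩
        · exact ⟨⟨Or.inr ha, Or.inr hb⟩, hab⟩
  have hd1 : Disjoint (A.sym2.filter (fun e => e ∈ G.edgeSet))
      (B.sym2.filter (fun e => e ∈ G.edgeSet)) := by
    rw [Finset.disjoint_left]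
    intro e
    induction e with
    | h a b =>
      simp only [mem_filter, Finset.mk_mem_sym2_iff]
      rintro ⟨⟨ha, _⟩, _⟩ ⟨⟨ha', _⟩, _⟩
      exact (Finset.disjoint_left.1 hd ha ha')
  unfold isingWeight
  have key2 : ∀ (S : Finset V), (@Finset.filter _ (fun e => e ∈ G.edgeSet)
      (@SimpleGraph.decidableMemEdgeSet V G (Classical.decRel G.Adj)) S.sym2) =
      (S.sym2.filter (fun e => e ∈ G.edgeSet)) := by
    intro S
    ext e; simp
  simp only [key2]
  rw [hset, Finset.prod_union hd1]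
  ring

theorem iw_pos {G : SimpleGraph V} {θ : ℝ} (h0 : -1 < θ) (h1 : θ < 1) (S : Finset V)
    (η : V → Bool) : 0 < isingWeight G θ S η := by
  unfold isingWeight
  refine mul_pos (by norm_num) (Finset.prod_pos fun e _ => ?_)
  split_ifs <;> linarith

theorem iw_dependsOn (G : SimpleGraph V) (θ : ℝ) (S : Finset V) :
    DependsOn (isingWeight G θ S) (S : Set V) := by
  intro η η' h
  unfold isingWeight
  congr 1
  refine Finset.prod_congr rfl fun e he => ?_
  rw [mem_filter] at he
  have : Sym2.map η e = Sym2.map η' e := by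
    apply Sym2.map_congr
    intro x hx
    exact h x (Finset.mem_sym2_iff.1 he.1 x hx)
  rw [this]

/-- weight of a configuration: Ising weight times the observations -/
def wt (G : SimpleGraph V) (θ : ℝ) (S : Finset V) (t : V → ℝ) (η : V → Bool) : ℝ :=
  isingWeight G θ S η * ∏ v ∈ S, (1 + spb (η v) * t v)

/-- Gibbs sum of `f` over the configurations on `S` -/
def gib (G : SimpleGraph V) (θ : ℝ) (S : Finset V) (t : V → ℝ) (f : (V → Bool) → ℝ) : ℝ :=
  ∑ A ∈ S.powerset, wt G θ S t (cfg A) * f (cfg A)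

theorem wt_dependsOn (G : SimpleGraph V) (θ : ℝ) (S : Finset V) (t : V → ℝ) :
    DependsOn (wt G θ S t) (S : Set V) := by
  intro η η' h
  unfold wt
  rw [iw_dependsOn G θ S h]
  congr 1
  exact Finset.prod_congr rfl fun v hv => by rw [h v hv]

theorem wt_congr (G : SimpleGraph V) (θ : ℝ) (S : Finset V) {t t' : V → ℝ}
    (h : ∀ v ∈ S, t v = t' v) (η : V → Bool) : wt G θ S t η = wt G θ S t' η := by
  unfold wt
  congr 1
  exact Finset.prod_congr rfl fun v hv => by rw [h v hv]

theorem gib_congr_t (G : SimpleGraph V) (θ : ℝ) (S : Finset V) {t t' : V → ℝ}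
    (h : ∀ v ∈ S, t v = t' v) (f : (V → Bool) → ℝ) : gib G θ S t f = gib G θ S t' f := by
  unfold gib
  exact Finset.sum_congr rfl fun A _ => by rw [wt_congr G θ S h]

/-- sums over subsets of a disjoint union -/
theorem sum_powerset_union {A B : Finset V} (hd : Disjoint A B) (F : Finset V → ℝ) :
    ∑ X ∈ (A ∪ B).powerset, F X = ∑ X ∈ A.powerset, ∑ Y ∈ B.powerset, F (X ∪ Y) := by
  rw [← Finset.sum_product']
  refine (Finset.sum_nbij' (fun q : Finset V × Finset V => q.1 ∪ q.2)
    (fun X => (X ∩ A, X ∩ B)) ?_ ?_ ?_ ?_ ?_).symm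
  · rintro ⟨X, Y⟩ h
    simp only [mem_product, mem_powerset] at h ⊢
    exact Finset.union_subset_union h.1 h.2
  · intro X h
    simp only [mem_product, mem_powerset] at h ⊢
    exact ⟨Finset.inter_subset_right, Finset.inter_subset_right⟩
  · rintro ⟨X, Y⟩ h
    simp only [mem_product, mem_powerset] at h
    ext x
    · simp only [mem_inter, mem_union]
      constructor
      · rintro ⟨h1 | h1, h2⟩
        · exact h1
        · exact absurd (h.2 h1) (Finset.disjoint_left.1 hd h2)
      · intro h1; exact ⟨Or.inl h1, h.1 h1⟩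
    · simp only [mem_inter, mem_union]
      constructor
      · rintro ⟨h1 | h1, h2⟩
        · exact absurd h2 (Finset.disjoint_left.1 hd (h.1 h1))
        · exact h1
      · intro h1; exact ⟨Or.inr h1, h.2 h1⟩
  · intro X h
    simp only [mem_powerset] at h
    ext x
    simp only [mem_inter, mem_union]
    constructor
    · rintro (⟨h1, _⟩ | ⟨h1, _⟩) <;> exact h1
    · intro h1
      rcases mem_union.1 (h h1) with h2 | h2
      · exact Or.inl ⟨h1, h2⟩
      · exact Or.inr ⟨h1, h2⟩
  · rintro ⟨X, Y⟩ _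
    rfl

theorem cfg_union_left {A B X Y : Finset V} (hd : Disjoint A B) (hY : Y ⊆ B) :
    ∀ v ∈ (A : Set V), cfg (X ∪ Y) v = cfg X v := by
  intro v hv
  have : v ∉ Y := fun h => Finset.disjoint_left.1 hd (by exact_mod_cast hv) (hY h)
  unfold cfg
  simp [this]

theorem cfg_union_right {A B X Y : Finset V} (hd : Disjoint A B) (hX : X ⊆ A) :
    ∀ v ∈ (B : Set V), cfg (X ∪ Y) v = cfg Y v := by
  intro v hv
  have : v ∉ X := fun h => Finset.disjoint_left.1 hd (hX h) (by exact_mod_cast hv)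
  unfold cfg
  simp [this]

theorem wt_split {G : SimpleGraph V} {A B : Finset V} {y p : V} (h : OneEdge G A B y p)
    (θ : ℝ) (t : V → ℝ) (η : V → Bool) :
    wt G θ (A ∪ B) t η =
      wt G θ A t η * wt G θ B t η * (1 + θ * spb (η y) * spb (η p)) := by
  unfold wt
  rw [iw_split h, Finset.prod_union h.disj]
  ring

/-- Gibbs sums split along an edge -/
theorem gib_split {G : SimpleGraph V} {A B : Finset V} {y p : V} (h : OneEdge G A B y p)
    (θ : ℝ) (t : V → ℝ) {f g : (V → Bool) → ℝ} (hf : DependsOn f (A : Set V))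
    (hg : DependsOn g (B : Set V)) :
    gib G θ (A ∪ B) t (fun η => f η * g η) =
      gib G θ A t f * gib G θ B t g +
      θ * gib G θ A t (fun η => f η * spb (η y)) * gib G θ B t (fun η => g η * spb (η p)) := by
  unfold gib
  rw [sum_powerset_union h.disj]
  have e : ∀ X ∈ A.powerset, ∀ Y ∈ B.powerset,
      wt G θ (A ∪ B) t (cfg (X ∪ Y)) * (f (cfg (X ∪ Y)) * g (cfg (X ∪ Y))) =
      (wt G θ A t (cfg X) * f (cfg X)) * (wt G θ B t (cfg Y) * g (cfg Y)) +
      θ * (wt G θ A t (cfg X) * (f (cfg X) * spb (cfg X y))) *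
        (wt G θ B t (cfg Y) * (g (cfg Y) * spb (cfg Y p))) := by
    intro X hX Y hY
    rw [mem_powerset] at hX hY
    have hL := cfg_union_left (X := X) h.disj hY
    have hR := cfg_union_right (Y := Y) h.disj hX
    rw [wt_split h, wt_dependsOn G θ A t hL, wt_dependsOn G θ B t hR, hf hL, hg hR,
      hL y (by exact_mod_cast h.hy), hR p (by exact_mod_cast h.hp)]
    ring
  rw [Finset.sum_congr rfl fun X hX => Finset.sum_congr rfl fun Y hY => e X hX Y hY]
  simp only [Finset.sum_add_distrib, ← Finset.mul_sum, ← Finset.sum_mul]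

/-- Gibbs sums factorise if there is no edge -/
theorem gib_split_noedge {G : SimpleGraph V} {A B : Finset V} (hd : Disjoint A B)
    (h : ∀ x ∈ A, ∀ z ∈ B, ¬ G.Adj x z)
    (θ : ℝ) (t : V → ℝ) {f g : (V → Bool) → ℝ} (hf : DependsOn f (A : Set V))
    (hg : DependsOn g (B : Set V)) :
    gib G θ (A ∪ B) t (fun η => f η * g η) =
      2 * gib G θ A t f * gib G θ B t g := by
  unfold gib
  rw [sum_powerset_union hd]
  have e : ∀ X ∈ A.powerset, ∀ Y ∈ B.powerset,
      wt G θ (A ∪ B) t (cfg (X ∪ Y)) * (f (cfg (X ∪ Y)) * g (cfg (X ∪ Y))) =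
      2 * (wt G θ A t (cfg X) * f (cfg X)) * (wt G θ B t (cfg Y) * g (cfg Y)) := by
    intro X hX Y hY
    rw [mem_powerset] at hX hY
    have hL := cfg_union_left (X := X) hd hY
    have hR := cfg_union_right (Y := Y) hd hX
    have hw : wt G θ (A ∪ B) t (cfg (X ∪ Y)) =
        2 * wt G θ A t (cfg (X ∪ Y)) * wt G θ B t (cfg (X ∪ Y)) := by
      unfold wt
      rw [iw_union_noedge hd h, Finset.prod_union hd]
      ring
    rw [hw, wt_dependsOn G θ A t hL, wt_dependsOn G θ B t hR, hf hL, hg hR]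
    ring
  rw [Finset.sum_congr rfl fun X hX => Finset.sum_congr rfl fun Y hY => e X hX Y hY]
  simp only [← Finset.mul_sum, ← Finset.sum_mul]


section lin
variable (G : SimpleGraph V) (θ : ℝ) (S : Finset V) (t : V → ℝ)

theorem gib_add (f g : (V → Bool) → ℝ) :
    gib G θ S t (fun η => f η + g η) = gib G θ S t f + gib G θ S t g := by
  unfold gib
  rw [← Finset.sum_add_distrib]
  exact Finset.sum_congr rfl fun A _ => by ring

theorem gib_sub (f g : (V → Bool) → ℝ) :
    gib G θ S t (fun η => f η - g η) = gib G θ S t f - gib G θ S t g := by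
  unfold gib
  rw [← Finset.sum_sub_distrib]
  exact Finset.sum_congr rfl fun A _ => by ring

theorem gib_smul (c : ℝ) (f : (V → Bool) → ℝ) :
    gib G θ S t (fun η => c * f η) = c * gib G θ S t f := by
  unfold gib
  rw [Finset.mul_sum]
  exact Finset.sum_congr rfl fun A _ => by ring

theorem gib_mul_const (c : ℝ) (f : (V → Bool) → ℝ) :
    gib G θ S t (fun η => f η * c) = gib G θ S t f * c := by
  unfold gib
  rw [Finset.sum_mul]
  exact Finset.sum_congr rfl fun A _ => by ring

theorem gib_const (c : ℝ) :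
    gib G θ S t (fun _ => c) = c * gib G θ S t (fun _ => 1) := by
  rw [← gib_smul]; simp

end lin

/-- admissible data -/
structure Adm (θ : ℝ) (S : Finset V) (t : V → ℝ) : Prop where
  h0 : 0 ≤ θ
  h1 : θ < 1
  ht : ∀ v ∈ S, |t v| < 1

theorem Adm.mono {θ : ℝ} {S S' : Finset V} {t : V → ℝ} (h : Adm θ S t) (hS : S' ⊆ S) :
    Adm θ S' t := ⟨h.h0, h.h1, fun v hv => h.ht v (hS hv)⟩

theorem one_add_spb_mul_pos {x : ℝ} (h : |x| < 1) (b : Bool) : 0 < 1 + spb b * x := by
  have := abs_lt.1 h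
  cases b <;> simp [spb] <;> linarith

theorem wt_pos {G : SimpleGraph V} {θ : ℝ} {S : Finset V} {t : V → ℝ} (h : Adm θ S t)
    (η : V → Bool) : 0 < wt G θ S t η :=
  mul_pos (iw_pos (by linarith [h.h0]) h.h1 S η)
    (Finset.prod_pos fun v hv => one_add_spb_mul_pos (h.ht v hv) _)

theorem gib_mono {G : SimpleGraph V} {θ : ℝ} {S : Finset V} {t : V → ℝ} (h : Adm θ S t)
    {f g : (V → Bool) → ℝ} (hfg : ∀ η, f η ≤ g η) : gib G θ S t f ≤ gib G θ S t g := by
  unfold gib
  exact Finset.sum_le_sum fun A _ => mul_le_mul_of_nonneg_left (hfg _) (wt_pos h _).le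

theorem gib_nonneg {G : SimpleGraph V} {θ : ℝ} {S : Finset V} {t : V → ℝ} (h : Adm θ S t)
    {f : (V → Bool) → ℝ} (hf : ∀ η, 0 ≤ f η) : 0 ≤ gib G θ S t f := by
  unfold gib
  exact Finset.sum_nonneg fun A _ => mul_nonneg (wt_pos h _).le (hf _)

theorem gib_pos {G : SimpleGraph V} {θ : ℝ} {S : Finset V} {t : V → ℝ} (h : Adm θ S t)
    {f : (V → Bool) → ℝ} (hf : ∀ η, 0 < f η) : 0 < gib G θ S t f := by
  unfold gib
  exact Finset.sum_pos (fun A _ => mul_pos (wt_pos h _) (hf _)) ⟨∅, by simp⟩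

/-- normalisation -/
def Zg (G : SimpleGraph V) (θ : ℝ) (S : Finset V) (t : V → ℝ) : ℝ := gib G θ S t (fun _ => 1)

theorem Zg_pos {G : SimpleGraph V} {θ : ℝ} {S : Finset V} {t : V → ℝ} (h : Adm θ S t) :
    0 < Zg G θ S t := gib_pos h fun _ => one_pos

/-- magnetisation -/
def mag (G : SimpleGraph V) (θ : ℝ) (S : Finset V) (t : V → ℝ) (v : V) : ℝ :=
  gib G θ S t (fun η => spb (η v)) / Zg G θ S t

/-- two-point function -/
def tpt (G : SimpleGraph V) (θ : ℝ) (S : Finset V) (t : V → ℝ) (v u : V) : ℝ :=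
  gib G θ S t (fun η => spb (η v) * spb (η u)) / Zg G θ S t

/-- covariance -/
def cvr (G : SimpleGraph V) (θ : ℝ) (S : Finset V) (t : V → ℝ) (v u : V) : ℝ :=
  tpt G θ S t v u - mag G θ S t v * mag G θ S t u

theorem cvr_comm (G : SimpleGraph V) (θ : ℝ) (S : Finset V) (t : V → ℝ) (v u : V) :
    cvr G θ S t v u = cvr G θ S t u v := by
  unfold cvr tpt
  have : (fun η : V → Bool => spb (η v) * spb (η u)) = fun η => spb (η u) * spb (η v) := by
    funext η; ring
  rw [this]; ring

theorem mag_mul_Zg {G : SimpleGraph V} {θ : ℝ} {S : Finset V} {t : V → ℝ} (h : Adm θ S t)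
    (v : V) : gib G θ S t (fun η => spb (η v)) = mag G θ S t v * Zg G θ S t := by
  unfold mag
  rw [div_mul_cancel₀ _ (Zg_pos h).ne']

theorem tpt_mul_Zg {G : SimpleGraph V} {θ : ℝ} {S : Finset V} {t : V → ℝ} (h : Adm θ S t)
    (v u : V) : gib G θ S t (fun η => spb (η v) * spb (η u)) = tpt G θ S t v u * Zg G θ S t := by
  unfold tpt
  rw [div_mul_cancel₀ _ (Zg_pos h).ne']

theorem cvr_self {G : SimpleGraph V} {θ : ℝ} {S : Finset V} {t : V → ℝ} (h : Adm θ S t)
    (v : V) : cvr G θ S t v v = 1 - mag G θ S t v ^ 2 := by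
  unfold cvr tpt
  have : (fun η : V → Bool => spb (η v) * spb (η v)) = fun _ => 1 := by
    funext η; exact spb_sq _
  rw [this]
  have h2 := (Zg_pos (G := G) h).ne'
  rw [show gib G θ S t (fun _ => 1) = Zg G θ S t from rfl, div_self h2]
  ring

theorem one_add_mul_pos {a b : ℝ} (ha : |a| < 1) (hb : |b| ≤ 1) : 0 < 1 + a * b := by
  have : |a * b| < 1 := by
    rw [abs_mul]
    calc |a| * |b| ≤ |a| * 1 := by
          exact mul_le_mul_of_nonneg_left hb (abs_nonneg a)
      _ < 1 := by simpa using ha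
  linarith [(abs_lt.1 this).1]

theorem one_add_mul_pos' {a b : ℝ} (ha : |a| ≤ 1) (hb : |b| < 1) : 0 < 1 + a * b := by
  rw [mul_comm]; exact one_add_mul_pos hb ha

theorem abs_op_lt {a b : ℝ} (ha : |a| < 1) (hb : |b| < 1) : |op a b| < 1 := by
  have hp := one_add_mul_pos ha hb.le
  unfold op
  rw [abs_div, abs_of_pos hp, div_lt_one hp, abs_lt]
  have h1 := abs_lt.1 ha
  have h2 := abs_lt.1 hb
  constructor <;> nlinarith

theorem isg_abs_op_le {a b : ℝ} (ha : |a| ≤ 1) (hb : |b| < 1) : |op a b| ≤ 1 := by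
  have hp := one_add_mul_pos' ha hb
  unfold op
  rw [abs_div, abs_of_pos hp, div_le_one hp, abs_le]
  have h1 := abs_le.1 ha
  have h2 := abs_lt.1 hb
  constructor <;> nlinarith

theorem isg_op_comm (a b : ℝ) : op a b = op b a := by
  unfold op; rw [add_comm a b, mul_comm a b]

theorem one_add_spb_op {a b : ℝ} (h : 1 + a * b ≠ 0) (s : Bool) :
    1 + spb s * op a b = (1 + spb s * a) * (1 + spb s * b) / (1 + a * b) := by
  unfold op
  rw [eq_div_iff h]
  field_simp
  cases s <;> simp [spb] <;> ring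

/-- effect of an update of the field at `u` on Gibbs sums -/
theorem gib_update {G : SimpleGraph V} {θ : ℝ} {S : Finset V} {t : V → ℝ}
    {u : V} (hu : u ∈ S) {a : ℝ} (hne : 1 + t u * a ≠ 0) (f : (V → Bool) → ℝ) :
    gib G θ S (Function.update t u (op (t u) a)) f =
      gib G θ S t (fun η => f η * (1 + spb (η u) * a)) / (1 + t u * a) := by
  have hw : ∀ η, wt G θ S (Function.update t u (op (t u) a)) η =
      wt G θ S t η * (1 + spb (η u) * a) / (1 + t u * a) := by
    intro η
    unfold wt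
    rw [← Finset.mul_prod_erase S _ hu, ← Finset.mul_prod_erase S (fun v => 1 + spb (η v) * t v) hu]
    rw [Function.update_self, one_add_spb_op hne]
    have : ∏ v ∈ S.erase u, (1 + spb (η v) * Function.update t u (op (t u) a) v) =
        ∏ v ∈ S.erase u, (1 + spb (η v) * t v) := by
      refine Finset.prod_congr rfl fun v hv => ?_
      rw [Function.update_of_ne (Finset.ne_of_mem_erase hv)]
    rw [this]
    ring
  unfold gib
  rw [Finset.sum_div]
  refine Finset.sum_congr rfl fun A _ => ?_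
  rw [hw]; ring

theorem Zg_update {G : SimpleGraph V} {θ : ℝ} {S : Finset V} {t : V → ℝ} (h : Adm θ S t)
    {u : V} (hu : u ∈ S) {a : ℝ} (ha : |a| < 1) :
    Zg G θ S (Function.update t u (op (t u) a)) =
      Zg G θ S t * (1 + a * mag G θ S t u) / (1 + a * t u) := by
  have hne : 1 + t u * a ≠ 0 := (one_add_mul_pos (h.ht u hu) ha.le).ne'
  unfold Zg
  rw [gib_update hu hne]
  have : gib G θ S t (fun η => 1 * (1 + spb (η u) * a)) =
      Zg G θ S t * (1 + a * mag G θ S t u) := by
    have e : (fun η : V → Bool => 1 * (1 + spb (η u) * a)) = fun η => 1 + spb (η u) * a := by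
      funext η; ring
    rw [e, gib_add, gib_mul_const, mag_mul_Zg h]
    unfold Zg; ring
  rw [this, mul_comm (t u) a]
  rfl

theorem adm_update {θ : ℝ} {S : Finset V} {t : V → ℝ} (h : Adm θ S t)
    (u : V) (hu : u ∈ S) {a : ℝ} (ha : |a| < 1) :
    Adm θ S (Function.update t u (op (t u) a)) := by
  refine ⟨h.h0, h.h1, fun v hv => ?_⟩
  by_cases hvu : v = u
  · subst hvu; rw [Function.update_self]; exact abs_op_lt (h.ht v hv) ha
  · rw [Function.update_of_ne hvu]; exact h.ht v hv

theorem abs_gib_le {G : SimpleGraph V} {θ : ℝ} {S : Finset V} {t : V → ℝ} (h : Adm θ S t)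
    {f : (V → Bool) → ℝ} (hf : ∀ η, |f η| ≤ 1) : |gib G θ S t f| ≤ Zg G θ S t := by
  rw [abs_le]
  constructor
  · have := gib_mono (G := G) h (f := fun _ => -1) (g := f) (fun η => (abs_le.1 (hf η)).1)
    rw [gib_const] at this
    unfold Zg; linarith
  · exact gib_mono (G := G) h (g := fun _ => 1) (f := f) (fun η => (abs_le.1 (hf η)).2)

theorem abs_mag_le {G : SimpleGraph V} {θ : ℝ} {S : Finset V} {t : V → ℝ} (h : Adm θ S t)
    (v : V) : |mag G θ S t v| ≤ 1 := by
  unfold mag
  rw [abs_div, abs_of_pos (Zg_pos h), div_le_one (Zg_pos h)]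
  exact abs_gib_le h fun η => (abs_spb _).le

theorem abs_tpt_le {G : SimpleGraph V} {θ : ℝ} {S : Finset V} {t : V → ℝ} (h : Adm θ S t)
    (v u : V) : |tpt G θ S t v u| ≤ 1 := by
  unfold tpt
  rw [abs_div, abs_of_pos (Zg_pos h), div_le_one (Zg_pos h)]
  exact abs_gib_le h fun η => by rw [abs_mul, abs_spb, abs_spb]; norm_num

/-- (I1) effect of an update on magnetisations -/
theorem mag_update {G : SimpleGraph V} {θ : ℝ} {S : Finset V} {t : V → ℝ} (h : Adm θ S t)
    {u : V} (hu : u ∈ S) {a : ℝ} (ha : |a| < 1) (v : V) :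
    mag G θ S (Function.update t u (op (t u) a)) v =
      mag G θ S t v + cvr G θ S t v u * (a / (1 + a * mag G θ S t u)) := by
  have hne : 1 + t u * a ≠ 0 := (one_add_mul_pos (h.ht u hu) ha.le).ne'
  have hZ := (Zg_pos (G := G) h).ne'
  have hm : 1 + a * mag G θ S t u ≠ 0 := (one_add_mul_pos ha (abs_mag_le h u)).ne'
  have e1 : gib G θ S t (fun η => spb (η v) * (1 + spb (η u) * a)) =
      (mag G θ S t v + a * tpt G θ S t v u) * Zg G θ S t := by
    have e : (fun η : V → Bool => spb (η v) * (1 + spb (η u) * a)) =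
        fun η => spb (η v) + (spb (η v) * spb (η u)) * a := by
      funext η; ring
    rw [e, gib_add, gib_mul_const, mag_mul_Zg h, tpt_mul_Zg h]
    ring
  conv_lhs => unfold mag
  rw [Zg_update h hu ha, gib_update hu hne, e1, mul_comm (t u) a]
  rw [mul_comm (t u) a] at hne
  unfold cvr
  field_simp
  ring

/-- an update outside the volume has no effect -/
theorem mag_update_notMem {G : SimpleGraph V} {θ : ℝ} {S : Finset V} {t : V → ℝ}
    {u : V} (hu : u ∉ S) (x : ℝ) (v : V) :
    mag G θ S (Function.update t u x) v = mag G θ S t v := by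
  unfold mag Zg
  rw [gib_congr_t G θ S (t := Function.update t u x) (t' := t),
    gib_congr_t G θ S (t := Function.update t u x) (t' := t)] <;>
  · intro w hw
    rw [Function.update_of_ne]
    rintro rfl; exact hu hw

theorem mag_congr_t (G : SimpleGraph V) (θ : ℝ) (S : Finset V) {t t' : V → ℝ}
    (h : ∀ v ∈ S, t v = t' v) (v : V) : mag G θ S t v = mag G θ S t' v := by
  unfold mag Zg
  rw [gib_congr_t G θ S h, gib_congr_t G θ S h]

theorem cvr_congr_t (G : SimpleGraph V) (θ : ℝ) (S : Finset V) {t t' : V → ℝ}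
    (h : ∀ v ∈ S, t v = t' v) (v u : V) : cvr G θ S t v u = cvr G θ S t' v u := by
  unfold cvr tpt
  rw [mag_congr_t G θ S h, mag_congr_t G θ S h]
  unfold Zg
  rw [gib_congr_t G θ S h, gib_congr_t G θ S h]


/-! ### splitting along an edge -/

section edge
variable {G : SimpleGraph V} {A B : Finset V} {y p : V} (h : OneEdge G A B y p)
  {θ : ℝ} {t : V → ℝ} (hA : Adm θ A t) (hB : Adm θ B t)
include h hA hB

theorem adm_union : Adm θ (A ∪ B) t :=
  ⟨hA.h0, hA.h1, fun v hv => (mem_union.1 hv).elim (hA.ht v) (hB.ht v)⟩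

theorem gib_union_left {f : (V → Bool) → ℝ} (hf : DependsOn f (A : Set V)) :
    gib G θ (A ∪ B) t f =
      Zg G θ B t * gib G θ A t (fun η => f η * (1 + θ * mag G θ B t p * spb (η y))) := by
  have e : f = fun η => f η * (fun _ : V → Bool => (1 : ℝ)) η := by funext η; simp
  conv_lhs => rw [e]
  rw [gib_split h θ t hf (g := fun _ => 1) (fun _ _ _ => rfl)]
  have e2 : (fun η : V → Bool => (1 : ℝ) * spb (η p)) = fun η => spb (η p) := by funext η; ring
  rw [e2, mag_mul_Zg hB]
  have e3 : (fun η : V → Bool => f η * (1 + θ * mag G θ B t p * spb (η y))) =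
      fun η => f η + (θ * mag G θ B t p) * (f η * spb (η y)) := by funext η; ring
  rw [e3, gib_add, gib_smul]
  unfold Zg
  ring

theorem Zg_union : Zg G θ (A ∪ B) t =
    Zg G θ A t * Zg G θ B t * (1 + θ * mag G θ A t y * mag G θ B t p) := by
  have := gib_union_left h hA hB (f := fun _ => 1) (fun _ _ _ => rfl)
  rw [show Zg G θ (A ∪ B) t = gib G θ (A ∪ B) t (fun _ => 1) from rfl, this]
  have e : (fun η : V → Bool => (1 : ℝ) * (1 + θ * mag G θ B t p * spb (η y))) =
      fun η => 1 + (θ * mag G θ B t p) * spb (η y) := by funext η; ring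
  rw [e, gib_add, gib_smul, mag_mul_Zg hA]
  unfold Zg
  ring

theorem D_pos : 0 < 1 + θ * mag G θ A t y * mag G θ B t p := by
  have h1 := abs_mag_le (G := G) hA y
  have h2 := abs_mag_le (G := G) hB p
  rw [mul_assoc]
  apply one_add_mul_pos
  · rw [abs_of_nonneg hA.h0]; exact hA.h1
  · rw [abs_mul]; exact mul_le_one₀ h1 (abs_nonneg _) h2

/-- (I2), last step: magnetisation at an endpoint -/
theorem mag_union : mag G θ (A ∪ B) t y =
    (mag G θ A t y + θ * mag G θ B t p) / (1 + θ * mag G θ A t y * mag G θ B t p) := by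
  have hf : DependsOn (fun η : V → Bool => spb (η y)) (A : Set V) := by
    intro η η' hη
    show spb (η y) = spb (η' y)
    rw [hη y (by exact_mod_cast h.hy)]
  have := gib_union_left h hA hB hf
  have e : (fun η : V → Bool => spb (η y) * (1 + θ * mag G θ B t p * spb (η y))) =
      fun η => spb (η y) + (θ * mag G θ B t p) := by
    funext η
    have := spb_sq (η y)
    linear_combination (θ * mag G θ B t p) * this
  rw [e, gib_add, gib_const, mag_mul_Zg hA] at this
  have hZA := (Zg_pos (G := G) hA).ne'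
  have hZB := (Zg_pos (G := G) hB).ne'
  have hD := (D_pos h hA hB).ne'
  rw [show mag G θ (A ∪ B) t y = gib G θ (A ∪ B) t (fun η => spb (η y)) / Zg G θ (A ∪ B) t from rfl,
    this, Zg_union h hA hB]
  rw [show gib G θ A t (fun _ => 1) = Zg G θ A t from rfl]
  field_simp

theorem OneEdge_symm : OneEdge G B A p y :=
  ⟨h.disj.symm, h.hp, h.hy, h.adj.symm, fun x hx z hz hxz => by
    obtain ⟨h1, h2⟩ := h.only z hz x hx hxz.symm
    exact ⟨h2, h1⟩⟩

theorem mag_union_right : mag G θ (A ∪ B) t p =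
    (mag G θ B t p + θ * mag G θ A t y) / (1 + θ * mag G θ A t y * mag G θ B t p) := by
  have h' := OneEdge_symm h hA hB
  rw [Finset.union_comm, mag_union h' hB hA]
  congr 1
  ring

theorem gib_split_right (u : V) (hu : u ∈ A) :
    gib G θ (A ∪ B) t (fun η => spb (η u)) =
      Zg G θ A t * Zg G θ B t *
        (mag G θ A t u + θ * tpt G θ A t y u * mag G θ B t p) := by
  have hf : DependsOn (fun η : V → Bool => spb (η u)) (A : Set V) := by
    intro η η' hη
    show spb (η u) = spb (η' u)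
    rw [hη u (by exact_mod_cast hu)]
  rw [gib_union_left h hA hB hf]
  have e : (fun η : V → Bool => spb (η u) * (1 + θ * mag G θ B t p * spb (η y))) =
      fun η => spb (η u) + (θ * mag G θ B t p) * (spb (η y) * spb (η u)) := by
    funext η; ring
  rw [e, gib_add, gib_smul, mag_mul_Zg hA, tpt_mul_Zg hA]
  ring

theorem gib_split_both (u : V) (hu : u ∈ A) :
    gib G θ (A ∪ B) t (fun η => spb (η p) * spb (η u)) =
      Zg G θ A t * Zg G θ B t *
        (mag G θ A t u * mag G θ B t p + θ * tpt G θ A t y u) := by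
  have hf : DependsOn (fun η : V → Bool => spb (η u)) (A : Set V) := by
    intro η η' hη
    show spb (η u) = spb (η' u)
    rw [hη u (by exact_mod_cast hu)]
  have hg : DependsOn (fun η : V → Bool => spb (η p)) (B : Set V) := by
    intro η η' hη
    show spb (η p) = spb (η' p)
    rw [hη p (by exact_mod_cast h.hp)]
  have e0 : (fun η : V → Bool => spb (η p) * spb (η u)) = fun η => spb (η u) * spb (η p) := by
    funext η; ring
  rw [e0, gib_split h θ t hf hg]
  have e1 : (fun η : V → Bool => spb (η u) * spb (η y)) = fun η => spb (η y) * spb (η u) := by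
    funext η; ring
  have e2 : (fun η : V → Bool => spb (η p) * spb (η p)) = fun _ => 1 := by
    funext η; exact spb_sq _
  rw [e1, e2, mag_mul_Zg hA, mag_mul_Zg hB, tpt_mul_Zg hA]
  rw [show gib G θ B t (fun _ => 1) = Zg G θ B t from rfl]
  ring

omit h hA hB in
theorem cvr_alg (θ b b' M c : ℝ) (h1 : 1 + θ * b * b' ≠ 0) (h2 : 1 - θ ^ 2 * b ^ 2 ≠ 0) :
    (M * b' + θ * c) / (1 + θ * b * b') -
      (b' + θ * b) / (1 + θ * b * b') * ((M + θ * c * b') / (1 + θ * b * b')) =
    (1 - ((b' + θ * b) / (1 + θ * b * b')) ^ 2) * (θ / (1 - θ ^ 2 * b ^ 2)) * (c - b * M) := by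
  have e1 : 1 - ((b' + θ * b) / (1 + θ * b * b')) ^ 2 =
      (1 - b' ^ 2) * (1 - θ ^ 2 * b ^ 2) / (1 + θ * b * b') ^ 2 := by
    rw [div_pow, eq_div_iff (pow_ne_zero 2 h1), sub_mul, div_mul_cancel₀ _ (pow_ne_zero 2 h1)]
    ring
  have e2 : (M * b' + θ * c) / (1 + θ * b * b') =
      (M * b' + θ * c) * (1 + θ * b * b') / (1 + θ * b * b') ^ 2 := by
    rw [div_eq_div_iff h1 (pow_ne_zero 2 h1)]; ring
  rw [e1, e2, div_mul_div_comm, ← sq, ← sub_div, div_mul_div_comm, div_mul_eq_mul_div,
    div_eq_div_iff (pow_ne_zero 2 h1) (mul_ne_zero (pow_ne_zero 2 h1) h2)]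
  ring

/-- one step of (I4) -/
theorem cvr_union (u : V) (hu : u ∈ A) :
    cvr G θ (A ∪ B) t p u =
      (1 - mag G θ (A ∪ B) t p ^ 2) * (θ / (1 - θ ^ 2 * mag G θ A t y ^ 2)) * cvr G θ A t y u := by
  have hZA := (Zg_pos (G := G) hA).ne'
  have hZB := (Zg_pos (G := G) hB).ne'
  have hD := (D_pos h hA hB).ne'
  have hm : mag G θ (A ∪ B) t u = (mag G θ A t u + θ * tpt G θ A t y u * mag G θ B t p) /
      (1 + θ * mag G θ A t y * mag G θ B t p) := by
    rw [show mag G θ (A ∪ B) t u = gib G θ (A ∪ B) t (fun η => spb (η u)) / Zg G θ (A ∪ B) t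
      from rfl, gib_split_right h hA hB u hu, Zg_union h hA hB]
    field_simp
  have ht : tpt G θ (A ∪ B) t p u = (mag G θ A t u * mag G θ B t p + θ * tpt G θ A t y u) /
      (1 + θ * mag G θ A t y * mag G θ B t p) := by
    rw [show tpt G θ (A ∪ B) t p u = gib G θ (A ∪ B) t (fun η => spb (η p) * spb (η u)) /
      Zg G θ (A ∪ B) t from rfl, gib_split_both h hA hB u hu, Zg_union h hA hB]
    field_simp
  have hb : 0 < 1 - θ ^ 2 * mag G θ A t y ^ 2 := by
    have h1 := abs_mag_le (G := G) hA y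
    have h2 : (θ * mag G θ A t y) ^ 2 < 1 := by
      rw [sq_lt_one_iff_abs_lt_one, abs_mul, abs_of_nonneg hA.h0]
      calc θ * |mag G θ A t y| ≤ θ * 1 := mul_le_mul_of_nonneg_left h1 hA.h0
        _ < 1 := by simpa using hA.h1
    nlinarith
  unfold cvr
  rw [hm, ht, mag_union_right h hA hB]
  exact cvr_alg _ _ _ _ _ hD hb.ne'

end edge

/-! ### geometry of branches -/

/-- branch of `y` seen from `p` -/
def br (G : SimpleGraph V) (y p : V) : Set V := {x | G.dist x y < G.dist x p}

section geom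
variable {G : SimpleGraph V} (hT : G.IsTree)
include hT

theorem mem_br {y p : V} (h : G.Adj y p) (x : V) :
    x ∈ br G y p ↔ G.dist x p = G.dist x y + 1 := by
  have := hT.dist_eq_dist_add_one_of_adj x h
  unfold br
  simp only [Set.mem_ofPred_eq]
  omega

theorem notMem_br {y p : V} (h : G.Adj y p) (x : V) :
    x ∉ br G y p ↔ x ∈ br G p y := by
  have := hT.dist_eq_dist_add_one_of_adj x h
  unfold br
  simp only [Set.mem_ofPred_eq]
  omega

theorem self_mem_br {y p : V} (h : G.Adj y p) : y ∈ br G y p := by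
  unfold br
  simp only [Set.mem_ofPred_eq, SimpleGraph.dist_self]
  rw [SimpleGraph.dist_eq_one_iff_adj.2 h]
  norm_num

theorem br_cross {y c x z : V} (h : G.Adj y c) (hx : x ∈ br G y c) (hz : z ∈ br G c y)
    (hxz : G.Adj x z) : x = y ∧ z = c := by
  have h1 := (mem_br hT h x).1 hx
  have h2 := (mem_br hT h.symm z).1 hz
  have h3 := hT.dist_eq_dist_add_one_of_adj y hxz
  have h4 := hT.dist_eq_dist_add_one_of_adj c hxz
  rw [G.dist_comm (u := y) (v := x), G.dist_comm (u := y) (v := z)] at h3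
  rw [G.dist_comm (u := c) (v := x), G.dist_comm (u := c) (v := z)] at h4
  by_cases ha : G.dist x y = 0
  · have hxy : x = y := (hT.connected.dist_eq_zero_iff).1 ha
    refine ⟨hxy, ?_⟩
    have : G.dist z c = 0 := by omega
    exact (hT.connected.dist_eq_zero_iff).1 this
  · exfalso
    have hzc : z ≠ c := by
      rintro rfl
      rw [SimpleGraph.dist_self] at h2 h4
      omega
    obtain ⟨w, hw1, hw2⟩ := exists_parent hT c z hzc
    have h5 := hT.dist_eq_dist_add_one_of_adj y hw1
    have h6 : G.dist y w ≤ G.dist y c + G.dist c w := hT.connected.dist_triangle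
    rw [SimpleGraph.dist_eq_one_iff_adj.2 h] at h6
    have e1 := G.dist_comm (u := y) (v := z)
    have e2 := G.dist_comm (u := c) (v := z)
    have e3 := G.dist_comm (u := y) (v := x)
    have e4 := G.dist_comm (u := c) (v := x)
    have hwx : w = x := by
      apply parent_unique hT y z w x hw1 hxz.symm
      · omega
      · omega
    subst hwx
    omega

/-- the neighbour of `y` towards `x` -/
theorem exists_toward {y x : V} (h : x ≠ y) : ∃ c, G.Adj y c ∧ x ∈ br G c y := by
  obtain ⟨c, h1, h2⟩ := exists_parent hT x y h.symm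
  exact ⟨c, h1, (mem_br hT h1.symm x).2 h2⟩

theorem toward_unique {y x c c' : V} (h : G.Adj y c) (h' : G.Adj y c') (hx : x ∈ br G c y)
    (hx' : x ∈ br G c' y) : c = c' :=
  parent_unique hT x y c c' h h' ((mem_br hT h.symm x).1 hx) ((mem_br hT h'.symm x).1 hx')

theorem br_subset {y p c : V} (h : G.Adj y p) (hc : G.Adj y c) (hne : c ≠ p) :
    br G c y ⊆ br G y p := by
  intro x hx
  by_contra hcon
  rw [notMem_br hT h] at hcon
  exact hne (toward_unique hT hc h hx hcon)

end geom

/-- part of `S` in the branch of `y` seen from `p` -/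
def brS (G : SimpleGraph V) (S : Finset V) (y p : V) : Finset V := S.filter (fun x => x ∈ br G y p)

theorem mem_brS {G : SimpleGraph V} {S : Finset V} {y p x : V} :
    x ∈ brS G S y p ↔ x ∈ S ∧ x ∈ br G y p := by
  unfold brS; simp

theorem brS_subset {G : SimpleGraph V} {S : Finset V} {y p : V} : brS G S y p ⊆ S :=
  fun _ hx => (mem_brS.1 hx).1

/-- cavity field -/
def cav (G : SimpleGraph V) (θ : ℝ) (S : Finset V) (t : V → ℝ) (y p : V) : ℝ :=
  mag G θ (brS G S y p) t y

section geom2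
variable {G : SimpleGraph V} (hT : G.IsTree)
include hT

theorem brS_union {S : Finset V} {y p : V} (h : G.Adj y p) :
    brS G S y p ∪ brS G S p y = S := by
  ext x
  rw [mem_union, mem_brS, mem_brS, ← notMem_br hT h]
  tauto

theorem oneEdge_brS {S : Finset V} {y p : V} (h : G.Adj y p) (hy : y ∈ S) (hp : p ∈ S) :
    OneEdge G (brS G S y p) (brS G S p y) y p := by
  refine ⟨?_, mem_brS.2 ⟨hy, self_mem_br hT h⟩, mem_brS.2 ⟨hp, self_mem_br hT h.symm⟩, h, ?_⟩
  · rw [Finset.disjoint_left]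
    intro x hx hx'
    rw [mem_brS] at hx hx'
    exact (notMem_br hT h x).2 hx'.2 hx.2
  · intro x hx z hz hxz
    rw [mem_brS] at hx hz
    exact br_cross hT h hx.2 hz.2 hxz

/-- (I2): magnetisation at `y` from the two cavity fields of the edge `(y,p)` -/
theorem mag_eq_cav {S : Finset V} {θ : ℝ} {t : V → ℝ} (hS : Adm θ S t) {y p : V}
    (h : G.Adj y p) (hy : y ∈ S) (hp : p ∈ S) :
    mag G θ S t y = (cav G θ S t y p + θ * cav G θ S t p y) /
      (1 + θ * cav G θ S t y p * cav G θ S t p y) := by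
  have h1 := oneEdge_brS hT h hy hp
  have := mag_union h1 (hS.mono brS_subset) (hS.mono brS_subset)
  rw [brS_union hT h] at this
  exact this

theorem brS_brS {S : Finset V} {y p c : V} (h : G.Adj y p) (hc : G.Adj y c) (hne : c ≠ p) :
    brS G (brS G S y p) c y = brS G S c y := by
  ext x
  rw [mem_brS, mem_brS, mem_brS]
  constructor
  · rintro ⟨⟨h1, _⟩, h2⟩; exact ⟨h1, h2⟩
  · rintro ⟨h1, h2⟩; exact ⟨⟨h1, br_subset hT h hc hne h2⟩, h2⟩

end geom2


/-! ### product formula for the covariance -/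

theorem one_sub_pos_of {θ b : ℝ} (h0 : 0 ≤ θ) (h1 : θ < 1) (hb : |b| ≤ 1) :
    0 < 1 - θ ^ 2 * b ^ 2 := by
  have h2 : (θ * b) ^ 2 < 1 := by
    rw [sq_lt_one_iff_abs_lt_one, abs_mul, abs_of_nonneg h0]
    calc θ * |b| ≤ θ * 1 := mul_le_mul_of_nonneg_left hb h0
      _ < 1 := by simpa using h1
  nlinarith

/-- (I4) along a non-backtracking path -/
theorem cvr_path {G : SimpleGraph V} (hT : G.IsTree) {θ : ℝ} {t : V → ℝ} (k : ℕ) :
    ∀ {S : Finset V}, Adm θ S t → ∀ (x : ℕ → V), NB G x k → (∀ i ≤ k, x i ∈ S) →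
    cvr G θ S t (x 0) (x k) = (1 - mag G θ S t (x 0) ^ 2) *
      ∏ i ∈ Finset.range k, (θ * gg θ (cav G θ S t (x (i + 1)) (x i))) := by
  induction k with
  | zero =>
    intro S hS x _ _
    rw [cvr_self hS]; simp
  | succ k ih =>
    intro S hS x hx hmem
    have hadj := hx.adj 0 (by omega)
    have h0 : x 0 ∈ S := hmem 0 (by omega)
    have h1 : x 1 ∈ S := hmem 1 (by omega)
    have hbr : ∀ i, i ≤ k → x (i + 1) ∈ br G (x 1) (x 0) ∧
        br G (x (i + 1)) (x i) ⊆ br G (x 1) (x 0) := by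
      intro i
      induction i with
      | zero => intro _; exact ⟨self_mem_br hT hadj.symm, subset_rfl⟩
      | succ i ihi =>
        intro hi
        have h2 := hx.adj i (by omega)
        have h3 := hx.adj (i + 1) (by omega)
        have h4 := hx.nb i (by omega)
        have h5 := (br_subset hT h2.symm h3 h4.symm).trans (ihi (by omega)).2
        exact ⟨h5 (self_mem_br hT h3.symm), h5⟩
    have hE := oneEdge_brS hT hadj.symm h1 h0
    have hA : Adm θ (brS G S (x 1) (x 0)) t := hS.mono brS_subset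
    have hB : Adm θ (brS G S (x 0) (x 1)) t := hS.mono brS_subset
    have e1 := cvr_union hE hA hB (x (k + 1)) (mem_brS.2 ⟨hmem _ le_rfl, (hbr k le_rfl).1⟩)
    rw [brS_union hT hadj.symm] at e1
    have e2 := ih hA (fun i => x (i + 1)) ⟨fun i hi => hx.adj (i + 1) (by omega),
      fun i hi => hx.nb (i + 1) (by omega)⟩
      (fun i hi => mem_brS.2 ⟨hmem _ (by omega), (hbr i hi).1⟩)
    simp only [zero_add] at e2
    have e3 : ∀ i ∈ Finset.range k, cav G θ (brS G S (x 1) (x 0)) t (x (i + 1 + 1)) (x (i + 1)) =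
        cav G θ S t (x (i + 1 + 1)) (x (i + 1)) := by
      intro i hi
      rw [Finset.mem_range] at hi
      have h3 := hx.adj (i + 1) (by omega)
      have h4 := hx.nb i (by omega)
      have h2 := hx.adj i (by omega)
      unfold cav
      have : brS G (brS G S (x 1) (x 0)) (x (i + 1 + 1)) (x (i + 1)) =
          brS G S (x (i + 1 + 1)) (x (i + 1)) := by
        ext w
        rw [mem_brS, mem_brS, mem_brS]
        constructor
        · rintro ⟨⟨h1, _⟩, h2⟩; exact ⟨h1, h2⟩
        · rintro ⟨h1, h2⟩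
          exact ⟨⟨h1, (hbr (i + 1) (by omega)).2 h2⟩, h2⟩
      rw [this]
    rw [Finset.prod_congr rfl fun i hi => by rw [e3 i hi]] at e2
    rw [e1, e2, Finset.prod_range_succ']
    have e4 : mag G θ (brS G S (x 1) (x 0)) t (x 1) = cav G θ S t (x 1) (x 0) := rfl
    rw [e4]
    have hb : |cav G θ S t (x 1) (x 0)| ≤ 1 := abs_mag_le hA _
    have h5 := (one_sub_pos_of hS.h0 hS.h1 hb).ne'
    simp only [zero_add]
    have e5 : θ * gg θ (cav G θ S t (x 1) (x 0)) =
        (θ / (1 - θ ^ 2 * cav G θ S t (x 1) (x 0) ^ 2)) * (1 - cav G θ S t (x 1) (x 0) ^ 2) := by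
      unfold gg
      field_simp
    rw [e5]
    ring

/-! ### the cavity field as a function of the two means -/

/-- (I3) -/
theorem BB_eq {θ b b' : ℝ} (h0 : 0 ≤ θ) (h1 : θ < 1) (hb : |b| ≤ 1) (hb' : |b'| ≤ 1) :
    BB θ ((b + θ * b') / (1 + θ * b * b')) ((b' + θ * b) / (1 + θ * b * b')) = b := by
  have hbb : |b * b'| ≤ 1 := by
    rw [abs_mul]; exact mul_le_one₀ hb (abs_nonneg _) hb'
  have hD : 0 < 1 + θ * b * b' := by
    rw [mul_assoc]
    apply one_add_mul_pos _ hbb
    rw [abs_of_nonneg h0]; exact h1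
  have hD' : 0 < 1 - θ * b * b' := by
    have := one_add_mul_pos (a := θ) (b := -(b * b')) (by rw [abs_of_nonneg h0]; exact h1)
      (by rw [abs_neg]; exact hbb)
    nlinarith
  have hθ : 0 < 1 - θ ^ 2 := by nlinarith
  set D := 1 + θ * b * b' with hDdef
  have e1 : (b + θ * b') / D - θ * ((b' + θ * b) / D) = b * (1 - θ ^ 2) / D := by
    field_simp; ring
  have e2 : (b' + θ * b) / D - θ * ((b + θ * b') / D) = b' * (1 - θ ^ 2) / D := by
    field_simp; ring
  have e3 : (1 - θ ^ 2) ^ 2 - 4 * θ * (b' * (1 - θ ^ 2) / D) * (b * (1 - θ ^ 2) / D) =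
      ((1 - θ ^ 2) * (1 - θ * b * b') / D) ^ 2 := by
    rw [div_pow, eq_div_iff (pow_ne_zero 2 hD.ne')]
    have : 4 * θ * (b' * (1 - θ ^ 2) / D) * (b * (1 - θ ^ 2) / D) * D ^ 2 =
        4 * θ * (b' * (1 - θ ^ 2)) * (b * (1 - θ ^ 2)) := by
      field_simp
    rw [sub_mul, this, hDdef]
    ring
  unfold BB
  rw [e1, e2, e3, Real.sqrt_sq (by positivity)]
  have e4 : 1 - θ ^ 2 + (1 - θ ^ 2) * (1 - θ * b * b') / D = 2 * (1 - θ ^ 2) / D := by
    rw [eq_div_iff hD.ne', add_mul, div_mul_cancel₀ _ hD.ne', hDdef]; ring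
  rw [e4]
  field_simp

theorem abs_cav_le {G : SimpleGraph V} {θ : ℝ} {S : Finset V} {t : V → ℝ} (h : Adm θ S t)
    (y p : V) : |cav G θ S t y p| ≤ 1 := abs_mag_le (h.mono brS_subset) _

theorem cav_eq_BB {G : SimpleGraph V} (hT : G.IsTree) {S : Finset V} {θ : ℝ} {t : V → ℝ}
    (hS : Adm θ S t) {y p : V} (h : G.Adj y p) (hy : y ∈ S) (hp : p ∈ S) :
    BB θ (mag G θ S t y) (mag G θ S t p) = cav G θ S t y p := by
  rw [mag_eq_cav hT hS h hy hp, mag_eq_cav hT hS h.symm hp hy]
  have := BB_eq hS.h0 hS.h1 (abs_cav_le (G := G) hS y p) (abs_cav_le (G := G) hS p y)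
  rw [show 1 + θ * cav G θ S t p y * cav G θ S t y p =
    1 + θ * cav G θ S t y p * cav G θ S t p y by ring]
  exact this

/-! ### bridge to the definitions -/

theorem spb_cfg (A : Finset V) (v : V) : spb (cfg A v) = sp A v := by
  unfold cfg sp spb
  simp

theorem wt_cfg (G : SimpleGraph V) (θ : ℝ) (Λ : Finset V) (t : V → ℝ) (A : Finset V) :
    wt G θ Λ t (cfg A) = wtI G θ Λ t A := by
  unfold wt wtI
  simp only [spb_cfg]
  rfl

theorem Zg_eq (G : SimpleGraph V) (θ : ℝ) (Λ : Finset V) (t : V → ℝ) :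
    Zg G θ Λ t = Zt G θ Λ t := by
  unfold Zg gib Zt
  exact Finset.sum_congr rfl fun A _ => by rw [wt_cfg, mul_one]

theorem gib_eq (G : SimpleGraph V) (θ : ℝ) (Λ : Finset V) (t : V → ℝ) (f : (V → Bool) → ℝ) :
    gib G θ Λ t f = ∑ A ∈ Λ.powerset, f (cfg A) * wtI G θ Λ t A := by
  unfold gib
  exact Finset.sum_congr rfl fun A _ => by rw [wt_cfg, mul_comm]

theorem mean_eq (G : SimpleGraph V) (θ : ℝ) (Λ : Finset V) (t : V → ℝ) {v : V} (hv : v ∈ Λ) :
    mean G θ Λ t v = mag G θ Λ t v := by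
  unfold mean mag
  rw [if_pos hv, gib_eq, Zg_eq]
  simp only [spb_cfg]

theorem mean_notMem (G : SimpleGraph V) (θ : ℝ) (Λ : Finset V) (t : V → ℝ) {v : V}
    (hv : v ∉ Λ) : mean G θ Λ t v = 0 := by
  unfold mean; rw [if_neg hv]

theorem cov_eq (G : SimpleGraph V) (θ : ℝ) (Λ : Finset V) (t : V → ℝ) {v u : V} (hv : v ∈ Λ)
    (hu : u ∈ Λ) : cov G θ Λ t v u = cvr G θ Λ t v u := by
  unfold cov cvr tpt
  rw [if_pos ⟨hv, hu⟩, gib_eq, Zg_eq, mean_eq _ _ _ _ hv, mean_eq _ _ _ _ hu]
  simp only [spb_cfg]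

/-- (I4) in terms of the mean field -/
theorem cov_eq_Mker {G : SimpleGraph V} (hT : G.IsTree) {S : Finset V} {θ : ℝ} {t : V → ℝ}
    (hS : Adm θ S t) {v u : V} (hmem : ∀ i ≤ G.dist v u, geo hT v u i ∈ S) :
    cov G θ S t v u = Mker hT θ (mean G θ S t) v u := by
  have hv : v ∈ S := by simpa [geo_zero hT] using hmem 0 (by omega)
  have hu : u ∈ S := by simpa [geo_last hT] using hmem _ le_rfl
  rw [cov_eq _ _ _ _ hv hu]
  have e := cvr_path hT (θ := θ) (t := t) (G.dist v u) hS (geo hT v u) (nb_geo hT v u) hmem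
  rw [geo_zero hT, geo_last hT] at e
  rw [e]
  unfold Mker Mseq
  simp only [geo_zero hT]
  rw [mean_eq _ _ _ _ hv]
  congr 1
  refine Finset.prod_congr rfl fun i hi => ?_
  rw [Finset.mem_range] at hi
  unfold kap
  rw [mean_eq _ _ _ _ (hmem i (by omega)), mean_eq _ _ _ _ (hmem (i + 1) (by omega)),
    cav_eq_BB hT hS ((nb_geo hT v u).adj i hi).symm (hmem _ (by omega)) (hmem _ (by omega))]


/-! ### splitting in terms of the definitions -/

theorem Zt_pos {G : SimpleGraph V} {θ : ℝ} {S : Finset V} {t : V → ℝ} (h : Adm θ S t) :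
    0 < Zt G θ S t := by rw [← Zg_eq]; exact Zg_pos h

theorem abs_mean_le {G : SimpleGraph V} {θ : ℝ} {S : Finset V} {t : V → ℝ} (h : Adm θ S t)
    (v : V) : |mean G θ S t v| ≤ 1 := by
  by_cases hv : v ∈ S
  · rw [mean_eq _ _ _ _ hv]; exact abs_mag_le h v
  · rw [mean_notMem _ _ _ _ hv]; simp

theorem Zt_union {G : SimpleGraph V} {A B : Finset V} {y p : V} (h : OneEdge G A B y p)
    {θ : ℝ} {t : V → ℝ} (hA : Adm θ A t) (hB : Adm θ B t) :
    Zt G θ (A ∪ B) t = Zt G θ A t * Zt G θ B t *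
      (1 + mean G θ A t y * (θ * mean G θ B t p)) := by
  rw [← Zg_eq, ← Zg_eq, ← Zg_eq, Zg_union h hA hB, mean_eq _ _ _ _ h.hy, mean_eq _ _ _ _ h.hp]
  ring

theorem mean_union {G : SimpleGraph V} {A B : Finset V} {y p : V} (h : OneEdge G A B y p)
    {θ : ℝ} {t : V → ℝ} (hA : Adm θ A t) (hB : Adm θ B t) :
    mean G θ (A ∪ B) t y = op (mean G θ A t y) (θ * mean G θ B t p) := by
  rw [mean_eq _ _ _ _ (mem_union_left _ h.hy), mag_union h hA hB, mean_eq _ _ _ _ h.hy,
    mean_eq _ _ _ _ h.hp]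
  unfold op
  congr 1
  ring

theorem gib_singleton (G : SimpleGraph V) (θ : ℝ) (y : V) (t : V → ℝ) (F : ℝ → ℝ) :
    gib G θ {y} t (fun η => F (spb (η y))) = ((1 + t y) * F 1 + (1 - t y) * F (-1)) / 2 := by
  rw [gib_eq]
  have hw : ∀ A : Finset V, wtI G θ {y} t A = (1 + sp A y * t y) / 2 := by
    intro A
    unfold wtI
    rw [Finset.prod_singleton]
    have : isingWeight G θ {y} (fun v => decide (v ∈ A)) = 1 / 2 := by
      unfold isingWeight
      rw [Finset.prod_eq_one, mul_one]
      intro e he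
      exfalso
      rw [Finset.mem_filter] at he
      obtain ⟨he1, he2⟩ := he
      induction e with
      | h a b =>
        rw [Finset.mk_mem_sym2_iff, mem_singleton, mem_singleton] at he1
        obtain ⟨rfl, rfl⟩ := he1
        exact G.loopless.irrefl _ he2
    rw [this]; ring
  simp only [hw, spb_cfg]
  have hp : ({y} : Finset V).powerset = {∅, {y}} := by
    ext A
    rw [mem_powerset, Finset.subset_singleton_iff, mem_insert, mem_singleton]
  have hne : (∅ : Finset V) ≠ {y} := (Finset.singleton_ne_empty y).symm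
  rw [hp, Finset.sum_pair hne]
  simp [sp]
  ring

theorem Zt_singleton (G : SimpleGraph V) (θ : ℝ) (y : V) (t : V → ℝ) : Zt G θ {y} t = 1 := by
  have := gib_singleton G θ y t (fun _ => 1)
  rw [← Zg_eq]
  unfold Zg
  rw [this]; ring

theorem mean_singleton (G : SimpleGraph V) (θ : ℝ) (y : V) (t : V → ℝ) :
    mean G θ {y} t y = t y := by
  have := gib_singleton G θ y t (fun x => x)
  rw [mean_eq _ _ _ _ (mem_singleton_self y)]
  unfold mag
  rw [this, Zg_eq, Zt_singleton]; ring

/-! ### balls and branches of finite depth -/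

theorem ball_finite {G : SimpleGraph V} [G.LocallyFinite] (hT : G.IsTree) (v : V) (R : ℕ) :
    {x | G.dist v x ≤ R}.Finite := by
  have : {x | G.dist v x ≤ R} = ⋃ i ∈ Set.Iic R, descS G v v i := by
    ext x
    simp only [Set.mem_ofPred_eq, Set.mem_iUnion, Set.mem_Iic, exists_prop]
    rw [show (G.dist v x ≤ R) = (∃ i, i ≤ R ∧ G.dist v x = i) by simp]
    simp only [descS_root, Set.mem_ofPred_eq]
  rw [this]
  exact (Set.finite_Iic R).biUnion fun i _ => descS_finite hT v v i

theorem mem_ball {G : SimpleGraph V} [G.LocallyFinite] (hT : G.IsTree) {v : V} {R : ℕ} {x : V} :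
    x ∈ ball G v R ↔ G.dist v x ≤ R := by
  unfold ball
  rw [dif_pos (ball_finite hT v R)]
  simp

/-- the branch of `y` seen from `p`, cut at depth `n` -/
def brB (G : SimpleGraph V) (n : ℕ) (y p : V) : Finset V := brS G (ball G y n) y p

theorem mem_brB {G : SimpleGraph V} [G.LocallyFinite] (hT : G.IsTree) {n : ℕ} {y p x : V} :
    x ∈ brB G n y p ↔ G.dist y x ≤ n ∧ x ∈ br G y p := by
  unfold brB
  rw [mem_brS, mem_ball hT]

section star
variable {G : SimpleGraph V} [G.LocallyFinite] (hT : G.IsTree)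
include hT

/-- the part of the ball of radius `n + 1` around `p` in the branch of `y` -/
theorem brS_ball {n : ℕ} {y p : V} (h : G.Adj y p) :
    brS G (ball G p (n + 1)) y p = brB G n y p := by
  ext x
  rw [mem_brS, mem_ball hT, mem_brB hT]
  constructor
  · rintro ⟨h1, h2⟩
    have := (mem_br hT h x).1 h2
    rw [G.dist_comm (u := p) (v := x)] at h1
    rw [G.dist_comm (u := y) (v := x)]
    exact ⟨by omega, h2⟩
  · rintro ⟨h1, h2⟩
    have := (mem_br hT h x).1 h2
    rw [G.dist_comm (u := y) (v := x)] at h1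
    rw [G.dist_comm (u := p) (v := x)]
    exact ⟨by omega, h2⟩

theorem brB_zero {y p : V} (h : G.Adj y p) : brB G 0 y p = {y} := by
  ext x
  rw [mem_brB hT, mem_singleton]
  constructor
  · rintro ⟨h1, _⟩
    exact ((hT.connected.dist_eq_zero_iff).1 (Nat.le_zero.1 h1)).symm
  · rintro rfl
    exact ⟨by simp, self_mem_br hT h⟩

/-- `y` together with the branches of the neighbours in `C` -/
theorem oneEdge_star {n : ℕ} {y c : V} {C : Finset V} (hC : ∀ c' ∈ C, G.Adj y c')
    (hc : G.Adj y c) (hcC : c ∉ C) :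
    OneEdge G ({y} ∪ C.biUnion fun c' => brB G n c' y) (brB G n c y) y c := by
  have key : ∀ x ∈ {y} ∪ C.biUnion (fun c' => brB G n c' y), x ∈ br G y c := by
    intro x hx
    rw [mem_union, mem_singleton, mem_biUnion] at hx
    rcases hx with rfl | ⟨c', hc', hx⟩
    · exact self_mem_br hT hc
    · rw [mem_brB hT] at hx
      by_contra hcon
      rw [notMem_br hT hc] at hcon
      exact hcC (toward_unique hT hc (hC c' hc') hcon hx.2 ▸ hc')
  refine ⟨?_, by simp, (mem_brB hT).2 ⟨by simp, self_mem_br hT hc.symm⟩, hc, ?_⟩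
  · rw [Finset.disjoint_left]
    intro x hx hx'
    have h1 := key x hx
    have h2 := ((mem_brB hT).1 hx').2
    exact (notMem_br hT hc x).2 h2 h1
  · intro x hx z hz hxz
    exact br_cross hT hc (key x hx) ((mem_brB hT).1 hz).2 hxz

theorem brB_succ {n : ℕ} {y p : V} (h : G.Adj y p) :
    brB G (n + 1) y p =
      {y} ∪ ((G.neighborFinset y).erase p).biUnion fun c => brB G n c y := by
  ext x
  rw [mem_brB hT, mem_union, mem_singleton, mem_biUnion]
  constructor
  · rintro ⟨h1, h2⟩
    by_cases hxy : x = y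
    · exact Or.inl hxy
    · right
      obtain ⟨c, hc, hxc⟩ := exists_toward hT hxy
      refine ⟨c, ?_, ?_⟩
      · rw [mem_erase, SimpleGraph.mem_neighborFinset]
        refine ⟨?_, hc⟩
        rintro rfl
        exact (notMem_br hT h x).2 hxc h2
      · rw [mem_brB hT]
        have := (mem_br hT hc.symm x).1 hxc
        rw [G.dist_comm (u := y) (v := x)] at h1
        rw [G.dist_comm (u := c) (v := x)]
        exact ⟨by omega, hxc⟩
  · rintro (rfl | ⟨c, hc, hxc⟩)
    · exact ⟨by simp, self_mem_br hT h⟩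
    · rw [mem_erase, SimpleGraph.mem_neighborFinset] at hc
      rw [mem_brB hT] at hxc
      have := (mem_br hT hc.2.symm x).1 hxc.2
      have e1 := G.dist_comm (u := y) (v := x)
      have e2 := G.dist_comm (u := c) (v := x)
      exact ⟨by omega, br_subset hT h hc.2 hc.1 hxc.2⟩

theorem ball_succ {n : ℕ} {y : V} :
    ball G y (n + 1) = {y} ∪ (G.neighborFinset y).biUnion fun c => brB G n c y := by
  ext x
  rw [mem_ball hT, mem_union, mem_singleton, mem_biUnion]
  constructor
  · intro h1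
    by_cases hxy : x = y
    · exact Or.inl hxy
    · right
      obtain ⟨c, hc, hxc⟩ := exists_toward hT hxy
      refine ⟨c, by rw [SimpleGraph.mem_neighborFinset]; exact hc, ?_⟩
      rw [mem_brB hT]
      have := (mem_br hT hc.symm x).1 hxc
      rw [G.dist_comm (u := y) (v := x)] at h1
      rw [G.dist_comm (u := c) (v := x)]
      exact ⟨by omega, hxc⟩
  · rintro (rfl | ⟨c, hc, hxc⟩)
    · simp
    · rw [SimpleGraph.mem_neighborFinset] at hc
      rw [mem_brB hT] at hxc
      have := (mem_br hT hc.symm x).1 hxc.2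
      have e1 := G.dist_comm (u := y) (v := x)
      have e2 := G.dist_comm (u := c) (v := x)
      omega

end star

end

end Crest.Agent.T41
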