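import Crest.Agent.T41Defs
import Crest.Agent.T41Ising

/-!
S0241, part BB: algebra of the cavity field `BB θ x y`, the factor `kap θ x y` and `ell`.
(x = mean at y-vertex, y = mean at the parent.)
-/

set_option autoImplicit false

namespace Crest.Agent.T41

noncomputable section

/-- the radicand in `BB` -/
def BBrad (θ my mp : ℝ) : ℝ := (1 - θ ^ 2) ^ 2 - 4 * θ * (mp - θ * my) * (my - θ * mp)

/-- the denominator in `BB` -/
def BBden (θ my mp : ℝ) : ℝ := (1 - θ ^ 2) + √(BBrad θ my mp)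

theorem bba_BB_def' (θ my mp : ℝ) : BB θ my mp = 2 * (my - θ * mp) / BBden θ my mp := rfl

theorem BBrad_swap (θ my mp : ℝ) : BBrad θ mp my = BBrad θ my mp := by
  unfold BBrad; ring

theorem BBden_swap (θ my mp : ℝ) : BBden θ mp my = BBden θ my mp := by
  unfold BBden; rw [BBrad_swap]

theorem BBrad_ge {θ my mp : ℝ} (h0 : 0 ≤ θ) (h1 : θ < 1) (hy : |my| ≤ 1) (hp : |mp| ≤ 1) :
    (1 - θ) ^ 4 ≤ BBrad θ my mp := by
  have hy' := abs_le.1 hy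
  have hp' := abs_le.1 hp
  have key : (mp - θ * my) * (my - θ * mp) ≤ (1 - θ) ^ 2 := by
    have h2 : (mp - θ * my) * (my - θ * mp) =
        (1 - θ) ^ 2 * ((mp + my) / 2) ^ 2 - (1 + θ) ^ 2 * ((mp - my) / 2) ^ 2 := by ring
    have h3 : ((mp + my) / 2) ^ 2 ≤ 1 := by
      have : |(mp + my) / 2| ≤ 1 := by rw [abs_le]; constructor <;> linarith
      nlinarith [sq_abs ((mp + my) / 2), abs_nonneg ((mp + my) / 2)]
    rw [h2]
    nlinarith [sq_nonneg (1 - θ), sq_nonneg ((1 + θ) * ((mp - my) / 2))]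
  unfold BBrad
  nlinarith

theorem BBrad_pos {θ my mp : ℝ} (h0 : 0 ≤ θ) (h1 : θ < 1) (hy : |my| ≤ 1) (hp : |mp| ≤ 1) :
    0 < BBrad θ my mp :=
  lt_of_lt_of_le (by have : 0 < 1 - θ := by linarith
                     positivity) (BBrad_ge h0 h1 hy hp)

theorem sqrt_BBrad_ge {θ my mp : ℝ} (h0 : 0 ≤ θ) (h1 : θ < 1) (hy : |my| ≤ 1) (hp : |mp| ≤ 1) :
    (1 - θ) ^ 2 ≤ √(BBrad θ my mp) := by
  apply Real.le_sqrt_of_sq_le
  have := BBrad_ge h0 h1 hy hp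
  calc ((1 - θ) ^ 2) ^ 2 = (1 - θ) ^ 4 := by ring
    _ ≤ _ := this

theorem BBden_ge {θ my mp : ℝ} (h0 : 0 ≤ θ) (h1 : θ < 1) (hy : |my| ≤ 1) (hp : |mp| ≤ 1) :
    2 * (1 - θ) ≤ BBden θ my mp := by
  have := sqrt_BBrad_ge h0 h1 hy hp
  unfold BBden
  nlinarith

theorem BBden_pos {θ my mp : ℝ} (h0 : 0 ≤ θ) (h1 : θ < 1) (hy : |my| ≤ 1) (hp : |mp| ≤ 1) :
    0 < BBden θ my mp := lt_of_lt_of_le (by linarith) (BBden_ge h0 h1 hy hp)

/-- `1 + θ b b' = 2 (1-θ²)/den` -/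
theorem bba_BB_prod {θ my mp : ℝ} (h0 : 0 ≤ θ) (h1 : θ < 1) (hy : |my| ≤ 1) (hp : |mp| ≤ 1) :
    1 + θ * BB θ my mp * BB θ mp my = 2 * (1 - θ ^ 2) / BBden θ my mp := by
  have hs := BBden_pos h0 h1 hy hp
  rw [bba_BB_def', bba_BB_def', BBden_swap θ my mp]
  have hsq : √(BBrad θ my mp) ^ 2 = BBrad θ my mp := Real.sq_sqrt (BBrad_pos h0 h1 hy hp).le
  rw [eq_div_iff hs.ne']
  have e : (1 + θ * (2 * (my - θ * mp) / BBden θ my mp) * (2 * (mp - θ * my) / BBden θ my mp)) *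
      BBden θ my mp = (BBden θ my mp ^ 2 + 4 * θ * (mp - θ * my) * (my - θ * mp)) /
        BBden θ my mp := by
    field_simp
    ring
  rw [e, div_eq_iff hs.ne']
  have h3 : 4 * θ * (mp - θ * my) * (my - θ * mp) = (1 - θ ^ 2) ^ 2 - √(BBrad θ my mp) ^ 2 := by
    rw [hsq]; unfold BBrad; ring
  rw [h3]
  unfold BBden
  ring

/-- the two cavity fields reproduce the mean -/
theorem bba_BB_op {θ my mp : ℝ} (h0 : 0 ≤ θ) (h1 : θ < 1) (hy : |my| ≤ 1) (hp : |mp| ≤ 1) :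
    my = (BB θ my mp + θ * BB θ mp my) / (1 + θ * BB θ my mp * BB θ mp my) := by
  have hs := BBden_pos h0 h1 hy hp
  rw [bba_BB_prod h0 h1 hy hp]
  rw [bba_BB_def', bba_BB_def', BBden_swap θ my mp]
  have hθ : 0 < 1 - θ ^ 2 := by nlinarith
  field_simp
  ring

/-- the quadratic equation -/
theorem bba_BB_quad {θ my mp : ℝ} (h0 : 0 ≤ θ) (h1 : θ < 1) (hy : |my| ≤ 1) (hp : |mp| ≤ 1) :
    my * (1 - θ ^ 2 * BB θ my mp ^ 2) =
      BB θ my mp * (1 - θ ^ 2) + θ * mp * (1 - BB θ my mp ^ 2) := by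
  have hs := BBden_pos h0 h1 hy hp
  have e1 := bba_BB_op h0 h1 hy hp
  have e2 := bba_BB_op h0 h1 hp hy
  have hD : 1 + θ * BB θ my mp * BB θ mp my ≠ 0 := by
    rw [bba_BB_prod h0 h1 hy hp]
    have hθ : 0 < 1 - θ ^ 2 := by nlinarith
    positivity
  rw [show 1 + θ * BB θ mp my * BB θ my mp = 1 + θ * BB θ my mp * BB θ mp my by ring] at e2
  rw [eq_div_iff hD] at e1 e2
  generalize BB θ my mp = b at *
  generalize BB θ mp my = b' at *
  have : (my * (1 - θ ^ 2 * b ^ 2) - (b * (1 - θ ^ 2) + θ * mp * (1 - b ^ 2))) *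
      (1 + θ * b * b') = 0 := by
    linear_combination (1 - θ ^ 2 * b ^ 2) * e1 - θ * (1 - b ^ 2) * e2
  rcases mul_eq_zero.1 this with h | h
  · linarith
  · exact absurd h hD

theorem bba_abs_BB_le {θ my mp : ℝ} (h0 : 0 ≤ θ) (h1 : θ < 1) (hy : |my| ≤ 1) (hp : |mp| ≤ 1) :
    |BB θ my mp| ≤ 1 := by
  have hs := BBden_pos h0 h1 hy hp
  have hy' := abs_le.1 hy
  have hp' := abs_le.1 hp
  have hθ : 0 < 1 - θ ^ 2 := by nlinarith
  rw [bba_BB_def', abs_div, abs_of_pos hs, div_le_one hs]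
  -- |2X| ≤ B + √Δ
  have key : ∀ X Y m : ℝ, |m| ≤ 1 → X + θ * Y = m * (1 - θ ^ 2) →
      0 ≤ X → 2 * X ≤ (1 - θ ^ 2) + √((1 - θ ^ 2) ^ 2 - 4 * θ * Y * X) := by
    intro X Y m hm hXY hX
    have hm' := abs_le.1 hm
    have : 2 * X - (1 - θ ^ 2) ≤ √((1 - θ ^ 2) ^ 2 - 4 * θ * Y * X) := by
      apply Real.le_sqrt_of_sq_le
      have h3 : X + θ * Y ≤ 1 - θ ^ 2 := by rw [hXY]; nlinarith
      nlinarith
    linarith
  rcases le_total 0 (my - θ * mp) with h | h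
  · rw [abs_of_nonneg (by linarith)]
    exact key (my - θ * mp) (mp - θ * my) my hy (by ring) h
  · rw [abs_of_nonpos (by linarith)]
    have := key (-(my - θ * mp)) (-(mp - θ * my)) (-my) (by rw [abs_neg]; exact hy) (by ring)
      (by linarith)
    unfold BBden BBrad
    rw [show 4 * θ * (mp - θ * my) * (my - θ * mp) =
      4 * θ * -(mp - θ * my) * -(my - θ * mp) by ring]
    linarith

/-- quantitative bound away from `±1` -/
theorem bba_one_sub_BB_sq {θ my mp : ℝ} (h0 : 0 ≤ θ) (h1 : θ < 1) (hy : |my| ≤ 1) (hp : |mp| ≤ 1) :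
    1 - my ^ 2 = (1 - BB θ my mp ^ 2) * (1 - θ ^ 2 * BB θ mp my ^ 2) /
      (1 + θ * BB θ my mp * BB θ mp my) ^ 2 := by
  have hs := BBden_pos h0 h1 hy hp
  have e1 := bba_BB_op h0 h1 hy hp
  have hD : 1 + θ * BB θ my mp * BB θ mp my ≠ 0 := by
    rw [bba_BB_prod h0 h1 hy hp]
    have hθ : 0 < 1 - θ ^ 2 := by nlinarith
    positivity
  rw [eq_div_iff (pow_ne_zero 2 hD)]
  rw [eq_div_iff hD] at e1
  generalize BB θ my mp = b at *
  generalize BB θ mp my = b' at *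
  linear_combination (-(my * (1 + θ * b * b')) - (b + θ * b')) * e1

theorem bba_BB_neg (θ my mp : ℝ) : BB θ (-my) (-mp) = -BB θ my mp := by
  unfold BB
  rw [show 4 * θ * (-mp - θ * -my) * (-my - θ * -mp) =
    4 * θ * (mp - θ * my) * (my - θ * mp) by ring]
  ring

theorem bba_one_sub_sq_pos {θ b : ℝ} (h0 : 0 ≤ θ) (h1 : θ < 1) (hb : |b| ≤ 1) :
    1 - θ ^ 2 ≤ 1 - θ ^ 2 * b ^ 2 := by
  have : b ^ 2 ≤ 1 := by
    have := sq_abs b
    nlinarith [abs_nonneg b]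
  nlinarith [sq_nonneg θ]

theorem bba_gg_nonneg {θ b : ℝ} (h0 : 0 ≤ θ) (h1 : θ < 1) (hb : |b| ≤ 1) : 0 ≤ gg θ b := by
  have h2 := bba_one_sub_sq_pos h0 h1 hb
  have h3 : 0 < 1 - θ ^ 2 := by nlinarith
  have : b ^ 2 ≤ 1 := by
    have := sq_abs b
    nlinarith [abs_nonneg b]
  unfold gg
  exact div_nonneg (by linarith) (by linarith)

theorem bba_gg_le_one {θ b : ℝ} (h0 : 0 ≤ θ) (h1 : θ < 1) (hb : |b| ≤ 1) : gg θ b ≤ 1 := by
  have h2 := bba_one_sub_sq_pos h0 h1 hb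
  have h3 : 0 < 1 - θ ^ 2 := by nlinarith
  unfold gg
  rw [div_le_one (by linarith)]
  nlinarith [sq_nonneg b]

/-- `g` is Lipschitz in both arguments -/
theorem bba_gg_lip {q θ θ' b b' : ℝ} (hq : q < 1) (h0 : 0 ≤ θ) (h1 : θ ≤ q) (h0' : 0 ≤ θ')
    (h1' : θ' ≤ q) (hb : |b| ≤ 1) (hb' : |b'| ≤ 1) :
    |gg θ b - gg θ' b'| ≤ 2 / (1 - q) ^ 2 * (|b - b'| + |θ - θ'|) := by
  have hA : 0 < 1 - θ ^ 2 := by nlinarith
  have hA' : 0 < 1 - θ' ^ 2 := by nlinarith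
  have h2 := bba_one_sub_sq_pos h0 (by linarith) hb
  have h2' := bba_one_sub_sq_pos h0' (by linarith) hb'
  have hq1 : 0 < 1 - q := by linarith
  have hd : (1 - q) ≤ 1 - θ ^ 2 * b ^ 2 := by nlinarith
  have hd' : (1 - q) ≤ 1 - θ' ^ 2 * b' ^ 2 := by nlinarith
  have hp : 0 < 1 - θ ^ 2 * b ^ 2 := by linarith
  have hp' : 0 < 1 - θ' ^ 2 * b' ^ 2 := by linarith
  have hbs : b ^ 2 ≤ 1 := by
    have := sq_abs b
    nlinarith [abs_nonneg b]
  have hbs' : b' ^ 2 ≤ 1 := by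
    have := sq_abs b'
    nlinarith [abs_nonneg b']
  have e : gg θ b - gg θ' b' =
      ((b' ^ 2 - b ^ 2) * (1 - θ ^ 2) + (θ ^ 2 - θ' ^ 2) * b' ^ 2 * (1 - b ^ 2)) /
        ((1 - θ ^ 2 * b ^ 2) * (1 - θ' ^ 2 * b' ^ 2)) := by
    unfold gg
    rw [div_sub_div _ _ hp.ne' hp'.ne']
    congr 1
    ring
  have hnum : |(b' ^ 2 - b ^ 2) * (1 - θ ^ 2) + (θ ^ 2 - θ' ^ 2) * b' ^ 2 * (1 - b ^ 2)| ≤
      2 * (|b - b'| + |θ - θ'|) := by
    have t1 : |(b' ^ 2 - b ^ 2) * (1 - θ ^ 2)| ≤ 2 * |b - b'| := by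
      rw [show (b' ^ 2 - b ^ 2) = -((b + b') * (b - b')) by ring, neg_mul, abs_neg, abs_mul,
        abs_mul, abs_of_pos hA]
      have t3 : |b + b'| ≤ 2 := (abs_add_le b b').trans (by linarith)
      have t4 : 1 - θ ^ 2 ≤ 1 := by nlinarith
      calc |b + b'| * |b - b'| * (1 - θ ^ 2) ≤ |b + b'| * |b - b'| * 1 :=
            mul_le_mul_of_nonneg_left t4 (by positivity)
        _ ≤ 2 * |b - b'| := by
            rw [mul_one]; exact mul_le_mul_of_nonneg_right t3 (abs_nonneg _)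
    have t2 : |(θ ^ 2 - θ' ^ 2) * b' ^ 2 * (1 - b ^ 2)| ≤ 2 * |θ - θ'| := by
      rw [show (θ ^ 2 - θ' ^ 2) = (θ + θ') * (θ - θ') by ring, abs_mul, abs_mul, abs_mul,
        abs_of_nonneg (by linarith : 0 ≤ θ + θ'), abs_of_nonneg (sq_nonneg b'),
        abs_of_nonneg (by linarith : 0 ≤ 1 - b ^ 2)]
      have t5 : (θ + θ') * |θ - θ'| ≤ 2 * |θ - θ'| :=
        mul_le_mul_of_nonneg_right (by linarith) (abs_nonneg _)
      calc (θ + θ') * |θ - θ'| * b' ^ 2 * (1 - b ^ 2) ≤ (θ + θ') * |θ - θ'| * 1 * 1 := by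
            apply mul_le_mul _ (by nlinarith) (by nlinarith) (by positivity)
            exact mul_le_mul_of_nonneg_left hbs' (by positivity)
        _ ≤ _ := by simpa using t5
    calc _ ≤ |(b' ^ 2 - b ^ 2) * (1 - θ ^ 2)| + |(θ ^ 2 - θ' ^ 2) * b' ^ 2 * (1 - b ^ 2)| :=
          abs_add_le _ _
      _ ≤ _ := by linarith
  rw [e, abs_div, abs_of_pos (mul_pos hp hp'), div_le_iff₀ (mul_pos hp hp')]
  have hprod : (1 - q) ^ 2 ≤ (1 - θ ^ 2 * b ^ 2) * (1 - θ' ^ 2 * b' ^ 2) := by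
    rw [sq]; exact mul_le_mul hd hd' hq1.le hp.le
  have hx : 0 ≤ |b - b'| + |θ - θ'| := by positivity
  calc _ ≤ 2 * (|b - b'| + |θ - θ'|) := hnum
    _ = 2 / (1 - q) ^ 2 * (|b - b'| + |θ - θ'|) * (1 - q) ^ 2 := by field_simp
    _ ≤ _ := mul_le_mul_of_nonneg_left hprod (by positivity)

end

theorem rad_ge {θ x y : ℝ} (h0 : 0 ≤ θ) (h1 : θ < 1) (hx : |x| ≤ 1) (hy : |y| ≤ 1) :
    (1 - θ) ^ 4 ≤ (1 - θ ^ 2) ^ 2 - 4 * θ * (y - θ * x) * (x - θ * y) :=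
  BBrad_ge h0 h1 hx hy

theorem BB_abs_le {θ x y : ℝ} (h0 : 0 ≤ θ) (h1 : θ < 1) (hx : |x| ≤ 1) (hy : |y| ≤ 1) :
    |BB θ x y| ≤ 1 := bba_abs_BB_le h0 h1 hx hy

theorem bba_D_pos {θ x y : ℝ} (h0 : 0 ≤ θ) (h1 : θ < 1) (hx : |x| ≤ 1) (hy : |y| ≤ 1) :
    0 < 1 + θ * BB θ x y * BB θ y x := by
  rw [bba_BB_prod h0 h1 hx hy]
  have hθ : 0 < 1 - θ ^ 2 := by nlinarith
  have hs := BBden_pos h0 h1 hx hy
  positivity

theorem bba_D_ge {θ x y : ℝ} (h0 : 0 ≤ θ) (h1 : θ < 1) (hx : |x| ≤ 1) (hy : |y| ≤ 1) :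
    1 - θ ≤ 1 + θ * BB θ x y * BB θ y x := by
  have hb := BB_abs_le h0 h1 hx hy
  have hb' := BB_abs_le h0 h1 hy hx
  have : |BB θ x y * BB θ y x| ≤ 1 := by
    rw [abs_mul]; exact mul_le_one₀ hb (abs_nonneg _) hb'
  have := (abs_le.1 this).1
  nlinarith

theorem BB_abs_lt {θ x y : ℝ} (h0 : 0 ≤ θ) (h1 : θ < 1) (hx : |x| < 1) (hy : |y| < 1) :
    |BB θ x y| < 1 := by
  have e := bba_one_sub_BB_sq h0 h1 hx.le hy.le
  have hb := BB_abs_le h0 h1 hx.le hy.le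
  have hb' := BB_abs_le h0 h1 hy.le hx.le
  have h2 := bba_one_sub_sq_pos h0 h1 hb'
  have h3 : 0 < 1 - θ ^ 2 := by nlinarith
  have h4 : 0 < 1 - x ^ 2 := by
    have := (sq_lt_one_iff_abs_lt_one x).2 hx
    linarith
  by_contra hcon
  have h5 : |BB θ x y| = 1 := le_antisymm hb (not_lt.1 hcon)
  have h6 : BB θ x y ^ 2 = 1 := by rw [← sq_abs, h5]; norm_num
  rw [e, h6] at h4
  simp at h4

/-- uniform bound -/
theorem BB_bd (θ₁ bd : ℝ) (h1 : θ₁ < 1) (hbd : bd < 1) : ∃ bd' < 1, ∀ θ x y : ℝ, 0 ≤ θ → θ ≤ θ₁ →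
    |x| ≤ bd → |y| ≤ bd → |BB θ x y| ≤ bd' := by
  by_cases hb0 : bd < 0
  · refine ⟨0, by norm_num, fun θ x y _ _ hx _ => ?_⟩
    have := abs_nonneg x
    linarith
  push Not at hb0
  have hpos : 0 < (1 - bd ^ 2) * (1 - θ₁) ^ 2 := by
    have : 0 < 1 - bd ^ 2 := by nlinarith
    have h2 : 0 < 1 - θ₁ := by linarith
    positivity
  refine ⟨√(1 - (1 - bd ^ 2) * (1 - θ₁) ^ 2), ?_, fun θ x y h0 hθ hx hy => ?_⟩
  · rw [Real.sqrt_lt' one_pos]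
    linarith
  · have hθ1 : θ < 1 := by linarith
    have hx1 : |x| ≤ 1 := by linarith
    have hy1 : |y| ≤ 1 := by linarith
    apply Real.le_sqrt_of_sq_le
    rw [sq_abs]
    have e := bba_one_sub_BB_sq h0 hθ1 hx1 hy1
    have hD := bba_D_pos h0 hθ1 hx1 hy1
    have hD' := bba_D_ge h0 hθ1 hx1 hy1
    rw [eq_div_iff (pow_ne_zero 2 hD.ne')] at e
    have hb := BB_abs_le h0 hθ1 hx1 hy1
    have hbs : BB θ x y ^ 2 ≤ 1 := by
      rw [← sq_abs]; nlinarith [abs_nonneg (BB θ x y)]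
    have h3 : (1 - BB θ x y ^ 2) * (1 - θ ^ 2 * BB θ y x ^ 2) ≤ (1 - BB θ x y ^ 2) := by
      have : 0 ≤ θ ^ 2 * BB θ y x ^ 2 := by positivity
      nlinarith
    have h4 : (1 - θ₁) ^ 2 ≤ (1 + θ * BB θ x y * BB θ y x) ^ 2 := by
      apply pow_le_pow_left₀ (by linarith)
      linarith
    have h5 : 1 - bd ^ 2 ≤ 1 - x ^ 2 := by
      have : x ^ 2 ≤ bd ^ 2 := by rw [← sq_abs]; exact pow_le_pow_left₀ (abs_nonneg x) hx 2
      linarith
    have h6 : 0 < 1 - bd ^ 2 := by nlinarith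
    have h7 : (1 - bd ^ 2) * (1 - θ₁) ^ 2 ≤
        (1 - x ^ 2) * (1 + θ * BB θ x y * BB θ y x) ^ 2 :=
      mul_le_mul h5 h4 (by positivity) (by linarith)
    linarith

/-- `x = b ⊕ θ b'` with `b = BB θ x y`, `b' = BB θ y x` -/
theorem op_BB {θ x y : ℝ} (h0 : 0 ≤ θ) (h1 : θ < 1) (hx : |x| < 1) (hy : |y| < 1) :
    x = op (BB θ x y) (θ * BB θ y x) := by
  have := bba_BB_op h0 h1 hx.le hy.le
  unfold op
  rw [show 1 + BB θ x y * (θ * BB θ y x) = 1 + θ * BB θ x y * BB θ y x by ring]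
  exact this

theorem BB_unique {θ b b' : ℝ} (h0 : 0 ≤ θ) (h1 : θ < 1) (hb : |b| < 1) (hb' : |b'| < 1) :
    BB θ (op b (θ * b')) (op b' (θ * b)) = b := by
  have := BB_eq h0 h1 hb.le hb'.le
  unfold op
  rw [show 1 + b * (θ * b') = 1 + θ * b * b' by ring,
    show 1 + b' * (θ * b) = 1 + θ * b * b' by ring]
  exact this

theorem BB_neg {θ x y : ℝ} : BB θ (-x) (-y) = -BB θ x y := bba_BB_neg θ x y

theorem BB_zero {x y : ℝ} : BB 0 x y = x := by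
  unfold BB
  norm_num

theorem kap_nonneg {θ x y : ℝ} (h0 : 0 ≤ θ) (h1 : θ < 1) (hx : |x| ≤ 1) (hy : |y| ≤ 1) :
    0 ≤ kap θ x y := mul_nonneg h0 (bba_gg_nonneg h0 h1 (BB_abs_le h0 h1 hx hy))

theorem bba_gg_ge {θ b : ℝ} (h0 : 0 ≤ θ) (h1 : θ < 1) (hb : |b| ≤ 1) : 1 - b ^ 2 ≤ gg θ b := by
  have h2 := bba_one_sub_sq_pos h0 h1 hb
  have h3 : 0 < 1 - θ ^ 2 := by nlinarith
  have h4 : 0 ≤ 1 - b ^ 2 := by
    have : b ^ 2 ≤ 1 := by rw [← sq_abs]; nlinarith [abs_nonneg b]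
    linarith
  unfold gg
  rw [le_div_iff₀ (by linarith)]
  have : 0 ≤ θ ^ 2 * b ^ 2 := by positivity
  nlinarith

theorem kap_pos {θ x y : ℝ} (h0 : 0 < θ) (h1 : θ < 1) (hx : |x| < 1) (hy : |y| < 1) :
    0 < kap θ x y := by
  have hb := BB_abs_lt h0.le h1 hx hy
  refine mul_pos h0 (lt_of_lt_of_le ?_ (bba_gg_ge h0.le h1 hb.le))
  have := (sq_lt_one_iff_abs_lt_one _).2 hb
  linarith

theorem kap_le {θ x y : ℝ} (h0 : 0 ≤ θ) (h1 : θ < 1) (hx : |x| ≤ 1) (hy : |y| ≤ 1) :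
    kap θ x y ≤ θ := by
  have := bba_gg_le_one h0 h1 (BB_abs_le h0 h1 hx hy)
  unfold kap
  nlinarith

theorem kap_symm {θ x y : ℝ} (h0 : 0 ≤ θ) (h1 : θ < 1) (hx : |x| < 1) (hy : |y| < 1) :
    (1 - y ^ 2) * kap θ x y = (1 - x ^ 2) * kap θ y x := by
  rw [bba_one_sub_BB_sq h0 h1 hx.le hy.le, bba_one_sub_BB_sq h0 h1 hy.le hx.le]
  have hD := (bba_D_pos h0 h1 hx.le hy.le).ne'
  rw [show 1 + θ * BB θ y x * BB θ x y = 1 + θ * BB θ x y * BB θ y x by ring]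
  have h2 := bba_one_sub_sq_pos h0 h1 (BB_abs_le h0 h1 hx.le hy.le)
  have h2' := bba_one_sub_sq_pos h0 h1 (BB_abs_le h0 h1 hy.le hx.le)
  have h3 : 0 < 1 - θ ^ 2 := by nlinarith
  have h4 : 1 - θ ^ 2 * BB θ x y ^ 2 ≠ 0 := by linarith
  have h4' : 1 - θ ^ 2 * BB θ y x ^ 2 ≠ 0 := by linarith
  unfold kap gg
  generalize BB θ x y = b at *
  generalize BB θ y x = b' at *
  generalize 1 + θ * b * b' = D at *
  generalize 1 - θ ^ 2 * b ^ 2 = E at *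
  generalize 1 - θ ^ 2 * b' ^ 2 = E' at *
  field_simp

/-- the covariance along a geodesic read from the other end -/
theorem Mseq_symm {θ : ℝ} (h0 : 0 ≤ θ) (h1 : θ < 1) (m : ℕ → ℝ) (hm : ∀ i, |m i| < 1) (k : ℕ) :
    Mseq θ m k = (1 - m k ^ 2) * ∏ i ∈ Finset.range k, kap θ (m i) (m (i + 1)) := by
  induction k with
  | zero => simp [Mseq]
  | succ k ih =>
    unfold Mseq at ih ⊢
    rw [Finset.prod_range_succ, Finset.prod_range_succ, ← mul_assoc, ih]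
    have := kap_symm h0 h1 (hm (k + 1)) (hm k)
    linear_combination (∏ i ∈ Finset.range k, kap θ (m i) (m (i + 1))) * this

theorem bba_mul_sub {a b a' b' : ℝ} : a * b - a' * b' = (a - a') * b + a' * (b - b') := by ring

theorem bba_sqrt_lip {a a' m : ℝ} (hm : 0 < m) (ha : m ^ 2 ≤ a) (ha' : m ^ 2 ≤ a') :
    |√a - √a'| ≤ |a - a'| / (2 * m) := by
  have h1 : m ≤ √a := Real.le_sqrt_of_sq_le ha
  have h2 : m ≤ √a' := Real.le_sqrt_of_sq_le ha'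
  have ha0 : 0 ≤ a := (sq_nonneg m).trans ha
  have ha0' : 0 ≤ a' := (sq_nonneg m).trans ha'
  rw [le_div_iff₀ (by positivity)]
  have e : a - a' = (√a - √a') * (√a + √a') := by
    have h3 := Real.sq_sqrt ha0
    have h4 := Real.sq_sqrt ha0'
    nlinarith
  rw [e, abs_mul, abs_of_pos (by linarith : 0 < √a + √a')]
  exact mul_le_mul_of_nonneg_left (by linarith) (abs_nonneg _)

theorem BB_lip (θ₁ : ℝ) (h1 : θ₁ < 1) : ∃ C : ℝ, 0 ≤ C ∧ ∀ θ θ' x y x' y' : ℝ, 0 ≤ θ → θ ≤ θ₁ →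
    0 ≤ θ' → θ' ≤ θ₁ → |x| ≤ 1 → |y| ≤ 1 → |x'| ≤ 1 → |y'| ≤ 1 →
    |BB θ x y - BB θ' x' y'| ≤ C * (|x - x'| + |y - y'| + |θ - θ'|) := by
  have hq : 0 < 1 - θ₁ := by linarith
  refine ⟨(2 + 9 / (1 - θ₁) ^ 2) / (1 - θ₁), by positivity, ?_⟩
  intro θ θ' x y x' y' h0 hθ h0' hθ' hx hy hx' hy'
  set s := |x - x'| + |y - y'| + |θ - θ'| with hs
  have a1 := abs_nonneg (x - x')
  have a2 := abs_nonneg (y - y')
  have a3 := abs_nonneg (θ - θ')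
  have hs0 : 0 ≤ s := by positivity
  have hθ1 : θ < 1 := by linarith
  have hθ1' : θ' < 1 := by linarith
  -- numerators
  have hX : ∀ u v u' v' : ℝ, |v'| ≤ 1 → |(u - θ * v) - (u' - θ' * v')| ≤
      |u - u'| + |v - v'| + |θ - θ'| := by
    intro u v u' v' hv'
    have e : (u - θ * v) - (u' - θ' * v') = (u - u') + (-(θ * (v - v'))) + (-((θ - θ') * v')) := by
      ring
    rw [e]
    refine (abs_add_three _ _ _).trans ?_
    rw [abs_neg, abs_neg, abs_mul, abs_mul, abs_of_nonneg h0]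
    have t1 : θ * |v - v'| ≤ |v - v'| := by nlinarith [abs_nonneg (v - v')]
    have t2 : |θ - θ'| * |v'| ≤ |θ - θ'| := by nlinarith
    linarith
  have hXs : |(x - θ * y) - (x' - θ' * y')| ≤ s := hX x y x' y' hy'
  have hYs : |(y - θ * x) - (y' - θ' * x')| ≤ s := by
    have := hX y x y' x' hx'
    linarith
  have hb2 : ∀ t u v : ℝ, 0 ≤ t → t ≤ 1 → |u| ≤ 1 → |v| ≤ 1 → |u - t * v| ≤ 2 := by
    intro t u v ht0 ht1 hu hv
    refine (abs_sub _ _).trans ?_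
    rw [abs_mul, abs_of_nonneg ht0]
    nlinarith [abs_nonneg v]
  set X := x - θ * y
  set Y := y - θ * x
  set X' := x' - θ' * y'
  set Y' := y' - θ' * x'
  have bX : |X| ≤ 2 := hb2 θ x y h0 hθ1.le hx hy
  have bY : |Y| ≤ 2 := hb2 θ y x h0 hθ1.le hy hx
  have bX' : |X'| ≤ 2 := hb2 θ' x' y' h0' hθ1'.le hx' hy'
  have bY' : |Y'| ≤ 2 := hb2 θ' y' x' h0' hθ1'.le hy' hx'
  -- radicands
  have hrad : |BBrad θ x y - BBrad θ' x' y'| ≤ 36 * s := by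
    have e : BBrad θ x y - BBrad θ' x' y' = (-((θ + θ') * (θ - θ') * (2 - θ ^ 2 - θ' ^ 2))) +
        (-(4 * ((θ - θ') * Y * X))) + (-(4 * (θ' * ((Y - Y') * X)))) +
        (-(4 * (θ' * (Y' * (X - X'))))) := by
      show (1 - θ ^ 2) ^ 2 - 4 * θ * Y * X - ((1 - θ' ^ 2) ^ 2 - 4 * θ' * Y' * X') = _
      ring
    rw [e]
    have t1 : |-((θ + θ') * (θ - θ') * (2 - θ ^ 2 - θ' ^ 2))| ≤ 4 * s := by
      rw [abs_neg, abs_mul, abs_mul, abs_of_nonneg (by linarith : 0 ≤ θ + θ'),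
        abs_of_nonneg (by nlinarith : 0 ≤ 2 - θ ^ 2 - θ' ^ 2)]
      have u1 : (θ + θ') * |θ - θ'| ≤ 2 * s := by nlinarith
      calc (θ + θ') * |θ - θ'| * (2 - θ ^ 2 - θ' ^ 2) ≤ (2 * s) * 2 :=
            mul_le_mul u1 (by nlinarith [sq_nonneg θ, sq_nonneg θ']) (by nlinarith) (by positivity)
        _ = _ := by ring
    have t2 : |-(4 * ((θ - θ') * Y * X))| ≤ 16 * s := by
      rw [abs_neg, abs_mul, abs_mul, abs_mul, abs_of_pos (by norm_num : (0 : ℝ) < 4)]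
      have u1 : |θ - θ'| * |Y| ≤ s * 2 := mul_le_mul (by linarith) bY (abs_nonneg _) hs0
      have u2 : |θ - θ'| * |Y| * |X| ≤ s * 2 * 2 := mul_le_mul u1 bX (abs_nonneg _) (by positivity)
      linarith
    have t3 : |-(4 * (θ' * ((Y - Y') * X)))| ≤ 8 * s := by
      rw [abs_neg, abs_mul, abs_mul, abs_mul, abs_of_pos (by norm_num : (0 : ℝ) < 4),
        abs_of_nonneg h0']
      have u1 : |Y - Y'| * |X| ≤ s * 2 := mul_le_mul hYs bX (abs_nonneg _) hs0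
      have u2 : θ' * (|Y - Y'| * |X|) ≤ 1 * (s * 2) :=
        mul_le_mul hθ1'.le u1 (by positivity) (by norm_num)
      linarith
    have t4 : |-(4 * (θ' * (Y' * (X - X'))))| ≤ 8 * s := by
      rw [abs_neg, abs_mul, abs_mul, abs_mul, abs_of_pos (by norm_num : (0 : ℝ) < 4),
        abs_of_nonneg h0']
      have u1 : |Y'| * |X - X'| ≤ 2 * s := mul_le_mul bY' hXs (abs_nonneg _) (by norm_num)
      have u2 : θ' * (|Y'| * |X - X'|) ≤ 1 * (2 * s) :=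
        mul_le_mul hθ1'.le u1 (by positivity) (by norm_num)
      linarith
    refine (abs_add_le _ _).trans ?_
    refine (add_le_add (abs_add_three _ _ _) le_rfl).trans ?_
    linarith
  have hm : ((1 - θ₁) ^ 2) ^ 2 ≤ BBrad θ x y := by
    refine le_trans ?_ (BBrad_ge h0 hθ1 hx hy)
    rw [← pow_mul]
    exact pow_le_pow_left₀ hq.le (by linarith) 4
  have hm' : ((1 - θ₁) ^ 2) ^ 2 ≤ BBrad θ' x' y' := by
    refine le_trans ?_ (BBrad_ge h0' hθ1' hx' hy')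
    rw [← pow_mul]
    exact pow_le_pow_left₀ hq.le (by linarith) 4
  have hsq : |√(BBrad θ x y) - √(BBrad θ' x' y')| ≤ 18 / (1 - θ₁) ^ 2 * s := by
    refine (bba_sqrt_lip (by positivity) hm hm').trans ?_
    rw [div_le_iff₀ (by positivity)]
    have : 18 / (1 - θ₁) ^ 2 * s * (2 * (1 - θ₁) ^ 2) = 36 * s := by
      field_simp; ring
    rw [this]; exact hrad
  have hden : |BBden θ x y - BBden θ' x' y'| ≤ 2 * s + 18 / (1 - θ₁) ^ 2 * s := by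
    have e : BBden θ x y - BBden θ' x' y' = (-((θ + θ') * (θ - θ'))) +
        (√(BBrad θ x y) - √(BBrad θ' x' y')) := by
      unfold BBden; ring
    rw [e]
    refine (abs_add_le _ _).trans (add_le_add ?_ hsq)
    rw [abs_neg, abs_mul, abs_of_nonneg (by linarith : 0 ≤ θ + θ')]
    nlinarith
  have hd := BBden_ge h0 hθ1 hx hy
  have hdp := BBden_pos h0 hθ1 hx hy
  have hdp' := BBden_pos h0' hθ1' hx' hy'
  have hBB' := BB_abs_le h0' hθ1' hx' hy'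
  have e : BB θ x y - BB θ' x' y' =
      (2 * (X - X') + (-(BB θ' x' y' * (BBden θ x y - BBden θ' x' y')))) / BBden θ x y := by
    rw [eq_div_iff hdp.ne', sub_mul]
    have e1 : BB θ x y * BBden θ x y = 2 * X := by
      rw [bba_BB_def', div_mul_cancel₀ _ hdp.ne']
    have e2 : BB θ' x' y' * BBden θ' x' y' = 2 * X' := by
      rw [bba_BB_def', div_mul_cancel₀ _ hdp'.ne']
    rw [e1]
    linear_combination -e2
  rw [e, abs_div, abs_of_pos hdp, div_le_iff₀ hdp]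
  have hnum : |2 * (X - X') + (-(BB θ' x' y' * (BBden θ x y - BBden θ' x' y')))| ≤
      (4 + 18 / (1 - θ₁) ^ 2) * s := by
    refine (abs_add_le _ _).trans ?_
    rw [abs_neg, abs_mul, abs_mul, abs_of_pos (by norm_num : (0 : ℝ) < 2)]
    have t1 : |BB θ' x' y'| * |BBden θ x y - BBden θ' x' y'| ≤
        1 * (2 * s + 18 / (1 - θ₁) ^ 2 * s) :=
      mul_le_mul hBB' hden (abs_nonneg _) (by norm_num)
    nlinarith
  refine hnum.trans ?_
  have hd2 : 2 * (1 - θ₁) ≤ BBden θ x y := by linarith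
  calc (4 + 18 / (1 - θ₁) ^ 2) * s =
      (2 + 9 / (1 - θ₁) ^ 2) / (1 - θ₁) * s * (2 * (1 - θ₁)) := by field_simp; ring
    _ ≤ _ := mul_le_mul_of_nonneg_left hd2 (by positivity)

theorem kap_lip (θ₁ : ℝ) (h1 : θ₁ < 1) : ∃ C : ℝ, 0 ≤ C ∧ ∀ θ θ' x y x' y' : ℝ, 0 ≤ θ → θ ≤ θ₁ →
    0 ≤ θ' → θ' ≤ θ₁ → |x| ≤ 1 → |y| ≤ 1 → |x'| ≤ 1 → |y'| ≤ 1 →
    |kap θ x y - kap θ' x' y'| ≤ C * (|x - x'| + |y - y'| + |θ - θ'|) := by
  obtain ⟨C, hC, hB⟩ := BB_lip θ₁ h1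
  have hq : 0 < 1 - θ₁ := by linarith
  refine ⟨1 + 2 / (1 - θ₁) ^ 2 * (C + 1), by positivity, ?_⟩
  intro θ θ' x y x' y' h0 hθ h0' hθ' hx hy hx' hy'
  have hBB := hB θ θ' x y x' y' h0 hθ h0' hθ' hx hy hx' hy'
  have hθ1 : θ < 1 := by linarith
  have hθ1' : θ' < 1 := by linarith
  have hb := BB_abs_le h0 hθ1 hx hy
  have hb' := BB_abs_le h0' hθ1' hx' hy'
  have hg := bba_gg_lip h1 h0 hθ h0' hθ' hb hb'
  have hg1 := bba_gg_le_one h0 hθ1 hb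
  have hg0 := bba_gg_nonneg h0 hθ1 hb
  set s := |x - x'| + |y - y'| + |θ - θ'| with hs
  have a1 := abs_nonneg (x - x')
  have a2 := abs_nonneg (y - y')
  have a3 := abs_nonneg (θ - θ')
  unfold kap
  rw [bba_mul_sub]
  refine (abs_add_le _ _).trans ?_
  rw [abs_mul, abs_mul, abs_of_nonneg h0', abs_of_nonneg hg0]
  have t1 : |θ - θ'| * gg θ (BB θ x y) ≤ s * 1 := mul_le_mul (by linarith) hg1 hg0 (by positivity)
  have t2 : θ' * |gg θ (BB θ x y) - gg θ' (BB θ' x' y')| ≤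
      1 * (2 / (1 - θ₁) ^ 2 * ((C + 1) * s)) := by
    refine mul_le_mul hθ1'.le (hg.trans ?_) (abs_nonneg _) (by norm_num)
    apply mul_le_mul_of_nonneg_left _ (by positivity)
    linarith
  calc _ ≤ s * 1 + 1 * (2 / (1 - θ₁) ^ 2 * ((C + 1) * s)) := add_le_add t1 t2
    _ = _ := by ring

theorem gg_lip (θ₁ : ℝ) (h1 : θ₁ < 1) : ∃ C : ℝ, 0 ≤ C ∧ ∀ θ b b' : ℝ, 0 ≤ θ → θ ≤ θ₁ →
    |b| ≤ 1 → |b'| ≤ 1 → |gg θ b - gg θ b'| ≤ C * |b - b'| := by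
  have hq : 0 < 1 - θ₁ := by linarith
  refine ⟨2 / (1 - θ₁) ^ 2, by positivity, fun θ b b' h0 hθ hb hb' => ?_⟩
  have := bba_gg_lip h1 h0 hθ h0 hθ hb hb'
  simpa using this

theorem measurable_BB : Measurable (fun p : ℝ × ℝ × ℝ => BB p.1 p.2.1 p.2.2) := by
  unfold BB
  fun_prop

theorem measurable_kap : Measurable (fun p : ℝ × ℝ × ℝ => kap p.1 p.2.1 p.2.2) := by
  have h := measurable_BB
  unfold kap gg
  fun_prop

theorem measurable_ell (d : ℕ) : Measurable (fun p : ℝ × ℝ × ℝ => ell d p.1 p.2.1 p.2.2) := by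
  have h := measurable_kap
  unfold ell
  fun_prop

theorem bba_sqrt_pos {d : ℕ} (hd : 3 ≤ d) : 0 < √((d : ℝ) - 1) := by
  apply Real.sqrt_pos.2
  have : (3 : ℝ) ≤ d := by exact_mod_cast hd
  linarith

/-- `exp (- ell) = √(d-1) kap` -/
theorem exp_ell {d : ℕ} (hd : 3 ≤ d) {θ x y : ℝ} (h0 : 0 < θ) (h1 : θ < 1) (hx : |x| < 1)
    (hy : |y| < 1) : Real.exp (-ell d θ x y) = √((d : ℝ) - 1) * kap θ x y := by
  unfold ell
  rw [neg_neg, Real.exp_log]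
  exact mul_pos (bba_sqrt_pos hd) (kap_pos h0 h1 hx hy)

theorem thc_pos {d : ℕ} (hd : 3 ≤ d) : 0 < thc d := inv_pos.2 (bba_sqrt_pos hd)

theorem thc_lt_one {d : ℕ} (hd : 3 ≤ d) : thc d < 1 := by
  unfold thc
  apply inv_lt_one_of_one_lt₀
  rw [Real.lt_sqrt (by norm_num)]
  have : (3 : ℝ) ≤ d := by exact_mod_cast hd
  linarith

theorem thc_sq {d : ℕ} (hd : 3 ≤ d) : ((d : ℝ) - 1) * thc d ^ 2 = 1 := by
  unfold thc
  have h3 : (3 : ℝ) ≤ d := by exact_mod_cast hd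
  rw [inv_pow, Real.sq_sqrt (by linarith)]
  exact mul_inv_cancel₀ (by linarith)

theorem bba_sqrt_thc {d : ℕ} (hd : 3 ≤ d) : √((d : ℝ) - 1) * thc d = 1 :=
  mul_inv_cancel₀ (bba_sqrt_pos hd).ne'

theorem ell_nonneg {d : ℕ} (hd : 3 ≤ d) {θ x y : ℝ} (h0 : 0 < θ) (h1 : θ ≤ thc d) (hx : |x| < 1)
    (hy : |y| < 1) : 0 ≤ ell d θ x y := by
  have hlt := thc_lt_one hd
  have hk := kap_le h0.le (by linarith) hx.le hy.le
  have hk0 := kap_pos h0 (by linarith) hx hy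
  have hs := bba_sqrt_pos hd
  unfold ell
  rw [neg_nonneg]
  apply Real.log_nonpos (by positivity)
  calc √((d : ℝ) - 1) * kap θ x y ≤ √((d : ℝ) - 1) * thc d :=
        mul_le_mul_of_nonneg_left (hk.trans h1) hs.le
    _ = 1 := bba_sqrt_thc hd

theorem ell_le {d : ℕ} (hd : 3 ≤ d) (bd : ℝ) (hbd : bd < 1) : ∃ C : ℝ, 0 ≤ C ∧
    ∀ θ x y : ℝ, thc d / 2 ≤ θ → θ ≤ thc d → |x| ≤ bd → |y| ≤ bd → ell d θ x y ≤ C := by
  obtain ⟨bd', hbd', hB⟩ := BB_bd (thc d) bd (thc_lt_one hd) hbd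
  have htp := thc_pos hd
  have htl := thc_lt_one hd
  by_cases hb0 : bd < 0
  · refine ⟨0, le_rfl, fun θ x y _ _ hx _ => ?_⟩
    have := abs_nonneg x
    linarith
  push Not at hb0
  have hB0 : 0 ≤ bd' := (abs_nonneg _).trans
    (hB (thc d) 0 0 htp.le le_rfl (by simpa using hb0) (by simpa using hb0))
  have hpos : 0 < (1 - bd' ^ 2) / 2 := by nlinarith
  refine ⟨|(-Real.log ((1 - bd' ^ 2) / 2))|, abs_nonneg _, ?_⟩
  intro θ x y h0 h1 hx hy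
  have hθ0 : 0 < θ := by linarith
  have hb := hB θ x y hθ0.le h1 hx hy
  refine le_trans ?_ (le_abs_self _)
  unfold ell
  rw [neg_le_neg_iff]
  apply Real.log_le_log hpos
  have h3 := bba_gg_ge hθ0.le (by linarith) (by linarith : |BB θ x y| ≤ 1)
  have h4 : BB θ x y ^ 2 ≤ bd' ^ 2 := by
    rw [← sq_abs]; exact pow_le_pow_left₀ (abs_nonneg _) hb 2
  have hs := bba_sqrt_pos hd
  have h5 := bba_sqrt_thc hd
  unfold kap
  have h6 : 1 / 2 ≤ √((d : ℝ) - 1) * θ := by nlinarith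
  rw [← mul_assoc]
  calc (1 - bd' ^ 2) / 2 = 1 / 2 * (1 - bd' ^ 2) := by ring
    _ ≤ √((d : ℝ) - 1) * θ * gg θ (BB θ x y) :=
        mul_le_mul h6 (by linarith) (by nlinarith) (by positivity)

theorem bba_log_lip {a a' m : ℝ} (hm : 0 < m) (ha : m ≤ a) (ha' : m ≤ a') :
    |Real.log a - Real.log a'| ≤ |a - a'| / m := by
  have key : ∀ a a' : ℝ, m ≤ a → m ≤ a' → Real.log a - Real.log a' ≤ |a - a'| / m := by
    intro a a' ha ha'
    have h0 : 0 < a := by linarith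
    have h0' : 0 < a' := by linarith
    rw [← Real.log_div h0.ne' h0'.ne']
    refine (Real.log_le_sub_one_of_pos (div_pos h0 h0')).trans ?_
    have e : a / a' - 1 = (a - a') / a' := by field_simp
    rw [e]
    calc (a - a') / a' ≤ |a - a'| / a' := by
          exact div_le_div_of_nonneg_right (le_abs_self _) h0'.le
      _ ≤ |a - a'| / m := div_le_div_of_nonneg_left (abs_nonneg _) hm ha'
  rw [abs_le]
  constructor
  · have := key a' a ha' ha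
    rw [abs_sub_comm] at this
    linarith
  · exact key a a' ha ha'

/-- Lipschitz bound for `ell`, with the gain `|b| + |b'|` -/
theorem ell_lip {d : ℕ} (hd : 3 ≤ d) (bd : ℝ) (hbd : bd < 1) : ∃ C : ℝ, 0 ≤ C ∧
    ∀ θ θ' x y x' y' : ℝ, thc d / 2 ≤ θ → θ ≤ thc d → thc d / 2 ≤ θ' → θ' ≤ thc d →
    |x| ≤ bd → |y| ≤ bd → |x'| ≤ bd → |y'| ≤ bd →
    |ell d θ x y - ell d θ' x' y'| ≤
      C * ((|BB θ x y| + |BB θ' x' y'|) * (|x - x'| + |y - y'|) + |θ - θ'|) := by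
  have htp := thc_pos hd
  have htl := thc_lt_one hd
  by_cases hb0 : bd < 0
  · refine ⟨0, le_rfl, fun θ θ' x y x' y' _ _ _ _ hx _ _ _ => ?_⟩
    have := abs_nonneg x
    linarith
  push Not at hb0
  obtain ⟨bd', hbd', hB⟩ := BB_bd (thc d) bd htl hbd
  obtain ⟨L, hL, hlip⟩ := BB_lip (thc d) htl
  have hB0 : 0 ≤ bd' := (abs_nonneg _).trans
    (hB (thc d) 0 0 htp.le le_rfl (by simpa using hb0) (by simpa using hb0))
  have hpos : 0 < 1 - bd' ^ 2 := by nlinarith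
  have hpos2 : 0 < 1 - thc d := by linarith
  -- constants
  set c1 := 1 / (1 - bd' ^ 2) with hc1
  set c2 := 1 / (1 - thc d) with hc2
  have hc1p : 0 < c1 := by positivity
  have hc2p : 0 < c2 := by positivity
  refine ⟨2 / thc d + (c1 + c2) * (L + 2 * L) + 2 * c2, by positivity, ?_⟩
  intro θ θ' x y x' y' h0 h1 h0' h1' hx hy hx' hy'
  have hθ0 : 0 < θ := by linarith
  have hθ0' : 0 < θ' := by linarith
  have hθ1 : θ < 1 := by linarith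
  have hθ1' : θ' < 1 := by linarith
  have hb := hB θ x y hθ0.le h1 hx hy
  have hb' := hB θ' x' y' hθ0'.le h1' hx' hy'
  have hBl := hlip θ θ' x y x' y' hθ0.le h1 hθ0'.le h1' (by linarith) (by linarith) (by linarith)
    (by linarith)
  set b := BB θ x y with hbdef
  set b' := BB θ' x' y' with hbdef'
  have hs := bba_sqrt_pos hd
  have hb2 : b ^ 2 ≤ bd' ^ 2 := by
    rw [← sq_abs]; exact pow_le_pow_left₀ (abs_nonneg _) hb 2
  have hb2' : b' ^ 2 ≤ bd' ^ 2 := by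
    rw [← sq_abs]; exact pow_le_pow_left₀ (abs_nonneg _) hb' 2
  have hA : 0 < 1 - b ^ 2 := by linarith
  have hA' : 0 < 1 - b' ^ 2 := by linarith
  have hE0 := bba_one_sub_sq_pos hθ0.le hθ1 (by linarith : |b| ≤ 1)
  have hE0' := bba_one_sub_sq_pos hθ0'.le hθ1' (by linarith : |b'| ≤ 1)
  have hE : 1 - thc d ≤ 1 - θ ^ 2 * b ^ 2 := by nlinarith
  have hE' : 1 - thc d ≤ 1 - θ' ^ 2 * b' ^ 2 := by nlinarith
  have hEp : 0 < 1 - θ ^ 2 * b ^ 2 := by linarith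
  have hEp' : 0 < 1 - θ' ^ 2 * b' ^ 2 := by linarith
  have ee : ∀ θ b : ℝ, 0 < θ → 0 < 1 - b ^ 2 → 0 < 1 - θ ^ 2 * b ^ 2 →
      Real.log (√((d : ℝ) - 1) * (θ * gg θ b)) = Real.log (√((d : ℝ) - 1)) + Real.log θ +
        Real.log (1 - b ^ 2) - Real.log (1 - θ ^ 2 * b ^ 2) := by
    intro θ b h1 h2 h3
    have hg : 0 < gg θ b := div_pos h2 h3
    rw [Real.log_mul hs.ne' (mul_pos h1 hg).ne', Real.log_mul h1.ne' hg.ne']
    unfold gg
    rw [Real.log_div h2.ne' h3.ne']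
    ring
  have e1 : ell d θ x y - ell d θ' x' y' = (Real.log θ' - Real.log θ) +
      (Real.log (1 - b' ^ 2) - Real.log (1 - b ^ 2)) +
      (Real.log (1 - θ ^ 2 * b ^ 2) - Real.log (1 - θ' ^ 2 * b' ^ 2)) := by
    unfold ell kap
    rw [← hbdef, ← hbdef', ee θ b hθ0 hA hEp, ee θ' b' hθ0' hA' hEp']
    ring
  rw [e1]
  have l1 : |Real.log θ' - Real.log θ| ≤ 2 / thc d * |θ - θ'| := by
    have := bba_log_lip (by linarith : 0 < thc d / 2) h0' h0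
    rw [abs_sub_comm θ' θ] at this
    calc _ ≤ _ := this
      _ = _ := by field_simp
  have l2 : |Real.log (1 - b' ^ 2) - Real.log (1 - b ^ 2)| ≤ c1 * |b ^ 2 - b' ^ 2| := by
    have := bba_log_lip hpos (by linarith : 1 - bd' ^ 2 ≤ 1 - b' ^ 2)
      (by linarith : 1 - bd' ^ 2 ≤ 1 - b ^ 2)
    rw [show 1 - b' ^ 2 - (1 - b ^ 2) = b ^ 2 - b' ^ 2 by ring] at this
    calc _ ≤ _ := this
      _ = _ := by rw [hc1]; ring
  have l3 : |Real.log (1 - θ ^ 2 * b ^ 2) - Real.log (1 - θ' ^ 2 * b' ^ 2)| ≤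
      c2 * (|b ^ 2 - b' ^ 2| + 2 * |θ - θ'|) := by
    have := bba_log_lip hpos2 hE hE'
    rw [show 1 - θ ^ 2 * b ^ 2 - (1 - θ' ^ 2 * b' ^ 2) =
      (-(θ ^ 2 * (b ^ 2 - b' ^ 2))) + (-((θ + θ') * (θ - θ') * b' ^ 2)) by ring] at this
    have h2 : |(-(θ ^ 2 * (b ^ 2 - b' ^ 2))) + (-((θ + θ') * (θ - θ') * b' ^ 2))| ≤
        |b ^ 2 - b' ^ 2| + 2 * |θ - θ'| := by
      refine (abs_add_le _ _).trans ?_
      rw [abs_neg, abs_neg, abs_mul, abs_mul, abs_mul, abs_of_nonneg (sq_nonneg θ),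
        abs_of_nonneg (by linarith : 0 ≤ θ + θ'), abs_of_nonneg (sq_nonneg b')]
      have t1 : θ ^ 2 * |b ^ 2 - b' ^ 2| ≤ 1 * |b ^ 2 - b' ^ 2| :=
        mul_le_mul_of_nonneg_right (by nlinarith) (abs_nonneg _)
      have t2 : (θ + θ') * |θ - θ'| * b' ^ 2 ≤ 2 * |θ - θ'| * 1 :=
        mul_le_mul (mul_le_mul_of_nonneg_right (by linarith) (abs_nonneg _)) (by nlinarith)
          (by positivity) (by positivity)
      linarith
    refine this.trans ?_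
    rw [div_eq_mul_one_div, mul_comm]
    exact mul_le_mul_of_nonneg_left h2 hc2p.le
  have l4 : |b ^ 2 - b' ^ 2| ≤ L * ((|b| + |b'|) * (|x - x'| + |y - y'|)) + 2 * L * |θ - θ'| := by
    rw [show b ^ 2 - b' ^ 2 = (b + b') * (b - b') by ring, abs_mul]
    have t0 : |b + b'| ≤ |b| + |b'| := abs_add_le _ _
    have hsum : |b| + |b'| ≤ 2 := by linarith
    calc |b + b'| * |b - b'| ≤ (|b| + |b'|) * (L * (|x - x'| + |y - y'| + |θ - θ'|)) :=
          mul_le_mul t0 hBl (abs_nonneg _) (by positivity)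
      _ = L * ((|b| + |b'|) * (|x - x'| + |y - y'|)) + (|b| + |b'|) * (L * |θ - θ'|) := by ring
      _ ≤ L * ((|b| + |b'|) * (|x - x'| + |y - y'|)) + 2 * (L * |θ - θ'|) := by
          gcongr
      _ = _ := by ring
  set W := (|b| + |b'|) * (|x - x'| + |y - y'|) with hW
  have hW0 : 0 ≤ W := by positivity
  have hT0 : 0 ≤ |θ - θ'| := abs_nonneg _
  refine (abs_add_three _ _ _).trans ?_
  have m1 : c1 * |b ^ 2 - b' ^ 2| ≤ c1 * (L * W + 2 * L * |θ - θ'|) :=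
    mul_le_mul_of_nonneg_left l4 hc1p.le
  have m2 : c2 * (|b ^ 2 - b' ^ 2| + 2 * |θ - θ'|) ≤
      c2 * ((L * W + 2 * L * |θ - θ'|) + 2 * |θ - θ'|) :=
    mul_le_mul_of_nonneg_left (by linarith) hc2p.le
  have hfin : 2 / thc d * |θ - θ'| + c1 * (L * W + 2 * L * |θ - θ'|) +
      c2 * ((L * W + 2 * L * |θ - θ'|) + 2 * |θ - θ'|) ≤
      (2 / thc d + (c1 + c2) * (L + 2 * L) + 2 * c2) * (W + |θ - θ'|) := by
    have n1 : 0 ≤ 2 / thc d * W := by positivity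
    have n2 : 0 ≤ (c1 + c2) * (2 * L) * W := by positivity
    have n3 : 0 ≤ (c1 + c2) * L * |θ - θ'| := by positivity
    have n4 : 0 ≤ 2 * c2 * W := by positivity
    nlinarith
  linarith

end Crest.Agent.T41
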