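import Crest.Agent.T41Defs

/-!
S0241, part CH: the channel / quantile map.
-/

set_option autoImplicit false

namespace Crest.Agent.T41

open MeasureTheory

private lemma ch_disc_pos {a ξ : ℝ} (ha : |a| ≤ 1 / 2) (h0 : 0 ≤ ξ) (h1 : ξ ≤ 1) :
    1 / 4 ≤ (1 - a) ^ 2 + 4 * a * ξ := by
  obtain ⟨ha1, ha2⟩ := abs_le.mp ha
  rcases le_or_gt 0 a with h | h
  · nlinarith [mul_nonneg h h0]
  · nlinarith [mul_nonneg (neg_nonneg.mpr h.le) (sub_nonneg.mpr h1)]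

private lemma ch_den_pos {a ξ : ℝ} (ha : |a| ≤ 1 / 2) :
    0 < (1 - a) + √((1 - a) ^ 2 + 4 * a * ξ) := by
  obtain ⟨ha1, ha2⟩ := abs_le.mp ha
  have := Real.sqrt_nonneg ((1 - a) ^ 2 + 4 * a * ξ)
  linarith

theorem Qf_eq {a ξ : ℝ} (ha : |a| ≤ 1 / 2) (hξ : ξ ∈ Set.Icc (0 : ℝ) 1) :
    Qf a ξ + a * (Qf a ξ ^ 2 - Qf a ξ) = ξ := by
  have hd := ch_disc_pos ha hξ.1 hξ.2
  have hs : √((1 - a) ^ 2 + 4 * a * ξ) ^ 2 = (1 - a) ^ 2 + 4 * a * ξ :=
    Real.sq_sqrt (by linarith)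
  have hp := ch_den_pos (ξ := ξ) ha
  unfold Qf
  set D := √((1 - a) ^ 2 + 4 * a * ξ) with hD
  field_simp
  linear_combination (-ξ) * hs

theorem Qf_mem {a ξ : ℝ} (ha : |a| ≤ 1 / 2) (hξ : ξ ∈ Set.Icc (0 : ℝ) 1) :
    Qf a ξ ∈ Set.Icc (0 : ℝ) 1 := by
  have h0 := hξ.1
  have h1 := hξ.2
  have hp := ch_den_pos (ξ := ξ) ha
  constructor
  · unfold Qf
    exact div_nonneg (by linarith) hp.le
  · unfold Qf
    rw [div_le_one hp]
    have : 2 * ξ - (1 - a) ≤ √((1 - a) ^ 2 + 4 * a * ξ) := by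
      apply Real.le_sqrt_of_sq_le
      nlinarith [mul_nonneg h0 (sub_nonneg.mpr h1)]
    linarith

/-- injectivity estimate -/
private lemma ch_inj_aux {a z z' : ℝ} (ha : |a| ≤ 1 / 2) (hz : z ∈ Set.Icc (0 : ℝ) 1)
    (hz' : z' ∈ Set.Icc (0 : ℝ) 1) : 1 / 2 ≤ 1 + a * (z + z' - 1) := by
  obtain ⟨ha1, ha2⟩ := abs_le.mp ha
  have h : |a * (z + z' - 1)| ≤ 1 / 2 := by
    rw [abs_mul]
    have : |z + z' - 1| ≤ 1 := abs_le.mpr ⟨by linarith [hz.1, hz'.1], by linarith [hz.2, hz'.2]⟩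
    calc |a| * |z + z' - 1| ≤ (1 / 2) * 1 := by
          apply mul_le_mul ha this (abs_nonneg _) (by norm_num)
      _ = 1 / 2 := by norm_num
  linarith [(abs_le.mp h).1]

theorem Qf_unique {a ξ z : ℝ} (ha : |a| ≤ 1 / 2) (hz : z ∈ Set.Icc (0 : ℝ) 1)
    (hξ : ξ ∈ Set.Icc (0 : ℝ) 1) (h : z + a * (z ^ 2 - z) = ξ) : Qf a ξ = z := by
  have hq := Qf_eq ha hξ
  have hm := Qf_mem ha hξ
  have hi := ch_inj_aux ha hm hz
  have : (Qf a ξ - z) * (1 + a * (Qf a ξ + z - 1)) = 0 := by nlinarith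
  rcases mul_eq_zero.mp this with h' | h'
  · linarith
  · linarith

/-- `ξ(z) = z + a (z^2 - z)` maps `[0,1]` to `[0,1]` -/
private lemma ch_cdf_mem {a z : ℝ} (ha : |a| ≤ 1 / 2) (hz : z ∈ Set.Icc (0 : ℝ) 1) :
    z + a * (z ^ 2 - z) ∈ Set.Icc (0 : ℝ) 1 := by
  obtain ⟨ha1, ha2⟩ := abs_le.mp ha
  have h1 := mul_nonneg hz.1 (sub_nonneg.mpr hz.2)
  constructor
  · have : 0 ≤ z * (1 - a * (1 - z)) := by
      apply mul_nonneg hz.1
      nlinarith [hz.1, hz.2]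
    nlinarith
  · have : 0 ≤ (1 - z) * (1 + a * z) := by
      apply mul_nonneg (sub_nonneg.mpr hz.2)
      nlinarith [hz.1, hz.2]
    nlinarith

private lemma Qf_cdf {a z : ℝ} (ha : |a| ≤ 1 / 2) (hz : z ∈ Set.Icc (0 : ℝ) 1) :
    Qf a (z + a * (z ^ 2 - z)) = z :=
  Qf_unique ha hz (ch_cdf_mem ha hz) rfl

theorem Qf_lip {a a' ξ : ℝ} (ha : |a| ≤ 1 / 2) (ha' : |a'| ≤ 1 / 2)
    (hξ : ξ ∈ Set.Icc (0 : ℝ) 1) : |Qf a ξ - Qf a' ξ| ≤ |a - a'| / 2 := by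
  have hq := Qf_eq ha hξ
  have hq' := Qf_eq ha' hξ
  have hm := Qf_mem ha hξ
  have hm' := Qf_mem ha' hξ
  have hi := ch_inj_aux ha hm hm'
  set z := Qf a ξ
  set z' := Qf a' ξ
  have key : (z - z') * (1 + a * (z + z' - 1)) = (a' - a) * (z' ^ 2 - z') := by nlinarith
  have h4 : |z' ^ 2 - z'| ≤ 1 / 4 := by
    rw [abs_le]; constructor
    · nlinarith [sq_nonneg (z' - 1 / 2)]
    · nlinarith [mul_nonneg hm'.1 (sub_nonneg.mpr hm'.2)]
  have h5 : |z - z'| * (1 / 2) ≤ |a - a'| * (1 / 4) := by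
    calc |z - z'| * (1 / 2) ≤ |z - z'| * |1 + a * (z + z' - 1)| := by
          apply mul_le_mul_of_nonneg_left _ (abs_nonneg _)
          exact hi.trans (le_abs_self _)
      _ = |a - a'| * |z' ^ 2 - z'| := by
          rw [← abs_mul, key, abs_mul, abs_sub_comm]
      _ ≤ |a - a'| * (1 / 4) := mul_le_mul_of_nonneg_left h4 (abs_nonneg _)
  linarith

theorem Qf_symm {a ξ : ℝ} (ha : |a| ≤ 1 / 2) (hξ : ξ ∈ Set.Icc (0 : ℝ) 1) :
    Qf (-a) (1 - ξ) = 1 - Qf a ξ := by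
  have hm := Qf_mem ha hξ
  apply Qf_unique (by rwa [abs_neg]) ⟨by linarith [hm.2], by linarith [hm.1]⟩
    ⟨by linarith [hξ.2], by linarith [hξ.1]⟩
  have hq := Qf_eq ha hξ
  linarith [hq, show 1 - Qf a ξ + -a * ((1 - Qf a ξ) ^ 2 - (1 - Qf a ξ))
    = 1 - (Qf a ξ + a * (Qf a ξ ^ 2 - Qf a ξ)) by ring]

theorem Qf_zero {ξ : ℝ} : Qf 0 ξ = ξ := by
  unfold Qf
  norm_num

theorem measurable_Qf : Measurable (fun p : ℝ × ℝ => Qf p.1 p.2) := by
  unfold Qf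
  fun_prop

/-- change of variables, Bochner version: the quantile map pushes the uniform law to the density
`1 + a (2 z - 1)` -/
theorem Qf_integral {E : Type*} [NormedAddCommGroup E] [NormedSpace ℝ E] {a : ℝ}
    (ha : |a| ≤ 1 / 2) (F : ℝ → E) :
    ∫ ξ : unitInterval, F (Qf a ξ) = ∫ z : unitInterval, (1 + a * (2 * (z : ℝ) - 1)) • F z := by
  have e1 : ∫ ξ : unitInterval, F (Qf a ξ) = ∫ ξ in Set.Icc (0 : ℝ) 1, F (Qf a ξ) :=
    integral_subtype_comap measurableSet_Icc (fun ξ : ℝ => F (Qf a ξ))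
  have e2 : ∫ z : unitInterval, (1 + a * (2 * (z : ℝ) - 1)) • F z
      = ∫ z in Set.Icc (0 : ℝ) 1, (1 + a * (2 * z - 1)) • F z :=
    integral_subtype_comap measurableSet_Icc (fun z : ℝ => (1 + a * (2 * z - 1)) • F z)
  rw [e1, e2]
  set g : ℝ → ℝ := fun z => z + a * (z ^ 2 - z) with hg
  have himg : g '' Set.Icc (0 : ℝ) 1 = Set.Icc (0 : ℝ) 1 := by
    ext ξ
    constructor
    · rintro ⟨z, hz, rfl⟩
      exact ch_cdf_mem ha hz
    · intro hξ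
      exact ⟨Qf a ξ, Qf_mem ha hξ, Qf_eq ha hξ⟩
  have hinj : Set.InjOn g (Set.Icc (0 : ℝ) 1) := by
    intro z hz z' hz' h
    rw [← Qf_cdf ha hz, ← Qf_cdf ha hz']
    exact congrArg (Qf a) h
  have hder : ∀ z ∈ Set.Icc (0 : ℝ) 1,
      HasDerivWithinAt g (1 + a * (2 * z - 1)) (Set.Icc (0 : ℝ) 1) z := by
    intro z _
    have : HasDerivAt g (1 + a * (2 * z - 1)) z := by
      have h1 : HasDerivAt (fun z : ℝ => z ^ 2) (2 * z) z := by
        simpa using hasDerivAt_pow 2 z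
      have h2 := (h1.sub (hasDerivAt_id z)).const_mul a
      have h3 := (hasDerivAt_id z).add h2
      exact h3
    exact this.hasDerivWithinAt
  have key := integral_image_eq_integral_abs_deriv_smul measurableSet_Icc hder hinj
    (fun ξ => F (Qf a ξ))
  rw [himg] at key
  rw [key]
  apply setIntegral_congr_fun measurableSet_Icc
  intro z hz
  have hpos : 0 ≤ 1 + a * (2 * z - 1) := by
    have := ch_inj_aux ha hz hz
    have e : z + z - 1 = 2 * z - 1 := by ring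
    rw [e] at this
    linarith
  simp only [abs_of_nonneg hpos]
  rw [show Qf a (g z) = z from Qf_cdf ha hz]

/-- change of variables for the lower integral -/
theorem Qf_lintegral {a : ℝ} (ha : |a| ≤ 1 / 2) (F : ℝ → ENNReal) :
    ∫⁻ ξ : unitInterval, F (Qf a ξ)
      = ∫⁻ z : unitInterval, ENNReal.ofReal (1 + a * (2 * (z : ℝ) - 1)) * F z := by
  have e1 : ∫⁻ ξ : unitInterval, F (Qf a ξ) = ∫⁻ ξ in Set.Icc (0 : ℝ) 1, F (Qf a ξ) :=
    lintegral_subtype_comap measurableSet_Icc (fun ξ : ℝ => F (Qf a ξ))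
  have e2 : ∫⁻ z : unitInterval, ENNReal.ofReal (1 + a * (2 * (z : ℝ) - 1)) * F z
      = ∫⁻ z in Set.Icc (0 : ℝ) 1, ENNReal.ofReal (1 + a * (2 * z - 1)) * F z :=
    lintegral_subtype_comap measurableSet_Icc
      (fun z : ℝ => ENNReal.ofReal (1 + a * (2 * z - 1)) * F z)
  rw [e1, e2]
  set g : ℝ → ℝ := fun z => z + a * (z ^ 2 - z) with hg
  have himg : g '' Set.Icc (0 : ℝ) 1 = Set.Icc (0 : ℝ) 1 := by
    ext ξ
    constructor
    · rintro ⟨z, hz, rfl⟩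
      exact ch_cdf_mem ha hz
    · intro hξ
      exact ⟨Qf a ξ, Qf_mem ha hξ, Qf_eq ha hξ⟩
  have hinj : Set.InjOn g (Set.Icc (0 : ℝ) 1) := by
    intro z hz z' hz' h
    rw [← Qf_cdf ha hz, ← Qf_cdf ha hz']
    exact congrArg (Qf a) h
  have hder : ∀ z ∈ Set.Icc (0 : ℝ) 1,
      HasDerivWithinAt g (1 + a * (2 * z - 1)) (Set.Icc (0 : ℝ) 1) z := by
    intro z _
    have : HasDerivAt g (1 + a * (2 * z - 1)) z := by
      have h1 : HasDerivAt (fun z : ℝ => z ^ 2) (2 * z) z := by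
        simpa using hasDerivAt_pow 2 z
      have h2 := (h1.sub (hasDerivAt_id z)).const_mul a
      have h3 := (hasDerivAt_id z).add h2
      exact h3
    exact this.hasDerivWithinAt
  have key := lintegral_image_eq_lintegral_abs_deriv_mul measurableSet_Icc hder hinj
    (fun ξ => F (Qf a ξ))
  rw [himg] at key
  rw [key]
  apply setLIntegral_congr_fun measurableSet_Icc
  intro z hz
  have hpos : 0 ≤ 1 + a * (2 * z - 1) := by
    have := ch_inj_aux ha hz hz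
    have e : z + z - 1 = 2 * z - 1 := by ring
    rw [e] at this
    linarith
  simp only [abs_of_nonneg hpos]
  rw [show Qf a (g z) = z from Qf_cdf ha hz]

/-- change of variables -/
theorem Qf_chg {a : ℝ} (ha : |a| ≤ 1 / 2) (F : ℝ → ℝ) (hF : Measurable F)
    (hb : ∃ C, ∀ x, |F x| ≤ C) :
    ∫ ξ : unitInterval, F (2 * Qf a ξ - 1)
      = ∫ z : unitInterval, F (2 * z - 1) * (1 + a * (2 * z - 1)) := by
  have h := Qf_integral ha (fun z => F (2 * z - 1))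
  rw [h]
  congr 1
  ext z
  rw [smul_eq_mul, mul_comm]

/-- the increment factor `η = a/(1+a m)` -/
noncomputable def eta (g m ξ : ℝ) : ℝ :=
  g * (2 * Qf (g * m) ξ - 1) / (1 + g * (2 * Qf (g * m) ξ - 1) * m)

private lemma ch_gm {g m : ℝ} (hg : 0 ≤ g) (hg' : g ≤ 1 / 2) (hm : |m| ≤ 1) : |g * m| ≤ 1 / 2 := by
  rw [abs_mul, abs_of_nonneg hg]
  calc g * |m| ≤ (1 / 2) * 1 := mul_le_mul hg' hm (abs_nonneg _) (by norm_num)
    _ = 1 / 2 := by norm_num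

private lemma ch_a_le {g m ξ : ℝ} (hg : 0 ≤ g) (hg' : g ≤ 1 / 2) (hm : |m| ≤ 1)
    (hξ : ξ ∈ Set.Icc (0 : ℝ) 1) : |g * (2 * Qf (g * m) ξ - 1)| ≤ g := by
  have hq := Qf_mem (ch_gm hg hg' hm) hξ
  rw [abs_mul, abs_of_nonneg hg]
  have : |2 * Qf (g * m) ξ - 1| ≤ 1 := abs_le.mpr ⟨by linarith [hq.1], by linarith [hq.2]⟩
  calc g * |2 * Qf (g * m) ξ - 1| ≤ g * 1 := mul_le_mul_of_nonneg_left this hg
    _ = g := mul_one g

private lemma ch_den {g a m : ℝ} (hg' : g ≤ 1 / 2) (ha : |a| ≤ g) (hm : |m| ≤ 1) :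
    1 / 2 ≤ 1 + a * m := by
  have h : |a * m| ≤ 1 / 2 := by
    rw [abs_mul]
    calc |a| * |m| ≤ (1 / 2) * 1 := mul_le_mul (ha.trans hg') hm (abs_nonneg _) (by norm_num)
      _ = 1 / 2 := by norm_num
  linarith [(abs_le.mp h).1]

theorem eta_bound {g m ξ : ℝ} (hg : 0 ≤ g) (hg' : g ≤ 1 / 2) (hm : |m| ≤ 1)
    (hξ : ξ ∈ Set.Icc (0 : ℝ) 1) : |eta g m ξ| ≤ 2 * g := by
  unfold eta
  have ha := ch_a_le hg hg' hm hξ
  set a := g * (2 * Qf (g * m) ξ - 1)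
  have hd := ch_den hg' ha hm
  rw [abs_div, abs_of_pos (by linarith : (0 : ℝ) < 1 + a * m), div_le_iff₀ (by linarith)]
  nlinarith

theorem eta_lip {g m m' ξ : ℝ} (hg : 0 ≤ g) (hg' : g ≤ 1 / 2) (hm : |m| ≤ 1) (hm' : |m'| ≤ 1)
    (hξ : ξ ∈ Set.Icc (0 : ℝ) 1) : |eta g m ξ - eta g m' ξ| ≤ 8 * g ^ 2 * |m - m'| := by
  unfold eta
  have ha := ch_a_le hg hg' hm hξ
  have ha' := ch_a_le hg hg' hm' hξ
  have hl := Qf_lip (ch_gm hg hg' hm) (ch_gm hg hg' hm') hξ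
  have haa : |g * (2 * Qf (g * m) ξ - 1) - g * (2 * Qf (g * m') ξ - 1)| ≤ g ^ 2 * |m - m'| := by
    have e : g * (2 * Qf (g * m) ξ - 1) - g * (2 * Qf (g * m') ξ - 1)
        = 2 * g * (Qf (g * m) ξ - Qf (g * m') ξ) := by ring
    rw [e, abs_mul, abs_of_nonneg (by positivity : 0 ≤ 2 * g)]
    have e2 : |g * m - g * m'| = g * |m - m'| := by
      rw [← mul_sub, abs_mul, abs_of_nonneg hg]
    rw [e2] at hl
    nlinarith [abs_nonneg (Qf (g * m) ξ - Qf (g * m') ξ)]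
  set a := g * (2 * Qf (g * m) ξ - 1)
  set a' := g * (2 * Qf (g * m') ξ - 1)
  have hd := ch_den hg' ha hm
  have hd' := ch_den hg' ha' hm'
  have hp : 0 < 1 + a * m := by linarith
  have hp' : 0 < 1 + a' * m' := by linarith
  have e : a / (1 + a * m) - a' / (1 + a' * m')
      = ((a - a') + a * a' * (m' - m)) / ((1 + a * m) * (1 + a' * m')) := by
    field_simp
    ring
  rw [e, abs_div, abs_of_pos (mul_pos hp hp'), div_le_iff₀ (mul_pos hp hp')]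
  have h1 : |(a - a') + a * a' * (m' - m)| ≤ g ^ 2 * |m - m'| + g ^ 2 * |m - m'| := by
    refine (abs_add_le _ _).trans (add_le_add haa ?_)
    rw [abs_mul, abs_mul, abs_sub_comm m' m]
    apply mul_le_mul_of_nonneg_right _ (abs_nonneg _)
    calc |a| * |a'| ≤ g * g := mul_le_mul ha ha' (abs_nonneg _) hg
      _ = g ^ 2 := by ring
  have h2 : 1 / 4 ≤ (1 + a * m) * (1 + a' * m') := by nlinarith
  have h3 : 0 ≤ 8 * g ^ 2 * |m - m'| := by positivity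
  nlinarith

theorem eta_mean {g m : ℝ} (hg : 0 ≤ g) (hg' : g ≤ 1 / 2) (hm : |m| ≤ 1) :
    ∫ ξ : unitInterval, eta g m ξ = 0 := by
  have h := Qf_integral (E := ℝ) (ch_gm hg hg' hm)
    (fun z => g * (2 * z - 1) / (1 + g * (2 * z - 1) * m))
  have e1 : (∫ ξ : unitInterval, eta g m ξ)
      = ∫ ξ : unitInterval, g * (2 * Qf (g * m) ξ - 1) / (1 + g * (2 * Qf (g * m) ξ - 1) * m) := rfl
  rw [e1, h]
  have e2 : ∀ z : unitInterval, (1 + g * m * (2 * (z : ℝ) - 1)) •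
      (g * (2 * (z : ℝ) - 1) / (1 + g * (2 * (z : ℝ) - 1) * m)) = g * (2 * (z : ℝ) - 1) := by
    intro z
    have ha : |g * (2 * (z : ℝ) - 1)| ≤ g := by
      rw [abs_mul, abs_of_nonneg hg]
      have : |2 * (z : ℝ) - 1| ≤ 1 := abs_le.mpr ⟨by linarith [z.2.1], by linarith [z.2.2]⟩
      calc g * |2 * (z : ℝ) - 1| ≤ g * 1 := mul_le_mul_of_nonneg_left this hg
        _ = g := mul_one g
    have hd := ch_den hg' ha hm
    have hne : 1 + g * (2 * (z : ℝ) - 1) * m ≠ 0 := by linarith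
    rw [smul_eq_mul, mul_div_assoc', div_eq_iff hne]
    ring
  simp_rw [e2]
  have e3 : ∫ z : unitInterval, g * (2 * (z : ℝ) - 1) = ∫ z in Set.Icc (0 : ℝ) 1, g * (2 * z - 1) :=
    integral_subtype_comap measurableSet_Icc (fun z : ℝ => g * (2 * z - 1))
  rw [e3, integral_Icc_eq_integral_Ioc, ← intervalIntegral.integral_of_le (by norm_num)]
  rw [intervalIntegral.integral_const_mul]
  have : ∫ x in (0 : ℝ)..1, (2 * x - 1) = 0 := by
    rw [intervalIntegral.integral_sub (Continuous.intervalIntegrable (by fun_prop) _ _)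
      (Continuous.intervalIntegrable (by fun_prop) _ _)]
    rw [intervalIntegral.integral_const_mul, integral_id]
    simp
  rw [this, mul_zero]

end Crest.Agent.T41
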