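import Mathlib

/-!
S0241, section 5 (first half): Efron-Stein covariance bound for functions of finitely many
independent labels.
-/

set_option autoImplicit false
set_option linter.unusedSectionVars false
open MeasureTheory

namespace Crest.Agent.T41

section comb
variable {V : Type*} [DecidableEq V]

theorem comb_sq (S : Finset V) : ∀ N : Finset V → ℝ,
    ∑ T ∈ S.powerset, ∑ T' ∈ S.powerset, (-1 : ℝ) ^ (T.card + T'.card) * N (T ∩ T')
      = ∑ T ∈ S.powerset, (-1 : ℝ) ^ (S.card + T.card) * N T := by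
  induction S using Finset.induction_on with
  | empty => intro N; simp
  | insert w S hw ih =>
    intro N
    have h1 : ∀ T ∈ S.powerset, w ∉ T := fun T hT h => hw (Finset.mem_powerset.1 hT h)
    rw [Finset.sum_powerset_insert hw]
    have e1 : ∀ T ∈ S.powerset,
        ∑ T' ∈ (insert w S).powerset, (-1 : ℝ) ^ (T.card + T'.card) * N (T ∩ T') = 0 := by
      intro T hT
      rw [Finset.sum_powerset_insert hw, ← Finset.sum_add_distrib]
      refine Finset.sum_eq_zero fun T' hT' => ?_
      rw [Finset.card_insert_of_notMem (h1 T' hT'), Finset.inter_insert_of_notMem (h1 T hT)]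
      ring
    have e2 : ∀ T ∈ S.powerset,
        ∑ T' ∈ (insert w S).powerset,
          (-1 : ℝ) ^ ((insert w T).card + T'.card) * N (insert w T ∩ T')
          = (∑ T' ∈ S.powerset, (-1 : ℝ) ^ (T.card + T'.card) * N (insert w (T ∩ T')))
            - ∑ T' ∈ S.powerset, (-1 : ℝ) ^ (T.card + T'.card) * N (T ∩ T') := by
      intro T hT
      rw [Finset.sum_powerset_insert hw, ← Finset.sum_add_distrib, ← Finset.sum_sub_distrib]
      refine Finset.sum_congr rfl fun T' hT' => ?_
      rw [Finset.card_insert_of_notMem (h1 T' hT'), Finset.card_insert_of_notMem (h1 T hT),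
        Finset.insert_inter_of_notMem (h1 T' hT'), ← Finset.insert_inter_distrib]
      ring
    rw [Finset.sum_congr rfl e1, Finset.sum_congr rfl e2, Finset.sum_const_zero, zero_add,
      Finset.sum_sub_distrib, ih N, ih (fun T => N (insert w T)),
      Finset.sum_powerset_insert hw, ← Finset.sum_sub_distrib, ← Finset.sum_add_distrib]
    refine Finset.sum_congr rfl fun T hT => ?_
    rw [Finset.card_insert_of_notMem (h1 T hT), Finset.card_insert_of_notMem hw]
    ring

theorem comb_moebius (W : Finset V) : ∀ N : Finset V → ℝ,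
    ∑ S ∈ W.powerset, ∑ T ∈ S.powerset, (-1 : ℝ) ^ (S.card + T.card) * N T = N W := by
  induction W using Finset.induction_on with
  | empty => intro N; simp
  | insert w W hw ih =>
    intro N
    rw [Finset.sum_powerset_insert hw, ← Finset.sum_add_distrib]
    rw [← ih (fun T => N (insert w T))]
    refine Finset.sum_congr rfl fun S hS => ?_
    have hwS : w ∉ S := fun h => hw (Finset.mem_powerset.1 hS h)
    rw [Finset.sum_powerset_insert hwS, ← add_assoc, ← Finset.sum_add_distrib,
      ← Finset.sum_add_distrib]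
    refine Finset.sum_congr rfl fun T hT => ?_
    have hwT : w ∉ T := fun h => hwS (Finset.mem_powerset.1 hT h)
    rw [Finset.card_insert_of_notMem hwT, Finset.card_insert_of_notMem hwS]
    ring

/-- if `N` does not see the element `w ∈ S` then the alternating sum over `S` vanishes -/
theorem comb_zero (S : Finset V) (w : V) (hw : w ∈ S) (N : Finset V → ℝ)
    (hN : ∀ T, N (insert w T) = N T) :
    ∑ T ∈ S.powerset, (-1 : ℝ) ^ (S.card + T.card) * N T = 0 := by
  obtain ⟨R, hR, rfl⟩ : ∃ R, w ∉ R ∧ S = insert w R :=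
    ⟨S.erase w, Finset.notMem_erase w S, (Finset.insert_erase hw).symm⟩
  rw [Finset.sum_powerset_insert hR, ← Finset.sum_add_distrib]
  refine Finset.sum_eq_zero fun T hT => ?_
  have hwT : w ∉ T := fun h => hR (Finset.mem_powerset.1 hT h)
  rw [Finset.card_insert_of_notMem hwT, hN]
  ring

end comb

section ES
variable {V E : Type*} [MeasurableSpace E]

open Classical in
/-- take the coordinates in `T` from `x` and the others from `y` -/
noncomputable def pw (T : Finset V) (x y : V → E) : V → E := fun i => if i ∈ T then x i else y i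

theorem measurable_pw (T : Finset V) :
    Measurable (fun p : (V → E) × (V → E) => pw T p.1 p.2) := by
  rw [measurable_pi_iff]
  intro i
  by_cases h : i ∈ T
  · have : (fun p : (V → E) × (V → E) => pw T p.1 p.2 i) = fun p => p.1 i := by
      funext p; simp [pw, h]
    rw [this]; fun_prop
  · have : (fun p : (V → E) × (V → E) => pw T p.1 p.2 i) = fun p => p.2 i := by
      funext p; simp [pw, h]
    rw [this]; fun_prop

/-- bounded measurable functions -/
structure BM (f : (V → E) → ℝ) : Prop where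
  meas : Measurable f
  bdd : ∃ C, ∀ x, |f x| ≤ C

theorem BM.add {f g : (V → E) → ℝ} (hf : BM f) (hg : BM g) : BM (fun x => f x + g x) := by
  obtain ⟨A, hA⟩ := hf.bdd
  obtain ⟨B, hB⟩ := hg.bdd
  exact ⟨hf.meas.add hg.meas, A + B, fun x => (abs_add_le _ _).trans (add_le_add (hA x) (hB x))⟩

theorem BM.mul {f g : (V → E) → ℝ} (hf : BM f) (hg : BM g) : BM (fun x => f x * g x) := by
  obtain ⟨A, hA⟩ := hf.bdd
  obtain ⟨B, hB⟩ := hg.bdd
  refine ⟨hf.meas.mul hg.meas, |A| * |B|, fun x => ?_⟩
  rw [abs_mul]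
  exact mul_le_mul ((hA x).trans (le_abs_self _)) ((hB x).trans (le_abs_self _)) (abs_nonneg _)
    (abs_nonneg _)

theorem BM.const (c : ℝ) : BM (fun _ : V → E => c) := ⟨measurable_const, |c|, fun _ => le_rfl⟩

theorem BM.const_mul {f : (V → E) → ℝ} (c : ℝ) (hf : BM f) : BM (fun x => c * f x) :=
  (BM.const c).mul hf

theorem BM.sum {ι : Type*} (s : Finset ι) {f : ι → (V → E) → ℝ} (hf : ∀ i ∈ s, BM (f i)) :
    BM (fun x => ∑ i ∈ s, f i x) := by
  classical
  induction s using Finset.induction_on with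
  | empty => simpa using BM.const (V := V) (E := E) 0
  | insert a s ha ih =>
    have h1 := (hf a (Finset.mem_insert_self _ _)).add
      (ih fun i hi => hf i (Finset.mem_insert_of_mem hi))
    simpa [Finset.sum_insert ha] using h1

theorem BM.integrable {f : (V → E) → ℝ} (hf : BM f) (ν : Measure (V → E)) [IsFiniteMeasure ν] :
    Integrable f ν := by
  obtain ⟨A, hA⟩ := hf.bdd
  exact Integrable.of_bound hf.meas.aestronglyMeasurable A
    (Filter.Eventually.of_forall fun x => by rw [Real.norm_eq_abs]; exact hA x)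

variable (P : Measure E) [IsProbabilityMeasure P]

/-- the law of the labels -/
noncomputable abbrev lw (V : Type*) (P : Measure E) : Measure (V → E) :=
  Measure.infinitePi (fun _ : V => P)

theorem map_pw (T : Finset V) :
    ((lw V P).prod (lw V P)).map (fun p => pw T p.1 p.2) = lw V P := by
  classical
  refine Measure.eq_infinitePi _ fun s t ht => ?_
  rw [Measure.map_apply (measurable_pw T) (MeasurableSet.pi s.countable_toSet fun i _ => ht i)]
  have h1 : (fun p : (V → E) × (V → E) => pw T p.1 p.2) ⁻¹' ((s : Set V).pi t)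
      = (Set.pi ((s ∩ T : Finset V) : Set V) t) ×ˢ (Set.pi ((s \ T : Finset V) : Set V) t) := by
    ext ⟨x, y⟩
    simp only [Set.mem_preimage, Set.mem_pi, Finset.mem_coe, Set.mem_prod, Finset.mem_inter,
      Finset.mem_sdiff, pw]
    constructor
    · intro h
      refine ⟨fun i hi => ?_, fun i hi => ?_⟩
      · have := h i hi.1
        rwa [if_pos hi.2] at this
      · have := h i hi.1
        rwa [if_neg hi.2] at this
    · rintro ⟨h1, h2⟩ i hi
      split_ifs with hT
      · exact h1 i ⟨hi, hT⟩
      · exact h2 i ⟨hi, hT⟩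
  rw [h1, Measure.prod_prod, Measure.infinitePi_pi _ (fun i _ => ht i),
    Measure.infinitePi_pi _ (fun i _ => ht i), ← Finset.prod_union]
  · congr 1
    rw [Finset.union_comm, Finset.sdiff_union_inter]
  · exact (Finset.disjoint_sdiff_inter s T).symm

theorem integral_pw (T : Finset V) {f : (V → E) → ℝ} (hf : BM f) :
    ∫ x, ∫ y, f (pw T x y) ∂(lw V P) ∂(lw V P) = ∫ x, f x ∂(lw V P) := by
  conv_rhs => rw [← map_pw P T]
  rw [integral_map (measurable_pw T).aemeasurable hf.meas.aestronglyMeasurable,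
    integral_prod (f := fun p : (V → E) × (V → E) => f (pw T p.1 p.2))]
  obtain ⟨A, hA⟩ := hf.bdd
  exact Integrable.of_bound (hf.meas.comp (measurable_pw T)).aestronglyMeasurable A
    (Filter.Eventually.of_forall fun x => by rw [Real.norm_eq_abs]; exact hA _)

/-- average over the labels outside `T` -/
noncomputable def EE (T : Finset V) (f : (V → E) → ℝ) : (V → E) → ℝ :=
  fun x => ∫ y, f (pw T x y) ∂(lw V P)

theorem BM.pwl {f : (V → E) → ℝ} (hf : BM f) (T : Finset V) (x : V → E) :
    BM (fun y => f (pw T x y)) := by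
  obtain ⟨A, hA⟩ := hf.bdd
  exact ⟨hf.meas.comp ((measurable_pw T).comp measurable_prodMk_left), A, fun y => hA _⟩

theorem BM.EE {f : (V → E) → ℝ} (hf : BM f) (T : Finset V) : BM (EE P T f) := by
  obtain ⟨A, hA⟩ := hf.bdd
  refine ⟨?_, A, fun x => ?_⟩
  · have h1 : StronglyMeasurable (Function.uncurry fun x y => f (pw T x y)) :=
      (hf.meas.comp (measurable_pw T)).stronglyMeasurable
    exact (h1.integral_prod_right (ν := lw V P)).measurable
  · have h1 := norm_integral_le_of_norm_le_const (μ := lw V P) (f := fun y => f (pw T x y))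
      (C := A) (Filter.Eventually.of_forall fun y => by rw [Real.norm_eq_abs]; exact hA _)
    simpa [T41.EE] using h1

theorem EE_dep (T : Finset V) (f : (V → E) → ℝ) : DependsOn (EE P T f) (T : Set V) := by
  intro x x' h
  unfold EE
  congr 1
  funext y
  congr 1
  funext i
  unfold pw
  split_ifs with hi
  · exact h i hi
  · rfl

theorem EE_of_dep {T : Finset V} {f : (V → E) → ℝ} (hf : DependsOn f (T : Set V)) :
    EE P T f = f := by
  funext x
  unfold EE
  have : ∀ y, f (pw T x y) = f x := fun y => hf fun i hi => by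
    unfold pw; rw [if_pos (Finset.mem_coe.1 hi)]
  simp [this]

theorem pw_pw [DecidableEq V] (T T' : Finset V) (x y z : V → E) :
    pw T' (pw T x y) z = pw (T ∩ T') x (pw T' y z) := by
  funext i
  simp only [pw, Finset.mem_inter]
  by_cases h1 : i ∈ T' <;> by_cases h2 : i ∈ T <;> simp [h1, h2]

theorem EE_EE [DecidableEq V] (T T' : Finset V) {f : (V → E) → ℝ} (hf : BM f) :
    EE P T (EE P T' f) = EE P (T ∩ T') f := by
  funext x
  unfold EE
  simp only [pw_pw]
  exact integral_pw P T' (hf.pwl (T ∩ T') x)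

theorem integral_EE (T : Finset V) {f : (V → E) → ℝ} (hf : BM f) :
    ∫ x, EE P T f x ∂(lw V P) = ∫ x, f x ∂(lw V P) := integral_pw P T hf

theorem EE_mul (T : Finset V) {f h : (V → E) → ℝ} (hh : DependsOn h (T : Set V)) :
    EE P T (fun x => f x * h x) = fun x => EE P T f x * h x := by
  funext x
  unfold EE
  have : ∀ y, h (pw T x y) = h x := fun y => hh fun i hi => by
    unfold pw; rw [if_pos (Finset.mem_coe.1 hi)]
  simp only [this]
  rw [integral_mul_const]

theorem integral_EE_mul (T : Finset V) {f h : (V → E) → ℝ} (hf : BM f) (hb : BM h)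
    (hh : DependsOn h (T : Set V)) :
    ∫ x, EE P T f x * h x ∂(lw V P) = ∫ x, f x * h x ∂(lw V P) := by
  have h1 := integral_EE P T (hf.mul hb)
  rw [EE_mul P T hh] at h1
  exact h1

theorem EE_selfadj (T : Finset V) {f g : (V → E) → ℝ} (hf : BM f) (hg : BM g) :
    ∫ x, EE P T f x * g x ∂(lw V P) = ∫ x, f x * EE P T g x ∂(lw V P) := by
  have h1 := integral_EE_mul P T hf (hg.EE P T) (EE_dep P T g)
  have h2 := integral_EE_mul P T hg (hf.EE P T) (EE_dep P T f)
  rw [← h1]
  simp only [mul_comm (EE P T f _)]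
  rw [← h2]

/-- the form `⟨f, E_T g⟩` -/
noncomputable def NN (f g : (V → E) → ℝ) (T : Finset V) : ℝ :=
  ∫ x, f x * EE P T g x ∂(lw V P)

theorem integral_EE_EE [DecidableEq V] (T T' : Finset V) {f g : (V → E) → ℝ} (hf : BM f)
    (hg : BM g) : ∫ x, EE P T f x * EE P T' g x ∂(lw V P) = NN P f g (T ∩ T') := by
  rw [EE_selfadj P T hf (hg.EE P T'), EE_EE P T T' hg]
  rfl

/-- the `S`-component of the Efron-Stein decomposition -/
noncomputable def comp (S : Finset V) (f : (V → E) → ℝ) : (V → E) → ℝ :=
  fun x => ∑ T ∈ S.powerset, (-1 : ℝ) ^ (S.card + T.card) * EE P T f x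

/-- inner products of components -/
noncomputable def KK (f g : (V → E) → ℝ) (S : Finset V) : ℝ :=
  ∑ T ∈ S.powerset, (-1 : ℝ) ^ (S.card + T.card) * NN P f g T

theorem BM.comp {f : (V → E) → ℝ} (hf : BM f) (S : Finset V) : BM (comp P S f) :=
  BM.sum _ fun T _ => (hf.EE P T).const_mul _

theorem KK_eq (S : Finset V) {f g : (V → E) → ℝ} (hf : BM f) (hg : BM g) :
    KK P f g S = ∫ x, comp P S f x * comp P S g x ∂(lw V P) := by
  classical
  unfold comp
  simp only [Finset.sum_mul_sum]
  rw [integral_finsetSum]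
  · have h1 : ∀ T ∈ S.powerset, ∫ x, ∑ T' ∈ S.powerset,
        (-1 : ℝ) ^ (S.card + T.card) * EE P T f x *
          ((-1 : ℝ) ^ (S.card + T'.card) * EE P T' g x) ∂(lw V P)
        = ∑ T' ∈ S.powerset, (-1 : ℝ) ^ (T.card + T'.card) * NN P f g (T ∩ T') := by
      intro T _
      rw [integral_finsetSum]
      · refine Finset.sum_congr rfl fun T' _ => ?_
        rw [← integral_EE_EE P T T' hf hg, ← integral_const_mul]
        congr 1
        funext x
        have : (-1 : ℝ) ^ (S.card + T.card) * (-1 : ℝ) ^ (S.card + T'.card)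
            = (-1 : ℝ) ^ (T.card + T'.card) := by
          rw [← pow_add, show S.card + T.card + (S.card + T'.card)
            = 2 * S.card + (T.card + T'.card) by ring, pow_add, pow_mul]
          simp
        rw [← this]; ring
      · intro T' _
        exact (((hf.EE P T).const_mul _).mul ((hg.EE P T').const_mul _)).integrable _
    rw [Finset.sum_congr rfl h1, comb_sq]
    rfl
  · intro T _
    exact (BM.sum _ fun T' _ =>
      ((hf.EE P T).const_mul _).mul ((hg.EE P T').const_mul _)).integrable _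

theorem KK_self_nonneg (S : Finset V) {f : (V → E) → ℝ} (hf : BM f) : 0 ≤ KK P f f S := by
  rw [KK_eq P S hf hf]
  exact integral_nonneg fun x => mul_self_nonneg _

theorem cs_BM {f g : (V → E) → ℝ} (hf : BM f) (hg : BM g) :
    |∫ x, f x * g x ∂(lw V P)| ≤
      Real.sqrt (∫ x, f x * f x ∂(lw V P)) * Real.sqrt (∫ x, g x * g x ∂(lw V P)) := by
  set a := ∫ x, f x * f x ∂(lw V P) with ha
  set b := ∫ x, f x * g x ∂(lw V P) with hb
  set c := ∫ x, g x * g x ∂(lw V P) with hc
  have hq : ∀ t : ℝ, 0 ≤ c * (t * t) + (2 * b) * t + a := by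
    intro t
    have h1 : 0 ≤ ∫ x, (f x + t * g x) * (f x + t * g x) ∂(lw V P) :=
      integral_nonneg fun x => mul_self_nonneg _
    have h2 : ∫ x, (f x + t * g x) * (f x + t * g x) ∂(lw V P) = a + 2 * t * b + t * t * c := by
      have e : (fun x => (f x + t * g x) * (f x + t * g x))
          = fun x => f x * f x + (2 * t) * (f x * g x) + (t * t) * (g x * g x) := by
        funext x; ring
      rw [e, integral_add, integral_add, integral_const_mul, integral_const_mul]
      · exact (hf.mul hf).integrable _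
      · exact ((hf.mul hg).const_mul _).integrable _
      · exact ((hf.mul hf).add ((hf.mul hg).const_mul _)).integrable _
      · exact ((hg.mul hg).const_mul _).integrable _
    rw [h2] at h1
    linarith
  have hd := discrim_le_zero hq
  unfold discrim at hd
  have ha0 : 0 ≤ a := integral_nonneg fun x => mul_self_nonneg _
  have hc0 : 0 ≤ c := integral_nonneg fun x => mul_self_nonneg _
  rw [← Real.sqrt_mul ha0, ← Real.sqrt_sq_eq_abs]
  exact Real.sqrt_le_sqrt (by nlinarith)

theorem KK_cs (S : Finset V) {f g : (V → E) → ℝ} (hf : BM f) (hg : BM g) :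
    |KK P f g S| ≤ Real.sqrt (KK P f f S) * Real.sqrt (KK P g g S) := by
  rw [KK_eq P S hf hg, KK_eq P S hf hf, KK_eq P S hg hg]
  exact cs_BM P (hf.comp P S) (hg.comp P S)

theorem sum_KK (W : Finset V) {f g : (V → E) → ℝ} (hg : DependsOn g (W : Set V)) :
    ∑ S ∈ W.powerset, KK P f g S = ∫ x, f x * g x ∂(lw V P) := by
  classical
  unfold KK
  rw [comb_moebius, NN, EE_of_dep P hg]

theorem KK_empty (f g : (V → E) → ℝ) :
    KK P f g ∅ = (∫ x, f x ∂(lw V P)) * ∫ x, g x ∂(lw V P) := by
  have h1 : ∀ x, EE P ∅ g x = ∫ y, g y ∂(lw V P) := by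
    intro x; unfold EE; congr 1
  simp only [KK, NN, Finset.powerset_empty, Finset.sum_singleton, h1]
  rw [integral_mul_const]; simp

theorem KK_zero {W S : Finset V} {f g : (V → E) → ℝ} (hg : DependsOn g (W : Set V))
    (hS : ¬ S ⊆ W) : KK P f g S = 0 := by
  classical
  obtain ⟨w, hw, hwW⟩ := Finset.not_subset.1 hS
  unfold KK
  refine comb_zero S w hw _ fun T => ?_
  unfold NN
  congr 1
  funext x
  congr 1
  unfold EE
  congr 1
  funext y
  refine hg fun i hi => ?_
  have : i ≠ w := by rintro rfl; exact hwW hi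
  simp [pw, this]

/-- influence of the label at `w` (Shapley value of the variance) -/
noncomputable def Inf (f : (V → E) → ℝ) (w : V) : ℝ := by
  classical
  exact ∑' S : Finset V, if w ∈ S then KK P f f S / (S.card : ℝ) else 0

theorem Inf_eq [DecidableEq V] {W : Finset V} {f : (V → E) → ℝ} (hf : DependsOn f (W : Set V))
    (w : V) : Inf P f w = ∑ S ∈ W.powerset with w ∈ S, KK P f f S / (S.card : ℝ) := by
  classical
  unfold Inf
  rw [tsum_eq_sum (s := W.powerset), Finset.sum_filter]
  · refine Finset.sum_congr rfl fun S _ => ?_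
    by_cases h : w ∈ S <;> simp [h]
  · intro S hS
    rw [Finset.mem_powerset] at hS
    rw [KK_zero P hf hS]; simp

theorem Inf_nonneg {W : Finset V} {f : (V → E) → ℝ} (hb : BM f) (hf : DependsOn f (W : Set V))
    (w : V) : 0 ≤ Inf P f w := by
  classical
  rw [Inf_eq P hf]
  exact Finset.sum_nonneg fun S _ => div_nonneg (KK_self_nonneg P S hb) (Nat.cast_nonneg _)

theorem sum_swap [DecidableEq V] (W : Finset V) (A : Finset V → ℝ) :
    ∑ w ∈ W, ∑ S ∈ W.powerset with w ∈ S, A S / (S.card : ℝ)
      = ∑ S ∈ W.powerset.erase ∅, A S := by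
  simp only [Finset.sum_filter]
  rw [Finset.sum_comm, ← Finset.add_sum_erase _ _ (Finset.empty_mem_powerset W)]
  simp only [Finset.notMem_empty, if_false, Finset.sum_const_zero, zero_add]
  refine Finset.sum_congr rfl fun S hS => ?_
  rw [Finset.mem_erase, Finset.mem_powerset] at hS
  rw [← Finset.sum_filter, Finset.filter_mem_eq_inter, Finset.inter_eq_right.2 hS.2,
    Finset.sum_const, nsmul_eq_mul]
  have : (S.card : ℝ) ≠ 0 := by
    rw [Nat.cast_ne_zero, Finset.card_ne_zero, Finset.nonempty_iff_ne_empty]; exact hS.1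
  field_simp

/-- total influence is the variance -/
theorem sum_Inf [DecidableEq V] {W : Finset V} {f : (V → E) → ℝ}
    (hf : DependsOn f (W : Set V)) :
    ∑ w ∈ W, Inf P f w = ∫ x, f x * f x ∂(lw V P) - (∫ x, f x ∂(lw V P)) ^ 2 := by
  simp only [Inf_eq P hf]
  rw [sum_swap, ← sum_KK P W (f := f) hf, ← Finset.add_sum_erase _ _ (Finset.empty_mem_powerset W),
    KK_empty]
  ring

theorem Inf_zero [DecidableEq V] {W : Finset V} {f : (V → E) → ℝ}
    (hf : DependsOn f (W : Set V)) {w : V} (hw : w ∉ W) : Inf P f w = 0 := by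
  rw [Inf_eq P hf]
  refine Finset.sum_eq_zero fun S hS => ?_
  rw [Finset.mem_filter, Finset.mem_powerset] at hS
  exact absurd (hS.1 hS.2) hw

theorem sum_Inf_le [DecidableEq V] {W : Finset V} {f : (V → E) → ℝ} (hb : BM f)
    (hf : DependsOn f (W : Set V)) (A : Finset V) :
    ∑ w ∈ A, Inf P f w ≤ ∫ x, f x * f x ∂(lw V P) - (∫ x, f x ∂(lw V P)) ^ 2 := by
  rw [← sum_Inf P hf]
  have h1 : ∑ w ∈ A, Inf P f w ≤ ∑ w ∈ A ∪ W, Inf P f w :=
    Finset.sum_le_sum_of_subset_of_nonneg Finset.subset_union_left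
      (fun w _ _ => Inf_nonneg P hb hf w)
  refine h1.trans (le_of_eq ?_)
  refine (Finset.sum_subset Finset.subset_union_right fun w _ hw => ?_).symm
  exact Inf_zero P hf hw

/-- **covariance bound** -/
theorem cov_le [DecidableEq V] {W : Finset V} {f g : (V → E) → ℝ} (hbf : BM f) (hbg : BM g)
    (hf : DependsOn f (W : Set V)) (hg : DependsOn g (W : Set V)) :
    |∫ x, f x * g x ∂(lw V P) - (∫ x, f x ∂(lw V P)) * ∫ x, g x ∂(lw V P)|
      ≤ ∑ w ∈ W, Real.sqrt (Inf P f w) * Real.sqrt (Inf P g w) := by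
  have h0 : ∫ x, f x * g x ∂(lw V P) - (∫ x, f x ∂(lw V P)) * ∫ x, g x ∂(lw V P)
      = ∑ S ∈ W.powerset.erase ∅, KK P f g S := by
    rw [← sum_KK P W (f := f) hg, ← Finset.add_sum_erase _ _ (Finset.empty_mem_powerset W),
      KK_empty]
    ring
  rw [h0]
  calc |∑ S ∈ W.powerset.erase ∅, KK P f g S|
      ≤ ∑ S ∈ W.powerset.erase ∅, |KK P f g S| := Finset.abs_sum_le_sum_abs _ _
    _ ≤ ∑ S ∈ W.powerset.erase ∅, Real.sqrt (KK P f f S) * Real.sqrt (KK P g g S) :=
        Finset.sum_le_sum fun S _ => KK_cs P S hbf hbg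
    _ = ∑ w ∈ W, ∑ S ∈ W.powerset with w ∈ S,
          (Real.sqrt (KK P f f S) * Real.sqrt (KK P g g S)) / (S.card : ℝ) :=
        (sum_swap W _).symm
    _ ≤ _ := by
        refine Finset.sum_le_sum fun w _ => ?_
        rw [Inf_eq P hf, Inf_eq P hg]
        have h1 : ∀ S : Finset V, (Real.sqrt (KK P f f S) * Real.sqrt (KK P g g S)) / (S.card : ℝ)
            = Real.sqrt (KK P f f S / (S.card : ℝ)) * Real.sqrt (KK P g g S / (S.card : ℝ)) := by
          intro S
          rw [Real.sqrt_div (KK_self_nonneg P S hbf), Real.sqrt_div (KK_self_nonneg P S hbg),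
            div_mul_div_comm, Real.mul_self_sqrt (Nat.cast_nonneg _)]
        simp only [h1]
        have h2 := Real.sum_mul_le_sqrt_mul_sqrt (W.powerset.filter (fun S => w ∈ S))
          (fun S => Real.sqrt (KK P f f S / (S.card : ℝ)))
          (fun S => Real.sqrt (KK P g g S / (S.card : ℝ)))
        refine h2.trans (le_of_eq ?_)
        congr 2
        · refine Finset.sum_congr rfl fun S _ => ?_
          rw [Real.sq_sqrt (div_nonneg (KK_self_nonneg P S hbf) (Nat.cast_nonneg _))]
        · refine Finset.sum_congr rfl fun S _ => ?_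
          rw [Real.sq_sqrt (div_nonneg (KK_self_nonneg P S hbg) (Nat.cast_nonneg _))]

/-! ### equivariance -/

theorem map_comp_equiv (σ : V ≃ V) : (lw V P).map (fun x => x ∘ σ) = lw V P := by
  classical
  refine Measure.eq_infinitePi _ fun s t ht => ?_
  have hm : Measurable (fun x : V → E => x ∘ σ) := by
    rw [measurable_pi_iff]; intro i; exact measurable_pi_apply _
  rw [Measure.map_apply hm (MeasurableSet.pi s.countable_toSet fun i _ => ht i)]
  have h1 : (fun x : V → E => x ∘ σ) ⁻¹' ((s : Set V).pi t)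
      = Set.pi ((s.map σ.toEmbedding : Finset V) : Set V) (fun i => t (σ.symm i)) := by
    ext x
    simp only [Set.mem_preimage, Set.mem_pi, Finset.mem_coe, Function.comp_apply,
      Finset.mem_map_equiv]
    constructor
    · intro h i hi
      have := h _ hi
      simpa using this
    · intro h i hi
      have := h (σ i) (by simpa using hi)
      simpa using this
  rw [h1, Measure.infinitePi_pi _ (fun i _ => ht _)]
  simp

theorem integral_comp_equiv (σ : V ≃ V) {f : (V → E) → ℝ} (hf : BM f) :
    ∫ x, f (x ∘ σ) ∂(lw V P) = ∫ x, f x ∂(lw V P) := by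
  conv_rhs => rw [← map_comp_equiv P σ]
  rw [integral_map _ hf.meas.aestronglyMeasurable]
  exact (measurable_pi_iff.2 fun i => measurable_pi_apply _).aemeasurable

theorem BM.compEquiv {f : (V → E) → ℝ} (hf : BM f) (σ : V ≃ V) : BM (fun x => f (x ∘ σ)) := by
  obtain ⟨A, hA⟩ := hf.bdd
  exact ⟨hf.meas.comp (measurable_pi_iff.2 fun i => measurable_pi_apply _), A, fun x => hA _⟩

theorem EE_comp_equiv (σ : V ≃ V) (T : Finset V) {f : (V → E) → ℝ} (hf : BM f) (x : V → E) :
    EE P (T.map σ.toEmbedding) (fun x => f (x ∘ σ)) x = EE P T f (x ∘ σ) := by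
  unfold EE
  rw [← integral_comp_equiv P σ (hf.pwl T (x ∘ σ))]
  refine integral_congr_ae (Filter.Eventually.of_forall fun y => ?_)
  have : (pw (T.map σ.toEmbedding) x y) ∘ σ = pw T (x ∘ σ) (y ∘ σ) := by
    funext i
    have h1 : σ i ∈ T.map σ.toEmbedding ↔ i ∈ T := by
      rw [Finset.mem_map_equiv, Equiv.symm_apply_apply]
    by_cases h : i ∈ T
    · simp [pw, h, h1.2 h]
    · have h2 : σ i ∉ T.map σ.toEmbedding := fun hh => h (h1.1 hh)
      simp only [pw, Function.comp_apply]
      rw [if_neg h2, if_neg h]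
  simp only [this]

theorem NN_comp_equiv (σ : V ≃ V) (T : Finset V) {f g : (V → E) → ℝ} (hf : BM f) (hg : BM g) :
    NN P (fun x => f (x ∘ σ)) (fun x => g (x ∘ σ)) (T.map σ.toEmbedding) = NN P f g T := by
  unfold NN
  rw [← integral_comp_equiv P σ (hf.mul (hg.EE P T))]
  congr 1
  funext x
  rw [EE_comp_equiv P σ T hg]

theorem KK_comp_equiv (σ : V ≃ V) (S : Finset V) {f g : (V → E) → ℝ} (hf : BM f) (hg : BM g) :
    KK P (fun x => f (x ∘ σ)) (fun x => g (x ∘ σ)) (S.map σ.toEmbedding) = KK P f g S := by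
  classical
  unfold KK
  have h1 : (S.map σ.toEmbedding).powerset
      = S.powerset.map (Equiv.finsetCongr σ).toEmbedding := by
    ext T
    simp only [Finset.mem_powerset, Finset.mem_map_equiv]
    constructor
    · intro h x hx
      have := h (show σ x ∈ T by
        simpa [Equiv.finsetCongr] using hx)
      simpa using this
    · intro h x hx
      have := h (show σ.symm x ∈ (Equiv.finsetCongr σ).symm T by
        simpa [Equiv.finsetCongr] using hx)
      simpa using this
  rw [h1, Finset.sum_map]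
  refine Finset.sum_congr rfl fun T _ => ?_
  have h2 : (Equiv.finsetCongr σ).toEmbedding T = T.map σ.toEmbedding := rfl
  rw [h2, NN_comp_equiv P σ T hf hg, Finset.card_map, Finset.card_map]

/-- equivariance of the influence -/
theorem Inf_comp_equiv (σ : V ≃ V) {f : (V → E) → ℝ} (hf : BM f) (w : V) :
    Inf P (fun x => f (x ∘ σ)) (σ w) = Inf P f w := by
  classical
  unfold Inf
  rw [← Equiv.tsum_eq (Equiv.finsetCongr σ)]
  refine tsum_congr fun S => ?_
  have h2 : (Equiv.finsetCongr σ) S = S.map σ.toEmbedding := rfl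
  rw [h2, KK_comp_equiv P σ S hf hf, Finset.card_map]
  simp

end ES

end Crest.Agent.T41
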