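import Crest.Agent.T41Geo
import Crest.Agent.T41ES

/-!
S0241, section 5: decorrelation of equivariant functions of independent labels along paths of a
regular tree.
-/

set_option autoImplicit false
set_option linter.unusedSectionVars false

namespace Crest.Agent.T41

open SimpleGraph MeasureTheory

universe u
variable {V : Type u} {G : SimpleGraph V} {E : Type*} [MeasurableSpace E] (P : Measure E)
  [IsProbabilityMeasure P]

/-- `f` is unchanged by automorphisms fixing `p` and `y` -/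
def InvE (G : SimpleGraph V) (p y : V) (f : (V → E) → ℝ) : Prop :=
  ∀ g : G ≃g G, g p = p → g y = y → ∀ ω, f (ω ∘ g) = f ω

/-- the variance -/
noncomputable def vr (f : (V → E) → ℝ) : ℝ :=
  ∫ x, f x * f x ∂(lw V P) - (∫ x, f x ∂(lw V P)) ^ 2

theorem InvE.symm {p y : V} {f : (V → E) → ℝ} (h : InvE G p y f) : InvE G y p f :=
  fun g h1 h2 => h g h2 h1

theorem Inf_aut {p y : V} {f : (V → E) → ℝ} (hb : BM f) (hf : InvE G p y f) (g : G ≃g G)
    (h1 : g p = p) (h2 : g y = y) (w : V) : Inf P f (g w) = Inf P f w := by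
  have := Inf_comp_equiv P g.toEquiv hb w
  have e : (fun x : V → E => f (x ∘ g.toEquiv)) = f := by
    funext x; exact hf g h1 h2 x
  rw [e] at this
  exact this

/-- the branch behind `z` seen from `p` -/
def brDec (G : SimpleGraph V) (p z : V) : Set V := {w | G.dist p w = G.dist p z + G.dist z w}

theorem brDec_image {g : G ≃g G} (hT : G.IsTree) (p z w : V) (h : w ∈ brDec G p z) :
    g w ∈ brDec G (g p) (g z) := by
  change G.dist _ _ = G.dist _ _ + G.dist _ _
  rw [iso_dist g hT hT, iso_dist g hT hT, iso_dist g hT hT]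
  exact h

theorem mem_brDec_iff (p z w : V) : w ∈ brDec G p z ↔ w ∈ descS G p z (G.dist z w) := by
  constructor
  · intro h; exact ⟨h, rfl⟩
  · intro h; exact h.1

/-- two different vertices of the same generation have disjoint branches -/
theorem brDec_disjoint (hT : G.IsTree) {p z z' : V} (h : G.dist p z = G.dist p z') (hne : z ≠ z')
    {w : V} (h1 : w ∈ brDec G p z) (h2 : w ∈ brDec G p z') : False := by
  have h1' : G.dist p w = G.dist p z + G.dist z w := h1
  have h2' : G.dist p w = G.dist p z' + G.dist z' w := h2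
  -- both are ancestors of `w` of the same generation
  have key : ∀ (n : ℕ) (z : V), G.dist z w = n → G.dist p w = G.dist p z + G.dist z w →
      z = (par hT p)^[n] w := by
    intro n
    induction n with
    | zero => intro z hz _; simpa using hT.connected.dist_eq_zero_iff.1 hz
    | succ n ih =>
      intro z hz hpz
      have hzw : z ≠ w := by rintro rfl; simp at hz
      have hadj := par_adj hT w z hzw
      have hd := par_dist hT w z hzw
      rw [G.dist_comm (u := w) (v := z), G.dist_comm (u := w) (v := par hT w z)] at hd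
      have ht := hT.connected.dist_triangle (u := p) (v := par hT w z) (w := w)
      have hstep := hT.dist_eq_dist_add_one_of_adj p hadj
      have hc := ih (par hT w z) (by omega) (by omega)
      rw [Function.iterate_succ_apply', ← hc]
      exact (par_eq hT p (par hT w z) z hadj.symm (by omega)).symm
  apply hne
  have e1 := key (G.dist z w) z rfl h1'
  have e2 := key (G.dist z' w) z' rfl h2'
  have e3 : G.dist z w = G.dist z' w := by omega
  rw [e1, e2, e3]

/-- influences of a branch at depth `l` -/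
theorem branch_le [G.LocallyFinite] (hT : G.IsTree) (d : ℕ) (hd : 3 ≤ d)
    (hreg : G.IsRegularOfDegree d) {p y : V} (hpy : G.Adj p y) {f : (V → E) → ℝ} (hb : BM f)
    (hf : InvE G p y f) {W : Finset V} (hW : DependsOn f (W : Set V)) (l : ℕ) (z : V)
    (hz : z ∈ descS G p y l) (A : Finset V) (hA : ∀ w ∈ A, w ∈ brDec G p z) :
    ((d : ℝ) - 1) ^ l * ∑ w ∈ A, Inf P f w ≤ vr P f := by
  classical
  have hyp : y ≠ p := hpy.ne'
  have hfin := descS_finite (G := G) hT p y l
  set D : Finset V := hfin.toFinset with hD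
  have hDcard : (D.card : ℝ) = ((d : ℝ) - 1) ^ l := by
    have h1 := descS_ncard hT d hreg p y hyp l
    rw [Set.ncard_eq_toFinset_card _ hfin] at h1
    rw [hD, h1]
    push_cast [Nat.cast_sub (show 1 ≤ d by omega)]
    ring
  have hmem : ∀ z' ∈ D, z' ∈ descS G p y l := fun z' hz' => hfin.mem_toFinset.1 hz'
  have hg : ∀ z' : V, ∃ g : G ≃g G, z' ∈ D → g p = p ∧ g y = y ∧ g z = z' := by
    intro z'
    by_cases h : z' ∈ D
    · obtain ⟨g, hg⟩ := exists_aut_branch hT d hreg hpy l hz (hmem z' h)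
      exact ⟨g, fun _ => hg⟩
    · exact ⟨RelIso.refl _, fun h' => absurd h' h⟩
  choose g hg using hg
  have hdisj : Set.PairwiseDisjoint (D : Set V) (fun z' => A.image (g z')) := by
    intro a ha b hb' hab
    rw [Function.onFun, Finset.disjoint_left]
    intro w hw1 hw2
    obtain ⟨u1, hu1, rfl⟩ := Finset.mem_image.1 hw1
    obtain ⟨u2, hu2, hu⟩ := Finset.mem_image.1 hw2
    obtain ⟨a1, a2, a3⟩ := hg a ha
    obtain ⟨b1, b2, b3⟩ := hg b hb'
    have h1 := brDec_image (g := g a) hT p z u1 (hA u1 hu1)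
    have h2 := brDec_image (g := g b) hT p z u2 (hA u2 hu2)
    rw [a1, a3] at h1
    rw [b1, b3, hu] at h2
    refine brDec_disjoint hT ?_ hab h1 h2
    rw [(hmem a ha).1, (hmem b hb').1]
  have h1 := sum_Inf_le P hb hW (D.biUnion fun z' => A.image (g z'))
  rw [Finset.sum_biUnion hdisj] at h1
  have h2 : ∀ z' ∈ D, ∑ w ∈ A.image (g z'), Inf P f w = ∑ w ∈ A, Inf P f w := by
    intro z' hz'
    rw [Finset.sum_image (fun a _ b _ hab => (g z').injective hab)]
    refine Finset.sum_congr rfl fun w _ => ?_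
    exact Inf_aut P hb hf (g z') (hg z' hz').1 (hg z' hz').2.1 w
  rw [Finset.sum_congr rfl h2, Finset.sum_const, nsmul_eq_mul, hDcard] at h1
  exact h1

theorem cs_sqrt (A : Finset V) (a b : V → ℝ) (ha : ∀ w ∈ A, 0 ≤ a w) (hb : ∀ w ∈ A, 0 ≤ b w) :
    ∑ w ∈ A, Real.sqrt (a w) * Real.sqrt (b w)
      ≤ Real.sqrt (∑ w ∈ A, a w) * Real.sqrt (∑ w ∈ A, b w) := by
  refine (Real.sum_mul_le_sqrt_mul_sqrt A _ _).trans (le_of_eq ?_)
  congr 2
  · exact Finset.sum_congr rfl fun w hw => Real.sq_sqrt (ha w hw)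
  · exact Finset.sum_congr rfl fun w hw => Real.sq_sqrt (hb w hw)

/-- **decorrelation along a path** -/
theorem decor [G.LocallyFinite] (hT : G.IsTree) (d : ℕ) (hd : 3 ≤ d)
    (hreg : G.IsRegularOfDegree d) {x : ℕ → V} {r : ℕ} (hx : NB G x (r + 1))
    {f f' : (V → E) → ℝ} (hbf : BM f) (hbf' : BM f') (hf : InvE G (x 0) (x 1) f)
    (hf' : InvE G (x r) (x (r + 1)) f') {W : Finset V} (hW : DependsOn f (W : Set V))
    (hW' : DependsOn f' (W : Set V)) (v : ℝ) (hv : vr P f ≤ v) (hv' : vr P f' ≤ v) :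
    |∫ ω, f ω * f' ω ∂(lw V P) - (∫ ω, f ω ∂(lw V P)) * ∫ ω, f' ω ∂(lw V P)|
      ≤ ((r : ℝ) + 2) * Real.sqrt (((d : ℝ) - 1)) ^ (1 - (r : ℤ)) * v := by
  classical
  have hd1 : (0 : ℝ) < (d : ℝ) - 1 := by
    have : (3 : ℝ) ≤ d := by exact_mod_cast hd
    linarith
  have hd2 : (1 : ℝ) ≤ (d : ℝ) - 1 := by
    have : (3 : ℝ) ≤ d := by exact_mod_cast hd
    linarith
  set q : ℝ := Real.sqrt ((d : ℝ) - 1) with hq
  have hq0 : 0 < q := Real.sqrt_pos.2 hd1
  have hq1 : 1 ≤ q := by rw [hq, Real.one_le_sqrt]; exact hd2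
  have hqsq : q ^ 2 = (d : ℝ) - 1 := Real.sq_sqrt hd1.le
  have hv0 : 0 ≤ v := by
    refine le_trans ?_ hv
    unfold vr
    rw [← sum_Inf P hW]
    exact Finset.sum_nonneg fun w _ => Inf_nonneg P hbf hW w
  refine (cov_le P hbf hbf' hW hW').trans ?_
  -- the class of `w`: where `w` attaches to the path
  have hcl : ∀ w : V, ∃ l ≤ r + 1, (∀ i ≤ l, G.dist w (x 0) = i + G.dist w (x i)) ∧
      ∀ i, l ≤ i → i ≤ r + 1 → G.dist w (x i) = G.dist w (x l) + (i - l) :=
    fun w => hx.vshape hT w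
  choose L hL h1 h2 using hcl
  have hpart : ∑ w ∈ W, Real.sqrt (Inf P f w) * Real.sqrt (Inf P f' w)
      = ∑ l ∈ Finset.range (r + 2), ∑ w ∈ W with L w = l,
          Real.sqrt (Inf P f w) * Real.sqrt (Inf P f' w) := by
    rw [Finset.sum_fiberwise_of_maps_to]
    intro w _
    rw [Finset.mem_range]; have := hL w; omega
  rw [hpart]
  have hIn : ∀ w, 0 ≤ Inf P f w := Inf_nonneg P hbf hW
  have hIn' : ∀ w, 0 ≤ Inf P f' w := Inf_nonneg P hbf' hW'
  have hadj0 : G.Adj (x 0) (x 1) := hx.adj 0 (by omega)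
  have hadjr : G.Adj (x (r + 1)) (x r) := (hx.adj r (by omega)).symm
  -- bound for each class
  have hclass : ∀ l ∈ Finset.range (r + 2), ∑ w ∈ W with L w = l,
      Real.sqrt (Inf P f w) * Real.sqrt (Inf P f' w) ≤ q ^ (1 - (r : ℤ)) * v := by
    intro l hl
    rw [Finset.mem_range] at hl
    set A := W.filter (fun w => L w = l) with hA
    have hAL : ∀ w ∈ A, L w = l := fun w hw => (Finset.mem_filter.1 hw).2
    -- bound relative to the first edge
    have b1 : q ^ (2 * (l - 1)) * ∑ w ∈ A, Inf P f w ≤ v := by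
      rcases Nat.eq_zero_or_pos l with h0 | h0
      · subst h0
        simp only [Nat.zero_sub, mul_zero, pow_zero, one_mul]
        exact (sum_Inf_le P hbf hW A).trans hv
      · have hz : x l ∈ descS G (x 0) (x 1) (l - 1) := by
          refine ⟨?_, ?_⟩
          · rw [hx.dist hT 0 l (by omega) (by omega), hx.dist hT 0 1 (by omega) (by omega)]; omega
          · rw [hx.dist hT 1 l (by omega) (by omega)]
        have := branch_le P hT d hd hreg hadj0 hbf hf hW (l - 1) (x l) hz A (fun w hw => by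
          have e := h1 w l (by rw [hAL w hw])
          change G.dist (x 0) w = G.dist (x 0) (x l) + G.dist (x l) w
          rw [G.dist_comm (u := x 0) (v := w), G.dist_comm (u := x l) (v := w),
            hx.dist hT 0 l (by omega) (by omega)]
          omega)
        rw [pow_mul, hqsq]
        exact this.trans hv
    have b2 : q ^ (2 * (r - l)) * ∑ w ∈ A, Inf P f' w ≤ v := by
      rcases Nat.lt_or_ge r l with h0 | h0
      · rw [show r - l = 0 by omega]
        simp only [mul_zero, pow_zero, one_mul]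
        exact (sum_Inf_le P hbf' hW' A).trans hv'
      · have hz : x l ∈ descS G (x (r + 1)) (x r) (r - l) := by
          refine ⟨?_, ?_⟩
          · rw [G.dist_comm (u := x (r + 1)) (v := x l), hx.dist hT l (r + 1) (by omega) (by omega),
              dist_eq_one_iff_adj.2 hadjr]; omega
          · rw [G.dist_comm, hx.dist hT l r (by omega) (by omega)]
        have := branch_le P hT d hd hreg hadjr hbf' hf'.symm hW' (r - l) (x l) hz A
          (fun w hw => by
            have e := h2 w (r + 1) (by rw [hAL w hw]; omega) le_rfl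
            rw [hAL w hw] at e
            change G.dist (x (r + 1)) w = G.dist (x (r + 1)) (x l) + G.dist (x l) w
            rw [G.dist_comm (u := x (r + 1)) (v := w), G.dist_comm (u := x l) (v := w),
              G.dist_comm (u := x (r + 1)) (v := x l), hx.dist hT l (r + 1) (by omega) (by omega)]
            omega)
        rw [pow_mul, hqsq]
        exact this.trans hv'
    have c1 : Real.sqrt (∑ w ∈ A, Inf P f w) ≤ Real.sqrt v / q ^ (l - 1) := by
      rw [le_div_iff₀ (pow_pos hq0 _), ← Real.sqrt_sq (pow_nonneg hq0.le (l - 1)),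
        ← Real.sqrt_mul (Finset.sum_nonneg fun w _ => hIn w)]
      apply Real.sqrt_le_sqrt
      rw [← pow_mul, mul_comm (l - 1) 2]
      linarith
    have c2 : Real.sqrt (∑ w ∈ A, Inf P f' w) ≤ Real.sqrt v / q ^ (r - l) := by
      rw [le_div_iff₀ (pow_pos hq0 _), ← Real.sqrt_sq (pow_nonneg hq0.le (r - l)),
        ← Real.sqrt_mul (Finset.sum_nonneg fun w _ => hIn' w)]
      apply Real.sqrt_le_sqrt
      rw [← pow_mul, mul_comm (r - l) 2]
      linarith
    refine (cs_sqrt A _ _ (fun w _ => hIn w) (fun w _ => hIn' w)).trans ?_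
    refine (mul_le_mul c1 c2 (Real.sqrt_nonneg _) (by positivity)).trans ?_
    rw [div_mul_div_comm, Real.mul_self_sqrt hv0, ← pow_add, div_eq_mul_inv, mul_comm v]
    refine mul_le_mul_of_nonneg_right ?_ hv0
    rw [← zpow_natCast, ← zpow_neg]
    refine zpow_le_zpow_right₀ hq1 ?_
    push_cast
    omega
  refine (Finset.sum_le_sum hclass).trans ?_
  rw [Finset.sum_const, Finset.card_range, nsmul_eq_mul]
  push_cast
  rw [mul_assoc]

/-! ### sums along a path -/

/-- the decorrelation kernel -/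
noncomputable def Kdec (d : ℕ) (r : ℕ) : ℝ :=
  ((r : ℝ) + 2) * Real.sqrt (((d : ℝ) - 1)) ^ (1 - (r : ℤ))

/-- the decorrelation constant -/
noncomputable def Cdec (d : ℕ) : ℝ := 2 * ∑' r : ℕ, Kdec d r

theorem Kdec_nonneg (d r : ℕ) : 0 ≤ Kdec d r := by unfold Kdec; positivity

theorem Kdec_summable (d : ℕ) (hd : 3 ≤ d) : Summable (Kdec d) := by
  have hd1 : (2 : ℝ) ≤ (d : ℝ) - 1 := by
    have : (3 : ℝ) ≤ d := by exact_mod_cast hd
    linarith
  set q : ℝ := Real.sqrt ((d : ℝ) - 1) with hq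
  have hq1 : 1 < q := by rw [hq, Real.lt_sqrt (by norm_num)]; linarith
  have hq0 : 0 < q := by linarith
  have h1 : ‖q⁻¹‖ < 1 := by
    rw [norm_inv, Real.norm_eq_abs, abs_of_pos hq0]; exact inv_lt_one_of_one_lt₀ hq1
  have h2 := summable_pow_mul_geometric_of_norm_lt_one 1 h1
  have h3 := summable_geometric_of_norm_lt_one h1
  have h4 := ((h2.add (h3.mul_left 2)).mul_left q)
  refine h4.congr fun r => ?_
  unfold Kdec
  rw [← hq, zpow_sub₀ hq0.ne', zpow_one, zpow_natCast, inv_pow]
  ring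

theorem Cdec_nonneg (d : ℕ) : 0 ≤ Cdec d := by
  unfold Cdec
  have : 0 ≤ ∑' r : ℕ, Kdec d r := tsum_nonneg (Kdec_nonneg d)
  linarith

theorem sum_Kdec_le (d : ℕ) (hd : 3 ≤ d) (l i : ℕ) (hi : i < l) :
    ∑ j ∈ Finset.range l, Kdec d (if j ≤ i then i - j else j - i) ≤ Cdec d := by
  have hs := Kdec_summable d hd
  have h0 : Finset.range l = Finset.range (i + 1) ∪ Finset.Ico (i + 1) l := by
    ext j; simp only [Finset.mem_range, Finset.mem_union, Finset.mem_Ico]; omega
  have hdisj : Disjoint (Finset.range (i + 1)) (Finset.Ico (i + 1) l) := by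
    rw [Finset.disjoint_left]; intro j; simp only [Finset.mem_range, Finset.mem_Ico]; omega
  rw [h0, Finset.sum_union hdisj]
  have h1 : ∑ j ∈ Finset.range (i + 1), Kdec d (if j ≤ i then i - j else j - i)
      ≤ ∑' r : ℕ, Kdec d r := by
    have e : ∑ j ∈ Finset.range (i + 1), Kdec d (if j ≤ i then i - j else j - i)
        = ∑ j ∈ Finset.range (i + 1), Kdec d j := by
      rw [← Finset.sum_range_reflect]
      refine Finset.sum_congr rfl fun j hj => ?_
      rw [Finset.mem_range] at hj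
      congr 1
      split_ifs <;> omega
    rw [e]
    exact hs.sum_le_tsum _ fun r _ => Kdec_nonneg d r
  have h2 : ∑ j ∈ Finset.Ico (i + 1) l, Kdec d (if j ≤ i then i - j else j - i)
      ≤ ∑' r : ℕ, Kdec d r := by
    have e : ∑ j ∈ Finset.Ico (i + 1) l, Kdec d (if j ≤ i then i - j else j - i)
        = ∑ r ∈ (Finset.Ico (i + 1) l).image (fun j => j - i), Kdec d r := by
      rw [Finset.sum_image]
      · refine Finset.sum_congr rfl fun j hj => ?_
        rw [Finset.mem_Ico] at hj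
        rw [if_neg (by omega)]
      · intro a ha b hb hab
        simp only [Finset.coe_Ico, Set.mem_Ico] at ha hb
        simp only at hab
        omega
    rw [e]
    exact hs.sum_le_tsum _ fun r _ => Kdec_nonneg d r
  unfold Cdec
  linarith

/-- equivariant functions of directed edges -/
def EqvE (G : SimpleGraph V) (a : V → V → (V → E) → ℝ) : Prop :=
  ∀ (g : G ≃g G) (p y : V) (ω : V → E), G.Adj p y → a (g p) (g y) ω = a p y (ω ∘ g)

theorem EqvE.inv {a : V → V → (V → E) → ℝ} (ha : EqvE G a) {p y : V} (h : G.Adj p y) :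
    InvE G p y (a p y) := by
  intro g h1 h2 ω
  have := ha g p y ω h
  rw [h1, h2] at this
  exact this.symm

theorem EqvE.integral_eq [G.LocallyFinite] (hT : G.IsTree) (d : ℕ) 
    (hreg : G.IsRegularOfDegree d) {a : V → V → (V → E) → ℝ} (ha : EqvE G a)
    {p y p' y' : V} (h : G.Adj p y) (h' : G.Adj p' y') (φ : ℝ → ℝ)
    (hb : BM (fun ω => φ (a p y ω))) :
    ∫ ω, φ (a p' y' ω) ∂(lw V P) = ∫ ω, φ (a p y ω) ∂(lw V P) := by
  obtain ⟨g, h1, h2⟩ := exists_aut hT d hreg p y p' y'
    (by rw [dist_eq_one_iff_adj.2 h, dist_eq_one_iff_adj.2 h'])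
  have e := integral_comp_equiv P g.toEquiv hb
  rw [← e]
  congr 1
  funext ω
  have := ha g p y ω h
  rw [h1, h2] at this
  rw [this]
  rfl

/-- **decorrelated sum along a path** (finite range) -/
theorem decor_sum [G.LocallyFinite] (hT : G.IsTree) (d : ℕ) (hd : 3 ≤ d)
    (hreg : G.IsRegularOfDegree d) {a : V → V → (V → E) → ℝ} (ha : EqvE G a)
    (hb : ∀ p y, G.Adj p y → BM (a p y))
    (hfr : ∀ p y, G.Adj p y → ∃ W : Finset V, DependsOn (a p y) (W : Set V))
    {x : ℕ → V} {l : ℕ} (hx : NB G x l) {p y : V} (hpy : G.Adj p y) :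
    ∫ ω, (∑ i ∈ Finset.range l, a (x i) (x (i + 1)) ω) ^ 2 ∂(lw V P)
      ≤ (l : ℝ) ^ 2 * (∫ ω, a p y ω ∂(lw V P)) ^ 2 + Cdec d * l * vr P (a p y) := by
  classical
  set mn : ℝ := ∫ ω, a p y ω ∂(lw V P) with hmn
  have hmean : ∀ i < l, ∫ ω, a (x i) (x (i + 1)) ω ∂(lw V P) = mn := fun i hi =>
    ha.integral_eq P hT d hreg hpy (hx.adj i hi) (fun t => t) (hb p y hpy)
  have hvar : ∀ i < l, vr P (a (x i) (x (i + 1))) = vr P (a p y) := by
    intro i hi
    unfold vr
    rw [hmean i hi, ← hmn]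
    congr 1
    exact ha.integral_eq P hT d hreg hpy (hx.adj i hi) (fun t => t * t)
      ((hb p y hpy).mul (hb p y hpy))
  have hv0 : 0 ≤ vr P (a p y) := by
    obtain ⟨W, hW⟩ := hfr p y hpy
    unfold vr
    rw [← sum_Inf P hW]
    exact Finset.sum_nonneg fun w _ => Inf_nonneg P (hb p y hpy) hW w
  have hcov1 : ∀ i j, i ≤ j → j < l →
      ∫ ω, a (x i) (x (i + 1)) ω * a (x j) (x (j + 1)) ω ∂(lw V P)
        ≤ mn ^ 2 + Kdec d (j - i) * vr P (a p y) := by
    intro i j hij hj
    obtain ⟨W1, hW1⟩ := hfr _ _ (hx.adj i (by omega))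
    obtain ⟨W2, hW2⟩ := hfr _ _ (hx.adj j hj)
    have hsub := hx.shift i (j - i + 1) (by omega)
    have e1 : i + (j - i) = j := by omega
    have e2 : i + (j - i + 1) = j + 1 := by omega
    have := decor P hT d hd hreg (x := fun k => x (i + k)) (r := j - i) hsub
      (f := a (x i) (x (i + 1))) (f' := a (x j) (x (j + 1)))
      (hb _ _ (hx.adj i (by omega))) (hb _ _ (hx.adj j hj))
      (by simpa using ha.inv (hx.adj i (by omega)))
      (by simp only [e1, e2]; exact ha.inv (hx.adj j hj))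
      (W := W1 ∪ W2)
      (hW1.mono (by simp)) (hW2.mono (by simp)) (vr P (a p y))
      (hvar i (by omega)).le (hvar j hj).le
    rw [hmean i (by omega), hmean j hj] at this
    have h3 := (abs_le.1 this).2
    unfold Kdec
    push_cast at h3 ⊢
    nlinarith [h3]
  have hcov : ∀ i < l, ∀ j < l,
      ∫ ω, a (x i) (x (i + 1)) ω * a (x j) (x (j + 1)) ω ∂(lw V P)
        ≤ mn ^ 2 + Kdec d (if j ≤ i then i - j else j - i) * vr P (a p y) := by
    intro i hi j hj
    by_cases h : j ≤ i
    · rw [if_pos h]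
      have := hcov1 j i h hi
      simpa only [mul_comm (a (x j) (x (j + 1)) _)] using this
    · rw [if_neg h]; exact hcov1 i j (by omega) hj
  have hexp : ∫ ω, (∑ i ∈ Finset.range l, a (x i) (x (i + 1)) ω) ^ 2 ∂(lw V P)
      = ∑ i ∈ Finset.range l, ∑ j ∈ Finset.range l,
          ∫ ω, a (x i) (x (i + 1)) ω * a (x j) (x (j + 1)) ω ∂(lw V P) := by
    have hbm : ∀ i ∈ Finset.range l, BM (a (x i) (x (i + 1))) := fun i hi =>
      hb _ _ (hx.adj i (Finset.mem_range.1 hi))
    simp only [sq, Finset.sum_mul_sum]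
    rw [integral_finsetSum _ fun i hi => (BM.sum _ fun j hj =>
      (hbm i hi).mul (hbm j hj)).integrable _]
    refine Finset.sum_congr rfl fun i hi => ?_
    rw [integral_finsetSum _ fun j hj => ((hbm i hi).mul (hbm j hj)).integrable _]
  rw [hexp]
  calc ∑ i ∈ Finset.range l, ∑ j ∈ Finset.range l,
          ∫ ω, a (x i) (x (i + 1)) ω * a (x j) (x (j + 1)) ω ∂(lw V P)
      ≤ ∑ i ∈ Finset.range l, ∑ j ∈ Finset.range l,
          (mn ^ 2 + Kdec d (if j ≤ i then i - j else j - i) * vr P (a p y)) :=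
        Finset.sum_le_sum fun i hi => Finset.sum_le_sum fun j hj =>
          hcov i (Finset.mem_range.1 hi) j (Finset.mem_range.1 hj)
    _ = ∑ i ∈ Finset.range l, ((l : ℝ) * mn ^ 2 +
          (∑ j ∈ Finset.range l, Kdec d (if j ≤ i then i - j else j - i)) * vr P (a p y)) := by
        refine Finset.sum_congr rfl fun i _ => ?_
        rw [Finset.sum_add_distrib, Finset.sum_const, Finset.card_range, nsmul_eq_mul,
          Finset.sum_mul]
    _ ≤ ∑ i ∈ Finset.range l, ((l : ℝ) * mn ^ 2 + Cdec d * vr P (a p y)) := by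
        refine Finset.sum_le_sum fun i hi => ?_
        have := mul_le_mul_of_nonneg_right (sum_Kdec_le d hd l i (Finset.mem_range.1 hi)) hv0
        linarith
    _ = _ := by
        rw [Finset.sum_const, Finset.card_range, nsmul_eq_mul]; ring

/-! ### passage to `L²` limits -/

theorem cs_L2 {Ω : Type*} [MeasurableSpace Ω] {μ : Measure Ω} {f g : Ω → ℝ} (hf : MemLp f 2 μ)
    (hg : MemLp g 2 μ) :
    |∫ x, f x * g x ∂μ| ≤ Real.sqrt (∫ x, f x ^ 2 ∂μ) * Real.sqrt (∫ x, g x ^ 2 ∂μ) := by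
  set a := ∫ x, f x ^ 2 ∂μ with ha
  set b := ∫ x, f x * g x ∂μ with hb
  set c := ∫ x, g x ^ 2 ∂μ with hc
  have i1 : Integrable (fun x => f x ^ 2) μ := hf.integrable_sq
  have i2 : Integrable (fun x => g x ^ 2) μ := hg.integrable_sq
  have i3 : Integrable (fun x => f x * g x) μ := hf.integrable_mul hg
  have hq : ∀ t : ℝ, 0 ≤ c * (t * t) + (2 * b) * t + a := by
    intro t
    have h1 : 0 ≤ ∫ x, (f x + t * g x) ^ 2 ∂μ := integral_nonneg fun x => sq_nonneg _
    have h2 : ∫ x, (f x + t * g x) ^ 2 ∂μ = a + 2 * t * b + t * t * c := by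
      have e : (fun x => (f x + t * g x) ^ 2)
          = fun x => f x ^ 2 + (2 * t) * (f x * g x) + (t * t) * (g x ^ 2) := by
        funext x; ring
      have i13 : Integrable (fun x => f x ^ 2 + (2 * t) * (f x * g x)) μ :=
        i1.add (i3.const_mul _)
      rw [e, integral_add i13 (i2.const_mul _),
        integral_add i1 (i3.const_mul _), integral_const_mul, integral_const_mul]
    rw [h2] at h1
    linarith
  have hd := discrim_le_zero hq
  unfold discrim at hd
  have ha0 : 0 ≤ a := integral_nonneg fun x => sq_nonneg _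
  rw [← Real.sqrt_mul ha0, ← Real.sqrt_sq_eq_abs]
  exact Real.sqrt_le_sqrt (by nlinarith)

theorem tendsto_sq_of_L2 {Ω : Type*} [MeasurableSpace Ω] {μ : Measure Ω} {u : ℕ → Ω → ℝ}
    {v : Ω → ℝ} (hu : ∀ n, MemLp (u n) 2 μ) (hv : MemLp v 2 μ)
    (h : Filter.Tendsto (fun n => ∫ x, (u n x - v x) ^ 2 ∂μ) Filter.atTop (nhds 0)) :
    Filter.Tendsto (fun n => ∫ x, u n x ^ 2 ∂μ) Filter.atTop (nhds (∫ x, v x ^ 2 ∂μ)) := by
  have hw : ∀ n, MemLp (fun x => u n x - v x) 2 μ := fun n => (hu n).sub hv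
  have e : ∀ n, ∫ x, u n x ^ 2 ∂μ = ∫ x, v x ^ 2 ∂μ + ∫ x, (u n x - v x) ^ 2 ∂μ
      + 2 * ∫ x, (u n x - v x) * v x ∂μ := by
    intro n
    have e1 : (fun x => u n x ^ 2) = fun x => v x ^ 2 + (u n x - v x) ^ 2
        + 2 * ((u n x - v x) * v x) := by funext x; ring
    have i1 : Integrable (fun x => v x ^ 2 + (u n x - v x) ^ 2) μ :=
      hv.integrable_sq.add (hw n).integrable_sq
    have i2 : Integrable (fun x => 2 * ((u n x - v x) * v x)) μ :=
      ((hw n).integrable_mul hv).const_mul _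
    rw [e1, integral_add i1 i2, integral_add hv.integrable_sq
      (hw n).integrable_sq, integral_const_mul]
  have h2 : Filter.Tendsto (fun n => ∫ x, (u n x - v x) * v x ∂μ) Filter.atTop (nhds 0) := by
    have h3 : Filter.Tendsto (fun n => Real.sqrt (∫ x, (u n x - v x) ^ 2 ∂μ)
        * Real.sqrt (∫ x, v x ^ 2 ∂μ)) Filter.atTop (nhds 0) := by
      have := (Real.continuous_sqrt.tendsto 0).comp h
      rw [Real.sqrt_zero] at this
      simpa using this.mul_const (Real.sqrt (∫ x, v x ^ 2 ∂μ))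
    exact squeeze_zero_norm (fun n => by
      rw [Real.norm_eq_abs]; exact cs_L2 (hw n) hv) h3
  simp only [e]
  have := (h.const_add (∫ x, v x ^ 2 ∂μ)).add (h2.const_mul 2)
  simpa using this

theorem tendsto_int_of_L2 {Ω : Type*} [MeasurableSpace Ω] {μ : Measure Ω} [IsProbabilityMeasure μ]
    {u : ℕ → Ω → ℝ} {v : Ω → ℝ} (hu : ∀ n, MemLp (u n) 2 μ) (hv : MemLp v 2 μ)
    (h : Filter.Tendsto (fun n => ∫ x, (u n x - v x) ^ 2 ∂μ) Filter.atTop (nhds 0)) :
    Filter.Tendsto (fun n => ∫ x, u n x ∂μ) Filter.atTop (nhds (∫ x, v x ∂μ)) := by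
  have hw : ∀ n, MemLp (fun x => u n x - v x) 2 μ := fun n => (hu n).sub hv
  have h2 : Filter.Tendsto (fun n => ∫ x, (u n x - v x) ∂μ) Filter.atTop (nhds 0) := by
    have h3 : Filter.Tendsto (fun n => Real.sqrt (∫ x, (u n x - v x) ^ 2 ∂μ)) Filter.atTop
        (nhds 0) := by
      have := (Real.continuous_sqrt.tendsto 0).comp h
      rw [Real.sqrt_zero] at this
      exact this
    refine squeeze_zero_norm (fun n => ?_) h3
    rw [Real.norm_eq_abs]
    have := cs_L2 (hw n) (memLp_const (1 : ℝ))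
    simpa using this
  have e : ∀ n, ∫ x, u n x ∂μ = ∫ x, (u n x - v x) ∂μ + ∫ x, v x ∂μ := by
    intro n
    rw [integral_sub ((hu n).integrable (by norm_num)) (hv.integrable (by norm_num))]
    ring
  simp only [e]
  simpa using h2.add_const (∫ x, v x ∂μ)

theorem BM.memLp {f : (V → E) → ℝ} (hf : BM f) (ν : Measure (V → E)) [IsFiniteMeasure ν] :
    MemLp f 2 ν := by
  obtain ⟨A, hA⟩ := hf.bdd
  exact MemLp.of_bound hf.meas.aestronglyMeasurable A
    (Filter.Eventually.of_forall fun x => by rw [Real.norm_eq_abs]; exact hA x)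

/-- **decorrelated sum along a path** for `L²` limits of finite range equivariant functions -/
theorem decor_sum_lim [G.LocallyFinite] (hT : G.IsTree) (d : ℕ) (hd : 3 ≤ d)
    (hreg : G.IsRegularOfDegree d) {aR : ℕ → V → V → (V → E) → ℝ} (ha : ∀ n, EqvE G (aR n))
    (hb : ∀ n p y, G.Adj p y → BM (aR n p y))
    (hfr : ∀ n p y, G.Adj p y → ∃ W : Finset V, DependsOn (aR n p y) (W : Set V))
    {a : V → V → (V → E) → ℝ} (hL : ∀ p y, G.Adj p y → MemLp (a p y) 2 (lw V P))
    (hlim : ∀ p y, G.Adj p y → Filter.Tendsto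
      (fun n => ∫ ω, (aR n p y ω - a p y ω) ^ 2 ∂(lw V P)) Filter.atTop (nhds 0))
    {x : ℕ → V} {l : ℕ} (hx : NB G x l) {p y : V} (hpy : G.Adj p y) :
    ∫ ω, (∑ i ∈ Finset.range l, a (x i) (x (i + 1)) ω) ^ 2 ∂(lw V P)
      ≤ (l : ℝ) ^ 2 * (∫ ω, a p y ω ∂(lw V P)) ^ 2
        + Cdec d * l * (∫ ω, a p y ω ^ 2 ∂(lw V P) - (∫ ω, a p y ω ∂(lw V P)) ^ 2) := by
  have hbm : ∀ n, ∀ i ∈ Finset.range l, MemLp (aR n (x i) (x (i + 1))) 2 (lw V P) :=
    fun n i hi => (hb n _ _ (hx.adj i (Finset.mem_range.1 hi))).memLp _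
  have hbm' : ∀ i ∈ Finset.range l, MemLp (a (x i) (x (i + 1))) 2 (lw V P) :=
    fun i hi => hL _ _ (hx.adj i (Finset.mem_range.1 hi))
  -- the sum converges in `L²`
  have hsum : Filter.Tendsto (fun n => ∫ ω, (∑ i ∈ Finset.range l, aR n (x i) (x (i + 1)) ω
      - ∑ i ∈ Finset.range l, a (x i) (x (i + 1)) ω) ^ 2 ∂(lw V P)) Filter.atTop (nhds 0) := by
    have h1 : Filter.Tendsto (fun n => (l : ℝ) * ∑ i ∈ Finset.range l,
        ∫ ω, (aR n (x i) (x (i + 1)) ω - a (x i) (x (i + 1)) ω) ^ 2 ∂(lw V P))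
        Filter.atTop (nhds 0) := by
      have := (tendsto_finsetSum (Finset.range l) fun i hi =>
        hlim (x i) (x (i + 1)) (hx.adj i (Finset.mem_range.1 hi))).const_mul (l : ℝ)
      simpa using this
    refine squeeze_zero (fun n => integral_nonneg fun ω => sq_nonneg _) (fun n => ?_) h1
    have hint : ∀ i ∈ Finset.range l, Integrable
        (fun ω => (aR n (x i) (x (i + 1)) ω - a (x i) (x (i + 1)) ω) ^ 2) (lw V P) :=
      fun i hi => ((hbm n i hi).sub (hbm' i hi)).integrable_sq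
    rw [← integral_finsetSum _ hint, ← integral_const_mul]
    refine integral_mono_of_nonneg (Filter.Eventually.of_forall fun ω => sq_nonneg _)
      ((integrable_finsetSum _ hint).const_mul _) (Filter.Eventually.of_forall fun ω => ?_)
    simp only
    rw [← Finset.sum_sub_distrib]
    have := sq_sum_le_card_mul_sum_sq (s := Finset.range l)
      (f := fun i => aR n (x i) (x (i + 1)) ω - a (x i) (x (i + 1)) ω)
    simpa using this
  have t1 := tendsto_sq_of_L2 (fun n => memLp_finsetSum _ (hbm n)) (memLp_finsetSum _ hbm') hsum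
  have t2 := tendsto_sq_of_L2 (fun n => (hb n p y hpy).memLp _) (hL p y hpy) (hlim p y hpy)
  have t3 := tendsto_int_of_L2 (fun n => (hb n p y hpy).memLp _) (hL p y hpy) (hlim p y hpy)
  have t4 := (t3.pow 2).const_mul ((l : ℝ) ^ 2)
  have t5 := (t2.sub (t3.pow 2)).const_mul (Cdec d * l)
  refine le_of_tendsto_of_tendsto' t1 (t4.add t5) fun n => ?_
  have := decor_sum P hT d hd hreg (ha n) (hb n) (hfr n) hx hpy
  unfold vr at this
  simp only [← sq] at this
  exact this

end Crest.Agent.T41
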