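import Mathlib

/-!
S0241, section 6: telescoping of products over blocks and elementary sums.
-/

set_option autoImplicit false

namespace Crest.Agent.T41

open Finset

/-- product over a block -/
def blk (κ : ℕ → ℝ) (a b : ℕ) : ℝ := ∏ i ∈ Ico a b, κ i

theorem blk_mul (κ : ℕ → ℝ) {a b c : ℕ} (hab : a ≤ b) (hbc : b ≤ c) :
    blk κ a b * blk κ b c = blk κ a c := Finset.prod_Ico_consecutive κ hab hbc

theorem blk_self (κ : ℕ → ℝ) (a : ℕ) : blk κ a a = 1 := by simp [blk]

theorem blk_nonneg {κ : ℕ → ℝ} {a b : ℕ} (h : ∀ i, a ≤ i → i < b → 0 ≤ κ i) : 0 ≤ blk κ a b :=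
  Finset.prod_nonneg fun i hi => h i (Finset.mem_Ico.1 hi).1 (Finset.mem_Ico.1 hi).2

theorem blk_le_pow {κ : ℕ → ℝ} {a b : ℕ} {t : ℝ} (h : ∀ i, a ≤ i → i < b → 0 ≤ κ i ∧ κ i ≤ t) :
    blk κ a b ≤ t ^ (b - a) := by
  have := Finset.prod_le_prod (s := Ico a b) (f := κ) (g := fun _ => t)
    (fun i hi => (h i (Finset.mem_Ico.1 hi).1 (Finset.mem_Ico.1 hi).2).1)
    (fun i hi => (h i (Finset.mem_Ico.1 hi).1 (Finset.mem_Ico.1 hi).2).2)
  simpa [blk] using this

/-- telescoping along cut points `c 0 ≤ c 1 ≤ … ≤ c n` -/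
theorem blk_tele (κ κ' : ℕ → ℝ) (c : ℕ → ℕ) (n : ℕ) (hc : ∀ t < n, c t ≤ c (t + 1)) :
    blk κ (c 0) (c n) - blk κ' (c 0) (c n) =
      ∑ t ∈ range n, blk κ (c 0) (c t) * (blk κ (c t) (c (t + 1)) - blk κ' (c t) (c (t + 1))) *
        blk κ' (c (t + 1)) (c n) := by
  have mono : ∀ m ≤ n, ∀ t ≤ m, c t ≤ c m := by
    intro m
    induction m with
    | zero => intro _ t ht; have : t = 0 := by omega
              subst this; exact le_rfl
    | succ m ih =>
      intro hm t ht
      rcases Nat.lt_or_ge t (m + 1) with h | h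
      · exact (ih (by omega) t (by omega)).trans (hc m (by omega))
      · have : t = m + 1 := by omega
        subst this; exact le_rfl
  have key : ∀ m ≤ n, blk κ (c 0) (c m) - blk κ' (c 0) (c m) =
      ∑ t ∈ range m, blk κ (c 0) (c t) * (blk κ (c t) (c (t + 1)) - blk κ' (c t) (c (t + 1))) *
        blk κ' (c (t + 1)) (c m) := by
    intro m
    induction m with
    | zero => intro _; simp [blk_self]
    | succ m ih =>
      intro hm
      rw [Finset.sum_range_succ, blk_self, mul_one]
      have h1 : ∑ t ∈ range m, blk κ (c 0) (c t) *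
          (blk κ (c t) (c (t + 1)) - blk κ' (c t) (c (t + 1))) * blk κ' (c (t + 1)) (c (m + 1)) =
          (blk κ (c 0) (c m) - blk κ' (c 0) (c m)) * blk κ' (c m) (c (m + 1)) := by
        rw [ih (by omega), Finset.sum_mul]
        refine Finset.sum_congr rfl fun t ht => ?_
        have ht := Finset.mem_range.1 ht
        rw [← blk_mul κ' (mono m (by omega) (t + 1) (by omega)) (hc m (by omega))]
        ring
      rw [h1, ← blk_mul κ (mono m (by omega) 0 (by omega)) (hc m (by omega)),
        ← blk_mul κ' (mono m (by omega) 0 (by omega)) (hc m (by omega))]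
      ring
  exact key n le_rfl

/-- square of a sum of `n` terms plus one -/
theorem sq_sum_add_le (n : ℕ) (a : ℕ → ℝ) (b : ℝ) :
    (∑ t ∈ range n, a t + b) ^ 2 ≤ (n + 1) * (∑ t ∈ range n, a t ^ 2 + b ^ 2) := by
  have h := sq_sum_le_card_mul_sum_sq (s := range (n + 1))
    (f := fun t => if t < n then a t else b)
  rw [Finset.sum_range_succ, Finset.sum_range_succ, Finset.card_range] at h
  have e1 : ∑ t ∈ range n, (if t < n then a t else b) = ∑ t ∈ range n, a t :=
    Finset.sum_congr rfl fun t ht => by rw [if_pos (Finset.mem_range.1 ht)]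
  have e2 : ∑ t ∈ range n, (if t < n then a t else b) ^ 2 = ∑ t ∈ range n, a t ^ 2 :=
    Finset.sum_congr rfl fun t ht => by rw [if_pos (Finset.mem_range.1 ht)]
  simp only [lt_irrefl, if_false] at h
  rw [e1, e2] at h
  push_cast at h
  exact h

end Crest.Agent.T41
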