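import Crest.Agent.T41Defs
import Crest.Agent.T41Geo
import Crest.Agent.T41Tele

/-!
S0241, section 6: extension counting and contraction of `Yk`.
-/

set_option autoImplicit false
set_option linter.unusedSectionVars false

namespace Crest.Agent.T41

open MeasureTheory SimpleGraph

universe u

/-! ### measurability of the factors -/

theorem measurable_kap2 (θ : ℝ) : Measurable (fun p : ℝ × ℝ => kap θ p.1 p.2) := by
  unfold kap gg BB
  fun_prop

/-- a path extended at the beginning -/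
def consP {V : Type u} (c : V) (y : ℕ → V) : ℕ → V
  | 0 => c
  | i + 1 => y i

/-- a path extended after position `n` -/
def snocP {V : Type u} (n : ℕ) (c : V) (y : ℕ → V) : ℕ → V := fun i => if i ≤ n then y i else c

section paths
variable {V : Type u} {G : SimpleGraph V}

theorem NB.cons {y : ℕ → V} {n : ℕ} (h : NB G y n) {c : V} (hc : G.Adj (y 0) c)
    (hne : 1 ≤ n → c ≠ y 1) : NB G (consP c y) (n + 1) := by
  refine ⟨fun i hi => ?_, fun i hi => ?_⟩
  · cases i with
    | zero => exact hc.symm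
    | succ i => exact h.adj i (by omega)
  · cases i with
    | zero => exact hne (by omega)
    | succ i => exact h.nb i (by omega)

theorem NB.snoc {y : ℕ → V} {n : ℕ} (h : NB G y n) {c : V} (hc : G.Adj (y n) c)
    (hne : 1 ≤ n → c ≠ y (n - 1)) : NB G (snocP n c y) (n + 1) := by
  refine ⟨fun i hi => ?_, fun i hi => ?_⟩
  · unfold snocP
    rcases Nat.lt_or_ge i n with h1 | h1
    · rw [if_pos (by omega), if_pos (by omega)]; exact h.adj i h1
    · have : i = n := by omega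
      subst this
      rw [if_pos le_rfl, if_neg (by omega)]; exact hc
  · unfold snocP
    rcases Nat.lt_or_ge (i + 1) n with h1 | h1
    · rw [if_pos (by omega), if_pos (by omega)]; exact h.nb i (by omega)
    · have : i = n - 1 := by omega
      subst this
      rw [if_pos (by omega), if_neg (by omega)]
      exact (hne (by omega)).symm

end paths

section ext
variable {V : Type u} {G : SimpleGraph V} [G.LocallyFinite] {d : ℕ}
variable {Ω : Type*} [MeasurableSpace Ω] {P : Measure Ω} [IsProbabilityMeasure P]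

/-- the pair of fields along a path -/
def zp (m m' : V → Ω → ℝ) (x : ℕ → V) (ω : Ω) : ℕ → ℝ × ℝ := fun i => (m (x i) ω, m' (x i) ω)

/-- equivariance in law along non-backtracking paths -/
def EqLaw (G : SimpleGraph V) (P : Measure Ω) (m m' : V → Ω → ℝ) : Prop :=
  ∀ (n : ℕ) (x y : ℕ → V), NB G x n → NB G y n → ∀ Φ : (ℕ → ℝ × ℝ) → ℝ, Measurable Φ →
    (∀ z z' : ℕ → ℝ × ℝ, (∀ i ≤ n, z i = z' i) → Φ z = Φ z') →
    ∫ ω, Φ (zp m m' x ω) ∂P = ∫ ω, Φ (zp m m' y ω) ∂P

/-- hypotheses on a pair of fields -/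
structure Fld (G : SimpleGraph V) (P : Measure Ω) (d : ℕ) (θ θ' : ℝ) (m m' : V → Ω → ℝ) :
    Prop where
  eq : EqLaw G P m m'
  meas : ∀ v, Measurable (m v)
  meas' : ∀ v, Measurable (m' v)
  kap0 : ∀ v w ω, 0 ≤ kap θ (m v ω) (m w ω)
  kap1 : ∀ v w ω, kap θ (m v ω) (m w ω) ≤ θ
  kap0' : ∀ v w ω, 0 ≤ kap θ' (m' v ω) (m' w ω)
  kap1' : ∀ v w ω, kap θ' (m' v ω) (m' w ω) ≤ θ'
  th : ((d : ℝ) - 1) * θ ^ 2 ≤ 1
  th' : ((d : ℝ) - 1) * θ' ^ 2 ≤ 1
  th0 : 0 ≤ θ
  th0' : 0 ≤ θ'
  th1 : θ ≤ 1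
  th1' : θ' ≤ 1

omit [G.LocallyFinite] in
theorem Fld.symm {θ θ' : ℝ} {m m' : V → Ω → ℝ} (h : Fld G P d θ θ' m m') :
    Fld G P d θ' θ m' m := by
  refine ⟨fun n x y hx hy Φ hΦ hd => ?_, h.meas', h.meas, h.kap0', h.kap1', h.kap0, h.kap1,
    h.th', h.th, h.th0', h.th0, h.th1', h.th1⟩
  exact h.eq n x y hx hy (fun z => Φ (fun i => ((z i).2, (z i).1)))
    (hΦ.comp (measurable_pi_lambda _ fun i => by fun_prop))
    (fun z z' hz => hd _ _ fun i hi => by rw [hz i hi])

theorem erase_card [DecidableEq V] (hreg : G.IsRegularOfDegree d) {y p : V}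
    (h : G.Adj y p) : (((G.neighborFinset y).erase p).card : ℝ) = (d : ℝ) - 1 := by
  have h1 : ((G.neighborFinset y).erase p).card + 1 = d := by
    rw [Finset.card_erase_add_one ((G.mem_neighborFinset y p).2 h)]
    exact hreg y
  have h2 : (((G.neighborFinset y).erase p).card : ℝ) + 1 = d := by exact_mod_cast h1
  linarith

/-- `Yk` is between 0 and 1 -/
theorem Yk_bd (hreg : G.IsRegularOfDegree d) {θ : ℝ} {m : V → ℝ}
    (h0 : ∀ v w, 0 ≤ kap θ (m v) (m w)) (h1 : ∀ v w, kap θ (m v) (m w) ≤ θ)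
    (hth : ((d : ℝ) - 1) * θ ^ 2 ≤ 1) (i : ℕ) (y p : V) (hyp : G.Adj y p) :
    0 ≤ Yk G θ m i y p ∧ Yk G θ m i y p ≤ 1 := by
  classical
  induction i generalizing y p with
  | zero => simp [Yk]
  | succ i ih =>
    have hc : ∀ c ∈ (G.neighborFinset y).erase p, G.Adj c y := fun c hc =>
      ((G.mem_neighborFinset y c).1 (Finset.mem_of_mem_erase hc)).symm
    have e : Yk G θ m (i + 1) y p = ∑ c ∈ (G.neighborFinset y).erase p,
        (kap θ (m c) (m y)) ^ 2 * Yk G θ m i c y := by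
      rw [Yk]
    rw [e]
    constructor
    · exact Finset.sum_nonneg fun c hcm => mul_nonneg (sq_nonneg _) (ih c y (hc c hcm)).1
    · calc ∑ c ∈ (G.neighborFinset y).erase p, (kap θ (m c) (m y)) ^ 2 * Yk G θ m i c y
          ≤ ∑ c ∈ (G.neighborFinset y).erase p, θ ^ 2 := by
            refine Finset.sum_le_sum fun c hcm => ?_
            have h2 := ih c y (hc c hcm)
            have h3 : kap θ (m c) (m y) ^ 2 ≤ θ ^ 2 :=
              pow_le_pow_left₀ (h0 c y) (h1 c y) 2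
            nlinarith [sq_nonneg (kap θ (m c) (m y)), sq_nonneg θ]
        _ = ((d : ℝ) - 1) * θ ^ 2 := by
            rw [Finset.sum_const, nsmul_eq_mul, erase_card hreg hyp]
        _ ≤ 1 := hth

theorem Yk_meas {θ : ℝ} {m : V → Ω → ℝ} (hm : ∀ v, Measurable (m v)) (i : ℕ) (y p : V) :
    Measurable (fun ω => Yk G θ (fun v => m v ω) i y p) := by
  classical
  induction i generalizing y p with
  | zero => simp only [Yk]; exact measurable_const
  | succ i ih =>
    simp only [Yk]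
    refine Finset.measurable_sum _ fun c _ => ?_
    exact (((measurable_kap2 θ).comp ((hm c).prodMk (hm y))).pow_const 2).mul (ih c y)

theorem integrable_bdd {f : Ω → ℝ} (hf : Measurable f) (C : ℝ) (hC : ∀ ω, |f ω| ≤ C) :
    Integrable f P :=
  Integrable.of_bound hf.aestronglyMeasurable C (Filter.Eventually.of_forall fun ω => by
    rw [Real.norm_eq_abs]; exact hC ω)

/-! ### extension counting -/

/-- left factor -/
noncomputable def Af (θ : ℝ) (a : ℕ) (z : ℕ → ℝ × ℝ) : ℝ := ∏ i ∈ Finset.range a, kap θ (z i).1 (z (i + 1)).1 ^ 2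

/-- right factor -/
noncomputable def Bf (θ' : ℝ) (s b : ℕ) (z : ℕ → ℝ × ℝ) : ℝ :=
  ∏ i ∈ Finset.range b, kap θ' (z (s + i + 1)).2 (z (s + i)).2 ^ 2

/-- the integrand of the extension identity -/
noncomputable def Hx (G : SimpleGraph V) [G.LocallyFinite] (θ θ' : ℝ) (m m' : V → Ω → ℝ)
    (Mid : (ℕ → ℝ × ℝ) → ℝ) (y : ℕ → V) (a l b j r : ℕ) (ω : Ω) : ℝ :=
  Af θ a (zp m m' y ω) * Mid (fun i => zp m m' y ω (a + i)) * Bf θ' (a + l) b (zp m m' y ω) *
    Yk G θ (fun v => m v ω) j (y 0) (y 1) *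
      Yk G θ' (fun v => m' v ω) r (y (a + l + b)) (y (a + l + b - 1))

theorem prod_sq_bd {f : ℕ → ℝ} {t : ℝ} (n : ℕ) (h : ∀ i, 0 ≤ f i ∧ f i ≤ t) (ht : t ≤ 1) :
    0 ≤ ∏ i ∈ Finset.range n, f i ^ 2 ∧ ∏ i ∈ Finset.range n, f i ^ 2 ≤ 1 :=
  ⟨Finset.prod_nonneg fun i _ => sq_nonneg _,
    Finset.prod_le_one (fun i _ => sq_nonneg _) fun i _ => by
      have := h i
      nlinarith⟩

variable {θ θ' : ℝ} {m m' : V → Ω → ℝ}

theorem zp_meas (h : Fld G P d θ θ' m m') (y : ℕ → V) : Measurable (zp m m' y) :=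
  measurable_pi_lambda _ fun i => (h.meas (y i)).prodMk (h.meas' (y i))

theorem Af_meas (θ : ℝ) (a : ℕ) : Measurable (Af θ a) := by
  unfold Af
  refine Finset.measurable_prod _ fun i _ => ?_
  exact ((measurable_kap2 θ).comp (by fun_prop : Measurable
    (fun z : ℕ → ℝ × ℝ => ((z i).1, (z (i + 1)).1)))).pow_const 2

theorem Bf_meas (θ' : ℝ) (s b : ℕ) : Measurable (Bf θ' s b) := by
  unfold Bf
  refine Finset.measurable_prod _ fun i _ => ?_
  exact ((measurable_kap2 θ').comp (by fun_prop : Measurable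
    (fun z : ℕ → ℝ × ℝ => ((z (s + i + 1)).2, (z (s + i)).2)))).pow_const 2

theorem Af_bd (h : Fld G P d θ θ' m m') (a : ℕ) (y : ℕ → V) (ω : Ω) :
    0 ≤ Af θ a (zp m m' y ω) ∧ Af θ a (zp m m' y ω) ≤ 1 :=
  prod_sq_bd a (fun i => ⟨h.kap0 (y i) (y (i + 1)) ω, h.kap1 (y i) (y (i + 1)) ω⟩) h.th1

theorem Bf_bd (h : Fld G P d θ θ' m m') (s b : ℕ) (y : ℕ → V) (ω : Ω) :
    0 ≤ Bf θ' s b (zp m m' y ω) ∧ Bf θ' s b (zp m m' y ω) ≤ 1 :=
  prod_sq_bd b (fun i => ⟨h.kap0' (y (s + i + 1)) (y (s + i)) ω,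
    h.kap1' (y (s + i + 1)) (y (s + i)) ω⟩) h.th1'


theorem Hx_bd (hreg : G.IsRegularOfDegree d) (h : Fld G P d θ θ' m m')
    {Mid : (ℕ → ℝ × ℝ) → ℝ} {C : ℝ} (hC : ∀ y : ℕ → V, ∀ ω, |Mid (zp m m' y ω)| ≤ C)
    {y : ℕ → V} {a l b : ℕ} (hy : NB G y (a + l + b)) (hl : 1 ≤ a + l + b) (j r : ℕ) (ω : Ω) :
    |Hx G θ θ' m m' Mid y a l b j r ω| ≤ C := by
  unfold Hx
  have h1 := Af_bd (P := P) h a y ω
  have h2 := Bf_bd (P := P) h (a + l) b y ω
  have h3 : |Mid (fun i => zp m m' y ω (a + i))| ≤ C := hC (fun i => y (a + i)) ω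
  have hadj0 := hy.adj 0 (by omega)
  have h4 := Yk_bd hreg (fun v w => h.kap0 v w ω) (fun v w => h.kap1 v w ω) h.th j (y 0) (y 1)
    hadj0
  have hadj1 := hy.adj (a + l + b - 1) (by omega)
  rw [show a + l + b - 1 + 1 = a + l + b by omega] at hadj1
  have h5 := Yk_bd hreg (fun v w => h.kap0' v w ω) (fun v w => h.kap1' v w ω) h.th' r
    (y (a + l + b)) (y (a + l + b - 1)) hadj1.symm
  rw [abs_mul, abs_mul, abs_mul, abs_mul, abs_of_nonneg h1.1, abs_of_nonneg h2.1,
    abs_of_nonneg h4.1, abs_of_nonneg h5.1]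
  have hC0 : 0 ≤ C := (abs_nonneg _).trans h3
  have e1 : Af θ a (zp m m' y ω) * |Mid (fun i => zp m m' y ω (a + i))| ≤ 1 * C :=
    mul_le_mul h1.2 h3 (abs_nonneg _) zero_le_one
  have e2 := mul_le_mul e1 h2.2 h2.1 (by linarith)
  have e3 := mul_le_mul e2 h4.2 h4.1 (by linarith)
  have e4 := mul_le_mul e3 h5.2 h5.1 (by linarith)
  linarith

theorem Hx_meas (h : Fld G P d θ θ' m m') {Mid : (ℕ → ℝ × ℝ) → ℝ} (hM : Measurable Mid)
    (y : ℕ → V) (a l b j r : ℕ) : Measurable (Hx G θ θ' m m' Mid y a l b j r) := by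
  unfold Hx
  have h0 := zp_meas (P := P) h y
  have h1 : Measurable (fun ω => Mid (fun i => zp m m' y ω (a + i))) :=
    hM.comp (measurable_pi_lambda _ fun i => (measurable_pi_apply (a + i)).comp h0)
  exact (((((Af_meas θ a).comp h0).mul h1).mul ((Bf_meas θ' (a + l) b).comp h0)).mul
    (Yk_meas h.meas j (y 0) (y 1))).mul (Yk_meas h.meas' r _ _)

theorem zp_cons (c : V) (y : ℕ → V) (ω : Ω) (i : ℕ) :
    zp m m' (consP c y) ω (i + 1) = zp m m' y ω i := rfl

theorem Hx_cons_sum (y : ℕ → V) (Mid : (ℕ → ℝ × ℝ) → ℝ) (a l b j r : ℕ) (hl : 1 ≤ a + l + b)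
    (ω : Ω) [DecidableEq V] :
    Hx G θ θ' m m' Mid y a l b (j + 1) r ω =
      ∑ c ∈ (G.neighborFinset (y 0)).erase (y 1),
        Hx G θ θ' m m' Mid (consP c y) (a + 1) l b j r ω := by
  have e : Yk G θ (fun v => m v ω) (j + 1) (y 0) (y 1) =
      ∑ c ∈ (G.neighborFinset (y 0)).erase (y 1),
        (kap θ (m c ω) (m (y 0) ω)) ^ 2 * Yk G θ (fun v => m v ω) j c (y 0) := by
    rw [Yk]; congr!
  unfold Hx
  rw [e, Finset.mul_sum, Finset.sum_mul]
  refine Finset.sum_congr rfl fun c _ => ?_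
  have e1 : Af θ (a + 1) (zp m m' (consP c y) ω) =
      Af θ a (zp m m' y ω) * kap θ (m c ω) (m (y 0) ω) ^ 2 := by
    unfold Af
    rw [Finset.prod_range_succ']
    rfl
  have e2 : (fun i => zp m m' (consP c y) ω (a + 1 + i)) = fun i => zp m m' y ω (a + i) := by
    funext i
    rw [show a + 1 + i = (a + i) + 1 by omega, zp_cons]
  have e3 : Bf θ' (a + 1 + l) b (zp m m' (consP c y) ω) = Bf θ' (a + l) b (zp m m' y ω) := by
    unfold Bf
    refine Finset.prod_congr rfl fun i _ => ?_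
    rw [show a + 1 + l + i = (a + l + i) + 1 by omega, zp_cons, zp_cons]
  have e4 : consP c y (a + 1 + l + b) = y (a + l + b) := by
    rw [show a + 1 + l + b = (a + l + b) + 1 by omega]; rfl
  have e5 : consP c y (a + 1 + l + b - 1) = y (a + l + b - 1) := by
    rw [show a + 1 + l + b - 1 = (a + l + b - 1) + 1 by omega]; rfl
  rw [e1, e2, e3, e4, e5]
  have e6 : consP c y 0 = c := rfl
  have e7 : consP c y 1 = y 0 := rfl
  rw [e6, e7]
  ring

theorem zp_snoc (n : ℕ) (c : V) (y : ℕ → V) (ω : Ω) (i : ℕ) (hi : i ≤ n) :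
    zp m m' (snocP n c y) ω i = zp m m' y ω i := by
  unfold zp snocP
  rw [if_pos hi]

theorem Hx_snoc_sum (y : ℕ → V) (Mid : (ℕ → ℝ × ℝ) → ℝ) (a l b j r : ℕ) (hl : 1 ≤ a + l + b)
    (hMd : ∀ z z' : ℕ → ℝ × ℝ, (∀ i ≤ l, z i = z' i) → Mid z = Mid z')
    (ω : Ω) [DecidableEq V] :
    Hx G θ θ' m m' Mid y a l b j (r + 1) ω =
      ∑ c ∈ (G.neighborFinset (y (a + l + b))).erase (y (a + l + b - 1)),
        Hx G θ θ' m m' Mid (snocP (a + l + b) c y) a l (b + 1) j r ω := by
  have e : Yk G θ' (fun v => m' v ω) (r + 1) (y (a + l + b)) (y (a + l + b - 1)) =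
      ∑ c ∈ (G.neighborFinset (y (a + l + b))).erase (y (a + l + b - 1)),
        (kap θ' (m' c ω) (m' (y (a + l + b)) ω)) ^ 2 *
          Yk G θ' (fun v => m' v ω) r c (y (a + l + b)) := by
    rw [Yk]; congr!
  unfold Hx
  rw [e, Finset.mul_sum]
  refine Finset.sum_congr rfl fun c _ => ?_
  set n := a + l + b with hn
  have e1 : Af θ a (zp m m' (snocP n c y) ω) = Af θ a (zp m m' y ω) := by
    unfold Af
    refine Finset.prod_congr rfl fun i hi => ?_
    have hi := Finset.mem_range.1 hi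
    rw [zp_snoc n c y ω i (by omega), zp_snoc n c y ω (i + 1) (by omega)]
  have e2 : Mid (fun i => zp m m' (snocP n c y) ω (a + i)) =
      Mid (fun i => zp m m' y ω (a + i)) :=
    hMd _ _ fun i hi => zp_snoc n c y ω (a + i) (by omega)
  have e3 : Bf θ' (a + l) (b + 1) (zp m m' (snocP n c y) ω) =
      Bf θ' (a + l) b (zp m m' y ω) * kap θ' (m' c ω) (m' (y n) ω) ^ 2 := by
    unfold Bf
    rw [Finset.prod_range_succ]
    congr 1
    · refine Finset.prod_congr rfl fun i hi => ?_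
      have hi := Finset.mem_range.1 hi
      rw [zp_snoc n c y ω _ (by omega), zp_snoc n c y ω _ (by omega)]
    · have e31 : (zp m m' (snocP n c y) ω (a + l + b + 1)).2 = m' c ω := by
        unfold zp snocP
        rw [if_neg (by omega)]
      have e32 : (zp m m' (snocP n c y) ω (a + l + b)).2 = m' (y n) ω := by
        rw [zp_snoc n c y ω _ (by omega), ← hn]; rfl
      rw [e31, e32]
  have e4 : snocP n c y (a + l + (b + 1)) = c := by
    unfold snocP; rw [if_neg (by omega)]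
  have e5 : snocP n c y (a + l + (b + 1) - 1) = y n := by
    unfold snocP
    rw [if_pos (by omega)]
    congr 1
  have e6 : snocP n c y 0 = y 0 := by unfold snocP; rw [if_pos (by omega)]
  have e7 : snocP n c y 1 = y 1 := by unfold snocP; rw [if_pos (by omega)]
  rw [e1, e2, e3, e4, e5, e6, e7]
  ring

/-- the extension identity -/
theorem ext_count (hreg : G.IsRegularOfDegree d) (h : Fld G P d θ θ' m m')
    {Mid : (ℕ → ℝ × ℝ) → ℝ} (hM : Measurable Mid) (l : ℕ)
    (hMd : ∀ z z' : ℕ → ℝ × ℝ, (∀ i ≤ l, z i = z' i) → Mid z = Mid z') {C : ℝ}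
    (hC : ∀ y : ℕ → V, ∀ ω, |Mid (zp m m' y ω)| ≤ C) (x : ℕ → V) (hx : ∀ n, NB G x n)
    (j r : ℕ) : ∀ (a b : ℕ) (y : ℕ → V), NB G y (a + l + b) → 1 ≤ a + l + b →
    ∫ ω, Hx G θ θ' m m' Mid y a l b j r ω ∂P =
      ((d : ℝ) - 1) ^ (j + r) * ∫ ω, Hx G θ θ' m m' Mid x (a + j) l (b + r) 0 0 ω ∂P := by
  classical
  have base : ∀ (a b : ℕ) (y : ℕ → V), NB G y (a + l + b) → 1 ≤ a + l + b →
      ∫ ω, Hx G θ θ' m m' Mid y a l b 0 0 ω ∂P = ∫ ω, Hx G θ θ' m m' Mid x a l b 0 0 ω ∂P := by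
    intro a b y hy hl
    have := h.eq (a + l + b) y x hy (hx _)
      (fun z => Af θ a z * Mid (fun i => z (a + i)) * Bf θ' (a + l) b z)
      (((Af_meas θ a).mul (hM.comp (measurable_pi_lambda _ fun i =>
        measurable_pi_apply (a + i)))).mul (Bf_meas θ' (a + l) b))
      (fun z z' hz => by
        have e1 : Af θ a z = Af θ a z' := by
          unfold Af
          refine Finset.prod_congr rfl fun i hi => ?_
          have hi := Finset.mem_range.1 hi
          rw [hz i (by omega), hz (i + 1) (by omega)]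
        have e2 : Mid (fun i => z (a + i)) = Mid (fun i => z' (a + i)) :=
          hMd _ _ fun i hi => hz _ (by omega)
        have e3 : Bf θ' (a + l) b z = Bf θ' (a + l) b z' := by
          unfold Bf
          refine Finset.prod_congr rfl fun i hi => ?_
          have hi := Finset.mem_range.1 hi
          rw [hz _ (by omega), hz (a + l + i) (by omega)]
        simp only [e1, e2, e3])
    simpa [Hx, Yk] using this
  have hint : ∀ (a b j r : ℕ) (y : ℕ → V), NB G y (a + l + b) → 1 ≤ a + l + b →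
      Integrable (Hx G θ θ' m m' Mid y a l b j r) P := fun a b j r y hy hl =>
    integrable_bdd (Hx_meas h hM y a l b j r) C (Hx_bd hreg h hC hy hl j r)
  induction r with
  | zero =>
    induction j with
    | zero => intro a b y hy hl; simpa using base a b y hy hl
    | succ j ih =>
      intro a b y hy hl
      have hadj := hy.adj 0 (by omega)
      have hcnb : ∀ c ∈ (G.neighborFinset (y 0)).erase (y 1), NB G (consP c y) (a + 1 + l + b) := by
        intro c hc
        have := hy.cons ((G.mem_neighborFinset (y 0) c).1 (Finset.mem_of_mem_erase hc))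
          (fun _ => (Finset.mem_erase.1 hc).1)
        rwa [show a + l + b + 1 = a + 1 + l + b by omega] at this
      simp_rw [Hx_cons_sum (G := G) (θ := θ) (θ' := θ') (m := m) (m' := m') y Mid a l b j 0 hl]
      rw [integral_finsetSum _ fun c hc => hint (a + 1) b j 0 _ (hcnb c hc) (by omega)]
      rw [Finset.sum_congr rfl fun c hc => ih (a + 1) b (consP c y) (hcnb c hc) (by omega)]
      rw [Finset.sum_const, nsmul_eq_mul, erase_card hreg hadj,
        show a + 1 + j = a + (j + 1) by omega]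
      ring
  | succ r ih =>
    intro a b y hy hl
    have hadj := hy.adj (a + l + b - 1) (by omega)
    rw [show a + l + b - 1 + 1 = a + l + b by omega] at hadj
    have hcnb : ∀ c ∈ (G.neighborFinset (y (a + l + b))).erase (y (a + l + b - 1)),
        NB G (snocP (a + l + b) c y) (a + l + (b + 1)) := by
      intro c hc
      have := hy.snoc ((G.mem_neighborFinset (y (a + l + b)) c).1 (Finset.mem_of_mem_erase hc))
        (fun _ => (Finset.mem_erase.1 hc).1)
      rwa [show a + l + b + 1 = a + l + (b + 1) by omega] at this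
    simp_rw [Hx_snoc_sum (G := G) (θ := θ) (θ' := θ') (m := m) (m' := m') y Mid a l b j r hl hMd]
    rw [integral_finsetSum _ fun c hc => hint a (b + 1) j r _ (hcnb c hc) (by omega)]
    rw [Finset.sum_congr rfl fun c hc => ih a (b + 1) (snocP (a + l + b) c y) (hcnb c hc)
      (by omega)]
    rw [Finset.sum_const, nsmul_eq_mul, erase_card hreg hadj.symm,
      show b + 1 + r = b + (r + 1) by omega]
    ring

/-! ### contraction -/

/-- the bad part -/
noncomputable def Bk (G : SimpleGraph V) [G.LocallyFinite] (θ : ℝ) (m : V → ℝ) (L : ℕ) :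
    ℕ → V → V → ℝ
  | 0, y, p => if 1 / 4 < Yk G θ m L y p then 1 else 0
  | i + 1, y, p => by
      classical
      exact ∑ c ∈ (G.neighborFinset y).erase p, θ ^ 2 * Bk G θ m L i c y

theorem Bk_nonneg (θ : ℝ) (m : V → ℝ) (L i : ℕ) (y p : V) : 0 ≤ Bk G θ m L i y p := by
  classical
  induction i generalizing y p with
  | zero => simp only [Bk]; split_ifs <;> norm_num
  | succ i ih =>
    simp only [Bk]
    exact Finset.sum_nonneg fun c _ => mul_nonneg (sq_nonneg _) (ih c y)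

theorem Yk_contr (hreg : G.IsRegularOfDegree d) {θ : ℝ} {m : V → ℝ}
    (h0 : ∀ v w, 0 ≤ kap θ (m v) (m w)) (h1 : ∀ v w, kap θ (m v) (m w) ≤ θ)
    (hth : ((d : ℝ) - 1) * θ ^ 2 ≤ 1) (L i : ℕ) (y p : V) (hyp : G.Adj y p) :
    Yk G θ m (i + L) y p ≤ Yk G θ m i y p / 4 + Bk G θ m L i y p := by
  classical
  induction i generalizing y p with
  | zero =>
    rw [Nat.zero_add]
    have := Yk_bd hreg h0 h1 hth L y p hyp
    simp only [Bk, Yk]
    split_ifs with hc
    · linarith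
    · push Not at hc; linarith
  | succ i ih =>
    rw [show i + 1 + L = (i + L) + 1 by omega]
    have e : ∀ n, Yk G θ m (n + 1) y p = ∑ c ∈ (G.neighborFinset y).erase p,
        (kap θ (m c) (m y)) ^ 2 * Yk G θ m n c y := fun n => by rw [Yk]
    rw [e, e]
    simp only [Bk]
    rw [Finset.sum_div, ← Finset.sum_add_distrib]
    refine Finset.sum_le_sum fun c hc => ?_
    have hadj : G.Adj c y := ((G.mem_neighborFinset y c).1 (Finset.mem_of_mem_erase hc)).symm
    have h2 := ih c y hadj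
    have h3 : kap θ (m c) (m y) ^ 2 ≤ θ ^ 2 := pow_le_pow_left₀ (h0 c y) (h1 c y) 2
    have h4 := Bk_nonneg (G := G) θ m L i c y
    have h5 := sq_nonneg (kap θ (m c) (m y))
    calc kap θ (m c) (m y) ^ 2 * Yk G θ m (i + L) c y
        ≤ kap θ (m c) (m y) ^ 2 * (Yk G θ m i c y / 4 + Bk G θ m L i c y) :=
          mul_le_mul_of_nonneg_left h2 h5
      _ ≤ _ := by nlinarith

theorem Yk_contr' (hreg : G.IsRegularOfDegree d) {θ : ℝ} {m : V → ℝ}
    (h0 : ∀ v w, 0 ≤ kap θ (m v) (m w)) (h1 : ∀ v w, kap θ (m v) (m w) ≤ θ)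
    (hth : ((d : ℝ) - 1) * θ ^ 2 ≤ 1) (L i n : ℕ) (y p : V) (hyp : G.Adj y p) :
    Yk G θ m (i + n * L) y p ≤ (1 / 4) ^ n + ∑ s ∈ Finset.range n, Bk G θ m L (i + s * L) y p := by
  induction n with
  | zero => simpa using (Yk_bd hreg h0 h1 hth i y p hyp).2
  | succ n ih =>
    have h2 := Yk_contr hreg h0 h1 hth L (i + n * L) y p hyp
    rw [show i + n * L + L = i + (n + 1) * L by ring] at h2
    rw [Finset.sum_range_succ, pow_succ]
    have h3 : 0 ≤ ∑ s ∈ Finset.range n, Bk G θ m L (i + s * L) y p :=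
      Finset.sum_nonneg fun s _ => Bk_nonneg θ m L _ y p
    linarith

theorem Bk_meas {θ : ℝ} {m : V → Ω → ℝ} (hm : ∀ v, Measurable (m v)) (L i : ℕ) (y p : V) :
    Measurable (fun ω => Bk G θ (fun v => m v ω) L i y p) := by
  classical
  induction i generalizing y p with
  | zero =>
    simp only [Bk]
    exact Measurable.ite (measurableSet_lt measurable_const (Yk_meas hm L y p))
      measurable_const measurable_const
  | succ i ih =>
    simp only [Bk]
    exact Finset.measurable_sum _ fun c _ => (ih c y).const_mul _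

theorem Bk_le_one (hreg : G.IsRegularOfDegree d) {θ : ℝ} {m : V → ℝ}
    (hth : ((d : ℝ) - 1) * θ ^ 2 ≤ 1) (L i : ℕ) (y p : V) (hyp : G.Adj y p) :
    Bk G θ m L i y p ≤ 1 := by
  classical
  induction i generalizing y p with
  | zero => simp only [Bk]; split_ifs <;> norm_num
  | succ i ih =>
    simp only [Bk]
    calc ∑ c ∈ (G.neighborFinset y).erase p, θ ^ 2 * Bk G θ m L i c y
        ≤ ∑ c ∈ (G.neighborFinset y).erase p, θ ^ 2 := by
          refine Finset.sum_le_sum fun c hc => ?_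
          have hadj : G.Adj c y :=
            ((G.mem_neighborFinset y c).1 (Finset.mem_of_mem_erase hc)).symm
          nlinarith [ih c y hadj, sq_nonneg θ]
      _ = ((d : ℝ) - 1) * θ ^ 2 := by rw [Finset.sum_const, nsmul_eq_mul, erase_card hreg hyp]
      _ ≤ 1 := hth

theorem Bk_int (hreg : G.IsRegularOfDegree d) {θ : ℝ} {m : V → Ω → ℝ}
    (hm : ∀ v, Measurable (m v)) (hth : ((d : ℝ) - 1) * θ ^ 2 ≤ 1) (L : ℕ) {ε : ℝ} (hε : 0 ≤ ε)
    (hP : ∀ y p, G.Adj y p → ∫ ω, Bk G θ (fun v => m v ω) L 0 y p ∂P ≤ ε) (i : ℕ) (y p : V)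
    (hyp : G.Adj y p) : ∫ ω, Bk G θ (fun v => m v ω) L i y p ∂P ≤ ε := by
  classical
  induction i generalizing y p with
  | zero => exact hP y p hyp
  | succ i ih =>
    simp only [Bk]
    have hadj : ∀ c ∈ (G.neighborFinset y).erase p, G.Adj c y := fun c hc =>
      ((G.mem_neighborFinset y c).1 (Finset.mem_of_mem_erase hc)).symm
    rw [integral_finsetSum _ fun c hc => (integrable_bdd (Bk_meas hm L i c y) 1 (fun ω => by
      rw [abs_of_nonneg (Bk_nonneg _ _ _ _ _ _)]
      exact Bk_le_one hreg hth L i c y (hadj c hc))).const_mul _]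
    simp_rw [integral_const_mul]
    calc ∑ c ∈ (G.neighborFinset y).erase p, θ ^ 2 * ∫ ω, Bk G θ (fun v => m v ω) L i c y ∂P
        ≤ ∑ c ∈ (G.neighborFinset y).erase p, θ ^ 2 * ε :=
          Finset.sum_le_sum fun c hc => mul_le_mul_of_nonneg_left (ih c y (hadj c hc))
            (sq_nonneg _)
      _ = (((d : ℝ) - 1) * θ ^ 2) * ε := by
          rw [Finset.sum_const, nsmul_eq_mul, erase_card hreg hyp]; ring
      _ ≤ ε := by nlinarith

end ext

end Crest.Agent.T41
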