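import Crest.Agent.T41Ising

/-!
S0241: marginals of the Ising measure without field on connected sets, convexity of balls,
bounds for the cavity field.
-/

set_option autoImplicit false

namespace Crest.Agent.T41

open Finset
open Crest.ProbabilityR.TreeIsing
open scoped Classical

noncomputable section

universe u
variable {V : Type u}

section geom
variable {G : SimpleGraph V} (hT : G.IsTree)
include hT

/-- balls are convex -/
theorem geo_mem_of_dist_le {o x z : V} {R : ℕ} (hx : G.dist o x ≤ R) (hz : G.dist o z ≤ R)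
    (i : ℕ) (hi : i ≤ G.dist x z) : G.dist o (geo hT x z i) ≤ R := by
  obtain ⟨l, hl, h1, h2⟩ := (nb_geo hT x z).vshape hT o
  rw [geo_zero hT] at h1
  by_cases hil : i ≤ l
  · have := h1 i hil
    omega
  · have h3 := h2 i (by omega) hi
    have h4 := h2 _ hl le_rfl
    rw [geo_last hT] at h4
    omega

theorem geo_mem_ball [G.LocallyFinite] {o x z : V} {R : ℕ} (hx : x ∈ ball G o R)
    (hz : z ∈ ball G o R) (i : ℕ) (hi : i ≤ G.dist x z) : geo hT x z i ∈ ball G o R := by
  rw [mem_ball hT] at *
  exact geo_mem_of_dist_le hT hx hz i hi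

theorem par_mem_ball [G.LocallyFinite] {o s x : V} {R : ℕ} (hs : s ∈ ball G o R)
    (hx : x ∈ ball G o R) (hne : x ≠ s) : par hT s x ∈ ball G o R := by
  have hd : 0 < G.dist s x := by
    rw [Nat.pos_iff_ne_zero]
    intro h
    exact hne ((hT.connected.dist_eq_zero_iff).1 h).symm
  have h1 := par_geo_succ hT s x (G.dist s x - 1) (by omega)
  rw [show G.dist s x - 1 + 1 = G.dist s x by omega, geo_last hT] at h1
  rw [h1]
  exact geo_mem_ball hT hs hx _ (by omega)

theorem par_mem_of_connected {S : Set V} (hS : (G.induce S).Connected) {s x : V}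
    (hs : s ∈ S) (hx : x ∈ S) (hne : x ≠ s) : par hT s x ∈ S := by
  have hadj := par_adj hT s x hne
  set w := par hT s x with hw
  have hxb : x ∈ br G x w := self_mem_br hT hadj
  have hsb : s ∉ br G x w := by
    rw [notMem_br hT hadj, mem_br hT hadj.symm]
    exact par_dist hT s x hne
  obtain ⟨p⟩ := hS.preconnected ⟨x, hx⟩ ⟨s, hs⟩
  obtain ⟨d, _, hd1, hd2⟩ := p.exists_boundary_dart {y | (y : V) ∈ br G x w} hxb hsb
  have h3 : G.Adj (d.fst : V) (d.snd : V) := d.adj
  have h4 : (d.snd : V) ∉ br G x w := hd2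
  rw [notMem_br hT hadj] at h4
  obtain ⟨_, h5⟩ := br_cross hT hadj hd1 h4 h3
  rw [← h5]
  exact d.snd.2

end geom

theorem adm_zero {θ : ℝ} (h0 : 0 ≤ θ) (h1 : θ < 1) (S : Finset V) :
    Adm θ S (fun _ => (0 : ℝ)) := ⟨h0, h1, fun v _ => by simp⟩

/-- restriction of the field-free Gibbs sum to a parent-closed subset -/
theorem gib_marginal_aux {G : SimpleGraph V} (hT : G.IsTree) {θ : ℝ} (h0 : 0 ≤ θ) (h1 : θ < 1)
    (s : V) {S : Finset V} (hs : s ∈ S) (hSp : ∀ x ∈ S, x ≠ s → par hT s x ∈ S)
    {f : (V → Bool) → ℝ} (hf : DependsOn f (S : Set V)) (n : ℕ) :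
    ∀ Λ : Finset V, (Λ \ S).card = n → S ⊆ Λ → (∀ x ∈ Λ, x ≠ s → par hT s x ∈ Λ) →
      gib G θ Λ (fun _ => 0) f = gib G θ S (fun _ => 0) f := by
  induction n with
  | zero =>
    intro Λ hc hSΛ _
    rw [Finset.card_eq_zero, Finset.sdiff_eq_empty_iff_subset] at hc
    rw [Finset.Subset.antisymm hSΛ hc]
  | succ n ih =>
    intro Λ hc hSΛ hΛp
    have hne : (Λ \ S).Nonempty := by
      rw [← Finset.card_pos, hc]; omega
    obtain ⟨x, hx, hmax⟩ := Finset.exists_max_image (Λ \ S) (fun x => G.dist s x) hne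
    rw [mem_sdiff] at hx
    have hxs : x ≠ s := by rintro rfl; exact hx.2 hs
    have hnopar : ∀ z ∈ Λ, z ≠ s → par hT s z ≠ x := by
      intro z hz hzs hpz
      have hd := par_dist hT s z hzs
      rw [hpz] at hd
      by_cases hzS : z ∈ S
      · exact hx.2 (hpz ▸ hSp z hzS hzs)
      · have := hmax z (mem_sdiff.2 ⟨hz, hzS⟩)
        omega
    have hE : OneEdge G (Λ.erase x) {x} (par hT s x) x := by
      refine ⟨by simp, ?_, by simp, (par_adj hT s x hxs).symm, ?_⟩
      · rw [mem_erase]
        refine ⟨(par_adj hT s x hxs).ne.symm, hΛp x hx.1 hxs⟩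
      · intro z hz w hw hzw
        rw [mem_singleton] at hw
        subst hw
        refine ⟨?_, rfl⟩
        rw [mem_erase] at hz
        rcases (adj_iff_par hT s z w).1 hzw with ⟨h2, h3⟩ | ⟨_, h3⟩
        · exact absurd h3 (hnopar z hz.2 h2)
        · exact h3.symm
    have hun : Λ.erase x ∪ {x} = Λ := by
      ext z
      rw [mem_union, mem_erase, mem_singleton]
      constructor
      · rintro (⟨_, h⟩ | rfl)
        · exact h
        · exact hx.1
      · intro hz
        by_cases hzx : z = x
        · exact Or.inr hzx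
        · exact Or.inl ⟨hzx, hz⟩
    have hSe : S ⊆ Λ.erase x := by
      intro z hz
      rw [mem_erase]
      refine ⟨?_, hSΛ hz⟩
      rintro rfl; exact hx.2 hz
    have hfe : DependsOn f ((Λ.erase x : Finset V) : Set V) :=
      hf.mono (by exact_mod_cast hSe)
    have h2 := gib_union_left hE (adm_zero h0 h1 (Λ.erase x)) (adm_zero h0 h1 {x}) hfe
    rw [hun] at h2
    rw [h2, Zg_eq, Zt_singleton, one_mul]
    have h3 : mag G θ {x} (fun _ => 0) x = 0 := by
      rw [← mean_eq _ _ _ _ (mem_singleton_self x), mean_singleton]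
    rw [h3]
    have h4 : (fun η : V → Bool => f η * (1 + θ * 0 * spb (η (par hT s x)))) = f := by
      funext η; ring
    rw [h4]
    apply ih (Λ.erase x)
    · have : (Λ.erase x) \ S = (Λ \ S).erase x := by
        ext z; simp only [mem_sdiff, mem_erase]; tauto
      rw [this, Finset.card_erase_of_mem (mem_sdiff.2 hx), hc]
      omega
    · exact hSe
    · intro z hz hzs
      rw [mem_erase] at hz ⊢
      exact ⟨hnopar z hz.2 hzs, hΛp z hz.2 hzs⟩

/-- pattern probabilities -/
theorem gib_pattern (G : SimpleGraph V) (θ : ℝ) (S : Finset V) (η : V → Bool) :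
    gib G θ S (fun _ => 0) (fun σ => if (∀ v ∈ S, σ v = η v) then 1 else 0) =
      isingWeight G θ S η := by
  unfold gib
  rw [Finset.sum_eq_single (S.filter fun v => η v = true)]
  · have h1 : ∀ v ∈ S, cfg (S.filter fun v => η v = true) v = η v := by
      intro v hv
      unfold cfg
      cases h : η v <;> simp [hv, h]
    simp only []
    rw [if_pos h1, mul_one]
    unfold wt
    rw [iw_dependsOn G θ S (y := η) (by intro v hv; exact h1 v (by exact_mod_cast hv))]
    simp
  · intro A hA hne
    rw [mem_powerset] at hA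
    simp only []
    rw [if_neg, mul_zero]
    intro h
    apply hne
    ext v
    rw [mem_filter]
    constructor
    · intro hv
      refine ⟨hA hv, ?_⟩
      rw [← h v (hA hv)]
      unfold cfg; simp [hv]
    · rintro ⟨hv, hv'⟩
      have := h v hv
      rw [hv'] at this
      unfold cfg at this
      simpa using this
  · intro h
    exact absurd (mem_powerset.2 (Finset.filter_subset _ _)) h

theorem pattern_dependsOn (S : Finset V) (η : V → Bool) :
    DependsOn (fun σ : V → Bool => if (∀ v ∈ S, σ v = η v) then (1 : ℝ) else 0) (S : Set V) := by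
  intro σ σ' h
  have : (∀ v ∈ S, σ v = η v) ↔ (∀ v ∈ S, σ' v = η v) :=
    forall₂_congr fun v hv => by rw [h v (by exact_mod_cast hv)]
  simp only [this]

/-- the field-free Gibbs sum of a pattern on a connected set inside a ball is the Ising weight -/
theorem gib_ball_pattern {G : SimpleGraph V} [G.LocallyFinite] (hT : G.IsTree) {θ : ℝ}
    (h0 : 0 ≤ θ) (h1 : θ < 1) {S : Finset V} (hS : (G.induce (S : Set V)).Connected)
    {o : V} {R : ℕ} (hSR : S ⊆ ball G o R) (η : V → Bool) :
    gib G θ (ball G o R) (fun _ => 0) (fun σ => if (∀ v ∈ S, σ v = η v) then 1 else 0) =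
      isingWeight G θ S η := by
  obtain ⟨⟨s, hs⟩⟩ := hS.nonempty
  have hs' : s ∈ S := by exact_mod_cast hs
  rw [gib_marginal_aux hT h0 h1 s hs' (fun x hx hxs => ?_) (pattern_dependsOn S η) _ _ rfl hSR
    (fun x hx hxs => par_mem_ball hT (hSR hs') hx hxs), gib_pattern]
  exact_mod_cast par_mem_of_connected hT hS hs (by exact_mod_cast hx) hxs

/-- normalisation of the field-free measure -/
theorem Zt_ball_zero {G : SimpleGraph V} [G.LocallyFinite] (hT : G.IsTree) {θ : ℝ}
    (h0 : 0 ≤ θ) (h1 : θ < 1) (o : V) (R : ℕ) :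
    Zt G θ (ball G o R) (fun _ => 0) = 1 := by
  have ho : ({o} : Finset V) ⊆ ball G o R := by
    intro x hx
    rw [mem_singleton] at hx; subst hx
    rw [mem_ball hT]; simp
  rw [← Zg_eq]
  unfold Zg
  rw [gib_marginal_aux hT h0 h1 o (mem_singleton_self o) (fun x hx hxo => ?_)
    (f := fun _ => 1) (fun _ _ _ => rfl) _ _ rfl ho
    (fun x hx hxs => par_mem_ball hT (ho (mem_singleton_self o)) hx hxs)]
  · have := Zt_singleton G θ o (fun _ => 0)
    rw [← Zg_eq] at this
    exact this
  · exact absurd (mem_singleton.1 hx) hxo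

end

end Crest.Agent.T41
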