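import Crest.Agent.T41Defs
import Crest.Agent.T41Geo
import Crest.Agent.T41Ising
import Crest.Agent.T41Ising2

/-!
S0241, part G2: geometry of the regular tree, second part (balls, spheres, geodesics, lines).
`NB` (non-backtracking path = geodesic), `descS`, `exists_aut_path` are in T41Geo; `mem_ball` in T41Ising.
-/

set_option autoImplicit false

namespace Crest.Agent.T41

open SimpleGraph

universe u
variable {V : Type u} {G : SimpleGraph V} [G.LocallyFinite]

/-- bi-infinite geodesic -/
def IsLine (G : SimpleGraph V) (x : ℤ → V) : Prop :=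
  ∀ i j : ℤ, G.dist (x i) (x j) = (i - j).natAbs

theorem countable_V (hT : G.IsTree) : Countable V := by
  obtain ⟨o⟩ := hT.connected.nonempty
  rw [← Set.countable_univ_iff]
  have : (Set.univ : Set V) = ⋃ n : ℕ, {x | G.dist o x ≤ n} := by
    ext x
    simp only [Set.mem_univ, Set.mem_iUnion, Set.mem_ofPred_eq, true_iff]
    exact ⟨G.dist o x, le_rfl⟩
  rw [this]
  exact Set.countable_iUnion fun n => (ball_finite hT o n).countable

theorem ball_map (hT : G.IsTree) (g : G ≃g G) (v : V) (R : ℕ) :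
    (ball G v R).map g.toEquiv.toEmbedding = ball G (g v) R := by
  ext x
  rw [Finset.mem_map, mem_ball hT]
  constructor
  · rintro ⟨y, hy, rfl⟩
    rw [mem_ball hT] at hy
    have : G.dist (g v) (g y) = G.dist v y := iso_dist g hT hT v y
    show G.dist (g v) (g y) ≤ R
    omega
  · intro hx
    refine ⟨g.symm x, ?_, g.apply_symm_apply x⟩
    rw [mem_ball hT]
    have := iso_dist g hT hT v (g.symm x)
    rw [g.apply_symm_apply] at this
    omega

theorem ball_connected (hT : G.IsTree) (v : V) (R : ℕ) :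
    (G.induce (ball G v R : Set V)).Connected := by
  have hv : v ∈ (ball G v R : Set V) := by
    rw [Finset.mem_coe, mem_ball hT]; simp
  have key : ∀ n : ℕ, ∀ x : V, G.dist v x = n → ∀ hx : x ∈ (ball G v R : Set V),
      (G.induce (ball G v R : Set V)).Reachable ⟨v, hv⟩ ⟨x, hx⟩ := by
    intro n
    induction n with
    | zero =>
      intro x hx hxb
      have : v = x := hT.connected.dist_eq_zero_iff.1 hx
      subst this
      exact Reachable.refl _
    | succ n ih =>
      intro x hx hxb
      have hne : x ≠ v := by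
        rintro rfl
        simp at hx
      have h1 := par_dist hT v x hne
      have h2 := par_adj hT v x hne
      have hpb : par hT v x ∈ (ball G v R : Set V) := by
        rw [Finset.mem_coe, mem_ball hT] at *
        omega
      have h3 := ih (par hT v x) (by omega) hpb
      refine h3.trans (Adj.reachable ?_)
      rw [comap_adj]
      exact h2.symm
  haveI : Nonempty (ball G v R : Set V) := ⟨⟨v, hv⟩⟩
  refine ⟨fun a b => ?_⟩
  exact (key _ a.1 rfl a.2).symm.trans (key _ b.1 rfl b.2)

theorem ball_subset_ball (hT : G.IsTree) (v w : V) (R R' : ℕ) (h : G.dist v w + R ≤ R') :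
    ball G w R ⊆ ball G v R' := by
  intro x hx
  rw [mem_ball hT] at *
  have := hT.connected.dist_triangle (u := v) (v := w) (w := x)
  omega

open Classical in
theorem card_sphere (hT : G.IsTree) (d : ℕ) (hd : 3 ≤ d) (hreg : G.IsRegularOfDegree d) (v : V)
    (k R : ℕ) (hk : k ≤ R) :
    (((ball G v R).filter (fun x => G.dist v x = k)).card : ℝ) = cS d k := by
  have e : (((ball G v R).filter (fun x => G.dist v x = k) : Finset V) : Set V)
      = {w | G.dist v w = k} := by
    ext x
    rw [Finset.mem_coe, Finset.mem_filter, mem_ball hT]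
    simp only [Set.mem_ofPred_eq]
    omega
  rw [← Set.ncard_coe_finset, e]
  rcases k with _ | k
  · have : {w | G.dist v w = 0} = {v} := by
      ext w
      simp only [Set.mem_ofPred_eq, Set.mem_singleton_iff]
      constructor
      · intro h; exact (hT.connected.dist_eq_zero_iff.1 h).symm
      · rintro rfl; simp
    rw [this]
    simp [cS]
  · rw [sphere_ncard hT d hreg]
    simp only [cS, Nat.add_eq_zero_iff, one_ne_zero, and_false, if_false, Nat.add_sub_cancel]
    push_cast [Nat.cast_sub (by omega : 1 ≤ d)]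
    ring

/-- any connected set containing `v`, `u` contains the geodesic -/
theorem geo_mem (hT : G.IsTree) (Λ : Finset V) (hΛ : (G.induce (Λ : Set V)).Connected) {v u : V}
    (hv : v ∈ Λ) (hu : u ∈ Λ) (i : ℕ) : geo hT v u i ∈ Λ := by
  have key : ∀ j : ℕ, j ≤ G.dist v u → (par hT v)^[j] u ∈ Λ := by
    intro j
    induction j with
    | zero => intro _; simpa using hu
    | succ j ih =>
      intro hj
      have h1 := ih (by omega)
      have h2 := par_iter_dist hT v u j (by omega)
      rw [Function.iterate_succ_apply']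
      have hne : (par hT v)^[j] u ≠ v := by
        intro h
        rw [h] at h2
        rw [dist_self] at h2
        omega
      have := par_mem_of_connected hT (S := (Λ : Set V)) hΛ (Finset.mem_coe.2 hv)
        (Finset.mem_coe.2 h1) hne
      exact Finset.mem_coe.1 this
  exact key _ (Nat.sub_le _ _)

theorem geo_eq_of_NB (hT : G.IsTree) (x : ℕ → V) (k : ℕ) (hx : NB G x k) (i : ℕ)
    (hi : i ≤ k) : geo hT (x 0) (x k) i = x i := by
  have key : ∀ j : ℕ, j ≤ k → (par hT (x 0))^[j] (x k) = x (k - j) := by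
    intro j
    induction j with
    | zero => intro _; simp
    | succ j ih =>
      intro hj
      rw [Function.iterate_succ_apply', ih (by omega)]
      have := hx.par_succ hT (k - (j + 1)) (by omega)
      rwa [show k - (j + 1) + 1 = k - j by omega] at this
  unfold geo
  rw [hx.dist0 hT k le_rfl, key _ (Nat.sub_le _ _)]
  congr 1
  omega

/-- the geodesic read from the other end -/
theorem geo_symm (hT : G.IsTree) (v u : V) (i : ℕ) (hi : i ≤ G.dist v u) :
    geo hT u v i = geo hT v u (G.dist v u - i) := by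
  have h := (nb_geo hT v u).rev
  have h2 := geo_eq_of_NB hT _ _ h i hi
  simp only [Nat.sub_zero, Nat.sub_self, geo_last, geo_zero] at h2
  exact h2

theorem geo_map (hT : G.IsTree) (g : G ≃g G) (v u : V) (i : ℕ) :
    geo hT (g v) (g u) i = g (geo hT v u i) := by
  have hd : G.dist (g v) (g u) = G.dist v u := iso_dist g hT hT v u
  rcases Nat.lt_or_ge (G.dist v u) i with h | h
  · have e1 : geo hT (g v) (g u) i = g u := by
      unfold geo
      rw [hd, Nat.sub_eq_zero_of_le h.le]; rfl
    have e2 : geo hT v u i = u := by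
      unfold geo
      rw [Nat.sub_eq_zero_of_le h.le]; rfl
    rw [e1, e2]
  · have hnb := nb_geo hT v u
    have hnb' : NB G (fun j => g (geo hT v u j)) (G.dist v u) :=
      ⟨fun j hj => g.map_adj_iff.2 (hnb.adj j hj),
        fun j hj he => hnb.nb j hj (g.injective he)⟩
    have := geo_eq_of_NB hT _ _ hnb' i h
    simpa [geo_zero, geo_last] using this

theorem IsLine.nb {x : ℤ → V} (hx : IsLine G x) (a : ℤ) (n : ℕ) :
    NB G (fun i => x (a + i)) n := by
  refine ⟨fun i _ => ?_, fun i _ h => ?_⟩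
  · rw [← dist_eq_one_iff_adj, hx]
    push_cast
    omega
  · have h1 := hx (a + i) (a + (i + 2 : ℕ))
    have h2 : x (a + i) = x (a + (i + 2 : ℕ)) := h
    rw [h2, dist_self] at h1
    push_cast at h1
    omega

theorem IsLine.nb_rev {x : ℤ → V} (hx : IsLine G x) (a : ℤ) (n : ℕ) :
    NB G (fun i => x (a - i)) n := by
  refine ⟨fun i _ => ?_, fun i _ h => ?_⟩
  · rw [← dist_eq_one_iff_adj, hx]
    push_cast
    omega
  · have h1 := hx (a - i) (a - (i + 2 : ℕ))
    have h2 : x (a - i) = x (a - (i + 2 : ℕ)) := h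
    rw [h2, dist_self] at h1
    push_cast at h1
    omega

/-- existence of a ray starting with a given edge -/
private theorem g2_exists_ray (d : ℕ) (hd : 3 ≤ d) (hreg : G.IsRegularOfDegree d) (o p : V)
    (hop : G.Adj o p) : ∃ a : ℕ → V, a 0 = o ∧ a 1 = p ∧ ∀ n, NB G a n := by
  classical
  have hnext : ∀ q y : V, ∃ z, G.Adj y z ∧ z ≠ q := by
    intro q y
    by_contra h
    push Not at h
    have hsub : G.neighborFinset y ⊆ {q} := by
      intro z hz
      rw [mem_neighborFinset] at hz
      rw [Finset.mem_singleton]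
      exact h z hz
    have hc := Finset.card_le_card hsub
    rw [card_neighborFinset_eq_degree, hreg y, Finset.card_singleton] at hc
    omega
  choose f hf1 hf2 using hnext
  -- sequence of directed edges
  let e : ℕ → V × V := fun n => (fun e : V × V => (e.2, f e.1 e.2))^[n] (o, p)
  have he : ∀ n, e (n + 1) = ((e n).2, f (e n).1 (e n).2) := by
    intro n
    show (fun e : V × V => (e.2, f e.1 e.2))^[n + 1] (o, p) = _
    rw [Function.iterate_succ_apply']
  have hadj : ∀ n, G.Adj (e n).1 (e n).2 := by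
    intro n
    induction n with
    | zero => exact hop
    | succ n ih => rw [he]; exact hf1 _ _
  refine ⟨fun n => (e n).1, rfl, ?_, fun n => ⟨fun i _ => ?_, fun i _ => ?_⟩⟩
  · show (e (0 + 1)).1 = p
    rw [he]; rfl
  · show G.Adj (e i).1 (e (i + 1)).1
    rw [he]; exact hadj i
  · show (e i).1 ≠ (e (i + 1 + 1)).1
    rw [he (i + 1), he i]
    exact (hf2 _ _).symm

theorem exists_line (hT : G.IsTree) (d : ℕ) (hd : 3 ≤ d) (hreg : G.IsRegularOfDegree d) (o : V) :
    ∃ x : ℤ → V, IsLine G x ∧ x 0 = o := by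
  classical
  have hcard : (G.neighborFinset o).card = d := by
    rw [card_neighborFinset_eq_degree, hreg o]
  obtain ⟨p, hp, q, hq, hpq⟩ := Finset.one_lt_card.1 (by rw [hcard]; omega :
    1 < (G.neighborFinset o).card)
  rw [mem_neighborFinset] at hp hq
  obtain ⟨a, ha0, ha1, ha⟩ := g2_exists_ray d hd hreg o p hp
  obtain ⟨b, hb0, hb1, hb⟩ := g2_exists_ray d hd hreg o q hq
  let x : ℤ → V := fun i => if 0 ≤ i then a i.toNat else b (-i).toNat
  have hxa : ∀ n : ℕ, x n = a n := fun n => by simp [x]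
  have hxb : ∀ n : ℕ, x (-n) = b n := by
    intro n
    rcases n with _ | n
    · simp [x, ha0, hb0]
    · have : ¬ (0 : ℤ) ≤ -((n + 1 : ℕ) : ℤ) := by push_cast; omega
      simp only [x, if_neg this]
      congr 1
  have hnb : ∀ n : ℕ, NB G (fun i => x ((i : ℤ) - n)) (2 * n) := by
    intro n
    refine ⟨fun i _ => ?_, fun i _ => ?_⟩
    · show G.Adj (x ((i : ℤ) - n)) (x (((i + 1 : ℕ) : ℤ) - n))
      rcases Nat.lt_or_ge i n with h | h
      · have e1 : (i : ℤ) - n = -((n - i : ℕ) : ℤ) := by omega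
        have e2 : ((i + 1 : ℕ) : ℤ) - n = -((n - (i + 1) : ℕ) : ℤ) := by omega
        rw [e1, e2, hxb, hxb]
        have := (hb (n - i)).adj (n - (i + 1)) (by omega)
        rw [show n - (i + 1) + 1 = n - i by omega] at this
        exact this.symm
      · have e1 : (i : ℤ) - n = ((i - n : ℕ) : ℤ) := by omega
        have e2 : ((i + 1 : ℕ) : ℤ) - n = ((i - n + 1 : ℕ) : ℤ) := by omega
        rw [e1, e2, hxa, hxa]
        exact (ha (i - n + 1)).adj (i - n) (by omega)
    · show x ((i : ℤ) - n) ≠ x (((i + 2 : ℕ) : ℤ) - n)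
      rcases Nat.lt_or_ge (i + 1) n with h | h
      · have e1 : (i : ℤ) - n = -((n - i : ℕ) : ℤ) := by omega
        have e2 : ((i + 2 : ℕ) : ℤ) - n = -((n - (i + 2) : ℕ) : ℤ) := by omega
        rw [e1, e2, hxb, hxb]
        have := (hb (n - i)).nb (n - (i + 2)) (by omega)
        rw [show n - (i + 2) + 2 = n - i by omega] at this
        exact this.symm
      · rcases Nat.lt_or_ge i n with h' | h'
        · have hi : i + 1 = n := by omega
          have e1 : (i : ℤ) - n = -((1 : ℕ) : ℤ) := by omega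
          have e2 : ((i + 2 : ℕ) : ℤ) - n = ((1 : ℕ) : ℤ) := by omega
          rw [e1, e2, hxb, hxa, ha1, hb1]
          exact hpq.symm
        · have e1 : (i : ℤ) - n = ((i - n : ℕ) : ℤ) := by omega
          have e2 : ((i + 2 : ℕ) : ℤ) - n = ((i - n + 2 : ℕ) : ℤ) := by omega
          rw [e1, e2, hxa, hxa]
          exact (ha (i - n + 2)).nb (i - n) (by omega)
  have hle : ∀ i j : ℤ, i ≤ j → G.dist (x i) (x j) = (i - j).natAbs := by
    intro i j hij
    obtain ⟨n, hn⟩ : ∃ n : ℕ, -(n : ℤ) ≤ i ∧ j ≤ n := ⟨max i.natAbs j.natAbs, by omega, by omega⟩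
    have h := (hnb n).dist hT (i + n).toNat (j + n).toNat (by omega) (by omega)
    have e1 : (((i + n).toNat : ℕ) : ℤ) - n = i := by omega
    have e2 : (((j + n).toNat : ℕ) : ℤ) - n = j := by omega
    simp only [e1, e2] at h
    rw [h]
    omega
  refine ⟨x, fun i j => ?_, by simp [x, ha0]⟩
  rcases le_total i j with h | h
  · exact hle i j h
  · rw [G.dist_comm, hle j i h]
    omega

/-- shift and reflection along a line, on finite windows -/
theorem IsLine.exists_aut (hT : G.IsTree) (d : ℕ) (hreg : G.IsRegularOfDegree d) {x y : ℤ → V}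
    (hx : IsLine G x) (hy : IsLine G y) (a c : ℤ) : ∃ g : G ≃g G, ∀ i, a ≤ i → i ≤ c →
      g (x i) = y i := by
  obtain ⟨g, hg⟩ := exists_aut_path hT d hreg (hx.nb a (c - a).toNat) (hy.nb a (c - a).toNat)
  refine ⟨g, fun i h1 h2 => ?_⟩
  have := hg (i - a).toNat (by omega)
  have e : a + ((i - a).toNat : ℤ) = i := by omega
  simp only [e] at this
  exact this

/-- moving the next vertex to the left of a finite window and fixing the window -/
theorem IsLine.exists_aut_left (hT : G.IsTree) (d : ℕ) (hreg : G.IsRegularOfDegree d)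
    {x : ℤ → V} (hx : IsLine G x) (a c : ℤ) (hac : a < c) (y : V) (hy : G.Adj (x a) y)
    (hne : y ≠ x (a + 1)) :
    ∃ g : G ≃g G, (∀ i, a ≤ i → i ≤ c → g (x i) = x i) ∧ g (x (a - 1)) = y := by
  have h1 := hx.nb (a - 1) (c - a + 1).toNat
  have h2 : NB G (fun i : ℕ => if i = 0 then y else x (a - 1 + i)) (c - a + 1).toNat := by
    refine ⟨fun i hi => ?_, fun i hi => ?_⟩
    · rcases i with _ | i
      · simp only [if_true, Nat.zero_add, one_ne_zero, if_false, Nat.cast_one]
        rw [show a - 1 + 1 = a by ring]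
        exact hy.symm
      · simp only [Nat.add_eq_zero_iff, one_ne_zero, and_false, if_false]
        exact h1.adj (i + 1) hi
    · rcases i with _ | i
      · simp only [if_true, Nat.zero_add]
        rw [if_neg (by norm_num)]
        push_cast
        rw [show a - 1 + 2 = a + 1 by ring]
        exact hne
      · simp only [Nat.add_eq_zero_iff, one_ne_zero, and_false, if_false]
        rw [if_neg (by omega)]
        exact h1.nb (i + 1) hi
  obtain ⟨g, hg⟩ := exists_aut_path hT d hreg h1 h2
  refine ⟨g, fun i hi1 hi2 => ?_, ?_⟩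
  · have := hg (i - (a - 1)).toNat (by omega)
    have e : a - 1 + ((i - (a - 1)).toNat : ℤ) = i := by omega
    have e2 : (i - (a - 1)).toNat ≠ 0 := by omega
    simp only [e, e2, if_false] at this
    exact this
  · have := hg 0 (by omega)
    simpa using this

theorem IsLine.exists_aut_right (hT : G.IsTree) (d : ℕ) (hreg : G.IsRegularOfDegree d)
    {x : ℤ → V} (hx : IsLine G x) (a c : ℤ) (hac : a < c) (y : V) (hy : G.Adj (x c) y)
    (hne : y ≠ x (c - 1)) :
    ∃ g : G ≃g G, (∀ i, a ≤ i → i ≤ c → g (x i) = x i) ∧ g (x (c + 1)) = y := by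
  have h0 : IsLine G (fun i => x (-i)) := by
    intro i j
    rw [hx]
    omega
  obtain ⟨g, hg1, hg2⟩ := h0.exists_aut_left hT d hreg (-c) (-a) (by omega) y
    (by simpa using hy) (by
      show y ≠ x (-(-c + 1))
      rw [show -(-c + 1) = c - 1 by ring]; exact hne)
  refine ⟨g, fun i h1 h2 => ?_, ?_⟩
  · have := hg1 (-i) (by omega) (by omega)
    simpa using this
  · have : g (x (-(-c - 1))) = y := hg2
    rwa [show -(-c - 1) = c + 1 by ring] at this

private lemma g2_cS_le (d : ℕ) (hd : 3 ≤ d) (k : ℕ) : cS d k ≤ 2 * ((d : ℝ) - 1) ^ k := by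
  have hd' : (3 : ℝ) ≤ d := by exact_mod_cast hd
  unfold cS
  rcases k with _ | k
  · simp
  · simp only [Nat.add_eq_zero_iff, one_ne_zero, and_false, if_false, Nat.add_sub_cancel]
    rw [pow_succ]
    have h : 0 ≤ ((d : ℝ) - 1) ^ k := by
      apply pow_nonneg; linarith
    nlinarith

private lemma g2_cS_nonneg (d : ℕ) (hd : 3 ≤ d) (k : ℕ) : 0 ≤ cS d k := by
  have hd' : (3 : ℝ) ≤ d := by exact_mod_cast hd
  unfold cS
  split_ifs
  · norm_num
  · apply mul_nonneg (by positivity)
    apply pow_nonneg; linarith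

/-- sum over the tree of a function of the distance -/
theorem sum_dist_le (hT : G.IsTree) (d : ℕ) (hd : 3 ≤ d) (hreg : G.IsRegularOfDegree d)
    (v : V) (Λ : Finset V) (F : ℕ → ℝ) (hF : ∀ k, 0 ≤ F k)
    (hs : Summable (fun k => cS d k * F k)) :
    ∑ u ∈ Λ, F (G.dist v u) ≤ ∑' k, cS d k * F k := by
  classical
  obtain ⟨R, hR⟩ : ∃ R : ℕ, ∀ u ∈ Λ, G.dist v u ≤ R :=
    ⟨Λ.sup (fun u => G.dist v u), fun u hu => Finset.le_sup (f := fun u => G.dist v u) hu⟩
  have hmaps : ∀ u ∈ Λ, G.dist v u ∈ Finset.range (R + 1) := by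
    intro u hu
    rw [Finset.mem_range]
    have := hR u hu
    omega
  rw [← Finset.sum_fiberwise_of_maps_to hmaps]
  have h1 : ∀ k ∈ Finset.range (R + 1),
      ∑ u ∈ Λ with G.dist v u = k, F (G.dist v u) ≤ cS d k * F k := by
    intro k hk
    rw [Finset.mem_range] at hk
    have e1 : ∑ u ∈ Λ with G.dist v u = k, F (G.dist v u)
        = ∑ u ∈ Λ with G.dist v u = k, F k := by
      apply Finset.sum_congr rfl
      intro u hu
      rw [(Finset.mem_filter.1 hu).2]
    rw [e1, Finset.sum_const, nsmul_eq_mul]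
    apply mul_le_mul_of_nonneg_right _ (hF k)
    rw [← card_sphere hT d hd hreg v k R (by omega)]
    exact_mod_cast Finset.card_le_card (by
      intro u hu
      rw [Finset.mem_filter] at *
      exact ⟨(mem_ball hT).2 (hR u hu.1), hu.2⟩)
  refine (Finset.sum_le_sum h1).trans ?_
  exact hs.sum_le_tsum _ (fun k _ => mul_nonneg (g2_cS_nonneg d hd k) (hF k))

/-- sum of a kernel over the tree, weighted by a geodesic sum (used for the Gronwall argument) -/
theorem kernel_sum (hT : G.IsTree) (d : ℕ) (hd : 3 ≤ d) (hreg : G.IsRegularOfDegree d)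
    (θ ρ : ℝ) (h0 : 0 ≤ θ) (hρ : 0 < ρ) (hρ1 : ρ ≤ 1) (h1 : ((d : ℝ) - 1) * θ ^ 2 < ρ) :
    ∃ C : ℝ, 0 ≤ C ∧ ∀ (v : V) (Λ : Finset V) (N : V → ℝ) (_ : ∀ x, 0 ≤ N x) (B : ℝ)
      (_ : ∀ x, N x ≤ B * (ρ⁻¹) ^ (G.dist v x)),
      ∑ u ∈ Λ, ((G.dist v u : ℝ) + 1) * θ ^ (2 * G.dist v u) *
        ∑ i ∈ Finset.range (G.dist v u + 1), N (geo hT v u i) ≤ C * B := by
  have hd' : (3 : ℝ) ≤ d := by exact_mod_cast hd
  set r : ℝ := ((d : ℝ) - 1) * θ ^ 2 / ρ with hr
  have hr0 : 0 ≤ r := div_nonneg (mul_nonneg (by linarith) (sq_nonneg _)) hρ.le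
  have hr1 : r < 1 := by rw [hr, div_lt_one hρ]; exact h1
  have hsum : Summable (fun k : ℕ => ((k : ℝ) + 1) ^ 2 * r ^ k) := by
    have h2 := summable_pow_mul_geometric_of_norm_lt_one 2
      (by rwa [Real.norm_eq_abs, abs_of_nonneg hr0] : ‖r‖ < 1)
    have h1' := summable_pow_mul_geometric_of_norm_lt_one 1
      (by rwa [Real.norm_eq_abs, abs_of_nonneg hr0] : ‖r‖ < 1)
    have h0' := summable_pow_mul_geometric_of_norm_lt_one 0
      (by rwa [Real.norm_eq_abs, abs_of_nonneg hr0] : ‖r‖ < 1)
    have := (h2.add (h1'.mul_left 2)).add h0'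
    refine this.congr (fun k => ?_)
    simp only [pow_one, pow_zero]
    ring
  let F : ℕ → ℝ := fun k => ((k : ℝ) + 1) ^ 2 * (θ ^ 2 / ρ) ^ k
  have hF : ∀ k, 0 ≤ F k := fun k => by
    have : 0 ≤ θ ^ 2 / ρ := div_nonneg (sq_nonneg _) hρ.le
    positivity
  have hFle : ∀ k, cS d k * F k ≤ 2 * (((k : ℝ) + 1) ^ 2 * r ^ k) := by
    intro k
    have e : r ^ k = ((d : ℝ) - 1) ^ k * (θ ^ 2 / ρ) ^ k := by
      rw [← mul_pow, hr]; congr 1; ring
    rw [e]
    have := mul_le_mul_of_nonneg_right (g2_cS_le d hd k) (hF k)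
    refine this.trans (le_of_eq ?_)
    simp only [F]
    ring
  have hsF : Summable (fun k => cS d k * F k) := by
    refine Summable.of_nonneg_of_le (fun k => mul_nonneg (g2_cS_nonneg d hd k) (hF k)) hFle
      (hsum.mul_left 2)
  refine ⟨∑' k, cS d k * F k, tsum_nonneg (fun k => mul_nonneg (g2_cS_nonneg d hd k) (hF k)), ?_⟩
  intro v Λ N hN B hB
  have hB0 : 0 ≤ B := by
    have := hB v
    rw [dist_self, pow_zero, mul_one] at this
    exact (hN v).trans this
  have hρi : 1 ≤ ρ⁻¹ := (one_le_inv₀ hρ).2 hρ1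
  have hterm : ∀ u ∈ Λ, ((G.dist v u : ℝ) + 1) * θ ^ (2 * G.dist v u) *
        ∑ i ∈ Finset.range (G.dist v u + 1), N (geo hT v u i) ≤ B * F (G.dist v u) := by
    intro u _
    set k := G.dist v u with hk
    have hs : ∑ i ∈ Finset.range (k + 1), N (geo hT v u i) ≤ ((k : ℝ) + 1) * (B * (ρ⁻¹) ^ k) := by
      have : ∀ i ∈ Finset.range (k + 1), N (geo hT v u i) ≤ B * (ρ⁻¹) ^ k := by
        intro i hi
        rw [Finset.mem_range] at hi
        have h2 := hB (geo hT v u i)
        rw [geo_dist hT v u i (by omega)] at h2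
        refine h2.trans (mul_le_mul_of_nonneg_left ?_ hB0)
        exact pow_le_pow_right₀ hρi (by omega)
      refine (Finset.sum_le_sum this).trans ?_
      rw [Finset.sum_const, Finset.card_range, nsmul_eq_mul]
      push_cast
      exact le_rfl
    have hp : 0 ≤ ((k : ℝ) + 1) * θ ^ (2 * k) := by positivity
    refine (mul_le_mul_of_nonneg_left hs hp).trans (le_of_eq ?_)
    simp only [F]
    rw [pow_mul, div_pow, inv_pow]
    field_simp
  refine (Finset.sum_le_sum hterm).trans ?_
  rw [← Finset.mul_sum, mul_comm]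
  exact mul_le_mul_of_nonneg_right (sum_dist_le hT d hd hreg v Λ F hF hsF) hB0

end Crest.Agent.T41
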