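import Crest.Agent.T41InfF

/-!
S0241, part N: infinite volume for `θ < thc d`.
-/

set_option autoImplicit false

namespace Crest.Agent.T41

open MeasureTheory Filter Topology

universe u
variable {V : Type u} {G : SimpleGraph V} [G.LocallyFinite]

/-- equivariance, for all labels -/
theorem mI_map (hT : G.IsTree) (g : G ≃g G) (θ T : ℝ) (ω : Lab V) (v : V) :
    mI G θ T ω (g v) = mI G θ T (fun w => ω (g w)) v := by
  unfold mI
  congr 1
  ext R
  rw [← ball_map hT g v R, mm_map g θ (ball G v R) T ω v]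

theorem measurable_mI (G : SimpleGraph V) [G.LocallyFinite] (θ : ℝ) (v : V) :
    Measurable (fun p : Lab V × ℝ => mI G θ p.2 p.1 v) :=
  infE_mI_meas θ v

/-- uniform bound for times `≤ n` -/
theorem mm_mI_bd (d : ℕ) (hd : 3 ≤ d) (n : ℕ) : ∃ bd : ℝ, 0 ≤ bd ∧ bd < 1 ∧
    ∀ (V : Type u) (G : SimpleGraph V) [G.LocallyFinite] (_ : G.IsTree)
    (_ : G.IsRegularOfDegree d) (θ : ℝ), 0 ≤ θ → θ ≤ thc d → ∀ (T : ℝ), T ≤ n → ∀ (ω : Lab V),
      (∀ (o : V) (R : ℕ) (v : V), |mm G θ (ball G o R) T ω v| ≤ bd) ∧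
      (∀ v : V, |mI G θ T ω v| ≤ bd) := by
  obtain ⟨bd, hbd, h⟩ := mean_bd.{u} d hd (tbd n) (tbd_lt_one n)
  refine ⟨max bd 0, le_max_right _ _, max_lt hbd one_pos, ?_⟩
  intro V G _ hT hreg θ h0 h1 T hTn ω
  have hlt : θ < 1 := h1.trans_lt (thc_lt_one hd)
  have hm : ∀ (o : V) (R : ℕ) (v : V), |mm G θ (ball G o R) T ω v| ≤ max bd 0 := by
    intro o R v
    refine le_trans ?_ (le_max_left _ _)
    exact h V G hT hreg θ h0 h1 o R _ (fun w _ => tanh_hh_le h0 hlt _ T n hTn ω w) v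
  exact ⟨hm, fun v => infE_limsup_le (fun R => hm v R v)⟩

/-- exponentially good approximation by balls -/
theorem mI_approx (hT : G.IsTree) (d : ℕ) (hd : 3 ≤ d) (hreg : G.IsRegularOfDegree d) (θ : ℝ)
    (h0 : 0 ≤ θ) (h1 : θ < thc d) (n : ℕ) : ∃ C ρ : ℝ, 0 ≤ C ∧ 0 < ρ ∧ ρ < 1 ∧
    ∀ (T : ℝ), 0 ≤ T → T ≤ n → ∀ (o v : V) (r R : ℕ), G.dist o v + r ≤ R →
      ∫ ω, (mm G θ (ball G o R) T ω v - mI G θ T ω v) ^ 2 ∂PP V ≤ C * ρ ^ r := by
  obtain ⟨lam, ρ, hlam, hρ0, hρ1, hb⟩ := infE_approx hT d hd hreg θ h0 h1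
  refine ⟨4 * Real.exp (lam * n), ρ, by positivity, hρ0, hρ1, ?_⟩
  intro T hT0 hTn o v r R hR
  refine (hb T hT0 o v r R hR).trans ?_
  apply mul_le_mul_of_nonneg_right _ (by positivity)
  apply mul_le_mul_of_nonneg_left _ (by norm_num)
  exact Real.exp_le_exp.2 (mul_le_mul_of_nonneg_left hTn hlam)

/-- convergence of the second moments of the difference -/
theorem inf_tendsto_D (hT : G.IsTree) (d : ℕ) (hd : 3 ≤ d) (hreg : G.IsRegularOfDegree d) (θ θ' : ℝ)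
    (h0 : 0 ≤ θ) (h1 : θ < thc d) (h0' : 0 ≤ θ') (h1' : θ' < thc d) (v : V) (T : ℝ) (hT0 : 0 ≤ T) :
    Tendsto (fun R : ℕ => ∫ ω, (mm G θ (ball G v R) T ω v - mm G θ' (ball G v R) T ω v) ^ 2 ∂PP V)
      atTop (𝓝 (∫ ω, (mI G θ T ω v - mI G θ' T ω v) ^ 2 ∂PP V)) := by
  have hth := thc_lt_one hd
  apply infE_dct 4
  · intro n
    exact ((infB_mm_meas G θ _ T v).sub (infB_mm_meas G θ' _ T v)).pow_const 2
  · intro n ω
    rw [abs_of_nonneg (sq_nonneg _)]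
    exact infB_sq_le (infB_mm_le h0 (h1.trans hth) _ T ω v) (infB_mm_le h0' (h1'.trans hth) _ T ω v)
  · filter_upwards [infD_ae hT d hd hreg θ h0 h1 T hT0 v, infD_ae hT d hd hreg θ' h0' h1' T hT0 v]
      with ω h2 h3
    exact (h2.sub h3).pow 2

/-- **(A1)**, monotonicity -/
theorem D_mono (hT : G.IsTree) (d : ℕ) (hd : 3 ≤ d) (hreg : G.IsRegularOfDegree d) (θ θ' : ℝ)
    (h0 : 0 ≤ θ) (h1 : θ < thc d) (h0' : 0 ≤ θ') (h1' : θ' < thc d) (v : V) (T₁ T₂ : ℝ)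
    (hT₁ : 0 ≤ T₁) (hT₂ : T₁ ≤ T₂) :
    ∫ ω, (mI G θ T₁ ω v - mI G θ' T₁ ω v) ^ 2 ∂PP V
      ≤ ∫ ω, (mI G θ T₂ ω v - mI G θ' T₂ ω v) ^ 2 ∂PP V := by
  have hth := thc_lt_one hd
  exact le_of_tendsto_of_tendsto'
    (inf_tendsto_D hT d hd hreg θ θ' h0 h1 h0' h1' v T₁ hT₁)
    (inf_tendsto_D hT d hd hreg θ θ' h0 h1 h0' h1' v T₂ (hT₁.trans hT₂))
    (fun R => (P1 (G := G) h0 (h1.trans hth) h0' (h1'.trans hth) (ball G v R) (ball G v R)
      (Finset.Subset.refl _) v T₁ T₂ hT₁ hT₂).1)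

omit [G.LocallyFinite] in
theorem inf_gam (s : ℝ) (hs : 0 ≤ s) : gam s ^ 2 = min s (1 / 4) := by
  unfold gam
  rcases le_total s (1 / 4) with h | h
  · have h1 : √s ≤ 1 / 2 := by
      rw [show (1:ℝ) / 2 = √(1 / 4) by
        rw [show (1:ℝ) / 4 = (1 / 2) ^ 2 by norm_num, Real.sqrt_sq (by norm_num)]]
      exact Real.sqrt_le_sqrt h
    rw [min_eq_left h1, min_eq_left h, Real.sq_sqrt hs]
  · have h1 : 1 / 2 ≤ √s := by
      rw [show (1:ℝ) / 2 = √(1 / 4) by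
        rw [show (1:ℝ) / 4 = (1 / 2) ^ 2 by norm_num, Real.sqrt_sq (by norm_num)]]
      exact Real.sqrt_le_sqrt h
    rw [min_eq_right h1, min_eq_right h]; norm_num

omit [G.LocallyFinite] in
theorem inf_cS_le {d : ℕ} (hd : 3 ≤ d) (k : ℕ) : 0 ≤ cS d k ∧ cS d k ≤ 2 * ((d : ℝ) - 1) ^ k := by
  have hd' : (3:ℝ) ≤ d := by exact_mod_cast hd
  unfold cS
  split_ifs with h
  · subst h; norm_num
  · obtain ⟨j, rfl⟩ := Nat.exists_eq_succ_of_ne_zero h
    have h1 : 0 ≤ ((d:ℝ) - 1) ^ j := pow_nonneg (by linarith) _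
    simp only [Nat.succ_eq_add_one, Nat.add_sub_cancel]
    constructor
    · positivity
    · rw [pow_succ]
      have : (d:ℝ) * ((d:ℝ) - 1) ^ j ≤ (2 * ((d:ℝ) - 1)) * ((d:ℝ) - 1) ^ j :=
        mul_le_mul_of_nonneg_right (by linarith) h1
      linarith

/-- pointwise in time: the finite-volume sum is bounded by `SS` up to an error -/
theorem inf_sum_le (hT : G.IsTree) (d : ℕ) (hd : 3 ≤ d) (hreg : G.IsRegularOfDegree d) (θ θ' : ℝ)
    (h0 : 0 ≤ θ) (h1 : θ < thc d) (h0' : 0 ≤ θ') (h1' : θ' < thc d) (x : ℕ → V)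
    (hx : ∀ k, NB G x k) (n : ℝ) : ∃ C σ ρ B : ℝ, 0 < σ ∧ σ < 1 ∧ 0 < ρ ∧ ρ < 1 ∧
    ∀ K R : ℕ, K ≤ R → ∀ s, 0 ≤ s → s ≤ n →
      ∑ u ∈ ball G (x 0) R, ∫ ω, ((cc G θ (ball G (x 0) R) s ω (x 0) u
          - cc G θ' (ball G (x 0) R) s ω (x 0) u) ^ 2
            + (cc G θ' (ball G (x 0) R) s ω (x 0) u) ^ 2 *
              (mm G θ (ball G (x 0) R) s ω u - mm G θ' (ball G (x 0) R) s ω u) ^ 2) ∂PP V
      ≤ SS d θ θ' (PP V) (fun i ω => mI G θ s ω (x i)) (fun i ω => mI G θ' s ω (x i))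
        + ((ball G (x 0) K).card * (C * ((K : ℝ) + 1)) * σ ^ (R - K) + B * ρ ^ (K + 1)) := by
  classical
  have hth := thc_lt_one hd
  have hlt : θ < 1 := h1.trans hth
  have hlt' : θ' < 1 := h1'.trans hth
  set θm := max θ θ' with hθm
  have hm0 : 0 ≤ θm := h0.trans (le_max_left _ _)
  have hm1 : θm < thc d := max_lt h1 h1'
  have hmlt : θm < 1 := hm1.trans hth
  obtain ⟨C, σ, hC, hσ0, hσ1, hcmp⟩ := infF_compare hT d hd hreg θ θ' h0 h1 h0' h1' n
  obtain ⟨ρ, hρ0, hρ1, hρ⟩ := infC_rate hd hm0 hm1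
  obtain ⟨CK, hCK, hker⟩ := kernel_sum hT d hd hreg θm ρ hm0 hρ0 hρ1.le hρ
  refine ⟨C, σ, ρ, 5 * CK, hσ0, hσ1, hρ0, hρ1, ?_⟩
  intro K R hKR s hs0 hsn
  set v := x 0 with hv
  set Λ := ball G v R with hΛ
  set ΛK := ball G v K with hΛK
  have hsub : ΛK ⊆ Λ := infD_ball_mono hT v hKR
  -- finite-volume integrands
  set e : V → ℝ := fun u => ∫ ω, Psi θ θ' (fun i => mm G θ Λ s ω (geo hT v u i))
    (fun i => mm G θ' Λ s ω (geo hT v u i)) (G.dist v u) ∂PP V with he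
  set eI : V → ℝ := fun u => ∫ ω, Psi θ θ' (fun i => mI G θ s ω (geo hT v u i))
    (fun i => mI G θ' s ω (geo hT v u i)) (G.dist v u) ∂PP V with heI
  have hrew : ∑ u ∈ Λ, ∫ ω, ((cc G θ Λ s ω v u - cc G θ' Λ s ω v u) ^ 2
            + (cc G θ' Λ s ω v u) ^ 2 * (mm G θ Λ s ω u - mm G θ' Λ s ω u) ^ 2) ∂PP V
      = ∑ u ∈ Λ, e u := by
    apply Finset.sum_congr rfl
    intro u hu
    simp only [he]
    congr 1
    ext ω
    rw [infB_cc_eq hT h0 hlt v R s ω (infD_self_mem hT v R) hu,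
      infB_cc_eq hT h0' hlt' v R s ω (infD_self_mem hT v R) hu]
    unfold Psi
    simp only [geo_last hT]
    rfl
  rw [hrew]
  -- split
  have hsplit : ∑ u ∈ Λ, e u = ∑ u ∈ ΛK, e u + ∑ u ∈ Λ \ ΛK, e u := by
    rw [add_comm]; exact (Finset.sum_sdiff hsub).symm
  rw [hsplit]
  have hA : ∑ u ∈ ΛK, e u ≤ ∑ u ∈ ΛK, eI u + ΛK.card * (C * ((K : ℝ) + 1)) * σ ^ (R - K) := by
    have : ∀ u ∈ ΛK, e u ≤ eI u + C * ((K : ℝ) + 1) * σ ^ (R - K) := by
      intro u hu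
      have hdu : G.dist v u ≤ K := (mem_ball hT).1 hu
      exact hcmp s hs0 hsn v (geo hT v u) (G.dist v u) K R hdu hKR (fun i hi => by
        rw [geo_dist hT v u i hi]; omega)
    refine (Finset.sum_le_sum this).trans (le_of_eq ?_)
    rw [Finset.sum_add_distrib, Finset.sum_const, nsmul_eq_mul]
    ring
  have hB : ∑ u ∈ Λ \ ΛK, e u ≤ 5 * CK * ρ ^ (K + 1) := by
    set N : V → ℝ := fun y => if G.dist v y ≤ K then 0 else 1 with hN
    have hN0 : ∀ y, 0 ≤ N y := by intro y; simp only [hN]; split_ifs <;> norm_num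
    have hNb : ∀ y, N y ≤ ρ ^ (K + 1) * (ρ⁻¹) ^ (G.dist v y) := by
      intro y
      simp only [hN]
      split_ifs with hy
      · positivity
      · have hy' : K + 1 ≤ G.dist v y := by omega
        have e1 : (ρ⁻¹) ^ (K + 1) ≤ (ρ⁻¹) ^ (G.dist v y) :=
          pow_le_pow_right₀ ((one_le_inv₀ hρ0).2 hρ1.le) hy'
        calc (1:ℝ) = ρ ^ (K + 1) * (ρ⁻¹) ^ (K + 1) := by
              rw [← mul_pow, mul_inv_cancel₀ hρ0.ne', one_pow]
          _ ≤ _ := mul_le_mul_of_nonneg_left e1 (by positivity)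
    have hk := hker v (Λ \ ΛK) N hN0 _ hNb
    have hterm : ∀ u ∈ Λ \ ΛK, e u ≤ 5 * (((G.dist v u : ℝ) + 1) * θm ^ (2 * G.dist v u) *
        ∑ i ∈ Finset.range (G.dist v u + 1), N (geo hT v u i)) := by
      intro u hu
      have hu' : ¬ G.dist v u ≤ K := fun h => (Finset.mem_sdiff.1 hu).2 ((mem_ball hT).2 h)
      have hNu : N u = 1 := by simp only [hN]; rw [if_neg hu']
      have e1 : e u ≤ 5 * θm ^ (2 * G.dist v u) := by
        have hb : ∀ ω : Lab V, Psi θ θ' (fun i => mm G θ Λ s ω (geo hT v u i))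
            (fun i => mm G θ' Λ s ω (geo hT v u i)) (G.dist v u) ≤ 5 * θm ^ (2 * G.dist v u) :=
          fun ω => Psi_le h0 h0' (le_max_left _ _) (le_max_right _ _) hmlt _ _ _
            (fun i _ => infB_mm_le h0 hlt _ s ω _) (fun i _ => infB_mm_le h0' hlt' _ s ω _)
        have := integral_mono_of_nonneg (μ := PP V) (ae_of_all _ fun ω => Psi_nonneg θ θ'
          (fun i => mm G θ Λ s ω (geo hT v u i))
            (fun i => mm G θ' Λ s ω (geo hT v u i)) (G.dist v u))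
          (integrable_const (5 * θm ^ (2 * G.dist v u))) (ae_of_all _ hb)
        simpa using this
      refine e1.trans ?_
      apply mul_le_mul_of_nonneg_left _ (by norm_num)
      have e2 : 1 ≤ ∑ i ∈ Finset.range (G.dist v u + 1), N (geo hT v u i) := by
        have h2 := Finset.single_le_sum (f := fun i => N (geo hT v u i))
          (s := Finset.range (G.dist v u + 1))
          (fun i _ => hN0 _) (Finset.mem_range.2 (Nat.lt_succ_self (G.dist v u)))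
        simp only [geo_last hT, hNu] at h2
        exact h2
      have e3 : (1:ℝ) ≤ (G.dist v u : ℝ) + 1 := by
        have : (0:ℝ) ≤ G.dist v u := Nat.cast_nonneg _
        linarith
      have e4 : 0 ≤ θm ^ (2 * G.dist v u) := by positivity
      calc θm ^ (2 * G.dist v u) = 1 * θm ^ (2 * G.dist v u) * 1 := by ring
        _ ≤ ((G.dist v u : ℝ) + 1) * θm ^ (2 * G.dist v u) *
            ∑ i ∈ Finset.range (G.dist v u + 1), N (geo hT v u i) :=
          mul_le_mul (mul_le_mul_of_nonneg_right e3 e4) e2 (by norm_num) (by positivity)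
    calc ∑ u ∈ Λ \ ΛK, e u ≤ ∑ u ∈ Λ \ ΛK, 5 * (((G.dist v u : ℝ) + 1) * θm ^ (2 * G.dist v u) *
        ∑ i ∈ Finset.range (G.dist v u + 1), N (geo hT v u i)) := Finset.sum_le_sum hterm
      _ = 5 * ∑ u ∈ Λ \ ΛK, (((G.dist v u : ℝ) + 1) * θm ^ (2 * G.dist v u) *
        ∑ i ∈ Finset.range (G.dist v u + 1), N (geo hT v u i)) := by rw [Finset.mul_sum]
      _ ≤ 5 * (CK * ρ ^ (K + 1)) := mul_le_mul_of_nonneg_left hk (by norm_num)
      _ = _ := by ring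
  have hC' : ∑ u ∈ ΛK, eI u ≤ SS d θ θ' (PP V) (fun i ω => mI G θ s ω (x i))
      (fun i ω => mI G θ' s ω (x i)) := by
    -- value depends on the distance only
    set E : ℕ → ℝ := fun k => ∫ ω, Psi θ θ' (fun i => mI G θ s ω (x i))
      (fun i => mI G θ' s ω (x i)) k ∂PP V with hE
    have hval : ∀ u, eI u = E (G.dist v u) := by
      intro u
      exact infF_transfer hT d hd hreg θ θ' h0 h1 h0' h1' s (geo hT v u) x (G.dist v u)
        (nb_geo hT v u) (hx _) (fun g θ T ω v => mI_map hT g θ T ω v)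
    have hE0 : ∀ k, 0 ≤ E k := fun k => integral_nonneg fun ω => Psi_nonneg _ _ _ _ _
    have hEle : ∀ k, E k ≤ 5 * θm ^ (2 * k) := by
      intro k
      have hb : ∀ ω : Lab V, Psi θ θ' (fun i => mI G θ s ω (x i))
          (fun i => mI G θ' s ω (x i)) k ≤ 5 * θm ^ (2 * k) :=
        fun ω => Psi_le h0 h0' (le_max_left _ _) (le_max_right _ _) hmlt _ _ _
          (fun i _ => infE_mI_le h0 hlt s ω _) (fun i _ => infE_mI_le h0' hlt' s ω _)
      have := integral_mono_of_nonneg (μ := PP V) (ae_of_all _ fun ω => Psi_nonneg θ θ'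
        (fun i => mI G θ s ω (x i)) (fun i => mI G θ' s ω (x i)) k)
        (integrable_const (5 * θm ^ (2 * k))) (ae_of_all _ hb)
      simpa using this
    have hsum : ∑ u ∈ ΛK, eI u = ∑ k ∈ Finset.range (K + 1), cS d k * E k := by
      rw [← Finset.sum_fiberwise_of_maps_to (s := ΛK) (t := Finset.range (K + 1))
        (g := fun u => G.dist v u) (fun u hu => Finset.mem_range.2 (by
          have := (mem_ball hT).1 hu
          omega))]
      apply Finset.sum_congr rfl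
      intro k hk
      have hk' : k ≤ K := by have := Finset.mem_range.1 hk; omega
      rw [← card_sphere hT d hd hreg v k K hk']
      rw [Finset.sum_congr rfl (g := fun _ => E k) (fun u hu => by
        rw [hval u, (Finset.mem_filter.1 hu).2])]
      rw [Finset.sum_const, nsmul_eq_mul]
    rw [hsum]
    have hsummable : Summable (fun k => cS d k * E k) := by
      set q := ((d:ℝ) - 1) * θm ^ 2 with hq
      have hd1 : (0:ℝ) < (d:ℝ) - 1 := by
        have : (3:ℝ) ≤ d := by exact_mod_cast hd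
        linarith
      have hq0 : 0 ≤ q := by positivity
      have hq1 : q < 1 := by linarith
      refine Summable.of_nonneg_of_le (fun k => mul_nonneg (inf_cS_le hd k).1 (hE0 k))
        (fun k => ?_) ((summable_geometric_of_lt_one hq0 hq1).mul_left 10)
      calc cS d k * E k ≤ (2 * ((d : ℝ) - 1) ^ k) * (5 * θm ^ (2 * k)) :=
            mul_le_mul (inf_cS_le hd k).2 (hEle k) (hE0 k) (by positivity)
        _ = 10 * q ^ k := by rw [hq, mul_pow, ← pow_mul]; ring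
    have := hsummable.sum_le_tsum (Finset.range (K + 1))
      (fun k _ => mul_nonneg (inf_cS_le hd k).1 (hE0 k))
    exact this
  linarith

/-- **(A1)** -/
theorem A1 (hT : G.IsTree) (d : ℕ) (hd : 3 ≤ d) (hreg : G.IsRegularOfDegree d) (θ θ' : ℝ)
    (h0 : 0 ≤ θ) (h1 : θ < thc d) (h0' : 0 ≤ θ') (h1' : θ' < thc d) (x : ℕ → V)
    (hx : ∀ k, NB G x k) (T₁ T₂ : ℝ) (hT₁ : 0 ≤ T₁) (hT₂ : T₁ ≤ T₂) (F : ℝ → ℝ)
    (hF : IntervalIntegrable F volume T₁ T₂)
    (hFS : ∀ s ∈ Set.Icc T₁ T₂, min s (1 / 4) *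
      SS d θ θ' (PP V) (fun i ω => mI G θ s ω (x i)) (fun i ω => mI G θ' s ω (x i)) ≤ F s) :
    ∫ ω, (mI G θ T₂ ω (x 0) - mI G θ' T₂ ω (x 0)) ^ 2 ∂PP V
      ≤ ∫ ω, (mI G θ T₁ ω (x 0) - mI G θ' T₁ ω (x 0)) ^ 2 ∂PP V + 32 * ∫ s in T₁..T₂, F s := by
  have hth := thc_lt_one hd
  have hlt : θ < 1 := h1.trans hth
  have hlt' : θ' < 1 := h1'.trans hth
  obtain ⟨C, σ, ρ, B, hσ0, hσ1, hρ0, hρ1, hsum⟩ :=
    inf_sum_le hT d hd hreg θ θ' h0 h1 h0' h1' x hx T₂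
  set v := x 0 with hv
  -- finite volume
  have hfin : ∀ K R : ℕ, K ≤ R →
      ∫ ω, (mm G θ (ball G v R) T₂ ω v - mm G θ' (ball G v R) T₂ ω v) ^ 2 ∂PP V ≤
      ∫ ω, (mm G θ (ball G v R) T₁ ω v - mm G θ' (ball G v R) T₁ ω v) ^ 2 ∂PP V
        + 32 * (∫ s in T₁..T₂, F s) + 8 * (T₂ - T₁) *
          |(ball G v K).card * (C * ((K : ℝ) + 1)) * σ ^ (R - K) + B * ρ ^ (K + 1)| := by
    intro K R hKR
    set er := |((ball G v K).card : ℝ) * (C * ((K : ℝ) + 1)) * σ ^ (R - K) + B * ρ ^ (K + 1)| with her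
    have hP := (P1 (G := G) h0 hlt h0' hlt' (ball G v R) (ball G v R)
      (Finset.Subset.refl _) v T₁ T₂ hT₁ hT₂).2
    refine hP.trans ?_
    have hint := infB_int_le (f := fun s => gam s ^ 2 * ∑ u ∈ ball G v R, ∫ ω,
          ((cc G θ (ball G v R) s ω v u - cc G θ' (ball G v R) s ω v u) ^ 2
            + (cc G θ' (ball G v R) s ω v u) ^ 2 *
              (mm G θ (ball G v R) s ω u - mm G θ' (ball G v R) s ω u) ^ 2) ∂PP V)
      (g := fun s => F s + (1 / 4) * er) hT₂ (hF.add intervalIntegrable_const)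
      (fun s _ => mul_nonneg (sq_nonneg _)
          (Finset.sum_nonneg fun u _ => integral_nonneg fun ω => by positivity))
      (fun s hs => by
        have hs0 : 0 ≤ s := hT₁.trans hs.1
        have e1 := hsum K R hKR s hs0 hs.2
        have e2 := hFS s hs
        have e3 : 0 ≤ min s (1 / 4) := le_min hs0 (by norm_num)
        show gam s ^ 2 * _ ≤ _
        rw [inf_gam s hs0]
        have e4 := mul_le_mul_of_nonneg_left e1 e3
        rw [mul_add] at e4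
        have e5 : min s (1 / 4) * (((ball G v K).card : ℝ) * (C * ((K : ℝ) + 1)) * σ ^ (R - K)
            + B * ρ ^ (K + 1)) ≤ (1 / 4) * er :=
          (mul_le_mul_of_nonneg_left (le_abs_self _) e3).trans
            (mul_le_mul_of_nonneg_right (min_le_right _ _) (abs_nonneg _))
        linarith)
    rw [intervalIntegral.integral_add hF intervalIntegrable_const,
      intervalIntegral.integral_const, smul_eq_mul] at hint
    have h32 := mul_le_mul_of_nonneg_left hint (show (0:ℝ) ≤ 32 by norm_num)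
    linarith
  -- R → ∞
  have hK : ∀ K : ℕ, ∫ ω, (mI G θ T₂ ω v - mI G θ' T₂ ω v) ^ 2 ∂PP V ≤
      ∫ ω, (mI G θ T₁ ω v - mI G θ' T₁ ω v) ^ 2 ∂PP V
        + 32 * (∫ s in T₁..T₂, F s) + 8 * (T₂ - T₁) * |B * ρ ^ (K + 1)| := by
    intro K
    have hr : Tendsto (fun R : ℕ => σ ^ (R - K)) atTop (𝓝 0) :=
      (tendsto_pow_atTop_nhds_zero_of_lt_one hσ0.le hσ1).comp (tendsto_sub_atTop_nat K)
    have h3 : Tendsto (fun R : ℕ => 8 * (T₂ - T₁) *
        |((ball G v K).card : ℝ) * (C * ((K : ℝ) + 1)) * σ ^ (R - K) + B * ρ ^ (K + 1)|) atTop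
        (𝓝 (8 * (T₂ - T₁) * |((ball G v K).card : ℝ) * (C * ((K : ℝ) + 1)) * 0 + B * ρ ^ (K + 1)|)) :=
      (((hr.const_mul _).add_const _).abs).const_mul _
    rw [mul_zero, zero_add] at h3
    refine le_of_tendsto_of_tendsto
      (inf_tendsto_D hT d hd hreg θ θ' h0 h1 h0' h1' v T₂ (hT₁.trans hT₂))
      (((inf_tendsto_D hT d hd hreg θ θ' h0 h1 h0' h1' v T₁ hT₁).add_const _).add h3) ?_
    filter_upwards [eventually_ge_atTop K] with R hR
    exact hfin K R hR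
  -- K → ∞
  have hlim : Tendsto (fun K : ℕ => ∫ ω, (mI G θ T₁ ω v - mI G θ' T₁ ω v) ^ 2 ∂PP V
        + 32 * (∫ s in T₁..T₂, F s) + 8 * (T₂ - T₁) * |B * ρ ^ (K + 1)|) atTop
      (𝓝 (∫ ω, (mI G θ T₁ ω v - mI G θ' T₁ ω v) ^ 2 ∂PP V
        + 32 * (∫ s in T₁..T₂, F s) + 8 * (T₂ - T₁) * |B * 0|)) := by
    apply Tendsto.const_add
    apply Tendsto.const_mul
    apply Tendsto.abs
    apply Tendsto.const_mul
    exact (tendsto_pow_atTop_nhds_zero_of_lt_one hρ0.le hρ1).comp (tendsto_add_atTop_nat 1)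
  have := ge_of_tendsto' hlim hK
  simpa using this

theorem mI_mart (hT : G.IsTree) (d : ℕ) (hd : 3 ≤ d) (hreg : G.IsRegularOfDegree d) (θ : ℝ)
    (h0 : 0 ≤ θ) (h1 : θ < thc d) (v : V) (T₁ T₂ : ℝ) (hT₁ : 0 ≤ T₁) (hT₂ : T₁ ≤ T₂) :
    ∫ ω, (mI G θ T₂ ω v - mI G θ T₁ ω v) ^ 2 ∂PP V
      = ∫ ω, (mI G θ T₂ ω v) ^ 2 ∂PP V - ∫ ω, (mI G θ T₁ ω v) ^ 2 ∂PP V := by
  have hth := thc_lt_one hd
  have hlt : θ < 1 := h1.trans hth
  have hae1 := infD_ae hT d hd hreg θ h0 h1 T₁ hT₁ v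
  have hae2 := infD_ae hT d hd hreg θ h0 h1 T₂ (hT₁.trans hT₂) v
  have l1 : Tendsto (fun R : ℕ => ∫ ω, (mm G θ (ball G v R) T₂ ω v - mm G θ (ball G v R) T₁ ω v) ^ 2
      ∂PP V) atTop (𝓝 (∫ ω, (mI G θ T₂ ω v - mI G θ T₁ ω v) ^ 2 ∂PP V)) := by
    apply infE_dct 4
    · intro n
      exact ((infB_mm_meas G θ _ T₂ v).sub (infB_mm_meas G θ _ T₁ v)).pow_const 2
    · intro n ω
      rw [abs_of_nonneg (sq_nonneg _)]
      exact infB_sq_le (infB_mm_le h0 hlt _ T₂ ω v) (infB_mm_le h0 hlt _ T₁ ω v)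
    · filter_upwards [hae1, hae2] with ω h2 h3
      exact (h3.sub h2).pow 2
  have l2 : ∀ T, 0 ≤ T → Tendsto (fun R : ℕ => ∫ ω, (mm G θ (ball G v R) T ω v) ^ 2
      ∂PP V) atTop (𝓝 (∫ ω, (mI G θ T ω v) ^ 2 ∂PP V)) := by
    intro T hT0
    apply infE_dct 1
    · intro n
      exact (infB_mm_meas G θ _ T v).pow_const 2
    · intro n ω
      rw [abs_of_nonneg (sq_nonneg _), ← sq_abs]
      exact pow_le_one₀ (abs_nonneg _) (infB_mm_le h0 hlt _ T ω v)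
    · filter_upwards [infD_ae hT d hd hreg θ h0 h1 T hT0 v] with ω h2
      exact h2.pow 2
  have l3 := (l2 T₂ (hT₁.trans hT₂)).sub (l2 T₁ hT₁)
  refine tendsto_nhds_unique l1 (l3.congr fun R => ?_)
  exact (P3 (G := G) h0 hlt (ball G v R) v T₁ T₂ hT₁ hT₂).symm

end Crest.Agent.T41
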