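import Crest.Agent.T41P1

/-!
S0241, part N, deterministic estimates.
-/

set_option autoImplicit false

namespace Crest.Agent.T41

open MeasureTheory Filter Topology

theorem infA_kap_lip (θ₁ : ℝ) (h1 : θ₁ < 1) : ∃ C : ℝ, 0 ≤ C ∧ ∀ θ x y x' y' : ℝ, 0 ≤ θ → θ ≤ θ₁ →
    |x| ≤ 1 → |y| ≤ 1 → |x'| ≤ 1 → |y'| ≤ 1 →
    |kap θ x y - kap θ x' y'| ≤ θ * (C * (|x - x'| + |y - y'|)) := by
  obtain ⟨C₁, hC₁, h₁⟩ := gg_lip θ₁ h1
  obtain ⟨C₂, hC₂, h₂⟩ := BB_lip θ₁ h1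
  refine ⟨C₁ * C₂, by positivity, ?_⟩
  intro θ x y x' y' h0 hθ hx hy hx' hy'
  have hlt : θ < 1 := lt_of_le_of_lt hθ h1
  have e1 : kap θ x y - kap θ x' y' = θ * (gg θ (BB θ x y) - gg θ (BB θ x' y')) := by
    unfold kap; ring
  rw [e1, abs_mul, abs_of_nonneg h0]
  apply mul_le_mul_of_nonneg_left _ h0
  have e2 := h₁ θ (BB θ x y) (BB θ x' y') h0 hθ (BB_abs_le h0 hlt hx hy) (BB_abs_le h0 hlt hx' hy')
  have e3 := h₂ θ θ x y x' y' h0 hθ h0 hθ hx hy hx' hy'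
  rw [sub_self, abs_zero, add_zero] at e3
  calc _ ≤ C₁ * |BB θ x y - BB θ x' y'| := e2
    _ ≤ C₁ * (C₂ * (|x - x'| + |y - y'|)) := mul_le_mul_of_nonneg_left e3 hC₁
    _ = _ := by ring

theorem infA_prod_le {θ : ℝ} (h0 : 0 ≤ θ) (a : ℕ → ℝ) (k : ℕ) (ha : ∀ i < k, 0 ≤ a i ∧ a i ≤ θ) :
    0 ≤ ∏ i ∈ Finset.range k, a i ∧ ∏ i ∈ Finset.range k, a i ≤ θ ^ k := by
  refine ⟨Finset.prod_nonneg fun i hi => (ha i (Finset.mem_range.1 hi)).1, ?_⟩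
  have := Finset.prod_le_prod (s := Finset.range k) (f := a) (g := fun _ => θ)
    (fun i hi => (ha i (Finset.mem_range.1 hi)).1) (fun i hi => (ha i (Finset.mem_range.1 hi)).2)
  simpa using this

theorem infA_prod_diff {θ : ℝ} (h0 : 0 ≤ θ) (a b e : ℕ → ℝ) (k : ℕ)
    (ha : ∀ i < k, 0 ≤ a i ∧ a i ≤ θ) (hb : ∀ i < k, 0 ≤ b i ∧ b i ≤ θ)
    (he : ∀ i < k, |a i - b i| ≤ θ * e i) :
    |∏ i ∈ Finset.range k, a i - ∏ i ∈ Finset.range k, b i| ≤ θ ^ k * ∑ i ∈ Finset.range k, e i := by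
  induction k with
  | zero => simp
  | succ k ih =>
    have ih' := ih (fun i hi => ha i (by omega)) (fun i hi => hb i (by omega))
      (fun i hi => he i (by omega))
    rw [Finset.prod_range_succ, Finset.prod_range_succ, Finset.sum_range_succ]
    have hB := infA_prod_le h0 b k (fun i hi => hb i (by omega))
    have ha' := ha k (by omega)
    have he' := he k (by omega)
    have e1 : (∏ i ∈ Finset.range k, a i) * a k - (∏ i ∈ Finset.range k, b i) * b k =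
      (∏ i ∈ Finset.range k, a i - ∏ i ∈ Finset.range k, b i) * a k +
        (∏ i ∈ Finset.range k, b i) * (a k - b k) := by ring
    rw [e1]
    refine (abs_add_le _ _).trans ?_
    rw [abs_mul, abs_mul, abs_of_nonneg ha'.1, abs_of_nonneg hB.1]
    have e2 : |∏ i ∈ Finset.range k, a i - ∏ i ∈ Finset.range k, b i| * a k ≤
        (θ ^ k * ∑ i ∈ Finset.range k, e i) * θ :=
      mul_le_mul ih' ha'.2 ha'.1 ((abs_nonneg _).trans ih')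
    have e3 : (∏ i ∈ Finset.range k, b i) * |a k - b k| ≤ θ ^ k * (θ * e k) :=
      mul_le_mul hB.2 he' (abs_nonneg _) (by positivity)
    have e4 : θ ^ (k + 1) * (∑ i ∈ Finset.range k, e i + e k) =
      (θ ^ k * ∑ i ∈ Finset.range k, e i) * θ + θ ^ k * (θ * e k) := by ring
    linarith

theorem infA_Mseq_le {θ : ℝ} (h0 : 0 ≤ θ) (h1 : θ < 1) (m : ℕ → ℝ) (k : ℕ)
    (hm : ∀ i ≤ k, |m i| ≤ 1) : 0 ≤ Mseq θ m k ∧ Mseq θ m k ≤ θ ^ k := by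
  have hk : ∀ i < k, 0 ≤ kap θ (m (i + 1)) (m i) ∧ kap θ (m (i + 1)) (m i) ≤ θ := fun i hi =>
    ⟨kap_nonneg h0 h1 (hm _ hi) (hm _ hi.le), kap_le h0 h1 (hm _ hi) (hm _ hi.le)⟩
  have hp := infA_prod_le h0 (fun i => kap θ (m (i + 1)) (m i)) k hk
  have h2 : m 0 ^ 2 ≤ 1 := by
    have := hm 0 (by omega)
    rw [← sq_abs]
    exact pow_le_one₀ (abs_nonneg _) this
  unfold Mseq
  refine ⟨mul_nonneg (by linarith) hp.1, ?_⟩
  have : (1 - m 0 ^ 2) * ∏ i ∈ Finset.range k, kap θ (m (i + 1)) (m i) ≤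
      1 * ∏ i ∈ Finset.range k, kap θ (m (i + 1)) (m i) :=
    mul_le_mul_of_nonneg_right (by linarith [sq_nonneg (m 0)]) hp.1
  rw [one_mul] at this
  exact this.trans hp.2

theorem infA_sum_shift (f : ℕ → ℝ) (hf : ∀ i, 0 ≤ f i) (k : ℕ) :
    ∑ i ∈ Finset.range k, (f (i + 1) + f i) ≤ 2 * ∑ i ∈ Finset.range (k + 1), f i := by
  rw [Finset.sum_add_distrib]
  have e1 : ∑ i ∈ Finset.range k, f (i + 1) ≤ ∑ i ∈ Finset.range (k + 1), f i := by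
    rw [Finset.sum_range_succ' f k]; linarith [hf 0]
  have e2 : ∑ i ∈ Finset.range k, f i ≤ ∑ i ∈ Finset.range (k + 1), f i := by
    rw [Finset.sum_range_succ f k]; linarith [hf k]
  linarith

theorem infA_Mseq_diff (θ₁ : ℝ) (h1 : θ₁ < 1) : ∃ C : ℝ, 0 ≤ C ∧ ∀ (θ : ℝ) (m m' : ℕ → ℝ) (k : ℕ),
    0 ≤ θ → θ ≤ θ₁ → (∀ i ≤ k, |m i| ≤ 1) → (∀ i ≤ k, |m' i| ≤ 1) →
    |Mseq θ m k - Mseq θ m' k| ≤ C * θ ^ k * ∑ i ∈ Finset.range (k + 1), |m i - m' i| := by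
  obtain ⟨C, hC, h⟩ := infA_kap_lip θ₁ h1
  refine ⟨2 + 2 * C, by positivity, ?_⟩
  intro θ m m' k h0 hθ hm hm'
  have hlt : θ < 1 := lt_of_le_of_lt hθ h1
  have hk : ∀ i < k, 0 ≤ kap θ (m (i + 1)) (m i) ∧ kap θ (m (i + 1)) (m i) ≤ θ := fun i hi =>
    ⟨kap_nonneg h0 hlt (hm _ hi) (hm _ hi.le), kap_le h0 hlt (hm _ hi) (hm _ hi.le)⟩
  have hk' : ∀ i < k, 0 ≤ kap θ (m' (i + 1)) (m' i) ∧ kap θ (m' (i + 1)) (m' i) ≤ θ := fun i hi =>
    ⟨kap_nonneg h0 hlt (hm' _ hi) (hm' _ hi.le), kap_le h0 hlt (hm' _ hi) (hm' _ hi.le)⟩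
  have hp := infA_prod_le h0 (fun i => kap θ (m (i + 1)) (m i)) k hk
  have hd := infA_prod_diff h0 (fun i => kap θ (m (i + 1)) (m i))
    (fun i => kap θ (m' (i + 1)) (m' i))
    (fun i => C * (|m (i + 1) - m' (i + 1)| + |m i - m' i|)) k hk hk'
    (fun i hi => h θ _ _ _ _ h0 hθ (hm _ hi) (hm _ hi.le) (hm' _ hi) (hm' _ hi.le))
  have hs := infA_sum_shift (fun i => |m i - m' i|) (fun _ => abs_nonneg _) k
  rw [← Finset.mul_sum] at hd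
  have h2 : m' 0 ^ 2 ≤ 1 := by
    have := hm' 0 (by omega)
    rw [← sq_abs]
    exact pow_le_one₀ (abs_nonneg _) this
  unfold Mseq
  set P := ∏ i ∈ Finset.range k, kap θ (m (i + 1)) (m i) with hP
  set P' := ∏ i ∈ Finset.range k, kap θ (m' (i + 1)) (m' i) with hP'
  set W := ∑ i ∈ Finset.range (k + 1), |m i - m' i| with hW
  have e1 : (1 - m 0 ^ 2) * P - (1 - m' 0 ^ 2) * P' =
    ((m' 0 - m 0) * (m' 0 + m 0)) * P + (1 - m' 0 ^ 2) * (P - P') := by ring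
  rw [e1]
  refine (abs_add_le _ _).trans ?_
  rw [abs_mul, abs_mul, abs_mul, abs_of_nonneg hp.1, abs_of_nonneg (a := 1 - m' 0 ^ 2) (by linarith)]
  have hθk : 0 ≤ θ ^ k := by positivity
  have h3 : |m' 0 + m 0| ≤ 2 := by
    have := abs_add_le (m' 0) (m 0)
    have h4 := hm 0 (by omega)
    have h5 := hm' 0 (by omega)
    linarith
  have h0le : |m' 0 - m 0| ≤ W := by
    rw [abs_sub_comm, hW]
    exact Finset.single_le_sum (f := fun i => |m i - m' i|) (fun _ _ => abs_nonneg _)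
      (Finset.mem_range.2 (by omega))
  have hW0 : 0 ≤ W := (abs_nonneg _).trans h0le
  have e2 : |m' 0 - m 0| * |m' 0 + m 0| * P ≤ W * 2 * θ ^ k :=
    mul_le_mul (mul_le_mul h0le h3 (abs_nonneg _) hW0) hp.2 hp.1 (by positivity)
  have e3 : (1 - m' 0 ^ 2) * |P - P'| ≤ 1 * (θ ^ k * (C * (2 * W))) := by
    apply mul_le_mul (by linarith [sq_nonneg (m' 0)]) _ (abs_nonneg _) (by norm_num)
    refine hd.trans (mul_le_mul_of_nonneg_left ?_ hθk)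
    exact mul_le_mul_of_nonneg_left hs hC
  have e4 : (2 + 2 * C) * θ ^ k * W = W * 2 * θ ^ k + 1 * (θ ^ k * (C * (2 * W))) := by ring
  linarith

theorem infA_Mseq_diff_sq (θ₁ : ℝ) (h1 : θ₁ < 1) : ∃ C : ℝ, 0 ≤ C ∧
    ∀ (θ : ℝ) (m m' : ℕ → ℝ) (k : ℕ),
    0 ≤ θ → θ ≤ θ₁ → (∀ i ≤ k, |m i| ≤ 1) → (∀ i ≤ k, |m' i| ≤ 1) →
    (Mseq θ m k - Mseq θ m' k) ^ 2 ≤
      C * (((k : ℝ) + 1) * θ ^ (2 * k) * ∑ i ∈ Finset.range (k + 1), (m i - m' i) ^ 2) := by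
  obtain ⟨C, hC, h⟩ := infA_Mseq_diff θ₁ h1
  refine ⟨C ^ 2, by positivity, ?_⟩
  intro θ m m' k h0 hθ hm hm'
  have e1 := h θ m m' k h0 hθ hm hm'
  have e2 : (∑ i ∈ Finset.range (k + 1), |m i - m' i|) ^ 2 ≤
      ((k : ℝ) + 1) * ∑ i ∈ Finset.range (k + 1), (m i - m' i) ^ 2 := by
    have e := Finset.sum_mul_sq_le_sq_mul_sq (Finset.range (k + 1)) (fun _ => (1:ℝ)) (fun i => |m i - m' i|)
    simp only [one_mul, one_pow, Finset.sum_const, Finset.card_range, nsmul_eq_mul, mul_one,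
      sq_abs] at e
    push_cast at e
    exact e
  rw [← sq_abs]
  calc |Mseq θ m k - Mseq θ m' k| ^ 2 ≤ (C * θ ^ k * ∑ i ∈ Finset.range (k + 1), |m i - m' i|) ^ 2 :=
        pow_le_pow_left₀ (abs_nonneg _) e1 2
    _ = C ^ 2 * (θ ^ (2 * k) * (∑ i ∈ Finset.range (k + 1), |m i - m' i|) ^ 2) := by
        rw [mul_pow, mul_pow, ← pow_mul, mul_comm k 2]; ring
    _ ≤ C ^ 2 * (θ ^ (2 * k) * (((k : ℝ) + 1) * ∑ i ∈ Finset.range (k + 1), (m i - m' i) ^ 2)) := by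
        apply mul_le_mul_of_nonneg_left _ (by positivity)
        exact mul_le_mul_of_nonneg_left e2 (by positivity)
    _ = _ := by ring

end Crest.Agent.T41
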