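import Crest.Agent.T41InfA

/-!
S0241, part N: L² comparison of balls.
-/

set_option autoImplicit false

namespace Crest.Agent.T41

open MeasureTheory Filter Topology

universe u
variable {V : Type u} {G : SimpleGraph V}

theorem infB_int {f : Lab V → ℝ} (hf : Measurable f) (C : ℝ) (hb : ∀ ω, |f ω| ≤ C) :
    Integrable f (PP V) :=
  Integrable.of_bound hf.aestronglyMeasurable C (ae_of_all _ hb)

theorem infB_mm_meas (G : SimpleGraph V) (θ : ℝ) (Λ : Finset V) (T : ℝ) (v : V) :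
    Measurable (fun ω : Lab V => mm G θ Λ T ω v) := by
  have h := measurable_mm G θ Λ
  generalize mm G θ Λ = q at h ⊢
  have h1 : Measurable (fun ω : Lab V => (ω, T)) := measurable_id.prodMk measurable_const
  exact (h.comp h1).eval

theorem infB_tanh_meas : Measurable Real.tanh := by
  have : Real.tanh = fun x => Real.sinh x / Real.cosh x := by
    ext x; exact Real.tanh_eq_sinh_div_cosh x
  rw [this]
  exact Real.measurable_sinh.div Real.measurable_cosh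

theorem infB_hh_meas (G : SimpleGraph V) (θ : ℝ) (Λ : Finset V) (T : ℝ) (v : V) :
    Measurable (fun ω : Lab V => hh G θ Λ T ω v) := by
  have h := measurable_hh G θ Λ
  generalize hh G θ Λ = q at h ⊢
  have h1 : Measurable (fun ω : Lab V => (ω, T)) := measurable_id.prodMk measurable_const
  exact (h.comp h1).eval

theorem infB_cc_meas (G : SimpleGraph V) (θ : ℝ) (Λ : Finset V) (T : ℝ) (v u : V) :
    Measurable (fun ω : Lab V => cc G θ Λ T ω v u) := by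
  have h : ∀ w, Measurable (fun ω : Lab V => hh G θ Λ T ω w) := fun w => infB_hh_meas G θ Λ T w
  have h2 := measurable_cov G θ Λ v u
  unfold cc
  generalize hh G θ Λ T = q at h ⊢
  have h1 : Measurable (fun ω : Lab V => fun w => Real.tanh (q ω w)) := by
    apply measurable_pi_lambda
    intro w
    exact infB_tanh_meas.comp (h w)
  exact h2.comp h1

theorem infB_mm_le {θ : ℝ} (h0 : 0 ≤ θ) (h1 : θ < 1) (Λ : Finset V) (T : ℝ) (ω : Lab V) (v : V) :
    |mm G θ Λ T ω v| ≤ 1 := (mm_abs_lt h0 h1 Λ T ω v).le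

theorem infB_sq_le {a b : ℝ} (ha : |a| ≤ 1) (hb : |b| ≤ 1) : (a - b) ^ 2 ≤ 4 := by
  rw [abs_le] at ha hb
  have : (a - b) ^ 2 ≤ 2 ^ 2 := by
    apply sq_le_sq' <;> linarith
  linarith

theorem infB_int_le {f g : ℝ → ℝ} {a b : ℝ} (hab : a ≤ b) (hg : IntervalIntegrable g volume a b)
    (h0 : ∀ s ∈ Set.Icc a b, 0 ≤ f s) (h : ∀ s ∈ Set.Icc a b, f s ≤ g s) :
    ∫ s in a..b, f s ≤ ∫ s in a..b, g s := by
  by_cases hf : IntervalIntegrable f volume a b
  · exact intervalIntegral.integral_mono_on hab hf hg h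
  · rw [intervalIntegral.integral_undef hf]
    exact intervalIntegral.integral_nonneg hab (fun s hs => (h0 s hs).trans (h s hs))

theorem infB_gam_sq (s : ℝ) : 0 ≤ gam s ^ 2 ∧ gam s ^ 2 ≤ 1 / 4 := by
  refine ⟨sq_nonneg _, ?_⟩
  have h1 : gam s ≤ 1 / 2 := min_le_right _ _
  have h2 : 0 ≤ gam s := le_min (Real.sqrt_nonneg _) (by norm_num)
  nlinarith

theorem infB_cc_eq [G.LocallyFinite] (hT : G.IsTree) {θ : ℝ} (h0 : 0 ≤ θ) (h1 : θ < 1) (o : V)
    (R : ℕ) (T : ℝ) (ω : Lab V) {v u : V} (hv : v ∈ ball G o R) (hu : u ∈ ball G o R) :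
    cc G θ (ball G o R) T ω v u =
      Mseq θ (fun i => mm G θ (ball G o R) T ω (geo hT v u i)) (G.dist v u) := by
  unfold cc
  rw [cov_eq_Mker hT (adm_hh h0 h1 _ T ω) (fun i hi => geo_mem_ball hT hv hu i hi)]
  rfl

open Classical in
/-- pointwise estimate -/
theorem infB_point [G.LocallyFinite] (hT : G.IsTree) (θ₁ : ℝ) (hθ₁ : θ₁ < 1) : ∃ C : ℝ, 0 ≤ C ∧
    ∀ (θ : ℝ), 0 ≤ θ → θ ≤ θ₁ → ∀ (o o' : V) (R R' : ℕ), ball G o R ⊆ ball G o' R' →
    ∀ (v u : V), v ∈ ball G o R → u ∈ ball G o' R' → ∀ (s : ℝ) (ω : Lab V),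
    (cc G θ (ball G o R) s ω v u - cc G θ (ball G o' R') s ω v u) ^ 2
            + (cc G θ (ball G o' R') s ω v u) ^ 2 *
              (mm G θ (ball G o R) s ω u - mm G θ (ball G o' R') s ω u) ^ 2
    ≤ C * (((G.dist v u : ℝ) + 1) * θ ^ (2 * G.dist v u) *
      ∑ i ∈ Finset.range (G.dist v u + 1), (if geo hT v u i ∈ ball G o R then
        (mm G θ (ball G o R) s ω (geo hT v u i) - mm G θ (ball G o' R') s ω (geo hT v u i)) ^ 2
        else 4)) := by
  obtain ⟨C, hC, h⟩ := infA_Mseq_diff_sq θ₁ hθ₁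
  refine ⟨C + 2, by positivity, ?_⟩
  intro θ h0 hθ o o' R R' hsub v u hv hu s ω
  have hlt : θ < 1 := lt_of_le_of_lt hθ hθ₁
  set k := G.dist v u with hk
  set Λ := ball G o R with hΛ
  set Λ' := ball G o' R' with hΛ'
  set N : V → ℝ := fun x => if x ∈ Λ then (mm G θ Λ s ω x - mm G θ Λ' s ω x) ^ 2 else 4 with hN
  have hN0 : ∀ x, 0 ≤ N x := by
    intro x; simp only [hN]; split_ifs
    · exact sq_nonneg _
    · norm_num
  have hle : ∀ x, |mm G θ Λ s ω x| ≤ 1 := fun x => infB_mm_le h0 hlt Λ s ω x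
  have hle' : ∀ x, |mm G θ Λ' s ω x| ≤ 1 := fun x => infB_mm_le h0 hlt Λ' s ω x
  have hcc' : cc G θ Λ' s ω v u = Mseq θ (fun i => mm G θ Λ' s ω (geo hT v u i)) k :=
    infB_cc_eq hT h0 hlt o' R' s ω (hsub hv) hu
  have hM' := infA_Mseq_le h0 hlt (fun i => mm G θ Λ' s ω (geo hT v u i)) k (fun i _ => hle' _)
  have hθk : 0 ≤ θ ^ (2 * k) := by positivity
  have hcc'2 : (cc G θ Λ' s ω v u) ^ 2 ≤ θ ^ (2 * k) := by
    rw [hcc', mul_comm 2 k, pow_mul]
    exact pow_le_pow_left₀ hM'.1 hM'.2 2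
  have hk1 : (1:ℝ) ≤ (k:ℝ) + 1 := by
    have : (0:ℝ) ≤ k := Nat.cast_nonneg _
    linarith
  have hsum : N u ≤ ∑ i ∈ Finset.range (k + 1), N (geo hT v u i) := by
    have h2 := Finset.single_le_sum (f := fun i => N (geo hT v u i)) (s := Finset.range (k + 1))
      (fun i _ => hN0 _) (Finset.mem_range.2 (Nat.lt_succ_self k))
    simpa only [hk, geo_last hT] using h2
  set W₀ := ∑ i ∈ Finset.range (k + 1), N (geo hT v u i) with hW
  have hW0 : 0 ≤ W₀ := (hN0 u).trans hsum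
  have hX : θ ^ (2 * k) * N u ≤ ((k:ℝ) + 1) * θ ^ (2 * k) * W₀ := by
    calc θ ^ (2 * k) * N u ≤ θ ^ (2 * k) * W₀ := mul_le_mul_of_nonneg_left hsum hθk
      _ = 1 * (θ ^ (2 * k) * W₀) := (one_mul _).symm
      _ ≤ ((k:ℝ) + 1) * (θ ^ (2 * k) * W₀) := mul_le_mul_of_nonneg_right hk1 (by positivity)
      _ = _ := by ring
  by_cases huΛ : u ∈ Λ
  · have hcc : cc G θ Λ s ω v u = Mseq θ (fun i => mm G θ Λ s ω (geo hT v u i)) k :=
      infB_cc_eq hT h0 hlt o R s ω hv huΛ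
    have e1 := h θ (fun i => mm G θ Λ s ω (geo hT v u i)) (fun i => mm G θ Λ' s ω (geo hT v u i)) k
      h0 hθ (fun i _ => hle _) (fun i _ => hle' _)
    have e2 : ∑ i ∈ Finset.range (k + 1),
        (mm G θ Λ s ω (geo hT v u i) - mm G θ Λ' s ω (geo hT v u i)) ^ 2 = W₀ := by
      rw [hW]
      apply Finset.sum_congr rfl
      intro i hi
      simp only [hN]
      rw [if_pos (geo_mem_ball hT hv huΛ i (by
        have := Finset.mem_range.1 hi
        omega))]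
    rw [e2, ← hcc, ← hcc'] at e1
    have e3 : (cc G θ Λ' s ω v u) ^ 2 * (mm G θ Λ s ω u - mm G θ Λ' s ω u) ^ 2 ≤
        θ ^ (2 * k) * N u := by
      have : N u = (mm G θ Λ s ω u - mm G θ Λ' s ω u) ^ 2 := by simp only [hN]; rw [if_pos huΛ]
      rw [this]
      exact mul_le_mul_of_nonneg_right hcc'2 (sq_nonneg _)
    have e4 : (C + 2) * (((k:ℝ) + 1) * θ ^ (2 * k) * W₀) =
      C * (((k:ℝ) + 1) * θ ^ (2 * k) * W₀) + 2 * (((k:ℝ) + 1) * θ ^ (2 * k) * W₀) := by ring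
    rw [e4]
    have e5 : 0 ≤ ((k:ℝ) + 1) * θ ^ (2 * k) * W₀ := by positivity
    linarith
  · have hcc : cc G θ Λ s ω v u = 0 := by
      unfold cc; exact cov_notMem G θ Λ _ huΛ
    have hNu : N u = 4 := by simp only [hN]; rw [if_neg huΛ]
    rw [hcc]
    have e3 : (cc G θ Λ' s ω v u) ^ 2 * (mm G θ Λ s ω u - mm G θ Λ' s ω u) ^ 2 ≤
        θ ^ (2 * k) * 4 :=
      mul_le_mul hcc'2 (infB_sq_le (hle u) (hle' u)) (sq_nonneg _) hθk
    have e6 : (0 - cc G θ Λ' s ω v u) ^ 2 = (cc G θ Λ' s ω v u) ^ 2 := by ring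
    rw [e6]
    rw [hNu] at hX
    have e4 : (C + 2) * (((k:ℝ) + 1) * θ ^ (2 * k) * W₀) =
      C * (((k:ℝ) + 1) * θ ^ (2 * k) * W₀) + 2 * (((k:ℝ) + 1) * θ ^ (2 * k) * W₀) := by ring
    rw [e4]
    have e5 : 0 ≤ C * (((k:ℝ) + 1) * θ ^ (2 * k) * W₀) := by positivity
    linarith

end Crest.Agent.T41
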