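import Crest.Agent.T41InfB

/-!
S0241, part N: L² comparison of balls, exponential bound.
-/

set_option autoImplicit false

namespace Crest.Agent.T41

open MeasureTheory Filter Topology

universe u
variable {V : Type u} {G : SimpleGraph V}

theorem infC_rate {d : ℕ} (hd : 3 ≤ d) {θ : ℝ} (h0 : 0 ≤ θ) (h1 : θ < thc d) :
    ∃ ρ : ℝ, 0 < ρ ∧ ρ < 1 ∧ ((d : ℝ) - 1) * θ ^ 2 < ρ := by
  have hd1 : (0:ℝ) < (d:ℝ) - 1 := by
    have : (3:ℝ) ≤ d := by exact_mod_cast hd
    linarith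
  have h2 : ((d : ℝ) - 1) * θ ^ 2 < 1 := by
    exact lt_of_lt_of_eq (mul_lt_mul_of_pos_left (pow_lt_pow_left₀ h1 h0 two_ne_zero) hd1) (thc_sq hd)
  have h3 : 0 ≤ ((d : ℝ) - 1) * θ ^ 2 := by positivity
  exact ⟨(((d : ℝ) - 1) * θ ^ 2 + 1) / 2, by linarith, by linarith, by linarith⟩

open Classical in
/-- the expectations -/
noncomputable def Nf (G : SimpleGraph V) (θ : ℝ) (Λ Λ' : Finset V) (s : ℝ) (x : V) : ℝ :=
  if x ∈ Λ then ∫ ω, (mm G θ Λ s ω x - mm G θ Λ' s ω x) ^ 2 ∂PP V else 4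

theorem Nf_nonneg (θ : ℝ) (Λ Λ' : Finset V) (s : ℝ) (x : V) : 0 ≤ Nf G θ Λ Λ' s x := by
  unfold Nf
  split_ifs
  · exact integral_nonneg (fun _ => sq_nonneg _)
  · norm_num

theorem infC_sq_int {θ θ' : ℝ} (h0 : 0 ≤ θ) (h1 : θ < 1) (h0' : 0 ≤ θ') (h1' : θ' < 1)
    (Λ Λ' : Finset V) (T : ℝ) (v : V) :
    Integrable (fun ω => (mm G θ Λ T ω v - mm G θ' Λ' T ω v) ^ 2) (PP V) := by
  apply infB_int (((infB_mm_meas G θ Λ T v).sub (infB_mm_meas G θ' Λ' T v)).pow_const 2) 4
  intro ω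
  rw [abs_of_nonneg (sq_nonneg _)]
  exact infB_sq_le (infB_mm_le h0 h1 Λ T ω v) (infB_mm_le h0' h1' Λ' T ω v)

theorem infC_sq_le4 {θ θ' : ℝ} (h0 : 0 ≤ θ) (h1 : θ < 1) (h0' : 0 ≤ θ') (h1' : θ' < 1)
    (Λ Λ' : Finset V) (T : ℝ) (v : V) :
    ∫ ω, (mm G θ Λ T ω v - mm G θ' Λ' T ω v) ^ 2 ∂PP V ≤ 4 := by
  have := integral_mono (infC_sq_int (G := G) h0 h1 h0' h1' Λ Λ' T v) (integrable_const (4:ℝ))
    (fun ω => infB_sq_le (infB_mm_le h0 h1 Λ T ω v) (infB_mm_le h0' h1' Λ' T ω v))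
  simpa using this

/-- integrated estimate -/
theorem infC_expect [G.LocallyFinite] (hT : G.IsTree) (θ₁ : ℝ) (hθ₁ : θ₁ < 1) : ∃ C : ℝ, 0 ≤ C ∧
    ∀ (θ : ℝ), 0 ≤ θ → θ ≤ θ₁ → ∀ (o o' : V) (R R' : ℕ), ball G o R ⊆ ball G o' R' →
    ∀ (v u : V), v ∈ ball G o R → u ∈ ball G o' R' → ∀ (s : ℝ),
    ∫ ω, ((cc G θ (ball G o R) s ω v u - cc G θ (ball G o' R') s ω v u) ^ 2
            + (cc G θ (ball G o' R') s ω v u) ^ 2 *
              (mm G θ (ball G o R) s ω u - mm G θ (ball G o' R') s ω u) ^ 2) ∂PP V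
    ≤ C * (((G.dist v u : ℝ) + 1) * θ ^ (2 * G.dist v u) *
      ∑ i ∈ Finset.range (G.dist v u + 1),
        Nf G θ (ball G o R) (ball G o' R') s (geo hT v u i)) := by
  classical
  obtain ⟨C, hC, h⟩ := infB_point (V := V) (G := G) hT θ₁ hθ₁
  refine ⟨C, hC, ?_⟩
  intro θ h0 hθ o o' R R' hsub v u hv hu s
  have hlt : θ < 1 := lt_of_le_of_lt hθ hθ₁
  have hpt := fun ω => h θ h0 hθ o o' R R' hsub v u hv hu s ω
  set Λ := ball G o R with hΛ
  set Λ' := ball G o' R' with hΛ'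
  have hfi : ∀ x, Integrable (fun ω => (if x ∈ Λ then
        (mm G θ Λ s ω x - mm G θ Λ' s ω x) ^ 2 else 4)) (PP V) := by
    intro x
    split_ifs
    · exact infC_sq_int h0 hlt h0 hlt Λ Λ' s x
    · exact integrable_const _
  have hNf : ∀ x, ∫ ω, (if x ∈ Λ then
        (mm G θ Λ s ω x - mm G θ Λ' s ω x) ^ 2 else 4) ∂PP V = Nf G θ Λ Λ' s x := by
    intro x
    unfold Nf
    split_ifs
    · rfl
    · simp
  have hsum : Integrable (fun ω => C * (((G.dist v u : ℝ) + 1) * θ ^ (2 * G.dist v u) *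
      ∑ i ∈ Finset.range (G.dist v u + 1), (if geo hT v u i ∈ Λ then
        (mm G θ Λ s ω (geo hT v u i) - mm G θ Λ' s ω (geo hT v u i)) ^ 2
        else 4))) (PP V) := by
    apply Integrable.const_mul
    apply Integrable.const_mul
    exact integrable_finsetSum _ (fun i _ => hfi _)
  refine (integral_mono_of_nonneg (ae_of_all _ fun ω => ?_) hsum (ae_of_all _ hpt)).trans
    (le_of_eq ?_)
  · show (0:ℝ) ≤ _
    positivity
  · rw [integral_const_mul, integral_const_mul, integral_finsetSum _ (fun i _ => hfi _)]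
    simp only [hNf]

/-- **exponential bound** -/
theorem infC_bound [G.LocallyFinite] (hT : G.IsTree) (d : ℕ) (hd : 3 ≤ d)
    (hreg : G.IsRegularOfDegree d) (θ : ℝ) (h0 : 0 ≤ θ) (h1 : θ < thc d) :
    ∃ lam ρ : ℝ, 0 ≤ lam ∧ 0 < ρ ∧ ρ < 1 ∧ ∀ (T : ℝ), 0 ≤ T →
    ∀ (o o' : V) (R R' : ℕ), ball G o R ⊆ ball G o' R' → ∀ v ∈ ball G o R,
      ∫ ω, (mm G θ (ball G o R) T ω v - mm G θ (ball G o' R') T ω v) ^ 2 ∂PP V
        ≤ 4 * ρ ^ (R + 1 - G.dist o v) * Real.exp (lam * T) := by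
  classical
  obtain ⟨ρ, hρ0, hρ1, hρ⟩ := infC_rate hd h0 h1
  obtain ⟨CK, hCK, hK⟩ := kernel_sum hT d hd hreg θ ρ h0 hρ0 hρ1.le hρ
  have hth := thc_lt_one hd
  obtain ⟨C, hC, hE⟩ := infC_expect (V := V) (G := G) hT (thc d) hth
  have hlt : θ < 1 := h1.trans hth
  set L := 8 * C * CK with hL
  have hL0 : 0 ≤ L := by positivity
  set lam := 2 * L + 1 with hlam
  have hlam0 : 0 < lam := by positivity
  refine ⟨lam, ρ, hlam0.le, hρ0, hρ1, ?_⟩
  intro T hT0 o o' R R' hsub v hv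
  set Λ := ball G o R with hΛ
  set Λ' := ball G o' R' with hΛ'
  -- the exponent
  set r : V → ℕ := fun x => if x ∈ Λ then R + 1 - G.dist o x else 0 with hr
  have hrle : ∀ x, r x ≤ R + 1 := by
    intro x; simp only [hr]; split_ifs <;> omega
  have hrlip : ∀ x ∈ Λ, ∀ y, r x ≤ r y + G.dist x y := by
    intro x hx y
    have hx' : G.dist o x ≤ R := (mem_ball hT).1 hx
    have htri : G.dist o y ≤ G.dist o x + G.dist x y := hT.connected.dist_triangle
    simp only [hr]
    rw [if_pos hx]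
    split_ifs with hy
    · omega
    · have hy' : ¬ G.dist o y ≤ R := fun h => hy ((mem_ball hT).2 h)
      omega
  set M : ℝ := 4 * (ρ⁻¹) ^ (R + 1) with hM
  have hM0 : 0 ≤ M := by positivity
  -- the bootstrap
  have key : ∀ j : ℕ, ∀ T, 0 ≤ T → ∀ x ∈ Λ,
      ∫ ω, (mm G θ Λ T ω x - mm G θ Λ' T ω x) ^ 2 ∂PP V
        ≤ (4 + M / 2 ^ j) * ρ ^ (r x) * Real.exp (lam * T) := by
    intro j
    induction j with
    | zero =>
      intro T hT0 x hx
      have e1 := infC_sq_le4 (G := G) h0 hlt h0 hlt Λ Λ' T x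
      have e2 : (4:ℝ) ≤ M * ρ ^ (r x) := by
        have : ρ ^ (R + 1) ≤ ρ ^ (r x) := pow_le_pow_of_le_one hρ0.le hρ1.le (hrle x)
        calc (4:ℝ) = 4 * ((ρ⁻¹) ^ (R + 1) * ρ ^ (R + 1)) := by
              rw [← mul_pow, inv_mul_cancel₀ hρ0.ne']; simp
          _ ≤ 4 * ((ρ⁻¹) ^ (R + 1) * ρ ^ (r x)) := by
              apply mul_le_mul_of_nonneg_left _ (by norm_num)
              exact mul_le_mul_of_nonneg_left this (by positivity)
          _ = _ := by rw [hM]; ring
      have e3 : 1 ≤ Real.exp (lam * T) := Real.one_le_exp (by positivity)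
      have e4 : (4:ℝ) ≤ (4 + M / 2 ^ 0) * ρ ^ (r x) := by
        rw [pow_zero, div_one, add_mul]
        have : 0 ≤ 4 * ρ ^ (r x) := by positivity
        linarith
      calc _ ≤ (4:ℝ) := e1
        _ ≤ (4 + M / 2 ^ 0) * ρ ^ (r x) := e4
        _ = (4 + M / 2 ^ 0) * ρ ^ (r x) * 1 := by ring
        _ ≤ _ := mul_le_mul_of_nonneg_left e3 (by positivity)
    | succ j ih =>
      intro T hT0 x hx
      set a : ℝ := 4 + M / 2 ^ j with ha
      have ha4 : 4 ≤ a := by
        have : 0 ≤ M / 2 ^ j := by positivity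
        linarith
      have ha0 : 0 ≤ a := by linarith
      have hP := (P1 (G := G) h0 hlt h0 hlt Λ Λ' hsub x 0 T le_rfl hT0).2
      have hz : ∫ ω, (mm G θ Λ 0 ω x - mm G θ Λ' 0 ω x) ^ 2 ∂PP V = 0 := by
        have : ∀ ω : Lab V, (mm G θ Λ 0 ω x - mm G θ Λ' 0 ω x) ^ 2 = 0 := by
          intro ω
          rw [mm_zero h0 hlt Λ 0 le_rfl, mm_zero h0 hlt Λ' 0 le_rfl]; simp
        simp [this]
      rw [hz, zero_add] at hP
      refine hP.trans ?_
      -- bound of the integrand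
      have hS : ∀ s ∈ Set.Icc 0 T, gam s ^ 2 * ∑ u ∈ Λ', ∫ ω,
          ((cc G θ Λ s ω x u - cc G θ Λ' s ω x u) ^ 2
            + (cc G θ Λ' s ω x u) ^ 2 * (mm G θ Λ s ω u - mm G θ Λ' s ω u) ^ 2) ∂PP V
          ≤ (1 / 4) * (C * (CK * (a * Real.exp (lam * s) * ρ ^ (r x)))) := by
        intro s hs
        have hN : ∀ y, Nf G θ Λ Λ' s y ≤ a * Real.exp (lam * s) * ρ ^ (r x) * (ρ⁻¹) ^ (G.dist x y) := by
          intro y
          have e1 : Nf G θ Λ Λ' s y ≤ a * Real.exp (lam * s) * ρ ^ (r y) := by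
            unfold Nf
            split_ifs with hy
            · have := ih s hs.1 y hy
              linarith
            · have hry : r y = 0 := by simp only [hr]; rw [if_neg hy]
              rw [hry, pow_zero, mul_one]
              have e3 : 1 ≤ Real.exp (lam * s) := Real.one_le_exp (mul_nonneg hlam0.le hs.1)
              calc (4:ℝ) = 4 * 1 := by ring
                _ ≤ a * Real.exp (lam * s) := mul_le_mul ha4 e3 (by norm_num) ha0
          refine e1.trans ?_
          rw [mul_assoc (a * Real.exp (lam * s))]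
          apply mul_le_mul_of_nonneg_left _ (by positivity)
          have h2 := hrlip x hx y
          calc ρ ^ (r y) = ρ ^ (r y) * (ρ ^ (G.dist x y) * (ρ⁻¹) ^ (G.dist x y)) := by
                rw [← mul_pow, mul_inv_cancel₀ hρ0.ne']; simp
            _ = ρ ^ (r y + G.dist x y) * (ρ⁻¹) ^ (G.dist x y) := by rw [pow_add]; ring
            _ ≤ ρ ^ (r x) * (ρ⁻¹) ^ (G.dist x y) := by
                apply mul_le_mul_of_nonneg_right _ (by positivity)
                exact pow_le_pow_of_le_one hρ0.le hρ1.le h2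
        have hk := hK x Λ' (Nf G θ Λ Λ' s) (Nf_nonneg θ Λ Λ' s) _ hN
        have hsum : ∑ u ∈ Λ', ∫ ω,
          ((cc G θ Λ s ω x u - cc G θ Λ' s ω x u) ^ 2
            + (cc G θ Λ' s ω x u) ^ 2 * (mm G θ Λ s ω u - mm G θ Λ' s ω u) ^ 2) ∂PP V
            ≤ C * (CK * (a * Real.exp (lam * s) * ρ ^ (r x))) := by
          calc _ ≤ ∑ u ∈ Λ', C * (((G.dist x u : ℝ) + 1) * θ ^ (2 * G.dist x u) *
                ∑ i ∈ Finset.range (G.dist x u + 1), Nf G θ Λ Λ' s (geo hT x u i)) :=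
                Finset.sum_le_sum (fun u hu => hE θ h0 h1.le o o' R R' hsub x u hx hu s)
            _ = C * ∑ u ∈ Λ', (((G.dist x u : ℝ) + 1) * θ ^ (2 * G.dist x u) *
                ∑ i ∈ Finset.range (G.dist x u + 1), Nf G θ Λ Λ' s (geo hT x u i)) := by
                rw [Finset.mul_sum]
            _ ≤ _ := mul_le_mul_of_nonneg_left hk hC
        have hg := infB_gam_sq s
        exact mul_le_mul hg.2 hsum (Finset.sum_nonneg fun u _ => integral_nonneg fun ω => by positivity)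
          (by norm_num)
      have hint := infB_int_le (f := fun s => gam s ^ 2 * ∑ u ∈ Λ', ∫ ω,
          ((cc G θ Λ s ω x u - cc G θ Λ' s ω x u) ^ 2
            + (cc G θ Λ' s ω x u) ^ 2 * (mm G θ Λ s ω u - mm G θ Λ' s ω u) ^ 2) ∂PP V)
        (g := fun s => (1 / 4) * (C * (CK * (a * Real.exp (lam * s) * ρ ^ (r x))))) hT0
        (Continuous.intervalIntegrable (by fun_prop) _ _)
        (fun s _ => mul_nonneg (sq_nonneg _)
          (Finset.sum_nonneg fun u _ => integral_nonneg fun ω => by positivity)) hS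
      have hval : ∫ s in (0:ℝ)..T, (1 / 4) * (C * (CK * (a * Real.exp (lam * s) * ρ ^ (r x)))) =
          (1 / 4) * (C * CK * a * ρ ^ (r x)) * ((Real.exp (lam * T) - 1) / lam) := by
        have e1 : ∀ s : ℝ, (1 / 4) * (C * (CK * (a * Real.exp (lam * s) * ρ ^ (r x)))) =
          (1 / 4) * (C * CK * a * ρ ^ (r x)) * Real.exp (lam * s) := fun s => by ring
        simp only [e1]
        rw [intervalIntegral.integral_const_mul]
        congr 1
        rw [intervalIntegral.integral_comp_mul_left (fun x => Real.exp x) hlam0.ne', integral_exp,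
          mul_zero, Real.exp_zero, smul_eq_mul, inv_mul_eq_div]
      rw [hval] at hint
      have hfin : 32 * ((1 / 4) * (C * CK * a * ρ ^ (r x)) * ((Real.exp (lam * T) - 1) / lam)) ≤
          (a / 2) * ρ ^ (r x) * Real.exp (lam * T) := by
        have e1 : (Real.exp (lam * T) - 1) / lam ≤ Real.exp (lam * T) / lam :=
          div_le_div_of_nonneg_right (by linarith) hlam0.le
        have e2 : 32 * ((1 / 4) * (C * CK * a * ρ ^ (r x)) * (Real.exp (lam * T) / lam)) =
          (L / lam) * (a * ρ ^ (r x) * Real.exp (lam * T)) := by rw [hL]; ring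
        have e3 : L / lam ≤ 1 / 2 := by
          rw [div_le_iff₀ hlam0, hlam]; linarith
        have e4 : (L / lam) * (a * ρ ^ (r x) * Real.exp (lam * T)) ≤
          (1 / 2) * (a * ρ ^ (r x) * Real.exp (lam * T)) :=
          mul_le_mul_of_nonneg_right e3 (by positivity)
        calc _ ≤ 32 * ((1 / 4) * (C * CK * a * ρ ^ (r x)) * (Real.exp (lam * T) / lam)) := by
              apply mul_le_mul_of_nonneg_left _ (by norm_num)
              exact mul_le_mul_of_nonneg_left e1 (by positivity)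
          _ = _ := e2
          _ ≤ _ := e4
          _ = _ := by ring
      have hlast : (a / 2) * ρ ^ (r x) * Real.exp (lam * T) ≤
          (4 + M / 2 ^ (j + 1)) * ρ ^ (r x) * Real.exp (lam * T) := by
        apply mul_le_mul_of_nonneg_right _ (Real.exp_pos _).le
        apply mul_le_mul_of_nonneg_right _ (by positivity)
        rw [ha, pow_succ]
        have : M / (2 ^ j * 2) = (M / 2 ^ j) / 2 := by rw [div_div]
        rw [this]; linarith
      have h32 := mul_le_mul_of_nonneg_left hint (show (0:ℝ) ≤ 32 by norm_num)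
      exact h32.trans (hfin.trans hlast)
  -- let j → ∞
  have hlim : Tendsto (fun j : ℕ => (4 + M / 2 ^ j) * ρ ^ (r v) * Real.exp (lam * T)) atTop
      (𝓝 ((4 + 0) * ρ ^ (r v) * Real.exp (lam * T))) := by
    apply Tendsto.mul_const
    apply Tendsto.mul_const
    apply Tendsto.const_add
    exact tendsto_const_nhds.div_atTop (tendsto_pow_atTop_atTop_of_one_lt (by norm_num))
  have := ge_of_tendsto' hlim (fun j => key j T hT0 v hv)
  have hrv : r v = R + 1 - G.dist o v := by simp only [hr]; rw [if_pos hv]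
  rw [hrv, add_zero] at this
  exact this

end Crest.Agent.T41
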