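import Crest.Agent.T41InfC

/-!
S0241, part N: the limit field.
-/

set_option autoImplicit false

namespace Crest.Agent.T41

open MeasureTheory Filter Topology

universe u
variable {V : Type u} {G : SimpleGraph V}

/-- `E|f| ≤ (a + E f²/a)/2` -/
theorem infD_abs_le {f : Lab V → ℝ} (hf : Measurable f) (M : ℝ) (hb : ∀ ω, |f ω| ≤ M) (a : ℝ)
    (ha : 0 < a) : ∫ ω, |f ω| ∂PP V ≤ (a + (∫ ω, f ω ^ 2 ∂PP V) / a) / 2 := by
  have hM : 0 ≤ M := (abs_nonneg _).trans (hb (fun _ _ => (0, 0)))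
  have h1 : Integrable (fun ω => f ω ^ 2) (PP V) := by
    apply infB_int (hf.pow_const 2) (M ^ 2)
    intro ω
    rw [abs_of_nonneg (sq_nonneg _), ← sq_abs]
    exact pow_le_pow_left₀ (abs_nonneg _) (hb ω) 2
  have h2 : Integrable (fun ω => (a + f ω ^ 2 / a) / 2) (PP V) :=
    ((integrable_const a).add (h1.div_const a)).div_const 2
  have h3 : Integrable (fun ω => |f ω|) (PP V) := by
    apply infB_int hf.abs M
    intro ω; rw [abs_abs]; exact hb ω
  have h4 := integral_mono h3 h2 (fun ω => by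
    have e : 0 ≤ (a - |f ω|) ^ 2 := sq_nonneg _
    show |f ω| ≤ (a + f ω ^ 2 / a) / 2
    have e2 : (a + f ω ^ 2 / a) / 2 - |f ω| = (a - |f ω|) ^ 2 / (2 * a) := by
      rw [← sq_abs (f ω)]
      field_simp
      ring
    have e3 : 0 ≤ (a - |f ω|) ^ 2 / (2 * a) := by positivity
    linarith)
  refine h4.trans (le_of_eq ?_)
  rw [integral_div, integral_add (integrable_const a) (h1.div_const a), integral_div]
  simp

theorem infD_ball_mono [G.LocallyFinite] (hT : G.IsTree) (v : V) {R R' : ℕ} (h : R ≤ R') :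
    ball G v R ⊆ ball G v R' := by
  apply ball_subset_ball hT
  simpa using h

theorem infD_self_mem [G.LocallyFinite] (hT : G.IsTree) (v : V) (R : ℕ) : v ∈ ball G v R := by
  rw [mem_ball hT]; simp

section lim
variable [G.LocallyFinite] (hT : G.IsTree) (d : ℕ) (hd : 3 ≤ d) (hreg : G.IsRegularOfDegree d)
  (θ : ℝ) (h0 : 0 ≤ θ) (h1 : θ < thc d)
include hT hd hreg h0 h1

/-- almost sure convergence and the limit is `mI` -/
theorem infD_ae (T : ℝ) (hT0 : 0 ≤ T) (v : V) :
    ∀ᵐ ω ∂PP V, Tendsto (fun R : ℕ => mm G θ (ball G v R) T ω v) atTop (𝓝 (mI G θ T ω v)) := by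
  obtain ⟨lam, ρ, hlam, hρ0, hρ1, hb⟩ := infC_bound hT d hd hreg θ h0 h1
  have hlt : θ < 1 := h1.trans (thc_lt_one hd)
  set K : ℝ := 4 * Real.exp (lam * T) with hK
  have hK0 : 0 < K := by positivity
  have hsq : ∀ N n m : ℕ, N ≤ n → n ≤ m →
      ∫ ω, (mm G θ (ball G v n) T ω v - mm G θ (ball G v m) T ω v) ^ 2 ∂PP V ≤ K * ρ ^ N := by
    intro N n m hN hnm
    have e1 := hb T hT0 v v n m (infD_ball_mono hT v hnm) v (infD_self_mem hT v n)
    refine e1.trans ?_
    have e2 : ρ ^ (n + 1 - G.dist v v) ≤ ρ ^ N := by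
      apply pow_le_pow_of_le_one hρ0.le hρ1.le
      rw [SimpleGraph.dist_self]; omega
    rw [hK]
    have e3 := mul_le_mul_of_nonneg_left e2 (show 0 ≤ 4 * Real.exp (lam * T) by positivity)
    linarith
  have hsq' : ∀ N n m : ℕ, N ≤ n → N ≤ m →
      ∫ ω, (mm G θ (ball G v n) T ω v - mm G θ (ball G v m) T ω v) ^ 2 ∂PP V ≤ K * ρ ^ N := by
    intro N n m hn hm
    rcases le_total n m with h | h
    · exact hsq N n m hn h
    · have := hsq N m n hm h
      refine le_trans (le_of_eq ?_) this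
      congr 1; ext ω; ring
  set σ : ℝ := √ρ with hσ
  have hσ0 : 0 < σ := Real.sqrt_pos.2 hρ0
  have hσ1 : σ < 1 := by
    rw [hσ, Real.sqrt_lt' one_pos]; simpa using hρ1
  have hσ2 : ∀ N : ℕ, ρ ^ N = σ ^ N * σ ^ N := by
    intro N
    rw [← mul_pow, hσ, Real.mul_self_sqrt hρ0.le]
  have hconv := Lp.ae_tendsto_of_cauchy_eLpNorm (μ := PP V) (p := 1)
    (f := fun R : ℕ => fun ω => mm G θ (ball G v R) T ω v)
    (fun R => (infB_mm_meas G θ _ T v).aestronglyMeasurable) le_rfl
    (B := fun N => ENNReal.ofReal ((1 + K) * σ ^ N)) (by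
      have hs : Summable (fun N : ℕ => (1 + K) * σ ^ N) :=
        (summable_geometric_of_lt_one hσ0.le hσ1).mul_left _
      rw [← ENNReal.ofReal_tsum_of_nonneg (fun n => by positivity) hs]
      exact ENNReal.ofReal_ne_top)
    (by
      intro N n m hn hm
      rw [eLpNorm_one_eq_lintegral_enorm]
      set f : Lab V → ℝ := fun ω => mm G θ (ball G v n) T ω v - mm G θ (ball G v m) T ω v with hf
      have hfm : Measurable f := (infB_mm_meas G θ _ T v).sub (infB_mm_meas G θ _ T v)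
      have hfb : ∀ ω, |f ω| ≤ 2 := by
        intro ω
        have e1 := infB_mm_le (G := G) h0 hlt (ball G v n) T ω v
        have e2 := infB_mm_le (G := G) h0 hlt (ball G v m) T ω v
        rw [abs_le] at e1 e2 ⊢
        constructor <;> simp only [hf] <;> linarith
      have hint : Integrable f (PP V) := infB_int hfm 2 hfb
      have e1 := infD_abs_le hfm 2 hfb (σ ^ N) (by positivity)
      have e2 : (∫ ω, f ω ^ 2 ∂PP V) / σ ^ N ≤ K * σ ^ N := by
        rw [div_le_iff₀ (by positivity)]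
        have := hsq' N n m hn hm
        rw [hσ2] at this
        linarith
      have e3 : ∫ ω, |f ω| ∂PP V < (1 + K) * σ ^ N := by
        have : 0 < (1 + K) * σ ^ N := by positivity
        have : (σ ^ N + K * σ ^ N) / 2 = (1 + K) * σ ^ N / 2 := by ring
        linarith
      have e4 : ∫⁻ ω, ‖f ω‖ₑ ∂PP V = ENNReal.ofReal (∫ ω, |f ω| ∂PP V) := by
        rw [ofReal_integral_eq_lintegral_ofReal hint.abs (ae_of_all _ fun ω => abs_nonneg _)]
        congr 1; ext ω
        rw [← Real.norm_eq_abs, ofReal_norm]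
      show ∫⁻ ω, ‖f ω‖ₑ ∂PP V < _
      rw [e4]
      exact (ENNReal.ofReal_lt_ofReal_iff (by positivity)).2 e3)
  filter_upwards [hconv] with ω hω
  obtain ⟨l, hl⟩ := hω
  have : mI G θ T ω v = l := by
    unfold mI
    exact hl.limsup_eq
  rw [this]
  exact hl

end lim

end Crest.Agent.T41
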