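import Crest.Agent.T41InfD

/-!
S0241, part N: approximation, and the integrand of (A1).
-/

set_option autoImplicit false

namespace Crest.Agent.T41

open MeasureTheory Filter Topology

universe u
variable {V : Type u} {G : SimpleGraph V}

theorem infE_mI_meas [G.LocallyFinite] (θ : ℝ) (v : V) :
    Measurable (fun p : Lab V × ℝ => mI G θ p.2 p.1 v) := by
  have h : ∀ R : ℕ, Measurable (fun p : Lab V × ℝ => mm G θ (ball G v R) p.2 p.1 v) := by
    intro R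
    have h := measurable_mm G θ (ball G v R)
    generalize mm G θ (ball G v R) = q at h ⊢
    exact h.eval
  unfold mI
  exact Measurable.limsup h

theorem infE_mI_meas' [G.LocallyFinite] (θ T : ℝ) (v : V) :
    Measurable (fun ω : Lab V => mI G θ T ω v) := by
  have h := infE_mI_meas (G := G) θ v
  generalize mI G θ = q at h ⊢
  have h1 : Measurable (fun ω : Lab V => (ω, T)) := measurable_id.prodMk measurable_const
  exact h.comp h1

theorem infE_limsup_le {f : ℕ → ℝ} {b : ℝ} (h : ∀ n, |f n| ≤ b) : |limsup f atTop| ≤ b := by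
  have h1 : ∀ n, f n ≤ b := fun n => (abs_le.1 (h n)).2
  have h2 : ∀ n, -b ≤ f n := fun n => (abs_le.1 (h n)).1
  have hbd : IsBoundedUnder (· ≤ ·) atTop f := isBoundedUnder_of ⟨b, h1⟩
  have hbd' : IsBoundedUnder (· ≥ ·) atTop f := isBoundedUnder_of ⟨-b, h2⟩
  rw [abs_le]
  constructor
  · exact le_limsup_of_frequently_le (Eventually.frequently (Eventually.of_forall h2)) hbd
  · exact limsup_le_of_le hbd'.isCoboundedUnder_le (Eventually.of_forall h1)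

theorem infE_mI_le [G.LocallyFinite] {θ : ℝ} (h0 : 0 ≤ θ) (h1 : θ < 1) (T : ℝ) (ω : Lab V) (v : V) :
    |mI G θ T ω v| ≤ 1 := by
  unfold mI
  exact infE_limsup_le (fun R => infB_mm_le h0 h1 _ T ω v)

/-- dominated convergence -/
theorem infE_dct {f : ℕ → Lab V → ℝ} {g : Lab V → ℝ} (C : ℝ) (hf : ∀ n, Measurable (f n))
    (hb : ∀ n ω, |f n ω| ≤ C) (h : ∀ᵐ ω ∂PP V, Tendsto (fun n => f n ω) atTop (𝓝 (g ω))) :
    Tendsto (fun n => ∫ ω, f n ω ∂PP V) atTop (𝓝 (∫ ω, g ω ∂PP V)) := by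
  apply tendsto_integral_of_dominated_convergence (fun _ => C)
    (fun n => (hf n).aestronglyMeasurable) (integrable_const C)
    (fun n => ae_of_all _ (fun ω => hb n ω)) h

section approx
variable [G.LocallyFinite] (hT : G.IsTree) (d : ℕ) (hd : 3 ≤ d) (hreg : G.IsRegularOfDegree d)
  (θ : ℝ) (h0 : 0 ≤ θ) (h1 : θ < thc d)
include hT hd hreg h0 h1

theorem infE_approx : ∃ lam ρ : ℝ, 0 ≤ lam ∧ 0 < ρ ∧ ρ < 1 ∧
    ∀ (T : ℝ), 0 ≤ T → ∀ (o v : V) (r R : ℕ), G.dist o v + r ≤ R →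
      ∫ ω, (mm G θ (ball G o R) T ω v - mI G θ T ω v) ^ 2 ∂PP V
        ≤ 4 * Real.exp (lam * T) * ρ ^ r := by
  obtain ⟨lam, ρ, hlam, hρ0, hρ1, hb⟩ := infC_bound hT d hd hreg θ h0 h1
  have hlt : θ < 1 := h1.trans (thc_lt_one hd)
  refine ⟨lam, ρ, hlam, hρ0, hρ1, ?_⟩
  intro T hT0 o v r R hR
  have hv : v ∈ ball G o R := by rw [mem_ball hT]; omega
  have hae := infD_ae hT d hd hreg θ h0 h1 T hT0 v
  have hlim : Tendsto (fun M : ℕ => ∫ ω, (mm G θ (ball G o R) T ω v - mm G θ (ball G v M) T ω v) ^ 2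
      ∂PP V) atTop (𝓝 (∫ ω, (mm G θ (ball G o R) T ω v - mI G θ T ω v) ^ 2 ∂PP V)) := by
    apply infE_dct 4
    · intro n
      exact ((infB_mm_meas G θ _ T v).sub (infB_mm_meas G θ _ T v)).pow_const 2
    · intro n ω
      rw [abs_of_nonneg (sq_nonneg _)]
      exact infB_sq_le (infB_mm_le h0 hlt _ T ω v) (infB_mm_le h0 hlt _ T ω v)
    · filter_upwards [hae] with ω hω
      exact (tendsto_const_nhds.sub hω).pow 2
  refine le_of_tendsto hlim ?_
  filter_upwards [eventually_ge_atTop (G.dist v o + R)] with M hM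
  have hsub : ball G o R ⊆ ball G v M := ball_subset_ball hT v o R M hM
  have e1 := hb T hT0 o v R M hsub v hv
  have e2 : ρ ^ (R + 1 - G.dist o v) ≤ ρ ^ r := pow_le_pow_of_le_one hρ0.le hρ1.le (by omega)
  have e3 := mul_le_mul_of_nonneg_left e2 (show 0 ≤ 4 * Real.exp (lam * T) by positivity)
  linarith

/-- `L¹` version, uniformly for times `≤ n` -/
theorem infE_approx1 (n : ℝ) : ∃ C σ : ℝ, 0 ≤ C ∧ 0 < σ ∧ σ < 1 ∧
    ∀ (T : ℝ), 0 ≤ T → T ≤ n → ∀ (o v : V) (r R : ℕ), G.dist o v + r ≤ R →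
      ∫ ω, |mm G θ (ball G o R) T ω v - mI G θ T ω v| ∂PP V ≤ C * σ ^ r := by
  obtain ⟨lam, ρ, hlam, hρ0, hρ1, hb⟩ := infE_approx hT d hd hreg θ h0 h1
  have hlt : θ < 1 := h1.trans (thc_lt_one hd)
  set K := 4 * Real.exp (lam * n) with hK
  have hK0 : 0 < K := by positivity
  set σ : ℝ := √ρ with hσ
  have hσ0 : 0 < σ := Real.sqrt_pos.2 hρ0
  have hσ1 : σ < 1 := by
    rw [hσ, Real.sqrt_lt' one_pos]; simpa using hρ1
  have hσ2 : ∀ N : ℕ, ρ ^ N = σ ^ N * σ ^ N := by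
    intro N
    rw [← mul_pow, hσ, Real.mul_self_sqrt hρ0.le]
  refine ⟨(1 + K) / 2, σ, by positivity, hσ0, hσ1, ?_⟩
  intro T hT0 hTn o v r R hR
  have e1 := hb T hT0 o v r R hR
  have e2 := infD_abs_le (f := fun ω => mm G θ (ball G o R) T ω v - mI G θ T ω v)
    ((infB_mm_meas G θ _ T v).sub (infE_mI_meas' θ T v)) 2 (by
      intro ω
      have e1 := infB_mm_le (G := G) h0 hlt (ball G o R) T ω v
      have e2 := infE_mI_le (G := G) h0 hlt T ω v
      rw [abs_le] at e1 e2 ⊢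
      constructor <;> linarith) (σ ^ r) (by positivity)
  have e3 : 4 * Real.exp (lam * T) ≤ K := by
    rw [hK]
    have : Real.exp (lam * T) ≤ Real.exp (lam * n) :=
      Real.exp_le_exp.2 (mul_le_mul_of_nonneg_left hTn hlam)
    linarith
  have e4 : (∫ ω, (mm G θ (ball G o R) T ω v - mI G θ T ω v) ^ 2 ∂PP V) / σ ^ r ≤ K * σ ^ r := by
    rw [div_le_iff₀ (by positivity)]
    have := mul_le_mul_of_nonneg_right e3 (show 0 ≤ ρ ^ r by positivity)
    rw [hσ2] at this e1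
    linarith
  have e5 : (σ ^ r + K * σ ^ r) / 2 = (1 + K) / 2 * σ ^ r := by ring
  linarith

end approx

/-- the integrand of (A1) along a path -/
noncomputable def Psi (θ θ' : ℝ) (a a' : ℕ → ℝ) (k : ℕ) : ℝ :=
  (Mseq θ a k - Mseq θ' a' k) ^ 2 + (Mseq θ' a' k) ^ 2 * (a k - a' k) ^ 2

theorem Psi_nonneg (θ θ' : ℝ) (a a' : ℕ → ℝ) (k : ℕ) : 0 ≤ Psi θ θ' a a' k := by
  unfold Psi; positivity

theorem Psi_le {θ θ' θm : ℝ} (h0 : 0 ≤ θ) (h0' : 0 ≤ θ') (hθ : θ ≤ θm) (hθ' : θ' ≤ θm)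
    (h1 : θm < 1) (a a' : ℕ → ℝ) (k : ℕ) (ha : ∀ i ≤ k, |a i| ≤ 1) (ha' : ∀ i ≤ k, |a' i| ≤ 1) :
    Psi θ θ' a a' k ≤ 5 * θm ^ (2 * k) := by
  have e1 := infA_Mseq_le h0 (hθ.trans_lt h1) a k ha
  have e2 := infA_Mseq_le h0' (hθ'.trans_lt h1) a' k ha'
  have e3 : θ ^ k ≤ θm ^ k := pow_le_pow_left₀ h0 hθ k
  have e4 : θ' ^ k ≤ θm ^ k := pow_le_pow_left₀ h0' hθ' k
  have hθm : 0 ≤ θm := h0.trans hθ
  have e5 : (Mseq θ a k - Mseq θ' a' k) ^ 2 ≤ (θm ^ k) ^ 2 := by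
    apply sq_le_sq'
    · linarith
    · linarith
  have e6 : (Mseq θ' a' k) ^ 2 ≤ (θm ^ k) ^ 2 := pow_le_pow_left₀ e2.1 (e2.2.trans e4) 2
  have e7 : (a k - a' k) ^ 2 ≤ 4 := infB_sq_le (ha k le_rfl) (ha' k le_rfl)
  have e8 : (Mseq θ' a' k) ^ 2 * (a k - a' k) ^ 2 ≤ (θm ^ k) ^ 2 * 4 :=
    mul_le_mul e6 e7 (sq_nonneg _) (by positivity)
  have e9 : (θm ^ k) ^ 2 = θm ^ (2 * k) := by rw [← pow_mul, mul_comm]
  unfold Psi
  rw [e9] at e5 e8
  linarith

theorem Psi_lip (θ₁ : ℝ) (h1 : θ₁ < 1) : ∃ C : ℝ, 0 ≤ C ∧ ∀ (θ θ' : ℝ) (a a' b b' : ℕ → ℝ) (k : ℕ),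
    0 ≤ θ → θ ≤ θ₁ → 0 ≤ θ' → θ' ≤ θ₁ → (∀ i ≤ k, |a i| ≤ 1) → (∀ i ≤ k, |a' i| ≤ 1) →
    (∀ i ≤ k, |b i| ≤ 1) → (∀ i ≤ k, |b' i| ≤ 1) →
    Psi θ θ' a a' k ≤ Psi θ θ' b b' k +
      C * ∑ i ∈ Finset.range (k + 1), (|a i - b i| + |a' i - b' i|) := by
  obtain ⟨C, hC, h⟩ := infA_Mseq_diff θ₁ h1
  refine ⟨10 * C + 4, by positivity, ?_⟩
  intro θ θ' a a' b b' k h0 hθ h0' hθ' ha ha' hb hb'
  have hlt : θ < 1 := hθ.trans_lt h1
  have hlt' : θ' < 1 := hθ'.trans_lt h1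
  have eA := infA_Mseq_le h0 hlt a k ha
  have eA' := infA_Mseq_le h0' hlt' a' k ha'
  have eB := infA_Mseq_le h0 hlt b k hb
  have eB' := infA_Mseq_le h0' hlt' b' k hb'
  have hθk : θ ^ k ≤ 1 := pow_le_one₀ h0 hlt.le
  have hθk' : θ' ^ k ≤ 1 := pow_le_one₀ h0' hlt'.le
  have hθk0 : 0 ≤ θ ^ k := by positivity
  have hθk0' : 0 ≤ θ' ^ k := by positivity
  set X := ∑ i ∈ Finset.range (k + 1), |a i - b i| with hX
  set X' := ∑ i ∈ Finset.range (k + 1), |a' i - b' i| with hX'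
  have hX0 : 0 ≤ X := Finset.sum_nonneg fun _ _ => abs_nonneg _
  have hX0' : 0 ≤ X' := Finset.sum_nonneg fun _ _ => abs_nonneg _
  have d1 : |Mseq θ a k - Mseq θ b k| ≤ C * X := by
    refine (h θ a b k h0 hθ ha hb).trans ?_
    have : C * θ ^ k ≤ C * 1 := mul_le_mul_of_nonneg_left hθk hC
    rw [mul_one] at this
    exact mul_le_mul_of_nonneg_right this hX0
  have d2 : |Mseq θ' a' k - Mseq θ' b' k| ≤ C * X' := by
    refine (h θ' a' b' k h0' hθ' ha' hb').trans ?_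
    have : C * θ' ^ k ≤ C * 1 := mul_le_mul_of_nonneg_left hθk' hC
    rw [mul_one] at this
    exact mul_le_mul_of_nonneg_right this hX0'
  have d3 : |a k - b k| ≤ X := Finset.single_le_sum (f := fun i => |a i - b i|)
    (fun _ _ => abs_nonneg _) (Finset.mem_range.2 (Nat.lt_succ_self k))
  have d4 : |a' k - b' k| ≤ X' := Finset.single_le_sum (f := fun i => |a' i - b' i|)
    (fun _ _ => abs_nonneg _) (Finset.mem_range.2 (Nat.lt_succ_self k))
  unfold Psi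
  rw [Finset.sum_add_distrib]
  generalize Mseq θ a k = A at *
  generalize Mseq θ' a' k = A' at *
  generalize Mseq θ b k = B at *
  generalize Mseq θ' b' k = B' at *
  have f1 : (A - A') ^ 2 - (B - B') ^ 2 ≤ (C * X + C * X') * 2 := by
    have e : (A - A') ^ 2 - (B - B') ^ 2 = ((A - B) - (A' - B')) * ((A - A') + (B - B')) := by ring
    rw [e]
    refine (le_abs_self _).trans ?_
    rw [abs_mul]
    apply mul_le_mul _ _ (abs_nonneg _) (by positivity)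
    · have := abs_sub (A - B) (A' - B')
      linarith
    · rw [abs_le]; constructor <;> linarith
  have f2 : A' ^ 2 * (a k - a' k) ^ 2 - B' ^ 2 * (b k - b' k) ^ 2 ≤
      (C * X') * 2 * 4 + (X + X') * 4 := by
    have e : A' ^ 2 * (a k - a' k) ^ 2 - B' ^ 2 * (b k - b' k) ^ 2 =
      ((A' - B') * (A' + B')) * (a k - a' k) ^ 2 +
      B' ^ 2 * (((a k - b k) - (a' k - b' k)) * ((a k - a' k) + (b k - b' k))) := by ring
    rw [e]
    have g1 : ((A' - B') * (A' + B')) * (a k - a' k) ^ 2 ≤ (C * X') * 2 * 4 := by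
      refine (le_abs_self _).trans ?_
      rw [abs_mul, abs_mul]
      apply mul_le_mul _ _ (abs_nonneg _) (by positivity)
      · apply mul_le_mul d2 _ (abs_nonneg _) (by positivity)
        rw [abs_le]; constructor <;> linarith
      · rw [abs_of_nonneg (sq_nonneg _)]
        exact infB_sq_le (ha k le_rfl) (ha' k le_rfl)
    have g2 : B' ^ 2 * (((a k - b k) - (a' k - b' k)) * ((a k - a' k) + (b k - b' k))) ≤
        1 * ((X + X') * 4) := by
      have hB1 : B' ^ 2 ≤ 1 := pow_le_one₀ eB'.1 (eB'.2.trans hθk')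
      refine (le_abs_self _).trans ?_
      rw [abs_mul, abs_mul, abs_of_nonneg (sq_nonneg B')]
      apply mul_le_mul hB1 _ (by positivity) (by norm_num)
      apply mul_le_mul _ _ (abs_nonneg _) (by positivity)
      · have := abs_sub (a k - b k) (a' k - b' k)
        linarith
      · have a1 := abs_le.1 (ha k le_rfl)
        have a2 := abs_le.1 (ha' k le_rfl)
        have a3 := abs_le.1 (hb k le_rfl)
        have a4 := abs_le.1 (hb' k le_rfl)
        rw [abs_le]; constructor <;> linarith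
    linarith
  have g3 : (10 * C + 4) * (X + X') = (C * X + C * X') * 2 + ((C * X') * 2 * 4 + (X + X') * 4) + 8 * (C * X) := by
    ring
  have g4 : 0 ≤ C * X := by positivity
  linarith

end Crest.Agent.T41
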