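import Crest.Agent.T41InfE

/-!
S0241, part N: (A1).
-/

set_option autoImplicit false

namespace Crest.Agent.T41

open MeasureTheory Filter Topology

universe u
variable {V : Type u} {G : SimpleGraph V}

theorem infF_abs2 {a b : ℝ} (ha : |a| ≤ 1) (hb : |b| ≤ 1) : |a - b| ≤ 2 := by
  rw [abs_le] at ha hb ⊢
  constructor <;> linarith

theorem infF_Mseq_meas {Ω : Type*} [MeasurableSpace Ω] (θ : ℝ) (f : ℕ → Ω → ℝ)
    (hf : ∀ i, Measurable (f i)) (k : ℕ) : Measurable (fun ω => Mseq θ (fun i => f i ω) k) := by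
  unfold Mseq
  apply Measurable.mul
  · exact measurable_const.sub ((hf 0).pow_const 2)
  · apply Finset.measurable_prod
    intro i _
    exact measurable_kap.comp (measurable_const.prodMk ((hf (i + 1)).prodMk (hf i)))

theorem infF_Psi_meas {Ω : Type*} [MeasurableSpace Ω] (θ θ' : ℝ) (f f' : ℕ → Ω → ℝ)
    (hf : ∀ i, Measurable (f i)) (hf' : ∀ i, Measurable (f' i)) (k : ℕ) :
    Measurable (fun ω => Psi θ θ' (fun i => f i ω) (fun i => f' i ω) k) := by
  unfold Psi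
  exact (((infF_Mseq_meas θ f hf k).sub (infF_Mseq_meas θ' f' hf' k)).pow_const 2).add
    (((infF_Mseq_meas θ' f' hf' k).pow_const 2).mul (((hf k).sub (hf' k)).pow_const 2))

section A1
variable [G.LocallyFinite] (hT : G.IsTree) (d : ℕ) (hd : 3 ≤ d) (hreg : G.IsRegularOfDegree d)
  (θ θ' : ℝ) (h0 : 0 ≤ θ) (h1 : θ < thc d) (h0' : 0 ≤ θ') (h1' : θ' < thc d)
include hT hd hreg h0 h1 h0' h1'

/-- infinite-volume value depends only on the distance -/
theorem infF_transfer (T : ℝ) (x y : ℕ → V) (k : ℕ) (hx : NB G x k) (hy : NB G y k)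
    (hmap : ∀ (g : G ≃g G) (θ T : ℝ) (ω : Lab V) (v : V),
      mI G θ T ω (g v) = mI G θ T (fun w => ω (g w)) v) :
    ∫ ω, Psi θ θ' (fun i => mI G θ T ω (x i)) (fun i => mI G θ' T ω (x i)) k ∂PP V =
    ∫ ω, Psi θ θ' (fun i => mI G θ T ω (y i)) (fun i => mI G θ' T ω (y i)) k ∂PP V := by
  obtain ⟨g, hg⟩ := exists_aut_path hT d hreg hx hy
  have hcongr : ∀ (a a' b b' : ℕ → ℝ), (∀ i ≤ k, a i = b i) → (∀ i ≤ k, a' i = b' i) →
      Psi θ θ' a a' k = Psi θ θ' b b' k := by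
    intro a a' b b' h h'
    have hM : Mseq θ a k = Mseq θ b k := by
      unfold Mseq
      rw [h 0 (by omega)]
      congr 1
      apply Finset.prod_congr rfl
      intro i hi
      have := Finset.mem_range.1 hi
      rw [h i (by omega), h (i + 1) (by omega)]
    have hM' : Mseq θ' a' k = Mseq θ' b' k := by
      unfold Mseq
      rw [h' 0 (by omega)]
      congr 1
      apply Finset.prod_congr rfl
      intro i hi
      have := Finset.mem_range.1 hi
      rw [h' i (by omega), h' (i + 1) (by omega)]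
    unfold Psi
    rw [hM, hM', h k le_rfl, h' k le_rfl]
  have e1 : ∀ ω : Lab V, Psi θ θ' (fun i => mI G θ T ω (y i)) (fun i => mI G θ' T ω (y i)) k =
      Psi θ θ' (fun i => mI G θ T (fun w => ω (g w)) (x i))
        (fun i => mI G θ' T (fun w => ω (g w)) (x i)) k := by
    intro ω
    apply hcongr
    · intro i hi
      rw [← hg i hi, hmap]
    · intro i hi
      rw [← hg i hi, hmap]
  simp only [e1]
  have hm := infF_Psi_meas θ θ' (fun i ω => mI G θ T ω (x i)) (fun i ω => mI G θ' T ω (x i))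
    (fun i => infE_mI_meas' θ T (x i)) (fun i => infE_mI_meas' θ' T (x i)) k
  have hpm : Measurable (fun ω : Lab V => fun w => ω (g w)) :=
    measurable_pi_lambda _ (fun w => measurable_pi_apply _)
  conv_lhs => rw [← PP_map_equiv (V := V) g.toEquiv]
  rw [integral_map]
  · rfl
  · exact hpm.aemeasurable
  · exact hm.aestronglyMeasurable

/-- uniform comparison of the finite and infinite volume integrands -/
theorem infF_compare (n : ℝ) : ∃ C σ : ℝ, 0 ≤ C ∧ 0 < σ ∧ σ < 1 ∧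
    ∀ (T : ℝ), 0 ≤ T → T ≤ n → ∀ (v : V) (y : ℕ → V) (k K R : ℕ), k ≤ K → K ≤ R →
      (∀ i ≤ k, G.dist v (y i) ≤ K) →
      ∫ ω, Psi θ θ' (fun i => mm G θ (ball G v R) T ω (y i))
          (fun i => mm G θ' (ball G v R) T ω (y i)) k ∂PP V
        ≤ ∫ ω, Psi θ θ' (fun i => mI G θ T ω (y i)) (fun i => mI G θ' T ω (y i)) k ∂PP V
          + C * ((K : ℝ) + 1) * σ ^ (R - K) := by
  obtain ⟨C₁, σ₁, hC₁, hσ₁, hσ₁', ha⟩ := infE_approx1 hT d hd hreg θ h0 h1 n
  obtain ⟨C₂, σ₂, hC₂, hσ₂, hσ₂', ha'⟩ := infE_approx1 hT d hd hreg θ' h0' h1' n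
  have hth := thc_lt_one hd
  obtain ⟨C, hC, hP⟩ := Psi_lip (thc d) hth
  have hlt : θ < 1 := h1.trans hth
  have hlt' : θ' < 1 := h1'.trans hth
  refine ⟨C * (C₁ + C₂), max σ₁ σ₂, by positivity, lt_max_of_lt_left hσ₁, max_lt hσ₁' hσ₂', ?_⟩
  intro T hT0 hTn v y k K R hkK hKR hy
  set Λ := ball G v R with hΛ
  have hmm : ∀ i, Measurable (fun ω => mm G θ Λ T ω (y i)) := fun i => infB_mm_meas G θ _ T _
  have hmm' : ∀ i, Measurable (fun ω => mm G θ' Λ T ω (y i)) := fun i => infB_mm_meas G θ' _ T _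
  have hmI : ∀ i, Measurable (fun ω => mI G θ T ω (y i)) := fun i => infE_mI_meas' θ T _
  have hmI' : ∀ i, Measurable (fun ω => mI G θ' T ω (y i)) := fun i => infE_mI_meas' θ' T _
  have hdi : ∀ i, Integrable (fun ω => |mm G θ Λ T ω (y i) - mI G θ T ω (y i)|) (PP V) := by
    intro i
    apply infB_int ((hmm i).sub (hmI i)).abs 2
    intro ω
    rw [abs_abs]
    exact infF_abs2 (infB_mm_le (G := G) h0 hlt Λ T ω (y i)) (infE_mI_le (G := G) h0 hlt T ω (y i))
  have hdi' : ∀ i, Integrable (fun ω => |mm G θ' Λ T ω (y i) - mI G θ' T ω (y i)|) (PP V) := by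
    intro i
    apply infB_int ((hmm' i).sub (hmI' i)).abs 2
    intro ω
    rw [abs_abs]
    exact infF_abs2 (infB_mm_le (G := G) h0' hlt' Λ T ω (y i)) (infE_mI_le (G := G) h0' hlt' T ω (y i))
  have hint1 : Integrable (fun ω => Psi θ θ' (fun i => mI G θ T ω (y i))
      (fun i => mI G θ' T ω (y i)) k) (PP V) := by
    apply infB_int (infF_Psi_meas θ θ' _ _ hmI hmI' k) (5 * (thc d) ^ (2 * k))
    intro ω
    rw [abs_of_nonneg (Psi_nonneg _ _ _ _ _)]
    exact Psi_le h0 h0' h1.le h1'.le hth _ _ k (fun i _ => infE_mI_le h0 hlt T ω _)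
      (fun i _ => infE_mI_le h0' hlt' T ω _)
  have hint2 : Integrable (fun ω => Psi θ θ' (fun i => mm G θ Λ T ω (y i))
      (fun i => mm G θ' Λ T ω (y i)) k) (PP V) := by
    apply infB_int (infF_Psi_meas θ θ' _ _ hmm hmm' k) (5 * (thc d) ^ (2 * k))
    intro ω
    rw [abs_of_nonneg (Psi_nonneg _ _ _ _ _)]
    exact Psi_le h0 h0' h1.le h1'.le hth _ _ k (fun i _ => infB_mm_le h0 hlt _ T ω _)
      (fun i _ => infB_mm_le h0' hlt' _ T ω _)
  have hsi : ∀ i ∈ Finset.range (k + 1), Integrable (fun ω =>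
      |mm G θ Λ T ω (y i) - mI G θ T ω (y i)| + |mm G θ' Λ T ω (y i) - mI G θ' T ω (y i)|) (PP V) :=
    fun i _ => (hdi i).add (hdi' i)
  have hsum : Integrable (fun ω => C * ∑ i ∈ Finset.range (k + 1),
      (|mm G θ Λ T ω (y i) - mI G θ T ω (y i)| + |mm G θ' Λ T ω (y i) - mI G θ' T ω (y i)|)) (PP V) :=
    (integrable_finsetSum _ hsi).const_mul C
  have hmono := integral_mono hint2 (hint1.add hsum) (fun ω => by
    exact hP θ θ' (fun i => mm G θ Λ T ω (y i)) (fun i => mm G θ' Λ T ω (y i))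
      (fun i => mI G θ T ω (y i)) (fun i => mI G θ' T ω (y i)) k h0 h1.le h0' h1'.le
      (fun i _ => infB_mm_le h0 hlt _ T ω _) (fun i _ => infB_mm_le h0' hlt' _ T ω _)
      (fun i _ => infE_mI_le h0 hlt T ω _) (fun i _ => infE_mI_le h0' hlt' T ω _))
  refine hmono.trans ?_
  simp only [Pi.add_apply]
  rw [integral_add hint1 hsum, integral_const_mul, integral_finsetSum _ hsi]
  apply add_le_add le_rfl
  have hσ0 : 0 < max σ₁ σ₂ := lt_max_of_lt_left hσ₁
  have hterm : ∀ i ∈ Finset.range (k + 1), ∫ ω, (|mm G θ Λ T ω (y i) - mI G θ T ω (y i)|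
      + |mm G θ' Λ T ω (y i) - mI G θ' T ω (y i)|) ∂PP V ≤ (C₁ + C₂) * (max σ₁ σ₂) ^ (R - K) := by
    intro i hi
    have hi' : i ≤ k := by have := Finset.mem_range.1 hi; omega
    have hdist := hy i hi'
    rw [integral_add (hdi i) (hdi' i)]
    have e1 := ha T hT0 hTn v (y i) (R - K) R (by omega)
    have e2 := ha' T hT0 hTn v (y i) (R - K) R (by omega)
    have e3 : C₁ * σ₁ ^ (R - K) ≤ C₁ * (max σ₁ σ₂) ^ (R - K) :=
      mul_le_mul_of_nonneg_left (pow_le_pow_left₀ hσ₁.le (le_max_left _ _) _) hC₁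
    have e4 : C₂ * σ₂ ^ (R - K) ≤ C₂ * (max σ₁ σ₂) ^ (R - K) :=
      mul_le_mul_of_nonneg_left (pow_le_pow_left₀ hσ₂.le (le_max_right _ _) _) hC₂
    rw [add_mul]
    linarith
  have hs := Finset.sum_le_sum hterm
  rw [Finset.sum_const, Finset.card_range, nsmul_eq_mul] at hs
  have hkK' : ((k + 1 : ℕ) : ℝ) ≤ (K : ℝ) + 1 := by
    push_cast
    have : (k : ℝ) ≤ K := by exact_mod_cast hkK
    linarith
  have e5 : ((k + 1 : ℕ) : ℝ) * ((C₁ + C₂) * (max σ₁ σ₂) ^ (R - K)) ≤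
      ((K : ℝ) + 1) * ((C₁ + C₂) * (max σ₁ σ₂) ^ (R - K)) :=
    mul_le_mul_of_nonneg_right hkK' (by positivity)
  calc C * _ ≤ C * (((K : ℝ) + 1) * ((C₁ + C₂) * (max σ₁ σ₂) ^ (R - K))) :=
        mul_le_mul_of_nonneg_left (hs.trans e5) hC
    _ = _ := by ring

end A1

end Crest.Agent.T41
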