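import Crest.Agent.T41Ising2
import Crest.Agent.T41BB

/-!
S0241, part I3 (file T41Ising3): finite Ising measures, remaining facts in terms of `Zt`, `mean`, `cov`
(`Adm`, `mag`, `cvr`, bridging lemmas `Zg_eq`, `mean_eq`, `cov_eq`: see T41Ising).
-/

set_option autoImplicit false

namespace Crest.Agent.T41

open SimpleGraph Crest.ProbabilityR.TreeIsing

universe u
variable {V : Type u} {G : SimpleGraph V}

theorem i3_wtI_nonneg {θ : ℝ} {Λ : Finset V} {t : V → ℝ} (h : Adm θ Λ t) (A : Finset V) :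
    0 < wtI G θ Λ t A := by
  rw [← wt_cfg]; exact wt_pos h _

theorem i3_abs_sp (A : Finset V) (v : V) : |sp A v| = 1 := by
  rw [← spb_cfg]; exact abs_spb _

theorem Zt_le [G.LocallyFinite] (hT : G.IsTree) {θ : ℝ} (o : V) (R : ℕ) (t : V → ℝ)
    (h : Adm θ (ball G o R) t) : Zt G θ (ball G o R) t ≤ 2 ^ (ball G o R).card := by
  have h1 := Zt_ball_zero hT h.h0 h.h1 o R
  have : Zt G θ (ball G o R) t ≤ 2 ^ (ball G o R).card * Zt G θ (ball G o R) (fun _ => 0) := by
    unfold Zt
    rw [Finset.mul_sum]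
    refine Finset.sum_le_sum fun A _ => ?_
    unfold wtI
    simp only [mul_zero, add_zero, Finset.prod_const_one, mul_one]
    rw [mul_comm]
    refine mul_le_mul_of_nonneg_right ?_ (iw_pos (by linarith [h.h0]) h.h1 _ _).le
    rw [← Finset.prod_const]
    refine Finset.prod_le_prod (fun v hv => ?_) (fun v hv => ?_)
    · rw [← spb_cfg]; exact (one_add_spb_mul_pos (h.ht v hv) _).le
    · have h2 : |sp A v * t v| ≤ 1 := by
        rw [abs_mul, i3_abs_sp, one_mul]; exact (h.ht v hv).le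
      linarith [(abs_le.1 h2).2]
  rw [h1, mul_one] at this
  exact this

theorem mean_abs_lt {θ : ℝ} (Λ : Finset V) (t : V → ℝ) (h : Adm θ Λ t) (v : V) :
    |mean G θ Λ t v| < 1 := by
  classical
  by_cases hv : v ∈ Λ
  · have hZ := Zt_pos (G := G) h
    unfold mean
    rw [if_pos hv, abs_lt, neg_lt_iff_pos_add, div_lt_one hZ]
    constructor
    · rw [show (∑ S ∈ Λ.powerset, sp S v * wtI G θ Λ t S) / Zt G θ Λ t + 1 =
        (∑ S ∈ Λ.powerset, (sp S v + 1) * wtI G θ Λ t S) / Zt G θ Λ t by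
          rw [eq_div_iff hZ.ne', add_mul, div_mul_cancel₀ _ hZ.ne', one_mul]
          unfold Zt
          rw [← Finset.sum_add_distrib]
          exact Finset.sum_congr rfl fun A _ => by ring]
      apply div_pos _ hZ
      refine Finset.sum_pos' (fun A _ => mul_nonneg ?_ (i3_wtI_nonneg h A).le)
        ⟨{v}, by simpa using hv, mul_pos ?_ (i3_wtI_nonneg h _)⟩
      · linarith [(abs_le.1 (i3_abs_sp A v).le).1]
      · simp [sp]
    · unfold Zt
      refine Finset.sum_lt_sum (fun A _ => ?_) ⟨∅, by simp, ?_⟩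
      · have := (abs_le.1 (i3_abs_sp A v).le).2
        nlinarith [i3_wtI_nonneg (G := G) h A]
      · have := i3_wtI_nonneg (G := G) h ∅
        simp only [sp, Finset.notMem_empty, if_false]
        linarith
  · rw [mean_notMem _ _ _ _ hv]; simp

theorem cov_abs_le {θ : ℝ} (Λ : Finset V) (t : V → ℝ) (h : Adm θ Λ t) (v u : V) :
    |cov G θ Λ t v u| ≤ 2 := by
  classical
  by_cases hv : v ∈ Λ ∧ u ∈ Λ
  · rw [cov_eq _ _ _ _ hv.1 hv.2]
    unfold cvr
    refine (abs_sub _ _).trans ?_
    have h1 := abs_tpt_le (G := G) h v u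
    have h2 := abs_mag_le (G := G) h v
    have h3 := abs_mag_le (G := G) h u
    rw [abs_mul]
    have : |mag G θ Λ t v| * |mag G θ Λ t u| ≤ 1 := mul_le_one₀ h2 (abs_nonneg _) h3
    linarith
  · unfold cov
    rw [if_neg hv]; simp

theorem mean_congr (G : SimpleGraph V) (θ : ℝ) (Λ : Finset V) (t t' : V → ℝ)
    (h : ∀ v ∈ Λ, t v = t' v) (v : V) : mean G θ Λ t v = mean G θ Λ t' v := by
  classical
  by_cases hv : v ∈ Λ
  · rw [mean_eq _ _ _ _ hv, mean_eq _ _ _ _ hv, mag_congr_t G θ Λ h]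
  · rw [mean_notMem _ _ _ _ hv, mean_notMem _ _ _ _ hv]

theorem cov_congr (G : SimpleGraph V) (θ : ℝ) (Λ : Finset V) (t t' : V → ℝ)
    (h : ∀ v ∈ Λ, t v = t' v) (v u : V) : cov G θ Λ t v u = cov G θ Λ t' v u := by
  classical
  by_cases hv : v ∈ Λ ∧ u ∈ Λ
  · rw [cov_eq _ _ _ _ hv.1 hv.2, cov_eq _ _ _ _ hv.1 hv.2, cvr_congr_t G θ Λ h]
  · unfold cov
    rw [if_neg hv, if_neg hv]

theorem Zt_congr (G : SimpleGraph V) (θ : ℝ) (Λ : Finset V) (t t' : V → ℝ)
    (h : ∀ v ∈ Λ, t v = t' v) : Zt G θ Λ t = Zt G θ Λ t' := by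
  rw [← Zg_eq, ← Zg_eq]
  exact gib_congr_t G θ Λ h _

open Classical in
theorem Zt_update {θ : ℝ} (Λ : Finset V) (t : V → ℝ) (u : V) (a : ℝ) (hu : u ∈ Λ)
    (h : Adm θ Λ t) (ha : |a| < 1) :
    Zt G θ Λ (Function.update t u (op (t u) a)) * (1 + a * t u)
      = Zt G θ Λ t * (1 + a * mean G θ Λ t u) := by
  rw [← Zg_eq, ← Zg_eq, Zg_update h hu ha, mean_eq _ _ _ _ hu]
  have hne : 1 + a * t u ≠ 0 := (one_add_mul_pos ha (h.ht u hu).le).ne'
  rw [div_mul_cancel₀ _ hne]

theorem cov_notMem (G : SimpleGraph V) (θ : ℝ) (Λ : Finset V) (t : V → ℝ) {v u : V}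
    (hu : u ∉ Λ) : cov G θ Λ t v u = 0 := by
  unfold cov
  rw [if_neg (fun h => hu h.2)]

open Classical in
theorem mean_update {θ : ℝ} (Λ : Finset V) (t : V → ℝ) (u : V) (a : ℝ) (hu : u ∈ Λ)
    (h : Adm θ Λ t) (ha : |a| < 1) (v : V) :
    mean G θ Λ (Function.update t u (op (t u) a)) v
      = mean G θ Λ t v + cov G θ Λ t v u * (a / (1 + a * mean G θ Λ t u)) := by
  by_cases hv : v ∈ Λ
  · rw [mean_eq _ _ _ _ hv, mean_eq _ _ _ _ hv, mean_eq _ _ _ _ hu, cov_eq _ _ _ _ hv hu]
    exact mag_update h hu ha v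
  · rw [mean_notMem _ _ _ _ hv, mean_notMem _ _ _ _ hv]
    have : cov G θ Λ t v u = 0 := by
      unfold cov; rw [if_neg (fun h => hv h.1)]
    rw [this]; ring

theorem i3_iw_zero (G : SimpleGraph V) (Λ : Finset V) (η η' : V → Bool) :
    isingWeight G 0 Λ η = isingWeight G 0 Λ η' := by
  unfold isingWeight
  congr 1
  refine Finset.prod_congr rfl fun e _ => ?_
  split_ifs <;> norm_num

/-- at `θ = 0` the spins are independent -/
theorem mean_theta_zero (Λ : Finset V) (t : V → ℝ) (ht : ∀ v ∈ Λ, |t v| < 1) {v : V}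
    (hv : v ∈ Λ) : mean G 0 Λ t v = t v := by
  classical
  set t0 := Function.update t v 0 with ht0
  have hA0 : Adm 0 Λ t0 := ⟨le_rfl, by norm_num, fun w hw => by
    by_cases hwv : w = v
    · subst hwv; rw [ht0, Function.update_self]; simp
    · rw [ht0, Function.update_of_ne hwv]; exact ht w hw⟩
  have e1 : Function.update t0 v (op (t0 v) (t v)) = t := by
    rw [ht0, Function.update_idem, Function.update_self]
    unfold op
    rw [zero_add, zero_mul, add_zero, div_one]
    exact Function.update_eq_self _ _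
  have h0 : mean G 0 Λ t0 v = 0 := by
    unfold mean
    rw [if_pos hv]
    have hs : ∑ S ∈ Λ.powerset, sp S v * wtI G 0 Λ t0 S = 0 := by
      have key : ∀ A : Finset V, wtI G 0 Λ t0 A = wtI G 0 Λ t0 (symmDiff A {v}) := by
        intro A
        unfold wtI
        rw [i3_iw_zero G Λ (fun w => decide (w ∈ A)) (fun w => decide (w ∈ symmDiff A {v}))]
        congr 1
        refine Finset.prod_congr rfl fun w _ => ?_
        by_cases hwv : w = v
        · subst hwv; rw [ht0, Function.update_self]; ring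
        · have : sp (symmDiff A {v}) w = sp A w := by
            unfold sp
            simp [Finset.mem_symmDiff, hwv]
          rw [this]
      refine Finset.sum_involution (fun A _ => symmDiff A {v}) ?_ ?_ ?_ ?_
      · intro A _
        rw [← key A]
        have : sp (symmDiff A {v}) v = -sp A v := by
          unfold sp
          by_cases hA : v ∈ A <;> simp [Finset.mem_symmDiff, hA]
        rw [this]; ring
      · intro A _ _ hcon
        have : v ∈ symmDiff A {v} ↔ v ∈ A := by rw [hcon]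
        simp [Finset.mem_symmDiff] at this
      · intro A hA
        rw [Finset.mem_powerset] at hA ⊢
        intro w hw
        rw [Finset.mem_symmDiff, Finset.mem_singleton] at hw
        rcases hw with ⟨h1, _⟩ | ⟨h1, _⟩
        · exact hA h1
        · rw [h1]; exact hv
      · intro A _
        simp [symmDiff_assoc]
    rw [hs, zero_div]
  have h2 := mean_update (G := G) Λ t0 v (t v) hv hA0 (ht v hv) v
  rw [e1, h0] at h2
  have h3 : cov G 0 Λ t0 v v = 1 := by
    rw [cov_eq _ _ _ _ hv hv, cvr_self hA0, ← mean_eq _ _ _ _ hv, h0]; ring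
  rw [h2, h3]; ring

theorem i3_mem_map (g : G ≃g G) (S : Finset V) (w : V) :
    w ∈ S.map g.toEquiv.toEmbedding ↔ g.symm w ∈ S := by
  rw [Finset.mem_map]
  constructor
  · rintro ⟨z, hz, rfl⟩
    have : g.symm (g.toEquiv.toEmbedding z) = z := g.symm_apply_apply z
    rwa [this]
  · intro h
    exact ⟨g.symm w, h, g.apply_symm_apply w⟩

theorem i3_mem_map' (g : G ≃g G) (S : Finset V) (w : V) :
    g w ∈ S.map g.toEquiv.toEmbedding ↔ w ∈ S := by
  rw [i3_mem_map]
  have : g.symm (g w) = w := g.symm_apply_apply w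
  rw [this]

theorem i3_iw_map (g : G ≃g G) (θ : ℝ) (Λ : Finset V) (η : V → Bool) :
    isingWeight G θ (Λ.map g.toEquiv.toEmbedding) η = isingWeight G θ Λ (fun v => η (g v)) := by
  classical
  unfold isingWeight
  congr 1
  symm
  refine Finset.prod_nbij' (fun e => Sym2.map g e) (fun e => Sym2.map g.symm e) ?_ ?_ ?_ ?_ ?_
  · intro e
    induction e with
    | h a b =>
      simp only [Finset.mem_filter, Finset.mk_mem_sym2_iff, Sym2.map_mk, SimpleGraph.mem_edgeSet]
      rintro ⟨⟨h1, h2⟩, h3⟩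
      exact ⟨⟨(i3_mem_map' g Λ a).2 h1, (i3_mem_map' g Λ b).2 h2⟩, g.map_adj_iff.2 h3⟩
  · intro e
    induction e with
    | h a b =>
      simp only [Finset.mem_filter, Finset.mk_mem_sym2_iff, Sym2.map_mk, SimpleGraph.mem_edgeSet]
      rintro ⟨⟨h1, h2⟩, h3⟩
      exact ⟨⟨(i3_mem_map g Λ a).1 h1, (i3_mem_map g Λ b).1 h2⟩, g.symm.map_adj_iff.2 h3⟩
  · intro e _
    induction e with
    | h a b => simp [Sym2.map_mk]
  · intro e _
    induction e with
    | h a b => simp [Sym2.map_mk]
  · intro e _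
    induction e with
    | h a b => simp [Sym2.map_mk]

theorem i3_sum_map (g : G ≃g G) (Λ : Finset V) (F : Finset V → ℝ) :
    ∑ S ∈ (Λ.map g.toEquiv.toEmbedding).powerset, F S =
      ∑ S ∈ Λ.powerset, F (S.map g.toEquiv.toEmbedding) := by
  classical
  symm
  refine Finset.sum_nbij' (fun S => S.map g.toEquiv.toEmbedding)
    (fun S => S.map g.symm.toEquiv.toEmbedding) ?_ ?_ ?_ ?_ ?_
  · intro S hS
    rw [Finset.mem_powerset] at hS ⊢
    exact Finset.map_subset_map.2 hS
  · intro S hS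
    rw [Finset.mem_powerset] at hS ⊢
    intro w hw
    rw [i3_mem_map g.symm] at hw
    have := hS hw
    exact (i3_mem_map' g Λ w).1 this
  · intro S _
    ext w
    rw [i3_mem_map g.symm]
    exact i3_mem_map' g S w
  · intro S _
    ext w
    rw [i3_mem_map g, i3_mem_map g.symm]
    show g (g.symm w) ∈ S ↔ _
    have : g (g.symm w) = w := g.apply_symm_apply w
    rw [this]
  · intro S _
    rfl

theorem i3_sp_map (g : G ≃g G) (S : Finset V) (v : V) :
    sp (S.map g.toEquiv.toEmbedding) (g v) = sp S v := by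
  unfold sp
  by_cases h : v ∈ S
  · rw [if_pos h, if_pos ((i3_mem_map' g S v).2 h)]
  · rw [if_neg h, if_neg (fun h' => h ((i3_mem_map' g S v).1 h'))]

theorem i3_wtI_map (g : G ≃g G) (θ : ℝ) (Λ : Finset V) (t : V → ℝ) (S : Finset V) :
    wtI G θ (Λ.map g.toEquiv.toEmbedding) t (S.map g.toEquiv.toEmbedding) =
      wtI G θ Λ (fun w => t (g w)) S := by
  classical
  unfold wtI
  rw [i3_iw_map, Finset.prod_map]
  congr 1
  · congr 1
    funext v
    exact decide_eq_decide.2 (i3_mem_map' g S v)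
  · refine Finset.prod_congr rfl fun v _ => ?_
    have := i3_sp_map g S v
    show 1 + sp (S.map g.toEquiv.toEmbedding) (g v) * t (g v) = _
    rw [this]

theorem i3_Zt_map (g : G ≃g G) (θ : ℝ) (Λ : Finset V) (t : V → ℝ) :
    Zt G θ (Λ.map g.toEquiv.toEmbedding) t = Zt G θ Λ (fun w => t (g w)) := by
  unfold Zt
  rw [i3_sum_map]
  exact Finset.sum_congr rfl fun S _ => i3_wtI_map g θ Λ t S

theorem mean_map (g : G ≃g G) (θ : ℝ) (Λ : Finset V) (t : V → ℝ) (v : V) :
    mean G θ (Λ.map g.toEquiv.toEmbedding) t (g v) = mean G θ Λ (fun w => t (g w)) v := by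
  classical
  have h1 := i3_mem_map' g Λ v
  unfold mean
  by_cases hv : v ∈ Λ
  · rw [if_pos hv, if_pos (h1.2 hv), i3_Zt_map, i3_sum_map]
    congr 1
    refine Finset.sum_congr rfl fun S _ => ?_
    rw [i3_sp_map, i3_wtI_map]
  · rw [if_neg hv, if_neg (fun h => hv (h1.1 h))]

theorem i3_measurable_wtI (G : SimpleGraph V) (θ : ℝ) (Λ A : Finset V) :
    Measurable (fun t : V → ℝ => wtI G θ Λ t A) := by
  unfold wtI
  refine Measurable.const_mul ?_ _
  refine Finset.measurable_prod _ fun v _ => ?_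
  fun_prop

theorem measurable_Zt (G : SimpleGraph V) (θ : ℝ) (Λ : Finset V) :
    Measurable (fun t : V → ℝ => Zt G θ Λ t) := by
  unfold Zt
  exact Finset.measurable_sum _ fun A _ => i3_measurable_wtI G θ Λ A

theorem i3_measurable_mean1 (G : SimpleGraph V) (θ : ℝ) (Λ : Finset V) (v : V) :
    Measurable (fun t : V → ℝ => mean G θ Λ t v) := by
  classical
  unfold mean
  by_cases hv : v ∈ Λ
  · simp only [hv, if_true]
    exact (Finset.measurable_sum _ fun A _ => (i3_measurable_wtI G θ Λ A).const_mul _).div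
      (measurable_Zt G θ Λ)
  · simp only [hv, if_false]
    exact measurable_const

theorem measurable_mean (G : SimpleGraph V) (θ : ℝ) (Λ : Finset V) :
    Measurable (fun t : V → ℝ => mean G θ Λ t) :=
  measurable_pi_iff.2 fun v => i3_measurable_mean1 G θ Λ v

theorem measurable_cov (G : SimpleGraph V) (θ : ℝ) (Λ : Finset V) (v u : V) :
    Measurable (fun t : V → ℝ => cov G θ Λ t v u) := by
  classical
  unfold cov
  by_cases hv : v ∈ Λ ∧ u ∈ Λ
  · simp only [hv.1, hv.2, and_self, if_true]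
    exact ((Finset.measurable_sum _ fun A _ => (i3_measurable_wtI G θ Λ A).const_mul _).div
      (measurable_Zt G θ Λ)).sub ((i3_measurable_mean1 G θ Λ v).mul (i3_measurable_mean1 G θ Λ u))
  · simp only [hv, if_false]
    exact measurable_const


/-! ### uniform bound on the means -/

theorem i3_iw_flip {θ : ℝ} (h0 : 0 ≤ θ) (h1 : θ < 1) (d : ℕ) [G.LocallyFinite]
    (Λ : Finset V) (v : V) (hdeg : G.degree v ≤ d) (η η' : V → Bool)
    (h : ∀ w, w ≠ v → η w = η' w) :
    ((1 - θ) / (1 + θ)) ^ d * isingWeight G θ Λ η' ≤ isingWeight G θ Λ η := by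
  classical
  set r := (1 - θ) / (1 + θ) with hr
  have hr0 : 0 < r := div_pos (by linarith) (by linarith)
  have hr1 : r ≤ 1 := by rw [hr, div_le_one (by linarith)]; linarith
  set E := (Λ.sym2.filter (fun e => e ∈ G.edgeSet)) with hE
  set f : (V → Bool) → Sym2 V → ℝ := fun η e =>
    if (Sym2.map η e).IsDiag then (1 + θ) / 2 else (1 - θ) / 2 with hf
  have hiw : ∀ η : V → Bool, isingWeight G θ Λ η = 1 / 2 * ∏ e ∈ E, f η e := by
    intro η
    unfold isingWeight
    congr 1
  have hfpos : ∀ η e, 0 < f η e := by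
    intro η e
    simp only [hf]; split_ifs <;> linarith
  have key : ∀ e ∈ E, (if v ∈ e then r else 1) * f η' e ≤ f η e := by
    intro e he
    by_cases hv : v ∈ e
    · rw [if_pos hv]
      have h2 : f η' e ≤ (1 + θ) / 2 := by
        simp only [hf]; split_ifs <;> linarith
      have h3 : (1 - θ) / 2 ≤ f η e := by
        simp only [hf]; split_ifs <;> linarith
      calc r * f η' e ≤ r * ((1 + θ) / 2) := mul_le_mul_of_nonneg_left h2 hr0.le
        _ = (1 - θ) / 2 := by rw [hr]; field_simp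
        _ ≤ _ := h3
    · rw [if_neg hv, one_mul]
      have : Sym2.map η e = Sym2.map η' e := by
        apply Sym2.map_congr
        intro x hx
        apply h x
        rintro rfl; exact hv hx
      simp only [hf, this]; exact le_rfl
  have h2 : ∏ e ∈ E, ((if v ∈ e then r else 1) * f η' e) ≤ ∏ e ∈ E, f η e := by
    refine Finset.prod_le_prod (fun e _ => ?_) key
    refine mul_nonneg ?_ (hfpos _ _).le
    split_ifs
    · exact hr0.le
    · norm_num
  rw [Finset.prod_mul_distrib] at h2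
  have h3 : r ^ d ≤ ∏ e ∈ E, (if v ∈ e then r else 1) := by
    rw [Finset.prod_ite, Finset.prod_const, Finset.prod_const_one, mul_one]
    have hc : (E.filter (fun e => v ∈ e)).card ≤ d := by
      refine le_trans (Finset.card_le_card ?_)
        ((G.card_incidenceFinset_eq_degree v).trans_le hdeg)
      intro e he
      rw [Finset.mem_filter, hE, Finset.mem_filter] at he
      rw [SimpleGraph.mem_incidenceFinset]
      exact ⟨he.1.2, he.2⟩
    exact pow_le_pow_of_le_one hr0.le hr1 hc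
  have h4 : 0 ≤ ∏ e ∈ E, f η' e := Finset.prod_nonneg fun e _ => (hfpos _ _).le
  rw [hiw, hiw]
  have h5 := mul_le_mul_of_nonneg_right h3 h4
  have h6 := h5.trans h2
  calc r ^ d * (1 / 2 * ∏ e ∈ E, f η' e) = 1 / 2 * (r ^ d * ∏ e ∈ E, f η' e) := by ring
    _ ≤ _ := by linarith

theorem i3_wtI_flip {θ tb : ℝ} (h0 : 0 ≤ θ) (h1 : θ < 1) (htb0 : 0 ≤ tb) (htb : tb < 1) (d : ℕ)
    [G.LocallyFinite] {Λ : Finset V} {t : V → ℝ} (ht : ∀ v ∈ Λ, |t v| ≤ tb) {v : V}
    (hv : v ∈ Λ) (hdeg : G.degree v ≤ d) {A A' : Finset V} (h : ∀ w, w ≠ v → (w ∈ A ↔ w ∈ A')) :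
    ((1 - tb) / (1 + tb)) * ((1 - θ) / (1 + θ)) ^ d * wtI G θ Λ t A' ≤ wtI G θ Λ t A := by
  classical
  have e1 := i3_iw_flip (G := G) h0 h1 d Λ v hdeg (fun w => decide (w ∈ A))
    (fun w => decide (w ∈ A')) (fun w hw => decide_eq_decide.2 (h w hw))
  have hsp : ∀ w ∈ Λ.erase v, 1 + sp A w * t w = 1 + sp A' w * t w := by
    intro w hw
    have : sp A w = sp A' w := by
      unfold sp
      simp only [h w (Finset.ne_of_mem_erase hw)]
    rw [this]
  have hb : ∀ B : Finset V, ∀ w ∈ Λ, 0 < 1 + sp B w * t w ∧ 1 - tb ≤ 1 + sp B w * t w ∧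
      1 + sp B w * t w ≤ 1 + tb := by
    intro B w hw
    have h2 : |sp B w * t w| ≤ tb := by rw [abs_mul, i3_abs_sp, one_mul]; exact ht w hw
    have := abs_le.1 h2
    exact ⟨by linarith, by linarith, by linarith⟩
  have e2 : (1 - tb) / (1 + tb) * ∏ w ∈ Λ, (1 + sp A' w * t w) ≤
      ∏ w ∈ Λ, (1 + sp A w * t w) := by
    rw [← Finset.mul_prod_erase Λ _ hv, ← Finset.mul_prod_erase Λ (fun w => 1 + sp A w * t w) hv,
      Finset.prod_congr rfl hsp, ← mul_assoc]
    apply mul_le_mul_of_nonneg_right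
    · obtain ⟨_, h3, _⟩ := hb A v hv
      obtain ⟨_, _, h4⟩ := hb A' v hv
      calc (1 - tb) / (1 + tb) * (1 + sp A' v * t v) ≤ (1 - tb) / (1 + tb) * (1 + tb) :=
            mul_le_mul_of_nonneg_left h4 (div_nonneg (by linarith) (by linarith))
        _ = 1 - tb := by field_simp
        _ ≤ _ := h3
    · exact Finset.prod_nonneg fun w hw => (hb A' w (Finset.mem_of_mem_erase hw)).1.le
  unfold wtI
  have hA' : 0 ≤ isingWeight G θ Λ (fun w => decide (w ∈ A')) :=
    (iw_pos (by linarith) h1 _ _).le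
  have hA : 0 ≤ isingWeight G θ Λ (fun w => decide (w ∈ A)) :=
    (iw_pos (by linarith) h1 _ _).le
  have hP' : 0 ≤ (1 - tb) / (1 + tb) * ∏ w ∈ Λ, (1 + sp A' w * t w) :=
    mul_nonneg (div_nonneg (by linarith) (by linarith))
      (Finset.prod_nonneg fun w hw => (hb A' w hw).1.le)
  calc (1 - tb) / (1 + tb) * ((1 - θ) / (1 + θ)) ^ d *
      (isingWeight G θ Λ (fun w => decide (w ∈ A')) * ∏ w ∈ Λ, (1 + sp A' w * t w)) =
      (((1 - θ) / (1 + θ)) ^ d * isingWeight G θ Λ (fun w => decide (w ∈ A'))) *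
        ((1 - tb) / (1 + tb) * ∏ w ∈ Λ, (1 + sp A' w * t w)) := by ring
    _ ≤ _ := mul_le_mul e1 e2 hP' hA

/-- uniform bound on the means: depends only on the bound on the tilts -/
theorem mean_bd (d : ℕ) (hd : 3 ≤ d) (tb : ℝ) (htb : tb < 1) : ∃ bd < 1,
    ∀ (V : Type u) (G : SimpleGraph V) [G.LocallyFinite] (_ : G.IsTree)
    (_ : G.IsRegularOfDegree d) (θ : ℝ), 0 ≤ θ → θ ≤ thc d →
    ∀ (o : V) (R : ℕ) (t : V → ℝ), (∀ v ∈ ball G o R, |t v| ≤ tb) →
      ∀ v, |mean G θ (ball G o R) t v| ≤ bd := by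
  classical
  have hc1 := thc_lt_one hd
  have hc0 := thc_pos hd
  by_cases htb0 : tb < 0
  · refine ⟨0, by norm_num, fun V G _ hT _ θ _ _ o R t ht v => ?_⟩
    exfalso
    have := ht o ((mem_ball hT).2 (by simp))
    linarith [abs_nonneg (t o)]
  push Not at htb0
  set r := (1 - tb) / (1 + tb) * ((1 - thc d) / (1 + thc d)) ^ d with hr
  have hr0 : 0 < r := mul_pos (div_pos (by linarith) (by linarith))
    (pow_pos (div_pos (by linarith) (by linarith)) d)
  refine ⟨(1 - r) / (1 + r), by rw [div_lt_one (by linarith)]; linarith, ?_⟩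
  intro V G _ hT hreg θ h0 h1 o R t ht v
  have hr1 : r ≤ 1 := by
    rw [hr]
    apply mul_le_one₀
    · rw [div_le_one (by linarith)]; linarith
    · exact pow_nonneg (div_nonneg (by linarith) (by linarith)) d
    · apply pow_le_one₀ (div_nonneg (by linarith) (by linarith))
      rw [div_le_one (by linarith)]; linarith
  have hbd0 : 0 ≤ (1 - r) / (1 + r) := div_nonneg (by linarith) (by linarith)
  by_cases hv : v ∈ ball G o R
  · have hA : Adm θ (ball G o R) t :=
      ⟨h0, by linarith, fun w hw => lt_of_le_of_lt (ht w hw) htb⟩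
    have hrθ : r ≤ (1 - tb) / (1 + tb) * ((1 - θ) / (1 + θ)) ^ d := by
      rw [hr]
      apply mul_le_mul_of_nonneg_left _ (div_nonneg (by linarith) (by linarith))
      apply pow_le_pow_left₀ (div_nonneg (by linarith) (by linarith))
      rw [div_le_div_iff₀ (by linarith) (by linarith)]
      nlinarith
    have hflip : ∀ A A' : Finset V, (∀ w, w ≠ v → (w ∈ A ↔ w ∈ A')) →
        r * wtI G θ (ball G o R) t A' ≤ wtI G θ (ball G o R) t A := by
      intro A A' hAA
      have := i3_wtI_flip (G := G) h0 (by linarith) htb0 htb d ht hv (hreg v).le hAA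
      refine le_trans ?_ this
      exact mul_le_mul_of_nonneg_right hrθ (i3_wtI_nonneg hA A').le
    set Λ' := (ball G o R).erase v with hΛ'
    have hins : ball G o R = insert v Λ' := (Finset.insert_erase hv).symm
    have hvΛ' : v ∉ Λ' := Finset.notMem_erase v _
    have hZ : Zt G θ (ball G o R) t = ∑ A ∈ Λ'.powerset, wtI G θ (ball G o R) t A +
        ∑ A ∈ Λ'.powerset, wtI G θ (ball G o R) t (insert v A) := by
      unfold Zt
      conv_lhs => rw [hins, Finset.sum_powerset_insert hvΛ']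
      rw [← hins]
    have hM : ∑ A ∈ (ball G o R).powerset, sp A v * wtI G θ (ball G o R) t A =
        -∑ A ∈ Λ'.powerset, wtI G θ (ball G o R) t A +
        ∑ A ∈ Λ'.powerset, wtI G θ (ball G o R) t (insert v A) := by
      conv_lhs => rw [hins, Finset.sum_powerset_insert hvΛ']
      rw [← hins, ← Finset.sum_neg_distrib]
      congr 1
      · refine Finset.sum_congr rfl fun A hA => ?_
        rw [Finset.mem_powerset] at hA
        have : v ∉ A := fun h => hvΛ' (hA h)
        simp [sp, this]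
      · refine Finset.sum_congr rfl fun A _ => ?_
        simp [sp]
    set a := ∑ A ∈ Λ'.powerset, wtI G θ (ball G o R) t A with ha
    set b := ∑ A ∈ Λ'.powerset, wtI G θ (ball G o R) t (insert v A) with hb
    have hab : r * b ≤ a := by
      rw [ha, hb, Finset.mul_sum]
      refine Finset.sum_le_sum fun A _ => hflip _ _ fun w hw => ?_
      simp [hw]
    have hba : r * a ≤ b := by
      rw [ha, hb, Finset.mul_sum]
      refine Finset.sum_le_sum fun A _ => hflip _ _ fun w hw => ?_
      simp [hw]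
    have hZpos : 0 < a + b := by rw [← hZ]; exact Zt_pos hA
    unfold mean
    rw [if_pos hv, hM, hZ, abs_div, abs_of_pos hZpos, div_le_div_iff₀ hZpos (by linarith),
      ← abs_of_pos (by linarith : 0 < 1 + r), ← abs_mul]
    rw [abs_le]
    constructor <;> nlinarith
  · rw [mean_notMem _ _ _ _ hv]; simpa using hbd0

/-! ### posterior probabilities -/

/-- probability of `τ = η` on `S` under the tilted measure -/
noncomputable def post (G : SimpleGraph V) (θ : ℝ) (Λ S : Finset V) (t : V → ℝ) (η : V → Bool) : ℝ := by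
  classical
  exact (∑ A ∈ Λ.powerset with (∀ v ∈ S, (v ∈ A ↔ η v = true)), wtI G θ Λ t A) / Zt G θ Λ t

open Classical in
theorem i3_post_gib (θ : ℝ) (Λ S : Finset V) (t : V → ℝ) (η : V → Bool) :
    post G θ Λ S t η =
      gib G θ Λ t (fun σ => if (∀ v ∈ S, σ v = η v) then 1 else 0) / Zt G θ Λ t := by
  unfold post
  congr 1
  rw [gib_eq, Finset.sum_filter]
  refine Finset.sum_congr ?_ fun A _ => ?_
  · rfl
  · have : (∀ v ∈ S, cfg A v = η v) ↔ (∀ v ∈ S, (v ∈ A ↔ η v = true)) := by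
      refine forall₂_congr fun v _ => ?_
      unfold cfg
      cases h : η v <;> simp
    by_cases hc : (∀ v ∈ S, (v ∈ A ↔ η v = true))
    · rw [if_pos hc, if_pos (this.2 hc), one_mul]
    · rw [if_neg hc, if_neg (fun h => hc (this.1 h)), zero_mul]

/-- marginals of the free Ising measure -/
theorem post_zero [G.LocallyFinite] (hT : G.IsTree) {θ : ℝ} (h0 : 0 ≤ θ) (h1 : θ < 1) (o : V)
    (R : ℕ) (S : Finset V) (hS : (G.induce (S : Set V)).Connected) (hSΛ : S ⊆ ball G o R)
    (η : V → Bool) : post G θ (ball G o R) S (fun _ => 0) η = isingWeight G θ S η := by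
  classical
  rw [i3_post_gib, Zt_ball_zero hT h0 h1, div_one]
  exact gib_ball_pattern hT h0 h1 hS hSΛ η

/-- comparison of the posterior with the signs of the means -/
theorem post_sign {θ : ℝ} (Λ S : Finset V) (hSΛ : S ⊆ Λ) (t : V → ℝ)
    (h : Adm θ Λ t) (η : V → Bool) :
    |(by classical exact if (∀ v ∈ S, (decide (0 < mean G θ Λ t v) = η v)) then (1 : ℝ) else 0)
        - post G θ Λ S t η| ≤ ∑ v ∈ S, (1 - |mean G θ Λ t v|) := by
  classical
  set s : V → Bool := fun v => decide (0 < mean G θ Λ t v) with hs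
  have hZ := Zt_pos (G := G) h
  -- probability that the spin at `v` differs from the sign
  have hq : ∀ v ∈ S, gib G θ Λ t (fun σ => if σ v = s v then 0 else 1) =
      (1 - |mean G θ Λ t v|) / 2 * Zt G θ Λ t := by
    intro v hv
    have e : (fun σ : V → Bool => if σ v = s v then (0 : ℝ) else 1) =
        fun σ => 1 / 2 - (spb (s v) / 2) * spb (σ v) := by
      funext σ
      cases h1 : σ v <;> cases h2 : s v <;> simp [spb] <;> norm_num
    have e2 : gib G θ Λ t (fun σ => 1 / 2 - (spb (s v) / 2) * spb (σ v)) =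
        gib G θ Λ t (fun _ => 1 / 2) - gib G θ Λ t (fun σ => (spb (s v) / 2) * spb (σ v)) :=
      gib_sub G θ Λ t (fun _ => 1 / 2) (fun σ => (spb (s v) / 2) * spb (σ v))
    rw [e, e2, gib_const, gib_smul, mag_mul_Zg h, ← mean_eq _ _ _ _ (hSΛ hv),
      show gib G θ Λ t (fun _ => 1) = Zg G θ Λ t from rfl, Zg_eq]
    have habs : spb (s v) * mean G θ Λ t v = |mean G θ Λ t v| := by
      by_cases hp : 0 < mean G θ Λ t v
      · simp [hs, spb, hp, abs_of_pos hp]
      · simp [hs, spb, hp, abs_of_nonpos (not_lt.1 hp)]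
    linear_combination (-(1 / 2) * Zt G θ Λ t) * habs
  have hnn : ∀ v ∈ S, 0 ≤ 1 - |mean G θ Λ t v| := fun v _ => by
    have := abs_mean_le (G := G) h v
    linarith
  rw [i3_post_gib]
  set P := gib G θ Λ t (fun σ => if (∀ v ∈ S, σ v = η v) then 1 else 0) with hP
  have hP0 : 0 ≤ P := gib_nonneg h fun σ => by split_ifs <;> norm_num
  have hPZ : P ≤ Zt G θ Λ t := by
    rw [← Zg_eq]
    exact gib_mono h fun σ => by split_ifs <;> norm_num
  have hpost0 : 0 ≤ P / Zt G θ Λ t := div_nonneg hP0 hZ.le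
  have hpost1 : P / Zt G θ Λ t ≤ 1 := (div_le_one hZ).2 hPZ
  by_cases hc : ∀ v ∈ S, s v = η v
  · rw [if_pos hc, abs_of_nonneg (by linarith)]
    have h2 : Zt G θ Λ t - P ≤ ∑ v ∈ S, (1 - |mean G θ Λ t v|) / 2 * Zt G θ Λ t := by
      rw [← Finset.sum_congr rfl hq, ← Zg_eq]
      have e3 : Zg G θ Λ t - P =
          gib G θ Λ t (fun σ => 1 - if (∀ v ∈ S, σ v = η v) then 1 else 0) := by
        rw [gib_sub]; rfl
      rw [e3]
      have e4 : ∑ v ∈ S, gib G θ Λ t (fun σ => if σ v = s v then 0 else 1) =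
          gib G θ Λ t (fun σ => ∑ v ∈ S, if σ v = s v then 0 else 1) := by
        unfold gib
        rw [Finset.sum_comm]
        exact Finset.sum_congr rfl fun A _ => by rw [Finset.mul_sum]
      rw [e4]
      refine gib_mono h fun σ => ?_
      by_cases h3 : ∀ v ∈ S, σ v = η v
      · rw [if_pos h3, sub_self]
        exact Finset.sum_nonneg fun v _ => by split_ifs <;> norm_num
      · rw [if_neg h3]
        push Not at h3
        obtain ⟨v, hv, hne⟩ := h3
        have h4 : (if σ v = s v then (0 : ℝ) else 1) = 1 := by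
          rw [if_neg]; rw [hc v hv]; exact hne
        calc (1 : ℝ) - 0 = (if σ v = s v then (0 : ℝ) else 1) := by rw [h4]; ring
          _ ≤ _ := Finset.single_le_sum (f := fun v => if σ v = s v then (0 : ℝ) else 1)
              (fun v _ => by split_ifs <;> norm_num) hv
    rw [← Finset.sum_mul, ← Finset.sum_div] at h2
    have h5 : 1 - P / Zt G θ Λ t = (Zt G θ Λ t - P) / Zt G θ Λ t := by
      field_simp
    rw [h5, div_le_iff₀ hZ]
    have h6 : 0 ≤ ∑ v ∈ S, (1 - |mean G θ Λ t v|) := Finset.sum_nonneg hnn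
    nlinarith [mul_nonneg h6 hZ.le]
  · rw [if_neg hc, zero_sub, abs_neg, abs_of_nonneg hpost0]
    push Not at hc
    obtain ⟨v, hv, hne⟩ := hc
    have h2 : P ≤ (1 - |mean G θ Λ t v|) / 2 * Zt G θ Λ t := by
      rw [← hq v hv]
      refine gib_mono h fun σ => ?_
      by_cases h3 : ∀ v ∈ S, σ v = η v
      · rw [if_pos h3, if_neg]
        rw [h3 v hv]; exact fun h' => hne h'.symm
      · rw [if_neg h3]; split_ifs <;> norm_num
    rw [div_le_iff₀ hZ]
    have h3 : 1 - |mean G θ Λ t v| ≤ ∑ v ∈ S, (1 - |mean G θ Λ t v|) :=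
      Finset.single_le_sum (f := fun v => 1 - |mean G θ Λ t v|) hnn hv
    have h4 := hnn v hv
    nlinarith

open MeasureTheory in
/-- `post * Zt` is affine in each tilt: it integrates to its value at `0` -/
theorem post_integral [Countable V] (θ : ℝ) (h0 : 0 ≤ θ) (h1 : θ < 1) (Λ S : Finset V)
    (η : V → Bool) (ν : MeasureTheory.Measure ℝ) [MeasureTheory.IsProbabilityMeasure ν]
    (hs : ∀ᵐ x ∂ν, |x| < 1) (hν : ∫ x, x ∂ν = 0) :
    ∫ t, post G θ Λ S t η * Zt G θ Λ t ∂(MeasureTheory.Measure.infinitePi (fun _ : V => ν))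
      = post G θ Λ S (fun _ => 0) η * Zt G θ Λ (fun _ => 0) := by
  classical
  set μ := MeasureTheory.Measure.infinitePi (fun _ : V => ν) with hμ
  have hint : Integrable (fun x : ℝ => x) ν :=
    Integrable.of_bound (by fun_prop) 1 (hs.mono fun x hx => by
      rw [Real.norm_eq_abs]; exact hx.le)
  have hae : ∀ v : V, ∀ᵐ t ∂μ, |t v| < 1 := by
    intro v
    exact (measurePreserving_eval_infinitePi (fun _ : V => ν) v).quasiMeasurePreserving.ae hs
  have haeall : ∀ᵐ t ∂μ, ∀ v, |t v| < 1 := ae_all_iff.2 hae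
  have key : ∀ t : V → ℝ, (∀ v, |t v| < 1) → post G θ Λ S t η * Zt G θ Λ t =
      ∑ A ∈ Λ.powerset with (∀ v ∈ S, (v ∈ A ↔ η v = true)), wtI G θ Λ t A := by
    intro t ht
    have hZ := Zt_pos (G := G) (θ := θ) (S := Λ) (t := t) ⟨h0, h1, fun v _ => ht v⟩
    unfold post
    rw [div_mul_cancel₀ _ hZ.ne']
  rw [key (fun _ => 0) (by simp)]
  rw [integral_congr_ae (g := fun t : V → ℝ =>
    ∑ A ∈ Λ.powerset with (∀ v ∈ S, (v ∈ A ↔ η v = true)), wtI G θ Λ t A)
    (haeall.mono fun t ht => key t ht)]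
  -- product integrals
  have hprod : ∀ A : Finset V, ∫ t, ∏ v ∈ Λ, (1 + sp A v * t v) ∂μ = 1 := by
    intro A
    have e1 : ∀ t : V → ℝ, ∏ v ∈ Λ, (1 + sp A v * t v) =
        (fun y : Λ → ℝ => ∏ v : Λ, (1 + sp A v * y v)) (Λ.restrict t) := by
      intro t
      rw [← Finset.prod_coe_sort]
      rfl
    rw [integral_congr_ae (ae_of_all _ e1), hμ,
      MeasureTheory.integral_restrict_infinitePi (μ := fun _ : V => ν) (s := Λ)
        (f := fun y : Λ → ℝ => ∏ v : Λ, (1 + sp A v * y v))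
        (Finset.measurable_prod _ fun v _ => by fun_prop).aestronglyMeasurable]
    rw [integral_fintype_prod_eq_prod (fun (v : Λ) (x : ℝ) => 1 + sp A v * x)]
    apply Finset.prod_eq_one
    intro v _
    rw [integral_add (by fun_prop) (hint.const_mul _), integral_const_mul, hν]
    simp
  have hbdd : ∀ A : Finset V, Integrable (fun t : V → ℝ => wtI G θ Λ t A) μ := by
    intro A
    refine Integrable.of_bound (i3_measurable_wtI G θ Λ A).aestronglyMeasurable
      (isingWeight G θ Λ (fun v => decide (v ∈ A)) * ∏ v ∈ Λ, 2)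
      (haeall.mono fun t ht => ?_)
    unfold wtI
    rw [norm_mul, Real.norm_of_nonneg (iw_pos (by linarith) h1 _ _).le, norm_prod]
    refine mul_le_mul_of_nonneg_left (Finset.prod_le_prod (fun v _ => norm_nonneg _)
      fun v _ => ?_) (iw_pos (by linarith) h1 _ _).le
    rw [Real.norm_eq_abs]
    refine (abs_add_le _ _).trans ?_
    rw [abs_mul, i3_abs_sp]
    have := ht v
    norm_num
    linarith
  rw [integral_finsetSum _ fun A _ => hbdd A]
  refine Finset.sum_congr rfl fun A _ => ?_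
  unfold wtI
  rw [integral_const_mul, hprod]
  simp

end Crest.Agent.T41
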