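import Crest.Agent.T41Ext
import Crest.Agent.T41BB

/-!
S0241, section 6: the key inequality.
-/

set_option autoImplicit false
set_option linter.unusedSectionVars false

namespace Crest.Agent.T41

open MeasureTheory SimpleGraph

universe u

/-- `(e^{-F} - e^{-F'})² ≤ min(1,(F-F')²)` for `F, F' ≥ 0` -/
theorem exp_diff {F F' : ℝ} (h : 0 ≤ F) (h' : 0 ≤ F') :
    (Real.exp (-F) - Real.exp (-F')) ^ 2 ≤ 1 ∧
      (Real.exp (-F) - Real.exp (-F')) ^ 2 ≤ (F - F') ^ 2 := by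
  have key : ∀ a b : ℝ, 0 ≤ a → a ≤ b → 0 ≤ Real.exp (-a) - Real.exp (-b) ∧
      Real.exp (-a) - Real.exp (-b) ≤ 1 ∧ Real.exp (-a) - Real.exp (-b) ≤ b - a := by
    intro a b ha hab
    have e1 : Real.exp (-a) ≤ 1 := Real.exp_le_one_iff.2 (by linarith)
    have e2 : Real.exp (-b) ≤ Real.exp (-a) := Real.exp_le_exp.2 (by linarith)
    have e3 := Real.exp_pos (-b)
    have e4 := Real.exp_pos (-a)
    have e5 : Real.exp (-b) = Real.exp (-a) * Real.exp (-(b - a)) := by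
      rw [← Real.exp_add]; congr 1; ring
    have e6 := Real.add_one_le_exp (-(b - a))
    refine ⟨by linarith, by linarith, ?_⟩
    rw [e5]
    nlinarith
  rcases le_total F F' with hF | hF
  · obtain ⟨h1, h2, h3⟩ := key F F' h hF
    constructor
    · nlinarith
    · nlinarith
  · obtain ⟨h1, h2, h3⟩ := key F' F h' hF
    constructor
    · nlinarith
    · nlinarith

/-- the middle factor -/
noncomputable def Mid (θ θ' : ℝ) (l : ℕ) (z : ℕ → ℝ × ℝ) : ℝ :=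
  (∏ i ∈ Finset.range l, kap θ (z (i + 1)).1 (z i).1 -
    ∏ i ∈ Finset.range l, kap θ' (z (i + 1)).2 (z i).2) ^ 2

/-- the functional of an edge -/
noncomputable def aE (d : ℕ) (θ θ' : ℝ) (z : ℕ → ℝ × ℝ) (i : ℕ) : ℝ :=
  ell d θ (z (i + 1)).1 (z i).1 - ell d θ' (z (i + 1)).2 (z i).2

section
attribute [local irreducible] kap

theorem kz_meas1 (θ : ℝ) (i j : ℕ) :
    Measurable (fun z : ℕ → ℝ × ℝ => kap θ (z i).1 (z j).1) := by
  have h : Measurable (fun z : ℕ → ℝ × ℝ => ((z i).1, (z j).1)) := by fun_prop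
  exact (measurable_kap2 θ).comp h

theorem kz_meas2 (θ : ℝ) (i j : ℕ) :
    Measurable (fun z : ℕ → ℝ × ℝ => kap θ (z i).2 (z j).2) := by
  have h : Measurable (fun z : ℕ → ℝ × ℝ => ((z i).2, (z j).2)) := by fun_prop
  exact (measurable_kap2 θ).comp h

theorem prodk_meas1 (θ : ℝ) (l : ℕ) :
    Measurable (fun z : ℕ → ℝ × ℝ => ∏ i ∈ Finset.range l, kap θ (z (i + 1)).1 (z i).1) :=
  Finset.measurable_prod (Finset.range l) fun i _ => kz_meas1 θ (i + 1) i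

theorem prodk_meas2 (θ : ℝ) (l : ℕ) :
    Measurable (fun z : ℕ → ℝ × ℝ => ∏ i ∈ Finset.range l, kap θ (z (i + 1)).2 (z i).2) :=
  Finset.measurable_prod (Finset.range l) fun i _ => kz_meas2 θ (i + 1) i

theorem Mseq_meas1 (θ : ℝ) (k : ℕ) :
    Measurable (fun z : ℕ → ℝ × ℝ => Mseq θ (fun i => (z i).1) k) := by
  have h1 : Measurable (fun z : ℕ → ℝ × ℝ => 1 - (z 0).1 ^ 2) :=
    measurable_const.sub ((measurable_pi_apply 0).fst.pow_const 2)
  exact h1.mul (prodk_meas1 θ k)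

theorem Mseq_meas2 (θ : ℝ) (k : ℕ) :
    Measurable (fun z : ℕ → ℝ × ℝ => Mseq θ (fun i => (z i).2) k) := by
  have h1 : Measurable (fun z : ℕ → ℝ × ℝ => 1 - (z 0).2 ^ 2) :=
    measurable_const.sub ((measurable_pi_apply 0).snd.pow_const 2)
  exact h1.mul (prodk_meas2 θ k)

end

theorem Mid_meas (θ θ' : ℝ) (l : ℕ) : Measurable (Mid θ θ' l) :=
  ((prodk_meas1 θ l).sub (prodk_meas2 θ' l)).pow_const 2

theorem Mid_dep (θ θ' : ℝ) (l : ℕ) (z z' : ℕ → ℝ × ℝ) (h : ∀ i ≤ l, z i = z' i) :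
    Mid θ θ' l z = Mid θ θ' l z' := by
  unfold Mid
  congr 2
  · refine Finset.prod_congr rfl fun i hi => ?_
    have := Finset.mem_range.1 hi
    rw [h i (by omega), h (i + 1) (by omega)]
  · refine Finset.prod_congr rfl fun i hi => ?_
    have := Finset.mem_range.1 hi
    rw [h i (by omega), h (i + 1) (by omega)]

theorem prod_kap_exp {d : ℕ} (hd : 3 ≤ d) {θ : ℝ} (h0 : 0 < θ) (h1 : θ ≤ thc d)
    (m : ℕ → ℝ) (hm : ∀ i, |m i| < 1) (l : ℕ) :
    √((d : ℝ) - 1) ^ l * ∏ i ∈ Finset.range l, kap θ (m (i + 1)) (m i) =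
      Real.exp (-∑ i ∈ Finset.range l, ell d θ (m (i + 1)) (m i)) := by
  rw [← Finset.sum_neg_distrib, Real.exp_sum]
  have : √((d : ℝ) - 1) ^ l = ∏ i ∈ Finset.range l, √((d : ℝ) - 1) := by
    rw [Finset.prod_const, Finset.card_range]
  rw [this, ← Finset.prod_mul_distrib]
  refine Finset.prod_congr rfl fun i _ => ?_
  rw [exp_ell hd h0 (h1.trans_lt (thc_lt_one hd)) (hm _) (hm _)]

theorem Mid_le {d : ℕ} (hd : 3 ≤ d) {θ θ' : ℝ} (h0 : 0 < θ) (h1 : θ ≤ thc d) (h0' : 0 < θ')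
    (h1' : θ' ≤ thc d) (z : ℕ → ℝ × ℝ) (hz : ∀ i, |(z i).1| < 1) (hz' : ∀ i, |(z i).2| < 1)
    (l : ℕ) : 0 ≤ Mid θ θ' l z ∧ ((d : ℝ) - 1) ^ l * Mid θ θ' l z ≤ 1 ∧
      ((d : ℝ) - 1) ^ l * Mid θ θ' l z ≤ (∑ i ∈ Finset.range l, aE d θ θ' z i) ^ 2 := by
  have hd1 : (0 : ℝ) ≤ (d : ℝ) - 1 := by
    have : (3 : ℝ) ≤ d := by exact_mod_cast hd
    linarith
  have e1 := prod_kap_exp hd h0 h1 (fun i => (z i).1) hz l
  have e2 := prod_kap_exp hd h0' h1' (fun i => (z i).2) hz' l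
  have e3 : ((d : ℝ) - 1) ^ l * Mid θ θ' l z =
      (Real.exp (-∑ i ∈ Finset.range l, ell d θ (z (i + 1)).1 (z i).1) -
        Real.exp (-∑ i ∈ Finset.range l, ell d θ' (z (i + 1)).2 (z i).2)) ^ 2 := by
    rw [← e1, ← e2]
    unfold Mid
    have : ((d : ℝ) - 1) ^ l = (√((d : ℝ) - 1) ^ l) ^ 2 := by
      rw [← pow_mul, mul_comm l 2, pow_mul, Real.sq_sqrt hd1]
    rw [this]
    ring
  have hF : 0 ≤ ∑ i ∈ Finset.range l, ell d θ (z (i + 1)).1 (z i).1 :=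
    Finset.sum_nonneg fun i _ => ell_nonneg hd h0 h1 (hz _) (hz _)
  have hF' : 0 ≤ ∑ i ∈ Finset.range l, ell d θ' (z (i + 1)).2 (z i).2 :=
    Finset.sum_nonneg fun i _ => ell_nonneg hd h0' h1' (hz' _) (hz' _)
  have e4 := exp_diff hF hF'
  refine ⟨by unfold Mid; exact sq_nonneg _, ?_, ?_⟩
  · rw [e3]; exact e4.1
  · rw [e3]
    refine e4.2.trans (le_of_eq ?_)
    unfold aE
    rw [Finset.sum_sub_distrib]

/-- pointwise telescoping -/
theorem Msq_le {θ θ' : ℝ} (h0 : 0 ≤ θ) (h1 : θ < 1)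
    (z : ℕ → ℝ × ℝ) (hz : ∀ i, |(z i).1| < 1) (hz' : ∀ i, |(z i).2| < 1) {L k n : ℕ}
    (hL : 1 ≤ L) (hk : 1 ≤ k) (hn : n = (k - 1) / L + 1) :
    (Mseq θ (fun i => (z i).1) k - Mseq θ' (fun i => (z i).2) k) ^ 2 ≤
      (n + 1) * (∑ t ∈ Finset.range n, Af θ (t * L) z *
        Mid θ θ' (min ((t + 1) * L) k - t * L) (fun i => z (t * L + i)) *
          Bf θ' (min ((t + 1) * L) k) (k - min ((t + 1) * L) k) z +
        4 * (((z 0).1 - (z 0).2) ^ 2 * Bf θ' 0 k z)) := by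
  set κ : ℕ → ℝ := fun i => kap θ (z (i + 1)).1 (z i).1 with hκ
  set κ' : ℕ → ℝ := fun i => kap θ' (z (i + 1)).2 (z i).2 with hκ'
  set c : ℕ → ℕ := fun t => min (t * L) k with hc
  have hc0 : c 0 = 0 := by simp [hc]
  have hdm := Nat.div_add_mod (k - 1) L
  have hmod := Nat.mod_lt (k - 1) (show 0 < L by omega)
  have hcn : c n = k := by
    simp only [hc, hn]
    apply min_eq_right
    have : ((k - 1) / L + 1) * L = L * ((k - 1) / L) + L := by ring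
    rw [this]
    omega
  have hct : ∀ t < n, c t = t * L := by
    intro t ht
    simp only [hc]
    apply min_eq_left
    have h1 : t ≤ (k - 1) / L := by omega
    have h2 : t * L ≤ (k - 1) / L * L := Nat.mul_le_mul_right L h1
    have h3 : (k - 1) / L * L ≤ k - 1 := Nat.div_mul_le_self _ _
    omega
  have hct1 : ∀ t, c (t + 1) = min ((t + 1) * L) k := fun t => rfl
  have hmono : ∀ t < n, c t ≤ c (t + 1) := by
    intro t ht
    simp only [hc]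
    have : t * L ≤ (t + 1) * L := Nat.mul_le_mul_right L (by omega)
    omega
  have tele := blk_tele κ κ' c n hmono
  rw [hc0, hcn] at tele
  have eM : Mseq θ (fun i => (z i).1) k = (1 - (z 0).1 ^ 2) * blk κ 0 k := by
    unfold Mseq blk
    rw [Finset.range_eq_Ico]
  have eM' : Mseq θ' (fun i => (z i).2) k = (1 - (z 0).2 ^ 2) * blk κ' 0 k := by
    unfold Mseq blk
    rw [Finset.range_eq_Ico]
  have eD : Mseq θ (fun i => (z i).1) k - Mseq θ' (fun i => (z i).2) k =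
      ∑ t ∈ Finset.range n, (1 - (z 0).1 ^ 2) * blk κ 0 (c t) *
        (blk κ (c t) (c (t + 1)) - blk κ' (c t) (c (t + 1))) * blk κ' (c (t + 1)) k +
      ((z 0).2 ^ 2 - (z 0).1 ^ 2) * blk κ' 0 k := by
    have : ∑ t ∈ Finset.range n, (1 - (z 0).1 ^ 2) * blk κ 0 (c t) *
        (blk κ (c t) (c (t + 1)) - blk κ' (c t) (c (t + 1))) * blk κ' (c (t + 1)) k =
        (1 - (z 0).1 ^ 2) * (blk κ 0 k - blk κ' 0 k) := by
      rw [tele, Finset.mul_sum]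
      exact Finset.sum_congr rfl fun t _ => by ring
    rw [this, eM, eM']
    ring
  rw [eD]
  refine (sq_sum_add_le n _ _).trans ?_
  have hn0 : (0 : ℝ) ≤ (n : ℝ) + 1 := by positivity
  refine mul_le_mul_of_nonneg_left (add_le_add (Finset.sum_le_sum fun t ht => ?_) ?_) hn0
  · have ht := Finset.mem_range.1 ht
    have e1 : (1 - (z 0).1 ^ 2) * blk κ 0 (c t) = Mseq θ (fun i => (z i).1) (c t) := by
      unfold Mseq blk
      rw [Finset.range_eq_Ico]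
    have e2 : ((1 - (z 0).1 ^ 2) * blk κ 0 (c t)) ^ 2 ≤ Af θ (t * L) z := by
      rw [e1, Mseq_symm h0 h1 _ hz, hct t ht, mul_pow]
      unfold Af
      rw [← Finset.prod_pow]
      have h3 : 0 ≤ ∏ i ∈ Finset.range (t * L), kap θ (z i).1 (z (i + 1)).1 ^ 2 :=
        Finset.prod_nonneg fun _ _ => sq_nonneg _
      have h4 : (1 - (z (t * L)).1 ^ 2) ^ 2 ≤ 1 := by
        have h7 : (z (t * L)).1 ^ 2 ≤ 1 := ((sq_lt_one_iff_abs_lt_one _).2 (hz (t * L))).le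
        have h8 := sq_nonneg (z (t * L)).1
        nlinarith
      calc (1 - (z (t * L)).1 ^ 2) ^ 2 *
            ∏ i ∈ Finset.range (t * L), kap θ (z i).1 (z (i + 1)).1 ^ 2 ≤
            1 * ∏ i ∈ Finset.range (t * L), kap θ (z i).1 (z (i + 1)).1 ^ 2 :=
            mul_le_mul_of_nonneg_right h4 h3
        _ = _ := one_mul _
    have e3 : (blk κ (c t) (c (t + 1)) - blk κ' (c t) (c (t + 1))) ^ 2 =
        Mid θ θ' (min ((t + 1) * L) k - t * L) (fun i => z (t * L + i)) := by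
      unfold Mid blk
      rw [Finset.prod_Ico_eq_prod_range, Finset.prod_Ico_eq_prod_range, hct t ht, hct1]
      rfl
    have e4 : (blk κ' (c (t + 1)) k) ^ 2 =
        Bf θ' (min ((t + 1) * L) k) (k - min ((t + 1) * L) k) z := by
      unfold Bf blk
      rw [Finset.prod_Ico_eq_prod_range, hct1, Finset.prod_pow]
    rw [mul_pow, mul_pow, e3, e4]
    refine mul_le_mul_of_nonneg_right (mul_le_mul_of_nonneg_right e2 ?_) ?_
    · rw [← e3]; exact sq_nonneg _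
    · rw [← e4]; exact sq_nonneg _
  · have e4 : (blk κ' 0 k) ^ 2 = Bf θ' 0 k z := by
      unfold Bf blk
      rw [Finset.prod_Ico_eq_prod_range, Finset.prod_pow]
      rfl
    rw [mul_pow, e4]
    have h5 : 0 ≤ Bf θ' 0 k z := by rw [← e4]; exact sq_nonneg _
    have h6 : ((z 0).2 ^ 2 - (z 0).1 ^ 2) ^ 2 ≤ 4 * ((z 0).1 - (z 0).2) ^ 2 := by
      have a1 := abs_lt.1 (hz 0)
      have a2 := abs_lt.1 (hz' 0)
      have : ((z 0).2 ^ 2 - (z 0).1 ^ 2) ^ 2 =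
          ((z 0).1 + (z 0).2) ^ 2 * ((z 0).1 - (z 0).2) ^ 2 := by ring
      rw [this]
      refine mul_le_mul_of_nonneg_right ?_ (sq_nonneg _)
      nlinarith
    calc ((z 0).2 ^ 2 - (z 0).1 ^ 2) ^ 2 * Bf θ' 0 k z ≤
          (4 * ((z 0).1 - (z 0).2) ^ 2) * Bf θ' 0 k z := mul_le_mul_of_nonneg_right h6 h5
      _ = _ := by ring

theorem Msq_Bf {θ : ℝ} (z : ℕ → ℝ × ℝ) (hz : ∀ i, |(z i).2| < 1) (k : ℕ) :
    (Mseq θ (fun i => (z i).2) k) ^ 2 ≤ Bf θ 0 k z := by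
  unfold Mseq
  rw [mul_pow, ← Finset.prod_pow]
  have e : Bf θ 0 k z = ∏ i ∈ Finset.range k, kap θ (z (i + 1)).2 (z i).2 ^ 2 := by
    unfold Bf
    refine Finset.prod_congr rfl fun i _ => ?_
    rw [show 0 + i + 1 = i + 1 by omega, show 0 + i = i by omega]
  rw [e]
  have h3 : 0 ≤ ∏ i ∈ Finset.range k, kap θ (z (i + 1)).2 (z i).2 ^ 2 :=
    Finset.prod_nonneg fun _ _ => sq_nonneg _
  have h4 : (1 - (z 0).2 ^ 2) ^ 2 ≤ 1 := by
    have h7 : (z 0).2 ^ 2 ≤ 1 := ((sq_lt_one_iff_abs_lt_one _).2 (hz 0)).le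
    have h8 := sq_nonneg (z 0).2
    nlinarith
  calc _ ≤ 1 * ∏ i ∈ Finset.range k, kap θ (z (i + 1)).2 (z i).2 ^ 2 :=
        mul_le_mul_of_nonneg_right h4 h3
    _ = _ := one_mul _

theorem Msq_Af {θ : ℝ} (h0 : 0 ≤ θ) (h1 : θ < 1) (z : ℕ → ℝ × ℝ) (hz : ∀ i, |(z i).1| < 1)
    (k : ℕ) : (Mseq θ (fun i => (z i).1) k) ^ 2 ≤ Af θ k z := by
  rw [Mseq_symm h0 h1 _ hz, mul_pow, ← Finset.prod_pow]
  unfold Af
  have h3 : 0 ≤ ∏ i ∈ Finset.range k, kap θ (z i).1 (z (i + 1)).1 ^ 2 :=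
    Finset.prod_nonneg fun _ _ => sq_nonneg _
  have h4 : (1 - (z k).1 ^ 2) ^ 2 ≤ 1 := by
    have h7 : (z k).1 ^ 2 ≤ 1 := ((sq_lt_one_iff_abs_lt_one _).2 (hz k)).le
    have h8 := sq_nonneg (z k).1
    nlinarith
  calc _ ≤ 1 * ∏ i ∈ Finset.range k, kap θ (z i).1 (z (i + 1)).1 ^ 2 :=
        mul_le_mul_of_nonneg_right h4 h3
    _ = _ := one_mul _

/-- arithmetic -/
theorem nat_pow_half (n : ℕ) : ((n : ℝ) + 1) * (n + 2) ≤ 3 * 2 ^ n := by
  induction n with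
  | zero => norm_num
  | succ n ih =>
    rcases Nat.lt_or_ge n 1 with h | h
    · have : n = 0 := by omega
      subst this; norm_num
    · have h1 : (1 : ℝ) ≤ n := by exact_mod_cast h
      rw [pow_succ]
      push_cast
      nlinarith

theorem nat_pow_half' (n : ℕ) : ((n : ℝ) + 2) ≤ 2 * 2 ^ n := by
  induction n with
  | zero => norm_num
  | succ n ih =>
    rw [pow_succ]
    push_cast
    have : (0 : ℝ) ≤ n := by positivity
    nlinarith

theorem sum_half (L : ℕ) (hL : 1 ≤ L) (n : ℕ) :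
    ∑ k ∈ Finset.range (n * L), ((1 : ℝ) / 2) ^ (k / L) ≤ 2 * L := by
  have key : ∑ k ∈ Finset.range (n * L), ((1 : ℝ) / 2) ^ (k / L) =
      L * ∑ t ∈ Finset.range n, ((1 : ℝ) / 2) ^ t := by
    induction n with
    | zero => simp
    | succ n ih =>
      rw [show (n + 1) * L = n * L + L by ring, Finset.sum_range_add, ih,
        Finset.sum_range_succ _ n, mul_add]
      congr 1
      rw [Finset.sum_congr rfl (g := fun _ => ((1 : ℝ) / 2) ^ n)]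
      · simp
      · intro i hi
        have hi := Finset.mem_range.1 hi
        congr 1
        rw [add_comm, Nat.add_mul_div_right _ _ (by omega), Nat.div_eq_of_lt hi, Nat.zero_add]
  rw [key]
  have h1 : ∑ t ∈ Finset.range n, ((1 : ℝ) / 2) ^ t ≤ 2 := by
    rw [geom_sum_eq (by norm_num)]
    have : (0 : ℝ) < (1 / 2) ^ n := by positivity
    rw [div_le_iff_of_neg (by norm_num)]
    norm_num
  have : (0 : ℝ) ≤ L := by positivity
  nlinarith

/-- the bound for one `k` -/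
theorem per_k {n : ℕ} {W D ε : ℝ} (hW : 0 ≤ W) (hD : 0 ≤ D) (hε : 0 ≤ ε) {K : ℝ}
    (hK : (n : ℝ) + 1 ≤ 2 * K) (hK1 : 1 ≤ K) :
    3 / 2 * ((((n : ℝ) + 1) + 1) * (((n : ℝ) + 1) * (16 * (1 / 4) ^ (n + 1) * W +
      ((n : ℝ) + 1) * ε) + 4 * (4 * (1 / 4) ^ (n + 1) * D + 4 * (((n : ℝ) + 1) * ε))) +
      ((1 / 4) ^ n * D + 4 * ((n : ℝ) * ε))) ≤
      18 * (1 / 2) ^ n * W + 15 * (1 / 2) ^ n * D + 456 * K ^ 3 * ε := by
  have q4 : ((1 : ℝ) / 4) ^ n = (1 / 2) ^ n * (1 / 2) ^ n := by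
    rw [← mul_pow]; norm_num
  set q := ((1 : ℝ) / 2) ^ n with hq
  have hq0 : 0 < q := by positivity
  have hq1 : q ≤ 1 := pow_le_one₀ (by norm_num) (by norm_num)
  have hq2 : q * 2 ^ n = 1 := by rw [hq, ← mul_pow]; norm_num
  have a1 := nat_pow_half n
  have a2 := nat_pow_half' n
  have hn0 : (0 : ℝ) ≤ n := by positivity
  have b1 : ((n : ℝ) + 1) * (n + 2) * q ≤ 3 := by
    calc ((n : ℝ) + 1) * (n + 2) * q ≤ 3 * 2 ^ n * q := mul_le_mul_of_nonneg_right a1 hq0.le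
      _ = 3 * (q * 2 ^ n) := by ring
      _ = 3 := by rw [hq2]; norm_num
  have b2 : ((n : ℝ) + 2) * q ≤ 2 := by
    calc ((n : ℝ) + 2) * q ≤ 2 * 2 ^ n * q := mul_le_mul_of_nonneg_right a2 hq0.le
      _ = 2 * (q * 2 ^ n) := by ring
      _ = 2 := by rw [hq2]; norm_num
  rw [pow_succ, q4]
  have c1 : ((n : ℝ) + 1) * (n + 2) * (q * q) * W ≤ 3 * q * W := by
    have := mul_le_mul_of_nonneg_right b1 (mul_nonneg hq0.le hW)
    linarith
  have c2 : ((n : ℝ) + 2) * (q * q) * D ≤ 2 * q * D := by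
    have := mul_le_mul_of_nonneg_right b2 (mul_nonneg hq0.le hD)
    linarith
  have c3 : q * q * D ≤ q * D := by
    have := mul_le_mul_of_nonneg_right hq1 (mul_nonneg hq0.le hD)
    linarith
  -- the eps terms
  set N : ℝ := (n : ℝ) + 1 with hN
  have hN1 : 1 ≤ N := by linarith
  have hK0 : (0 : ℝ) ≤ K := by linarith
  have c4 : N ^ 3 ≤ 8 * K ^ 3 := by
    calc N ^ 3 ≤ (2 * K) ^ 3 := pow_le_pow_left₀ (by linarith) hK 3
      _ = 8 * K ^ 3 := by ring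
  have c5 : (N + 1) * (N * N) + 16 * ((N + 1) * N) + 4 * (n : ℝ) ≤ 38 * N ^ 3 := by
    have hnN : (n : ℝ) ≤ N := by linarith
    nlinarith [mul_nonneg (by linarith : 0 ≤ N - 1) (by linarith : (0 : ℝ) ≤ N),
      mul_nonneg (by linarith : 0 ≤ N - 1) (by positivity : (0 : ℝ) ≤ N ^ 2)]
  have c6 := mul_le_mul_of_nonneg_right (c5.trans (mul_le_mul_of_nonneg_left c4
    (by norm_num : (0 : ℝ) ≤ 38))) hε
  nlinarith

/-- the hypotheses used below, for a fixed path -/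
structure KH {V : Type u} (G : SimpleGraph V) [G.LocallyFinite] (d : ℕ) {Ω : Type*}
    [MeasurableSpace Ω] (P : Measure Ω) (θ θ' : ℝ) (m m' : V → Ω → ℝ) (x : ℕ → V) (L : ℕ)
    (D W ε : ℝ) : Prop where
  hd : 3 ≤ d
  reg : G.IsRegularOfDegree d
  fld : Fld G P d θ θ' m m'
  h0 : 0 < θ
  h1 : θ ≤ thc d
  h0' : 0 < θ'
  h1' : θ' ≤ thc d
  hm : ∀ v ω, |m v ω| < 1
  hm' : ∀ v ω, |m' v ω| < 1
  hx : ∀ n, NB G x n
  hL : 1 ≤ L
  hε : 0 ≤ ε
  hB : ∀ y p, G.Adj y p → ∫ ω, Bk G θ (fun v => m v ω) L 0 y p ∂P ≤ ε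
  hB' : ∀ y p, G.Adj y p → ∫ ω, Bk G θ' (fun v => m' v ω) L 0 y p ∂P ≤ ε
  hWi : ∀ l, 1 ≤ l → l ≤ L → Integrable (fun ω =>
    (∑ i ∈ Finset.range l, aE d θ θ' (zp m m' x ω) i) ^ 2) P
  hW : ∀ l, 1 ≤ l → l ≤ L → ∫ ω, (∑ i ∈ Finset.range l, aE d θ θ' (zp m m' x ω) i) ^ 2 ∂P ≤ W
  hD : ∀ y, ∫ ω, (m y ω - m' y ω) ^ 2 ∂P ≤ D

section key
variable {V : Type u} {G : SimpleGraph V} [G.LocallyFinite] {d : ℕ}
variable {Ω : Type*} [MeasurableSpace Ω] {P : Measure Ω} [IsProbabilityMeasure P]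
variable {θ θ' : ℝ} {m m' : V → Ω → ℝ}

theorem Mid_abs (h : Fld G P d θ θ' m m') (l : ℕ) (y : ℕ → V) (ω : Ω) :
    |Mid θ θ' l (zp m m' y ω)| ≤ 1 := by
  unfold Mid
  rw [abs_of_nonneg (sq_nonneg _)]
  have h1 : 0 ≤ ∏ i ∈ Finset.range l, kap θ (m (y (i + 1)) ω) (m (y i) ω) :=
    Finset.prod_nonneg fun i _ => h.kap0 _ _ _
  have h2 : ∏ i ∈ Finset.range l, kap θ (m (y (i + 1)) ω) (m (y i) ω) ≤ 1 :=
    Finset.prod_le_one (fun i _ => h.kap0 _ _ _) fun i _ => (h.kap1 _ _ _).trans h.th1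
  have h3 : 0 ≤ ∏ i ∈ Finset.range l, kap θ' (m' (y (i + 1)) ω) (m' (y i) ω) :=
    Finset.prod_nonneg fun i _ => h.kap0' _ _ _
  have h4 : ∏ i ∈ Finset.range l, kap θ' (m' (y (i + 1)) ω) (m' (y i) ω) ≤ 1 :=
    Finset.prod_le_one (fun i _ => h.kap0' _ _ _) fun i _ => (h.kap1' _ _ _).trans h.th1'
  change (∏ i ∈ Finset.range l, kap θ (m (y (i + 1)) ω) (m (y i) ω) -
    ∏ i ∈ Finset.range l, kap θ' (m' (y (i + 1)) ω) (m' (y i) ω)) ^ 2 ≤ 1
  nlinarith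

/-- the sum of bad parts -/
noncomputable def BS (G : SimpleGraph V) [G.LocallyFinite] (θ : ℝ) (m : V → ℝ) (L i n : ℕ)
    (y p : V) : ℝ := ∑ s ∈ Finset.range n, Bk G θ m L (i + s * L) y p

theorem BS_nonneg (θ : ℝ) (m : V → ℝ) (L i n : ℕ) (y p : V) : 0 ≤ BS G θ m L i n y p :=
  Finset.sum_nonneg fun _ _ => Bk_nonneg _ _ _ _ _ _

theorem BS_meas {θ : ℝ} {m : V → Ω → ℝ} (hm : ∀ v, Measurable (m v)) (L i n : ℕ) (y p : V) :
    Measurable (fun ω => BS G θ (fun v => m v ω) L i n y p) :=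
  Finset.measurable_sum _ fun _ _ => Bk_meas hm L _ y p

theorem BS_le (hreg : G.IsRegularOfDegree d) {θ : ℝ} {m : V → ℝ}
    (hth : ((d : ℝ) - 1) * θ ^ 2 ≤ 1) (L i n : ℕ) (y p : V) (hyp : G.Adj y p) :
    BS G θ m L i n y p ≤ n := by
  unfold BS
  calc ∑ s ∈ Finset.range n, Bk G θ m L (i + s * L) y p ≤ ∑ s ∈ Finset.range n, (1 : ℝ) :=
        Finset.sum_le_sum fun s _ => Bk_le_one hreg hth L _ y p hyp
    _ = n := by simp

theorem BS_int (hreg : G.IsRegularOfDegree d) {θ : ℝ} {m : V → Ω → ℝ}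
    (hm : ∀ v, Measurable (m v)) (hth : ((d : ℝ) - 1) * θ ^ 2 ≤ 1) (L : ℕ) {ε : ℝ} (hε : 0 ≤ ε)
    (hP : ∀ y p, G.Adj y p → ∫ ω, Bk G θ (fun v => m v ω) L 0 y p ∂P ≤ ε) (i n : ℕ) (y p : V)
    (hyp : G.Adj y p) : ∫ ω, BS G θ (fun v => m v ω) L i n y p ∂P ≤ n * ε := by
  unfold BS
  rw [integral_finsetSum _ fun s _ => integrable_bdd (Bk_meas hm L _ y p) 1 (fun ω => by
    rw [abs_of_nonneg (Bk_nonneg _ _ _ _ _ _)]
    exact Bk_le_one hreg hth L _ y p hyp)]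
  calc ∑ s ∈ Finset.range n, ∫ ω, Bk G θ (fun v => m v ω) L (i + s * L) y p ∂P
      ≤ ∑ s ∈ Finset.range n, ε :=
        Finset.sum_le_sum fun s _ => Bk_int hreg hm hth L hε hP _ y p hyp
    _ = n * ε := by simp

theorem BS_integrable (hreg : G.IsRegularOfDegree d) {θ : ℝ} {m : V → Ω → ℝ}
    (hm : ∀ v, Measurable (m v)) (hth : ((d : ℝ) - 1) * θ ^ 2 ≤ 1) (L i n : ℕ) (y p : V)
    (hyp : G.Adj y p) : Integrable (fun ω => BS G θ (fun v => m v ω) L i n y p) P :=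
  integrable_bdd (BS_meas hm L i n y p) n (fun ω => by
    rw [abs_of_nonneg (BS_nonneg _ _ _ _ _ _ _)]
    exact BS_le hreg hth L i n y p hyp)

/-- one block -/
theorem blk_term (hd : 3 ≤ d) (hreg : G.IsRegularOfDegree d) (h : Fld G P d θ θ' m m')
    (h0 : 0 < θ) (h1 : θ ≤ thc d) (h0' : 0 < θ') (h1' : θ' ≤ thc d)
    (hm : ∀ v ω, |m v ω| < 1) (hm' : ∀ v ω, |m' v ω| < 1)
    (x : ℕ → V) (hx : ∀ n, NB G x n) {L l : ℕ} (hl : 1 ≤ l) {ε W : ℝ} (hε : 0 ≤ ε)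
    (hB : ∀ y p, G.Adj y p → ∫ ω, Bk G θ (fun v => m v ω) L 0 y p ∂P ≤ ε)
    (hB' : ∀ y p, G.Adj y p → ∫ ω, Bk G θ' (fun v => m' v ω) L 0 y p ∂P ≤ ε)
    (hWi : Integrable (fun ω => (∑ i ∈ Finset.range l, aE d θ θ' (zp m m' x ω) i) ^ 2) P)
    (hW : ∫ ω, (∑ i ∈ Finset.range l, aE d θ θ' (zp m m' x ω) i) ^ 2 ∂P ≤ W) (t e r0 : ℕ) :
    ((d : ℝ) - 1) ^ (t * L + l + (r0 + e * L)) *
      ∫ ω, Hx G θ θ' m m' (Mid θ θ' l) x (t * L) l (r0 + e * L) 0 0 ω ∂P ≤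
      (1 / 4) ^ (t + e) * W + ((t : ℝ) + e) * ε := by
  have hec := ext_count hreg h (Mid_meas θ θ' l) l (Mid_dep θ θ' l) (C := 1)
    (fun y ω => Mid_abs h l y ω) x hx (t * L) (r0 + e * L) 0 0 x (hx _) (by omega)
  simp only [Nat.zero_add] at hec
  have e1 : ((d : ℝ) - 1) ^ (t * L + l + (r0 + e * L)) *
      ∫ ω, Hx G θ θ' m m' (Mid θ θ' l) x (t * L) l (r0 + e * L) 0 0 ω ∂P =
      ((d : ℝ) - 1) ^ l *
        ∫ ω, Hx G θ θ' m m' (Mid θ θ' l) x 0 l 0 (t * L) (r0 + e * L) ω ∂P := by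
    rw [hec, ← mul_assoc, ← pow_add]
    congr 2
    omega
  rw [e1, ← integral_const_mul]
  have adj0 : G.Adj (x 0) (x 1) := (hx 1).adj 0 (by omega)
  have adj1 : G.Adj (x l) (x (l - 1)) := by
    have := (hx l).adj (l - 1) (by omega)
    rw [show l - 1 + 1 = l by omega] at this
    exact this.symm
  have hpt : ∀ ω, ((d : ℝ) - 1) ^ l *
      Hx G θ θ' m m' (Mid θ θ' l) x 0 l 0 (t * L) (r0 + e * L) ω ≤
      (1 / 4) ^ (t + e) * (∑ i ∈ Finset.range l, aE d θ θ' (zp m m' x ω) i) ^ 2 +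
        (BS G θ (fun v => m v ω) L 0 t (x 0) (x 1) +
          BS G θ' (fun v => m' v ω) L r0 e (x l) (x (l - 1))) := by
    intro ω
    obtain ⟨c1, c2, c3⟩ := Mid_le hd h0 h1 h0' h1' (zp m m' x ω) (fun i => hm (x i) ω)
      (fun i => hm' (x i) ω) l
    have y1 := Yk_contr' hreg (fun v w => h.kap0 v w ω) (fun v w => h.kap1 v w ω) h.th L 0 t
      (x 0) (x 1) adj0
    rw [Nat.zero_add] at y1
    have y2 := Yk_contr' hreg (fun v w => h.kap0' v w ω) (fun v w => h.kap1' v w ω) h.th' L r0 e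
      (x l) (x (l - 1)) adj1
    have y3 := Yk_bd hreg (fun v w => h.kap0 v w ω) (fun v w => h.kap1 v w ω) h.th (t * L)
      (x 0) (x 1) adj0
    have y4 := Yk_bd hreg (fun v w => h.kap0' v w ω) (fun v w => h.kap1' v w ω) h.th'
      (r0 + e * L) (x l) (x (l - 1)) adj1
    have eH : Hx G θ θ' m m' (Mid θ θ' l) x 0 l 0 (t * L) (r0 + e * L) ω =
        Mid θ θ' l (zp m m' x ω) * Yk G θ (fun v => m v ω) (t * L) (x 0) (x 1) *
          Yk G θ' (fun v => m' v ω) (r0 + e * L) (x l) (x (l - 1)) := by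
      unfold Hx Af Bf
      simp only [Finset.range_zero, Finset.prod_empty, Nat.zero_add, Nat.add_zero, one_mul,
        mul_one]
    rw [eH]
    set X := ((d : ℝ) - 1) ^ l * Mid θ θ' l (zp m m' x ω) with hX
    have hd1 : (0 : ℝ) ≤ (d : ℝ) - 1 := by
      have : (3 : ℝ) ≤ d := by exact_mod_cast hd
      linarith
    have hX0 : 0 ≤ X := mul_nonneg (pow_nonneg hd1 _) c1
    set F2 := (∑ i ∈ Finset.range l, aE d θ θ' (zp m m' x ω) i) ^ 2 with hF2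
    set Y1 := Yk G θ (fun v => m v ω) (t * L) (x 0) (x 1) with hY1
    set Y2 := Yk G θ' (fun v => m' v ω) (r0 + e * L) (x l) (x (l - 1)) with hY2
    have hb1 := BS_nonneg (G := G) θ (fun v => m v ω) L 0 t (x 0) (x 1)
    have hb2 := BS_nonneg (G := G) θ' (fun v => m' v ω) L r0 e (x l) (x (l - 1))
    have f1 : Y1 ≤ (1 / 4) ^ t + BS G θ (fun v => m v ω) L 0 t (x 0) (x 1) := y1
    have f2 : Y2 ≤ (1 / 4) ^ e + BS G θ' (fun v => m' v ω) L r0 e (x l) (x (l - 1)) := y2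
    set B1 := BS G θ (fun v => m v ω) L 0 t (x 0) (x 1) with hB1
    set B2 := BS G θ' (fun v => m' v ω) L r0 e (x l) (x (l - 1)) with hB2
    have p1 : (0 : ℝ) ≤ (1 / 4) ^ t := by positivity
    have p1' : ((1 : ℝ) / 4) ^ t ≤ 1 := pow_le_one₀ (by norm_num) (by norm_num)
    have p2 : (0 : ℝ) ≤ (1 / 4) ^ e := by positivity
    have g1 : Y1 * Y2 ≤ (1 / 4) ^ t * (1 / 4) ^ e + (B1 + B2) := by
      calc Y1 * Y2 ≤ ((1 / 4) ^ t + B1) * Y2 := mul_le_mul_of_nonneg_right f1 y4.1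
        _ = (1 / 4) ^ t * Y2 + B1 * Y2 := by ring
        _ ≤ (1 / 4) ^ t * ((1 / 4) ^ e + B2) + B1 * 1 :=
            add_le_add (mul_le_mul_of_nonneg_left f2 p1) (mul_le_mul_of_nonneg_left y4.2 hb1)
        _ ≤ _ := by nlinarith
    have g2 : X * ((1 / 4) ^ t * (1 / 4) ^ e) ≤ F2 * ((1 / 4) ^ t * (1 / 4) ^ e) :=
      mul_le_mul_of_nonneg_right c3 (mul_nonneg p1 p2)
    calc ((d : ℝ) - 1) ^ l * (Mid θ θ' l (zp m m' x ω) * Y1 * Y2) = X * (Y1 * Y2) := by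
          rw [hX]; ring
      _ ≤ X * ((1 / 4) ^ t * (1 / 4) ^ e + (B1 + B2)) := mul_le_mul_of_nonneg_left g1 hX0
      _ = X * ((1 / 4) ^ t * (1 / 4) ^ e) + X * (B1 + B2) := by ring
      _ ≤ F2 * ((1 / 4) ^ t * (1 / 4) ^ e) + 1 * (B1 + B2) :=
          add_le_add g2 (mul_le_mul_of_nonneg_right c2 (by linarith))
      _ = _ := by rw [pow_add]; ring
  have hi1 : Integrable (fun ω => ((d : ℝ) - 1) ^ l *
      Hx G θ θ' m m' (Mid θ θ' l) x 0 l 0 (t * L) (r0 + e * L) ω) P :=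
    (integrable_bdd (Hx_meas h (Mid_meas θ θ' l) x 0 l 0 _ _) 1
      (Hx_bd hreg h (fun y ω => Mid_abs h l y ω) (hx _) (by omega) _ _)).const_mul _
  have hi2 : Integrable (fun ω => BS G θ (fun v => m v ω) L 0 t (x 0) (x 1)) P :=
    BS_integrable hreg h.meas h.th L 0 t _ _ adj0
  have hi3 : Integrable (fun ω => BS G θ' (fun v => m' v ω) L r0 e (x l) (x (l - 1))) P :=
    BS_integrable hreg h.meas' h.th' L r0 e _ _ adj1
  have hmono := integral_mono (μ := P) hi1 ((hWi.const_mul ((1 / 4) ^ (t + e))).add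
    (hi2.add hi3)) hpt
  refine hmono.trans ?_
  rw [integral_add' (hWi.const_mul _) (hi2.add hi3), integral_add' hi2 hi3, integral_const_mul]
  have k1 := BS_int (P := P) hreg h.meas h.th L hε hB 0 t _ _ adj0
  have k2 := BS_int (P := P) hreg h.meas' h.th' L hε hB' r0 e _ _ adj1
  have k3 := mul_le_mul_of_nonneg_left hW (by positivity : (0 : ℝ) ≤ (1 / 4) ^ (t + e))
  linarith

/-- a weight at the beginning of the path -/
theorem end_term (hd : 3 ≤ d) (hreg : G.IsRegularOfDegree d) (h : Fld G P d θ θ' m m')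
    (x : ℕ → V) (hx : ∀ n, NB G x n) (f : ℝ × ℝ → ℝ) (hf : Measurable f) {C : ℝ}
    (hC : ∀ v ω, 0 ≤ f (m v ω, m' v ω) ∧ f (m v ω, m' v ω) ≤ C) (r : ℕ) :
    ((d : ℝ) - 1) ^ (r + 1) *
      ∫ ω, f (m (x 0) ω, m' (x 0) ω) * Bf θ' 0 (r + 1) (zp m m' x ω) ∂P ≤
      ∫ ω, f (m (x 0) ω, m' (x 0) ω) * Yk G θ' (fun v => m' v ω) r (x 1) (x 0) ∂P := by
  set Md : (ℕ → ℝ × ℝ) → ℝ := fun z => f (z 0) * kap θ' (z 1).2 (z 0).2 ^ 2 with hMd
  have hMm : Measurable Md :=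
    (hf.comp (measurable_pi_apply 0)).mul ((kz_meas2 θ' 1 0).pow_const 2)
  have hMdep : ∀ z z' : ℕ → ℝ × ℝ, (∀ i ≤ 1, z i = z' i) → Md z = Md z' := by
    intro z z' hz
    simp only [hMd]
    rw [hz 0 (by omega), hz 1 (by omega)]
  have hsq : ∀ v w ω, kap θ' (m' v ω) (m' w ω) ^ 2 ≤ θ' ^ 2 := fun v w ω =>
    pow_le_pow_left₀ (h.kap0' v w ω) (h.kap1' v w ω) 2
  have hMC : ∀ y : ℕ → V, ∀ ω, |Md (zp m m' y ω)| ≤ C := by
    intro y ω
    change |f (m (y 0) ω, m' (y 0) ω) * kap θ' (m' (y 1) ω) (m' (y 0) ω) ^ 2| ≤ C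
    have a1 := hC (y 0) ω
    have a2 := hsq (y 1) (y 0) ω
    have a3 := sq_nonneg (kap θ' (m' (y 1) ω) (m' (y 0) ω))
    have a4 : θ' ^ 2 ≤ 1 := pow_le_one₀ h.th0' h.th1'
    rw [abs_of_nonneg (mul_nonneg a1.1 a3)]
    nlinarith
  have hec := ext_count hreg h hMm 1 hMdep hMC x hx 0 r 0 0 x (hx _) (by omega)
  simp only [Nat.zero_add] at hec
  have e1 : ∀ ω, Hx G θ θ' m m' Md x 0 1 r 0 0 ω =
      f (m (x 0) ω, m' (x 0) ω) * Bf θ' 0 (r + 1) (zp m m' x ω) := by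
    intro ω
    have e11 : Bf θ' 0 (r + 1) (zp m m' x ω) =
        Bf θ' 1 r (zp m m' x ω) * kap θ' (m' (x 1) ω) (m' (x 0) ω) ^ 2 := by
      unfold Bf
      rw [Finset.prod_range_succ']
      congr 1
      refine Finset.prod_congr rfl fun i _ => ?_
      rw [show 0 + (i + 1) + 1 = 1 + i + 1 by omega, show 0 + (i + 1) = 1 + i by omega]
    rw [e11]
    change Af θ 0 (zp m m' x ω) * (f (zp m m' x ω (0 + 0)) *
      kap θ' (zp m m' x ω (0 + 1)).2 (zp m m' x ω (0 + 0)).2 ^ 2) * Bf θ' (0 + 1) r (zp m m' x ω) *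
        1 * 1 = _
    have e12 : Af θ 0 (zp m m' x ω) = 1 := by unfold Af; simp
    rw [e12]
    change 1 * (f (m (x 0) ω, m' (x 0) ω) * kap θ' (m' (x 1) ω) (m' (x 0) ω) ^ 2) *
      Bf θ' 1 r (zp m m' x ω) * 1 * 1 = _
    ring
  have e2 : ∀ ω, Hx G θ θ' m m' Md x 0 1 0 0 r ω =
      f (m (x 0) ω, m' (x 0) ω) * kap θ' (m' (x 1) ω) (m' (x 0) ω) ^ 2 *
        Yk G θ' (fun v => m' v ω) r (x 1) (x 0) := by
    intro ω
    have e12 : Af θ 0 (zp m m' x ω) = 1 := by unfold Af; simp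
    have e13 : Bf θ' (0 + 1) 0 (zp m m' x ω) = 1 := by unfold Bf; simp
    change Af θ 0 (zp m m' x ω) * (f (m (x 0) ω, m' (x 0) ω) *
      kap θ' (m' (x 1) ω) (m' (x 0) ω) ^ 2) * Bf θ' (0 + 1) 0 (zp m m' x ω) *
        1 * Yk G θ' (fun v => m' v ω) r (x 1) (x 0) = _
    rw [e12, e13]
    ring
  simp_rw [e1, e2] at hec
  rw [pow_succ, mul_comm (((d : ℝ) - 1) ^ r), mul_assoc, ← hec, ← integral_const_mul]
  have adj1 : G.Adj (x 1) (x 0) := ((hx 1).adj 0 (by omega)).symm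
  have hd1 : (0 : ℝ) ≤ (d : ℝ) - 1 := by
    have : (3 : ℝ) ≤ d := by exact_mod_cast hd
    linarith
  have hY := fun ω => Yk_bd hreg (fun v w => h.kap0' v w ω) (fun v w => h.kap1' v w ω) h.th' r
      (x 1) (x 0) adj1
  have hYm := Yk_meas (G := G) (θ := θ') h.meas' r (x 1) (x 0)
  have hfm : Measurable (fun ω => f (m (x 0) ω, m' (x 0) ω)) :=
    hf.comp ((h.meas _).prodMk (h.meas' _))
  have hkm : Measurable (fun ω => kap θ' (m' (x 1) ω) (m' (x 0) ω) ^ 2) :=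
    ((measurable_kap2 θ').comp ((h.meas' (x 1)).prodMk (h.meas' (x 0)))).pow_const 2
  refine integral_mono ?_ ?_ ?_
  · refine (integrable_bdd ((hfm.mul hkm).mul hYm) C fun ω => ?_).const_mul _
    have a1 := hC (x 0) ω
    have a2 := hsq (x 1) (x 0) ω
    have a3 := sq_nonneg (kap θ' (m' (x 1) ω) (m' (x 0) ω))
    have a4 : θ' ^ 2 ≤ 1 := pow_le_one₀ h.th0' h.th1'
    have a5 := hY ω
    change |f (m (x 0) ω, m' (x 0) ω) * kap θ' (m' (x 1) ω) (m' (x 0) ω) ^ 2 *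
          Yk G θ' (fun v => m' v ω) r (x 1) (x 0)| ≤ C
    rw [abs_of_nonneg (mul_nonneg (mul_nonneg a1.1 a3) a5.1)]
    calc f (m (x 0) ω, m' (x 0) ω) * kap θ' (m' (x 1) ω) (m' (x 0) ω) ^ 2 *
          Yk G θ' (fun v => m' v ω) r (x 1) (x 0) ≤ C * 1 * 1 :=
          mul_le_mul (mul_le_mul a1.2 (a2.trans a4) a3 (a1.1.trans a1.2)) a5.2 a5.1
            (by linarith [a1.1.trans a1.2])
      _ = C := by ring
  · refine integrable_bdd (hfm.mul hYm) C fun ω => ?_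
    have a1 := hC (x 0) ω
    have a5 := hY ω
    change |f (m (x 0) ω, m' (x 0) ω) * Yk G θ' (fun v => m' v ω) r (x 1) (x 0)| ≤ C
    rw [abs_of_nonneg (mul_nonneg a1.1 a5.1)]
    calc f (m (x 0) ω, m' (x 0) ω) * Yk G θ' (fun v => m' v ω) r (x 1) (x 0) ≤ C * 1 :=
          mul_le_mul a1.2 a5.2 a5.1 (a1.1.trans a1.2)
      _ = C := by ring
  · intro ω
    have a1 := hC (x 0) ω
    have a2 := hsq (x 1) (x 0) ω
    have a5 := hY ω
    have a6 : ((d : ℝ) - 1) * kap θ' (m' (x 1) ω) (m' (x 0) ω) ^ 2 ≤ 1 :=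
      (mul_le_mul_of_nonneg_left a2 hd1).trans h.th'
    calc ((d : ℝ) - 1) * (f (m (x 0) ω, m' (x 0) ω) * kap θ' (m' (x 1) ω) (m' (x 0) ω) ^ 2 *
          Yk G θ' (fun v => m' v ω) r (x 1) (x 0)) =
          ((d : ℝ) - 1) * kap θ' (m' (x 1) ω) (m' (x 0) ω) ^ 2 * (f (m (x 0) ω, m' (x 0) ω) *
          Yk G θ' (fun v => m' v ω) r (x 1) (x 0)) := by ring
      _ ≤ 1 * (f (m (x 0) ω, m' (x 0) ω) * Yk G θ' (fun v => m' v ω) r (x 1) (x 0)) :=
          mul_le_mul_of_nonneg_right a6 (mul_nonneg a1.1 a5.1)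
      _ = _ := one_mul _

/-- a weight at the end of the path -/
theorem end_term' (hd : 3 ≤ d) (hreg : G.IsRegularOfDegree d) (h : Fld G P d θ θ' m m')
    (x : ℕ → V) (hx : ∀ n, NB G x n) (f : ℝ × ℝ → ℝ) (hf : Measurable f) {C : ℝ}
    (hC : ∀ v ω, 0 ≤ f (m v ω, m' v ω) ∧ f (m v ω, m' v ω) ≤ C) (r : ℕ) :
    ((d : ℝ) - 1) ^ (r + 1) *
      ∫ ω, f (m (x (r + 1)) ω, m' (x (r + 1)) ω) * Af θ (r + 1) (zp m m' x ω) ∂P ≤
      ∫ ω, f (m (x 1) ω, m' (x 1) ω) * Yk G θ (fun v => m v ω) r (x 0) (x 1) ∂P := by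
  set Md : (ℕ → ℝ × ℝ) → ℝ := fun z => f (z 1) * kap θ (z 0).1 (z 1).1 ^ 2 with hMd
  have hMm : Measurable Md :=
    (hf.comp (measurable_pi_apply 1)).mul ((kz_meas1 θ 0 1).pow_const 2)
  have hMdep : ∀ z z' : ℕ → ℝ × ℝ, (∀ i ≤ 1, z i = z' i) → Md z = Md z' := by
    intro z z' hz
    simp only [hMd]
    rw [hz 0 (by omega), hz 1 (by omega)]
  have hsq : ∀ v w ω, kap θ (m v ω) (m w ω) ^ 2 ≤ θ ^ 2 := fun v w ω =>
    pow_le_pow_left₀ (h.kap0 v w ω) (h.kap1 v w ω) 2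
  have hMC : ∀ y : ℕ → V, ∀ ω, |Md (zp m m' y ω)| ≤ C := by
    intro y ω
    change |f (m (y 1) ω, m' (y 1) ω) * kap θ (m (y 0) ω) (m (y 1) ω) ^ 2| ≤ C
    have a1 := hC (y 1) ω
    have a2 := hsq (y 0) (y 1) ω
    have a3 := sq_nonneg (kap θ (m (y 0) ω) (m (y 1) ω))
    have a4 : θ ^ 2 ≤ 1 := pow_le_one₀ h.th0 h.th1
    rw [abs_of_nonneg (mul_nonneg a1.1 a3)]
    nlinarith
  have hec := ext_count hreg h hMm 1 hMdep hMC x hx r 0 0 0 x (hx _) (by omega)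
  simp only [Nat.zero_add, Nat.add_zero] at hec
  have e1 : ∀ ω, Hx G θ θ' m m' Md x r 1 0 0 0 ω =
      f (m (x (r + 1)) ω, m' (x (r + 1)) ω) * Af θ (r + 1) (zp m m' x ω) := by
    intro ω
    have e11 : Af θ (r + 1) (zp m m' x ω) =
        Af θ r (zp m m' x ω) * kap θ (m (x r) ω) (m (x (r + 1)) ω) ^ 2 := by
      unfold Af
      rw [Finset.prod_range_succ]
      rfl
    rw [e11]
    have e12 : Bf θ' (r + 1) 0 (zp m m' x ω) = 1 := by unfold Bf; simp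
    change Af θ r (zp m m' x ω) * (f (m (x (r + 1)) ω, m' (x (r + 1)) ω) *
      kap θ (m (x r) ω) (m (x (r + 1)) ω) ^ 2) * Bf θ' (r + 1) 0 (zp m m' x ω) * 1 * 1 = _
    rw [e12]
    ring
  have e2 : ∀ ω, Hx G θ θ' m m' Md x 0 1 0 r 0 ω =
      f (m (x 1) ω, m' (x 1) ω) * kap θ (m (x 0) ω) (m (x 1) ω) ^ 2 *
        Yk G θ (fun v => m v ω) r (x 0) (x 1) := by
    intro ω
    have e12 : Af θ 0 (zp m m' x ω) = 1 := by unfold Af; simp
    have e13 : Bf θ' (0 + 1) 0 (zp m m' x ω) = 1 := by unfold Bf; simp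
    change Af θ 0 (zp m m' x ω) * (f (m (x 1) ω, m' (x 1) ω) *
      kap θ (m (x 0) ω) (m (x 1) ω) ^ 2) * Bf θ' (0 + 1) 0 (zp m m' x ω) *
        Yk G θ (fun v => m v ω) r (x 0) (x 1) * 1 = _
    rw [e12, e13]
    ring
  simp_rw [e1, e2] at hec
  rw [pow_succ, mul_comm (((d : ℝ) - 1) ^ r), mul_assoc, ← hec, ← integral_const_mul]
  have adj1 : G.Adj (x 0) (x 1) := (hx 1).adj 0 (by omega)
  have hd1 : (0 : ℝ) ≤ (d : ℝ) - 1 := by
    have : (3 : ℝ) ≤ d := by exact_mod_cast hd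
    linarith
  have hY := fun ω => Yk_bd hreg (fun v w => h.kap0 v w ω) (fun v w => h.kap1 v w ω) h.th r
      (x 0) (x 1) adj1
  have hYm := Yk_meas (G := G) (θ := θ) h.meas r (x 0) (x 1)
  have hfm : Measurable (fun ω => f (m (x 1) ω, m' (x 1) ω)) :=
    hf.comp ((h.meas _).prodMk (h.meas' _))
  have hkm : Measurable (fun ω => kap θ (m (x 0) ω) (m (x 1) ω) ^ 2) :=
    ((measurable_kap2 θ).comp ((h.meas (x 0)).prodMk (h.meas (x 1)))).pow_const 2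
  refine integral_mono ?_ ?_ ?_
  · refine (integrable_bdd ((hfm.mul hkm).mul hYm) C fun ω => ?_).const_mul _
    have a1 := hC (x 1) ω
    have a2 := hsq (x 0) (x 1) ω
    have a3 := sq_nonneg (kap θ (m (x 0) ω) (m (x 1) ω))
    have a4 : θ ^ 2 ≤ 1 := pow_le_one₀ h.th0 h.th1
    have a5 := hY ω
    change |f (m (x 1) ω, m' (x 1) ω) * kap θ (m (x 0) ω) (m (x 1) ω) ^ 2 *
          Yk G θ (fun v => m v ω) r (x 0) (x 1)| ≤ C
    rw [abs_of_nonneg (mul_nonneg (mul_nonneg a1.1 a3) a5.1)]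
    calc f (m (x 1) ω, m' (x 1) ω) * kap θ (m (x 0) ω) (m (x 1) ω) ^ 2 *
          Yk G θ (fun v => m v ω) r (x 0) (x 1) ≤ C * 1 * 1 :=
          mul_le_mul (mul_le_mul a1.2 (a2.trans a4) a3 (a1.1.trans a1.2)) a5.2 a5.1
            (by linarith [a1.1.trans a1.2])
      _ = C := by ring
  · refine integrable_bdd (hfm.mul hYm) C fun ω => ?_
    have a1 := hC (x 1) ω
    have a5 := hY ω
    change |f (m (x 1) ω, m' (x 1) ω) * Yk G θ (fun v => m v ω) r (x 0) (x 1)| ≤ C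
    rw [abs_of_nonneg (mul_nonneg a1.1 a5.1)]
    calc f (m (x 1) ω, m' (x 1) ω) * Yk G θ (fun v => m v ω) r (x 0) (x 1) ≤ C * 1 :=
          mul_le_mul a1.2 a5.2 a5.1 (a1.1.trans a1.2)
      _ = C := by ring
  · intro ω
    have a1 := hC (x 1) ω
    have a2 := hsq (x 0) (x 1) ω
    have a5 := hY ω
    have a6 : ((d : ℝ) - 1) * kap θ (m (x 0) ω) (m (x 1) ω) ^ 2 ≤ 1 :=
      (mul_le_mul_of_nonneg_left a2 hd1).trans h.th
    calc ((d : ℝ) - 1) * (f (m (x 1) ω, m' (x 1) ω) * kap θ (m (x 0) ω) (m (x 1) ω) ^ 2 *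
          Yk G θ (fun v => m v ω) r (x 0) (x 1)) =
          ((d : ℝ) - 1) * kap θ (m (x 0) ω) (m (x 1) ω) ^ 2 * (f (m (x 1) ω, m' (x 1) ω) *
          Yk G θ (fun v => m v ω) r (x 0) (x 1)) := by ring
      _ ≤ 1 * (f (m (x 1) ω, m' (x 1) ω) * Yk G θ (fun v => m v ω) r (x 0) (x 1)) :=
          mul_le_mul_of_nonneg_right a6 (mul_nonneg a1.1 a5.1)
      _ = _ := one_mul _

/-- contraction with a weight -/
theorem fY_bound (hreg : G.IsRegularOfDegree d) {θ : ℝ} {m : V → Ω → ℝ}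
    (hm : ∀ v, Measurable (m v))
    (h0 : ∀ v w ω, 0 ≤ kap θ (m v ω) (m w ω)) (h1 : ∀ v w ω, kap θ (m v ω) (m w ω) ≤ θ)
    (hth : ((d : ℝ) - 1) * θ ^ 2 ≤ 1) (L : ℕ) {ε : ℝ} (hε : 0 ≤ ε)
    (hP : ∀ y p, G.Adj y p → ∫ ω, Bk G θ (fun v => m v ω) L 0 y p ∂P ≤ ε)
    (g : Ω → ℝ) (hg : Measurable g) {C : ℝ} (hC : ∀ ω, 0 ≤ g ω ∧ g ω ≤ C) {D : ℝ}
    (hD : ∫ ω, g ω ∂P ≤ D) (r0 e : ℕ) (y p : V) (hyp : G.Adj y p) :
    ∫ ω, g ω * Yk G θ (fun v => m v ω) (r0 + e * L) y p ∂P ≤ (1 / 4) ^ e * D + C * (e * ε) := by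
  have hY := fun ω => Yk_bd hreg (fun v w => h0 v w ω) (fun v w => h1 v w ω) hth (r0 + e * L)
      y p hyp
  have hYm := Yk_meas (G := G) (θ := θ) hm (r0 + e * L) y p
  have hC0 : ∀ ω, 0 ≤ C := fun ω => (hC ω).1.trans (hC ω).2
  have hC0' : 0 ≤ C := by
    obtain ⟨ω⟩ : Nonempty Ω := by
      by_contra hne
      rw [not_nonempty_iff] at hne
      have := measure_univ (μ := P)
      rw [Measure.eq_zero_of_isEmpty P] at this
      simp at this
    exact hC0 ω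
  have hgi : Integrable g P := integrable_bdd hg C fun ω => by
    rw [abs_of_nonneg (hC ω).1]; exact (hC ω).2
  have hBi := BS_integrable (P := P) hreg hm hth L r0 e y p hyp
  have hmono : ∫ ω, g ω * Yk G θ (fun v => m v ω) (r0 + e * L) y p ∂P ≤
      ∫ ω, ((fun ω => (1 / 4) ^ e * g ω) + fun ω => C * BS G θ (fun v => m v ω) L r0 e y p) ω ∂P := by
    refine integral_mono (integrable_bdd (hg.mul hYm) C fun ω => ?_)
      ((hgi.const_mul _).add (hBi.const_mul _)) fun ω => ?_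
    · have a1 := hC ω
      have a5 := hY ω
      change |g ω * Yk G θ (fun v => m v ω) (r0 + e * L) y p| ≤ C
      rw [abs_of_nonneg (mul_nonneg a1.1 a5.1)]
      calc g ω * Yk G θ (fun v => m v ω) (r0 + e * L) y p ≤ C * 1 :=
            mul_le_mul a1.2 a5.2 a5.1 (a1.1.trans a1.2)
        _ = C := by ring
    · have y1 := Yk_contr' hreg (fun v w => h0 v w ω) (fun v w => h1 v w ω) hth L r0 e y p hyp
      have hb := BS_nonneg (G := G) θ (fun v => m v ω) L r0 e y p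
      change g ω * Yk G θ (fun v => m v ω) (r0 + e * L) y p ≤
        (1 / 4) ^ e * g ω + C * BS G θ (fun v => m v ω) L r0 e y p
      calc g ω * Yk G θ (fun v => m v ω) (r0 + e * L) y p ≤
            g ω * ((1 / 4) ^ e + BS G θ (fun v => m v ω) L r0 e y p) :=
            mul_le_mul_of_nonneg_left y1 (hC ω).1
        _ = (1 / 4) ^ e * g ω + g ω * BS G θ (fun v => m v ω) L r0 e y p := by ring
        _ ≤ _ := by
            have := mul_le_mul_of_nonneg_right (hC ω).2 hb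
            linarith
  refine hmono.trans ?_
  rw [integral_add' (hgi.const_mul _) (hBi.const_mul _), integral_const_mul, integral_const_mul]
  have k1 := BS_int (P := P) hreg hm hth L hε hP r0 e y p hyp
  exact add_le_add (mul_le_mul_of_nonneg_left hD (by positivity))
    (mul_le_mul_of_nonneg_left k1 hC0')

theorem d1_ge (hd : 3 ≤ d) : (2 : ℝ) ≤ (d : ℝ) - 1 := by
  have : (3 : ℝ) ≤ d := by exact_mod_cast hd
  linarith

theorem KH.dif {x : ℕ → V} {L : ℕ} {D W ε : ℝ} (h : KH G d P θ θ' m m' x L D W ε) (v : V) (ω : Ω) :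
    0 ≤ (m v ω - m' v ω) ^ 2 ∧ (m v ω - m' v ω) ^ 2 ≤ 4 := by
  have a1 := abs_lt.1 (h.hm v ω)
  have a2 := abs_lt.1 (h.hm' v ω)
  exact ⟨sq_nonneg _, by nlinarith⟩

/-- the term with the difference at the root -/
theorem KH.root {x : ℕ → V} {L : ℕ} {D W ε : ℝ} (h : KH G d P θ θ' m m' x L D W ε) {k : ℕ}
    (hk : 1 ≤ k) : ((d : ℝ) - 1) ^ k *
      ∫ ω, (m (x 0) ω - m' (x 0) ω) ^ 2 * Bf θ' 0 k (zp m m' x ω) ∂P ≤
      (1 / 4) ^ ((k - 1) / L) * D + 4 * (((k - 1) / L : ℕ) * ε) := by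
  have h1 := end_term h.hd h.reg h.fld x h.hx (fun p => (p.1 - p.2) ^ 2) (by fun_prop) (C := 4)
    (fun v ω => h.dif v ω) (k - 1)
  rw [show k - 1 + 1 = k by omega] at h1
  refine h1.trans ?_
  have adj1 : G.Adj (x 1) (x 0) := ((h.hx 1).adj 0 (by omega)).symm
  have h2 := fY_bound h.reg h.fld.meas' h.fld.kap0' h.fld.kap1' h.fld.th' L h.hε h.hB'
    (fun ω => (m (x 0) ω - m' (x 0) ω) ^ 2)
    (((h.fld.meas _).sub (h.fld.meas' _)).pow_const 2) (C := 4)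
    (fun ω => h.dif (x 0) ω) (h.hD (x 0)) ((k - 1) % L) ((k - 1) / L) (x 1) (x 0) adj1
  rw [show (k - 1) % L + (k - 1) / L * L = k - 1 by
    have := Nat.mod_add_div (k - 1) L; rw [mul_comm]; exact this] at h2
  exact h2

/-- the term with the difference at the end -/
theorem KH.endp {x : ℕ → V} {L : ℕ} {D W ε : ℝ} (h : KH G d P θ θ' m m' x L D W ε) {k : ℕ}
    (hk : 1 ≤ k) : ((d : ℝ) - 1) ^ k *
      ∫ ω, (m (x k) ω - m' (x k) ω) ^ 2 * Af θ' k (zp m' m x ω) ∂P ≤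
      (1 / 4) ^ ((k - 1) / L) * D + 4 * (((k - 1) / L : ℕ) * ε) := by
  have h1 := end_term' h.hd h.reg h.fld.symm x h.hx (fun p => (p.2 - p.1) ^ 2) (by fun_prop)
    (C := 4) (fun v ω => h.dif v ω) (k - 1)
  rw [show k - 1 + 1 = k by omega] at h1
  refine h1.trans ?_
  have adj1 : G.Adj (x 0) (x 1) := (h.hx 1).adj 0 (by omega)
  have h2 := fY_bound h.reg h.fld.meas' h.fld.kap0' h.fld.kap1' h.fld.th' L h.hε h.hB'
    (fun ω => (m (x 1) ω - m' (x 1) ω) ^ 2)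
    (((h.fld.meas _).sub (h.fld.meas' _)).pow_const 2) (C := 4)
    (fun ω => h.dif (x 1) ω) (h.hD (x 1)) ((k - 1) % L) ((k - 1) / L) (x 0) (x 1) adj1
  rw [show (k - 1) % L + (k - 1) / L * L = k - 1 by
    have := Nat.mod_add_div (k - 1) L; rw [mul_comm]; exact this] at h2
  exact h2

/-- `(M_k - M'_k)²` -/
theorem KH.main {x : ℕ → V} {L : ℕ} {D W ε : ℝ} (h : KH G d P θ θ' m m' x L D W ε) {k n : ℕ}
    (hk : 1 ≤ k) (hn : n = (k - 1) / L + 1) : ((d : ℝ) - 1) ^ k *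
      ∫ ω, (Mseq θ (fun i => m (x i) ω) k - Mseq θ' (fun i => m' (x i) ω) k) ^ 2 ∂P ≤
      (n + 1) * (n * (16 * (1 / 4) ^ n * W + n * ε) + 4 * (4 * (1 / 4) ^ n * D + 4 * (n * ε))) := by
  have hd1 := d1_ge h.hd
  have hθ1 : θ < 1 := h.h1.trans_lt (thc_lt_one h.hd)
  have hmod := Nat.mod_lt (k - 1) (show 0 < L by have := h.hL; omega)
  have hdm := Nat.div_add_mod (k - 1) L
  -- the terms
  set T : ℕ → Ω → ℝ := fun t ω => Af θ (t * L) (zp m m' x ω) *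
        Mid θ θ' (min ((t + 1) * L) k - t * L) (fun i => zp m m' x ω (t * L + i)) *
          Bf θ' (min ((t + 1) * L) k) (k - min ((t + 1) * L) k) (zp m m' x ω) with hT
  have hpt : ∀ ω, (Mseq θ (fun i => m (x i) ω) k - Mseq θ' (fun i => m' (x i) ω) k) ^ 2 ≤
      (n + 1) * (∑ t ∈ Finset.range n, T t ω +
        4 * ((m (x 0) ω - m' (x 0) ω) ^ 2 * Bf θ' 0 k (zp m m' x ω))) := fun ω =>
    Msq_le h.h0.le hθ1 (zp m m' x ω) (fun i => h.hm (x i) ω) (fun i => h.hm' (x i) ω) h.hL hk hn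
  have htL : ∀ t < n, t * L < k ∧ t * L < min ((t + 1) * L) k ∧
      t * L + (min ((t + 1) * L) k - t * L) = min ((t + 1) * L) k := by
    intro t ht
    have h1 : t ≤ (k - 1) / L := by omega
    have h2 : t * L ≤ (k - 1) / L * L := Nat.mul_le_mul_right L h1
    have h3 : (k - 1) / L * L ≤ k - 1 := Nat.div_mul_le_self _ _
    have h4 : t * L + L = (t + 1) * L := by ring
    have h5 := h.hL
    omega
  have hTH : ∀ t < n, ∀ ω, T t ω = Hx G θ θ' m m'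
      (Mid θ θ' (min ((t + 1) * L) k - t * L)) x (t * L)
        (min ((t + 1) * L) k - t * L) (k - min ((t + 1) * L) k) 0 0 ω := by
    intro t ht ω
    change _ = Af θ (t * L) (zp m m' x ω) *
      Mid θ θ' (min ((t + 1) * L) k - t * L) (fun i => zp m m' x ω (t * L + i)) *
      Bf θ' (t * L + (min ((t + 1) * L) k - t * L)) (k - min ((t + 1) * L) k) (zp m m' x ω) *
      1 * 1
    rw [(htL t ht).2.2, mul_one, mul_one]
  have hTm : ∀ t, Measurable (T t) := by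
    intro t
    have h0 := zp_meas (P := P) h.fld x
    have h1 : Measurable (fun ω => Mid θ θ' (min ((t + 1) * L) k - t * L)
        (fun i => zp m m' x ω (t * L + i))) :=
      (Mid_meas θ θ' _).comp (measurable_pi_lambda _ fun i =>
        (measurable_pi_apply (t * L + i)).comp h0)
    exact (((Af_meas θ _).comp h0).mul h1).mul ((Bf_meas θ' _ _).comp h0)
  have hTb : ∀ t ω, |T t ω| ≤ 1 := by
    intro t ω
    have a1 := Af_bd (P := P) h.fld (t * L) x ω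
    have a2 := Bf_bd (P := P) h.fld (min ((t + 1) * L) k) (k - min ((t + 1) * L) k) x ω
    have a3 : |Mid θ θ' (min ((t + 1) * L) k - t * L) (fun i => zp m m' x ω (t * L + i))| ≤ 1 :=
      Mid_abs h.fld _ (fun i => x (t * L + i)) ω
    simp only [hT]
    rw [abs_mul, abs_mul, abs_of_nonneg a1.1, abs_of_nonneg a2.1]
    calc _ ≤ (1 : ℝ) * 1 * 1 :=
          mul_le_mul (mul_le_mul a1.2 a3 (abs_nonneg _) zero_le_one) a2.2 a2.1 (by norm_num)
      _ = 1 := by norm_num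
  have hTi : ∀ t, Integrable (T t) P := fun t => integrable_bdd (hTm t) 1 (hTb t)
  have hRm : Measurable (fun ω => (m (x 0) ω - m' (x 0) ω) ^ 2 * Bf θ' 0 k (zp m m' x ω)) :=
    (((h.fld.meas _).sub (h.fld.meas' _)).pow_const 2).mul
      ((Bf_meas θ' 0 k).comp (zp_meas (P := P) h.fld x))
  have hRi : Integrable (fun ω => (m (x 0) ω - m' (x 0) ω) ^ 2 * Bf θ' 0 k (zp m m' x ω)) P :=
    integrable_bdd hRm 4 fun ω => by
      have a1 := h.dif (x 0) ω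
      have a2 := Bf_bd (P := P) h.fld 0 k x ω
      rw [abs_of_nonneg (mul_nonneg a1.1 a2.1)]
      nlinarith
  have hMm : Measurable (fun ω =>
      (Mseq θ (fun i => m (x i) ω) k - Mseq θ' (fun i => m' (x i) ω) k) ^ 2) := by
    have h0 := zp_meas (P := P) h.fld x
    have e1 : Measurable (fun ω => Mseq θ (fun i => m (x i) ω) k) := (Mseq_meas1 θ k).comp h0
    have e2 : Measurable (fun ω => Mseq θ' (fun i => m' (x i) ω) k) := (Mseq_meas2 θ' k).comp h0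
    exact (e1.sub e2).pow_const 2
  have hsum : Integrable (fun ω => ∑ t ∈ Finset.range n, T t ω) P :=
    integrable_finsetSum _ fun t _ => hTi t
  have hRHSi : Integrable (fun ω => ((n : ℝ) + 1) * (∑ t ∈ Finset.range n, T t ω +
        4 * ((m (x 0) ω - m' (x 0) ω) ^ 2 * Bf θ' 0 k (zp m m' x ω)))) P :=
    (hsum.add (hRi.const_mul 4)).const_mul _
  have hmono := integral_mono (μ := P) (Integrable.mono' hRHSi hMm.aestronglyMeasurable
    (Filter.Eventually.of_forall fun ω => by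
      rw [Real.norm_eq_abs, abs_of_nonneg (sq_nonneg _)]; exact hpt ω)) hRHSi hpt
  have eint : ∫ ω, ((n : ℝ) + 1) * (∑ t ∈ Finset.range n, T t ω +
        4 * ((m (x 0) ω - m' (x 0) ω) ^ 2 * Bf θ' 0 k (zp m m' x ω))) ∂P =
      ((n : ℝ) + 1) * (∑ t ∈ Finset.range n, ∫ ω, T t ω ∂P +
        4 * ∫ ω, (m (x 0) ω - m' (x 0) ω) ^ 2 * Bf θ' 0 k (zp m m' x ω) ∂P) := by
    rw [integral_const_mul, integral_add hsum (hRi.const_mul 4), integral_const_mul,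
      integral_finsetSum _ fun t _ => hTi t]
  rw [eint] at hmono
  have hpow0 : (0 : ℝ) ≤ ((d : ℝ) - 1) ^ k := pow_nonneg (by linarith) _
  have hW0 : 0 ≤ W := (integral_nonneg fun ω => sq_nonneg _).trans (h.hW 1 le_rfl h.hL)
  have hD0 : 0 ≤ D := (integral_nonneg fun ω => sq_nonneg _).trans (h.hD (x 0))
  have hn1 : 1 ≤ n := by rw [hn]; exact Nat.le_add_left 1 _
  have q4 : (0 : ℝ) ≤ (1 / 4) ^ n := by positivity
  -- each block term
  have hterm : ∀ t ∈ Finset.range n, ((d : ℝ) - 1) ^ k * ∫ ω, T t ω ∂P ≤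
      16 * (1 / 4) ^ n * W + n * ε := by
    intro t ht
    have ht := Finset.mem_range.1 ht
    obtain ⟨b1, b2, b3⟩ := htL t ht
    -- e and r0
    set e := n - 2 - t with he
    have hr : ∃ r0, k - min ((t + 1) * L) k = r0 + e * L := by
      rcases Nat.lt_or_ge (t + 1) n with h1 | h1
      · have e2 : e * L + (t + 1) * L ≤ (k - 1) / L * L := by
          rw [← add_mul]
          exact Nat.mul_le_mul_right L (by omega)
        have e3 : (k - 1) / L * L ≤ k - 1 := Nat.div_mul_le_self _ _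
        have e4 : (t + 1) * L ≤ k := by omega
        refine ⟨k - (t + 1) * L - e * L, ?_⟩
        rw [min_eq_left e4]
        omega
      · have : e = 0 := by omega
        exact ⟨k - min ((t + 1) * L) k, by rw [this]; omega⟩
    obtain ⟨r0, hr0⟩ := hr
    have hl1 : 1 ≤ min ((t + 1) * L) k - t * L := by omega
    have hl2 : min ((t + 1) * L) k - t * L ≤ L := by
      have : (t + 1) * L = t * L + L := by ring
      omega
    have hb := blk_term h.hd h.reg h.fld h.h0 h.h1 h.h0' h.h1' h.hm h.hm' x h.hx hl1 h.hε h.hB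
      h.hB' (h.hWi _ hl1 hl2) (h.hW _ hl1 hl2) t e r0
    rw [← hr0, show t * L + (min ((t + 1) * L) k - t * L) + (k - min ((t + 1) * L) k) = k by
      omega] at hb
    rw [integral_congr_ae (Filter.Eventually.of_forall (hTH t ht))]
    refine hb.trans ?_
    have hte : n - 2 ≤ t + e := by omega
    have p1 : ((1 : ℝ) / 4) ^ (t + e) ≤ 16 * (1 / 4) ^ n := by
      have p2 : ((1 : ℝ) / 4) ^ (t + e) ≤ (1 / 4) ^ (n - 2) :=
        pow_le_pow_of_le_one (by norm_num) (by norm_num) hte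
      rcases Nat.lt_or_ge n 2 with h2 | h2
      · have : n = 1 := by omega
        subst this
        norm_num at p2 ⊢
        linarith
      · refine p2.trans (le_of_eq ?_)
        obtain ⟨n', rfl⟩ := Nat.exists_eq_add_of_le h2
        rw [show 2 + n' - 2 = n' by omega, pow_add]
        norm_num
        ring
    have p3 : (t : ℝ) + e ≤ n := by
      have : t + e ≤ n := by omega
      exact_mod_cast this
    exact add_le_add (mul_le_mul_of_nonneg_right p1 hW0) (mul_le_mul_of_nonneg_right p3 h.hε)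
  have hroot := h.root hk
  have hroot' : ((d : ℝ) - 1) ^ k *
      ∫ ω, (m (x 0) ω - m' (x 0) ω) ^ 2 * Bf θ' 0 k (zp m m' x ω) ∂P ≤
      4 * (1 / 4) ^ n * D + 4 * (n * ε) := by
    refine hroot.trans (add_le_add ?_ ?_)
    · refine mul_le_mul_of_nonneg_right (le_of_eq ?_) hD0
      rw [hn, pow_succ]; ring
    · have : (((k - 1) / L : ℕ) : ℝ) ≤ n := by
        have : (k - 1) / L ≤ n := by omega
        exact_mod_cast this
      have := mul_le_mul_of_nonneg_right this h.hε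
      linarith
  calc ((d : ℝ) - 1) ^ k *
      ∫ ω, (Mseq θ (fun i => m (x i) ω) k - Mseq θ' (fun i => m' (x i) ω) k) ^ 2 ∂P
      ≤ ((d : ℝ) - 1) ^ k * (((n : ℝ) + 1) * (∑ t ∈ Finset.range n, ∫ ω, T t ω ∂P +
        4 * ∫ ω, (m (x 0) ω - m' (x 0) ω) ^ 2 * Bf θ' 0 k (zp m m' x ω) ∂P)) :=
        mul_le_mul_of_nonneg_left hmono hpow0
    _ = ((n : ℝ) + 1) * (∑ t ∈ Finset.range n, ((d : ℝ) - 1) ^ k * ∫ ω, T t ω ∂P +
        4 * (((d : ℝ) - 1) ^ k *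
          ∫ ω, (m (x 0) ω - m' (x 0) ω) ^ 2 * Bf θ' 0 k (zp m m' x ω) ∂P)) := by
        rw [← Finset.mul_sum]; ring
    _ ≤ ((n : ℝ) + 1) * (∑ t ∈ Finset.range n, (16 * (1 / 4) ^ n * W + n * ε) +
        4 * (4 * (1 / 4) ^ n * D + 4 * (n * ε))) := by
        refine mul_le_mul_of_nonneg_left (add_le_add (Finset.sum_le_sum hterm) ?_) (by positivity)
        exact mul_le_mul_of_nonneg_left hroot' (by norm_num)
    _ = _ := by
        rw [Finset.sum_const, Finset.card_range, nsmul_eq_mul]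

theorem Mq_int (h : Fld G P d θ θ' m m') (hm' : ∀ v ω, |m' v ω| < 1) (x : ℕ → V) (k : ℕ) :
    Integrable (fun ω => (Mseq θ' (fun i => m' (x i) ω) k) ^ 2) P := by
  have h1 : Measurable (fun ω => Mseq θ' (fun i => m' (x i) ω) k) :=
    (Mseq_meas2 θ' k).comp (zp_meas (P := P) h x)
  refine integrable_bdd (h1.pow_const 2) 1 fun ω => ?_
  rw [abs_of_nonneg (sq_nonneg _)]
  exact (Msq_Bf (zp m m' x ω) (fun i => hm' (x i) ω) k).trans (Bf_bd (P := P) h 0 k x ω).2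

theorem M_abs (h : Fld G P d θ θ' m m') (hm' : ∀ v ω, |m' v ω| < 1) (x : ℕ → V) (k : ℕ) (ω : Ω) :
    (Mseq θ' (fun i => m' (x i) ω) k) ^ 2 ≤ 1 :=
  (Msq_Bf (zp m m' x ω) (fun i => hm' (x i) ω) k).trans (Bf_bd (P := P) h 0 k x ω).2

/-- the terms of the sum `SS` -/
noncomputable def tk (d : ℕ) (θ θ' : ℝ) (P : Measure Ω) (m m' : V → Ω → ℝ) (x : ℕ → V)
    (k : ℕ) : ℝ :=
  cS d k * ∫ ω, ((Mseq θ (fun i => m (x i) ω) k - Mseq θ' (fun i => m' (x i) ω) k) ^ 2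
    + (Mseq θ' (fun i => m' (x i) ω) k) ^ 2 * (m (x k) ω - m' (x k) ω) ^ 2) ∂P

theorem cS_nonneg (hd : 3 ≤ d) (k : ℕ) : 0 ≤ cS d k := by
  have := d1_ge hd
  unfold cS
  split_ifs
  · norm_num
  · exact mul_nonneg (by positivity) (pow_nonneg (by linarith) _)

theorem cS_le (hd : 3 ≤ d) {k : ℕ} (hk : 1 ≤ k) : cS d k ≤ 3 / 2 * ((d : ℝ) - 1) ^ k := by
  have h1 := d1_ge hd
  unfold cS
  rw [if_neg (by omega)]
  obtain ⟨k', rfl⟩ := Nat.exists_eq_add_of_le hk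
  rw [show 1 + k' - 1 = k' by omega, pow_add, pow_one]
  have h2 : (0 : ℝ) ≤ ((d : ℝ) - 1) ^ k' := pow_nonneg (by linarith) _
  nlinarith

theorem tk_nonneg (hd : 3 ≤ d) (x : ℕ → V) (k : ℕ) : 0 ≤ tk d θ θ' P m m' x k :=
  mul_nonneg (cS_nonneg hd k) (integral_nonneg fun ω =>
    add_nonneg (sq_nonneg _) (mul_nonneg (sq_nonneg _) (sq_nonneg _)))

theorem KH.ints {x : ℕ → V} {L : ℕ} {D W ε : ℝ} (h : KH G d P θ θ' m m' x L D W ε) (k : ℕ) :
    Integrable (fun ω =>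
      (Mseq θ (fun i => m (x i) ω) k - Mseq θ' (fun i => m' (x i) ω) k) ^ 2) P ∧
    Integrable (fun ω =>
      (Mseq θ' (fun i => m' (x i) ω) k) ^ 2 * (m (x k) ω - m' (x k) ω) ^ 2) P := by
  have m1 : Measurable (fun ω => Mseq θ (fun i => m (x i) ω) k) :=
    (Mseq_meas1 θ k).comp (zp_meas (P := P) h.fld x)
  have m2 : Measurable (fun ω => Mseq θ' (fun i => m' (x i) ω) k) :=
    (Mseq_meas2 θ' k).comp (zp_meas (P := P) h.fld x)
  have b1 : ∀ ω, (Mseq θ (fun i => m (x i) ω) k) ^ 2 ≤ 1 := M_abs h.fld.symm h.hm x k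
  have b2 : ∀ ω, (Mseq θ' (fun i => m' (x i) ω) k) ^ 2 ≤ 1 := M_abs h.fld h.hm' x k
  constructor
  · refine integrable_bdd ((m1.sub m2).pow_const 2) 4 fun ω => ?_
    change |(Mseq θ (fun i => m (x i) ω) k - Mseq θ' (fun i => m' (x i) ω) k) ^ 2| ≤ 4
    rw [abs_of_nonneg (sq_nonneg _)]
    nlinarith [b1 ω, b2 ω, sq_nonneg (Mseq θ (fun i => m (x i) ω) k +
      Mseq θ' (fun i => m' (x i) ω) k)]
  · refine integrable_bdd ((m2.pow_const 2).mul
      (((h.fld.meas _).sub (h.fld.meas' _)).pow_const 2)) 4 fun ω => ?_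
    change |(Mseq θ' (fun i => m' (x i) ω) k) ^ 2 * (m (x k) ω - m' (x k) ω) ^ 2| ≤ 4
    have a1 := h.dif (x k) ω
    rw [abs_of_nonneg (mul_nonneg (sq_nonneg _) a1.1)]
    nlinarith [b2 ω, sq_nonneg (Mseq θ' (fun i => m' (x i) ω) k)]

/-- `(1/k-term)`: difference at the end -/
theorem KH.endM {x : ℕ → V} {L : ℕ} {D W ε : ℝ} (h : KH G d P θ θ' m m' x L D W ε) {k : ℕ}
    (hk : 1 ≤ k) : ((d : ℝ) - 1) ^ k *
      ∫ ω, (Mseq θ' (fun i => m' (x i) ω) k) ^ 2 * (m (x k) ω - m' (x k) ω) ^ 2 ∂P ≤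
      (1 / 4) ^ ((k - 1) / L) * D + 4 * (((k - 1) / L : ℕ) * ε) := by
  refine le_trans ?_ (h.endp hk)
  have hd1 := d1_ge h.hd
  have hθ1 : θ' < 1 := h.h1'.trans_lt (thc_lt_one h.hd)
  refine mul_le_mul_of_nonneg_left ?_ (pow_nonneg (by linarith) _)
  have hm1 : Measurable (fun ω => (m (x k) ω - m' (x k) ω) ^ 2 * Af θ' k (zp m' m x ω)) :=
    (((h.fld.meas _).sub (h.fld.meas' _)).pow_const 2).mul
      ((Af_meas θ' k).comp (zp_meas (P := P) h.fld.symm x))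
  refine integral_mono (h.ints k).2 (integrable_bdd hm1 4 fun ω => ?_) fun ω => ?_
  · have a1 := h.dif (x k) ω
    have a2 := Af_bd (P := P) h.fld.symm k x ω
    rw [abs_of_nonneg (mul_nonneg a1.1 a2.1)]
    nlinarith
  · have a1 := h.dif (x k) ω
    have a2 := Msq_Af h.h0'.le hθ1 (zp m' m x ω) (fun i => h.hm' (x i) ω) k
    change (Mseq θ' (fun i => m' (x i) ω) k) ^ 2 * (m (x k) ω - m' (x k) ω) ^ 2 ≤
      (m (x k) ω - m' (x k) ω) ^ 2 * Af θ' k (zp m' m x ω)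
    rw [mul_comm]
    exact mul_le_mul_of_nonneg_left a2 a1.1

/-- tail term -/
theorem KH.tailM {x : ℕ → V} {L : ℕ} {D W ε : ℝ} (h : KH G d P θ θ' m m' x L D W ε) {k : ℕ}
    (hk : 1 ≤ k) : ((d : ℝ) - 1) ^ k * ∫ ω, (Mseq θ' (fun i => m' (x i) ω) k) ^ 2 ∂P ≤
      ∫ ω, Yk G θ' (fun v => m' v ω) (k - 1) (x 1) (x 0) ∂P := by
  have hd1 := d1_ge h.hd
  have h1 := end_term h.hd h.reg h.fld x h.hx (fun _ => 1) measurable_const (C := 1)
    (fun v ω => ⟨zero_le_one, le_rfl⟩) (k - 1)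
  rw [show k - 1 + 1 = k by omega] at h1
  simp only [one_mul] at h1
  refine le_trans ?_ h1
  refine mul_le_mul_of_nonneg_left ?_ (pow_nonneg (by linarith) _)
  refine integral_mono (Mq_int h.fld h.hm' x k)
    (integrable_bdd ((Bf_meas θ' 0 k).comp (zp_meas (P := P) h.fld x)) 1 fun ω => ?_) fun ω => ?_
  · have a2 := Bf_bd (P := P) h.fld 0 k x ω
    change |Bf θ' 0 k (zp m m' x ω)| ≤ 1
    rw [abs_of_nonneg a2.1]; exact a2.2
  · exact Msq_Bf (zp m m' x ω) (fun i => h.hm' (x i) ω) k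

/-- symmetric version of the hypotheses needed for the tail -/
theorem KH.tailM' {x : ℕ → V} {L : ℕ} {D W ε : ℝ} (h : KH G d P θ θ' m m' x L D W ε) {k : ℕ}
    (hk : 1 ≤ k) : ((d : ℝ) - 1) ^ k * ∫ ω, (Mseq θ (fun i => m (x i) ω) k) ^ 2 ∂P ≤
      ∫ ω, Yk G θ (fun v => m v ω) (k - 1) (x 1) (x 0) ∂P := by
  have hd1 := d1_ge h.hd
  have h1 := end_term h.hd h.reg h.fld.symm x h.hx (fun _ => 1) measurable_const (C := 1)
    (fun v ω => ⟨zero_le_one, le_rfl⟩) (k - 1)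
  rw [show k - 1 + 1 = k by omega] at h1
  simp only [one_mul] at h1
  refine le_trans ?_ h1
  refine mul_le_mul_of_nonneg_left ?_ (pow_nonneg (by linarith) _)
  refine integral_mono (Mq_int h.fld.symm h.hm x k)
    (integrable_bdd ((Bf_meas θ 0 k).comp (zp_meas (P := P) h.fld.symm x)) 1 fun ω => ?_)
    fun ω => ?_
  · have a2 := Bf_bd (P := P) h.fld.symm 0 k x ω
    change |Bf θ 0 k (zp m' m x ω)| ≤ 1
    rw [abs_of_nonneg a2.1]; exact a2.2
  · exact Msq_Bf (zp m' m x ω) (fun i => h.hm (x i) ω) k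

theorem KH.tk_zero {x : ℕ → V} {L : ℕ} {D W ε : ℝ} (h : KH G d P θ θ' m m' x L D W ε) :
    tk d θ θ' P m m' x 0 ≤ 5 * D := by
  unfold tk
  have hc : cS d 0 = 1 := by unfold cS; rw [if_pos rfl]
  rw [hc, one_mul]
  have hi : Integrable (fun ω => (m (x 0) ω - m' (x 0) ω) ^ 2) P :=
    integrable_bdd (((h.fld.meas _).sub (h.fld.meas' _)).pow_const 2) 4 fun ω => by
      change |(m (x 0) ω - m' (x 0) ω) ^ 2| ≤ 4
      rw [abs_of_nonneg (sq_nonneg _)]; exact (h.dif (x 0) ω).2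
  have h1 := integral_mono (μ := P) ((h.ints 0).1.add (h.ints 0).2) (hi.const_mul 5) (by
    intro ω
    change (Mseq θ (fun i => m (x i) ω) 0 - Mseq θ' (fun i => m' (x i) ω) 0) ^ 2 +
      (Mseq θ' (fun i => m' (x i) ω) 0) ^ 2 * (m (x 0) ω - m' (x 0) ω) ^ 2 ≤
      5 * (m (x 0) ω - m' (x 0) ω) ^ 2
    have a1 := abs_lt.1 (h.hm (x 0) ω)
    have a2 := abs_lt.1 (h.hm' (x 0) ω)
    have e1 : Mseq θ (fun i => m (x i) ω) 0 = 1 - m (x 0) ω ^ 2 := by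
      unfold Mseq; simp
    have e2 : Mseq θ' (fun i => m' (x i) ω) 0 = 1 - m' (x 0) ω ^ 2 := by
      unfold Mseq; simp
    have b2 := M_abs (P := P) h.fld h.hm' x 0 ω
    have e3 : (Mseq θ (fun i => m (x i) ω) 0 - Mseq θ' (fun i => m' (x i) ω) 0) ^ 2 =
        (m (x 0) ω + m' (x 0) ω) ^ 2 * (m (x 0) ω - m' (x 0) ω) ^ 2 := by
      rw [e1, e2]; ring
    rw [e3]
    have e4 : (m (x 0) ω + m' (x 0) ω) ^ 2 ≤ 4 := by nlinarith
    have e5 := mul_le_mul_of_nonneg_right e4 (sq_nonneg (m (x 0) ω - m' (x 0) ω))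
    have e6 := mul_le_mul_of_nonneg_right b2 (sq_nonneg (m (x 0) ω - m' (x 0) ω))
    linarith)
  refine h1.trans ?_
  rw [integral_const_mul]
  exact mul_le_mul_of_nonneg_left (h.hD (x 0)) (by norm_num)

theorem KH.tk_main {x : ℕ → V} {L : ℕ} {D W ε : ℝ} (h : KH G d P θ θ' m m' x L D W ε) {K : ℕ}
    (k : ℕ) (hkK : k ≤ K) (hK : 1 ≤ K) :
    tk d θ θ' P m m' x (k + 1) ≤
      18 * (1 / 2) ^ (k / L) * W + 15 * (1 / 2) ^ (k / L) * D + 456 * (K : ℝ) ^ 3 * ε := by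
  have hW0 : 0 ≤ W := (integral_nonneg fun ω => sq_nonneg _).trans (h.hW 1 le_rfl h.hL)
  have hD0 : 0 ≤ D := (integral_nonneg fun ω => sq_nonneg _).trans (h.hD (x 0))
  have hd1 := d1_ge h.hd
  have hm := h.main (k := k + 1) (n := k / L + 1) (by omega) (by rw [Nat.add_sub_cancel])
  have he := h.endM (k := k + 1) (by omega)
  rw [Nat.add_sub_cancel] at he
  have hn : ((k / L : ℕ) : ℝ) + 1 ≤ 2 * (K : ℝ) := by
    have h1 : k / L ≤ k := Nat.div_le_self _ _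
    have h2 : k / L + 1 ≤ 2 * K := by omega
    exact_mod_cast h2
  have hK1 : (1 : ℝ) ≤ K := by exact_mod_cast hK
  have hp := per_k (n := k / L) hW0 hD0 h.hε hn hK1
  refine le_trans ?_ hp
  unfold tk
  have hi := h.ints (k + 1)
  rw [integral_add hi.1 hi.2]
  have hI1 : 0 ≤ ∫ ω, (Mseq θ (fun i => m (x i) ω) (k + 1) -
      Mseq θ' (fun i => m' (x i) ω) (k + 1)) ^ 2 ∂P := integral_nonneg fun ω => sq_nonneg _
  have hI2 : 0 ≤ ∫ ω, (Mseq θ' (fun i => m' (x i) ω) (k + 1)) ^ 2 *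
      (m (x (k + 1)) ω - m' (x (k + 1)) ω) ^ 2 ∂P :=
    integral_nonneg fun ω => mul_nonneg (sq_nonneg _) (sq_nonneg _)
  have hc := cS_le h.hd (k := k + 1) (by omega)
  refine (mul_le_mul_of_nonneg_right hc (add_nonneg hI1 hI2)).trans ?_
  rw [mul_assoc, mul_add]
  push_cast at hm he ⊢
  exact mul_le_mul_of_nonneg_left (add_le_add hm he) (by norm_num)

theorem KH.tk_tail {x : ℕ → V} {L : ℕ} {D W ε : ℝ} (h : KH G d P θ θ' m m' x L D W ε) {tl : ℕ → ℝ}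
    (htl : ∀ k y p, G.Adj y p → ∫ ω, Yk G θ (fun v => m v ω) k y p ∂P ≤ tl k)
    (htl' : ∀ k y p, G.Adj y p → ∫ ω, Yk G θ' (fun v => m' v ω) k y p ∂P ≤ tl k) (k : ℕ) :
    tk d θ θ' P m m' x (k + 1) ≤ 12 * tl k := by
  have hd1 := d1_ge h.hd
  have adj1 : G.Adj (x 1) (x 0) := ((h.hx 1).adj 0 (by omega)).symm
  have t1 := (h.tailM (k := k + 1) (by omega)).trans (htl' _ _ _ adj1)
  have t2 := (h.tailM' (k := k + 1) (by omega)).trans (htl _ _ _ adj1)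
  rw [Nat.add_sub_cancel] at t1 t2
  unfold tk
  have hi := h.ints (k + 1)
  have i1 := Mq_int h.fld h.hm' x (k + 1)
  have i2 := Mq_int h.fld.symm h.hm x (k + 1)
  have hmono := integral_mono (μ := P) (hi.1.add hi.2) ((i2.const_mul 2).add (i1.const_mul 6)) (by
    intro ω
    change (Mseq θ (fun i => m (x i) ω) (k + 1) - Mseq θ' (fun i => m' (x i) ω) (k + 1)) ^ 2 +
      (Mseq θ' (fun i => m' (x i) ω) (k + 1)) ^ 2 *
        (m (x (k + 1)) ω - m' (x (k + 1)) ω) ^ 2 ≤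
      2 * (Mseq θ (fun i => m (x i) ω) (k + 1)) ^ 2 +
      6 * (Mseq θ' (fun i => m' (x i) ω) (k + 1)) ^ 2
    have a1 := h.dif (x (k + 1)) ω
    have a2 := mul_le_mul_of_nonneg_left a1.2 (sq_nonneg (Mseq θ' (fun i => m' (x i) ω) (k + 1)))
    nlinarith [sq_nonneg (Mseq θ (fun i => m (x i) ω) (k + 1) +
      Mseq θ' (fun i => m' (x i) ω) (k + 1))])
  have e : ∫ ω, (2 * (Mseq θ (fun i => m (x i) ω) (k + 1)) ^ 2 +
      6 * (Mseq θ' (fun i => m' (x i) ω) (k + 1)) ^ 2) ∂P =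
      2 * ∫ ω, (Mseq θ (fun i => m (x i) ω) (k + 1)) ^ 2 ∂P +
      6 * ∫ ω, (Mseq θ' (fun i => m' (x i) ω) (k + 1)) ^ 2 ∂P := by
    rw [integral_add (i2.const_mul 2) (i1.const_mul 6), integral_const_mul, integral_const_mul]
  have hpow : (0 : ℝ) ≤ ((d : ℝ) - 1) ^ (k + 1) := pow_nonneg (by linarith) _
  have hc := cS_le h.hd (k := k + 1) (by omega)
  have hI0 : 0 ≤ ∫ ω, ((Mseq θ (fun i => m (x i) ω) (k + 1) -
      Mseq θ' (fun i => m' (x i) ω) (k + 1)) ^ 2 + (Mseq θ' (fun i => m' (x i) ω) (k + 1)) ^ 2 *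
      (m (x (k + 1)) ω - m' (x (k + 1)) ω) ^ 2) ∂P :=
    integral_nonneg fun ω => add_nonneg (sq_nonneg _) (mul_nonneg (sq_nonneg _) (sq_nonneg _))
  refine (mul_le_mul_of_nonneg_right hc hI0).trans ?_
  have hmono' : ∫ ω, ((Mseq θ (fun i => m (x i) ω) (k + 1) -
      Mseq θ' (fun i => m' (x i) ω) (k + 1)) ^ 2 + (Mseq θ' (fun i => m' (x i) ω) (k + 1)) ^ 2 *
      (m (x (k + 1)) ω - m' (x (k + 1)) ω) ^ 2) ∂P ≤
      2 * ∫ ω, (Mseq θ (fun i => m (x i) ω) (k + 1)) ^ 2 ∂P +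
      6 * ∫ ω, (Mseq θ' (fun i => m' (x i) ω) (k + 1)) ^ 2 ∂P := hmono.trans (le_of_eq e)
  have := mul_le_mul_of_nonneg_left hmono' hpow
  nlinarith

/-- partial sums -/
theorem KH.partial {x : ℕ → V} {L : ℕ} {D W ε : ℝ} (h : KH G d P θ θ' m m' x L D W ε) {tl : ℕ → ℝ}
    (htl : ∀ k y p, G.Adj y p → ∫ ω, Yk G θ (fun v => m v ω) k y p ∂P ≤ tl k)
    (htl' : ∀ k y p, G.Adj y p → ∫ ω, Yk G θ' (fun v => m' v ω) k y p ∂P ≤ tl k)
    (htl0 : ∀ k, 0 ≤ tl k) (hts : Summable tl) {K : ℕ} (hK : 1 ≤ K) {tail : ℝ}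
    (htail : ∑' k, tl (k + K + 1) ≤ tail) (N : ℕ) :
    ∑ k ∈ Finset.range N, tk d θ θ' P m m' x k ≤
      36 * L * W + 35 * L * D + 912 * (K : ℝ) ^ 4 * ε + 12 * tail := by
  have hW0 : 0 ≤ W := (integral_nonneg fun ω => sq_nonneg _).trans (h.hW 1 le_rfl h.hL)
  have hD0 : 0 ≤ D := (integral_nonneg fun ω => sq_nonneg _).trans (h.hD (x 0))
  have hL1 : (1 : ℝ) ≤ L := by exact_mod_cast h.hL
  have hK1 : (1 : ℝ) ≤ K := by exact_mod_cast hK
  have s1 : ∑ k ∈ Finset.range N, tk d θ θ' P m m' x k ≤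
      ∑ k ∈ Finset.range ((K + 2) + N), tk d θ θ' P m m' x k :=
    Finset.sum_le_sum_of_subset_of_nonneg (Finset.range_subset_range.2 (by omega))
      fun k _ _ => tk_nonneg h.hd x k
  refine s1.trans ?_
  rw [Finset.sum_range_add, Finset.sum_range_succ' _ (K + 1)]
  have s2 : ∑ j ∈ Finset.range N, tk d θ θ' P m m' x (K + 2 + j) ≤ 12 * tail := by
    have s21 : ∀ j ∈ Finset.range N, tk d θ θ' P m m' x (K + 2 + j) ≤ 12 * tl (j + K + 1) := by
      intro j _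
      have := h.tk_tail htl htl' (j + K + 1)
      rwa [show j + K + 1 + 1 = K + 2 + j by omega] at this
    refine (Finset.sum_le_sum s21).trans ?_
    rw [← Finset.mul_sum]
    refine mul_le_mul_of_nonneg_left (le_trans ?_ htail) (by norm_num)
    have hs' : Summable (fun k => tl (k + K + 1)) := by
      have := (summable_nat_add_iff (K + 1)).2 hts
      simpa [add_assoc] using this
    exact hs'.sum_le_tsum _ fun j _ => htl0 _
  have s3 : ∑ k ∈ Finset.range (K + 1), tk d θ θ' P m m' x (k + 1) ≤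
      36 * L * W + 30 * L * D + 912 * (K : ℝ) ^ 4 * ε := by
    have s31 : ∀ k ∈ Finset.range (K + 1), tk d θ θ' P m m' x (k + 1) ≤
        (1 / 2) ^ (k / L) * (18 * W + 15 * D) + 456 * (K : ℝ) ^ 3 * ε := by
      intro k hk
      have hk := Finset.mem_range.1 hk
      have := h.tk_main (K := K) k (by omega) hK
      linarith
    refine (Finset.sum_le_sum s31).trans ?_
    rw [Finset.sum_add_distrib, ← Finset.sum_mul, Finset.sum_const, Finset.card_range,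
      nsmul_eq_mul]
    have s32 : ∑ k ∈ Finset.range (K + 1), ((1 : ℝ) / 2) ^ (k / L) ≤ 2 * L := by
      refine le_trans ?_ (sum_half L h.hL (K + 1))
      refine Finset.sum_le_sum_of_subset_of_nonneg (Finset.range_subset_range.2 ?_)
        fun k _ _ => by positivity
      have := h.hL
      nlinarith
    have s33 := mul_le_mul_of_nonneg_right s32 (by linarith : 0 ≤ 18 * W + 15 * D)
    have s34 : (((K + 1 : ℕ) : ℝ)) * (456 * (K : ℝ) ^ 3 * ε) ≤ 912 * (K : ℝ) ^ 4 * ε := by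
      push_cast
      have h1 : (K : ℝ) + 1 ≤ 2 * K := by linarith
      have h2 : 0 ≤ 456 * (K : ℝ) ^ 3 * ε := mul_nonneg (by positivity) h.hε
      have h3 := mul_le_mul_of_nonneg_right h1 h2
      refine h3.trans (le_of_eq (by ring))
    nlinarith
  have s4 := h.tk_zero
  have s5 : 5 * D ≤ 5 * L * D := by nlinarith
  linarith

end key

end Crest.Agent.T41
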