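import Crest.Agent.T41Defs
import Crest.Agent.T41BB
import Crest.Agent.T41Ext
import Crest.Agent.T41Key0

/-!
S0241, part KEY: the key inequality (section 6) for an abstract pair of fields `Fld` (T41Ext).
-/

set_option autoImplicit false

namespace Crest.Agent.T41

open MeasureTheory

universe u v

/-- quantitative hypotheses used by the key inequality -/
structure KeyHyp {V : Type u} (G : SimpleGraph V) [G.LocallyFinite] (d : ℕ) {Ω : Type v}
    [MeasurableSpace Ω] (P : Measure Ω) (θ θ' bd : ℝ) (m m' : V → Ω → ℝ) (L K₀ : ℕ)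
    (Ca Cdc D Va Ea eps tail : ℝ) (tl : ℕ → ℝ) : Prop where
  fld : Fld G P d θ θ' m m'
  bd1 : bd < 1
  bdd : ∀ y ω, |m y ω| ≤ bd
  bdd' : ∀ y ω, |m' y ω| ≤ bd
  hD : ∀ y, ∫ ω, (m y ω - m' y ω) ^ 2 ∂P = D
  ha : ∀ y p ω, G.Adj y p → |ell d θ (m y ω) (m p ω) - ell d θ' (m' y ω) (m' p ω)| ≤ Ca
  /-- decorrelation; `Ea` = mean of `a`, `Va` = variance -/
  dec : ∀ (x : ℕ → V) (l : ℕ), NB G x l → ∫ ω, (∑ i ∈ Finset.range l,
      (ell d θ (m (x (i + 1)) ω) (m (x i) ω) - ell d θ' (m' (x (i + 1)) ω) (m' (x i) ω))) ^ 2 ∂P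
    ≤ (l : ℝ) ^ 2 * Ea ^ 2 + Cdc * l * Va
  Va0 : 0 ≤ Va
  eps0 : 0 ≤ eps
  hY : ∀ y p, G.Adj y p → (P {ω | 1 / 4 < Yk G θ (fun v => m v ω) L y p}).toReal ≤ eps
  hY' : ∀ y p, G.Adj y p → (P {ω | 1 / 4 < Yk G θ' (fun v => m' v ω) L y p}).toReal ≤ eps
  tl_summable : Summable tl
  tl_nonneg : ∀ k, 0 ≤ tl k
  htl : ∀ k y p, G.Adj y p → ∫ ω, Yk G θ (fun v => m v ω) k y p ∂P ≤ tl k
  htl' : ∀ k y p, G.Adj y p → ∫ ω, Yk G θ' (fun v => m' v ω) k y p ∂P ≤ tl k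
  htail : ∑' k, tl (k + K₀ + 1) ≤ tail

/-- **key inequality** -/
theorem key_ineq (d : ℕ) (hd : 3 ≤ d) (Ca Cdc : ℝ) : ∃ C : ℝ, 0 ≤ C ∧
    ∀ (V : Type u) (G : SimpleGraph V) [G.LocallyFinite] (_ : G.IsTree)
      (_ : G.IsRegularOfDegree d) (Ω : Type v) [MeasurableSpace Ω] (P : Measure Ω)
      [IsProbabilityMeasure P] (θ θ' bd : ℝ) (_ : 0 < θ) (_ : θ ≤ thc d) (_ : 0 < θ')
      (_ : θ' ≤ thc d) (m m' : V → Ω → ℝ) (L K₀ : ℕ) (_ : 1 ≤ L) (_ : L ≤ K₀)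
      (D Va Ea eps tail : ℝ) (tl : ℕ → ℝ)
      (_ : KeyHyp G d P θ θ' bd m m' L K₀ Ca Cdc D Va Ea eps tail tl)
      (x : ℕ → V) (_ : ∀ n, NB G x n),
      SS d θ θ' P (fun i => m (x i)) (fun i => m' (x i))
        ≤ C * ((L : ℝ) ^ 2 * Va + (L : ℝ) ^ 3 * Ea ^ 2 + L * D + (K₀ : ℝ) ^ 6 * eps + tail) := by
  refine ⟨36 * (1 + |Cdc|) + 1000, by positivity, ?_⟩
  intro V G _ hT hreg Ω _ P _ θ θ' bd h0 h1 h0' h1' m m' L K₀ hL hLK D Va Ea eps tail tl hk x hx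
  have hθ1 : θ < 1 := h1.trans_lt (thc_lt_one hd)
  have hθ1' : θ' < 1 := h1'.trans_lt (thc_lt_one hd)
  have hm : ∀ v ω, |m v ω| < 1 := fun v ω => (hk.bdd v ω).trans_lt hk.bd1
  have hm' : ∀ v ω, |m' v ω| < 1 := fun v ω => (hk.bdd' v ω).trans_lt hk.bd1
  have hBk : ∀ (θ₁ : ℝ) (m₁ : V → Ω → ℝ), (∀ v, Measurable (m₁ v)) →
      (∀ y p, G.Adj y p → (P {ω | 1 / 4 < Yk G θ₁ (fun v => m₁ v ω) L y p}).toReal ≤ eps) →
      ∀ y p, G.Adj y p → ∫ ω, Bk G θ₁ (fun v => m₁ v ω) L 0 y p ∂P ≤ eps := by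
    intro θ₁ m₁ hm₁ hP y p hyp
    have e : (fun ω => Bk G θ₁ (fun v => m₁ v ω) L 0 y p) =
        Set.indicator {ω | 1 / 4 < Yk G θ₁ (fun v => m₁ v ω) L y p} (fun _ => (1 : ℝ)) := by
      funext ω
      simp only [Bk, Set.indicator_apply, Set.mem_setOf_eq]
    have hms : MeasurableSet {ω | 1 / 4 < Yk G θ₁ (fun v => m₁ v ω) L y p} :=
      measurableSet_lt measurable_const (Yk_meas hm₁ L y p)
    rw [e, integral_indicator_const _ hms, smul_eq_mul, mul_one]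
    exact hP y p hyp
  set W : ℝ := (L : ℝ) ^ 2 * Ea ^ 2 + |Cdc| * L * Va with hW
  have hsm : ∀ l, ∀ ω, (∑ i ∈ Finset.range l, aE d θ θ' (zp m m' x ω) i) =
      ∑ i ∈ Finset.range l, (ell d θ (m (x (i + 1)) ω) (m (x i) ω) -
        ell d θ' (m' (x (i + 1)) ω) (m' (x i) ω)) := fun l ω => rfl
  have hsmeas : ∀ l, Measurable (fun ω => ∑ i ∈ Finset.range l, aE d θ θ' (zp m m' x ω) i) := by
    intro l
    refine Finset.measurable_sum _ fun i _ => ?_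
    have e1 : Measurable (fun ω => ell d θ (m (x (i + 1)) ω) (m (x i) ω)) :=
      (measurable_ell d).comp (measurable_const.prodMk
        ((hk.fld.meas (x (i + 1))).prodMk (hk.fld.meas (x i))))
    have e2 : Measurable (fun ω => ell d θ' (m' (x (i + 1)) ω) (m' (x i) ω)) :=
      (measurable_ell d).comp (measurable_const.prodMk
        ((hk.fld.meas' (x (i + 1))).prodMk (hk.fld.meas' (x i))))
    exact e1.sub e2
  have hCa : 0 ≤ Ca := by
    obtain ⟨ω⟩ : Nonempty Ω := by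
      by_contra hne
      rw [not_nonempty_iff] at hne
      have := measure_univ (μ := P)
      rw [Measure.eq_zero_of_isEmpty P] at this
      simp at this
    exact (abs_nonneg _).trans (hk.ha (x 1) (x 0) ω ((hx 1).adj 0 (by omega)).symm)
  have hKH : KH G d P θ θ' m m' x L D W eps := by
    refine ⟨hd, hreg, hk.fld, h0, h1, h0', h1', hm, hm', hx, hL, hk.eps0,
      hBk θ m hk.fld.meas hk.hY, hBk θ' m' hk.fld.meas' hk.hY', ?_, ?_, fun y => (hk.hD y).le⟩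
    · intro l _ _
      refine integrable_bdd ((hsmeas l).pow_const 2) ((l * Ca) ^ 2) fun ω => ?_
      have hb : |∑ i ∈ Finset.range l, aE d θ θ' (zp m m' x ω) i| ≤ l * Ca := by
        refine (Finset.abs_sum_le_sum_abs _ _).trans ?_
        calc ∑ i ∈ Finset.range l, |aE d θ θ' (zp m m' x ω) i| ≤
              ∑ i ∈ Finset.range l, Ca := by
              refine Finset.sum_le_sum fun i _ => ?_
              exact hk.ha (x (i + 1)) (x i) ω ((hx (i + 1)).adj i (by omega)).symm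
          _ = l * Ca := by simp
      change |(∑ i ∈ Finset.range l, aE d θ θ' (zp m m' x ω) i) ^ 2| ≤ _
      rw [abs_pow]
      exact pow_le_pow_left₀ (abs_nonneg _) hb 2
    · intro l hl1 hlL
      have h2 := hk.dec x l (hx l)
      have hlL' : (l : ℝ) ≤ L := by exact_mod_cast hlL
      have hl0 : (0 : ℝ) ≤ l := by positivity
      have a1 : (l : ℝ) ^ 2 * Ea ^ 2 ≤ (L : ℝ) ^ 2 * Ea ^ 2 :=
        mul_le_mul_of_nonneg_right (pow_le_pow_left₀ hl0 hlL' 2) (sq_nonneg _)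
      have a2 : Cdc * l * Va ≤ |Cdc| * L * Va := by
        refine mul_le_mul_of_nonneg_right ?_ hk.Va0
        exact mul_le_mul (le_abs_self _) hlL' hl0 (abs_nonneg _)
      exact h2.trans (add_le_add a1 a2)
  have hpart := hKH.partial hk.htl hk.htl' hk.tl_nonneg hk.tl_summable (K := K₀) (by omega)
    hk.htail
  have hSS : SS d θ θ' P (fun i => m (x i)) (fun i => m' (x i)) ≤
      36 * L * W + 35 * L * D + 912 * (K₀ : ℝ) ^ 4 * eps + 12 * tail :=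
    Real.tsum_le_of_sum_range_le (fun k => tk_nonneg hd x k) hpart
  refine hSS.trans ?_
  have hL1 : (1 : ℝ) ≤ L := by exact_mod_cast hL
  have hK1 : (1 : ℝ) ≤ K₀ := by exact_mod_cast (hL.trans hLK)
  have hD0 : 0 ≤ D := by rw [← hk.hD (x 0)]; exact integral_nonneg fun ω => sq_nonneg _
  have htail0 : 0 ≤ tail := (tsum_nonneg fun k => hk.tl_nonneg _).trans hk.htail
  have b1 : (K₀ : ℝ) ^ 4 ≤ (K₀ : ℝ) ^ 6 := pow_le_pow_right₀ hK1 (by norm_num)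
  have b2 := mul_le_mul_of_nonneg_right b1 hk.eps0
  have hc := abs_nonneg Cdc
  have t1 : 0 ≤ (L : ℝ) ^ 2 * Va := mul_nonneg (by positivity) hk.Va0
  have t2 : 0 ≤ (L : ℝ) ^ 3 * Ea ^ 2 := by positivity
  have t3 : 0 ≤ (L : ℝ) * D := by positivity
  have t4 : 0 ≤ (K₀ : ℝ) ^ 6 * eps := mul_nonneg (by positivity) hk.eps0
  have e1 : 36 * (L : ℝ) * W = 36 * ((L : ℝ) ^ 3 * Ea ^ 2) + 36 * |Cdc| * ((L : ℝ) ^ 2 * Va) := by
    rw [hW]; ring
  rw [e1]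
  have f1 := mul_nonneg hc t2
  have f2 := mul_nonneg hc t3
  have f3 := mul_nonneg hc t4
  have f4 := mul_nonneg hc htail0
  have f5 := mul_nonneg hc t1
  nlinarith

end Crest.Agent.T41
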