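import Mathlib

/-!
S0241, section 7: the limit calculus (pure real analysis).
`D n m s` stands for `E |m^{θ_n}_o(s) - m^{θ_m}_o(s)|^2`, `S n m s` for the sum over `u` of section 3 (A1),
`Vr n m s` for `Var a_e`, `u n s` for `E f_{θ_n}(b_e^{θ_n}(s))`, `δ n m` for the relative difference of the
parameters.
-/

set_option autoImplicit false

namespace Crest.Agent.T41

open MeasureTheory Set Filter Topology

/-- hypotheses of the limit calculus -/
structure LimHyp (D S Vr : ℕ → ℕ → ℝ → ℝ) (u : ℕ → ℝ → ℝ) (δ : ℕ → ℕ → ℝ) : Prop where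
  D_nonneg : ∀ n m s, 0 ≤ s → 0 ≤ D n m s
  D_le : ∀ n m s, 0 ≤ s → D n m s ≤ 4
  D_mono : ∀ n m s t, 0 ≤ s → s ≤ t → D n m s ≤ D n m t
  small : ∃ C : ℝ, ∀ n m s, 0 ≤ s → s ≤ 1 / 4 → D n m s ≤ C * s
  A1 : ∃ C : ℝ, ∀ n m T₁ T₂, 0 ≤ T₁ → T₁ ≤ T₂ → ∀ F : ℝ → ℝ, IntervalIntegrable F volume T₁ T₂ →
    (∀ s ∈ Icc T₁ T₂, min s (1 / 4) * S n m s ≤ F s) →
    D n m T₂ ≤ D n m T₁ + C * ∫ s in T₁..T₂, F s
  key : ∃ A c κ : ℝ, 0 < A ∧ 0 < c ∧ 0 < κ ∧ κ < 1 ∧ ∀ T : ℝ, ∃ C : ℝ, 0 ≤ C ∧ ∀ t : ℝ, 0 < t →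
    ∃ N : ℕ, ∀ n ≥ N, ∀ m ≥ N, ∀ s, t ≤ s → s ≤ T → ∀ n₀ : ℕ, A / min s (1 / 4) ≤ n₀ →
    ∀ K₀ : ℕ, 2 * n₀ ≤ K₀ →
    S n m s ≤ C * ((2 * n₀) ^ 2 * Vr n m s + (2 * n₀) ^ 3 * ((u n s - u m s) ^ 2 + δ n m ^ 2)
      + (2 * n₀) * D n m s + (K₀ : ℝ) ^ 6 * κ ^ (2 ^ n₀)
      + (min s (1 / 4))⁻¹ * Real.exp (-(c * min s (1 / 4) * K₀)))
  V1 : ∀ T : ℝ, ∃ C : ℝ, ∀ n m s, 0 ≤ s → s ≤ T → Vr n m s ≤ C * (D n m s + δ n m ^ 2)
  V2 : ∀ p : ℕ, 2 ≤ p → ∃ C : ℝ, ∀ n m s l, 0 < s → s ≤ 1 / 4 → 0 < l → l ≤ 1 →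
    Vr n m s ≤ C * (l ^ 2 * D n m s + δ n m ^ 2 + s ^ p / l ^ (2 * p))
  u_meas : ∀ n T, AEStronglyMeasurable (u n) (volume.restrict (Ioc 0 T))
  u_bdd : ∀ T, ∃ U : ℝ, ∀ n s, 0 ≤ s → s ≤ T → |u n s| ≤ U
  u_lim : ∀ s, 0 ≤ s → CauchySeq (fun n => u n s)
  δ_lim : ∀ ε > 0, ∃ N : ℕ, ∀ n ≥ N, ∀ m ≥ N, |δ n m| ≤ ε

/-- Gronwall -/
theorem gron {D k K : ℝ → ℝ} {a b B : ℝ} (hab : a ≤ b)
    (hD : ContinuousOn D (Icc a b)) (hk : ContinuousOn k (Icc a b)) (hk0 : ∀ s ∈ Icc a b, 0 ≤ k s)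
    (hK : ∀ s ∈ Icc a b, HasDerivAt K (k s) s)
    (h : ∀ t ∈ Icc a b, D t ≤ B + ∫ s in a..t, k s * D s) :
    D b ≤ B * Real.exp (K b - K a) := by
  set Φ : ℝ → ℝ := fun t => B + ∫ s in a..t, k s * D s with hΦ
  have hkD : ContinuousOn (fun s => k s * D s) (Icc a b) := hk.mul hD
  have hint : IntegrableOn (fun s => k s * D s) (Icc a b) := hkD.integrableOn_Icc
  have hΦc : ContinuousOn Φ (Icc a b) := by
    have := intervalIntegral.continuousOn_primitive_interval (f := fun s => k s * D s) (a := a) (b := b)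
      (μ := volume) (by rwa [uIcc_of_le hab])
    rw [uIcc_of_le hab] at this
    exact continuousOn_const.add this
  have hΦd : ∀ t ∈ Ioo a b, HasDerivAt Φ (k t * D t) t := by
    intro t ht
    have h1 : IntervalIntegrable (fun s => k s * D s) volume a t := by
      rw [intervalIntegrable_iff_integrableOn_Icc_of_le ht.1.le]
      exact hint.mono_set (Icc_subset_Icc_right ht.2.le)
    have h2 : ContinuousAt (fun s => k s * D s) t := hkD.continuousAt (Icc_mem_nhds ht.1 ht.2)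
    have h3 : StronglyMeasurableAtFilter (fun s => k s * D s) (𝓝 t) volume := by
      apply ContinuousOn.stronglyMeasurableAtFilter_nhdsWithin (s := Ioo a b) (μ := volume) (f := fun s => k s * D s) (hkD.mono Ioo_subset_Icc_self) measurableSet_Ioo t |>.filter_mono
      rw [isOpen_Ioo.nhdsWithin_eq ht]
    exact (intervalIntegral.integral_hasDerivAt_right h1 h3 h2).const_add B
  have hanti : AntitoneOn (fun t => Φ t * Real.exp (-(K t))) (Icc a b) := by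
    have hKc : ContinuousOn K (Icc a b) := fun s hs => (hK s hs).continuousAt.continuousWithinAt
    have hder : ∀ t ∈ Ioo a b, HasDerivAt (fun t => Φ t * Real.exp (-(K t)))
        (k t * D t * Real.exp (-(K t)) + Φ t * (Real.exp (-(K t)) * (-(k t)))) t := by
      intro t ht
      exact (hΦd t ht).mul ((hK t (Ioo_subset_Icc_self ht)).neg.exp)
    apply antitoneOn_of_deriv_nonpos (convex_Icc a b)
    · exact hΦc.mul (hKc.neg.rexp)
    · rw [interior_Icc]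
      exact fun t ht => (hder t ht).differentiableAt.differentiableWithinAt
    · rw [interior_Icc]
      intro t ht
      rw [(hder t ht).deriv]
      have h1 := h t (Ioo_subset_Icc_self ht)
      have h2 := hk0 t (Ioo_subset_Icc_self ht)
      have h3 := Real.exp_pos (-(K t))
      have h4 : k t * D t ≤ k t * Φ t := mul_le_mul_of_nonneg_left h1 h2
      nlinarith
  have h1 := hanti (left_mem_Icc.2 hab) (right_mem_Icc.2 hab) hab
  have h2 := h b (right_mem_Icc.2 hab)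
  have h3 : Φ a = B := by simp [hΦ]
  simp only [h3] at h1
  have h4 : Φ b ≤ B * Real.exp (K b - K a) := by
    have : Real.exp (K b - K a) = Real.exp (-(K a)) * Real.exp (K b) := by
      rw [← Real.exp_add]; congr 1; ring
    rw [this]
    have h5 : Φ b = (Φ b * Real.exp (-(K b))) * Real.exp (K b) := by
      rw [mul_assoc, ← Real.exp_add]; simp
    rw [h5, ← mul_assoc]
    exact mul_le_mul_of_nonneg_right h1 (Real.exp_pos _).le
  exact h2.trans h4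


theorem LimHyp.u_int {D S Vr : ℕ → ℕ → ℝ → ℝ} {u : ℕ → ℝ → ℝ} {δ : ℕ → ℕ → ℝ}
    (h : LimHyp D S Vr u δ) (a T : ℝ) (ha : 0 ≤ a) (haT : a ≤ T) (n m : ℕ) :
    IntervalIntegrable (fun s => (u n s - u m s) ^ 2) volume a T := by
  obtain ⟨U, hU⟩ := h.u_bdd T
  rw [intervalIntegrable_iff_integrableOn_Ioc_of_le haT]
  have hm : AEStronglyMeasurable (fun s => (u n s - u m s) ^ 2) (volume.restrict (Ioc a T)) :=
    (((h.u_meas n T).sub (h.u_meas m T)).pow 2).mono_measure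
      (Measure.restrict_mono (Ioc_subset_Ioc_left ha) le_rfl)
  refine Integrable.of_bound hm ((2 * U) ^ 2) ?_
  filter_upwards [ae_restrict_mem measurableSet_Ioc] with s hs
  have h1 := hU n s (ha.trans hs.1.le) hs.2
  have h2 := hU m s (ha.trans hs.1.le) hs.2
  rw [Real.norm_eq_abs, abs_of_nonneg (sq_nonneg _)]
  rw [abs_le] at h1 h2
  apply sq_le_sq'
  · linarith
  · linarith

theorem LimHyp.u_lim_int {D S Vr : ℕ → ℕ → ℝ → ℝ} {u : ℕ → ℝ → ℝ} {δ : ℕ → ℕ → ℝ}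
    (h : LimHyp D S Vr u δ) (T : ℝ) (hT : 0 ≤ T) (ε : ℝ) (hε : 0 < ε) :
    ∃ N : ℕ, ∀ n ≥ N, ∀ m ≥ N, ∫ s in (0:ℝ)..T, (u n s - u m s) ^ 2 ≤ ε := by
  obtain ⟨U, hU⟩ := h.u_bdd T
  have hlim : ∀ s, 0 ≤ s → ∃ v, Tendsto (fun n => u n s) atTop (𝓝 v) := fun s hs =>
    cauchySeq_tendsto_of_complete (h.u_lim s hs)
  set v : ℝ → ℝ := fun s => if hs : 0 ≤ s then Classical.choose (hlim s hs) else 0 with hv
  have hvt : ∀ s, 0 ≤ s → Tendsto (fun n => u n s) atTop (𝓝 (v s)) := by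
    intro s hs
    simp only [hv, dif_pos hs]
    exact Classical.choose_spec (hlim s hs)
  have hvb : ∀ s, 0 ≤ s → s ≤ T → |v s| ≤ U := by
    intro s hs hsT
    exact le_of_tendsto ((hvt s hs).abs) (Eventually.of_forall fun n => hU n s hs hsT)
  have hvm : AEStronglyMeasurable v (volume.restrict (Ioc 0 T)) := by
    apply aestronglyMeasurable_of_tendsto_ae atTop (fun n => h.u_meas n T)
    filter_upwards [ae_restrict_mem measurableSet_Ioc] with s hs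
    exact hvt s hs.1.le
  have hmeas : ∀ n, AEStronglyMeasurable (fun s => (u n s - v s) ^ 2) (volume.restrict (Ioc 0 T)) :=
    fun n => ((h.u_meas n T).sub hvm).pow 2
  have hbd : ∀ n, ∀ᵐ s ∂(volume.restrict (Ioc 0 T)), ‖(u n s - v s) ^ 2‖ ≤ (2 * U) ^ 2 := by
    intro n
    filter_upwards [ae_restrict_mem measurableSet_Ioc] with s hs
    have h1 := hU n s hs.1.le hs.2
    have h2 := hvb s hs.1.le hs.2
    rw [Real.norm_eq_abs, abs_of_nonneg (sq_nonneg _)]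
    rw [abs_le] at h1 h2
    apply sq_le_sq'
    · linarith
    · linarith
  have hint : ∀ n, IntegrableOn (fun s => (u n s - v s) ^ 2) (Ioc 0 T) volume := fun n =>
    Integrable.of_bound (hmeas n) ((2 * U) ^ 2) (hbd n)
  have ht : Tendsto (fun n => ∫ s in (0:ℝ)..T, (u n s - v s) ^ 2) atTop (𝓝 0) := by
    simp only [intervalIntegral.integral_of_le hT]
    have := tendsto_integral_of_dominated_convergence (μ := volume.restrict (Ioc 0 T))
      (F := fun n s => (u n s - v s) ^ 2) (f := fun _ => (0:ℝ)) (fun _ => (2 * U) ^ 2) hmeas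
      (by
        have : IntegrableOn (fun _ : ℝ => (2 * U) ^ 2) (Ioc 0 T) volume :=
          integrableOn_const (by simp)
        exact this) hbd
      (by
        filter_upwards [ae_restrict_mem measurableSet_Ioc] with s hs
        have := ((hvt s hs.1.le).sub_const (v s)).pow 2
        simpa using this)
    simpa using this
  obtain ⟨N, hN⟩ := eventually_atTop.1 (ht.eventually (gt_mem_nhds (show (0:ℝ) < ε / 4 by positivity)))
  refine ⟨N, fun n hn m hm => ?_⟩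
  have h1 := hN n hn
  have h2 := hN m hm
  have hi : ∀ n, IntervalIntegrable (fun s => (u n s - v s) ^ 2) volume 0 T := fun n => by
    rw [intervalIntegrable_iff_integrableOn_Ioc_of_le hT]; exact hint n
  have h3 : ∫ s in (0:ℝ)..T, (u n s - u m s) ^ 2 ≤
      ∫ s in (0:ℝ)..T, (2 * (u n s - v s) ^ 2 + 2 * (u m s - v s) ^ 2) := by
    apply intervalIntegral.integral_mono_on hT (h.u_int 0 T le_rfl hT n m)
      (((hi n).const_mul 2).add ((hi m).const_mul 2))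
    intro s _
    nlinarith [sq_nonneg ((u n s - v s) + (u m s - v s))]
  rw [intervalIntegral.integral_add ((hi n).const_mul 2) ((hi m).const_mul 2),
    intervalIntegral.integral_const_mul, intervalIntegral.integral_const_mul] at h3
  linarith

/-- propagation from `a` to `b` -/
theorem LimHyp.prop {D S Vr : ℕ → ℕ → ℝ → ℝ} {u : ℕ → ℝ → ℝ} {δ : ℕ → ℕ → ℝ}
    (h : LimHyp D S Vr u δ) : ∃ C : ℝ, 0 ≤ C ∧ ∀ (n m : ℕ) (k K : ℝ → ℝ) (a b c₁ c₂ : ℝ), 0 ≤ a → a ≤ b →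
      0 ≤ c₁ → 0 ≤ c₂ → ContinuousOn k (Icc a b) → (∀ s ∈ Icc a b, 0 ≤ k s) →
      (∀ s ∈ Icc a b, HasDerivAt K (k s) s) →
      (∀ s ∈ Icc a b, min s (1 / 4) * S n m s ≤
        k s * D n m s + c₁ * (u n s - u m s) ^ 2 + c₂) →
      D n m b ≤ (D n m a + C * (c₁ * (∫ s in (0:ℝ)..b, (u n s - u m s) ^ 2) + c₂ * (b - a)))
        * Real.exp (C * (K b - K a)) := by
  obtain ⟨C₀, hC₀⟩ := h.A1
  refine ⟨max C₀ 0, le_max_right _ _, ?_⟩
  intro n m k K a b c₁ c₂ ha hab hc₁ hc₂ hk hk0 hK hS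
  set C := max C₀ 0 with hC
  have hCn : 0 ≤ C := le_max_right _ _
  -- A1 with nonneg constant
  have hA : ∀ T₁ T₂, 0 ≤ T₁ → T₁ ≤ T₂ → ∀ F : ℝ → ℝ, IntervalIntegrable F volume T₁ T₂ →
      (∀ s ∈ Icc T₁ T₂, 0 ≤ F s) → (∀ s ∈ Icc T₁ T₂, min s (1 / 4) * S n m s ≤ F s) →
      D n m T₂ ≤ D n m T₁ + C * ∫ s in T₁..T₂, F s := by
    intro T₁ T₂ h1 h2 F hF hF0 hFS
    have h3 := hC₀ n m T₁ T₂ h1 h2 F hF hFS
    have h4 : 0 ≤ ∫ s in T₁..T₂, F s := intervalIntegral.integral_nonneg h2 hF0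
    have h5 : C₀ * (∫ s in T₁..T₂, F s) ≤ C * ∫ s in T₁..T₂, F s :=
      mul_le_mul_of_nonneg_right (le_max_left _ _) h4
    linarith
  obtain ⟨U, hU⟩ := h.u_bdd b
  have hU2 : ∀ s ∈ Icc a b, (u n s - u m s) ^ 2 ≤ (2 * U) ^ 2 := by
    intro s hs
    have h1 := hU n s (ha.trans hs.1) hs.2
    have h2 := hU m s (ha.trans hs.1) hs.2
    rw [abs_le] at h1 h2
    apply sq_le_sq'
    · linarith
    · linarith
  obtain ⟨kM, hkM⟩ := (isCompact_Icc.image_of_continuousOn hk).bddAbove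
  have hkM' : ∀ s ∈ Icc a b, k s ≤ kM := fun s hs => hkM (mem_image_of_mem _ hs)
  have hkM0 : 0 ≤ kM := (hk0 a (left_mem_Icc.2 hab)).trans (hkM' a (left_mem_Icc.2 hab))
  set M := kM * 4 + c₁ * (2 * U) ^ 2 + c₂ with hM
  have hM0 : 0 ≤ M := by positivity
  have hSM : ∀ s ∈ Icc a b, min s (1 / 4) * S n m s ≤ M := by
    intro s hs
    refine (hS s hs).trans ?_
    have h1 : k s * D n m s ≤ kM * 4 :=
      mul_le_mul (hkM' s hs) (h.D_le n m s (ha.trans hs.1)) (h.D_nonneg n m s (ha.trans hs.1)) hkM0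
    have h2 : c₁ * (u n s - u m s) ^ 2 ≤ c₁ * (2 * U) ^ 2 :=
      mul_le_mul_of_nonneg_left (hU2 s hs) hc₁
    linarith
  have hDc : ContinuousOn (D n m) (Icc a b) := by
    have hL : LipschitzOnWith (Real.toNNReal (C * M)) (D n m) (Icc a b) := by
      apply LipschitzOnWith.of_dist_le_mul
      have key : ∀ x ∈ Icc a b, ∀ y ∈ Icc a b, x ≤ y → |D n m x - D n m y| ≤ C * M * |x - y| := by
        intro x hx y hy hxy
        have h1 := h.D_mono n m x y (ha.trans hx.1) hxy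
        have h2 := hA x y (ha.trans hx.1) hxy (fun _ => M) intervalIntegrable_const
          (fun _ _ => hM0) (fun s hs => hSM s ⟨hx.1.trans hs.1, hs.2.trans hy.2⟩)
        rw [intervalIntegral.integral_const, smul_eq_mul] at h2
        rw [abs_of_nonpos (by linarith), abs_of_nonpos (by linarith)]
        linarith
      intro x hx y hy
      rw [Real.dist_eq, Real.dist_eq, Real.coe_toNNReal _ (by positivity)]
      rcases le_total x y with hxy | hxy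
      · exact key x hx y hy hxy
      · rw [abs_sub_comm, abs_sub_comm x y]; exact key y hy x hx hxy
    exact hL.continuousOn
  apply le_trans (b := (D n m a + C * (c₁ * (∫ s in (0:ℝ)..b, (u n s - u m s) ^ 2) + c₂ * (b - a)))
        * Real.exp ((C * K b) - (C * K a)))
  swap
  · rw [mul_sub C (K b)]
  apply gron (D := D n m) (k := fun s => C * k s) (K := fun s => C * K s) hab hDc
    (continuousOn_const.mul hk) (fun s hs => mul_nonneg hCn (hk0 s hs))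
    (fun s hs => (hK s hs).const_mul C)
  intro t ht
  have hkD : ContinuousOn (fun s => k s * D n m s) (Icc a t) :=
    (hk.mul hDc).mono (Icc_subset_Icc_right ht.2)
  have hi1 : IntervalIntegrable (fun s => k s * D n m s) volume a t :=
    ContinuousOn.intervalIntegrable (by rwa [uIcc_of_le ht.1])
  have hi2 : IntervalIntegrable (fun s => c₁ * (u n s - u m s) ^ 2) volume a t :=
    (h.u_int a t ha ht.1 n m).const_mul _
  have hi3 : IntervalIntegrable (fun _ : ℝ => c₂) volume a t := intervalIntegrable_const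
  have h1 := hA a t ha ht.1 (fun s => k s * D n m s + c₁ * (u n s - u m s) ^ 2 + c₂)
    ((hi1.add hi2).add hi3)
    (fun s hs => by
      have := mul_nonneg (hk0 s ⟨hs.1, hs.2.trans ht.2⟩) (h.D_nonneg n m s (ha.trans hs.1))
      positivity)
    (fun s hs => hS s ⟨hs.1, hs.2.trans ht.2⟩)
  rw [intervalIntegral.integral_add (hi1.add hi2) hi3, intervalIntegral.integral_add hi1 hi2,
    intervalIntegral.integral_const, intervalIntegral.integral_const_mul, smul_eq_mul] at h1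
  have h2 : ∫ s in a..t, (u n s - u m s) ^ 2 ≤ ∫ s in (0:ℝ)..b, (u n s - u m s) ^ 2 := by
    have e1 := intervalIntegral.integral_add_adjacent_intervals
      (h.u_int 0 a le_rfl ha n m) (h.u_int a t ha ht.1 n m)
    have e2 := intervalIntegral.integral_add_adjacent_intervals
      (h.u_int 0 t le_rfl (ha.trans ht.1) n m) (h.u_int t b (ha.trans ht.1) ht.2 n m)
    have e3 : 0 ≤ ∫ s in (0:ℝ)..a, (u n s - u m s) ^ 2 :=
      intervalIntegral.integral_nonneg ha (fun _ _ => sq_nonneg _)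
    have e4 : 0 ≤ ∫ s in t..b, (u n s - u m s) ^ 2 :=
      intervalIntegral.integral_nonneg ht.2 (fun _ _ => sq_nonneg _)
    linarith
  have h3 : ∫ s in a..t, C * k s * D n m s = C * ∫ s in a..t, k s * D n m s := by
    rw [← intervalIntegral.integral_const_mul]
    congr 1; ext s; ring
  rw [h3]
  have h4 : (t - a) * c₂ ≤ c₂ * (b - a) := by
    rw [mul_comm]; exact mul_le_mul_of_nonneg_left (by linarith [ht.2]) hc₂
  have h5 : c₁ * (∫ s in a..t, (u n s - u m s) ^ 2) ≤ c₁ * (∫ s in (0:ℝ)..b, (u n s - u m s) ^ 2) :=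
    mul_le_mul_of_nonneg_left h2 hc₁
  have h6 := mul_le_mul_of_nonneg_left (add_le_add h5 h4) hCn
  linarith


theorem alg_b (s Ck a₁ a₂ Cv D δ2 e z w Ce Cf : ℝ) (hs : s ≠ 0) :
   s * (Ck * ((a₁ / s) ^ 2 * (Cv * ((s * w) * D + δ2 + z * s)) + (a₁ / s) ^ 3 *
        (e + δ2) + (a₁ / s) * D +
        (a₂ / s ^ 2) ^ 6 * (Ce * (z * s ^ 11)) + s⁻¹ * (Cf * z))) =
        Ck * (a₁ ^ 2 * Cv * w + a₁) * D
        + Ck * (a₁ ^ 3 / s ^ 2) * e
        + (Ck * (a₁ ^ 2 * Cv + a₂ ^ 6 * Ce + Cf) * z + Ck * (a₁ ^ 2 * Cv / s + a₁ ^ 3 / s ^ 2) * δ2) := by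
  have h1 : s * ((a₁ / s) ^ 2 * (Cv * ((s * w) * D + δ2 + z * s))) =
      a₁ ^ 2 * Cv * w * D + (a₁ ^ 2 * Cv / s) * δ2 + a₁ ^ 2 * Cv * z := by field_simp
  have h2 : s * ((a₁ / s) ^ 3 * (e + δ2)) = a₁ ^ 3 / s ^ 2 * e + a₁ ^ 3 / s ^ 2 * δ2 := by field_simp
  have h3 : s * ((a₁ / s) * D) = a₁ * D := by field_simp
  have h4 : s * ((a₂ / s ^ 2) ^ 6 * (Ce * (z * s ^ 11))) = a₂ ^ 6 * Ce * z := by field_simp
  have h5 : s * (s⁻¹ * (Cf * z)) = Cf * z := by field_simp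
  linear_combination Ck * (h1 + h2 + h3 + h4 + h5)

theorem frac_le (x X : ℝ) (hx : 0 ≤ x) (hX : 0 ≤ X) : x * (X / (2 * (x + 1))) ≤ X / 2 := by
  have h1 : x * (X / (2 * (x + 1))) = (X / 2) * (x / (x + 1)) := by field_simp
  rw [h1]
  exact mul_le_of_le_one_right (by positivity) (by rw [div_le_one (by positivity)]; linarith)

theorem exp_small (c : ℝ) (hc : 0 < c) (r : ℕ) : ∃ C : ℝ, 0 ≤ C ∧ ∀ s : ℝ, 0 < s →
    Real.exp (-(c / s)) ≤ C * s ^ r := by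
  refine ⟨r.factorial / c ^ r, by positivity, fun s hs => ?_⟩
  have h1 := Real.pow_div_factorial_le_exp (c / s) (by positivity) r
  have hf : (0:ℝ) < r.factorial := by positivity
  rw [div_pow, div_div, div_le_iff₀ (by positivity)] at h1
  rw [Real.exp_neg, inv_le_iff_one_le_mul₀ (Real.exp_pos _)]
  have hcr : 0 < c ^ r := by positivity
  have : (r.factorial : ℝ) / c ^ r * s ^ r * Real.exp (c / s) =
      (Real.exp (c / s) * (s ^ r * r.factorial)) / c ^ r := by ring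
  rw [this, le_div_iff₀ hcr]
  linarith

theorem kappa_le (κ : ℝ) (h0 : 0 < κ) (h1 : κ < 1) (x : ℝ) (n : ℕ) (h : x ≤ n) :
    κ ^ n ≤ Real.exp (-((-Real.log κ) * x)) := by
  have hl : Real.log κ < 0 := Real.log_neg h0 h1
  have : κ ^ n = Real.exp (n * Real.log κ) := by
    rw [mul_comm, Real.exp_mul, Real.exp_log h0, Real.rpow_natCast]
  rw [this]
  apply Real.exp_le_exp.2
  nlinarith

set_option maxHeartbeats 2000000 in
/-- part (b) -/
theorem LimHyp.partb {D S Vr : ℕ → ℕ → ℝ → ℝ} {u : ℕ → ℝ → ℝ} {δ : ℕ → ℕ → ℝ}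
    (h : LimHyp D S Vr u δ) (q : ℕ) : ∃ C : ℝ, 0 ≤ C ∧ ∀ T : ℝ, 0 < T → T ≤ 1 / 4 →
      ∃ N : ℕ, ∀ n ≥ N, ∀ m ≥ N, D n m T ≤ C * T ^ (q + 1) := by
  obtain ⟨Cp, hCp0, hP⟩ := h.prop
  obtain ⟨A, c, κ, hA, hc, hκ0, hκ1, hkey⟩ := h.key
  obtain ⟨Ck, hCk0, hkey⟩ := hkey (1 / 4)
  obtain ⟨Cv', hV'⟩ := h.V2 (2 * (q + 1)) (by omega)
  set Cv := max Cv' 0 with hCv
  have hCv0 : 0 ≤ Cv := le_max_right _ _
  obtain ⟨C₀', hsm'⟩ := h.small
  set C₀ := max C₀' 0 with hC₀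
  have hC₀0 : 0 ≤ C₀ := le_max_right _ _
  have hsm : ∀ n m s, 0 ≤ s → s ≤ 1 / 4 → D n m s ≤ C₀ * s := fun n m s h0 h1 =>
    (hsm' n m s h0 h1).trans (mul_le_mul_of_nonneg_right (le_max_left _ _) h0)
  have hg : 0 < -Real.log κ := by have := Real.log_neg hκ0 hκ1; linarith
  obtain ⟨Ce, hCe0, hCe⟩ := exp_small ((-Real.log κ) * A) (by positivity) (q + 11)
  obtain ⟨Cf, hCf0, hCf⟩ := exp_small c hc q
  set a₁ : ℝ := 2 * (A + 1) with ha₁
  have ha₁0 : 0 < a₁ := by positivity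
  set a₂ : ℝ := a₁ + 2 with ha₂
  have ha₂0 : 0 < a₂ := by positivity
  -- constants
  set Cb : ℝ := Ck * (a₁ ^ 2 * Cv + a₂ ^ 6 * Ce + Cf) with hCb
  have hCb0 : 0 ≤ Cb := by positivity
  set E : ℝ := Real.exp (Cp * (Ck * (a₁ ^ 2 * Cv * (2 * Real.sqrt (1 / 4)) + a₁ * (1 / 4)))) with hE
  refine ⟨(C₀ + Cp * Cb + 1) * E, by positivity, fun T hT hT4 => ?_⟩
  set t : ℝ := T ^ (q + 1) with ht
  have ht0 : 0 < t := by positivity
  have htT : t ≤ T := by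
    rw [ht, pow_succ]
    exact mul_le_of_le_one_left hT.le (pow_le_one₀ hT.le (by linarith))
  obtain ⟨N₁, hN₁⟩ := hkey t ht0
  -- small terms
  set c₁ : ℝ := Ck * (a₁ ^ 3 / t ^ 2) with hc₁
  have hc₁0 : 0 ≤ c₁ := by positivity
  set c₃ : ℝ := Ck * (a₁ ^ 2 * Cv / t + a₁ ^ 3 / t ^ 2) with hc₃
  have hc₃0 : 0 ≤ c₃ := by positivity
  obtain ⟨N₂, hN₂⟩ := h.u_lim_int T hT.le (T ^ (q + 1) / (2 * (Cp * c₁ + 1))) (by positivity)
  obtain ⟨N₃, hN₃⟩ := h.δ_lim (Real.sqrt (T ^ (q + 1) / (2 * (Cp * c₃ + 1)))) (by positivity)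
  refine ⟨max N₁ (max N₂ N₃), fun n hn m hm => ?_⟩
  have hn1 : N₁ ≤ n := le_trans (le_max_left _ _) hn
  have hm1 : N₁ ≤ m := le_trans (le_max_left _ _) hm
  have hn2 : N₂ ≤ n := le_trans (le_trans (le_max_left _ _) (le_max_right _ _)) hn
  have hm2 : N₂ ≤ m := le_trans (le_trans (le_max_left _ _) (le_max_right _ _)) hm
  have hn3 : N₃ ≤ n := le_trans (le_trans (le_max_right _ _) (le_max_right _ _)) hn
  have hm3 : N₃ ≤ m := le_trans (le_trans (le_max_right _ _) (le_max_right _ _)) hm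
  have hu2 := hN₂ n hn2 m hm2
  have hδ3 : δ n m ^ 2 ≤ T ^ (q + 1) / (2 * (Cp * c₃ + 1)) := by
    have := hN₃ n hn3 m hm3
    rw [← sq_abs]
    calc |δ n m| ^ 2 ≤ (Real.sqrt (T ^ (q + 1) / (2 * (Cp * c₃ + 1)))) ^ 2 :=
          pow_le_pow_left₀ (abs_nonneg _) this 2
      _ = _ := Real.sq_sqrt (by positivity)
  -- the bound for s S
  have hS : ∀ s ∈ Icc t T, min s (1 / 4) * S n m s ≤
      Ck * (a₁ ^ 2 * Cv * (1 / Real.sqrt s) + a₁) * D n m s + c₁ * (u n s - u m s) ^ 2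
        + (Cb * T ^ q + c₃ * δ n m ^ 2) := by
    intro s hs
    have hs0 : 0 < s := ht0.trans_le hs.1
    have hs4 : s ≤ 1 / 4 := hs.2.trans hT4
    have hmin : min s (1 / 4) = s := min_eq_left hs4
    have hDn := h.D_nonneg n m s hs0.le
    set n₀ : ℕ := ⌈A / s⌉₊ with hn₀
    set K₀ : ℕ := 2 * n₀ + ⌈1 / s ^ 2⌉₊ with hK₀
    have hn₀1 : A / s ≤ n₀ := Nat.le_ceil _
    have hn₀2 : (n₀ : ℝ) ≤ A / s + 1 := (Nat.ceil_lt_add_one (by positivity)).le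
    have h1s : 1 ≤ 1 / s := by rw [le_div_iff₀ hs0]; linarith
    have h2n : 2 * (n₀ : ℝ) ≤ a₁ / s := by
      have : a₁ / s = 2 * (A / s + 1 / s) := by rw [ha₁]; ring
      rw [this]; linarith
    have hceil : (⌈1 / s ^ 2⌉₊ : ℝ) ≤ 1 / s ^ 2 + 1 := (Nat.ceil_lt_add_one (by positivity)).le
    have hceil2 : 1 / s ^ 2 ≤ (⌈1 / s ^ 2⌉₊ : ℝ) := Nat.le_ceil _
    have hs2s : s ^ 2 ≤ s := by
      rw [pow_two]; exact mul_le_of_le_one_left hs0.le (by linarith)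
    have hsle : 1 / s ≤ 1 / s ^ 2 := one_div_le_one_div_of_le (by positivity) hs2s
    have h1s2 : 1 ≤ 1 / s ^ 2 := h1s.trans hsle
    have hK1 : (K₀ : ℝ) ≤ a₂ / s ^ 2 := by
      have e1 : (K₀ : ℝ) = 2 * (n₀ : ℝ) + (⌈1 / s ^ 2⌉₊ : ℝ) := by rw [hK₀]; push_cast; ring
      have e2 : a₂ / s ^ 2 = a₁ * (1 / s ^ 2) + 2 * (1 / s ^ 2) := by rw [ha₂]; ring
      have e3 : a₁ / s = a₁ * (1 / s) := by ring
      have e4 : a₁ * (1 / s) ≤ a₁ * (1 / s ^ 2) := mul_le_mul_of_nonneg_left hsle ha₁0.le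
      rw [e1, e2]; linarith
    have hK2 : 1 / s ≤ s * (K₀ : ℝ) := by
      have e1 : 1 / s ^ 2 ≤ (K₀ : ℝ) := by
        rw [hK₀]; push_cast
        have : (0:ℝ) ≤ n₀ := Nat.cast_nonneg _
        linarith
      have e2 : 1 / s = s * (1 / s ^ 2) := by field_simp
      rw [e2]; exact mul_le_mul_of_nonneg_left e1 hs0.le
    have hmain := hN₁ n hn1 m hm1 s hs.1 hs4 n₀ (by rw [hmin]; exact hn₀1) K₀ (by omega)
    rw [hmin] at hmain
    rw [hmin]
    -- bounds of the pieces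
    have hsq : 0 < Real.sqrt s := Real.sqrt_pos.2 hs0
    have hV := hV' n m s (Real.sqrt (Real.sqrt s)) hs0 hs4 (by positivity)
      (by rw [Real.sqrt_le_one]; rw [Real.sqrt_le_one]; linarith)
    rw [Real.sq_sqrt hsq.le, pow_mul (Real.sqrt (Real.sqrt s)) 2, Real.sq_sqrt hsq.le,
      pow_mul (Real.sqrt s) 2, Real.sq_sqrt hs0.le] at hV
    have hpw : s ^ (2 * (q + 1)) / s ^ (q + 1) = s ^ (q + 1) := by
      rw [div_eq_iff (by positivity), ← pow_add]; congr 1; ring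
    rw [hpw] at hV
    have hV2 : Vr n m s ≤ Cv * (Real.sqrt s * D n m s + δ n m ^ 2 + s ^ (q + 1)) :=
      hV.trans (mul_le_mul_of_nonneg_right (le_max_left _ _) (by positivity))
    set W : ℝ := Cv * (Real.sqrt s * D n m s + δ n m ^ 2 + s ^ (q + 1)) with hW
    have hW0 : 0 ≤ W := by positivity
    have b1 : (2 * (n₀:ℝ)) ^ 2 * Vr n m s ≤ (a₁ / s) ^ 2 * W := by
      calc (2 * (n₀:ℝ)) ^ 2 * Vr n m s ≤ (2 * (n₀:ℝ)) ^ 2 * W :=
            mul_le_mul_of_nonneg_left hV2 (by positivity)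
        _ ≤ (a₁ / s) ^ 2 * W :=
            mul_le_mul_of_nonneg_right (pow_le_pow_left₀ (by positivity) h2n 2) hW0
    have b2 : (2 * (n₀:ℝ)) ^ 3 * ((u n s - u m s) ^ 2 + δ n m ^ 2) ≤
        (a₁ / s) ^ 3 * ((u n s - u m s) ^ 2 + δ n m ^ 2) :=
      mul_le_mul_of_nonneg_right (pow_le_pow_left₀ (by positivity) h2n 3) (by positivity)
    have b3 : (2 * (n₀:ℝ)) * D n m s ≤ (a₁ / s) * D n m s :=
      mul_le_mul_of_nonneg_right h2n hDn
    have b4 : (K₀ : ℝ) ^ 6 * κ ^ (2 ^ n₀) ≤ (a₂ / s ^ 2) ^ 6 * (Ce * s ^ (q + 11)) := by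
      apply mul_le_mul (pow_le_pow_left₀ (by positivity) hK1 6) _ (by positivity) (by positivity)
      have e1 : κ ^ (2 ^ n₀) ≤ κ ^ n₀ :=
        pow_le_pow_of_le_one hκ0.le hκ1.le Nat.lt_two_pow_self.le
      have e2 := kappa_le κ hκ0 hκ1 (A / s) n₀ hn₀1
      have e3 := hCe s hs0
      rw [mul_div_assoc] at e3
      exact e1.trans (e2.trans e3)
    have b5 : s⁻¹ * Real.exp (-(c * s * K₀)) ≤ s⁻¹ * (Cf * s ^ q) := by
      apply mul_le_mul_of_nonneg_left _ (by positivity)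
      refine le_trans (Real.exp_le_exp.2 ?_) (hCf s hs0)
      have : c / s = c * (1 / s) := by ring
      rw [this, mul_assoc]
      exact neg_le_neg (mul_le_mul_of_nonneg_left hK2 hc.le)
    have hsum : s * S n m s ≤ s * (Ck * ((a₁ / s) ^ 2 * W + (a₁ / s) ^ 3 *
        ((u n s - u m s) ^ 2 + δ n m ^ 2) + (a₁ / s) * D n m s +
        (a₂ / s ^ 2) ^ 6 * (Ce * s ^ (q + 11)) + s⁻¹ * (Cf * s ^ q))) := by
      apply mul_le_mul_of_nonneg_left _ hs0.le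
      refine hmain.trans (mul_le_mul_of_nonneg_left ?_ hCk0)
      linarith
    refine hsum.trans ?_
    have hss : Real.sqrt s * Real.sqrt s = s := Real.mul_self_sqrt hs0.le
    have hrew : s * (Ck * ((a₁ / s) ^ 2 * W + (a₁ / s) ^ 3 *
        ((u n s - u m s) ^ 2 + δ n m ^ 2) + (a₁ / s) * D n m s +
        (a₂ / s ^ 2) ^ 6 * (Ce * s ^ (q + 11)) + s⁻¹ * (Cf * s ^ q))) =
        Ck * (a₁ ^ 2 * Cv * (1 / Real.sqrt s) + a₁) * D n m s
        + Ck * (a₁ ^ 3 / s ^ 2) * (u n s - u m s) ^ 2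
        + (Cb * s ^ q + Ck * (a₁ ^ 2 * Cv / s + a₁ ^ 3 / s ^ 2) * δ n m ^ 2) := by
      have e1 : s * (1 / Real.sqrt s) = Real.sqrt s := by
        rw [mul_one_div, div_eq_iff hsq.ne', hss]
      have e3 : s ^ (q + 11) = s ^ q * s ^ 11 := pow_add _ _ _
      have e4 : s ^ (q + 1) = s ^ q * s := pow_succ _ _
      rw [hW, hCb, e3, e4]
      have := alg_b s Ck a₁ a₂ Cv (D n m s) (δ n m ^ 2) ((u n s - u m s) ^ 2) (s ^ q) (1 / Real.sqrt s)
        Ce Cf hs0.ne'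
      rw [e1] at this
      exact this
    rw [hrew]
    have hsq' : s ^ q ≤ T ^ q := pow_le_pow_left₀ hs0.le hs.2 q
    have f1 : Ck * (a₁ ^ 3 / s ^ 2) ≤ c₁ := by
      rw [hc₁]
      apply mul_le_mul_of_nonneg_left _ hCk0
      exact div_le_div_of_nonneg_left (by positivity) (by positivity)
        (pow_le_pow_left₀ ht0.le hs.1 2)
    have f2 : Ck * (a₁ ^ 2 * Cv / s + a₁ ^ 3 / s ^ 2) ≤ c₃ := by
      rw [hc₃]
      apply mul_le_mul_of_nonneg_left _ hCk0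
      apply add_le_add
      · exact div_le_div_of_nonneg_left (by positivity) ht0 hs.1
      · exact div_le_div_of_nonneg_left (by positivity) (by positivity)
          (pow_le_pow_left₀ ht0.le hs.1 2)
    have f3 := mul_le_mul_of_nonneg_right f1 (sq_nonneg (u n s - u m s))
    have f4 := mul_le_mul_of_nonneg_right f2 (sq_nonneg (δ n m))
    have f5 := mul_le_mul_of_nonneg_left hsq' hCb0
    linarith
  have hres := hP n m (fun s => Ck * (a₁ ^ 2 * Cv * (1 / Real.sqrt s) + a₁))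
    (fun s => Ck * (a₁ ^ 2 * Cv * (2 * Real.sqrt s) + a₁ * s)) t T c₁
    (Cb * T ^ q + c₃ * δ n m ^ 2) ht0.le htT hc₁0 (by positivity)
    (by
      apply ContinuousOn.mul continuousOn_const
      apply ContinuousOn.add _ continuousOn_const
      apply ContinuousOn.mul continuousOn_const
      apply ContinuousOn.div continuousOn_const Real.continuous_sqrt.continuousOn
      intro s hs
      exact (Real.sqrt_pos.2 (ht0.trans_le hs.1)).ne')
    (fun s hs => by positivity)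
    (fun s hs => by
      have hs0 : 0 < s := ht0.trans_le hs.1
      have h1 := (Real.hasDerivAt_sqrt hs0.ne').const_mul 2
      have h2 : HasDerivAt (fun s => 2 * Real.sqrt s) (1 / Real.sqrt s) s := by
        rw [show (1:ℝ) / Real.sqrt s = 2 * (1 / (2 * Real.sqrt s)) by ring]
        exact h1
      have h3 := ((h2.const_mul (a₁ ^ 2 * Cv)).add ((hasDerivAt_id s).const_mul a₁)).const_mul Ck
      simpa using h3) hS
  have hT4' : 0 < T ^ (q + 1) := by positivity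
  have g1 : D n m t ≤ C₀ * T ^ (q + 1) := hsm n m t ht0.le (htT.trans hT4)
  have g2 : Cp * (c₁ * ∫ s in (0:ℝ)..T, (u n s - u m s) ^ 2) ≤ T ^ (q + 1) / 2 := by
    have hx0 : 0 ≤ Cp * c₁ := by positivity
    calc Cp * (c₁ * ∫ s in (0:ℝ)..T, (u n s - u m s) ^ 2)
        = (Cp * c₁) * ∫ s in (0:ℝ)..T, (u n s - u m s) ^ 2 := by ring
      _ ≤ (Cp * c₁) * (T ^ (q + 1) / (2 * (Cp * c₁ + 1))) := mul_le_mul_of_nonneg_left hu2 hx0
      _ ≤ T ^ (q + 1) / 2 := frac_le _ _ hx0 hT4'.le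
  have g3 : Cp * (c₃ * δ n m ^ 2) ≤ T ^ (q + 1) / 2 := by
    have hx0 : 0 ≤ Cp * c₃ := by positivity
    calc Cp * (c₃ * δ n m ^ 2) = (Cp * c₃) * δ n m ^ 2 := by ring
      _ ≤ (Cp * c₃) * (T ^ (q + 1) / (2 * (Cp * c₃ + 1))) := mul_le_mul_of_nonneg_left hδ3 hx0
      _ ≤ T ^ (q + 1) / 2 := frac_le _ _ hx0 hT4'.le
  have g4 : Cp * ((Cb * T ^ q + c₃ * δ n m ^ 2) * (T - t)) ≤ Cp * Cb * T ^ (q + 1) + T ^ (q + 1) / 2 := by
    have e1 : (Cb * T ^ q + c₃ * δ n m ^ 2) * (T - t) ≤ Cb * T ^ q * T + c₃ * δ n m ^ 2 := by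
      have i1 : Cb * T ^ q * (T - t) ≤ Cb * T ^ q * T :=
        mul_le_mul_of_nonneg_left (by linarith) (by positivity)
      have i2 : c₃ * δ n m ^ 2 * (T - t) ≤ c₃ * δ n m ^ 2 * 1 :=
        mul_le_mul_of_nonneg_left (by linarith) (by positivity)
      linarith
    have e2 := mul_le_mul_of_nonneg_left e1 hCp0
    have e3 : Cp * (Cb * T ^ q * T + c₃ * δ n m ^ 2) = Cp * Cb * T ^ (q + 1) + Cp * (c₃ * δ n m ^ 2) := by
      rw [pow_succ]; ring
    linarith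
  have g5 : Real.exp (Cp * ((Ck * (a₁ ^ 2 * Cv * (2 * Real.sqrt T) + a₁ * T)) -
      (Ck * (a₁ ^ 2 * Cv * (2 * Real.sqrt t) + a₁ * t)))) ≤ E := by
    apply Real.exp_le_exp.2
    apply mul_le_mul_of_nonneg_left _ hCp0
    have e1 : Ck * (a₁ ^ 2 * Cv * (2 * Real.sqrt T) + a₁ * T) ≤
        Ck * (a₁ ^ 2 * Cv * (2 * Real.sqrt (1 / 4)) + a₁ * (1 / 4)) := by
      apply mul_le_mul_of_nonneg_left _ hCk0
      apply add_le_add
      · apply mul_le_mul_of_nonneg_left _ (by positivity)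
        exact mul_le_mul_of_nonneg_left (Real.sqrt_le_sqrt hT4) (by norm_num)
      · exact mul_le_mul_of_nonneg_left hT4 ha₁0.le
    have e2 : 0 ≤ Ck * (a₁ ^ 2 * Cv * (2 * Real.sqrt t) + a₁ * t) := by positivity
    linarith
  have hE0 : 0 ≤ E := (Real.exp_pos _).le
  calc D n m T ≤ _ := hres
    _ ≤ ((C₀ + Cp * Cb + 1) * T ^ (q + 1)) * E := by
      apply mul_le_mul _ g5 (Real.exp_pos _).le (by positivity)
      have : Cp * (c₁ * (∫ s in (0:ℝ)..T, (u n s - u m s) ^ 2) + (Cb * T ^ q + c₃ * δ n m ^ 2) * (T - t)) =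
        Cp * (c₁ * (∫ s in (0:ℝ)..T, (u n s - u m s) ^ 2)) + Cp * ((Cb * T ^ q + c₃ * δ n m ^ 2) * (T - t)) := by
        ring
      rw [this]
      linarith
    _ = _ := by ring


theorem tendsto_quad (α β g : ℝ) (hg : 0 < g) :
    Tendsto (fun x : ℝ => Real.exp (α * x + β - g * x ^ 2)) atTop (𝓝 0) := by
  apply Real.tendsto_exp_atBot.comp
  have h1 : Tendsto (fun x : ℝ => x * (g * x - α)) atTop atTop := by
    apply Tendsto.atTop_mul_atTop₀ tendsto_id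
    exact tendsto_atTop_add_const_right _ _ (tendsto_id.const_mul_atTop hg)
  have h2 := tendsto_neg_atTop_atBot.comp h1
  have h3 := tendsto_atBot_add_const_left atTop β h2
  refine h3.congr (fun x => ?_)
  simp only [Function.comp]
  ring

theorem tendsto_lin (α β : ℝ) (hα : α < 0) :
    Tendsto (fun x : ℝ => Real.exp (α * x + β)) atTop (𝓝 0) := by
  apply Real.tendsto_exp_atBot.comp
  exact tendsto_atBot_add_const_right _ _ (tendsto_id.const_mul_atTop_of_neg hα)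

/-- the choice of the scale -/
theorem scale_choice (C₃ C₄ Q CQ c₅ a g c ε : ℝ) (hQ : C₃ < Q) (hg : 0 < g) (hc : 0 < c)
    (hε : 0 < ε) : ∃ X : ℝ, ∀ x : ℝ, X ≤ x →
    Real.exp (C₃ * x + C₄) * (CQ * Real.exp (-(Q * x)) +
      c₅ * (a * Real.exp (12 * x - g * x ^ 2) + Real.exp (-(c * x ^ 2)))) ≤ ε := by
  have h1 := (tendsto_lin (C₃ - Q) C₄ (by linarith)).const_mul CQ
  have h2 := (tendsto_quad (C₃ + 12) C₄ g hg).const_mul (c₅ * a)
  have h3 := (tendsto_quad C₃ C₄ c hc).const_mul c₅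
  have h4 := (h1.add h2).add h3
  simp only [mul_zero, add_zero] at h4
  obtain ⟨X, hX⟩ := eventually_atTop.1 (h4.eventually (gt_mem_nhds hε))
  refine ⟨X, fun x hx => ?_⟩
  have h5 := hX x hx
  have e1 : Real.exp ((C₃ - Q) * x + C₄) = Real.exp (C₃ * x + C₄) * Real.exp (-(Q * x)) := by
    rw [← Real.exp_add]; ring_nf
  have e2 : Real.exp ((C₃ + 12) * x + C₄ - g * x ^ 2) =
      Real.exp (C₃ * x + C₄) * Real.exp (12 * x - g * x ^ 2) := by
    rw [← Real.exp_add]; ring_nf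
  have e3 : Real.exp (C₃ * x + C₄ - c * x ^ 2) =
      Real.exp (C₃ * x + C₄) * Real.exp (-(c * x ^ 2)) := by
    rw [← Real.exp_add]; ring_nf
  rw [e1, e2, e3] at h5
  refine le_trans (le_of_eq ?_) h5.le
  ring

set_option maxHeartbeats 2000000 in
/-- parts (c), (d) -/
theorem LimHyp.partc {D S Vr : ℕ → ℕ → ℝ → ℝ} {u : ℕ → ℝ → ℝ} {δ : ℕ → ℕ → ℝ}
    (h : LimHyp D S Vr u δ) (T : ℝ) (hT : 1 / 4 ≤ T) (ε : ℝ) (hε : 0 < ε) :
    ∃ N : ℕ, ∀ n ≥ N, ∀ m ≥ N, D n m T ≤ ε := by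
  obtain ⟨Cp, hCp0, hP⟩ := h.prop
  obtain ⟨A, c, κ, hA, hc, hκ0, hκ1, hkey⟩ := h.key
  obtain ⟨Ck, hCk0, hkey⟩ := hkey T
  obtain ⟨Cv', hV'⟩ := h.V1 T
  set Cv := max Cv' 0 with hCv
  have hCv0 : 0 ≤ Cv := le_max_right _ _
  have hT0 : 0 < T := by linarith
  set g : ℝ := -Real.log κ with hgdef
  have hg : 0 < g := by have := Real.log_neg hκ0 hκ1; linarith
  set a₁ : ℝ := 2 * (A + 1) with ha₁
  have ha₁0 : 0 < a₁ := by positivity
  set a₃ : ℝ := a₁ + 11 with ha₃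
  have ha₃0 : 0 < a₃ := by positivity
  -- kernel constants: K T - K s₁ ≤ α x + β
  set α : ℝ := Ck * (Cv * (2 * a₁ ^ 2 + 32 * T) + 2 * T) with hα
  set β : ℝ := Ck * (Cv * (2 * a₁ ^ 2 * (Real.log T + 4 * T)) + a₁ * T) with hβ
  obtain ⟨q, hq⟩ := exists_nat_gt (Cp * α)
  obtain ⟨CQ, hCQ0, hCQ⟩ := h.partb q
  obtain ⟨X, hX⟩ := scale_choice (Cp * α) (Cp * β) ((q : ℝ) + 1) CQ (Cp * Ck * T) (a₃ ^ 6) g c (ε / 2)
    (by linarith) hg hc (by positivity)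
  -- choice of l
  obtain ⟨l, hl⟩ := exists_nat_gt (max X 2)
  set x : ℝ := (4:ℝ) ^ l with hx
  have hlx : (l : ℝ) ≤ x := by
    have : l < 4 ^ l := Nat.lt_pow_self (by norm_num)
    rw [hx]; exact_mod_cast this.le
  have hlx2 : (l : ℝ) ^ 2 ≤ x := by
    have h1 : l < 2 ^ l := Nat.lt_two_pow_self
    have h2 : l ^ 2 ≤ (2 ^ l) ^ 2 := Nat.pow_le_pow_left h1.le 2
    have h3 : ((2:ℕ) ^ l) ^ 2 = 4 ^ l := by rw [← pow_mul, mul_comm, pow_mul]; norm_num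
    rw [h3] at h2
    rw [hx]; exact_mod_cast h2
  have hXx : X ≤ x := (le_max_left _ _).trans (hl.le.trans hlx)
  have hx2 : 2 ≤ x := (le_max_right _ _).trans (hl.le.trans hlx)
  have hx0 : 0 < x := by linarith
  set s₁ : ℝ := Real.exp (-x) with hs₁
  have hs₁0 : 0 < s₁ := Real.exp_pos _
  have hs₁4 : s₁ ≤ 1 / 4 := by
    rw [hs₁, Real.exp_neg, inv_le_comm₀ (Real.exp_pos _) (by norm_num)]
    have h1 : Real.exp x ≥ Real.exp 2 := Real.exp_le_exp.2 hx2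
    have h2 : (4:ℝ) ≤ Real.exp 2 := by
      have := Real.quadratic_le_exp_of_nonneg (x := 2) (by norm_num)
      linarith
    norm_num
    linarith
  have hs₁T : s₁ ≤ T := hs₁4.trans hT
  obtain ⟨N₀, hN₀⟩ := hCQ s₁ hs₁0 hs₁4
  obtain ⟨N₁, hN₁⟩ := hkey s₁ hs₁0
  set M : ℝ := a₁ / s₁ + 8 * l with hM
  have hM0 : 0 ≤ M := by positivity
  set c₁ : ℝ := Ck * M ^ 3 with hc₁
  have hc₁0 : 0 ≤ c₁ := by positivity
  set c₃ : ℝ := Ck * (M ^ 2 * Cv + M ^ 3) with hc₃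
  have hc₃0 : 0 ≤ c₃ := by positivity
  set E : ℝ := Real.exp (Cp * α * x + Cp * β) with hE
  have hE0 : 0 < E := Real.exp_pos _
  obtain ⟨N₂, hN₂⟩ := h.u_lim_int T hT0.le ((ε / (2 * E)) / (2 * (Cp * c₁ + 1))) (by positivity)
  obtain ⟨N₃, hN₃⟩ := h.δ_lim (Real.sqrt ((ε / (2 * E)) / (2 * (Cp * c₃ * T + 1)))) (by positivity)
  refine ⟨max N₀ (max N₁ (max N₂ N₃)), fun n hn m hm => ?_⟩
  have hn0 : N₀ ≤ n := le_trans (le_max_left _ _) hn
  have hm0 : N₀ ≤ m := le_trans (le_max_left _ _) hm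
  have hn' := le_trans (le_max_right _ _) hn
  have hm' := le_trans (le_max_right _ _) hm
  have hn1 : N₁ ≤ n := le_trans (le_max_left _ _) hn'
  have hm1 : N₁ ≤ m := le_trans (le_max_left _ _) hm'
  have hn2 : N₂ ≤ n := le_trans (le_trans (le_max_left _ _) (le_max_right _ _)) hn'
  have hm2 : N₂ ≤ m := le_trans (le_trans (le_max_left _ _) (le_max_right _ _)) hm'
  have hn3 : N₃ ≤ n := le_trans (le_trans (le_max_right _ _) (le_max_right _ _)) hn'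
  have hm3 : N₃ ≤ m := le_trans (le_trans (le_max_right _ _) (le_max_right _ _)) hm'
  have hu2 := hN₂ n hn2 m hm2
  have hδ3 : δ n m ^ 2 ≤ (ε / (2 * E)) / (2 * (Cp * c₃ * T + 1)) := by
    have := hN₃ n hn3 m hm3
    rw [← sq_abs]
    calc |δ n m| ^ 2 ≤ (Real.sqrt ((ε / (2 * E)) / (2 * (Cp * c₃ * T + 1)))) ^ 2 :=
          pow_le_pow_left₀ (abs_nonneg _) this 2
      _ = _ := Real.sq_sqrt (by positivity)
  set R : ℝ := a₃ ^ 6 * Real.exp (12 * x - g * x ^ 2) + Real.exp (-(c * x ^ 2)) with hR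
  have hR0 : 0 ≤ R := by positivity
  have hxe : x ≤ Real.exp x := by linarith [Real.add_one_le_exp x]
  have hxe2 : x ^ 2 ≤ 2 * Real.exp x := by
    have := Real.quadratic_le_exp_of_nonneg hx0.le
    linarith
  have h1e : 1 ≤ Real.exp x := Real.one_le_exp hx0.le
  have h1s₁ : 1 / s₁ = Real.exp x := by rw [hs₁, Real.exp_neg]; simp
  have hee : Real.exp x * Real.exp x = Real.exp (2 * x) := by rw [← Real.exp_add]; congr 1; ring
  have hx2n : (2:ℝ) ^ (4 * l) = x ^ 2 := by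
    rw [hx, ← pow_mul, show (4:ℝ) = 2 ^ 2 by norm_num, ← pow_mul]; congr 1; ring
  have hS : ∀ s ∈ Icc s₁ T, min s (1 / 4) * S n m s ≤
      (Ck * (Cv * (2 * a₁ ^ 2 * (1 / s + 4) + 32 * x) + a₁ + 2 * x)) * D n m s
        + c₁ * (u n s - u m s) ^ 2 + (Ck * R + c₃ * δ n m ^ 2) := by
    intro s hs
    have hs0 : 0 < s := hs₁0.trans_le hs.1
    have hDn := h.D_nonneg n m s hs0.le
    set s' : ℝ := min s (1 / 4) with hs'
    have hs'0 : 0 < s' := lt_min hs0 (by norm_num)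
    have hs'1 : s₁ ≤ s' := le_min hs.1 hs₁4
    have hs'4 : s' ≤ 1 / 4 := min_le_right _ _
    have hinv : 1 / s' ≤ 1 / s + 4 := by
      rcases le_total s (1 / 4) with h4 | h4
      · rw [hs', min_eq_left h4]; linarith
      · rw [hs', min_eq_right h4]
        have : 0 < 1 / s := by positivity
        norm_num; linarith
    have h1s' : 1 ≤ 1 / s' := by rw [le_div_iff₀ hs'0]; linarith
    have hs's : 1 / s' ≤ Real.exp x := by
      rw [← h1s₁]; exact one_div_le_one_div_of_le hs₁0 hs'1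
    set n₀ : ℕ := ⌈A / s'⌉₊ + 4 * l with hn₀
    set K₀ : ℕ := 2 * n₀ + ⌈x ^ 2 / s'⌉₊ with hK₀
    have hc1 : A / s' ≤ (⌈A / s'⌉₊ : ℝ) := Nat.le_ceil _
    have hc2 : (⌈A / s'⌉₊ : ℝ) ≤ A / s' + 1 := (Nat.ceil_lt_add_one (by positivity)).le
    have hn₀c : (n₀ : ℝ) = (⌈A / s'⌉₊ : ℝ) + 4 * l := by rw [hn₀]; push_cast; ring
    have hn₀1 : A / s' ≤ n₀ := by
      rw [hn₀c]
      have : (0:ℝ) ≤ l := Nat.cast_nonneg _
      linarith
    have h2n : 2 * (n₀ : ℝ) ≤ a₁ / s' + 8 * l := by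
      have : a₁ / s' = 2 * (A / s' + 1 / s') := by rw [ha₁]; ring
      rw [this, hn₀c]; linarith
    have ha₁s : a₁ / s' ≤ a₁ / s₁ := div_le_div_of_nonneg_left ha₁0.le hs₁0 hs'1
    have h2nM : 2 * (n₀ : ℝ) ≤ M := by rw [hM]; linarith
    have hk1 : x ^ 2 / s' ≤ (⌈x ^ 2 / s'⌉₊ : ℝ) := Nat.le_ceil _
    have hk2 : (⌈x ^ 2 / s'⌉₊ : ℝ) ≤ x ^ 2 / s' + 1 := (Nat.ceil_lt_add_one (by positivity)).le
    have hK₀c : (K₀ : ℝ) = 2 * (n₀ : ℝ) + (⌈x ^ 2 / s'⌉₊ : ℝ) := by rw [hK₀]; push_cast; ring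
    have hK1 : (K₀ : ℝ) ≤ a₃ * Real.exp (2 * x) := by
      have e1 : a₁ / s' ≤ a₁ * Real.exp x := by
        rw [div_eq_mul_one_div]; exact mul_le_mul_of_nonneg_left hs's ha₁0.le
      have e2 : x ^ 2 / s' ≤ 2 * Real.exp x * Real.exp x := by
        rw [div_eq_mul_one_div]
        exact mul_le_mul hxe2 hs's (by positivity) (by positivity)
      have e3 : Real.exp x ≤ Real.exp (2 * x) := Real.exp_le_exp.2 (by linarith)
      have e4 : a₁ * Real.exp x ≤ a₁ * Real.exp (2 * x) := mul_le_mul_of_nonneg_left e3 ha₁0.le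
      have e5 : 2 * Real.exp x * Real.exp x = 2 * Real.exp (2 * x) := by rw [mul_assoc, hee]
      rw [hK₀c, ha₃, add_mul]
      rw [e5] at e2
      linarith
    have hK2 : x ^ 2 ≤ s' * (K₀ : ℝ) := by
      have e1 : x ^ 2 / s' ≤ (K₀ : ℝ) := by
        rw [hK₀c]
        have : (0:ℝ) ≤ n₀ := Nat.cast_nonneg _
        linarith
      rw [div_le_iff₀ hs'0] at e1
      linarith
    have hmain := hN₁ n hn1 m hm1 s hs.1 hs.2 n₀ hn₀1 K₀ (by omega)
    rw [← hs'] at hmain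
    have hV2 : Vr n m s ≤ Cv * (D n m s + δ n m ^ 2) :=
      (hV' n m s hs0.le hs.2).trans (mul_le_mul_of_nonneg_right (le_max_left _ _) (by positivity))
    have hn₀0 : (0:ℝ) ≤ n₀ := Nat.cast_nonneg _
    have hl0 : (0:ℝ) ≤ l := Nat.cast_nonneg _
    -- square bound
    have hsq : s' * (2 * (n₀:ℝ)) ^ 2 ≤ 2 * a₁ ^ 2 * (1 / s + 4) + 32 * x := by
      have e1 : (2 * (n₀:ℝ)) ^ 2 ≤ (a₁ / s' + 8 * l) ^ 2 := pow_le_pow_left₀ (by positivity) h2n 2
      have e2 : (a₁ / s' + 8 * l) ^ 2 ≤ 2 * (a₁ / s') ^ 2 + 2 * (8 * (l:ℝ)) ^ 2 := by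
        linarith [sq_nonneg (a₁ / s' - 8 * l)]
      have e3 : s' * (2 * (a₁ / s') ^ 2 + 2 * (8 * (l:ℝ)) ^ 2) =
          2 * a₁ ^ 2 * (1 / s') + 128 * (s' * (l:ℝ) ^ 2) := by
        field_simp; ring
      have e4 : s' * (l:ℝ) ^ 2 ≤ 1 / 4 * x := mul_le_mul hs'4 hlx2 (by positivity) (by norm_num)
      have e5 : 2 * a₁ ^ 2 * (1 / s') ≤ 2 * a₁ ^ 2 * (1 / s + 4) :=
        mul_le_mul_of_nonneg_left hinv (by positivity)
      have e6 := mul_le_mul_of_nonneg_left (e1.trans e2) hs'0.le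
      rw [e3] at e6
      linarith
    have hlin : s' * (2 * (n₀:ℝ)) ≤ a₁ + 2 * x := by
      have e1 := mul_le_mul_of_nonneg_left h2n hs'0.le
      have e2 : s' * (a₁ / s' + 8 * l) = a₁ + 8 * (s' * l) := by field_simp
      have e3 : s' * (l:ℝ) ≤ 1 / 4 * x := mul_le_mul hs'4 hlx (by positivity) (by norm_num)
      rw [e2] at e1
      linarith
    have hκb : κ ^ (2 ^ n₀) ≤ Real.exp (-(g * x ^ 2)) := by
      have e1 : κ ^ (2 ^ n₀) ≤ κ ^ (2 ^ (4 * l)) :=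
        pow_le_pow_of_le_one hκ0.le hκ1.le (Nat.pow_le_pow_right (by norm_num) (by omega))
      have e2 := kappa_le κ hκ0 hκ1 (x ^ 2) (2 ^ (4 * l)) (by push_cast; rw [hx2n])
      exact e1.trans e2
    have b4 : (K₀ : ℝ) ^ 6 * κ ^ (2 ^ n₀) ≤ a₃ ^ 6 * Real.exp (12 * x - g * x ^ 2) := by
      have e1 : (K₀ : ℝ) ^ 6 ≤ (a₃ * Real.exp (2 * x)) ^ 6 := pow_le_pow_left₀ (by positivity) hK1 6
      have e2 : (a₃ * Real.exp (2 * x)) ^ 6 = a₃ ^ 6 * Real.exp (12 * x) := by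
        rw [mul_pow, ← Real.exp_nat_mul]; congr 2; push_cast; ring
      have e3 : Real.exp (12 * x - g * x ^ 2) = Real.exp (12 * x) * Real.exp (-(g * x ^ 2)) := by
        rw [← Real.exp_add]; congr 1
      rw [e3, ← mul_assoc]
      rw [e2] at e1
      exact mul_le_mul e1 hκb (by positivity) (by positivity)
    have b5 : Real.exp (-(c * s' * K₀)) ≤ Real.exp (-(c * x ^ 2)) := by
      apply Real.exp_le_exp.2
      rw [mul_assoc]
      exact neg_le_neg (mul_le_mul_of_nonneg_left hK2 hc.le)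
    have hDδ : 0 ≤ Cv * (D n m s + δ n m ^ 2) := by positivity
    -- final combination
    have t1 : s' * ((2 * (n₀:ℝ)) ^ 2 * Vr n m s) ≤
        Cv * (2 * a₁ ^ 2 * (1 / s + 4) + 32 * x) * D n m s + M ^ 2 * Cv * δ n m ^ 2 := by
      have e1 : s' * ((2 * (n₀:ℝ)) ^ 2 * Vr n m s) ≤ s' * ((2 * (n₀:ℝ)) ^ 2 * (Cv * (D n m s + δ n m ^ 2))) :=
        mul_le_mul_of_nonneg_left (mul_le_mul_of_nonneg_left hV2 (by positivity)) hs'0.le
      have e2 : s' * ((2 * (n₀:ℝ)) ^ 2 * (Cv * (D n m s + δ n m ^ 2))) =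
        (s' * (2 * (n₀:ℝ)) ^ 2) * (Cv * D n m s) + s' * ((2 * (n₀:ℝ)) ^ 2 * (Cv * δ n m ^ 2)) := by ring
      have e3 := mul_le_mul_of_nonneg_right hsq (mul_nonneg hCv0 hDn)
      have e4 : (2 * (n₀:ℝ)) ^ 2 ≤ M ^ 2 := pow_le_pow_left₀ (by positivity) h2nM 2
      have e5 : s' * ((2 * (n₀:ℝ)) ^ 2 * (Cv * δ n m ^ 2)) ≤ 1 * (M ^ 2 * (Cv * δ n m ^ 2)) :=
        mul_le_mul (by linarith) (mul_le_mul_of_nonneg_right e4 (by positivity)) (by positivity) (by norm_num)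
      have e6 : (2 * a₁ ^ 2 * (1 / s + 4) + 32 * x) * (Cv * D n m s) =
        Cv * (2 * a₁ ^ 2 * (1 / s + 4) + 32 * x) * D n m s := by ring
      rw [e2] at e1
      rw [e6] at e3
      linarith
    have t2 : s' * ((2 * (n₀:ℝ)) ^ 3 * ((u n s - u m s) ^ 2 + δ n m ^ 2)) ≤
        M ^ 3 * ((u n s - u m s) ^ 2 + δ n m ^ 2) := by
      have e4 : (2 * (n₀:ℝ)) ^ 3 ≤ M ^ 3 := pow_le_pow_left₀ (by positivity) h2nM 3
      calc s' * ((2 * (n₀:ℝ)) ^ 3 * ((u n s - u m s) ^ 2 + δ n m ^ 2))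
          ≤ 1 * (M ^ 3 * ((u n s - u m s) ^ 2 + δ n m ^ 2)) :=
            mul_le_mul (by linarith) (mul_le_mul_of_nonneg_right e4 (by positivity)) (by positivity)
              (by norm_num)
        _ = _ := one_mul _
    have t3 : s' * ((2 * (n₀:ℝ)) * D n m s) ≤ (a₁ + 2 * x) * D n m s := by
      rw [← mul_assoc]; exact mul_le_mul_of_nonneg_right hlin hDn
    have t4 : s' * ((K₀ : ℝ) ^ 6 * κ ^ (2 ^ n₀)) ≤ a₃ ^ 6 * Real.exp (12 * x - g * x ^ 2) := by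
      calc s' * ((K₀ : ℝ) ^ 6 * κ ^ (2 ^ n₀)) ≤ 1 * (a₃ ^ 6 * Real.exp (12 * x - g * x ^ 2)) :=
            mul_le_mul (by linarith) b4 (by positivity) (by norm_num)
        _ = _ := one_mul _
    have t5 : s' * (s'⁻¹ * Real.exp (-(c * s' * K₀))) ≤ Real.exp (-(c * x ^ 2)) := by
      rw [← mul_assoc, mul_inv_cancel₀ hs'0.ne', one_mul]; exact b5
    have hfin := mul_le_mul_of_nonneg_left hmain hs'0.le
    refine hfin.trans ?_
    have e7 : s' * (Ck * ((2 * (n₀:ℝ)) ^ 2 * Vr n m s + (2 * (n₀:ℝ)) ^ 3 * ((u n s - u m s) ^ 2 + δ n m ^ 2)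
      + (2 * (n₀:ℝ)) * D n m s + (K₀ : ℝ) ^ 6 * κ ^ (2 ^ n₀)
      + s'⁻¹ * Real.exp (-(c * s' * K₀)))) =
      Ck * (s' * ((2 * (n₀:ℝ)) ^ 2 * Vr n m s) + s' * ((2 * (n₀:ℝ)) ^ 3 * ((u n s - u m s) ^ 2 + δ n m ^ 2))
       + s' * ((2 * (n₀:ℝ)) * D n m s) + s' * ((K₀ : ℝ) ^ 6 * κ ^ (2 ^ n₀))
       + s' * (s'⁻¹ * Real.exp (-(c * s' * K₀)))) := by ring
    rw [e7]
    have e8 := mul_le_mul_of_nonneg_left (add_le_add (add_le_add (add_le_add (add_le_add t1 t2) t3) t4) t5) hCk0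
    refine e8.trans (le_of_eq ?_)
    rw [hc₁, hc₃, hR]
    ring
  have hres := hP n m (fun s => Ck * (Cv * (2 * a₁ ^ 2 * (1 / s + 4) + 32 * x) + a₁ + 2 * x))
    (fun s => Ck * (Cv * (2 * a₁ ^ 2 * (Real.log s + 4 * s) + 32 * x * s) + (a₁ + 2 * x) * s)) s₁ T c₁
    (Ck * R + c₃ * δ n m ^ 2) hs₁0.le hs₁T hc₁0 (by positivity)
    (by
      apply ContinuousOn.mul continuousOn_const
      apply ContinuousOn.add _ continuousOn_const
      apply ContinuousOn.add _ continuousOn_const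
      apply ContinuousOn.mul continuousOn_const
      apply ContinuousOn.add _ continuousOn_const
      apply ContinuousOn.mul continuousOn_const
      apply ContinuousOn.add _ continuousOn_const
      apply ContinuousOn.div continuousOn_const continuousOn_id
      intro s hs
      exact (hs₁0.trans_le hs.1).ne')
    (fun s hs => by
      have hs0 : 0 < s := hs₁0.trans_le hs.1
      positivity)
    (fun s hs => by
      have hs0 : 0 < s := hs₁0.trans_le hs.1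
      have h1 := ((Real.hasDerivAt_log hs0.ne').add ((hasDerivAt_id s).const_mul 4)).const_mul (2 * a₁ ^ 2)
      have h2 := (h1.add ((hasDerivAt_id s).const_mul (32 * x))).const_mul Cv
      have h3 := (h2.add ((hasDerivAt_id s).const_mul (a₁ + 2 * x))).const_mul Ck
      refine h3.congr_deriv ?_
      rw [one_div]
      ring) hS
  have g0 : Cp * ((Ck * (Cv * (2 * a₁ ^ 2 * (Real.log T + 4 * T) + 32 * x * T) + (a₁ + 2 * x) * T)) -
      (Ck * (Cv * (2 * a₁ ^ 2 * (Real.log s₁ + 4 * s₁) + 32 * x * s₁) + (a₁ + 2 * x) * s₁)))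
      ≤ Cp * α * x + Cp * β := by
    have e1 : Real.log s₁ = -x := by rw [hs₁, Real.log_exp]
    have e2 : (Ck * (Cv * (2 * a₁ ^ 2 * (Real.log T + 4 * T) + 32 * x * T) + (a₁ + 2 * x) * T)) -
      (Ck * (Cv * (2 * a₁ ^ 2 * (Real.log s₁ + 4 * s₁) + 32 * x * s₁) + (a₁ + 2 * x) * s₁)) =
      α * x + β - Ck * (Cv * (2 * a₁ ^ 2 * (4 * s₁) + 32 * x * s₁) + (a₁ + 2 * x) * s₁) := by
      rw [e1, hα, hβ]; ring
    have e3 : 0 ≤ Ck * (Cv * (2 * a₁ ^ 2 * (4 * s₁) + 32 * x * s₁) + (a₁ + 2 * x) * s₁) := by positivity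
    rw [e2]
    have e4 := mul_nonneg hCp0 e3
    linarith
  have g1 : D n m s₁ ≤ CQ * Real.exp (-(((q:ℝ) + 1) * x)) := by
    have e1 := hN₀ n hn0 m hm0
    have e2 : s₁ ^ (q + 1) = Real.exp (-(((q:ℝ) + 1) * x)) := by
      rw [hs₁, ← Real.exp_nat_mul]; congr 1; push_cast; ring
    rwa [e2] at e1
  have g2 : Cp * (c₁ * ∫ s in (0:ℝ)..T, (u n s - u m s) ^ 2) ≤ (ε / (2 * E)) / 2 := by
    have hx0 : 0 ≤ Cp * c₁ := by positivity
    calc Cp * (c₁ * ∫ s in (0:ℝ)..T, (u n s - u m s) ^ 2)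
        = (Cp * c₁) * ∫ s in (0:ℝ)..T, (u n s - u m s) ^ 2 := by ring
      _ ≤ (Cp * c₁) * ((ε / (2 * E)) / (2 * (Cp * c₁ + 1))) := mul_le_mul_of_nonneg_left hu2 hx0
      _ ≤ (ε / (2 * E)) / 2 := frac_le _ _ hx0 (by positivity)
  have g3 : Cp * c₃ * T * δ n m ^ 2 ≤ (ε / (2 * E)) / 2 := by
    have hx0 : 0 ≤ Cp * c₃ * T := by positivity
    calc Cp * c₃ * T * δ n m ^ 2
        ≤ (Cp * c₃ * T) * ((ε / (2 * E)) / (2 * (Cp * c₃ * T + 1))) := mul_le_mul_of_nonneg_left hδ3 hx0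
      _ ≤ (ε / (2 * E)) / 2 := frac_le _ _ hx0 (by positivity)
  have g4 : Cp * ((Ck * R + c₃ * δ n m ^ 2) * (T - s₁)) ≤ Cp * Ck * T * R + Cp * c₃ * T * δ n m ^ 2 := by
    have e1 : (Ck * R + c₃ * δ n m ^ 2) * (T - s₁) ≤ (Ck * R + c₃ * δ n m ^ 2) * T :=
      mul_le_mul_of_nonneg_left (by linarith) (by positivity)
    have e2 := mul_le_mul_of_nonneg_left e1 hCp0
    refine e2.trans (le_of_eq ?_)
    ring
  have hfin := hX x hXx
  have hexp : Real.exp (Cp * ((Ck * (Cv * (2 * a₁ ^ 2 * (Real.log T + 4 * T) + 32 * x * T) + (a₁ + 2 * x) * T)) -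
      (Ck * (Cv * (2 * a₁ ^ 2 * (Real.log s₁ + 4 * s₁) + 32 * x * s₁) + (a₁ + 2 * x) * s₁)))) ≤ E :=
    Real.exp_le_exp.2 g0
  have hEE : E * (ε / (2 * E)) = ε / 2 := by field_simp
  calc D n m T ≤ _ := hres
    _ ≤ (CQ * Real.exp (-(((q:ℝ) + 1) * x)) + Cp * Ck * T * R + ε / (2 * E)) * E := by
      apply mul_le_mul _ hexp (Real.exp_pos _).le (by positivity)
      have e1 : Cp * (c₁ * (∫ s in (0:ℝ)..T, (u n s - u m s) ^ 2) + (Ck * R + c₃ * δ n m ^ 2) * (T - s₁)) =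
        Cp * (c₁ * (∫ s in (0:ℝ)..T, (u n s - u m s) ^ 2)) + Cp * ((Ck * R + c₃ * δ n m ^ 2) * (T - s₁)) := by
        ring
      rw [e1]
      linarith
    _ = Real.exp (Cp * α * x + Cp * β) * (CQ * Real.exp (-(((q:ℝ) + 1) * x)) + Cp * Ck * T * R)
        + E * (ε / (2 * E)) := by rw [hE]; ring
    _ ≤ ε / 2 + ε / 2 := by rw [hEE]; linarith
    _ = ε := by ring

/-- section 7: `D*(T) = 0` for all `T` -/
theorem lim_calculus {D S Vr : ℕ → ℕ → ℝ → ℝ} {u : ℕ → ℝ → ℝ} {δ : ℕ → ℕ → ℝ}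
    (h : LimHyp D S Vr u δ) (T : ℝ) (hT : 0 ≤ T) (ε : ℝ) (hε : 0 < ε) :
    ∃ N : ℕ, ∀ n ≥ N, ∀ m ≥ N, D n m T ≤ ε := by
  obtain ⟨N, hN⟩ := h.partc (max T (1 / 4)) (le_max_right _ _) ε hε
  exact ⟨N, fun n hn m hm => (h.D_mono n m T _ hT (le_max_left _ _)).trans (hN n hn m hm)⟩

end Crest.Agent.T41
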