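import Mathlib
import Crest.Agent.T41Defs

/-!
S0241 section 4, part 1: the operation `conv` on laws of data.
-/

set_option autoImplicit false

namespace Crest.Agent.T41

open MeasureTheory Set

noncomputable section

/-- symmetric laws of data with bounds -/
structure GoodD (a K : ℝ) (μ : Measure Dat) : Prop where
  prob : IsProbabilityMeasure μ
  symm : μ.map (fun x : Dat => (-x.1, x.2)) = μ
  bdd : ∀ᵐ x ∂μ, |x.1| ≤ a
  Ybd : ∀ᵐ x ∂μ, ∀ i, 0 ≤ x.2 i ∧ x.2 i ≤ K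

theorem measurable_op2 : Measurable (fun p : ℝ × ℝ => op p.1 p.2) := by
  unfold op; fun_prop

theorem measurable_opD : Measurable (fun p : Dat × Dat => opD p.1 p.2) := by
  unfold opD
  refine Measurable.prodMk ?_ ?_
  · unfold op; fun_prop
  · exact (measurable_snd.comp measurable_fst).add (measurable_snd.comp measurable_snd)

/-- the flip of the sign -/
def ngD (x : Dat) : Dat := (-x.1, x.2)

theorem measurable_ngD : Measurable ngD := by unfold ngD; fun_prop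

theorem one_op_neg_neg (a b : ℝ) : op (-a) (-b) = -op a b := by
  unfold op; rw [show -a * -b = a * b by ring, show -a + -b = -(a + b) by ring, neg_div]

theorem one_op_comm (a b : ℝ) : op a b = op b a := by
  unfold op; rw [add_comm a b, mul_comm a b]

theorem one_op_neg_right (a b : ℝ) : op (-a) b = -op a (-b) := by
  unfold op; rw [show -a * b = a * -b by ring, show -a + b = -(a + -b) by ring, neg_div]

theorem one_abs_op_le {a b x y : ℝ} (hx : |x| ≤ a) (hy : |y| ≤ b) (ha : a < 1) (hb : b < 1) :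
    |op x y| ≤ op a b := by
  have ha0 : 0 ≤ a := le_trans (abs_nonneg x) hx
  have hb0 : 0 ≤ b := le_trans (abs_nonneg y) hy
  have hx' := abs_le.mp hx
  have hy' := abs_le.mp hy
  have hxy : -1 < x * y := by nlinarith [abs_mul x y, neg_abs_le (x * y), mul_le_mul hx hy (abs_nonneg y) ha0]
  have h1 : 0 < 1 + x * y := by linarith
  have h2 : 0 < 1 + a * b := by positivity
  unfold op
  rw [abs_le, ← neg_div, div_le_div_iff₀ h2 h1, div_le_div_iff₀ h1 h2]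
  constructor
  · nlinarith [mul_nonneg (sub_nonneg.mpr hx'.2) (sub_nonneg.mpr hy'.2), mul_nonneg (sub_nonneg.mpr hx'.1) (sub_nonneg.mpr hy'.1), mul_nonneg (sub_nonneg.mpr hx'.1) (sub_nonneg.mpr ha.le), mul_nonneg (sub_nonneg.mpr hy'.1) (sub_nonneg.mpr hb.le), mul_nonneg ha0 hb0,
      mul_nonneg (by linarith [hx'.1] : 0 ≤ x + a) (by nlinarith : 0 ≤ 1 - b * b), mul_nonneg (by linarith [hy'.1] : 0 ≤ y + b) (by nlinarith : 0 ≤ 1 - a * a), mul_nonneg (by linarith [hx'.1] : 0 ≤ x + a) (by linarith [hy'.1] : 0 ≤ y + b)]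
  · nlinarith [mul_nonneg (by linarith [hx'.2] : 0 ≤ a - x) (by nlinarith : 0 ≤ 1 - b * b), mul_nonneg (by linarith [hy'.2] : 0 ≤ b - y) (by nlinarith : 0 ≤ 1 - a * a), mul_nonneg (by linarith [hx'.2] : 0 ≤ a - x) (by linarith [hy'.2] : 0 ≤ b - y)]


variable {a₁ a₂ K₁ K₂ : ℝ} {μ₁ μ₂ : Measure Dat}

theorem GoodD.mp (h : GoodD a₁ K₁ μ₁) : MeasurePreserving ngD μ₁ μ₁ :=
  ⟨measurable_ngD, h.symm⟩

theorem GoodD.nonneg_a (h : GoodD a₁ K₁ μ₁) : 0 ≤ a₁ := by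
  have := h.prob
  obtain ⟨x, hx⟩ := h.bdd.exists
  exact le_trans (abs_nonneg _) hx

theorem GoodD.nonneg_K (h : GoodD a₁ K₁ μ₁) : 0 ≤ K₁ := by
  have := h.prob
  obtain ⟨x, hx⟩ := h.Ybd.exists
  exact le_trans (hx 0).1 (hx 0).2

theorem ae_prod_good (h₁ : GoodD a₁ K₁ μ₁) (h₂ : GoodD a₂ K₂ μ₂) :
    ∀ᵐ p ∂(μ₁.prod μ₂), (|p.1.1| ≤ a₁ ∧ ∀ i, 0 ≤ p.1.2 i ∧ p.1.2 i ≤ K₁) ∧
      (|p.2.1| ≤ a₂ ∧ ∀ i, 0 ≤ p.2.2 i ∧ p.2.2 i ≤ K₂) := by
  have := h₁.prob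
  have := h₂.prob
  have e1 := (Measure.quasiMeasurePreserving_fst (μ := μ₁) (ν := μ₂)).ae (h₁.bdd.and h₁.Ybd)
  have e2 := (Measure.quasiMeasurePreserving_snd (μ := μ₁) (ν := μ₂)).ae (h₂.bdd.and h₂.Ybd)
  filter_upwards [e1, e2] with p hp1 hp2 using ⟨hp1, hp2⟩

theorem one_abs_mul_lt {a b x y : ℝ} (hx : |x| ≤ a) (hy : |y| ≤ b) (ha : a < 1) (hb : b < 1) :
    |x * y| < 1 := by
  rw [abs_mul]
  have ha0 : 0 ≤ a := le_trans (abs_nonneg x) hx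
  have hb0 : 0 ≤ b := le_trans (abs_nonneg y) hy
  nlinarith [mul_le_mul hx hy (abs_nonneg y) ha0]

theorem one_weight_pos {a b x y : ℝ} (hx : |x| ≤ a) (hy : |y| ≤ b) (ha : a < 1) (hb : b < 1) :
    0 < 1 + x * y := by
  have := abs_lt.mp (one_abs_mul_lt hx hy ha hb); linarith

theorem measurable_wD : Measurable (fun p : Dat × Dat => ENNReal.ofReal (1 + p.1.1 * p.2.1)) := by
  fun_prop

theorem conv_integral (h₁ : GoodD a₁ K₁ μ₁) (h₂ : GoodD a₂ K₂ μ₂) (ha₁ : a₁ < 1) (ha₂ : a₂ < 1)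
    {F : Dat → ℝ} (hF : Measurable F) :
    ∫ x, F x ∂(conv μ₁ μ₂) = ∫ p, (1 + p.1.1 * p.2.1) * F (opD p.1 p.2) ∂(μ₁.prod μ₂) := by
  unfold conv
  rw [integral_map measurable_opD.aemeasurable hF.aestronglyMeasurable,
    integral_withDensity_eq_integral_toReal_smul measurable_wD
      (Filter.Eventually.of_forall fun _ => ENNReal.ofReal_lt_top)]
  refine integral_congr_ae ?_
  filter_upwards [ae_prod_good h₁ h₂] with p hp
  simp only [smul_eq_mul]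
  rw [ENNReal.toReal_ofReal (one_weight_pos hp.1.1 hp.2.1 ha₁ ha₂).le]

theorem GoodD.integral_neg (h : GoodD a₁ K₁ μ₁) {F : Dat → ℝ} (hF : Measurable F) :
    ∫ x, F (ngD x) ∂μ₁ = ∫ x, F x ∂μ₁ := by
  conv_rhs => rw [← h.mp.map_eq]
  rw [integral_map measurable_ngD.aemeasurable hF.aestronglyMeasurable]

theorem prod_neg_integral (h₁ : GoodD a₁ K₁ μ₁) (h₂ : GoodD a₂ K₂ μ₂) {G : Dat × Dat → ℝ}
    (hG : Measurable G) :
    ∫ p, G (p.1, ngD p.2) ∂(μ₁.prod μ₂) = ∫ p, G p ∂(μ₁.prod μ₂) := by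
  have := h₁.prob
  have := h₂.prob
  have hmp : MeasurePreserving (Prod.map (id : Dat → Dat) ngD) (μ₁.prod μ₂) (μ₁.prod μ₂) :=
    (MeasurePreserving.id μ₁).prod h₂.mp
  conv_rhs => rw [← hmp.map_eq]
  rw [integral_map hmp.measurable.aemeasurable hG.aestronglyMeasurable]
  rfl

theorem prod_negneg_integral (h₁ : GoodD a₁ K₁ μ₁) (h₂ : GoodD a₂ K₂ μ₂) {G : Dat × Dat → ℝ}
    (hG : Measurable G) :
    ∫ p, G (ngD p.1, ngD p.2) ∂(μ₁.prod μ₂) = ∫ p, G p ∂(μ₁.prod μ₂) := by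
  have := h₁.prob
  have := h₂.prob
  have hmp : MeasurePreserving (Prod.map ngD ngD) (μ₁.prod μ₂) (μ₁.prod μ₂) :=
    h₁.mp.prod h₂.mp
  conv_rhs => rw [← hmp.map_eq]
  rw [integral_map hmp.measurable.aemeasurable hG.aestronglyMeasurable]
  rfl

/-- integrability of bounded functions -/
theorem integrable_prod_bdd (h₁ : GoodD a₁ K₁ μ₁) (h₂ : GoodD a₂ K₂ μ₂) {G : Dat × Dat → ℝ}
    (hG : Measurable G) {C : ℝ} (hC : ∀ x y : Dat, |x.1| ≤ a₁ → (∀ i, 0 ≤ x.2 i ∧ x.2 i ≤ K₁) →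
      |y.1| ≤ a₂ → (∀ i, 0 ≤ y.2 i ∧ y.2 i ≤ K₂) → |G (x, y)| ≤ C) :
    Integrable G (μ₁.prod μ₂) := by
  have := h₁.prob
  have := h₂.prob
  refine Integrable.of_bound hG.aestronglyMeasurable C ?_
  filter_upwards [ae_prod_good h₁ h₂] with p hp
  exact hC p.1 p.2 hp.1.1 hp.1.2 hp.2.1 hp.2.2

theorem GoodD.integrable (h : GoodD a₁ K₁ μ₁) {G : Dat → ℝ}
    (hG : Measurable G) {C : ℝ} (hC : ∀ x : Dat, |x.1| ≤ a₁ → (∀ i, 0 ≤ x.2 i ∧ x.2 i ≤ K₁) →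
      |G x| ≤ C) :
    Integrable G μ₁ := by
  have := h.prob
  refine Integrable.of_bound hG.aestronglyMeasurable C ?_
  filter_upwards [h.bdd, h.Ybd] with p hp hp'
  exact hC p hp hp'

theorem ae_conv {p : Dat → Prop}
    (hp : MeasurableSet {x | p x})
    (h : ∀ᵐ q ∂(μ₁.prod μ₂), p (opD q.1 q.2)) : ∀ᵐ x ∂(conv μ₁ μ₂), p x := by
  unfold conv
  rw [ae_map_iff measurable_opD.aemeasurable hp]
  exact (withDensity_absolutelyContinuous _ _).ae_le h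

theorem opD_neg (x y : Dat) : opD (ngD x) (ngD y) = ngD (opD x y) := by
  unfold opD ngD
  simp only [one_op_neg_neg]

theorem GoodD.conv (h₁ : GoodD a₁ K₁ μ₁) (h₂ : GoodD a₂ K₂ μ₂) (ha₁ : a₁ < 1) (ha₂ : a₂ < 1) :
    GoodD (op a₁ a₂) (K₁ + K₂) (conv μ₁ μ₂) := by
  have := h₁.prob
  have := h₂.prob
  have hprob : IsProbabilityMeasure (T41.conv μ₁ μ₂) := by
    constructor
    unfold T41.conv
    rw [Measure.map_apply measurable_opD MeasurableSet.univ, preimage_univ, withDensity_apply _ MeasurableSet.univ,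
      Measure.restrict_univ, ← ofReal_integral_eq_lintegral_ofReal]
    · have h0 : ∫ p : Dat × Dat, p.1.1 * p.2.1 ∂(μ₁.prod μ₂) = 0 := by
        have h := prod_neg_integral h₁ h₂ (G := fun p : Dat × Dat => p.1.1 * p.2.1) (by fun_prop)
        simp only [ngD, mul_neg, MeasureTheory.integral_neg] at h
        linarith
      have hi : Integrable (fun p : Dat × Dat => p.1.1 * p.2.1) (μ₁.prod μ₂) := by
        refine integrable_prod_bdd h₁ h₂ (by fun_prop) (C := 1) ?_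
        intro x y hx _ hy _
        exact (one_abs_mul_lt hx hy ha₁ ha₂).le
      rw [integral_add (integrable_const _) hi, h0]
      simp
    · refine integrable_prod_bdd h₁ h₂ (by fun_prop) (C := 2) ?_
      intro x y hx _ hy _
      have := abs_lt.mp (one_abs_mul_lt hx hy ha₁ ha₂)
      rw [abs_le]; constructor <;> linarith [this.1, this.2]
    · filter_upwards [ae_prod_good h₁ h₂] with p hp
      exact (one_weight_pos hp.1.1 hp.2.1 ha₁ ha₂).le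
  refine ⟨hprob, ?_, ?_, ?_⟩
  · have hmp : MeasurePreserving (Prod.map ngD ngD) (μ₁.prod μ₂) (μ₁.prod μ₂) :=
      h₁.mp.prod h₂.mp
    show (T41.conv μ₁ μ₂).map ngD = T41.conv μ₁ μ₂
    unfold T41.conv
    rw [Measure.map_map measurable_ngD measurable_opD]
    ext s hs
    rw [Measure.map_apply (measurable_ngD.comp measurable_opD) hs, Measure.map_apply measurable_opD hs,
      withDensity_apply _ ((measurable_ngD.comp measurable_opD) hs), withDensity_apply _ (measurable_opD hs),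
      ← lintegral_indicator ((measurable_ngD.comp measurable_opD) hs), ← lintegral_indicator (measurable_opD hs)]
    conv_rhs => rw [← hmp.map_eq]
    rw [lintegral_map (by
      refine Measurable.indicator measurable_wD (measurable_opD hs)) hmp.measurable]
    refine lintegral_congr fun p => ?_
    by_cases hps : opD (ngD p.1) (ngD p.2) ∈ s
    · rw [indicator_of_mem (show Prod.map ngD ngD p ∈ (fun p : Dat × Dat => opD p.1 p.2) ⁻¹' s from hps),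
        indicator_of_mem (show p ∈ (ngD ∘ fun p : Dat × Dat => opD p.1 p.2) ⁻¹' s by
          rw [opD_neg] at hps; exact hps)]
      simp [ngD]
    · rw [indicator_of_notMem (show Prod.map ngD ngD p ∉ (fun p : Dat × Dat => opD p.1 p.2) ⁻¹' s from hps),
        indicator_of_notMem (show p ∉ (ngD ∘ fun p : Dat × Dat => opD p.1 p.2) ⁻¹' s by
          rw [opD_neg] at hps; exact hps)]
  · refine ae_conv (measurableSet_le (by fun_prop) (by fun_prop)) ?_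
    filter_upwards [ae_prod_good h₁ h₂] with p hp
    exact one_abs_op_le hp.1.1 hp.2.1 ha₁ ha₂
  · rw [ae_all_iff]
    intro i
    refine ae_conv (measurableSet_le (f := fun _ => (0:ℝ)) (g := fun x : Dat => x.2 i) (by fun_prop) (by fun_prop) |>.inter
      (measurableSet_le (f := fun x : Dat => x.2 i) (g := fun _ => K₁ + K₂) (by fun_prop) (by fun_prop))) ?_
    filter_upwards [ae_prod_good h₁ h₂] with p hp
    have e1 := hp.1.2 i
    have e2 := hp.2.2 i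
    show 0 ≤ (p.1.2 + p.2.2) i ∧ (p.1.2 + p.2.2) i ≤ K₁ + K₂
    simp only [Pi.add_apply]
    constructor <;> linarith [e1.1, e1.2, e2.1, e2.2]


/-- symmetrised integral formula -/
theorem conv_symm (h₁ : GoodD a₁ K₁ μ₁) (h₂ : GoodD a₂ K₂ μ₂) (ha₁ : a₁ < 1) (ha₂ : a₂ < 1)
    {F : Dat → ℝ} (hF : Measurable F) {C : ℝ}
    (hC : ∀ x : Dat, |x.1| ≤ op a₁ a₂ → (∀ i, 0 ≤ x.2 i ∧ x.2 i ≤ K₁ + K₂) → |F x| ≤ C) :
    ∫ x, F x ∂(conv μ₁ μ₂) = ∫ p, ((1 + p.1.1 * p.2.1) * F (opD p.1 p.2)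
      + (1 - p.1.1 * p.2.1) * F (opD p.1 (ngD p.2))) / 2 ∂(μ₁.prod μ₂) := by
  have hm1 : Measurable (fun p : Dat × Dat => (1 + p.1.1 * p.2.1) * F (opD p.1 p.2)) :=
    (by fun_prop : Measurable (fun p : Dat × Dat => (1 + p.1.1 * p.2.1))).mul (hF.comp measurable_opD)
  have hsw : Measurable (fun p : Dat × Dat => (p.1, ngD p.2)) :=
    measurable_fst.prodMk (measurable_ngD.comp measurable_snd)
  have hm2 : Measurable (fun p : Dat × Dat => (1 - p.1.1 * p.2.1) * F (opD p.1 (ngD p.2))) :=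
    (by fun_prop : Measurable (fun p : Dat × Dat => (1 - p.1.1 * p.2.1))).mul
      (hF.comp (measurable_opD.comp hsw))
  have hb : ∀ x y : Dat, |x.1| ≤ a₁ → (∀ i, 0 ≤ x.2 i ∧ x.2 i ≤ K₁) →
      |y.1| ≤ a₂ → (∀ i, 0 ≤ y.2 i ∧ y.2 i ≤ K₂) → |(1 + x.1 * y.1) * F (opD x y)| ≤ 2 * C := by
    intro x y hx hx' hy hy'
    have e1 := abs_lt.mp (one_abs_mul_lt hx hy ha₁ ha₂)
    have e2 : |1 + x.1 * y.1| ≤ 2 := by rw [abs_le]; constructor <;> linarith [e1.1, e1.2]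
    have e3 : |F (opD x y)| ≤ C := by
      refine hC _ (one_abs_op_le hx hy ha₁ ha₂) fun i => ?_
      show 0 ≤ (x.2 + y.2) i ∧ (x.2 + y.2) i ≤ K₁ + K₂
      simp only [Pi.add_apply]
      constructor <;> linarith [(hx' i).1, (hx' i).2, (hy' i).1, (hy' i).2]
    rw [abs_mul]
    exact mul_le_mul e2 e3 (abs_nonneg _) (by norm_num)
  have i1 : Integrable (fun p : Dat × Dat => (1 + p.1.1 * p.2.1) * F (opD p.1 p.2)) (μ₁.prod μ₂) :=
    integrable_prod_bdd h₁ h₂ hm1 (C := 2 * C) hb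
  have i2 : Integrable (fun p : Dat × Dat => (1 - p.1.1 * p.2.1) * F (opD p.1 (ngD p.2))) (μ₁.prod μ₂) := by
    refine integrable_prod_bdd h₁ h₂ hm2 (C := 2 * C) ?_
    intro x y hx hx' hy hy'
    have := hb x (ngD y) hx hx' (by simpa [ngD] using hy) hy'
    simpa [ngD, sub_eq_add_neg] using this
  have e := prod_neg_integral h₁ h₂ hm1
  have e' : ∫ p : Dat × Dat, (1 - p.1.1 * p.2.1) * F (opD p.1 (ngD p.2)) ∂(μ₁.prod μ₂)
      = ∫ p, (1 + p.1.1 * p.2.1) * F (opD p.1 p.2) ∂(μ₁.prod μ₂) := by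
    rw [← e]
    refine integral_congr_ae (Filter.Eventually.of_forall fun p => ?_)
    simp [ngD, sub_eq_add_neg]
  rw [conv_integral h₁ h₂ ha₁ ha₂ hF, integral_div, integral_add i1 i2, e']
  ring

/-- `E (u ⊕ v)²` for fixed `u² = X`, `v² = Y` -/
def hq (X Y : ℝ) : ℝ := (X + Y - 2 * X * Y) / (1 - X * Y)

theorem sym_sq {x y : ℝ} (h : |x * y| < 1) :
    ((1 + x * y) * (op x y) ^ 2 + (1 - x * y) * (op x (-y)) ^ 2) / 2 = hq (x ^ 2) (y ^ 2) := by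
  have h' := abs_lt.mp h
  have e1 : (1 + x * y) ≠ 0 := by linarith
  have e2 : (1 - x * y) ≠ 0 := by linarith
  have e3 : 1 - x ^ 2 * y ^ 2 ≠ 0 := by
    have : 1 - x ^ 2 * y ^ 2 = (1 + x * y) * (1 - x * y) := by ring
    rw [this]; exact mul_ne_zero e1 e2
  unfold op hq
  rw [show x * -y = -(x * y) by ring, show 1 + -(x * y) = 1 - x * y by ring]
  field_simp
  ring

theorem hq_ge_left {X Y : ℝ} (hX0 : 0 ≤ X) (hX : X < 1) (hY0 : 0 ≤ Y) (hY : Y < 1) :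
    X ≤ hq X Y := by
  have h : 0 < 1 - X * Y := by nlinarith
  unfold hq
  rw [le_div_iff₀ h]
  nlinarith [mul_nonneg hY0 (mul_self_nonneg (1 - X))]

theorem hq_comm (X Y : ℝ) : hq X Y = hq Y X := by
  unfold hq; ring_nf

theorem hq_ge_right {X Y : ℝ} (hX0 : 0 ≤ X) (hX : X < 1) (hY0 : 0 ≤ Y) (hY : Y < 1) :
    Y ≤ hq X Y := by
  rw [hq_comm]; exact hq_ge_left hY0 hY hX0 hX

theorem hq_le {X Y : ℝ} (hX0 : 0 ≤ X) (hX : X < 1) (hY0 : 0 ≤ Y) (hY : Y < 1) :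
    hq X Y ≤ X + Y - X * Y := by
  have h : 0 < 1 - X * Y := by nlinarith
  unfold hq
  rw [div_le_iff₀ h]
  nlinarith [mul_nonneg (mul_nonneg hX0 hY0) (mul_nonneg (sub_nonneg.mpr hX.le) (sub_nonneg.mpr hY.le))]

theorem hq_nonneg {X Y : ℝ} (hX0 : 0 ≤ X) (hX : X < 1) (hY0 : 0 ≤ Y) (hY : Y < 1) :
    0 ≤ hq X Y := hX0.trans (hq_ge_left hX0 hX hY0 hY)

theorem hq_lt_one {X Y : ℝ} (hX0 : 0 ≤ X) (hX : X < 1) (hY0 : 0 ≤ Y) (hY : Y < 1) :
    hq X Y < 1 := by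
  have := hq_le hX0 hX hY0 hY
  nlinarith [mul_pos (sub_pos.mpr hX) (sub_pos.mpr hY)]

theorem hq_tangent {X Y A : ℝ} (hX0 : 0 ≤ X) (hX : X < 1) (hY0 : 0 ≤ Y) (hY : Y < 1)
    (hA0 : 0 ≤ A) (hA : A < 1) :
    hq A Y + (1 - Y) ^ 2 / (1 - A * Y) ^ 2 * (X - A) ≤ hq X Y := by
  have h1 : 0 < 1 - X * Y := by nlinarith
  have h2 : 0 < 1 - A * Y := by nlinarith
  have key : hq X Y - (hq A Y + (1 - Y) ^ 2 / (1 - A * Y) ^ 2 * (X - A))
      = Y * (1 - Y) ^ 2 * (X - A) ^ 2 / ((1 - X * Y) * (1 - A * Y) ^ 2) := by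
    unfold hq
    have e1 := h1.ne'
    have e2 := h2.ne'
    rw [eq_div_iff (by positivity), div_mul_eq_mul_div, sub_mul, add_mul]
    rw [show (X + Y - 2 * X * Y) / (1 - X * Y) * ((1 - X * Y) * (1 - A * Y) ^ 2)
      = (X + Y - 2 * X * Y) * (1 - A * Y) ^ 2 by field_simp,
      show (A + Y - 2 * A * Y) / (1 - A * Y) * ((1 - X * Y) * (1 - A * Y) ^ 2)
      = (A + Y - 2 * A * Y) * ((1 - X * Y) * (1 - A * Y)) by field_simp,
      show (1 - Y) ^ 2 * (X - A) / (1 - A * Y) ^ 2 * ((1 - X * Y) * (1 - A * Y) ^ 2)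
      = (1 - Y) ^ 2 * (X - A) * (1 - X * Y) by
        rw [div_mul_eq_mul_div, div_eq_iff (by positivity)]; ring]
    ring
  have : 0 ≤ Y * (1 - Y) ^ 2 * (X - A) ^ 2 / ((1 - X * Y) * (1 - A * Y) ^ 2) := by positivity
  linarith

theorem hq_s {X Y : ℝ} (hX0 : 0 ≤ X) (hX : X < 1) (hY : Y < 1) :
    hq X Y / (1 - hq X Y) = X / (1 - X) + Y / (1 - Y) := by
  have h1 : 0 < 1 - X * Y := by nlinarith
  have h2 : 0 < 1 - X := by linarith
  have h3 : 0 < 1 - Y := by linarith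
  have e : 1 - hq X Y = (1 - X) * (1 - Y) / (1 - X * Y) := by
    unfold hq; field_simp; ring
  rw [e]
  unfold hq
  field_simp
  ring


/-- expectations of functions of `Y` -/
theorem conv_Y (h₁ : GoodD a₁ K₁ μ₁) (h₂ : GoodD a₂ K₂ μ₂) (ha₁ : a₁ < 1) (ha₂ : a₂ < 1)
    {G : (ℕ → ℝ) → ℝ} (hG : Measurable G) {C : ℝ}
    (hC : ∀ x : ℕ → ℝ, (∀ i, 0 ≤ x i ∧ x i ≤ K₁ + K₂) → |G x| ≤ C) :
    ∫ x, G x.2 ∂(conv μ₁ μ₂) = ∫ p, G (p.1.2 + p.2.2) ∂(μ₁.prod μ₂) := by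
  rw [conv_symm h₁ h₂ ha₁ ha₂ (F := fun x => G x.2) (hG.comp measurable_snd) (C := C)
    (fun x _ hx => hC x.2 hx)]
  refine integral_congr_ae (Filter.Eventually.of_forall fun p => ?_)
  show ((1 + p.1.1 * p.2.1) * G (p.1.2 + p.2.2) + (1 - p.1.1 * p.2.1) * G (p.1.2 + p.2.2)) / 2
    = G (p.1.2 + p.2.2)
  ring

/-- expectations of `b² G(Y)` -/
theorem conv_sqY (h₁ : GoodD a₁ K₁ μ₁) (h₂ : GoodD a₂ K₂ μ₂) (ha₁ : a₁ < 1) (ha₂ : a₂ < 1)
    {G : (ℕ → ℝ) → ℝ} (hG : Measurable G) {C : ℝ}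
    (hC : ∀ x : ℕ → ℝ, (∀ i, 0 ≤ x i ∧ x i ≤ K₁ + K₂) → |G x| ≤ C) :
    ∫ x, x.1 ^ 2 * G x.2 ∂(conv μ₁ μ₂)
      = ∫ p, hq (p.1.1 ^ 2) (p.2.1 ^ 2) * G (p.1.2 + p.2.2) ∂(μ₁.prod μ₂) := by
  have ha0 := h₁.nonneg_a
  have hb0 := h₂.nonneg_a
  rw [conv_symm h₁ h₂ ha₁ ha₂ (F := fun x => x.1 ^ 2 * G x.2)
    ((measurable_fst.pow_const 2).mul (hG.comp measurable_snd)) (C := C) ?_]
  · refine integral_congr_ae ?_
    filter_upwards [ae_prod_good h₁ h₂] with p hp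
    rw [← sym_sq (one_abs_mul_lt hp.1.1 hp.2.1 ha₁ ha₂)]
    show ((1 + p.1.1 * p.2.1) * ((op p.1.1 p.2.1) ^ 2 * G (p.1.2 + p.2.2))
      + (1 - p.1.1 * p.2.1) * ((op p.1.1 (-p.2.1)) ^ 2 * G (p.1.2 + p.2.2))) / 2 = _
    ring
  · intro x hx hx'
    have e1 : op a₁ a₂ < 1 := by
      unfold op
      rw [div_lt_one (by positivity)]
      nlinarith
    have e2 : x.1 ^ 2 ≤ 1 := by
      have := abs_le.mp (hx.trans e1.le)
      nlinarith [this.1, this.2]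
    rw [abs_mul, abs_of_nonneg (sq_nonneg _)]
    calc x.1 ^ 2 * |G x.2| ≤ 1 * |G x.2| := mul_le_mul_of_nonneg_right e2 (abs_nonneg _)
      _ ≤ C := by rw [one_mul]; exact hC x.2 hx'

/-- second moment of `b` -/
def qD (μ : Measure Dat) : ℝ := ∫ x, x.1 ^ 2 ∂μ

theorem GoodD.sq_bd (h : GoodD a₁ K₁ μ₁) (ha₁ : a₁ < 1) : ∀ᵐ x ∂μ₁, 0 ≤ x.1 ^ 2 ∧ x.1 ^ 2 < 1 := by
  filter_upwards [h.bdd] with x hx
  have := abs_le.mp hx
  exact ⟨sq_nonneg _, by nlinarith [this.1, this.2, h.nonneg_a]⟩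

theorem GoodD.sq_int (h : GoodD a₁ K₁ μ₁) (ha₁ : a₁ < 1) : Integrable (fun x : Dat => x.1 ^ 2) μ₁ := by
  refine h.integrable (by fun_prop) (C := 1) ?_
  intro x hx _
  have := abs_le.mp hx
  rw [abs_of_nonneg (sq_nonneg _)]
  nlinarith [this.1, this.2, h.nonneg_a]

theorem GoodD.q_nonneg (_ : GoodD a₁ K₁ μ₁) : 0 ≤ qD μ₁ := integral_nonneg fun x => sq_nonneg _

theorem GoodD.q_le (h : GoodD a₁ K₁ μ₁) (ha₁ : a₁ < 1) : qD μ₁ ≤ a₁ ^ 2 := by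
  have := h.prob
  have h0 := h.nonneg_a
  have : qD μ₁ ≤ ∫ _, a₁ ^ 2 ∂μ₁ := by
    refine integral_mono_ae (h.sq_int ha₁) (integrable_const _) ?_
    filter_upwards [h.bdd] with x hx
    have := abs_le.mp hx
    show x.1 ^ 2 ≤ a₁ ^ 2
    nlinarith [this.1, this.2]
  simpa using this

theorem GoodD.q_lt_one (h : GoodD a₁ K₁ μ₁) (ha₁ : a₁ < 1) : qD μ₁ < 1 := by
  have := h.q_le ha₁
  nlinarith [h.nonneg_a]

theorem qD_conv (h₁ : GoodD a₁ K₁ μ₁) (h₂ : GoodD a₂ K₂ μ₂) (ha₁ : a₁ < 1) (ha₂ : a₂ < 1) :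
    qD (conv μ₁ μ₂) = ∫ p, hq (p.1.1 ^ 2) (p.2.1 ^ 2) ∂(μ₁.prod μ₂) := by
  have := conv_sqY h₁ h₂ ha₁ ha₂ (G := fun _ => 1) measurable_const (C := 1) (by intro x _; simp)
  unfold qD
  simpa using this

theorem measurable_hq2 : Measurable (fun p : Dat × Dat => hq (p.1.1 ^ 2) (p.2.1 ^ 2)) := by
  unfold hq; fun_prop

theorem one_sq_lt_one_of {a x : ℝ} (hx : |x| ≤ a) (ha : a < 1) : x ^ 2 < 1 := by
  have := abs_le.mp hx
  nlinarith [this.1, this.2, (abs_nonneg x).trans hx]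

theorem hq_int (h₁ : GoodD a₁ K₁ μ₁) (h₂ : GoodD a₂ K₂ μ₂) (ha₁ : a₁ < 1) (ha₂ : a₂ < 1) :
    Integrable (fun p : Dat × Dat => hq (p.1.1 ^ 2) (p.2.1 ^ 2)) (μ₁.prod μ₂) := by
  refine integrable_prod_bdd h₁ h₂ measurable_hq2 (C := 1) ?_
  intro x y hx _ hy _
  have e1 := hq_nonneg (sq_nonneg x.1) (one_sq_lt_one_of hx ha₁) (sq_nonneg y.1) (one_sq_lt_one_of hy ha₂)
  have e2 := hq_lt_one (sq_nonneg x.1) (one_sq_lt_one_of hx ha₁) (sq_nonneg y.1) (one_sq_lt_one_of hy ha₂)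
  rw [abs_of_nonneg e1]; exact e2.le

theorem prod_fst_int (h₁ : GoodD a₁ K₁ μ₁) (h₂ : GoodD a₂ K₂ μ₂) {G : Dat → ℝ} (hG : Measurable G) :
    ∫ p, G p.1 ∂(μ₁.prod μ₂) = ∫ x, G x ∂μ₁ := by
  have := h₁.prob
  have := h₂.prob
  have hmp : MeasurePreserving (Prod.fst : Dat × Dat → Dat) (μ₁.prod μ₂) μ₁ := measurePreserving_fst
  rw [← hmp.map_eq, integral_map measurable_fst.aemeasurable hG.aestronglyMeasurable, hmp.map_eq]

theorem prod_snd_int (h₁ : GoodD a₁ K₁ μ₁) (h₂ : GoodD a₂ K₂ μ₂) {G : Dat → ℝ} (hG : Measurable G) :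
    ∫ p, G p.2 ∂(μ₁.prod μ₂) = ∫ x, G x ∂μ₂ := by
  have := h₁.prob
  have := h₂.prob
  have hmp : MeasurePreserving (Prod.snd : Dat × Dat → Dat) (μ₁.prod μ₂) μ₂ := measurePreserving_snd
  rw [← hmp.map_eq, integral_map measurable_snd.aemeasurable hG.aestronglyMeasurable, hmp.map_eq]

theorem q_conv_ge_left (h₁ : GoodD a₁ K₁ μ₁) (h₂ : GoodD a₂ K₂ μ₂) (ha₁ : a₁ < 1) (ha₂ : a₂ < 1) :
    qD μ₁ ≤ qD (conv μ₁ μ₂) := by
  rw [qD_conv h₁ h₂ ha₁ ha₂, qD, ← prod_fst_int h₁ h₂ (G := fun x : Dat => x.1 ^ 2) (by fun_prop)]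
  refine integral_mono_ae ?_ (hq_int h₁ h₂ ha₁ ha₂) ?_
  · refine integrable_prod_bdd h₁ h₂ (by fun_prop) (C := 1) ?_
    intro x y hx _ _ _
    rw [abs_of_nonneg (sq_nonneg _)]; exact (one_sq_lt_one_of hx ha₁).le
  · filter_upwards [ae_prod_good h₁ h₂] with p hp
    exact hq_ge_left (sq_nonneg _) (one_sq_lt_one_of hp.1.1 ha₁) (sq_nonneg _) (one_sq_lt_one_of hp.2.1 ha₂)

theorem q_conv_ge_right (h₁ : GoodD a₁ K₁ μ₁) (h₂ : GoodD a₂ K₂ μ₂) (ha₁ : a₁ < 1) (ha₂ : a₂ < 1) :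
    qD μ₂ ≤ qD (conv μ₁ μ₂) := by
  rw [qD_conv h₁ h₂ ha₁ ha₂]
  have e : qD μ₂ = ∫ p : Dat × Dat, p.2.1 ^ 2 ∂(μ₁.prod μ₂) :=
    (prod_snd_int h₁ h₂ (G := fun x : Dat => x.1 ^ 2) (by fun_prop)).symm
  rw [e]
  refine integral_mono_ae ?_ (hq_int h₁ h₂ ha₁ ha₂) ?_
  · refine integrable_prod_bdd h₁ h₂ (by fun_prop) (C := 1) ?_
    intro x y _ _ hx _
    rw [abs_of_nonneg (sq_nonneg _)]; exact (one_sq_lt_one_of hx ha₂).le
  · filter_upwards [ae_prod_good h₁ h₂] with p hp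
    exact hq_ge_right (sq_nonneg _) (one_sq_lt_one_of hp.1.1 ha₁) (sq_nonneg _) (one_sq_lt_one_of hp.2.1 ha₂)

theorem q_prod_mul (h₁ : GoodD a₁ K₁ μ₁) (h₂ : GoodD a₂ K₂ μ₂) :
    ∫ p : Dat × Dat, p.1.1 ^ 2 * p.2.1 ^ 2 ∂(μ₁.prod μ₂) = qD μ₁ * qD μ₂ := by
  have := h₁.prob
  have := h₂.prob
  exact integral_prod_mul (μ := μ₁) (ν := μ₂) (fun x : Dat => x.1 ^ 2) (fun x : Dat => x.1 ^ 2)

theorem q_conv_le (h₁ : GoodD a₁ K₁ μ₁) (h₂ : GoodD a₂ K₂ μ₂) (ha₁ : a₁ < 1) (ha₂ : a₂ < 1) :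
    qD (conv μ₁ μ₂) ≤ qD μ₁ + qD μ₂ - qD μ₁ * qD μ₂ := by
  have i1 : Integrable (fun p : Dat × Dat => p.1.1 ^ 2) (μ₁.prod μ₂) := by
    refine integrable_prod_bdd h₁ h₂ (by fun_prop) (C := 1) ?_
    intro x y hx _ _ _
    rw [abs_of_nonneg (sq_nonneg _)]; exact (one_sq_lt_one_of hx ha₁).le
  have i2 : Integrable (fun p : Dat × Dat => p.2.1 ^ 2) (μ₁.prod μ₂) := by
    refine integrable_prod_bdd h₁ h₂ (by fun_prop) (C := 1) ?_
    intro x y _ _ hx _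
    rw [abs_of_nonneg (sq_nonneg _)]; exact (one_sq_lt_one_of hx ha₂).le
  have i3 : Integrable (fun p : Dat × Dat => p.1.1 ^ 2 * p.2.1 ^ 2) (μ₁.prod μ₂) := by
    refine integrable_prod_bdd h₁ h₂ (by fun_prop) (C := 1) ?_
    intro x y hx _ hy _
    rw [abs_of_nonneg (by positivity)]
    have e1 := one_sq_lt_one_of hx ha₁
    have e2 := one_sq_lt_one_of hy ha₂
    nlinarith [sq_nonneg x.1, sq_nonneg y.1]
  have e1 : qD μ₁ = ∫ p : Dat × Dat, p.1.1 ^ 2 ∂(μ₁.prod μ₂) :=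
    (prod_fst_int h₁ h₂ (G := fun x : Dat => x.1 ^ 2) (by fun_prop)).symm
  have e2 : qD μ₂ = ∫ p : Dat × Dat, p.2.1 ^ 2 ∂(μ₁.prod μ₂) :=
    (prod_snd_int h₁ h₂ (G := fun x : Dat => x.1 ^ 2) (by fun_prop)).symm
  have i12 : Integrable (fun p : Dat × Dat => p.1.1 ^ 2 + p.2.1 ^ 2) (μ₁.prod μ₂) := i1.add i2
  have i123 : Integrable (fun p : Dat × Dat => p.1.1 ^ 2 + p.2.1 ^ 2 - p.1.1 ^ 2 * p.2.1 ^ 2)
    (μ₁.prod μ₂) := i12.sub i3
  rw [← q_prod_mul h₁ h₂, e1, e2, ← integral_add i1 i2, ← integral_sub i12 i3,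
    qD_conv h₁ h₂ ha₁ ha₂]
  refine integral_mono_ae (hq_int h₁ h₂ ha₁ ha₂) i123 ?_
  filter_upwards [ae_prod_good h₁ h₂] with p hp
  exact hq_le (sq_nonneg _) (one_sq_lt_one_of hp.1.1 ha₁) (sq_nonneg _) (one_sq_lt_one_of hp.2.1 ha₂)

theorem q_conv_le' (h₁ : GoodD a₁ K₁ μ₁) (h₂ : GoodD a₂ K₂ μ₂) (ha₁ : a₁ < 1) (ha₂ : a₂ < 1) :
    qD (conv μ₁ μ₂) ≤ qD μ₁ + qD μ₂ := by
  have := q_conv_le h₁ h₂ ha₁ ha₂
  nlinarith [mul_nonneg h₁.q_nonneg h₂.q_nonneg]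

theorem q_conv_hq (h₁ : GoodD a₁ K₁ μ₁) (h₂ : GoodD a₂ K₂ μ₂) (ha₁ : a₁ < 1) (ha₂ : a₂ < 1) :
    hq (qD μ₁) (qD μ₂) ≤ qD (conv μ₁ μ₂) := by
  have := h₁.prob
  have := h₂.prob
  have hA0 := h₁.q_nonneg
  have hA := h₁.q_lt_one ha₁
  have hB0 := h₂.q_nonneg
  have hB := h₂.q_lt_one ha₂
  rw [qD_conv h₁ h₂ ha₁ ha₂]
  set A := qD μ₁ with hAdef
  set B := qD μ₂ with hBdef
  have hden : ∀ y : ℝ, 0 ≤ y → y < 1 → 1 - A ≤ 1 - A * y := fun y h0 h1 => by nlinarith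
  -- step 1
  have hbd : ∀ y : Dat, |y.1| ≤ a₂ → |(1 - y.1 ^ 2) ^ 2 / (1 - A * y.1 ^ 2) ^ 2| ≤ 1 / (1 - A) ^ 2 := by
    intro y hy
    have h1 := one_sq_lt_one_of hy ha₂
    have h0 := sq_nonneg y.1
    have h2 := hden _ h0 h1
    rw [abs_of_nonneg (by positivity)]
    refine div_le_div₀ zero_le_one (by nlinarith) (by nlinarith) ?_
    nlinarith
  have g1 : ∫ p : Dat × Dat, (hq A (p.2.1 ^ 2) + (1 - p.2.1 ^ 2) ^ 2 / (1 - A * p.2.1 ^ 2) ^ 2 * (p.1.1 ^ 2 - A)) ∂(μ₁.prod μ₂)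
      ≤ ∫ p, hq (p.1.1 ^ 2) (p.2.1 ^ 2) ∂(μ₁.prod μ₂) := by
    refine integral_mono_ae ?_ (hq_int h₁ h₂ ha₁ ha₂) ?_
    · refine integrable_prod_bdd h₁ h₂ (by unfold hq; fun_prop) (C := 1 + 1 / (1 - A) ^ 2 * 1) ?_
      intro x y hx _ hy _
      have e1 := hq_nonneg hA0 hA (sq_nonneg y.1) (one_sq_lt_one_of hy ha₂)
      have e2 := hq_lt_one hA0 hA (sq_nonneg y.1) (one_sq_lt_one_of hy ha₂)
      refine (abs_add_le _ _).trans (add_le_add (by rw [abs_of_nonneg e1]; exact e2.le) ?_)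
      rw [abs_mul]
      refine mul_le_mul (hbd y hy) ?_ (abs_nonneg _) (by positivity)
      rw [abs_le]; constructor <;> nlinarith [sq_nonneg x.1, one_sq_lt_one_of hx ha₁]
    · filter_upwards [ae_prod_good h₁ h₂] with p hp
      exact hq_tangent (sq_nonneg _) (one_sq_lt_one_of hp.1.1 ha₁) (sq_nonneg _) (one_sq_lt_one_of hp.2.1 ha₂) hA0 hA
  refine le_trans ?_ g1
  have j1 : Integrable (fun y : Dat => hq A (y.1 ^ 2)) μ₂ := by
    refine h₂.integrable (by unfold hq; fun_prop) (C := 1) ?_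
    intro y hy _
    have e1 := hq_nonneg hA0 hA (sq_nonneg y.1) (one_sq_lt_one_of hy ha₂)
    have e2 := hq_lt_one hA0 hA (sq_nonneg y.1) (one_sq_lt_one_of hy ha₂)
    rw [abs_of_nonneg e1]; exact e2.le
  have i1 : Integrable (fun p : Dat × Dat => hq A (p.2.1 ^ 2)) (μ₁.prod μ₂) := by
    refine integrable_prod_bdd h₁ h₂ (by unfold hq; fun_prop) (C := 1) ?_
    intro x y _ _ hy _
    have e1 := hq_nonneg hA0 hA (sq_nonneg y.1) (one_sq_lt_one_of hy ha₂)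
    have e2 := hq_lt_one hA0 hA (sq_nonneg y.1) (one_sq_lt_one_of hy ha₂)
    rw [abs_of_nonneg e1]; exact e2.le
  have i2 : Integrable (fun p : Dat × Dat => (1 - p.2.1 ^ 2) ^ 2 / (1 - A * p.2.1 ^ 2) ^ 2 * (p.1.1 ^ 2 - A)) (μ₁.prod μ₂) := by
    refine integrable_prod_bdd h₁ h₂ (by fun_prop) (C := 1 / (1 - A) ^ 2 * 1) ?_
    intro x y hx _ hy _
    rw [abs_mul]
    refine mul_le_mul (hbd y hy) ?_ (abs_nonneg _) (by positivity)
    rw [abs_le]; constructor <;> nlinarith [sq_nonneg x.1, one_sq_lt_one_of hx ha₁]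
  rw [integral_add i1 i2]
  have z : ∫ p : Dat × Dat, (1 - p.2.1 ^ 2) ^ 2 / (1 - A * p.2.1 ^ 2) ^ 2 * (p.1.1 ^ 2 - A) ∂(μ₁.prod μ₂) = 0 := by
    have e := integral_prod_mul (μ := μ₁) (ν := μ₂) (fun x : Dat => x.1 ^ 2 - A)
      (fun y : Dat => (1 - y.1 ^ 2) ^ 2 / (1 - A * y.1 ^ 2) ^ 2)
    have e0 : ∫ x : Dat, (x.1 ^ 2 - A) ∂μ₁ = 0 := by
      rw [integral_sub (h₁.sq_int ha₁) (integrable_const _)]
      simp [hAdef, qD]
    rw [e0, zero_mul] at e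
    rw [← e]
    refine integral_congr_ae (Filter.Eventually.of_forall fun p => ?_)
    show _ * _ = _ * _
    ring
  rw [z, add_zero, prod_snd_int h₁ h₂ (G := fun y : Dat => hq A (y.1 ^ 2)) (by unfold hq; fun_prop)]
  -- step 2
  have js : Integrable (fun y : Dat => y.1 ^ 2 - B) μ₂ := (h₂.sq_int ha₂).sub (integrable_const _)
  have g2 : ∫ y : Dat, (hq A B + (1 - A) ^ 2 / (1 - B * A) ^ 2 * (y.1 ^ 2 - B)) ∂μ₂
      ≤ ∫ y : Dat, hq A (y.1 ^ 2) ∂μ₂ := by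
    refine integral_mono_ae ?_ j1 ?_
    · exact (integrable_const _).add (js.const_mul _)
    · filter_upwards [h₂.bdd] with y hy
      have := hq_tangent (sq_nonneg y.1) (one_sq_lt_one_of hy ha₂) hA0 hA hB0 hB
      rw [hq_comm A B, hq_comm A (y.1 ^ 2)]
      exact this
  refine le_trans (le_of_eq ?_) g2
  rw [integral_add (integrable_const _) (js.const_mul _),
    integral_const_mul, integral_sub (h₂.sq_int ha₂) (integrable_const _)]
  simp [hBdef, qD]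

/-- `s(q) = q/(1-q)` is superadditive -/
theorem s_conv (h₁ : GoodD a₁ K₁ μ₁) (h₂ : GoodD a₂ K₂ μ₂) (ha₁ : a₁ < 1) (ha₂ : a₂ < 1) :
    qD μ₁ / (1 - qD μ₁) + qD μ₂ / (1 - qD μ₂) ≤ qD (conv μ₁ μ₂) / (1 - qD (conv μ₁ μ₂)) := by
  have hA0 := h₁.q_nonneg
  have hA := h₁.q_lt_one ha₁
  have hB0 := h₂.q_nonneg
  have hB := h₂.q_lt_one ha₂
  rw [← hq_s hA0 hA hB]
  have h := q_conv_hq h₁ h₂ ha₁ ha₂
  have h3 : op a₁ a₂ < 1 := by
    unfold op
    have := h₁.nonneg_a; have := h₂.nonneg_a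
    rw [div_lt_one (by positivity)]
    nlinarith
  have h4 := (h₁.conv h₂ ha₁ ha₂).q_lt_one h3
  have h5 := hq_lt_one hA0 hA hB0 hB
  have h6 := hq_nonneg hA0 hA hB0 hB
  exact div_le_div₀ (h6.trans h) h (by linarith) (by linarith)


theorem one_op_lt_one {a b : ℝ} (ha0 : 0 ≤ a) (ha : a < 1) (hb0 : 0 ≤ b) (hb : b < 1) : op a b < 1 := by
  unfold op
  rw [div_lt_one (by positivity)]
  nlinarith

theorem one_op_ge_left {a b : ℝ} (ha0 : 0 ≤ a) (ha : a < 1) (hb0 : 0 ≤ b) : a ≤ op a b := by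
  unfold op
  rw [le_div_iff₀ (by positivity)]
  nlinarith [mul_nonneg hb0 (by nlinarith : 0 ≤ 1 - a * a)]

/-- conditions on the law of `t` -/
structure GoodN (a : ℝ) (ν : Measure ℝ) : Prop where
  prob : IsProbabilityMeasure ν
  symm : ν.map (fun t => -t) = ν
  bdd : ∀ᵐ t ∂ν, |t| ≤ a

theorem measurable_site : Measurable (fun t : ℝ => ((t, fun i => if i = 0 then 1 else 0) : Dat)) := by
  fun_prop

theorem siteD_good {a : ℝ} {ν : Measure ℝ} (h : GoodN a ν) : GoodD a 1 (siteD ν) := by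
  have := h.prob
  refine ⟨?_, ?_, ?_, ?_⟩
  · unfold siteD; exact Measure.isProbabilityMeasure_map measurable_site.aemeasurable
  · show (siteD ν).map ngD = siteD ν
    unfold siteD
    rw [Measure.map_map measurable_ngD measurable_site]
    conv_rhs => rw [← h.symm]
    rw [Measure.map_map measurable_site measurable_neg]
    rfl
  · unfold siteD
    rw [ae_map_iff measurable_site.aemeasurable (measurableSet_le (by fun_prop) (by fun_prop))]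
    exact h.bdd
  · unfold siteD
    rw [ae_all_iff]
    intro i
    refine (ae_map_iff measurable_site.aemeasurable
      (measurableSet_le (f := fun _ => (0:ℝ)) (g := fun x : Dat => x.2 i) (by fun_prop) (by fun_prop) |>.inter
      (measurableSet_le (f := fun x : Dat => x.2 i) (g := fun _ => 1) (by fun_prop) (by fun_prop)))).mpr ?_
    refine Filter.Eventually.of_forall fun t => ?_
    show (0:ℝ) ≤ (if i = 0 then 1 else 0) ∧ (if i = 0 then (1:ℝ) else 0) ≤ 1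
    split_ifs <;> constructor <;> norm_num

theorem one_gg_nonneg {θ b : ℝ} (h0 : 0 ≤ θ) (h1 : θ < 1) (hb : |b| ≤ 1) : 0 ≤ gg θ b := by
  have h := abs_le.mp hb
  have hb2 : b ^ 2 ≤ 1 := by nlinarith [h.1, h.2]
  unfold gg
  refine div_nonneg (by linarith) ?_
  nlinarith [sq_nonneg b, sq_nonneg θ]

theorem one_gg_le_one {θ b : ℝ} (h0 : 0 ≤ θ) (h1 : θ < 1) (hb : |b| ≤ 1) : gg θ b ≤ 1 := by
  have h := abs_le.mp hb
  have hb2 : b ^ 2 ≤ 1 := by nlinarith [h.1, h.2]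
  have : θ ^ 2 < 1 := by nlinarith
  unfold gg
  rw [div_le_one (by nlinarith [sq_nonneg b])]
  nlinarith [sq_nonneg b, sq_nonneg θ]

theorem one_gg_neg (θ b : ℝ) : gg θ (-b) = gg θ b := by
  unfold gg; rw [neg_sq]

theorem measurable_thD (θ : ℝ) : Measurable (thD θ) := by
  unfold thD
  refine Measurable.prodMk (by fun_prop) ?_
  rw [measurable_pi_iff]
  intro i
  by_cases hi : i = 0
  · simp [hi]
  · simp only [hi, if_false]
    have : Measurable (fun x : Dat => gg θ x.1) := by unfold gg; fun_prop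
    exact ((this.const_mul θ).pow_const 2).mul ((measurable_pi_apply (i - 1)).comp measurable_snd)

theorem thD_ng (θ : ℝ) (x : Dat) : thD θ (ngD x) = ngD (thD θ x) := by
  unfold thD ngD
  simp only [one_gg_neg, mul_neg]

theorem thD_good {a K θ : ℝ} {μ : Measure Dat} (h : GoodD a K μ) (h0 : 0 ≤ θ) (h1 : θ < 1)
    (ha : a ≤ 1) : GoodD (θ * a) (θ ^ 2 * K) (μ.map (thD θ)) := by
  have := h.prob
  have hm := measurable_thD θ
  refine ⟨?_, ?_, ?_, ?_⟩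
  · exact Measure.isProbabilityMeasure_map hm.aemeasurable
  · show (μ.map (thD θ)).map ngD = μ.map (thD θ)
    rw [Measure.map_map measurable_ngD hm]
    conv_rhs => rw [← h.mp.map_eq]
    rw [Measure.map_map hm measurable_ngD]
    congr 1
    funext x
    exact (thD_ng θ x).symm
  · rw [ae_map_iff hm.aemeasurable (measurableSet_le (by fun_prop) (by fun_prop))]
    filter_upwards [h.bdd] with x hx
    show |θ * x.1| ≤ θ * a
    rw [abs_mul, abs_of_nonneg h0]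
    exact mul_le_mul_of_nonneg_left hx h0
  · rw [ae_all_iff]
    intro i
    refine (ae_map_iff hm.aemeasurable
      (measurableSet_le (f := fun _ => (0:ℝ)) (g := fun x : Dat => x.2 i) (by fun_prop) (by fun_prop) |>.inter
      (measurableSet_le (f := fun x : Dat => x.2 i) (g := fun _ => θ ^ 2 * K) (by fun_prop) (by fun_prop)))).mpr ?_
    filter_upwards [h.bdd, h.Ybd] with x hx hx'
    have hK := h.nonneg_K
    show 0 ≤ (if i = 0 then 0 else (θ * gg θ x.1) ^ 2 * x.2 (i - 1)) ∧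
      (if i = 0 then 0 else (θ * gg θ x.1) ^ 2 * x.2 (i - 1)) ≤ θ ^ 2 * K
    have g0 := one_gg_nonneg h0 h1 (hx.trans ha)
    have g1 := one_gg_le_one h0 h1 (hx.trans ha)
    have e := hx' (i - 1)
    split_ifs
    · exact ⟨le_rfl, by positivity⟩
    · refine ⟨mul_nonneg (sq_nonneg _) e.1, ?_⟩
      refine mul_le_mul ?_ e.2 e.1 (by positivity)
      rw [mul_pow]
      have : gg θ x.1 ^ 2 ≤ 1 := by nlinarith
      nlinarith [sq_nonneg θ]

/-- bound for `|b|` after attaching `k` children -/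
def abd (θ a : ℝ) (k : ℕ) : ℝ := (fun z => op z θ)^[k] a

theorem abd_prop {θ a : ℝ} (h0 : 0 ≤ θ) (h1 : θ < 1) (ha0 : 0 ≤ a) (ha : a < 1) (k : ℕ) :
    a ≤ abd θ a k ∧ abd θ a k < 1 := by
  induction k with
  | zero => exact ⟨le_rfl, ha⟩
  | succ k ih =>
    unfold abd at ih ⊢
    rw [Function.iterate_succ_apply']
    exact ⟨ih.1.trans (one_op_ge_left (ha0.trans ih.1) ih.2 h0), one_op_lt_one (ha0.trans ih.1) ih.2 h0 h1⟩

theorem attach_succ (θ : ℝ) (ν : Measure ℝ) (μ : Measure Dat) (k : ℕ) :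
    attach θ ν μ (k + 1) = conv (attach θ ν μ k) (μ.map (thD θ)) := by
  unfold attach
  rw [Function.iterate_succ_apply']

theorem attach_zero (θ : ℝ) (ν : Measure ℝ) (μ : Measure Dat) :
    attach θ ν μ 0 = siteD ν := rfl

theorem GoodD.mono {a a' K K' : ℝ} {μ : Measure Dat} (h : GoodD a K μ) (ha : a ≤ a') (hK : K ≤ K') :
    GoodD a' K' μ := by
  refine ⟨h.prob, h.symm, ?_, ?_⟩
  · filter_upwards [h.bdd] with x hx using hx.trans ha
  · filter_upwards [h.Ybd] with x hx using fun i => ⟨(hx i).1, (hx i).2.trans hK⟩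

theorem attach_good {a θ : ℝ} {ν : Measure ℝ} {μ : Measure Dat} (hν : GoodN a ν) (ha : a < 1)
    (h : GoodD 1 1 μ) (h0 : 0 ≤ θ) (h1 : θ < 1) (k : ℕ) :
    GoodD (abd θ a k) (1 + k * θ ^ 2) (attach θ ν μ k) := by
  have ha0 : 0 ≤ a := (siteD_good hν).nonneg_a
  induction k with
  | zero => rw [attach_zero]; simpa [abd] using siteD_good hν
  | succ k ih =>
    rw [attach_succ]
    have h2 := thD_good h h0 h1 le_rfl
    have h3 := ih.conv h2 (abd_prop h0 h1 ha0 ha k).2 (by linarith)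
    rw [mul_one, mul_one] at h3
    refine h3.mono (le_of_eq ?_) (le_of_eq ?_)
    · unfold abd; rw [Function.iterate_succ_apply']
    · push_cast; ring

theorem attach_ae {a θ : ℝ} {ν : Measure ℝ} {μ : Measure Dat} (hν : GoodN a ν) (ha : a < 1)
    (h : GoodD 1 1 μ) (h0 : 0 ≤ θ) (h1 : θ < 1) (k : ℕ) :
    ∀ᵐ x ∂(attach θ ν μ k), x.2 0 = 1 ∧ ∀ i, x.2 (i + 1) ≤ k * θ ^ 2 := by
  have ha0 : 0 ≤ a := (siteD_good hν).nonneg_a
  induction k with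
  | zero =>
    rw [attach_zero]
    unfold siteD
    refine (ae_map_iff measurable_site.aemeasurable ?_).mpr ?_
    · refine (measurableSet_eq_fun (by fun_prop) (by fun_prop)).inter ?_
      have : {x : Dat | ∀ i, x.2 (i + 1) ≤ ((0 : ℕ) : ℝ) * θ ^ 2}
        = ⋂ i, {x : Dat | x.2 (i + 1) ≤ ((0 : ℕ) : ℝ) * θ ^ 2} := by ext; simp
      rw [show (fun x : Dat => ∀ i, x.2 (i + 1) ≤ ((0 : ℕ) : ℝ) * θ ^ 2)
        = {x : Dat | ∀ i, x.2 (i + 1) ≤ ((0 : ℕ) : ℝ) * θ ^ 2} from rfl, this]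
      exact MeasurableSet.iInter fun i => measurableSet_le (by fun_prop) (by fun_prop)
    · refine Filter.Eventually.of_forall fun t => ?_
      simp
  | succ k ih =>
    rw [attach_succ]
    have h2 := thD_good h h0 h1 le_rfl
    have h3 := attach_good hν ha h h0 h1 k
    have h4 := h2.prob
    have h5 := h3.prob
    refine ae_conv ?_ ?_
    · refine (measurableSet_eq_fun (by fun_prop) (by fun_prop)).inter ?_
      have : {x : Dat | ∀ i, x.2 (i + 1) ≤ ((k + 1 : ℕ) : ℝ) * θ ^ 2}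
        = ⋂ i, {x : Dat | x.2 (i + 1) ≤ ((k + 1 : ℕ) : ℝ) * θ ^ 2} := by ext; simp
      rw [show (fun x : Dat => ∀ i, x.2 (i + 1) ≤ ((k + 1 : ℕ) : ℝ) * θ ^ 2)
        = {x : Dat | ∀ i, x.2 (i + 1) ≤ ((k + 1 : ℕ) : ℝ) * θ ^ 2} from rfl, this]
      exact MeasurableSet.iInter fun i => measurableSet_le (by fun_prop) (by fun_prop)
    · have e1 := (Measure.quasiMeasurePreserving_fst (μ := attach θ ν μ k) (ν := μ.map (thD θ))).ae ih
      have e0 : ∀ᵐ y ∂(μ.map (thD θ)), y.2 0 = 0 := by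
        rw [ae_map_iff (measurable_thD θ).aemeasurable (measurableSet_eq_fun (by fun_prop) (by fun_prop))]
        exact Filter.Eventually.of_forall fun x => by simp [thD]
      have e2 := (Measure.quasiMeasurePreserving_snd (μ := attach θ ν μ k) (ν := μ.map (thD θ))).ae
        (e0.and h2.Ybd)
      filter_upwards [e1, e2] with q hq1 hq2
      refine ⟨?_, fun i => ?_⟩
      · show (q.1.2 + q.2.2) 0 = 1
        rw [Pi.add_apply, hq1.1, hq2.1, add_zero]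
      · show (q.1.2 + q.2.2) (i + 1) ≤ _
        rw [Pi.add_apply]
        have := hq1.2 i
        have := (hq2.2 (i + 1)).2
        push_cast
        linarith

theorem attach_good' {a θ : ℝ} {ν : Measure ℝ} {μ : Measure Dat} (hν : GoodN a ν) (ha : a < 1)
    (h : GoodD 1 1 μ) (h0 : 0 ≤ θ) (h1 : θ < 1) (k : ℕ) (hk : k * θ ^ 2 ≤ 1) :
    GoodD (abd θ a k) 1 (attach θ ν μ k) := by
  have h3 := attach_good hν ha h h0 h1 k
  refine ⟨h3.prob, h3.symm, h3.bdd, ?_⟩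
  filter_upwards [h3.Ybd, attach_ae hν ha h h0 h1 k] with x hx hx' i
  refine ⟨(hx i).1, ?_⟩
  cases i with
  | zero => rw [hx'.1]
  | succ i => exact (hx'.2 i).trans hk

theorem rho_good {d : ℕ} {a θ : ℝ} {ν : Measure ℝ} (hν : GoodN a ν) (ha : a < 1)
    (h0 : 0 ≤ θ) (h1 : θ < 1) (hk : (d - 1 : ℕ) * θ ^ 2 ≤ 1) (n : ℕ) :
    GoodD (abd θ a (d - 1)) 1 (rho d θ ν n) := by
  have ha0 : 0 ≤ a := (siteD_good hν).nonneg_a
  have h4 := abd_prop h0 h1 ha0 ha (d - 1)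
  induction n with
  | zero => exact (siteD_good hν).mono h4.1 le_rfl
  | succ n ih =>
    exact attach_good' hν ha (ih.mono h4.2.le le_rfl) h0 h1 _ hk

theorem rho_zero_ae {d : ℕ} {a θ : ℝ} {ν : Measure ℝ} (hν : GoodN a ν) (ha : a < 1)
    (h0 : 0 ≤ θ) (h1 : θ < 1) (hk : (d - 1 : ℕ) * θ ^ 2 ≤ 1) (n : ℕ) :
    ∀ᵐ x ∂(rho d θ ν n), x.2 0 = 1 := by
  cases n with
  | zero =>
    unfold rho siteD
    rw [ae_map_iff measurable_site.aemeasurable (measurableSet_eq_fun (by fun_prop) (by fun_prop))]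
    exact Filter.Eventually.of_forall fun t => by simp
  | succ n =>
    have ha0 : 0 ≤ a := (siteD_good hν).nonneg_a
    have h4 := abd_prop h0 h1 ha0 ha (d - 1)
    filter_upwards [attach_ae hν ha ((rho_good hν ha h0 h1 hk n).mono h4.2.le le_rfl) h0 h1 (d - 1)] with x hx
    exact hx.1


theorem q_site (ν : Measure ℝ) : qD (siteD ν) = ∫ t, t ^ 2 ∂ν := by
  unfold qD siteD
  rw [integral_map measurable_site.aemeasurable (by fun_prop)]

theorem q_thD (θ : ℝ) (μ : Measure Dat) : qD (μ.map (thD θ)) = θ ^ 2 * qD μ := by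
  unfold qD
  rw [integral_map (measurable_thD θ).aemeasurable (by fun_prop), ← integral_const_mul]
  refine integral_congr_ae (Filter.Eventually.of_forall fun x => ?_)
  show (θ * x.1) ^ 2 = _
  ring

section att
variable {a θ : ℝ} {ν : Measure ℝ} {μ : Measure Dat}

theorem q_attach_le (hν : GoodN a ν) (ha : a < 1)
    (h : GoodD 1 1 μ) (h0 : 0 ≤ θ) (h1 : θ < 1) (k : ℕ) :
    qD (attach θ ν μ k) ≤ (∫ t, t ^ 2 ∂ν) + k * (θ ^ 2 * qD μ) := by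
  have ha0 : 0 ≤ a := (siteD_good hν).nonneg_a
  induction k with
  | zero => rw [attach_zero, q_site]; simp
  | succ k ih =>
    rw [attach_succ]
    have h2 := thD_good h h0 h1 le_rfl
    have h3 := attach_good hν ha h h0 h1 k
    have := q_conv_le' h3 h2 (abd_prop h0 h1 ha0 ha k).2 (by linarith)
    rw [q_thD] at this
    push_cast
    linarith

theorem q_attach_ge_child (hν : GoodN a ν) (ha : a < 1)
    (h : GoodD 1 1 μ) (h0 : 0 ≤ θ) (h1 : θ < 1) (k : ℕ) :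
    θ ^ 2 * qD μ ≤ qD (attach θ ν μ (k + 1)) := by
  have ha0 : 0 ≤ a := (siteD_good hν).nonneg_a
  rw [attach_succ, ← q_thD]
  exact q_conv_ge_right (attach_good hν ha h h0 h1 k) (thD_good h h0 h1 le_rfl)
    (abd_prop h0 h1 ha0 ha k).2 (by linarith)

theorem q_attach_ge_site (hν : GoodN a ν) (ha : a < 1)
    (h : GoodD 1 1 μ) (h0 : 0 ≤ θ) (h1 : θ < 1) (k : ℕ) :
    ∫ t, t ^ 2 ∂ν ≤ qD (attach θ ν μ k) := by
  have ha0 : 0 ≤ a := (siteD_good hν).nonneg_a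
  induction k with
  | zero => rw [attach_zero, q_site]
  | succ k ih =>
    rw [attach_succ]
    exact ih.trans (q_conv_ge_left (attach_good hν ha h h0 h1 k) (thD_good h h0 h1 le_rfl)
      (abd_prop h0 h1 ha0 ha k).2 (by linarith))

theorem q_attach_le2 (hν : GoodN a ν) (ha : a < 1)
    (h : GoodD 1 1 μ) (h0 : 0 ≤ θ) (h1 : θ < 1) (k : ℕ) :
    qD (attach θ ν μ (k + 2)) ≤ (∫ t, t ^ 2 ∂ν) + (k + 2 : ℕ) * (θ ^ 2 * qD μ)
      - (θ ^ 2 * qD μ) ^ 2 := by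
  have ha0 : 0 ≤ a := (siteD_good hν).nonneg_a
  induction k with
  | zero =>
    rw [attach_succ]
    have h2 := thD_good h h0 h1 le_rfl
    have h3 := attach_good hν ha h h0 h1 1
    have e1 := q_conv_le h3 h2 (abd_prop h0 h1 ha0 ha 1).2 (by linarith)
    rw [q_thD] at e1
    have e2 := q_attach_le hν ha h h0 h1 1
    have e3 := q_attach_ge_child hν ha h h0 h1 0
    have e4 := h2.q_nonneg
    rw [q_thD] at e4
    simp only [zero_add] at e3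
    push_cast at e2 ⊢
    nlinarith [mul_nonneg e4 (sub_nonneg.mpr e3)]
  | succ k ih =>
    rw [show k + 1 + 2 = (k + 2) + 1 by ring, attach_succ]
    have h2 := thD_good h h0 h1 le_rfl
    have h3 := attach_good hν ha h h0 h1 (k + 2)
    have := q_conv_le' h3 h2 (abd_prop h0 h1 ha0 ha (k + 2)).2 (by linarith)
    rw [q_thD] at this
    push_cast at ih ⊢
    linarith

theorem s_attach (hν : GoodN a ν) (ha : a < 1)
    (h : GoodD 1 1 μ) (h0 : 0 ≤ θ) (h1 : θ < 1) (k : ℕ) :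
    (∫ t, t ^ 2 ∂ν) + k * (θ ^ 2 * qD μ)
      ≤ qD (attach θ ν μ k) / (1 - qD (attach θ ν μ k)) := by
  have ha0 : 0 ≤ a := (siteD_good hν).nonneg_a
  have hs : ∀ x : ℝ, 0 ≤ x → x < 1 → x ≤ x / (1 - x) := fun x hx0 hx1 => by
    rw [le_div_iff₀ (by linarith)]; nlinarith
  induction k with
  | zero =>
    rw [attach_zero, q_site]
    have e1 := (siteD_good hν).q_nonneg
    have e2 := (siteD_good hν).q_lt_one ha
    rw [q_site] at e1 e2
    have := hs _ e1 e2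
    simpa using this
  | succ k ih =>
    have h2 := thD_good h h0 h1 le_rfl
    have h3 := attach_good hν ha h h0 h1 k
    have e := s_conv h3 h2 (abd_prop h0 h1 ha0 ha k).2 (by linarith)
    rw [← attach_succ] at e
    have e1 := h2.q_nonneg
    have e2 := h2.q_lt_one (by linarith)
    have := hs _ e1 e2
    rw [q_thD] at this e
    push_cast
    linarith

/-- `E Y_{i+1}` -/
theorem attach_EY (hν : GoodN a ν) (ha : a < 1)
    (h : GoodD 1 1 μ) (h0 : 0 ≤ θ) (h1 : θ < 1) (k i : ℕ) :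
    ∫ x, x.2 (i + 1) ∂(attach θ ν μ k) = k * ∫ x, (θ * gg θ x.1) ^ 2 * x.2 i ∂μ := by
  have ha0 : 0 ≤ a := (siteD_good hν).nonneg_a
  have h2 := thD_good h h0 h1 le_rfl
  have e2 : ∫ x, x.2 (i + 1) ∂(μ.map (thD θ)) = ∫ x, (θ * gg θ x.1) ^ 2 * x.2 i ∂μ := by
    rw [integral_map (measurable_thD θ).aemeasurable (by fun_prop)]
    refine integral_congr_ae (Filter.Eventually.of_forall fun x => ?_)
    simp [thD]
  induction k with
  | zero =>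
    rw [attach_zero]
    unfold siteD
    rw [integral_map measurable_site.aemeasurable (by fun_prop)]
    simp
  | succ k ih =>
    rw [attach_succ]
    have h3 := attach_good hν ha h h0 h1 k
    rw [conv_Y h3 h2 (abd_prop h0 h1 ha0 ha k).2 (by linarith) (G := fun y => y (i + 1)) (by fun_prop)
      (C := 1 + k * θ ^ 2 + θ ^ 2 * 1) (fun x hx => by
        rw [abs_of_nonneg (hx _).1]; exact (hx _).2)]
    have j1 : Integrable (fun p : Dat × Dat => p.1.2 (i + 1)) ((attach θ ν μ k).prod (μ.map (thD θ))) := by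
      refine integrable_prod_bdd h3 h2 (by fun_prop) (C := 1 + k * θ ^ 2) ?_
      intro x y _ hx _ _
      rw [abs_of_nonneg (hx _).1]; exact (hx _).2
    have j2 : Integrable (fun p : Dat × Dat => p.2.2 (i + 1)) ((attach θ ν μ k).prod (μ.map (thD θ))) := by
      refine integrable_prod_bdd h3 h2 (by fun_prop) (C := θ ^ 2 * 1) ?_
      intro x y _ _ _ hx
      rw [abs_of_nonneg (hx _).1]; exact (hx _).2
    simp only [Pi.add_apply]
    rw [integral_add j1 j2, prod_fst_int h3 h2 (G := fun x : Dat => x.2 (i + 1)) (by fun_prop),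
      prod_snd_int h3 h2 (G := fun x : Dat => x.2 (i + 1)) (by fun_prop), ih, e2]
    push_cast
    ring

theorem conv_bY (h₁ : GoodD a₁ K₁ μ₁) (h₂ : GoodD a₂ K₂ μ₂) (ha₁ : a₁ < 1) (ha₂ : a₂ < 1) (i : ℕ) :
    ∫ x, x.1 ^ 2 * x.2 i ∂(conv μ₁ μ₂)
      = ∫ p, hq (p.1.1 ^ 2) (p.2.1 ^ 2) * (p.1.2 i + p.2.2 i) ∂(μ₁.prod μ₂) :=
  conv_sqY h₁ h₂ ha₁ ha₂ (G := fun y => y i) (by fun_prop) (C := K₁ + K₂) (fun x hx => by
        rw [abs_of_nonneg (hx _).1]; exact (hx _).2)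

theorem int_hqY (h₁ : GoodD a₁ K₁ μ₁) (h₂ : GoodD a₂ K₂ μ₂) (ha₁ : a₁ < 1) (ha₂ : a₂ < 1) (i : ℕ) :
    Integrable (fun p : Dat × Dat => hq (p.1.1 ^ 2) (p.2.1 ^ 2) * (p.1.2 i + p.2.2 i)) (μ₁.prod μ₂) := by
  refine integrable_prod_bdd h₁ h₂ (measurable_hq2.mul (by fun_prop)) (C := 1 * (K₁ + K₂)) ?_
  intro x y hx hx' hy hy'
  have e1 := hq_nonneg (sq_nonneg x.1) (one_sq_lt_one_of hx ha₁) (sq_nonneg y.1) (one_sq_lt_one_of hy ha₂)
  have e2 := hq_lt_one (sq_nonneg x.1) (one_sq_lt_one_of hx ha₁) (sq_nonneg y.1) (one_sq_lt_one_of hy ha₂)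
  have e3 := hx' i
  have e4 := hy' i
  rw [abs_mul]
  refine mul_le_mul (by rw [abs_of_nonneg e1]; exact e2.le) ?_ (abs_nonneg _) (by norm_num)
  rw [abs_of_nonneg (by linarith [e3.1, e4.1])]
  linarith [e3.2, e4.2]

/-- lower bound for `E b² Y_i` -/
theorem conv_bY_ge (h₁ : GoodD a₁ K₁ μ₁) (h₂ : GoodD a₂ K₂ μ₂) (ha₁ : a₁ < 1) (ha₂ : a₂ < 1) (i : ℕ) :
    (∫ x, x.1 ^ 2 * x.2 i ∂μ₁) + qD μ₁ * (∫ x, x.2 i ∂μ₂) ≤ ∫ x, x.1 ^ 2 * x.2 i ∂(conv μ₁ μ₂) ∧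
    qD μ₂ * (∫ x, x.2 i ∂μ₁) + qD μ₁ * (∫ x, x.2 i ∂μ₂) ≤ ∫ x, x.1 ^ 2 * x.2 i ∂(conv μ₁ μ₂) := by
  have := h₁.prob
  have := h₂.prob
  rw [conv_bY h₁ h₂ ha₁ ha₂ i]
  have hb1 : ∀ x : Dat, |x.1| ≤ a₁ → (∀ i, 0 ≤ x.2 i ∧ x.2 i ≤ K₁) → |x.1 ^ 2 * x.2 i| ≤ 1 * K₁ := by
    intro x hx hx'
    rw [abs_mul, abs_of_nonneg (sq_nonneg _), abs_of_nonneg (hx' i).1]
    exact mul_le_mul (one_sq_lt_one_of hx ha₁).le (hx' i).2 (hx' i).1 (by norm_num)
  have j1 : Integrable (fun p : Dat × Dat => p.1.1 ^ 2 * p.1.2 i) (μ₁.prod μ₂) :=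
    integrable_prod_bdd h₁ h₂ (by fun_prop) (C := 1 * K₁) (fun x y hx hx' _ _ => hb1 x hx hx')
  have j2 : Integrable (fun p : Dat × Dat => p.1.1 ^ 2 * p.2.2 i) (μ₁.prod μ₂) := by
    refine integrable_prod_bdd h₁ h₂ (by fun_prop) (C := 1 * K₂) ?_
    intro x y hx _ _ hy'
    rw [abs_mul, abs_of_nonneg (sq_nonneg _), abs_of_nonneg (hy' i).1]
    exact mul_le_mul (one_sq_lt_one_of hx ha₁).le (hy' i).2 (hy' i).1 (by norm_num)
  have j3 : Integrable (fun p : Dat × Dat => p.2.1 ^ 2 * p.1.2 i) (μ₁.prod μ₂) := by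
    refine integrable_prod_bdd h₁ h₂ (by fun_prop) (C := 1 * K₁) ?_
    intro x y _ hx' hy _
    rw [abs_mul, abs_of_nonneg (sq_nonneg _), abs_of_nonneg (hx' i).1]
    exact mul_le_mul (one_sq_lt_one_of hy ha₂).le (hx' i).2 (hx' i).1 (by norm_num)
  have e1 : ∫ p : Dat × Dat, p.1.1 ^ 2 * p.1.2 i ∂(μ₁.prod μ₂) = ∫ x, x.1 ^ 2 * x.2 i ∂μ₁ :=
    prod_fst_int h₁ h₂ (G := fun x : Dat => x.1 ^ 2 * x.2 i) (by fun_prop)
  have e2 : ∫ p : Dat × Dat, p.1.1 ^ 2 * p.2.2 i ∂(μ₁.prod μ₂) = qD μ₁ * ∫ x, x.2 i ∂μ₂ :=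
    integral_prod_mul (μ := μ₁) (ν := μ₂) (fun x : Dat => x.1 ^ 2) (fun x : Dat => x.2 i)
  have e3 : ∫ p : Dat × Dat, p.2.1 ^ 2 * p.1.2 i ∂(μ₁.prod μ₂) = qD μ₂ * ∫ x, x.2 i ∂μ₁ := by
    have := integral_prod_mul (μ := μ₁) (ν := μ₂) (fun x : Dat => x.2 i) (fun x : Dat => x.1 ^ 2)
    rw [mul_comm]
    unfold qD
    rw [← this]
    refine integral_congr_ae (Filter.Eventually.of_forall fun p => ?_)
    show _ * _ = _ * _
    ring
  constructor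
  · rw [← e1, ← e2, ← integral_add j1 j2]
    refine integral_mono_ae (j1.add j2) (int_hqY h₁ h₂ ha₁ ha₂ i) ?_
    filter_upwards [ae_prod_good h₁ h₂] with p hp
    have := hq_ge_left (sq_nonneg p.1.1) (one_sq_lt_one_of hp.1.1 ha₁) (sq_nonneg p.2.1) (one_sq_lt_one_of hp.2.1 ha₂)
    have f1 := hp.1.2 i
    have f2 := hp.2.2 i
    show p.1.1 ^ 2 * p.1.2 i + p.1.1 ^ 2 * p.2.2 i ≤ _
    nlinarith [f1.1, f2.1]
  · rw [← e3, ← e2, ← integral_add j3 j2]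
    refine integral_mono_ae (j3.add j2) (int_hqY h₁ h₂ ha₁ ha₂ i) ?_
    filter_upwards [ae_prod_good h₁ h₂] with p hp
    have g1 := hq_ge_left (sq_nonneg p.1.1) (one_sq_lt_one_of hp.1.1 ha₁) (sq_nonneg p.2.1) (one_sq_lt_one_of hp.2.1 ha₂)
    have g2 := hq_ge_right (sq_nonneg p.1.1) (one_sq_lt_one_of hp.1.1 ha₁) (sq_nonneg p.2.1) (one_sq_lt_one_of hp.2.1 ha₂)
    have f1 := hp.1.2 i
    have f2 := hp.2.2 i
    show p.2.1 ^ 2 * p.1.2 i + p.1.1 ^ 2 * p.2.2 i ≤ _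
    nlinarith [f1.1, f2.1, mul_nonneg f1.1 (sub_nonneg.mpr g2), mul_nonneg f2.1 (sub_nonneg.mpr g1)]

theorem conv_EY (h₁ : GoodD a₁ K₁ μ₁) (h₂ : GoodD a₂ K₂ μ₂) (ha₁ : a₁ < 1) (ha₂ : a₂ < 1) (i : ℕ) :
    ∫ x, x.2 i ∂(conv μ₁ μ₂) = (∫ x, x.2 i ∂μ₁) + ∫ x, x.2 i ∂μ₂ := by
  rw [conv_Y h₁ h₂ ha₁ ha₂ (G := fun y => y i) (by fun_prop)
      (C := K₁ + K₂) (fun x hx => by
        rw [abs_of_nonneg (hx _).1]; exact (hx _).2)]
  have j1 : Integrable (fun p : Dat × Dat => p.1.2 i) (μ₁.prod μ₂) := by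
    refine integrable_prod_bdd h₁ h₂ (by fun_prop) (C := K₁) ?_
    intro x y _ hx _ _
    rw [abs_of_nonneg (hx _).1]; exact (hx _).2
  have j2 : Integrable (fun p : Dat × Dat => p.2.2 i) (μ₁.prod μ₂) := by
    refine integrable_prod_bdd h₁ h₂ (by fun_prop) (C := K₂) ?_
    intro x y _ _ _ hx
    rw [abs_of_nonneg (hx _).1]; exact (hx _).2
  simp only [Pi.add_apply]
  rw [integral_add j1 j2, prod_fst_int h₁ h₂ (G := fun x : Dat => x.2 i) (by fun_prop),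
    prod_snd_int h₁ h₂ (G := fun x : Dat => x.2 i) (by fun_prop)]

theorem attach_bY (hν : GoodN a ν) (ha : a < 1)
    (h : GoodD 1 1 μ) (h0 : 0 ≤ θ) (h1 : θ < 1) (k i : ℕ) :
    θ ^ 2 * qD μ * ∫ x, x.2 (i + 1) ∂(attach θ ν μ (k + 2))
      ≤ ∫ x, x.1 ^ 2 * x.2 (i + 1) ∂(attach θ ν μ (k + 2)) := by
  have ha0 : 0 ≤ a := (siteD_good hν).nonneg_a
  have h2 := thD_good h h0 h1 le_rfl
  have hY0 : 0 ≤ ∫ x, x.2 (i + 1) ∂(μ.map (thD θ)) := by
    refine integral_nonneg_of_ae ?_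
    filter_upwards [h2.Ybd] with x hx using (hx _).1
  induction k with
  | zero =>
    have h3 := attach_good hν ha h h0 h1 1
    rw [show 0 + 2 = 1 + 1 from rfl, attach_succ]
    have e1 := (conv_bY_ge h3 h2 (abd_prop h0 h1 ha0 ha 1).2 (by linarith) (i + 1)).2
    rw [conv_EY h3 h2 (abd_prop h0 h1 ha0 ha 1).2 (by linarith) (i + 1)]
    have e2 := q_attach_ge_child hν ha h h0 h1 0
    rw [q_thD] at e1
    rw [zero_add] at e2
    nlinarith [mul_nonneg (sub_nonneg.mpr e2) hY0]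
  | succ k ih =>
    have h3 := attach_good hν ha h h0 h1 (k + 2)
    rw [show k + 1 + 2 = (k + 2) + 1 by ring, attach_succ]
    have e1 := (conv_bY_ge h3 h2 (abd_prop h0 h1 ha0 ha (k + 2)).2 (by linarith) (i + 1)).1
    rw [conv_EY h3 h2 (abd_prop h0 h1 ha0 ha (k + 2)).2 (by linarith) (i + 1)]
    have e2 := q_attach_ge_child hν ha h h0 h1 (k + 1)
    rw [show k + 1 + 1 = k + 2 by ring] at e2
    nlinarith [mul_nonneg (sub_nonneg.mpr e2) hY0]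

theorem conv_expY (h₁ : GoodD a₁ K₁ μ₁) (h₂ : GoodD a₂ K₂ μ₂) (ha₁ : a₁ < 1) (ha₂ : a₂ < 1) (i : ℕ)
    {κ : ℝ} (hκ : 0 ≤ κ) :
    ∫ x, Real.exp (κ * x.2 i) ∂(conv μ₁ μ₂)
      = (∫ x, Real.exp (κ * x.2 i) ∂μ₁) * ∫ x, Real.exp (κ * x.2 i) ∂μ₂ := by
  have := h₁.prob
  have := h₂.prob
  rw [conv_Y h₁ h₂ ha₁ ha₂ (G := fun y => Real.exp (κ * y i)) (by fun_prop)
      (C := Real.exp (κ * (K₁ + K₂))) (fun x hx => by
        rw [abs_of_pos (Real.exp_pos _)]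
        exact Real.exp_le_exp.mpr (mul_le_mul_of_nonneg_left (hx _).2 hκ))]
  rw [← integral_prod_mul (μ := μ₁) (ν := μ₂) (fun x : Dat => Real.exp (κ * x.2 i))
    (fun x : Dat => Real.exp (κ * x.2 i))]
  refine integral_congr_ae (Filter.Eventually.of_forall fun p => ?_)
  show Real.exp (κ * (p.1.2 i + p.2.2 i)) = _
  rw [mul_add, Real.exp_add]

theorem attach_expY (hν : GoodN a ν) (ha : a < 1)
    (h : GoodD 1 1 μ) (h0 : 0 ≤ θ) (h1 : θ < 1) (k i : ℕ) {κ : ℝ} (hκ : 0 ≤ κ) :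
    ∫ x, Real.exp (κ * x.2 (i + 1)) ∂(attach θ ν μ k)
      ≤ (∫ x, Real.exp (κ * θ ^ 2 * x.2 i) ∂μ) ^ k := by
  have ha0 : 0 ≤ a := (siteD_good hν).nonneg_a
  have h2 := thD_good h h0 h1 le_rfl
  have hm := h2.prob
  have hm' := h.prob
  have e2 : ∫ x, Real.exp (κ * x.2 (i + 1)) ∂(μ.map (thD θ)) ≤ ∫ x, Real.exp (κ * θ ^ 2 * x.2 i) ∂μ := by
    rw [integral_map (measurable_thD θ).aemeasurable (by fun_prop)]
    refine integral_mono_ae ?_ ?_ ?_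
    · refine h.integrable (C := Real.exp (κ * θ ^ 2)) ?_ ?_
      · exact (((measurable_pi_apply (i + 1)).comp (measurable_snd.comp (measurable_thD θ))).const_mul κ).exp
      · intro x hx hx'
        rw [abs_of_pos (Real.exp_pos _)]
        refine Real.exp_le_exp.mpr ?_
        show κ * (if i + 1 = 0 then 0 else (θ * gg θ x.1) ^ 2 * x.2 (i + 1 - 1)) ≤ _
        simp only [Nat.add_eq_zero_iff, one_ne_zero, and_false, if_false, Nat.add_sub_cancel]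
        have g0 := one_gg_nonneg h0 h1 hx
        have g1 := one_gg_le_one h0 h1 hx
        have e := hx' i
        have : (θ * gg θ x.1) ^ 2 * x.2 i ≤ θ ^ 2 * 1 := by
          refine mul_le_mul ?_ e.2 e.1 (by positivity)
          rw [mul_pow]
          have : gg θ x.1 ^ 2 ≤ 1 := by nlinarith
          nlinarith [sq_nonneg θ]
        nlinarith
    · refine h.integrable (C := Real.exp (κ * θ ^ 2)) (by fun_prop) ?_
      intro x hx hx'
      rw [abs_of_pos (Real.exp_pos _)]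
      refine Real.exp_le_exp.mpr ?_
      have e := hx' i
      nlinarith [mul_nonneg hκ (sq_nonneg θ)]
    · filter_upwards [h.bdd, h.Ybd] with x hx hx'
      refine Real.exp_le_exp.mpr ?_
      show κ * (if i + 1 = 0 then 0 else (θ * gg θ x.1) ^ 2 * x.2 (i + 1 - 1)) ≤ _
      simp only [Nat.add_eq_zero_iff, one_ne_zero, and_false, if_false, Nat.add_sub_cancel]
      have g0 := one_gg_nonneg h0 h1 hx
      have g1 := one_gg_le_one h0 h1 hx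
      have e := hx' i
      have : (θ * gg θ x.1) ^ 2 * x.2 i ≤ θ ^ 2 * x.2 i := by
        refine mul_le_mul_of_nonneg_right ?_ e.1
        rw [mul_pow]
        have : gg θ x.1 ^ 2 ≤ 1 := by nlinarith
        nlinarith [sq_nonneg θ]
      nlinarith
  induction k with
  | zero =>
    rw [attach_zero]
    unfold siteD
    have := hν.prob
    rw [integral_map measurable_site.aemeasurable (by fun_prop)]
    simp
  | succ k ih =>
    have h3 := attach_good hν ha h h0 h1 k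
    rw [attach_succ, conv_expY h3 h2 (abd_prop h0 h1 ha0 ha k).2 (by linarith) (i + 1) hκ, pow_succ]
    refine mul_le_mul ih e2 ?_ ?_
    · exact integral_nonneg fun _ => (Real.exp_pos _).le
    · exact pow_nonneg (integral_nonneg fun _ => (Real.exp_pos _).le) _

end att


/-! ### higher moments -/

theorem one_add_pow_le3 (n : ℕ) {r : ℝ} (hr : |r| ≤ 1) : (1 + r) ^ n ≤ 1 + n * r + 3 ^ n * r ^ 2 := by
  have h := abs_le.mp hr
  induction n with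
  | zero => simp; positivity
  | succ n ih =>
    have h1 : 0 ≤ 1 + r := by linarith
    have h2 : (n : ℝ) ≤ 3 ^ n := by
      have : n < 3 ^ n := Nat.lt_pow_self (by norm_num)
      exact_mod_cast this.le
    have h3 : (0:ℝ) < 3 ^ n := by positivity
    have hr3 : r ^ 3 ≤ r ^ 2 := by nlinarith [sq_nonneg r]
    calc (1 + r) ^ (n + 1) = (1 + r) ^ n * (1 + r) := pow_succ _ _
      _ ≤ (1 + n * r + 3 ^ n * r ^ 2) * (1 + r) := mul_le_mul_of_nonneg_right ih h1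
      _ = 1 + (n + 1) * r + (n + 3 ^ n) * r ^ 2 + 3 ^ n * r ^ 3 := by ring
      _ ≤ 1 + (n + 1) * r + (3 ^ n + 3 ^ n) * r ^ 2 + 3 ^ n * r ^ 2 := by
        nlinarith [sq_nonneg r, mul_nonneg (sub_nonneg.mpr h2) (sq_nonneg r),
          mul_nonneg h3.le (sub_nonneg.mpr hr3)]
      _ = 1 + ((n + 1 : ℕ) : ℝ) * r + 3 ^ (n + 1) * r ^ 2 := by push_cast; ring

theorem inv_pow_le {c : ℝ} (hc0 : 0 ≤ c) (hc : c < 1) (m : ℕ) :
    ∃ K : ℝ, 0 ≤ K ∧ ∀ x : ℝ, |x| ≤ c → ((1 + x) ^ m)⁻¹ ≤ 1 - m * x + K * x ^ 2 := by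
  induction m with
  | zero => exact ⟨0, le_rfl, fun x _ => by simp⟩
  | succ m ih =>
    obtain ⟨K, hK, h⟩ := ih
    refine ⟨(m + K + (1 - c)⁻¹) + (K + m * (1 - c)⁻¹) + K * (1 - c)⁻¹, by
      have : 0 < 1 - c := by linarith
      positivity, ?_⟩
    intro x hx
    have hx' := abs_le.mp hx
    have hc1 : 0 < 1 - c := by linarith
    have h1x : 0 < 1 + x := by linarith
    set c1 := (1 - c)⁻¹ with hc1def
    have hc1pos : 0 < c1 := inv_pos.mpr hc1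
    have e1 : (1 + x)⁻¹ ≤ 1 - x + c1 * x ^ 2 := by
      have : (1 + x)⁻¹ = 1 - x + (1 + x)⁻¹ * x ^ 2 := by field_simp; ring
      rw [this]
      have : (1 + x)⁻¹ ≤ c1 := inv_anti₀ hc1 (by linarith)
      nlinarith [mul_le_mul_of_nonneg_right this (sq_nonneg x)]
    have e2 := h x hx
    have e3 : 0 ≤ ((1 + x) ^ m)⁻¹ := by positivity
    have e4 : 0 ≤ (1 + x)⁻¹ := by positivity
    rw [pow_succ, mul_inv]
    calc ((1 + x) ^ m)⁻¹ * (1 + x)⁻¹ ≤ (1 - m * x + K * x ^ 2) * (1 - x + c1 * x ^ 2) :=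
          mul_le_mul e2 e1 e4 (e3.trans e2)
      _ = 1 - (m + 1) * x + (m + K + c1) * x ^ 2 - (K + m * c1) * x ^ 3 + K * c1 * x ^ 4 := by ring
      _ ≤ 1 - (m + 1) * x + (m + K + c1) * x ^ 2 + (K + m * c1) * x ^ 2 + K * c1 * x ^ 2 := by
        have hx1 : |x| ≤ 1 := hx.trans hc.le
        have hx1' := abs_le.mp hx1
        have g1 : -(x ^ 3) ≤ x ^ 2 := by nlinarith [sq_nonneg x]
        have g2 : x ^ 4 ≤ x ^ 2 := by nlinarith [sq_nonneg x, sq_nonneg (x ^ 2)]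
        have g3 : 0 ≤ K + m * c1 := by positivity
        have g4 : 0 ≤ K * c1 := by positivity
        nlinarith [mul_le_mul_of_nonneg_left g1 g3, mul_le_mul_of_nonneg_left g2 g4]
      _ = 1 - ((m + 1 : ℕ) : ℝ) * x + ((m + K + c1) + (K + m * c1) + K * c1) * x ^ 2 := by
        push_cast; ring

/-- one-sided second order bound -/
theorem mom_aux {c : ℝ} (hc0 : 0 ≤ c) (hc : c < 1) (n m : ℕ) :
    ∃ C : ℝ, 0 ≤ C ∧ ∀ r x : ℝ, |r| ≤ 1 → |x| ≤ c → |x| ≤ |r| →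
      (1 + r) ^ n * ((1 + x) ^ m)⁻¹ ≤ 1 + (n * r - m * x) + C * r ^ 2 := by
  obtain ⟨K, hK, h⟩ := inv_pow_le hc0 hc m
  refine ⟨3 ^ n + n * m + K + n * K + 3 ^ n * m + 3 ^ n * K, by positivity, ?_⟩
  intro r x hr hx hxr
  have e1 := one_add_pow_le3 n hr
  have e2 := h x hx
  have hr' := abs_le.mp hr
  have hx' := abs_le.mp hx
  have f1 : 0 ≤ (1 + r) ^ n := pow_nonneg (by linarith) _
  have f2 : 0 ≤ ((1 + x) ^ m)⁻¹ := by
    have : 0 < 1 + x := by linarith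
    positivity
  have hxx : x ^ 2 ≤ r ^ 2 := sq_le_sq.mpr hxr
  have hrx : |r * x| ≤ r ^ 2 := by
    rw [abs_mul, ← sq_abs r, sq]
    exact mul_le_mul_of_nonneg_left hxr (abs_nonneg _)
  have hrx' := abs_le.mp hrx
  have hr2 : 0 ≤ r ^ 2 := sq_nonneg r
  have hrxx : r * x ^ 2 ≤ r ^ 2 := by nlinarith [sq_nonneg x]
  have hrrx : -(r ^ 2 * x) ≤ r ^ 2 := by nlinarith
  have hrrxx : r ^ 2 * x ^ 2 ≤ r ^ 2 := by
    have : x ^ 2 ≤ 1 := by nlinarith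
    nlinarith
  have h3 : (0:ℝ) < 3 ^ n := by positivity
  have hn : (0:ℝ) ≤ n := Nat.cast_nonneg n
  have hm : (0:ℝ) ≤ m := Nat.cast_nonneg m
  calc (1 + r) ^ n * ((1 + x) ^ m)⁻¹ ≤ (1 + n * r + 3 ^ n * r ^ 2) * (1 - m * x + K * x ^ 2) :=
        mul_le_mul e1 e2 f2 (f1.trans e1)
    _ = 1 + (n * r - m * x) + (3 ^ n * r ^ 2 + n * m * (-(r * x)) + K * x ^ 2 + n * K * (r * x ^ 2)
        + 3 ^ n * m * (-(r ^ 2 * x)) + 3 ^ n * K * (r ^ 2 * x ^ 2)) := by ring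
    _ ≤ 1 + (n * r - m * x) + (3 ^ n * r ^ 2 + n * m * r ^ 2 + K * r ^ 2 + n * K * r ^ 2
        + 3 ^ n * m * r ^ 2 + 3 ^ n * K * r ^ 2) := by
      have g1 : n * m * (-(r * x)) ≤ n * m * r ^ 2 :=
        mul_le_mul_of_nonneg_left (by linarith [hrx'.1]) (by positivity)
      have g2 : K * x ^ 2 ≤ K * r ^ 2 := mul_le_mul_of_nonneg_left hxx hK
      have g3 : n * K * (r * x ^ 2) ≤ n * K * r ^ 2 := mul_le_mul_of_nonneg_left hrxx (by positivity)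
      have g4 : 3 ^ n * m * (-(r ^ 2 * x)) ≤ 3 ^ n * m * r ^ 2 :=
        mul_le_mul_of_nonneg_left hrrx (by positivity)
      have g5 : 3 ^ n * K * (r ^ 2 * x ^ 2) ≤ 3 ^ n * K * r ^ 2 :=
        mul_le_mul_of_nonneg_left hrrxx (by positivity)
      linarith
    _ = _ := by ring

/-- symmetrised `2(p+1)`-th power -/
def Sy (p : ℕ) (u v : ℝ) : ℝ :=
  ((1 + u * v) * (op u v) ^ (2 * (p + 1)) + (1 - u * v) * (op u (-v)) ^ (2 * (p + 1))) / 2

theorem op_pow_eq {u v : ℝ} (h : 0 < 1 + u * v) (p : ℕ) :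
    (1 + u * v) * (op u v) ^ (2 * (p + 1)) = (u + v) ^ (2 * (p + 1)) * ((1 + u * v) ^ (2 * p + 1))⁻¹ := by
  unfold op
  rw [div_pow, show 2 * (p + 1) = (2 * p + 1) + 1 by ring, pow_succ (1 + u * v) (2 * p + 1)]
  field_simp

theorem Sy_le_aux {c : ℝ} (hc0 : 0 ≤ c) (hc : c < 1) (p : ℕ) :
    ∃ C : ℝ, 0 ≤ C ∧ ∀ u v : ℝ, |u| ≤ 1 → |u * v| ≤ c → |v| ≤ |u| →
      Sy p u v ≤ u ^ (2 * (p + 1)) + C * (u ^ (2 * p) * v ^ 2) := by
  obtain ⟨C, hC, h⟩ := mom_aux hc0 hc (2 * (p + 1)) (2 * p + 1)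
  refine ⟨C, hC, ?_⟩
  intro u v hu huv hvu
  have huv' := abs_le.mp huv
  by_cases hu0 : u = 0
  · have hv0 : v = 0 := by
      rw [hu0, abs_zero] at hvu
      exact abs_eq_zero.mp (le_antisymm hvu (abs_nonneg _))
    subst hu0; subst hv0
    simp [Sy, op]
  set r := v / u with hr
  have hv : v = u * r := by rw [hr]; field_simp
  have hr1 : |r| ≤ 1 := by
    rw [hr, abs_div, div_le_one (abs_pos.mpr hu0)]; exact hvu
  have hx1 : |u * v| ≤ |r| := by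
    rw [hv, show u * (u * r) = (u * u) * r by ring, abs_mul, abs_mul]
    have : |u| * |u| ≤ 1 := by nlinarith [abs_nonneg u]
    nlinarith [abs_nonneg r]
  have e1 := h r (u * v) hr1 huv hx1
  have e2 := h (-r) (-(u * v)) (by rwa [abs_neg]) (by rwa [abs_neg]) (by rwa [abs_neg, abs_neg])
  have p1 : 0 < 1 + u * v := by linarith
  have p2 : 0 < 1 + u * (-v) := by linarith
  have s1 := op_pow_eq p1 p
  have s2 := op_pow_eq p2 p
  have hupow : 0 ≤ u ^ (2 * (p + 1)) := by rw [pow_mul]; positivity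
  have t1 : (u + v) ^ (2 * (p + 1)) = u ^ (2 * (p + 1)) * (1 + r) ^ (2 * (p + 1)) := by
    rw [← mul_pow]; congr 1; rw [hv]; ring
  have t2 : (u + -v) ^ (2 * (p + 1)) = u ^ (2 * (p + 1)) * (1 + -r) ^ (2 * (p + 1)) := by
    rw [← mul_pow]; congr 1; rw [hv]; ring
  unfold Sy
  rw [show (1 - u * v) = 1 + u * (-v) by ring, s1, s2, t1, t2,
    show u * (-v) = -(u * v) by ring]
  have g1 := mul_le_mul_of_nonneg_left e1 hupow
  have g2 := mul_le_mul_of_nonneg_left e2 hupow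
  have t3 : u ^ (2 * p) * v ^ 2 = u ^ (2 * (p + 1)) * r ^ 2 := by
    rw [hv]; ring
  rw [t3]
  nlinarith

theorem Sy_comm (p : ℕ) (u v : ℝ) : Sy p u v = Sy p v u := by
  unfold Sy
  rw [one_op_comm u v, one_op_comm u (-v), one_op_neg_right v u, Even.neg_pow ⟨p + 1, by ring⟩, mul_comm u v]

theorem Sy_le {c : ℝ} (hc0 : 0 ≤ c) (hc : c < 1) (p : ℕ) :
    ∃ C : ℝ, 0 ≤ C ∧ ∀ u v : ℝ, |u| ≤ 1 → |v| ≤ 1 → |u * v| ≤ c →
      Sy p u v ≤ u ^ (2 * (p + 1)) + v ^ (2 * (p + 1))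
        + C * (u ^ (2 * p) * v ^ 2 + u ^ 2 * v ^ (2 * p)) := by
  obtain ⟨C, hC, h⟩ := Sy_le_aux hc0 hc p
  refine ⟨C, hC, ?_⟩
  intro u v hu hv huv
  have n1 : 0 ≤ u ^ (2 * (p + 1)) := by rw [pow_mul]; positivity
  have n2 : 0 ≤ v ^ (2 * (p + 1)) := by rw [pow_mul]; positivity
  have n3 : 0 ≤ u ^ (2 * p) * v ^ 2 := by rw [pow_mul]; positivity
  have n4 : 0 ≤ u ^ 2 * v ^ (2 * p) := by rw [pow_mul]; positivity
  rcases le_total |v| |u| with hvu | hvu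
  · have := h u v hu huv hvu
    nlinarith [mul_nonneg hC n4]
  · have := h v u hv (by rwa [mul_comm]) hvu
    rw [Sy_comm]
    nlinarith [mul_nonneg hC n3, mul_comm (v ^ (2 * p)) (u ^ 2)]

/-- `2p`-th moment -/
def MD (p : ℕ) (μ : Measure Dat) : ℝ := ∫ x, x.1 ^ (2 * p) ∂μ

theorem MD_nonneg (p : ℕ) (μ : Measure Dat) : 0 ≤ MD p μ :=
  integral_nonneg fun x => by rw [pow_mul]; positivity

theorem MD_one (μ : Measure Dat) : MD 1 μ = qD μ := rfl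

theorem one_pow_int (h₁ : GoodD a₁ K₁ μ₁) (h₂ : GoodD a₂ K₂ μ₂) (ha₁ : a₁ < 1) (ha₂ : a₂ < 1) (p q : ℕ) :
    Integrable (fun z : Dat × Dat => z.1.1 ^ p * z.2.1 ^ q) (μ₁.prod μ₂) := by
  refine integrable_prod_bdd h₁ h₂ (by fun_prop) (C := 1) ?_
  intro x y hx _ hy _
  rw [abs_mul, abs_pow, abs_pow]
  have e1 : |x.1| ^ p ≤ 1 := pow_le_one₀ (abs_nonneg _) (hx.trans ha₁.le)
  have e2 : |y.1| ^ q ≤ 1 := pow_le_one₀ (abs_nonneg _) (hy.trans ha₂.le)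
  calc |x.1| ^ p * |y.1| ^ q ≤ 1 * 1 := mul_le_mul e1 e2 (by positivity) (by norm_num)
    _ = 1 := one_mul 1

theorem MD_conv {c : ℝ} (hc0 : 0 ≤ c) (hc : c < 1) (p : ℕ) :
    ∃ C : ℝ, 0 ≤ C ∧ ∀ (a₁ a₂ K₁ K₂ : ℝ) (μ₁ μ₂ : Measure Dat), GoodD a₁ K₁ μ₁ → GoodD a₂ K₂ μ₂ →
      a₁ < 1 → a₂ ≤ c →
      MD (p + 1) (conv μ₁ μ₂) ≤ MD (p + 1) μ₁ + MD (p + 1) μ₂
        + C * (MD p μ₁ * MD 1 μ₂ + MD 1 μ₁ * MD p μ₂) := by
  obtain ⟨C, hC, h⟩ := Sy_le hc0 hc p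
  refine ⟨C, hC, ?_⟩
  intro a₁ a₂ K₁ K₂ μ₁ μ₂ h₁ h₂ ha₁ ha₂c
  have ha₂ : a₂ < 1 := by linarith
  have hp1 := h₁.prob
  have hp2 := h₂.prob
  have hab := one_op_lt_one h₁.nonneg_a ha₁ h₂.nonneg_a ha₂
  have e0 : MD (p + 1) (conv μ₁ μ₂) = ∫ z, Sy p z.1.1 z.2.1 ∂(μ₁.prod μ₂) := by
    unfold MD
    rw [conv_symm h₁ h₂ ha₁ ha₂ (F := fun x => x.1 ^ (2 * (p + 1))) (by fun_prop) (C := 1) (fun x hx _ => by
      rw [abs_pow]; exact pow_le_one₀ (abs_nonneg _) (hx.trans hab.le))]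
    rfl
  rw [e0]
  have i1 := one_pow_int h₁ h₂ ha₁ ha₂ (2 * (p + 1)) 0
  have i2 := one_pow_int h₁ h₂ ha₁ ha₂ 0 (2 * (p + 1))
  have i3 := one_pow_int h₁ h₂ ha₁ ha₂ (2 * p) 2
  have i4 := one_pow_int h₁ h₂ ha₁ ha₂ 2 (2 * p)
  have f : ∀ p q : ℕ, ∫ z : Dat × Dat, z.1.1 ^ p * z.2.1 ^ q ∂(μ₁.prod μ₂)
      = (∫ x, x.1 ^ p ∂μ₁) * ∫ x, x.1 ^ q ∂μ₂ := fun p q =>
    integral_prod_mul (μ := μ₁) (ν := μ₂) (fun x : Dat => x.1 ^ p) (fun x : Dat => x.1 ^ q)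
  have f1 := f (2 * (p + 1)) 0
  have f2 := f 0 (2 * (p + 1))
  have f3 := f (2 * p) 2
  have f4 := f 2 (2 * p)
  have iR : Integrable (fun z : Dat × Dat => z.1.1 ^ (2 * (p + 1)) * z.2.1 ^ 0 + z.1.1 ^ 0 * z.2.1 ^ (2 * (p + 1))
      + C * (z.1.1 ^ (2 * p) * z.2.1 ^ 2 + z.1.1 ^ 2 * z.2.1 ^ (2 * p))) (μ₁.prod μ₂) :=
    (i1.add i2).add ((i3.add i4).const_mul C)
  have eR : ∫ z : Dat × Dat, (z.1.1 ^ (2 * (p + 1)) * z.2.1 ^ 0 + z.1.1 ^ 0 * z.2.1 ^ (2 * (p + 1))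
      + C * (z.1.1 ^ (2 * p) * z.2.1 ^ 2 + z.1.1 ^ 2 * z.2.1 ^ (2 * p))) ∂(μ₁.prod μ₂)
      = MD (p + 1) μ₁ + MD (p + 1) μ₂ + C * (MD p μ₁ * MD 1 μ₂ + MD 1 μ₁ * MD p μ₂) := by
    have i12 : Integrable (fun z : Dat × Dat => z.1.1 ^ (2 * (p + 1)) * z.2.1 ^ 0 + z.1.1 ^ 0 * z.2.1 ^ (2 * (p + 1)))
      (μ₁.prod μ₂) := i1.add i2
    have i34 : Integrable (fun z : Dat × Dat => C * (z.1.1 ^ (2 * p) * z.2.1 ^ 2 + z.1.1 ^ 2 * z.2.1 ^ (2 * p)))
      (μ₁.prod μ₂) := (i3.add i4).const_mul C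
    rw [integral_add i12 i34, integral_add i1 i2, integral_const_mul, integral_add i3 i4, f1, f2, f3, f4]
    simp [MD]
  rw [← eR]
  refine integral_mono_ae ?_ iR ?_
  · refine integrable_prod_bdd h₁ h₂ ?_ (C := 2) ?_
    · unfold Sy op; fun_prop
    · intro x y hx _ hy _
      have e1 := abs_lt.mp (one_abs_mul_lt hx hy ha₁ ha₂)
      have g1 : |op x.1 y.1 ^ (2 * (p + 1))| ≤ 1 := by
        rw [abs_pow]; exact pow_le_one₀ (abs_nonneg _) ((one_abs_op_le hx hy ha₁ ha₂).trans hab.le)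
      have g2 : |op x.1 (-y.1) ^ (2 * (p + 1))| ≤ 1 := by
        rw [abs_pow]
        exact pow_le_one₀ (abs_nonneg _) ((one_abs_op_le hx (by rwa [abs_neg]) ha₁ ha₂).trans hab.le)
      unfold Sy
      rw [abs_div, abs_of_pos (by norm_num : (0:ℝ) < 2), div_le_iff₀ (by norm_num)]
      refine (abs_add_le _ _).trans ?_
      rw [abs_mul, abs_mul]
      have k1 : |1 + x.1 * y.1| ≤ 2 := by rw [abs_le]; constructor <;> linarith [e1.1, e1.2]
      have k2 : |1 - x.1 * y.1| ≤ 2 := by rw [abs_le]; constructor <;> linarith [e1.1, e1.2]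
      have l1 := mul_le_mul k1 g1 (abs_nonneg _) (by norm_num : (0:ℝ) ≤ 2)
      have l2 := mul_le_mul k2 g2 (abs_nonneg _) (by norm_num : (0:ℝ) ≤ 2)
      linarith
  · filter_upwards [ae_prod_good h₁ h₂] with z hz
    have := h z.1.1 z.2.1 (hz.1.1.trans ha₁.le) (hz.2.1.trans ha₂.le) (by
      rw [abs_mul]
      calc |z.1.1| * |z.2.1| ≤ 1 * c := mul_le_mul (hz.1.1.trans ha₁.le) (hz.2.1.trans ha₂c) (abs_nonneg _) (by norm_num)
        _ = c := one_mul c)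
    simpa using this

theorem MD_thD (θ : ℝ) (μ : Measure Dat) (p : ℕ) : MD p (μ.map (thD θ)) = θ ^ (2 * p) * MD p μ := by
  unfold MD
  rw [integral_map (measurable_thD θ).aemeasurable (by fun_prop), ← integral_const_mul]
  refine integral_congr_ae (Filter.Eventually.of_forall fun x => ?_)
  show (θ * x.1) ^ (2 * p) = _
  rw [mul_pow]

theorem MD_site (ν : Measure ℝ) (p : ℕ) : MD p (siteD ν) = ∫ t, t ^ (2 * p) ∂ν := by
  unfold MD siteD
  rw [integral_map measurable_site.aemeasurable (by fun_prop)]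

end

end Crest.Agent.T41
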