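import Mathlib
import Crest.Agent.T41One

/-!
S0241 section 4, part 2: consequences for `rho`.
-/

set_option autoImplicit false

namespace Crest.Agent.T41

open MeasureTheory Set

noncomputable section

theorem th_lt_one {d : ℕ} (hd : 3 ≤ d) {θ : ℝ} (h0 : 0 ≤ θ) (hk : ((d - 1 : ℕ) : ℝ) * θ ^ 2 ≤ 1) :
    θ ^ 2 ≤ 1 / 2 ∧ θ < 3 / 4 := by
  have h2 : (2 : ℝ) ≤ ((d - 1 : ℕ) : ℝ) := by
    have : 2 ≤ d - 1 := by omega
    exact_mod_cast this
  have h3 : θ ^ 2 ≤ 1 / 2 := by nlinarith [sq_nonneg θ]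
  exact ⟨h3, by nlinarith⟩

theorem MD_attach_step (p : ℕ) : ∃ C : ℝ, 0 ≤ C ∧ ∀ (a θ B τ : ℝ) (ν : Measure ℝ) (μ : Measure Dat)
    (k : ℕ), GoodN a ν → a < 1 → GoodD 1 1 μ → 0 ≤ θ → θ < 3 / 4 → 0 ≤ B → 0 ≤ τ →
    MD p μ ≤ B * τ ^ p → MD 1 μ ≤ B * τ →
    (∀ j ≤ k, MD p (attach θ ν μ j) ≤ B * τ ^ p ∧ MD 1 (attach θ ν μ j) ≤ B * τ) →
    MD (p + 1) (attach θ ν μ k) ≤ MD (p + 1) (siteD ν) + k * (θ ^ (2 * (p + 1)) * MD (p + 1) μ)
      + k * (2 * C * B ^ 2 * τ ^ (p + 1)) := by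
  obtain ⟨C, hC, h⟩ := MD_conv (c := 3 / 4) (by norm_num) (by norm_num) p
  refine ⟨C, hC, ?_⟩
  intro a θ B τ ν μ k hν ha hμ h0 h1 hB hτ e1 e2 hk
  have h1' : θ < 1 := by linarith
  have ha0 : 0 ≤ a := (siteD_good hν).nonneg_a
  have hthD := thD_good hμ h0 h1' le_rfl
  induction k with
  | zero => rw [attach_zero]; simp
  | succ k ih =>
    have ih' := ih (fun j hj => hk j (by omega))
    rw [attach_succ]
    have hat := attach_good hν ha hμ h0 h1' k
    have e := h _ _ _ _ _ _ hat hthD (abd_prop h0 h1' ha0 ha k).2 (by linarith)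
    rw [MD_thD, MD_thD, MD_thD] at e
    have f1 := (hk k (by omega)).1
    have f2 := (hk k (by omega)).2
    have n1 := MD_nonneg p (attach θ ν μ k)
    have n2 := MD_nonneg 1 (attach θ ν μ k)
    have n3 := MD_nonneg p μ
    have n4 := MD_nonneg 1 μ
    have t1 : θ ^ (2 * p) ≤ 1 := pow_le_one₀ h0 h1'.le
    have t2 : θ ^ (2 * 1) ≤ 1 := pow_le_one₀ h0 h1'.le
    have t1' : 0 ≤ θ ^ (2 * p) := by positivity
    have t2' : 0 ≤ θ ^ (2 * 1) := by positivity
    have g1 : MD p (attach θ ν μ k) * (θ ^ (2 * 1) * MD 1 μ) ≤ (B * τ ^ p) * (B * τ) := by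
      refine mul_le_mul f1 ?_ (mul_nonneg t2' n4) (by positivity)
      calc θ ^ (2 * 1) * MD 1 μ ≤ 1 * MD 1 μ := mul_le_mul_of_nonneg_right t2 n4
        _ ≤ B * τ := by rw [one_mul]; exact e2
    have g2 : MD 1 (attach θ ν μ k) * (θ ^ (2 * p) * MD p μ) ≤ (B * τ) * (B * τ ^ p) := by
      refine mul_le_mul f2 ?_ (mul_nonneg t1' n3) (by positivity)
      calc θ ^ (2 * p) * MD p μ ≤ 1 * MD p μ := mul_le_mul_of_nonneg_right t1 n3
        _ ≤ B * τ ^ p := by rw [one_mul]; exact e1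
    have g3 := mul_le_mul_of_nonneg_left (add_le_add g1 g2) hC
    have g4 : C * (B * τ ^ p * (B * τ) + B * τ * (B * τ ^ p)) = 2 * C * B ^ 2 * τ ^ (p + 1) := by ring
    push_cast
    linarith

/-- S3: higher moments -/
theorem rho_mom (d : ℕ) (hd : 3 ≤ d) (C1 : ℝ) (hC1 : 0 ≤ C1) (p : ℕ) :
    ∃ C : ℝ, 0 ≤ C ∧ ∀ (a θ τ : ℝ) (ν : Measure ℝ), GoodN a ν → a < 1 → 0 ≤ θ →
      ((d - 1 : ℕ) : ℝ) * θ ^ 2 ≤ 1 → 0 ≤ τ → (∀ p : ℕ, ∫ t, t ^ (2 * p) ∂ν ≤ τ ^ p) →
      (∀ n, qD (rho d θ ν n) ≤ C1 * τ) → ∀ n, MD (p + 1) (rho d θ ν n) ≤ C * τ ^ (p + 1) ∧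
        ∀ k ≤ d, MD (p + 1) (attach θ ν (rho d θ ν n) k) ≤ C * τ ^ (p + 1) := by
  induction p with
  | zero =>
    refine ⟨C1 + (1 + d * C1), by positivity, ?_⟩
    intro a θ τ ν hν ha h0 hk hτ hmom hq n
    have hth := th_lt_one hd h0 hk
    have h1 : θ < 1 := by linarith [hth.2]
    have ha0 : 0 ≤ a := (siteD_good hν).nonneg_a
    have hbd := abd_prop h0 h1 ha0 ha (d - 1)
    have hr := (rho_good hν ha h0 h1 hk n).mono hbd.2.le le_rfl
    rw [zero_add, pow_one, MD_one]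
    have hdc : (0:ℝ) ≤ d * C1 := by positivity
    refine ⟨by nlinarith [hq n], fun k hkd => ?_⟩
    rw [MD_one]
    have e := q_attach_le hν ha hr h0 h1 k
    have e1 := hmom 1
    simp only [mul_one, pow_one] at e1
    have e2 := hq n
    have e3 := hr.q_nonneg
    have hkd' : (k : ℝ) ≤ d := by exact_mod_cast hkd
    have e4 : (k : ℝ) * (θ ^ 2 * qD (rho d θ ν n)) ≤ d * (C1 * τ) := by
      refine mul_le_mul hkd' ?_ (by positivity) (by positivity)
      calc θ ^ 2 * qD (rho d θ ν n) ≤ 1 * qD (rho d θ ν n) :=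
            mul_le_mul_of_nonneg_right (by linarith [hth.1]) e3
        _ ≤ C1 * τ := by rw [one_mul]; exact e2
    nlinarith
  | succ p ih =>
    obtain ⟨C, hC, hI⟩ := ih
    obtain ⟨C', hC', hS⟩ := MD_attach_step (p + 1)
    set B := C + (C1 + (1 + d * C1)) with hB
    have hB0 : 0 ≤ B := by positivity
    set E := 1 + d * (2 * C' * B ^ 2) with hE
    have hE0 : 0 ≤ E := by positivity
    refine ⟨E + d * (2 * E), by positivity, ?_⟩
    intro a θ τ ν hν ha h0 hk hτ hmom hq n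
    have hth := th_lt_one hd h0 hk
    have h1 : θ < 1 := by linarith [hth.2]
    have ha0 : 0 ≤ a := (siteD_good hν).nonneg_a
    have hbd := abd_prop h0 h1 ha0 ha (d - 1)
    have hr := fun n => (rho_good hν ha h0 h1 hk n).mono hbd.2.le (le_refl (1:ℝ))
    have hI' := fun n => hI a θ τ ν hν ha h0 hk hτ hmom hq n
    have hτp : (0:ℝ) ≤ τ ^ (p + 1) := by positivity
    have hτp' : (0:ℝ) ≤ τ ^ (p + 1 + 1) := by positivity
    have hCB : C ≤ B := by rw [hB]; have : (0:ℝ) ≤ d * C1 := by positivity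
                           linarith
    have hC1B : C1 ≤ B := by rw [hB]; have : (0:ℝ) ≤ d * C1 := by positivity
                             linarith
    have hM1 : ∀ n, ∀ j ≤ d, MD 1 (attach θ ν (rho d θ ν n) j) ≤ B * τ := by
      intro n j hj
      rw [MD_one]
      have e := q_attach_le hν ha (hr n) h0 h1 j
      have e1 := hmom 1
      simp only [mul_one, pow_one] at e1
      have e2 := hq n
      have e3 := (hr n).q_nonneg
      have hkd' : (j : ℝ) ≤ d := by exact_mod_cast hj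
      have e4 : (j : ℝ) * (θ ^ 2 * qD (rho d θ ν n)) ≤ d * (C1 * τ) := by
        refine mul_le_mul hkd' ?_ (by positivity) (by positivity)
        calc θ ^ 2 * qD (rho d θ ν n) ≤ 1 * qD (rho d θ ν n) :=
              mul_le_mul_of_nonneg_right (by linarith [hth.1]) e3
          _ ≤ C1 * τ := by rw [one_mul]; exact e2
      have : B * τ = C * τ + C1 * τ + τ + d * (C1 * τ) := by rw [hB]; ring
      rw [this]
      have : 0 ≤ C * τ := by positivity
      have : 0 ≤ C1 * τ := by positivity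
      linarith
    have hatt : ∀ n, ∀ k ≤ d, MD (p + 1 + 1) (attach θ ν (rho d θ ν n) k)
        ≤ E * τ ^ (p + 1 + 1) + k * (θ ^ (2 * (p + 1 + 1)) * MD (p + 1 + 1) (rho d θ ν n)) := by
      intro n k hkd
      have e := hS a θ B τ ν (rho d θ ν n) k hν ha (hr n) h0 hth.2 hB0 hτ
        ((hI' n).1.trans (mul_le_mul_of_nonneg_right hCB hτp))
        (by rw [MD_one]; exact (hq n).trans (mul_le_mul_of_nonneg_right hC1B hτ))
        (fun j hj => ⟨((hI' n).2 j (by omega)).trans (mul_le_mul_of_nonneg_right hCB hτp),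
          hM1 n j (by omega)⟩)
      rw [MD_site] at e
      have e1 := hmom (p + 1 + 1)
      have hkd' : (k : ℝ) ≤ d := by exact_mod_cast hkd
      have e2 : (k : ℝ) * (2 * C' * B ^ 2 * τ ^ (p + 1 + 1)) ≤ d * (2 * C' * B ^ 2 * τ ^ (p + 1 + 1)) :=
        mul_le_mul_of_nonneg_right hkd' (by positivity)
      have : E * τ ^ (p + 1 + 1) = τ ^ (p + 1 + 1) + d * (2 * C' * B ^ 2 * τ ^ (p + 1 + 1)) := by
        rw [hE]; ring
      rw [this]
      linarith
    have hhalf : ((d - 1 : ℕ) : ℝ) * θ ^ (2 * (p + 1 + 1)) ≤ 1 / 2 := by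
      have : θ ^ (2 * (p + 1 + 1)) = θ ^ 2 * (θ ^ 2) ^ (p + 1) := by ring
      rw [this, ← mul_assoc]
      have t : (θ ^ 2) ^ (p + 1) ≤ (1 / 2) ^ (p + 1) := pow_le_pow_left₀ (sq_nonneg _) hth.1 _
      have t2 : ((1:ℝ) / 2) ^ (p + 1) ≤ 1 / 2 := by
        calc ((1:ℝ) / 2) ^ (p + 1) = (1 / 2) ^ p * (1 / 2) := pow_succ _ _
          _ ≤ 1 * (1 / 2) := mul_le_mul_of_nonneg_right (pow_le_one₀ (by norm_num) (by norm_num)) (by norm_num)
          _ = 1 / 2 := one_mul _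
      calc ((d - 1 : ℕ) : ℝ) * θ ^ 2 * (θ ^ 2) ^ (p + 1) ≤ 1 * (1 / 2) :=
            mul_le_mul hk (t.trans t2) (by positivity) (by norm_num)
        _ = 1 / 2 := one_mul _
    have hrho : ∀ n, MD (p + 1 + 1) (rho d θ ν n) ≤ 2 * E * τ ^ (p + 1 + 1) := by
      intro n
      induction n with
      | zero =>
        show MD (p + 1 + 1) (siteD ν) ≤ _
        rw [MD_site]
        have e1 := hmom (p + 1 + 1)
        have : 1 ≤ E := by rw [hE]; have : (0:ℝ) ≤ d * (2 * C' * B ^ 2) := by positivity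
                           linarith
        nlinarith
      | succ n ihn =>
        show MD (p + 1 + 1) (attach θ ν (rho d θ ν n) (d - 1)) ≤ _
        have e := hatt n (d - 1) (by omega)
        have n1 := MD_nonneg (p + 1 + 1) (rho d θ ν n)
        have : ((d - 1 : ℕ) : ℝ) * (θ ^ (2 * (p + 1 + 1)) * MD (p + 1 + 1) (rho d θ ν n))
            ≤ 1 / 2 * (2 * E * τ ^ (p + 1 + 1)) := by
          rw [← mul_assoc]
          exact mul_le_mul hhalf ihn n1 (by norm_num)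
        linarith
    refine ⟨(hrho n).trans (mul_le_mul_of_nonneg_right ?_ hτp'), fun k hkd => ?_⟩
    · have : (2:ℝ) ≤ d * 2 := by
        have : (3:ℝ) ≤ d := by exact_mod_cast hd
        linarith
      nlinarith
    · refine (hatt n k hkd).trans ?_
      have hkd' : (k : ℝ) ≤ d := by exact_mod_cast hkd
      have n1 := MD_nonneg (p + 1 + 1) (rho d θ ν n)
      have : (k : ℝ) * (θ ^ (2 * (p + 1 + 1)) * MD (p + 1 + 1) (rho d θ ν n))
          ≤ d * (1 * (2 * E * τ ^ (p + 1 + 1))) := by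
        refine mul_le_mul hkd' ?_ (by positivity) (by positivity)
        exact mul_le_mul (pow_le_one₀ h0 h1.le) (hrho n) n1 (by norm_num)
      linarith

end

end Crest.Agent.T41
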