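import Mathlib
import Crest.Agent.T41One

/-!
S0241 section 4, part 3: convex order.
-/

set_option autoImplicit false

namespace Crest.Agent.T41

open MeasureTheory Set

noncomputable section

/-- convex order of the first components -/
def CxLe (μ μ' : Measure Dat) : Prop :=
  ∀ φ : ℝ → ℝ, Measurable φ → ConvexOn ℝ (Ioo (-1) 1) φ → ∫ x, φ x.1 ∂μ ≤ ∫ x, φ x.1 ∂μ'

theorem cx_bdd {φ : ℝ → ℝ} (hφ : ConvexOn ℝ (Ioo (-1) 1) φ) {a : ℝ} (ha : a < 1) :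
    ∃ C, ∀ x, |x| ≤ a → |φ x| ≤ C := by
  have hc : ContinuousOn φ (Icc (-a) a) :=
    (hφ.continuousOn isOpen_Ioo).mono (fun x hx => ⟨by linarith [hx.1], by linarith [hx.2]⟩)
  obtain ⟨C, hC⟩ := isCompact_Icc.exists_bound_of_continuousOn hc
  exact ⟨C, fun x hx => by simpa using hC x (abs_le.mp hx)⟩

theorem cx_two {φ : ℝ → ℝ} (hφ : ConvexOn ℝ (Ioo (-1) 1) φ) {x y : ℝ} (s t : ℝ)
    (hx : x ∈ Ioo (-1 : ℝ) 1) (hy : y ∈ Ioo (-1 : ℝ) 1) (hs : 0 ≤ s) (ht : 0 ≤ t) (hst : s + t = 1) :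
    φ (s * x + t * y) ≤ s * φ x + t * φ y := hφ.2 hx hy hs ht hst

theorem one_op_mem {x y : ℝ} (hx : x ∈ Ioo (-1 : ℝ) 1) (hy : |y| < 1) :
    op x y ∈ Ioo (-1 : ℝ) 1 ∧ 0 < 1 + x * y := by
  have hy' := abs_lt.mp hy
  have h1 : 0 < 1 + x * y := by nlinarith [hx.1, hx.2, hy'.1, hy'.2]
  refine ⟨⟨?_, ?_⟩, h1⟩
  · unfold op
    rw [lt_div_iff₀ h1]
    nlinarith [hx.1, hx.2, hy'.1, hy'.2, mul_pos (by linarith [hx.1] : 0 < 1 + x) (by linarith [hy'.1] : 0 < 1 + y)]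
  · unfold op
    rw [div_lt_one h1]
    nlinarith [hx.1, hx.2, hy'.1, hy'.2, mul_pos (by linarith [hx.2] : 0 < 1 - x) (by linarith [hy'.2] : 0 < 1 - y)]

theorem one_persp {φ : ℝ → ℝ} (hφ : ConvexOn ℝ (Ioo (-1) 1) φ) {v : ℝ} (hv : |v| < 1) :
    ConvexOn ℝ (Ioo (-1) 1) (fun r => (1 + r * v) * φ (op r v)) := by
  refine ⟨convex_Ioo _ _, ?_⟩
  intro x hx y hy s t hs ht hst
  simp only [smul_eq_mul]
  have h1 := one_op_mem hx hv
  have h2 := one_op_mem hy hv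
  have hz : s * x + t * y ∈ Ioo (-1 : ℝ) 1 := by
    have := convex_Ioo (-1 : ℝ) 1 hx hy hs ht hst
    simpa using this
  have h3 := one_op_mem hz hv
  set w := 1 + (s * x + t * y) * v with hw
  have hwne := h3.2.ne'
  have hsum : s * (1 + x * v) / w + t * (1 + y * v) / w = 1 := by
    rw [← add_div, div_eq_one_iff_eq hwne, hw]
    linear_combination hst
  have hc := cx_two hφ (s * (1 + x * v) / w) (t * (1 + y * v) / w) h1.1 h2.1
    (div_nonneg (mul_nonneg hs h1.2.le) h3.2.le) (div_nonneg (mul_nonneg ht h2.2.le) h3.2.le) hsum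
  have harg : (s * (1 + x * v) / w) * op x v + (t * (1 + y * v) / w) * op y v
      = op (s * x + t * y) v := by
    have e1 : (1 + x * v) * op x v = x + v := by
      unfold op; rw [mul_div_cancel₀ _ h1.2.ne']
    have e2 : (1 + y * v) * op y v = y + v := by
      unfold op; rw [mul_div_cancel₀ _ h2.2.ne']
    have e3 : op (s * x + t * y) v = (s * x + t * y + v) / w := rfl
    rw [e3, div_mul_eq_mul_div, div_mul_eq_mul_div, ← add_div, mul_assoc, mul_assoc, e1, e2]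
    congr 1
    linear_combination v * hst
  rw [harg] at hc
  have := mul_le_mul_of_nonneg_left hc h3.2.le
  calc w * φ (op (s * x + t * y) v) ≤ w * (s * (1 + x * v) / w * φ (op x v) + t * (1 + y * v) / w * φ (op y v)) := this
    _ = s * ((1 + x * v) * φ (op x v)) + t * ((1 + y * v) * φ (op y v)) := by
      field_simp

variable {a₁ a₂ a₁' a₂' K₁ K₂ K₁' K₂' : ℝ} {μ₁ μ₂ μ₁' μ₂' : Measure Dat}

theorem cx_int (h₁ : GoodD a₁ K₁ μ₁) (h₂ : GoodD a₂ K₂ μ₂) (ha₁ : a₁ < 1) (ha₂ : a₂ < 1)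
    {φ : ℝ → ℝ} (hm : Measurable φ) (hφ : ConvexOn ℝ (Ioo (-1) 1) φ) :
    Integrable (fun p : Dat × Dat => (1 + p.1.1 * p.2.1) * φ (op p.1.1 p.2.1)) (μ₁.prod μ₂) := by
  have hab := one_op_lt_one h₁.nonneg_a ha₁ h₂.nonneg_a ha₂
  obtain ⟨C, hC⟩ := cx_bdd hφ hab
  refine integrable_prod_bdd h₁ h₂ ?_ (C := 2 * C) ?_
  · refine Measurable.mul (by fun_prop) (hm.comp ?_)
    unfold op; fun_prop
  · intro x y hx _ hy _
    have e1 := abs_lt.mp (one_abs_mul_lt hx hy ha₁ ha₂)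
    have k1 : |1 + x.1 * y.1| ≤ 2 := by rw [abs_le]; constructor <;> linarith [e1.1, e1.2]
    rw [abs_mul]
    exact mul_le_mul k1 (hC _ (one_abs_op_le hx hy ha₁ ha₂)) (abs_nonneg _) (by norm_num)

theorem conv_cx_left (h₁ : GoodD a₁ K₁ μ₁) (h₁' : GoodD a₁' K₁' μ₁') (h₂ : GoodD a₂ K₂ μ₂)
    (ha₁ : a₁ < 1) (ha₁' : a₁' < 1) (ha₂ : a₂ < 1) (h : CxLe μ₁ μ₁') :
    CxLe (conv μ₁ μ₂) (conv μ₁' μ₂) := by
  intro φ hm hφ
  have := h₁.prob
  have := h₁'.prob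
  have := h₂.prob
  have i1 := cx_int h₁ h₂ ha₁ ha₂ hm hφ
  have i2 := cx_int h₁' h₂ ha₁' ha₂ hm hφ
  rw [conv_integral h₁ h₂ ha₁ ha₂ (F := fun x => φ x.1) (hm.comp measurable_fst),
    conv_integral h₁' h₂ ha₁' ha₂ (F := fun x => φ x.1) (hm.comp measurable_fst)]
  show ∫ p : Dat × Dat, (1 + p.1.1 * p.2.1) * φ (op p.1.1 p.2.1) ∂(μ₁.prod μ₂)
    ≤ ∫ p : Dat × Dat, (1 + p.1.1 * p.2.1) * φ (op p.1.1 p.2.1) ∂(μ₁'.prod μ₂)
  rw [integral_prod_symm _ i1, integral_prod_symm _ i2]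
  refine integral_mono_ae i1.integral_prod_right i2.integral_prod_right ?_
  filter_upwards [h₂.bdd] with y hy
  refine h (fun r => (1 + r * y.1) * φ (op r y.1)) ?_ (one_persp hφ (hy.trans_lt ha₂))
  refine Measurable.mul (by fun_prop) (hm.comp ?_)
  unfold op; fun_prop

theorem conv_cx_right (h₁ : GoodD a₁ K₁ μ₁) (h₂ : GoodD a₂ K₂ μ₂) (h₂' : GoodD a₂' K₂' μ₂')
    (ha₁ : a₁ < 1) (ha₂ : a₂ < 1) (ha₂' : a₂' < 1) (h : CxLe μ₂ μ₂') :
    CxLe (conv μ₁ μ₂) (conv μ₁ μ₂') := by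
  intro φ hm hφ
  have := h₁.prob
  have := h₂.prob
  have := h₂'.prob
  have i1 := cx_int h₁ h₂ ha₁ ha₂ hm hφ
  have i2 := cx_int h₁ h₂' ha₁ ha₂' hm hφ
  rw [conv_integral h₁ h₂ ha₁ ha₂ (F := fun x => φ x.1) (hm.comp measurable_fst),
    conv_integral h₁ h₂' ha₁ ha₂' (F := fun x => φ x.1) (hm.comp measurable_fst)]
  show ∫ p : Dat × Dat, (1 + p.1.1 * p.2.1) * φ (op p.1.1 p.2.1) ∂(μ₁.prod μ₂)
    ≤ ∫ p : Dat × Dat, (1 + p.1.1 * p.2.1) * φ (op p.1.1 p.2.1) ∂(μ₁.prod μ₂')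
  rw [integral_prod _ i1, integral_prod _ i2]
  refine integral_mono_ae i1.integral_prod_left i2.integral_prod_left ?_
  filter_upwards [h₁.bdd] with x hx
  have e : ∀ y : Dat, (1 + x.1 * y.1) * φ (op x.1 y.1)
      = (fun r => (1 + r * x.1) * φ (op r x.1)) y.1 := fun y => by
    show _ = (1 + y.1 * x.1) * φ (op y.1 x.1)
    rw [one_op_comm, mul_comm x.1]
  simp only [e]
  refine h (fun r => (1 + r * x.1) * φ (op r x.1)) ?_ (one_persp hφ (hx.trans_lt ha₁))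
  refine Measurable.mul (by fun_prop) (hm.comp ?_)
  unfold op; fun_prop

theorem cx_zero {ψ : ℝ → ℝ} (hψ : ConvexOn ℝ (Ioo (-1) 1) ψ) {y : ℝ} (hy : |y| < 1) :
    ψ 0 ≤ (ψ y + ψ (-y)) / 2 := by
  have hy' := abs_lt.mp hy
  have := cx_two hψ (x := y) (y := -y) (1 / 2) (1 / 2) ⟨hy'.1, hy'.2⟩ ⟨by linarith [hy'.2], by linarith [hy'.1]⟩
    (by norm_num) (by norm_num) (by norm_num)
  rw [show 1 / 2 * y + 1 / 2 * -y = 0 by ring] at this
  linarith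

theorem cx_conv_ge (h₁ : GoodD a₁ K₁ μ₁) (h₂ : GoodD a₂ K₂ μ₂) (ha₁ : a₁ < 1) (ha₂ : a₂ < 1) :
    CxLe μ₁ (conv μ₁ μ₂) := by
  intro φ hm hφ
  have := h₁.prob
  have := h₂.prob
  have hab := one_op_lt_one h₁.nonneg_a ha₁ h₂.nonneg_a ha₂
  obtain ⟨C, hC⟩ := cx_bdd hφ hab
  obtain ⟨C', hC'⟩ := cx_bdd hφ ha₁
  rw [conv_symm h₁ h₂ ha₁ ha₂ (F := fun x => φ x.1) (hm.comp measurable_fst) (C := C) (fun x hx _ => hC _ hx)]
  rw [← prod_fst_int h₁ h₂ (G := fun x : Dat => φ x.1) (hm.comp measurable_fst)]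
  refine integral_mono_ae ?_ ?_ ?_
  · exact integrable_prod_bdd h₁ h₂ (by fun_prop) (C := C') (fun x y hx _ _ _ => hC' _ hx)
  · refine integrable_prod_bdd h₁ h₂ ?_ (C := 2 * C) ?_
    · have m1 : Measurable (fun p : Dat × Dat => op p.1.1 p.2.1) := by unfold op; fun_prop
      have m2 : Measurable (fun p : Dat × Dat => op p.1.1 (-p.2.1)) := by unfold op; fun_prop
      have e1 := hm.comp m1
      have e2 := hm.comp m2
      exact (((by fun_prop : Measurable (fun p : Dat × Dat => (1 + p.1.1 * p.2.1))).mul e1).add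
        ((by fun_prop : Measurable (fun p : Dat × Dat => (1 - p.1.1 * p.2.1))).mul e2)).div_const 2
    · intro x y hx _ hy _
      have e1 := abs_lt.mp (one_abs_mul_lt hx hy ha₁ ha₂)
      have k1 : |1 + x.1 * y.1| ≤ 2 := by rw [abs_le]; constructor <;> linarith [e1.1, e1.2]
      have k2 : |1 - x.1 * y.1| ≤ 2 := by rw [abs_le]; constructor <;> linarith [e1.1, e1.2]
      show |((1 + x.1 * y.1) * φ (op x.1 y.1) + (1 - x.1 * y.1) * φ (op x.1 (-y.1))) / 2| ≤ 2 * C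
      rw [abs_div, abs_of_pos (by norm_num : (0:ℝ) < 2), div_le_iff₀ (by norm_num)]
      refine (abs_add_le _ _).trans ?_
      rw [abs_mul, abs_mul]
      have l1 := mul_le_mul k1 (hC _ (one_abs_op_le hx hy ha₁ ha₂)) (abs_nonneg _) (by norm_num : (0:ℝ) ≤ 2)
      have l2 := mul_le_mul k2 (hC _ (one_abs_op_le hx (by rwa [abs_neg] : |-y.1| ≤ a₂) ha₁ ha₂)) (abs_nonneg _) (by norm_num : (0:ℝ) ≤ 2)
      linarith
  · filter_upwards [ae_prod_good h₁ h₂] with p hp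
    have hx : |p.1.1| < 1 := hp.1.1.trans_lt ha₁
    have hy : |p.2.1| < 1 := hp.2.1.trans_lt ha₂
    have := cx_zero (one_persp hφ hx) hy
    simp only [zero_mul, add_zero, one_mul] at this
    have e0 : op 0 p.1.1 = p.1.1 := by unfold op; simp
    rw [e0, one_op_comm p.2.1, one_op_comm (-p.2.1)] at this
    show φ p.1.1 ≤ ((1 + p.1.1 * p.2.1) * φ (op p.1.1 p.2.1)
      + (1 - p.1.1 * p.2.1) * φ (op p.1.1 (-p.2.1))) / 2
    refine this.trans (le_of_eq ?_)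
    ring

theorem cx_scale {ψ : ℝ → ℝ} (hψ : ConvexOn ℝ (Ioo (-1) 1) ψ) {s t : ℝ} (hs : 0 ≤ s) (hst : s ≤ t)
    (ht : t < 1) {b : ℝ} (hb : |b| ≤ 1) :
    (ψ (s * b) + ψ (-(s * b))) / 2 ≤ (ψ (t * b) + ψ (-(t * b))) / 2 := by
  rcases eq_or_lt_of_le (hs.trans hst) with h0 | h0
  · have : s = 0 := le_antisymm (by linarith) hs
    rw [this, ← h0]
  · have htb : |t * b| < 1 := by
      rw [abs_mul, abs_of_pos h0]; nlinarith [abs_nonneg b]
    have htb' := abs_lt.mp htb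
    set l := s / t with hl
    have hl0 : 0 ≤ l := div_nonneg hs h0.le
    have hl1 : l ≤ 1 := (div_le_one h0).mpr hst
    have hs' : s = l * t := by rw [hl]; field_simp
    have e1 := cx_two hψ (x := t * b) (y := -(t * b)) ((1 + l) / 2) ((1 - l) / 2)
      ⟨htb'.1, htb'.2⟩ ⟨by linarith [htb'.2], by linarith [htb'.1]⟩ (by linarith) (by linarith) (by ring)
    have e2 := cx_two hψ (x := t * b) (y := -(t * b)) ((1 - l) / 2) ((1 + l) / 2)
      ⟨htb'.1, htb'.2⟩ ⟨by linarith [htb'.2], by linarith [htb'.1]⟩ (by linarith) (by linarith) (by ring)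
    rw [show (1 + l) / 2 * (t * b) + (1 - l) / 2 * -(t * b) = s * b by rw [hs']; ring] at e1
    rw [show (1 - l) / 2 * (t * b) + (1 + l) / 2 * -(t * b) = -(s * b) by rw [hs']; ring] at e2
    linarith

theorem thD_cx {θ θ' : ℝ} (h₁ : GoodD a₁ K₁ μ₁) (h₁' : GoodD a₁' K₁' μ₁') (ha₁ : a₁ ≤ 1)
    (h0 : 0 ≤ θ) (hθ : θ ≤ θ') (h1 : θ' < 1) (h : CxLe μ₁ μ₁') :
    CxLe (μ₁.map (thD θ)) (μ₁'.map (thD θ')) := by
  intro φ hm hφ
  have := h₁.prob
  have := h₁'.prob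
  have h1' : θ < 1 := by linarith
  have h0' : 0 ≤ θ' := by linarith
  have hmf : Measurable (fun x : Dat => φ x.1) := hm.comp measurable_fst
  rw [integral_map (measurable_thD θ).aemeasurable hmf.aestronglyMeasurable,
    integral_map (measurable_thD θ').aemeasurable hmf.aestronglyMeasurable]
  show ∫ x : Dat, φ (θ * x.1) ∂μ₁ ≤ ∫ x : Dat, φ (θ' * x.1) ∂μ₁'
  have hc2 : ConvexOn ℝ (Ioo (-1) 1) (fun r => φ (θ' * r)) := by
    refine ⟨convex_Ioo _ _, ?_⟩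
    intro x hx y hy s t hs ht hst
    have hx' : θ' * x ∈ Ioo (-1 : ℝ) 1 := by
      constructor <;> nlinarith [hx.1, hx.2]
    have hy' : θ' * y ∈ Ioo (-1 : ℝ) 1 := by
      constructor <;> nlinarith [hy.1, hy.2]
    have := hφ.2 hx' hy' hs ht hst
    simp only [smul_eq_mul] at this ⊢
    rw [show θ' * (s * x + t * y) = s * (θ' * x) + t * (θ' * y) by ring]
    exact this
  refine le_trans ?_ (h (fun r => φ (θ' * r)) (hm.comp (measurable_const_mul θ')) hc2)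
  -- symmetrise
  have hsym : ∀ c : ℝ, 0 ≤ c → c < 1 → ∫ x : Dat, φ (c * x.1) ∂μ₁
      = ∫ x : Dat, (φ (c * x.1) + φ (-(c * x.1))) / 2 ∂μ₁ := by
    intro c hc0 hc1
    obtain ⟨C, hC⟩ := cx_bdd hφ hc1
    have hb : ∀ x : Dat, |x.1| ≤ a₁ → |c * x.1| ≤ c := fun x hx => by
      rw [abs_mul, abs_of_nonneg hc0]; nlinarith
    have i1 : Integrable (fun x : Dat => φ (c * x.1)) μ₁ :=
      h₁.integrable (by fun_prop) (C := C) (fun x hx _ => hC _ (hb x hx))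
    have i2 : Integrable (fun x : Dat => φ (-(c * x.1))) μ₁ :=
      h₁.integrable (by fun_prop) (C := C) (fun x hx _ => hC _ (by rw [abs_neg]; exact hb x hx))
    have e := h₁.integral_neg (F := fun x : Dat => φ (c * x.1)) (by fun_prop)
    have e' : ∫ x : Dat, φ (-(c * x.1)) ∂μ₁ = ∫ x : Dat, φ (c * x.1) ∂μ₁ := by
      rw [← e]
      refine integral_congr_ae (Filter.Eventually.of_forall fun x => ?_)
      simp [ngD]
    rw [integral_div, integral_add i1 i2, e']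
    ring
  rw [hsym θ h0 h1', hsym θ' h0' h1]
  have hi : ∀ c : ℝ, 0 ≤ c → c < 1 → Integrable (fun x : Dat => (φ (c * x.1) + φ (-(c * x.1))) / 2) μ₁ := by
    intro c hc0 hc1
    obtain ⟨C, hC⟩ := cx_bdd hφ hc1
    have hb : ∀ x : Dat, |x.1| ≤ a₁ → |c * x.1| ≤ c := fun x hx => by
      rw [abs_mul, abs_of_nonneg hc0]; nlinarith
    have i1 : Integrable (fun x : Dat => φ (c * x.1)) μ₁ :=
      h₁.integrable (by fun_prop) (C := C) (fun x hx _ => hC _ (hb x hx))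
    have i2 : Integrable (fun x : Dat => φ (-(c * x.1))) μ₁ :=
      h₁.integrable (by fun_prop) (C := C) (fun x hx _ => hC _ (by rw [abs_neg]; exact hb x hx))
    exact (i1.add i2).div_const 2
  refine integral_mono_ae (hi θ h0 h1') (hi θ' h0' h1) ?_
  filter_upwards [h₁.bdd] with x hx
  exact cx_scale hφ h0 hθ h1 (hx.trans ha₁)

theorem CxLe.refl (μ : Measure Dat) : CxLe μ μ := fun _ _ _ => le_rfl

theorem CxLe.trans {μ₁ μ₂ μ₃ : Measure Dat} (h : CxLe μ₁ μ₂) (h' : CxLe μ₂ μ₃) : CxLe μ₁ μ₃ :=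
  fun φ hm hφ => (h φ hm hφ).trans (h' φ hm hφ)

theorem attach_cx {a θ θ' : ℝ} {ν : Measure ℝ} {μ μ' : Measure Dat} (hν : GoodN a ν) (ha : a < 1)
    (hμ : GoodD 1 1 μ) (hμ' : GoodD 1 1 μ') (h0 : 0 ≤ θ) (hθ : θ ≤ θ') (h1 : θ' < 1)
    (h : CxLe μ μ') (k : ℕ) : CxLe (attach θ ν μ k) (attach θ' ν μ' k) := by
  have h1' : θ < 1 := by linarith
  have h0' : 0 ≤ θ' := by linarith
  have ha0 : 0 ≤ a := (siteD_good hν).nonneg_a
  induction k with
  | zero => rw [attach_zero, attach_zero]; exact CxLe.refl _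
  | succ k ih =>
    rw [attach_succ, attach_succ]
    have g1 := attach_good hν ha hμ h0 h1' k
    have g2 := attach_good hν ha hμ' h0' h1 k
    have t1 := thD_good hμ h0 h1' le_rfl
    have t2 := thD_good hμ' h0' h1 le_rfl
    have b1 := (abd_prop h0 h1' ha0 ha k).2
    have b2 := (abd_prop h0' h1 ha0 ha k).2
    exact (conv_cx_left g1 g2 t1 b1 b2 (by linarith) ih).trans
      (conv_cx_right g2 t1 t2 b2 (by linarith) (by linarith) (thD_cx hμ hμ' le_rfl h0 hθ h1 h))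

theorem attach_cx_ge {a θ : ℝ} {ν : Measure ℝ} {μ : Measure Dat} (hν : GoodN a ν) (ha : a < 1)
    (hμ : GoodD 1 1 μ) (h0 : 0 ≤ θ) (h1 : θ < 1) (k : ℕ) : CxLe (siteD ν) (attach θ ν μ k) := by
  have ha0 : 0 ≤ a := (siteD_good hν).nonneg_a
  induction k with
  | zero => rw [attach_zero]; exact CxLe.refl _
  | succ k ih =>
    rw [attach_succ]
    exact ih.trans (cx_conv_ge (attach_good hν ha hμ h0 h1 k) (thD_good hμ h0 h1 le_rfl)
      (abd_prop h0 h1 ha0 ha k).2 (by linarith))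

theorem rho_cx {d : ℕ} {a θ θ' : ℝ} {ν : Measure ℝ} (hν : GoodN a ν) (ha : a < 1)
    (h0 : 0 ≤ θ) (hθ : θ ≤ θ') (h1 : θ' < 1) (hk : ((d - 1 : ℕ) : ℝ) * θ' ^ 2 ≤ 1) (n : ℕ) :
    CxLe (rho d θ ν n) (rho d θ' ν n) := by
  have h1' : θ < 1 := by linarith
  have h0' : 0 ≤ θ' := by linarith
  have ha0 : 0 ≤ a := (siteD_good hν).nonneg_a
  have hk' : ((d - 1 : ℕ) : ℝ) * θ ^ 2 ≤ 1 := by
    refine le_trans (mul_le_mul_of_nonneg_left ?_ (Nat.cast_nonneg _)) hk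
    exact pow_le_pow_left₀ h0 hθ 2
  induction n with
  | zero => exact CxLe.refl _
  | succ n ih =>
    exact attach_cx hν ha ((rho_good hν ha h0 h1' hk' n).mono (abd_prop h0 h1' ha0 ha _).2.le le_rfl)
      ((rho_good hν ha h0' h1 hk n).mono (abd_prop h0' h1 ha0 ha _).2.le le_rfl) h0 hθ h1 ih _

theorem rho_cx_succ {d : ℕ} {a θ : ℝ} {ν : Measure ℝ} (hν : GoodN a ν) (ha : a < 1)
    (h0 : 0 ≤ θ) (h1 : θ < 1) (hk : ((d - 1 : ℕ) : ℝ) * θ ^ 2 ≤ 1) (n : ℕ) :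
    CxLe (rho d θ ν n) (rho d θ ν (n + 1)) := by
  have ha0 : 0 ≤ a := (siteD_good hν).nonneg_a
  have g := fun n => (rho_good hν ha h0 h1 hk n).mono (abd_prop h0 h1 ha0 ha _).2.le (le_refl (1:ℝ))
  induction n with
  | zero => exact attach_cx_ge hν ha (g 0) h0 h1 _
  | succ n ih => exact attach_cx hν ha (g n) (g (n + 1)) h0 le_rfl h1 ih _

end

end Crest.Agent.T41
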