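import Crest.Agent.T41Defs
import Crest.Agent.T41BB
import Crest.Agent.T41One2
import Crest.Agent.T41One3

/-!
S0241, part STAT: the static recursion (section 4). Consumer statements.
-/

set_option autoImplicit false

namespace Crest.Agent.T41

open MeasureTheory Filter Topology

/-- law of the tilt at one site: symmetric, bounded by `bd < 1` -/
structure TL (ν : Measure ℝ) (bd : ℝ) : Prop where
  prob : IsProbabilityMeasure ν
  symm : ν.map (fun x => -x) = ν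
  supp : ∀ᵐ t ∂ν, |t| ≤ bd
  bd0 : 0 ≤ bd
  bd1 : bd < 1

theorem TL.good {ν : Measure ℝ} {bd : ℝ} (h : TL ν bd) : GoodN bd ν := ⟨h.prob, h.symm, h.supp⟩

theorem stat_th {d : ℕ} (hd : 3 ≤ d) {θ : ℝ} (h0 : 0 ≤ θ) (h1 : θ ≤ thc d) :
    ((d - 1 : ℕ) : ℝ) * θ ^ 2 ≤ 1 ∧ θ ^ 2 ≤ 1 / 2 ∧ θ < 3 / 4 := by
  have hd1 : ((d - 1 : ℕ) : ℝ) = (d : ℝ) - 1 := by
    rw [Nat.cast_sub (by omega)]; simp
  have hd2 : (0 : ℝ) < (d : ℝ) - 1 := by
    have : (3 : ℝ) ≤ d := by exact_mod_cast hd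
    linarith
  have h : ((d - 1 : ℕ) : ℝ) * θ ^ 2 ≤ 1 := by
    rw [hd1]
    have hs : 0 < √((d : ℝ) - 1) := Real.sqrt_pos.mpr hd2
    have e : θ * √((d : ℝ) - 1) ≤ 1 := by
      unfold thc at h1
      calc θ * √((d : ℝ) - 1) ≤ (√((d : ℝ) - 1))⁻¹ * √((d : ℝ) - 1) :=
            mul_le_mul_of_nonneg_right h1 hs.le
        _ = 1 := inv_mul_cancel₀ hs.ne'
    have e2 : ((d : ℝ) - 1) * θ ^ 2 = (θ * √((d : ℝ) - 1)) ^ 2 := by
      rw [mul_pow, Real.sq_sqrt hd2.le]; ring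
    rw [e2]
    exact pow_le_one₀ (by positivity) e
  exact ⟨h, th_lt_one hd h0 h⟩

section basic
variable {d : ℕ} (hd : 3 ≤ d) {θ bd : ℝ} {ν : Measure ℝ} (hν : TL ν bd) (h0 : 0 ≤ θ)
    (h1 : θ ≤ thc d)
include hd hν h0 h1

theorem stat_good (n : ℕ) : GoodD (abd θ bd (d - 1)) 1 (rho d θ ν n) := by
  have h := stat_th hd h0 h1
  exact rho_good hν.good hν.bd1 h0 (by linarith [h.2.2]) h.1 n

theorem stat_good1 (n : ℕ) : GoodD 1 1 (rho d θ ν n) := by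
  have h := stat_th hd h0 h1
  exact (stat_good hd hν h0 h1 n).mono (abd_prop h0 (by linarith [h.2.2]) hν.bd0 hν.bd1 _).2.le le_rfl

theorem rho_prob (n : ℕ) : IsProbabilityMeasure (rho d θ ν n) := (stat_good hd hν h0 h1 n).prob

theorem attach_prob (n k : ℕ) : IsProbabilityMeasure (attach θ ν (rho d θ ν n) k) := by
  have h := stat_th hd h0 h1
  exact (attach_good hν.good hν.bd1 (stat_good1 hd hν h0 h1 n) h0 (by linarith [h.2.2]) k).prob

theorem rho_supp (n : ℕ) : ∀ᵐ p ∂rho d θ ν n, |p.1| < 1 ∧ p.2 0 = 1 ∧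
      ∀ i, 0 ≤ p.2 i ∧ p.2 i ≤ 1 := by
  have h := stat_th hd h0 h1
  have g := stat_good hd hν h0 h1 n
  filter_upwards [g.bdd, g.Ybd, rho_zero_ae hν.good hν.bd1 h0 (by linarith [h.2.2]) h.1 n] with x hx hx' hx''
  exact ⟨hx.trans_lt (abd_prop h0 (by linarith [h.2.2]) hν.bd0 hν.bd1 _).2, hx'', hx'⟩

end basic

theorem stat_qmono {d : ℕ} (hd : 3 ≤ d) {θ bd : ℝ} {ν : Measure ℝ} (hν : TL ν bd) (h0 : 0 ≤ θ)
    (h1 : θ ≤ thc d) : Monotone (fun n => qD (rho d θ ν n)) := by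
  have h := stat_th hd h0 h1
  refine monotone_nat_of_le_succ fun n => ?_
  refine rho_cx_succ hν.good hν.bd1 h0 (by linarith [h.2.2]) h.1 n (fun x => x ^ 2) (by fun_prop) ?_
  exact ((even_two).convexOn_pow).subset (Set.subset_univ _) (convex_Ioo _ _)

theorem stat_s {d : ℕ} (hd : 3 ≤ d) {θ bd : ℝ} {ν : Measure ℝ} (hν : TL ν bd) (h0 : 0 ≤ θ)
    (h1 : θ ≤ thc d) (n : ℕ) :
    ((∫ t, t ^ 2 ∂ν) + ((d : ℝ) - 1) * θ ^ 2 * qD (rho d θ ν n)) * (1 - qD (rho d θ ν (n + 1)))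
      ≤ qD (rho d θ ν (n + 1)) := by
  have h := stat_th hd h0 h1
  have hth : θ < 1 := by linarith [h.2.2]
  have e := s_attach hν.good hν.bd1 (stat_good1 hd hν h0 h1 n) h0 hth (d - 1)
  have hq := (stat_good hd hν h0 h1 (n + 1)).q_lt_one (abd_prop h0 hth hν.bd0 hν.bd1 _).2
  have hd1 : ((d - 1 : ℕ) : ℝ) = (d : ℝ) - 1 := by
    rw [Nat.cast_sub (by omega)]; simp
  rw [hd1] at e
  have e' : (∫ t, t ^ 2 ∂ν) + ((d : ℝ) - 1) * θ ^ 2 * qD (rho d θ ν n)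
      ≤ qD (rho d θ ν (n + 1)) / (1 - qD (rho d θ ν (n + 1))) := by
    rw [mul_assoc]; exact e
  rwa [le_div_iff₀ (by linarith)] at e'

/-- lower bound for the second moment -/
theorem S1 (d : ℕ) (hd : 3 ≤ d) : ∃ c c' : ℝ, 0 < c ∧ 0 < c' ∧ ∀ (ν : Measure ℝ) (bd θ T : ℝ),
    TL ν bd → 0 < T → T ≤ 1 / 4 → T ^ 2 / 12 ≤ ∫ t, t ^ 2 ∂ν → 0 ≤ θ → θ ≤ thc d →
    1 - ((d : ℝ) - 1) * θ ^ 2 ≤ c' * T →
    ∀ᶠ n in atTop, c * T ≤ ∫ p, p.1 ^ 2 ∂rho d θ ν n := by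
  refine ⟨1 / 12, 1 / 4, by norm_num, by norm_num, ?_⟩
  intro ν bd θ T hν hT0 hT hα h0 h1 he
  have hmono := stat_qmono hd hν h0 h1
  have hth := stat_th hd h0 h1
  have hth1 : θ < 1 := by linarith [hth.2.2]
  have hlt : ∀ n, qD (rho d θ ν n) < 1 := fun n =>
    (stat_good hd hν h0 h1 n).q_lt_one (abd_prop h0 hth1 hν.bd0 hν.bd1 _).2
  have hbdd : BddAbove (Set.range (fun n => qD (rho d θ ν n))) :=
    ⟨1, by rintro _ ⟨n, rfl⟩; exact (hlt n).le⟩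
  have hlim := tendsto_atTop_ciSup hmono hbdd
  set q := ⨆ n, qD (rho d θ ν n) with hqdef
  have hq0 : 0 ≤ q := (stat_good hd hν h0 h1 0).q_nonneg.trans (le_ciSup hbdd 0)
  set α := ∫ t, t ^ 2 ∂ν with hαdef
  set g := ((d : ℝ) - 1) * θ ^ 2 with hg
  have hg1 : g ≤ 1 := by
    have hd1 : ((d - 1 : ℕ) : ℝ) = (d : ℝ) - 1 := by
      rw [Nat.cast_sub (by omega)]; simp
    rw [hg, ← hd1]; exact hth.1
  have hq1 : q ≤ 1 := ciSup_le fun n => (hlt n).le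
  have key : (α + g * q) * (1 - q) ≤ q := by
    refine le_of_tendsto_of_tendsto' (f := fun n => (α + g * qD (rho d θ ν n)) * (1 - qD (rho d θ ν (n + 1))))
      (g := fun n => qD (rho d θ ν (n + 1))) ?_ (hlim.comp (tendsto_add_atTop_nat 1)) (fun n => stat_s hd hν h0 h1 n)
    exact (tendsto_const_nhds.add (hlim.const_mul g)).mul
      (tendsto_const_nhds.sub (hlim.comp (tendsto_add_atTop_nat 1)))
  have hqT : 1 / 12 * T < q := by
    by_contra hcon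
    push Not at hcon
    have e1 : α * (1 - q) ≤ q * (1 - g) + g * q ^ 2 := by nlinarith
    have e2 : q * (1 - g) ≤ 1 / 12 * T * (1 / 4 * T) := by
      refine mul_le_mul hcon he (by linarith) (by positivity)
    have e3 : g * q ^ 2 ≤ 1 * (1 / 12 * T) ^ 2 := by
      refine mul_le_mul hg1 (pow_le_pow_left₀ hq0 hcon 2) (by positivity) (by norm_num)
    have e4 : T ^ 2 / 12 * (1 - 1 / 48) ≤ α * (1 - q) := by
      refine mul_le_mul hα (by linarith) (by norm_num) (by linarith [sq_nonneg T])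
    nlinarith [sq_nonneg T, pow_pos hT0 2]
  have := (tendsto_order.mp hlim).1 _ hqT
  filter_upwards [this] with n hn
  exact hn.le

theorem stat_q_up {d : ℕ} (hd : 3 ≤ d) {θ bd : ℝ} {ν : Measure ℝ} (hν : TL ν bd) (h0 : 0 ≤ θ)
    (h1 : θ ≤ thc d) {T : ℝ} (hT0 : 0 ≤ T) (hT : T ≤ 1 / 4) (hα : ∫ t, t ^ 2 ∂ν ≤ T ^ 2 / 12) (n : ℕ) :
    qD (rho d θ ν n) ≤ d * T := by
  have hth := stat_th hd h0 h1
  have hth1 : θ < 1 := by linarith [hth.2.2]
  have hlt : ∀ n, qD (rho d θ ν n) < 1 := fun n =>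
    (stat_good hd hν h0 h1 n).q_lt_one (abd_prop h0 hth1 hν.bd0 hν.bd1 _).2
  have hnn : ∀ n, 0 ≤ qD (rho d θ ν n) := fun n => (stat_good hd hν h0 h1 n).q_nonneg
  have hd1 : ((d - 1 : ℕ) : ℝ) = (d : ℝ) - 1 := by
    rw [Nat.cast_sub (by omega)]; simp
  have hd3 : (3 : ℝ) ≤ d := by exact_mod_cast hd
  have hstep1 : ∀ n, qD (rho d θ ν (n + 1)) ≤ T ^ 2 / 12 + ((d : ℝ) - 1) * (θ ^ 2 * qD (rho d θ ν n)) := by
    intro n
    have := q_attach_le hν.good hν.bd1 (stat_good1 hd hν h0 h1 n) h0 hth1 (d - 1)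
    rw [hd1] at this
    exact this.trans (by linarith)
  have hstep2 : ∀ n, qD (rho d θ ν (n + 1)) ≤ T ^ 2 / 12 + ((d : ℝ) - 1) * (θ ^ 2 * qD (rho d θ ν n))
      - (θ ^ 2 * qD (rho d θ ν n)) ^ 2 := by
    intro n
    have := q_attach_le2 hν.good hν.bd1 (stat_good1 hd hν h0 h1 n) h0 hth1 (d - 3)
    rw [show d - 3 + 2 = d - 1 by omega, hd1] at this
    exact this.trans (by linarith)
  have hk := hth.1
  rw [hd1] at hk
  have hTT : T ^ 2 / 12 ≤ d * T := by nlinarith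
  induction n with
  | zero =>
    have : qD (rho d θ ν 0) = ∫ t, t ^ 2 ∂ν := q_site ν
    rw [this]
    linarith
  | succ n ih =>
    have hq := hnn n
    have hq1 := (hlt n).le
    by_cases hθ : ((d : ℝ) - 1) * θ ^ 2 ≤ 1 / 2
    · have := hstep1 n
      nlinarith [mul_nonneg (sub_nonneg.mpr hθ) hq]
    · push Not at hθ
      have := hstep2 n
      set x := qD (rho d θ ν n) with hx
      set M := (d : ℝ) * T with hM
      have hM0 : 0 ≤ M := by positivity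
      -- φ(x) ≤ φ(min M 1)...
      have hθ2 : 1 / (2 * ((d : ℝ) - 1)) ≤ θ ^ 2 := by
        rw [div_le_iff₀ (by linarith)]; nlinarith
      have hkey : T ^ 2 / 12 ≤ (θ ^ 2 * M) ^ 2 := by
        have : T / 2 ≤ θ ^ 2 * M := by
          calc T / 2 ≤ 1 / (2 * ((d : ℝ) - 1)) * (d * T) := by
                rw [div_mul_eq_mul_div, div_le_div_iff₀ (by norm_num) (by linarith)]
                nlinarith
            _ ≤ θ ^ 2 * M := mul_le_mul_of_nonneg_right hθ2 hM0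
        nlinarith [sq_nonneg T]
      -- if M ≥ 1 trivial
      by_cases hM1 : 1 ≤ M
      · exact (hlt (n + 1)).le.trans hM1
      · push Not at hM1
        have hmon : ((d : ℝ) - 1) * (θ ^ 2 * x) - (θ ^ 2 * x) ^ 2 ≤ ((d : ℝ) - 1) * (θ ^ 2 * M) - (θ ^ 2 * M) ^ 2 := by
          have e1 : ((d : ℝ) - 1) * (θ ^ 2 * M) - (θ ^ 2 * M) ^ 2 - (((d : ℝ) - 1) * (θ ^ 2 * x) - (θ ^ 2 * x) ^ 2)
            = θ ^ 2 * (M - x) * (((d : ℝ) - 1) - θ ^ 2 * (M + x)) := by ring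
          have e2 : 0 ≤ ((d : ℝ) - 1) - θ ^ 2 * (M + x) := by nlinarith [hth.2.1, sq_nonneg θ]
          have e3 : 0 ≤ θ ^ 2 * (M - x) * (((d : ℝ) - 1) - θ ^ 2 * (M + x)) :=
            mul_nonneg (mul_nonneg (sq_nonneg _) (by linarith)) e2
          linarith
        nlinarith [mul_le_mul_of_nonneg_right hk hM0]

/-- upper bound for the second moment: branches and full vertices -/
theorem S2 (d : ℕ) (hd : 3 ≤ d) : ∃ C : ℝ, 0 ≤ C ∧ ∀ (ν : Measure ℝ) (bd θ T : ℝ),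
    TL ν bd → 0 ≤ T → T ≤ 1 / 4 → ∫ t, t ^ 2 ∂ν ≤ T ^ 2 / 12 → 0 ≤ θ → θ ≤ thc d →
    ∀ n, ∫ p, p.1 ^ 2 ∂rho d θ ν n ≤ C * T ∧
      ∫ p, p.1 ^ 2 ∂attach θ ν (rho d θ ν n) d ≤ C * T := by
  refine ⟨d + (1 + d * d), by positivity, ?_⟩
  intro ν bd θ T hν hT0 hT hα h0 h1 n
  have hth := stat_th hd h0 h1
  have hth1 : θ < 1 := by linarith [hth.2.2]
  have e := stat_q_up hd hν h0 h1 hT0 hT hα n
  have e2 := q_attach_le hν.good hν.bd1 (stat_good1 hd hν h0 h1 n) h0 hth1 d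
  have e3 := (stat_good hd hν h0 h1 n).q_nonneg
  have hd0 : (0:ℝ) ≤ d := Nat.cast_nonneg d
  have e4 : (d : ℝ) * (θ ^ 2 * qD (rho d θ ν n)) ≤ d * (1 * (d * T)) := by
    refine mul_le_mul_of_nonneg_left ?_ hd0
    exact mul_le_mul (by linarith [hth.2.1]) e e3 (by norm_num)
  unfold qD at e e2 e4
  constructor
  · nlinarith [mul_nonneg hd0 hT0, mul_nonneg (mul_nonneg hd0 hd0) hT0]
  · nlinarith [mul_nonneg hd0 hT0, mul_nonneg (mul_nonneg hd0 hd0) hT0]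

/-- full vertices know at least as much as the site itself -/
theorem S2' (d : ℕ) (hd : 3 ≤ d) (ν : Measure ℝ) (bd θ : ℝ) (hν : TL ν bd) (h0 : 0 ≤ θ)
    (h1 : θ ≤ thc d) (n : ℕ) :
    ∫ t, t ^ 2 ∂ν ≤ ∫ p, p.1 ^ 2 ∂attach θ ν (rho d θ ν n) d := by
  have hth := stat_th hd h0 h1
  exact q_attach_ge_site hν.good hν.bd1 (stat_good1 hd hν h0 h1 n) h0 (by linarith [hth.2.2]) d

/-- higher moments -/
theorem S3 (d : ℕ) (hd : 3 ≤ d) (p : ℕ) (hp : 1 ≤ p) : ∃ C : ℝ, 0 ≤ C ∧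
    ∀ (ν : Measure ℝ) (bd θ T : ℝ), TL ν bd → 0 ≤ T → T ≤ 1 / 4 → ∫ t, t ^ 2 ∂ν ≤ T ^ 2 / 12 →
    (∀ᵐ t ∂ν, |t| ≤ √T) → 0 ≤ θ → θ ≤ thc d →
    ∀ n, ∫ x, x.1 ^ (2 * p) ∂rho d θ ν n ≤ C * T ^ p := by
  obtain ⟨p, rfl⟩ : ∃ q, p = q + 1 := ⟨p - 1, by omega⟩
  obtain ⟨C, hC, h⟩ := rho_mom d hd d (Nat.cast_nonneg d) p
  refine ⟨C, hC, ?_⟩
  intro ν bd θ T hν hT0 hT hα hsm h0 h1 n
  have hth := stat_th hd h0 h1
  refine (h bd θ T ν hν.good hν.bd1 h0 hth.1 hT0 ?_ (fun n => stat_q_up hd hν h0 h1 hT0 hT hα n) n).1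
  intro q
  have hpr := hν.prob
  have hq : ∀ᵐ t ∂ν, ‖t ^ (2 * q)‖ ≤ T ^ q := by
    filter_upwards [hsm] with t ht
    rw [Real.norm_eq_abs, abs_pow, pow_mul]
    refine pow_le_pow_left₀ (sq_nonneg _) ?_ q
    calc |t| ^ 2 ≤ (√T) ^ 2 := pow_le_pow_left₀ (abs_nonneg _) ht 2
      _ = T := Real.sq_sqrt hT0
  have := norm_integral_le_of_norm_le_const hq
  simp only [probReal_univ, mul_one] at this
  exact (le_abs_self _).trans this

theorem stat_EY {d : ℕ} (hd : 3 ≤ d) {θ bd : ℝ} {ν : Measure ℝ} (hν : TL ν bd) (h0 : 0 ≤ θ)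
    (h1 : θ ≤ thc d) (n i : ℕ) :
    ∫ x, x.2 (i + 2) ∂rho d θ ν (n + 2)
      ≤ (1 - θ ^ 2 * qD (rho d θ ν n) / 2) * ∫ x, x.2 (i + 1) ∂rho d θ ν (n + 1) := by
  have hth := stat_th hd h0 h1
  have hth1 : θ < 1 := by linarith [hth.2.2]
  have e1 := attach_EY hν.good hν.bd1 (stat_good1 hd hν h0 h1 (n + 1)) h0 hth1 (d - 1) (i + 1)
  have e2 := attach_bY hν.good hν.bd1 (stat_good1 hd hν h0 h1 n) h0 hth1 (d - 3) i
  rw [show d - 3 + 2 = d - 1 by omega] at e2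
  have g := stat_good1 hd hν h0 h1 (n + 1)
  have hY : Integrable (fun x : Dat => x.2 (i + 1)) (rho d θ ν (n + 1)) :=
    g.integrable (by fun_prop) (C := 1) (fun x _ hx => by rw [abs_of_nonneg (hx _).1]; exact (hx _).2)
  have hbY : Integrable (fun x : Dat => x.1 ^ 2 * x.2 (i + 1)) (rho d θ ν (n + 1)) :=
    g.integrable (by fun_prop) (C := 1) (fun x hx hx' => by
      have := abs_le.mp hx
      rw [abs_of_nonneg (mul_nonneg (sq_nonneg _) (hx' _).1)]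
      nlinarith [(hx' (i + 1)).1, (hx' (i + 1)).2, this.1, this.2, sq_nonneg x.1])
  have e3 : ((d - 1 : ℕ) : ℝ) * ∫ x, (θ * gg θ x.1) ^ 2 * x.2 (i + 1) ∂rho d θ ν (n + 1)
      ≤ ∫ x, (x.2 (i + 1) - 1 / 2 * (x.1 ^ 2 * x.2 (i + 1))) ∂rho d θ ν (n + 1) := by
    rw [← integral_const_mul]
    refine integral_mono_ae ?_ (hY.sub (hbY.const_mul (1 / 2))) ?_
    · refine g.integrable ?_ (C := 1) ?_
      · have : Measurable (fun x : Dat => gg θ x.1) := by unfold gg; fun_prop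
        fun_prop
      · intro x hx hx'
        have g0 := one_gg_nonneg h0 hth1 hx
        have g1 := one_gg_le_one h0 hth1 hx
        have : (θ * gg θ x.1) ^ 2 ≤ θ ^ 2 := by
          rw [mul_pow]
          have : gg θ x.1 ^ 2 ≤ 1 := by nlinarith
          nlinarith [sq_nonneg θ]
        rw [abs_of_nonneg (mul_nonneg (Nat.cast_nonneg _) (mul_nonneg (sq_nonneg _) (hx' _).1))]
        calc ((d - 1 : ℕ) : ℝ) * ((θ * gg θ x.1) ^ 2 * x.2 (i + 1))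
            ≤ ((d - 1 : ℕ) : ℝ) * (θ ^ 2 * 1) := mul_le_mul_of_nonneg_left
              (mul_le_mul this (hx' _).2 (hx' _).1 (sq_nonneg _)) (Nat.cast_nonneg _)
          _ ≤ 1 := by rw [mul_one]; exact hth.1
    · filter_upwards [g.bdd, g.Ybd] with x hx hx'
      have hx2 := abs_le.mp hx
      have hb2 : x.1 ^ 2 ≤ 1 := by nlinarith [hx2.1, hx2.2]
      -- g² ≤ 1 - b²/2
      have hgg : gg θ x.1 ^ 2 ≤ 1 - x.1 ^ 2 / 2 := by
        have hden : 0 < 1 - θ ^ 2 * x.1 ^ 2 := by nlinarith [hth.2.1, sq_nonneg x.1]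
        have e : gg θ x.1 ≤ (1 - x.1 ^ 2) / (1 - x.1 ^ 2 / 2) := by
          unfold gg
          refine div_le_div_of_nonneg_left (by linarith) (by linarith) ?_
          nlinarith [hth.2.1, sq_nonneg x.1]
        have g0 := one_gg_nonneg h0 hth1 hx
        calc gg θ x.1 ^ 2 ≤ ((1 - x.1 ^ 2) / (1 - x.1 ^ 2 / 2)) ^ 2 := pow_le_pow_left₀ g0 e 2
          _ ≤ 1 - x.1 ^ 2 / 2 := by
            rw [div_pow, div_le_iff₀ (by nlinarith [sq_nonneg x.1])]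
            set X := x.1 ^ 2 with hX
            have hX0 : 0 ≤ X := sq_nonneg _
            nlinarith [mul_nonneg hX0 (sub_nonneg.mpr hb2), mul_nonneg (mul_nonneg hX0 hX0) (sub_nonneg.mpr hb2)]
      have hY0 := (hx' (i + 1)).1
      show ((d - 1 : ℕ) : ℝ) * ((θ * gg θ x.1) ^ 2 * x.2 (i + 1)) ≤ x.2 (i + 1) - 1 / 2 * (x.1 ^ 2 * x.2 (i + 1))
      calc ((d - 1 : ℕ) : ℝ) * ((θ * gg θ x.1) ^ 2 * x.2 (i + 1))
          = (((d - 1 : ℕ) : ℝ) * θ ^ 2) * (gg θ x.1 ^ 2 * x.2 (i + 1)) := by ring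
        _ ≤ 1 * ((1 - x.1 ^ 2 / 2) * x.2 (i + 1)) :=
          mul_le_mul hth.1 (mul_le_mul_of_nonneg_right hgg hY0) (by positivity) (by norm_num)
        _ = _ := by ring
  have e4 : ∫ x, x.2 (i + 2) ∂rho d θ ν (n + 2)
      = ((d - 1 : ℕ) : ℝ) * ∫ x, (θ * gg θ x.1) ^ 2 * x.2 (i + 1) ∂rho d θ ν (n + 1) := e1
  have e5 : θ ^ 2 * qD (rho d θ ν n) * ∫ x, x.2 (i + 1) ∂rho d θ ν (n + 1)
      ≤ ∫ x, x.1 ^ 2 * x.2 (i + 1) ∂rho d θ ν (n + 1) := e2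
  rw [e4]
  refine e3.trans ?_
  rw [integral_sub hY (hbY.const_mul (1 / 2)), integral_const_mul]
  linarith

/-- exponential decay of `E Y_i` -/
theorem S4 (d : ℕ) (hd : 3 ≤ d) : ∃ c c' : ℝ, 0 < c ∧ c < 1 ∧ 0 < c' ∧
    ∀ (ν : Measure ℝ) (bd θ T : ℝ),
    TL ν bd → 0 < T → T ≤ 1 / 4 → T ^ 2 / 12 ≤ ∫ t, t ^ 2 ∂ν → 0 ≤ θ → θ ≤ thc d →
    1 - ((d : ℝ) - 1) * θ ^ 2 ≤ c' * T →
    ∀ i, ∀ᶠ n in atTop, ∫ p, p.2 i ∂rho d θ ν n ≤ (1 - c * T) ^ (i - 1) := by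
  obtain ⟨c1, c1', hc1, hc1', h⟩ := S1 d hd
  have hd3 : (3 : ℝ) ≤ d := by exact_mod_cast hd
  have hd0 : (0 : ℝ) < d := by linarith
  set c := min (c1 / (4 * d)) (1 / 2) with hc
  have hcpos : 0 < c := lt_min (by positivity) (by norm_num)
  have hc12 : c ≤ 1 / 2 := min_le_right _ _
  have hcc : c ≤ c1 / (4 * d) := min_le_left _ _
  refine ⟨c, min c1' 1, hcpos, by linarith, lt_min hc1' one_pos, ?_⟩
  intro ν bd θ T hν hT0 hT hα h0 h1 he
  have hth := stat_th hd h0 h1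
  have he1 : 1 - ((d : ℝ) - 1) * θ ^ 2 ≤ c1' * T :=
    he.trans (mul_le_mul_of_nonneg_right (min_le_left _ _) hT0.le)
  have he2 : 1 - ((d : ℝ) - 1) * θ ^ 2 ≤ 1 / 4 := by
    refine he.trans ?_
    calc min c1' 1 * T ≤ 1 * T := mul_le_mul_of_nonneg_right (min_le_right _ _) hT0.le
      _ ≤ 1 / 4 := by linarith
  have hθ2 : 1 / (2 * (d : ℝ)) ≤ θ ^ 2 := by
    rw [div_le_iff₀ (by linarith)]; nlinarith [sq_nonneg θ]
  have hev := h ν bd θ T hν hT0 hT hα h0 h1 he1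
  have hle1 : ∀ i n, ∫ p, p.2 i ∂rho d θ ν n ≤ 1 := by
    intro i n
    have g := stat_good1 hd hν h0 h1 n
    have := g.prob
    have hY : Integrable (fun x : Dat => x.2 i) (rho d θ ν n) :=
      g.integrable (by fun_prop) (C := 1) (fun x _ hx => by rw [abs_of_nonneg (hx _).1]; exact (hx _).2)
    have e : ∫ p, p.2 i ∂rho d θ ν n ≤ ∫ _, (1:ℝ) ∂rho d θ ν n := by
      refine integral_mono_ae hY (integrable_const _) ?_
      filter_upwards [g.Ybd] with x hx using (hx i).2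
    simpa using e
  have hnn : ∀ i n, 0 ≤ ∫ p, p.2 i ∂rho d θ ν n := by
    intro i n
    refine integral_nonneg_of_ae ?_
    filter_upwards [(stat_good1 hd hν h0 h1 n).Ybd] with x hx using (hx i).1
  have hcT : 0 ≤ 1 - c * T := by nlinarith
  have main : ∀ i, ∀ᶠ n in atTop, ∫ p, p.2 (i + 1) ∂rho d θ ν n ≤ (1 - c * T) ^ i := by
    intro i
    induction i with
    | zero => exact Eventually.of_forall fun n => by simpa using hle1 1 n
    | succ i ih =>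
      obtain ⟨N, hN⟩ := eventually_atTop.mp (ih.and hev)
      refine eventually_atTop.mpr ⟨N + 2, fun n hn => ?_⟩
      obtain ⟨m, rfl⟩ : ∃ m, n = m + 2 := ⟨n - 2, by omega⟩
      have e := stat_EY hd hν h0 h1 m i
      have e1 := (hN (m + 1) (by omega)).1
      have e2 : c1 * T ≤ qD (rho d θ ν m) := (hN m (by omega)).2
      have e3 : c * T ≤ θ ^ 2 * qD (rho d θ ν m) / 2 := by
        have : 1 / (2 * (d : ℝ)) * (c1 * T) ≤ θ ^ 2 * qD (rho d θ ν m) :=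
          mul_le_mul hθ2 e2 (by positivity) (sq_nonneg _)
        have e4 : 1 / (2 * (d : ℝ)) * (c1 * T) = 2 * (c1 / (4 * d) * T) := by field_simp; ring
        have e5 : c * T ≤ c1 / (4 * d) * T := mul_le_mul_of_nonneg_right hcc hT0.le
        linarith
      calc ∫ p, p.2 (i + 1 + 1) ∂rho d θ ν (m + 2)
          ≤ (1 - θ ^ 2 * qD (rho d θ ν m) / 2) * ∫ x, x.2 (i + 1) ∂rho d θ ν (m + 1) := e
        _ ≤ (1 - c * T) * ∫ x, x.2 (i + 1) ∂rho d θ ν (m + 1) :=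
          mul_le_mul_of_nonneg_right (by linarith) (hnn _ _)
        _ ≤ (1 - c * T) * (1 - c * T) ^ i := mul_le_mul_of_nonneg_left e1 hcT
        _ = (1 - c * T) ^ (i + 1) := by rw [pow_succ]; ring
  intro i
  cases i with
  | zero => exact Eventually.of_forall fun n => by simpa using hle1 0 n
  | succ i => simpa using main i

theorem stat_exp {d : ℕ} (hd : 3 ≤ d) {θ bd : ℝ} {ν : Measure ℝ} (hν : TL ν bd) (h0 : 0 ≤ θ)
    (h1 : θ ≤ thc d) (n i j : ℕ) {κ : ℝ} (hκ : 0 ≤ κ) :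
    ∫ x, Real.exp (κ * ((d : ℝ) - 1) ^ j * x.2 (i + j)) ∂rho d θ ν (n + j)
      ≤ (∫ x, Real.exp (κ * x.2 i) ∂rho d θ ν n) ^ ((d - 1) ^ j) := by
  have hth := stat_th hd h0 h1
  have hth1 : θ < 1 := by linarith [hth.2.2]
  have hd1 : ((d - 1 : ℕ) : ℝ) = (d : ℝ) - 1 := by
    rw [Nat.cast_sub (by omega)]; simp
  have hd0 : (0 : ℝ) ≤ (d : ℝ) - 1 := by rw [← hd1]; exact Nat.cast_nonneg _
  induction j with
  | zero => simp
  | succ j ih =>
    have g := stat_good1 hd hν h0 h1 (n + j)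
    have e := attach_expY hν.good hν.bd1 g h0 hth1 (d - 1) (i + j)
      (κ := κ * ((d : ℝ) - 1) ^ (j + 1)) (by positivity)
    have e0 : ∫ x, Real.exp (κ * ((d : ℝ) - 1) ^ (j + 1) * x.2 (i + (j + 1))) ∂rho d θ ν (n + (j + 1))
      ≤ (∫ x, Real.exp (κ * ((d : ℝ) - 1) ^ (j + 1) * θ ^ 2 * x.2 (i + j)) ∂rho d θ ν (n + j)) ^ (d - 1) := e
    refine e0.trans ?_
    rw [pow_succ (d - 1) j, pow_mul]
    refine pow_le_pow_left₀ (integral_nonneg fun _ => (Real.exp_pos _).le) ?_ _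
    refine le_trans ?_ ih
    have hcoef : κ * ((d : ℝ) - 1) ^ (j + 1) * θ ^ 2 ≤ κ * ((d : ℝ) - 1) ^ j := by
      have hk := hth.1
      rw [hd1] at hk
      calc κ * ((d : ℝ) - 1) ^ (j + 1) * θ ^ 2 = κ * ((d : ℝ) - 1) ^ j * (((d : ℝ) - 1) * θ ^ 2) := by ring
        _ ≤ κ * ((d : ℝ) - 1) ^ j * 1 := mul_le_mul_of_nonneg_left hk (by positivity)
        _ = _ := mul_one _
    have hint : ∀ s : ℝ, 0 ≤ s → Integrable (fun x : Dat => Real.exp (s * x.2 (i + j))) (rho d θ ν (n + j)) := by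
      intro s hs
      refine g.integrable (by fun_prop) (C := Real.exp s) ?_
      intro x _ hx
      rw [abs_of_pos (Real.exp_pos _)]
      refine Real.exp_le_exp.mpr ?_
      nlinarith [(hx (i + j)).1, (hx (i + j)).2]
    refine integral_mono_ae (hint _ (by positivity)) (hint _ (by positivity)) ?_
    filter_upwards [g.Ybd] with x hx
    exact Real.exp_le_exp.mpr (mul_le_mul_of_nonneg_right hcoef (hx _).1)

/-- exponential moment of `Y_{2 n₀}` -/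
theorem S5 (d : ℕ) (hd : 3 ≤ d) : ∃ A c' : ℝ, 0 < A ∧ 0 < c' ∧
    ∀ (ν : Measure ℝ) (bd θ T : ℝ),
    TL ν bd → 0 < T → T ≤ 1 / 4 → T ^ 2 / 12 ≤ ∫ t, t ^ 2 ∂ν → 0 ≤ θ → θ ≤ thc d →
    1 - ((d : ℝ) - 1) * θ ^ 2 ≤ c' * T →
    ∀ n₀ : ℕ, A / T ≤ n₀ → ∀ᶠ n in atTop,
      ∫ p, Real.exp (Real.log 2 * ((d : ℝ) - 1) ^ n₀ * p.2 (2 * n₀)) ∂rho d θ ν n
        ≤ (9 / 8) ^ ((d - 1) ^ n₀) := by
  obtain ⟨c, c', hc, hc1, hc', h⟩ := S4 d hd
  refine ⟨1 / 4 + 3 / c, c', by positivity, hc', ?_⟩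
  intro ν bd θ T hν hT0 hT hα h0 h1 he n₀ hn₀
  have hth := stat_th hd h0 h1
  obtain ⟨N, hN⟩ := eventually_atTop.mp (h ν bd θ T hν hT0 hT hα h0 h1 he n₀)
  refine eventually_atTop.mpr ⟨N + n₀, fun n hn => ?_⟩
  obtain ⟨m, rfl⟩ : ∃ m, n = m + n₀ := ⟨n - n₀, by omega⟩
  have e := stat_exp hd hν h0 h1 m n₀ n₀ (κ := Real.log 2) (Real.log_nonneg (by norm_num))
  rw [show n₀ + n₀ = 2 * n₀ by ring] at e
  refine e.trans (pow_le_pow_left₀ (integral_nonneg fun _ => (Real.exp_pos _).le) ?_ _)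
  have g := stat_good1 hd hν h0 h1 m
  have hpr := g.prob
  have hY : Integrable (fun x : Dat => x.2 n₀) (rho d θ ν m) :=
    g.integrable (by fun_prop) (C := 1) (fun x _ hx => by rw [abs_of_nonneg (hx _).1]; exact (hx _).2)
  have e1 : ∫ x, Real.exp (Real.log 2 * x.2 n₀) ∂rho d θ ν m ≤ ∫ x, (1 + x.2 n₀) ∂rho d θ ν m := by
    refine integral_mono_ae ?_ ((integrable_const _).add hY) ?_
    · refine g.integrable (by fun_prop) (C := Real.exp (Real.log 2)) ?_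
      intro x _ hx
      rw [abs_of_pos (Real.exp_pos _)]
      refine Real.exp_le_exp.mpr ?_
      nlinarith [(hx n₀).1, (hx n₀).2, Real.log_nonneg (by norm_num : (1:ℝ) ≤ 2)]
    · filter_upwards [g.Ybd] with x hx
      have hy0 := (hx n₀).1
      have hy1 := (hx n₀).2
      -- convexity of exp
      have hcv : Real.exp ((1 - x.2 n₀) * 0 + x.2 n₀ * Real.log 2)
          ≤ (1 - x.2 n₀) * Real.exp 0 + x.2 n₀ * Real.exp (Real.log 2) :=
        convexOn_exp.2 (Set.mem_univ 0) (Set.mem_univ (Real.log 2)) (by linarith) hy0 (by ring)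
      rw [mul_zero, zero_add, Real.exp_zero, mul_one, Real.exp_log (by norm_num : (0:ℝ) < 2)] at hcv
      show Real.exp (Real.log 2 * x.2 n₀) ≤ 1 + x.2 n₀
      rw [mul_comm]
      linarith
  have e2 : ∫ x, (1 + x.2 n₀) ∂rho d θ ν m = 1 + ∫ x, x.2 n₀ ∂rho d θ ν m := by
    rw [integral_add (integrable_const _) hY]; simp
  have e3 := hN m (by omega)
  have e4 : (1 - c * T) ^ (n₀ - 1) ≤ 1 / 8 := by
    have hcT0 : 0 ≤ 1 - c * T := by nlinarith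
    have h2 : 1 - c * T ≤ Real.exp (-(c * T)) := by
      have := Real.add_one_le_exp (-(c * T)); linarith
    have hn1 : 3 / c / T ≤ ((n₀ - 1 : ℕ) : ℝ) := by
      have hA : (1 / 4 + 3 / c) / T = 1 / 4 / T + 3 / c / T := by rw [add_div]
      rw [hA] at hn₀
      have h4 : 1 ≤ 1 / 4 / T := by rw [le_div_iff₀ hT0]; linarith
      have hpos : 0 < 3 / c / T := by positivity
      have hn : 1 ≤ n₀ := by
        by_contra hcon
        have : n₀ = 0 := by omega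
        rw [this] at hn₀
        simp only [Nat.cast_zero] at hn₀
        linarith
      rw [Nat.cast_sub hn]
      push_cast
      linarith
    calc (1 - c * T) ^ (n₀ - 1) ≤ (Real.exp (-(c * T))) ^ (n₀ - 1) := pow_le_pow_left₀ hcT0 h2 _
      _ = Real.exp (-(c * T * ((n₀ - 1 : ℕ) : ℝ))) := by
        rw [← Real.exp_nat_mul]; congr 1; ring
      _ ≤ Real.exp (-3) := by
        refine Real.exp_le_exp.mpr ?_
        have : c * T * (3 / c / T) ≤ c * T * ((n₀ - 1 : ℕ) : ℝ) :=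
          mul_le_mul_of_nonneg_left hn1 (by positivity)
        have e : c * T * (3 / c / T) = 3 := by field_simp
        linarith
      _ ≤ 1 / 8 := by
        have h8 : (8:ℝ) ≤ Real.exp 3 := by
          have h27 := Real.exp_one_gt_d9
          have : Real.exp 3 = Real.exp 1 ^ 3 := by rw [← Real.exp_nat_mul]; norm_num
          rw [this]
          calc (8:ℝ) = 2 ^ 3 := by norm_num
            _ ≤ Real.exp 1 ^ 3 := pow_le_pow_left₀ (by norm_num) (by linarith) 3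
        rw [Real.exp_neg, one_div]
        exact inv_anti₀ (by norm_num) h8
  linarith

/-- monotonicity in `n` and `θ` for convex functions -/
theorem S6 {d : ℕ} (hd : 3 ≤ d) {ν : Measure ℝ} {bd : ℝ} (hν : TL ν bd) {θ θ' : ℝ} (h0 : 0 ≤ θ)
    (h : θ ≤ θ') (h1 : θ' ≤ thc d) (φ : ℝ → ℝ) (hφ : ConvexOn ℝ (Set.Ioo (-1) 1) φ)
    {n n' : ℕ} (hn : n ≤ n') :
    ∫ p, φ p.1 ∂rho d θ ν n ≤ ∫ p, φ p.1 ∂rho d θ' ν n' := by
  classical
  have hth := stat_th hd (h0.trans h) h1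
  have hth' := stat_th hd h0 (h.trans h1)
  set ψ : ℝ → ℝ := (Set.Ioo (-1 : ℝ) 1).indicator φ with hψ
  have hm : Measurable ψ := by
    have hc : ContinuousOn φ (Set.Ioo (-1) 1) := hφ.continuousOn isOpen_Ioo
    rw [hψ, ← Set.piecewise_eq_indicator]
    exact hc.measurable_piecewise continuousOn_const measurableSet_Ioo
  have heq : Set.EqOn φ ψ (Set.Ioo (-1) 1) := fun x hx => (Set.indicator_of_mem hx φ).symm
  have hψc : ConvexOn ℝ (Set.Ioo (-1) 1) ψ := hφ.congr heq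
  have hae : ∀ (θ : ℝ) (n : ℕ), 0 ≤ θ → θ ≤ thc d →
      ∫ p, φ p.1 ∂rho d θ ν n = ∫ p, ψ p.1 ∂rho d θ ν n := by
    intro θ n h0 h1
    refine integral_congr_ae ?_
    filter_upwards [rho_supp hd hν h0 h1 n] with x hx
    exact heq (abs_lt.mp hx.1)
  rw [hae θ n h0 (h.trans h1), hae θ' n' (h0.trans h) h1]
  have e1 : CxLe (rho d θ ν n) (rho d θ' ν n) :=
    rho_cx hν.good hν.bd1 h0 h (by linarith [hth.2.2]) hth.1 n
  have e2 : CxLe (rho d θ' ν n) (rho d θ' ν n') := by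
    induction n', hn using Nat.le_induction with
    | base => exact CxLe.refl _
    | succ m _ ih =>
      exact ih.trans (rho_cx_succ hν.good hν.bd1 (h0.trans h) (by linarith [hth.2.2]) hth.1 m)
  exact (e1.trans e2) ψ hm hψc

/-- uniform support bound (all depths, all `θ ≤ thc d`) -/
theorem rho_bd (d : ℕ) (hd : 3 ≤ d) (bd : ℝ) (hbd : bd < 1) : ∃ bd' < 1, ∀ (ν : Measure ℝ) (θ : ℝ),
    TL ν bd → 0 ≤ θ → θ ≤ thc d → ∀ n, ∀ᵐ p ∂rho d θ ν n, |p.1| ≤ bd' := by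
  by_cases hb0 : 0 ≤ bd
  swap
  · exact ⟨0, one_pos, fun ν θ hν => absurd hν.bd0 hb0⟩
  have hmon : ∀ (θ : ℝ), 0 ≤ θ → θ ≤ 3 / 4 → ∀ k, abd θ bd k ≤ abd (3 / 4) bd k := by
    intro θ h0 h1 k
    induction k with
    | zero => exact le_rfl
    | succ k ih =>
      have e1 := abd_prop h0 (by linarith : θ < 1) hb0 hbd k
      have e2 := abd_prop (by norm_num : (0:ℝ) ≤ 3 / 4) (by norm_num) hb0 hbd k
      unfold abd at ih e1 e2 ⊢
      rw [Function.iterate_succ_apply', Function.iterate_succ_apply']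
      have := one_abs_op_le (x := (fun z => op z θ)^[k] bd) (y := θ) (a := (fun z => op z (3 / 4))^[k] bd)
        (b := 3 / 4) (by rw [abs_of_nonneg (hb0.trans e1.1)]; exact ih)
        (by rw [abs_of_nonneg h0]; exact h1) e2.2 (by norm_num)
      exact (le_abs_self _).trans this
  refine ⟨abd (3 / 4) bd (d - 1), (abd_prop (by norm_num) (by norm_num) hb0 hbd _).2, ?_⟩
  intro ν θ hν h0 h1 n
  have hth := stat_th hd h0 h1
  filter_upwards [(stat_good hd hν h0 h1 n).bdd] with x hx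
  exact hx.trans (hmon θ h0 hth.2.2.le _)

end Crest.Agent.T41
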