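import Crest.Agent.T41Ising3
import Crest.Agent.T41One
import Crest.Agent.T41Stat

set_option autoImplicit false

namespace Crest.Agent.T41

open MeasureTheory ProbabilityTheory
open scoped ENNReal

universe u

namespace Lk

section indep
variable {V : Type u} (ν : Measure ℝ) [IsProbabilityMeasure ν]

/-- extension of a partial configuration by zero -/
noncomputable def ex (A : Finset V) (y : A → ℝ) : V → ℝ := by
  classical
  exact fun v => if h : v ∈ A then y ⟨v, h⟩ else 0

theorem measurable_ex (A : Finset V) : Measurable (ex A) := by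
  classical
  rw [measurable_pi_iff]
  intro v
  unfold ex
  by_cases h : v ∈ A
  · simp only [h, dif_pos]; exact measurable_pi_apply _
  · simp only [h, dif_neg, not_false_eq_true]; exact measurable_const

theorem ex_restrict (A : Finset V) (t : V → ℝ) (v : V) (hv : v ∈ A) :
    ex A (A.restrict t) v = t v := by
  unfold ex
  simp [hv, Finset.restrict]

theorem lint_law {α β : Type*} [MeasurableSpace α] [MeasurableSpace β] (μ : Measure α)
    {Z : α → ℝ≥0∞} (mZ : Measurable Z) {D : α → β} (mD : Measurable D) {f : β → ℝ≥0∞}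
    (hf : Measurable f) :
    ∫⁻ x, f x ∂((μ.withDensity Z).map D) = ∫⁻ t, Z t * f (D t) ∂μ := by
  rw [lintegral_map hf mD]
  exact lintegral_withDensity_eq_lintegral_mul μ mZ (hf.comp mD)

/-- two-copies form of independence for disjoint coordinate sets -/
theorem lintegral_two (A B : Finset V) (hAB : Disjoint A B)
    (Φ : (V → ℝ) × (V → ℝ) → ℝ≥0∞) (hΦ : Measurable Φ)
    (hdep : ∀ t t' s s', (∀ v ∈ A, t v = t' v) → (∀ v ∈ B, s v = s' v) → Φ (t, s) = Φ (t', s')) :
    ∫⁻ t, Φ (t, t) ∂(Measure.infinitePi (fun _ : V => ν)) =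
      ∫⁻ t, ∫⁻ s, Φ (t, s) ∂(Measure.infinitePi (fun _ : V => ν))
        ∂(Measure.infinitePi (fun _ : V => ν)) := by
  set μ := Measure.infinitePi (fun _ : V => ν) with hμ
  set Ψ : (A → ℝ) × (B → ℝ) → ℝ≥0∞ := fun p => Φ (ex A p.1, ex B p.2) with hΨ
  have mΨ : Measurable Ψ := hΦ.comp (((measurable_ex A).comp measurable_fst).prodMk
    ((measurable_ex B).comp measurable_snd))
  have hΦΨ : ∀ t s, Φ (t, s) = Ψ (A.restrict t, B.restrict s) := by
    intro t s
    exact hdep _ _ _ _ (fun v hv => (ex_restrict A t v hv).symm)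
      (fun v hv => (ex_restrict B s v hv).symm)
  have mA : Measurable (A.restrict : (V → ℝ) → (A → ℝ)) := Finset.measurable_restrict A
  have mB : Measurable (B.restrict : (V → ℝ) → (B → ℝ)) := Finset.measurable_restrict B
  have hind : IndepFun (A.restrict : (V → ℝ) → (A → ℝ)) (B.restrict : (V → ℝ) → (B → ℝ)) μ := by
    have h1 : iIndepFun (fun (i : V) (ω : V → ℝ) => ω i) μ :=
      iIndepFun_infinitePi (P := fun _ : V => ν) (X := fun _ x => x) (fun _ => measurable_id)
    exact h1.indepFun_finset A B hAB (fun i => measurable_pi_apply i)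
  have hmap := (indepFun_iff_map_prod_eq_prod_map_map mA.aemeasurable mB.aemeasurable).1 hind
  calc ∫⁻ t, Φ (t, t) ∂μ = ∫⁻ t, Ψ (A.restrict t, B.restrict t) ∂μ :=
        lintegral_congr fun t => hΦΨ t t
    _ = ∫⁻ p, Ψ p ∂(μ.map fun t => (A.restrict t, B.restrict t)) := by
        rw [lintegral_map mΨ (mA.prodMk mB)]
    _ = ∫⁻ p, Ψ p ∂((μ.map A.restrict).prod (μ.map B.restrict)) := by rw [hmap]
    _ = ∫⁻ a, ∫⁻ b, Ψ (a, b) ∂(μ.map B.restrict) ∂(μ.map A.restrict) :=
        lintegral_prod _ mΨ.aemeasurable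
    _ = ∫⁻ t, ∫⁻ b, Ψ (A.restrict t, b) ∂(μ.map B.restrict) ∂μ := by
        rw [lintegral_map (mΨ.lintegral_prod_right') mA]
    _ = ∫⁻ t, ∫⁻ s, Φ (t, s) ∂μ ∂μ := by
        refine lintegral_congr fun t => ?_
        refine (lintegral_map (mΨ.comp measurable_prodMk_left) mB).trans ?_
        exact lintegral_congr fun s => (hΦΨ t s).symm

theorem law_union {A B : Finset V} (hAB : Disjoint A B) {DA DB : (V → ℝ) → Dat}
    (mDA : Measurable DA) (mDB : Measurable DB)
    (dDA : ∀ t t', (∀ v ∈ A, t v = t' v) → DA t = DA t')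
    (dDB : ∀ t t', (∀ v ∈ B, t v = t' v) → DB t = DB t')
    {ZA ZB : (V → ℝ) → ℝ≥0∞} (mZA : Measurable ZA) (mZB : Measurable ZB)
    (dZA : ∀ t t', (∀ v ∈ A, t v = t' v) → ZA t = ZA t')
    (dZB : ∀ t t', (∀ v ∈ B, t v = t' v) → ZB t = ZB t')
    [SFinite (((Measure.infinitePi (fun _ : V => ν)).withDensity ZB).map DB)] :
    ((Measure.infinitePi (fun _ : V => ν)).withDensity
      (fun t => ZA t * ZB t * ENNReal.ofReal (1 + (DA t).1 * (DB t).1))).map
        (fun t => opD (DA t) (DB t)) =
      conv (((Measure.infinitePi (fun _ : V => ν)).withDensity ZA).map DA)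
        (((Measure.infinitePi (fun _ : V => ν)).withDensity ZB).map DB) := by
  set μ := Measure.infinitePi (fun _ : V => ν) with hμ
  refine Measure.ext_of_lintegral _ fun f hf => ?_
  have mw : Measurable (fun p : Dat × Dat => ENNReal.ofReal (1 + p.1.1 * p.2.1)) := measurable_wD
  have mop := measurable_opD
  -- left side
  have mDD : Measurable (fun t => opD (DA t) (DB t)) := mop.comp (mDA.prodMk mDB)
  have mW : Measurable (fun t => ZA t * ZB t * ENNReal.ofReal (1 + (DA t).1 * (DB t).1)) :=
    (mZA.mul mZB).mul (mw.comp (mDA.prodMk mDB))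
  rw [lint_law _ mW mDD hf]
  -- right side
  unfold conv
  rw [lint_law _ mw mop hf]
  set Ψ : Dat × Dat → ℝ≥0∞ := fun p => ENNReal.ofReal (1 + p.1.1 * p.2.1) * f (opD p.1 p.2)
    with hΨ
  have mΨ : Measurable Ψ := mw.mul (hf.comp mop)
  rw [lintegral_prod _ mΨ.aemeasurable]
  have e1 : ∀ a : Dat, ∫⁻ b, Ψ (a, b) ∂((μ.withDensity ZB).map DB) =
      ∫⁻ s, ZB s * Ψ (a, DB s) ∂μ := by
    intro a
    exact lint_law _ mZB mDB (mΨ.comp measurable_prodMk_left)
  have e2 : ∫⁻ a, ∫⁻ b, Ψ (a, b) ∂((μ.withDensity ZB).map DB) ∂((μ.withDensity ZA).map DA) =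
      ∫⁻ t, ∫⁻ s, ZA t * (ZB s * Ψ (DA t, DB s)) ∂μ ∂μ := by
    rw [lint_law _ mZA mDA (mΨ.lintegral_prod_right')]
    refine lintegral_congr fun t => ?_
    rw [e1, ← lintegral_const_mul]
    exact mZB.mul (mΨ.comp (measurable_const.prodMk mDB))
  refine Eq.trans ?_ e2.symm
  rw [← lintegral_two ν A B hAB (fun p => ZA p.1 * (ZB p.2 * Ψ (DA p.1, DB p.2)))]
  · refine lintegral_congr fun t => ?_
    simp only [hΨ]
    ring
  · exact (mZA.comp measurable_fst).mul ((mZB.comp measurable_snd).mul
      (mΨ.comp ((mDA.comp measurable_fst).prodMk (mDB.comp measurable_snd))))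
  · intro t t' s s' h1 h2
    simp only [dDA t t' h1, dDB s s' h2, dZA t t' h1, dZB s s' h2]

end indep


/-! ### branch data -/

section data
variable {V : Type u} (G : SimpleGraph V) [G.LocallyFinite] (θ : ℝ)

open Classical in
/-- `y` with the branches of depth `n` of the neighbours in `C` -/
noncomputable def UU (n : ℕ) (y : V) (C : Finset V) : Finset V :=
  {y} ∪ C.biUnion fun c => brB G n c y

open Classical in
/-- data of the branch of depth `n` -/
noncomputable def BDat : ℕ → V → V → (V → ℝ) → Dat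
  | 0, y, p, t => (mean G θ (brB G 0 y p) t y, fun i => if i = 0 then 1 else 0)
  | n + 1, y, p, t => (mean G θ (brB G (n + 1) y p) t y, fun i => if i = 0 then 1 else
      ∑ c ∈ (G.neighborFinset y).erase p,
        (θ * gg θ (BDat n c y t).1) ^ 2 * (BDat n c y t).2 (i - 1))

open Classical in
/-- data of a partial star -/
noncomputable def SDat (n : ℕ) (y : V) (C : Finset V) (t : V → ℝ) : Dat :=
  (mean G θ (UU G n y C) t y, fun i => if i = 0 then 1 else
      ∑ c ∈ C, (θ * gg θ (BDat G θ n c y t).1) ^ 2 * (BDat G θ n c y t).2 (i - 1))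

theorem BDat_fst (n : ℕ) (y p : V) (t : V → ℝ) :
    (BDat G θ n y p t).1 = mean G θ (brB G n y p) t y := by
  cases n <;> rfl

theorem SDat_fst (n : ℕ) (y : V) (C : Finset V) (t : V → ℝ) :
    (SDat G θ n y C t).1 = mean G θ (UU G n y C) t y := rfl

open Classical in
theorem BDat_succ {G : SimpleGraph V} [G.LocallyFinite] (hT : G.IsTree) (θ : ℝ) (n : ℕ) {y p : V}
    (h : G.Adj y p) (t : V → ℝ) :
    BDat G θ (n + 1) y p t = SDat G θ n y ((G.neighborFinset y).erase p) t := by
  unfold SDat UU
  rw [← brB_succ hT h]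
  rfl

theorem BDat_snd_zero (n : ℕ) (y p : V) (t : V → ℝ) : (BDat G θ n y p t).2 0 = 1 := by
  cases n <;> simp [BDat]

open Classical in
theorem BDat_congr {G : SimpleGraph V} [G.LocallyFinite] (hT : G.IsTree) (θ : ℝ) (n : ℕ) :
    ∀ (y p : V), G.Adj y p → ∀ t t' : V → ℝ, (∀ v ∈ brB G n y p, t v = t' v) →
      BDat G θ n y p t = BDat G θ n y p t' := by
  induction n with
  | zero =>
    intro y p _ t t' h
    unfold BDat
    rw [mean_congr G θ _ t t' h]
  | succ n ih =>
    intro y p hyp t t' h
    unfold BDat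
    rw [mean_congr G θ _ t t' h]
    have hc : ∀ c ∈ (G.neighborFinset y).erase p, BDat G θ n c y t = BDat G θ n c y t' := by
      intro c hc
      rw [Finset.mem_erase, SimpleGraph.mem_neighborFinset] at hc
      refine ih c y hc.2.symm t t' fun v hv => h v ?_
      rw [brB_succ hT hyp, Finset.mem_union, Finset.mem_biUnion]
      exact Or.inr ⟨c, by rw [Finset.mem_erase, SimpleGraph.mem_neighborFinset]; exact hc, hv⟩
    have : (fun i : ℕ => if i = 0 then (1 : ℝ) else ∑ c ∈ (G.neighborFinset y).erase p,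
        (θ * gg θ (BDat G θ n c y t).1) ^ 2 * (BDat G θ n c y t).2 (i - 1)) =
        (fun i : ℕ => if i = 0 then (1 : ℝ) else ∑ c ∈ (G.neighborFinset y).erase p,
        (θ * gg θ (BDat G θ n c y t').1) ^ 2 * (BDat G θ n c y t').2 (i - 1)) := by
      funext i
      rw [Finset.sum_congr rfl fun c hc' => by rw [hc c hc']]
    rw [this]

open Classical in
theorem SDat_congr {G : SimpleGraph V} [G.LocallyFinite] (hT : G.IsTree) (θ : ℝ) (n : ℕ)
    (y : V) (C : Finset V) (hC : ∀ c ∈ C, G.Adj y c) (t t' : V → ℝ)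
    (h : ∀ v ∈ UU G n y C, t v = t' v) :
      SDat G θ n y C t = SDat G θ n y C t' := by
  unfold SDat
  rw [mean_congr G θ _ t t' h]
  have hc : ∀ c ∈ C, BDat G θ n c y t = BDat G θ n c y t' := by
    intro c hc
    refine BDat_congr hT θ n c y (hC c hc).symm t t' fun v hv => h v ?_
    unfold UU
    rw [Finset.mem_union, Finset.mem_biUnion]
    exact Or.inr ⟨c, hc, hv⟩
  have : (fun i : ℕ => if i = 0 then (1 : ℝ) else ∑ c ∈ C,
      (θ * gg θ (BDat G θ n c y t).1) ^ 2 * (BDat G θ n c y t).2 (i - 1)) =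
      (fun i : ℕ => if i = 0 then (1 : ℝ) else ∑ c ∈ C,
      (θ * gg θ (BDat G θ n c y t').1) ^ 2 * (BDat G θ n c y t').2 (i - 1)) := by
    funext i
    rw [Finset.sum_congr rfl fun c hc' => by rw [hc c hc']]
  rw [this]

theorem measurable_gg' : Measurable (gg θ) := by
  unfold gg; fun_prop

theorem measurable_tail {V' : Type u} (C : Finset V') {g : V' → (V → ℝ) → Dat}
    (hg : ∀ c, Measurable (g c)) :
    Measurable (fun t : V → ℝ => (fun i : ℕ => if i = 0 then (1 : ℝ) else ∑ c ∈ C,
      (θ * gg θ (g c t).1) ^ 2 * (g c t).2 (i - 1))) := by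
  rw [measurable_pi_iff]
  intro i
  by_cases hi : i = 0
  · simp only [hi, if_true]; exact measurable_const
  · simp only [hi, if_false]
    refine Finset.measurable_sum _ fun c _ => ?_
    have h1 := (hg c).fst
    have h2 := (hg c).snd
    exact (((measurable_gg' θ).comp h1).const_mul θ |>.pow_const 2).mul
      ((measurable_pi_apply _).comp h2)

open Classical in
theorem measurable_BDat (n : ℕ) : ∀ (y p : V), Measurable (BDat G θ n y p) := by
  induction n with
  | zero =>
    intro y p
    show Measurable (fun t => BDat G θ 0 y p t)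
    simp only [BDat]
    exact (i3_measurable_mean1 G θ _ y).prodMk measurable_const
  | succ n ih =>
    intro y p
    show Measurable (fun t => BDat G θ (n + 1) y p t)
    simp only [BDat]
    exact (i3_measurable_mean1 G θ _ y).prodMk (measurable_tail θ _ fun c => ih c y)

theorem measurable_SDat (n : ℕ) (y : V) (C : Finset V) : Measurable (SDat G θ n y C) := by
  unfold SDat
  exact (i3_measurable_mean1 G θ _ y).prodMk
    (measurable_tail θ C (g := fun c t => BDat G θ n c y t) fun c => measurable_BDat G θ n c y)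

/-- the law of a statistic under the density `Zt` -/
noncomputable def lawZ (ν : Measure ℝ) (A : Finset V) (D : (V → ℝ) → Dat) : Measure Dat :=
  ((Measure.infinitePi (fun _ : V => ν)).withDensity
    (fun t => ENNReal.ofReal (Zt G θ A t))).map D

end data

section law
variable {V : Type u} {G : SimpleGraph V} [G.LocallyFinite] (hT : G.IsTree) {θ : ℝ}
  (h0 : 0 ≤ θ) (h1 : θ < 1) {ν : Measure ℝ} {bd : ℝ} (hν : TL ν bd)
include h0 h1 hν

theorem ae_adm (A : Finset V) :
    ∀ᵐ t ∂(Measure.infinitePi (fun _ : V => ν)), Adm θ A t := by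
  have := hν.prob
  have h2 : ∀ v : V, ∀ᵐ t ∂(Measure.infinitePi (fun _ : V => ν)), |t v| ≤ bd := fun v =>
    (measurePreserving_eval_infinitePi (fun _ : V => ν) v).quasiMeasurePreserving.ae hν.supp
  have h3 : ∀ᵐ t ∂(Measure.infinitePi (fun _ : V => ν)), ∀ v ∈ A, |t v| ≤ bd :=
    (Filter.eventually_all_finset A).2 fun v _ => h2 v
  filter_upwards [h3] with t ht
  exact ⟨h0, h1, fun v hv => lt_of_le_of_lt (ht v hv) hν.bd1⟩

include hT

open Classical in
theorem law_step (n : ℕ) (y c : V) (C : Finset V) (hC : ∀ c' ∈ C, G.Adj y c') (hc : G.Adj y c)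
    (hcC : c ∉ C) :
    lawZ G θ ν (UU G n y (insert c C)) (SDat G θ n y (insert c C)) =
      conv (lawZ G θ ν (UU G n y C) (SDat G θ n y C))
        ((lawZ G θ ν (brB G n c y) (BDat G θ n c y)).map (thD θ)) := by
  have := hν.prob
  set μ := Measure.infinitePi (fun _ : V => ν) with hμ
  have hE := oneEdge_star hT (n := n) hC hc hcC
  have hE' : OneEdge G (UU G n y C) (brB G n c y) y c := hE
  have hUU : UU G n y (insert c C) = UU G n y C ∪ brB G n c y := by
    unfold UU
    rw [Finset.biUnion_insert]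
    ext x
    simp only [Finset.mem_union, Finset.mem_singleton, Finset.mem_biUnion]
    constructor
    · rintro (h | h | h)
      · exact Or.inl (Or.inl h)
      · exact Or.inr h
      · exact Or.inl (Or.inr h)
    · rintro ((h | h) | h)
      · exact Or.inl h
      · exact Or.inr (Or.inr h)
      · exact Or.inr (Or.inl h)
  have mS := measurable_SDat G θ n y C
  have mS' := measurable_SDat G θ n y (insert c C)
  have mB := measurable_BDat G θ n c y
  have mT := measurable_thD θ
  have mZ : ∀ A : Finset V, Measurable (fun t : V → ℝ => ENNReal.ofReal (Zt G θ A t)) :=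
    fun A => (measurable_Zt G θ A).ennreal_ofReal
  have e0 : (lawZ G θ ν (brB G n c y) (BDat G θ n c y)).map (thD θ) =
      (μ.withDensity (fun t => ENNReal.ofReal (Zt G θ (brB G n c y) t))).map
        (fun t => thD θ (BDat G θ n c y t)) := by
    unfold lawZ
    rw [Measure.map_map mT mB]
    rfl
  rw [e0]
  have e1 := law_union ν hE'.disj (DA := SDat G θ n y C)
    (DB := fun t => thD θ (BDat G θ n c y t)) mS (mT.comp mB)
    (fun t t' h => SDat_congr hT θ n y C hC t t' h)
    (fun t t' h => by rw [BDat_congr hT θ n c y hc.symm t t' h])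
    (ZA := fun t => ENNReal.ofReal (Zt G θ (UU G n y C) t))
    (ZB := fun t => ENNReal.ofReal (Zt G θ (brB G n c y) t)) (mZ _) (mZ _)
    (fun t t' h => by rw [Zt_congr G θ _ t t' h]) (fun t t' h => by rw [Zt_congr G θ _ t t' h])
  unfold lawZ
  rw [← hμ] at e1 ⊢
  rw [← e1]
  have haeA := ae_adm (θ := θ) h0 h1 hν (UU G n y C ∪ brB G n c y)
  have hAdmA : ∀ t, Adm θ (UU G n y C ∪ brB G n c y) t → Adm θ (UU G n y C) t :=
    fun t h => h.mono Finset.subset_union_left
  have hAdmB : ∀ t, Adm θ (UU G n y C ∪ brB G n c y) t → Adm θ (brB G n c y) t :=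
    fun t h => h.mono Finset.subset_union_right
  -- densities agree
  have hdens : (fun t => ENNReal.ofReal (Zt G θ (UU G n y (insert c C)) t)) =ᵐ[μ]
      (fun t => ENNReal.ofReal (Zt G θ (UU G n y C) t) *
        ENNReal.ofReal (Zt G θ (brB G n c y) t) *
        ENNReal.ofReal (1 + (SDat G θ n y C t).1 * (thD θ (BDat G θ n c y t)).1)) := by
    filter_upwards [haeA] with t ht
    have h2 := Zt_union hE' (hAdmA t ht) (hAdmB t ht)
    have e3 : (thD θ (BDat G θ n c y t)).1 = θ * mean G θ (brB G n c y) t c := by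
      unfold thD; rw [BDat_fst]
    rw [hUU, h2, e3, SDat_fst, ← ENNReal.ofReal_mul (Zt_pos (hAdmA t ht)).le,
      ← ENNReal.ofReal_mul (mul_nonneg (Zt_pos (hAdmA t ht)).le (Zt_pos (hAdmB t ht)).le)]
  have hstat : SDat G θ n y (insert c C) =ᵐ[μ]
      (fun t => opD (SDat G θ n y C t) (thD θ (BDat G θ n c y t))) := by
    filter_upwards [haeA] with t ht
    have h2 := mean_union hE' (hAdmA t ht) (hAdmB t ht)
    refine Prod.ext ?_ ?_
    · show mean G θ (UU G n y (insert c C)) t y = op _ _
      have e3 : (thD θ (BDat G θ n c y t)).1 = θ * mean G θ (brB G n c y) t c := by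
        unfold thD; rw [BDat_fst]
      rw [hUU, h2, e3, SDat_fst]
    · funext i
      show (if i = 0 then (1 : ℝ) else _) = (SDat G θ n y C t).2 i + (thD θ (BDat G θ n c y t)).2 i
      unfold SDat thD
      by_cases hi : i = 0
      · simp [hi]
      · simp only [hi, if_false]
        rw [Finset.sum_insert hcC, add_comm]
  rw [withDensity_congr_ae hdens]
  exact Measure.map_congr ((withDensity_absolutelyContinuous _ _).ae_le hstat)

omit hT h0 h1 in
theorem law_single (y : V) (D : (V → ℝ) → Dat)
    (hD : ∀ t, D t = (t y, fun i => if i = 0 then 1 else 0)) :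
    lawZ G θ ν {y} D = siteD ν := by
  have := hν.prob
  unfold lawZ siteD
  have e1 : (fun t : V → ℝ => ENNReal.ofReal (Zt G θ {y} t)) = fun _ => 1 := by
    funext t; rw [Zt_singleton]; simp
  rw [e1, show (fun _ : V → ℝ => (1 : ℝ≥0∞)) = 1 from rfl, withDensity_one]
  have e2 : D = (fun x : ℝ => ((x, fun i => if i = 0 then 1 else 0) : Dat)) ∘ fun t => t y := by
    funext t; exact hD t
  rw [e2, ← Measure.map_map measurable_site (measurable_pi_apply y)]
  rw [(measurePreserving_eval_infinitePi (fun _ : V => ν) y).map_eq]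

open Classical in
theorem law_star (n : ℕ) (d : ℕ) (y : V)
    (ih : ∀ c, G.Adj y c → lawZ G θ ν (brB G n c y) (BDat G θ n c y) = rho d θ ν n)
    (C : Finset V) (hC : ∀ c ∈ C, G.Adj y c) :
    lawZ G θ ν (UU G n y C) (SDat G θ n y C) = attach θ ν (rho d θ ν n) C.card := by
  induction C using Finset.induction_on with
  | empty =>
    rw [Finset.card_empty, attach_zero]
    have : UU G n y ∅ = {y} := by unfold UU; simp
    rw [this]
    apply law_single hν y
    intro t
    unfold SDat
    rw [this, mean_singleton]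
    simp
  | insert c C hcC ihC =>
    rw [law_step hT h0 h1 hν n y c C (fun c' hc' => hC c' (Finset.mem_insert_of_mem hc'))
      (hC c (Finset.mem_insert_self c C)) hcC,
      ihC fun c' hc' => hC c' (Finset.mem_insert_of_mem hc'),
      ih c (hC c (Finset.mem_insert_self c C)), Finset.card_insert_of_notMem hcC, attach_succ]

theorem law_branch (d : ℕ) (hreg : G.IsRegularOfDegree d) (n : ℕ) :
    ∀ y p : V, G.Adj y p → lawZ G θ ν (brB G n y p) (BDat G θ n y p) = rho d θ ν n := by
  classical
  induction n with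
  | zero =>
    intro y p h
    rw [brB_zero hT h]
    apply law_single hν y
    intro t
    unfold BDat
    rw [brB_zero hT h, mean_singleton]
  | succ n ih =>
    intro y p h
    have e1 : brB G (n + 1) y p = UU G n y ((G.neighborFinset y).erase p) := brB_succ hT h
    have e2 : BDat G θ (n + 1) y p = SDat G θ n y ((G.neighborFinset y).erase p) := by
      funext t; exact BDat_succ hT θ n h t
    rw [e1, e2, law_star hT h0 h1 hν n d y (fun c hc => ih c y hc.symm) _ fun c hc => by
      rw [Finset.mem_erase, SimpleGraph.mem_neighborFinset] at hc; exact hc.2]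
    rw [Finset.card_erase_of_mem (by rw [SimpleGraph.mem_neighborFinset]; exact h),
      SimpleGraph.card_neighborFinset_eq_degree, hreg y]
    rfl

open Classical in
theorem law_vertex (d : ℕ) (hreg : G.IsRegularOfDegree d) (n : ℕ) (v : V) :
    lawZ G θ ν (ball G v (n + 1)) (SDat G θ n v (G.neighborFinset v)) =
      attach θ ν (rho d θ ν n) d := by
  have e1 : ball G v (n + 1) = UU G n v (G.neighborFinset v) := ball_succ hT
  rw [e1, law_star hT h0 h1 hν n d v
    (fun c hc => law_branch hT h0 h1 hν d hreg n c v hc.symm) _ fun c hc => by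
      rw [SimpleGraph.mem_neighborFinset] at hc; exact hc]
  rw [SimpleGraph.card_neighborFinset_eq_degree, hreg v]

end law

end Lk

end Crest.Agent.T41
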