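import Crest.Agent.T41P2
import Crest.Agent.T41Stat
import Crest.Agent.T41LinkA

/-!
S0241, part LINK: the law of the branch data in a ball is `rho` (section 4, first paragraph).
-/

set_option autoImplicit false

namespace Crest.Agent.T41

open MeasureTheory ProbabilityTheory

universe u
variable {V : Type u} {G : SimpleGraph V} [G.LocallyFinite]

namespace Lk

theorem BDat_gt {θ : ℝ} (n : ℕ) : ∀ (y p : V) (t : V → ℝ) (i : ℕ), n < i →
    (BDat G θ n y p t).2 i = 0 := by
  classical
  induction n with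
  | zero =>
    intro y p t i hi
    simp only [BDat]
    rw [if_neg (by omega)]
  | succ n ih =>
    intro y p t i hi
    simp only [BDat]
    rw [if_neg (by omega)]
    exact Finset.sum_eq_zero fun c _ => by rw [ih c y t (i - 1) (by omega), mul_zero]

theorem detY (hT : G.IsTree) {θ : ℝ} (n : ℕ) : ∀ (y p : V), G.Adj y p → ∀ (Λ : Finset V)
    (t : V → ℝ), brS G Λ y p = brB G n y p → y ∈ Λ → p ∈ Λ → Adm θ Λ t → ∀ i ≤ n,
    Yk G θ (mean G θ Λ t) i y p = (BDat G θ n y p t).2 i := by
  classical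
  induction n with
  | zero =>
    intro y p _ Λ t _ _ _ _ i hi
    obtain rfl : i = 0 := by omega
    rw [BDat_snd_zero]; rfl
  | succ n ih =>
    intro y p hyp Λ t hbr hy hp hA i hi
    rcases i with _ | i
    · rw [BDat_snd_zero]; rfl
    · have hcN : ∀ c ∈ (G.neighborFinset y).erase p, G.Adj y c ∧ c ≠ p := by
        intro c hc
        rw [Finset.mem_erase, SimpleGraph.mem_neighborFinset] at hc
        exact ⟨hc.2, hc.1⟩
      have e1 : Yk G θ (mean G θ Λ t) (i + 1) y p =
          ∑ c ∈ (G.neighborFinset y).erase p,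
            (kap θ (mean G θ Λ t c) (mean G θ Λ t y)) ^ 2 * Yk G θ (mean G θ Λ t) i c y := by
        simp only [Yk]
      have e2 : (BDat G θ (n + 1) y p t).2 (i + 1) =
          ∑ c ∈ (G.neighborFinset y).erase p,
            (θ * gg θ (BDat G θ n c y t).1) ^ 2 * (BDat G θ n c y t).2 i := by
        simp only [BDat]
        rw [if_neg (by omega)]
        simp only [Nat.add_sub_cancel]
      rw [e1, e2]
      refine Finset.sum_congr rfl fun c hc => ?_
      obtain ⟨hyc, hcp⟩ := hcN c hc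
      have hbrc : brS G Λ c y = brB G n c y := by
        rw [← brS_brS hT hyp hyc hcp, hbr]
        ext x
        rw [mem_brS, mem_brB hT, mem_brB hT]
        constructor
        · rintro ⟨⟨h1, _⟩, h2⟩
          have := (mem_br hT hyc.symm x).1 h2
          rw [G.dist_comm (u := y) (v := x)] at h1
          rw [G.dist_comm (u := c) (v := x)]
          exact ⟨by omega, h2⟩
        · rintro ⟨h1, h2⟩
          have := (mem_br hT hyc.symm x).1 h2
          rw [G.dist_comm (u := c) (v := x)] at h1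
          rw [G.dist_comm (u := y) (v := x)]
          exact ⟨⟨by omega, br_subset hT hyp hyc hcp h2⟩, h2⟩
      have hcΛ : c ∈ Λ := by
        have : c ∈ brS G Λ c y := by
          rw [hbrc, mem_brB hT]
          exact ⟨by simp, self_mem_br hT hyc.symm⟩
        exact (mem_brS.1 this).1
      rw [ih c y hyc.symm Λ t hbrc hcΛ hy hA i (by omega)]
      congr 2
      unfold kap
      rw [mean_eq _ _ _ _ hcΛ, mean_eq _ _ _ _ hy, cav_eq_BB hT hA hyc.symm hcΛ hy, BDat_fst]
      unfold cav
      rw [hbrc, mean_eq _ _ _ _ ((mem_brB hT).2 ⟨by simp, self_mem_br hT hyc.symm⟩)]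

/-- the data of section 6 are the branch data -/
theorem detD (hT : G.IsTree) {θ : ℝ} (n : ℕ) (y p : V) (hyp : G.Adj y p)
    (t : V → ℝ) (hA : Adm θ (ball G p (n + 1)) t) :
    ((BB θ (mean G θ (ball G p (n + 1)) t y) (mean G θ (ball G p (n + 1)) t p),
        fun i => if i ≤ n then Yk G θ (mean G θ (ball G p (n + 1)) t) i y p else 0) : Dat) =
      BDat G θ n y p t := by
  have hbr := brS_ball hT (n := n) hyp
  have hy : y ∈ ball G p (n + 1) := by
    rw [mem_ball hT, SimpleGraph.dist_eq_one_iff_adj.2 hyp.symm]; omega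
  have hp : p ∈ ball G p (n + 1) := by rw [mem_ball hT]; simp
  refine Prod.ext ?_ ?_
  · show BB θ _ _ = _
    rw [mean_eq _ _ _ _ hy, mean_eq _ _ _ _ hp, cav_eq_BB hT hA hyp hy hp, BDat_fst]
    unfold cav
    rw [hbr, mean_eq _ _ _ _ ((mem_brB hT).2 ⟨by simp, self_mem_br hT hyp⟩)]
  · funext i
    show (if i ≤ n then _ else _) = _
    by_cases hi : i ≤ n
    · rw [if_pos hi]
      exact detY hT n y p hyp _ t hbr hy hp hA i hi
    · rw [if_neg hi, BDat_gt n y p t i (by omega)]

theorem measurable_Yk {θ : ℝ} (i : ℕ) : ∀ y p : V,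
    Measurable (fun m : V → ℝ => Yk G θ m i y p) := by
  classical
  induction i with
  | zero => intro y p; simp only [Yk]; exact measurable_const
  | succ i ih =>
    intro y p
    simp only [Yk]
    refine Finset.measurable_sum _ fun c _ => ?_
    have h1 : Measurable (fun m : V → ℝ => kap θ (m c) (m y)) :=
      measurable_kap.comp (f := fun m : V → ℝ => ((θ, m c, m y) : ℝ × ℝ × ℝ)) (by fun_prop)
    exact (h1.pow_const 2).mul (ih c y)

theorem TL_nu (T : ℝ) : TL (nu T) (tbd ⌈T⌉₊) :=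
  ⟨nu_prob T, nu_symm T, nu_supp T _ (Nat.le_ceil T), tbd_nonneg _, tbd_lt_one _⟩

section int
variable {θ : ℝ} (h0 : 0 ≤ θ) (h1 : θ < 1) {ν : Measure ℝ} {bd : ℝ} (hν : TL ν bd)
include h0 h1

theorem Zt_bdd (A : Finset V) : ∃ K : ℝ, 0 ≤ K ∧ ∀ t, Adm θ A t →
    0 < Zt G θ A t ∧ Zt G θ A t ≤ K := by
  refine ⟨∑ S ∈ A.powerset, Crest.ProbabilityR.TreeIsing.isingWeight G θ A
    (fun v => by classical exact decide (v ∈ S)) * 2 ^ A.card, ?_, ?_⟩
  · exact Finset.sum_nonneg fun S _ => mul_nonneg (iw_pos (by linarith) h1 _ _).le (by positivity)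
  · intro t ht
    refine ⟨Zt_pos ht, ?_⟩
    unfold Zt
    refine Finset.sum_le_sum fun S _ => ?_
    unfold wtI
    refine mul_le_mul_of_nonneg_left ?_ (iw_pos (by linarith) h1 _ _).le
    rw [← Finset.prod_const]
    refine Finset.prod_le_prod (fun v hv => ?_) (fun v hv => ?_)
    · rw [← spb_cfg]; exact (one_add_spb_mul_pos (ht.ht v hv) _).le
    · have h2 : |sp S v * t v| ≤ 1 := by
        rw [abs_mul, i3_abs_sp, one_mul]; exact (ht.ht v hv).le
      linarith [(abs_le.1 h2).2]

include hν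

theorem integral_lawZ (A : Finset V) {D : (V → ℝ) → Dat} (mD : Measurable D) {F : Dat → ℝ}
    (hF : Measurable F) :
    ∫ x, F x ∂(lawZ G θ ν A D) =
      ∫ t, F (D t) * Zt G θ A t ∂(Measure.infinitePi (fun _ : V => ν)) := by
  have := hν.prob
  unfold lawZ
  rw [integral_map mD.aemeasurable hF.aestronglyMeasurable,
    integral_withDensity_eq_integral_toReal_smul (measurable_Zt G θ A).ennreal_ofReal
      (Filter.Eventually.of_forall fun _ => ENNReal.ofReal_lt_top)]
  refine integral_congr_ae ?_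
  filter_upwards [ae_adm h0 h1 hν A] with t ht
  rw [ENNReal.toReal_ofReal (Zt_pos ht).le, smul_eq_mul, mul_comm]

end int

theorem integral_two {ν : Measure ℝ} [IsProbabilityMeasure ν] {A B : Finset V}
    (hAB : Disjoint A B) {f g : (V → ℝ) → ℝ} (hf : Measurable f) (hg : Measurable g)
    (df : ∀ t t', (∀ v ∈ A, t v = t' v) → f t = f t')
    (dg : ∀ t t', (∀ v ∈ B, t v = t' v) → g t = g t') :
    ∫ t, f t * g t ∂(Measure.infinitePi (fun _ : V => ν)) =
      (∫ t, f t ∂(Measure.infinitePi (fun _ : V => ν))) *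
      ∫ t, g t ∂(Measure.infinitePi (fun _ : V => ν)) := by
  set μ := Measure.infinitePi (fun _ : V => ν) with hμ
  have hind : IndepFun (A.restrict : (V → ℝ) → (A → ℝ)) (B.restrict : (V → ℝ) → (B → ℝ)) μ := by
    have h1 : iIndepFun (fun (i : V) (ω : V → ℝ) => ω i) μ :=
      iIndepFun_infinitePi (P := fun _ : V => ν) (X := fun _ x => x) (fun _ => measurable_id)
    exact h1.indepFun_finset A B hAB (fun i => measurable_pi_apply i)
  have hfe : f = (fun y => f (ex A y)) ∘ A.restrict := by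
    funext t; exact df _ _ fun v hv => (ex_restrict A t v hv).symm
  have hge : g = (fun y => g (ex B y)) ∘ B.restrict := by
    funext t; exact dg _ _ fun v hv => (ex_restrict B t v hv).symm
  have hI : IndepFun f g μ := by
    rw [hfe, hge]
    exact hind.comp (hf.comp (measurable_ex A)) (hg.comp (measurable_ex B))
  exact hI.integral_fun_mul_eq_mul_integral hf.aestronglyMeasurable hg.aestronglyMeasurable

end Lk

open Lk

/-- branches -/
theorem link_branch (hT : G.IsTree) (d : ℕ) (hd : 3 ≤ d) (hreg : G.IsRegularOfDegree d) (θ : ℝ)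
    (h0 : 0 ≤ θ) (h1 : θ ≤ thc d) (T : ℝ) (y p : V) (hyp : G.Adj y p) (n : ℕ) (F : Dat → ℝ)
    (hF : Measurable F) (hb : ∃ C, ∀ x, |F x| ≤ C) :
    ∫ ω, F (BB θ (mm G θ (ball G p (n + 1)) T ω y) (mm G θ (ball G p (n + 1)) T ω p),
        fun i => if i ≤ n then Yk G θ (mm G θ (ball G p (n + 1)) T ω) i y p else 0) ∂PP V
      = ∫ x, F x ∂rho d θ (nu T) n := by
  classical
  have hθ1 : θ < 1 := lt_of_le_of_lt h1 (thc_lt_one hd)
  set Λ := ball G p (n + 1) with hΛ
  have hν := TL_nu T
  have := hν.prob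
  obtain ⟨C, hC⟩ := hb
  set μ := Measure.infinitePi (fun _ : V => nu T) with hμ
  set D' : (V → ℝ) → Dat := fun t => (BB θ (mean G θ Λ t y) (mean G θ Λ t p),
    fun i => if i ≤ n then Yk G θ (mean G θ Λ t) i y p else 0) with hD'
  have mm' := measurable_mean G θ Λ
  have mD' : Measurable D' := by
    refine Measurable.prodMk ?_ ?_
    · exact measurable_BB.comp (f := fun t : V → ℝ => ((θ, mean G θ Λ t y, mean G θ Λ t p) :
        ℝ × ℝ × ℝ)) (measurable_const.prodMk
          ((i3_measurable_mean1 G θ Λ y).prodMk (i3_measurable_mean1 G θ Λ p)))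
    · rw [measurable_pi_iff]
      intro i
      by_cases hi : i ≤ n
      · simp only [hi, if_true]; exact (measurable_Yk i y p).comp mm'
      · simp only [hi, if_false]; exact measurable_const
  have hP2 := P2 hT h0 hθ1 p (n + 1) T (fun t => F (D' t)) (hF.comp mD') ⟨C, fun x => hC _⟩
  have e0 : ∀ t : V → ℝ, D' (fun v => if v ∈ ball G p (n + 1) then t v else 0) = D' t := by
    intro t
    have : mean G θ Λ (fun v => if v ∈ ball G p (n + 1) then t v else 0) = mean G θ Λ t := by
      funext v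
      apply mean_congr
      intro w hw
      rw [if_pos hw]
    simp only [hD', this]
  have eL : ∫ ω, F (BB θ (mm G θ Λ T ω y) (mm G θ Λ T ω p),
        fun i => if i ≤ n then Yk G θ (mm G θ Λ T ω) i y p else 0) ∂PP V =
      ∫ t, F (D' t) * Zt G θ Λ t ∂μ := by
    refine Eq.trans hP2 ?_
    refine integral_congr_ae (Filter.Eventually.of_forall fun t => ?_)
    simp only [e0]
    rfl
  rw [eL]
  set A := brB G n y p with hA
  set B := brB G (n + 1) p y with hB
  have hpΛ : p ∈ Λ := by rw [hΛ, mem_ball hT]; simp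
  have hyΛ : y ∈ Λ := by
    rw [hΛ, mem_ball hT, SimpleGraph.dist_eq_one_iff_adj.2 hyp.symm]; omega
  have hE : OneEdge G A B y p := by
    have := oneEdge_brS hT (S := Λ) hyp hyΛ hpΛ
    rw [hΛ, brS_ball hT hyp] at this
    exact this
  have hAB : A ∪ B = Λ := by
    have := brS_union hT (S := Λ) hyp
    rw [← this]
    conv_rhs => rw [hΛ, brS_ball hT hyp]
    rfl
  have hAΛ : A ⊆ Λ := by rw [← hAB]; exact Finset.subset_union_left
  have hBΛ : B ⊆ Λ := by rw [← hAB]; exact Finset.subset_union_right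
  have haeΛ := ae_adm (V := V) h0 hθ1 hν Λ
  have mBD := measurable_BDat G θ n y p
  obtain ⟨KA, hKA0, hKA⟩ := Zt_bdd (G := G) h0 hθ1 A
  obtain ⟨KB, hKB0, hKB⟩ := Zt_bdd (G := G) h0 hθ1 B
  have mZA := measurable_Zt G θ A
  have mZB := measurable_Zt G θ B
  have mmA := i3_measurable_mean1 G θ A y
  have mmB := i3_measurable_mean1 G θ B p
  -- the integrand
  have e1 : ∫ t, F (D' t) * Zt G θ Λ t ∂μ =
      ∫ t, (F (BDat G θ n y p t) * Zt G θ A t) * Zt G θ B t +
        θ * ((F (BDat G θ n y p t) * Zt G θ A t * mean G θ A t y) *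
          (mean G θ B t p * Zt G θ B t)) ∂μ := by
    refine integral_congr_ae ?_
    filter_upwards [haeΛ] with t ht
    have h2 : D' t = BDat G θ n y p t := detD hT n y p hyp t ht
    have h3 := Zt_union hE (ht.mono hAΛ) (ht.mono hBΛ)
    rw [hAB] at h3
    rw [h2, h3]
    ring
  have i1 : Integrable (fun t => (F (BDat G θ n y p t) * Zt G θ A t) * Zt G θ B t) μ := by
    refine Integrable.of_bound (((hF.comp mBD).mul mZA).mul mZB).aestronglyMeasurable
      (C * KA * KB) ?_
    filter_upwards [haeΛ] with t ht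
    have hC0 : 0 ≤ C := (abs_nonneg _).trans (hC (BDat G θ n y p t))
    obtain ⟨ha1, ha2⟩ := hKA t (ht.mono hAΛ)
    obtain ⟨hb1, hb2⟩ := hKB t (ht.mono hBΛ)
    rw [norm_mul, norm_mul, Real.norm_eq_abs, Real.norm_eq_abs, Real.norm_eq_abs,
      abs_of_pos ha1, abs_of_pos hb1]
    exact mul_le_mul (mul_le_mul (hC _) ha2 ha1.le hC0) hb2 hb1.le (mul_nonneg hC0 hKA0)
  have i2 : Integrable (fun t => (F (BDat G θ n y p t) * Zt G θ A t * mean G θ A t y) *
          (mean G θ B t p * Zt G θ B t)) μ := by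
    refine Integrable.of_bound ((((hF.comp mBD).mul mZA).mul mmA).mul
      (mmB.mul mZB)).aestronglyMeasurable (C * KA * 1 * (1 * KB)) ?_
    filter_upwards [haeΛ] with t ht
    have hC0 : 0 ≤ C := (abs_nonneg _).trans (hC (BDat G θ n y p t))
    obtain ⟨ha1, ha2⟩ := hKA t (ht.mono hAΛ)
    obtain ⟨hb1, hb2⟩ := hKB t (ht.mono hBΛ)
    have hm1 := abs_mean_le (G := G) (ht.mono hAΛ) y
    have hm2 := abs_mean_le (G := G) (ht.mono hBΛ) p
    rw [norm_mul, norm_mul, norm_mul, norm_mul, Real.norm_eq_abs, Real.norm_eq_abs,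
      Real.norm_eq_abs, Real.norm_eq_abs, Real.norm_eq_abs, abs_of_pos ha1, abs_of_pos hb1]
    refine mul_le_mul (mul_le_mul (mul_le_mul (hC _) ha2 ha1.le hC0) hm1 (abs_nonneg _)
      (mul_nonneg hC0 hKA0)) (mul_le_mul hm2 hb2 hb1.le zero_le_one)
      (mul_nonneg (abs_nonneg _) hb1.le) ?_
    exact mul_nonneg (mul_nonneg hC0 hKA0) zero_le_one
  rw [e1, integral_add i1 (i2.const_mul θ), integral_const_mul]
  have dB : ∀ t t' : V → ℝ, (∀ v ∈ A, t v = t' v) → BDat G θ n y p t = BDat G θ n y p t' :=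
    fun t t' h => BDat_congr hT θ n y p hyp t t' h
  rw [integral_two (f := fun t => F (BDat G θ n y p t) * Zt G θ A t)
    (g := fun t => Zt G θ B t) hE.disj ((hF.comp mBD).mul mZA) mZB
    (fun t t' h => by
      show F (BDat G θ n y p t) * Zt G θ A t = F (BDat G θ n y p t') * Zt G θ A t'
      rw [dB t t' h, Zt_congr G θ A t t' h])
    (fun t t' h => Zt_congr G θ B t t' h)]
  rw [integral_two (f := fun t => F (BDat G θ n y p t) * Zt G θ A t * mean G θ A t y)
    (g := fun t => mean G θ B t p * Zt G θ B t) hE.disj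
    (((hF.comp mBD).mul mZA).mul mmA) (mmB.mul mZB)
    (fun t t' h => by
      show F (BDat G θ n y p t) * Zt G θ A t * mean G θ A t y =
        F (BDat G θ n y p t') * Zt G θ A t' * mean G θ A t' y
      rw [dB t t' h, Zt_congr G θ A t t' h, mean_congr G θ A t t' h])
    (fun t t' h => by
      show mean G θ B t p * Zt G θ B t = mean G θ B t' p * Zt G θ B t'
      rw [Zt_congr G θ B t t' h, mean_congr G θ B t t' h])]
  -- the two factors from the far side
  have hlawB := law_branch hT h0 hθ1 hν d hreg (n + 1) p y hyp.symm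
  have hlawA := law_branch hT h0 hθ1 hν d hreg n y p hyp
  have hgood : GoodD (abd θ (tbd ⌈T⌉₊) (d - 1)) 1 (rho d θ (nu T) (n + 1)) := by
    refine rho_good ⟨hν.prob, hν.symm, hν.supp⟩ hν.bd1 h0 hθ1 ?_ (n + 1)
    have h2 := thc_sq hd
    have h3 : ((d - 1 : ℕ) : ℝ) = (d : ℝ) - 1 := by
      rw [Nat.cast_sub (by omega)]; simp
    rw [h3]
    have h4 : (0 : ℝ) ≤ (d : ℝ) - 1 := by
      have : (3 : ℝ) ≤ d := by exact_mod_cast hd
      linarith
    exact (mul_le_mul_of_nonneg_left (pow_le_pow_left₀ h0 h1 2) h4).trans h2.le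
  have hone : ∫ t, Zt G θ B t ∂μ = 1 := by
    have := integral_lawZ (G := G) h0 hθ1 hν B (measurable_BDat G θ (n + 1) p y)
      (F := fun _ => 1) measurable_const
    rw [hlawB] at this
    have hp := hgood.prob
    simpa using this.symm
  have hzero : ∫ t, mean G θ B t p * Zt G θ B t ∂μ = 0 := by
    have := integral_lawZ (G := G) h0 hθ1 hν B (measurable_BDat G θ (n + 1) p y)
      (F := fun x => x.1) measurable_fst
    rw [hlawB] at this
    have hs := hgood.integral_neg (F := fun x => x.1) measurable_fst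
    have hs' : ∫ x, (ngD x).1 ∂(rho d θ (nu T) (n + 1)) =
        -∫ x, x.1 ∂(rho d θ (nu T) (n + 1)) := by
      rw [← integral_neg]; rfl
    have h3 : ∫ x, x.1 ∂(rho d θ (nu T) (n + 1)) = 0 := by linarith
    rw [h3] at this
    rw [this]
    refine integral_congr_ae (Filter.Eventually.of_forall fun t => ?_)
    simp only [BDat_fst]
    rfl
  rw [hone, hzero, mul_zero, mul_zero, add_zero, mul_one, ← hlawA,
    integral_lawZ (G := G) h0 hθ1 hν A mBD hF]

/-- full vertices -/
theorem link_vertex (hT : G.IsTree) (d : ℕ) (hd : 3 ≤ d) (hreg : G.IsRegularOfDegree d) (θ : ℝ)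
    (h0 : 0 ≤ θ) (h1 : θ ≤ thc d) (T : ℝ) (v : V) (n : ℕ) (F : ℝ → ℝ)
    (hF : Measurable F) (hb : ∃ C, ∀ x, |F x| ≤ C) :
    ∫ ω, F (mm G θ (ball G v (n + 1)) T ω v) ∂PP V
      = ∫ x, F x.1 ∂attach θ (nu T) (rho d θ (nu T) n) d := by
  classical
  have hθ1 : θ < 1 := lt_of_le_of_lt h1 (thc_lt_one hd)
  set Λ := ball G v (n + 1) with hΛ
  have hν := TL_nu T
  obtain ⟨C, hC⟩ := hb
  set μ := Measure.infinitePi (fun _ : V => nu T) with hμ
  have hP2 := P2 hT h0 hθ1 v (n + 1) T (fun t => F (mean G θ Λ t v))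
    (hF.comp (i3_measurable_mean1 G θ Λ v)) ⟨C, fun x => hC _⟩
  refine Eq.trans hP2 ?_
  have e0 : ∀ t : V → ℝ, mean G θ Λ (fun w => if w ∈ ball G v (n + 1) then t w else 0) v =
      mean G θ Λ t v := by
    intro t
    apply mean_congr
    intro w hw
    rw [if_pos hw]
  have hUU : Λ = UU G n v (G.neighborFinset v) := ball_succ hT
  have hlaw := law_vertex hT h0 hθ1 hν d hreg n v
  have e1 := integral_lawZ (G := G) h0 hθ1 hν Λ (measurable_SDat G θ n v (G.neighborFinset v))
    (F := fun x : Dat => F x.1) (hF.comp measurable_fst)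
  rw [hlaw] at e1
  rw [e1]
  refine integral_congr_ae (Filter.Eventually.of_forall fun t => ?_)
  simp only [e0, SDat_fst]
  rw [← hUU]

end Crest.Agent.T41
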