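import Crest.Agent.T41P1

/-!
S0241, part P2 (first half): the one-site law `nu`.
-/

set_option autoImplicit false

namespace Crest.Agent.T41

open MeasureTheory Filter Topology

namespace Nu

/-- the one-vertex volume -/
abbrev L1 : Finset Unit := {()}

/-- update rule of the one-vertex process -/
noncomputable abbrev ph : Unit → ℝ → (Unit → ℝ) → unitInterval → ℝ :=
  phiI (⊥ : SimpleGraph Unit) 0 L1

/-- the mean at the single vertex -/
noncomputable def mT (T : ℝ) (ω : Lab Unit) : ℝ := mm (⊥ : SimpleGraph Unit) 0 L1 T ω ()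

theorem mT_eq (T : ℝ) (ω : Lab Unit) :
    mT T ω = Real.tanh (hh (⊥ : SimpleGraph Unit) 0 L1 T ω ()) :=
  mean_singleton _ _ _ _

theorem measurable_mT (T : ℝ) : Measurable (mT T) := measurable_mm_fix _ _ _ _ _

theorem nu_eq (T : ℝ) : nu T = (PP Unit).map (mT T) := rfl

theorem mean1 (k : Unit → ℝ) : mean (⊥ : SimpleGraph Unit) 0 L1 k () = k () :=
  mean_singleton _ _ _ _

theorem integral_nu (T : ℝ) (f : ℝ → ℝ) (hf : Measurable f) :
    ∫ t, f t ∂nu T = ∫ ω, f (mT T ω) ∂PP Unit := by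
  rw [nu_eq, integral_map (measurable_mT T).aemeasurable hf.aestronglyMeasurable]

theorem ae_nu (T : ℝ) (p : ℝ → Prop) (hp : MeasurableSet {x | p x}) (h : ∀ ω, p (mT T ω)) :
    ∀ᵐ t ∂nu T, p t := by
  rw [nu_eq, ae_map_iff (measurable_mT T).aemeasurable hp]
  exact Eventually.of_forall h

/-! ### symmetry -/

/-- reflection of the label of a site -/
noncomputable def rY (y : Y01) : Y01 := (y.1, unitInterval.symm y.2)

/-- reflection of all labels -/
noncomputable def rL (ω : Lab Unit) : Lab Unit := fun v j => rY (ω v j)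

theorem measurable_rY : Measurable rY :=
  measurable_fst.prodMk (unitInterval.measurable_symm.comp measurable_snd)

theorem measurable_rL : Measurable rL := by
  unfold rL
  refine measurable_pi_iff.2 fun v => measurable_pi_iff.2 fun j => ?_
  exact measurable_rY.comp ((measurable_pi_apply j).comp (measurable_pi_apply v))

theorem rY_map : (volume : Measure Y01).map rY = volume := by
  have h1 : MeasurePreserving (Prod.map (id : unitInterval → unitInterval) unitInterval.symm)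
      ((volume : Measure unitInterval).prod volume) ((volume : Measure unitInterval).prod volume) :=
    (MeasurePreserving.id _).prod unitInterval.measurePreserving_symm
  exact h1.map_eq

theorem rL_map : (PP Unit).map rL = PP Unit := by
  have h1 : muE.map (fun (e : ℕ → Y01) j => rY (e j)) = muE := by
    unfold muE
    rw [Measure.infinitePi_map_pi (μ := fun _ : ℕ => (volume : Measure Y01))
      (f := fun _ => rY) (fun _ => measurable_rY)]
    simp only [rY_map]
  have h2 : Measurable (fun (e : ℕ → Y01) j => rY (e j)) :=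
    measurable_pi_iff.2 fun j => measurable_rY.comp (measurable_pi_apply j)
  have h3 : (PP Unit).map rL = Measure.infinitePi
      (fun _ : Unit => muE.map (fun (e : ℕ → Y01) j => rY (e j))) :=
    Measure.infinitePi_map_pi (μ := fun _ : Unit => muE)
      (f := fun _ (e : ℕ → Y01) j => rY (e j)) (fun _ => h2)
  rw [h3]
  simp only [h1]
  rfl

theorem cN_refl (φ : Unit → ℝ → (Unit → ℝ) → unitInterval → ℝ) (A : Finset (Unit × ℕ))
    (ω : Lab Unit) (n : ℕ) : ∀ i, cN φ A (rL ω) n i =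
      cN (fun v s h ξ => φ v s h (unitInterval.symm ξ)) A ω n i := by
  induction n with
  | zero => intro i; rfl
  | succ n ih =>
    intro i
    show φ i.1 _ _ _ = φ i.1 _ _ _
    congr 1
    funext v
    exact Finset.sum_congr rfl fun k _ => ih k

theorem st_refl (φ : Unit → ℝ → (Unit → ℝ) → unitInterval → ℝ) (A : Finset (Unit × ℕ))
    (ω : Lab Unit) (T : ℝ) : st φ A (rL ω) T =
      st (fun v s h ξ => φ v s h (unitInterval.symm ξ)) A ω T := by
  funext v
  unfold st
  exact Finset.sum_congr rfl fun k _ => cN_refl φ A ω _ k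

theorem artanh_neg' {x : ℝ} (h : |x| < 1) : Real.artanh (-x) = -Real.artanh x := by
  have h' := abs_lt.1 h
  have e : Real.tanh (-Real.artanh x) = -x := by
    rw [Real.tanh_neg, Real.tanh_artanh ⟨h'.1, h'.2⟩]
  rw [← e, Real.artanh_tanh]

theorem ph_refl (v : Unit) (s : ℝ) (k : Unit → ℝ) (ξ : unitInterval) :
    -(ph v s k ξ) = ph v s (fun w => -k w) (unitInterval.symm ξ) := by
  rw [show ph v s k ξ = _ from phiI_eq _ _ _ _ _ _ _,
    show ph v s (fun w => -k w) (unitInterval.symm ξ) = _ from phiI_eq _ _ _ _ _ _ _]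
  obtain rfl : v = () := rfl
  rw [mean1, mean1, Real.tanh_neg]
  have hm : |Real.tanh (k ())| ≤ 1 := (Real.abs_tanh_lt_one _).le
  have hg : |gam s * Real.tanh (k ())| ≤ 1 / 2 := by
    rw [abs_mul, abs_of_nonneg (gam_nonneg s)]
    calc gam s * |Real.tanh (k ())| ≤ 1 / 2 * 1 :=
          mul_le_mul (gam_le s) hm (abs_nonneg _) (by norm_num)
      _ = 1 / 2 := by norm_num
  have e : aU (gam s) (-Real.tanh (k ())) (unitInterval.symm ξ : unitInterval) =
      -aU (gam s) (Real.tanh (k ())) ξ := by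
    unfold aU
    rw [show gam s * -Real.tanh (k ()) = -(gam s * Real.tanh (k ())) by ring,
      unitInterval.coe_symm_eq, Qf_symm hg ξ.2]
    ring
  rw [e, artanh_neg']
  have := aU_abs_le (gam_nonneg s) (gam_le s) hm ξ
  have := gam_le s
  linarith

theorem mT_refl (T : ℝ) (ω : Lab Unit) : mT T (rL ω) = -mT T ω := by
  rw [mT_eq, mT_eq, ← Real.tanh_neg]
  congr 1
  unfold hh
  rw [st_refl]
  exact (st_map (negAddMonoidHom : ℝ →+ ℝ) ph
    (fun v s h ξ => ph v s h (unitInterval.symm ξ)) (fun v s k ξ => ph_refl v s k ξ)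
    _ ω T ()).symm

end Nu

open Nu

instance nu_prob (T : ℝ) : IsProbabilityMeasure (nu T) := by
  rw [nu_eq]
  exact Measure.isProbabilityMeasure_map (measurable_mT T).aemeasurable

theorem nu_symm (T : ℝ) : (nu T).map (fun x => -x) = nu T := by
  rw [nu_eq, Measure.map_map (by fun_prop) (measurable_mT T)]
  have e : (fun x : ℝ => -x) ∘ mT T = mT T ∘ rL := by
    funext ω
    exact (mT_refl T ω).symm
  rw [e, ← Measure.map_map (measurable_mT T) measurable_rL, rL_map]

theorem nu_supp (T : ℝ) (n : ℕ) (hT : T ≤ n) : ∀ᵐ t ∂nu T, |t| ≤ tbd n := by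
  refine ae_nu T _ (measurableSet_le (by fun_prop) measurable_const) fun ω => ?_
  rw [mT_eq]
  exact tanh_hh_le le_rfl one_pos _ T n hT ω ()

theorem nu_var_mono {T T' : ℝ} (h0 : 0 ≤ T) (h : T ≤ T') :
    ∫ t, t ^ 2 ∂nu T ≤ ∫ t, t ^ 2 ∂nu T' := by
  rw [integral_nu T (fun t => t ^ 2) (by fun_prop), integral_nu T' (fun t => t ^ 2) (by fun_prop)]
  have h1 := P3 (G := (⊥ : SimpleGraph Unit)) (θ := 0) le_rfl one_pos L1 () T T' h0 h
  have h2 : 0 ≤ ∫ ω, (mm (⊥ : SimpleGraph Unit) 0 L1 T' ω () -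
      mm (⊥ : SimpleGraph Unit) 0 L1 T ω ()) ^ 2 ∂PP Unit :=
    integral_nonneg fun ω => sq_nonneg _
  rw [h1] at h2
  show ∫ ω, (mm (⊥ : SimpleGraph Unit) 0 L1 T ω ()) ^ 2 ∂PP Unit ≤
    ∫ ω, (mm (⊥ : SimpleGraph Unit) 0 L1 T' ω ()) ^ 2 ∂PP Unit
  linarith


/-! ### small times -/

theorem nu_small (T : ℝ) (_ : 0 ≤ T) (h1 : T ≤ 1 / 4) : ∀ᵐ t ∂nu T, |t| ≤ √T := by
  classical
  refine ae_nu T _ (measurableSet_le (by fun_prop) measurable_const) fun ω => ?_
  rw [mT_eq]
  have hh1 : hh (⊥ : SimpleGraph Unit) 0 L1 T ω = st ph (L1 ×ˢ Finset.range 1) ω T :=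
    (st_horizon ph L1 ω T 1 (by push_cast; linarith)).symm
  rw [hh1]
  have hst := Pr.st_eq ph (L1 ×ˢ Finset.range 1) ω T ()
  rw [hst]
  have hA : (L1 ×ˢ Finset.range 1 : Finset (Unit × ℕ)) = {((), 0)} := by
    ext k
    simp [Prod.ext_iff]
  by_cases hb : act ω ((), 0) ∧ tm ω ((), 0) < T
  · have hbef : (Pr.bef (L1 ×ˢ Finset.range 1) ω T).filter (fun k => k.1 = ()) = {((), 0)} := by
      ext k
      rw [Finset.mem_filter, Pr.mem_bef, hA, Finset.mem_singleton]
      constructor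
      · rintro ⟨⟨h, _⟩, _⟩; exact h
      · rintro rfl; exact ⟨⟨rfl, hb.1, hb.2⟩, rfl⟩
    rw [hbef, Finset.sum_singleton]
    unfold Pr.upd
    rw [show Real.tanh (ph ((), 0).1 (tm ω ((), 0)) _ _) = _ from tanh_phiI le_rfl one_pos _ _ _ _ _]
    refine (aU_abs_le (gam_nonneg _) (gam_le _) ?_ _).trans ?_
    · exact abs_mean_le (adm_tanh le_rfl one_pos _ _) _
    · exact (min_le_left _ _).trans (Real.sqrt_le_sqrt hb.2.le)
  · have hbef : (Pr.bef (L1 ×ˢ Finset.range 1) ω T).filter (fun k => k.1 = ()) = ∅ := by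
      ext k
      rw [Finset.mem_filter, Pr.mem_bef, hA, Finset.mem_singleton]
      constructor
      · rintro ⟨⟨rfl, h2, h3⟩, _⟩; exact absurd ⟨h2, h3⟩ hb
      · intro h; simp at h
    rw [hbef, Finset.sum_empty, Real.tanh_zero, abs_zero]
    exact Real.sqrt_nonneg _


/-! ### the generator of the one-site process -/

namespace Nu

theorem tanh_add' (x y : ℝ) : Real.tanh (x + y) = op (Real.tanh x) (Real.tanh y) := by
  have hcx := (Real.cosh_pos x).ne'
  have hcy := (Real.cosh_pos y).ne'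
  have hcxy := (Real.cosh_pos (x + y)).ne'
  unfold op
  rw [Real.tanh_eq_sinh_div_cosh, Real.tanh_eq_sinh_div_cosh, Real.tanh_eq_sinh_div_cosh]
  have e1 : Real.sinh x / Real.cosh x + Real.sinh y / Real.cosh y =
      Real.sinh (x + y) / (Real.cosh x * Real.cosh y) := by
    rw [Real.sinh_add]; field_simp
  have e2 : 1 + Real.sinh x / Real.cosh x * (Real.sinh y / Real.cosh y) =
      Real.cosh (x + y) / (Real.cosh x * Real.cosh y) := by
    rw [Real.cosh_add]; field_simp
  rw [e1, e2, div_div_div_cancel_right₀ (mul_ne_zero hcx hcy)]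

theorem measurable_tanh' : Measurable Real.tanh := by
  have : Real.tanh = fun x => Real.sinh x / Real.cosh x := by
    funext x; exact Real.tanh_eq_sinh_div_cosh x
  rw [this]
  exact Real.measurable_sinh.div Real.measurable_cosh

theorem gm_le {g m : ℝ} (hg : 0 ≤ g) (hg' : g ≤ 1 / 2) (hm : |m| ≤ 1) : |g * m| ≤ 1 / 2 := by
  rw [abs_mul, abs_of_nonneg hg]
  calc g * |m| ≤ 1 / 2 * 1 := mul_le_mul hg' hm (abs_nonneg _) (by norm_num)
    _ = 1 / 2 := by norm_num

theorem LL_simp (F : ℝ → ℝ) (s : ℝ) (h : Unit → ℝ) :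
    LL ph (fun k : Unit → ℝ => F (Real.tanh (k ()))) () s h =
      ∫ ξ : unitInterval, (F (Real.tanh (h () + ph () s h ξ)) - F (Real.tanh (h ()))) := by
  unfold LL
  simp only [Pi.add_apply, Pi.single_eq_same]

/-- one update -/
theorem LL_eq (F : ℝ → ℝ) (hF : Measurable F) (hb : ∃ C, ∀ x, |F x| ≤ C) (s : ℝ) (h : Unit → ℝ) :
    LL ph (fun k : Unit → ℝ => F (Real.tanh (k ()))) () s h =
      (∫ z : unitInterval, F (op (Real.tanh (h ())) (gam s * (2 * (z : ℝ) - 1))) *
        (1 + gam s * Real.tanh (h ()) * (2 * (z : ℝ) - 1))) - F (Real.tanh (h ())) := by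
  obtain ⟨C, hC⟩ := hb
  set m := Real.tanh (h ()) with hm
  have hm1 : |m| ≤ 1 := (Real.abs_tanh_lt_one _).le
  have ha := gm_le (gam_nonneg s) (gam_le s) hm1
  have e1 : ∀ ξ : unitInterval, F (Real.tanh (h () + ph () s h ξ)) =
      (fun y => F (op m (gam s * y))) (2 * Qf (gam s * m) ξ - 1) := by
    intro ξ
    rw [tanh_add', show Real.tanh (ph () s h ξ) = _ from tanh_phiI le_rfl one_pos _ _ _ _ _, mean1]
    rfl
  have hF' : Measurable (fun y => F (op m (gam s * y))) := by
    refine hF.comp ?_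
    unfold op
    fun_prop
  have e2 := Qf_chg ha (fun y => F (op m (gam s * y))) hF' ⟨C, fun x => hC _⟩
  rw [LL_simp]
  simp only [e1]
  rw [integral_sub]
  · rw [integral_const, probReal_univ, one_smul, ← e2]
  · refine Integrable.of_bound ?_ C (Eventually.of_forall fun ξ => hC _)
    refine (hF'.comp ?_).aestronglyMeasurable
    have : Measurable (fun ξ : unitInterval => Qf (gam s * m) ξ) :=
      measurable_Qf.comp (measurable_const.prodMk measurable_subtype_coe)
    exact (measurable_const.mul this).sub measurable_const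
  · exact integrable_const _

theorem int_sq : ∫ z : unitInterval, (2 * (z : ℝ) - 1) ^ 2 = 1 / 3 := by
  have e3 : ∫ z : unitInterval, (2 * (z : ℝ) - 1) ^ 2 = ∫ z in Set.Icc (0 : ℝ) 1, (2 * z - 1) ^ 2 :=
    integral_subtype_comap measurableSet_Icc (fun z : ℝ => (2 * z - 1) ^ 2)
  rw [e3, integral_Icc_eq_integral_Ioc, ← intervalIntegral.integral_of_le (by norm_num)]
  have : ∀ x ∈ Set.uIcc (0 : ℝ) 1, HasDerivAt (fun x : ℝ => (2 * x - 1) ^ 3 / 6) ((2 * x - 1) ^ 2) x := by
    intro x _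
    have h1 : HasDerivAt (fun x : ℝ => 2 * x - 1) 2 x := by
      simpa using ((hasDerivAt_id x).const_mul 2).sub_const 1
    have h2 : HasDerivAt (fun x : ℝ => (2 * x - 1) ^ 3 / 6)
        ((3 : ℕ) * (2 * x - 1) ^ (3 - 1) * 2 / 6) x := (h1.pow 3).div_const 6
    refine h2.congr_deriv ?_
    push_cast
    ring
  rw [intervalIntegral.integral_eq_sub_of_hasDerivAt this
    (Continuous.intervalIntegrable (by fun_prop) _ _)]
  norm_num

end Nu

theorem nu_var (T : ℝ) (h0 : 0 ≤ T) (h1 : T ≤ 1 / 4) : ∫ t, t ^ 2 ∂nu T = T ^ 2 / 12 := by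
  classical
  -- truncate the square
  set F : ℝ → ℝ := fun x => (max (-1) (min x 1)) ^ 2 with hF
  have hFm : Measurable F := by
    simp only [hF]; fun_prop
  have hFb : ∃ C, ∀ x, |F x| ≤ C := by
    refine ⟨1, fun x => ?_⟩
    simp only [hF]
    rw [abs_of_nonneg (sq_nonneg _), sq_le_one_iff_abs_le_one, abs_le]
    exact ⟨le_max_left _ _, max_le (by norm_num) (min_le_right _ _)⟩
  have hFe : ∀ x : ℝ, |x| ≤ 1 → F x = x ^ 2 := by
    intro x hx
    have := abs_le.1 hx
    simp only [hF]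
    rw [min_eq_left this.2, max_eq_right this.1]
  rw [integral_nu T (fun t => t ^ 2) (by fun_prop)]
  have e0 : ∀ ω : Lab Unit, (mT T ω) ^ 2 =
      F (Real.tanh (st ph (L1 ×ˢ Finset.range 1) ω T ())) := by
    intro ω
    rw [mT_eq, hFe _ (Real.abs_tanh_lt_one _).le]
    have hh1 : hh (⊥ : SimpleGraph Unit) 0 L1 T ω = st ph (L1 ×ˢ Finset.range 1) ω T :=
      (st_horizon ph L1 ω T 1 (by push_cast; linarith)).symm
    rw [hh1]
  simp only [e0]
  have hA : (L1 ×ˢ Finset.range 1 : Finset (Unit × ℕ)) = {((), 0)} := by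
    ext k
    simp [Prod.ext_iff]
  have hmeas : Measurable (fun h : Unit → ℝ => F (Real.tanh (h ()))) :=
    hFm.comp (measurable_tanh'.comp (measurable_pi_apply ()))
  have hgen := generator ph (fun v => measurable_phiI _ _ _ v) (L1 ×ˢ Finset.range 1)
    (fun h : Unit → ℝ => F (Real.tanh (h ()))) hmeas
    (by obtain ⟨C, hC⟩ := hFb; exact ⟨C, fun x => hC _⟩) T h0
  have hE : ∀ (inst : DecidableEq (Unit × ℕ)),
      @Finset.erase _ inst ({((), 0)} : Finset (Unit × ℕ)) ((), 0) = ∅ := by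
    intro inst; ext k; simp
  rw [hgen, hA, Finset.sum_singleton, hE]
  have e1 : ∀ s (ω : Lab Unit), LL ph (fun h : Unit → ℝ => F (Real.tanh (h ()))) () s
      (st ph (∅ : Finset (Unit × ℕ)) ω s) = (gam s) ^ 2 / 3 := by
    intro s ω
    have hst : st ph (∅ : Finset (Unit × ℕ)) ω s = 0 := by
      apply Pr.st_zero
      ext k
      rw [Pr.mem_bef]
      simp
    rw [hst]
    refine (LL_eq F hFm hFb s 0).trans ?_
    have e2 : ∀ z : unitInterval, F (op (Real.tanh ((0 : Unit → ℝ) ()))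
        (gam s * (2 * (z : ℝ) - 1))) *
        (1 + gam s * Real.tanh ((0 : Unit → ℝ) ()) * (2 * (z : ℝ) - 1)) =
        (gam s) ^ 2 * (2 * (z : ℝ) - 1) ^ 2 := by
      intro z
      have hz := z.2
      have hz1 : |2 * (z : ℝ) - 1| ≤ 1 := abs_le.2 ⟨by linarith [hz.1], by linarith [hz.2]⟩
      have hop : op (Real.tanh ((0 : Unit → ℝ) ())) (gam s * (2 * (z : ℝ) - 1)) =
          gam s * (2 * (z : ℝ) - 1) := by
        unfold op
        simp
      rw [hop, hFe]
      · simp; ring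
      · rw [abs_mul, abs_of_nonneg (gam_nonneg s)]
        calc gam s * |2 * (z : ℝ) - 1| ≤ 1 / 2 * 1 :=
              mul_le_mul (gam_le s) hz1 (abs_nonneg _) (by norm_num)
          _ ≤ 1 := by norm_num
    simp only [e2]
    rw [integral_const_mul, int_sq, hFe _ (by simp)]
    simp
    ring
  simp only [e1]
  rw [hFe _ (by simp)]
  have e3 : Set.Ico (((), 0) : Unit × ℕ).2.cast (((((), 0) : Unit × ℕ).2.cast : ℝ) + 1) ∩ Set.Iio T =
      Set.Ico 0 T := by
    ext x
    simp only [Set.mem_inter_iff, Set.mem_Ico, Set.mem_Iio, Nat.cast_zero, zero_add]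
    constructor
    · rintro ⟨⟨a, _⟩, b⟩; exact ⟨a, b⟩
    · rintro ⟨a, b⟩; exact ⟨⟨a, by linarith⟩, b⟩
  rw [e3]
  have e4 : ∫ s in Set.Ico 0 T, (∫ _ω : Lab Unit, (gam s) ^ 2 / 3 ∂PP Unit) =
      ∫ s in Set.Ico 0 T, s / 3 := by
    refine setIntegral_congr_fun measurableSet_Ico fun s hs => ?_
    simp only [integral_const, probReal_univ, one_smul]
    have h2 : gam s = √s := by
      unfold gam
      rw [min_eq_left]
      rw [show (1 / 2 : ℝ) = √(1 / 4) by
        rw [show (1 / 4 : ℝ) = (1 / 2) ^ 2 by norm_num, Real.sqrt_sq (by norm_num)]]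
      exact Real.sqrt_le_sqrt (by linarith [hs.2])
    rw [h2, Real.sq_sqrt hs.1]
  rw [e4, integral_Ico_eq_integral_Ioc, ← intervalIntegral.integral_of_le h0,
    intervalIntegral.integral_div, integral_id]
  simp
  ring


/-! ### large times -/

namespace Nu

/-- the Hellinger factor of one update -/
noncomputable def kp (g : ℝ) : ℝ := ∫ z : unitInterval, √(1 - (g * (2 * (z : ℝ) - 1)) ^ 2)

/-- the statistic `√(1-m²)` -/
noncomputable def Fr (x : ℝ) : ℝ := √(1 - x ^ 2)

theorem Fr_meas : Measurable Fr := by unfold Fr; fun_prop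

theorem Fr_nonneg (x : ℝ) : 0 ≤ Fr x := Real.sqrt_nonneg _

theorem Fr_le (x : ℝ) : Fr x ≤ 1 := by
  unfold Fr
  exact Real.sqrt_le_iff.2 ⟨by norm_num, by nlinarith [sq_nonneg x]⟩

theorem Fr_bdd : ∃ C, ∀ x, |Fr x| ≤ C := ⟨1, fun x => by
  rw [abs_of_nonneg (Fr_nonneg x)]; exact Fr_le x⟩

theorem Fr_op {m a : ℝ} (hm : |m| < 1) (ha : |a| ≤ 1 / 2) :
    Fr (op m a) * (1 + a * m) = Fr m * √(1 - a ^ 2) := by
  have hm' := abs_lt.1 hm
  have ha' := abs_le.1 ha
  have hma : |m * a| < 1 := by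
    rw [abs_mul]
    nlinarith [abs_nonneg m, abs_nonneg a]
  have hp : 0 < 1 + m * a := by linarith [(abs_lt.1 hma).1]
  have e1 : 1 - op m a ^ 2 = (1 - m ^ 2) * (1 - a ^ 2) / (1 + m * a) ^ 2 := by
    unfold op
    rw [div_pow, eq_div_iff (pow_ne_zero 2 hp.ne'), sub_mul, div_mul_cancel₀ _ (pow_ne_zero 2 hp.ne')]
    ring
  have hm2 : 0 ≤ 1 - m ^ 2 := by nlinarith
  unfold Fr
  rw [e1, Real.sqrt_div (mul_nonneg hm2 (by nlinarith)), Real.sqrt_sq hp.le,
    Real.sqrt_mul hm2, mul_comm a m, div_mul_cancel₀ _ hp.ne']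

theorem LL_Fr (s : ℝ) (h : Unit → ℝ) :
    LL ph (fun k : Unit → ℝ => Fr (Real.tanh (k ()))) () s h =
      (kp (gam s) - 1) * Fr (Real.tanh (h ())) := by
  rw [LL_eq Fr Fr_meas Fr_bdd]
  have e : ∀ z : unitInterval, Fr (op (Real.tanh (h ())) (gam s * (2 * (z : ℝ) - 1))) *
        (1 + gam s * Real.tanh (h ()) * (2 * (z : ℝ) - 1)) =
      Fr (Real.tanh (h ())) * √(1 - (gam s * (2 * (z : ℝ) - 1)) ^ 2) := by
    intro z
    have hz := z.2
    have hz1 : |2 * (z : ℝ) - 1| ≤ 1 := abs_le.2 ⟨by linarith [hz.1], by linarith [hz.2]⟩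
    rw [← Fr_op (Real.abs_tanh_lt_one _)]
    · ring
    · exact gm_le (gam_nonneg s) (gam_le s) hz1
  simp only [e]
  rw [integral_const_mul]
  unfold kp
  ring

theorem kp_half : kp (1 / 2) ≤ 1 - 1 / 24 := by
  have h1 : ∀ z : unitInterval, √(1 - (1 / 2 * (2 * (z : ℝ) - 1)) ^ 2) ≤
      1 - (1 / 8) * (2 * (z : ℝ) - 1) ^ 2 := by
    intro z
    have hz := z.2
    have hz1 : |2 * (z : ℝ) - 1| ≤ 1 := abs_le.2 ⟨by linarith [hz.1], by linarith [hz.2]⟩
    have hz2 : (2 * (z : ℝ) - 1) ^ 2 ≤ 1 := (sq_le_one_iff_abs_le_one _).2 hz1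
    apply Real.sqrt_le_iff.2
    constructor
    · linarith
    · nlinarith [sq_nonneg (2 * (z : ℝ) - 1), sq_nonneg ((2 * (z : ℝ) - 1) ^ 2)]
  have hi : Integrable (fun z : unitInterval => (1 / 8) * (2 * (z : ℝ) - 1) ^ 2) := by
    refine Integrable.of_bound ?_ 1 (Eventually.of_forall fun z => ?_)
    · exact (by fun_prop : Continuous fun z : unitInterval =>
        (1 / 8) * (2 * (z : ℝ) - 1) ^ 2).aestronglyMeasurable
    · have hz := z.2
      have hz1 : |2 * (z : ℝ) - 1| ≤ 1 := abs_le.2 ⟨by linarith [hz.1], by linarith [hz.2]⟩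
      have hz2 : (2 * (z : ℝ) - 1) ^ 2 ≤ 1 := (sq_le_one_iff_abs_le_one _).2 hz1
      rw [Real.norm_eq_abs, abs_of_nonneg (by positivity)]
      linarith
  unfold kp
  calc ∫ z : unitInterval, √(1 - (1 / 2 * (2 * (z : ℝ) - 1)) ^ 2) ≤
      ∫ z : unitInterval, (1 - (1 / 8) * (2 * (z : ℝ) - 1) ^ 2) := by
        refine integral_mono ?_ ((integrable_const 1).sub hi) h1
        refine Integrable.of_bound ?_ 1 (Eventually.of_forall fun z => ?_)
        · exact (by fun_prop : Continuous fun z : unitInterval =>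
            √(1 - (1 / 2 * (2 * (z : ℝ) - 1)) ^ 2)).aestronglyMeasurable
        · rw [Real.norm_eq_abs, abs_of_nonneg (Real.sqrt_nonneg _)]
          exact Real.sqrt_le_iff.2 ⟨by norm_num,
            by nlinarith [sq_nonneg (1 / 2 * (2 * (z : ℝ) - 1))]⟩
    _ = 1 - 1 / 24 := by
        rw [integral_sub (integrable_const 1) hi, integral_const_mul, int_sq]
        simp
        norm_num

theorem kp_nonneg (g : ℝ) : 0 ≤ kp g := integral_nonneg fun z => Real.sqrt_nonneg _

/-- the Hellinger moment at integer times -/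
noncomputable def en (n : ℕ) : ℝ :=
  ∫ ω, Fr (Real.tanh (st ph (L1 ×ˢ Finset.range n) ω n ())) ∂PP Unit

theorem st_state (n j : ℕ) (hj : j < n) (s : ℝ) (hs : s ∈ Set.Ico (j : ℝ) (j + 1)) (ω : Lab Unit)
    (A' : Finset (Unit × ℕ)) (hA' : ∀ k, k ∈ A' ↔ (k.2 < n ∧ k.2 ≠ j)) :
    st ph A' ω s = st ph (L1 ×ˢ Finset.range j) ω j := by
  refine Pr.st_congr ph ?_ (fun _ _ => rfl)
  ext k
  rw [Pr.mem_bef, Pr.mem_bef, hA']
  simp only [Finset.mem_product, Finset.mem_singleton, Finset.mem_range]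
  have hk0 : (0 : ℝ) ≤ ((ω k.1 k.2).1 : ℝ) := (ω k.1 k.2).1.2.1
  constructor
  · rintro ⟨⟨h1, h2⟩, h3, h4⟩
    unfold tm at h4
    unfold act at h3
    have h5 : (k.2 : ℝ) < j + 1 := by linarith [hs.2]
    have h6 : k.2 < j + 1 := by exact_mod_cast h5
    have h7 : k.2 < j := by omega
    have h8 : (k.2 : ℝ) + 1 ≤ j := by exact_mod_cast h7
    refine ⟨⟨trivial, h7⟩, h3, ?_⟩
    unfold tm
    linarith
  · rintro ⟨⟨_, h2⟩, h3, h4⟩
    refine ⟨⟨by omega, by omega⟩, h3, ?_⟩
    linarith [hs.1]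

theorem en_eq (n : ℕ) : en n = 1 + ∑ j ∈ Finset.range n,
    (1 / 2) * ∫ s in Set.Ico (j : ℝ) (j + 1), (kp (gam s) - 1) * en j := by
  classical
  have hmeas : Measurable (fun h : Unit → ℝ => Fr (Real.tanh (h ()))) :=
    Fr_meas.comp (measurable_tanh'.comp (measurable_pi_apply ()))
  have hgen := generator ph (fun v => measurable_phiI _ _ _ v) (L1 ×ˢ Finset.range n)
    (fun h : Unit → ℝ => Fr (Real.tanh (h ()))) hmeas
    (by obtain ⟨C, hC⟩ := Fr_bdd; exact ⟨C, fun x => hC _⟩) n (Nat.cast_nonneg n)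
  unfold en
  rw [hgen, Finset.sum_product, Finset.sum_singleton]
  congr 1
  · simp [Fr]
  · refine Finset.sum_congr rfl fun j hj => ?_
    rw [Finset.mem_range] at hj
    congr 1
    have hI : Set.Ico ((((), j) : Unit × ℕ).2 : ℝ) ((((), j) : Unit × ℕ).2 + 1) ∩ Set.Iio (n : ℝ) =
        Set.Ico (j : ℝ) (j + 1) := by
      ext x
      simp only [Set.mem_inter_iff, Set.mem_Ico, Set.mem_Iio]
      constructor
      · rintro ⟨h, _⟩; exact h
      · intro h
        refine ⟨h, ?_⟩
        have : (j : ℝ) + 1 ≤ n := by exact_mod_cast hj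
        linarith [h.2]
    rw [hI]
    refine setIntegral_congr_fun measurableSet_Ico fun s hs => ?_
    have e1 : ∀ ω : Lab Unit, LL ph (fun h : Unit → ℝ => Fr (Real.tanh (h ()))) () s
        (st ph (((L1 ×ˢ Finset.range n) : Finset (Unit × ℕ)).erase ((), j)) ω s) =
        (kp (gam s) - 1) * Fr (Real.tanh (st ph (L1 ×ˢ Finset.range j) ω j ())) := by
      intro ω
      rw [LL_Fr, st_state n j hj s hs ω]
      intro k
      rw [Finset.mem_erase, Finset.mem_product, Finset.mem_singleton, Finset.mem_range]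
      constructor
      · rintro ⟨h1, _, h2⟩
        exact ⟨h2, fun h => h1 (Prod.ext rfl h)⟩
      · rintro ⟨h1, h2⟩
        exact ⟨fun h => h2 (by rw [h]), rfl, h1⟩
    calc _ = ∫ ω : Lab Unit, (kp (gam s) - 1) *
          Fr (Real.tanh (st ph (L1 ×ˢ Finset.range j) ω j ())) ∂PP Unit := by
          refine integral_congr_ae (Eventually.of_forall fun ω => ?_)
          simp only []
          rw [← e1 ω]
          congr!
      _ = _ := by rw [integral_const_mul]

theorem en_nonneg (n : ℕ) : 0 ≤ en n := integral_nonneg fun ω => Fr_nonneg _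

theorem en_le_one (n : ℕ) : en n ≤ 1 := by
  unfold en
  calc ∫ ω, Fr (Real.tanh (st ph (L1 ×ˢ Finset.range n) ω n ())) ∂PP Unit ≤
      ∫ _ω : Lab Unit, (1 : ℝ) ∂PP Unit :=
        integral_mono_of_nonneg (Eventually.of_forall fun ω => Fr_nonneg _) (integrable_const 1)
          (Eventually.of_forall fun ω => Fr_le _)
    _ = 1 := by simp

theorem en_succ (n : ℕ) (hn : 1 ≤ n) : en (n + 1) ≤ (47 / 48) * en n := by
  have h1 := en_eq (n + 1)
  have h2 := en_eq n
  rw [Finset.sum_range_succ] at h1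
  have h3 : ∫ s in Set.Ico (n : ℝ) (n + 1), (kp (gam s) - 1) * en n =
      (kp (1 / 2) - 1) * en n := by
    have : ∫ s in Set.Ico (n : ℝ) (n + 1), (kp (gam s) - 1) * en n =
        ∫ _s in Set.Ico (n : ℝ) (n + 1), (kp (1 / 2) - 1) * en n := by
      refine setIntegral_congr_fun measurableSet_Ico fun s hs => ?_
      have hs1 : (1 : ℝ) ≤ s := by
        have : (1 : ℝ) ≤ n := by exact_mod_cast hn
        linarith [hs.1]
      have : gam s = 1 / 2 := by
        unfold gam
        rw [min_eq_right]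
        refine le_trans (by norm_num : (1 / 2 : ℝ) ≤ 1) ?_
        rw [Real.one_le_sqrt]; exact hs1
      simp only [this]
    rw [this, setIntegral_const]
    simp
  rw [h3] at h1
  have h4 : en (n + 1) = en n + (1 / 2) * ((kp (1 / 2) - 1) * en n) := by linarith
  have h5 := kp_half
  have h6 := en_nonneg n
  rw [h4]
  nlinarith

theorem en_tendsto : Tendsto en atTop (𝓝 0) := by
  have h1 : ∀ n, en (n + 1) ≤ (47 / 48) ^ n := by
    intro n
    induction n with
    | zero => simpa using en_le_one 1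
    | succ n ih =>
      calc en (n + 1 + 1) ≤ (47 / 48) * en (n + 1) := en_succ (n + 1) (by omega)
        _ ≤ (47 / 48) * (47 / 48) ^ n := by
            exact mul_le_mul_of_nonneg_left ih (by norm_num)
        _ = (47 / 48) ^ (n + 1) := by ring
  rw [← tendsto_add_atTop_iff_nat 1]
  exact squeeze_zero (fun n => en_nonneg _) h1
    (tendsto_pow_atTop_nhds_zero_of_lt_one (by norm_num) (by norm_num))

theorem var_ge (n : ℕ) : 1 - en n ≤ ∫ t, t ^ 2 ∂nu n := by
  rw [integral_nu n (fun t => t ^ 2) (by fun_prop)]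
  have e0 : ∀ ω : Lab Unit, mT n ω = Real.tanh (st ph (L1 ×ˢ Finset.range n) ω n ()) := by
    intro ω
    rw [mT_eq]
    unfold hh
    rw [Nat.ceil_natCast]
  have hm : Measurable (mT n) := measurable_mT n
  have hi2 : Integrable (fun ω : Lab Unit => (mT n ω) ^ 2) (PP Unit) := by
    refine Integrable.of_bound (hm.pow_const 2).aestronglyMeasurable 1
      (Eventually.of_forall fun ω => ?_)
    rw [Real.norm_eq_abs, abs_of_nonneg (sq_nonneg _), sq_le_one_iff_abs_le_one, mT_eq]
    exact (Real.abs_tanh_lt_one _).le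
  have h1 : ∫ ω, (1 - (mT n ω) ^ 2) ∂PP Unit ≤ en n := by
    unfold en
    simp only [← e0]
    refine integral_mono ((integrable_const 1).sub hi2) ?_ fun ω => ?_
    · refine Integrable.of_bound (Fr_meas.comp hm).aestronglyMeasurable 1
        (Eventually.of_forall fun ω => ?_)
      rw [Real.norm_eq_abs]
      have := Fr_nonneg (mT n ω)
      rw [abs_of_nonneg this]
      exact Fr_le _
    · show 1 - (mT n ω) ^ 2 ≤ Fr (mT n ω)
      unfold Fr
      have h3 : (mT n ω) ^ 2 ≤ 1 := by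
        rw [sq_le_one_iff_abs_le_one, mT_eq]
        exact (Real.abs_tanh_lt_one _).le
      apply Real.le_sqrt_of_sq_le
      nlinarith [sq_nonneg (mT n ω)]
  rw [integral_sub (integrable_const 1) hi2] at h1
  simp at h1
  linarith

theorem var_le (T : ℝ) : ∫ t, t ^ 2 ∂nu T ≤ 1 := by
  rw [integral_nu T (fun t => t ^ 2) (by fun_prop)]
  calc ∫ ω, (mT T ω) ^ 2 ∂PP Unit ≤ ∫ _ω : Lab Unit, (1 : ℝ) ∂PP Unit := by
        refine integral_mono_of_nonneg (Eventually.of_forall fun ω => sq_nonneg _)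
          (integrable_const 1) (Eventually.of_forall fun ω => ?_)
        show (mT T ω) ^ 2 ≤ 1
        rw [sq_le_one_iff_abs_le_one, mT_eq]
        exact (Real.abs_tanh_lt_one _).le
    _ = 1 := by simp

end Nu

open Nu

theorem nu_var_lim : Tendsto (fun T => ∫ t, t ^ 2 ∂nu T) atTop (𝓝 1) := by
  have h1 : Tendsto (fun T : ℝ => 1 - en ⌊T⌋₊) atTop (𝓝 (1 - 0)) :=
    tendsto_const_nhds.sub (en_tendsto.comp tendsto_nat_floor_atTop)
  rw [sub_zero] at h1
  refine tendsto_of_tendsto_of_tendsto_of_le_of_le' h1 tendsto_const_nhds ?_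
    (Eventually.of_forall var_le)
  filter_upwards [eventually_ge_atTop (0 : ℝ)] with T hT
  refine (var_ge ⌊T⌋₊).trans ?_
  exact nu_var_mono (Nat.cast_nonneg _) (Nat.floor_le hT)

end Crest.Agent.T41
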