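import Crest.Agent.T41Link
import Crest.Agent.T41Inf
import Crest.Agent.T41Ext

/-!
S0241, part ONE: one-replica facts in infinite volume (limits of `T41Stat` through `T41Link` and
`mI_approx`).
-/

set_option autoImplicit false

namespace Crest.Agent.T41

open MeasureTheory Filter Topology

universe u

section gen
variable {Ω : Type u} [MeasurableSpace Ω] {P : Measure Ω} [IsProbabilityMeasure P]

theorem oi_ae_of_geom {f : ℕ → Ω → ℝ} (hf : ∀ j, Measurable (f j)) (B : ℝ)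
    (hB : ∀ j ω, |f j ω| ≤ B) {C ρ : ℝ} (hC : 0 ≤ C) (hρ0 : 0 < ρ) (hρ : ρ < 1)
    (h : ∀ j, ∫ ω, (f j ω) ^ 2 ∂P ≤ C * ρ ^ j) :
    ∀ᵐ ω ∂P, Tendsto (fun j => f j ω) atTop (𝓝 0) := by
  have hint : ∀ j, Integrable (fun ω => (f j ω) ^ 2) P := fun j =>
    integrable_bdd ((hf j).pow_const 2) (B ^ 2) fun ω => by
      rw [abs_of_nonneg (sq_nonneg _), ← sq_abs]
      exact pow_le_pow_left₀ (abs_nonneg _) (hB j ω) 2
  have hs : ∑' j, ∫⁻ ω, ENNReal.ofReal ((f j ω) ^ 2) ∂P < ⊤ := by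
    have e : ∀ j, ∫⁻ ω, ENNReal.ofReal ((f j ω) ^ 2) ∂P ≤ ENNReal.ofReal (C * ρ ^ j) := fun j => by
      rw [← ofReal_integral_eq_lintegral_ofReal (hint j) (Eventually.of_forall fun ω => sq_nonneg _)]
      exact ENNReal.ofReal_le_ofReal (h j)
    refine lt_of_le_of_lt (ENNReal.tsum_le_tsum e) ?_
    rw [← ENNReal.ofReal_tsum_of_nonneg (fun j => by positivity)
      ((summable_geometric_of_lt_one hρ0.le hρ).mul_left C)]
    exact ENNReal.ofReal_lt_top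
  rw [← lintegral_tsum (fun j => ((hf j).pow_const 2).ennreal_ofReal.aemeasurable)] at hs
  have hae := ae_lt_top (Measurable.tsum fun j => ((hf j).pow_const 2).ennreal_ofReal) hs.ne
  filter_upwards [hae] with ω hω
  have h1 := ENNReal.tendsto_atTop_zero_of_tsum_ne_top hω.ne
  have h2 : Tendsto (fun j => (f j ω) ^ 2) atTop (𝓝 0) := by
    have := (ENNReal.tendsto_toReal ENNReal.zero_ne_top).comp h1
    simpa [Function.comp_def, ENNReal.toReal_ofReal (sq_nonneg _)] using this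
  have h3 := h2.sqrt
  simp only [Real.sqrt_zero, Real.sqrt_sq_eq_abs] at h3
  exact tendsto_zero_iff_abs_tendsto_zero _ |>.mpr h3

end gen


section tree
variable {V : Type u} {G : SimpleGraph V} [G.LocallyFinite]

theorem oi_thd {d : ℕ} (hd : 3 ≤ d) {θ : ℝ} (h0 : 0 ≤ θ) (h1 : θ ≤ thc d) :
    ((d : ℝ) - 1) * θ ^ 2 ≤ 1 := by
  have := (stat_th hd h0 h1).1
  rwa [Nat.cast_sub (by omega), Nat.cast_one] at this

theorem oi_mm_meas (G : SimpleGraph V) (θ : ℝ) (Λ : Finset V) (T : ℝ) (v : V) :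
    Measurable (fun ω : Lab V => mm G θ Λ T ω v) := infB_mm_meas G θ Λ T v

theorem oi_mI_meas (G : SimpleGraph V) [G.LocallyFinite] (θ T : ℝ) (v : V) :
    Measurable (fun ω : Lab V => mI G θ T ω v) := infE_mI_meas' θ T v

instance oi_PP : IsProbabilityMeasure (PP V) := by
  unfold PP muE; infer_instance

theorem oi_ae (hT : G.IsTree) (d : ℕ) (hd : 3 ≤ d) (hreg : G.IsRegularOfDegree d) (θ : ℝ)
    (h0 : 0 ≤ θ) (h1 : θ < thc d) (T : ℝ) (hT0 : 0 ≤ T) (o : V) :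
    ∀ᵐ ω ∂PP V, ∀ v, Tendsto (fun n => mm G θ (ball G o (n + 1)) T ω v) atTop
      (𝓝 (mI G θ T ω v)) := by
  have := countable_V hT
  rw [ae_all_iff]
  intro v
  have hTn : T ≤ (⌈T⌉₊ : ℝ) := Nat.le_ceil T
  obtain ⟨C, ρ, hC, hρ0, hρ, h⟩ := mI_approx hT d hd hreg θ h0 h1 ⌈T⌉₊
  obtain ⟨bd, hbd0, hbd1, hbd⟩ := mm_mI_bd.{u} d hd ⌈T⌉₊
  have hb := hbd V G hT hreg θ h0 h1.le T hTn
  have key := oi_ae_of_geom (P := PP V)
    (f := fun j ω => mm G θ (ball G o (G.dist o v + j + 1)) T ω v - mI G θ T ω v)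
    (fun j => (oi_mm_meas G θ _ T v).sub (oi_mI_meas G θ T v)) 2
    (fun j ω => by
      have e1 := abs_le.mp ((hb ω).1 o (G.dist o v + j + 1) v)
      have e2 := abs_le.mp ((hb ω).2 v)
      rw [abs_le]; constructor <;> linarith [e1.1, e1.2, e2.1, e2.2]) hC hρ0 hρ
    (fun j => h T hT0 hTn o v j _ (by omega))
  filter_upwards [key] with ω hω
  have h2 : Tendsto (fun j => mm G θ (ball G o (G.dist o v + j + 1)) T ω v) atTop
      (𝓝 (mI G θ T ω v)) := by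
    have := hω.add_const (mI G θ T ω v)
    simpa using this
  have h3 : (fun j => mm G θ (ball G o (G.dist o v + j + 1)) T ω v)
      = fun j => (fun n => mm G θ (ball G o (n + 1)) T ω v) (j + G.dist o v) := by
    funext j; rw [add_comm (G.dist o v) j]
  rw [h3] at h2
  exact (tendsto_add_atTop_iff_nat (G.dist o v)).mp h2

theorem oi_BB_tendsto {θ : ℝ} (h0 : 0 ≤ θ) (h1 : θ < 1) {x y : ℕ → ℝ} {x' y' : ℝ}
    (hx : ∀ n, |x n| ≤ 1) (hy : ∀ n, |y n| ≤ 1) (hx' : |x'| ≤ 1) (hy' : |y'| ≤ 1)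
    (h : Tendsto x atTop (𝓝 x')) (h' : Tendsto y atTop (𝓝 y')) :
    Tendsto (fun n => BB θ (x n) (y n)) atTop (𝓝 (BB θ x' y')) := by
  obtain ⟨C, hC, hl⟩ := BB_lip θ h1
  rw [tendsto_iff_norm_sub_tendsto_zero]
  have e : Tendsto (fun n => C * (|x n - x'| + |y n - y'| + |θ - θ|)) atTop (𝓝 0) := by
    have e1 := (tendsto_iff_norm_sub_tendsto_zero.mp h)
    have e2 := (tendsto_iff_norm_sub_tendsto_zero.mp h')
    simp only [Real.norm_eq_abs] at e1 e2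
    have := ((e1.add e2).add_const 0).const_mul C
    simpa using this
  refine squeeze_zero (fun n => norm_nonneg _) (fun n => ?_) e
  rw [Real.norm_eq_abs]
  exact hl θ θ (x n) (y n) x' y' h0 le_rfl h0 le_rfl (hx n) (hy n) hx' hy'

theorem oi_kap_tendsto {θ : ℝ} (h0 : 0 ≤ θ) (h1 : θ < 1) {x y : ℕ → ℝ} {x' y' : ℝ}
    (hx : ∀ n, |x n| ≤ 1) (hy : ∀ n, |y n| ≤ 1) (hx' : |x'| ≤ 1) (hy' : |y'| ≤ 1)
    (h : Tendsto x atTop (𝓝 x')) (h' : Tendsto y atTop (𝓝 y')) :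
    Tendsto (fun n => kap θ (x n) (y n)) atTop (𝓝 (kap θ x' y')) := by
  obtain ⟨C, hC, hl⟩ := kap_lip θ h1
  rw [tendsto_iff_norm_sub_tendsto_zero]
  have e : Tendsto (fun n => C * (|x n - x'| + |y n - y'| + |θ - θ|)) atTop (𝓝 0) := by
    have e1 := (tendsto_iff_norm_sub_tendsto_zero.mp h)
    have e2 := (tendsto_iff_norm_sub_tendsto_zero.mp h')
    simp only [Real.norm_eq_abs] at e1 e2
    have := ((e1.add e2).add_const 0).const_mul C
    simpa using this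
  refine squeeze_zero (fun n => norm_nonneg _) (fun n => ?_) e
  rw [Real.norm_eq_abs]
  exact hl θ θ (x n) (y n) x' y' h0 le_rfl h0 le_rfl (hx n) (hy n) hx' hy'

theorem oi_Yk_tendsto {θ : ℝ} (h0 : 0 ≤ θ) (h1 : θ < 1) {m : ℕ → V → ℝ} {m' : V → ℝ}
    (hm : ∀ n v, |m n v| ≤ 1) (hm' : ∀ v, |m' v| ≤ 1) (h : ∀ v, Tendsto (fun n => m n v) atTop (𝓝 (m' v)))
    (i : ℕ) (y p : V) :
    Tendsto (fun n => Yk G θ (m n) i y p) atTop (𝓝 (Yk G θ m' i y p)) := by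
  classical
  induction i generalizing y p with
  | zero => simp only [Yk]; exact tendsto_const_nhds
  | succ i ih =>
    simp only [Yk]
    refine tendsto_finsetSum _ fun c _ => ?_
    exact ((oi_kap_tendsto h0 h1 (fun n => hm n c) (fun n => hm n y) (hm' c) (hm' y) (h c) (h y)).pow 2).mul
      (ih c y)


theorem oi_meas {Ω : Type*} [MeasurableSpace Ω] {m : V → Ω → ℝ} (hm : ∀ v, Measurable (m v))
    (θ : ℝ) (i : ℕ) (y p : V) {F : ℝ × ℝ → ℝ} (hF : Continuous F) :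
    Measurable (fun ω => F (BB θ (m y ω) (m p ω), Yk G θ (fun v => m v ω) i y p)) := by
  have h1 : Measurable (fun ω => BB θ (m y ω) (m p ω)) :=
    measurable_BB.comp (measurable_const.prodMk ((hm y).prodMk (hm p)))
  exact hF.measurable.comp (h1.prodMk (Yk_meas hm i y p))

/-- clipping to `[-1,1]` -/
noncomputable def oiClip (x : ℝ) : ℝ := max (-1) (min x 1)

theorem oiClip_cont : Continuous oiClip := by unfold oiClip; fun_prop

theorem oiClip_mem (x : ℝ) : oiClip x ∈ Set.Icc (-1 : ℝ) 1 :=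
  ⟨le_max_left _ _, max_le (by norm_num) (min_le_right _ _)⟩

theorem oiClip_eq {x : ℝ} (h : |x| ≤ 1) : oiClip x = x := by
  have := abs_le.mp h
  unfold oiClip
  rw [min_eq_left this.2, max_eq_right this.1]

theorem oi_TL (T : ℝ) : TL (nu T) (tbd ⌈T⌉₊) :=
  ⟨nu_prob T, nu_symm T, nu_supp T _ (Nat.le_ceil T), tbd_nonneg _, tbd_lt_one _⟩

theorem oi_kap {θ : ℝ} (h0 : 0 ≤ θ) (h1 : θ < 1) {m : V → ℝ} (hm : ∀ v, |m v| ≤ 1) :
    (∀ v w, 0 ≤ kap θ (m v) (m w)) ∧ ∀ v w, kap θ (m v) (m w) ≤ θ :=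
  ⟨fun v w => kap_nonneg h0 h1 (hm v) (hm w), fun v w => kap_le h0 h1 (hm v) (hm w)⟩

/-- convergence of the branch data -/
theorem one_lim (hT : G.IsTree) (d : ℕ)
    (hd : 3 ≤ d) (hreg : G.IsRegularOfDegree d) (θ : ℝ) (h0 : 0 ≤ θ) (h1 : θ < thc d) (T : ℝ)
    (hT0 : 0 ≤ T) (y p : V) (hyp : G.Adj y p) (i : ℕ) (F : ℝ × ℝ → ℝ) (hF : Continuous F) :
    Tendsto (fun n => ∫ x, F (x.1, x.2 i) ∂rho d θ (nu T) n) atTop
      (𝓝 (∫ ω, F (BB θ (mI G θ T ω y) (mI G θ T ω p), Yk G θ (mI G θ T ω) i y p) ∂PP V)) := by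
  have hθ1 : θ < 1 := h1.trans (thc_lt_one hd)
  have hth := oi_thd hd h0 h1.le
  obtain ⟨C, hC⟩ := (isCompact_Icc.prod isCompact_Icc : IsCompact (Set.Icc (-1:ℝ) 1 ×ˢ Set.Icc (-1:ℝ) 1)).exists_bound_of_continuousOn
    hF.continuousOn
  have hCF : ∀ a b : ℝ, |a| ≤ 1 → |b| ≤ 1 → |F (a, b)| ≤ C := fun a b ha hb => by
    have := hC (a, b) ⟨abs_le.mp ha, abs_le.mp hb⟩
    simpa using this
  have hFm : Measurable (fun x : Dat => F (oiClip x.1, oiClip (x.2 i))) := by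
    have := oiClip_cont.measurable
    exact hF.measurable.comp ((this.comp measurable_fst).prodMk
      (this.comp ((measurable_pi_apply i).comp measurable_snd)))
  have hFb : ∃ C, ∀ x : Dat, |(fun x : Dat => F (oiClip x.1, oiClip (x.2 i))) x| ≤ C :=
    ⟨C, fun x => hCF _ _ (abs_le.mpr (oiClip_mem _)) (abs_le.mpr (oiClip_mem _))⟩
  have hmm : ∀ (Λ : Finset V) (ω : Lab V) (v : V), |mm G θ Λ T ω v| ≤ 1 :=
    fun Λ ω v => infB_mm_le h0 hθ1 Λ T ω v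
  have hmI : ∀ (ω : Lab V) (v : V), |mI G θ T ω v| ≤ 1 := fun ω v => infE_mI_le h0 hθ1 T ω v
  have hYb : ∀ (m : V → ℝ), (∀ v, |m v| ≤ 1) → ∀ j, |Yk G θ m j y p| ≤ 1 := fun m hm j => by
    have hk := oi_kap h0 hθ1 hm
    have := Yk_bd hreg hk.1 hk.2 hth j y p hyp
    rw [abs_of_nonneg this.1]; exact this.2
  have hBb : ∀ (m : V → ℝ), (∀ v, |m v| ≤ 1) → |BB θ (m y) (m p)| ≤ 1 := fun m hm =>
    BB_abs_le h0 hθ1 (hm y) (hm p)
  -- the limit along finite volumes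
  have hlim : Tendsto (fun n => ∫ ω, F (BB θ (mm G θ (ball G p (n + 1)) T ω y)
      (mm G θ (ball G p (n + 1)) T ω p), Yk G θ (mm G θ (ball G p (n + 1)) T ω) i y p) ∂PP V) atTop
      (𝓝 (∫ ω, F (BB θ (mI G θ T ω y) (mI G θ T ω p), Yk G θ (mI G θ T ω) i y p) ∂PP V)) := by
    refine infE_dct C (fun n => ?_) (fun n ω => hCF _ _ (hBb _ (hmm _ ω)) (hYb _ (hmm _ ω) i)) ?_
    · exact oi_meas (m := fun v ω => mm G θ (ball G p (n + 1)) T ω v) (fun v => oi_mm_meas G θ _ T v)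
        θ i y p hF
    · filter_upwards [oi_ae hT d hd hreg θ h0 h1 T hT0 p] with ω hω
      have e1 := oi_BB_tendsto h0 hθ1 (fun n => hmm (ball G p (n + 1)) ω y)
        (fun n => hmm (ball G p (n + 1)) ω p) (hmI ω y) (hmI ω p) (hω y) (hω p)
      have e2 := oi_Yk_tendsto (G := G) h0 hθ1 (fun n v => hmm (ball G p (n + 1)) ω v) (hmI ω) hω i y p
      exact (hF.tendsto _).comp (e1.prodMk_nhds e2)
  refine hlim.congr' ?_
  filter_upwards [eventually_ge_atTop i] with n hn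
  have e1 : ∫ x, F (x.1, x.2 i) ∂rho d θ (nu T) n
      = ∫ x, F (oiClip x.1, oiClip (x.2 i)) ∂rho d θ (nu T) n := by
    refine integral_congr_ae ?_
    filter_upwards [rho_supp hd (oi_TL T) h0 h1.le n] with x hx
    rw [oiClip_eq hx.1.le, oiClip_eq (by rw [abs_of_nonneg (hx.2.2 i).1]; exact (hx.2.2 i).2)]
  rw [e1, ← link_branch hT d hd hreg θ h0 h1.le T y p hyp n _ hFm hFb]
  refine integral_congr_ae (Eventually.of_forall fun ω => ?_)
  simp only [if_pos hn]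
  rw [oiClip_eq (hBb _ (hmm _ ω)), oiClip_eq (hYb _ (hmm _ ω) i)]

theorem one_lim_vertex (hT : G.IsTree) (d : ℕ)
    (hd : 3 ≤ d) (hreg : G.IsRegularOfDegree d) (θ : ℝ) (h0 : 0 ≤ θ) (h1 : θ < thc d) (T : ℝ)
    (hT0 : 0 ≤ T) (v : V) (F : ℝ → ℝ) (hF : Continuous F) :
    Tendsto (fun n => ∫ x, F x.1 ∂attach θ (nu T) (rho d θ (nu T) n) d) atTop
      (𝓝 (∫ ω, F (mI G θ T ω v) ∂PP V)) := by
  have hθ1 : θ < 1 := h1.trans (thc_lt_one hd)
  obtain ⟨C, hC⟩ := (isCompact_Icc : IsCompact (Set.Icc (-1:ℝ) 1)).exists_bound_of_continuousOn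
    hF.continuousOn
  have hCF : ∀ a : ℝ, |a| ≤ 1 → |F a| ≤ C := fun a ha => by
    simpa using hC a (abs_le.mp ha)
  have hFm : Measurable (fun x : ℝ => F (oiClip x)) := hF.measurable.comp oiClip_cont.measurable
  have hFb : ∃ C, ∀ x : ℝ, |(fun x : ℝ => F (oiClip x)) x| ≤ C :=
    ⟨C, fun x => hCF _ (abs_le.mpr (oiClip_mem _))⟩
  have hmm : ∀ (Λ : Finset V) (ω : Lab V) (v : V), |mm G θ Λ T ω v| ≤ 1 :=
    fun Λ ω v => infB_mm_le h0 hθ1 Λ T ω v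
  have hlim : Tendsto (fun n => ∫ ω, F (mm G θ (ball G v (n + 1)) T ω v) ∂PP V) atTop
      (𝓝 (∫ ω, F (mI G θ T ω v) ∂PP V)) := by
    refine infE_dct C (fun n => ?_) (fun n ω => hCF _ (hmm _ ω v)) ?_
    · exact hF.measurable.comp (oi_mm_meas G θ _ T v)
    · filter_upwards [oi_ae hT d hd hreg θ h0 h1 T hT0 v] with ω hω
      exact (hF.tendsto _).comp (hω v)
  refine hlim.congr fun n => ?_
  have hg := attach_good (oi_TL T).good (oi_TL T).bd1 (stat_good1 hd (oi_TL T) h0 h1.le n) h0 hθ1 d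
  have e1 : ∫ x, F x.1 ∂attach θ (nu T) (rho d θ (nu T) n) d
      = ∫ x, F (oiClip x.1) ∂attach θ (nu T) (rho d θ (nu T) n) d := by
    refine integral_congr_ae ?_
    filter_upwards [hg.bdd] with x hx
    rw [oiClip_eq (hx.trans (abd_prop h0 hθ1 (oi_TL T).bd0 (oi_TL T).bd1 d).2.le)]
  rw [e1, ← link_vertex hT d hd hreg θ h0 h1.le T v n _ hFm hFb]
  refine integral_congr_ae (Eventually.of_forall fun ω => ?_)
  show F (mm G θ (ball G v (n + 1)) T ω v) = F (oiClip (mm G θ (ball G v (n + 1)) T ω v))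
  rw [oiClip_eq (hmm _ ω v)]

end tree

theorem oi_alpha {T : ℝ} (hT : 0 < T) : (min T (1 / 4)) ^ 2 / 12 ≤ ∫ t, t ^ 2 ∂nu T := by
  have h0 : 0 ≤ min T (1 / 4) := le_min hT.le (by norm_num)
  rw [← nu_var (min T (1 / 4)) h0 (min_le_right _ _)]
  exact nu_var_mono h0 (min_le_left _ _)

theorem one_Y (d : ℕ) (hd : 3 ≤ d) : ∃ c c' : ℝ, 0 < c ∧ c < 1 ∧ 0 < c' ∧
    ∀ (V : Type u) (G : SimpleGraph V) [G.LocallyFinite] (_ : G.IsTree)
      (_ : G.IsRegularOfDegree d) (θ T : ℝ), 0 ≤ θ → θ < thc d → 0 < T →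
      1 - ((d : ℝ) - 1) * θ ^ 2 ≤ c' * min T (1 / 4) → ∀ (k : ℕ) (y p : V), G.Adj y p →
      ∫ ω, Yk G θ (mI G θ T ω) k y p ∂PP V ≤ (1 - c * min T (1 / 4)) ^ (k - 1) := by
  obtain ⟨c, c', hc, hc1, hc', h⟩ := S4 d hd
  refine ⟨c, c', hc, hc1, hc', ?_⟩
  intro V G _ hT hreg θ T h0 h1 hT0 he k y p hyp
  have hm : 0 < min T (1 / 4) := lt_min hT0 (by norm_num)
  have hev := h (nu T) (tbd ⌈T⌉₊) θ (min T (1 / 4)) (oi_TL T) hm (min_le_right _ _) (oi_alpha hT0)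
    h0 h1.le he k
  exact le_of_tendsto (one_lim hT d hd hreg θ h0 h1 T hT0.le y p hyp k (fun z => z.2) continuous_snd) hev

theorem one_bad (d : ℕ) (hd : 3 ≤ d) : ∃ A c' κ : ℝ, 0 < A ∧ 0 < c' ∧ 0 < κ ∧ κ < 1 ∧
    ∀ (V : Type u) (G : SimpleGraph V) [G.LocallyFinite] (_ : G.IsTree)
      (_ : G.IsRegularOfDegree d) (θ T : ℝ), 0 ≤ θ → θ < thc d → 0 < T →
      1 - ((d : ℝ) - 1) * θ ^ 2 ≤ c' * min T (1 / 4) → ∀ (n₀ : ℕ), A / min T (1 / 4) ≤ n₀ →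
      ∀ (y p : V), G.Adj y p →
      (PP V {ω | 1 / 4 < Yk G θ (mI G θ T ω) (2 * n₀) y p}).toReal ≤ κ ^ (2 ^ n₀) := by
  obtain ⟨A, c', hA, hc', h⟩ := S5 d hd
  have hκ1 : Real.exp (-(Real.log 2 / 4)) * (9 / 8) < 1 := by
    have h4 : (Real.exp (-(Real.log 2 / 4)) * (9 / 8)) ^ 4 < 1 := by
      rw [mul_pow, ← Real.exp_nat_mul]
      have : ((4 : ℕ) : ℝ) * -(Real.log 2 / 4) = -Real.log 2 := by push_cast; ring
      rw [this, Real.exp_neg, Real.exp_log (by norm_num)]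
      norm_num
    by_contra hcon
    push Not at hcon
    have := one_le_pow₀ hcon (n := 4)
    linarith
  refine ⟨A, c', Real.exp (-(Real.log 2 / 4)) * (9 / 8), hA, hc', by positivity, hκ1, ?_⟩
  intro V G _ hT hreg θ T h0 h1 hT0 he n₀ hn₀ y p hyp
  have hθ1 : θ < 1 := h1.trans (thc_lt_one hd)
  have hm : 0 < min T (1 / 4) := lt_min hT0 (by norm_num)
  have hev := h (nu T) (tbd ⌈T⌉₊) θ (min T (1 / 4)) (oi_TL T) hm (min_le_right _ _) (oi_alpha hT0)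
    h0 h1.le he n₀ hn₀
  have hlog : 0 < Real.log 2 := Real.log_pos (by norm_num)
  have hd3 : (3 : ℝ) ≤ d := by exact_mod_cast hd
  set s := Real.log 2 * ((d : ℝ) - 1) ^ n₀ with hs
  have hs0 : 0 ≤ s := by
    have : (0:ℝ) ≤ (d : ℝ) - 1 := by linarith
    positivity
  have hexp : ∫ ω, Real.exp (s * Yk G θ (mI G θ T ω) (2 * n₀) y p) ∂PP V ≤ (9 / 8) ^ ((d - 1) ^ n₀) :=
    le_of_tendsto (one_lim hT d hd hreg θ h0 h1 T hT0.le y p hyp (2 * n₀)
      (fun z => Real.exp (s * z.2)) (by fun_prop)) hev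
  have hmeas : Measurable (fun ω : Lab V => Yk G θ (mI G θ T ω) (2 * n₀) y p) :=
    Yk_meas (m := fun v ω => mI G θ T ω v) (fun v => oi_mI_meas G θ T v) (2 * n₀) y p
  have hb : ∀ ω : Lab V, 0 ≤ Yk G θ (mI G θ T ω) (2 * n₀) y p ∧ Yk G θ (mI G θ T ω) (2 * n₀) y p ≤ 1 := by
    intro ω
    have hk := oi_kap h0 hθ1 (m := mI G θ T ω) (fun v => infE_mI_le h0 hθ1 T ω v)
    exact Yk_bd hreg hk.1 hk.2 (oi_thd hd h0 h1.le) (2 * n₀) y p hyp
  have hint : Integrable (fun ω => Real.exp (s * Yk G θ (mI G θ T ω) (2 * n₀) y p)) (PP V) := by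
    refine integrable_bdd ((hmeas.const_mul s).exp) (Real.exp s) fun ω => ?_
    rw [abs_of_pos (Real.exp_pos _)]
    refine Real.exp_le_exp.mpr ?_
    nlinarith [(hb ω).1, (hb ω).2]
  -- Markov
  have hmk := mul_meas_ge_le_integral_of_nonneg (μ := PP V)
    (f := fun ω => Real.exp (s * Yk G θ (mI G θ T ω) (2 * n₀) y p))
    (Eventually.of_forall fun ω => (Real.exp_pos _).le) hint (Real.exp (s / 4))
  have hsub : (PP V {ω | 1 / 4 < Yk G θ (mI G θ T ω) (2 * n₀) y p}).toReal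
      ≤ (PP V).real {ω | Real.exp (s / 4) ≤ Real.exp (s * Yk G θ (mI G θ T ω) (2 * n₀) y p)} := by
    refine ENNReal.toReal_mono (measure_ne_top _ _) (measure_mono fun ω hω => ?_)
    refine Real.exp_le_exp.mpr ?_
    have : 1 / 4 < Yk G θ (mI G θ T ω) (2 * n₀) y p := hω
    nlinarith
  have hN : 2 ^ n₀ ≤ (d - 1) ^ n₀ := Nat.pow_le_pow_left (by omega) n₀
  have e1 : Real.exp (s / 4) * (PP V {ω | 1 / 4 < Yk G θ (mI G θ T ω) (2 * n₀) y p}).toReal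
      ≤ (9 / 8) ^ ((d - 1) ^ n₀) :=
    ((mul_le_mul_of_nonneg_left hsub (Real.exp_pos _).le).trans hmk).trans hexp
  have e2 : Real.exp (s / 4) = (Real.exp (Real.log 2 / 4)) ^ ((d - 1) ^ n₀) := by
    rw [← Real.exp_nat_mul]
    congr 1
    rw [hs]
    push_cast [Nat.cast_sub (by omega : 1 ≤ d)]
    ring
  have e3 : (PP V {ω | 1 / 4 < Yk G θ (mI G θ T ω) (2 * n₀) y p}).toReal
      ≤ (Real.exp (-(Real.log 2 / 4)) * (9 / 8)) ^ ((d - 1) ^ n₀) := by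
    rw [mul_pow, Real.exp_neg, inv_pow, ← e2, inv_mul_eq_div, le_div_iff₀ (Real.exp_pos _), mul_comm]
    exact e1
  exact e3.trans (pow_le_pow_of_le_one (by positivity) hκ1.le hN)

theorem one_q (d : ℕ) (hd : 3 ≤ d) : ∃ C : ℝ, 0 ≤ C ∧
    ∀ (V : Type u) (G : SimpleGraph V) [G.LocallyFinite] (_ : G.IsTree)
      (_ : G.IsRegularOfDegree d) (θ T : ℝ), 0 ≤ θ → θ < thc d → 0 ≤ T → T ≤ 1 / 4 →
      ∀ v : V, ∫ ω, (mI G θ T ω v) ^ 2 ∂PP V ≤ C * T := by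
  obtain ⟨C, hC, h⟩ := S2 d hd
  refine ⟨C, hC, ?_⟩
  intro V G _ hT hreg θ T h0 h1 hT0 hT1 v
  exact le_of_tendsto' (one_lim_vertex hT d hd hreg θ h0 h1 T hT0 v (fun x => x ^ 2) (by fun_prop))
    fun n => (h (nu T) (tbd ⌈T⌉₊) θ T (oi_TL T) hT0 hT1 (nu_var T hT0 hT1).le h0 h1.le n).2

theorem one_mom (d : ℕ) (hd : 3 ≤ d) (p : ℕ) (hp : 1 ≤ p) : ∃ C : ℝ, 0 ≤ C ∧
    ∀ (V : Type u) (G : SimpleGraph V) [G.LocallyFinite] (_ : G.IsTree)
      (_ : G.IsRegularOfDegree d) (θ T : ℝ), 0 ≤ θ → θ < thc d → 0 ≤ T → T ≤ 1 / 4 →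
      ∀ y z : V, G.Adj y z →
      ∫ ω, (BB θ (mI G θ T ω y) (mI G θ T ω z)) ^ (2 * p) ∂PP V ≤ C * T ^ p := by
  obtain ⟨C, hC, h⟩ := S3 d hd p hp
  refine ⟨C, hC, ?_⟩
  intro V G _ hT hreg θ T h0 h1 hT0 hT1 y z hyz
  exact le_of_tendsto' (one_lim hT d hd hreg θ h0 h1 T hT0 y z hyz 0 (fun x => x.1 ^ (2 * p)) (by fun_prop))
    fun n => h (nu T) (tbd ⌈T⌉₊) θ T (oi_TL T) hT0 hT1 (nu_var T hT0 hT1).le (nu_small T hT0 hT1)
      h0 h1.le n

section tree2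
variable {V : Type u} {G : SimpleGraph V} [G.LocallyFinite]

theorem one_low (hT : G.IsTree) (d : ℕ)
    (hd : 3 ≤ d) (hreg : G.IsRegularOfDegree d) (θ : ℝ) (h0 : 0 ≤ θ) (h1 : θ < thc d) (T : ℝ)
    (hT0 : 0 ≤ T) (v : V) : ∫ t, t ^ 2 ∂nu T ≤ ∫ ω, (mI G θ T ω v) ^ 2 ∂PP V :=
  ge_of_tendsto' (one_lim_vertex hT d hd hreg θ h0 h1 T hT0 v (fun x => x ^ 2) (by fun_prop))
    fun n => S2' d hd (nu T) (tbd ⌈T⌉₊) θ (oi_TL T) h0 h1.le n

/-- `f_c(b) = - log g_c(b)` -/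
noncomputable def oiphi (c b : ℝ) : ℝ := Real.log (1 - c ^ 2 * b ^ 2) - Real.log (1 - b ^ 2)

theorem oiphi_hasDeriv {c b : ℝ} (hc0 : 0 ≤ c) (hc : c < 1) (hb : b ∈ Set.Ioo (-1 : ℝ) 1) :
    HasDerivAt (oiphi c) (2 * (1 - c ^ 2) * (b / ((1 - b ^ 2) * (1 - c ^ 2 * b ^ 2)))) b := by
  have h1 : 0 < 1 - b ^ 2 := by nlinarith [hb.1, hb.2]
  have h2 : 0 < 1 - c ^ 2 * b ^ 2 := by nlinarith [sq_nonneg b, sq_nonneg c]
  have e1 : HasDerivAt (fun b : ℝ => 1 - b ^ 2) (-(2 * b)) b := by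
    have := ((hasDerivAt_id b).pow 2).const_sub 1
    simpa using this
  have e2 : HasDerivAt (fun b : ℝ => 1 - c ^ 2 * b ^ 2) (-(c ^ 2 * (2 * b))) b := by
    have := (((hasDerivAt_id b).pow 2).const_mul (c ^ 2)).const_sub 1
    simpa using this
  have := (e2.log h2.ne').sub (e1.log h1.ne')
  refine this.congr_deriv ?_
  field_simp
  ring

theorem oiphi_convex {c : ℝ} (hc0 : 0 ≤ c) (hc : c < 1) : ConvexOn ℝ (Set.Ioo (-1) 1) (oiphi c) := by
  have hd : ∀ b ∈ Set.Ioo (-1 : ℝ) 1, HasDerivAt (oiphi c) _ b := fun b hb => oiphi_hasDeriv hc0 hc hb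
  refine MonotoneOn.convexOn_of_deriv (convex_Ioo _ _)
    (fun b hb => (hd b hb).continuousAt.continuousWithinAt) ?_ ?_
  · rw [interior_Ioo]
    exact fun b hb => (hd b hb).differentiableAt.differentiableWithinAt
  · rw [interior_Ioo]
    intro x hx y hy hxy
    rw [(hd x hx).deriv, (hd y hy).deriv]
    have hc2 : 0 < 1 - c ^ 2 := by nlinarith
    have hx1 : 0 < 1 - x ^ 2 := by nlinarith [hx.1, hx.2]
    have hy1 : 0 < 1 - y ^ 2 := by nlinarith [hy.1, hy.2]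
    have hx2 : 0 < 1 - c ^ 2 * x ^ 2 := by nlinarith [sq_nonneg x, sq_nonneg c]
    have hy2 : 0 < 1 - c ^ 2 * y ^ 2 := by nlinarith [sq_nonneg y, sq_nonneg c]
    refine mul_le_mul_of_nonneg_left ?_ (by positivity)
    rw [div_le_div_iff₀ (by positivity) (by positivity)]
    have e : y * ((1 - x ^ 2) * (1 - c ^ 2 * x ^ 2)) - x * ((1 - y ^ 2) * (1 - c ^ 2 * y ^ 2))
        = (y - x) * (1 + x * y + c ^ 2 * (x * y) * (1 - x ^ 2 - x * y - y ^ 2)) := by ring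
    have hB : 0 ≤ 1 + x * y + c ^ 2 * (x * y) * (1 - x ^ 2 - x * y - y ^ 2) := by
      have hc2' : c ^ 2 ≤ 1 := by nlinarith
      rcases le_total 0 (x * y) with hxy0 | hxy0
      · have hxy1 : x * y ≤ 1 := by nlinarith [hx.1, hx.2, hy.1, hy.2]
        have h3 : -2 ≤ 1 - x ^ 2 - x * y - y ^ 2 := by nlinarith
        have h4 : 0 ≤ c ^ 2 * (x * y) := mul_nonneg (sq_nonneg _) hxy0
        have h5 : c ^ 2 * (x * y) ≤ x * y := by nlinarith
        nlinarith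
      · have hw : -1 ≤ x * y := by
          nlinarith [hx.1, hx.2, hy.1, hy.2, mul_pos (by linarith [hx.1] : 0 < 1 + x) (by linarith [hy.1] : 0 < 1 + y), mul_pos (by linarith [hx.2] : 0 < 1 - x) (by linarith [hy.2] : 0 < 1 - y)]
        have h3 : 1 - x ^ 2 - x * y - y ^ 2 ≤ 1 + x * y := by nlinarith [sq_nonneg (x + y)]
        have h4 : 0 ≤ c ^ 2 * (-(x * y)) := mul_nonneg (sq_nonneg _) (by linarith)
        have h5 : c ^ 2 * (-(x * y)) ≤ 1 := by nlinarith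
        have h6 : c ^ 2 * (-(x * y)) * (1 - x ^ 2 - x * y - y ^ 2) ≤ c ^ 2 * (-(x * y)) * (1 + x * y) :=
          mul_le_mul_of_nonneg_left h3 h4
        have h7 : c ^ 2 * (-(x * y)) * (1 + x * y) ≤ 1 * (1 + x * y) :=
          mul_le_mul_of_nonneg_right h5 (by linarith)
        nlinarith
    nlinarith [mul_nonneg (sub_nonneg.mpr hxy) hB]


theorem oi_ell_eq {d : ℕ} (hd : 3 ≤ d) {θ x y : ℝ} (h0 : 0 < θ) (h1 : θ < 1) (hx : |x| < 1)
    (hy : |y| < 1) :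
    ell d θ x y = -Real.log (√((d : ℝ) - 1) * θ) + oiphi θ (BB θ x y) := by
  have hb := BB_abs_lt h0.le h1 hx hy
  have hb2 : BB θ x y ^ 2 < 1 := by
    have := abs_lt.mp hb; nlinarith [this.1, this.2]
  have e1 : 0 < 1 - BB θ x y ^ 2 := by linarith
  have e2 : 0 < 1 - θ ^ 2 * BB θ x y ^ 2 := by nlinarith [sq_nonneg (BB θ x y), sq_nonneg θ]
  have hg : 0 < gg θ (BB θ x y) := div_pos e1 e2
  have hs := bba_sqrt_pos hd
  unfold ell kap
  rw [← mul_assoc, Real.log_mul (by positivity) hg.ne']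
  unfold oiphi gg
  rw [Real.log_div e1.ne' e2.ne']
  ring

theorem oiphi_diff {c θ b : ℝ} (hc0 : 0 ≤ c) (hc : c < 1) (h0 : 0 ≤ θ) (hθ : θ ≤ c) (hb : |b| < 1) :
    |oiphi θ b - oiphi c b| ≤ 2 * |θ - c| / (1 - c ^ 2) := by
  have hb2 : b ^ 2 < 1 := by
    have := abs_lt.mp hb; nlinarith [this.1, this.2]
  have hm : 0 < 1 - c ^ 2 := by nlinarith
  have a1 : 1 - c ^ 2 ≤ 1 - θ ^ 2 * b ^ 2 := by
    nlinarith [sq_nonneg b, sq_nonneg θ, pow_le_pow_left₀ h0 hθ 2]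
  have a2 : 1 - c ^ 2 ≤ 1 - c ^ 2 * b ^ 2 := by nlinarith [sq_nonneg b, sq_nonneg c]
  have e : oiphi θ b - oiphi c b = Real.log (1 - θ ^ 2 * b ^ 2) - Real.log (1 - c ^ 2 * b ^ 2) := by
    unfold oiphi; ring
  rw [e]
  refine (bba_log_lip hm a1 a2).trans ?_
  refine div_le_div_of_nonneg_right ?_ hm.le
  have e2 : 1 - θ ^ 2 * b ^ 2 - (1 - c ^ 2 * b ^ 2) = (c + θ) * b ^ 2 * (c - θ) := by ring
  rw [e2, abs_mul, abs_sub_comm θ c, abs_of_nonneg (by positivity : 0 ≤ (c + θ) * b ^ 2)]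
  refine mul_le_mul_of_nonneg_right ?_ (abs_nonneg _)
  have h3 : (0:ℝ) ≤ c + θ := by linarith
  nlinarith [sq_nonneg b]

/-- clipping to `[-a,a]` -/
noncomputable def oiC (a x : ℝ) : ℝ := max (-a) (min x a)

theorem oiC_cont (a : ℝ) : Continuous (oiC a) := by unfold oiC; fun_prop

theorem oiC_mem {a : ℝ} (ha : 0 ≤ a) (x : ℝ) : |oiC a x| ≤ a :=
  abs_le.mpr ⟨le_max_left _ _, max_le (by linarith) (min_le_right _ _)⟩

theorem oiC_eq {a x : ℝ} (h : |x| ≤ a) : oiC a x = x := by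
  have := abs_le.mp h
  unfold oiC
  rw [min_eq_left this.2, max_eq_right this.1]

theorem oiphi_clip_cont {c a : ℝ} (hc0 : 0 ≤ c) (hc : c < 1) (ha0 : 0 ≤ a) (ha : a < 1) :
    Continuous (fun x => oiphi c (oiC a x)) := by
  have h : ∀ x, oiC a x ^ 2 < 1 := fun x => by
    have := abs_le.mp (oiC_mem ha0 x); nlinarith [this.1, this.2]
  have h1 : ∀ x, 1 - oiC a x ^ 2 ≠ 0 := fun x => by have := h x; linarith
  have h2 : ∀ x, 1 - c ^ 2 * oiC a x ^ 2 ≠ 0 := fun x => by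
    have := h x
    have h3 : 0 < 1 - c ^ 2 * oiC a x ^ 2 := by nlinarith [sq_nonneg (oiC a x), sq_nonneg c]
    exact h3.ne'
  have hcc := oiC_cont a
  unfold oiphi
  exact ((continuous_const.sub (continuous_const.mul (hcc.pow 2))).log h2).sub
    ((continuous_const.sub (hcc.pow 2)).log h1)

/-- convergence of `E ell` -/
theorem one_ell (hT : G.IsTree) (d : ℕ)
    (hd : 3 ≤ d) (hreg : G.IsRegularOfDegree d) (θ : ℕ → ℝ) (h0 : ∀ n, 0 < θ n)
    (h1 : ∀ n, θ n < thc d) (hlim : Tendsto θ atTop (𝓝 (thc d))) (T : ℝ)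
    (hT0 : 0 ≤ T) (y p : V) (hyp : G.Adj y p) :
    CauchySeq (fun n => ∫ ω, ell d (θ n) (mI G (θ n) T ω y) (mI G (θ n) T ω p) ∂PP V) := by
  have hc0 := thc_pos hd
  have hc1 := thc_lt_one hd
  set c := thc d with hc
  -- uniform bound on the cavity fields
  obtain ⟨bd, hbd0, hbd1, hbd⟩ := mm_mI_bd.{u} d hd ⌈T⌉₊
  obtain ⟨b1, hb1, hB1⟩ := BB_bd c bd hc1 hbd1
  obtain ⟨b2, hb2, hB2⟩ := rho_bd d hd (tbd ⌈T⌉₊) (tbd_lt_one _)
  set a := max (max b1 b2) 0 with ha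
  have ha0 : 0 ≤ a := le_max_right _ _
  have ha1 : a < 1 := max_lt (max_lt hb1 hb2) one_pos
  have hmI : ∀ (θ : ℝ), 0 ≤ θ → θ < c → ∀ (ω : Lab V) (v : V), |mI G θ T ω v| ≤ bd :=
    fun θ h0 h1 ω v => (hbd V G hT hreg θ h0 h1.le T (Nat.le_ceil T) ω).2 v
  have hBa : ∀ (θ : ℝ), 0 ≤ θ → θ < c → ∀ (ω : Lab V), |BB θ (mI G θ T ω y) (mI G θ T ω p)| ≤ a :=
    fun θ h0 h1 ω => (hB1 θ _ _ h0 h1.le (hmI θ h0 h1 ω y) (hmI θ h0 h1 ω p)).trans
      ((le_max_left _ _).trans (le_max_left _ _))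
  set Φ : ℝ → ℝ := fun x => oiphi c (oiC a x) with hΦ
  have hΦc : Continuous Φ := oiphi_clip_cont hc0.le hc1 ha0 ha1
  obtain ⟨C, hC⟩ := (isCompact_Icc : IsCompact (Set.Icc (-a) a)).exists_bound_of_continuousOn
    hΦc.continuousOn
  have hΦb : ∀ x, |Φ x| ≤ C := fun x => by
    have h3 := hC (oiC a x) (abs_le.mp (oiC_mem ha0 x))
    have h4 : Φ (oiC a x) = Φ x := by
      show oiphi c (oiC a (oiC a x)) = oiphi c (oiC a x)
      rw [oiC_eq (oiC_mem ha0 x)]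
    rw [h4] at h3
    simpa using h3
  set U : ℝ → ℝ := fun θ => ∫ ω, Φ (BB θ (mI G θ T ω y) (mI G θ T ω p)) ∂PP V with hU
  -- U is monotone
  have hUmono : MonotoneOn U (Set.Ioo 0 c) := by
    intro s hs t ht hst
    have l1 := one_lim hT d hd hreg s hs.1.le hs.2 T hT0 y p hyp 0 (fun z => Φ z.1) (hΦc.comp continuous_fst)
    have l2 := one_lim hT d hd hreg t ht.1.le ht.2 T hT0 y p hyp 0 (fun z => Φ z.1) (hΦc.comp continuous_fst)
    refine le_of_tendsto_of_tendsto' l1 l2 fun n => ?_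
    have e : ∀ r, 0 ≤ r → r ≤ c → ∫ x, Φ x.1 ∂rho d r (nu T) n = ∫ x, oiphi c x.1 ∂rho d r (nu T) n := by
      intro r hr0 hr1
      refine integral_congr_ae ?_
      filter_upwards [hB2 (nu T) r (oi_TL T) hr0 hr1 n] with x hx
      show oiphi c (oiC a x.1) = _
      rw [oiC_eq (hx.trans ((le_max_right _ _).trans (le_max_left _ _)))]
    show ∫ x, Φ x.1 ∂rho d s (nu T) n ≤ ∫ x, Φ x.1 ∂rho d t (nu T) n
    rw [e s hs.1.le hs.2.le, e t ht.1.le ht.2.le]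
    exact S6 hd (oi_TL T) hs.1.le hst ht.2.le (oiphi c) (oiphi_convex hc0.le hc1) le_rfl
  have hUb : BddAbove (U '' Set.Ioo 0 c) := by
    refine ⟨C, ?_⟩
    rintro _ ⟨s, hs, rfl⟩
    have hq := norm_integral_le_of_norm_le_const (μ := PP V)
      (f := fun ω => Φ (BB s (mI G s T ω y) (mI G s T ω p))) (C := C)
      (Eventually.of_forall fun ω => by rw [Real.norm_eq_abs]; exact hΦb _)
    simp only [probReal_univ, mul_one] at hq
    exact (le_abs_self _).trans hq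
  have hUlim : Tendsto U (𝓝[<] c) (𝓝 (sSup (U '' Set.Ioo 0 c))) :=
    hUmono.tendsto_nhdsWithin_Ioo_left ⟨c / 2, by constructor <;> linarith⟩ hUb
  have hUn : Tendsto (fun n => U (θ n)) atTop (𝓝 (sSup (U '' Set.Ioo 0 c))) :=
    hUlim.comp (tendsto_nhdsWithin_iff.mpr ⟨hlim, Eventually.of_forall h1⟩)
  -- the difference tends to 0
  set ε : ℕ → ℝ := fun n => |Real.log (√((d : ℝ) - 1) * θ n)| + 2 * |θ n - c| / (1 - c ^ 2) with hε
  have hεlim : Tendsto ε atTop (𝓝 0) := by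
    have e1 : Tendsto (fun n => Real.log (√((d : ℝ) - 1) * θ n)) atTop (𝓝 (Real.log 1)) := by
      refine Tendsto.log ?_ one_ne_zero
      have := hlim.const_mul (√((d : ℝ) - 1))
      rwa [hc, bba_sqrt_thc hd] at this
    rw [Real.log_one] at e1
    have e2 : Tendsto (fun n => 2 * |θ n - c| / (1 - c ^ 2)) atTop (𝓝 0) := by
      have h5 := (tendsto_iff_norm_sub_tendsto_zero.mp hlim)
      simp only [Real.norm_eq_abs] at h5
      have := (h5.const_mul 2).div_const (1 - c ^ 2)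
      simpa using this
    have := e1.abs.add e2
    simpa using this
  have hdiff : ∀ n, |(∫ ω, ell d (θ n) (mI G (θ n) T ω y) (mI G (θ n) T ω p) ∂PP V) - U (θ n)| ≤ ε n := by
    intro n
    have hm1 : Measurable (fun ω : Lab V => mI G (θ n) T ω y) := oi_mI_meas G (θ n) T y
    have hm2 : Measurable (fun ω : Lab V => mI G (θ n) T ω p) := oi_mI_meas G (θ n) T p
    have hpt : ∀ ω : Lab V, |ell d (θ n) (mI G (θ n) T ω y) (mI G (θ n) T ω p)
        - Φ (BB (θ n) (mI G (θ n) T ω y) (mI G (θ n) T ω p))| ≤ ε n := by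
      intro ω
      have b1 := hmI (θ n) (h0 n).le (h1 n) ω y
      have b2 := hmI (θ n) (h0 n).le (h1 n) ω p
      have b3 := hBa (θ n) (h0 n).le (h1 n) ω
      rw [oi_ell_eq hd (h0 n) ((h1 n).trans hc1) (b1.trans_lt hbd1) (b2.trans_lt hbd1)]
      show |_ + _ - oiphi c (oiC a _)| ≤ _
      rw [oiC_eq b3]
      have e := oiphi_diff (c := c) (θ := θ n) hc0.le hc1 (h0 n).le (h1 n).le (b3.trans_lt ha1)
      rw [show ∀ A B D : ℝ, -A + B - D = -A + (B - D) by intros; ring]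
      refine (abs_add_le _ _).trans ?_
      rw [abs_neg]
      exact add_le_add le_rfl e
    have i2 : Integrable (fun ω : Lab V => Φ (BB (θ n) (mI G (θ n) T ω y) (mI G (θ n) T ω p))) (PP V) := by
      refine integrable_bdd ?_ C fun ω => hΦb _
      exact hΦc.measurable.comp (measurable_BB.comp (measurable_const.prodMk (hm1.prodMk hm2)))
    have i1 : Integrable (fun ω : Lab V => ell d (θ n) (mI G (θ n) T ω y) (mI G (θ n) T ω p)) (PP V) := by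
      refine integrable_bdd ((measurable_ell d).comp (measurable_const.prodMk (hm1.prodMk hm2))) (ε n + C) fun ω => ?_
      have e3 := hpt ω
      have e4 := hΦb (BB (θ n) (mI G (θ n) T ω y) (mI G (θ n) T ω p))
      have := abs_add_le (ell d (θ n) (mI G (θ n) T ω y) (mI G (θ n) T ω p)
        - Φ (BB (θ n) (mI G (θ n) T ω y) (mI G (θ n) T ω p))) (Φ (BB (θ n) (mI G (θ n) T ω y) (mI G (θ n) T ω p)))
      rw [sub_add_cancel] at this
      linarith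
    rw [hU, ← integral_sub i1 i2]
    have hq := norm_integral_le_of_norm_le_const (μ := PP V)
      (f := fun ω => ell d (θ n) (mI G (θ n) T ω y) (mI G (θ n) T ω p)
        - Φ (BB (θ n) (mI G (θ n) T ω y) (mI G (θ n) T ω p))) (C := ε n)
      (Eventually.of_forall fun ω => by rw [Real.norm_eq_abs]; exact hpt ω)
    simp only [probReal_univ, mul_one] at hq
    exact hq
  have hfin : Tendsto (fun n => ∫ ω, ell d (θ n) (mI G (θ n) T ω y) (mI G (θ n) T ω p) ∂PP V) atTop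
      (𝓝 (sSup (U '' Set.Ioo 0 c))) := by
    have hz : Tendsto (fun n => (∫ ω, ell d (θ n) (mI G (θ n) T ω y) (mI G (θ n) T ω p) ∂PP V) - U (θ n))
        atTop (𝓝 0) := squeeze_zero_norm (fun n => by rw [Real.norm_eq_abs]; exact hdiff n) hεlim
    have := hz.add hUn
    simpa using this
  exact hfin.cauchySeq

end tree2

end Crest.Agent.T41
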