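import Crest.Agent.T41Proc
import Crest.Agent.T41Ising3
import Crest.Agent.T41Chan
import Crest.Agent.T41G2

/-!
S0241, part P1: basic facts on the finite-volume mean field `mm`, two-replica inequality,
martingale identity.
-/

set_option autoImplicit false

namespace Crest.Agent.T41

open MeasureTheory

universe u
variable {V : Type u} {G : SimpleGraph V}

/-! ### real functions -/

private lemma p1_measurable_tanh : Measurable Real.tanh := by
  have : Real.tanh = fun x => Real.sinh x / Real.cosh x := by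
    funext x; exact Real.tanh_eq_sinh_div_cosh x
  rw [this]
  exact Real.measurable_sinh.div Real.measurable_cosh

private lemma p1_measurable_artanh : Measurable Real.artanh := by
  unfold Real.artanh
  exact (((measurable_const.add measurable_id).div
    (measurable_const.sub measurable_id)).sqrt).log

private lemma p1_tanh_mono {x y : ℝ} (h : x ≤ y) : Real.tanh x ≤ Real.tanh y := by
  have hx := abs_lt.mp (Real.abs_tanh_lt_one x)
  have hy := abs_lt.mp (Real.abs_tanh_lt_one y)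
  rw [← Real.artanh_le_artanh_iff ⟨hx.1, hx.2⟩ ⟨hy.1, hy.2⟩, Real.artanh_tanh, Real.artanh_tanh]
  exact h

private lemma p1_tanh_add (x y : ℝ) : Real.tanh (x + y) = op (Real.tanh x) (Real.tanh y) := by
  have hx := Real.cosh_pos x
  have hy := Real.cosh_pos y
  have hxy := Real.cosh_pos (x + y)
  have h : 1 + Real.tanh x * Real.tanh y = Real.cosh (x + y) / (Real.cosh x * Real.cosh y) := by
    rw [Real.tanh_eq_sinh_div_cosh, Real.tanh_eq_sinh_div_cosh, Real.cosh_add]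
    field_simp
  unfold op
  rw [h, Real.tanh_eq_sinh_div_cosh (x + y)]
  rw [Real.tanh_eq_sinh_div_cosh, Real.tanh_eq_sinh_div_cosh, Real.sinh_add]
  field_simp

private lemma p1_abs_tanh_le {x c : ℝ} (h : |x| ≤ c) : |Real.tanh x| ≤ Real.tanh c := by
  obtain ⟨h1, h2⟩ := abs_le.mp h
  refine abs_le.mpr ⟨?_, p1_tanh_mono h2⟩
  rw [← Real.tanh_neg]
  exact p1_tanh_mono h1

theorem gam_nonneg (s : ℝ) : 0 ≤ gam s := le_min (Real.sqrt_nonneg _) (by norm_num)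

theorem gam_le (s : ℝ) : gam s ≤ 1 / 2 := min_le_right _ _

theorem measurable_gam : Measurable gam := by
  unfold gam
  exact Real.continuous_sqrt.measurable.min measurable_const

/-- bound on the tilts for times `≤ n` -/
noncomputable def tbd (n : ℕ) : ℝ := Real.tanh (n * Real.artanh (1 / 2))

theorem tbd_lt_one (n : ℕ) : tbd n < 1 := Real.tanh_lt_one _

theorem tbd_nonneg (n : ℕ) : 0 ≤ tbd n := by
  unfold tbd
  rw [← Real.tanh_zero]
  exact p1_tanh_mono (mul_nonneg (Nat.cast_nonneg n) (Real.artanh_nonneg (by norm_num)))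

theorem adm_tanh {θ : ℝ} (h0 : 0 ≤ θ) (h1 : θ < 1) (Λ : Finset V) (h : V → ℝ) :
    Adm θ Λ (fun w => Real.tanh (h w)) :=
  ⟨h0, h1, fun v _ => Real.abs_tanh_lt_one _⟩

private lemma p1_mean_le {θ : ℝ} (h0 : 0 ≤ θ) (h1 : θ < 1) (Λ : Finset V) (h : V → ℝ) (v : V) :
    |mean G θ Λ (fun w => Real.tanh (h w)) v| ≤ 1 :=
  (mean_abs_lt Λ _ (adm_tanh h0 h1 Λ h) v).le

private lemma p1_gm {g m : ℝ} (hg : 0 ≤ g) (hg' : g ≤ 1 / 2) (hm : |m| ≤ 1) :
    |g * m| ≤ 1 / 2 := by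
  rw [abs_mul, abs_of_nonneg hg]
  calc g * |m| ≤ (1 / 2) * 1 := mul_le_mul hg' hm (abs_nonneg _) (by norm_num)
    _ = 1 / 2 := by norm_num

/-- the tilt of one update -/
noncomputable def aU (g m ξ : ℝ) : ℝ := g * (2 * Qf (g * m) ξ - 1)

theorem aU_abs_le {g m : ℝ} (hg : 0 ≤ g) (hg' : g ≤ 1 / 2) (hm : |m| ≤ 1) (ξ : unitInterval) :
    |aU g m ξ| ≤ g := by
  unfold aU
  have hq := Qf_mem (p1_gm hg hg' hm) ξ.2
  rw [abs_mul, abs_of_nonneg hg]
  have : |2 * Qf (g * m) ξ - 1| ≤ 1 := abs_le.mpr ⟨by linarith [hq.1], by linarith [hq.2]⟩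
  calc g * |2 * Qf (g * m) ξ - 1| ≤ g * 1 := mul_le_mul_of_nonneg_left this hg
    _ = g := mul_one g

theorem phiI_eq (G : SimpleGraph V) (θ : ℝ) (Λ : Finset V) (v : V) (s : ℝ) (h : V → ℝ)
    (ξ : unitInterval) : phiI G θ Λ v s h ξ
      = Real.artanh (aU (gam s) (mean G θ Λ (fun w => Real.tanh (h w)) v) ξ) := rfl

theorem tanh_phiI {θ : ℝ} (h0 : 0 ≤ θ) (h1 : θ < 1) (Λ : Finset V) (v : V) (s : ℝ) (h : V → ℝ)
    (ξ : unitInterval) : Real.tanh (phiI G θ Λ v s h ξ)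
      = aU (gam s) (mean G θ Λ (fun w => Real.tanh (h w)) v) ξ := by
  rw [phiI_eq]
  have h2 := abs_le.mp ((aU_abs_le (gam_nonneg s) (gam_le s)
    (p1_mean_le (G := G) h0 h1 Λ h v) ξ).trans (gam_le s))
  exact Real.tanh_artanh ⟨by linarith [h2.1], by linarith [h2.2]⟩

theorem abs_phiI_le {θ : ℝ} (h0 : 0 ≤ θ) (h1 : θ < 1) (Λ : Finset V) (v : V) (s : ℝ) (h : V → ℝ)
    (ξ : unitInterval) : |phiI G θ Λ v s h ξ| ≤ Real.artanh (1 / 2) := by
  have ht := tanh_phiI (G := G) h0 h1 Λ v s h ξ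
  have h2 := abs_le.mp ((aU_abs_le (gam_nonneg s) (gam_le s)
    (p1_mean_le (G := G) h0 h1 Λ h v) ξ).trans (gam_le s))
  rw [← ht] at h2
  set x := phiI G θ Λ v s h ξ
  have hx := abs_lt.mp (Real.abs_tanh_lt_one x)
  have e1 : x ≤ Real.artanh (1 / 2) := by
    rw [← Real.artanh_tanh x]
    exact Real.artanh_le_artanh (by linarith) (by norm_num) h2.2
  have e2 : -x ≤ Real.artanh (1 / 2) := by
    rw [← Real.artanh_tanh (-x)]
    rw [Real.tanh_neg]
    exact Real.artanh_le_artanh (by linarith) (by norm_num) (by linarith [h2.1])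
  exact abs_le.mpr ⟨by linarith, e1⟩

/-! ### basic facts on `hh` and `mm` -/

theorem hh_notMem (θ : ℝ) (Λ : Finset V) (T : ℝ) (ω : Lab V) (v : V) (hv : v ∉ Λ) :
    hh G θ Λ T ω v = 0 := by
  classical
  unfold hh st
  apply Finset.sum_eq_zero
  intro k hk
  rw [Finset.mem_filter, Finset.mem_product] at hk
  exact absurd (hk.2.1 ▸ hk.1.1) hv

private lemma p1_cN_le {θ : ℝ} (h0 : 0 ≤ θ) (h1 : θ < 1) (Λ : Finset V) (A : Finset (V × ℕ))
    (ω : Lab V) (m : ℕ) (k : V × ℕ) : |cN (phiI G θ Λ) A ω m k| ≤ Real.artanh (1 / 2) := by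
  cases m with
  | zero => simp only [cN, abs_zero]; exact Real.artanh_nonneg (by norm_num)
  | succ m => rw [cN]; exact abs_phiI_le h0 h1 _ _ _ _ _

theorem abs_hh_le {θ : ℝ} (h0 : 0 ≤ θ) (h1 : θ < 1) (Λ : Finset V) (T : ℝ) (n : ℕ) (hT : T ≤ n)
    (ω : Lab V) (v : V) : |hh G θ Λ T ω v| ≤ n * Real.artanh (1 / 2) := by
  classical
  unfold hh st
  refine (Finset.abs_sum_le_sum_abs _ _).trans ?_
  refine (Finset.sum_le_sum fun k _ => p1_cN_le h0 h1 Λ _ ω _ k).trans ?_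
  rw [Finset.sum_const, nsmul_eq_mul]
  apply mul_le_mul_of_nonneg_right _ (Real.artanh_nonneg (by norm_num))
  have hc : ((Λ ×ˢ Finset.range ⌈T⌉₊).filter (fun k : V × ℕ => k.1 = v ∧ act ω k ∧ tm ω k < T)).card
      ≤ n := by
    calc _ ≤ (Finset.range ⌈T⌉₊).card := by
          apply Finset.card_le_card_of_injOn (fun k : V × ℕ => k.2)
          · intro k hk
            simp only [Finset.coe_filter, Finset.mem_product, Set.mem_ofPred_eq] at hk
            exact Finset.mem_coe.mpr hk.1.2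
          · intro k hk l hl hkl
            simp only [Finset.coe_filter, Finset.mem_product, Set.mem_ofPred_eq] at hk hl
            exact Prod.ext (hk.2.1.trans hl.2.1.symm) hkl
      _ = ⌈T⌉₊ := Finset.card_range _
      _ ≤ n := Nat.ceil_le.mpr hT
  exact_mod_cast hc

theorem tanh_hh_le {θ : ℝ} (h0 : 0 ≤ θ) (h1 : θ < 1) (Λ : Finset V) (T : ℝ) (n : ℕ) (hT : T ≤ n)
    (ω : Lab V) (v : V) : |Real.tanh (hh G θ Λ T ω v)| ≤ tbd n :=
  p1_abs_tanh_le (abs_hh_le h0 h1 Λ T n hT ω v)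

theorem adm_hh {θ : ℝ} (h0 : 0 ≤ θ) (h1 : θ < 1) (Λ : Finset V) (T : ℝ) (ω : Lab V) :
    Adm θ Λ (fun w => Real.tanh (hh G θ Λ T ω w)) := adm_tanh h0 h1 Λ _

theorem mm_abs_lt {θ : ℝ} (h0 : 0 ≤ θ) (h1 : θ < 1) (Λ : Finset V) (T : ℝ) (ω : Lab V) (v : V) :
    |mm G θ Λ T ω v| < 1 := mean_abs_lt Λ _ (adm_hh h0 h1 Λ T ω) v

theorem mm_notMem (θ : ℝ) (Λ : Finset V) (T : ℝ) (ω : Lab V) (v : V) (hv : v ∉ Λ) :
    mm G θ Λ T ω v = 0 := by
  classical
  unfold mm mean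
  rw [if_neg hv]

open Classical in
private lemma p1_sp_flip {Λ S : Finset V} {v : V} (hv : v ∈ Λ) :
    sp (Λ \ S) v = - sp S v := by
  unfold sp
  by_cases h : v ∈ S
  · rw [if_neg (by simp [h]), if_pos h]
  · rw [if_pos (by simp [h, hv]), if_neg h, neg_neg]

open Classical in
private lemma p1_wtI_flip (G : SimpleGraph V) (θ : ℝ) {Λ S : Finset V} :
    wtI G θ Λ (fun _ => 0) (Λ \ S) = wtI G θ Λ (fun _ => 0) S := by
  unfold wtI
  simp only [mul_zero, add_zero, Finset.prod_const_one, mul_one]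
  unfold Crest.ProbabilityR.TreeIsing.isingWeight
  congr 1
  apply Finset.prod_congr rfl
  intro e he
  rw [Finset.mem_filter] at he
  have he1 := he.1
  induction e with
  | h a b =>
    rw [Finset.mk_mem_sym2_iff] at he1
    rw [ew_eq, ew_eq]
    by_cases ha : a ∈ S <;> by_cases hb : b ∈ S <;> simp [ha, hb, he1.1, he1.2, spb]

open Classical in
theorem mean_zero_tilt (G : SimpleGraph V) (θ : ℝ) (Λ : Finset V) (v : V) :
    mean G θ Λ (fun _ => 0) v = 0 := by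
  unfold mean
  by_cases hv : v ∈ Λ
  · rw [if_pos hv]
    have h : ∑ S ∈ Λ.powerset, sp S v * wtI G θ Λ (fun _ => 0) S
        = ∑ S ∈ Λ.powerset, -(sp S v * wtI G θ Λ (fun _ => 0) S) := by
      apply Finset.sum_bij' (fun S _ => Λ \ S) (fun S _ => Λ \ S)
      · intro S _; exact Finset.mem_powerset.mpr Finset.sdiff_subset
      · intro S _; exact Finset.mem_powerset.mpr Finset.sdiff_subset
      · intro S hS; exact Finset.sdiff_sdiff_eq_self (Finset.mem_powerset.mp hS)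
      · intro S hS; exact Finset.sdiff_sdiff_eq_self (Finset.mem_powerset.mp hS)
      · intro S hS
        rw [p1_sp_flip hv, p1_wtI_flip]
        ring
    rw [Finset.sum_neg_distrib] at h
    have : ∑ S ∈ Λ.powerset, sp S v * wtI G θ Λ (fun _ => 0) S = 0 := by linarith
    rw [this, zero_div]
  · rw [if_neg hv]

theorem mm_zero {θ : ℝ} (h0 : 0 ≤ θ) (h1 : θ < 1) (Λ : Finset V) (T : ℝ) (hT : T ≤ 0) (ω : Lab V)
    (v : V) : mm G θ Λ T ω v = 0 := by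
  classical
  have : hh G θ Λ T ω = fun _ => 0 := by
    funext w
    unfold hh st
    rw [Nat.ceil_eq_zero.mpr hT]
    simp
  unfold mm
  rw [this]
  simp only [Real.tanh_zero]
  exact mean_zero_tilt G θ Λ v

theorem hh_congr (θ : ℝ) (Λ : Finset V) (T : ℝ) (ω ω' : Lab V) (h : ∀ v ∈ Λ, ω v = ω' v) :
    hh G θ Λ T ω = hh G θ Λ T ω' := by
  unfold hh
  apply st_congr
  intro i hi
  rw [h i.1 (Finset.mem_product.mp hi).1]

theorem mm_congr (θ : ℝ) (Λ : Finset V) (T : ℝ) (ω ω' : Lab V) (h : ∀ v ∈ Λ, ω v = ω' v) :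
    mm G θ Λ T ω = mm G θ Λ T ω' := by
  unfold mm
  rw [hh_congr θ Λ T ω ω' h]

theorem hh_map (g : G ≃g G) (θ : ℝ) (Λ : Finset V) (T : ℝ) (ω : Lab V) (v : V) :
    hh G θ (Λ.map g.toEquiv.toEmbedding) T ω (g v) = hh G θ Λ T (fun w => ω (g w)) v := by
  unfold hh
  refine st_equiv g.toEquiv _ (phiI G θ Λ) ?_ _ _ ?_ ω T v
  · intro v s k ξ
    rw [phiI_eq, phiI_eq]
    have := mean_map g θ Λ (fun w => Real.tanh (k w)) v
    simp only [RelIso.coe_fn_toEquiv] at this ⊢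
    rw [this]
  · intro i
    simp only [Finset.mem_product, Finset.mem_map_equiv, Equiv.symm_apply_apply]

theorem mm_map (g : G ≃g G) (θ : ℝ) (Λ : Finset V) (T : ℝ) (ω : Lab V) (v : V) :
    mm G θ (Λ.map g.toEquiv.toEmbedding) T ω (g v) = mm G θ Λ T (fun w => ω (g w)) v := by
  unfold mm
  rw [mean_map]
  simp only [hh_map]

private lemma p1_measurable_tanhmap :
    Measurable (fun h : V → ℝ => (fun w => Real.tanh (h w))) :=
  measurable_pi_lambda _ fun w => p1_measurable_tanh.comp (measurable_pi_apply w)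

theorem measurable_phiI (G : SimpleGraph V) (θ : ℝ) (Λ : Finset V) (v : V) :
    Measurable (fun p : ℝ × (V → ℝ) × unitInterval => phiI G θ Λ v p.1 p.2.1 p.2.2) := by
  unfold phiI
  apply p1_measurable_artanh.comp
  have hg : Measurable (fun p : ℝ × (V → ℝ) × unitInterval => gam p.1) :=
    measurable_gam.comp measurable_fst
  have hm : Measurable (fun p : ℝ × (V → ℝ) × unitInterval =>
      mean G θ Λ (fun w => Real.tanh (p.2.1 w)) v) :=
    (measurable_pi_apply v).comp ((measurable_mean G θ Λ).comp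
      (p1_measurable_tanhmap.comp (measurable_fst.comp measurable_snd)))
  have hq : Measurable (fun p : ℝ × (V → ℝ) × unitInterval =>
      Qf (gam p.1 * mean G θ Λ (fun w => Real.tanh (p.2.1 w)) v) (p.2.2 : ℝ)) :=
    measurable_Qf.comp ((hg.mul hm).prodMk
      (measurable_subtype_coe.comp (measurable_snd.comp measurable_snd)))
  exact hg.mul ((measurable_const.mul hq).sub measurable_const)

theorem measurable_hh (G : SimpleGraph V) (θ : ℝ) (Λ : Finset V) :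
    Measurable (fun p : Lab V × ℝ => hh G θ Λ p.2 p.1) := by
  classical
  have h1 : Measurable (fun q : ℕ × (Lab V × ℝ) =>
      st (phiI G θ Λ) (Λ ×ˢ Finset.range q.1) q.2.1 q.2.2) :=
    measurable_from_prod_countable_right fun n =>
      measurable_st (phiI G θ Λ) (measurable_phiI G θ Λ) (Λ ×ˢ Finset.range n)
  have h2 : Measurable (fun p : Lab V × ℝ => ((⌈p.2⌉₊, p) : ℕ × (Lab V × ℝ))) :=
    (Nat.measurable_ceil.comp measurable_snd).prodMk measurable_id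
  have h3 : (fun p : Lab V × ℝ => hh G θ Λ p.2 p.1)
      = (fun q : ℕ × (Lab V × ℝ) => st (phiI G θ Λ) (Λ ×ˢ Finset.range q.1) q.2.1 q.2.2) ∘
        (fun p : Lab V × ℝ => ((⌈p.2⌉₊, p) : ℕ × (Lab V × ℝ))) := by
    funext p
    unfold hh
    simp only [Function.comp_apply]
  rw [h3]
  exact h1.comp h2

theorem measurable_mm (G : SimpleGraph V) (θ : ℝ) (Λ : Finset V) :
    Measurable (fun p : Lab V × ℝ => mm G θ Λ p.2 p.1) := by
  unfold mm
  exact (measurable_mean G θ Λ).comp (p1_measurable_tanhmap.comp (measurable_hh G θ Λ))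

theorem measurable_mm_fix (G : SimpleGraph V) (θ : ℝ) (Λ : Finset V) (T : ℝ) (v : V) :
    Measurable (fun ω : Lab V => mm G θ Λ T ω v) := by
  have h : Measurable (fun ω : Lab V => ((ω, T) : Lab V × ℝ)) :=
    measurable_id.prodMk measurable_const
  have h2 := (measurable_mm G θ Λ).comp h
  exact (measurable_pi_apply v).comp h2

/-- relabelling by a bijection preserves the law of the labels -/
theorem PP_map_equiv (g : V ≃ V) : (PP V).map (fun ω : Lab V => fun w => ω (g w)) = PP V := by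
  classical
  unfold PP
  apply Measure.eq_infinitePi
  intro s t ht
  have hm : Measurable (fun ω : Lab V => fun w => ω (g w)) :=
    measurable_pi_lambda _ fun w => measurable_pi_apply (g w)
  rw [Measure.map_apply hm (MeasurableSet.pi s.countable_toSet fun i _ => ht i)]
  have : (fun ω : Lab V => fun w => ω (g w)) ⁻¹' (Set.pi s t)
      = Set.pi (s.map g.toEmbedding : Finset V) (fun w => t (g.symm w)) := by
    ext ω
    simp only [Set.mem_preimage, Set.mem_pi, Finset.mem_coe, Finset.mem_map_equiv]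
    constructor
    · intro h w hw
      have := h (g.symm w) hw
      rwa [Equiv.apply_symm_apply] at this
    · intro h w hw
      have := h (g w) (by rwa [Equiv.symm_apply_apply])
      rwa [Equiv.symm_apply_apply] at this
  rw [this, Measure.infinitePi_pi _ (fun i _ => ht _)]
  rw [Finset.prod_map]
  apply Finset.prod_congr rfl
  intro i _
  have : ∀ j, j = i → muE (t j) = muE (t i) := by rintro j rfl; rfl
  exact this _ (g.symm_apply_apply i)

/-- covariances along the process -/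
noncomputable def cc (G : SimpleGraph V) (θ : ℝ) (Λ : Finset V) (T : ℝ) (ω : Lab V) (v u : V) : ℝ :=
  cov G θ Λ (fun w => Real.tanh (hh G θ Λ T ω w)) v u

/-! ### one update -/

open Classical in
theorem tanh_add_single (h : V → ℝ) (u : V) (x : ℝ) :
    (fun w => Real.tanh ((h + (Pi.single u x : V → ℝ)) w))
      = Function.update (fun w => Real.tanh (h w)) u (op (Real.tanh (h u)) (Real.tanh x)) := by
  funext w
  by_cases hw : w = u
  · subst hw
    simp only [Pi.add_apply, Pi.single_eq_same, Function.update_self, p1_tanh_add]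
  · simp only [Pi.add_apply, Pi.single_eq_of_ne hw, add_zero, Function.update_of_ne hw]

open Classical in
/-- effect of one update on the means -/
theorem mean_step {θ : ℝ} (h0 : 0 ≤ θ) (h1 : θ < 1) (Λ : Finset V) (u : V) (hu : u ∈ Λ) (s : ℝ)
    (h : V → ℝ) (ξ : unitInterval) (v : V) :
    mean G θ Λ (fun w => Real.tanh ((h + (Pi.single u (phiI G θ Λ u s h ξ) : V → ℝ)) w)) v
      = mean G θ Λ (fun w => Real.tanh (h w)) v
        + cov G θ Λ (fun w => Real.tanh (h w)) v u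
          * eta (gam s) (mean G θ Λ (fun w => Real.tanh (h w)) u) ξ := by
  rw [tanh_add_single, tanh_phiI h0 h1]
  have ha := aU_abs_le (gam_nonneg s) (gam_le s) (p1_mean_le (G := G) h0 h1 Λ h u) ξ
  rw [mean_update Λ _ u _ hu (adm_tanh h0 h1 Λ h) (lt_of_le_of_lt (ha.trans (gam_le s))
    (by norm_num)) v]
  rfl


/-- integrated effect of one update -/
private lemma p1_step {g m m' c c' A : ℝ} (hg : 0 ≤ g) (hg' : g ≤ 1 / 2) (hm : |m| ≤ 1)
    (hm' : |m'| ≤ 1) :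
    0 ≤ ∫ ξ : unitInterval, ((A + (c * eta g m ξ - c' * eta g m' ξ)) ^ 2 - A ^ 2) ∧
    ∫ ξ : unitInterval, ((A + (c * eta g m ξ - c' * eta g m' ξ)) ^ 2 - A ^ 2)
      ≤ 32 * (g ^ 2 * ((c - c') ^ 2 + c' ^ 2 * (m - m') ^ 2)) := by
  have hme : ∀ m : ℝ, Measurable (fun ξ : unitInterval => eta g m ξ) := by
    intro m
    have hq : Measurable (fun ξ : unitInterval => Qf (g * m) (ξ : ℝ)) :=
      measurable_Qf.comp (measurable_const.prodMk measurable_subtype_coe)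
    have ha : Measurable (fun ξ : unitInterval => g * (2 * Qf (g * m) (ξ : ℝ) - 1)) :=
      measurable_const.mul ((measurable_const.mul hq).sub measurable_const)
    exact ha.div (measurable_const.add (ha.mul measurable_const))
  have hb : ∀ m : ℝ, |m| ≤ 1 → ∀ ξ : unitInterval, |eta g m ξ| ≤ 2 * g :=
    fun m hm ξ => eta_bound hg hg' hm ξ.2
  have hi : ∀ m : ℝ, |m| ≤ 1 → Integrable (fun ξ : unitInterval => eta g m ξ) := by
    intro m hm
    refine Integrable.of_bound (hme m).aestronglyMeasurable (2 * g) ?_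
    exact Filter.Eventually.of_forall fun ξ => by rw [Real.norm_eq_abs]; exact hb m hm ξ
  set X : unitInterval → ℝ := fun ξ => c * eta g m ξ - c' * eta g m' ξ with hX
  have hXm : Measurable X := ((hme m).const_mul c).sub ((hme m').const_mul c')
  have hXi : Integrable X := ((hi m hm).const_mul c).sub ((hi m' hm').const_mul c')
  have hX0 : ∫ ξ, X ξ = 0 := by
    rw [hX, integral_sub ((hi m hm).const_mul c) ((hi m' hm').const_mul c'),
      integral_const_mul, integral_const_mul, eta_mean hg hg' hm, eta_mean hg hg' hm']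
    ring
  have hXb : ∀ ξ, X ξ ^ 2 ≤ 32 * (g ^ 2 * ((c - c') ^ 2 + c' ^ 2 * (m - m') ^ 2)) := by
    intro ξ
    have e1 := hb m hm ξ
    have e2 := eta_lip (ξ := ξ) hg hg' hm hm' ξ.2
    have e1' : (eta g m ξ) ^ 2 ≤ (2 * g) ^ 2 := by
      rw [← sq_abs (eta g m ξ)]
      exact pow_le_pow_left₀ (abs_nonneg _) e1 2
    have e2' : (eta g m ξ - eta g m' ξ) ^ 2 ≤ (8 * g ^ 2 * |m - m'|) ^ 2 := by
      rw [← sq_abs (eta g m ξ - eta g m' ξ)]
      exact pow_le_pow_left₀ (abs_nonneg _) e2 2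
    have e2'' : (8 * g ^ 2 * |m - m'|) ^ 2 = 64 * g ^ 4 * (m - m') ^ 2 := by
      rw [mul_pow, mul_pow, sq_abs]; ring
    rw [e2''] at e2'
    have e3 : X ξ = (c - c') * eta g m ξ + c' * (eta g m ξ - eta g m' ξ) := by
      rw [hX]; ring
    have e4 : X ξ ^ 2 ≤ 2 * ((c - c') ^ 2 * (eta g m ξ) ^ 2)
        + 2 * (c' ^ 2 * (eta g m ξ - eta g m' ξ) ^ 2) := by
      rw [e3]
      nlinarith [sq_nonneg ((c - c') * eta g m ξ - c' * (eta g m ξ - eta g m' ξ))]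
    have e5 : (c - c') ^ 2 * (eta g m ξ) ^ 2 ≤ (c - c') ^ 2 * (2 * g) ^ 2 :=
      mul_le_mul_of_nonneg_left e1' (sq_nonneg _)
    have e6 : c' ^ 2 * (eta g m ξ - eta g m' ξ) ^ 2 ≤ c' ^ 2 * (64 * g ^ 4 * (m - m') ^ 2) :=
      mul_le_mul_of_nonneg_left e2' (sq_nonneg _)
    have e7 : g ^ 4 ≤ g ^ 2 * (1 / 4) := by
      have : g ^ 2 ≤ 1 / 4 := by nlinarith
      calc g ^ 4 = g ^ 2 * g ^ 2 := by ring
        _ ≤ g ^ 2 * (1 / 4) := mul_le_mul_of_nonneg_left this (sq_nonneg _)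
    have e8 : c' ^ 2 * (64 * g ^ 4 * (m - m') ^ 2)
        ≤ c' ^ 2 * (64 * (g ^ 2 * (1 / 4)) * (m - m') ^ 2) := by
      apply mul_le_mul_of_nonneg_left _ (sq_nonneg _)
      apply mul_le_mul_of_nonneg_right _ (sq_nonneg _)
      linarith
    have e9 : 0 ≤ g ^ 2 * (c - c') ^ 2 := by positivity
    nlinarith
  have hX2i : Integrable (fun ξ => X ξ ^ 2) := by
    refine Integrable.of_bound (hXm.pow_const 2).aestronglyMeasurable
      (32 * (g ^ 2 * ((c - c') ^ 2 + c' ^ 2 * (m - m') ^ 2))) ?_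
    exact Filter.Eventually.of_forall fun ξ => by
      rw [Real.norm_eq_abs, abs_of_nonneg (sq_nonneg _)]; exact hXb ξ
  have hmain : ∫ ξ : unitInterval, ((A + (c * eta g m ξ - c' * eta g m' ξ)) ^ 2 - A ^ 2)
      = ∫ ξ, X ξ ^ 2 := by
    have e : ∀ ξ : unitInterval, (A + (c * eta g m ξ - c' * eta g m' ξ)) ^ 2 - A ^ 2
        = 2 * A * X ξ + X ξ ^ 2 := by
      intro ξ; rw [hX]; ring
    simp_rw [e]
    rw [integral_add (hXi.const_mul _) hX2i, integral_const_mul, hX0]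
    ring
  rw [hmain]
  refine ⟨integral_nonneg fun ξ => sq_nonneg _, ?_⟩
  calc ∫ ξ, X ξ ^ 2 ≤ ∫ _ξ : unitInterval, 32 * (g ^ 2 * ((c - c') ^ 2 + c' ^ 2 * (m - m') ^ 2)) :=
        integral_mono hX2i (integrable_const _) hXb
    _ = _ := by rw [integral_const]; simp

/-! ### the pair process -/

open Classical in
/-- two replicas -/
noncomputable def phi2 (G : SimpleGraph V) (θ θ' : ℝ) (Λ Λ' : Finset V) (v : V) (s : ℝ)
    (h : V → ℝ × ℝ) (ξ : unitInterval) : ℝ × ℝ :=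
  (if v ∈ Λ then phiI G θ Λ v s (fun w => (h w).1) ξ else 0,
    phiI G θ' Λ' v s (fun w => (h w).2) ξ)

private lemma p1_measurable_fst : Measurable (fun h : V → ℝ × ℝ => (fun w => (h w).1)) :=
  measurable_pi_lambda _ fun w => measurable_fst.comp (measurable_pi_apply w)

private lemma p1_measurable_snd : Measurable (fun h : V → ℝ × ℝ => (fun w => (h w).2)) :=
  measurable_pi_lambda _ fun w => measurable_snd.comp (measurable_pi_apply w)

theorem measurable_phi2 (G : SimpleGraph V) (θ θ' : ℝ) (Λ Λ' : Finset V) (v : V) :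
    Measurable (fun p : ℝ × (V → ℝ × ℝ) × unitInterval =>
      phi2 G θ θ' Λ Λ' v p.1 p.2.1 p.2.2) := by
  unfold phi2
  have h1 : Measurable (fun p : ℝ × (V → ℝ × ℝ) × unitInterval =>
      phiI G θ Λ v p.1 (fun w => (p.2.1 w).1) p.2.2) :=
    (measurable_phiI G θ Λ v).comp (measurable_fst.prodMk
      ((p1_measurable_fst.comp (measurable_fst.comp measurable_snd)).prodMk
        (measurable_snd.comp measurable_snd)))
  have h2 : Measurable (fun p : ℝ × (V → ℝ × ℝ) × unitInterval =>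
      phiI G θ' Λ' v p.1 (fun w => (p.2.1 w).2) p.2.2) :=
    (measurable_phiI G θ' Λ' v).comp (measurable_fst.prodMk
      ((p1_measurable_snd.comp (measurable_fst.comp measurable_snd)).prodMk
        (measurable_snd.comp measurable_snd)))
  refine Measurable.prodMk ?_ h2
  by_cases hv : v ∈ Λ
  · simp only [hv, if_true]; exact h1
  · simp only [hv, if_false]; exact measurable_const

open Classical in
theorem st_phi2_fst (G : SimpleGraph V) (θ θ' : ℝ) (Λ Λ' : Finset V) (hΛ : Λ ⊆ Λ') (ω : Lab V)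
    (T : ℝ) :
    (fun w => (st (phi2 G θ θ' Λ Λ') (Λ' ×ˢ Finset.range ⌈T⌉₊) ω T w).1) = hh G θ Λ T ω := by
  have e1 : (fun w => (st (phi2 G θ θ' Λ Λ') (Λ' ×ˢ Finset.range ⌈T⌉₊) ω T w).1)
      = st (fun v s h ξ => if v ∈ Λ then phiI G θ Λ v s h ξ else 0)
        (Λ' ×ˢ Finset.range ⌈T⌉₊) ω T := by
    funext w
    exact st_map (AddMonoidHom.fst ℝ ℝ) (phi2 G θ θ' Λ Λ')
      (fun v s h ξ => if v ∈ Λ then phiI G θ Λ v s h ξ else 0)
      (fun v s k ξ => by unfold phi2; simp only [AddMonoidHom.coe_fst]) _ ω T w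
  rw [e1]
  have e2 : hh G θ Λ T ω = st (phiI G θ Λ) (Λ ×ˢ Finset.range ⌈T⌉₊) ω T := rfl
  rw [e2]
  apply st_restrict
  · exact Finset.product_subset_product_left hΛ
  · intro i hi
    have := (Finset.mem_product.mp hi).1
    funext s h ξ
    rw [if_pos this]
  · intro i hi hi' s k ξ
    rw [if_neg]
    intro hc
    exact hi' (Finset.mem_product.mpr ⟨hc, (Finset.mem_product.mp hi).2⟩)

theorem st_phi2_snd (G : SimpleGraph V) (θ θ' : ℝ) (Λ Λ' : Finset V) (ω : Lab V)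
    (T : ℝ) :
    (fun w => (st (phi2 G θ θ' Λ Λ') (Λ' ×ˢ Finset.range ⌈T⌉₊) ω T w).2) = hh G θ' Λ' T ω := by
  have e2 : hh G θ' Λ' T ω = st (phiI G θ' Λ') (Λ' ×ˢ Finset.range ⌈T⌉₊) ω T := rfl
  rw [e2]
  funext w
  exact st_map (AddMonoidHom.snd ℝ ℝ) (phi2 G θ θ' Λ Λ') (phiI G θ' Λ')
    (fun v s k ξ => by unfold phi2; simp only [AddMonoidHom.coe_snd]) _ ω T w

/-- mean of the first replica -/
private noncomputable def m1 (G : SimpleGraph V) (θ : ℝ) (Λ : Finset V) (x : V → ℝ × ℝ) (v : V) : ℝ :=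
  mean G θ Λ (fun w => Real.tanh (x w).1) v

private noncomputable def m2 (G : SimpleGraph V) (θ : ℝ) (Λ : Finset V) (x : V → ℝ × ℝ) (v : V) : ℝ :=
  mean G θ Λ (fun w => Real.tanh (x w).2) v

private noncomputable def c1 (G : SimpleGraph V) (θ : ℝ) (Λ : Finset V) (x : V → ℝ × ℝ) (v u : V) : ℝ :=
  cov G θ Λ (fun w => Real.tanh (x w).1) v u

private noncomputable def c2 (G : SimpleGraph V) (θ : ℝ) (Λ : Finset V) (x : V → ℝ × ℝ) (v u : V) : ℝ :=
  cov G θ Λ (fun w => Real.tanh (x w).2) v u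

private lemma p1_meas_m1 (G : SimpleGraph V) (θ : ℝ) (Λ : Finset V) (v : V) :
    Measurable (fun x : V → ℝ × ℝ => m1 G θ Λ x v) :=
  (measurable_pi_apply v).comp ((measurable_mean G θ Λ).comp
    (p1_measurable_tanhmap.comp p1_measurable_fst))

private lemma p1_meas_m2 (G : SimpleGraph V) (θ : ℝ) (Λ : Finset V) (v : V) :
    Measurable (fun x : V → ℝ × ℝ => m2 G θ Λ x v) :=
  (measurable_pi_apply v).comp ((measurable_mean G θ Λ).comp
    (p1_measurable_tanhmap.comp p1_measurable_snd))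

private lemma p1_meas_c1 (G : SimpleGraph V) (θ : ℝ) (Λ : Finset V) (v u : V) :
    Measurable (fun x : V → ℝ × ℝ => c1 G θ Λ x v u) :=
  (measurable_cov G θ Λ v u).comp (p1_measurable_tanhmap.comp p1_measurable_fst)

private lemma p1_meas_c2 (G : SimpleGraph V) (θ : ℝ) (Λ : Finset V) (v u : V) :
    Measurable (fun x : V → ℝ × ℝ => c2 G θ Λ x v u) :=
  (measurable_cov G θ Λ v u).comp (p1_measurable_tanhmap.comp p1_measurable_snd)

open Classical in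
private lemma p1_fst_add (h : V → ℝ × ℝ) (u : V) (x : ℝ × ℝ) :
    (fun w => ((h + (Pi.single u x : V → ℝ × ℝ)) w).1)
      = (fun w => (h w).1) + (Pi.single u x.1 : V → ℝ) := by
  funext w
  by_cases hw : w = u
  · subst hw; simp
  · simp [Pi.single_eq_of_ne hw]

open Classical in
private lemma p1_snd_add (h : V → ℝ × ℝ) (u : V) (x : ℝ × ℝ) :
    (fun w => ((h + (Pi.single u x : V → ℝ × ℝ)) w).2)
      = (fun w => (h w).2) + (Pi.single u x.2 : V → ℝ) := by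
  funext w
  by_cases hw : w = u
  · subst hw; simp
  · simp [Pi.single_eq_of_ne hw]

open Classical in
private lemma p1_m1_step {θ θ' : ℝ} (h0 : 0 ≤ θ) (h1 : θ < 1) (Λ Λ' : Finset V) (v u : V) (s : ℝ)
    (h : V → ℝ × ℝ) (ξ : unitInterval) :
    m1 G θ Λ (h + Pi.single u (phi2 G θ θ' Λ Λ' u s h ξ)) v
      = m1 G θ Λ h v + c1 G θ Λ h v u * eta (gam s) (m1 G θ Λ h u) ξ := by
  unfold m1 c1
  have e := p1_fst_add h u (phi2 G θ θ' Λ Λ' u s h ξ)
  have e' : (fun w => Real.tanh ((h + (Pi.single u (phi2 G θ θ' Λ Λ' u s h ξ) : V → ℝ × ℝ)) w).1)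
      = fun w => Real.tanh (((fun w => (h w).1)
        + (Pi.single u (phi2 G θ θ' Λ Λ' u s h ξ).1 : V → ℝ)) w) := by
    rw [← e]
  rw [e']
  by_cases hu : u ∈ Λ
  · have e2 : (phi2 G θ θ' Λ Λ' u s h ξ).1 = phiI G θ Λ u s (fun w => (h w).1) ξ := by
      unfold phi2; simp only [hu, if_true]
    rw [e2]
    exact mean_step h0 h1 Λ u hu s (fun w => (h w).1) ξ v
  · have e2 : (phi2 G θ θ' Λ Λ' u s h ξ).1 = 0 := by
      unfold phi2; simp only [hu, if_false]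
    rw [e2, Pi.single_zero, add_zero, cov_notMem G θ Λ _ hu, zero_mul, add_zero]

open Classical in
private lemma p1_m2_step {θ θ' : ℝ} (h0' : 0 ≤ θ') (h1' : θ' < 1) (Λ Λ' : Finset V) (v u : V)
    (hu : u ∈ Λ') (s : ℝ) (h : V → ℝ × ℝ) (ξ : unitInterval) :
    m2 G θ' Λ' (h + Pi.single u (phi2 G θ θ' Λ Λ' u s h ξ)) v
      = m2 G θ' Λ' h v + c2 G θ' Λ' h v u * eta (gam s) (m2 G θ' Λ' h u) ξ := by
  unfold m2 c2
  have e := p1_snd_add h u (phi2 G θ θ' Λ Λ' u s h ξ)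
  have e' : (fun w => Real.tanh ((h + (Pi.single u (phi2 G θ θ' Λ Λ' u s h ξ) : V → ℝ × ℝ)) w).2)
      = fun w => Real.tanh (((fun w => (h w).2)
        + (Pi.single u (phi2 G θ θ' Λ Λ' u s h ξ).2 : V → ℝ)) w) := by
    rw [← e]
  rw [e']
  exact mean_step h0' h1' Λ' u hu s (fun w => (h w).2) ξ v

/-- **(P1)** two replicas with the same labels -/
theorem P1 {θ θ' : ℝ} (h0 : 0 ≤ θ) (h1 : θ < 1) (h0' : 0 ≤ θ') (h1' : θ' < 1) (Λ Λ' : Finset V)
    (hΛ : Λ ⊆ Λ') (v : V) (T₁ T₂ : ℝ) (hT₁ : 0 ≤ T₁) (hT : T₁ ≤ T₂) :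
    ∫ ω, (mm G θ Λ T₁ ω v - mm G θ' Λ' T₁ ω v) ^ 2 ∂PP V
      ≤ ∫ ω, (mm G θ Λ T₂ ω v - mm G θ' Λ' T₂ ω v) ^ 2 ∂PP V ∧
    ∫ ω, (mm G θ Λ T₂ ω v - mm G θ' Λ' T₂ ω v) ^ 2 ∂PP V
      ≤ ∫ ω, (mm G θ Λ T₁ ω v - mm G θ' Λ' T₁ ω v) ^ 2 ∂PP V
        + 32 * ∫ s in T₁..T₂, (gam s) ^ 2 * ∑ u ∈ Λ', ∫ ω,
          ((cc G θ Λ s ω v u - cc G θ' Λ' s ω v u) ^ 2
            + (cc G θ' Λ' s ω v u) ^ 2 * (mm G θ Λ s ω u - mm G θ' Λ' s ω u) ^ 2) ∂PP V := by
  classical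
  have hm1 : ∀ (x : V → ℝ × ℝ) (w : V), |m1 G θ Λ x w| ≤ 1 := fun x w =>
    p1_mean_le h0 h1 Λ (fun w => (x w).1) w
  have hm2 : ∀ (x : V → ℝ × ℝ) (w : V), |m2 G θ' Λ' x w| ≤ 1 := fun x w =>
    p1_mean_le h0' h1' Λ' (fun w => (x w).2) w
  have hc1 : ∀ (x : V → ℝ × ℝ) (w u : V), |c1 G θ Λ x w u| ≤ 2 := fun x w u =>
    cov_abs_le Λ _ (adm_tanh h0 h1 Λ (fun w => (x w).1)) w u
  have hc2 : ∀ (x : V → ℝ × ℝ) (w u : V), |c2 G θ' Λ' x w u| ≤ 2 := fun x w u =>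
    cov_abs_le Λ' _ (adm_tanh h0' h1' Λ' (fun w => (x w).2)) w u
  have hst : ∀ (s : ℝ) (ω : Lab V) (w u : V),
      m1 G θ Λ (st (phi2 G θ θ' Λ Λ') (Λ' ×ˢ Finset.range ⌈s⌉₊) ω s) w = mm G θ Λ s ω w ∧
      m2 G θ' Λ' (st (phi2 G θ θ' Λ Λ') (Λ' ×ˢ Finset.range ⌈s⌉₊) ω s) w = mm G θ' Λ' s ω w ∧
      c1 G θ Λ (st (phi2 G θ θ' Λ Λ') (Λ' ×ˢ Finset.range ⌈s⌉₊) ω s) w u = cc G θ Λ s ω w u ∧
      c2 G θ' Λ' (st (phi2 G θ θ' Λ Λ') (Λ' ×ˢ Finset.range ⌈s⌉₊) ω s) w u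
        = cc G θ' Λ' s ω w u := by
    intro s ω w u
    have e1 := st_phi2_fst G θ θ' Λ Λ' hΛ ω s
    have e2 := st_phi2_snd G θ θ' Λ Λ' ω s
    unfold m1 m2 c1 c2 mm cc
    rw [← e1, ← e2]
    exact ⟨rfl, rfl, rfl, rfl⟩
  have key := generator_le (phi2 G θ θ' Λ Λ') (measurable_phi2 G θ θ' Λ Λ') Λ'
    (fun x => (m1 G θ Λ x v - m2 G θ' Λ' x v) ^ 2)
    (((p1_meas_m1 G θ Λ v).sub (p1_meas_m2 G θ' Λ' v)).pow_const 2)
    ⟨4, fun x => by
      have a1 := abs_le.mp (hm1 x v)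
      have a2 := abs_le.mp (hm2 x v)
      rw [abs_of_nonneg (sq_nonneg _)]
      nlinarith⟩
    (fun u s x => 32 * ((gam s) ^ 2 * ((c1 G θ Λ x v u - c2 G θ' Λ' x v u) ^ 2
      + (c2 G θ' Λ' x v u) ^ 2 * (m1 G θ Λ x u - m2 G θ' Λ' x u) ^ 2)))
    (fun u => by
      have k1 := (p1_meas_c1 G θ Λ v u).comp (measurable_snd : Measurable (Prod.snd : ℝ × (V → ℝ × ℝ) → _))
      have k2 := (p1_meas_c2 G θ' Λ' v u).comp (measurable_snd : Measurable (Prod.snd : ℝ × (V → ℝ × ℝ) → _))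
      have k3 := (p1_meas_m1 G θ Λ u).comp (measurable_snd : Measurable (Prod.snd : ℝ × (V → ℝ × ℝ) → _))
      have k4 := (p1_meas_m2 G θ' Λ' u).comp (measurable_snd : Measurable (Prod.snd : ℝ × (V → ℝ × ℝ) → _))
      have k0 := measurable_gam.comp (measurable_fst : Measurable (Prod.fst : ℝ × (V → ℝ × ℝ) → _))
      exact ((k0.pow_const 2).mul (((k1.sub k2).pow_const 2).add
        ((k2.pow_const 2).mul ((k3.sub k4).pow_const 2)))).const_mul 32)
    ⟨256, fun u s x => by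
      have a1 := abs_le.mp (hm1 x u)
      have a2 := abs_le.mp (hm2 x u)
      have b1 := abs_le.mp (hc1 x v u)
      have b2 := abs_le.mp (hc2 x v u)
      have g1 := gam_nonneg s
      have g2 := gam_le s
      rw [abs_of_nonneg (by positivity)]
      have k1 : (c1 G θ Λ x v u - c2 G θ' Λ' x v u) ^ 2 ≤ 16 := by nlinarith
      have k2 : (c2 G θ' Λ' x v u) ^ 2 ≤ 4 := by nlinarith
      have k3 : (m1 G θ Λ x u - m2 G θ' Λ' x u) ^ 2 ≤ 4 := by nlinarith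
      have k4 : (c2 G θ' Λ' x v u) ^ 2 * (m1 G θ Λ x u - m2 G θ' Λ' x u) ^ 2 ≤ 4 * 4 :=
        mul_le_mul k2 k3 (sq_nonneg _) (by norm_num)
      have k5 : gam s ^ 2 ≤ 1 / 4 := by nlinarith
      have k6 : gam s ^ 2 * ((c1 G θ Λ x v u - c2 G θ' Λ' x v u) ^ 2
          + (c2 G θ' Λ' x v u) ^ 2 * (m1 G θ Λ x u - m2 G θ' Λ' x u) ^ 2) ≤ (1 / 4) * 32 :=
        mul_le_mul k5 (by linarith) (by positivity) (by norm_num)
      linarith⟩
    (fun u hu s h => by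
      unfold LL
      have := (p1_step (c := c1 G θ Λ h v u) (c' := c2 G θ' Λ' h v u)
        (A := m1 G θ Λ h v - m2 G θ' Λ' h v) (gam_nonneg s) (gam_le s) (hm1 h u) (hm2 h u)).1
      refine this.trans_eq (integral_congr_ae (Filter.Eventually.of_forall fun ξ => ?_))
      simp only
      rw [p1_m1_step h0 h1 Λ Λ' v u s h ξ, p1_m2_step h0' h1' Λ Λ' v u hu s h ξ]
      ring)
    (fun u hu s h => by
      unfold LL
      have := (p1_step (c := c1 G θ Λ h v u) (c' := c2 G θ' Λ' h v u)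
        (A := m1 G θ Λ h v - m2 G θ' Λ' h v) (gam_nonneg s) (gam_le s) (hm1 h u) (hm2 h u)).2
      refine le_trans (le_of_eq (integral_congr_ae (Filter.Eventually.of_forall fun ξ => ?_))) this
      simp only
      rw [p1_m1_step h0 h1 Λ Λ' v u s h ξ, p1_m2_step h0' h1' Λ Λ' v u hu s h ξ]
      ring)
    T₁ T₂ hT₁ hT
  have hF : ∀ s : ℝ, ∫ ω, (m1 G θ Λ (st (phi2 G θ θ' Λ Λ') (Λ' ×ˢ Finset.range ⌈s⌉₊) ω s) v
      - m2 G θ' Λ' (st (phi2 G θ θ' Λ Λ') (Λ' ×ˢ Finset.range ⌈s⌉₊) ω s) v) ^ 2 ∂PP V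
      = ∫ ω, (mm G θ Λ s ω v - mm G θ' Λ' s ω v) ^ 2 ∂PP V := by
    intro s
    refine integral_congr_ae (Filter.Eventually.of_forall fun ω => ?_)
    simp only
    rw [(hst s ω v v).1, (hst s ω v v).2.1]
  have hI : ∫ s in T₁..T₂, (∑ u ∈ Λ', ∫ ω, 32 * ((gam s) ^ 2 *
      ((c1 G θ Λ (st (phi2 G θ θ' Λ Λ') (Λ' ×ˢ Finset.range ⌈s⌉₊) ω s) v u
        - c2 G θ' Λ' (st (phi2 G θ θ' Λ Λ') (Λ' ×ˢ Finset.range ⌈s⌉₊) ω s) v u) ^ 2
      + (c2 G θ' Λ' (st (phi2 G θ θ' Λ Λ') (Λ' ×ˢ Finset.range ⌈s⌉₊) ω s) v u) ^ 2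
        * (m1 G θ Λ (st (phi2 G θ θ' Λ Λ') (Λ' ×ˢ Finset.range ⌈s⌉₊) ω s) u
          - m2 G θ' Λ' (st (phi2 G θ θ' Λ Λ') (Λ' ×ˢ Finset.range ⌈s⌉₊) ω s) u) ^ 2)) ∂PP V)
      = 32 * ∫ s in T₁..T₂, (gam s) ^ 2 * ∑ u ∈ Λ', ∫ ω,
          ((cc G θ Λ s ω v u - cc G θ' Λ' s ω v u) ^ 2
            + (cc G θ' Λ' s ω v u) ^ 2 * (mm G θ Λ s ω u - mm G θ' Λ' s ω u) ^ 2) ∂PP V := by
    rw [← intervalIntegral.integral_const_mul]
    congr 1
    funext s
    rw [Finset.mul_sum, Finset.mul_sum]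
    apply Finset.sum_congr rfl
    intro u _
    rw [← integral_const_mul, ← integral_const_mul]
    refine integral_congr_ae (Filter.Eventually.of_forall fun ω => ?_)
    simp only
    rw [(hst s ω u v).1, (hst s ω u v).2.1, (hst s ω v u).2.2.1, (hst s ω v u).2.2.2]
  rw [hF T₁, hF T₂, hI] at key
  exact key

/-! ### the martingale property -/

open Classical in
/-- second replica frozen after time `T₁` -/
noncomputable def phi3 (G : SimpleGraph V) (θ : ℝ) (Λ : Finset V) (T₁ : ℝ) (v : V) (s : ℝ)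
    (h : V → ℝ × ℝ) (ξ : unitInterval) : ℝ × ℝ :=
  (phiI G θ Λ v s (fun w => (h w).1) ξ,
    if s < T₁ then phiI G θ Λ v s (fun w => (h w).2) ξ else 0)

theorem st_freeze {M : Type*} [AddCommMonoid M] (φ : V → ℝ → (V → M) → unitInterval → M)
    (A : Finset (V × ℕ)) (ω : Lab V) (T₁ T₂ : ℝ) (hT : T₁ ≤ T₂) :
    st (fun v s h ξ => by classical exact if s < T₁ then φ v s h ξ else 0) A ω T₂
      = st φ A ω T₁ := by
  classical
  have key : ∀ (n : ℕ) (i : V × ℕ),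
      cN (fun v s h ξ => if s < T₁ then φ v s h ξ else 0) A ω n i
        = if tm ω i < T₁ then cN φ A ω n i else 0 := by
    intro n
    induction n with
    | zero => intro i; simp [cN]
    | succ n ih =>
      intro i
      rw [Pr.cN_succ, Pr.cN_succ]
      by_cases hi : tm ω i < T₁
      · rw [if_pos hi, if_pos hi]
        congr 1
        funext v
        apply Finset.sum_congr rfl
        intro k hk
        have := (Pr.mem_bef.1 (Finset.mem_filter.1 hk).1).2.2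
        rw [ih k, if_pos (this.trans hi)]
      · rw [if_neg hi, if_neg hi]
  funext v
  rw [Pr.st_eq_sum, Pr.st_eq_sum]
  rw [Finset.sum_congr rfl (fun k _ => key A.card k)]
  rw [← Finset.sum_filter]
  apply Finset.sum_congr _ (fun _ _ => rfl)
  ext k
  simp only [Finset.mem_filter, Pr.mem_bef]
  constructor
  · rintro ⟨⟨⟨h1, h2, _⟩, h4⟩, h5⟩
    exact ⟨⟨h1, h2, h5⟩, h4⟩
  · rintro ⟨⟨h1, h2, h3⟩, h4⟩
    exact ⟨⟨⟨h1, h2, h3.trans_le hT⟩, h4⟩, h3⟩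

theorem measurable_phi3 (G : SimpleGraph V) (θ : ℝ) (Λ : Finset V) (T₁ : ℝ) (v : V) :
    Measurable (fun p : ℝ × (V → ℝ × ℝ) × unitInterval => phi3 G θ Λ T₁ v p.1 p.2.1 p.2.2) := by
  unfold phi3
  have h1 : Measurable (fun p : ℝ × (V → ℝ × ℝ) × unitInterval =>
      phiI G θ Λ v p.1 (fun w => (p.2.1 w).1) p.2.2) :=
    (measurable_phiI G θ Λ v).comp (measurable_fst.prodMk
      ((p1_measurable_fst.comp (measurable_fst.comp measurable_snd)).prodMk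
        (measurable_snd.comp measurable_snd)))
  have h2 : Measurable (fun p : ℝ × (V → ℝ × ℝ) × unitInterval =>
      phiI G θ Λ v p.1 (fun w => (p.2.1 w).2) p.2.2) :=
    (measurable_phiI G θ Λ v).comp (measurable_fst.prodMk
      ((p1_measurable_snd.comp (measurable_fst.comp measurable_snd)).prodMk
        (measurable_snd.comp measurable_snd)))
  exact h1.prodMk (Measurable.ite (measurableSet_lt measurable_fst measurable_const) h2
    measurable_const)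

private lemma p1_eta_int {g m : ℝ} (hg : 0 ≤ g) (hg' : g ≤ 1 / 2) (hm : |m| ≤ 1) (c : ℝ) :
    ∫ ξ : unitInterval, c * eta g m ξ = 0 := by
  rw [integral_const_mul, eta_mean hg hg' hm, mul_zero]


open Classical in
private lemma p1_phi3_m1 {θ : ℝ} (h0 : 0 ≤ θ) (h1 : θ < 1) (Λ : Finset V) (T₁ : ℝ) (v u : V)
    (hu : u ∈ Λ) (s : ℝ) (h : V → ℝ × ℝ) (ξ : unitInterval) :
    m1 G θ Λ (h + Pi.single u (phi3 G θ Λ T₁ u s h ξ)) v
      = m1 G θ Λ h v + c1 G θ Λ h v u * eta (gam s) (m1 G θ Λ h u) ξ := by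
  unfold m1 c1
  have e := p1_fst_add h u (phi3 G θ Λ T₁ u s h ξ)
  have e' : (fun w => Real.tanh ((h + (Pi.single u (phi3 G θ Λ T₁ u s h ξ) : V → ℝ × ℝ)) w).1)
      = fun w => Real.tanh (((fun w => (h w).1)
        + (Pi.single u (phi3 G θ Λ T₁ u s h ξ).1 : V → ℝ)) w) := by
    rw [← e]
  rw [e']
  exact mean_step h0 h1 Λ u hu s (fun w => (h w).1) ξ v

open Classical in
private lemma p1_phi3_m2 {θ : ℝ} (Λ : Finset V) (T₁ : ℝ) (v u : V) (s : ℝ) (hs : T₁ ≤ s)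
    (h : V → ℝ × ℝ) (ξ : unitInterval) :
    m2 G θ Λ (h + Pi.single u (phi3 G θ Λ T₁ u s h ξ)) v = m2 G θ Λ h v := by
  unfold m2
  have e := p1_snd_add h u (phi3 G θ Λ T₁ u s h ξ)
  have e' : (fun w => Real.tanh ((h + (Pi.single u (phi3 G θ Λ T₁ u s h ξ) : V → ℝ × ℝ)) w).2)
      = fun w => Real.tanh (((fun w => (h w).2)
        + (Pi.single u (phi3 G θ Λ T₁ u s h ξ).2 : V → ℝ)) w) := by
    rw [← e]
  rw [e']
  have e2 : (phi3 G θ Λ T₁ u s h ξ).2 = 0 := by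
    unfold phi3; simp only [not_lt.mpr hs, if_false]
  rw [e2, Pi.single_zero, add_zero]

private noncomputable def F3 (G : SimpleGraph V) (θ : ℝ) (Λ : Finset V) (v : V)
    (x : V → ℝ × ℝ) : ℝ := m1 G θ Λ x v * m2 G θ Λ x v

open Classical in
private lemma p1_LL3 {θ : ℝ} (h0 : 0 ≤ θ) (h1 : θ < 1) (Λ : Finset V) (T₁ : ℝ) (v u : V)
    (hu : u ∈ Λ) (s : ℝ) (hs : T₁ ≤ s) (h : V → ℝ × ℝ) :
    LL (phi3 G θ Λ T₁) (F3 G θ Λ v) u s h = 0 := by
  unfold LL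
  have e : ∀ ξ : unitInterval, F3 G θ Λ v (h + Pi.single u (phi3 G θ Λ T₁ u s h ξ)) - F3 G θ Λ v h
      = (m2 G θ Λ h v * c1 G θ Λ h v u) * eta (gam s) (m1 G θ Λ h u) ξ := by
    intro ξ
    unfold F3
    rw [p1_phi3_m1 h0 h1 Λ T₁ v u hu s h ξ, p1_phi3_m2 Λ T₁ v u s hs h ξ]
    ring
  have e3 : (∫ ξ : unitInterval, (F3 G θ Λ v (h + Pi.single u (phi3 G θ Λ T₁ u s h ξ))
      - F3 G θ Λ v h))
      = ∫ ξ : unitInterval, (m2 G θ Λ h v * c1 G θ Λ h v u)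
        * eta (gam s) (m1 G θ Λ h u) ξ :=
    integral_congr_ae (Filter.Eventually.of_forall fun ξ => e ξ)
  rw [e3]
  exact p1_eta_int (gam_nonneg s) (gam_le s) (p1_mean_le h0 h1 Λ (fun w => (h w).1) u) _

private lemma p1_fst3 (θ : ℝ) (Λ : Finset V) (T₁ T T₂ : ℝ) (hT : T ≤ T₂) (ω : Lab V) :
    (fun w => (st (phi3 G θ Λ T₁) (Λ ×ˢ Finset.range ⌈T₂⌉₊) ω T w).1) = hh G θ Λ T ω := by
  have e1 : (fun w => (st (phi3 G θ Λ T₁) (Λ ×ˢ Finset.range ⌈T₂⌉₊) ω T w).1)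
      = st (phiI G θ Λ) (Λ ×ˢ Finset.range ⌈T₂⌉₊) ω T := by
    funext w
    exact st_map (AddMonoidHom.fst ℝ ℝ) (phi3 G θ Λ T₁) (phiI G θ Λ)
      (fun v s k ξ => by unfold phi3; simp only [AddMonoidHom.coe_fst]) _ ω T w
  rw [e1]
  exact st_horizon _ Λ ω T ⌈T₂⌉₊ (hT.trans (Nat.le_ceil T₂))

open Classical in
private lemma p1_snd3 (θ : ℝ) (Λ : Finset V) (T₁ T T₂ : ℝ) (hT₁ : T₁ ≤ T) (hT : T ≤ T₂)
    (ω : Lab V) :
    (fun w => (st (phi3 G θ Λ T₁) (Λ ×ˢ Finset.range ⌈T₂⌉₊) ω T w).2) = hh G θ Λ T₁ ω := by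
  have e1 : (fun w => (st (phi3 G θ Λ T₁) (Λ ×ˢ Finset.range ⌈T₂⌉₊) ω T w).2)
      = st (fun v s h ξ => if s < T₁ then phiI G θ Λ v s h ξ else 0)
        (Λ ×ˢ Finset.range ⌈T₂⌉₊) ω T := by
    funext w
    exact st_map (AddMonoidHom.snd ℝ ℝ) (phi3 G θ Λ T₁)
      (fun v s h ξ => if s < T₁ then phiI G θ Λ v s h ξ else 0)
      (fun v s k ξ => by unfold phi3; simp only [AddMonoidHom.coe_snd]) _ ω T w
  rw [e1]
  have e2 := st_freeze (phiI G θ Λ) (Λ ×ˢ Finset.range ⌈T₂⌉₊) ω T₁ T hT₁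
  have e3 := st_horizon (phiI G θ Λ) Λ ω T₁ ⌈T₂⌉₊ ((hT₁.trans hT).trans (Nat.le_ceil T₂))
  exact e2.trans e3

private lemma p1_F3_a (θ : ℝ) (Λ : Finset V) (T₁ T₂ : ℝ) (hT : T₁ ≤ T₂) (ω : Lab V) (v : V) :
    F3 G θ Λ v (st (phi3 G θ Λ T₁) (Λ ×ˢ Finset.range ⌈T₂⌉₊) ω T₂)
      = mm G θ Λ T₂ ω v * mm G θ Λ T₁ ω v := by
  have e1 := p1_fst3 (G := G) θ Λ T₁ T₂ T₂ le_rfl ω
  have e2 := p1_snd3 (G := G) θ Λ T₁ T₂ T₂ hT le_rfl ω
  unfold F3 m1 m2 mm
  rw [← e1, ← e2]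

private lemma p1_F3_b (θ : ℝ) (Λ : Finset V) (T₁ T₂ : ℝ) (hT : T₁ ≤ T₂) (ω : Lab V) (v : V) :
    F3 G θ Λ v (st (phi3 G θ Λ T₁) (Λ ×ˢ Finset.range ⌈T₂⌉₊) ω T₁)
      = mm G θ Λ T₁ ω v * mm G θ Λ T₁ ω v := by
  have e1 : m1 G θ Λ (st (phi3 G θ Λ T₁) (Λ ×ˢ Finset.range ⌈T₂⌉₊) ω T₁) v
      = mm G θ Λ T₁ ω v := by
    have e1 := p1_fst3 (G := G) θ Λ T₁ T₁ T₂ hT ω
    unfold m1 mm
    rw [← e1]
  have e2 : m2 G θ Λ (st (phi3 G θ Λ T₁) (Λ ×ˢ Finset.range ⌈T₂⌉₊) ω T₁) v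
      = mm G θ Λ T₁ ω v := by
    have e2 := p1_snd3 (G := G) θ Λ T₁ T₁ T₂ le_rfl hT ω
    unfold m2 mm
    rw [← e2]
  unfold F3
  rw [e1, e2]

private lemma p1_gen3 {θ : ℝ} (h0 : 0 ≤ θ) (h1 : θ < 1) (Λ : Finset V) (v : V) (T₁ T₂ : ℝ)
    (hT₁ : 0 ≤ T₁) (hT : T₁ ≤ T₂) :
    ∫ ω, mm G θ Λ T₂ ω v * mm G θ Λ T₁ ω v ∂PP V
      = ∫ ω, mm G θ Λ T₁ ω v * mm G θ Λ T₁ ω v ∂PP V := by
  classical
  have hFm : Measurable (F3 G θ Λ v) := (p1_meas_m1 G θ Λ v).mul (p1_meas_m2 G θ Λ v)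
  have hFb : ∃ C, ∀ x, |F3 G θ Λ v x| ≤ C := ⟨1, fun x => by
    unfold F3
    rw [abs_mul]
    calc |m1 G θ Λ x v| * |m2 G θ Λ x v| ≤ 1 * 1 :=
          mul_le_mul (p1_mean_le h0 h1 Λ (fun w => (x w).1) v)
            (p1_mean_le h0 h1 Λ (fun w => (x w).2) v) (abs_nonneg _) (by norm_num)
      _ = 1 := one_mul 1⟩
  have g2 := generator (phi3 G θ Λ T₁) (measurable_phi3 G θ Λ T₁) (Λ ×ˢ Finset.range ⌈T₂⌉₊)
    (F3 G θ Λ v) hFm hFb T₂ (hT₁.trans hT)
  have g1 := generator (phi3 G θ Λ T₁) (measurable_phi3 G θ Λ T₁) (Λ ×ˢ Finset.range ⌈T₂⌉₊)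
    (F3 G θ Λ v) hFm hFb T₁ hT₁
  simp only [p1_F3_a θ Λ T₁ T₂ hT] at g2
  simp only [p1_F3_b θ Λ T₁ T₂ hT] at g1
  rw [g2, g1]
  congr 1
  apply Finset.sum_congr rfl
  intro i hi
  congr 1
  apply setIntegral_eq_of_subset_of_forall_sdiff_eq_zero
  · exact measurableSet_Ico.inter measurableSet_Iio
  · exact Set.inter_subset_inter_right _ (Set.Iio_subset_Iio hT)
  · intro s hs
    have hs1 : T₁ ≤ s := by
      by_contra hc
      exact hs.2 ⟨hs.1.1, not_le.mp hc⟩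
    have hz : ∀ x : V → ℝ × ℝ, LL (phi3 G θ Λ T₁) (F3 G θ Λ v) i.1 s x = 0 :=
      fun x => p1_LL3 h0 h1 Λ T₁ v i.1 (Finset.mem_product.mp hi).1 s hs1 x
    simp only [hz, integral_zero]

/-- **(P3)** the mean field is a martingale in time -/
theorem P3 {θ : ℝ} (h0 : 0 ≤ θ) (h1 : θ < 1) (Λ : Finset V) (v : V) (T₁ T₂ : ℝ)
    (hT₁ : 0 ≤ T₁) (hT : T₁ ≤ T₂) :
    ∫ ω, (mm G θ Λ T₂ ω v - mm G θ Λ T₁ ω v) ^ 2 ∂PP V
      = ∫ ω, (mm G θ Λ T₂ ω v) ^ 2 ∂PP V - ∫ ω, (mm G θ Λ T₁ ω v) ^ 2 ∂PP V := by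
  have hmeas : ∀ T, Measurable (fun ω : Lab V => mm G θ Λ T ω v) := fun T =>
    measurable_mm_fix G θ Λ T v
  have hbd : ∀ T (ω : Lab V), |mm G θ Λ T ω v| ≤ 1 := fun T ω => (mm_abs_lt h0 h1 Λ T ω v).le
  have hi2 : ∀ T T', Integrable (fun ω : Lab V => mm G θ Λ T ω v * mm G θ Λ T' ω v) (PP V) := by
    intro T T'
    refine Integrable.of_bound ((hmeas T).mul (hmeas T')).aestronglyMeasurable 1 ?_
    refine Filter.Eventually.of_forall fun ω => ?_
    rw [Real.norm_eq_abs, abs_mul]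
    calc _ ≤ 1 * 1 := mul_le_mul (hbd T ω) (hbd T' ω) (abs_nonneg _) (by norm_num)
      _ = 1 := one_mul 1
  have e : ∀ ω : Lab V, (mm G θ Λ T₂ ω v - mm G θ Λ T₁ ω v) ^ 2
      = mm G θ Λ T₂ ω v * mm G θ Λ T₂ ω v - 2 * (mm G θ Λ T₂ ω v * mm G θ Λ T₁ ω v)
        + mm G θ Λ T₁ ω v * mm G θ Λ T₁ ω v := by
    intro ω; ring
  simp only [e]
  have hs : Integrable (fun ω : Lab V => mm G θ Λ T₂ ω v * mm G θ Λ T₂ ω v
      - 2 * (mm G θ Λ T₂ ω v * mm G θ Λ T₁ ω v)) (PP V) :=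
    (hi2 T₂ T₂).sub ((hi2 T₂ T₁).const_mul 2)
  rw [integral_add hs (hi2 T₁ T₁),
    integral_sub (hi2 T₂ T₂) ((hi2 T₂ T₁).const_mul 2), integral_const_mul,
    p1_gen3 h0 h1 Λ v T₁ T₂ hT₁ hT]
  simp only [sq]
  ring

end Crest.Agent.T41
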