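import Crest.Agent.T41Nu

/-!
S0241, part P2: exact law of the process and the one-site law `nu`.
-/

set_option autoImplicit false
set_option maxHeartbeats 400000

namespace Crest.Agent.T41

open MeasureTheory Filter Topology

universe u v

namespace P2x

/-! ### the function `tanh` -/

theorem tanh_add_artanh (x : ℝ) {a : ℝ} (ha : |a| < 1) :
    Real.tanh (x + Real.artanh a) = op (Real.tanh x) a := by
  obtain ⟨h1, h2⟩ := abs_lt.1 ha
  have hc : 0 < Real.cosh x := Real.cosh_pos x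
  have hd : 0 < Real.cosh (Real.artanh a) := Real.cosh_pos _
  have e1 : Real.tanh (Real.artanh a) = a := Real.tanh_artanh ⟨h1, h2⟩
  have e2 : Real.sinh (Real.artanh a) = a * Real.cosh (Real.artanh a) := by
    have := e1
    rw [Real.tanh_eq_sinh_div_cosh, div_eq_iff hd.ne'] at this
    exact this
  unfold op
  rw [Real.tanh_eq_sinh_div_cosh, Real.tanh_eq_sinh_div_cosh, Real.sinh_add, Real.cosh_add, e2]
  have h3 : Real.cosh x + a * Real.sinh x ≠ 0 := by
    have h4 := Real.abs_tanh_lt_one x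
    rw [Real.tanh_eq_sinh_div_cosh, abs_div, abs_of_pos hc, div_lt_one hc] at h4
    have h5 : |a * Real.sinh x| < Real.cosh x := by
      rw [abs_mul]
      calc |a| * |Real.sinh x| ≤ 1 * |Real.sinh x| :=
            mul_le_mul_of_nonneg_right ha.le (abs_nonneg _)
        _ < Real.cosh x := by rw [one_mul]; exact h4
    have := (abs_lt.1 h5).1
    linarith
  have h6 : 1 + Real.sinh x / Real.cosh x * a = (Real.cosh x + a * Real.sinh x) / Real.cosh x := by
    field_simp
  have h7 : Real.sinh x * Real.cosh (Real.artanh a)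
      + Real.cosh x * (a * Real.cosh (Real.artanh a))
      = Real.cosh (Real.artanh a) * (Real.sinh x + a * Real.cosh x) := by ring
  have h8 : Real.cosh x * Real.cosh (Real.artanh a)
      + Real.sinh x * (a * Real.cosh (Real.artanh a))
      = Real.cosh (Real.artanh a) * (Real.cosh x + a * Real.sinh x) := by ring
  have h9 : Real.sinh x / Real.cosh x + a = (Real.sinh x + a * Real.cosh x) / Real.cosh x := by
    field_simp
  rw [h6, h7, h8, h9, mul_div_mul_left _ _ hd.ne', div_div_div_cancel_right₀ hc.ne']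

theorem measurable_tanh : Measurable Real.tanh := by
  have : Real.tanh = fun x => Real.sinh x / Real.cosh x := by
    funext x; exact Real.tanh_eq_sinh_div_cosh x
  rw [this]
  exact Real.measurable_sinh.div Real.measurable_cosh

theorem measurable_artanh : Measurable Real.artanh := by
  unfold Real.artanh
  fun_prop

theorem measurable_gam : Measurable gam := by
  unfold gam
  fun_prop

theorem gam_nonneg (s : ℝ) : 0 ≤ gam s := le_min (Real.sqrt_nonneg _) (by norm_num)

theorem gam_le (s : ℝ) : gam s ≤ 1 / 2 := min_le_right _ _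

theorem measurable_phiI {V : Type u} (G : SimpleGraph V) (θ : ℝ) (Λ : Finset V) (v : V) :
    Measurable (fun p : ℝ × (V → ℝ) × unitInterval => phiI G θ Λ v p.1 p.2.1 p.2.2) := by
  unfold phiI
  have h1 : Measurable (fun p : ℝ × (V → ℝ) × unitInterval =>
      mean G θ Λ (fun w => Real.tanh (p.2.1 w)) v) := by
    have h2 : Measurable (fun p : ℝ × (V → ℝ) × unitInterval =>
        (fun w => Real.tanh (p.2.1 w) : V → ℝ)) := by
      rw [measurable_pi_iff]
      intro w
      exact measurable_tanh.comp ((measurable_pi_apply w).comp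
        (measurable_fst.comp measurable_snd))
    exact (measurable_pi_apply v).comp ((measurable_mean G θ Λ).comp h2)
  have h3 : Measurable (fun p : ℝ × (V → ℝ) × unitInterval => gam p.1) :=
    measurable_gam.comp measurable_fst
  have h4 : Measurable (fun p : ℝ × (V → ℝ) × unitInterval => (p.2.2 : ℝ)) :=
    measurable_subtype_coe.comp (measurable_snd.comp measurable_snd)
  have h5 : Measurable (fun p : ℝ × (V → ℝ) × unitInterval =>
      Qf (gam p.1 * mean G θ Λ (fun w => Real.tanh (p.2.1 w)) v) p.2.2) :=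
    measurable_Qf.comp ((h3.mul h1).prodMk h4)
  exact measurable_artanh.comp (h3.mul ((h5.const_mul 2).sub_const 1))

/-! ### induction along the process, last sites -/

section last
variable {V : Type u} {M : Type v} [AddCommMonoid M] [MeasurableSpace M]

theorem bef_ind (A : Finset (V × ℕ)) (ω : Lab V) (P : ℝ → Prop)
    (h : ∀ T, (∀ k ∈ Pr.bef A ω T, P (tm ω k)) → P T) (T : ℝ) : P T := by
  have key : ∀ (n : ℕ) (T : ℝ), (Pr.bef A ω T).card ≤ n → P T := by
    intro n
    induction n with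
    | zero =>
      intro T hT
      refine h T fun k hk => ?_
      have h1 : Pr.bef A ω T = ∅ := by simpa using hT
      rw [h1] at hk; simp at hk
    | succ n ih =>
      intro T hT
      refine h T fun k hk => ih _ ?_
      have hk' := Pr.mem_bef.1 hk
      have hlt : (Pr.bef A ω (tm ω k)).card < (Pr.bef A ω T).card := by
        refine Finset.card_lt_card ⟨fun i hi => ?_, fun hc => ?_⟩
        · rw [Pr.mem_bef] at hi ⊢
          exact ⟨hi.1, hi.2.1, hi.2.2.trans hk'.2.2⟩
        · have h3 := hc hk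
          rw [Pr.mem_bef] at h3
          exact lt_irrefl _ h3.2.2
      omega
  exact key _ T le_rfl

theorem tm_setX (ω : Lab V) (s : V × ℕ) (ξ : unitInterval) (k : V × ℕ) :
    tm (Pr.setX ω s ξ) k = tm ω k := by
  by_cases h : k = s
  · subst h
    unfold tm Pr.setX
    rw [Pr.setL_self]
  · exact Pr.tm_congr (Pr.setL_ne ω s _ k h)

theorem act_setX (ω : Lab V) (s : V × ℕ) (ξ : unitInterval) (k : V × ℕ) :
    act (Pr.setX ω s ξ) k ↔ act ω k := by
  by_cases h : k = s
  · subst h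
    unfold act Pr.setX
    rw [Pr.setL_self]
  · exact Pr.act_congr (Pr.setL_ne ω s _ k h)

theorem bef_setX (A : Finset (V × ℕ)) (ω : Lab V) (T : ℝ) (s : V × ℕ) (ξ : unitInterval) :
    Pr.bef A (Pr.setX ω s ξ) T = Pr.bef A ω T := by
  ext k
  rw [Pr.mem_bef, Pr.mem_bef, act_setX, tm_setX]

theorem Last_setX (A : Finset (V × ℕ)) (ω : Lab V) (T : ℝ) (s s' : V × ℕ) (ξ : unitInterval) :
    Pr.Last A (Pr.setX ω s' ξ) T s ↔ Pr.Last A ω T s := by
  unfold Pr.Last
  rw [bef_setX]
  simp only [tm_setX]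

theorem measurableSet_Last (A : Finset (V × ℕ)) (T : ℝ) (s : V × ℕ) (hs : s ∈ A) :
    MeasurableSet {ω : Lab V | Pr.Last A ω T s} := by
  have e : {ω : Lab V | Pr.Last A ω T s} = ({ω | act ω s} ∩ {ω | tm ω s < T})
      ∩ ⋂ k ∈ A, ({ω : Lab V | act ω k} ∩ {ω | tm ω k < T} ∩ {_ω | k ≠ s}
        ∩ {ω | tm ω s ≤ tm ω k})ᶜ := by
    ext ω
    simp only [Set.mem_ofPred_eq, Set.mem_inter_iff, Set.mem_iInter, Set.mem_compl_iff, not_and,
      not_le, Pr.Last, Pr.mem_bef]
    constructor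
    · rintro ⟨⟨_, h1, h2⟩, h3⟩
      exact ⟨⟨h1, h2⟩, fun k hk h => h3 k ⟨hk, h.1.1, h.1.2⟩ h.2⟩
    · rintro ⟨⟨h1, h2⟩, h3⟩
      exact ⟨⟨hs, h1, h2⟩, fun k hk hks => h3 k hk.1 ⟨⟨hk.2.1, hk.2.2⟩, hks⟩⟩
  rw [e]
  refine ((Pr.measurableSet_act s).inter (measurableSet_lt (Pr.measurable_tm s)
    measurable_const)).inter (Finset.measurableSet_biInter A fun k _ => ?_)
  refine MeasurableSet.compl ?_
  refine (((Pr.measurableSet_act k).inter (measurableSet_lt (Pr.measurable_tm k)
    measurable_const)).inter (MeasurableSet.const _)).inter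
    (measurableSet_le (Pr.measurable_tm s) (Pr.measurable_tm k))

theorem measurableSet_none (A : Finset (V × ℕ)) (T : ℝ) :
    MeasurableSet {ω : Lab V | Pr.bef A ω T = ∅} := by
  have e : {ω : Lab V | Pr.bef A ω T = ∅}
      = ⋂ k ∈ A, ({ω : Lab V | act ω k} ∩ {ω | tm ω k < T})ᶜ := by
    ext ω
    simp only [Set.mem_ofPred_eq, Set.mem_inter_iff, Set.mem_iInter, Set.mem_compl_iff, not_and,
      Finset.eq_empty_iff_forall_notMem, Pr.mem_bef]
  rw [e]
  exact Finset.measurableSet_biInter A fun k _ => ((Pr.measurableSet_act k).inter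
    (measurableSet_lt (Pr.measurable_tm k) measurable_const)).compl

/-- decomposition according to the last site -/
theorem split_last (A : Finset (V × ℕ)) (T : ℝ) {f : Lab V → ℝ}
    (hf : BM (V := V) (E := ℕ → Y01) f) :
    ∫ ω, f ω ∂PP V = (∑ s ∈ A, ∫ ω, Set.indicator {ω | Pr.Last A ω T s} f ω ∂PP V)
      + ∫ ω, Set.indicator {ω | Pr.bef A ω T = ∅} f ω ∂PP V := by
  have hb : ∀ S : Set (Lab V), MeasurableSet S →
      BM (V := V) (E := ℕ → Y01) (Set.indicator S f) := by
    intro S hS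
    obtain ⟨C, hC⟩ := hf.bdd
    refine ⟨hf.meas.indicator hS, C, fun ω => ?_⟩
    by_cases h : ω ∈ S
    · rw [Set.indicator_of_mem h]; exact hC ω
    · rw [Set.indicator_of_notMem h, abs_zero]; exact (abs_nonneg _).trans (hC ω)
  rw [← integral_finsetSum _ fun s hs => (hb _ (measurableSet_Last A T s hs)).integrable _,
    ← integral_add (integrable_finsetSum _ fun s hs =>
      (hb _ (measurableSet_Last A T s hs)).integrable _)
      ((hb _ (measurableSet_none A T)).integrable _)]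
  refine integral_congr_ae ?_
  filter_upwards [Pr.ae_Gd A] with ω hG
  by_cases he : Pr.bef A ω T = ∅
  · rw [Set.indicator_of_mem (s := {ω | Pr.bef A ω T = ∅}) he, Finset.sum_eq_zero, zero_add]
    intro s _
    rw [Set.indicator_of_notMem]
    intro hl
    have := hl.1
    rw [he] at this; simp at this
  · rw [Set.indicator_of_notMem (s := {ω | Pr.bef A ω T = ∅}) he, add_zero]
    obtain ⟨s, hs, hmax⟩ := Finset.exists_max_image (Pr.bef A ω T) (fun k => tm ω k)
      (Finset.nonempty_iff_ne_empty.2 he)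
    have hs' := Pr.mem_bef.1 hs
    have hlast : Pr.Last A ω T s := by
      refine ⟨hs, fun k hk hks => lt_of_le_of_ne (hmax k hk) ?_⟩
      have hk' := Pr.mem_bef.1 hk
      exact hG k hk'.1 s hs'.1 hks hk'.2.1 hs'.2.1
    rw [Finset.sum_eq_single_of_mem s hs'.1, Set.indicator_of_mem]
    · exact hlast
    · intro s₂ _ hne
      rw [Set.indicator_of_notMem]
      intro hl
      have h1 := hlast.2 s₂ hl.1 hne
      have h2 := hl.2 s hs hne.symm
      exact absurd (h1.trans h2) (lt_irrefl _)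

open Classical in
/-- one step of the process as an operation on test functions -/
noncomputable def stepF (φ : V → ℝ → (V → M) → unitInterval → M) (A : Finset (V × ℕ)) (T : ℝ)
    (s : V × ℕ) (F : Lab V × (V → M) → ℝ) (p : Lab V × (V → M)) : ℝ :=
  if Pr.Last A p.1 T s then
    ∫ ξ : unitInterval, F (p.1, p.2 + Pi.single s.1 (φ s.1 (tm p.1 s) p.2 ξ)) else 0

theorem measurable_stepF [MeasurableAdd₂ M] (φ : V → ℝ → (V → M) → unitInterval → M)
    (hφ : ∀ v, Measurable (fun p : ℝ × (V → M) × unitInterval => φ v p.1 p.2.1 p.2.2))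
    (A : Finset (V × ℕ)) (T : ℝ) (s : V × ℕ) (hs : s ∈ A) (F : Lab V × (V → M) → ℝ)
    (hF : Measurable F) : Measurable (stepF φ A T s F) := by
  classical
  have h1 : Measurable (fun q : (Lab V × (V → M)) × unitInterval =>
      F (q.1.1, q.1.2 + Pi.single s.1 (φ s.1 (tm q.1.1 s) q.1.2 q.2))) := by
    refine hF.comp ((measurable_fst.comp measurable_fst).prodMk ?_)
    have h2 : Measurable (fun q : (Lab V × (V → M)) × unitInterval =>
        (q.1.2, φ s.1 (tm q.1.1 s) q.1.2 q.2)) := by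
      refine (measurable_snd.comp measurable_fst).prodMk ?_
      exact (hφ s.1).comp (((Pr.measurable_tm s).comp (measurable_fst.comp measurable_fst)).prodMk
        ((measurable_snd.comp measurable_fst).prodMk measurable_snd))
    exact (Pr.measurable_add_single s.1).comp h2
  have h3 : Measurable (fun p : Lab V × (V → M) =>
      ∫ ξ : unitInterval, F (p.1, p.2 + Pi.single s.1 (φ s.1 (tm p.1 s) p.2 ξ))) :=
    (StronglyMeasurable.integral_prod_right (ν := (volume : Measure unitInterval))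
      h1.stronglyMeasurable).measurable
  exact Measurable.ite (measurable_fst (measurableSet_Last A T s hs)) h3 measurable_const

theorem stepF_le (φ : V → ℝ → (V → M) → unitInterval → M) (A : Finset (V × ℕ)) (T : ℝ)
    (s : V × ℕ) (F : Lab V × (V → M) → ℝ) {C : ℝ} (hC : ∀ x, |F x| ≤ C) (p : Lab V × (V → M)) :
    |stepF φ A T s F p| ≤ C := by
  classical
  unfold stepF
  split_ifs
  · have h1 := norm_integral_le_of_norm_le_const (μ := (volume : Measure unitInterval))
      (f := fun ξ => F (p.1, p.2 + Pi.single s.1 (φ s.1 (tm p.1 s) p.2 ξ))) (C := C)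
      (Filter.Eventually.of_forall fun ξ => by rw [Real.norm_eq_abs]; exact hC _)
    simpa using h1
  · rw [abs_zero]; exact (abs_nonneg _).trans (hC p)

theorem stepF_setX (φ : V → ℝ → (V → M) → unitInterval → M) (A : Finset (V × ℕ)) (T : ℝ)
    (s s' : V × ℕ) (F : Lab V × (V → M) → ℝ)
    (hX : ∀ ω h ξ, F (Pr.setX ω s' ξ, h) = F (ω, h)) (ω : Lab V) (h : V → M) (ξ : unitInterval) :
    stepF φ A T s F (Pr.setX ω s' ξ, h) = stepF φ A T s F (ω, h) := by
  classical
  unfold stepF
  simp only [Last_setX, tm_setX, hX]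

/-- **one step** -/
theorem last_step [MeasurableAdd₂ M] [DecidableEq (V × ℕ)]
    (φ : V → ℝ → (V → M) → unitInterval → M)
    (hφ : ∀ v, Measurable (fun p : ℝ × (V → M) × unitInterval => φ v p.1 p.2.1 p.2.2))
    (A : Finset (V × ℕ)) (T : ℝ) (s : V × ℕ) (hs : s ∈ A) (F : Lab V × (V → M) → ℝ)
    (hF : Measurable F) {C : ℝ} (hC : ∀ x, |F x| ≤ C)
    (hX : ∀ ω h ξ, F (Pr.setX ω s ξ, h) = F (ω, h)) :
    ∫ ω, Set.indicator {ω | Pr.Last A ω T s} (fun ω => F (ω, st φ A ω T)) ω ∂PP V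
      = ∫ ω, stepF φ A T s F (ω, st φ (A.erase s) ω T) ∂PP V := by
  classical
  have hm : Measurable (fun ω : Lab V => F (ω, st φ A ω T)) :=
    hF.comp (measurable_id.prodMk ((measurable_st φ hφ A).comp
      (measurable_id.prodMk measurable_const)))
  have hb : BM (V := V) (E := ℕ → Y01)
      (Set.indicator {ω | Pr.Last A ω T s} (fun ω => F (ω, st φ A ω T))) := by
    refine ⟨hm.indicator (measurableSet_Last A T s hs), C, fun ω => ?_⟩
    by_cases h : ω ∈ {ω | Pr.Last A ω T s}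
    · rw [Set.indicator_of_mem h]; exact hC _
    · rw [Set.indicator_of_notMem h, abs_zero]
      exact (abs_nonneg _).trans (hC (ω, st φ A ω T))
  rw [Pr.integral_setX s hb]
  refine integral_congr_ae (Filter.Eventually.of_forall fun ω => ?_)
  simp only [stepF]
  by_cases hl : Pr.Last A ω T s
  · rw [if_pos hl]
    refine integral_congr_ae (Filter.Eventually.of_forall fun ξ => ?_)
    have hl' : Pr.Last A (Pr.setX ω s ξ) T s := (Last_setX A ω T s s ξ).2 hl
    simp only
    rw [Set.indicator_of_mem (s := {ω | Pr.Last A ω T s}) hl', hX, Pr.st_last φ hl', tm_setX]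
    have e1 : st φ (A.erase s) (Pr.setX ω s ξ) T = st φ (A.erase s) ω T :=
      Pr.st_dep φ (fun k hk => Pr.setL_ne ω s _ k (Finset.ne_of_mem_erase hk)) _
    have e2 : (Pr.setX ω s ξ s.1 s.2).2 = ξ := by
      unfold Pr.setX; rw [Pr.setL_self]
    rw [e1, e2]
  · rw [if_neg hl]
    have : ∀ ξ, Set.indicator {ω | Pr.Last A ω T s} (fun ω => F (ω, st φ A ω T))
        (Pr.setX ω s ξ) = 0 := by
      intro ξ
      rw [Set.indicator_of_notMem]
      intro hh
      exact hl ((Last_setX A ω T s s ξ).1 hh)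
    simp only [this, integral_zero]

end last

/-! ### the exact law -/

section girs
variable {V : Type u} {G : SimpleGraph V}

theorem tanh_single [DecidableEq V] (h : V → ℝ) (u : V) (a : ℝ) (ha : |a| < 1) :
    (fun w => Real.tanh ((h + Pi.single u (Real.artanh a) : V → ℝ) w))
      = Function.update (fun w => Real.tanh (h w)) u (op (Real.tanh (h u)) a) := by
  funext w
  by_cases hw : w = u
  · subst hw
    rw [Function.update_self, Pi.add_apply, Pi.single_eq_same, tanh_add_artanh _ ha]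
  · rw [Function.update_of_ne hw, Pi.add_apply, Pi.single_eq_of_ne hw, add_zero]

theorem adm_tanh {θ : ℝ} (h0 : 0 ≤ θ) (h1 : θ < 1) (Λ : Finset V) (h : V → ℝ) :
    Adm θ Λ (fun w => Real.tanh (h w)) := ⟨h0, h1, fun _ _ => Real.abs_tanh_lt_one _⟩

theorem Zt_bdd (G : SimpleGraph V) (θ : ℝ) (Λ : Finset V) :
    ∃ C, ∀ h : V → ℝ, |Zt G θ Λ (fun w => Real.tanh (h w))| ≤ C := by
  classical
  refine ⟨∑ S ∈ Λ.powerset, |Crest.ProbabilityR.TreeIsing.isingWeight G θ Λ
    (fun v => decide (v ∈ S))| * ∏ _v ∈ Λ, (2 : ℝ), fun h => ?_⟩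
  unfold Zt
  refine (Finset.abs_sum_le_sum_abs _ _).trans (Finset.sum_le_sum fun S _ => ?_)
  unfold wtI
  rw [abs_mul]
  refine mul_le_mul le_rfl ?_ (abs_nonneg _) (abs_nonneg _)
  rw [Finset.abs_prod]
  refine Finset.prod_le_prod (fun _ _ => abs_nonneg _) fun v _ => ?_
  have h1 := (Real.abs_tanh_lt_one (h v)).le
  obtain ⟨h2, h3⟩ := abs_le.1 h1
  unfold sp
  split_ifs <;> rw [abs_le] <;> constructor <;> linarith

theorem measurable_tanh_pi : Measurable (fun h : V → ℝ => (fun w => Real.tanh (h w) : V → ℝ)) := by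
  rw [measurable_pi_iff]
  exact fun w => measurable_tanh.comp (measurable_pi_apply w)

theorem measurable_Ztt (G : SimpleGraph V) (θ : ℝ) (Λ : Finset V) :
    Measurable (fun h : V → ℝ => Zt G θ Λ (fun w => Real.tanh (h w))) :=
  (measurable_Zt G θ Λ).comp measurable_tanh_pi

theorem Zt_upd [DecidableEq V] {θ : ℝ} (h0 : 0 ≤ θ) (h1 : θ < 1) (Λ : Finset V) {u : V}
    (hu : u ∈ Λ) (h : V → ℝ) (a : ℝ) (ha : |a| < 1) :
    Zt G θ Λ (fun w => Real.tanh ((h + Pi.single u (Real.artanh a) : V → ℝ) w))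
        * (1 + a * Real.tanh (h u))
      = Zt G θ Λ (fun w => Real.tanh (h w))
        * (1 + a * mean G θ Λ (fun w => Real.tanh (h w)) u) := by
  have h5 := Zt_update (G := G) Λ (fun w => Real.tanh (h w)) u a hu (adm_tanh h0 h1 Λ h) ha
  rw [← h5]
  congr 1
  refine Zt_congr G θ Λ _ _ fun v _ => ?_
  rw [congrFun (tanh_single h u a ha) v]
  unfold Function.update
  split_ifs <;> rfl

theorem girs_aux (γ m t : ℝ) (hγ0 : 0 ≤ γ) (hγ1 : γ ≤ 1 / 2) (hm1 : |m| ≤ 1) (ht1 : |t| ≤ 1)
    (Z0 : ℝ) (F₁ Z₁ : ℝ → ℝ) (hF₁ : Measurable F₁) (hZ₁ : Measurable Z₁)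
    (hbF : ∃ C, ∀ x, |F₁ x| ≤ C) (hbZ : ∃ C, ∀ x, |Z₁ x| ≤ C)
    (hrel : ∀ x : ℝ, |x| ≤ 1 → Z₁ x * (1 + γ * x * t) = Z0 * (1 + γ * x * m)) :
    (∫ ξ : unitInterval, F₁ (2 * Qf (γ * m) ξ - 1)) * Z0
      = ∫ ξ : unitInterval, F₁ (2 * Qf (γ * t) ξ - 1) * Z₁ (2 * Qf (γ * t) ξ - 1) := by
  have hb : ∀ x : ℝ, |x| ≤ 1 → |γ * x| ≤ 1 / 2 := by
    intro x hx
    rw [abs_mul, abs_of_nonneg hγ0]
    calc γ * |x| ≤ (1 / 2) * 1 := mul_le_mul hγ1 hx (abs_nonneg _) (by norm_num)
      _ = 1 / 2 := by norm_num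
  obtain ⟨C, hC⟩ := hbF
  obtain ⟨C', hC'⟩ := hbZ
  have e1 := Qf_chg (hb m hm1) F₁ hF₁ ⟨C, hC⟩
  have e2 := Qf_chg (hb t ht1) (fun x => F₁ x * Z₁ x) (hF₁.mul hZ₁) ⟨C * C', fun x => by
      rw [abs_mul]
      exact mul_le_mul (hC _) (hC' _) (abs_nonneg _) ((abs_nonneg _).trans (hC 0))⟩
  refine Eq.trans ?_ e2.symm
  rw [e1, ← integral_mul_const]
  refine integral_congr_ae (Filter.Eventually.of_forall fun z => ?_)
  simp only
  have hz : |2 * (z : ℝ) - 1| ≤ 1 := by
    rw [abs_le]; constructor <;> linarith [z.2.1, z.2.2]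
  have h5 := hrel _ hz
  linear_combination (-(F₁ (2 * (z : ℝ) - 1))) * h5

theorem girs [DecidableEq V] {θ : ℝ} (h0 : 0 ≤ θ) (h1 : θ < 1) (Λ : Finset V) {u : V}
    (hu : u ∈ Λ) (h : V → ℝ) (s : ℝ) (F : (V → ℝ) → ℝ) (hF : Measurable F) {C : ℝ}
    (hC : ∀ x, |F x| ≤ C) :
    (∫ ξ : unitInterval, F (h + Pi.single u (phiI G θ Λ u s h ξ)))
        * Zt G θ Λ (fun w => Real.tanh (h w))
      = ∫ ξ : unitInterval, F (h + Pi.single u (phiI G 0 Λ u s h ξ))
        * Zt G θ Λ (fun w => Real.tanh ((h + Pi.single u (phiI G 0 Λ u s h ξ) : V → ℝ) w)) := by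
  obtain ⟨CZ, hCZ⟩ := Zt_bdd G θ Λ
  have hmt : mean G 0 Λ (fun w => Real.tanh (h w)) u = Real.tanh (h u) :=
    mean_theta_zero Λ (fun w => Real.tanh (h w)) (fun v _ => Real.abs_tanh_lt_one _) hu
  have hm1 : |mean G θ Λ (fun w => Real.tanh (h w)) u| ≤ 1 :=
    (mean_abs_lt Λ _ (adm_tanh h0 h1 Λ h) u).le
  have hmz : Measurable (fun x : ℝ => h + Pi.single u (Real.artanh (gam s * x))) :=
    (Pr.measurable_add_single u).comp (measurable_const.prodMk
      (measurable_artanh.comp (measurable_const.mul measurable_id)))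
  have key := girs_aux (gam s) (mean G θ Λ (fun w => Real.tanh (h w)) u) (Real.tanh (h u))
    (gam_nonneg s) (gam_le s) hm1 (Real.abs_tanh_lt_one _).le
    (Zt G θ Λ (fun w => Real.tanh (h w)))
    (fun x => F (h + Pi.single u (Real.artanh (gam s * x))))
    (fun x => Zt G θ Λ (fun w => Real.tanh
      ((h + Pi.single u (Real.artanh (gam s * x)) : V → ℝ) w)))
    (hF.comp hmz) ((measurable_Ztt G θ Λ).comp hmz) ⟨C, fun x => hC _⟩ ⟨CZ, fun x => hCZ _⟩
    (fun x hx => by
      refine Zt_upd h0 h1 Λ hu h (gam s * x) ?_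
      rw [abs_mul, abs_of_nonneg (gam_nonneg s)]
      calc gam s * |x| ≤ (1 / 2) * 1 := mul_le_mul (gam_le s) hx (abs_nonneg _) (by norm_num)
        _ < 1 := by norm_num)
  have e4 : ∀ ξ : unitInterval, phiI G 0 Λ u s h ξ
      = Real.artanh (gam s * (2 * Qf (gam s * Real.tanh (h u)) ξ - 1)) := by
    intro ξ
    unfold phiI
    rw [hmt]
  simp only [e4]
  exact key

theorem law_aux {θ : ℝ} (h0 : 0 ≤ θ) (h1 : θ < 1) (G : SimpleGraph V) (Λ : Finset V)
    (hZ : Zt G θ Λ (fun _ => 0) = 1) (T : ℝ) :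
    ∀ (n : ℕ) (A : Finset (V × ℕ)), A.card = n → (∀ i ∈ A, i.1 ∈ Λ) →
      ∀ (F : Lab V × (V → ℝ) → ℝ), Measurable F → ∀ C : ℝ, (∀ x, |F x| ≤ C) →
      (∀ s ∈ A, ∀ ω h ξ, F (Pr.setX ω s ξ, h) = F (ω, h)) →
      ∫ ω, F (ω, st (phiI G θ Λ) A ω T) ∂PP V
        = ∫ ω, F (ω, st (phiI G 0 Λ) A ω T)
          * Zt G θ Λ (fun v => Real.tanh (st (phiI G 0 Λ) A ω T v)) ∂PP V := by
  classical
  have hnone : ∀ (φ : V → ℝ → (V → ℝ) → unitInterval → ℝ) (A : Finset (V × ℕ)) (ω : Lab V),
      Pr.bef A ω T = ∅ → st φ A ω T = 0 := fun φ A ω h => Pr.st_zero φ h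
  intro n
  induction n with
  | zero =>
    intro A hA _ F _ C _ _
    rw [Finset.card_eq_zero] at hA
    subst hA
    refine integral_congr_ae (Filter.Eventually.of_forall fun ω => ?_)
    simp only
    have e : ∀ φ : V → ℝ → (V → ℝ) → unitInterval → ℝ, st φ ∅ ω T = 0 := fun φ =>
      hnone φ ∅ ω (by ext k; simp [Pr.mem_bef])
    rw [e, e]
    simp only [Pi.zero_apply, Real.tanh_zero]
    rw [hZ, mul_one]
  | succ n ih =>
    intro A hA hAΛ F hF C hC hX
    obtain ⟨CZ, hCZ⟩ := Zt_bdd G θ Λ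
    set FZ : Lab V × (V → ℝ) → ℝ :=
      fun p => F p * Zt G θ Λ (fun v => Real.tanh (p.2 v)) with hFZ
    have hFZm : Measurable FZ := hF.mul ((measurable_Ztt G θ Λ).comp measurable_snd)
    have hC0 : 0 ≤ C := (abs_nonneg _).trans (hC (fun _ _ => (0, 0), 0))
    have hFZC : ∀ x, |FZ x| ≤ C * CZ := by
      intro x
      rw [hFZ]
      simp only
      rw [abs_mul]
      exact mul_le_mul (hC _) (hCZ _) (abs_nonneg _) hC0
    have hFZX : ∀ s ∈ A, ∀ ω h ξ, FZ (Pr.setX ω s ξ, h) = FZ (ω, h) := by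
      intro s hs ω h ξ
      simp only [hFZ, hX s hs ω h ξ]
    have hst : ∀ φ : V → ℝ → (V → ℝ) → unitInterval → ℝ,
        (∀ v, Measurable (fun p : ℝ × (V → ℝ) × unitInterval => φ v p.1 p.2.1 p.2.2)) →
        Measurable (fun ω : Lab V => (ω, st φ A ω T)) := fun φ hφ =>
      measurable_id.prodMk ((measurable_st φ hφ A).comp (measurable_id.prodMk measurable_const))
    have hb1 : BM (V := V) (E := ℕ → Y01) (fun ω => F (ω, st (phiI G θ Λ) A ω T)) :=
      ⟨hF.comp (hst _ (measurable_phiI G θ Λ)), C, fun ω => hC _⟩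
    have hb2 : BM (V := V) (E := ℕ → Y01) (fun ω => FZ (ω, st (phiI G 0 Λ) A ω T)) :=
      ⟨hFZm.comp (hst _ (measurable_phiI G 0 Λ)), C * CZ, fun ω => hFZC _⟩
    change _ = ∫ ω, FZ (ω, st (phiI G 0 Λ) A ω T) ∂PP V
    rw [split_last A T hb1, split_last A T hb2]
    congr 1
    · refine Finset.sum_congr rfl fun s hs => ?_
      rw [last_step (phiI G θ Λ) (measurable_phiI G θ Λ) A T s hs F hF hC (hX s hs),
        last_step (phiI G 0 Λ) (measurable_phiI G 0 Λ) A T s hs FZ hFZm hFZC (hFZX s hs),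
        ih (A.erase s) (by rw [Finset.card_erase_of_mem hs, hA]; rfl)
          (fun i hi => hAΛ i (Finset.mem_of_mem_erase hi)) (stepF (phiI G θ Λ) A T s F)
          (measurable_stepF _ (measurable_phiI G θ Λ) A T s hs F hF) C
          (stepF_le _ A T s F hC)
          (fun s' hs' ω h ξ => stepF_setX _ A T s s' F
            (hX s' (Finset.mem_of_mem_erase hs')) ω h ξ)]
      refine integral_congr_ae (Filter.Eventually.of_forall fun ω => ?_)
      simp only [stepF]
      by_cases hl : Pr.Last A ω T s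
      · rw [if_pos hl, if_pos hl]
        exact girs h0 h1 Λ (hAΛ s hs) _ _ (fun x => F (ω, x))
          (hF.comp (measurable_const.prodMk measurable_id)) (fun x => hC _)
      · rw [if_neg hl, if_neg hl, zero_mul]
    · refine integral_congr_ae (Filter.Eventually.of_forall fun ω => ?_)
      by_cases he : Pr.bef A ω T = ∅
      · rw [Set.indicator_of_mem (s := {ω | Pr.bef A ω T = ∅}) he,
          Set.indicator_of_mem (s := {ω | Pr.bef A ω T = ∅}) he, hnone _ A ω he,
          hnone _ A ω he]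
        simp only [hFZ, Pi.zero_apply, Real.tanh_zero]
        rw [hZ, mul_one]
      · rw [Set.indicator_of_notMem (s := {ω | Pr.bef A ω T = ∅}) he,
          Set.indicator_of_notMem (s := {ω | Pr.bef A ω T = ∅}) he]

end girs

/-! ### the process at `θ = 0` -/

section free
variable {V : Type u} {G : SimpleGraph V}

/-- law of one vertex as a function of its labels -/
noncomputable def fU (T : ℝ) (e : ℕ → Y01) : ℝ :=
  mm (⊥ : SimpleGraph Unit) 0 {()} T (fun _ => e) ()

theorem mm_unit (T : ℝ) (ω : Lab Unit) :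
    mm (⊥ : SimpleGraph Unit) 0 {()} T ω ()
      = Real.tanh (hh (⊥ : SimpleGraph Unit) 0 {()} T ω ()) := by
  unfold mm
  exact mean_theta_zero {()} _ (fun v _ => Real.abs_tanh_lt_one _) (Finset.mem_singleton_self _)

theorem phi_zero (G : SimpleGraph V) (Λ : Finset V) {v : V} (hv : v ∈ Λ) (s : ℝ) (h : V → ℝ)
    (ξ : unitInterval) : phiI G 0 Λ v s h ξ
      = Real.artanh (gam s * (2 * Qf (gam s * Real.tanh (h v)) ξ - 1)) := by
  unfold phiI
  rw [mean_theta_zero Λ (fun w => Real.tanh (h w)) (fun v _ => Real.abs_tanh_lt_one _) hv]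

theorem st_free (Λ : Finset V) (n : ℕ) (ω : Lab V) {v : V} (hv : v ∈ Λ) (T : ℝ) :
    st (phiI G 0 Λ) (Λ ×ˢ Finset.range n) ω T v
      = st (phiI (⊥ : SimpleGraph Unit) 0 {()}) ({()} ×ˢ Finset.range n) (fun _ => ω v) T () := by
  classical
  refine bef_ind (Λ ×ˢ Finset.range n) ω (fun T => st (phiI G 0 Λ) (Λ ×ˢ Finset.range n) ω T v
      = st (phiI (⊥ : SimpleGraph Unit) 0 {()}) ({()} ×ˢ Finset.range n) (fun _ => ω v) T ())
    (fun T ih => ?_) T
  rw [Pr.st_eq, Pr.st_eq]
  refine Finset.sum_nbij' (fun k => ((), k.2)) (fun k => (v, k.2)) ?_ ?_ ?_ ?_ ?_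
  · intro k hk
    rw [Finset.mem_filter, Pr.mem_bef, Finset.mem_product] at hk ⊢
    obtain ⟨⟨⟨_, h2⟩, h3, h4⟩, h5⟩ := hk
    subst h5
    exact ⟨⟨⟨Finset.mem_singleton_self _, h2⟩, h3, h4⟩, rfl⟩
  · intro k hk
    rw [Finset.mem_filter, Pr.mem_bef, Finset.mem_product] at hk ⊢
    obtain ⟨⟨⟨_, h2⟩, h3, h4⟩, h5⟩ := hk
    exact ⟨⟨⟨hv, h2⟩, h3, h4⟩, rfl⟩
  · intro k hk
    rw [Finset.mem_filter] at hk
    exact Prod.ext hk.2.symm rfl
  · intro k _
    rfl
  · intro k hk
    rw [Finset.mem_filter] at hk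
    obtain ⟨hk1, hk2⟩ := hk
    have hi := ih k hk1
    unfold Pr.upd
    subst hk2
    rw [phi_zero G Λ hv, phi_zero (⊥ : SimpleGraph Unit) {()} (Finset.mem_singleton_self ())]
    have e1 : tm (V := Unit) (fun _ => ω k.1) ((), k.2) = tm ω k := rfl
    rw [e1, ← hi]

theorem hh_free (Λ : Finset V) (T : ℝ) (ω : Lab V) {v : V} (hv : v ∈ Λ) :
    Real.tanh (hh G 0 Λ T ω v) = fU T (ω v) := by
  unfold fU
  rw [mm_unit]
  unfold hh
  rw [st_free Λ _ ω hv]

theorem measurable_const_fun : Measurable (fun e : ℕ → Y01 => (fun _ => e : Lab Unit)) := by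
  rw [measurable_pi_iff]
  exact fun _ => measurable_id

theorem measurable_fU' (T : ℝ) :
    Measurable (fun ω : Lab Unit => mm (⊥ : SimpleGraph Unit) 0 {()} T ω ()) := by
  have h1 : Measurable (fun p : Lab Unit × ℝ => mm (⊥ : SimpleGraph Unit) 0 {()} p.2 p.1) :=
    measurable_mm (⊥ : SimpleGraph Unit) 0 {()}
  have h2 : Measurable (fun ω : Lab Unit => (ω, T)) := measurable_id.prodMk measurable_const
  have h3 : Measurable (fun ω : Lab Unit => mm (⊥ : SimpleGraph Unit) 0 {()} T ω) :=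
    Measurable.comp (g := fun p : Lab Unit × ℝ => mm (⊥ : SimpleGraph Unit) 0 {()} p.2 p.1)
      (f := fun ω : Lab Unit => (ω, T)) h1 h2
  exact (measurable_pi_iff.1 h3) ()

theorem measurable_fU (T : ℝ) : Measurable (fU T) :=
  Measurable.comp (g := fun ω : Lab Unit => mm (⊥ : SimpleGraph Unit) 0 {()} T ω ())
    (f := fun e : ℕ → Y01 => (fun _ => e : Lab Unit)) (measurable_fU' T) measurable_const_fun

theorem nu_eq (T : ℝ) : nu T = muE.map (fU T) := by
  unfold nu
  have e : (fun ω : Lab Unit => mm (⊥ : SimpleGraph Unit) 0 {()} T ω ())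
      = fU T ∘ (fun ω : Lab Unit => ω ()) := by
    funext ω
    simp only [Function.comp, fU]
  rw [e, ← Measure.map_map (measurable_fU T) (measurable_pi_apply ())]
  unfold PP
  rw [Measure.infinitePi_map_eval]

end free

end P2x

open P2x

variable {V : Type u} {G : SimpleGraph V} [G.LocallyFinite]

/-- **(P2)** exact law of the process in a ball -/
theorem P2 (hT : G.IsTree) {θ : ℝ} (h0 : 0 ≤ θ) (h1 : θ < 1) (o : V) (R : ℕ) (T : ℝ)
    (F : (V → ℝ) → ℝ) (hF : Measurable F) (hb : ∃ C, ∀ x, |F x| ≤ C) :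
    ∫ ω, F (fun v => Real.tanh (hh G θ (ball G o R) T ω v)) ∂PP V
      = ∫ t, F (fun v => (by classical exact if v ∈ ball G o R then t v else 0))
          * Zt G θ (ball G o R) t ∂(Measure.infinitePi (fun _ : V => nu T)) := by
  classical
  obtain ⟨C, hC⟩ := hb
  have h := P2x.law_aux h0 h1 G (ball G o R) (Zt_ball_zero hT h0 h1 o R) T _
    (ball G o R ×ˢ Finset.range ⌈T⌉₊) rfl (fun i hi => (Finset.mem_product.1 hi).1)
    (fun p => F (fun v => Real.tanh (p.2 v))) (hF.comp (P2x.measurable_tanh_pi.comp measurable_snd))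
    C (fun x => hC _) (fun s _ ω h ξ => rfl)
  refine h.trans ?_
  have hmeas : Measurable (fun t : V → ℝ => F (fun v => if v ∈ ball G o R then t v else 0)
      * Zt G θ (ball G o R) t) := by
    refine (hF.comp ?_).mul (measurable_Zt G θ _)
    rw [measurable_pi_iff]
    intro v
    by_cases hv : v ∈ ball G o R
    · simp only [if_pos hv]; exact measurable_pi_apply v
    · simp only [if_neg hv]; exact measurable_const
  have e1 : (Measure.infinitePi (fun _ : V => nu T))
      = (PP V).map (fun ω v => P2x.fU T (ω v)) := by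
    unfold PP
    rw [Measure.infinitePi_map_pi (fun _ : V => muE) (f := fun _ => P2x.fU T)
      (fun _ => P2x.measurable_fU T)]
    simp only [P2x.nu_eq]
  have hm2 : Measurable (fun (ω : Lab V) (v : V) => P2x.fU T (ω v)) := by
    rw [measurable_pi_iff]
    exact fun v => (P2x.measurable_fU T).comp (measurable_pi_apply v)
  rw [e1, integral_map hm2.aemeasurable hmeas.aestronglyMeasurable]
  refine integral_congr_ae (Filter.Eventually.of_forall fun ω => ?_)
  simp only
  congr 1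
  · congr 1
    funext v
    by_cases hv : v ∈ ball G o R
    · rw [if_pos hv]; exact P2x.hh_free (ball G o R) T ω hv
    · rw [if_neg hv]
      have := hh_notMem (G := G) 0 (ball G o R) T ω v hv
      unfold hh at this
      rw [this, Real.tanh_zero]
  · refine Zt_congr G θ _ _ _ fun v hv => ?_
    exact P2x.hh_free (ball G o R) T ω hv

end Crest.Agent.T41
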