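import Crest.Agent.T41Defs
import Crest.Agent.T41Decor

/-!
S0241, part PR: the general additive update process (resampling, locality, measurability,
generator formula).
-/

set_option autoImplicit false
set_option linter.unusedSectionVars false

namespace Crest.Agent.T41

open MeasureTheory

universe u v

instance : IsProbabilityMeasure muE := by
  unfold muE; infer_instance

instance {V : Type u} : IsProbabilityMeasure (PP V) := by
  unfold PP; infer_instance

namespace Pr

section process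
variable {V : Type u} {M : Type v} [AddCommMonoid M]
  (φ : V → ℝ → (V → M) → unitInterval → M)

/-- the active sites of `A` before time `T` -/
noncomputable def bef (A : Finset (V × ℕ)) (ω : Lab V) (T : ℝ) : Finset (V × ℕ) := by
  classical exact A.filter (fun k => act ω k ∧ tm ω k < T)

theorem mem_bef {A : Finset (V × ℕ)} {ω : Lab V} {T : ℝ} {k : V × ℕ} :
    k ∈ bef A ω T ↔ k ∈ A ∧ act ω k ∧ tm ω k < T := by
  simp only [bef, Finset.mem_filter]

theorem filter_eq {M : Type*} [AddCommMonoid M] [DecidableEq V] (A : Finset (V × ℕ)) (ω : Lab V) (T : ℝ) (v : V)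
    (f : V × ℕ → M) {_ : DecidablePred (fun k : V × ℕ => k.1 = v ∧ act ω k ∧ tm ω k < T)} :
    (∑ k ∈ A.filter (fun k : V × ℕ => k.1 = v ∧ act ω k ∧ tm ω k < T), f k)
      = ∑ k ∈ bef A ω T with k.1 = v, f k := by
  refine Finset.sum_congr ?_ fun _ _ => rfl
  ext k
  simp only [Finset.mem_filter, mem_bef]
  tauto

theorem cN_succ [DecidableEq V] (A : Finset (V × ℕ)) (ω : Lab V) (n : ℕ) (i : V × ℕ) :
    cN φ A ω (n + 1) i = φ i.1 (tm ω i)
      (fun v => ∑ k ∈ bef A ω (tm ω i) with k.1 = v, cN φ A ω n k) (ω i.1 i.2).2 := by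
  rw [cN]
  congr 1
  funext v
  exact filter_eq A ω _ v (fun k => cN φ A ω n k)

theorem st_eq_sum [DecidableEq V] (A : Finset (V × ℕ)) (ω : Lab V) (T : ℝ) (v : V) :
    st φ A ω T v = ∑ k ∈ bef A ω T with k.1 = v, cN φ A ω A.card k := by
  rw [st]
  exact filter_eq A ω _ v (fun k => cN φ A ω A.card k)

/-- rank of a site -/
noncomputable def rk (A : Finset (V × ℕ)) (ω : Lab V) (k : V × ℕ) : ℕ :=
  (bef A ω (tm ω k)).card

theorem rk_lt {A : Finset (V × ℕ)} {ω : Lab V} {j k : V × ℕ} (h : j ∈ bef A ω (tm ω k)) :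
    rk A ω j < rk A ω k := by
  refine Finset.card_lt_card ⟨fun i hi => ?_, fun hc => ?_⟩
  · rw [mem_bef] at hi h ⊢
    exact ⟨hi.1, hi.2.1, hi.2.2.trans h.2.2⟩
  · have := hc h
    rw [mem_bef] at this
    exact lt_irrefl _ this.2.2

theorem rk_lt_card {A : Finset (V × ℕ)} {ω : Lab V} {k : V × ℕ} (h : k ∈ A) :
    rk A ω k < A.card := by
  refine Finset.card_lt_card ⟨fun i hi => (mem_bef.1 hi).1, fun hc => ?_⟩
  have := hc h
  rw [mem_bef] at this
  exact lt_irrefl _ this.2.2

theorem tm_congr {ω ω' : Lab V} {k : V × ℕ} (h : ω k.1 k.2 = ω' k.1 k.2) :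
    tm ω k = tm ω' k := by unfold tm; rw [h]

theorem act_congr {ω ω' : Lab V} {k : V × ℕ} (h : ω k.1 k.2 = ω' k.1 k.2) :
    act ω k ↔ act ω' k := by unfold act; rw [h]

/-- comparison of the iterates -/
theorem cN_congr {A A' : Finset (V × ℕ)} {ω ω' : Lab V} {T T' : ℝ}
    (h : bef A ω T = bef A' ω' T') (hl : ∀ k ∈ bef A ω T, ω k.1 k.2 = ω' k.1 k.2) :
    ∀ (r : ℕ) (k : V × ℕ), k ∈ bef A ω T → rk A ω k = r → ∀ n n', r < n → r < n' →
      cN φ A ω n k = cN φ A' ω' n' k := by
  classical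
  intro r
  induction r using Nat.strong_induction_on with
  | _ r ih =>
    intro k hk hr n n' hn hn'
    obtain ⟨m, rfl⟩ : ∃ m, n = m + 1 := ⟨n - 1, by omega⟩
    obtain ⟨m', rfl⟩ : ∃ m', n' = m' + 1 := ⟨n' - 1, by omega⟩
    have hkl := hl k hk
    have htm := tm_congr hkl
    have hkT := (mem_bef.1 hk).2.2
    have hb : bef A ω (tm ω k) = bef A' ω' (tm ω' k) := by
      ext i
      constructor
      · intro hi
        have hi' := mem_bef.1 hi
        have h1 : i ∈ bef A ω T := mem_bef.2 ⟨hi'.1, hi'.2.1, hi'.2.2.trans hkT⟩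
        have h2 := hl i h1
        rw [h] at h1
        rw [mem_bef] at h1 ⊢
        exact ⟨h1.1, h1.2.1, by rw [← tm_congr h2, ← htm]; exact hi'.2.2⟩
      · intro hi
        have hi' := mem_bef.1 hi
        have h1 : i ∈ bef A' ω' T' := mem_bef.2 ⟨hi'.1, hi'.2.1,
          hi'.2.2.trans (mem_bef.1 (h ▸ hk)).2.2⟩
        rw [← h] at h1
        have h2 := hl i h1
        rw [mem_bef] at h1 ⊢
        exact ⟨h1.1, h1.2.1, by rw [tm_congr h2, htm]; exact hi'.2.2⟩
    rw [cN_succ, cN_succ, ← hb, ← hkl, ← htm]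
    congr 1
    funext v
    refine Finset.sum_congr rfl fun j hj => ?_
    have hj' := (Finset.mem_filter.1 hj).1
    have hlt := rk_lt hj'
    have hj2 := mem_bef.1 hj'
    exact ih (rk A ω j) (by omega) j (mem_bef.2 ⟨hj2.1, hj2.2.1, hj2.2.2.trans hkT⟩) rfl m m'
      (by omega) (by omega)

/-- comparison of states -/
theorem st_congr {A A' : Finset (V × ℕ)} {ω ω' : Lab V} {T T' : ℝ}
    (h : bef A ω T = bef A' ω' T')
    (hl : ∀ k ∈ bef A ω T, ω k.1 k.2 = ω' k.1 k.2) : st φ A ω T = st φ A' ω' T' := by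
  classical
  funext v
  rw [st_eq_sum, st_eq_sum, ← h]
  refine Finset.sum_congr rfl fun k hk => ?_
  have hk := (Finset.mem_filter.1 hk).1
  have hr1 := rk_lt_card (ω := ω) (mem_bef.1 hk).1
  have hr2 : rk A ω k < A'.card := by
    have hkl := hl k hk
    have hk' : k ∈ bef A' ω' T' := h ▸ hk
    refine lt_of_le_of_lt ?_ (rk_lt_card (ω := ω') (mem_bef.1 hk').1)
    refine Finset.card_le_card fun i hi => ?_
    have hi' := mem_bef.1 hi
    have h1 : i ∈ bef A ω T := mem_bef.2 ⟨hi'.1, hi'.2.1, hi'.2.2.trans (mem_bef.1 hk).2.2⟩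
    have h2 := hl i h1
    rw [h] at h1
    rw [mem_bef] at h1 ⊢
    exact ⟨h1.1, h1.2.1, by rw [← tm_congr h2, ← tm_congr hkl]; exact hi'.2.2⟩
  exact cN_congr φ h hl _ k hk rfl _ _ hr1 hr2

/-- contribution of the site `k` -/
noncomputable def upd (A : Finset (V × ℕ)) (ω : Lab V) (k : V × ℕ) : M :=
  φ k.1 (tm ω k) (st φ A ω (tm ω k)) (ω k.1 k.2).2

/-- **fixed point equation** -/
theorem st_eq [DecidableEq V] (A : Finset (V × ℕ)) (ω : Lab V) (T : ℝ) (v : V) :
    st φ A ω T v = ∑ k ∈ bef A ω T with k.1 = v, upd φ A ω k := by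
  rw [st_eq_sum]
  refine Finset.sum_congr rfl fun k hk => ?_
  have hk := (Finset.mem_filter.1 hk).1
  have hr := rk_lt_card (ω := ω) (mem_bef.1 hk).1
  rw [cN_congr φ rfl (fun _ _ => rfl) _ k hk rfl A.card (A.card + 1) hr (by omega), cN_succ]
  unfold upd
  congr 1
  funext w
  rw [st_eq_sum]

/-- labels outside `A` do not matter -/
theorem st_dep {A : Finset (V × ℕ)} {ω ω' : Lab V} (h : ∀ k ∈ A, ω k.1 k.2 = ω' k.1 k.2)
    (T : ℝ) : st φ A ω T = st φ A ω' T := by
  refine st_congr φ ?_ (fun k hk => h k (mem_bef.1 hk).1)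
  ext k
  rw [mem_bef, mem_bef]
  constructor
  · rintro ⟨h1, h2, h3⟩
    exact ⟨h1, (act_congr (h k h1)).1 h2, by rw [← tm_congr (h k h1)]; exact h3⟩
  · rintro ⟨h1, h2, h3⟩
    exact ⟨h1, (act_congr (h k h1)).2 h2, by rw [tm_congr (h k h1)]; exact h3⟩

/-- an inactive or late site does nothing -/
theorem st_erase [DecidableEq (V × ℕ)] {A : Finset (V × ℕ)} {ω : Lab V} {T : ℝ} {s : V × ℕ}
    (h : ¬ (act ω s ∧ tm ω s < T)) : st φ A ω T = st φ (A.erase s) ω T := by
  refine st_congr φ ?_ (fun _ _ => rfl)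
  ext k
  rw [mem_bef, mem_bef, Finset.mem_erase]
  constructor
  · rintro ⟨h1, h2, h3⟩
    exact ⟨⟨fun hks => h (hks ▸ ⟨h2, h3⟩), h1⟩, h2, h3⟩
  · rintro ⟨⟨_, h1⟩, h2, h3⟩
    exact ⟨h1, h2, h3⟩

/-- only sites before time `T` matter -/
theorem st_range {A A' : Finset (V × ℕ)} {ω : Lab V} {T : ℝ}
    (h : ∀ k, tm ω k < T → (k ∈ A ↔ k ∈ A')) : st φ A ω T = st φ A' ω T := by
  refine st_congr φ ?_ (fun _ _ => rfl)
  ext k
  rw [mem_bef, mem_bef]
  constructor
  · rintro ⟨h1, h2, h3⟩; exact ⟨(h k h3).1 h1, h2, h3⟩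
  · rintro ⟨h1, h2, h3⟩; exact ⟨(h k h3).2 h1, h2, h3⟩

/-- no active site before `T` -/
theorem st_zero {A : Finset (V × ℕ)} {ω : Lab V} {T : ℝ} (h : bef A ω T = ∅) :
    st φ A ω T = 0 := by
  classical
  funext v
  rw [st_eq_sum, h]; simp

/-- `s` is the last active site before `T` -/
def Last (A : Finset (V × ℕ)) (ω : Lab V) (T : ℝ) (s : V × ℕ) : Prop :=
  s ∈ bef A ω T ∧ ∀ k ∈ bef A ω T, k ≠ s → tm ω k < tm ω s

theorem st_last_before [DecidableEq (V × ℕ)] {A : Finset (V × ℕ)} {ω : Lab V} {T : ℝ} {s : V × ℕ}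
    (h : Last A ω T s) : st φ A ω (tm ω s) = st φ (A.erase s) ω T := by
  refine st_congr φ ?_ (fun _ _ => rfl)
  ext k
  rw [mem_bef, mem_bef, Finset.mem_erase]
  have hs := mem_bef.1 h.1
  constructor
  · rintro ⟨h1, h2, h3⟩
    refine ⟨⟨fun hks => ?_, h1⟩, h2, h3.trans hs.2.2⟩
    rw [hks] at h3; exact lt_irrefl _ h3
  · rintro ⟨⟨h0, h1⟩, h2, h3⟩
    exact ⟨h1, h2, h.2 k (mem_bef.2 ⟨h1, h2, h3⟩) h0⟩

theorem st_erase_before [DecidableEq (V × ℕ)] {A : Finset (V × ℕ)} {ω : Lab V} {s : V × ℕ} {τ : ℝ}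
    (h : τ ≤ tm ω s) : st φ A ω τ = st φ (A.erase s) ω τ :=
  st_erase φ (fun hh => not_lt.2 h hh.2)

/-- **removal of the last site** -/
theorem st_last [DecidableEq V] [DecidableEq (V × ℕ)] {A : Finset (V × ℕ)} {ω : Lab V} {T : ℝ}
    {s : V × ℕ} (h : Last A ω T s) : st φ A ω T = st φ (A.erase s) ω T + Pi.single s.1
      (φ s.1 (tm ω s) (st φ (A.erase s) ω T) (ω s.1 s.2).2) := by
  funext v
  have hs := mem_bef.1 h.1
  have hb : bef A ω T = insert s (bef (A.erase s) ω T) := by
    ext k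
    rw [Finset.mem_insert, mem_bef, mem_bef, Finset.mem_erase]
    constructor
    · rintro ⟨h1, h2, h3⟩
      by_cases hk : k = s
      · left; exact hk
      · right; exact ⟨⟨hk, h1⟩, h2, h3⟩
    · rintro (rfl | ⟨⟨_, h1⟩, h2, h3⟩)
      · exact hs
      · exact ⟨h1, h2, h3⟩
  have hns : s ∉ bef (A.erase s) ω T := by
    rw [mem_bef, Finset.mem_erase]; rintro ⟨⟨h1, _⟩, _⟩; exact h1 rfl
  have hup : ∀ k ∈ bef (A.erase s) ω T, upd φ A ω k = upd φ (A.erase s) ω k := by
    intro k hk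
    unfold upd
    have hk' := mem_bef.1 hk
    rw [Finset.mem_erase] at hk'
    rw [st_erase_before φ (h.2 k (mem_bef.2 ⟨hk'.1.2, hk'.2⟩) hk'.1.1).le]
  rw [st_eq, hb, Finset.filter_insert, Pi.add_apply, Pi.single_apply]
  have e1 : upd φ A ω s = φ s.1 (tm ω s) (st φ (A.erase s) ω T) (ω s.1 s.2).2 := by
    unfold upd; rw [st_last_before φ h]
  have e2 : ∑ k ∈ bef (A.erase s) ω T with k.1 = v, upd φ A ω k
      = st φ (A.erase s) ω T v := by
    rw [st_eq]
    exact Finset.sum_congr rfl fun k hk => hup k (Finset.mem_filter.1 hk).1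
  by_cases hv : s.1 = v
  · rw [if_pos hv, if_pos hv.symm, Finset.sum_insert (fun hh => hns (Finset.mem_filter.1 hh).1),
      e1, e2, add_comm]
  · rw [if_neg hv, if_neg (fun hh => hv hh.symm), e2, add_zero]

/-- images under monoid homomorphisms -/
theorem cN_map {M' : Type*} [AddCommMonoid M'] (φ' : V → ℝ → (V → M') → unitInterval → M')
    (f : M →+ M') (hf : ∀ v s h ξ, f (φ v s h ξ) = φ' v s (fun w => f (h w)) ξ)
    (A : Finset (V × ℕ)) (ω : Lab V) (n : ℕ) (k : V × ℕ) :
    f (cN φ A ω n k) = cN φ' A ω n k := by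
  classical
  induction n generalizing k with
  | zero => rw [cN, cN, map_zero]
  | succ n ih =>
    rw [cN_succ, cN_succ, hf]
    congr 1
    funext w
    rw [map_sum]
    exact Finset.sum_congr rfl fun j _ => ih j

theorem st_map {M' : Type*} [AddCommMonoid M'] (φ' : V → ℝ → (V → M') → unitInterval → M')
    (f : M →+ M') (hf : ∀ v s h ξ, f (φ v s h ξ) = φ' v s (fun w => f (h w)) ξ)
    (A : Finset (V × ℕ)) (ω : Lab V) (T : ℝ) (v : V) :
    f (st φ A ω T v) = st φ' A ω T v := by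
  classical
  rw [st_eq_sum, st_eq_sum, map_sum]
  exact Finset.sum_congr rfl fun j _ => cN_map φ φ' f hf A ω _ j

/-! ### equivariance -/

/-- action of a bijection on sites -/
def siteE (g : V ≃ V) : V × ℕ ≃ V × ℕ := Equiv.prodCongr g (Equiv.refl ℕ)

theorem tm_comp (g : V ≃ V) (ω : Lab V) (k : V × ℕ) :
    tm ω (siteE g k) = tm (ω ∘ g) k := rfl

theorem act_comp (g : V ≃ V) (ω : Lab V) (k : V × ℕ) :
    act ω (siteE g k) ↔ act (ω ∘ g) k := Iff.rfl

theorem bef_comp (g : V ≃ V) (A : Finset (V × ℕ)) (ω : Lab V) (T : ℝ) :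
    bef (A.map (siteE g).toEmbedding) ω T = (bef A (ω ∘ g) T).map (siteE g).toEmbedding := by
  ext k
  rw [mem_bef, Finset.mem_map_equiv, Finset.mem_map_equiv, mem_bef]
  have h1 : act ω k ↔ act (ω ∘ g) ((siteE g).symm k) := by
    rw [← act_comp, Equiv.apply_symm_apply]
  have h2 : tm ω k = tm (ω ∘ g) ((siteE g).symm k) := by
    rw [← tm_comp, Equiv.apply_symm_apply]
  rw [h1, h2]

theorem cN_comp (φ' : V → ℝ → (V → M) → unitInterval → M) (g : V ≃ V)
    (hφ : ∀ v s h ξ, φ' (g v) s h ξ = φ v s (h ∘ g) ξ) (A : Finset (V × ℕ)) (ω : Lab V)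
    (n : ℕ) (k : V × ℕ) :
    cN φ' (A.map (siteE g).toEmbedding) ω n (siteE g k) = cN φ A (ω ∘ g) n k := by
  classical
  induction n generalizing k with
  | zero => rw [cN, cN]
  | succ n ih =>
    rw [cN_succ, cN_succ, bef_comp]
    have e : (siteE g k).1 = g k.1 := rfl
    rw [e, hφ, tm_comp]
    have e2 : (ω (g k.1) (siteE g k).2).2 = ((ω ∘ g) k.1 k.2).2 := rfl
    rw [e2]
    congr 1
    funext w
    simp only [Function.comp_apply]
    rw [Finset.sum_filter, Finset.sum_map, Finset.sum_filter]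
    refine Finset.sum_congr rfl fun j _ => ?_
    have e3 : ((siteE g).toEmbedding j).1 = g w ↔ j.1 = w := g.injective.eq_iff
    by_cases hj : j.1 = w
    · rw [if_pos (e3.2 hj), if_pos hj]; exact ih j
    · rw [if_neg (fun hh => hj (e3.1 hh)), if_neg hj]

/-- **equivariance of the state** -/
theorem st_comp (φ' : V → ℝ → (V → M) → unitInterval → M) (g : V ≃ V)
    (hφ : ∀ v s h ξ, φ' (g v) s h ξ = φ v s (h ∘ g) ξ) (A : Finset (V × ℕ)) (ω : Lab V)
    (T : ℝ) (v : V) :
    st φ' (A.map (siteE g).toEmbedding) ω T (g v) = st φ A (ω ∘ g) T v := by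
  classical
  rw [st_eq_sum, st_eq_sum, bef_comp, Finset.card_map, Finset.sum_filter, Finset.sum_map,
    Finset.sum_filter]
  refine Finset.sum_congr rfl fun j _ => ?_
  have e3 : ((siteE g).toEmbedding j).1 = g v ↔ j.1 = v := g.injective.eq_iff
  by_cases hj : j.1 = v
  · rw [if_pos (e3.2 hj), if_pos hj]; exact cN_comp φ φ' g hφ A ω _ j
  · rw [if_neg (fun hh => hj (e3.1 hh)), if_neg hj]

end process

section resample

theorem resample_pi {ι : Type*} [DecidableEq ι] {X : ι → Type*} [∀ i, MeasurableSpace (X i)]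
    (μ : ∀ i, Measure (X i)) [∀ i, IsProbabilityMeasure (μ i)] (s : ι) {Z : Type*}
    [MeasurableSpace Z] (ζ : Measure Z) [IsProbabilityMeasure ζ] (r : X s × Z → X s)
    (hr : Measurable r) (hμ : ((μ s).prod ζ).map r = μ s) :
    ((Measure.infinitePi μ).prod ζ).map (fun p => Function.update p.1 s (r (p.1 s, p.2)))
      = Measure.infinitePi μ := by
  have hm : Measurable (fun p : (∀ i, X i) × Z => Function.update p.1 s (r (p.1 s, p.2))) := by
    rw [measurable_pi_iff]
    intro i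
    by_cases h : i = s
    · subst h
      simp only [Function.update_self]
      exact hr.comp (((measurable_pi_apply _).comp measurable_fst).prodMk measurable_snd)
    · simp only [Function.update_of_ne h]
      exact (measurable_pi_apply _).comp measurable_fst
  refine Measure.eq_infinitePi _ fun S t ht => ?_
  have hbox : MeasurableSet ((S : Set ι).pi t) := MeasurableSet.pi S.countable_toSet fun i _ => ht i
  rw [Measure.map_apply hm hbox, Measure.prod_apply_symm (hm hbox)]
  have h1 : ∀ z : Z, (fun x : (∀ i, X i) => (x, z)) ⁻¹'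
      ((fun p : (∀ i, X i) × Z => Function.update p.1 s (r (p.1 s, p.2))) ⁻¹' ((S : Set ι).pi t))
      = (S : Set ι).pi (Function.update t s {x | r (x, z) ∈ t s}) := by
    intro z
    ext x
    simp only [Set.mem_preimage, Set.mem_pi, Finset.mem_coe]
    refine forall₂_congr fun i _ => ?_
    by_cases h : i = s
    · subst h; simp
    · simp [Function.update_of_ne h]
  have hm1 : ∀ z : Z, ∀ i, MeasurableSet (Function.update t s {x | r (x, z) ∈ t s} i) := by
    intro z i
    by_cases h : i = s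
    · subst h
      simp only [Function.update_self]
      exact (hr.comp measurable_prodMk_right) (ht i)
    · simp only [Function.update_of_ne h]; exact ht i
  simp only [h1]
  simp only [Measure.infinitePi_pi _ (fun i _ => hm1 _ i)]
  by_cases hs : s ∈ S
  · rw [← Finset.mul_prod_erase S _ hs]
    have h2 : ∀ z : Z, ∏ i ∈ S, μ i (Function.update t s {x | r (x, z) ∈ t s} i)
        = μ s {x | r (x, z) ∈ t s} * ∏ i ∈ S.erase s, μ i (t i) := by
      intro z
      rw [← Finset.mul_prod_erase S _ hs, Function.update_self]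
      congr 1
      refine Finset.prod_congr rfl fun i hi => ?_
      rw [Function.update_of_ne (Finset.ne_of_mem_erase hi)]
    simp only [h2]
    rw [lintegral_mul_const]
    · congr 1
      conv_rhs => rw [← hμ, Measure.map_apply hr (ht s), Measure.prod_apply_symm (hr (ht s))]
      rfl
    · exact measurable_measure_prodMk_right (hr (ht s))
  · have h2 : ∀ z : Z, ∏ i ∈ S, μ i (Function.update t s {x | r (x, z) ∈ t s} i)
        = ∏ i ∈ S, μ i (t i) := by
      intro z
      refine Finset.prod_congr rfl fun i hi => ?_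
      have : i ≠ s := by rintro rfl; exact hs hi
      rw [Function.update_of_ne this]
    simp only [h2]
    simp

variable {V : Type u}

/-- replace the label of the site `s` -/
noncomputable def setL (ω : Lab V) (s : V × ℕ) (y : Y01) : Lab V := by
  classical exact Function.update ω s.1 (Function.update (ω s.1) s.2 y)

/-- replace the randomness (second component) of the label of the site `s` -/
noncomputable def setX (ω : Lab V) (s : V × ℕ) (ξ : unitInterval) : Lab V :=
  setL ω s ((ω s.1 s.2).1, ξ)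

theorem setL_self (ω : Lab V) (s : V × ℕ) (y : Y01) : setL ω s y s.1 s.2 = y := by
  classical
  simp [setL]

theorem setL_ne (ω : Lab V) (s : V × ℕ) (y : Y01) (k : V × ℕ) (h : k ≠ s) :
    setL ω s y k.1 k.2 = ω k.1 k.2 := by
  classical
  unfold setL
  by_cases h1 : k.1 = s.1
  · rw [h1, Function.update_self]
    have h2 : k.2 ≠ s.2 := fun h2 => h (Prod.ext h1 h2)
    rw [Function.update_of_ne h2]
  · rw [Function.update_of_ne h1]


theorem setL_map_general {Z : Type*} [MeasurableSpace Z] (ζ : Measure Z)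
    [IsProbabilityMeasure ζ] (r : Y01 × Z → Y01) (hr : Measurable r)
    (hμ : ((volume : Measure Y01).prod ζ).map r = volume) (s : V × ℕ) :
    ((PP V).prod ζ).map (fun p => setL p.1 s (r (p.1 s.1 s.2, p.2))) = PP V := by
  classical
  have h1 := resample_pi (fun _ : ℕ => (volume : Measure Y01)) s.2 ζ r hr hμ
  have hm : Measurable (fun p : (ℕ → Y01) × Z =>
      Function.update p.1 s.2 (r (p.1 s.2, p.2))) := by
    rw [measurable_pi_iff]
    intro i
    by_cases h : i = s.2
    · subst h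
      simp only [Function.update_self]
      exact hr.comp (((measurable_pi_apply _).comp measurable_fst).prodMk measurable_snd)
    · simp only [Function.update_of_ne h]
      exact (measurable_pi_apply _).comp measurable_fst
  have h2 := resample_pi (fun _ : V => muE) s.1 ζ _ hm h1
  unfold PP
  convert h2 using 2
  funext p
  simp [setL]

theorem setL_map (s : V × ℕ) :
    ((PP V).prod (volume : Measure Y01)).map (fun p => setL p.1 s p.2) = PP V := by
  have := setL_map_general (V := V) (volume : Measure Y01) (fun p => p.2) measurable_snd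
    (by rw [Measure.map_snd_prod]; simp) s
  exact this

theorem setX_map (s : V × ℕ) :
    ((PP V).prod (volume : Measure unitInterval)).map (fun p => setX p.1 s p.2) = PP V := by
  have hm : Measurable (fun p : Y01 × unitInterval => ((p.1.1, p.2) : Y01)) := by fun_prop
  have := setL_map_general (V := V) (volume : Measure unitInterval)
    (fun p => ((p.1.1, p.2) : Y01)) hm ?_ s
  · exact this
  · have h1 : MeasurePreserving (fun p : Y01 × unitInterval => ((p.1.1, p.2) : Y01))
        ((volume : Measure Y01).prod volume) volume := by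
      have h2 : MeasurePreserving (Prod.fst : Y01 → unitInterval) volume volume := by
        refine ⟨measurable_fst, ?_⟩
        rw [Measure.volume_eq_prod, Measure.map_fst_prod]; simp
      exact h2.prod (MeasurePreserving.id _)
    exact h1.map_eq

theorem measurable_setL (s : V × ℕ) : Measurable (fun p : Lab V × Y01 => setL p.1 s p.2) := by
  classical
  rw [measurable_pi_iff]
  intro v
  rw [measurable_pi_iff]
  intro j
  by_cases h : (v, j) = s
  · subst h
    have : (fun p : Lab V × Y01 => setL p.1 (v, j) p.2 v j) = fun p => p.2 := by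
      funext p; exact setL_self p.1 (v, j) p.2
    rw [this]; exact measurable_snd
  · have : (fun p : Lab V × Y01 => setL p.1 s p.2 v j) = fun p => p.1 v j := by
      funext p; exact setL_ne p.1 s p.2 (v, j) h
    rw [this]
    exact (measurable_pi_apply j).comp ((measurable_pi_apply v).comp measurable_fst)

theorem measurable_setX (s : V × ℕ) :
    Measurable (fun p : Lab V × unitInterval => setX p.1 s p.2) := by
  have h1 : Measurable (fun p : Lab V × unitInterval => (p.1, (((p.1 s.1 s.2).1, p.2) : Y01))) := by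
    refine measurable_fst.prodMk (Measurable.prodMk ?_ measurable_snd)
    exact measurable_fst.comp ((measurable_pi_apply _).comp
      ((measurable_pi_apply _).comp measurable_fst))
  exact (measurable_setL s).comp h1

/-- resampling the randomness of one site -/
theorem integral_setX (s : V × ℕ) {f : Lab V → ℝ} (hf : BM f) :
    ∫ ω, f ω ∂(PP V) = ∫ ω, (∫ ξ : unitInterval, f (setX ω s ξ)) ∂(PP V) := by
  conv_lhs => rw [← setX_map s]
  rw [integral_map (measurable_setX s).aemeasurable hf.meas.aestronglyMeasurable,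
    integral_prod (f := fun p : Lab V × unitInterval => f (setX p.1 s p.2))]
  obtain ⟨A, hA⟩ := hf.bdd
  exact Integrable.of_bound (hf.meas.comp (measurable_setX s)).aestronglyMeasurable A
    (Filter.Eventually.of_forall fun x => by rw [Real.norm_eq_abs]; exact hA _)

/-- resampling the whole label of one site -/
theorem integral_setL (s : V × ℕ) {f : Lab V → ℝ} (hf : BM f) :
    ∫ ω, f ω ∂(PP V) = ∫ ω, (∫ y : Y01, f (setL ω s y)) ∂(PP V) := by
  conv_lhs => rw [← setL_map s]
  rw [integral_map (measurable_setL s).aemeasurable hf.meas.aestronglyMeasurable,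
    integral_prod (f := fun p : Lab V × Y01 => f (setL p.1 s p.2))]
  obtain ⟨A, hA⟩ := hf.bdd
  exact Integrable.of_bound (hf.meas.comp (measurable_setL s)).aestronglyMeasurable A
    (Filter.Eventually.of_forall fun x => by rw [Real.norm_eq_abs]; exact hA _)

theorem integral_setL_swap (s : V × ℕ) {f : Lab V → ℝ} (hf : BM f) :
    ∫ ω, f ω ∂(PP V) = ∫ y : Y01, (∫ ω, f (setL ω s y) ∂(PP V)) := by
  rw [integral_setL s hf, integral_integral_swap]
  obtain ⟨A, hA⟩ := hf.bdd
  have : Integrable (fun p : Lab V × Y01 => f (setL p.1 s p.2)) ((PP V).prod volume) :=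
    Integrable.of_bound (hf.meas.comp (measurable_setL s)).aestronglyMeasurable A
    (Filter.Eventually.of_forall fun x => by rw [Real.norm_eq_abs]; exact hA _)
  exact this

end resample

end Pr

/-! ## official statements -/

open Set

variable {V : Type u} {M : Type v} [AddCommMonoid M] [MeasurableSpace M]

open Classical in
/-- resampling the label of one site -/
theorem resample (v : V) (j : ℕ) (f : Lab V → ℝ) (hf : Measurable f)
    (hb : ∃ C, ∀ ω, |f ω| ≤ C) :
    ∫ ω, f ω ∂PP V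
      = ∫ ω, (∫ y : Y01, f (Function.update ω v (Function.update (ω v) j y))) ∂PP V := by
  exact Pr.integral_setL (V := V) (v, j) (f := f) ⟨hf, hb⟩

open Classical in
/-- a site which is inactive or not earlier than `T` has no influence -/
theorem st_erase (φ : V → ℝ → (V → M) → unitInterval → M) (A : Finset (V × ℕ)) (ω : Lab V)
    (T : ℝ) (i : V × ℕ) (hi : T ≤ tm ω i ∨ ¬ act ω i) :
    st φ A ω T = st φ (A.erase i) ω T := by
  refine Pr.st_erase φ ?_
  rintro ⟨h1, h2⟩
  rcases hi with h | h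
  · exact absurd h2 (not_lt.2 h)
  · exact h h1

/-- the process depends only on the labels of its sites -/
theorem st_congr (φ : V → ℝ → (V → M) → unitInterval → M) (A : Finset (V × ℕ)) (ω ω' : Lab V)
    (T : ℝ) (h : ∀ i ∈ A, ω i.1 i.2 = ω' i.1 i.2) : st φ A ω T = st φ A ω' T :=
  Pr.st_dep φ h T

theorem Pr.lt_of_tm {ω : Lab V} {k : V × ℕ} {T : ℝ} {n : ℕ} (h : tm ω k < T) (hT : T ≤ n) :
    k.2 < n := by
  unfold tm at h
  have h1 : (0 : ℝ) ≤ ((ω k.1 k.2).1 : ℝ) := (ω k.1 k.2).1.2.1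
  have h2 : (k.2 : ℝ) < n := by linarith
  exact_mod_cast h2

/-- it depends only on the sites with `j < T` -/
theorem st_horizon (φ : V → ℝ → (V → M) → unitInterval → M) (Λ : Finset V) (ω : Lab V)
    (T : ℝ) (n : ℕ) (h : T ≤ n) :
    st φ (Λ ×ˢ Finset.range n) ω T = st φ (Λ ×ˢ Finset.range ⌈T⌉₊) ω T := by
  refine Pr.st_range φ fun k hk => ?_
  have h1 := Pr.lt_of_tm hk h
  have h2 := Pr.lt_of_tm hk (Nat.le_ceil T)
  simp only [Finset.mem_product, Finset.mem_range]
  tauto

/-- homomorphisms -/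
theorem st_map {N : Type*} [AddCommMonoid N] (p : M →+ N)
    (φ : V → ℝ → (V → M) → unitInterval → M) (ψ : V → ℝ → (V → N) → unitInterval → N)
    (h : ∀ v s k ξ, p (φ v s k ξ) = ψ v s (fun w => p (k w)) ξ) (A : Finset (V × ℕ)) (ω : Lab V)
    (T : ℝ) (v : V) : p (st φ A ω T v) = st ψ A ω T v :=
  Pr.st_map φ ψ p h A ω T v

/-- equivariance -/
theorem st_equiv (g : V ≃ V) (φ ψ : V → ℝ → (V → M) → unitInterval → M)
    (h : ∀ v s k ξ, φ (g v) s k ξ = ψ v s (fun w => k (g w)) ξ) (A B : Finset (V × ℕ))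
    (hAB : ∀ i : V × ℕ, (g i.1, i.2) ∈ A ↔ i ∈ B) (ω : Lab V) (T : ℝ) (v : V) :
    st φ A ω T (g v) = st ψ B (fun w => ω (g w)) T v := by
  have hA : A = B.map (Pr.siteE g).toEmbedding := by
    ext k
    rw [Finset.mem_map_equiv, ← hAB]
    have : (g ((Pr.siteE g).symm k).1, ((Pr.siteE g).symm k).2) = k := by
      simp [Pr.siteE]
    rw [this]
  rw [hA]
  exact Pr.st_comp ψ φ g h B ω T v

/-- restriction to the sites which really contribute -/
theorem st_restrict (φ ψ : V → ℝ → (V → M) → unitInterval → M) (A B : Finset (V × ℕ))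
    (hBA : B ⊆ A) (h : ∀ i ∈ B, φ i.1 = ψ i.1)
    (h0 : ∀ i ∈ A, i ∉ B → ∀ s k ξ, φ i.1 s k ξ = 0) (ω : Lab V) (T : ℝ) :
    st φ A ω T = st ψ B ω T := by
  classical
  have key : ∀ (n : ℕ) (T : ℝ), (Pr.bef A ω T).card ≤ n → st φ A ω T = st ψ B ω T := by
    intro n
    induction n using Nat.strong_induction_on with
    | _ n ih =>
      intro T hn
      funext v
      rw [Pr.st_eq, Pr.st_eq]
      have hsub : (Pr.bef B ω T).filter (fun k => k.1 = v)
          ⊆ (Pr.bef A ω T).filter (fun k => k.1 = v) := by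
        intro k hk
        rw [Finset.mem_filter, Pr.mem_bef] at hk ⊢
        exact ⟨⟨hBA hk.1.1, hk.1.2⟩, hk.2⟩
      rw [← Finset.sum_subset hsub]
      · refine Finset.sum_congr rfl fun k hk => ?_
        rw [Finset.mem_filter, Pr.mem_bef] at hk
        unfold Pr.upd
        rw [h k hk.1.1]
        have hlt : (Pr.bef A ω (tm ω k)).card < (Pr.bef A ω T).card := by
          refine Finset.card_lt_card ⟨fun i hi => ?_, fun hc => ?_⟩
          · rw [Pr.mem_bef] at hi ⊢
            exact ⟨hi.1, hi.2.1, hi.2.2.trans hk.1.2.2⟩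
          · have h3 := hc (Pr.mem_bef.2 ⟨hBA hk.1.1, hk.1.2⟩)
            rw [Pr.mem_bef] at h3
            exact lt_irrefl _ h3.2.2
        rw [ih _ (hlt.trans_le hn) (tm ω k) le_rfl]
      · intro k hk hk'
        rw [Finset.mem_filter, Pr.mem_bef] at hk hk'
        have hB : k ∉ B := fun hB => hk' ⟨⟨hB, hk.1.2⟩, hk.2⟩
        exact h0 k hk.1.1 hB _ _ _
  exact key _ T le_rfl

theorem Pr.measurable_tm (k : V × ℕ) : Measurable (fun ω : Lab V => tm ω k) := by
  unfold tm
  have : Measurable (fun ω : Lab V => (ω k.1 k.2).1) :=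
    measurable_fst.comp ((measurable_pi_apply _).comp (measurable_pi_apply _))
  exact measurable_const.add (measurable_const.mul (measurable_subtype_coe.comp this))

theorem Pr.measurableSet_act (k : V × ℕ) : MeasurableSet {ω : Lab V | act ω k} := by
  unfold act
  have : Measurable (fun ω : Lab V => (ω k.1 k.2).1) :=
    measurable_fst.comp ((measurable_pi_apply _).comp (measurable_pi_apply _))
  exact measurableSet_lt (measurable_subtype_coe.comp this) measurable_const

theorem Pr.meas_xi (k : V × ℕ) : Measurable (fun ω : Lab V => (ω k.1 k.2).2) :=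
  Measurable.snd ((measurable_pi_apply _).comp (measurable_pi_apply _))

theorem Pr.measurable_cN [MeasurableAdd₂ M] (φ : V → ℝ → (V → M) → unitInterval → M)
    (hφ : ∀ v, Measurable (fun p : ℝ × (V → M) × unitInterval => φ v p.1 p.2.1 p.2.2))
    (A : Finset (V × ℕ)) (n : ℕ) : ∀ k, Measurable (fun ω : Lab V => cN φ A ω n k) := by
  classical
  induction n with
  | zero => intro k; simp only [cN]; exact measurable_const
  | succ n ih =>
    intro k
    have h1 : Measurable (fun ω : Lab V => (tm ω k,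
        (fun v => ∑ j ∈ Pr.bef A ω (tm ω k) with j.1 = v, cN φ A ω n j), (ω k.1 k.2).2)) := by
      refine (Pr.measurable_tm k).prodMk (Measurable.prodMk ?_ (Pr.meas_xi k))
      rw [measurable_pi_iff]
      intro v
      have e : (fun ω : Lab V => ∑ j ∈ Pr.bef A ω (tm ω k) with j.1 = v, cN φ A ω n j)
          = fun ω => ∑ j ∈ A, if j.1 = v ∧ act ω j ∧ tm ω j < tm ω k then cN φ A ω n j
            else 0 := by
        funext ω
        rw [← Finset.sum_filter]
        refine Finset.sum_congr ?_ fun _ _ => rfl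
        ext j; simp only [Finset.mem_filter, Pr.mem_bef]; tauto
      rw [e]
      refine Finset.measurable_sum _ fun j _ => Measurable.ite ?_ (ih j) measurable_const
      refine (MeasurableSet.const _).inter ((Pr.measurableSet_act j).inter ?_)
      exact measurableSet_lt (Pr.measurable_tm j) (Pr.measurable_tm k)
    have h2 := (hφ k.1).comp h1
    have e2 : (fun ω : Lab V => cN φ A ω (n + 1) k)
        = (fun p : ℝ × (V → M) × unitInterval => φ k.1 p.1 p.2.1 p.2.2) ∘
          (fun ω : Lab V => (tm ω k,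
            (fun v => ∑ j ∈ Pr.bef A ω (tm ω k) with j.1 = v, cN φ A ω n j),
            (ω k.1 k.2).2)) := by
      funext ω
      rw [Pr.cN_succ]
      rfl
    rw [e2]; exact h2

theorem measurable_st [MeasurableAdd₂ M] (φ : V → ℝ → (V → M) → unitInterval → M)
    (hφ : ∀ v, Measurable (fun p : ℝ × (V → M) × unitInterval => φ v p.1 p.2.1 p.2.2))
    (A : Finset (V × ℕ)) : Measurable (fun p : Lab V × ℝ => st φ A p.1 p.2) := by
  classical
  rw [measurable_pi_iff]
  intro v
  have e : (fun p : Lab V × ℝ => st φ A p.1 p.2 v)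
      = fun p => ∑ j ∈ A, if j.1 = v ∧ act p.1 j ∧ tm p.1 j < p.2 then
          cN φ A p.1 A.card j else 0 := by
    funext p
    rw [Pr.st_eq_sum, ← Finset.sum_filter]
    refine Finset.sum_congr ?_ fun _ _ => rfl
    ext j; simp only [Finset.mem_filter, Pr.mem_bef]; tauto
  rw [e]
  refine Finset.measurable_sum _ fun j _ => Measurable.ite ?_
    ((Pr.measurable_cN φ hφ A A.card j).comp measurable_fst) measurable_const
  refine (MeasurableSet.const _).inter ((measurable_fst (Pr.measurableSet_act j)).inter ?_)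
  exact measurableSet_lt ((Pr.measurable_tm j).comp measurable_fst) measurable_snd


open Classical in
/-- contribution of one update of the vertex `v` at time `s` to the expectation of `F` -/
noncomputable def LL (φ : V → ℝ → (V → M) → unitInterval → M) (F : (V → M) → ℝ) (v : V) (s : ℝ)
    (h : V → M) : ℝ :=
  ∫ ξ : unitInterval, (F (h + Pi.single v (φ v s h ξ)) - F h)

/-- no ties -/
def Pr.Gd (A : Finset (V × ℕ)) (ω : Lab V) : Prop :=
  ∀ s ∈ A, ∀ s' ∈ A, s ≠ s' → act ω s → act ω s' → tm ω s ≠ tm ω s'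

theorem Pr.tele [DecidableEq V] (φ : V → ℝ → (V → M) → unitInterval → M) (F : (V → M) → ℝ)
    (T : ℝ) : ∀ (n : ℕ) (A : Finset (V × ℕ)) (ω : Lab V), (Pr.bef A ω T).card = n →
      Pr.Gd A ω → F (st φ A ω T) = F 0 + ∑ s ∈ Pr.bef A ω T,
        (F (st φ A ω (tm ω s) + Pi.single s.1 (Pr.upd φ A ω s)) - F (st φ A ω (tm ω s))) := by
  intro n
  induction n with
  | zero =>
    intro A ω hc _
    rw [Finset.card_eq_zero] at hc
    rw [Pr.st_zero φ hc, hc]; simp
  | succ n ih =>
    intro A ω hc hG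
    have hne : (Pr.bef A ω T).Nonempty := by
      rw [← Finset.card_pos]; omega
    obtain ⟨s, hs, hmax⟩ := Finset.exists_max_image (Pr.bef A ω T) (fun k => tm ω k) hne
    have hs' := Pr.mem_bef.1 hs
    have hlast : Pr.Last A ω T s := by
      refine ⟨hs, fun k hk hks => lt_of_le_of_ne (hmax k hk) ?_⟩
      have hk' := Pr.mem_bef.1 hk
      exact hG k hk'.1 s hs'.1 hks hk'.2.1 hs'.2.1
    have hbe : Pr.bef (A.erase s) ω T = (Pr.bef A ω T).erase s := by
      ext k
      simp only [Pr.mem_bef, Finset.mem_erase]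
      tauto
    have hc' : (Pr.bef (A.erase s) ω T).card = n := by
      rw [hbe, Finset.card_erase_of_mem hs, hc]; rfl
    have hG' : Pr.Gd (A.erase s) ω := fun a ha b hb =>
      hG a (Finset.mem_of_mem_erase ha) b (Finset.mem_of_mem_erase hb)
    have h1 := ih (A.erase s) ω hc' hG'
    have e1 := Pr.st_last φ hlast
    have e2 := Pr.st_last_before φ hlast
    rw [← Finset.add_sum_erase _ _ hs, ← hbe]
    have e3 : ∀ k ∈ Pr.bef (A.erase s) ω T,
        st φ A ω (tm ω k) = st φ (A.erase s) ω (tm ω k) := by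
      intro k hk
      have hk' := Pr.mem_bef.1 hk
      rw [Finset.mem_erase] at hk'
      exact Pr.st_erase_before φ
        (hlast.2 k (Pr.mem_bef.2 ⟨hk'.1.2, hk'.2⟩) hk'.1.1).le
    have e4 : ∑ k ∈ Pr.bef (A.erase s) ω T,
        (F (st φ A ω (tm ω k) + Pi.single k.1 (Pr.upd φ A ω k)) - F (st φ A ω (tm ω k)))
        = ∑ k ∈ Pr.bef (A.erase s) ω T,
          (F (st φ (A.erase s) ω (tm ω k) + Pi.single k.1 (Pr.upd φ (A.erase s) ω k))
            - F (st φ (A.erase s) ω (tm ω k))) := by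
      refine Finset.sum_congr rfl fun k hk => ?_
      unfold Pr.upd
      rw [e3 k hk]
    rw [e4]
    have e5 : F (st φ A ω T) = F (st φ (A.erase s) ω T)
        + (F (st φ A ω (tm ω s) + Pi.single s.1 (Pr.upd φ A ω s))
          - F (st φ A ω (tm ω s))) := by
      unfold Pr.upd
      rw [e2, ← e1]; ring
    rw [e5, h1]; ring

theorem Pr.tm_setL (ω : Lab V) (s : V × ℕ) (y : Y01) :
    tm (Pr.setL ω s y) s = s.2 + 2 * (y.1 : ℝ) := by
  unfold tm; rw [Pr.setL_self]

theorem Pr.act_setL (ω : Lab V) (s : V × ℕ) (y : Y01) :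
    act (Pr.setL ω s y) s ↔ (y.1 : ℝ) < 1 / 2 := by
  unfold act; rw [Pr.setL_self]

theorem Pr.ae_ne (s s' : V × ℕ) (h : s ≠ s') : ∀ᵐ ω ∂PP V, tm ω s ≠ tm ω s' := by
  classical
  have hm : MeasurableSet {ω : Lab V | tm ω s = tm ω s'} :=
    measurableSet_eq_fun (Pr.measurable_tm s) (Pr.measurable_tm s')
  have hb : BM (V := V) (E := ℕ → Y01)
      (Set.indicator {ω : Lab V | tm ω s = tm ω s'} (fun _ => (1 : ℝ))) := by
    refine ⟨measurable_const.indicator hm, 1, fun ω => ?_⟩
    by_cases h : ω ∈ {ω : Lab V | tm ω s = tm ω s'}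
    · rw [Set.indicator_of_mem h]; simp
    · rw [Set.indicator_of_notMem h]; simp
  have h1 := Pr.integral_setL s hb
  have h2 : ∀ ω : Lab V, (∫ y : Y01,
      Set.indicator {ω : Lab V | tm ω s = tm ω s'} (fun _ => (1 : ℝ)) (Pr.setL ω s y)) = 0 := by
    intro ω
    have hnull : (volume : Measure Y01) {y : Y01 | (s.2 : ℝ) + 2 * (y.1 : ℝ) = tm ω s'} = 0 := by
      have hsub : {y : Y01 | (s.2 : ℝ) + 2 * (y.1 : ℝ) = tm ω s'}
          ⊆ {u : unitInterval | (s.2 : ℝ) + 2 * (u : ℝ) = tm ω s'} ×ˢ Set.univ := by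
        intro y hy; exact ⟨hy, trivial⟩
      refine measure_mono_null hsub ?_
      rw [Measure.volume_eq_prod, Measure.prod_prod]
      have : (volume : Measure unitInterval)
          {u : unitInterval | (s.2 : ℝ) + 2 * (u : ℝ) = tm ω s'} = 0 := by
        apply Set.Subsingleton.measure_zero
        intro a ha b hb
        have ha' : (s.2 : ℝ) + 2 * (a : ℝ) = tm ω s' := ha
        have hb' : (s.2 : ℝ) + 2 * (b : ℝ) = tm ω s' := hb
        exact Subtype.ext (by linarith)
      rw [this, zero_mul]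
    have hae : (fun y : Y01 =>
        Set.indicator {ω : Lab V | tm ω s = tm ω s'} (fun _ => (1 : ℝ)) (Pr.setL ω s y))
        =ᵐ[volume] fun _ => (0 : ℝ) := by
      have : ∀ᵐ y : Y01, ¬ ((s.2 : ℝ) + 2 * (y.1 : ℝ) = tm ω s') := by
        rw [ae_iff]; simpa using hnull
      filter_upwards [this] with y hy
      rw [Set.indicator_of_notMem]
      intro hmem
      apply hy
      have hmem' : tm (Pr.setL ω s y) s = tm (Pr.setL ω s y) s' := hmem
      rw [Pr.tm_setL] at hmem'
      rw [hmem']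
      exact Pr.tm_congr (Pr.setL_ne ω s y s' h.symm)
    rw [integral_congr_ae hae]; simp
  simp only [h2, integral_zero] at h1
  rw [integral_indicator hm, setIntegral_const, smul_eq_mul, mul_one] at h1
  rw [ae_iff]
  have h3 : {ω : Lab V | ¬ tm ω s ≠ tm ω s'} = {ω : Lab V | tm ω s = tm ω s'} := by
    ext; simp
  rw [h3]
  rw [Measure.real, ENNReal.toReal_eq_zero_iff] at h1
  rcases h1 with h1 | h1
  · exact h1
  · exact absurd h1 (measure_ne_top _ _)

theorem Pr.ae_Gd (A : Finset (V × ℕ)) : ∀ᵐ ω ∂PP V, Pr.Gd A ω := by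
  have h1 : ∀ s ∈ A, ∀ᵐ ω ∂PP V, ∀ s' ∈ A, s ≠ s' → tm ω s ≠ tm ω s' := by
    intro s _
    have : ∀ s' ∈ A, ∀ᵐ ω ∂PP V, s ≠ s' → tm ω s ≠ tm ω s' := by
      intro s' _
      by_cases h : s = s'
      · exact Filter.Eventually.of_forall fun ω hh => absurd h hh
      · filter_upwards [Pr.ae_ne s s' h] with ω hω _
        exact hω
    exact (Finset.eventually_all A).2 this
  filter_upwards [(Finset.eventually_all A).2 h1] with ω hω
  exact fun s hs s' hs' hne _ _ => hω s hs s' hs' hne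

theorem Pr.measurable_add_single [DecidableEq V] [MeasurableAdd₂ M] (v : V) :
    Measurable (fun p : (V → M) × M => p.1 + Pi.single v p.2) := by
  rw [measurable_pi_iff]
  intro w
  by_cases h : w = v
  · subst h
    have : (fun p : (V → M) × M => (p.1 + Pi.single w p.2 : V → M) w)
        = fun p => p.1 w + p.2 := by
      funext p; simp
    rw [this]
    exact ((measurable_pi_apply w).comp measurable_fst).add measurable_snd
  · have : (fun p : (V → M) × M => (p.1 + Pi.single v p.2 : V → M) w) = fun p => p.1 w := by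
      funext p; simp [h]
    rw [this]
    exact (measurable_pi_apply w).comp measurable_fst

theorem Pr.measurable_incr [DecidableEq V] [MeasurableAdd₂ M]
    (φ : V → ℝ → (V → M) → unitInterval → M)
    (hφ : ∀ v, Measurable (fun p : ℝ × (V → M) × unitInterval => φ v p.1 p.2.1 p.2.2))
    (F : (V → M) → ℝ) (hF : Measurable F) (v : V) :
    Measurable (fun p : (ℝ × (V → M)) × unitInterval =>
      F (p.1.2 + Pi.single v (φ v p.1.1 p.1.2 p.2)) - F p.1.2) := by
  have h1 : Measurable (fun p : (ℝ × (V → M)) × unitInterval => φ v p.1.1 p.1.2 p.2) :=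
    (hφ v).comp (f := fun p : (ℝ × (V → M)) × unitInterval => (p.1.1, p.1.2, p.2))
      (by fun_prop)
  have h2 : Measurable (fun p : (ℝ × (V → M)) × unitInterval =>
      p.1.2 + Pi.single v (φ v p.1.1 p.1.2 p.2)) :=
    (Pr.measurable_add_single v).comp ((measurable_snd.comp measurable_fst).prodMk h1)
  exact (hF.comp h2).sub (hF.comp (measurable_snd.comp measurable_fst))

theorem Pr.measurable_LL [MeasurableAdd₂ M] (φ : V → ℝ → (V → M) → unitInterval → M)
    (hφ : ∀ v, Measurable (fun p : ℝ × (V → M) × unitInterval => φ v p.1 p.2.1 p.2.2))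
    (F : (V → M) → ℝ) (hF : Measurable F) (v : V) :
    Measurable (fun p : ℝ × (V → M) => LL φ F v p.1 p.2) := by
  classical
  have h1 : StronglyMeasurable (Function.uncurry fun (p : ℝ × (V → M)) (ξ : unitInterval) =>
      F (p.2 + Pi.single v (φ v p.1 p.2 ξ)) - F p.2) :=
    (Pr.measurable_incr φ hφ F hF v).stronglyMeasurable
  have h2 := (h1.integral_prod_right (ν := (volume : Measure unitInterval))).measurable
  have e : (fun p : ℝ × (V → M) => LL φ F v p.1 p.2)
      = fun p : ℝ × (V → M) => ∫ ξ : unitInterval,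
        (F (p.2 + Pi.single v (φ v p.1 p.2 ξ)) - F p.2) := by
    funext p
    unfold LL
    congr!
  rw [e]; exact h2

theorem Pr.LL_bound (φ : V → ℝ → (V → M) → unitInterval → M) (F : (V → M) → ℝ) {C : ℝ}
    (hC : ∀ x, |F x| ≤ C) (v : V) (s : ℝ) (h : V → M) : |LL φ F v s h| ≤ 2 * C := by
  classical
  unfold LL
  have h1 := norm_integral_le_of_norm_le_const (μ := (volume : Measure unitInterval))
    (f := fun ξ => F (h + Pi.single v (φ v s h ξ)) - F h) (C := 2 * C)
    (Filter.Eventually.of_forall fun ξ => by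
      rw [Real.norm_eq_abs]
      have h1 := abs_sub (F (h + Pi.single v (φ v s h ξ))) (F h)
      have h2 := hC (h + Pi.single v (φ v s h ξ))
      have h3 := hC h
      linarith)
  simpa using h1

/-- change of variables from the clock to the time -/
theorem Pr.chg (K : ℝ → ℝ) (j : ℕ) (T : ℝ) :
    ∫ u : unitInterval, (if (u : ℝ) < 1 / 2 ∧ (j : ℝ) + 2 * (u : ℝ) < T
      then K ((j : ℝ) + 2 * (u : ℝ)) else 0)
      = (1 / 2) * ∫ s in Ico (j : ℝ) (j + 1) ∩ Iio T, K s := by
  classical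
  have h1 := integral_subtype (s := Set.Icc (0 : ℝ) 1) measurableSet_Icc
    (fun x : ℝ => if x < 1 / 2 ∧ (j : ℝ) + 2 * x < T then K ((j : ℝ) + 2 * x) else 0)
  have h2 : ∫ x in Set.Icc (0 : ℝ) 1,
      (if x < 1 / 2 ∧ (j : ℝ) + 2 * x < T then K ((j : ℝ) + 2 * x) else 0)
      = ∫ x : ℝ, Set.indicator (Ico (j : ℝ) (j + 1) ∩ Iio T) K ((j : ℝ) + 2 * x) := by
    rw [← integral_indicator measurableSet_Icc]
    congr 1
    funext x
    by_cases hx : x ∈ Set.Icc (0 : ℝ) 1
    · rw [Set.indicator_of_mem hx]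
      by_cases hc : x < 1 / 2 ∧ (j : ℝ) + 2 * x < T
      · rw [if_pos hc, Set.indicator_of_mem]
        refine ⟨⟨?_, ?_⟩, hc.2⟩
        · have := hx.1; linarith
        · have := hc.1; linarith
      · rw [if_neg hc, Set.indicator_of_notMem]
        rintro ⟨⟨h3, h4⟩, h5⟩
        exact hc ⟨by linarith, h5⟩
    · rw [Set.indicator_of_notMem hx, Set.indicator_of_notMem]
      rintro ⟨⟨h3, h4⟩, h5⟩
      exact hx ⟨by linarith, by linarith⟩
  have h3 := Measure.integral_comp_mul_left
    (fun x : ℝ => Set.indicator (Ico (j : ℝ) (j + 1) ∩ Iio T) K ((j : ℝ) + x)) 2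
  rw [integral_add_left_eq_self] at h3
  have h4 : ∫ x : ℝ, Set.indicator (Ico (j : ℝ) (j + 1) ∩ Iio T) K x
      = ∫ s in Ico (j : ℝ) (j + 1) ∩ Iio T, K s :=
    integral_indicator (measurableSet_Ico.inter measurableSet_Iio)
  calc _ = _ := h1
    _ = _ := h2
    _ = _ := h3
    _ = _ := by
      rw [h4, smul_eq_mul]
      norm_num

/-- contribution of one site -/
theorem Pr.site_term [MeasurableAdd₂ M] [DecidableEq V] [DecidableEq (V × ℕ)]
    (φ : V → ℝ → (V → M) → unitInterval → M)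
    (hφ : ∀ v, Measurable (fun p : ℝ × (V → M) × unitInterval => φ v p.1 p.2.1 p.2.2))
    (A : Finset (V × ℕ)) (F : (V → M) → ℝ) (hF : Measurable F) {C : ℝ} (hC : ∀ x, |F x| ≤ C)
    (T : ℝ) (i : V × ℕ) :
    BM (V := V) (E := ℕ → Y01) (fun ω => if i ∈ Pr.bef {i} ω T then
      (F (st φ A ω (tm ω i) + Pi.single i.1 (Pr.upd φ A ω i)) - F (st φ A ω (tm ω i))) else 0) ∧
    ∫ ω, (if i ∈ Pr.bef {i} ω T then
      (F (st φ A ω (tm ω i) + Pi.single i.1 (Pr.upd φ A ω i)) - F (st φ A ω (tm ω i))) else 0)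
        ∂PP V
      = (1 / 2) * ∫ s in Ico (i.2 : ℝ) (i.2 + 1) ∩ Iio T,
        (∫ ω, LL φ F i.1 s (st φ (A.erase i) ω s) ∂PP V) := by
  have hmst : Measurable (fun ω : Lab V => st φ A ω (tm ω i)) :=
    (measurable_st φ hφ A).comp (measurable_id.prodMk (Pr.measurable_tm i))
  have hinc : Measurable (fun ω : Lab V =>
      F (st φ A ω (tm ω i) + Pi.single i.1 (Pr.upd φ A ω i)) - F (st φ A ω (tm ω i))) :=
    (Pr.measurable_incr φ hφ F hF i.1).comp
      (f := fun ω : Lab V => ((tm ω i, st φ A ω (tm ω i)), (ω i.1 i.2).2))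
      (((Pr.measurable_tm i).prodMk hmst).prodMk (Pr.meas_xi i))
  have hset : MeasurableSet {ω : Lab V | i ∈ Pr.bef {i} ω T} := by
    have : {ω : Lab V | i ∈ Pr.bef {i} ω T} = {ω | act ω i} ∩ {ω | tm ω i < T} := by
      ext ω; simp [Pr.mem_bef]
    rw [this]
    exact (Pr.measurableSet_act i).inter (measurableSet_lt (Pr.measurable_tm i) measurable_const)
  have hC0 : 0 ≤ C := (abs_nonneg _).trans (hC 0)
  have hBM : BM (V := V) (E := ℕ → Y01) (fun ω => if i ∈ Pr.bef {i} ω T then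
      (F (st φ A ω (tm ω i) + Pi.single i.1 (Pr.upd φ A ω i)) - F (st φ A ω (tm ω i)))
      else 0) := by
    refine ⟨Measurable.ite hset hinc measurable_const, 2 * C, fun ω => ?_⟩
    split_ifs
    · have h1 := abs_sub (F (st φ A ω (tm ω i) + Pi.single i.1 (Pr.upd φ A ω i)))
        (F (st φ A ω (tm ω i)))
      have h2 := hC (st φ A ω (tm ω i) + Pi.single i.1 (Pr.upd φ A ω i))
      have h3 := hC (st φ A ω (tm ω i))
      linarith
    · rw [abs_zero]; linarith
  refine ⟨hBM, ?_⟩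
  rw [Pr.integral_setL i hBM]
  -- inner integral
  have hin : ∀ ω : Lab V, (∫ y : Y01, (if i ∈ Pr.bef {i} (Pr.setL ω i y) T then
      (F (st φ A (Pr.setL ω i y) (tm (Pr.setL ω i y) i)
        + Pi.single i.1 (Pr.upd φ A (Pr.setL ω i y) i))
        - F (st φ A (Pr.setL ω i y) (tm (Pr.setL ω i y) i))) else 0))
      = ∫ u : unitInterval, (if (u : ℝ) < 1 / 2 ∧ (i.2 : ℝ) + 2 * (u : ℝ) < T then
          LL φ F i.1 ((i.2 : ℝ) + 2 * (u : ℝ))
            (st φ (A.erase i) ω ((i.2 : ℝ) + 2 * (u : ℝ))) else 0) := by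
    intro ω
    have hst : ∀ y : Y01, st φ A (Pr.setL ω i y) ((i.2 : ℝ) + 2 * (y.1 : ℝ))
        = st φ (A.erase i) ω ((i.2 : ℝ) + 2 * (y.1 : ℝ)) := by
      intro y
      rw [Pr.st_erase_before (s := i) φ (by rw [Pr.tm_setL])]
      exact Pr.st_dep φ (fun k hk => Pr.setL_ne ω i y k (Finset.ne_of_mem_erase hk)) _
    have hval : ∀ y : Y01, (if i ∈ Pr.bef {i} (Pr.setL ω i y) T then
        (F (st φ A (Pr.setL ω i y) (tm (Pr.setL ω i y) i)
          + Pi.single i.1 (Pr.upd φ A (Pr.setL ω i y) i))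
          - F (st φ A (Pr.setL ω i y) (tm (Pr.setL ω i y) i))) else 0)
        = if (y.1 : ℝ) < 1 / 2 ∧ (i.2 : ℝ) + 2 * (y.1 : ℝ) < T then
          (F (st φ (A.erase i) ω ((i.2 : ℝ) + 2 * (y.1 : ℝ)) + Pi.single i.1
            (φ i.1 ((i.2 : ℝ) + 2 * (y.1 : ℝ))
              (st φ (A.erase i) ω ((i.2 : ℝ) + 2 * (y.1 : ℝ))) y.2))
            - F (st φ (A.erase i) ω ((i.2 : ℝ) + 2 * (y.1 : ℝ)))) else 0 := by
      intro y
      have hc : i ∈ Pr.bef {i} (Pr.setL ω i y) T ↔
          (y.1 : ℝ) < 1 / 2 ∧ (i.2 : ℝ) + 2 * (y.1 : ℝ) < T := by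
        rw [Pr.mem_bef, Pr.act_setL, Pr.tm_setL]; simp
      unfold Pr.upd
      rw [Pr.tm_setL, hst y, Pr.setL_self]
      by_cases h : (y.1 : ℝ) < 1 / 2 ∧ (i.2 : ℝ) + 2 * (y.1 : ℝ) < T
      · rw [if_pos h, if_pos (hc.2 h)]
      · rw [if_neg h, if_neg (fun hh => h (hc.1 hh))]
    simp only [hval]
    rw [Measure.volume_eq_prod, integral_prod]
    · congr 1
      funext u
      by_cases h : (u : ℝ) < 1 / 2 ∧ (i.2 : ℝ) + 2 * (u : ℝ) < T
      · simp only [if_pos h]
        unfold LL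
        congr!
      · simp only [if_neg h, integral_zero]
    · -- integrability
      have hm1 : Measurable (fun y : Y01 =>
          F (st φ (A.erase i) ω ((i.2 : ℝ) + 2 * (y.1 : ℝ)) + Pi.single i.1
            (φ i.1 ((i.2 : ℝ) + 2 * (y.1 : ℝ))
              (st φ (A.erase i) ω ((i.2 : ℝ) + 2 * (y.1 : ℝ))) y.2))
            - F (st φ (A.erase i) ω ((i.2 : ℝ) + 2 * (y.1 : ℝ)))) := by
        have ht : Measurable (fun y : Y01 => (i.2 : ℝ) + 2 * (y.1 : ℝ)) :=
          measurable_const.add (measurable_const.mul (measurable_subtype_coe.comp measurable_fst))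
        have hs : Measurable (fun y : Y01 =>
            st φ (A.erase i) ω ((i.2 : ℝ) + 2 * (y.1 : ℝ))) :=
          (measurable_st φ hφ (A.erase i)).comp (measurable_const.prodMk ht)
        exact (Pr.measurable_incr φ hφ F hF i.1).comp ((ht.prodMk hs).prodMk measurable_snd)
      have hs1 : MeasurableSet {y : Y01 | (y.1 : ℝ) < 1 / 2 ∧ (i.2 : ℝ) + 2 * (y.1 : ℝ) < T} := by
        have ht : Measurable (fun y : Y01 => (y.1 : ℝ)) :=
          measurable_subtype_coe.comp measurable_fst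
        exact (measurableSet_lt ht measurable_const).inter
          (measurableSet_lt (measurable_const.add (measurable_const.mul ht)) measurable_const)
      refine Integrable.of_bound (Measurable.ite hs1 hm1 measurable_const).aestronglyMeasurable
        (2 * C) (Filter.Eventually.of_forall fun y => ?_)
      rw [Real.norm_eq_abs]
      split_ifs
      · refine (abs_sub _ _).trans ?_
        have h2 := hC (st φ (A.erase i) ω ((i.2 : ℝ) + 2 * (y.1 : ℝ)) + Pi.single i.1
            (φ i.1 ((i.2 : ℝ) + 2 * (y.1 : ℝ))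
              (st φ (A.erase i) ω ((i.2 : ℝ) + 2 * (y.1 : ℝ))) y.2))
        have h3 := hC (st φ (A.erase i) ω ((i.2 : ℝ) + 2 * (y.1 : ℝ)))
        linarith
      · rw [abs_zero]; linarith
  simp only [hin]
  rw [integral_integral_swap, ← Pr.chg]
  · congr 1
    funext u
    by_cases h : (u : ℝ) < 1 / 2 ∧ (i.2 : ℝ) + 2 * (u : ℝ) < T
    · simp only [if_pos h]
    · simp only [if_neg h, integral_zero]
  · have ht : Measurable (fun p : Lab V × unitInterval => (i.2 : ℝ) + 2 * (p.2 : ℝ)) :=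
      measurable_const.add (measurable_const.mul (measurable_subtype_coe.comp measurable_snd))
    have hs : Measurable (fun p : Lab V × unitInterval =>
        st φ (A.erase i) p.1 ((i.2 : ℝ) + 2 * (p.2 : ℝ))) :=
      (measurable_st φ hφ (A.erase i)).comp (measurable_fst.prodMk ht)
    have hm1 : Measurable (fun p : Lab V × unitInterval =>
        LL φ F i.1 ((i.2 : ℝ) + 2 * (p.2 : ℝ))
          (st φ (A.erase i) p.1 ((i.2 : ℝ) + 2 * (p.2 : ℝ)))) :=
      (Pr.measurable_LL φ hφ F hF i.1).comp (ht.prodMk hs)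
    have hs1 : MeasurableSet {p : Lab V × unitInterval |
        (p.2 : ℝ) < 1 / 2 ∧ (i.2 : ℝ) + 2 * (p.2 : ℝ) < T} := by
      have ht' : Measurable (fun y : Lab V × unitInterval => (y.2 : ℝ)) :=
        measurable_subtype_coe.comp measurable_snd
      exact (measurableSet_lt ht' measurable_const).inter (measurableSet_lt ht measurable_const)
    refine Integrable.of_bound
      (f := fun p : Lab V × unitInterval =>
        if (p.2 : ℝ) < 1 / 2 ∧ (i.2 : ℝ) + 2 * (p.2 : ℝ) < T then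
          LL φ F i.1 ((i.2 : ℝ) + 2 * (p.2 : ℝ))
            (st φ (A.erase i) p.1 ((i.2 : ℝ) + 2 * (p.2 : ℝ))) else 0)
      (Measurable.ite hs1 hm1 measurable_const).aestronglyMeasurable
      (2 * C) (Filter.Eventually.of_forall fun p => ?_)
    rw [Real.norm_eq_abs]
    split_ifs
    · exact Pr.LL_bound φ F hC _ _ _
    · rw [abs_zero]; linarith

open Classical in
/-- **generator formula** -/
theorem generator [MeasurableAdd₂ M] (φ : V → ℝ → (V → M) → unitInterval → M)
    (hφ : ∀ v, Measurable (fun p : ℝ × (V → M) × unitInterval => φ v p.1 p.2.1 p.2.2))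
    (A : Finset (V × ℕ)) (F : (V → M) → ℝ) (hF : Measurable F) (hb : ∃ C, ∀ x, |F x| ≤ C)
    (T : ℝ) (hT : 0 ≤ T) :
    ∫ ω, F (st φ A ω T) ∂PP V = F 0 + ∑ i ∈ A, (1 / 2) *
      ∫ s in Ico (i.2 : ℝ) (i.2 + 1) ∩ Iio T, (∫ ω, LL φ F i.1 s (st φ (A.erase i) ω s) ∂PP V) := by
  obtain ⟨C, hC⟩ := hb
  have h1 : (fun ω => F (st φ A ω T)) =ᵐ[PP V] fun ω => F 0 + ∑ i ∈ A,
      (if i ∈ Pr.bef {i} ω T then
        (F (st φ A ω (tm ω i) + Pi.single i.1 (Pr.upd φ A ω i)) - F (st φ A ω (tm ω i)))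
        else 0) := by
    filter_upwards [Pr.ae_Gd A] with ω hω
    rw [Pr.tele φ F T _ A ω rfl hω, ← Finset.sum_filter]
    congr 1
    refine Finset.sum_congr ?_ fun _ _ => rfl
    ext k
    simp only [Finset.mem_filter, Pr.mem_bef, Finset.mem_singleton, true_and]
  rw [integral_congr_ae h1, integral_add (integrable_const _), integral_finsetSum]
  · congr 1
    · simp
    · exact Finset.sum_congr rfl fun i _ => (Pr.site_term φ hφ A F hF hC T i).2
  · intro i _
    exact (Pr.site_term φ hφ A F hF hC T i).1.integrable _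
  · exact (BM.sum A fun i _ => (Pr.site_term φ hφ A F hF hC T i).1).integrable _


theorem Pr.BM_st [MeasurableAdd₂ M] (φ : V → ℝ → (V → M) → unitInterval → M)
    (hφ : ∀ v, Measurable (fun p : ℝ × (V → M) × unitInterval => φ v p.1 p.2.1 p.2.2))
    (A : Finset (V × ℕ)) (F : (V → M) → ℝ) (hF : Measurable F) (hb : ∃ C, ∀ x, |F x| ≤ C)
    (s : ℝ) : BM (V := V) (E := ℕ → Y01) (fun ω => F (st φ A ω s)) := by
  obtain ⟨C, hC⟩ := hb
  exact ⟨hF.comp ((measurable_st φ hφ A).comp (measurable_id.prodMk measurable_const)), C,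
    fun ω => hC _⟩

theorem Pr.half_vol (c : ℝ) (j : ℕ) :
    (1 / 2 : ℝ) ≤ ∫ y : Y01, (if c ≤ (j : ℝ) + 2 * (y.1 : ℝ) ∨ ¬ (y.1 : ℝ) < 1 / 2 then (1 : ℝ)
      else 0) := by
  have ht : Measurable (fun y : Y01 => (y.1 : ℝ)) := measurable_subtype_coe.comp measurable_fst
  have hs1 : MeasurableSet {y : Y01 | c ≤ (j : ℝ) + 2 * (y.1 : ℝ) ∨ ¬ (y.1 : ℝ) < 1 / 2} :=
    (measurableSet_le measurable_const (measurable_const.add (measurable_const.mul ht))).union
      (measurableSet_lt ht measurable_const).compl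
  have hs2 : MeasurableSet {y : Y01 | (1 / 2 : ℝ) ≤ (y.1 : ℝ)} :=
    measurableSet_le measurable_const ht
  have h1 : ∫ y : Y01, (if (1 / 2 : ℝ) ≤ (y.1 : ℝ) then (1 : ℝ) else 0) = 1 / 2 := by
    have h2 : (fun y : Y01 => (if (1 / 2 : ℝ) ≤ (y.1 : ℝ) then (1 : ℝ) else 0))
        = fun y : Y01 => (if (1 / 2 : ℝ) ≤ (y.1 : ℝ) then (1 : ℝ) else 0) * (1 : ℝ) := by
      funext y; simp
    rw [h2, Measure.volume_eq_prod, integral_prod_mul
      (fun u : unitInterval => (if (1 / 2 : ℝ) ≤ (u : ℝ) then (1 : ℝ) else 0))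
      (fun _ : unitInterval => (1 : ℝ))]
    have h3 := integral_subtype (s := Set.Icc (0 : ℝ) 1) measurableSet_Icc
      (fun x : ℝ => if (1 / 2 : ℝ) ≤ x then (1 : ℝ) else 0)
    have h4 : ∫ x in Set.Icc (0 : ℝ) 1, (if (1 / 2 : ℝ) ≤ x then (1 : ℝ) else 0) = 1 / 2 := by
      rw [← integral_indicator measurableSet_Icc]
      have e : (Set.Icc (0 : ℝ) 1).indicator (fun x => if (1 / 2 : ℝ) ≤ x then (1 : ℝ) else 0)
          = (Set.Icc (1 / 2 : ℝ) 1).indicator (fun _ => (1 : ℝ)) := by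
        funext x
        by_cases hx : x ∈ Set.Icc (1 / 2 : ℝ) 1
        · rw [Set.indicator_of_mem hx, Set.indicator_of_mem (by
            exact ⟨by linarith [hx.1], hx.2⟩), if_pos hx.1]
        · rw [Set.indicator_of_notMem hx]
          by_cases hx' : x ∈ Set.Icc (0 : ℝ) 1
          · rw [Set.indicator_of_mem hx', if_neg (fun hh => hx ⟨hh, hx'.2⟩)]
          · rw [Set.indicator_of_notMem hx']
      rw [e, integral_indicator measurableSet_Icc, setIntegral_const]
      simp; norm_num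
    have h5 : ∫ u : unitInterval, (if (1 / 2 : ℝ) ≤ (u : ℝ) then (1 : ℝ) else 0) = 1 / 2 :=
      h3.trans h4
    rw [h5]; simp
  refine h1.symm.le.trans (integral_mono ?_ ?_ fun y => ?_)
  · exact Integrable.of_bound (Measurable.ite hs2 measurable_const
      measurable_const).aestronglyMeasurable 1 (Filter.Eventually.of_forall fun y => by
        rw [Real.norm_eq_abs]; split_ifs <;> simp)
  · exact Integrable.of_bound (Measurable.ite hs1 measurable_const
      measurable_const).aestronglyMeasurable 1 (Filter.Eventually.of_forall fun y => by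
        rw [Real.norm_eq_abs]; split_ifs <;> simp)
  · simp only
    by_cases h : (1 / 2 : ℝ) ≤ (y.1 : ℝ)
    · rw [if_pos h, if_pos (Or.inr (not_lt.2 h))]
    · rw [if_neg h]; split_ifs <;> norm_num

open Classical in
/-- the trick with the inactive half -/
theorem erase_le [MeasurableAdd₂ M] (φ : V → ℝ → (V → M) → unitInterval → M)
    (hφ : ∀ v, Measurable (fun p : ℝ × (V → M) × unitInterval => φ v p.1 p.2.1 p.2.2))
    (A : Finset (V × ℕ)) (F : (V → M) → ℝ) (hF : Measurable F) (hb : ∃ C, ∀ x, |F x| ≤ C)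
    (h0 : ∀ x, 0 ≤ F x) (s : ℝ) (i : V × ℕ) :
    ∫ ω, F (st φ (A.erase i) ω s) ∂PP V ≤ 2 * ∫ ω, F (st φ A ω s) ∂PP V := by
  have hb1 := Pr.BM_st φ hφ A F hF hb s
  have hb2 := Pr.BM_st φ hφ (A.erase i) F hF hb s
  set I := ∫ ω, F (st φ (A.erase i) ω s) ∂PP V with hI
  have hI0 : 0 ≤ I := integral_nonneg fun ω => h0 _
  -- lower bound for `F (st A)`
  have hset : MeasurableSet {ω : Lab V | s ≤ tm ω i ∨ ¬ act ω i} :=
    (measurableSet_le measurable_const (Pr.measurable_tm i)).union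
      (Pr.measurableSet_act i).compl
  have hind : BM (V := V) (E := ℕ → Y01)
      (fun ω => if s ≤ tm ω i ∨ ¬ act ω i then (1 : ℝ) else 0) := by
    refine ⟨Measurable.ite hset measurable_const measurable_const, 1, fun ω => ?_⟩
    split_ifs <;> simp
  have h1 : ∫ ω, (if s ≤ tm ω i ∨ ¬ act ω i then (1 : ℝ) else 0) * F (st φ (A.erase i) ω s)
      ∂PP V ≤ ∫ ω, F (st φ A ω s) ∂PP V := by
    refine integral_mono ((hind.mul hb2).integrable _) (hb1.integrable _) fun ω => ?_
    simp only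
    by_cases h : s ≤ tm ω i ∨ ¬ act ω i
    · rw [if_pos h, one_mul, st_erase φ A ω s i h]
    · rw [if_neg h, zero_mul]; exact h0 _
  have h2 : ∫ ω, (if s ≤ tm ω i ∨ ¬ act ω i then (1 : ℝ) else 0) * F (st φ (A.erase i) ω s)
      ∂PP V = (∫ y : Y01, (if s ≤ (i.2 : ℝ) + 2 * (y.1 : ℝ) ∨ ¬ (y.1 : ℝ) < 1 / 2 then (1 : ℝ)
        else 0)) * I := by
    rw [Pr.integral_setL i (hind.mul hb2)]
    have h3 : ∀ ω : Lab V, (∫ y : Y01,
        (if s ≤ tm (Pr.setL ω i y) i ∨ ¬ act (Pr.setL ω i y) i then (1 : ℝ) else 0)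
          * F (st φ (A.erase i) (Pr.setL ω i y) s))
        = (∫ y : Y01, (if s ≤ (i.2 : ℝ) + 2 * (y.1 : ℝ) ∨ ¬ (y.1 : ℝ) < 1 / 2 then (1 : ℝ)
          else 0)) * F (st φ (A.erase i) ω s) := by
      intro ω
      rw [← integral_mul_const]
      congr 1
      funext y
      have e1 : st φ (A.erase i) (Pr.setL ω i y) s = st φ (A.erase i) ω s :=
        Pr.st_dep φ (fun k hk => Pr.setL_ne ω i y k (Finset.ne_of_mem_erase hk)) _
      rw [e1, Pr.tm_setL]
      congr 1
      have e2 := Pr.act_setL ω i y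
      by_cases h : s ≤ (i.2 : ℝ) + 2 * (y.1 : ℝ) ∨ ¬ (y.1 : ℝ) < 1 / 2
      · rw [if_pos h, if_pos]
        rcases h with h | h
        · exact Or.inl h
        · exact Or.inr fun hh => h (e2.1 hh)
      · rw [if_neg h, if_neg]
        rintro (hh | hh)
        · exact h (Or.inl hh)
        · exact h (Or.inr fun h' => hh (e2.2 h'))
    simp only [h3]
    rw [integral_const_mul]
  have h4 := Pr.half_vol s i.2
  rw [h2] at h1
  nlinarith

/-- integrated form: if `0 ≤ LL F ≤ H` along the process then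
`E F(st T₂) ≤ E F(st T₁) + ∫ Σ_v E H_v` -/
theorem generator_le [MeasurableAdd₂ M] (φ : V → ℝ → (V → M) → unitInterval → M)
    (hφ : ∀ v, Measurable (fun p : ℝ × (V → M) × unitInterval => φ v p.1 p.2.1 p.2.2))
    (Λ : Finset V) (F : (V → M) → ℝ) (hF : Measurable F) (hb : ∃ C, ∀ x, |F x| ≤ C)
    (H : V → ℝ → (V → M) → ℝ) (hH : ∀ v, Measurable (fun p : ℝ × (V → M) => H v p.1 p.2))
    (hHb : ∃ C, ∀ v s x, |H v s x| ≤ C)
    (h0 : ∀ v ∈ Λ, ∀ s h, 0 ≤ LL φ F v s h) (hL : ∀ v ∈ Λ, ∀ s h, LL φ F v s h ≤ H v s h)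
    (T₁ T₂ : ℝ) (hT₁ : 0 ≤ T₁) (hT : T₁ ≤ T₂) :
    ∫ ω, F (st φ (Λ ×ˢ Finset.range ⌈T₁⌉₊) ω T₁) ∂PP V
      ≤ ∫ ω, F (st φ (Λ ×ˢ Finset.range ⌈T₂⌉₊) ω T₂) ∂PP V ∧
    ∫ ω, F (st φ (Λ ×ˢ Finset.range ⌈T₂⌉₊) ω T₂) ∂PP V
      ≤ ∫ ω, F (st φ (Λ ×ˢ Finset.range ⌈T₁⌉₊) ω T₁) ∂PP V
        + ∫ s in T₁..T₂, (∑ v ∈ Λ, ∫ ω, H v s (st φ (Λ ×ˢ Finset.range ⌈s⌉₊) ω s) ∂PP V) := by
  classical
  obtain ⟨n, hn⟩ : ∃ n : ℕ, T₂ ≤ n := ⟨⌈T₂⌉₊, Nat.le_ceil _⟩
  set A : Finset (V × ℕ) := Λ ×ˢ Finset.range n with hA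
  have e : ∀ (s : ℝ) (ω : Lab V), s ≤ n → st φ (Λ ×ˢ Finset.range ⌈s⌉₊) ω s = st φ A ω s :=
    fun s ω hs => (st_horizon φ Λ ω s n hs).symm
  simp only [e T₁ _ (hT.trans hn), e T₂ _ hn]
  obtain ⟨C, hC⟩ := hb
  obtain ⟨CH, hCH⟩ := hHb
  rw [generator φ hφ A F hF ⟨C, hC⟩ T₂ (hT₁.trans hT), generator φ hφ A F hF ⟨C, hC⟩ T₁ hT₁]
  -- the expected generator
  set g : V × ℕ → ℝ → ℝ := fun i s => ∫ ω, LL φ F i.1 s (st φ (A.erase i) ω s) ∂PP V with hg
  have hgm : ∀ i, Measurable (g i) := by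
    intro i
    have h1 : StronglyMeasurable (Function.uncurry fun (s : ℝ) (ω : Lab V) =>
        LL φ F i.1 s (st φ (A.erase i) ω s)) :=
      ((Pr.measurable_LL φ hφ F hF i.1).comp (measurable_fst.prodMk
        ((measurable_st φ hφ (A.erase i)).comp (measurable_snd.prodMk measurable_fst)))
        ).stronglyMeasurable
    exact (h1.integral_prod_right (ν := PP V)).measurable
  have hC0 : 0 ≤ C := (abs_nonneg _).trans (hC 0)
  have hgb : ∀ i s, |g i s| ≤ 2 * C := by
    intro i s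
    have h1 := norm_integral_le_of_norm_le_const (μ := PP V)
      (f := fun ω => LL φ F i.1 s (st φ (A.erase i) ω s)) (C := 2 * C)
      (Filter.Eventually.of_forall fun ω => by
        rw [Real.norm_eq_abs]; exact Pr.LL_bound φ F hC _ _ _)
    simpa using h1
  have hg0 : ∀ i ∈ A, ∀ s, 0 ≤ g i s := by
    intro i hi s
    exact integral_nonneg fun ω => h0 i.1 (Finset.mem_product.1 hi).1 s _
  -- `g ≤ 2 E H`
  set K : V → ℝ → ℝ := fun v s => ∫ ω, H v s (st φ A ω s) ∂PP V with hK
  have hKm : ∀ v, Measurable (K v) := by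
    intro v
    have h1 : StronglyMeasurable (Function.uncurry fun (s : ℝ) (ω : Lab V) =>
        H v s (st φ A ω s)) :=
      ((hH v).comp (measurable_fst.prodMk
        ((measurable_st φ hφ A).comp (measurable_snd.prodMk measurable_fst)))
        ).stronglyMeasurable
    exact (h1.integral_prod_right (ν := PP V)).measurable
  have hKb : ∀ v s, |K v s| ≤ CH := by
    intro v s
    have h1 := norm_integral_le_of_norm_le_const (μ := PP V)
      (f := fun ω => H v s (st φ A ω s)) (C := CH)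
      (Filter.Eventually.of_forall fun ω => by
        rw [Real.norm_eq_abs]; exact hCH _ _ _)
    simpa using h1
  have hgK : ∀ i ∈ A, ∀ s, g i s ≤ 2 * K i.1 s := by
    intro i hi s
    have hv := (Finset.mem_product.1 hi).1
    have hHm : Measurable (fun x : V → M => H i.1 s x) :=
      (hH i.1).comp (measurable_const.prodMk measurable_id)
    have h1 : g i s ≤ ∫ ω, H i.1 s (st φ (A.erase i) ω s) ∂PP V := by
      refine integral_mono ?_ ?_ fun ω => hL i.1 hv s _
      · have hm : Measurable (fun ω : Lab V => LL φ F i.1 s (st φ (A.erase i) ω s)) :=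
          (Pr.measurable_LL φ hφ F hF i.1).comp (measurable_const.prodMk
            ((measurable_st φ hφ (A.erase i)).comp (measurable_id.prodMk measurable_const)))
        exact Integrable.of_bound hm.aestronglyMeasurable (2 * C)
          (Filter.Eventually.of_forall fun ω => by
            rw [Real.norm_eq_abs]; exact Pr.LL_bound φ F hC _ _ _)
      · exact (Pr.BM_st φ hφ (A.erase i) (fun x => H i.1 s x) hHm
          ⟨CH, fun x => hCH _ _ _⟩ s).integrable _
    exact h1.trans (erase_le φ hφ A (fun x => H i.1 s x) hHm ⟨CH, fun x => hCH _ _ _⟩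
      (fun x => (h0 i.1 hv s x).trans (hL i.1 hv s x)) s i)
  have hK0 : ∀ v ∈ Λ, ∀ s, 0 ≤ K v s := fun v hv s =>
    integral_nonneg fun ω => (h0 v hv s _).trans (hL v hv s _)
  -- splitting the time integral
  have hint : ∀ i, ∀ S : Set ℝ, volume S ≠ ⊤ → IntegrableOn (g i) S := by
    intro i S hS
    exact Measure.integrableOn_of_bounded hS (hgm i).aestronglyMeasurable
      (Filter.Eventually.of_forall fun s => by rw [Real.norm_eq_abs]; exact hgb i s)
  have hKint : ∀ v, ∀ S : Set ℝ, volume S ≠ ⊤ → IntegrableOn (K v) S := by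
    intro v S hS
    exact Measure.integrableOn_of_bounded hS (hKm v).aestronglyMeasurable
      (Filter.Eventually.of_forall fun s => by rw [Real.norm_eq_abs]; exact hKb v s)
  have hfin : ∀ (j : ℕ) (T : ℝ), volume (Ico (j : ℝ) (j + 1) ∩ Iio T) ≠ ⊤ := by
    intro j T
    exact ne_top_of_le_ne_top (by simp : volume (Ico (j : ℝ) (j + 1)) ≠ ⊤)
      (measure_mono Set.inter_subset_left)
  have hsplit : ∀ (j : ℕ) (f : ℝ → ℝ), IntegrableOn f (Ico (j : ℝ) (j + 1) ∩ Iio T₂) →
      ∫ s in Ico (j : ℝ) (j + 1) ∩ Iio T₂, f s = (∫ s in Ico (j : ℝ) (j + 1) ∩ Iio T₁, f s)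
        + ∫ s in Ico (j : ℝ) (j + 1) ∩ Ico T₁ T₂, f s := by
    intro j f hf
    have hu : Ico (j : ℝ) (j + 1) ∩ Iio T₂
        = (Ico (j : ℝ) (j + 1) ∩ Iio T₁) ∪ (Ico (j : ℝ) (j + 1) ∩ Ico T₁ T₂) := by
      ext x
      simp only [Set.mem_inter_iff, Set.mem_union, Set.mem_Ico, Set.mem_Iio]
      constructor
      · rintro ⟨h1, h2⟩
        rcases lt_or_ge x T₁ with h | h
        · exact Or.inl ⟨h1, h⟩
        · exact Or.inr ⟨h1, h, h2⟩
      · rintro (⟨h1, h2⟩ | ⟨h1, h2, h3⟩)
        · exact ⟨h1, h2.trans_le hT⟩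
        · exact ⟨h1, h3⟩
    have hd : Disjoint (Ico (j : ℝ) (j + 1) ∩ Iio T₁) (Ico (j : ℝ) (j + 1) ∩ Ico T₁ T₂) := by
      rw [Set.disjoint_left]
      rintro x ⟨_, h1⟩ ⟨_, h2, _⟩
      exact absurd h1 (not_lt.2 h2)
    rw [hu] at hf
    have h3 := setIntegral_union (μ := volume) (f := f) hd
      (measurableSet_Ico.inter measurableSet_Ico)
      (hf.mono_set Set.subset_union_left) (hf.mono_set Set.subset_union_right)
    rw [hu]
    exact h3
  have hdiff : ∀ i ∈ A, ∫ s in Ico (i.2 : ℝ) (i.2 + 1) ∩ Iio T₂, g i s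
      = (∫ s in Ico (i.2 : ℝ) (i.2 + 1) ∩ Iio T₁, g i s)
        + ∫ s in Ico (i.2 : ℝ) (i.2 + 1) ∩ Ico T₁ T₂, g i s :=
    fun i _ => hsplit i.2 (g i) (hint i _ (hfin _ _))
  have hms : ∀ j : ℕ, MeasurableSet (Ico (j : ℝ) (j + 1) ∩ Ico T₁ T₂) :=
    fun j => measurableSet_Ico.inter measurableSet_Ico
  constructor
  · refine add_le_add le_rfl (Finset.sum_le_sum fun i hi => ?_)
    change (1 / 2) * (∫ s in Ico (i.2 : ℝ) (i.2 + 1) ∩ Iio T₁, g i s)
      ≤ (1 / 2) * ∫ s in Ico (i.2 : ℝ) (i.2 + 1) ∩ Iio T₂, g i s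
    rw [hdiff i hi]
    have : 0 ≤ ∫ s in Ico (i.2 : ℝ) (i.2 + 1) ∩ Ico T₁ T₂, g i s :=
      setIntegral_nonneg (hms _) fun s _ => hg0 i hi s
    linarith
  · have h5 : ∫ s in T₁..T₂, (∑ v ∈ Λ, ∫ ω, H v s (st φ (Λ ×ˢ Finset.range ⌈s⌉₊) ω s) ∂PP V)
        = ∫ s in Ico T₁ T₂, ∑ v ∈ Λ, K v s := by
      rw [intervalIntegral.integral_of_le hT, ← integral_Ico_eq_integral_Ioc]
      refine setIntegral_congr_fun measurableSet_Ico fun s hs => ?_
      simp only [hK]
      refine Finset.sum_congr rfl fun v _ => ?_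
      simp only [e s _ (hs.2.le.trans hn)]
    have h6 : ∫ s in Ico T₁ T₂, ∑ v ∈ Λ, K v s
        = ∑ i ∈ A, ∫ s in Ico (i.2 : ℝ) (i.2 + 1) ∩ Ico T₁ T₂, K i.1 s := by
      rw [integral_finsetSum _ fun v _ => hKint v _ (by simp), hA, Finset.sum_product]
      refine Finset.sum_congr rfl fun v _ => ?_
      have hun : Ico T₁ T₂ = ⋃ j ∈ Finset.range n, (Ico (j : ℝ) (j + 1) ∩ Ico T₁ T₂) := by
        ext x
        simp only [Set.mem_iUnion, Finset.mem_range, exists_prop, Set.mem_inter_iff]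
        constructor
        · intro hx
          have hx0 : 0 ≤ x := hT₁.trans hx.1
          refine ⟨⌊x⌋₊, ?_, ⟨Nat.floor_le hx0, Nat.lt_floor_add_one x⟩, hx⟩
          rw [Nat.floor_lt hx0]
          exact hx.2.trans_le hn
        · rintro ⟨j, _, _, hx⟩; exact hx
      conv_lhs => rw [hun]
      rw [integral_biUnion_finset _ (fun j _ => hms j)]
      · intro a _ b _ hab
        rw [Function.onFun, Set.disjoint_left]
        rintro x ⟨⟨h1, h2⟩, _⟩ ⟨⟨h3, h4⟩, _⟩
        apply hab
        have h7 : (a : ℝ) < b + 1 := lt_of_le_of_lt h1 h4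
        have h8 : (b : ℝ) < a + 1 := lt_of_le_of_lt h3 h2
        have h9 : a < b + 1 := by exact_mod_cast h7
        have h10 : b < a + 1 := by exact_mod_cast h8
        omega
      · intro j _
        exact hKint v _ (ne_top_of_le_ne_top (by simp : volume (Ico (j : ℝ) (j + 1)) ≠ ⊤)
          (measure_mono Set.inter_subset_left))
    rw [h5, h6, add_assoc, ← Finset.sum_add_distrib]
    refine add_le_add le_rfl (Finset.sum_le_sum fun i hi => ?_)
    change (1 / 2) * (∫ s in Ico (i.2 : ℝ) (i.2 + 1) ∩ Iio T₂, g i s)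
      ≤ (1 / 2) * (∫ s in Ico (i.2 : ℝ) (i.2 + 1) ∩ Iio T₁, g i s)
        + ∫ s in Ico (i.2 : ℝ) (i.2 + 1) ∩ Ico T₁ T₂, K i.1 s
    rw [hdiff i hi]
    have h7 : ∫ s in Ico (i.2 : ℝ) (i.2 + 1) ∩ Ico T₁ T₂, g i s
        ≤ ∫ s in Ico (i.2 : ℝ) (i.2 + 1) ∩ Ico T₁ T₂, 2 * K i.1 s := by
      have hf : volume (Ico (i.2 : ℝ) (i.2 + 1) ∩ Ico T₁ T₂) ≠ ⊤ :=
        ne_top_of_le_ne_top (by simp : volume (Ico (i.2 : ℝ) (i.2 + 1)) ≠ ⊤)
          (measure_mono Set.inter_subset_left)
      exact setIntegral_mono (hint i _ hf) ((hKint i.1 _ hf).const_mul 2) fun s => hgK i hi s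
    rw [integral_const_mul] at h7
    linarith

end Crest.Agent.T41
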