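import Crest.Agent.T41Inf
import Crest.Agent.T41Key
import Crest.Agent.T41Decor

/-!
S0241, parts EQ and STAR (first part): the pair of infinite-volume fields satisfies `Fld` and the
decorrelation hypothesis.
-/

set_option autoImplicit false
set_option linter.unusedSectionVars false

namespace Crest.Agent.T41

open MeasureTheory Filter Topology

universe u
variable {V : Type u} {G : SimpleGraph V} [G.LocallyFinite]

/-- lower bound for `kap` -/
theorem starA_kap_low {d : ℕ} (hd : 3 ≤ d) {θ bd : ℝ} (h0 : 0 < θ) (h1 : θ ≤ thc d)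
    (hbd : bd < 1) : ∃ k : ℝ, 0 < k ∧ ∀ x y : ℝ, |x| ≤ bd → |y| ≤ bd → k ≤ kap θ x y := by
  obtain ⟨bd', hbd', h⟩ := BB_bd (thc d) bd (thc_lt_one hd) hbd
  by_cases hb : ∃ x y : ℝ, |x| ≤ bd ∧ |y| ≤ bd
  · obtain ⟨x0, y0, hx0, hy0⟩ := hb
    have hb0 : 0 ≤ bd' := (abs_nonneg _).trans (h θ x0 y0 h0.le h1 hx0 hy0)
    have hb2 : bd' ^ 2 < 1 := pow_lt_one₀ hb0 hbd' (by norm_num)
    refine ⟨θ * (1 - bd' ^ 2), mul_pos h0 (by linarith), fun x y hx hy => ?_⟩
    have hB := h θ x y h0.le h1 hx hy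
    have hB2 : BB θ x y ^ 2 ≤ bd' ^ 2 := by
      rw [← sq_abs]; exact pow_le_pow_left₀ (abs_nonneg _) hB 2
    unfold kap
    refine mul_le_mul_of_nonneg_left ?_ h0.le
    unfold gg
    have hθ1 := h1.trans_lt (thc_lt_one hd)
    have hden : 0 < 1 - θ ^ 2 * BB θ x y ^ 2 := by
      have : θ ^ 2 ≤ 1 := pow_le_one₀ h0.le hθ1.le
      nlinarith [sq_nonneg (BB θ x y)]
    rw [le_div_iff₀ hden]
    have h3 : 0 ≤ θ ^ 2 * BB θ x y ^ 2 := by positivity
    nlinarith
  · push Not at hb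
    exact ⟨1, one_pos, fun x y hx hy => absurd hy (not_le.2 (hb x y hx))⟩

theorem starA_log {u u' k : ℝ} (hk : 0 < k) (h1 : k ≤ u) (h2 : k ≤ u') :
    |Real.log u - Real.log u'| ≤ |u - u'| / k := by
  have key : ∀ a b : ℝ, k ≤ a → k ≤ b → Real.log a - Real.log b ≤ |a - b| / k := by
    intro a b ha hb
    have ha0 : 0 < a := hk.trans_le ha
    have hb0 : 0 < b := hk.trans_le hb
    rw [← Real.log_div ha0.ne' hb0.ne']
    have h3 := Real.log_le_sub_one_of_pos (div_pos ha0 hb0)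
    have h4 : a / b - 1 = (a - b) / b := by field_simp
    rw [h4] at h3
    refine h3.trans ?_
    calc (a - b) / b ≤ |a - b| / b := div_le_div_of_nonneg_right (le_abs_self _) hb0.le
      _ ≤ |a - b| / k := div_le_div_of_nonneg_left (abs_nonneg _) hk hb
  rw [abs_le]
  constructor
  · have := key u' u h2 h1
    rw [abs_sub_comm] at this
    linarith
  · exact key u u' h1 h2

/-- `ell` is Lipschitz and bounded for fixed `θ` -/
theorem starA_ell {d : ℕ} (hd : 3 ≤ d) {θ bd : ℝ} (h0 : 0 < θ) (h1 : θ ≤ thc d)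
    (hbd : bd < 1) : ∃ K : ℝ, 0 ≤ K ∧ ∀ x y x' y' : ℝ, |x| ≤ bd → |y| ≤ bd → |x'| ≤ bd →
      |y'| ≤ bd → |ell d θ x y| ≤ K ∧
        |ell d θ x y - ell d θ x' y'| ≤ K * (|x - x'| + |y - y'|) := by
  obtain ⟨k, hk, hkap⟩ := starA_kap_low hd h0 h1 hbd
  obtain ⟨C, hC, hlip⟩ := kap_lip (thc d) (thc_lt_one hd)
  have hd1 := d1_ge hd
  have hs : 0 < √((d : ℝ) - 1) := Real.sqrt_pos.2 (by linarith)
  have hθ1 := h1.trans_lt (thc_lt_one hd)
  refine ⟨|Real.log (√((d : ℝ) - 1) * k)| + C / k, by positivity, ?_⟩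
  intro x y x' y' hx hy hx' hy'
  have a1 := hkap x y hx hy
  have a2 := hkap x' y' hx' hy'
  have b1 : 0 < kap θ x y := hk.trans_le a1
  have b2 : 0 < kap θ x' y' := hk.trans_le a2
  have hCk : 0 ≤ C / k := div_nonneg hC hk.le
  constructor
  · have e1 : 0 ≤ ell d θ x y := ell_nonneg hd h0 h1 (hx.trans_lt hbd) (hy.trans_lt hbd)
    rw [abs_of_nonneg e1]
    have e2 : ell d θ x y ≤ -Real.log (√((d : ℝ) - 1) * k) := by
      unfold ell
      exact neg_le_neg (Real.log_le_log (mul_pos hs hk) (mul_le_mul_of_nonneg_left a1 hs.le))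
    linarith [neg_abs_le (Real.log (√((d : ℝ) - 1) * k)), neg_le_abs (Real.log (√((d : ℝ) - 1) * k))]
  · have e1 : ell d θ x y - ell d θ x' y' = Real.log (kap θ x' y') - Real.log (kap θ x y) := by
      unfold ell
      rw [Real.log_mul hs.ne' b1.ne', Real.log_mul hs.ne' b2.ne']
      ring
    rw [e1]
    have e2 := starA_log hk a2 a1
    have e3 := hlip θ θ x' y' x y h0.le h1 h0.le h1 (hx'.trans hbd.le) (hy'.trans hbd.le)
      (hx.trans hbd.le) (hy.trans hbd.le)
    rw [sub_self, abs_zero, add_zero, abs_sub_comm x' x, abs_sub_comm y' y] at e3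
    have e4 : |kap θ x' y' - kap θ x y| / k ≤ C * (|x - x'| + |y - y'|) / k :=
      div_le_div_of_nonneg_right e3 hk.le
    have e5 : 0 ≤ |Real.log (√((d : ℝ) - 1) * k)| * (|x - x'| + |y - y'|) := by positivity
    calc _ ≤ |kap θ x' y' - kap θ x y| / k := e2
      _ ≤ C * (|x - x'| + |y - y'|) / k := e4
      _ = C / k * (|x - x'| + |y - y'|) := by ring
      _ ≤ _ := by linarith

attribute [local irreducible] mI kap ell

/-- relabelling as a measurable equivalence -/
noncomputable def starEquiv (g : V ≃ V) : Lab V ≃ᵐ Lab V where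
  toFun := fun ω w => ω (g w)
  invFun := fun ω w => ω (g.symm w)
  left_inv := fun ω => by funext w; simp
  right_inv := fun ω => by funext w; simp
  measurable_toFun := measurable_pi_lambda _ fun w => measurable_pi_apply (g w)
  measurable_invFun := measurable_pi_lambda _ fun w => measurable_pi_apply (g.symm w)

/-- integrals are invariant under relabelling -/
theorem star_integral_comp (g : V ≃ V) (f : Lab V → ℝ) :
    ∫ ω, f (fun w => ω (g w)) ∂PP V = ∫ ω, f ω ∂PP V := by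
  have hmp : MeasurePreserving (starEquiv g) (PP V) (PP V) :=
    ⟨(starEquiv g).measurable, PP_map_equiv g⟩
  exact hmp.integral_comp' f

theorem starA_D (hT : G.IsTree) (d : ℕ) (hreg : G.IsRegularOfDegree d) (θ θ' T : ℝ) (v w : V) :
    ∫ ω, (mI G θ T ω v - mI G θ' T ω v) ^ 2 ∂PP V
      = ∫ ω, (mI G θ T ω w - mI G θ' T ω w) ^ 2 ∂PP V := by
  obtain ⟨g, hg, _⟩ := exists_aut hT d hreg v v w w (by simp)
  have h := star_integral_comp g.toEquiv (fun ω => (mI G θ T ω v - mI G θ' T ω v) ^ 2)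
  rw [← h]
  refine integral_congr_ae (Eventually.of_forall fun ω => ?_)
  have h1 := mI_map hT g θ T ω v
  have h2 := mI_map hT g θ' T ω v
  rw [hg] at h1 h2
  change (mI G θ T (fun w => ω (g w)) v - mI G θ' T (fun w => ω (g w)) v) ^ 2 =
    (mI G θ T ω w - mI G θ' T ω w) ^ 2
  rw [h1, h2]

theorem mI_lt_one (hT : G.IsTree) (d : ℕ) (hd : 3 ≤ d) (hreg : G.IsRegularOfDegree d) (θ : ℝ)
    (h0 : 0 ≤ θ) (h1 : θ ≤ thc d) (T : ℝ) (ω : Lab V) (v : V) : |mI G θ T ω v| < 1 := by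
  obtain ⟨bd, _, hbd1, h⟩ := mm_mI_bd.{u} d hd ⌈T⌉₊
  exact ((h V G hT hreg θ h0 h1 T (Nat.le_ceil T) ω).2 v).trans_lt hbd1

theorem starA_fld (hT : G.IsTree) (d : ℕ) (hd : 3 ≤ d) (hreg : G.IsRegularOfDegree d) (θ θ' T : ℝ)
    (h0 : 0 ≤ θ) (h1 : θ < thc d) (h0' : 0 ≤ θ') (h1' : θ' < thc d) :
    Fld G (PP V) d θ θ' (fun v ω => mI G θ T ω v) (fun v ω => mI G θ' T ω v) := by
  have hd1 := d1_ge hd
  have hc1 := thc_lt_one hd
  have hc0 := thc_pos hd
  have hlt : ∀ (θ₁ : ℝ), 0 ≤ θ₁ → θ₁ < thc d → ((d : ℝ) - 1) * θ₁ ^ 2 ≤ 1 := by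
    intro θ₁ g0 g1
    have e := thc_sq hd
    have e2 : ((d : ℝ) - 1) * θ₁ ^ 2 ≤ ((d : ℝ) - 1) * thc d ^ 2 :=
      mul_le_mul_of_nonneg_left (pow_le_pow_left₀ g0 g1.le 2) (by linarith)
    exact e2.trans e.le
  have hm : ∀ θ₁ v, Measurable (fun ω => mI G θ₁ T ω v) := fun θ₁ v =>
    (measurable_mI G θ₁ v).comp (measurable_id.prodMk measurable_const)
  refine ⟨?_, hm θ, hm θ', ?_, ?_, ?_, ?_, hlt θ h0 h1, hlt θ' h0' h1', h0, h0',
    (h1.trans hc1).le, (h1'.trans hc1).le⟩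
  · intro n x y hx hy Φ hΦ hdep
    obtain ⟨g, hg⟩ := exists_aut_path hT d hreg hx hy
    have h := star_integral_comp g.toEquiv
      (fun ω => Φ (zp (fun v ω => mI G θ T ω v) (fun v ω => mI G θ' T ω v) x ω))
    rw [← h]
    refine integral_congr_ae (Eventually.of_forall fun ω => ?_)
    refine hdep _ _ fun i hi => ?_
    change (mI G θ T (fun w => ω (g w)) (x i), mI G θ' T (fun w => ω (g w)) (x i)) =
      (mI G θ T ω (y i), mI G θ' T ω (y i))
    rw [← mI_map hT g, ← mI_map hT g, hg i hi]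
  · exact fun v w ω => kap_nonneg h0 (h1.trans hc1) (mI_lt_one hT d hd hreg θ h0 h1.le T ω v).le
      (mI_lt_one hT d hd hreg θ h0 h1.le T ω w).le
  · exact fun v w ω => kap_le h0 (h1.trans hc1) (mI_lt_one hT d hd hreg θ h0 h1.le T ω v).le
      (mI_lt_one hT d hd hreg θ h0 h1.le T ω w).le
  · exact fun v w ω => kap_nonneg h0' (h1'.trans hc1)
      (mI_lt_one hT d hd hreg θ' h0' h1'.le T ω v).le
      (mI_lt_one hT d hd hreg θ' h0' h1'.le T ω w).le
  · exact fun v w ω => kap_le h0' (h1'.trans hc1)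
      (mI_lt_one hT d hd hreg θ' h0' h1'.le T ω v).le
      (mI_lt_one hT d hd hreg θ' h0' h1'.le T ω w).le

attribute [local irreducible] mm

/-- finite-volume edge functional -/
noncomputable def starR (G : SimpleGraph V) (d : ℕ) (θ T : ℝ) (n : ℕ) (p y : V) (ω : Lab V) : ℝ :=
  ell d θ (mm G θ (ball G p (n + 1)) T ω y) (mm G θ (ball G p (n + 1)) T ω p)

/-- infinite-volume edge functional -/
noncomputable def starI (G : SimpleGraph V) [G.LocallyFinite] (d : ℕ) (θ T : ℝ) (p y : V)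
    (ω : Lab V) : ℝ := ell d θ (mI G θ T ω y) (mI G θ T ω p)

theorem starR_eqv (hT : G.IsTree) (d : ℕ) (θ T : ℝ) (n : ℕ) (g : G ≃g G) (p y : V) (ω : Lab V) :
    starR G d θ T n (g p) (g y) ω = starR G d θ T n p y (ω ∘ g) := by
  unfold starR
  rw [← ball_map hT g p (n + 1), mm_map, mm_map]
  rfl

theorem starR_meas (d : ℕ) (θ T : ℝ) (n : ℕ) (p y : V) : Measurable (starR G d θ T n p y) := by
  have hm : ∀ w, Measurable (fun ω : Lab V => mm G θ (ball G p (n + 1)) T ω w) := fun w =>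
    (measurable_pi_apply w).comp ((measurable_mm G θ (ball G p (n + 1))).comp
      (measurable_id.prodMk measurable_const))
  exact (measurable_ell d).comp (measurable_const.prodMk ((hm y).prodMk (hm p)))

theorem starI_meas (d : ℕ) (θ T : ℝ) (p y : V) : Measurable (starI G d θ T p y) := by
  have hm : ∀ w, Measurable (fun ω : Lab V => mI G θ T ω w) := fun w =>
    (measurable_mI G θ w).comp (measurable_id.prodMk measurable_const)
  exact (measurable_ell d).comp (measurable_const.prodMk ((hm y).prodMk (hm p)))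

theorem starR_dep (d : ℕ) (θ T : ℝ) (n : ℕ) (p y : V) :
    DependsOn (starR G d θ T n p y) (ball G p (n + 1) : Set V) := by
  intro ω ω' h
  unfold starR
  rw [mm_congr θ (ball G p (n + 1)) T ω ω' fun v hv => h v hv]

/-- convergence of the functionals -/
theorem starR_lim (hT : G.IsTree) (d : ℕ) (hd : 3 ≤ d) (hreg : G.IsRegularOfDegree d) (θ T : ℝ)
    (h0 : 0 < θ) (h1 : θ < thc d) (hT0 : 0 ≤ T) : ∃ K : ℝ, 0 ≤ K ∧
    (∀ n p y ω, |starR G d θ T n p y ω| ≤ K) ∧ (∀ p y ω, |starI G d θ T p y ω| ≤ K) ∧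
    ∀ p y, G.Adj p y → Tendsto (fun n => ∫ ω, (starR G d θ T n p y ω - starI G d θ T p y ω) ^ 2
      ∂PP V) atTop (𝓝 0) := by
  obtain ⟨bd, hbd0, hbd1, hb⟩ := mm_mI_bd.{u} d hd ⌈T⌉₊
  have hb' := hb V G hT hreg θ h0.le h1.le T (Nat.le_ceil T)
  obtain ⟨K, hK, hell⟩ := starA_ell hd h0 h1.le hbd1
  refine ⟨K, hK, fun n p y ω => ?_, fun p y ω => ?_, fun p y hpy => ?_⟩
  · exact (hell _ _ _ _ ((hb' ω).1 p (n + 1) y) ((hb' ω).1 p (n + 1) p)
      ((hb' ω).1 p (n + 1) y) ((hb' ω).1 p (n + 1) p)).1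
  · exact (hell _ _ _ _ ((hb' ω).2 y) ((hb' ω).2 p) ((hb' ω).2 y) ((hb' ω).2 p)).1
  · obtain ⟨C, ρ, hC, hρ0, hρ1, happ⟩ := mI_approx hT d hd hreg θ h0.le h1 ⌈T⌉₊
    have hT' : T ≤ ((⌈T⌉₊ : ℕ) : ℝ) := Nat.le_ceil T
    have hlim : Tendsto (fun n : ℕ => K ^ 2 * (2 * (C * ρ ^ n) + 2 * (C * ρ ^ n))) atTop
        (𝓝 0) := by
      have h2 := tendsto_pow_atTop_nhds_zero_of_lt_one hρ0.le hρ1
      have h3 := (((h2.const_mul C).const_mul 2).add ((h2.const_mul C).const_mul 2)).const_mul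
        (K ^ 2)
      simpa using h3
    refine squeeze_zero (fun n => integral_nonneg fun ω => sq_nonneg _) (fun n => ?_) hlim
    have hmm : ∀ w, Measurable (fun ω : Lab V => mm G θ (ball G p (n + 1)) T ω w) := fun w =>
      (measurable_pi_apply w).comp ((measurable_mm G θ (ball G p (n + 1))).comp
        (measurable_id.prodMk measurable_const))
    have hmi : ∀ w, Measurable (fun ω : Lab V => mI G θ T ω w) := fun w =>
      (measurable_mI G θ w).comp (measurable_id.prodMk measurable_const)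
    have hint : ∀ w, Integrable (fun ω : Lab V =>
        (mm G θ (ball G p (n + 1)) T ω w - mI G θ T ω w) ^ 2) (PP V) := fun w => by
      refine integrable_bdd (((hmm w).sub (hmi w)).pow_const 2) (4 : ℝ) fun ω => ?_
      have a1 := abs_le.1 (((hb' ω).1 p (n + 1) w).trans hbd1.le)
      have a2 := abs_le.1 (((hb' ω).2 w).trans hbd1.le)
      change |(mm G θ (ball G p (n + 1)) T ω w - mI G θ T ω w) ^ 2| ≤ 4
      rw [abs_of_nonneg (sq_nonneg _)]
      nlinarith
    have ey := happ T hT0 hT' p y n (n + 1) (by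
      rw [SimpleGraph.dist_eq_one_iff_adj.2 hpy]; omega)
    have ep := happ T hT0 hT' p p n (n + 1) (by rw [SimpleGraph.dist_self]; omega)
    have hmono : ∫ ω, (starR G d θ T n p y ω - starI G d θ T p y ω) ^ 2 ∂PP V ≤
        ∫ ω, K ^ 2 * (2 * (mm G θ (ball G p (n + 1)) T ω y - mI G θ T ω y) ^ 2 +
          2 * (mm G θ (ball G p (n + 1)) T ω p - mI G θ T ω p) ^ 2) ∂PP V := by
      refine integral_mono_of_nonneg (Eventually.of_forall fun ω => sq_nonneg _)
        ((((hint y).const_mul 2).add ((hint p).const_mul 2)).const_mul _)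
        (Eventually.of_forall fun ω => ?_)
      have h2 := (hell _ _ _ _ ((hb' ω).1 p (n + 1) y) ((hb' ω).1 p (n + 1) p)
        ((hb' ω).2 y) ((hb' ω).2 p)).2
      change (starR G d θ T n p y ω - starI G d θ T p y ω) ^ 2 ≤
        K ^ 2 * (2 * (mm G θ (ball G p (n + 1)) T ω y - mI G θ T ω y) ^ 2 +
          2 * (mm G θ (ball G p (n + 1)) T ω p - mI G θ T ω p) ^ 2)
      rw [← sq_abs (starR G d θ T n p y ω - starI G d θ T p y ω)]
      refine (pow_le_pow_left₀ (abs_nonneg _) h2 2).trans ?_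
      rw [mul_pow]
      refine mul_le_mul_of_nonneg_left ?_ (sq_nonneg K)
      rw [← sq_abs (mm G θ (ball G p (n + 1)) T ω y - mI G θ T ω y),
        ← sq_abs (mm G θ (ball G p (n + 1)) T ω p - mI G θ T ω p)]
      nlinarith [sq_nonneg (|mm G θ (ball G p (n + 1)) T ω y - mI G θ T ω y| -
        |mm G θ (ball G p (n + 1)) T ω p - mI G θ T ω p|)]
    refine hmono.trans ?_
    rw [integral_const_mul, integral_add ((hint y).const_mul 2) ((hint p).const_mul 2),
      integral_const_mul, integral_const_mul]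
    refine mul_le_mul_of_nonneg_left ?_ (sq_nonneg K)
    exact add_le_add (mul_le_mul_of_nonneg_left ey (by norm_num))
      (mul_le_mul_of_nonneg_left ep (by norm_num))

theorem starA_dec (hT : G.IsTree) (d : ℕ) (hd : 3 ≤ d) (hreg : G.IsRegularOfDegree d) (θ θ' T : ℝ)
    (h0 : 0 < θ) (h1 : θ < thc d) (h0' : 0 < θ') (h1' : θ' < thc d) (hT0 : 0 ≤ T)
    (x : ℕ → V) (l : ℕ) (hx : NB G x l) (y p : V) (hyp : G.Adj y p) :
    ∫ ω, (∑ i ∈ Finset.range l,
      (ell d θ (mI G θ T ω (x (i + 1))) (mI G θ T ω (x i))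
        - ell d θ' (mI G θ' T ω (x (i + 1))) (mI G θ' T ω (x i)))) ^ 2 ∂PP V
      ≤ (l : ℝ) ^ 2 * (∫ ω, (ell d θ (mI G θ T ω y) (mI G θ T ω p)
          - ell d θ' (mI G θ' T ω y) (mI G θ' T ω p)) ∂PP V) ^ 2
        + Cdec d * l * (∫ ω, (ell d θ (mI G θ T ω y) (mI G θ T ω p)
          - ell d θ' (mI G θ' T ω y) (mI G θ' T ω p)) ^ 2 ∂PP V
          - (∫ ω, (ell d θ (mI G θ T ω y) (mI G θ T ω p)
          - ell d θ' (mI G θ' T ω y) (mI G θ' T ω p)) ∂PP V) ^ 2) := by
  obtain ⟨K, hK, c1, c2, c3⟩ := starR_lim hT d hd hreg θ T h0 h1 hT0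
  obtain ⟨K', hK', c1', c2', c3'⟩ := starR_lim hT d hd hreg θ' T h0' h1' hT0
  have key := decor_sum_lim muE hT d hd hreg
    (aR := fun n p y ω => starR G d θ T n p y ω - starR G d θ' T n p y ω)
    (fun n g p y ω _ => by
      simp only
      rw [starR_eqv hT, starR_eqv hT])
    (fun n p y _ => ⟨(starR_meas d θ T n p y).sub (starR_meas d θ' T n p y), K + K', fun ω =>
      (abs_sub _ _).trans (add_le_add (c1 n p y ω) (c1' n p y ω))⟩)
    (fun n p y _ => ⟨ball G p (n + 1), fun ω ω' h => by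
      simp only
      rw [starR_dep d θ T n p y h, starR_dep d θ' T n p y h]⟩)
    (a := fun p y ω => starI G d θ T p y ω - starI G d θ' T p y ω)
    (fun p y _ => MemLp.of_bound
      ((starI_meas d θ T p y).sub (starI_meas d θ' T p y)).aestronglyMeasurable (K + K')
      (Eventually.of_forall fun ω => (abs_sub _ _).trans (add_le_add (c2 p y ω) (c2' p y ω))))
    (fun p y hpy => ?_) hx hyp.symm
  · exact key
  · have h3 := (((c3 p y hpy).const_mul 2).add ((c3' p y hpy).const_mul 2))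
    rw [mul_zero, add_zero] at h3
    refine squeeze_zero (fun n => integral_nonneg fun ω => sq_nonneg _) (fun n => ?_) h3
    have i1 : Integrable (fun ω => (starR G d θ T n p y ω - starI G d θ T p y ω) ^ 2) (PP V) :=
      integrable_bdd (((starR_meas d θ T n p y).sub (starI_meas d θ T p y)).pow_const 2)
        ((K + K) ^ 2) fun ω => by
        change |(starR G d θ T n p y ω - starI G d θ T p y ω) ^ 2| ≤ _
        rw [abs_pow]
        exact pow_le_pow_left₀ (abs_nonneg _) ((abs_sub _ _).trans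
          (add_le_add (c1 n p y ω) (c2 p y ω))) 2
    have i2 : Integrable (fun ω => (starR G d θ' T n p y ω - starI G d θ' T p y ω) ^ 2) (PP V) :=
      integrable_bdd (((starR_meas d θ' T n p y).sub (starI_meas d θ' T p y)).pow_const 2)
        ((K' + K') ^ 2) fun ω => by
        change |(starR G d θ' T n p y ω - starI G d θ' T p y ω) ^ 2| ≤ _
        rw [abs_pow]
        exact pow_le_pow_left₀ (abs_nonneg _) ((abs_sub _ _).trans
          (add_le_add (c1' n p y ω) (c2' p y ω))) 2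
    rw [← integral_const_mul, ← integral_const_mul, ← integral_add (i1.const_mul 2)
      (i2.const_mul 2)]
    refine integral_mono_of_nonneg (Eventually.of_forall fun ω => sq_nonneg _)
      ((i1.const_mul 2).add (i2.const_mul 2)) (Eventually.of_forall fun ω => ?_)
    change ((starR G d θ T n p y ω - starR G d θ' T n p y ω) -
      (starI G d θ T p y ω - starI G d θ' T p y ω)) ^ 2 ≤
      2 * (starR G d θ T n p y ω - starI G d θ T p y ω) ^ 2 +
      2 * (starR G d θ' T n p y ω - starI G d θ' T p y ω) ^ 2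
    nlinarith [sq_nonneg ((starR G d θ T n p y ω - starI G d θ T p y ω) +
      (starR G d θ' T n p y ω - starI G d θ' T p y ω))]

end Crest.Agent.T41
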