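import Crest.Agent.T41OneInf
import Crest.Agent.T41Key
import Crest.Agent.T41Lim
import Crest.Agent.T41Decor

/-!
S0241, part STAR: the `LimHyp` instance.
-/

set_option autoImplicit false

namespace Crest.Agent.T41

open MeasureTheory Filter Topology

universe u
variable {V : Type u} {G : SimpleGraph V} [G.LocallyFinite]

/-- mean square distance -/
noncomputable def sD (G : SimpleGraph V) [G.LocallyFinite] (θ θ' T : ℝ) (v : V) : ℝ :=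
  ∫ ω, (mI G θ T ω v - mI G θ' T ω v) ^ 2 ∂PP V

/-- edge difference -/
noncomputable def sA (G : SimpleGraph V) [G.LocallyFinite] (d : ℕ) (θ θ' T : ℝ) (y p : V)
    (ω : Lab V) : ℝ :=
  ell d θ (mI G θ T ω y) (mI G θ T ω p) - ell d θ' (mI G θ' T ω y) (mI G θ' T ω p)

/-- mean of `ell` -/
noncomputable def sE (G : SimpleGraph V) [G.LocallyFinite] (d : ℕ) (θ T : ℝ) (y p : V) : ℝ :=
  ∫ ω, ell d θ (mI G θ T ω y) (mI G θ T ω p) ∂PP V

/-- variance of the edge difference -/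
noncomputable def sV (G : SimpleGraph V) [G.LocallyFinite] (d : ℕ) (θ θ' T : ℝ) (y p : V) : ℝ :=
  ∫ ω, (sA G d θ θ' T y p ω) ^ 2 ∂PP V - (∫ ω, sA G d θ θ' T y p ω ∂PP V) ^ 2

theorem sB_ell_meas (d : ℕ) (θ T : ℝ) (y p : V) :
    Measurable (fun ω : Lab V => ell d θ (mI G θ T ω y) (mI G θ T ω p)) :=
  (measurable_ell d).comp (measurable_const.prodMk
    ((infE_mI_meas' θ T y).prodMk (infE_mI_meas' θ T p)))

theorem sB_sA_meas (d : ℕ) (θ θ' T : ℝ) (y p : V) : Measurable (sA G d θ θ' T y p) :=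
  (sB_ell_meas d θ T y p).sub (sB_ell_meas d θ' T y p)

/-- `ell` is bounded for times `≤ n` -/
theorem sB_ell_bd (hT : G.IsTree) (d : ℕ) (hd : 3 ≤ d) (hreg : G.IsRegularOfDegree d) (T : ℝ) :
    ∃ C : ℝ, 0 ≤ C ∧ ∀ (θ s : ℝ), thc d / 2 ≤ θ → θ < thc d → s ≤ T → ∀ (y p : V) (ω : Lab V),
      0 ≤ ell d θ (mI G θ s ω y) (mI G θ s ω p) ∧ ell d θ (mI G θ s ω y) (mI G θ s ω p) ≤ C := by
  obtain ⟨n, hn⟩ := exists_nat_ge T
  obtain ⟨bd, hbd0, hbd1, hbd⟩ := mm_mI_bd.{u} d hd n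
  obtain ⟨C, hC, h⟩ := ell_le hd bd hbd1
  refine ⟨C, hC, ?_⟩
  intro θ s h0 h1 hs y p ω
  have hpos := thc_pos hd
  have hb := (hbd V G hT hreg θ (by linarith) h1.le s (hs.trans hn) ω).2
  exact ⟨ell_nonneg hd (by linarith) h1.le ((hb y).trans_lt hbd1) ((hb p).trans_lt hbd1),
    h θ _ _ h0 h1.le (hb y) (hb p)⟩

theorem sB_sA_bd (hT : G.IsTree) (d : ℕ) (hd : 3 ≤ d) (hreg : G.IsRegularOfDegree d) (T : ℝ) :
    ∃ C : ℝ, 0 ≤ C ∧ ∀ (θ θ' s : ℝ), thc d / 2 ≤ θ → θ < thc d → thc d / 2 ≤ θ' → θ' < thc d →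
      s ≤ T → ∀ (y p : V) (ω : Lab V), |sA G d θ θ' s y p ω| ≤ C := by
  obtain ⟨C, hC, h⟩ := sB_ell_bd hT d hd hreg T
  refine ⟨C, hC, ?_⟩
  intro θ θ' s h0 h1 h0' h1' hs y p ω
  have e1 := h θ s h0 h1 hs y p ω
  have e2 := h θ' s h0' h1' hs y p ω
  unfold sA
  rw [abs_le]
  constructor <;> linarith

theorem sB_int_sA (hT : G.IsTree) (d : ℕ) (hd : 3 ≤ d) (hreg : G.IsRegularOfDegree d) (θ θ' T : ℝ)
    (h0 : thc d / 2 ≤ θ) (h1 : θ < thc d) (h0' : thc d / 2 ≤ θ') (h1' : θ' < thc d) (y p : V) :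
    Integrable (sA G d θ θ' T y p) (PP V) ∧ Integrable (fun ω => sA G d θ θ' T y p ω ^ 2) (PP V) ∧
    ∫ ω, sA G d θ θ' T y p ω ∂PP V = sE G d θ T y p - sE G d θ' T y p := by
  obtain ⟨C, hC, h⟩ := sB_sA_bd hT d hd hreg T
  obtain ⟨C', hC', h'⟩ := sB_ell_bd hT d hd hreg T
  have hm := sB_sA_meas (G := G) d θ θ' T y p
  refine ⟨infB_int hm C (fun ω => h θ θ' T h0 h1 h0' h1' le_rfl y p ω), ?_, ?_⟩
  · apply infB_int (hm.pow_const 2) (C ^ 2)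
    intro ω
    rw [abs_of_nonneg (sq_nonneg _), ← sq_abs]
    exact pow_le_pow_left₀ (abs_nonneg _) (h θ θ' T h0 h1 h0' h1' le_rfl y p ω) 2
  · unfold sA sE
    apply integral_sub
    · apply infB_int (sB_ell_meas d θ T y p) C'
      intro ω
      have := h' θ T h0 h1 le_rfl y p ω
      rw [abs_of_nonneg this.1]; exact this.2
    · apply infB_int (sB_ell_meas d θ' T y p) C'
      intro ω
      have := h' θ' T h0' h1' le_rfl y p ω
      rw [abs_of_nonneg this.1]; exact this.2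

theorem sB_V_le (θ θ' T : ℝ) (d : ℕ) (y p : V) :
    sV G d θ θ' T y p ≤ ∫ ω, (sA G d θ θ' T y p ω) ^ 2 ∂PP V := by
  unfold sV
  linarith [sq_nonneg (∫ ω, sA G d θ θ' T y p ω ∂PP V)]

theorem sB_V_nonneg (hT : G.IsTree) (d : ℕ) (hd : 3 ≤ d) (hreg : G.IsRegularOfDegree d) (θ θ' T : ℝ)
    (h0 : thc d / 2 ≤ θ) (h1 : θ < thc d) (h0' : thc d / 2 ≤ θ') (h1' : θ' < thc d) (y p : V) :
    0 ≤ sV G d θ θ' T y p := by
  obtain ⟨i1, i2, -⟩ := sB_int_sA hT d hd hreg θ θ' T h0 h1 h0' h1' y p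
  set E := ∫ ω, sA G d θ θ' T y p ω ∂PP V with hE
  have h2 : 0 ≤ ∫ ω, (sA G d θ θ' T y p ω - E) ^ 2 ∂PP V := integral_nonneg fun _ => sq_nonneg _
  have h3 : ∫ ω, (sA G d θ θ' T y p ω - E) ^ 2 ∂PP V =
      ∫ ω, (sA G d θ θ' T y p ω) ^ 2 ∂PP V - 2 * E * E + E ^ 2 := by
    have e : ∀ ω, (sA G d θ θ' T y p ω - E) ^ 2 =
      (sA G d θ θ' T y p ω) ^ 2 - 2 * E * sA G d θ θ' T y p ω + E ^ 2 := fun ω => by ring
    simp only [e]
    have i3 : Integrable (fun ω => (sA G d θ θ' T y p ω) ^ 2 - 2 * E * sA G d θ θ' T y p ω) (PP V) :=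
      i2.sub (i1.const_mul _)
    rw [integral_add i3 (integrable_const _), integral_sub i2 (i1.const_mul _),
      integral_const_mul]
    simp [hE]
  unfold sV
  rw [← hE]
  nlinarith

theorem sB_sq_int {θ θ' : ℝ} (h0 : 0 ≤ θ) (h1 : θ < 1) (h0' : 0 ≤ θ') (h1' : θ' < 1)
    (T : ℝ) (v : V) :
    Integrable (fun ω => (mI G θ T ω v - mI G θ' T ω v) ^ 2) (PP V) := by
  apply infB_int (((infE_mI_meas' θ T v).sub (infE_mI_meas' θ' T v)).pow_const 2) 4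
  intro ω
  rw [abs_of_nonneg (sq_nonneg _)]
  exact infB_sq_le (infE_mI_le h0 h1 T ω v) (infE_mI_le h0' h1' T ω v)

omit [G.LocallyFinite] in
theorem sB_int5 {f g h k : Lab V → ℝ} (K A B c : ℝ) (hf : Integrable f (PP V))
    (hg : Integrable g (PP V)) (hh : Integrable h (PP V)) (hk : Integrable k (PP V)) :
    Integrable (fun ω => K * (A * (f ω + g ω) + B * (h ω + k ω) + c)) (PP V) ∧
    ∫ ω, K * (A * (f ω + g ω) + B * (h ω + k ω) + c) ∂PP V =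
      K * (A * (∫ ω, f ω ∂PP V + ∫ ω, g ω ∂PP V) + B * (∫ ω, h ω ∂PP V + ∫ ω, k ω ∂PP V) + c) := by
  have i1 : Integrable (fun ω => f ω + g ω) (PP V) := hf.add hg
  have i2 : Integrable (fun ω => h ω + k ω) (PP V) := hh.add hk
  have i3 : Integrable (fun ω => A * (f ω + g ω)) (PP V) := i1.const_mul A
  have i4 : Integrable (fun ω => B * (h ω + k ω)) (PP V) := i2.const_mul B
  have i5 : Integrable (fun ω => A * (f ω + g ω) + B * (h ω + k ω)) (PP V) := i3.add i4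
  have i6 : Integrable (fun ω => A * (f ω + g ω) + B * (h ω + k ω) + c) (PP V) :=
    i5.add (integrable_const c)
  refine ⟨i6.const_mul K, ?_⟩
  rw [integral_const_mul, integral_add i5 (integrable_const c), integral_add i3 i4,
    integral_const_mul, integral_const_mul, integral_add hf hg, integral_add hh hk]
  simp

/-- V1 -/
theorem sB_V1 (hT : G.IsTree) (d : ℕ) (hd : 3 ≤ d) (hreg : G.IsRegularOfDegree d)
    (hD : ∀ (θ θ' T : ℝ) (v w : V), sD G θ θ' T v = sD G θ θ' T w) (T : ℝ) (y p : V) :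
    ∃ C : ℝ, ∀ (θ θ' s : ℝ), thc d / 2 ≤ θ → θ < thc d → thc d / 2 ≤ θ' → θ' < thc d →
      s ≤ T → sV G d θ θ' s y p ≤ C * (sD G θ θ' s p + (θ - θ') ^ 2) := by
  obtain ⟨n, hn⟩ := exists_nat_ge T
  obtain ⟨bd, hbd0, hbd1, hbd⟩ := mm_mI_bd.{u} d hd n
  obtain ⟨C, hC, hl⟩ := ell_lip hd bd hbd1
  refine ⟨C ^ 2 * 24, ?_⟩
  intro θ θ' s h0 h1 h0' h1' hs
  have hpos := thc_pos hd
  have hth := thc_lt_one hd
  refine (sB_V_le θ θ' s d y p).trans ?_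
  have hpt : ∀ ω : Lab V, (sA G d θ θ' s y p ω) ^ 2 ≤
      C ^ 2 * (12 * (mI G θ s ω y - mI G θ' s ω y) ^ 2 + 12 * (mI G θ s ω p - mI G θ' s ω p) ^ 2
        + 3 * (θ - θ') ^ 2) := by
    intro ω
    have hb := (hbd V G hT hreg θ (by linarith) h1.le s (hs.trans hn) ω).2
    have hb' := (hbd V G hT hreg θ' (by linarith) h1'.le s (hs.trans hn) ω).2
    have e1 := hl θ θ' (mI G θ s ω y) (mI G θ s ω p) (mI G θ' s ω y) (mI G θ' s ω p) h0 h1.le h0'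
      h1'.le (hb y) (hb p) (hb' y) (hb' p)
    have e2 : |BB θ (mI G θ s ω y) (mI G θ s ω p)| ≤ 1 :=
      BB_abs_le (by linarith) (h1.trans hth) ((hb y).trans hbd1.le) ((hb p).trans hbd1.le)
    have e3 : |BB θ' (mI G θ' s ω y) (mI G θ' s ω p)| ≤ 1 :=
      BB_abs_le (by linarith) (h1'.trans hth) ((hb' y).trans hbd1.le) ((hb' p).trans hbd1.le)
    set a := |mI G θ s ω y - mI G θ' s ω y| with ha
    set b := |mI G θ s ω p - mI G θ' s ω p| with hb2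
    set c := |θ - θ'| with hc
    have ha0 : 0 ≤ a := abs_nonneg _
    have hb0 : 0 ≤ b := abs_nonneg _
    have hc0 : 0 ≤ c := abs_nonneg _
    have e4 : |sA G d θ θ' s y p ω| ≤ C * (2 * (a + b) + c) := by
      refine e1.trans (mul_le_mul_of_nonneg_left ?_ hC)
      have : (|BB θ (mI G θ s ω y) (mI G θ s ω p)| + |BB θ' (mI G θ' s ω y) (mI G θ' s ω p)|) * (a + b)
        ≤ 2 * (a + b) := mul_le_mul_of_nonneg_right (by linarith) (by positivity)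
      linarith
    rw [← sq_abs (sA G d θ θ' s y p ω), ← sq_abs (mI G θ s ω y - _), ← sq_abs (mI G θ s ω p - _),
      ← sq_abs (θ - θ'), ← ha, ← hb2, ← hc]
    calc |sA G d θ θ' s y p ω| ^ 2 ≤ (C * (2 * (a + b) + c)) ^ 2 :=
          pow_le_pow_left₀ (abs_nonneg _) e4 2
      _ = C ^ 2 * (2 * a + 2 * b + c) ^ 2 := by ring
      _ ≤ C ^ 2 * (12 * a ^ 2 + 12 * b ^ 2 + 3 * c ^ 2) := by
          apply mul_le_mul_of_nonneg_left _ (by positivity)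
          nlinarith [sq_nonneg (2 * a - 2 * b), sq_nonneg (2 * a - c), sq_nonneg (2 * b - c)]
  have iy := sB_sq_int (G := G) (θ := θ) (θ' := θ') (by linarith) (h1.trans hth) (by linarith)
    (h1'.trans hth) s y
  have ip := sB_sq_int (G := G) (θ := θ) (θ' := θ') (by linarith) (h1.trans hth) (by linarith)
    (h1'.trans hth) s p
  have hi := sB_int5 (C ^ 2) 12 0 (3 * (θ - θ') ^ 2) iy ip iy ip
  have h3 := integral_mono (sB_int_sA hT d hd hreg θ θ' s h0 h1 h0' h1' y p).2.1 hi.1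
    (fun ω => (hpt ω).trans (le_of_eq (by ring)))
  refine h3.trans (le_of_eq_of_le (b := C ^ 2 * (12 * sD G θ θ' s y + 12 * sD G θ θ' s p +
    3 * (θ - θ') ^ 2)) ?_ ?_)
  · rw [hi.2]
    unfold sD
    ring
  · rw [hD θ θ' s y p]
    have : 0 ≤ C ^ 2 * (θ - θ') ^ 2 := by positivity
    nlinarith


omit [G.LocallyFinite] in
theorem sB_pt {β a l : ℝ} (p : ℕ) (hβ : 0 ≤ β) (hβ2 : β ≤ 2) (ha : 0 ≤ a) (ha4 : a ≤ 4)
    (hl : 0 < l) : β ^ 2 * a ^ 2 ≤ l ^ 2 * a ^ 2 + 64 * (β ^ (2 * p) / l ^ (2 * p)) := by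
  rcases le_total β l with h | h
  · have e1 : β ^ 2 * a ^ 2 ≤ l ^ 2 * a ^ 2 :=
      mul_le_mul_of_nonneg_right (pow_le_pow_left₀ hβ h 2) (sq_nonneg _)
    have e2 : 0 ≤ 64 * (β ^ (2 * p) / l ^ (2 * p)) := by positivity
    linarith
  · have e1 : 1 ≤ β ^ (2 * p) / l ^ (2 * p) := by
      rw [le_div_iff₀ (by positivity), one_mul]
      exact pow_le_pow_left₀ hl.le h _
    have e2 : β ^ 2 * a ^ 2 ≤ 2 ^ 2 * 4 ^ 2 :=
      mul_le_mul (pow_le_pow_left₀ hβ hβ2 2) (pow_le_pow_left₀ ha ha4 2) (sq_nonneg _) (by norm_num)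
    have e3 : 0 ≤ l ^ 2 * a ^ 2 := by positivity
    linarith

omit [G.LocallyFinite] in
theorem sB_pow {b B : ℝ} (p : ℕ) (hb : 0 ≤ b) (hB : 0 ≤ B) :
    (b + B) ^ (2 * p) ≤ 4 ^ p * (b ^ (2 * p) + B ^ (2 * p)) := by
  have h1 : b + B ≤ 2 * max b B := by
    have := le_max_left b B
    have := le_max_right b B
    linarith
  have h0 : 0 ≤ max b B := le_max_of_le_left hb
  have h2 : (max b B) ^ (2 * p) ≤ b ^ (2 * p) + B ^ (2 * p) := by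
    rcases max_cases b B with ⟨h, -⟩ | ⟨h, -⟩ <;> rw [h]
    · have : 0 ≤ B ^ (2 * p) := by positivity
      linarith
    · have : 0 ≤ b ^ (2 * p) := by positivity
      linarith
  calc (b + B) ^ (2 * p) ≤ (2 * max b B) ^ (2 * p) := pow_le_pow_left₀ (by positivity) h1 _
    _ = 4 ^ p * (max b B) ^ (2 * p) := by rw [mul_pow, pow_mul (2:ℝ) 2 p]; norm_num
    _ ≤ _ := mul_le_mul_of_nonneg_left h2 (by positivity)

/-- V2 -/
theorem sB_V2 (hT : G.IsTree) (d : ℕ) (hd : 3 ≤ d) (hreg : G.IsRegularOfDegree d)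
    (hD : ∀ (θ θ' T : ℝ) (v w : V), sD G θ θ' T v = sD G θ θ' T w) (q : ℕ) (hq : 1 ≤ q) (y p : V)
    (hyp : G.Adj y p) :
    ∃ C : ℝ, ∀ (θ θ' s l : ℝ), thc d / 2 ≤ θ → θ < thc d → thc d / 2 ≤ θ' → θ' < thc d →
      0 < s → s ≤ 1 / 4 → 0 < l →
      sV G d θ θ' s y p ≤ C * (l ^ 2 * sD G θ θ' s p + (θ - θ') ^ 2 + s ^ q / l ^ (2 * q)) := by
  obtain ⟨bd, hbd0, hbd1, hbd⟩ := mm_mI_bd.{u} d hd 1
  obtain ⟨C, hC, hl⟩ := ell_lip hd bd hbd1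
  obtain ⟨Cq, hCq, hmom⟩ := one_mom.{u} d hd q hq
  refine ⟨2 * C ^ 2 * (4 + 128 * 4 ^ q * Cq), ?_⟩
  intro θ θ' s l h0 h1 h0' h1' hs0 hs l0
  have hpos := thc_pos hd
  have hth := thc_lt_one hd
  have hθ0 : 0 ≤ θ := by linarith
  have hθ0' : 0 ≤ θ' := by linarith
  have hs1 : s ≤ ((1 : ℕ) : ℝ) := by push_cast; linarith
  refine (sB_V_le θ θ' s d y p).trans ?_
  set b : Lab V → ℝ := fun ω => BB θ (mI G θ s ω y) (mI G θ s ω p) with hb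
  set b' : Lab V → ℝ := fun ω => BB θ' (mI G θ' s ω y) (mI G θ' s ω p) with hb'
  have hbm : Measurable b := measurable_BB.comp (measurable_const.prodMk
    ((infE_mI_meas' θ s y).prodMk (infE_mI_meas' θ s p)))
  have hbm' : Measurable b' := measurable_BB.comp (measurable_const.prodMk
    ((infE_mI_meas' θ' s y).prodMk (infE_mI_meas' θ' s p)))
  have hmb : ∀ ω : Lab V, ∀ v, |mI G θ s ω v| ≤ bd := fun ω =>
    (hbd V G hT hreg θ hθ0 h1.le s hs1 ω).2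
  have hmb' : ∀ ω : Lab V, ∀ v, |mI G θ' s ω v| ≤ bd := fun ω =>
    (hbd V G hT hreg θ' hθ0' h1'.le s hs1 ω).2
  have hb1 : ∀ ω, |b ω| ≤ 1 := fun ω =>
    BB_abs_le hθ0 (h1.trans hth) ((hmb ω y).trans hbd1.le) ((hmb ω p).trans hbd1.le)
  have hb1' : ∀ ω, |b' ω| ≤ 1 := fun ω =>
    BB_abs_le hθ0' (h1'.trans hth) ((hmb' ω y).trans hbd1.le) ((hmb' ω p).trans hbd1.le)
  have hpt : ∀ ω : Lab V, (sA G d θ θ' s y p ω) ^ 2 ≤
      2 * C ^ 2 * (2 * l ^ 2 * ((mI G θ s ω y - mI G θ' s ω y) ^ 2 + (mI G θ s ω p - mI G θ' s ω p) ^ 2)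
        + 64 * 4 ^ q / l ^ (2 * q) * (b ω ^ (2 * q) + b' ω ^ (2 * q)) + (θ - θ') ^ 2) := by
    intro ω
    have e1 := hl θ θ' (mI G θ s ω y) (mI G θ s ω p) (mI G θ' s ω y) (mI G θ' s ω p) h0 h1.le h0'
      h1'.le (hmb ω y) (hmb ω p) (hmb' ω y) (hmb' ω p)
    set a₁ := |mI G θ s ω y - mI G θ' s ω y| with ha₁
    set a₂ := |mI G θ s ω p - mI G θ' s ω p| with ha₂
    set c := |θ - θ'| with hc
    have ha0 : 0 ≤ a₁ := abs_nonneg _
    have hb0 : 0 ≤ a₂ := abs_nonneg _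
    have hc0 : 0 ≤ c := abs_nonneg _
    have ha12 : a₁ ≤ 2 := infF_abs2 ((hmb ω y).trans hbd1.le) ((hmb' ω y).trans hbd1.le)
    have ha22 : a₂ ≤ 2 := infF_abs2 ((hmb ω p).trans hbd1.le) ((hmb' ω p).trans hbd1.le)
    have hβ := sB_pt (β := |b ω| + |b' ω|) (a := a₁ + a₂) (l := l) q (by positivity)
      (by linarith [hb1 ω, hb1' ω]) (by positivity) (by linarith) l0
    have hpw := sB_pow (b := |b ω|) (B := |b' ω|) q (abs_nonneg _) (abs_nonneg _)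
    rw [pow_mul |b ω| 2 q, pow_mul |b' ω| 2 q, sq_abs, sq_abs, ← pow_mul, ← pow_mul] at hpw
    have e5 : (|b ω| + |b' ω|) ^ (2 * q) / l ^ (2 * q) ≤
        4 ^ q * (b ω ^ (2 * q) + b' ω ^ (2 * q)) / l ^ (2 * q) :=
      div_le_div_of_nonneg_right hpw (by positivity)
    rw [← sq_abs (sA G d θ θ' s y p ω), ← sq_abs (mI G θ s ω y - _), ← sq_abs (mI G θ s ω p - _),
      ← sq_abs (θ - θ'), ← ha₁, ← ha₂, ← hc]
    have e6 : (a₁ + a₂) ^ 2 ≤ 2 * (a₁ ^ 2 + a₂ ^ 2) := by nlinarith [sq_nonneg (a₁ - a₂)]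
    have e7 : l ^ 2 * (a₁ + a₂) ^ 2 ≤ l ^ 2 * (2 * (a₁ ^ 2 + a₂ ^ 2)) :=
      mul_le_mul_of_nonneg_left e6 (by positivity)
    calc |sA G d θ θ' s y p ω| ^ 2 ≤ (C * ((|b ω| + |b' ω|) * (a₁ + a₂) + c)) ^ 2 :=
          pow_le_pow_left₀ (abs_nonneg _) e1 2
      _ = C ^ 2 * ((|b ω| + |b' ω|) * (a₁ + a₂) + c) ^ 2 := by ring
      _ ≤ C ^ 2 * (2 * ((|b ω| + |b' ω|) ^ 2 * (a₁ + a₂) ^ 2) + 2 * c ^ 2) := by
          apply mul_le_mul_of_nonneg_left _ (by positivity)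
          nlinarith [sq_nonneg ((|b ω| + |b' ω|) * (a₁ + a₂) - c)]
      _ ≤ C ^ 2 * (2 * (l ^ 2 * (2 * (a₁ ^ 2 + a₂ ^ 2)) +
            64 * (4 ^ q * (b ω ^ (2 * q) + b' ω ^ (2 * q)) / l ^ (2 * q))) + 2 * c ^ 2) := by
          apply mul_le_mul_of_nonneg_left _ (by positivity)
          linarith
      _ = _ := by ring
  have iy := sB_sq_int (G := G) (θ := θ) (θ' := θ') hθ0 (h1.trans hth) hθ0' (h1'.trans hth) s y
  have ip := sB_sq_int (G := G) (θ := θ) (θ' := θ') hθ0 (h1.trans hth) hθ0' (h1'.trans hth) s p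
  have ib : Integrable (fun ω => b ω ^ (2 * q)) (PP V) := by
    apply infB_int (hbm.pow_const _) 1
    intro ω
    rw [abs_pow]
    exact pow_le_one₀ (abs_nonneg _) (hb1 ω)
  have ib' : Integrable (fun ω => b' ω ^ (2 * q)) (PP V) := by
    apply infB_int (hbm'.pow_const _) 1
    intro ω
    rw [abs_pow]
    exact pow_le_one₀ (abs_nonneg _) (hb1' ω)
  have hi := sB_int5 (2 * C ^ 2) (2 * l ^ 2) (64 * 4 ^ q / l ^ (2 * q)) ((θ - θ') ^ 2) iy ip ib ib'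
  have h3 := integral_mono (sB_int_sA hT d hd hreg θ θ' s h0 h1 h0' h1' y p).2.1 hi.1 hpt
  refine h3.trans ?_
  rw [hi.2]
  have m1 := hmom V G hT hreg θ s hθ0 h1 hs0.le hs y p hyp
  have m2 := hmom V G hT hreg θ' s hθ0' h1' hs0.le hs y p hyp
  have hDy := hD θ θ' s y p
  unfold sD at hDy ⊢
  rw [hDy]
  set Dp := ∫ ω, (mI G θ s ω p - mI G θ' s ω p) ^ 2 ∂PP V with hDp
  have hDp0 : 0 ≤ Dp := integral_nonneg fun _ => sq_nonneg _
  have m3 : 64 * 4 ^ q / l ^ (2 * q) * (∫ ω, b ω ^ (2 * q) ∂PP V + ∫ ω, b' ω ^ (2 * q) ∂PP V) ≤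
      64 * 4 ^ q / l ^ (2 * q) * (2 * Cq * s ^ q) :=
    mul_le_mul_of_nonneg_left (by linarith) (by positivity)
  have m4 : 64 * 4 ^ q / l ^ (2 * q) * (2 * Cq * s ^ q) = 128 * 4 ^ q * Cq * (s ^ q / l ^ (2 * q)) := by
    ring
  rw [m4] at m3
  have hx0 : 0 ≤ s ^ q / l ^ (2 * q) := by positivity
  have hc0 : 0 ≤ 128 * 4 ^ q * Cq := by positivity
  have hfin : 2 * l ^ 2 * (Dp + Dp) + 128 * 4 ^ q * Cq * (s ^ q / l ^ (2 * q)) + (θ - θ') ^ 2 ≤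
      (4 + 128 * 4 ^ q * Cq) * (l ^ 2 * Dp + (θ - θ') ^ 2 + s ^ q / l ^ (2 * q)) := by
    have g1 : 0 ≤ 128 * 4 ^ q * Cq * (l ^ 2 * Dp) := by positivity
    have g2 : 0 ≤ 128 * 4 ^ q * Cq * (θ - θ') ^ 2 := by positivity
    have g3 : 0 ≤ (θ - θ') ^ 2 := sq_nonneg _
    have g4 : (4 + 128 * 4 ^ q * Cq) * (l ^ 2 * Dp + (θ - θ') ^ 2 + s ^ q / l ^ (2 * q)) =
      4 * (l ^ 2 * Dp) + 128 * 4 ^ q * Cq * (l ^ 2 * Dp) + 4 * (θ - θ') ^ 2 +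
      128 * 4 ^ q * Cq * (θ - θ') ^ 2 + 4 * (s ^ q / l ^ (2 * q)) +
      128 * 4 ^ q * Cq * (s ^ q / l ^ (2 * q)) := by ring
    rw [g4]
    linarith
  calc _ ≤ 2 * C ^ 2 * (2 * l ^ 2 * (Dp + Dp) + 128 * 4 ^ q * Cq * (s ^ q / l ^ (2 * q)) + (θ - θ') ^ 2) := by
        apply mul_le_mul_of_nonneg_left _ (by positivity)
        linarith
    _ ≤ 2 * C ^ 2 * ((4 + 128 * 4 ^ q * Cq) * (l ^ 2 * Dp + (θ - θ') ^ 2 + s ^ q / l ^ (2 * q))) :=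
        mul_le_mul_of_nonneg_left hfin (by positivity)
    _ = _ := by ring


/-! ### the data of `LimHyp` -/

noncomputable def stD (G : SimpleGraph V) [G.LocallyFinite] (θ : ℕ → ℝ) (x : ℕ → V) (n m : ℕ)
    (s : ℝ) : ℝ :=
  ∫ ω, (mI G (θ n) s ω (x 0) - mI G (θ m) s ω (x 0)) ^ 2 ∂PP V

noncomputable def stS (d : ℕ) (G : SimpleGraph V) [G.LocallyFinite] (θ : ℕ → ℝ) (x : ℕ → V)
    (n m : ℕ) (s : ℝ) : ℝ :=
  SS d (θ n) (θ m) (PP V) (fun i ω => mI G (θ n) s ω (x i)) (fun i ω => mI G (θ m) s ω (x i))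

noncomputable def stA (d : ℕ) (G : SimpleGraph V) [G.LocallyFinite] (θ : ℕ → ℝ) (x : ℕ → V)
    (n m : ℕ) (s : ℝ) (ω : Lab V) : ℝ :=
  ell d (θ n) (mI G (θ n) s ω (x 1)) (mI G (θ n) s ω (x 0))
    - ell d (θ m) (mI G (θ m) s ω (x 1)) (mI G (θ m) s ω (x 0))

noncomputable def stV (d : ℕ) (G : SimpleGraph V) [G.LocallyFinite] (θ : ℕ → ℝ) (x : ℕ → V)
    (n m : ℕ) (s : ℝ) : ℝ :=
  ∫ ω, (stA d G θ x n m s ω) ^ 2 ∂PP V - (∫ ω, stA d G θ x n m s ω ∂PP V) ^ 2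

noncomputable def stu (d : ℕ) (G : SimpleGraph V) [G.LocallyFinite] (θ : ℕ → ℝ) (x : ℕ → V)
    (n : ℕ) (s : ℝ) : ℝ :=
  ∫ ω, ell d (θ n) (mI G (θ n) s ω (x 1)) (mI G (θ n) s ω (x 0)) ∂PP V

noncomputable def stdl (θ : ℕ → ℝ) (n m : ℕ) : ℝ := |θ n - θ m|

/-- all fields of `LimHyp` except `key` -/
theorem starB_limHyp (hT : G.IsTree) (d : ℕ) (hd : 3 ≤ d) (hreg : G.IsRegularOfDegree d)
    (hD : ∀ (θ θ' T : ℝ) (v w : V), ∫ ω, (mI G θ T ω v - mI G θ' T ω v) ^ 2 ∂PP V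
      = ∫ ω, (mI G θ T ω w - mI G θ' T ω w) ^ 2 ∂PP V)
    (θ : ℕ → ℝ) (h0 : ∀ n, thc d / 2 ≤ θ n) (h1 : ∀ n, θ n < thc d)
    (hlim : Tendsto θ atTop (𝓝 (thc d))) (x : ℕ → V) (hx : ∀ k, NB G x k)
    (hkey : ∃ A c κ : ℝ, 0 < A ∧ 0 < c ∧ 0 < κ ∧ κ < 1 ∧ ∀ T : ℝ, ∃ C : ℝ, 0 ≤ C ∧ ∀ t : ℝ, 0 < t →
      ∃ N : ℕ, ∀ n ≥ N, ∀ m ≥ N, ∀ s, t ≤ s → s ≤ T → ∀ n₀ : ℕ, A / min s (1 / 4) ≤ n₀ →
      ∀ K₀ : ℕ, 2 * n₀ ≤ K₀ →
      stS d G θ x n m s ≤ C * ((2 * n₀) ^ 2 * stV d G θ x n m s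
        + (2 * n₀) ^ 3 * ((stu d G θ x n s - stu d G θ x m s) ^ 2 + stdl θ n m ^ 2)
        + (2 * n₀) * stD G θ x n m s + (K₀ : ℝ) ^ 6 * κ ^ (2 ^ n₀)
        + (min s (1 / 4))⁻¹ * Real.exp (-(c * min s (1 / 4) * K₀)))) :
    LimHyp (stD G θ x) (stS d G θ x) (stV d G θ x) (stu d G θ x) (stdl θ) := by
  have hpos := thc_pos hd
  have hth := thc_lt_one hd
  have hθ0 : ∀ n, 0 ≤ θ n := fun n => by have := h0 n; linarith
  have hadj : G.Adj (x 1) (x 0) := ((hx 1).adj 0 (by omega)).symm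
  have hdl : ∀ n m, stdl θ n m ^ 2 = (θ n - θ m) ^ 2 := fun n m => by unfold stdl; rw [sq_abs]
  refine ⟨?_, ?_, ?_, ?_, ?_, hkey, ?_, ?_, ?_, ?_, ?_, ?_⟩
  · intro n m s _
    exact integral_nonneg fun _ => sq_nonneg _
  · intro n m s _
    have := integral_mono (sB_sq_int (G := G) (hθ0 n) ((h1 n).trans hth) (hθ0 m)
      ((h1 m).trans hth) s (x 0)) (integrable_const (4:ℝ))
      (fun ω => infB_sq_le (infE_mI_le (hθ0 n) ((h1 n).trans hth) s ω (x 0))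
        (infE_mI_le (hθ0 m) ((h1 m).trans hth) s ω (x 0)))
    refine this.trans (le_of_eq ?_)
    simp
  · intro n m s t hs hst
    exact D_mono hT d hd hreg (θ n) (θ m) (hθ0 n) (h1 n) (hθ0 m) (h1 m) (x 0) s t hs hst
  · obtain ⟨C, hC, hq⟩ := one_q.{u} d hd
    refine ⟨4 * C, fun n m s hs hs4 => ?_⟩
    have q1 := hq V G hT hreg (θ n) s (hθ0 n) (h1 n) hs hs4 (x 0)
    have q2 := hq V G hT hreg (θ m) s (hθ0 m) (h1 m) hs hs4 (x 0)
    have i1 : Integrable (fun ω => (mI G (θ n) s ω (x 0)) ^ 2) (PP V) := by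
      apply infB_int ((infE_mI_meas' (θ n) s (x 0)).pow_const 2) 1
      intro ω
      rw [abs_pow]
      exact pow_le_one₀ (abs_nonneg _) (infE_mI_le (hθ0 n) ((h1 n).trans hth) s ω (x 0))
    have i2 : Integrable (fun ω => (mI G (θ m) s ω (x 0)) ^ 2) (PP V) := by
      apply infB_int ((infE_mI_meas' (θ m) s (x 0)).pow_const 2) 1
      intro ω
      rw [abs_pow]
      exact pow_le_one₀ (abs_nonneg _) (infE_mI_le (hθ0 m) ((h1 m).trans hth) s ω (x 0))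
    have := integral_mono (sB_sq_int (G := G) (hθ0 n) ((h1 n).trans hth) (hθ0 m)
      ((h1 m).trans hth) s (x 0)) ((i1.const_mul 2).add (i2.const_mul 2))
      (fun ω => by
        show _ ≤ 2 * (mI G (θ n) s ω (x 0)) ^ 2 + 2 * (mI G (θ m) s ω (x 0)) ^ 2
        nlinarith [sq_nonneg (mI G (θ n) s ω (x 0) + mI G (θ m) s ω (x 0))])
    refine this.trans ?_
    simp only [Pi.add_apply]
    rw [integral_add (i1.const_mul 2) (i2.const_mul 2), integral_const_mul, integral_const_mul]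
    linarith
  · refine ⟨32, fun n m T₁ T₂ hT₁ hT₂ F hF hFS => ?_⟩
    exact A1 hT d hd hreg (θ n) (θ m) (hθ0 n) (h1 n) (hθ0 m) (h1 m) x hx T₁ T₂ hT₁ hT₂ F hF hFS
  · intro T
    obtain ⟨C, hC⟩ := sB_V1 hT d hd hreg hD T (x 1) (x 0)
    refine ⟨C, fun n m s _ hs => ?_⟩
    rw [hdl]
    exact hC (θ n) (θ m) s (h0 n) (h1 n) (h0 m) (h1 m) hs
  · intro p hp
    obtain ⟨C, hC⟩ := sB_V2 hT d hd hreg hD p (by omega) (x 1) (x 0) hadj
    refine ⟨C, fun n m s l hs0 hs l0 _ => ?_⟩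
    rw [hdl]
    exact hC (θ n) (θ m) s l (h0 n) (h1 n) (h0 m) (h1 m) hs0 hs l0
  · intro n T
    have hm : Measurable (fun p : Lab V × ℝ => ell d (θ n) (mI G (θ n) p.2 p.1 (x 1))
        (mI G (θ n) p.2 p.1 (x 0))) :=
      (measurable_ell d).comp (measurable_const.prodMk
        ((infE_mI_meas (θ n) (x 1)).prodMk (infE_mI_meas (θ n) (x 0))))
    have := (hm.stronglyMeasurable).integral_prod_left (μ := PP V)
      (f := fun ω s => ell d (θ n) (mI G (θ n) s ω (x 1)) (mI G (θ n) s ω (x 0)))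
    exact this.aestronglyMeasurable
  · intro T
    obtain ⟨C, hC, hb⟩ := sB_ell_bd hT d hd hreg T
    refine ⟨C, fun n s _ hs => ?_⟩
    have hnn : 0 ≤ stu d G θ x n s :=
      integral_nonneg fun ω => (hb (θ n) s (h0 n) (h1 n) hs (x 1) (x 0) ω).1
    rw [abs_of_nonneg hnn]
    have := integral_mono_of_nonneg (μ := PP V)
      (ae_of_all _ fun ω => (hb (θ n) s (h0 n) (h1 n) hs (x 1) (x 0) ω).1)
      (integrable_const C) (ae_of_all _ fun ω => (hb (θ n) s (h0 n) (h1 n) hs (x 1) (x 0) ω).2)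
    refine this.trans (le_of_eq ?_)
    simp
  · intro s hs
    exact one_ell hT d hd hreg θ (fun n => by have := h0 n; linarith) h1 hlim s hs (x 1) (x 0) hadj
  · intro ε hε
    have hc := hlim.cauchySeq
    obtain ⟨N, hN⟩ := Metric.cauchySeq_iff.1 hc ε hε
    refine ⟨N, fun n hn m hm => ?_⟩
    have := hN n hn m hm
    rw [Real.dist_eq] at this
    unfold stdl
    rw [abs_abs]
    exact this.le

end Crest.Agent.T41
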