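import Crest.Agent.T41OneInf
import Crest.Agent.T41Key
import Crest.Agent.T41Lim
import Crest.Agent.T41Decor
import Crest.Agent.T41StarA
import Crest.Agent.T41StarB

/-!
S0241, parts EQ and STAR: the pair of infinite-volume fields satisfies `Fld`, the decorrelation
hypothesis, `KeyHyp`, and finally `LimHyp`.
-/

set_option autoImplicit false

namespace Crest.Agent.T41

open MeasureTheory Filter Topology

universe u
variable {V : Type u} {G : SimpleGraph V} [G.LocallyFinite]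

/-- the mean-square distance does not depend on the vertex -/
theorem star_D (hT : G.IsTree) (d : ℕ) (hreg : G.IsRegularOfDegree d) (θ θ' T : ℝ) (v w : V) :
    ∫ ω, (mI G θ T ω v - mI G θ' T ω v) ^ 2 ∂PP V
      = ∫ ω, (mI G θ T ω w - mI G θ' T ω w) ^ 2 ∂PP V :=
  starA_D hT d hreg θ θ' T v w

/-- part EQ -/
theorem star_fld (hT : G.IsTree) (d : ℕ) (hd : 3 ≤ d) (hreg : G.IsRegularOfDegree d) (θ θ' T : ℝ)
    (h0 : 0 ≤ θ) (h1 : θ < thc d) (h0' : 0 ≤ θ') (h1' : θ' < thc d) :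
    Fld G (PP V) d θ θ' (fun v ω => mI G θ T ω v) (fun v ω => mI G θ' T ω v) :=
  starA_fld hT d hd hreg θ θ' T h0 h1 h0' h1'

/-- decorrelation of the edge differences -/
theorem star_dec (hT : G.IsTree) (d : ℕ) (hd : 3 ≤ d) (hreg : G.IsRegularOfDegree d) (θ θ' T : ℝ)
    (h0 : 0 < θ) (h1 : θ < thc d) (h0' : 0 < θ') (h1' : θ' < thc d) (hT0 : 0 ≤ T)
    (x : ℕ → V) (l : ℕ) (hx : NB G x l) (y p : V) (hyp : G.Adj y p) :
    ∫ ω, (∑ i ∈ Finset.range l,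
      (ell d θ (mI G θ T ω (x (i + 1))) (mI G θ T ω (x i))
        - ell d θ' (mI G θ' T ω (x (i + 1))) (mI G θ' T ω (x i)))) ^ 2 ∂PP V
      ≤ (l : ℝ) ^ 2 * (∫ ω, (ell d θ (mI G θ T ω y) (mI G θ T ω p)
          - ell d θ' (mI G θ' T ω y) (mI G θ' T ω p)) ∂PP V) ^ 2
        + Cdec d * l * (∫ ω, (ell d θ (mI G θ T ω y) (mI G θ T ω p)
          - ell d θ' (mI G θ' T ω y) (mI G θ' T ω p)) ^ 2 ∂PP V
          - (∫ ω, (ell d θ (mI G θ T ω y) (mI G θ T ω p)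
          - ell d θ' (mI G θ' T ω y) (mI G θ' T ω p)) ∂PP V) ^ 2) :=
  starA_dec hT d hd hreg θ θ' T h0 h1 h0' h1' hT0 x l hx y p hyp

section
/-- the geometric tail -/
theorem star_tail {r : ℝ} (h0 : 0 < r) (h1 : r < 1) (K : ℕ) :
    Summable (fun k : ℕ => (1 - r) ^ (k - 1)) ∧
      ∑' k : ℕ, (1 - r) ^ (k + K + 1 - 1) ≤ r⁻¹ * Real.exp (-(r * K)) := by
  have hr0 : 0 ≤ 1 - r := by linarith
  have hr1 : 1 - r < 1 := by linarith
  constructor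
  · rw [← summable_nat_add_iff 1]
    simpa using summable_geometric_of_lt_one hr0 hr1
  · have e : ∀ k : ℕ, (1 - r) ^ (k + K + 1 - 1) = (1 - r) ^ K * (1 - r) ^ k := by
      intro k
      rw [show k + K + 1 - 1 = K + k by omega, pow_add]
    simp_rw [e]
    rw [tsum_mul_left, tsum_geometric_of_lt_one hr0 hr1]
    have e1 : (1 - (1 - r))⁻¹ = r⁻¹ := by congr 1; ring
    rw [e1, mul_comm]
    refine mul_le_mul_of_nonneg_left ?_ (inv_nonneg.2 h0.le)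
    have e2 : 1 - r ≤ Real.exp (-r) := by
      have := Real.add_one_le_exp (-r); linarith
    calc (1 - r) ^ K ≤ (Real.exp (-r)) ^ K := pow_le_pow_left₀ hr0 e2 K
      _ = Real.exp (-(r * K)) := by rw [← Real.exp_nat_mul]; congr 1; ring

attribute [local irreducible] mI kap ell mm Yk

theorem star_key (hT : G.IsTree) (d : ℕ) (hd : 3 ≤ d) (hreg : G.IsRegularOfDegree d)
    (θ : ℕ → ℝ) (h0 : ∀ n, thc d / 2 ≤ θ n) (h1 : ∀ n, θ n < thc d)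
    (hlim : Tendsto θ atTop (𝓝 (thc d))) (x : ℕ → V) (hx : ∀ k, NB G x k) :
    ∃ A c κ : ℝ, 0 < A ∧ 0 < c ∧ 0 < κ ∧ κ < 1 ∧ ∀ T : ℝ, ∃ C : ℝ, 0 ≤ C ∧ ∀ t : ℝ, 0 < t →
      ∃ N : ℕ, ∀ n ≥ N, ∀ m ≥ N, ∀ s, t ≤ s → s ≤ T → ∀ n₀ : ℕ, A / min s (1 / 4) ≤ n₀ →
      ∀ K₀ : ℕ, 2 * n₀ ≤ K₀ →
      stS d G θ x n m s ≤ C * ((2 * n₀) ^ 2 * stV d G θ x n m s
        + (2 * n₀) ^ 3 * ((stu d G θ x n s - stu d G θ x m s) ^ 2 + stdl θ n m ^ 2)
        + (2 * n₀) * stD G θ x n m s + (K₀ : ℝ) ^ 6 * κ ^ (2 ^ n₀)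
        + (min s (1 / 4))⁻¹ * Real.exp (-(c * min s (1 / 4) * K₀))) := by
  obtain ⟨c, c1, hc0, hc1, hc1p, hY⟩ := one_Y.{u} d hd
  obtain ⟨A, c2, κ, hA, hc2, hκ0, hκ1, hbad⟩ := one_bad.{u} d hd
  refine ⟨A, c, κ, hA, hc0, hκ0, hκ1, ?_⟩
  intro T
  obtain ⟨Ca, hCa, hab⟩ := sB_sA_bd hT d hd hreg T
  obtain ⟨nT, hnT⟩ := exists_nat_ge T
  obtain ⟨bd, hbd0, hbd1, hbd⟩ := mm_mI_bd.{u} d hd nT
  obtain ⟨Ck, hCk, hkey⟩ := key_ineq.{u, u} d hd Ca (Cdec d)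
  refine ⟨Ck * (1 + c⁻¹), mul_nonneg hCk (by positivity), ?_⟩
  intro t ht
  have hthc := thc_pos hd
  have hpos : ∀ n, 0 < θ n := fun n => by have := h0 n; linarith
  -- the gap
  have hgap : ∃ N : ℕ, ∀ n ≥ N, 1 - ((d : ℝ) - 1) * θ n ^ 2 ≤ min c1 c2 * min t (1 / 4) := by
    have hl : Tendsto (fun n => 1 - ((d : ℝ) - 1) * θ n ^ 2) atTop (𝓝 0) := by
      have h2 := ((hlim.pow 2).const_mul ((d : ℝ) - 1)).const_sub 1
      rw [thc_sq hd, sub_self] at h2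
      exact h2
    have hp : 0 < min c1 c2 * min t (1 / 4) :=
      mul_pos (lt_min hc1p hc2) (lt_min ht (by norm_num))
    obtain ⟨N, hN⟩ := Filter.eventually_atTop.1 (hl.eventually (gt_mem_nhds hp))
    exact ⟨N, fun n hn => (hN n hn).le⟩
  obtain ⟨N, hN⟩ := hgap
  refine ⟨N, ?_⟩
  intro n hn m hm s hts hsT n₀ hn₀ K₀ hK₀
  have hs0 : 0 < s := ht.trans_le hts
  set μ := min s (1 / 4) with hμ
  have hμ0 : 0 < μ := lt_min hs0 (by norm_num)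
  have hμ4 : μ ≤ 1 / 4 := min_le_right _ _
  have hμt : min t (1 / 4) ≤ μ := min_le_min_right _ hts
  have hgap1 : ∀ k ≥ N, 1 - ((d : ℝ) - 1) * θ k ^ 2 ≤ c1 * μ := fun k hk =>
    (hN k hk).trans (mul_le_mul (min_le_left _ _) hμt (lt_min ht (by norm_num)).le hc1p.le)
  have hgap2 : ∀ k ≥ N, 1 - ((d : ℝ) - 1) * θ k ^ 2 ≤ c2 * μ := fun k hk =>
    (hN k hk).trans (mul_le_mul (min_le_right _ _) hμt (lt_min ht (by norm_num)).le hc2.le)
  have hn₀1 : 1 ≤ n₀ := by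
    have h3 : 0 < A / μ := div_pos hA hμ0
    have h4 : (0 : ℝ) < n₀ := h3.trans_le hn₀
    exact_mod_cast h4
  have adj : G.Adj (x 1) (x 0) := ((hx 1).adj 0 (by omega)).symm
  have hcμ0 : 0 < c * μ := mul_pos hc0 hμ0
  have hcμ1 : c * μ < 1 := by nlinarith
  have htail := star_tail hcμ0 hcμ1 K₀
  have hfl := starA_fld hT d hd hreg (θ n) (θ m) s (hpos n).le (h1 n) (hpos m).le (h1 m)
  have hsn : s ≤ (nT : ℝ) := hsT.trans hnT
  have hbn := hbd V G hT hreg (θ n) (hpos n).le (h1 n).le s hsn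
  have hbm := hbd V G hT hreg (θ m) (hpos m).le (h1 m).le s hsn
  have hK : KeyHyp G d (PP V) (θ n) (θ m) bd (fun v ω => mI G (θ n) s ω v)
      (fun v ω => mI G (θ m) s ω v) (2 * n₀) K₀ Ca (Cdec d) (stD G θ x n m s)
      (stV d G θ x n m s) (stu d G θ x n s - stu d G θ x m s) (κ ^ (2 ^ n₀))
      ((c * μ)⁻¹ * Real.exp (-(c * μ * K₀))) (fun k => (1 - c * μ) ^ (k - 1)) := by
    have hE := (sB_int_sA hT d hd hreg (θ n) (θ m) s (h0 n) (h1 n) (h0 m) (h1 m) (x 1) (x 0)).2.2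
    refine ⟨hfl, hbd1, fun y ω => (hbn ω).2 y, fun y ω => (hbm ω).2 y, ?_, ?_, ?_, ?_, ?_, ?_, ?_,
      htail.1, ?_, ?_, ?_, htail.2⟩
    · intro y
      exact starA_D hT d hreg (θ n) (θ m) s y (x 0)
    · intro y p ω _
      exact hab (θ n) (θ m) s (h0 n) (h1 n) (h0 m) (h1 m) hsT y p ω
    · intro z l hz
      have h2 := starA_dec hT d hd hreg (θ n) (θ m) s (hpos n) (h1 n) (hpos m) (h1 m) hs0.le z l hz
        (x 1) (x 0) adj
      have e3 : stu d G θ x n s - stu d G θ x m s = ∫ ω, (ell d (θ n) (mI G (θ n) s ω (x 1))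
          (mI G (θ n) s ω (x 0)) - ell d (θ m) (mI G (θ m) s ω (x 1)) (mI G (θ m) s ω (x 0)))
          ∂PP V := hE.symm
      rw [e3]
      exact h2
    · exact sB_V_nonneg hT d hd hreg (θ n) (θ m) s (h0 n) (h1 n) (h0 m) (h1 m) (x 1) (x 0)
    · exact pow_nonneg hκ0.le _
    · intro y p hyp
      exact hbad V G hT hreg (θ n) s (hpos n).le (h1 n) hs0 (hgap2 n hn) n₀ hn₀ y p hyp
    · intro y p hyp
      exact hbad V G hT hreg (θ m) s (hpos m).le (h1 m) hs0 (hgap2 m hm) n₀ hn₀ y p hyp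
    · intro k; exact pow_nonneg (by linarith) _
    · intro k y p hyp
      exact hY V G hT hreg (θ n) s (hpos n).le (h1 n) hs0 (hgap1 n hn) k y p hyp
    · intro k y p hyp
      exact hY V G hT hreg (θ m) s (hpos m).le (h1 m) hs0 (hgap1 m hm) k y p hyp
  have hmain := hkey V G hT hreg (Lab V) (PP V) (θ n) (θ m) bd (hpos n) (h1 n).le (hpos m)
    (h1 m).le (fun v ω => mI G (θ n) s ω v) (fun v ω => mI G (θ m) s ω v) (2 * n₀) K₀ (by omega)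
    hK₀ _ _ _ _ _ _ hK x hx
  change stS d G θ x n m s ≤ _ at hmain
  refine hmain.trans ?_
  rw [mul_assoc Ck (1 + c⁻¹)]
  refine mul_le_mul_of_nonneg_left ?_ hCk
  have hV0 : 0 ≤ stV d G θ x n m s :=
    sB_V_nonneg hT d hd hreg (θ n) (θ m) s (h0 n) (h1 n) (h0 m) (h1 m) (x 1) (x 0)
  have hD0 : 0 ≤ stD G θ x n m s := integral_nonneg fun _ => sq_nonneg _
  have hci : 0 < c⁻¹ := inv_pos.2 hc0
  have t1 : 0 ≤ (2 * (n₀ : ℝ)) ^ 2 * stV d G θ x n m s := mul_nonneg (by positivity) hV0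
  have t2 : 0 ≤ (2 * (n₀ : ℝ)) ^ 3 * (stu d G θ x n s - stu d G θ x m s) ^ 2 := by positivity
  have t2' : 0 ≤ (2 * (n₀ : ℝ)) ^ 3 * stdl θ n m ^ 2 := by positivity
  have t3 : 0 ≤ (2 * (n₀ : ℝ)) * stD G θ x n m s := mul_nonneg (by positivity) hD0
  have t4 : 0 ≤ (K₀ : ℝ) ^ 6 * κ ^ (2 ^ n₀) := by positivity
  have t5 : 0 ≤ μ⁻¹ * Real.exp (-(c * μ * K₀)) := by positivity
  have e5 : (c * μ)⁻¹ * Real.exp (-(c * μ * K₀)) = c⁻¹ * (μ⁻¹ * Real.exp (-(c * μ * K₀))) := by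
    rw [mul_inv]; ring
  rw [e5]
  push_cast
  set E := μ⁻¹ * Real.exp (-(c * μ * K₀)) with hE
  nlinarith [mul_nonneg hci.le t1, mul_nonneg hci.le t2, mul_nonneg hci.le t2',
    mul_nonneg hci.le t3, mul_nonneg hci.le t4, mul_nonneg hci.le t5]

end

/-- **`D* = 0`** -/
theorem star (hT : G.IsTree) (d : ℕ) (hd : 3 ≤ d) (hreg : G.IsRegularOfDegree d) (θ : ℕ → ℝ)
    (h0 : ∀ n, thc d / 2 ≤ θ n) (h1 : ∀ n, θ n < thc d) (hlim : Tendsto θ atTop (𝓝 (thc d)))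
    (T : ℝ) (hT0 : 0 ≤ T) (ε : ℝ) (hε : 0 < ε) (v : V) :
    ∃ N : ℕ, ∀ n ≥ N, ∀ m ≥ N,
      ∫ ω, (mI G (θ n) T ω v - mI G (θ m) T ω v) ^ 2 ∂PP V ≤ ε := by
  obtain ⟨z, hz, hz0⟩ := exists_line hT d hd hreg v
  set x : ℕ → V := fun i => z i with hxdef
  have hx : ∀ k, NB G x k := by
    intro k
    have := hz.nb 0 k
    simpa [hxdef] using this
  have hx0 : x 0 = v := by simpa [hxdef] using hz0
  have hL := starB_limHyp hT d hd hreg (fun θ θ' T v w => star_D hT d hreg θ θ' T v w) θ h0 h1 hlim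
    x hx (star_key hT d hd hreg θ h0 h1 hlim x hx)
  obtain ⟨N, hN⟩ := lim_calculus hL T hT0 ε hε
  refine ⟨N, fun n hn m hm => ?_⟩
  have := hN n hn m hm
  unfold stD at this
  rwa [hx0] at this

end Crest.Agent.T41
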