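import Crest.Agent.ThA1

/-! Energy estimate of one pass. -/

set_option autoImplicit false
set_option linter.unusedSectionVars false
set_option linter.unusedVariables false

namespace Crest.Agent.ThS

open Finset

/-- same block of level `s` -/
noncomputable def blk (D s : ℕ) (y y' : Fin D → Bool) : ℝ :=
  if ∀ i : Fin D, (i : ℕ) + s < D → y i = y' i then 1 else 0

/-- block form -/
noncomputable def esb (D s : ℕ) (f g : (Fin D → Bool) → ℝ) : ℝ :=
  ∑ y, ∑ y', blk D s y y' * f y * g y'

theorem blk_succ {D s : ℕ} (hs : s ≤ D) (b b' : Bool) (y y' : Fin D → Bool) :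
    blk (D + 1) s (cns b y) (cns b' y') = if b = b' then blk D s y y' else 0 := by
  unfold blk
  by_cases hb : b = b'
  · subst hb
    rw [if_pos rfl]
    congr 1
    apply propext
    constructor
    · intro h i hi
      have := h i.succ (by rw [Fin.val_succ]; omega)
      simpa using this
    · intro h i hi
      refine Fin.cases ?_ ?_ i (motive := fun i => (i : ℕ) + s < D + 1 → cns b y i = cns b y' i) hi
      · intro _; rfl
      · intro j hj
        rw [Fin.val_succ] at hj
        exact h j (by omega)
  · rw [if_neg hb, if_neg]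
    intro h
    exact hb (h 0 (by simp; omega))

theorem blk_top (D s : ℕ) (hs : D ≤ s) (y y' : Fin D → Bool) : blk D s y y' = 1 := by
  unfold blk
  rw [if_pos]
  intro i hi
  omega

theorem blk_zero (D : ℕ) (y y' : Fin D → Bool) : blk D 0 y y' = if y = y' then 1 else 0 := by
  unfold blk
  congr 1
  apply propext
  constructor
  · intro h; funext i; exact h i (by have := i.isLt; omega)
  · intro h i _; rw [h]

theorem blk_symm (D s : ℕ) (y y' : Fin D → Bool) : blk D s y y' = blk D s y' y := by
  unfold blk
  congr 1
  apply propext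
  constructor
  · intro h i hi; exact (h i hi).symm
  · intro h i hi; exact (h i hi).symm

theorem blk_self (D s : ℕ) (y : Fin D → Bool) : blk D s y y = 1 := by
  unfold blk
  rw [if_pos]
  intro i _; rfl

theorem esb_succ {D s : ℕ} (hs : s ≤ D) (f g : (Fin (D + 1) → Bool) → ℝ) :
    esb (D + 1) s f g = esb D s (half false f) (half false g) + esb D s (half true f) (half true g) := by
  unfold esb
  rw [sum_cube]
  congr 1
  · apply Finset.sum_congr rfl
    intro y _
    rw [half_apply, sum_cube]
    simp only [half_apply, blk_succ hs]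
    simp
  · apply Finset.sum_congr rfl
    intro y _
    rw [half_apply, sum_cube]
    simp only [half_apply, blk_succ hs]
    simp

theorem esb_top {D s : ℕ} (hs : D ≤ s) (f g : (Fin D → Bool) → ℝ) : esb D s f g = tot f * tot g := by
  unfold esb tot
  rw [Finset.sum_mul_sum]
  apply Finset.sum_congr rfl
  intro y _
  apply Finset.sum_congr rfl
  intro y' _
  rw [blk_top D s hs]; ring

theorem esb_zero {D : ℕ} (f g : (Fin D → Bool) → ℝ) : esb D 0 f g = ∑ y, f y * g y := by
  unfold esb
  apply Finset.sum_congr rfl
  intro y _
  rw [Finset.sum_eq_single y]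
  · rw [blk_zero, if_pos rfl]; ring
  · intro y' _ h
    rw [blk_zero, if_neg (fun h' => h h'.symm)]; ring
  · intro h; exact absurd (Finset.mem_univ _) h

theorem esb_comm (D s : ℕ) (f g : (Fin D → Bool) → ℝ) : esb D s f g = esb D s g f := by
  unfold esb
  rw [Finset.sum_comm]
  apply Finset.sum_congr rfl
  intro y _
  apply Finset.sum_congr rfl
  intro y' _
  rw [blk_symm]; ring

theorem esb_nonneg : ∀ (D s : ℕ) (f : (Fin D → Bool) → ℝ), 0 ≤ esb D s f f
  | 0, s, f => by
      rw [esb_top (Nat.zero_le _)]; exact mul_self_nonneg _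
  | D + 1, s, f => by
      by_cases hs : s ≤ D
      · rw [esb_succ hs]
        exact add_nonneg (esb_nonneg D s _) (esb_nonneg D s _)
      · rw [esb_top (by omega)]; exact mul_self_nonneg _

/-- Cauchy-Schwarz for blocks -/
theorem esb_le : ∀ (D s : ℕ) (hs : s ≤ D) (f : (Fin D → Bool) → ℝ),
    esb D s f f ≤ 2 ^ s * ∑ y, f y ^ 2
  | 0, s, hs, f => by
      have : s = 0 := by omega
      subst this
      rw [esb_zero]
      simp [sq]
  | D + 1, s, hs, f => by
      by_cases h : s ≤ D
      · rw [esb_succ h]
        have h0 := esb_le D s h (half false f)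
        have h1 := esb_le D s h (half true f)
        rw [sum_cube]
        calc _ ≤ 2 ^ s * ∑ y, half false f y ^ 2 + 2 ^ s * ∑ y, half true f y ^ 2 := add_le_add h0 h1
          _ = _ := by rw [mul_add]; rfl
      · have hs' : s = D + 1 := by omega
        subst hs'
        rw [esb_top le_rfl]
        have h2 := Finset.sum_mul_sq_le_sq_mul_sq (Finset.univ : Finset (Fin (D + 1) → Bool))
          (fun _ => (1 : ℝ)) f
        simp only [one_mul, one_pow, Finset.sum_const, nsmul_eq_mul, mul_one, Finset.card_univ] at h2
        rw [card_cubeR] at h2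
        unfold tot
        rw [← sq]
        exact h2

theorem sum_blk : ∀ (D s : ℕ) (hs : s ≤ D), ∑ y : Fin D → Bool, ∑ y', blk D s y y' = 2 ^ D * 2 ^ s
  | 0, s, hs => by
      have : s = 0 := by omega
      subst this
      simp [blk_zero]
  | D + 1, s, hs => by
      by_cases h : s ≤ D
      · rw [sum_cube]
        have : ∀ b : Bool, ∀ y : Fin D → Bool,
            half b (fun y => ∑ y' : Fin (D + 1) → Bool, blk (D + 1) s y y') y = ∑ y', blk D s y y' := by
          intro b y
          rw [half_apply, sum_cube]
          simp only [half_apply, blk_succ h]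
          cases b <;> simp
        simp_rw [this]
        rw [sum_blk D s h]
        ring
      · have hs' : s = D + 1 := by omega
        subst hs'
        simp [blk_top]

/-- averaging over the coins of the last round -/
theorem av_esb_coin {D s : ℕ} (f0 f1 : (Fin D → Bool) → ℝ) (β : (Fin D → Bool) → Bool) (b : Bool) :
    av (fun c : (Fin D → Bool) → Bool =>
      esb D s (fun y => if β y then (f0 y + f1 y) / 2 else if xor b (c y) then f1 y else f0 y)
        (fun y => if β y then (f0 y + f1 y) / 2 else if xor b (c y) then f1 y else f0 y))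
    = (esb D s f0 f0 + esb D s f1 f1 + 2 * esb D s f0 f1) / 4
      + ∑ y, (if β y then (0 : ℝ) else ((f0 y - f1 y) / 2) ^ 2) := by
  have hrep : ∀ (c : (Fin D → Bool) → Bool) (y : Fin D → Bool),
      (if β y then (f0 y + f1 y) / 2 else if xor b (c y) then f1 y else f0 y)
      = (f0 y + f1 y) / 2 + sg b (c y) * (if β y then (0 : ℝ) else (f0 y - f1 y) / 2) := by
    intro c y
    by_cases hβ : β y = true
    · rw [if_pos hβ, if_pos hβ]; ring
    · rw [if_neg hβ, if_neg hβ]
      unfold sg
      by_cases hx : xor b (c y) = true
      · rw [if_pos hx, if_pos hx]; ring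
      · rw [if_neg hx, if_neg hx]; ring
  simp_rw [hrep]
  set d : (Fin D → Bool) → ℝ := fun y => if β y then (0 : ℝ) else (f0 y - f1 y) / 2 with hd
  set a : (Fin D → Bool) → ℝ := fun y => (f0 y + f1 y) / 2 with ha
  unfold esb
  have e1 : (fun c : (Fin D → Bool) → Bool => ∑ y, ∑ y', blk D s y y' * (a y + sg b (c y) * d y)
      * (a y' + sg b (c y') * d y'))
      = fun c => ∑ y, ∑ y', ((blk D s y y' * a y * a y' + (blk D s y y' * a y * d y') * sg b (c y'))
        + (blk D s y y' * d y * a y') * sg b (c y)
        + (blk D s y y' * d y * d y') * (sg b (c y) * sg b (c y'))) := by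
    funext c
    apply Finset.sum_congr rfl
    intro y _
    apply Finset.sum_congr rfl
    intro y' _
    ring
  change av (fun c : (Fin D → Bool) → Bool => ∑ y, ∑ y', blk D s y y' * (a y + sg b (c y) * d y)
      * (a y' + sg b (c y') * d y')) = _
  rw [e1]
  have e2 : av (fun c : (Fin D → Bool) → Bool => ∑ y, ∑ y',
        ((blk D s y y' * a y * a y' + (blk D s y y' * a y * d y') * sg b (c y'))
        + (blk D s y y' * d y * a y') * sg b (c y)
        + (blk D s y y' * d y * d y') * (sg b (c y) * sg b (c y'))))
      = ∑ y, ∑ y', (blk D s y y' * a y * a y' + (blk D s y y' * d y * d y') * (if y = y' then 1 else 0)) := by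
    rw [av_sum]
    apply Finset.sum_congr rfl
    intro y _
    rw [av_sum]
    apply Finset.sum_congr rfl
    intro y' _
    rw [av_add, av_add, av_add, av_const, av_mul_left, av_mul_left, av_mul_left, av_sg, av_sg, av_sg_sg]
    ring
  rw [e2]
  have e3 : ∀ y : Fin D → Bool, ∑ y', (blk D s y y' * a y * a y'
      + (blk D s y y' * d y * d y') * (if y = y' then 1 else 0))
      = ∑ y', blk D s y y' * a y * a y' + d y ^ 2 := by
    intro y
    rw [Finset.sum_add_distrib]
    congr 1
    rw [Finset.sum_eq_single y]
    · rw [if_pos rfl, blk_self]; ring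
    · intro y' _ h
      rw [if_neg (fun h' => h h'.symm)]; ring
    · intro h; exact absurd (Finset.mem_univ _) h
  simp_rw [e3]
  rw [Finset.sum_add_distrib]
  congr 1
  · have h1 : ∑ y, ∑ y', blk D s y y' * a y * a y'
        = (∑ y, ∑ y', blk D s y y' * f0 y * f0 y' + ∑ y, ∑ y', blk D s y y' * f1 y * f1 y'
          + (∑ y, ∑ y', blk D s y y' * f0 y * f1 y' + ∑ y, ∑ y', blk D s y y' * f1 y * f0 y')) / 4 := by
      rw [← Finset.sum_add_distrib, ← Finset.sum_add_distrib, ← Finset.sum_add_distrib, Finset.sum_div]
      apply Finset.sum_congr rfl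
      intro y _
      rw [← Finset.sum_add_distrib, ← Finset.sum_add_distrib, ← Finset.sum_add_distrib, Finset.sum_div]
      apply Finset.sum_congr rfl
      intro y' _
      rw [ha]; ring
    have h2 : ∑ y, ∑ y', blk D s y y' * f1 y * f0 y' = ∑ y, ∑ y', blk D s y y' * f0 y * f1 y' :=
      esb_comm D s f1 f0
    rw [h1, h2]; ring
  · apply Finset.sum_congr rfl
    intro y _
    rw [hd]
    by_cases hβ : β y = true
    · simp [hβ]
    · simp [hβ]

/-- the Lyapunov functional -/
noncomputable def Psi : (D : ℕ) → ((Fin D → Bool) → Bool) → ((Fin D → Bool) → ℝ) → ℝ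
  | 0, _, _ => 0
  | D + 1, u, v => (1 / 2) * ((2 - rho (half true u)) * (Psi D (half false u) (half false v)
        + (tot (half false v)) ^ 2 / 2 ^ D)
      + (2 - rho (half false u)) * (Psi D (half true u) (half true v)
        + (tot (half true v)) ^ 2 / 2 ^ D))

theorem Psi_nonneg : ∀ (D : ℕ) (u : (Fin D → Bool) → Bool) (v : (Fin D → Bool) → ℝ), 0 ≤ Psi D u v
  | 0, _, _ => le_refl _
  | D + 1, u, v => by
      have h0 := Psi_nonneg D (half false u) (half false v)
      have h1 := Psi_nonneg D (half true u) (half true v)
      have r0 := rho_le_one (half false u)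
      have r1 := rho_le_one (half true u)
      have m0 : (0 : ℝ) ≤ (tot (half false v)) ^ 2 / 2 ^ D := by positivity
      have m1 : (0 : ℝ) ≤ (tot (half true v)) ^ 2 / 2 ^ D := by positivity
      unfold Psi
      have a1 : 0 ≤ (2 - rho (half true u)) * (Psi D (half false u) (half false v)
        + (tot (half false v)) ^ 2 / 2 ^ D) := mul_nonneg (by linarith) (by linarith)
      have a2 : 0 ≤ (2 - rho (half false u)) * (Psi D (half true u) (half true v)
        + (tot (half true v)) ^ 2 / 2 ^ D) := mul_nonneg (by linarith) (by linarith)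
      linarith

theorem ind_sq_hu {D : ℕ} {u : (Fin D → Bool) → Bool} {v : (Fin D → Bool) → ℝ} (h : Spt u v)
    (y : Fin D → Bool) : v y = ind u y * v y := by
  unfold ind
  by_cases hu : u y = true
  · rw [if_pos hu]; ring
  · rw [if_neg hu, h y (by simpa using hu)]; ring

theorem energy : ∀ (D s : ℕ) (hs : s ≤ D) (u : (Fin D → Bool) → Bool) (v : (Fin D → Bool) → ℝ),
    Spt u v → av (fun ω : Om D => esb D s (hv D ω u v) (hv D ω u v))
      ≤ 2 ^ s / 2 ^ D * (tot v) ^ 2 + Psi D u v
  | 0, s, hs, u, v, h => by
      have : s = 0 := by omega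
      subst this
      have e : (fun ω : Om 0 => esb 0 0 (hv 0 ω u v) (hv 0 ω u v)) = fun _ => tot v * tot v := by
        funext ω
        exact esb_top le_rfl _ _
      rw [e, av_const]
      unfold Psi
      simp [sq]
  | D + 1, s, hs, u, v, h => by
      by_cases hsD : s ≤ D
      · -- main case
        set u0 := half false u with hu0
        set u1 := half true u with hu1
        set v0 := half false v with hv0
        set v1 := half true v with hv1
        have s0 : Spt u0 v0 := h.half false
        have s1 : Spt u1 v1 := h.half true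
        have IH0 := energy D s hsD u0 v0 s0
        have IH1 := energy D s hsD u1 v1 s1
        have IZ0 := energy D 0 (Nat.zero_le _) u0 v0 s0
        have IZ1 := energy D 0 (Nat.zero_le _) u1 v1 s1
        set X0 := av (fun ω : Om D => esb D s (hv D ω u0 v0) (hv D ω u0 v0)) with hX0
        set X1 := av (fun ω : Om D => esb D s (hv D ω u1 v1) (hv D ω u1 v1)) with hX1
        set Z0 := av (fun ω : Om D => esb D 0 (hv D ω u0 v0) (hv D ω u0 v0)) with hZ0
        set Z1 := av (fun ω : Om D => esb D 0 (hv D ω u1 v1) (hv D ω u1 v1)) with hZ1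
        have key : av (fun ω : Om (D + 1) => esb (D + 1) s (hv (D + 1) ω u v) (hv (D + 1) ω u v))
            = (X0 + X1) / 2 + 2 ^ s / 2 ^ D * (tot v0 * tot v1)
              + ((1 - rho u1) * Z0 + (1 - rho u0) * Z1) / 2 := by
          rw [av_Om_succ]
          have e1 : ∀ ω0 ω1 : Om D, av (fun c : (Fin D → Bool) → Bool =>
              esb (D + 1) s (hv (D + 1) ((ω0, ω1), c) u v) (hv (D + 1) ((ω0, ω1), c) u v))
              = (esb D s (hv D ω0 u0 v0) (hv D ω0 u0 v0) + esb D s (hv D ω1 u1 v1) (hv D ω1 u1 v1)
                + 2 * esb D s (hv D ω0 u0 v0) (hv D ω1 u1 v1)) / 2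
                + (∑ y, ((hv D ω0 u0 v0 y) ^ 2 * (1 - ind (hu D ω1 u1) y)) / 2
                  + ∑ y, ((1 - ind (hu D ω0 u0) y) * (hv D ω1 u1 v1 y) ^ 2) / 2) := by
            intro ω0 ω1
            have e2 : (fun c : (Fin D → Bool) → Bool =>
              esb (D + 1) s (hv (D + 1) ((ω0, ω1), c) u v) (hv (D + 1) ((ω0, ω1), c) u v))
              = fun c => esb D s (half false (hv (D + 1) ((ω0, ω1), c) u v))
                    (half false (hv (D + 1) ((ω0, ω1), c) u v))
                + esb D s (half true (hv (D + 1) ((ω0, ω1), c) u v))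
                    (half true (hv (D + 1) ((ω0, ω1), c) u v)) := by
              funext c
              rw [esb_succ hsD]
            rw [e2, av_add]
            simp_rw [half_hv]
            rw [av_esb_coin, av_esb_coin]
            have e3 : ∑ y, (if (hu D ω0 u0 y && hu D ω1 u1 y) = true then (0 : ℝ)
                else ((hv D ω0 u0 v0 y - hv D ω1 u1 v1 y) / 2) ^ 2)
                = (∑ y, ((hv D ω0 u0 v0 y) ^ 2 * (1 - ind (hu D ω1 u1) y)) / 2
                  + ∑ y, ((1 - ind (hu D ω0 u0) y) * (hv D ω1 u1 v1 y) ^ 2) / 2) / 2 := by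
              rw [← Finset.sum_add_distrib, Finset.sum_div]
              apply Finset.sum_congr rfl
              intro y _
              have t0 := Spt.hv ω0 s0 y
              have t1 := Spt.hv ω1 s1 y
              unfold ind
              by_cases h0 : hu D ω0 u0 y = true
              · by_cases h1 : hu D ω1 u1 y = true
                · rw [h0, h1]; simp
                · have h1' : hu D ω1 u1 y = false := by simpa using h1
                  rw [h0, h1', t1 h1']; simp; ring
              · have h0' : hu D ω0 u0 y = false := by simpa using h0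
                by_cases h1 : hu D ω1 u1 y = true
                · rw [h0', h1, t0 h0']; simp; ring
                · have h1' : hu D ω1 u1 y = false := by simpa using h1
                  rw [h0', h1', t0 h0', t1 h1']; simp
            rw [e3]
            ring
          simp_rw [e1]
          simp_rw [av_add, av_div, av_add, av_mul_left, av_const]
          have e4 : av (fun ω0 : Om D => av (fun ω1 : Om D =>
              esb D s (hv D ω0 u0 v0) (hv D ω1 u1 v1))) = 2 ^ s / 2 ^ D * (tot v0 * tot v1) := by
            unfold esb
            have e5 : ∀ ω0 : Om D, av (fun ω1 : Om D =>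
                ∑ y, ∑ y', blk D s y y' * hv D ω0 u0 v0 y * hv D ω1 u1 v1 y')
                = ∑ y, ∑ y', (blk D s y y' * (tot v1 / 2 ^ D)) * hv D ω0 u0 v0 y := by
              intro ω0
              rw [av_sum]
              apply Finset.sum_congr rfl
              intro y _
              rw [av_sum]
              apply Finset.sum_congr rfl
              intro y' _
              rw [av_mul_left, av_hv]
              ring
            simp_rw [e5]
            rw [av_sum]
            have e6 : ∀ y : Fin D → Bool, av (fun ω0 : Om D =>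
                ∑ y', (blk D s y y' * (tot v1 / 2 ^ D)) * hv D ω0 u0 v0 y)
                = ∑ y', blk D s y y' * ((tot v1 / 2 ^ D) * (tot v0 / 2 ^ D)) := by
              intro y
              rw [av_sum]
              apply Finset.sum_congr rfl
              intro y' _
              rw [av_mul_left, av_hv]
              ring
            simp_rw [e6]
            simp_rw [← Finset.sum_mul]
            rw [sum_blk D s hsD]
            field_simp
          have e7 : av (fun ω0 : Om D => av (fun ω1 : Om D =>
              ∑ y, ((hv D ω0 u0 v0 y) ^ 2 * (1 - ind (hu D ω1 u1) y)) / 2))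
              = (1 - rho u1) * Z0 / 2 := by
            have : ∀ ω0 : Om D, av (fun ω1 : Om D =>
              ∑ y, ((hv D ω0 u0 v0 y) ^ 2 * (1 - ind (hu D ω1 u1) y)) / 2)
              = (1 - rho u1) / 2 * esb D 0 (hv D ω0 u0 v0) (hv D ω0 u0 v0) := by
              intro ω0
              rw [av_sum, esb_zero, Finset.mul_sum]
              apply Finset.sum_congr rfl
              intro y _
              rw [av_div, av_mul_left, av_sub, av_const, av_hu]
              ring
            simp_rw [this]
            rw [av_mul_left, ← hZ0]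
            ring
          have e8 : av (fun ω0 : Om D => av (fun ω1 : Om D =>
              ∑ y, ((1 - ind (hu D ω0 u0) y) * (hv D ω1 u1 v1 y) ^ 2) / 2))
              = (1 - rho u0) * Z1 / 2 := by
            rw [av_comm]
            have : ∀ ω1 : Om D, av (fun ω0 : Om D =>
              ∑ y, ((1 - ind (hu D ω0 u0) y) * (hv D ω1 u1 v1 y) ^ 2) / 2)
              = (1 - rho u0) / 2 * esb D 0 (hv D ω1 u1 v1) (hv D ω1 u1 v1) := by
              intro ω1
              rw [av_sum, esb_zero, Finset.mul_sum]
              apply Finset.sum_congr rfl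
              intro y _
              rw [av_div, av_mul_right, av_sub, av_const, av_hu]
              ring
            simp_rw [this]
            rw [av_mul_left, ← hZ1]
            ring
          rw [e4, e7, e8, ← hX0, ← hX1]
          ring
        rw [key, tot_succ, ← hv0, ← hv1]
        unfold Psi
        rw [← hu0, ← hu1, ← hv0, ← hv1]
        have r0 := rho_le_one u0
        have r1 := rho_le_one u1
        have p0 := rho_nonneg u0
        have p1 := rho_nonneg u1
        have hpD : (0 : ℝ) < 2 ^ D := by positivity
        have b0 : (1 - rho u1) * Z0 ≤ (1 - rho u1) * ((tot v0) ^ 2 / 2 ^ D + Psi D u0 v0) := by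
          apply mul_le_mul_of_nonneg_left _ (by linarith)
          calc Z0 ≤ 2 ^ 0 / 2 ^ D * (tot v0) ^ 2 + Psi D u0 v0 := IZ0
            _ = _ := by ring
        have b1 : (1 - rho u0) * Z1 ≤ (1 - rho u0) * ((tot v1) ^ 2 / 2 ^ D + Psi D u1 v1) := by
          apply mul_le_mul_of_nonneg_left _ (by linarith)
          calc Z1 ≤ 2 ^ 0 / 2 ^ D * (tot v1) ^ 2 + Psi D u1 v1 := IZ1
            _ = _ := by ring
        have m0 : (0 : ℝ) ≤ (tot v0) ^ 2 / 2 ^ D := by positivity
        have m1 : (0 : ℝ) ≤ (tot v1) ^ 2 / 2 ^ D := by positivity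
        have e9 : (2 : ℝ) ^ s / 2 ^ (D + 1) * (tot v0 + tot v1) ^ 2
            = (2 ^ s / 2 ^ D * (tot v0) ^ 2 + 2 ^ s / 2 ^ D * (tot v1) ^ 2) / 2
              + 2 ^ s / 2 ^ D * (tot v0 * tot v1) := by
          rw [pow_succ]; field_simp; ring
        rw [e9]
        nlinarith [IH0, IH1, b0, b1, m0, m1]
      · have hs' : s = D + 1 := by omega
        subst hs'
        have e : (fun ω : Om (D + 1) => esb (D + 1) (D + 1) (hv (D + 1) ω u v) (hv (D + 1) ω u v))
            = fun _ => (tot v) ^ 2 := by
          funext ω
          rw [esb_top le_rfl, tot_hv, sq]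
        rw [e, av_const]
        have := Psi_nonneg (D + 1) u v
        have h2 : (2 : ℝ) ^ (D + 1) / 2 ^ (D + 1) = 1 := div_self (by positivity)
        rw [h2, one_mul]
        linarith

end Crest.Agent.ThS
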