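import Crest.Agent.ThA2

/-! Densities, bound of the Lyapunov functional, contraction of one pass. -/

set_option autoImplicit false
set_option linter.unusedSectionVars false
set_option linter.unusedVariables false

namespace Crest.Agent.ThS

open Finset

/-- all subcubes of dimension at least `r0` have density at least `k0` -/
def Dens (r0 : ℕ) (k0 : ℝ) : (D : ℕ) → ((Fin D → Bool) → Bool) → Prop
  | 0, _ => True
  | D + 1, u => Dens r0 k0 D (half false u) ∧ Dens r0 k0 D (half true u) ∧
      (r0 ≤ D → k0 ≤ rho (half false u) ∧ k0 ≤ rho (half true u))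

theorem Psi_le (r0 : ℕ) (k0 a : ℝ) (ha : a = 2 - k0) (ha1 : 1 ≤ a) :
    ∀ (D : ℕ) (u : (Fin D → Bool) → Bool) (v : (Fin D → Bool) → ℝ), Dens r0 k0 D u →
      Psi D u v ≤ 2 ^ (min D r0) / 2 ^ D * ∑ s ∈ Finset.range D, a ^ (D - s) * esb D s v v
  | 0, u, v, h => by
      unfold Psi
      simp
  | D + 1, u, v, h => by
      obtain ⟨h0, h1, h2⟩ := h
      have I0 := Psi_le r0 k0 a ha ha1 D (half false u) (half false v) h0
      have I1 := Psi_le r0 k0 a ha ha1 D (half true u) (half true v) h1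
      set P0 := Psi D (half false u) (half false v) with hP0
      set P1 := Psi D (half true u) (half true v) with hP1
      have n0 : 0 ≤ P0 := Psi_nonneg _ _ _
      have n1 : 0 ≤ P1 := Psi_nonneg _ _ _
      have r0' := rho_nonneg (half false u)
      have r1' := rho_nonneg (half true u)
      have m0 : (0 : ℝ) ≤ (tot (half false v)) ^ 2 / 2 ^ D := by positivity
      have m1 : (0 : ℝ) ≤ (tot (half true v)) ^ 2 / 2 ^ D := by positivity
      -- the factor
      obtain ⟨g, hg0, hg1, hgp, hgm⟩ : ∃ g : ℝ, 2 - rho (half false u) ≤ g ∧ 2 - rho (half true u) ≤ g ∧ 0 ≤ g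
          ∧ g * 2 ^ (min D r0) ≤ 2 ^ (min (D + 1) r0) * a := by
        by_cases hr : r0 ≤ D
        · obtain ⟨q0, q1⟩ := h2 hr
          refine ⟨a, by linarith, by linarith, by linarith, ?_⟩
          rw [min_eq_right hr, min_eq_right (by omega)]
          exact le_of_eq (mul_comm _ _)
        · refine ⟨2, by linarith, by linarith, by norm_num, ?_⟩
          rw [min_eq_left (by omega), min_eq_left (by omega), pow_succ]
          have : (0 : ℝ) < 2 ^ D := by positivity
          nlinarith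
      have hgm' : g ≤ 2 ^ (min (D + 1) r0) * a := by
        have : (1 : ℝ) ≤ 2 ^ (min D r0) := one_le_pow₀ (by norm_num)
        nlinarith
      have step : Psi (D + 1) u v ≤ (1 / 2) * (g * (P0 + (tot (half false v)) ^ 2 / 2 ^ D)
          + g * (P1 + (tot (half true v)) ^ 2 / 2 ^ D)) := by
        unfold Psi
        have a1 : (2 - rho (half true u)) * (P0 + (tot (half false v)) ^ 2 / 2 ^ D)
            ≤ g * (P0 + (tot (half false v)) ^ 2 / 2 ^ D) :=
          mul_le_mul_of_nonneg_right hg1 (by linarith)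
        have a2 : (2 - rho (half false u)) * (P1 + (tot (half true v)) ^ 2 / 2 ^ D)
            ≤ g * (P1 + (tot (half true v)) ^ 2 / 2 ^ D) :=
          mul_le_mul_of_nonneg_right hg0 (by linarith)
        linarith
      refine step.trans ?_
      rw [Finset.sum_range_succ]
      have e1 : ∀ s ∈ Finset.range D, a ^ (D + 1 - s) * esb (D + 1) s v v
          = a * (a ^ (D - s) * esb D s (half false v) (half false v))
            + a * (a ^ (D - s) * esb D s (half true v) (half true v)) := by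
        intro s hs
        have hs' := Finset.mem_range.mp hs
        rw [esb_succ (by omega), Nat.succ_sub (by omega), pow_succ]
        ring
      rw [Finset.sum_congr rfl e1, Finset.sum_add_distrib, ← Finset.mul_sum, ← Finset.mul_sum]
      set S0 := ∑ s ∈ Finset.range D, a ^ (D - s) * esb D s (half false v) (half false v) with hS0
      set S1 := ∑ s ∈ Finset.range D, a ^ (D - s) * esb D s (half true v) (half true v) with hS1
      have s0n : 0 ≤ S0 := Finset.sum_nonneg (fun s _ => mul_nonneg (by positivity) (esb_nonneg _ _ _))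
      have s1n : 0 ≤ S1 := Finset.sum_nonneg (fun s _ => mul_nonneg (by positivity) (esb_nonneg _ _ _))
      have e2 : esb (D + 1) D v v = (tot (half false v)) ^ 2 + (tot (half true v)) ^ 2 := by
        rw [esb_succ le_rfl, esb_top le_rfl, esb_top le_rfl]; ring
      have e3 : D + 1 - D = 1 := by omega
      rw [e2, e3, pow_one]
      set c1 : ℝ := 2 ^ (min D r0) with hc1
      set c2 : ℝ := 2 ^ (min (D + 1) r0) with hc2
      have hpD : (0 : ℝ) < 2 ^ D := by positivity
      have q0 : g * P0 ≤ (c2 * a) / 2 ^ D * S0 := by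
        calc g * P0 ≤ g * (c1 / 2 ^ D * S0) := mul_le_mul_of_nonneg_left I0 hgp
          _ = (g * c1) * (S0 / 2 ^ D) := by ring
          _ ≤ (c2 * a) * (S0 / 2 ^ D) := mul_le_mul_of_nonneg_right hgm (by positivity)
          _ = _ := by ring
      have q1 : g * P1 ≤ (c2 * a) / 2 ^ D * S1 := by
        calc g * P1 ≤ g * (c1 / 2 ^ D * S1) := mul_le_mul_of_nonneg_left I1 hgp
          _ = (g * c1) * (S1 / 2 ^ D) := by ring
          _ ≤ (c2 * a) * (S1 / 2 ^ D) := mul_le_mul_of_nonneg_right hgm (by positivity)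
          _ = _ := by ring
      have q2 : g * ((tot (half false v)) ^ 2 / 2 ^ D) ≤ (c2 * a) * ((tot (half false v)) ^ 2 / 2 ^ D) :=
        mul_le_mul_of_nonneg_right hgm' m0
      have q3 : g * ((tot (half true v)) ^ 2 / 2 ^ D) ≤ (c2 * a) * ((tot (half true v)) ^ 2 / 2 ^ D) :=
        mul_le_mul_of_nonneg_right hgm' m1
      calc (1 / 2) * (g * (P0 + (tot (half false v)) ^ 2 / 2 ^ D)
          + g * (P1 + (tot (half true v)) ^ 2 / 2 ^ D))
          ≤ (1 / 2) * ((c2 * a) / 2 ^ D * S0 + (c2 * a) * ((tot (half false v)) ^ 2 / 2 ^ D)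
            + ((c2 * a) / 2 ^ D * S1 + (c2 * a) * ((tot (half true v)) ^ 2 / 2 ^ D))) := by
            linarith
        _ = _ := by
            rw [pow_succ]; field_simp; ring

/-- geometric sum -/
theorem geom_le (a : ℝ) (ha : 1 < a) (D : ℕ) :
    ∑ s ∈ Finset.range D, a ^ (D - s) ≤ a / (a - 1) * a ^ D := by
  have h1 : ∑ s ∈ Finset.range D, a ^ (D - s) = a * ∑ s ∈ Finset.range D, a ^ s := by
    rw [← Finset.sum_range_reflect (fun s => a ^ s) D, Finset.mul_sum]
    apply Finset.sum_congr rfl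
    intro s hs
    have hs' := Finset.mem_range.mp hs
    rw [← pow_succ']
    congr 1
    omega
  rw [h1, geom_sum_eq (by linarith) D]
  have ha0 : (0 : ℝ) < a - 1 := by linarith
  rw [div_mul_eq_mul_div, mul_div_assoc']
  apply div_le_div_of_nonneg_right _ ha0.le
  have : 0 < a := by linarith
  nlinarith [pow_pos this D]

/-- contraction of the Lyapunov functional -/
theorem Psi_contract (r0 : ℕ) (k0 a : ℝ) (ha : a = 2 - k0) (ha1 : 1 < a) (D : ℕ)
    (u : (Fin D → Bool) → Bool) (v : (Fin D → Bool) → ℝ) (hs : Spt u v) (hz : tot v = 0)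
    (G : Om D → ℝ) (hG0 : ∀ ω, 0 ≤ G ω) (hG1 : ∀ ω, G ω ≤ 1)
    (hG : ∀ ω, G ω ≠ 0 → Dens r0 k0 D (hu D ω u)) :
    av (fun ω : Om D => G ω * Psi D (hu D ω u) (hv D ω u v))
      ≤ 2 ^ r0 * (a / (a - 1)) * (a / 2) ^ D * Psi D u v := by
  have ha0 : 0 < a := by linarith
  have h1 : ∀ ω : Om D, G ω * Psi D (hu D ω u) (hv D ω u v)
      ≤ ∑ s ∈ Finset.range D, (2 ^ r0 / 2 ^ D * a ^ (D - s)) * esb D s (hv D ω u v) (hv D ω u v) := by
    intro ω
    have hnn : 0 ≤ ∑ s ∈ Finset.range D, (2 ^ r0 / 2 ^ D * a ^ (D - s)) * esb D s (hv D ω u v) (hv D ω u v) :=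
      Finset.sum_nonneg (fun s _ => mul_nonneg (by positivity) (esb_nonneg _ _ _))
    by_cases hG2 : G ω = 0
    · rw [hG2, zero_mul]; exact hnn
    · have h2 := Psi_le r0 k0 a ha ha1.le D (hu D ω u) (hv D ω u v) (hG ω hG2)
      have h3 : (2 : ℝ) ^ (min D r0) ≤ 2 ^ r0 := pow_le_pow_right₀ (by norm_num) (min_le_right _ _)
      have h4 : 0 ≤ ∑ s ∈ Finset.range D, a ^ (D - s) * esb D s (hv D ω u v) (hv D ω u v) :=
        Finset.sum_nonneg (fun s _ => mul_nonneg (by positivity) (esb_nonneg _ _ _))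
      calc G ω * Psi D (hu D ω u) (hv D ω u v) ≤ 1 * Psi D (hu D ω u) (hv D ω u v) :=
            mul_le_mul_of_nonneg_right (hG1 ω) (Psi_nonneg _ _ _)
        _ ≤ 2 ^ (min D r0) / 2 ^ D * ∑ s ∈ Finset.range D, a ^ (D - s) * esb D s (hv D ω u v) (hv D ω u v) := by
            rw [one_mul]; exact h2
        _ ≤ 2 ^ r0 / 2 ^ D * ∑ s ∈ Finset.range D, a ^ (D - s) * esb D s (hv D ω u v) (hv D ω u v) := by
            apply mul_le_mul_of_nonneg_right _ h4
            exact div_le_div_of_nonneg_right h3 (by positivity)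
        _ = _ := by
            rw [Finset.mul_sum]
            apply Finset.sum_congr rfl
            intro s _
            ring
  refine (av_mono h1).trans ?_
  rw [av_sum]
  have h5 : ∀ s ∈ Finset.range D, av (fun ω : Om D =>
      (2 ^ r0 / 2 ^ D * a ^ (D - s)) * esb D s (hv D ω u v) (hv D ω u v))
      ≤ (2 ^ r0 / 2 ^ D * Psi D u v) * a ^ (D - s) := by
    intro s hs'
    have hs'' := Finset.mem_range.mp hs'
    rw [av_mul_left]
    have h6 := energy D s (by omega) u v hs
    rw [hz] at h6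
    have h7 : (2 : ℝ) ^ s / 2 ^ D * 0 ^ 2 + Psi D u v = Psi D u v := by ring
    rw [h7] at h6
    calc _ ≤ (2 ^ r0 / 2 ^ D * a ^ (D - s)) * Psi D u v :=
          mul_le_mul_of_nonneg_left h6 (by positivity)
      _ = _ := by ring
  refine (Finset.sum_le_sum h5).trans ?_
  rw [← Finset.mul_sum]
  have h8 := geom_le a ha1 D
  have h9 : 0 ≤ 2 ^ r0 / 2 ^ D * Psi D u v := mul_nonneg (by positivity) (Psi_nonneg _ _ _)
  calc _ ≤ (2 ^ r0 / 2 ^ D * Psi D u v) * (a / (a - 1) * a ^ D) := mul_le_mul_of_nonneg_left h8 h9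
    _ = _ := by
        rw [div_pow]; ring

/-- initial value of the Lyapunov functional -/
theorem Psi_init (r0 : ℕ) (k0 a : ℝ) (ha : a = 2 - k0) (ha1 : 1 < a) (ha2 : a < 2) (D : ℕ)
    (u : (Fin D → Bool) → Bool) (v : (Fin D → Bool) → ℝ) (h : Dens r0 k0 D u) :
    Psi D u v ≤ 2 ^ r0 * (a / (2 - a)) * ∑ y, v y ^ 2 := by
  have ha0 : 0 < a := by linarith
  have h2 := Psi_le r0 k0 a ha ha1.le D u v h
  have h3 : (2 : ℝ) ^ (min D r0) ≤ 2 ^ r0 := pow_le_pow_right₀ (by norm_num) (min_le_right _ _)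
  have hE : 0 ≤ ∑ y, v y ^ 2 := Finset.sum_nonneg (fun y _ => sq_nonneg _)
  have h4 : ∑ s ∈ Finset.range D, a ^ (D - s) * esb D s v v
      ≤ ∑ s ∈ Finset.range D, (2 ^ D * ∑ y, v y ^ 2) * (a / 2) ^ (D - s) := by
    apply Finset.sum_le_sum
    intro s hs
    have hs' := Finset.mem_range.mp hs
    have h5 := esb_le D s (by omega) v
    calc a ^ (D - s) * esb D s v v ≤ a ^ (D - s) * (2 ^ s * ∑ y, v y ^ 2) :=
          mul_le_mul_of_nonneg_left h5 (by positivity)
      _ = _ := by
          rw [div_pow]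
          have : (2 : ℝ) ^ D = 2 ^ s * 2 ^ (D - s) := by rw [← pow_add]; congr 1; omega
          rw [this]
          field_simp
  have h6 : ∑ s ∈ Finset.range D, (a / 2) ^ (D - s) ≤ a / (2 - a) := by
    have hb : a / 2 < 1 := by linarith
    have hb0 : 0 < a / 2 := by linarith
    have h7 : ∑ s ∈ Finset.range D, (a / 2) ^ (D - s) = (a / 2) * ∑ s ∈ Finset.range D, (a / 2) ^ s := by
      rw [← Finset.sum_range_reflect (fun s => (a / 2) ^ s) D, Finset.mul_sum]
      apply Finset.sum_congr rfl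
      intro s hs
      have hs' := Finset.mem_range.mp hs
      rw [← pow_succ']
      congr 1
      omega
    rw [h7, geom_sum_eq (by linarith) D]
    have h8 : ((a / 2) ^ D - 1) / (a / 2 - 1) ≤ 1 / (1 - a / 2) := by
      rw [← neg_div_neg_eq, neg_sub, neg_sub]
      apply div_le_div_of_nonneg_right _ (by linarith)
      have := pow_pos hb0 D
      linarith
    calc a / 2 * (((a / 2) ^ D - 1) / (a / 2 - 1)) ≤ a / 2 * (1 / (1 - a / 2)) :=
          mul_le_mul_of_nonneg_left h8 hb0.le
      _ = a / (2 - a) := by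
          have : 1 - a / 2 ≠ 0 := by linarith
          have : 2 - a ≠ 0 := by linarith
          field_simp
  rw [← Finset.mul_sum] at h4
  have h10 : 0 ≤ ∑ s ∈ Finset.range D, a ^ (D - s) * esb D s v v :=
    Finset.sum_nonneg (fun s _ => mul_nonneg (by positivity) (esb_nonneg _ _ _))
  calc Psi D u v ≤ 2 ^ (min D r0) / 2 ^ D * ∑ s ∈ Finset.range D, a ^ (D - s) * esb D s v v := h2
    _ ≤ 2 ^ r0 / 2 ^ D * ∑ s ∈ Finset.range D, a ^ (D - s) * esb D s v v := by
        apply mul_le_mul_of_nonneg_right _ h10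
        exact div_le_div_of_nonneg_right h3 (by positivity)
    _ ≤ 2 ^ r0 / 2 ^ D * ((2 ^ D * ∑ y, v y ^ 2) * ∑ s ∈ Finset.range D, (a / 2) ^ (D - s)) :=
        mul_le_mul_of_nonneg_left h4 (by positivity)
    _ ≤ 2 ^ r0 / 2 ^ D * ((2 ^ D * ∑ y, v y ^ 2) * (a / (2 - a))) := by
        apply mul_le_mul_of_nonneg_left _ (by positivity)
        exact mul_le_mul_of_nonneg_left h6 (by positivity)
    _ = _ := by
        field_simp

end Crest.Agent.ThS
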