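import Crest.Agent.ThA3
import Crest.Agent.ThConv

/-! The permutation of one pass and of several passes; conditional law of the hidden wires. -/

set_option autoImplicit false
set_option linter.unusedSectionVars false
set_option linter.unusedVariables false

namespace Crest.Agent.ThS

open Finset

def combF {D : ℕ} (g0 g1 : Equiv.Perm (Fin D → Bool)) (c : (Fin D → Bool) → Bool)
    (x : Fin (D + 1) → Bool) : Fin (D + 1) → Bool :=
  if x 0 then cns (xor true (c (g1 (Fin.tail x)))) (g1 (Fin.tail x))
    else cns (xor false (c (g0 (Fin.tail x)))) (g0 (Fin.tail x))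

def combI {D : ℕ} (g0 g1 : Equiv.Perm (Fin D → Bool)) (c : (Fin D → Bool) → Bool)
    (z : Fin (D + 1) → Bool) : Fin (D + 1) → Bool :=
  if xor (z 0) (c (Fin.tail z)) then cns true (g1.symm (Fin.tail z))
    else cns false (g0.symm (Fin.tail z))

theorem combI_combF {D : ℕ} (g0 g1 : Equiv.Perm (Fin D → Bool)) (c : (Fin D → Bool) → Bool)
    (x : Fin (D + 1) → Bool) : combI g0 g1 c (combF g0 g1 c x) = x := by
  have e := cns_head_tail x
  by_cases hx : x 0 = true
  · rw [hx] at e
    have h1 : combF g0 g1 c x = cns (xor true (c (g1 (Fin.tail x)))) (g1 (Fin.tail x)) := if_pos hx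
    rw [h1]
    have h2 : combI g0 g1 c (cns (xor true (c (g1 (Fin.tail x)))) (g1 (Fin.tail x)))
        = cns true (g1.symm (g1 (Fin.tail x))) := by
      unfold combI
      rw [cns_zero, tail_cns]
      exact if_pos (by cases c (g1 (Fin.tail x)) <;> rfl)
    rw [h2, Equiv.symm_apply_apply]
    exact e
  · have hx' : x 0 = false := by simpa using hx
    rw [hx'] at e
    have h1 : combF g0 g1 c x = cns (xor false (c (g0 (Fin.tail x)))) (g0 (Fin.tail x)) := if_neg hx
    rw [h1]
    have h2 : combI g0 g1 c (cns (xor false (c (g0 (Fin.tail x)))) (g0 (Fin.tail x)))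
        = cns false (g0.symm (g0 (Fin.tail x))) := by
      unfold combI
      rw [cns_zero, tail_cns]
      exact if_neg (by cases c (g0 (Fin.tail x)) <;> simp)
    rw [h2, Equiv.symm_apply_apply]
    exact e

theorem combF_combI {D : ℕ} (g0 g1 : Equiv.Perm (Fin D → Bool)) (c : (Fin D → Bool) → Bool)
    (z : Fin (D + 1) → Bool) : combF g0 g1 c (combI g0 g1 c z) = z := by
  have e := cns_head_tail z
  by_cases hx : (xor (z 0) (c (Fin.tail z))) = true
  · have h1 : combI g0 g1 c z = cns true (g1.symm (Fin.tail z)) := if_pos hx
    rw [h1]
    have h2 : combF g0 g1 c (cns true (g1.symm (Fin.tail z)))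
        = cns (xor true (c (g1 (g1.symm (Fin.tail z))))) (g1 (g1.symm (Fin.tail z))) := if_pos rfl
    rw [h2, Equiv.apply_symm_apply]
    have : (xor true (c (Fin.tail z))) = z 0 := by
      revert hx; cases z 0 <;> cases c (Fin.tail z) <;> simp
    rw [this]; exact e
  · have h1 : combI g0 g1 c z = cns false (g0.symm (Fin.tail z)) := if_neg hx
    rw [h1]
    have h2 : combF g0 g1 c (cns false (g0.symm (Fin.tail z)))
        = cns (xor false (c (g0 (g0.symm (Fin.tail z))))) (g0 (g0.symm (Fin.tail z))) :=
      if_neg (by simp)
    rw [h2, Equiv.apply_symm_apply]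
    have : (xor false (c (Fin.tail z))) = z 0 := by
      revert hx; cases z 0 <;> cases c (Fin.tail z) <;> simp
    rw [this]; exact e

/-- combine permutations of the two halves and then swap along direction `0` -/
def comb {D : ℕ} (g0 g1 : Equiv.Perm (Fin D → Bool)) (c : (Fin D → Bool) → Bool) :
    Equiv.Perm (Fin (D + 1) → Bool) where
  toFun := combF g0 g1 c
  invFun := combI g0 g1 c
  left_inv := combI_combF g0 g1 c
  right_inv := combF_combI g0 g1 c

theorem comb_apply {D : ℕ} (g0 g1 : Equiv.Perm (Fin D → Bool)) (c : (Fin D → Bool) → Bool)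
    (x : Fin (D + 1) → Bool) :
    comb g0 g1 c x = if x 0 then cns (xor true (c (g1 (Fin.tail x)))) (g1 (Fin.tail x))
    else cns (xor false (c (g0 (Fin.tail x)))) (g0 (Fin.tail x)) := rfl

theorem comb_symm_apply {D : ℕ} (g0 g1 : Equiv.Perm (Fin D → Bool)) (c : (Fin D → Bool) → Bool)
    (z : Fin (D + 1) → Bool) :
    (comb g0 g1 c).symm z = if xor (z 0) (c (Fin.tail z)) then cns true (g1.symm (Fin.tail z))
    else cns false (g0.symm (Fin.tail z)) := rfl

/-- the permutation of one pass -/
def pm : (D : ℕ) → Om D → Equiv.Perm (Fin D → Bool)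
  | 0, _ => 1
  | D + 1, ω => comb (pm D ω.1.1) (pm D ω.1.2) ω.2

theorem hu_eq : ∀ {D : ℕ} (ω : Om D) (u : (Fin D → Bool) → Bool) (z : Fin D → Bool),
    hu D ω u z = u ((pm D ω).symm z)
  | 0, _, _, _ => rfl
  | D + 1, ω, u, z => by
      show (if xor (z 0) (ω.2 (Fin.tail z)) then hu D ω.1.2 (half true u) (Fin.tail z)
        else hu D ω.1.1 (half false u) (Fin.tail z)) = u ((comb (pm D ω.1.1) (pm D ω.1.2) ω.2).symm z)
      rw [comb_symm_apply, hu_eq, hu_eq]
      split_ifs <;> rfl

/-- a function of a permutation depends only on the revealed points -/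
def Rev {D : ℕ} (u : (Fin D → Bool) → Bool) {β : Type*} (Φ : Equiv.Perm (Fin D → Bool) → β) : Prop :=
  ∀ g g' : Equiv.Perm (Fin D → Bool), (∀ x, u x = false → g x = g' x) → Φ g = Φ g'

theorem Rev.hid {D : ℕ} (u : (Fin D → Bool) → Bool) (z : Fin D → Bool) :
    Rev u (fun g : Equiv.Perm (Fin D → Bool) => u (g.symm z)) := by
  intro g g' h
  show u (g.symm z) = u (g'.symm z)
  rcases h1 : u (g.symm z) with _ | _
  · have h2 := h _ h1
    rw [Equiv.apply_symm_apply] at h2
    have h3 : g'.symm z = g.symm z := (Equiv.symm_apply_eq g').mpr h2
    rw [h3, h1]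
  · rcases h1' : u (g'.symm z) with _ | _
    · have h2 := h _ h1'
      rw [Equiv.apply_symm_apply] at h2
      have h3 : g.symm z = g'.symm z := (Equiv.symm_apply_eq g).mpr h2.symm
      rw [h3, h1'] at h1
      exact absurd h1 (by simp)
    · rfl

/-- conditional law of the hidden wires given the revealed ones (one pass) -/
theorem cond_one : ∀ {D : ℕ} (u : (Fin D → Bool) → Bool) (v : (Fin D → Bool) → ℝ)
    (Φ : Equiv.Perm (Fin D → Bool) → ℝ), Rev u Φ → ∀ z,
    av (fun ω : Om D => v ((pm D ω).symm z) * Φ (pm D ω)) = av (fun ω : Om D => hv D ω u v z * Φ (pm D ω))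
  | 0, u, v, Φ, h, z => rfl
  | D + 1, u, v, Φ, h, z => by
      set y := Fin.tail z with hy
      set b := z 0 with hb
      have hz : cns b y = z := cns_head_tail z
      rw [av_Om_succ, av_Om_succ]
      -- abbreviations
      let V0 : Om D → ℝ := fun ω0 => half false v ((pm D ω0).symm y)
      let V1 : Om D → ℝ := fun ω1 => half true v ((pm D ω1).symm y)
      let W0 : Om D → ℝ := fun ω0 => hv D ω0 (half false u) (half false v) y
      let W1 : Om D → ℝ := fun ω1 => hv D ω1 (half true u) (half true v) y
      let A0 : Equiv.Perm (Fin D → Bool) → Equiv.Perm (Fin D → Bool) → ((Fin D → Bool) → Bool) → ℝ :=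
        fun g0 g1 c => (if (half false u (g0.symm y) && half true u (g1.symm y)) then (1 / 2 : ℝ)
          else if xor b (c y) then 0 else 1) * Φ (comb g0 g1 c)
      let A1 : Equiv.Perm (Fin D → Bool) → Equiv.Perm (Fin D → Bool) → ((Fin D → Bool) → Bool) → ℝ :=
        fun g0 g1 c => (if (half false u (g0.symm y) && half true u (g1.symm y)) then (1 / 2 : ℝ)
          else if xor b (c y) then 1 else 0) * Φ (comb g0 g1 c)
      have hL : ∀ ω0 ω1 : Om D, av (fun c : (Fin D → Bool) → Bool =>
          v ((pm (D + 1) ((ω0, ω1), c)).symm z) * Φ (pm (D + 1) ((ω0, ω1), c)))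
          = av (fun c : (Fin D → Bool) → Bool => A0 (pm D ω0) (pm D ω1) c * V0 ω0
              + A1 (pm D ω0) (pm D ω1) c * V1 ω1) := by
        intro ω0 ω1
        by_cases hbb : (half false u ((pm D ω0).symm y) && half true u ((pm D ω1).symm y)) = true
        · -- symmetrise
          have hbb2 : half false u ((pm D ω0).symm y) = true ∧ half true u ((pm D ω1).symm y) = true := by
            simpa using hbb
          have hΦ : ∀ c : (Fin D → Bool) → Bool, Φ (comb (pm D ω0) (pm D ω1) (flipEq y c))
              = Φ (comb (pm D ω0) (pm D ω1) c) := by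
            intro c
            apply h
            intro x hx
            rw [comb_apply, comb_apply]
            rcases hx0 : x 0 with _ | _
            · simp only [Bool.false_eq_true, ↓reduceIte]
              by_cases hyy : (pm D ω0) (Fin.tail x) = y
              · exfalso
                have : (pm D ω0).symm y = Fin.tail x := by rw [← hyy, Equiv.symm_apply_apply]
                rw [this] at hbb2
                have h3 := hbb2.1
                have hxe : cns false (Fin.tail x) = x := by rw [← hx0]; exact cns_head_tail x
                rw [half_apply, hxe] at h3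
                rw [h3] at hx; exact absurd hx (by simp)
              · rw [flipEq_ne hyy]
            · simp only [↓reduceIte]
              by_cases hyy : (pm D ω1) (Fin.tail x) = y
              · exfalso
                have : (pm D ω1).symm y = Fin.tail x := by rw [← hyy, Equiv.symm_apply_apply]
                rw [this] at hbb2
                have h3 := hbb2.2
                have hxe : cns true (Fin.tail x) = x := by rw [← hx0]; exact cns_head_tail x
                rw [half_apply, hxe] at h3
                rw [h3] at hx; exact absurd hx (by simp)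
              · rw [flipEq_ne hyy]
          have e1 := av_equiv (flipEq y) (fun c : (Fin D → Bool) → Bool =>
            v ((pm (D + 1) ((ω0, ω1), c)).symm z) * Φ (pm (D + 1) ((ω0, ω1), c)))
          have e2 : av (fun c : (Fin D → Bool) → Bool =>
              v ((pm (D + 1) ((ω0, ω1), c)).symm z) * Φ (pm (D + 1) ((ω0, ω1), c)))
              + av (fun c : (Fin D → Bool) → Bool =>
              v ((pm (D + 1) ((ω0, ω1), c)).symm z) * Φ (pm (D + 1) ((ω0, ω1), c)))
              = 2 * av (fun c : (Fin D → Bool) → Bool => A0 (pm D ω0) (pm D ω1) c * V0 ω0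
              + A1 (pm D ω0) (pm D ω1) c * V1 ω1) := by
            nth_rewrite 1 [← e1]
            rw [← av_add, ← av_mul_left]
            congr 1
            funext c
            show v ((comb (pm D ω0) (pm D ω1) (flipEq y c)).symm z) * Φ (comb (pm D ω0) (pm D ω1) (flipEq y c))
              + v ((comb (pm D ω0) (pm D ω1) c).symm z) * Φ (comb (pm D ω0) (pm D ω1) c)
              = 2 * ((if (half false u ((pm D ω0).symm y) && half true u ((pm D ω1).symm y)) then (1 / 2 : ℝ)
                else if xor b (c y) then 0 else 1) * Φ (comb (pm D ω0) (pm D ω1) c) * V0 ω0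
                + (if (half false u ((pm D ω0).symm y) && half true u ((pm D ω1).symm y)) then (1 / 2 : ℝ)
                else if xor b (c y) then 1 else 0) * Φ (comb (pm D ω0) (pm D ω1) c) * V1 ω1)
            rw [hΦ, if_pos hbb, if_pos hbb, comb_symm_apply, comb_symm_apply, ← hy, ← hb, flipEq_self]
            show (v (if xor b (!c y) then cns true ((pm D ω1).symm y) else cns false ((pm D ω0).symm y)))
              * Φ (comb (pm D ω0) (pm D ω1) c)
              + (v (if xor b (c y) then cns true ((pm D ω1).symm y) else cns false ((pm D ω0).symm y)))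
              * Φ (comb (pm D ω0) (pm D ω1) c)
              = 2 * (1 / 2 * Φ (comb (pm D ω0) (pm D ω1) c) * v (cns false ((pm D ω0).symm y))
                + 1 / 2 * Φ (comb (pm D ω0) (pm D ω1) c) * v (cns true ((pm D ω1).symm y)))
            cases b <;> cases c y <;> simp <;> ring
          linarith
        · congr 1
          funext c
          show v ((comb (pm D ω0) (pm D ω1) c).symm z) * Φ (comb (pm D ω0) (pm D ω1) c)
              = ((if (half false u ((pm D ω0).symm y) && half true u ((pm D ω1).symm y)) then (1 / 2 : ℝ)
                else if xor b (c y) then 0 else 1) * Φ (comb (pm D ω0) (pm D ω1) c) * V0 ω0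
                + (if (half false u ((pm D ω0).symm y) && half true u ((pm D ω1).symm y)) then (1 / 2 : ℝ)
                else if xor b (c y) then 1 else 0) * Φ (comb (pm D ω0) (pm D ω1) c) * V1 ω1)
          rw [if_neg hbb, if_neg hbb, comb_symm_apply, ← hy, ← hb]
          by_cases hx : xor b (c y) = true
          · rw [if_pos hx, if_pos hx, if_pos hx]
            show v (cns true ((pm D ω1).symm y)) * _ = 0 * _ * _ + 1 * _ * v (cns true ((pm D ω1).symm y))
            ring
          · rw [if_neg hx, if_neg hx, if_neg hx]
            show v (cns false ((pm D ω0).symm y)) * _ = 1 * _ * v (cns false ((pm D ω0).symm y)) + 0 * _ * _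
            ring
      have hR : ∀ ω0 ω1 : Om D, av (fun c : (Fin D → Bool) → Bool =>
          hv (D + 1) ((ω0, ω1), c) u v z * Φ (pm (D + 1) ((ω0, ω1), c)))
          = av (fun c : (Fin D → Bool) → Bool => A0 (pm D ω0) (pm D ω1) c * W0 ω0
              + A1 (pm D ω0) (pm D ω1) c * W1 ω1) := by
        intro ω0 ω1
        congr 1
        funext c
        show (if (hu D ω0 (half false u) y && hu D ω1 (half true u) y) = true then
          (W0 ω0 + W1 ω1) / 2
          else if xor b (c y) = true then W1 ω1 else W0 ω0) * Φ (comb (pm D ω0) (pm D ω1) c)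
            = ((if (half false u ((pm D ω0).symm y) && half true u ((pm D ω1).symm y)) then (1 / 2 : ℝ)
                else if xor b (c y) then 0 else 1) * Φ (comb (pm D ω0) (pm D ω1) c) * W0 ω0
                + (if (half false u ((pm D ω0).symm y) && half true u ((pm D ω1).symm y)) then (1 / 2 : ℝ)
                else if xor b (c y) then 1 else 0) * Φ (comb (pm D ω0) (pm D ω1) c) * W1 ω1)
        rw [hu_eq, hu_eq]
        by_cases hbb : (half false u ((pm D ω0).symm y) && half true u ((pm D ω1).symm y)) = true
        · rw [if_pos hbb, if_pos hbb, if_pos hbb]; ring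
        · rw [if_neg hbb, if_neg hbb, if_neg hbb]
          by_cases hx : xor b (c y) = true
          · rw [if_pos hx, if_pos hx, if_pos hx]; ring
          · rw [if_neg hx, if_neg hx, if_neg hx]; ring
      simp_rw [hL, hR, av_add]
      congr 1
      · -- the `V0`, `W0` parts
        have q : ∀ (F : Om D → Om D → ((Fin D → Bool) → Bool) → ℝ),
            av (fun ω0 : Om D => av (fun ω1 : Om D => av (fun c : (Fin D → Bool) → Bool => F ω0 ω1 c)))
            = av (fun ω1 : Om D => av (fun c : (Fin D → Bool) → Bool => av (fun ω0 : Om D => F ω0 ω1 c))) := by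
          intro F
          rw [av_comm]
          congr 1
          funext ω1
          rw [av_comm]
        rw [q (fun ω0 ω1 c => A0 (pm D ω0) (pm D ω1) c * V0 ω0),
          q (fun ω0 ω1 c => A0 (pm D ω0) (pm D ω1) c * W0 ω0)]
        congr 1
        funext ω1
        congr 1
        funext c
        have hrev : Rev (half false u) (fun g0 => A0 g0 (pm D ω1) c) := by
          intro g g' hg
          have h1 : half false u (g.symm y) = half false u (g'.symm y) := Rev.hid (half false u) y g g' hg
          have h2 : Φ (comb g (pm D ω1) c) = Φ (comb g' (pm D ω1) c) := by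
            apply h
            intro x hx
            rw [comb_apply, comb_apply]
            rcases hx0 : x 0 with _ | _
            · have hxe : cns false (Fin.tail x) = x := by rw [← hx0]; exact cns_head_tail x
              have : half false u (Fin.tail x) = false := by
                rw [half_apply, hxe]; exact hx
              rw [hg _ this]
            · rfl
          show (if (half false u (g.symm y) && half true u ((pm D ω1).symm y)) then (1 / 2 : ℝ)
            else if xor b (c y) then 0 else 1) * Φ (comb g (pm D ω1) c) = _
          rw [h1, h2]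
        have := cond_one (half false u) (half false v) (fun g0 => A0 g0 (pm D ω1) c) hrev y
        simp_rw [mul_comm (A0 _ _ _)]
        exact this
      · congr 1
        funext ω0
        rw [av_comm, av_comm (f := fun ω1 c => A1 (pm D ω0) (pm D ω1) c * W1 ω1)]
        congr 1
        funext c
        have hrev : Rev (half true u) (fun g1 => A1 (pm D ω0) g1 c) := by
          intro g g' hg
          have h1 : half true u (g.symm y) = half true u (g'.symm y) := Rev.hid (half true u) y g g' hg
          have h2 : Φ (comb (pm D ω0) g c) = Φ (comb (pm D ω0) g' c) := by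
            apply h
            intro x hx
            rw [comb_apply, comb_apply]
            rcases hx0 : x 0 with _ | _
            · rfl
            · have hxe : cns true (Fin.tail x) = x := by rw [← hx0]; exact cns_head_tail x
              have : half true u (Fin.tail x) = false := by
                rw [half_apply, hxe]; exact hx
              rw [hg _ this]
          show (if (half false u ((pm D ω0).symm y) && half true u (g.symm y)) then (1 / 2 : ℝ)
            else if xor b (c y) then 1 else 0) * Φ (comb (pm D ω0) g c) = _
          rw [h1, h2]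
        have := cond_one (half true u) (half true v) (fun g1 => A1 (pm D ω0) g1 c) hrev y
        simp_rw [mul_comm (A1 _ _ _)]
        exact this

end Crest.Agent.ThS
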