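import Crest.Agent.ThA4

/-! Several passes. -/

set_option autoImplicit false
set_option linter.unusedSectionVars false
set_option linter.unusedVariables false

namespace Crest.Agent.ThS

open Finset

/-! ### linearity of the hidden evolution -/

theorem hv_sum : ∀ {D : ℕ} (ω : Om D) (u : (Fin D → Bool) → Bool) {ι : Type} (s : Finset ι)
    (c : ι → ℝ) (f : ι → (Fin D → Bool) → ℝ) (z : Fin D → Bool),
    hv D ω u (fun x => ∑ i ∈ s, c i * f i x) z = ∑ i ∈ s, c i * hv D ω u (f i) z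
  | 0, _, _, _, _, _, _, _ => rfl
  | D + 1, ω, u, ι, s, c, f, z => by
      have h0 := hv_sum ω.1.1 (half false u) s c (fun i => half false (f i)) (Fin.tail z)
      have h1 := hv_sum ω.1.2 (half true u) s c (fun i => half true (f i)) (Fin.tail z)
      have e0 : half false (fun x => ∑ i ∈ s, c i * f i x) = fun x => ∑ i ∈ s, c i * half false (f i) x := rfl
      have e1 : half true (fun x => ∑ i ∈ s, c i * f i x) = fun x => ∑ i ∈ s, c i * half true (f i) x := rfl
      show (if hu D ω.1.1 (half false u) (Fin.tail z) && hu D ω.1.2 (half true u) (Fin.tail z) then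
        (hv D ω.1.1 (half false u) (half false (fun x => ∑ i ∈ s, c i * f i x)) (Fin.tail z)
          + hv D ω.1.2 (half true u) (half true (fun x => ∑ i ∈ s, c i * f i x)) (Fin.tail z)) / 2
        else if xor (z 0) (ω.2 (Fin.tail z)) then
          hv D ω.1.2 (half true u) (half true (fun x => ∑ i ∈ s, c i * f i x)) (Fin.tail z)
        else hv D ω.1.1 (half false u) (half false (fun x => ∑ i ∈ s, c i * f i x)) (Fin.tail z))
        = ∑ i ∈ s, c i * (if hu D ω.1.1 (half false u) (Fin.tail z) && hu D ω.1.2 (half true u) (Fin.tail z) then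
        (hv D ω.1.1 (half false u) (half false (f i)) (Fin.tail z)
          + hv D ω.1.2 (half true u) (half true (f i)) (Fin.tail z)) / 2
        else if xor (z 0) (ω.2 (Fin.tail z)) then hv D ω.1.2 (half true u) (half true (f i)) (Fin.tail z)
        else hv D ω.1.1 (half false u) (half false (f i)) (Fin.tail z))
      rw [e0, e1, h0, h1]
      by_cases hb : (hu D ω.1.1 (half false u) (Fin.tail z) && hu D ω.1.2 (half true u) (Fin.tail z)) = true
      · simp_rw [if_pos hb]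
        rw [← Finset.sum_add_distrib, Finset.sum_div]
        apply Finset.sum_congr rfl
        intro i _
        ring
      · simp_rw [if_neg hb]
        by_cases hx : xor (z 0) (ω.2 (Fin.tail z)) = true
        · simp_rw [if_pos hx]
        · simp_rw [if_neg hx]

/-- point function -/
def pt {D : ℕ} (y : Fin D → Bool) : (Fin D → Bool) → ℝ := fun x => if x = y then 1 else 0

theorem hv_pt {D : ℕ} (ω : Om D) (u : (Fin D → Bool) → Bool) (v : (Fin D → Bool) → ℝ)
    (z : Fin D → Bool) : hv D ω u v z = ∑ y, v y * hv D ω u (pt y) z := by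
  have h := hv_sum ω u (Finset.univ : Finset (Fin D → Bool)) v (fun y => pt y) z
  have e : (fun x => ∑ y, v y * pt y x) = v := by
    funext x
    unfold pt
    simp
  rw [e] at h
  exact h

theorem hv_l1 : ∀ {D : ℕ} (ω : Om D) (u : (Fin D → Bool) → Bool) (v : (Fin D → Bool) → ℝ),
    ∑ z, |hv D ω u v z| ≤ ∑ z, |v z|
  | 0, _, _, _ => le_refl _
  | D + 1, ((ω0, ω1), c), u, v => by
      have h0 := hv_l1 ω0 (half false u) (half false v)
      have h1 := hv_l1 ω1 (half true u) (half true v)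
      rw [sum_cube, sum_cube (fun z => |v z|)]
      have : ∀ y : Fin D → Bool, half false (fun z => |hv (D + 1) ((ω0, ω1), c) u v z|) y
          + half true (fun z => |hv (D + 1) ((ω0, ω1), c) u v z|) y
          ≤ |hv D ω0 (half false u) (half false v) y| + |hv D ω1 (half true u) (half true v) y| := by
        intro y
        have q0 : half false (fun z => |hv (D + 1) ((ω0, ω1), c) u v z|) y
          = |half false (hv (D + 1) ((ω0, ω1), c) u v) y| := rfl
        have q1 : half true (fun z => |hv (D + 1) ((ω0, ω1), c) u v z|) y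
          = |half true (hv (D + 1) ((ω0, ω1), c) u v) y| := rfl
        rw [q0, q1, half_hv, half_hv]
        by_cases hb : (hu D ω0 (half false u) y && hu D ω1 (half true u) y) = true
        · simp only [if_pos hb]
          have := abs_add_le (hv D ω0 (half false u) (half false v) y) (hv D ω1 (half true u) (half true v) y)
          rw [abs_div, abs_of_pos (by norm_num : (0 : ℝ) < 2)]
          linarith
        · simp only [if_neg hb]
          cases c y
          · simp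
          · simp [add_comm]
      calc _ = ∑ y, (half false (fun z => |hv (D + 1) ((ω0, ω1), c) u v z|) y
          + half true (fun z => |hv (D + 1) ((ω0, ω1), c) u v z|) y) := by
            rw [Finset.sum_add_distrib]
        _ ≤ ∑ y, (|hv D ω0 (half false u) (half false v) y| + |hv D ω1 (half true u) (half true v) y|) :=
            Finset.sum_le_sum (fun y _ => this y)
        _ ≤ _ := by
            rw [Finset.sum_add_distrib]
            exact add_le_add h0 h1

/-! ### several passes -/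

/-- coins of `K` passes -/
def RK (D : ℕ) : ℕ → Type
  | 0 => Unit
  | K + 1 => RK D K × Om D

noncomputable instance instFintypeRK (D : ℕ) : (K : ℕ) → Fintype (RK D K)
  | 0 => inferInstanceAs (Fintype Unit)
  | K + 1 => by
      have := instFintypeRK D K
      exact inferInstanceAs (Fintype (RK D K × Om D))

instance instNonemptyRK (D : ℕ) : (K : ℕ) → Nonempty (RK D K)
  | 0 => inferInstanceAs (Nonempty Unit)
  | K + 1 => by
      have := instNonemptyRK D K
      exact inferInstanceAs (Nonempty (RK D K × Om D))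

theorem av_RK_succ {D K : ℕ} (f : RK D (K + 1) → ℝ) :
    av f = av (fun ρ : RK D K => av (fun ω : Om D => f (ρ, ω))) :=
  av_prod (α := RK D K) (β := Om D) f

/-- the permutation of `K` passes -/
def pmK (D : ℕ) : (K : ℕ) → RK D K → Equiv.Perm (Fin D → Bool)
  | 0, _ => 1
  | K + 1, ρ => pm D ρ.2 * pmK D K ρ.1

def huK (D : ℕ) : (K : ℕ) → RK D K → ((Fin D → Bool) → Bool) → ((Fin D → Bool) → Bool)
  | 0, _, u => u
  | K + 1, ρ, u => hu D ρ.2 (huK D K ρ.1 u)

noncomputable def hvK (D : ℕ) : (K : ℕ) → RK D K → ((Fin D → Bool) → Bool) → ((Fin D → Bool) → ℝ) →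
    ((Fin D → Bool) → ℝ)
  | 0, _, _, v => v
  | K + 1, ρ, u, v => hv D ρ.2 (huK D K ρ.1 u) (hvK D K ρ.1 u v)

theorem huK_eq {D : ℕ} : ∀ {K : ℕ} (ρ : RK D K) (u : (Fin D → Bool) → Bool) (z : Fin D → Bool),
    huK D K ρ u z = u ((pmK D K ρ).symm z)
  | 0, _, _, _ => rfl
  | K + 1, ρ, u, z => by
      show hu D ρ.2 (huK D K ρ.1 u) z = u ((pmK D K ρ.1).symm ((pm D ρ.2).symm z))
      rw [hu_eq, huK_eq]

theorem Spt.hvK {D : ℕ} : ∀ {K : ℕ} (ρ : RK D K) {u : (Fin D → Bool) → Bool} {v : (Fin D → Bool) → ℝ},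
    Spt u v → Spt (huK D K ρ u) (ThS.hvK D K ρ u v)
  | 0, _, _, _, h => h
  | K + 1, ρ, u, v, h => Spt.hv ρ.2 (Spt.hvK ρ.1 h)

theorem tot_hvK {D : ℕ} : ∀ {K : ℕ} (ρ : RK D K) (u : (Fin D → Bool) → Bool) (v : (Fin D → Bool) → ℝ),
    tot (hvK D K ρ u v) = tot v
  | 0, _, _, _ => rfl
  | K + 1, ρ, u, v => by
      show tot (hv D ρ.2 (huK D K ρ.1 u) (hvK D K ρ.1 u v)) = tot v
      rw [tot_hv, tot_hvK]

theorem hvK_l1 {D : ℕ} : ∀ {K : ℕ} (ρ : RK D K) (u : (Fin D → Bool) → Bool) (v : (Fin D → Bool) → ℝ),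
    ∑ z, |hvK D K ρ u v z| ≤ ∑ z, |v z|
  | 0, _, _, _ => le_refl _
  | K + 1, ρ, u, v => (hv_l1 ρ.2 (huK D K ρ.1 u) (hvK D K ρ.1 u v)).trans (hvK_l1 ρ.1 u v)

/-- conditional law of the hidden wires given the revealed ones (`K` passes) -/
theorem cond_K {D : ℕ} : ∀ (K : ℕ) (u : (Fin D → Bool) → Bool) (v : (Fin D → Bool) → ℝ)
    (Φ : Equiv.Perm (Fin D → Bool) → ℝ), Rev u Φ → ∀ z,
    av (fun ρ : RK D K => v ((pmK D K ρ).symm z) * Φ (pmK D K ρ))
      = av (fun ρ : RK D K => hvK D K ρ u v z * Φ (pmK D K ρ))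
  | 0, u, v, Φ, h, z => rfl
  | K + 1, u, v, Φ, h, z => by
      rw [av_RK_succ, av_RK_succ]
      -- first the last pass
      have h1 : ∀ ρ : RK D K, av (fun ω : Om D =>
          v ((pmK D (K + 1) (ρ, ω)).symm z) * Φ (pmK D (K + 1) (ρ, ω)))
          = av (fun ω : Om D => hv D ω (huK D K ρ u) (fun y => v ((pmK D K ρ).symm y)) z
              * Φ (pm D ω * pmK D K ρ)) := by
        intro ρ
        have hr : Rev (huK D K ρ u) (fun g : Equiv.Perm (Fin D → Bool) => Φ (g * pmK D K ρ)) := by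
          intro g g' hg
          apply h
          intro x hx
          show g (pmK D K ρ x) = g' (pmK D K ρ x)
          apply hg
          rw [huK_eq, Equiv.symm_apply_apply]
          exact hx
        exact cond_one (huK D K ρ u) (fun y => v ((pmK D K ρ).symm y))
          (fun g : Equiv.Perm (Fin D → Bool) => Φ (g * pmK D K ρ)) hr z
      simp_rw [h1]
      -- then the first `K` passes
      have h2 : ∀ (ρ : RK D K) (ω : Om D), hv D ω (huK D K ρ u) (fun y => v ((pmK D K ρ).symm y)) z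
          * Φ (pm D ω * pmK D K ρ)
          = ∑ y, v ((pmK D K ρ).symm y) * (hv D ω (huK D K ρ u) (pt y) z * Φ (pm D ω * pmK D K ρ)) := by
        intro ρ ω
        rw [hv_pt, Finset.sum_mul]
        apply Finset.sum_congr rfl
        intro y _
        ring
      have h3 : ∀ (ρ : RK D K) (ω : Om D), hvK D (K + 1) (ρ, ω) u v z * Φ (pmK D (K + 1) (ρ, ω))
          = ∑ y, hvK D K ρ u v y * (hv D ω (huK D K ρ u) (pt y) z * Φ (pm D ω * pmK D K ρ)) := by
        intro ρ ω
        show hv D ω (huK D K ρ u) (hvK D K ρ u v) z * Φ (pm D ω * pmK D K ρ) = _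
        rw [hv_pt, Finset.sum_mul]
        apply Finset.sum_congr rfl
        intro y _
        ring
      simp_rw [h2, h3]
      rw [av_comm, av_comm (f := fun (ρ : RK D K) (ω : Om D) =>
        ∑ y, hvK D K ρ u v y * (hv D ω (huK D K ρ u) (pt y) z * Φ (pm D ω * pmK D K ρ)))]
      congr 1
      funext ω
      rw [av_sum, av_sum]
      apply Finset.sum_congr rfl
      intro y _
      have hr : Rev u (fun g : Equiv.Perm (Fin D → Bool) =>
          hv D ω (fun a => u (g.symm a)) (pt y) z * Φ (pm D ω * g)) := by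
        intro g g' hg
        have e1 : (fun a => u (g.symm a)) = (fun a => u (g'.symm a)) := by
          funext a
          exact Rev.hid u a g g' hg
        have e2 : Φ (pm D ω * g) = Φ (pm D ω * g') := by
          apply h
          intro x hx
          show pm D ω (g x) = pm D ω (g' x)
          rw [hg x hx]
        show hv D ω (fun a => u (g.symm a)) (pt y) z * Φ (pm D ω * g) = _
        rw [e1, e2]
      have h4 := cond_K K u v _ hr y
      have e3 : ∀ ρ : RK D K, (fun a => u ((pmK D K ρ).symm a)) = huK D K ρ u := by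
        intro ρ
        funext a
        rw [huK_eq]
      simp_rw [e3] at h4
      exact h4

/-- typical indicator along `K` passes -/
noncomputable def dn (r0 : ℕ) (k0 : ℝ) {D : ℕ} (u : (Fin D → Bool) → Bool) : ℝ :=
  open Classical in if Dens r0 k0 D u then 1 else 0

theorem dn_nonneg (r0 : ℕ) (k0 : ℝ) {D : ℕ} (u : (Fin D → Bool) → Bool) : 0 ≤ dn r0 k0 u := by
  unfold dn; split_ifs <;> norm_num

theorem dn_le_one (r0 : ℕ) (k0 : ℝ) {D : ℕ} (u : (Fin D → Bool) → Bool) : dn r0 k0 u ≤ 1 := by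
  unfold dn; split_ifs <;> norm_num

theorem dn_ne_zero (r0 : ℕ) (k0 : ℝ) {D : ℕ} (u : (Fin D → Bool) → Bool) (h : dn r0 k0 u ≠ 0) :
    Dens r0 k0 D u := by
  unfold dn at h
  by_contra h'
  rw [if_neg h'] at h
  exact h rfl

noncomputable def GK (r0 : ℕ) (k0 : ℝ) (D : ℕ) : (K : ℕ) → RK D K → ((Fin D → Bool) → Bool) → ℝ
  | 0, _, u => dn r0 k0 u
  | K + 1, ρ, u => GK r0 k0 D K ρ.1 u * dn r0 k0 (hu D ρ.2 (huK D K ρ.1 u))

theorem GK_nonneg (r0 : ℕ) (k0 : ℝ) (D : ℕ) : ∀ (K : ℕ) (ρ : RK D K) (u : (Fin D → Bool) → Bool),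
    0 ≤ GK r0 k0 D K ρ u
  | 0, _, u => dn_nonneg _ _ _
  | K + 1, ρ, u => mul_nonneg (GK_nonneg r0 k0 D K ρ.1 u) (dn_nonneg _ _ _)

theorem GK_le_one (r0 : ℕ) (k0 : ℝ) (D : ℕ) : ∀ (K : ℕ) (ρ : RK D K) (u : (Fin D → Bool) → Bool),
    GK r0 k0 D K ρ u ≤ 1
  | 0, _, u => dn_le_one _ _ _
  | K + 1, ρ, u => by
      have h1 := GK_le_one r0 k0 D K ρ.1 u
      have h2 := dn_le_one r0 k0 (hu D ρ.2 (huK D K ρ.1 u))
      exact mul_le_one₀ h1 (dn_nonneg _ _ _) h2

theorem one_sub_GK (r0 : ℕ) (k0 : ℝ) (D K : ℕ) (ρ : RK D K) (ω : Om D) (u : (Fin D → Bool) → Bool) :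
    1 - GK r0 k0 D (K + 1) (ρ, ω) u
      ≤ (1 - GK r0 k0 D K ρ u) + (1 - dn r0 k0 (huK D (K + 1) (ρ, ω) u)) := by
  show 1 - GK r0 k0 D K ρ u * dn r0 k0 (hu D ω (huK D K ρ u))
    ≤ (1 - GK r0 k0 D K ρ u) + (1 - dn r0 k0 (hu D ω (huK D K ρ u)))
  have h1 := GK_le_one r0 k0 D K ρ u
  have h0 := GK_nonneg r0 k0 D K ρ u
  have h2 := dn_le_one r0 k0 (hu D ω (huK D K ρ u))
  nlinarith

theorem Psi_contract_K (r0 : ℕ) (k0 a : ℝ) (ha : a = 2 - k0) (ha1 : 1 < a) (D : ℕ)
    (u : (Fin D → Bool) → Bool) (v : (Fin D → Bool) → ℝ) (hs : Spt u v) (hz : tot v = 0) :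
    ∀ K : ℕ, av (fun ρ : RK D K => GK r0 k0 D K ρ u * Psi D (huK D K ρ u) (hvK D K ρ u v))
      ≤ (2 ^ r0 * (a / (a - 1)) * (a / 2) ^ D) ^ K * (dn r0 k0 u * Psi D u v)
  | 0 => by
      have : (fun ρ : RK D 0 => GK r0 k0 D 0 ρ u * Psi D (huK D 0 ρ u) (hvK D 0 ρ u v))
          = fun _ => dn r0 k0 u * Psi D u v := rfl
      rw [this, av_const, pow_zero, one_mul]
  | K + 1 => by
      rw [av_RK_succ]
      set θ : ℝ := 2 ^ r0 * (a / (a - 1)) * (a / 2) ^ D with hθ
      have hθ0 : 0 ≤ θ := by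
        have h1 : (0 : ℝ) < a - 1 := by linarith
        have h2 : (0 : ℝ) < a := by linarith
        positivity
      have h1 : ∀ ρ : RK D K, av (fun ω : Om D => GK r0 k0 D (K + 1) (ρ, ω) u
          * Psi D (huK D (K + 1) (ρ, ω) u) (hvK D (K + 1) (ρ, ω) u v))
          ≤ θ * (GK r0 k0 D K ρ u * Psi D (huK D K ρ u) (hvK D K ρ u v)) := by
        intro ρ
        have h2 : (fun ω : Om D => GK r0 k0 D (K + 1) (ρ, ω) u
          * Psi D (huK D (K + 1) (ρ, ω) u) (hvK D (K + 1) (ρ, ω) u v))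
          = fun ω : Om D => GK r0 k0 D K ρ u * (dn r0 k0 (hu D ω (huK D K ρ u))
            * Psi D (hu D ω (huK D K ρ u)) (hv D ω (huK D K ρ u) (hvK D K ρ u v))) := by
          funext ω
          show (GK r0 k0 D K ρ u * dn r0 k0 (hu D ω (huK D K ρ u)))
            * Psi D (hu D ω (huK D K ρ u)) (hv D ω (huK D K ρ u) (hvK D K ρ u v)) = _
          ring
        rw [h2, av_mul_left]
        have h3 := Psi_contract r0 k0 a ha ha1 D (huK D K ρ u) (hvK D K ρ u v) (Spt.hvK ρ hs)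
          (by rw [tot_hvK, hz]) (fun ω => dn r0 k0 (hu D ω (huK D K ρ u)))
          (fun ω => dn_nonneg _ _ _) (fun ω => dn_le_one _ _ _) (fun ω hne => dn_ne_zero _ _ _ hne)
        calc _ ≤ GK r0 k0 D K ρ u * (θ * Psi D (huK D K ρ u) (hvK D K ρ u v)) :=
              mul_le_mul_of_nonneg_left h3 (GK_nonneg _ _ _ _ _ _)
          _ = _ := by ring
      refine (av_mono h1).trans ?_
      rw [av_mul_left]
      have h4 := Psi_contract_K r0 k0 a ha ha1 D u v hs hz K
      calc _ ≤ θ * (θ ^ K * (dn r0 k0 u * Psi D u v)) := mul_le_mul_of_nonneg_left h4 hθ0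
        _ = _ := by rw [pow_succ]; ring

/-- the `l1` estimate for `K + 1` passes -/
theorem l1_bound (r0 : ℕ) (k0 a : ℝ) (ha : a = 2 - k0) (ha1 : 1 < a) (ha2 : a < 2) (D K : ℕ)
    (u : (Fin D → Bool) → Bool) (v : (Fin D → Bool) → ℝ) (hs : Spt u v) (hz : tot v = 0)
    (hv1 : ∑ z, |v z| ≤ 2) (hv2 : ∑ z, v z ^ 2 ≤ 1) :
    av (fun ρ : RK D (K + 1) => ∑ z, |hvK D (K + 1) ρ u v z|)
      ≤ Real.sqrt (2 ^ D * ((2 ^ r0 * (a / (a - 1)) * (a / 2) ^ D) ^ K * (2 ^ r0 * (a / (2 - a)))))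
        + 2 * av (fun ρ : RK D K => 1 - GK r0 k0 D K ρ u) := by
  set θ : ℝ := 2 ^ r0 * (a / (a - 1)) * (a / 2) ^ D with hθ
  have hθ0 : 0 ≤ θ := by
    have h1 : (0 : ℝ) < a - 1 := by linarith
    have h2 : (0 : ℝ) < a := by linarith
    positivity
  have hC : 0 ≤ 2 ^ r0 * (a / (2 - a)) := by
    have h1 : (0 : ℝ) < 2 - a := by linarith
    have h2 : (0 : ℝ) < a := by linarith
    positivity
  -- energy
  have hen : av (fun ρ : RK D (K + 1) => GK r0 k0 D K ρ.1 u * ∑ z, (hvK D (K + 1) ρ u v z) ^ 2)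
      ≤ θ ^ K * (2 ^ r0 * (a / (2 - a))) := by
    rw [av_RK_succ]
    have h1 : ∀ ρ : RK D K, av (fun ω : Om D => GK r0 k0 D K ρ u
        * ∑ z, (hvK D (K + 1) (ρ, ω) u v z) ^ 2)
        ≤ GK r0 k0 D K ρ u * Psi D (huK D K ρ u) (hvK D K ρ u v) := by
      intro ρ
      rw [av_mul_left]
      apply mul_le_mul_of_nonneg_left _ (GK_nonneg _ _ _ _ _ _)
      have h2 := energy D 0 (Nat.zero_le _) (huK D K ρ u) (hvK D K ρ u v) (Spt.hvK ρ hs)
      rw [tot_hvK, hz] at h2
      have h3 : (fun ω : Om D => esb D 0 (hv D ω (huK D K ρ u) (hvK D K ρ u v))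
          (hv D ω (huK D K ρ u) (hvK D K ρ u v)))
          = fun ω : Om D => ∑ z, (hvK D (K + 1) (ρ, ω) u v z) ^ 2 := by
        funext ω
        rw [esb_zero]
        apply Finset.sum_congr rfl
        intro z _
        rw [sq]; rfl
      rw [h3] at h2
      calc _ ≤ _ := h2
        _ = _ := by ring
    refine (av_mono h1).trans ?_
    refine (Psi_contract_K r0 k0 a ha ha1 D u v hs hz K).trans ?_
    apply mul_le_mul_of_nonneg_left _ (pow_nonneg hθ0 K)
    by_cases hd : Dens r0 k0 D u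
    · have h5 := Psi_init r0 k0 a ha ha1 ha2 D u v hd
      have h6 := dn_le_one r0 k0 u
      have h7 := Psi_nonneg D u v
      calc dn r0 k0 u * Psi D u v ≤ 1 * Psi D u v := mul_le_mul_of_nonneg_right h6 h7
        _ ≤ 2 ^ r0 * (a / (2 - a)) * ∑ y, v y ^ 2 := by rw [one_mul]; exact h5
        _ ≤ 2 ^ r0 * (a / (2 - a)) * 1 := mul_le_mul_of_nonneg_left hv2 hC
        _ = _ := mul_one _
    · unfold dn
      rw [if_neg hd, zero_mul]
      exact hC
  -- pointwise
  have hpt : ∀ ρ : RK D (K + 1), ∑ z, |hvK D (K + 1) ρ u v z|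
      ≤ GK r0 k0 D K ρ.1 u * Real.sqrt (2 ^ D * ∑ z, (hvK D (K + 1) ρ u v z) ^ 2)
        + 2 * (1 - GK r0 k0 D K ρ.1 u) := by
    intro ρ
    have h1 : ∑ z, |hvK D (K + 1) ρ u v z| ≤ 2 := (hvK_l1 ρ u v).trans hv1
    have h2 : ∑ z, |hvK D (K + 1) ρ u v z| ≤ Real.sqrt (2 ^ D * ∑ z, (hvK D (K + 1) ρ u v z) ^ 2) := by
      apply Real.le_sqrt_of_sq_le
      have h3 := Finset.sum_mul_sq_le_sq_mul_sq (Finset.univ : Finset (Fin D → Bool))
        (fun _ => (1 : ℝ)) (fun z => |hvK D (K + 1) ρ u v z|)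
      simp only [one_mul, one_pow, Finset.sum_const, nsmul_eq_mul, mul_one, Finset.card_univ, sq_abs] at h3
      rw [card_cubeR] at h3
      exact h3
    have g0 := GK_nonneg r0 k0 D K ρ.1 u
    have g1 := GK_le_one r0 k0 D K ρ.1 u
    set S := ∑ z, |hvK D (K + 1) ρ u v z| with hS
    calc S = GK r0 k0 D K ρ.1 u * S + (1 - GK r0 k0 D K ρ.1 u) * S := by ring
      _ ≤ GK r0 k0 D K ρ.1 u * Real.sqrt (2 ^ D * ∑ z, (hvK D (K + 1) ρ u v z) ^ 2)
          + (1 - GK r0 k0 D K ρ.1 u) * 2 :=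
          add_le_add (mul_le_mul_of_nonneg_left h2 g0) (mul_le_mul_of_nonneg_left h1 (by linarith))
      _ = _ := by ring
  refine (av_mono hpt).trans ?_
  rw [av_add, av_mul_left]
  apply add_le_add
  · -- Jensen
    apply Real.le_sqrt_of_sq_le
    refine (av_sq_le (α := RK D (K + 1)) _).trans ?_
    have h1 : ∀ ρ : RK D (K + 1), (GK r0 k0 D K ρ.1 u
        * Real.sqrt (2 ^ D * ∑ z, (hvK D (K + 1) ρ u v z) ^ 2)) ^ 2
        ≤ 2 ^ D * (GK r0 k0 D K ρ.1 u * ∑ z, (hvK D (K + 1) ρ u v z) ^ 2) := by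
      intro ρ
      have g0 := GK_nonneg r0 k0 D K ρ.1 u
      have g1 := GK_le_one r0 k0 D K ρ.1 u
      have hE : 0 ≤ ∑ z, (hvK D (K + 1) ρ u v z) ^ 2 := Finset.sum_nonneg (fun z _ => sq_nonneg _)
      rw [mul_pow, Real.sq_sqrt (by positivity)]
      have : (GK r0 k0 D K ρ.1 u) ^ 2 ≤ GK r0 k0 D K ρ.1 u := by nlinarith
      calc _ ≤ GK r0 k0 D K ρ.1 u * (2 ^ D * ∑ z, (hvK D (K + 1) ρ u v z) ^ 2) :=
            mul_le_mul_of_nonneg_right this (by positivity)
        _ = _ := by ring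
    refine (av_mono h1).trans ?_
    rw [av_mul_left]
    exact mul_le_mul_of_nonneg_left hen (by positivity)
  · apply le_of_eq
    congr 1
    rw [av_RK_succ]
    congr 1
    funext ρ
    exact av_const (α := Om D) (1 - GK r0 k0 D K ρ u)

end Crest.Agent.ThS
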