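import Crest.Agent.ThA5

/-! Random injections: product inequality and densities of the hidden set. -/

set_option autoImplicit false
set_option linter.unusedSectionVars false
set_option linter.unusedVariables false

namespace Crest.Agent.ThS

open Finset

section Emb

variable {Ω : Type} [Fintype Ω] [DecidableEq Ω]


/-- forget the point number `0` -/
def tl {q : ℕ} (x : Fin (q + 1) ↪ Ω) : Fin q ↪ Ω := (Equiv.embeddingFinSucc q Ω x).1

@[simp] theorem tl_apply {q : ℕ} (x : Fin (q + 1) ↪ Ω) (i : Fin q) : tl x i = x i.succ := rfl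

/-- real indicator of not being in the range -/
noncomputable def nr {q : ℕ} (x : Fin q ↪ Ω) (t : Ω) : ℝ :=
  open Classical in if t ∈ Set.range x then 0 else 1

theorem sum_emb_succ {q : ℕ} (G : (Fin q ↪ Ω) → Ω → ℝ) :
    ∑ x : Fin (q + 1) ↪ Ω, G (tl x) (x 0) = ∑ x' : Fin q ↪ Ω, ∑ t, nr x' t * G x' t := by
  classical
  have h1 : ∑ x : Fin (q + 1) ↪ Ω, G (tl x) (x 0)
      = ∑ s : (Σ (e : Fin q ↪ Ω), {i // i ∉ Set.range e}), G s.1 s.2.1 := by
    rw [← Equiv.sum_comp (Equiv.embeddingFinSucc q Ω)]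
    rfl
  rw [h1, Fintype.sum_sigma]
  apply Finset.sum_congr rfl
  intro x' _
  have h2 : ∑ t, nr x' t * G x' t = ∑ t ∈ Finset.univ.filter (fun t => t ∉ Set.range x'), G x' t := by
    rw [Finset.sum_filter]
    apply Finset.sum_congr rfl
    intro t _
    unfold nr
    by_cases h : t ∈ Set.range x'
    · rw [if_pos h, if_neg (not_not.mpr h), zero_mul]
    · rw [if_neg h, if_pos h, one_mul]
  rw [h2]
  rw [Finset.sum_subtype (Finset.univ.filter (fun t => t ∉ Set.range x')) (p := fun t => t ∉ Set.range x')]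
  intro t
  simp

theorem sum_nr {q : ℕ} (x : Fin q ↪ Ω) : ∑ t, nr x t = (Fintype.card Ω : ℝ) - q := by
  classical
  have h1 : ∀ t, nr x t = 1 - (if t ∈ Finset.univ.map x then (1 : ℝ) else 0) := by
    intro t
    unfold nr
    by_cases h : t ∈ Set.range x
    · have : t ∈ Finset.univ.map x := by
        obtain ⟨i, hi⟩ := h
        rw [Finset.mem_map]; exact ⟨i, Finset.mem_univ _, hi⟩
      rw [if_pos h, if_pos this]; ring
    · have : t ∉ Finset.univ.map x := by
        intro h'
        rw [Finset.mem_map] at h'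
        obtain ⟨i, _, hi⟩ := h'
        exact h ⟨i, hi⟩
      rw [if_neg h, if_neg this]; ring
  simp_rw [h1]
  rw [Finset.sum_sub_distrib, Finset.sum_ite_mem, Finset.univ_inter]
  simp

theorem sum_nr_mul {q : ℕ} (x : Fin q ↪ Ω) (φ : Ω → ℝ) :
    ∑ t, nr x t * φ t = ∑ t, φ t - ∑ i, φ (x i) := by
  classical
  have h1 : ∀ t, nr x t * φ t = φ t - (if t ∈ Finset.univ.map x then φ t else 0) := by
    intro t
    unfold nr
    by_cases h : t ∈ Set.range x
    · have : t ∈ Finset.univ.map x := by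
        obtain ⟨i, hi⟩ := h
        rw [Finset.mem_map]; exact ⟨i, Finset.mem_univ _, hi⟩
      rw [if_pos h, if_pos this]; ring
    · have : t ∉ Finset.univ.map x := by
        intro h'
        rw [Finset.mem_map] at h'
        obtain ⟨i, _, hi⟩ := h'
        exact h ⟨i, hi⟩
      rw [if_neg h, if_neg this]; ring
  simp_rw [h1]
  rw [Finset.sum_sub_distrib, Finset.sum_ite_mem, Finset.univ_inter, Finset.sum_map]

theorem nr_nonneg {q : ℕ} (x : Fin q ↪ Ω) (t : Ω) : 0 ≤ nr x t := by
  unfold nr; split_ifs <;> norm_num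

theorem nr_le_one {q : ℕ} (x : Fin q ↪ Ω) (t : Ω) : nr x t ≤ 1 := by
  unfold nr; split_ifs <;> norm_num

/-- sum over `x` of a function of the tail -/
theorem sum_tl {q : ℕ} (F : (Fin q ↪ Ω) → ℝ) :
    ∑ x : Fin (q + 1) ↪ Ω, F (tl x) = ((Fintype.card Ω : ℝ) - q) * ∑ x' : Fin q ↪ Ω, F x' := by
  have h := sum_emb_succ (fun (x' : Fin q ↪ Ω) (_ : Ω) => F x')
  rw [h, Finset.mul_sum]
  apply Finset.sum_congr rfl
  intro x' _
  rw [← Finset.sum_mul, sum_nr]

theorem card_emb_succ {q : ℕ} :
    (Fintype.card (Fin (q + 1) ↪ Ω) : ℝ) = ((Fintype.card Ω : ℝ) - q) * (Fintype.card (Fin q ↪ Ω) : ℝ) := by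
  have h := sum_tl (Ω := Ω) (q := q) (fun _ => (1 : ℝ))
  simpa using h

theorem prod_step {q : ℕ} (φ : Ω → ℝ) (hφ : ∀ z, 0 ≤ φ z) :
    (Fintype.card Ω : ℝ) * ∑ x : Fin (q + 1) ↪ Ω, ∏ i, φ (x i)
      ≤ ((Fintype.card Ω : ℝ) - q) * ((∑ z, φ z) * ∑ x' : Fin q ↪ Ω, ∏ i, φ (x' i)) := by
  classical
  set n : ℝ := (Fintype.card Ω : ℝ) with hn
  set T := ∑ z, φ z with hT
  set S1 := ∑ x : Fin (q + 1) ↪ Ω, ∏ i, φ (x i) with hS1
  set S0 := ∑ x' : Fin q ↪ Ω, ∏ i, φ (x' i) with hS0
  have e1 : S1 = T * S0 - ∑ x' : Fin q ↪ Ω, (∏ i, φ (x' i)) * ∑ i, φ (x' i) := by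
    have h := sum_emb_succ (fun (x' : Fin q ↪ Ω) (t : Ω) => (∏ i, φ (x' i)) * φ t)
    have h' : S1 = ∑ x : Fin (q + 1) ↪ Ω, (∏ i, φ (tl x i)) * φ (x 0) := by
      rw [hS1]
      apply Finset.sum_congr rfl
      intro x _
      rw [Fin.prod_univ_succ, mul_comm]
      rfl
    rw [h', h, hS0, Finset.mul_sum, ← Finset.sum_sub_distrib]
    apply Finset.sum_congr rfl
    intro x' _
    have : ∀ t, nr x' t * ((∏ i, φ (x' i)) * φ t) = (∏ i, φ (x' i)) * (nr x' t * φ t) := by
      intro t; ring
    simp_rw [this]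
    rw [← Finset.mul_sum, sum_nr_mul]
    ring
  -- each coordinate
  have e2 : ∀ i : Fin q, S1 ≤ (n - q) * ∑ x' : Fin q ↪ Ω, (∏ j, φ (x' j)) * φ (x' i) := by
    intro i
    have h := sum_tl (fun x' : Fin q ↪ Ω => (∏ j, φ (x' j)) * φ (x' i))
    rw [← hn] at h
    rw [← h]
    -- `R x = ∏_{j ≠ i} φ (x j.succ)`
    set R : (Fin (q + 1) ↪ Ω) → ℝ := fun x => ∏ j ∈ Finset.univ.erase i, φ (x j.succ) with hR
    have hRn : ∀ x, 0 ≤ R x := fun x => Finset.prod_nonneg (fun j _ => hφ _)
    have f1 : ∀ x : Fin (q + 1) ↪ Ω, (∏ j, φ (tl x j)) * φ (tl x i) = R x * φ (x i.succ) ^ 2 := by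
      intro x
      rw [← Finset.mul_prod_erase Finset.univ (fun j => φ (tl x j)) (Finset.mem_univ i)]
      simp only [tl_apply]
      rw [hR]; ring
    have f2 : ∀ x : Fin (q + 1) ↪ Ω, ∏ j, φ (x j) = R x * (φ (x i.succ) * φ (x 0)) := by
      intro x
      rw [Fin.prod_univ_succ, ← Finset.mul_prod_erase Finset.univ (fun j => φ (x (Fin.succ j))) (Finset.mem_univ i)]
      rw [hR]; ring
    -- the swap
    let σ : Equiv.Perm (Fin (q + 1)) := Equiv.swap 0 i.succ
    let E : (Fin (q + 1) ↪ Ω) ≃ (Fin (q + 1) ↪ Ω) := Equiv.embeddingCongr σ (Equiv.refl Ω)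
    have hE : ∀ (x : Fin (q + 1) ↪ Ω) (j : Fin (q + 1)), E x j = x (σ.symm j) := fun x j => rfl
    have hσ : σ.symm = σ := Equiv.symm_swap _ _
    have f3 : ∑ x : Fin (q + 1) ↪ Ω, R x * φ (x i.succ) ^ 2 = ∑ x : Fin (q + 1) ↪ Ω, R x * φ (x 0) ^ 2 := by
      rw [← Equiv.sum_comp E]
      apply Finset.sum_congr rfl
      intro x _
      have g1 : R (E x) = R x := by
        rw [hR]
        apply Finset.prod_congr rfl
        intro j hj
        have hji : j ≠ i := Finset.ne_of_mem_erase hj
        rw [hE, hσ]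
        show φ (x (Equiv.swap 0 i.succ j.succ)) = φ (x j.succ)
        rw [Equiv.swap_apply_of_ne_of_ne (Fin.succ_ne_zero j) (fun h => hji (Fin.succ_injective _ h))]
      have g2 : E x i.succ = x 0 := by
        rw [hE, hσ]
        show x (Equiv.swap 0 i.succ i.succ) = x 0
        rw [Equiv.swap_apply_right]
      rw [g1, g2]
    rw [hS1]
    simp_rw [f1, f2]
    have f4 : ∑ x : Fin (q + 1) ↪ Ω, R x * φ (x i.succ) ^ 2
        = (∑ x : Fin (q + 1) ↪ Ω, R x * (φ (x i.succ) ^ 2 + φ (x 0) ^ 2)) / 2 := by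
      simp_rw [mul_add]
      rw [Finset.sum_add_distrib, ← f3]; ring
    rw [f4, Finset.sum_div]
    apply Finset.sum_le_sum
    intro x _
    have := mul_nonneg (hRn x) (sq_nonneg (φ (x i.succ) - φ (x 0)))
    nlinarith
  have e3 : (q : ℝ) * S1 ≤ (n - q) * ∑ x' : Fin q ↪ Ω, (∏ i, φ (x' i)) * ∑ i, φ (x' i) := by
    have h1 : ∑ _i : Fin q, S1 ≤ ∑ i : Fin q, (n - q) * ∑ x' : Fin q ↪ Ω, (∏ j, φ (x' j)) * φ (x' i) :=
      Finset.sum_le_sum (fun i _ => e2 i)
    rw [Finset.sum_const, Finset.card_univ, Fintype.card_fin, nsmul_eq_mul] at h1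
    refine h1.trans (le_of_eq ?_)
    rw [← Finset.mul_sum, Finset.sum_comm]
    congr 1
    apply Finset.sum_congr rfl
    intro x' _
    rw [Finset.mul_sum]
  have e4 : (n - q) * S1 = (n - q) * (T * S0) - (n - q) * ∑ x' : Fin q ↪ Ω, (∏ i, φ (x' i)) * ∑ i, φ (x' i) := by
    rw [e1]; ring
  linarith

theorem emb_prod_le (φ : Ω → ℝ) (hφ : ∀ z, 0 ≤ φ z) (hn : 0 < Fintype.card Ω) :
    ∀ q : ℕ, av (fun x : Fin q ↪ Ω => ∏ i, φ (x i)) ≤ ((∑ z, φ z) / (Fintype.card Ω : ℝ)) ^ q
  | 0 => by
      unfold av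
      simp
  | q + 1 => by
      have IH := emb_prod_le φ hφ hn q
      have hS : 0 ≤ ∑ z, φ z := Finset.sum_nonneg (fun z _ => hφ z)
      have hn' : (0 : ℝ) < Fintype.card Ω := by exact_mod_cast hn
      have hst := prod_step (q := q) φ hφ
      by_cases hq : q < Fintype.card Ω
      · have hq' : (0 : ℝ) < (Fintype.card Ω : ℝ) - q := by
          have : (q : ℝ) < Fintype.card Ω := by exact_mod_cast hq
          linarith
        have hN : (0 : ℝ) < (Fintype.card (Fin q ↪ Ω) : ℝ) := by
          have : 0 < Fintype.card (Fin q ↪ Ω) := by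
            rw [Fintype.card_embedding_eq, Fintype.card_fin]
            exact Nat.descFactorial_pos.mpr hq.le
          exact_mod_cast this
        have h1 : av (fun x : Fin (q + 1) ↪ Ω => ∏ i, φ (x i))
            ≤ ((∑ z, φ z) / (Fintype.card Ω : ℝ)) * av (fun x : Fin q ↪ Ω => ∏ i, φ (x i)) := by
          unfold av
          rw [card_emb_succ]
          rw [div_le_iff₀ (mul_pos hq' hN)]
          have : (∑ z, φ z) / (Fintype.card Ω : ℝ)
              * ((∑ x : Fin q ↪ Ω, ∏ i, φ (x i)) / (Fintype.card (Fin q ↪ Ω) : ℝ))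
              * (((Fintype.card Ω : ℝ) - q) * (Fintype.card (Fin q ↪ Ω) : ℝ))
              = (((Fintype.card Ω : ℝ) - q) * ((∑ z, φ z) * ∑ x' : Fin q ↪ Ω, ∏ i, φ (x' i)))
                / (Fintype.card Ω : ℝ) := by
            field_simp
          rw [this, le_div_iff₀ hn']
          linarith
        refine h1.trans ?_
        rw [pow_succ, mul_comm]
        exact mul_le_mul_of_nonneg_right IH (div_nonneg hS hn'.le)
      · -- no embeddings
        have : IsEmpty (Fin (q + 1) ↪ Ω) := by
          rw [← Fintype.card_eq_zero_iff, Fintype.card_embedding_eq, Fintype.card_fin]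
          exact Nat.descFactorial_eq_zero_iff_lt.mpr (by omega)
        have h0 : av (fun x : Fin (q + 1) ↪ Ω => ∏ i, φ (x i)) = 0 := by
          unfold av
          rw [Finset.univ_eq_empty, Finset.sum_empty, zero_div]
        rw [h0]
        exact pow_nonneg (div_nonneg hS hn'.le) _

/-- hidden set of an injection -/
noncomputable def hid {q : ℕ} (x : Fin q ↪ Ω) : Ω → Bool :=
  open Classical in fun z => decide (z ∉ Set.range x)

theorem hid_eq_true {q : ℕ} (x : Fin q ↪ Ω) (z : Ω) : hid x z = true ↔ z ∉ Set.range x := by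
  unfold hid; simp

theorem hid_eq_false {q : ℕ} (x : Fin q ↪ Ω) (z : Ω) : hid x z = false ↔ z ∈ Set.range x := by
  unfold hid; simp

/-- low density -/
noncomputable def lowb (k0 : ℝ) {d : ℕ} (u : (Fin d → Bool) → Bool) : ℝ :=
  open Classical in if rho u < k0 then 1 else 0

theorem low_density (d q : ℕ) (ι : (Fin d → Bool) → Ω) (hι : Function.Injective ι)
    (hn : 0 < Fintype.card Ω) (hq : (q : ℝ) ≤ 5 / 8 * (Fintype.card Ω : ℝ)) :
    av (fun x : Fin q ↪ Ω => lowb (9 / 25) (fun y => hid x (ι y))) ≤ Real.exp (-(2 ^ d / 12500)) := by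
  classical
  have hn' : (0 : ℝ) < Fintype.card Ω := by exact_mod_cast hn
  set φ : Ω → ℝ := fun z => if z ∈ Set.range ι then Real.exp (1 / 100) else 1 with hφ
  have hφ0 : ∀ z, 0 ≤ φ z := by
    intro z
    simp only [hφ]
    split_ifs
    · exact (Real.exp_pos _).le
    · norm_num
  have hexp : Real.exp (1 / 100) - 1 ≤ 101 / 10000 := by
    have h := Real.abs_exp_sub_one_sub_id_le (x := 1 / 100) (by rw [abs_of_pos] <;> norm_num)
    have h2 := (abs_le.mp h).2
    norm_num at h2 ⊢
    linarith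
  have hsum : ∑ z, φ z = (Fintype.card Ω : ℝ) + (Real.exp (1 / 100) - 1) * 2 ^ d := by
    have h1 : ∀ z, φ z = 1 + (Real.exp (1 / 100) - 1) * (if z ∈ Finset.univ.image ι then 1 else 0) := by
      intro z
      simp only [hφ]
      by_cases h : z ∈ Set.range ι
      · have : z ∈ Finset.univ.image ι := by
          obtain ⟨y, hy⟩ := h
          rw [Finset.mem_image]; exact ⟨y, Finset.mem_univ _, hy⟩
        rw [if_pos h, if_pos this]; ring
      · have : z ∉ Finset.univ.image ι := by
          intro h'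
          rw [Finset.mem_image] at h'
          obtain ⟨y, _, hy⟩ := h'
          exact h ⟨y, hy⟩
        rw [if_neg h, if_neg this]; ring
    simp_rw [h1]
    rw [Finset.sum_add_distrib, ← Finset.mul_sum, Finset.sum_ite_mem, Finset.univ_inter,
      Finset.sum_const, Finset.sum_const, Finset.card_image_of_injective _ hι, Finset.card_univ,
      Finset.card_univ]
    simp
  have hpt : ∀ x : Fin q ↪ Ω, lowb (9 / 25) (fun y => hid x (ι y))
      ≤ Real.exp (-(16 / 2500 * 2 ^ d)) * ∏ i, φ (x i) := by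
    intro x
    have hP : 0 ≤ ∏ i, φ (x i) := Finset.prod_nonneg (fun i _ => hφ0 _)
    unfold lowb
    by_cases hlow : rho (fun y => hid x (ι y)) < 9 / 25
    · rw [if_pos hlow]
      -- count
      set Y := Finset.univ.filter (fun y : Fin d → Bool => ι y ∈ Set.range x) with hY
      set I := Finset.univ.filter (fun i : Fin q => x i ∈ Set.range ι) with hI
      have hcard : Y.card ≤ I.card := by
        have hsub : Y.image ι ⊆ I.image x := by
          intro z hz
          rw [Finset.mem_image] at hz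
          obtain ⟨y, hy, rfl⟩ := hz
          obtain ⟨i, hi⟩ := (Finset.mem_filter.mp hy).2
          rw [Finset.mem_image]
          refine ⟨i, ?_, hi⟩
          rw [hI, Finset.mem_filter]
          exact ⟨Finset.mem_univ _, ⟨y, hi.symm⟩⟩
        have h1 := Finset.card_le_card hsub
        rw [Finset.card_image_of_injective _ hι] at h1
        exact h1.trans Finset.card_image_le
      have htot : tot (ind (fun y => hid x (ι y))) = 2 ^ d - (Y.card : ℝ) := by
        unfold tot ind
        have h1 : ∀ y : Fin d → Bool, (if hid x (ι y) = true then (1 : ℝ) else 0)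
            = 1 - (if y ∈ Y then 1 else 0) := by
          intro y
          by_cases h : ι y ∈ Set.range x
          · have h2 : hid x (ι y) = false := (hid_eq_false x _).mpr h
            have h3 : y ∈ Y := by rw [hY, Finset.mem_filter]; exact ⟨Finset.mem_univ _, h⟩
            rw [h2, if_pos h3]; simp
          · have h2 : hid x (ι y) = true := (hid_eq_true x _).mpr h
            have h3 : y ∉ Y := by
              rw [hY, Finset.mem_filter]
              intro h4; exact h h4.2
            rw [if_pos h2, if_neg h3]; ring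
        simp_rw [h1]
        rw [Finset.sum_sub_distrib, Finset.sum_ite_mem, Finset.univ_inter]
        simp
      have hYl : 16 / 25 * (2 : ℝ) ^ d ≤ (Y.card : ℝ) := by
        unfold rho at hlow
        rw [htot, div_lt_iff₀ (by positivity)] at hlow
        linarith
      have hprod : ∏ i, φ (x i) = Real.exp (1 / 100 * (I.card : ℝ)) := by
        simp only [hφ]
        rw [Finset.prod_ite, Finset.prod_const, Finset.prod_const_one, mul_one, ← Real.exp_nat_mul]
        congr 1
        rw [hI]; ring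
      rw [hprod, ← Real.exp_add]
      apply Real.one_le_exp
      have : (Y.card : ℝ) ≤ (I.card : ℝ) := by exact_mod_cast hcard
      linarith
    · rw [if_neg hlow]
      exact mul_nonneg (Real.exp_pos _).le hP
  refine (av_mono hpt).trans ?_
  rw [av_mul_left]
  have h1 := emb_prod_le φ hφ0 hn q
  have h2 : ((∑ z, φ z) / (Fintype.card Ω : ℝ)) ^ q ≤ Real.exp (101 / 16000 * 2 ^ d) := by
    rw [hsum, add_div, div_self hn'.ne']
    have h3 : 1 + (Real.exp (1 / 100) - 1) * 2 ^ d / (Fintype.card Ω : ℝ)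
        ≤ Real.exp (101 / 10000 * 2 ^ d / (Fintype.card Ω : ℝ)) := by
      have h4 : (Real.exp (1 / 100) - 1) * 2 ^ d / (Fintype.card Ω : ℝ)
          ≤ 101 / 10000 * 2 ^ d / (Fintype.card Ω : ℝ) := by
        apply div_le_div_of_nonneg_right _ hn'.le
        exact mul_le_mul_of_nonneg_right hexp (by positivity)
      have h5 := Real.add_one_le_exp (101 / 10000 * 2 ^ d / (Fintype.card Ω : ℝ))
      linarith
    have h6 : 0 ≤ 1 + (Real.exp (1 / 100) - 1) * 2 ^ d / (Fintype.card Ω : ℝ) := by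
      have h7 : 0 ≤ Real.exp (1 / 100) - 1 := by
        have := Real.add_one_le_exp (1 / 100 : ℝ)
        linarith
      positivity
    calc _ ≤ (Real.exp (101 / 10000 * 2 ^ d / (Fintype.card Ω : ℝ))) ^ q :=
          pow_le_pow_left₀ h6 h3 q
      _ = Real.exp (q * (101 / 10000 * 2 ^ d / (Fintype.card Ω : ℝ))) := by
          rw [← Real.exp_nat_mul]
      _ ≤ Real.exp (101 / 16000 * 2 ^ d) := by
          apply Real.exp_le_exp.mpr
          have h8 : (q : ℝ) * (101 / 10000 * 2 ^ d / (Fintype.card Ω : ℝ))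
              = (q / (Fintype.card Ω : ℝ)) * (101 / 10000 * 2 ^ d) := by ring
          rw [h8]
          have h9 : (q : ℝ) / (Fintype.card Ω : ℝ) ≤ 5 / 8 := by
            rw [div_le_iff₀ hn']; exact hq
          calc _ ≤ 5 / 8 * (101 / 10000 * 2 ^ d) := mul_le_mul_of_nonneg_right h9 (by positivity)
            _ = _ := by ring
  calc _ ≤ Real.exp (-(16 / 2500 * 2 ^ d)) * Real.exp (101 / 16000 * 2 ^ d) :=
        mul_le_mul_of_nonneg_left (h1.trans h2) (Real.exp_pos _).le
    _ = Real.exp (-(16 / 2500 * 2 ^ d) + 101 / 16000 * 2 ^ d) := by rw [Real.exp_add]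
    _ ≤ _ := by
        apply Real.exp_le_exp.mpr
        have : (0 : ℝ) < 2 ^ d := by positivity
        nlinarith

/-- badness functional -/
noncomputable def bc (r0 : ℕ) (k0 : ℝ) : (D : ℕ) → ((Fin D → Bool) → Bool) → ℝ
  | 0, _ => 0
  | D + 1, u => bc r0 k0 D (half false u) + bc r0 k0 D (half true u)
      + (if r0 ≤ D then lowb k0 (half false u) + lowb k0 (half true u) else 0)

theorem lowb_nonneg (k0 : ℝ) {d : ℕ} (u : (Fin d → Bool) → Bool) : 0 ≤ lowb k0 u := by
  unfold lowb; split_ifs <;> norm_num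

theorem bc_nonneg (r0 : ℕ) (k0 : ℝ) : ∀ (D : ℕ) (u : (Fin D → Bool) → Bool), 0 ≤ bc r0 k0 D u
  | 0, _ => le_refl _
  | D + 1, u => by
      unfold bc
      have h0 := bc_nonneg r0 k0 D (half false u)
      have h1 := bc_nonneg r0 k0 D (half true u)
      have l0 := lowb_nonneg k0 (half false u)
      have l1 := lowb_nonneg k0 (half true u)
      split_ifs <;> linarith

theorem dens_of_bc (r0 : ℕ) (k0 : ℝ) : ∀ (D : ℕ) (u : (Fin D → Bool) → Bool), bc r0 k0 D u < 1 →
    Dens r0 k0 D u
  | 0, _, _ => trivial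
  | D + 1, u, h => by
      unfold bc at h
      have h0 := bc_nonneg r0 k0 D (half false u)
      have h1 := bc_nonneg r0 k0 D (half true u)
      have l0 := lowb_nonneg k0 (half false u)
      have l1 := lowb_nonneg k0 (half true u)
      have h2 : (0 : ℝ) ≤ (if r0 ≤ D then lowb k0 (half false u) + lowb k0 (half true u) else 0) := by
        split_ifs <;> linarith
      refine ⟨dens_of_bc r0 k0 D _ (by linarith), dens_of_bc r0 k0 D _ (by linarith), ?_⟩
      intro hr
      rw [if_pos hr] at h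
      constructor
      · by_contra hc
        have : lowb k0 (half false u) = 1 := by
          unfold lowb; rw [if_pos (not_le.mp hc)]
        linarith
      · by_contra hc
        have : lowb k0 (half true u) = 1 := by
          unfold lowb; rw [if_pos (not_le.mp hc)]
        linarith

theorem one_sub_dn_le (r0 : ℕ) (k0 : ℝ) (D : ℕ) (u : (Fin D → Bool) → Bool) :
    1 - dn r0 k0 u ≤ bc r0 k0 D u := by
  by_cases h : bc r0 k0 D u < 1
  · have : dn r0 k0 u = 1 := by
      unfold dn; rw [if_pos (dens_of_bc r0 k0 D u h)]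
    rw [this]
    have := bc_nonneg r0 k0 D u
    linarith
  · have := dn_nonneg r0 k0 u
    linarith

theorem cns_inj_comp {D : ℕ} (ι : (Fin (D + 1) → Bool) → Ω) (hι : Function.Injective ι) (b : Bool) :
    Function.Injective (fun y : Fin D → Bool => ι (cns b y)) := by
  intro y y' h
  exact (cns_inj (hι h)).2

theorem av_bc_le (r0 q : ℕ) (hn : 0 < Fintype.card Ω) (hq : (q : ℝ) ≤ 5 / 8 * (Fintype.card Ω : ℝ)) :
    ∀ (D : ℕ) (ι : (Fin D → Bool) → Ω), Function.Injective ι →
      av (fun x : Fin q ↪ Ω => bc r0 (9 / 25) D (fun y => hid x (ι y)))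
        ≤ (2 * 2 ^ D - 2) * Real.exp (-(2 ^ r0 / 12500))
  | 0, ι, hι => by
      have : (fun x : Fin q ↪ Ω => bc r0 (9 / 25) 0 (fun y => hid x (ι y))) = fun _ => (0 : ℝ) := rfl
      rw [this]
      unfold av
      simp
  | D + 1, ι, hι => by
      have I0 := av_bc_le r0 q hn hq D (fun y => ι (cns false y)) (cns_inj_comp ι hι false)
      have I1 := av_bc_le r0 q hn hq D (fun y => ι (cns true y)) (cns_inj_comp ι hι true)
      have e : (fun x : Fin q ↪ Ω => bc r0 (9 / 25) (D + 1) (fun y => hid x (ι y)))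
          = fun x => (bc r0 (9 / 25) D (fun y => hid x (ι (cns false y)))
            + bc r0 (9 / 25) D (fun y => hid x (ι (cns true y))))
            + (if r0 ≤ D then lowb (9 / 25) (fun y => hid x (ι (cns false y)))
              + lowb (9 / 25) (fun y => hid x (ι (cns true y))) else 0) := rfl
      rw [e, av_add, av_add]
      have h3 : av (fun x : Fin q ↪ Ω => (if r0 ≤ D then lowb (9 / 25) (fun y => hid x (ι (cns false y)))
              + lowb (9 / 25) (fun y => hid x (ι (cns true y))) else 0))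
          ≤ 2 * Real.exp (-(2 ^ r0 / 12500)) := by
        by_cases hr : r0 ≤ D
        · simp only [if_pos hr]
          rw [av_add]
          have L0 := low_density D q (fun y => ι (cns false y)) (cns_inj_comp ι hι false) hn hq
          have L1 := low_density D q (fun y => ι (cns true y)) (cns_inj_comp ι hι true) hn hq
          have L2 : Real.exp (-(2 ^ D / 12500)) ≤ Real.exp (-(2 ^ r0 / 12500)) := by
            apply Real.exp_le_exp.mpr
            have : (2 : ℝ) ^ r0 ≤ 2 ^ D := pow_le_pow_right₀ (by norm_num) hr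
            linarith
          linarith
        · simp only [if_neg hr]
          have : av (fun _ : Fin q ↪ Ω => (0 : ℝ)) = 0 := by unfold av; simp
          rw [this]
          positivity
      calc _ ≤ (2 * 2 ^ D - 2) * Real.exp (-(2 ^ r0 / 12500)) + (2 * 2 ^ D - 2) * Real.exp (-(2 ^ r0 / 12500))
          + 2 * Real.exp (-(2 ^ r0 / 12500)) := by linarith
        _ = _ := by rw [pow_succ]; ring

end Emb

end Crest.Agent.ThS
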