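import Crest.Agent.ThA6
import Crest.Agent.ThQDef

/-! Chain rule for the positions of the tracked wires. -/

set_option autoImplicit false
set_option linter.unusedSectionVars false
set_option linter.unusedVariables false

namespace Crest.Agent.ThS

open Finset

variable {D : ℕ}

/-- transition probability of the tracked wires under `K` passes -/
noncomputable def Pr (K : ℕ) {q : ℕ} (x z : Fin q ↪ (Fin D → Bool)) : ℝ :=
  av (fun ρ : RK D K => if act (pmK D K ρ) x = z then (1 : ℝ) else 0)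

theorem tl_act {q : ℕ} (g : Equiv.Perm (Fin D → Bool)) (x : Fin (q + 1) ↪ (Fin D → Bool)) :
    tl (act g x) = act g (tl x) := by
  ext i; rfl

theorem emb_ext_succ {q : ℕ} (x z : Fin (q + 1) ↪ (Fin D → Bool)) :
    x = z ↔ tl x = tl z ∧ x 0 = z 0 := by
  constructor
  · intro h; subst h; exact ⟨rfl, rfl⟩
  · rintro ⟨h1, h2⟩
    apply Function.Embedding.ext
    intro i
    refine Fin.cases h2 (fun j => ?_) i
    have := congrArg (fun w : Fin q ↪ (Fin D → Bool) => w j) h1
    exact this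

theorem ind_hid {q : ℕ} (x : Fin q ↪ (Fin D → Bool)) (t : Fin D → Bool) : ind (hid x) t = nr x t := by
  unfold ind nr
  by_cases h : t ∈ Set.range x
  · have : hid x t = false := (hid_eq_false x t).mpr h
    rw [this, if_pos h]; simp
  · have : hid x t = true := (hid_eq_true x t).mpr h
    rw [if_pos this, if_neg h]

/-- the deviation function -/
noncomputable def dev {q : ℕ} (x : Fin (q + 1) ↪ (Fin D → Bool)) : (Fin D → Bool) → ℝ :=
  fun t => pt (x 0) t - ind (hid (tl x)) t / ((Fintype.card (Fin D → Bool) : ℝ) - q)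

theorem x0_not_range {q : ℕ} (x : Fin (q + 1) ↪ (Fin D → Bool)) : x 0 ∉ Set.range (tl x) := by
  rintro ⟨i, hi⟩
  have : x i.succ = x 0 := hi
  exact Fin.succ_ne_zero i (x.injective this)

theorem hid_x0 {q : ℕ} (x : Fin (q + 1) ↪ (Fin D → Bool)) : hid (tl x) (x 0) = true :=
  (hid_eq_true _ _).mpr (x0_not_range x)

theorem dev_spt {q : ℕ} (x : Fin (q + 1) ↪ (Fin D → Bool)) : Spt (hid (tl x)) (dev x) := by
  intro t ht
  unfold dev pt
  have h1 : t ≠ x 0 := by
    intro h
    rw [h, hid_x0] at ht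
    exact absurd ht (by simp)
  rw [if_neg h1]
  unfold ind
  rw [ht]; simp

theorem dev_tot {q : ℕ} (x : Fin (q + 1) ↪ (Fin D → Bool))
    (hq : (0 : ℝ) < (Fintype.card (Fin D → Bool) : ℝ) - q) : tot (dev x) = 0 := by
  unfold tot dev
  rw [Finset.sum_sub_distrib, ← Finset.sum_div]
  simp_rw [ind_hid]
  rw [sum_nr, div_self hq.ne']
  unfold pt
  simp

theorem dev_l1 {q : ℕ} (x : Fin (q + 1) ↪ (Fin D → Bool))
    (hq : (0 : ℝ) < (Fintype.card (Fin D → Bool) : ℝ) - q) : ∑ z, |dev x z| ≤ 2 := by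
  have h1 : ∀ t, |dev x t| ≤ pt (x 0) t + nr (tl x) t / ((Fintype.card (Fin D → Bool) : ℝ) - q) := by
    intro t
    unfold dev
    rw [ind_hid]
    have p0 : 0 ≤ pt (x 0) t := by unfold pt; split_ifs <;> norm_num
    have p1 : 0 ≤ nr (tl x) t / ((Fintype.card (Fin D → Bool) : ℝ) - q) :=
      div_nonneg (nr_nonneg _ _) hq.le
    rw [abs_le]
    constructor <;> linarith
  calc _ ≤ ∑ t, (pt (x 0) t + nr (tl x) t / ((Fintype.card (Fin D → Bool) : ℝ) - q)) :=
        Finset.sum_le_sum (fun t _ => h1 t)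
    _ = 2 := by
        rw [Finset.sum_add_distrib, ← Finset.sum_div, sum_nr, div_self hq.ne']
        unfold pt
        simp
        norm_num

theorem dev_l2 {q : ℕ} (x : Fin (q + 1) ↪ (Fin D → Bool))
    (hq : (0 : ℝ) < (Fintype.card (Fin D → Bool) : ℝ) - q) : ∑ z, dev x z ^ 2 ≤ 1 := by
  set N : ℝ := (Fintype.card (Fin D → Bool) : ℝ) - q with hN
  have h1 : ∀ t, dev x t ^ 2 = pt (x 0) t - 2 * (pt (x 0) t) / N + nr (tl x) t / N ^ 2 := by
    intro t
    unfold dev
    rw [ind_hid, ← hN]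
    have hn : nr (tl x) t ^ 2 = nr (tl x) t := by unfold nr; split_ifs <;> norm_num
    have hp : pt (x 0) t ^ 2 = pt (x 0) t := by unfold pt; split_ifs <;> norm_num
    have hpn : pt (x 0) t * nr (tl x) t = pt (x 0) t := by
      unfold pt
      by_cases h : t = x 0
      · rw [if_pos h, h]
        unfold nr
        rw [if_neg (x0_not_range x)]; ring
      · rw [if_neg h]; ring
    calc (pt (x 0) t - nr (tl x) t / N) ^ 2
        = pt (x 0) t ^ 2 - 2 * (pt (x 0) t * nr (tl x) t) / N + nr (tl x) t ^ 2 / N ^ 2 := by ring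
      _ = _ := by rw [hn, hp, hpn]
  simp_rw [h1]
  rw [Finset.sum_add_distrib, Finset.sum_sub_distrib, ← Finset.sum_div, ← Finset.sum_div, sum_nr,
    ← Finset.mul_sum, ← hN]
  have h2 : ∑ t, pt (x 0) t = 1 := by unfold pt; simp
  rw [h2]
  have h3 : N / N ^ 2 = 1 / N := by field_simp
  rw [h3]
  have : 0 < 1 / N := by positivity
  have h4 : 2 * 1 / N = 2 * (1 / N) := by ring
  rw [h4]
  linarith

theorem rev_act {q : ℕ} (x w : Fin q ↪ (Fin D → Bool)) :
    Rev (hid x) (fun g : Equiv.Perm (Fin D → Bool) => if act g x = w then (1 : ℝ) else 0) := by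
  intro g g' h
  have : act g x = act g' x := by
    apply Function.Embedding.ext
    intro i
    rw [act_apply, act_apply]
    apply h
    rw [hid_eq_false]
    exact ⟨i, rfl⟩
  show (if act g x = w then (1 : ℝ) else 0) = _
  rw [this]

theorem chain_step (K : ℕ) {q : ℕ} (x : Fin (q + 1) ↪ (Fin D → Bool))
    (hq : (0 : ℝ) < (Fintype.card (Fin D → Bool) : ℝ) - q) :
    ∑ z : Fin (q + 1) ↪ (Fin D → Bool),
      |Pr K x z - Pr K (tl x) (tl z) / ((Fintype.card (Fin D → Bool) : ℝ) - q)|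
      ≤ av (fun ρ : RK D K => ∑ t, |hvK D K ρ (hid (tl x)) (dev x) t|) := by
  set N : ℝ := (Fintype.card (Fin D → Bool) : ℝ) - q with hN
  -- rewrite one term
  have h1 : ∀ z : Fin (q + 1) ↪ (Fin D → Bool), Pr K x z - Pr K (tl x) (tl z) / N
      = av (fun ρ : RK D K => hvK D K ρ (hid (tl x)) (dev x) (z 0)
          * (if act (pmK D K ρ) (tl x) = tl z then (1 : ℝ) else 0)) := by
    intro z
    rw [← cond_K K (hid (tl x)) (dev x) _ (rev_act (tl x) (tl z)) (z 0)]
    unfold Pr
    rw [← av_div, ← av_sub]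
    congr 1
    funext ρ
    by_cases hw : act (pmK D K ρ) (tl x) = tl z
    · rw [if_pos hw, mul_one]
      have h2 : ((pmK D K ρ).symm (z 0)) ∉ Set.range (tl x) := by
        rintro ⟨i, hi⟩
        apply x0_not_range z
        refine ⟨i, ?_⟩
        rw [← hw, act_apply, hi, Equiv.apply_symm_apply]
      have h3 : ind (hid (tl x)) ((pmK D K ρ).symm (z 0)) = 1 := by
        rw [ind_hid]; unfold nr; rw [if_neg h2]
      unfold dev
      rw [h3, ← hN]
      congr 1
      unfold pt
      by_cases h4 : pmK D K ρ (x 0) = z 0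
      · have h5 : act (pmK D K ρ) x = z := by
          rw [emb_ext_succ]
          exact ⟨by rw [tl_act]; exact hw, h4⟩
        have h6 : (pmK D K ρ).symm (z 0) = x 0 := by rw [← h4, Equiv.symm_apply_apply]
        rw [if_pos h5, if_pos h6]
      · have h5 : ¬ act (pmK D K ρ) x = z := by
          intro h
          exact h4 ((emb_ext_succ _ _).mp h).2
        have h6 : ¬ (pmK D K ρ).symm (z 0) = x 0 := by
          intro h
          apply h4
          rw [← h, Equiv.apply_symm_apply]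
        rw [if_neg h5, if_neg h6]
    · rw [if_neg hw, mul_zero]
      have h5 : ¬ act (pmK D K ρ) x = z := by
        intro h
        apply hw
        rw [← tl_act, h]
      rw [if_neg h5]; simp
  -- bound
  have h2 : ∀ z : Fin (q + 1) ↪ (Fin D → Bool), |Pr K x z - Pr K (tl x) (tl z) / N|
      ≤ av (fun ρ : RK D K => |hvK D K ρ (hid (tl x)) (dev x) (z 0)|
          * (if act (pmK D K ρ) (tl x) = tl z then (1 : ℝ) else 0)) := by
    intro z
    rw [h1 z]
    refine (av_abs_le _).trans (le_of_eq ?_)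
    congr 1
    funext ρ
    rw [abs_mul]
    congr 1
    split_ifs <;> simp
  refine (Finset.sum_le_sum (fun z _ => h2 z)).trans ?_
  rw [sum_emb_succ (fun (w : Fin q ↪ (Fin D → Bool)) (t : Fin D → Bool) =>
    av (fun ρ : RK D K => |hvK D K ρ (hid (tl x)) (dev x) t|
          * (if act (pmK D K ρ) (tl x) = w then (1 : ℝ) else 0)))]
  have h3 : ∀ (w : Fin q ↪ (Fin D → Bool)) (t : Fin D → Bool), nr w t *
      av (fun ρ : RK D K => |hvK D K ρ (hid (tl x)) (dev x) t|
          * (if act (pmK D K ρ) (tl x) = w then (1 : ℝ) else 0))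
      ≤ av (fun ρ : RK D K => |hvK D K ρ (hid (tl x)) (dev x) t|
          * (if act (pmK D K ρ) (tl x) = w then (1 : ℝ) else 0)) := by
    intro w t
    have h4 : 0 ≤ av (fun ρ : RK D K => |hvK D K ρ (hid (tl x)) (dev x) t|
          * (if act (pmK D K ρ) (tl x) = w then (1 : ℝ) else 0)) := by
      apply av_nonneg
      intro ρ
      apply mul_nonneg (abs_nonneg _)
      split_ifs <;> norm_num
    exact mul_le_of_le_one_left h4 (nr_le_one _ _)
  refine (Finset.sum_le_sum (fun w _ => Finset.sum_le_sum (fun t _ => h3 w t))).trans ?_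
  apply le_of_eq
  simp_rw [← av_sum]
  congr 1
  funext ρ
  rw [Finset.sum_comm]
  apply Finset.sum_congr rfl
  intro t _
  rw [← Finset.mul_sum]
  simp

/-- averaged deviation -/
noncomputable def Eq (D K q : ℕ) : ℝ :=
  av (fun x : Fin q ↪ (Fin D → Bool) =>
    ∑ z, |Pr K x z - 1 / (Fintype.card (Fin q ↪ (Fin D → Bool)) : ℝ)|)

theorem av_tl {q : ℕ} (F : (Fin q ↪ (Fin D → Bool)) → ℝ)
    (hq : (0 : ℝ) < (Fintype.card (Fin D → Bool) : ℝ) - q) :
    av (fun x : Fin (q + 1) ↪ (Fin D → Bool) => F (tl x)) = av F := by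
  unfold av
  rw [sum_tl, card_emb_succ, mul_div_mul_left _ _ hq.ne']

theorem Eq_succ (K q : ℕ) (hq : (0 : ℝ) < (Fintype.card (Fin D → Bool) : ℝ) - q) :
    Eq D K (q + 1) ≤ Eq D K q
      + av (fun x : Fin (q + 1) ↪ (Fin D → Bool) =>
          av (fun ρ : RK D K => ∑ t, |hvK D K ρ (hid (tl x)) (dev x) t|)) := by
  set N : ℝ := (Fintype.card (Fin D → Bool) : ℝ) - q with hN
  have h1 : ∀ x : Fin (q + 1) ↪ (Fin D → Bool),
      ∑ z, |Pr K x z - 1 / (Fintype.card (Fin (q + 1) ↪ (Fin D → Bool)) : ℝ)|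
      ≤ ∑ w, |Pr K (tl x) w - 1 / (Fintype.card (Fin q ↪ (Fin D → Bool)) : ℝ)|
        + av (fun ρ : RK D K => ∑ t, |hvK D K ρ (hid (tl x)) (dev x) t|) := by
    intro x
    have h2 : ∀ z, |Pr K x z - 1 / (Fintype.card (Fin (q + 1) ↪ (Fin D → Bool)) : ℝ)|
        ≤ |Pr K x z - Pr K (tl x) (tl z) / N|
          + |Pr K (tl x) (tl z) / N - 1 / (Fintype.card (Fin (q + 1) ↪ (Fin D → Bool)) : ℝ)| :=
      fun z => abs_sub_le _ _ _
    refine (Finset.sum_le_sum (fun z _ => h2 z)).trans ?_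
    rw [Finset.sum_add_distrib, add_comm]
    apply add_le_add
    · have h3 := sum_tl (fun w : Fin q ↪ (Fin D → Bool) =>
        |Pr K (tl x) w / N - 1 / (Fintype.card (Fin (q + 1) ↪ (Fin D → Bool)) : ℝ)|)
      rw [h3, ← hN, Finset.mul_sum]
      apply le_of_eq
      apply Finset.sum_congr rfl
      intro w _
      rw [card_emb_succ, ← hN]
      have h4 : Pr K (tl x) w / N - 1 / (N * (Fintype.card (Fin q ↪ (Fin D → Bool)) : ℝ))
          = (Pr K (tl x) w - 1 / (Fintype.card (Fin q ↪ (Fin D → Bool)) : ℝ)) / N := by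
        rw [sub_div, div_div, mul_comm N]
      rw [h4, abs_div, abs_of_pos hq]
      field_simp
    · exact chain_step K x hq
  unfold Eq
  refine (av_mono h1).trans ?_
  rw [av_add, av_tl (fun w : Fin q ↪ (Fin D → Bool) =>
    ∑ z, |Pr K w z - 1 / (Fintype.card (Fin q ↪ (Fin D → Bool)) : ℝ)|) hq]

theorem Eq_zero (K : ℕ) : Eq D K 0 = 0 := by
  unfold Eq
  have : ∀ x : Fin 0 ↪ (Fin D → Bool),
      ∑ z, |Pr K x z - 1 / (Fintype.card (Fin 0 ↪ (Fin D → Bool)) : ℝ)| = 0 := by
    intro x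
    apply Finset.sum_eq_zero
    intro z _
    have h1 : Pr K x z = 1 := by
      unfold Pr
      have : (fun ρ : RK D K => if act (pmK D K ρ) x = z then (1 : ℝ) else 0) = fun _ => 1 := by
        funext ρ
        rw [if_pos]
        apply Function.Embedding.ext
        intro i
        exact i.elim0
      rw [this, av_const]
    have h2 : (Fintype.card (Fin 0 ↪ (Fin D → Bool)) : ℝ) = 1 := by
      rw [Fintype.card_embedding_eq]; simp
    rw [h1, h2]; simp
  simp_rw [this]
  unfold av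
  simp

theorem av_act' {q : ℕ} (g : Equiv.Perm (Fin D → Bool)) (F : (Fin q ↪ (Fin D → Bool)) → ℝ) :
    av (fun x : Fin q ↪ (Fin D → Bool) => F (act g x)) = av F := by
  let e : (Fin q ↪ (Fin D → Bool)) ≃ (Fin q ↪ (Fin D → Bool)) :=
    { toFun := fun x => act g x
      invFun := fun x => act g.symm x
      left_inv := fun x => by
        apply Function.Embedding.ext; intro i; simp [act]
      right_inv := fun x => by
        apply Function.Embedding.ext; intro i; simp [act] }
  exact av_equiv e F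

theorem huK_hid {q K : ℕ} (ρ : RK D K) (x : Fin q ↪ (Fin D → Bool)) :
    huK D K ρ (hid x) = hid (act (pmK D K ρ) x) := by
  funext z
  rw [huK_eq]
  rcases h : hid (act (pmK D K ρ) x) z with _ | _
  · rw [hid_eq_false] at h ⊢
    obtain ⟨i, hi⟩ := h
    exact ⟨i, by rw [← hi, act_apply, Equiv.symm_apply_apply]⟩
  · rw [hid_eq_true] at h ⊢
    rintro ⟨i, hi⟩
    apply h
    exact ⟨i, by rw [act_apply, hi, Equiv.apply_symm_apply]⟩

theorem av_dn_huK (r0 : ℕ) (k0 : ℝ) (q k : ℕ) :
    av (fun x : Fin q ↪ (Fin D → Bool) => av (fun ρ : RK D k => 1 - dn r0 k0 (huK D k ρ (hid x))))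
      = av (fun x : Fin q ↪ (Fin D → Bool) => 1 - dn r0 k0 (hid x)) := by
  rw [av_comm]
  have : ∀ ρ : RK D k, av (fun x : Fin q ↪ (Fin D → Bool) => 1 - dn r0 k0 (huK D k ρ (hid x)))
      = av (fun x : Fin q ↪ (Fin D → Bool) => 1 - dn r0 k0 (hid x)) := by
    intro ρ
    simp_rw [huK_hid]
    exact av_act' (pmK D k ρ) (fun x : Fin q ↪ (Fin D → Bool) => 1 - dn r0 k0 (hid x))
  simp_rw [this]
  exact av_const (α := RK D k) _

theorem av_GK (r0 : ℕ) (k0 : ℝ) (q : ℕ) : ∀ K : ℕ,
    av (fun x : Fin q ↪ (Fin D → Bool) => av (fun ρ : RK D K => 1 - GK r0 k0 D K ρ (hid x)))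
      ≤ (K + 1) * av (fun x : Fin q ↪ (Fin D → Bool) => 1 - dn r0 k0 (hid x))
  | 0 => by
      have h := av_dn_huK (D := D) r0 k0 q 0
      have e : (fun x : Fin q ↪ (Fin D → Bool) => av (fun ρ : RK D 0 => 1 - GK r0 k0 D 0 ρ (hid x)))
          = (fun x : Fin q ↪ (Fin D → Bool) => av (fun ρ : RK D 0 => 1 - dn r0 k0 (huK D 0 ρ (hid x)))) := rfl
      rw [e, h]
      simp
  | K + 1 => by
      have IH := av_GK r0 k0 q K
      have h := av_dn_huK (D := D) r0 k0 q (K + 1)
      have h1 : ∀ x : Fin q ↪ (Fin D → Bool), av (fun ρ : RK D (K + 1) => 1 - GK r0 k0 D (K + 1) ρ (hid x))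
          ≤ av (fun ρ : RK D K => 1 - GK r0 k0 D K ρ (hid x))
            + av (fun ρ : RK D (K + 1) => 1 - dn r0 k0 (huK D (K + 1) ρ (hid x))) := by
        intro x
        have h2 : av (fun ρ : RK D K => 1 - GK r0 k0 D K ρ (hid x))
            = av (fun ρ : RK D (K + 1) => 1 - GK r0 k0 D K ρ.1 (hid x)) := by
          rw [av_RK_succ]
          congr 1
          funext ρ
          exact (av_const (α := Om D) (1 - GK r0 k0 D K ρ (hid x))).symm
        rw [h2, ← av_add]
        apply av_mono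
        intro ρ
        exact one_sub_GK r0 k0 D K ρ.1 ρ.2 (hid x)
      refine (av_mono h1).trans ?_
      rw [av_add, h]
      push_cast
      linarith

theorem Eq_le (r0 : ℕ) (K : ℕ) : ∀ q : ℕ, (q : ℝ) ≤ 5 / 8 * (Fintype.card (Fin D → Bool) : ℝ) →
    Eq D (K + 1) q ≤ q * (Real.sqrt (2 ^ D * ((2 ^ r0 * ((41 / 25) / (41 / 25 - 1)) * ((41 / 25) / 2) ^ D) ^ K
        * (2 ^ r0 * ((41 / 25) / (2 - 41 / 25)))))
      + 2 * ((K + 1) * (2 * 2 ^ D * Real.exp (-(2 ^ r0 / 12500)))))
  | 0, _ => by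
      rw [Eq_zero]; simp
  | q + 1, hq => by
      push_cast at hq
      have hcard : (0 : ℝ) < (Fintype.card (Fin D → Bool) : ℝ) := by
        exact_mod_cast Fintype.card_pos
      have hq0 : (q : ℝ) ≤ 5 / 8 * (Fintype.card (Fin D → Bool) : ℝ) := by linarith
      have hN : (0 : ℝ) < (Fintype.card (Fin D → Bool) : ℝ) - q := by linarith
      have IH := Eq_le r0 K q hq0
      set S : ℝ := Real.sqrt (2 ^ D * ((2 ^ r0 * ((41 / 25) / (41 / 25 - 1)) * ((41 / 25) / 2) ^ D) ^ K
        * (2 ^ r0 * ((41 / 25) / (2 - 41 / 25))))) with hS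
      have h1 := Eq_succ (D := D) (K + 1) q hN
      have h2 : ∀ x : Fin (q + 1) ↪ (Fin D → Bool),
          av (fun ρ : RK D (K + 1) => ∑ t, |hvK D (K + 1) ρ (hid (tl x)) (dev x) t|)
          ≤ S + 2 * av (fun ρ : RK D K => 1 - GK r0 (9 / 25) D K ρ (hid (tl x))) := by
        intro x
        exact l1_bound r0 (9 / 25) (41 / 25) (by norm_num) (by norm_num) (by norm_num) D K
          (hid (tl x)) (dev x) (dev_spt x) (dev_tot x hN) (dev_l1 x hN) (dev_l2 x hN)
      have h3 : av (fun x : Fin (q + 1) ↪ (Fin D → Bool) =>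
          av (fun ρ : RK D (K + 1) => ∑ t, |hvK D (K + 1) ρ (hid (tl x)) (dev x) t|))
          ≤ S + 2 * ((K + 1) * (2 * 2 ^ D * Real.exp (-(2 ^ r0 / 12500)))) := by
        refine (av_mono h2).trans ?_
        rw [av_add, av_mul_left]
        have hS0 : 0 ≤ S := Real.sqrt_nonneg _
        have h4 : av (fun _ : Fin (q + 1) ↪ (Fin D → Bool) => S) ≤ S := by
          unfold av
          rw [Finset.sum_const, nsmul_eq_mul, Finset.card_univ]
          by_cases h0 : (Fintype.card (Fin (q + 1) ↪ (Fin D → Bool)) : ℝ) = 0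
          · rw [h0]; simpa using hS0
          · rw [mul_div_assoc, mul_div_assoc', mul_comm, mul_div_assoc, div_self h0, mul_one]
        have h5 := av_tl (fun w : Fin q ↪ (Fin D → Bool) =>
          av (fun ρ : RK D K => 1 - GK r0 (9 / 25) D K ρ (hid w))) hN
        rw [h5]
        have h6 := av_GK (D := D) r0 (9 / 25) q K
        have h7 : av (fun x : Fin q ↪ (Fin D → Bool) => 1 - dn r0 (9 / 25) (hid x))
            ≤ 2 * 2 ^ D * Real.exp (-(2 ^ r0 / 12500)) := by
          have h8 : av (fun x : Fin q ↪ (Fin D → Bool) => 1 - dn r0 (9 / 25) (hid x))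
              ≤ av (fun x : Fin q ↪ (Fin D → Bool) => bc r0 (9 / 25) D (hid x)) :=
            av_mono (fun x => one_sub_dn_le r0 (9 / 25) D (hid x))
          have h9 := av_bc_le (Ω := Fin D → Bool) r0 q Fintype.card_pos hq0 D (fun y => y)
            Function.injective_id
          have h10 : (2 * 2 ^ D - 2) * Real.exp (-(2 ^ r0 / 12500))
              ≤ 2 * 2 ^ D * Real.exp (-(2 ^ r0 / 12500)) :=
            mul_le_mul_of_nonneg_right (by linarith) (Real.exp_pos _).le
          exact h8.trans (h9.trans h10)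
        have h11 : ((K : ℝ) + 1) * av (fun x : Fin q ↪ (Fin D → Bool) => 1 - dn r0 (9 / 25) (hid x))
            ≤ (K + 1) * (2 * 2 ^ D * Real.exp (-(2 ^ r0 / 12500))) :=
          mul_le_mul_of_nonneg_left h7 (by positivity)
        linarith
      push_cast
      linarith

end Crest.Agent.ThS
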